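import Crest.Agent.R4P.ParF_5
import Crest.Agent.R4P.SkelF_29
import Crest.Agent.R4P.NMPart_10
import Crest.Agent.R4P.OSCtx_14
import Crest.Agent.R4P.StopCtx_9
import Crest.Agent.R4P.TagOk_4
import Crest.Agent.R4P.PruneAcc2_17

/-!
R4 (S0004), POWERS (helper5): **MAIN from the three open parts** (`dseR`, `eSHR`, `eX`) for the
concrete parameters of `ParF_5`; the other parts (`rseR`, `eNM`, `eOS`, `eSTOP`, leaves) are plugged in.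

* `NumOK.facts` : hypotheses of the closed parts.
* `MAIN_of_three`, `S0004_of_three`.
-/

set_option autoImplicit false

open MeasureTheory Filter

namespace Crest.Agent.R4P.Fin5

open Crest.Agent.R4.Tour104 Crest.Agent.R4.Tour758 Crest.Agent.R4.Avg758 Crest.Agent.R4.Clos758
open Crest.Agent.R4.ClosL758 Crest.Agent.R4.ClosG758 Crest.Agent.R4.ClosR758
open Crest.Agent.R4.Fam464 Crest.Agent.R4P.Cnt588 Crest.Agent.R4P.Walk560 Crest.Agent.R4P.Item758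
open Crest.Agent.R4.Soft104 Crest.Agent.R4.Max709 Crest.Agent.R4P.Bld532
open Crest.Agent.R4P.Data758 Crest.Agent.R4P.SkelF29 Crest.Agent.R4P.Strip29
open Crest.Agent.R4P.Skel189 Crest.Agent.R4P.NMCtx927 Crest.Agent.R4P.RseNd23
open Crest.Agent.R4P.OSWS245 Crest.Agent.R4P.ParF5
open Crest.Agent.R4.Fin532 (MAIN)
open Crest.Agent.R4P.Step588 (TagOk)
open Crest.Agent.R4P.GFinC927 (nn two_nn)
open Crest.Agent.R4P

variable {N : Skel189.Num} {th : ℕ → (ℕ → ℝ) → Finset ℕ → ℕ → ℝ} {Ct C₀ : ℝ} {Sx : ℕ → (ℕ → ℝ) → Finset ℕ → Finset ℕ}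

/-- what the closed parts need -/
structure CF {γ : ℝ} {p0 P₀ : ℕ} (X : Ctx N γ p0 P₀) : Prop where
  wnm : WNM X
  rse : RseH X
  tag : TagOk X
  d1 : X.c.d1 * Kc X.S ≤ 1
  dep : ∀ p, p0 ≤ p → (2 : ℝ) ^ X.c.wp.dep p ≤ p

theorem NumOK.facts (h : NumOK N th Ct C₀ Sx) : ∃ p₁ : ℕ, ∀ p0 ≥ p₁, ∀ (γ : ℝ) (P₀ : ℕ),
    ∀ X : Ctx N γ p0 P₀, CF X := by
  obtain ⟨p1, h1⟩ := depF_le
  obtain ⟨p2, h2⟩ := log_ge_rpow Ct (c := 1 / 2) (by norm_num)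
  obtain ⟨p3, h3⟩ := log_ge_rpow Ct (c := 1 / 5) (by norm_num)
  obtain ⟨p4, h4⟩ := h.thlo
  refine ⟨p1 + p2 + p3 + p4 + 3 + 2 ^ 40, fun p0 hp0 γ P₀ X => ?_⟩
  have ed : ∀ p, X.c.wp.dep p = depF p := fun p => by rw [X.dep, h.dep]
  have et : ∀ p, X.c.wp.thr p = th p0 X.ψ X.S p := fun p => by rw [X.thr, h.thr]
  have h4' : ∀ p, p0 ≤ p → Real.log p ^ (-Ct) ≤ th p0 X.ψ X.S p := h4 p0 (by omega) _ _
  have el : ∀ p, X.c.lam p = 0 := fun p => by rw [X.lam, h.lam]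
  refine ⟨⟨fun p hp => ?_, fun p hp => ?_, fun l q _ => Link758.not_Ac_zero (el l)⟩, ?_,
    TagOk4.TagN.tagOk h.tag X, ?_, fun p hp => ?_⟩
  · rw [ed, Crest.Agent.R4.GDef864.rt_eq (Real.log_natCast_nonneg p)]
    exact (h1 p (by omega)).1
  · rw [et]
    have h4 := two_nn (p := p) (by omega)
    have h5 := (h3 p (by omega)).trans (h4' p hp)
    have h6 : (0 : ℝ) < 1 / 2 ^ nn p := by positivity
    have e : (-(1 / 5) : ℝ) = -(1 / 5 : ℝ) := rfl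
    linarith
  · refine RseH.of h.tag X (fun p _ => by rw [h.lam]) (fun p hp _ => ?_) (fun p hp => ?_)
    · rw [h.dep]
      exact depF_ge (by omega)
    · rw [h.thr]
      exact (h2 p (by omega)).trans (h4' p hp.le)
  · rw [X.d1, h.d1]
    have : (0 : ℝ) < Kc X.S := by
      have h7 := N.hd1 p0 X.ψ X.S
      rw [h.d1] at h7
      exact (one_div_pos.1 h7)
    show 1 / (Kc X.S : ℝ) * Kc X.S ≤ 1
    rw [one_div, inv_mul_cancel₀ this.ne']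
  · rw [ed]
    exact (h1 p (by omega)).2

/-- **MAIN from the three open parts.**  `σ` = strategy (the stop rule is `stpN`); `B` = constant of the
product terms (any function of `p0` which is `≥ B₀`); the parts may use the bootstrap hypothesis with
the constant `Kb = 16 (K (log p0) ^ c2 + C₀ + η + B + 1)`, `K` arbitrary. -/
theorem MAIN_of_three {γ : ℝ} (h : NumOK N th Ct C₀ Sx)
    (σ : ∀ {p0 P₀ : ℕ} (X : Ctx N γ p0 P₀), X.c.Lam → X.STP)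
    (hσb : Ev N γ fun _ _ X => ∀ j₀, Blind (σ X j₀) ∧ NoSplit (σ X j₀))
    (hσs : Ev N γ fun _ _ X => ∀ j₀, ∀ s : X.Sta, (σ X j₀) s ↔ stpN s)
    (hσj : Ev N γ fun _ _ X => ∀ j₀, ∀ (d : DT X.c.Lam (Lb (WL X.c.Lam) X.Y)) (A : Finset X.c.Lam),
      (σ X j₀).jt (selfSt d A))
    (H : ∀ B₀ : ℝ, ∃ B a₁ a₅ a₆ : ℕ → ℝ, (∀ p, B₀ ≤ B p) ∧ (∀ p, 0 ≤ B p) ∧ (∀ p, 0 ≤ a₁ p) ∧
      (∀ p, 0 ≤ a₅ p) ∧ (∀ p, 0 ≤ a₆ p) ∧
      ∀ K : ℝ, 0 ≤ K → ∀ Kb : ℕ → ℝ,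
        Kb = Kbt N K C₀ (fun p => a₁ p + 1 + 8 + 20 + a₅ p + a₆ p + 1) B →
        Ev N γ fun p0 _ X => CF X → ∀ j₀ : X.c.Lam,
        PartF X j₀ (BootF X j₀ (fun _ _ => 0) (Kb p0)) (fun u τ A => dseR A (X.g u τ)) (a₁ p0) ∧
        PartWF X j₀ (BootF X j₀ (fun _ _ => 0) (Kb p0)) (σ X j₀) (eSHR (σ X j₀)) (a₅ p0) ∧
        PartWF X j₀ (BootF X j₀ (fun _ _ => 0) (Kb p0)) (σ X j₀) (eX (σ X j₀) (X.tm j₀) (B p0))
          (a₆ p0)) :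
    MAIN γ := by
  obtain ⟨B₀, p7, h7⟩ := StopCtx9.part_eSTOP N
  obtain ⟨p2, h2⟩ := part_rse N (κ := 1) one_pos
  obtain ⟨p3, h3⟩ := NMPart10.part_eNM N (κ := 1) one_pos
  obtain ⟨p4, h4⟩ := OSCtxF710.part_eOS N
  obtain ⟨p1, h1⟩ := NumOK.facts h
  obtain ⟨B, a₁, a₅, a₆, hB₀, hB, ha₁, ha₅, ha₆, H⟩ := H B₀
  refine MAIN_of_sevenF N h.hS2 (C₀ := C₀) (by have := h.C₀1; linarith) h.leaf σ hσb ?_ hσj
    (B := B) (a₁ := a₁) (a₂ := fun _ => 1) (a₃ := fun _ => 8) (a₄ := fun _ => 20) (a₅ := a₅)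
    (a₆ := a₆) (a₇ := fun _ => 1) hB ha₁ (fun _ => by norm_num) (fun _ => by norm_num)
    (fun _ => by norm_num) ha₅ ha₆ (fun _ => by norm_num) ?_
  · refine hσs.mono fun p0 P₀ X hh j₀ s hO hO' hs => ?_
    exact stpN_root s hO hO' ((hh j₀ s).1 hs)
  · intro K hK Kb hKb
    have hcl : Ev N γ fun _ _ X => CF X ∧ ∀ j₀ : X.c.Lam,
        (∀ Hb : NS → IT → Prop, Part X j₀ Hb (fun u τ A => rseR A (X.g u τ)) 1) ∧
        (∀ (Hb : NS → IT → Prop) (stp : X.STP), (∀ s : X.Sta, ¬ stp s → ¬ stpN s) →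
          PartW X j₀ Hb stp (eNM stp) (4 * (1 + 1))) ∧
        (∀ (Hb : NS → IT → Prop) (stp : X.STP), (∀ s : X.Sta, ¬ stp s → ¬ stpN s) →
          PartW X j₀ Hb stp (eOS stp) 20) ∧
        (∀ (Hb : NS → IT → Prop) (stp : X.STP), (∀ s, stp s → stpN s) →
          (∀ s : X.Sta, ¬ stp s → ¬ stpN s) → ∀ (B η : ℝ), B₀ ≤ B → 0 ≤ η →
          PartW X j₀ Hb stp (eSTOP stp (X.tm j₀) (X.tn j₀) B) η) := by
      refine Ev.of (p₁ := p1 + p2 + p3 + p4 + p7) fun p0 hp0 P₀ hP X => ?_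
      have hC := h1 p0 (by omega) γ P₀ X
      exact ⟨hC, fun j₀ => ⟨fun Hb => h2 p0 (by omega) γ P₀ hP X hC.rse j₀ Hb,
        fun Hb stp hst => h3 p0 (by omega) γ P₀ hP X hC.wnm j₀ Hb stp hst,
        fun Hb stp hst => h4 p0 (by omega) γ P₀ hP X hC.wnm j₀ Hb stp hst,
        fun Hb stp hstp hst B η hB hη => h7 p0 (by omega) γ P₀ hP X hC.tag hC.d1 hC.dep hC.wnm j₀
          Hb stp hstp hst B η hB hη⟩⟩
    refine ((hcl.and hσs).and (H K hK Kb (by rw [hKb]))).mono ?_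
    rintro p0 P₀ X ⟨⟨⟨hC, hc⟩, hs⟩, hX⟩ j₀
    obtain ⟨c2, c3, c4, c7⟩ := hc j₀
    obtain ⟨x1, x5, x6⟩ := hX hC j₀
    have hs1 : ∀ s, σ X j₀ s → stpN s := fun s => (hs j₀ s).1
    have hs2 : ∀ s : X.Sta, ¬ σ X j₀ s → ¬ stpN s := fun s hn hh => hn ((hs j₀ s).2 hh)
    refine ⟨x1, (c2 _).toF, ?_, (c4 _ _ hs2).toF, x5, x6, (c7 _ _ hs1 hs2 _ _ (hB₀ p0) zero_le_one).toF⟩
    have := c3 (BootF X j₀ (fun _ _ => 0) (Kb p0)) (σ X j₀) hs2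
    have e : (4 * (1 + 1) : ℝ) = 8 := by norm_num
    rw [e] at this
    exact this.toF

/-- **S0004 from `MAIN` for every `γ`** -/
theorem S0004_of (H : ∀ γ : ℝ, MAIN γ) (γ : ℝ) (ψ : ℕ → ℝ)
    (hψ : ∀ q, 0 ≤ ψ q) (hdiv : ¬ Summable fun q : ℕ => (Nat.totient q : ℝ) / q * ψ q) :
    ∀ᵐ x : ℝ, ∃ᶠ q : ℕ in atTop, |(q : ℝ) * x - γ - round ((q : ℝ) * x - γ)| < ψ q :=
  Crest.Agent.R4.Fin532.S0004_of_MAIN H γ ψ hψ hdiv

end Crest.Agent.R4P.Fin5
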