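import Crest.Agent.R4P.IxRange_34
import Crest.Agent.R4P.Fin_5

/-!
R4 (S0004) with powers, module X, helper34: **the ranges of `ParF_5` in a context** (`NumOK`).

* `RgTh th p0` : the thinness is constant on the ranges `ParF5.rg`.
* `NumOK.rgOk` : `RgOk X.c.wp X.c.lam ParF5.rg`; `NumOK.ix` : `ShrW34.IX`.
* `NumOK.lam0`, `NumOK.hdep`, `NumOK.etaL_le_one`, `NumOK.thr_ge`.
-/

set_option autoImplicit false

namespace Crest.Agent.R4P.NumX34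

open Crest.Agent.R4P.Skel189 Crest.Agent.R4P.ParF5 Crest.Agent.R4P.IxRange34
open Crest.Agent.R4P.ShrW34 Crest.Agent.R4P.Data758
open Crest.Agent.R4P.LfDat734 (etaL etaL_pos)

lemma rg_monotone : Monotone ParF5.rg := by
  intro a b h
  rcases Nat.eq_zero_or_pos a with rfl | ha
  · have : ParF5.rg 0 = 0 := by
      unfold ParF5.rg
      simp
    rw [this]
    exact Nat.zero_le _
  · exact rg_mono ha h

/-- the thinness is constant on the ranges -/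
def RgTh (th : ℕ → (ℕ → ℝ) → Finset ℕ → ℕ → ℝ) (p0 : ℕ) : Prop :=
  ∀ (ψ : ℕ → ℝ) (S : Finset ℕ) (p q : ℕ), ParF5.rg p = ParF5.rg q → th p0 ψ S p = th p0 ψ S q

variable {N : Skel189.Num} {th : ℕ → (ℕ → ℝ) → Finset ℕ → ℕ → ℝ} {Ct C₀ : ℝ} {Sx : ℕ → (ℕ → ℝ) → Finset ℕ → Finset ℕ}
  {γ : ℝ} {p0 P₀ : ℕ}

/-- **the ranges of a context** -/
theorem rgOk (h : NumOK N th Ct C₀ Sx) (hth : RgTh th p0) (X : Ctx N γ p0 P₀) :
    RgOk X.c.wp X.c.lam ParF5.rg where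
  mono := rg_monotone
  thr := by
    intro p₂ p _ hr
    rw [X.thr, h.thr]
    exact hth _ _ _ _ hr
  dep := by
    intro p₂ p _ hr
    rw [X.dep, h.dep]
    exact depF_congr hr
  lam := by
    intro p₂ p _ _
    rw [X.lam, h.lam]

/-- **`ShrW34.IX` of a context**, ranges `ParF5.rg` -/
theorem ix (h : NumOK N th Ct C₀ Sx) (hth : RgTh th p0) (X : Ctx N γ p0 P₀)
    (Y : Finset (ℕ × ℕ × Finset ℕ)) : IX (X.c.D.par Y) X.c.t.mt ParF5.rg :=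
  IX_cf (rgOk h hth X) Y

theorem lam0 (h : NumOK N th Ct C₀ Sx) (X : Ctx N γ p0 P₀) (p : ℕ) : X.c.lam p = 0 := by
  rw [X.lam, h.lam]

theorem dep_eq (h : NumOK N th Ct C₀ Sx) (X : Ctx N γ p0 P₀) (p : ℕ) :
    X.c.wp.dep p = depF p := by
  rw [X.dep, h.dep]

theorem hdep (h : NumOK N th Ct C₀ Sx) (X : Ctx N γ p0 P₀) (h3 : 3 ≤ p0) {p : ℕ} (hp : p0 ≤ p) :
    2 * Real.exp (Real.log p ^ (4 / 5 : ℝ)) ≤ 2 ^ X.c.wp.dep p := by
  rw [dep_eq h X]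
  exact depF_ge (by omega)

theorem thr_eq (h : NumOK N th Ct C₀ Sx) (X : Ctx N γ p0 P₀) (p : ℕ) :
    X.c.wp.thr p = th p0 X.ψ X.S p := by
  rw [X.thr, h.thr]

/-- thinness at the columns -/
theorem thr_ge (h : NumOK N th Ct C₀ Sx) : ∃ p₁ : ℕ, ∀ p0 ≥ p₁, ∀ (γ : ℝ) (P₀ : ℕ)
    (X : Ctx N γ p0 P₀), ∀ p ≥ p0, Real.log p ^ (-Ct) ≤ X.c.wp.thr p := by
  obtain ⟨p₁, h1⟩ := h.thlo
  refine ⟨p₁, fun p0 hp0 γ P₀ X p hp => ?_⟩
  rw [thr_eq h X]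
  exact h1 p0 hp0 _ _ p hp

lemma depF_pos (p : ℕ) : 1 ≤ depF p := by
  unfold depF
  refine Nat.one_le_iff_ne_zero.2 (Nat.ceil_pos.2 ?_).ne'
  have h2 : 0 < Real.log 2 := Real.log_pos (by norm_num)
  positivity

theorem etaL_le_one (h : NumOK N th Ct C₀ Sx) (X : Ctx N γ p0 P₀) (p : ℕ) :
    etaL X.c.wp p ≤ 1 := by
  unfold etaL
  rw [dep_eq h X, div_le_one (by positivity)]
  calc (2 : ℝ) = 2 ^ 1 := (pow_one 2).symm
    _ ≤ 2 ^ depF p := pow_le_pow_right₀ (by norm_num) (depF_pos p)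

theorem etaL_le_exp (h : NumOK N th Ct C₀ Sx) (X : Ctx N γ p0 P₀) (h3 : 3 ≤ p0) {p : ℕ}
    (hp : p0 ≤ p) : etaL X.c.wp p ≤ Real.exp (-(Real.log p ^ (4 / 5 : ℝ))) := by
  have h1 := hdep h X h3 hp
  unfold etaL
  rw [div_le_iff₀ (by positivity), Real.exp_neg, inv_mul_eq_div, le_div_iff₀ (Real.exp_pos _)]
  exact h1

end Crest.Agent.R4P.NumX34
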