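import Crest.Agent.R4P.ThrG_21

/-!
R4 (S0004), powers, helper21: **bounds of the thinness on the grid** (`ThrG_21`).

* `thrG_pos`, `thrG_congr`, `thrG_anti`, `thrF_le_thrG`, `thrG_le_exp`;
* `thrG_ge_log` : `(log p) ^ (-Ct) ≤ thrG Ct a p`; `thrG_le_log` : `thrG Ct a p ≤ (log p) ^ (-(Ct - δ))`;
* `thrG_small` : `thrG Ct a p ≤ ε`; `thrG_pred` : `thrG Ct a (p - 1) ≤ thrN Ct a p`;
* `aF_nn`, `aF_lt`, `aF_mass`.
-/

set_option autoImplicit false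

namespace Crest.Agent.R4P.ThrG21

open Filter
open Crest.Agent.R4P.Cnt588 Crest.Agent.R4P.Bld532 Crest.Agent.R4.Max709 Crest.Agent.R4.Soft104
open Crest.Agent.R4P.Skel189 Crest.Agent.R4P.ParF5

variable {Ct a : ℝ} {p q : ℕ}

lemma uG_nn (hCt : 0 ≤ Ct) (p : ℕ) : 0 ≤ uG Ct p := by
  unfold uG
  have := Real.log_two_gt_d9
  positivity

lemma uG_congr (h : rg p = rg q) : uG Ct p = uG Ct q := by unfold uG; rw [h]

lemma uG_mono (hCt : 0 ≤ Ct) (hp : 0 < p) (h : p ≤ q) : uG Ct p ≤ uG Ct q := by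
  unfold uG
  have h1 : ((rg p : ℕ) : ℝ) ≤ rg q := by exact_mod_cast rg_mono hp h
  have := Real.log_two_gt_d9
  gcongr

lemma thrF_eq (Ct : ℝ) (p : ℕ) : thrF Ct p = Real.exp (-uG Ct p) := by
  unfold thrF uG
  rw [Real.rpow_def_of_pos (by positivity), Real.log_pow]
  congr 1; ring

lemma iG_congr (h : rg p = rg q) : iG Ct a p = iG Ct a q := by
  unfold iG; rw [uG_congr h]

lemma iG_mono (hCt : 0 ≤ Ct) (hp : 0 < p) (h : p ≤ q) : iG Ct a p ≤ iG Ct a q := by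
  unfold iG
  exact Nat.floor_le_floor (by linarith [Real.sqrt_le_sqrt (uG_mono hCt hp h)])

lemma iG_le (h : a ≤ Real.sqrt (uG Ct p)) : (iG Ct a p : ℝ) + a ≤ Real.sqrt (uG Ct p) := by
  have := Nat.floor_le (sub_nonneg.2 h)
  unfold iG
  linarith

lemma lt_iG (Ct a : ℝ) (p : ℕ) : Real.sqrt (uG Ct p) < (iG Ct a p : ℝ) + a + 1 := by
  have := Nat.lt_floor_add_one (Real.sqrt (uG Ct p) - a)
  unfold iG
  linarith

lemma thrG_pos (Ct a : ℝ) (p : ℕ) : 0 < thrG Ct a p := Real.exp_pos _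

lemma thrG_le_one (Ct a : ℝ) (p : ℕ) : thrG Ct a p ≤ 1 := by
  unfold thrG
  rw [Real.exp_le_one_iff]
  nlinarith [sq_nonneg ((iG Ct a p : ℝ) + a)]

lemma thrG_congr (h : rg p = rg q) : thrG Ct a p = thrG Ct a q := by
  unfold thrG; rw [iG_congr h]

lemma thrG_anti (hCt : 0 ≤ Ct) (ha : 0 ≤ a) (hp : 0 < p) (h : p ≤ q) :
    thrG Ct a q ≤ thrG Ct a p := by
  unfold thrG
  have h1 : (iG Ct a p : ℝ) ≤ iG Ct a q := by exact_mod_cast iG_mono hCt hp h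
  have h0 : (0 : ℝ) ≤ iG Ct a p := Nat.cast_nonneg _
  rw [Real.exp_le_exp]
  nlinarith

lemma thrF_le_thrG (ha : 0 ≤ a) (hCt : 0 ≤ Ct) (h : a ≤ Real.sqrt (uG Ct p)) :
    thrF Ct p ≤ thrG Ct a p := by
  rw [thrF_eq, thrG, Real.exp_le_exp]
  have h1 := iG_le h
  have h0 : (0 : ℝ) ≤ iG Ct a p := Nat.cast_nonneg _
  have h2 := Real.sq_sqrt (uG_nn hCt p)
  nlinarith [Real.sqrt_nonneg (uG Ct p)]

/-- upper bound on the grid -/
lemma thrG_le_exp (hCt : 0 ≤ Ct) (h : 1 ≤ Real.sqrt (uG Ct p)) :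
    thrG Ct a p ≤ Real.exp (-(uG Ct p - 2 * Real.sqrt (uG Ct p) + 1)) := by
  rw [thrG, Real.exp_le_exp]
  have h1 := lt_iG Ct a p
  have h2 := Real.sq_sqrt (uG_nn hCt p)
  nlinarith

lemma tendsto_rg : Tendsto (fun p : ℕ => (rg p : ℝ)) atTop atTop := by
  have h1 : Tendsto (fun p : ℕ => ⌊Real.log (p : ℝ)⌋₊) atTop atTop :=
    tendsto_nat_floor_atTop.comp (Real.tendsto_log_atTop.comp tendsto_natCast_atTop_atTop)
  have h2 : Tendsto (fun n : ℕ => Nat.log 2 n) atTop atTop := by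
    refine tendsto_atTop.2 fun b => ?_
    refine eventually_atTop.2 ⟨2 ^ b, fun n hn => ?_⟩
    exact (Nat.le_log_iff_pow_le (by norm_num) (by
      have : 0 < 2 ^ b := by positivity
      omega)).2 hn
  exact tendsto_natCast_atTop_atTop.comp (h2.comp h1)

lemma tendsto_uG (hCt : 0 < Ct) : Tendsto (fun p : ℕ => uG Ct p) atTop atTop := by
  have h : 0 < Ct * Real.log 2 := by
    have := Real.log_two_gt_d9
    positivity
  exact tendsto_rg.const_mul_atTop h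

lemma tendsto_sqrt_uG (hCt : 0 < Ct) : Tendsto (fun p : ℕ => Real.sqrt (uG Ct p)) atTop atTop :=
  Real.tendsto_sqrt_atTop.comp (tendsto_uG hCt)

/-- **lower bound** -/
theorem thrG_ge_log (hCt : 0 < Ct) : ∃ p₁ : ℕ, ∀ a : ℝ, 0 ≤ a → a < 1 → ∀ p ≥ p₁,
    Real.log p ^ (-Ct) ≤ thrG Ct a p := by
  obtain ⟨b, hb⟩ := eventually_atTop.1 ((tendsto_sqrt_uG hCt).eventually_ge_atTop 1)
  refine ⟨b + 3, fun a ha ha1 p hp => ?_⟩
  have h1 := hb p (by omega)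
  exact (thrF_ge hCt.le (by omega)).trans (thrF_le_thrG ha hCt.le (by linarith))

/-- **upper bound** -/
theorem thrG_le_log (hCt : 0 < Ct) {δ : ℝ} (hδ : 0 < δ) : ∃ p₁ : ℕ, ∀ a : ℝ, ∀ p ≥ p₁,
    thrG Ct a p ≤ Real.log p ^ (-(Ct - δ)) := by
  have hl2 : 0 < Real.log 2 := Real.log_pos (by norm_num)
  -- `2 √u + Ct log 2 ≤ (δ / Ct) u`
  have e1 : ∀ᶠ x : ℝ in atTop, 2 * x + Ct * Real.log 2 ≤ δ / Ct * x ^ 2 := by
    have hd : 0 < δ / Ct := by positivity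
    filter_upwards [eventually_ge_atTop ((2 + Ct * Real.log 2) / (δ / Ct)),
      eventually_ge_atTop (1 : ℝ)] with x h1 h2
    rw [div_le_iff₀ hd] at h1
    have h3 : 0 < Ct * Real.log 2 := by positivity
    nlinarith
  obtain ⟨b, hb⟩ := eventually_atTop.1 (((tendsto_sqrt_uG hCt).eventually e1).and
    ((tendsto_sqrt_uG hCt).eventually_ge_atTop 1))
  refine ⟨b + 3, fun a p hp => ?_⟩
  obtain ⟨h1, h2⟩ := hb p (by omega)
  have hp3 : 3 ≤ p := by omega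
  have hl : 1 < Real.log p := one_lt_log hp3
  have hl0 : 0 < Real.log p := by linarith
  refine (thrG_le_exp hCt.le h2).trans ?_
  rw [Real.rpow_def_of_pos hl0, Real.exp_le_exp]
  have h3 := Real.sq_sqrt (uG_nn hCt.le p)
  rw [h3] at h1
  -- `rg p log 2 ≤ log log p ≤ (rg p + 1) log 2`
  have h4 : (rg p : ℝ) * Real.log 2 ≤ Real.log (Real.log p) := by
    have := Real.log_le_log (by positivity) (rg_le hp3)
    rwa [Real.log_pow] at this
  have h5 : Real.log (Real.log p) ≤ ((rg p : ℝ) + 1) * Real.log 2 := by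
    have := Real.log_le_log hl0 (lt_rg (p := p)).le
    rw [Real.log_pow] at this
    push_cast at this
    exact this
  have h6 : δ / Ct * uG Ct p = δ * Real.log 2 * rg p := by
    unfold uG; field_simp
  have h7 : 0 ≤ Real.log (Real.log p) := Real.log_nonneg hl.le
  rw [h6] at h1
  have h8 : uG Ct p = Ct * Real.log 2 * rg p := rfl
  rw [h8] at h1 ⊢
  set s := Real.sqrt (Ct * Real.log 2 * rg p) with hs
  rcases le_total (Ct - δ) 0 with h10 | h10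
  · have h11 : 0 ≤ (Real.log (Real.log p) - rg p * Real.log 2) * (-(Ct - δ)) :=
      mul_nonneg (by linarith) (by linarith)
    nlinarith
  · have h11 : Real.log (Real.log p) * (Ct - δ) ≤ ((rg p : ℝ) + 1) * Real.log 2 * (Ct - δ) :=
      mul_le_mul_of_nonneg_right h5 h10
    nlinarith

/-- the thinness is small -/
theorem thrG_small (hCt : 0 < Ct) {ε : ℝ} (hε : 0 < ε) : ∃ p₁ : ℕ, ∀ a : ℝ, ∀ p ≥ p₁,
    thrG Ct a p ≤ ε := by
  have e1 : ∀ᶠ x : ℝ in atTop, Real.exp (-(x - 1) ^ 2) ≤ ε := by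
    filter_upwards [eventually_ge_atTop (2 + |Real.log ε|)] with x hx
    have h0 : 0 ≤ |Real.log ε| := abs_nonneg _
    rw [← Real.exp_log hε, Real.exp_le_exp]
    have := neg_abs_le (Real.log ε)
    nlinarith
  obtain ⟨b, hb⟩ := eventually_atTop.1 (((tendsto_sqrt_uG hCt).eventually e1).and
    ((tendsto_sqrt_uG hCt).eventually_ge_atTop 1))
  refine ⟨b, fun a p hp => ?_⟩
  obtain ⟨h1, h2⟩ := hb p hp
  refine (thrG_le_exp hCt.le h2).trans (le_trans (le_of_eq ?_) h1)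
  congr 1
  have h3 := Real.sq_sqrt (uG_nn hCt.le p)
  nlinarith

lemma rg_pred {p : ℕ} (hp : 4 ≤ p) : rg p ≤ rg (p - 1) + 1 := by
  have h3 : 3 ≤ p - 1 := by omega
  have hl := one_lt_log h3
  have hc : ((p - 1 : ℕ) : ℝ) = (p : ℝ) - 1 := by
    rw [Nat.cast_sub (by omega)]; norm_num
  have h1 : Real.log p ≤ Real.log ((p - 1 : ℕ) : ℝ) + 1 := by
    have hp0 : (0 : ℝ) < ((p - 1 : ℕ) : ℝ) := by
      exact_mod_cast (by omega : 0 < p - 1)
    have h4 : (p : ℝ) ≤ ((p - 1 : ℕ) : ℝ) * Real.exp 1 := by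
      have h5 : (3 : ℝ) ≤ ((p - 1 : ℕ) : ℝ) := by exact_mod_cast h3
      have := Real.exp_one_gt_d9
      rw [hc] at h5 ⊢
      nlinarith
    have h6 := Real.log_le_log (by rw [hc] at hp0; linarith) h4
    rwa [Real.log_mul hp0.ne' (Real.exp_pos 1).ne', Real.log_exp] at h6
  have h2 : ⌊Real.log (p : ℝ)⌋₊ ≤ ⌊Real.log ((p - 1 : ℕ) : ℝ)⌋₊ + 1 := by
    rw [← Nat.floor_add_one (by linarith)]
    exact Nat.floor_le_floor h1
  have h4 : 1 ≤ ⌊Real.log ((p - 1 : ℕ) : ℝ)⌋₊ := Nat.le_floor (by push_cast; linarith)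
  unfold rg
  calc Nat.log 2 ⌊Real.log (p : ℝ)⌋₊ ≤ Nat.log 2 (⌊Real.log ((p - 1 : ℕ) : ℝ)⌋₊ * 2) :=
        Nat.log_mono_right (by omega)
    _ = Nat.log 2 ⌊Real.log ((p - 1 : ℕ) : ℝ)⌋₊ + 1 :=
        Nat.log_mul_base (by norm_num) (by omega)

/-- **one step of the grid at most** -/
theorem iG_pred (hCt : 0 < Ct) : ∃ p₁ : ℕ, ∀ a : ℝ, 0 ≤ a → a < 1 → ∀ p ≥ p₁,
    1 ≤ iG Ct a p ∧ iG Ct a p ≤ iG Ct a (p - 1) + 1 := by
  obtain ⟨b, hb⟩ := eventually_atTop.1 ((tendsto_sqrt_uG hCt).eventually_ge_atTop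
    (Ct * Real.log 2 + 2))
  refine ⟨b + 5, fun a ha ha1 p hp => ?_⟩
  have hl2 : 0 < Real.log 2 := Real.log_pos (by norm_num)
  have h1 := hb p (by omega)
  have h2 := hb (p - 1) (by omega)
  have h3 : 0 < Ct * Real.log 2 := by positivity
  have h4 : uG Ct p ≤ uG Ct (p - 1) + Ct * Real.log 2 := by
    have : ((rg p : ℕ) : ℝ) ≤ rg (p - 1) + 1 := by exact_mod_cast rg_pred (by omega)
    unfold uG
    nlinarith
  have h5 : Real.sqrt (uG Ct p) ≤ Real.sqrt (uG Ct (p - 1)) + 1 := by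
    rw [Real.sqrt_le_left (by linarith)]
    have h6 := Real.sq_sqrt (uG_nn hCt.le (p - 1))
    nlinarith
  constructor
  · unfold iG
    exact Nat.le_floor (by push_cast; linarith)
  · unfold iG
    rw [← Nat.floor_add_one (by linarith)]
    exact Nat.floor_le_floor (by linarith)

/-- **the thinness at the next column is at most the next value of the grid** -/
theorem thrG_pred (hCt : 0 < Ct) : ∃ p₁ : ℕ, ∀ a : ℝ, 0 ≤ a → a < 1 → ∀ p ≥ p₁,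
    thrG Ct a (p - 1) ≤ thrN Ct a p ∧ thrG Ct a p ≤ thrN Ct a p := by
  obtain ⟨b, hb⟩ := iG_pred hCt
  refine ⟨b, fun a ha ha1 p hp => ?_⟩
  obtain ⟨h1, h2⟩ := hb a ha ha1 p hp
  have h1' : (1 : ℝ) ≤ iG Ct a p := by exact_mod_cast h1
  have h2' : (iG Ct a p : ℝ) ≤ iG Ct a (p - 1) + 1 := by exact_mod_cast h2
  unfold thrG thrN
  constructor
  · rw [Real.exp_le_exp]
    nlinarith
  · rw [Real.exp_le_exp]
    nlinarith

lemma aF_spec (Ct : ℝ) (p0 : ℕ) (ψ : ℕ → ℝ) (S : Finset ℕ) :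
    0 ≤ aF Ct p0 ψ S ∧ aF Ct p0 ψ S < 1 := by
  unfold aF
  split_ifs with h
  · exact ⟨h.choose_spec.1, h.choose_spec.2.1⟩
  · exact ⟨le_rfl, one_pos⟩

lemma aF_nn (Ct : ℝ) (p0 : ℕ) (ψ : ℕ → ℝ) (S : Finset ℕ) : 0 ≤ aF Ct p0 ψ S :=
  (aF_spec Ct p0 ψ S).1

lemma aF_lt (Ct : ℝ) (p0 : ℕ) (ψ : ℕ → ℝ) (S : Finset ℕ) : aF Ct p0 ψ S < 1 :=
  (aF_spec Ct p0 ψ S).2

lemma aF_mass {Ct : ℝ} {p0 : ℕ} {ψ : ℕ → ℝ} {S : Finset ℕ} (h : ∃ a : ℝ, 0 ≤ a ∧ a < 1 ∧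
      (1 - 1 / 16) * Ws (w ψ) S ≤ Ws (w ψ) (SxG Ct a (trF Ct p0 ψ S) p0 ψ S)) :
    (1 - 1 / 16) * Ws (w ψ) S ≤
      Ws (w ψ) (SxG Ct (aF Ct p0 ψ S) (trF Ct p0 ψ S) p0 ψ S) := by
  have e : aF Ct p0 ψ S = h.choose := by
    unfold aF
    exact dif_pos h
  rw [e]
  exact h.choose_spec.2.2

end Crest.Agent.R4P.ThrG21
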