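import Crest.Agent.R4P.StB_21
import Crest.Agent.R4P.DseFin_21
import Crest.Agent.R4P.NumX_34
import Crest.Agent.R4P.ThrB_21

/-!
R4 (S0004), powers pass, [W-dseR], helper21: **the thinness of the main theorem**
`thF Ct p0 ψ S p = thrG Ct (aF Ct p0 ψ S) p` : values on the coarse grid `exp (-(i + a)²)`, the shift `a`
depends on the system (`ThrG_21`, `ThrB_21`).

* `thF_ok` : what `FinAll_26.S0004_num` asks for;
* `ctx_TH` : `StB21.TH X`; `ctx_RG` : `DseFin21.RG X`; `ctx_hi` : `thr p ≤ (log p) ^ (-(Ct - δ))`;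
* `ctx_lo` : `(log p) ^ (-Ct) ≤ thr p`; `ctx_small` : `thr p ≤ ε`.
-/

set_option autoImplicit false
set_option linter.unusedSectionVars false
set_option linter.unusedVariables false

open Filter

namespace Crest.Agent.R4P.ParT21

open Crest.Agent.R4P.Skel189 Crest.Agent.R4P.ParF5 Crest.Agent.R4P.NumX34
open Crest.Agent.R4P.Data758 Crest.Agent.R4P.StB21 Crest.Agent.R4P.DseFin21

open Crest.Agent.R4P.ThrG21

/-- **the thinness of the main theorem** -/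
noncomputable def thF (Ct : ℝ) (p0 : ℕ) (ψ : ℕ → ℝ) (S : Finset ℕ) (p : ℕ) : ℝ :=
  thrG Ct (aF Ct p0 ψ S) p

theorem thF_ok (Ct : ℝ) (hCt : 0 < Ct) :
    (∃ p₁ : ℕ, ∀ p0 ≥ p₁, ∀ (ψ : ℕ → ℝ) (S : Finset ℕ), ∀ p ≥ p0,
      Real.log p ^ (-Ct) ≤ thF Ct p0 ψ S p) ∧ ∀ p0 : ℕ, RgTh (thF Ct) p0 := by
  obtain ⟨p₁, h1⟩ := thrG_ge_log hCt
  exact ⟨⟨p₁, fun p0 h0 ψ S p hp => h1 _ (aF_nn _ _ _ _) (aF_lt _ _ _ _) p (h0.trans hp)⟩,
    fun p0 ψ S p q h => thrG_congr h⟩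

variable {N : Skel189.Num} {Ct C₀ : ℝ} {Sx : ℕ → (ℕ → ℝ) → Finset ℕ → Finset ℕ}

theorem thr_eqF (h : NumOK N (thF Ct) Ct C₀ Sx) {γ : ℝ} {p0 P₀ : ℕ} (X : Ctx N γ p0 P₀) (p : ℕ) :
    X.c.wp.thr p = thrG Ct (aF Ct p0 X.ψ X.S) p := NumX34.thr_eq h X p

/-- **upper bound of the thinness** -/
theorem ctx_hi (h : NumOK N (thF Ct) Ct C₀ Sx) (hCt : 0 < Ct) {δ : ℝ} (hδ : 0 < δ) :
    ∃ p₁ : ℕ, ∀ (γ : ℝ) (p0 P₀ : ℕ) (X : Ctx N γ p0 P₀), ∀ p ≥ p₁,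
      X.c.wp.thr p ≤ Real.log p ^ (-(Ct - δ)) := by
  obtain ⟨p₁, h1⟩ := thrG_le_log hCt hδ
  exact ⟨p₁, fun γ p0 P₀ X p hp => by rw [thr_eqF h X]; exact h1 _ p hp⟩

/-- the thinness is small -/
theorem ctx_small (h : NumOK N (thF Ct) Ct C₀ Sx) (hCt : 0 < Ct) {ε : ℝ} (hε : 0 < ε) :
    ∃ p₁ : ℕ, ∀ (γ : ℝ) (p0 P₀ : ℕ) (X : Ctx N γ p0 P₀), ∀ p ≥ p₁, X.c.wp.thr p ≤ ε := by
  obtain ⟨p₁, h1⟩ := thrG_small hCt hε
  exact ⟨p₁, fun γ p0 P₀ X p hp => by rw [thr_eqF h X]; exact h1 _ p hp⟩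

/-- **lower bound of the thinness** -/
theorem ctx_lo (h : NumOK N (thF Ct) Ct C₀ Sx) (hCt : 0 < Ct) :
    ∃ p₁ : ℕ, ∀ (γ : ℝ) (p0 P₀ : ℕ) (X : Ctx N γ p0 P₀), ∀ p ≥ p₁,
      Real.log p ^ (-Ct) ≤ X.c.wp.thr p := by
  obtain ⟨p₁, h1⟩ := thrG_ge_log hCt
  exact ⟨p₁, fun γ p0 P₀ X p hp => by
    rw [thr_eqF h X]; exact h1 _ (aF_nn _ _ _ _) (aF_lt _ _ _ _) p hp⟩

theorem ctx_RG (h : NumOK N (thF Ct) Ct C₀ Sx) {γ : ℝ} {p0 P₀ : ℕ} (X : Ctx N γ p0 P₀) : RG X := by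
  intro m p _ _ hr
  rw [thr_eqF h X, thr_eqF h X]
  exact thrG_congr hr.symm

theorem ctx_TH (h : NumOK N (thF Ct) Ct C₀ Sx) (hC2 : 2 ≤ N.C1) (hC : N.C1 - 2 < Ct) :
    ∃ p₁ : ℕ, ∀ p0 ≥ p₁, ∀ (γ : ℝ) (P₀ : ℕ) (X : Ctx N γ p0 P₀), TH X := by
  obtain ⟨p₂, hL⟩ := h.lnum
  have hCt : 0 < Ct := by linarith
  set δ : ℝ := (Ct - (N.C1 - 2)) / 2 with hδ
  have hd : 0 < δ := by rw [hδ]; linarith
  obtain ⟨c, hc⟩ := ctx_hi h hCt hd
  obtain ⟨c', hc'⟩ := ctx_lo h hCt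
  -- `2 ^ C6 ≤ (log p) ^ δ`
  have e1 : ∀ᶠ p : ℕ in atTop, (2 : ℝ) ^ (N.C1 - 2) ≤ Real.log p ^ δ :=
    ((tendsto_rpow_atTop hd).comp
      (Real.tendsto_log_atTop.comp tendsto_natCast_atTop_atTop)).eventually_ge_atTop _
  obtain ⟨a, ha⟩ := eventually_atTop.1 e1
  obtain ⟨b, hb⟩ := log_ge_rpow (N.B + N.c2 + 2 + Ct) one_pos
  refine ⟨max (max a b) (max p₂ 4) + c + c', fun p0 h0' γ P₀ X => ?_⟩
  have h0 : max (max a b) (max p₂ 4) ≤ p0 := by omega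
  have h0a : a ≤ p0 := ((le_max_left _ _).trans (le_max_left _ _)).trans h0
  have h0b : b ≤ p0 := ((le_max_right _ _).trans (le_max_left _ _)).trans h0
  have h02 : p₂ ≤ p0 := ((le_max_left _ _).trans (le_max_right _ _)).trans h0
  have h04 : 4 ≤ p0 := ((le_max_right _ _).trans (le_max_right _ _)).trans h0
  have hlog : ∀ l : ℕ, p0 ≤ l → 1 < Real.log l := fun l hl => one_lt_log (by omega)
  refine ⟨NumX34.lam0 h X, fun p _ => ?_, fun l p hl hp => ?_, fun l p hl hp => ?_, fun p hp => ?_⟩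
  · rw [thr_eqF h X]; exact thrG_pos _ _ _
  · rw [thr_eqF h X, thr_eqF h X]
    exact thrG_anti hCt.le (aF_nn _ _ _ _) (by omega) hp
  · have hz : X.c.wp.thr p ≤ X.c.wp.thr l := by
      rw [thr_eqF h X, thr_eqF h X]
      exact thrG_anti hCt.le (aF_nn _ _ _ _) (by omega) hp
    refine hz.trans ((hc γ p0 P₀ X l (by omega)).trans ?_)
    have hw : X.c.wpL.thr l = N.thrL p0 l := by rw [X.thrL]
    rw [hw]
    refine le_trans ?_ (hL.lo p0 h02 l)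
    have hl1 := hlog l hl
    have hl0 : 0 < Real.log l := by linarith
    have hlp : 0 < ((l + p0 : ℕ) : ℝ) := by
      have : 0 < l + p0 := by omega
      exact_mod_cast this
    have hup : Real.log ((l + p0 : ℕ) : ℝ) ≤ 2 * Real.log l := by
      have k1 : ((l + p0 : ℕ) : ℝ) ≤ (l : ℝ) ^ 2 := by
        have : l + p0 ≤ l ^ 2 := by nlinarith
        exact_mod_cast this
      have k2 := Real.log_le_log hlp k1
      rw [Real.log_pow] at k2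
      exact_mod_cast k2
    have hlo : 0 < Real.log ((l + p0 : ℕ) : ℝ) := by
      refine Real.log_pos ?_
      have : 1 < l + p0 := by omega
      exact_mod_cast this
    · refine le_trans ?_ (Real.rpow_le_rpow_of_nonpos hlo hup (by linarith))
      rw [Real.mul_rpow (by norm_num) hl0.le]
      have k3 := ha l (by omega)
      have e2 : (1:ℝ) = 2 ^ (N.C1 - 2) * 2 ^ (-(N.C1 - 2)) := by
        rw [← Real.rpow_add (by norm_num), add_neg_cancel, Real.rpow_zero]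
      have e3 : Real.log l ^ (-(N.C1 - 2)) = Real.log l ^ δ * Real.log l ^ (-(Ct - δ)) := by
        rw [← Real.rpow_add hl0]; congr 1; rw [hδ]; ring
      rw [e3]
      have q1 : (0:ℝ) < 2 ^ (-(N.C1 - 2)) := by positivity
      have q2 : 0 < Real.log l ^ (-(Ct - δ)) := Real.rpow_pos_of_pos hl0 _
      calc Real.log l ^ (-(Ct - δ))
          = 2 ^ (N.C1 - 2) * (2 ^ (-(N.C1 - 2)) * Real.log l ^ (-(Ct - δ))) := by
            rw [← mul_assoc, ← e2, one_mul]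
        _ ≤ Real.log l ^ δ * (2 ^ (-(N.C1 - 2)) * Real.log l ^ (-(Ct - δ))) :=
            mul_le_mul_of_nonneg_right k3 (by positivity)
        _ = _ := by ring
  · have hp1 := hlog p hp.le
    have hp0' : 0 < Real.log p := by linarith
    have hpR : (0:ℝ) < p := by
      have : 0 < p := by omega
      exact_mod_cast this
    have k1 := hb p (by omega)
    have k2 := hc' γ p0 P₀ X p (by omega)
    have e3 : Real.log p ^ (-(N.B + N.c2 + 2 + Ct)) =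
        (Real.log p ^ (N.B + N.c2 + 2))⁻¹ * Real.log p ^ (-Ct) := by
      rw [← Real.rpow_neg hp0'.le, ← Real.rpow_add hp0']; congr 1; ring
    rw [e3, Real.rpow_neg_one] at k1
    have q0 : 0 < Real.log p ^ (N.B + N.c2 + 2) := Real.rpow_pos_of_pos hp0' _
    have k3 : (p:ℝ)⁻¹ * Real.log p ^ (N.B + N.c2 + 2) ≤ Real.log p ^ (-Ct) := by
      calc (p:ℝ)⁻¹ * Real.log p ^ (N.B + N.c2 + 2)
          ≤ ((Real.log p ^ (N.B + N.c2 + 2))⁻¹ * Real.log p ^ (-Ct)) *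
            Real.log p ^ (N.B + N.c2 + 2) := mul_le_mul_of_nonneg_right k1 q0.le
        _ = _ := by field_simp
    calc Real.log p ^ (N.B + N.c2 + 2)
        = p * ((p:ℝ)⁻¹ * Real.log p ^ (N.B + N.c2 + 2)) := by field_simp
      _ ≤ p * Real.log p ^ (-Ct) := mul_le_mul_of_nonneg_left k3 hpR.le
      _ ≤ p * X.c.wp.thr p := mul_le_mul_of_nonneg_left k2 hpR.le

end Crest.Agent.R4P.ParT21
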