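import Crest.Agent.R4P.AccR_41
import Crest.Agent.R4P.ParT_21

/-!
R4 (S0004) with powers, T3, helper41: **the accuracy events of the pieces of a context** (PLAN v1, C2).

* `AccBad c U z q n` : the piece of `q` with the point `z` meets at the tie `n`, in its real class, a
  missing piece with a dense label which dies by accuracy below the tie (cofactors `≤ U`).
* `acc_rate_c`   : `∑_{n ∈ F} 1/n ≤ C (1 + log U) / log p₀` for a configuration;
* `acc_rate_X`   : for the contexts (thinness `thF Ct`), `p0` large;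
* `node_acc`     : **PURITY at a node**: pure, or `AccBad`, or sparse.
-/

set_option autoImplicit false
set_option linter.unusedSectionVars false
set_option linter.unusedVariables false

open Filter

namespace Crest.Agent.R4P.AccC41

open Crest.Agent.R4P.Cnt588 Crest.Agent.R4P.Item758 Crest.Agent.R4P.W363
open Crest.Agent.R4P.Data758 Crest.Agent.R4P.Skel189 Crest.Agent.R4P.RseSt23 Crest.Agent.R4P.WPex189
open Crest.Agent.R4P.Bld532 (NS)
open Crest.Agent.R4P.Step588 (NDt)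
open Crest.Agent.R4P.WalkIT579 (tp isL)
open Crest.Agent.R4P.InN9 (Pt pt_of_ne mul_div)
open Crest.Agent.R4P.Link758 (Bl)
open Crest.Agent.R4.Soft104 (w)
open Crest.Agent.R4.LF363 (Lab)
open Crest.Agent.R4P.PurA41 Crest.Agent.R4P.PurN41 Crest.Agent.R4P.AccR41
open Crest.Agent.R4P.StCh24 Crest.Agent.R4P.StB21 Crest.Agent.R4P.NumX34 Crest.Agent.R4P.ParF5

/-- **accuracy event of a piece** of `q`, `z` = point of the piece, `n` = tie -/
def AccBad (c : Cf) (U z : ℝ) (q n : ℕ) : Prop :=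
  ∃ σ μ : ℚ, c.st n q = some σ ∧ Ev c.γ z U (c.wp.thr n) n (Bl c n q) σ μ

/-- an own label and an accurate dense label at a thin stage are equal -/
theorem own_eq {γ ψ z U t : ℝ} {n B : ℕ} {σ μ : ℚ} (hn : 0 < n) (hB : 0 < B) (hU : 1 ≤ U)
    (hUn : 4 * U ≤ n) (hψ : 0 < ψ) (hz : |z| ≤ ψ) (h10 : (B : ℝ) * ψ ≤ 1 / 10)
    (hthin : (B : ℝ) * ψ ≤ t) (hσ : lab0 γ ψ B = some σ) (h : Ev γ z U t n B σ μ) : σ = μ := by
  have hn' : (0 : ℝ) < n := by exact_mod_cast hn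
  have hB' : (0 : ℝ) < B := by exact_mod_cast hB
  have hL := lab0_spec hB hσ
  set X : ℝ := B * ψ with hX
  have hX0 : 0 < X := by positivity
  set y : ℝ := B * |γ - σ| with hy
  set x : ℝ := B * |γ - μ| with hx
  have hy0 : 0 ≤ y := by positivity
  have hx0 : 0 ≤ x := by positivity
  have hy5 : y ^ 5 ≤ X ^ 4 := by
    have h1 := hL.near
    have e : |(B : ℝ) * γ - ((B * σ : ℚ) : ℝ)| = y := by
      push_cast
      rw [← mul_sub, abs_mul, abs_of_pos hB']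
    rwa [e] at h1
  have hdist := h.dist hn (by linarith)
  have h2 : |z + (γ - σ)| ≤ ψ + |γ - σ| := (abs_add_le _ _).trans (by linarith)
  have h3 : (n : ℝ) * x ≤ 2 * U * (X + y) := by
    have h4 : (n : ℝ) * |γ - μ| ≤ 2 * U * (ψ + |γ - σ|) :=
      hdist.trans (mul_le_mul_of_nonneg_left h2 (by linarith))
    have h5 := mul_le_mul_of_nonneg_left h4 hB'.le
    calc (n : ℝ) * x = B * (n * |γ - μ|) := by rw [hx]; ring
      _ ≤ B * (2 * U * (ψ + |γ - σ|)) := h5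
      _ = 2 * U * (X + y) := by rw [hX, hy]; ring
  have h5 : 2 * x ≤ X + y := by
    have h6 : 4 * U * x ≤ 2 * U * (X + y) := (mul_le_mul_of_nonneg_right hUn hx0).trans h3
    have h7 : 2 * U * (2 * x) ≤ 2 * U * (X + y) := by linarith
    exact le_of_mul_le_mul_left h7 (by linarith)
  have h6 : x ≤ max X y := by
    have a1 := le_max_left X y
    have a2 := le_max_right X y
    linarith
  have hX5 : X ^ 5 ≤ X ^ 4 := by
    calc X ^ 5 = X * X ^ 4 := by ring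
      _ ≤ 1 * X ^ 4 := mul_le_mul_of_nonneg_right (by linarith) (by positivity)
      _ = X ^ 4 := one_mul _
  have hx5 : x ^ 5 ≤ X ^ 4 := by
    refine (pow_le_pow_left₀ hx0 h6 5).trans ?_
    rcases max_choice X y with hc | hc
    · rw [hc]; exact hX5
    · rw [hc]; exact hy5
  have hLμ : Lab ((B : ℝ) * γ) ((B : ℝ) * ψ) ((B : ℚ) * μ) := by
    refine ⟨hX0, h10, ?_, ?_⟩
    · exact (mul_le_mul_of_nonneg_left hthin (by positivity)).trans h.dn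
    · have e : |(B : ℝ) * γ - ((B * μ : ℚ) : ℝ)| = x := by
        push_cast
        rw [← mul_sub, abs_mul, abs_of_pos hB']
      rw [e]
      exact hx5
  have hm := StCh24.lab0_of_Lab hB hLμ
  rw [hσ] at hm
  exact Option.some.inj hm

section cf
variable {c : Cf} {q : ℕ}

/-- **the rate of the accuracy events**, for a configuration -/
theorem acc_rate_c : ∃ C : ℝ, 0 < C ∧ ∀ (c : Cf) (N q : ℕ) (z U p₀ : ℝ) (F : Finset ℕ), c.t.Ok N →
    9 ≤ p₀ → 1 ≤ U → 0 < c.r q → |z| ≤ c.r q → (∀ n, c.lam n = 0) →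
    (∀ m k : ℕ, p₀ < m → m ≤ k → c.wp.thr k ≤ c.wp.thr m) → (∀ n ∈ F, 0 < c.wp.thr n) →
    (∀ n ∈ F, 1 ≤ c.wp.thr n ^ 20 * n) → (∀ n ∈ F, (4 * U) ^ 4 ≤ n) →
    (∀ n ∈ F, ∀ n' ∈ F, n' < n → (n' : ℝ) ^ 5 * c.wp.thr n ^ 2 ≤ 1 →
      2 * Real.log n' ≤ Real.log n) →
    (∀ n ∈ F, TL c n q) → (∀ n ∈ F, (Bl c n q : ℝ) * c.r q ≤ 1 / 10) →
    (∀ n ∈ F, n.Prime ∧ p₀ < n ∧ AccBad c U z q n) →
      ∑ n ∈ F, (1 : ℝ) / n ≤ C * (Real.log U + 1) / Real.log p₀ := by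
  obtain ⟨C, hC, h⟩ := acc_rate
  refine ⟨C, hC, fun c N q z U p₀ F hO h9 hU hr hz hlam hanti hpos h20 h4U htw hTL h10 hF => ?_⟩
  have hex : ∀ n ∈ F, ∃ σ μ : ℚ, c.st n q = some σ ∧ Ev c.γ z U (c.wp.thr n) n (Bl c n q) σ μ :=
    fun n hn => (hF n hn).2.2
  choose! σ μ hst hEv using hex
  have hBpos : ∀ n, 0 < Bl c n q := by
    intro n
    unfold Bl
    rw [Crest.Agent.R4.W363.lst_prod]
    exact Finset.prod_pos fun s hs => (BldF542.mt_lt c.t N hO q s (Finset.mem_filter.1 hs).1).1.pos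
  have hfat : ∀ n ∈ F, σ n ≠ μ n → c.wp.thr n < (Bl c n q : ℝ) * c.r q := by
    intro n hn hne
    by_contra hc
    push Not at hc
    have h1 := StB21.thin (hlam n) hc
    rw [hst n hn] at h1
    have h4 : 4 * U ≤ n := by
      have h5 := h4U n hn
      have : (4 * U) ^ 1 ≤ (4 * U) ^ 4 := pow_le_pow_right₀ (by linarith) (by norm_num)
      linarith
    exact hne (own_eq (hF n hn).1.pos (hBpos n) hU h4 hr hz (h10 n hn) hc h1.symm (hEv n hn))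
  refine h c.γ (c.r q) z U p₀ c.wp.thr (c.t.mt q) F σ μ h9 hU hr hz
    (fun l hl => (BldF542.mt_lt c.t N hO q l hl).1) hanti hpos h20 h4U htw
    (fun n hn s L hL => hTL n hn s L hL) (fun n hn => h10 n hn)
    (fun n hn => ⟨(hF n hn).1, (hF n hn).2.1, hEv n hn⟩) (fun n hn hne => ?_) ?_
  · refine ⟨hfat n hn hne, fun s L hL hlab => hne ?_⟩
    have h1 := fat_some (hlam n) hL (hTL n hn s L hL) (hfat n hn hne) hlab
    rw [hst n hn] at h1
    exact Option.some.inj h1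
  · intro n hn n' hn' hne hne' hl
    -- equal lists: the same stage, both fat
    have key : ∀ a ∈ F, ∀ b ∈ F, σ a ≠ μ a → σ b ≠ μ b → lst (c.t.mt q) a = lst (c.t.mt q) b →
        b ≤ a → σ a = σ b := by
      intro a ha b hb hna hnb hab hba
      have hm : ∀ l ∈ c.t.mt q, b < l → a < l := by
        intro l hl1 hl2
        have : l ∈ lst (c.t.mt q) b := Crest.Agent.R4.W363.mem_lst.2 ⟨hl1, hl2⟩
        rw [← hab] at this
        exact (Crest.Agent.R4.W363.mem_lst.1 this).2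
      have h1 := same_fat (hlam a) (hlam b) hba hm (hanti b a (hF b hb).2.1 hba) (hfat b hb hnb)
      rw [hst a ha, hst b hb] at h1
      exact (Option.some.inj h1).symm
    rcases le_total n' n with h1 | h1
    · exact key n hn n' hn' hne hne' hl h1
    · exact (key n' hn' n hn hne' hne hl.symm h1).symm

end cf

/-! ### the contexts -/

/-- `n'^5 thr(n)^2 ≤ 1` is a tower -/
lemma tower_log {Ct : ℝ} (hCt : 0 < Ct) : ∃ p₁ : ℕ, ∀ p0 ≥ p₁, ∀ n n' : ℕ, p0 < n' → n' < n →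
    ∀ t : ℝ, Real.log n ^ (-Ct) ≤ t → (n' : ℝ) ^ 5 * t ^ 2 ≤ 1 → 2 * Real.log n' ≤ Real.log n := by
  -- eventually `log x ≤ x ^ (1 / Ct)`, so that `n' ≤ (log n)^(Ct 2/5)` gives the claim
  have e1 : ∀ᶠ x : ℝ in atTop, 2 * Real.log x ≤ x ^ (5 / (2 * Ct)) := by
    have h1 := (isLittleO_log_rpow_atTop (show (0 : ℝ) < 5 / (2 * Ct) by positivity)).bound
      (show (0 : ℝ) < 1 / 2 by norm_num)
    filter_upwards [h1, eventually_ge_atTop (1 : ℝ)] with x hx hx1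
    have hl : 0 ≤ Real.log x := Real.log_nonneg hx1
    rw [Real.norm_eq_abs, Real.norm_eq_abs, abs_of_nonneg hl,
      abs_of_nonneg (by positivity : (0 : ℝ) ≤ x ^ (5 / (2 * Ct)))] at hx
    linarith
  have e2 := tendsto_natCast_atTop_atTop (R := ℝ) |>.eventually e1
  obtain ⟨a, ha⟩ := eventually_atTop.1 e2
  refine ⟨max a 3, fun p0 h0 n n' hn' hnn t ht h => ?_⟩
  have ha' : a ≤ n' := ((le_max_left _ _).trans h0).trans hn'.le
  have h3 : 3 < n' := lt_of_le_of_lt ((le_max_right a 3).trans h0) hn'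
  have hn1 : (0 : ℝ) < n' := by exact_mod_cast (by omega : 0 < n')
  have hln : 0 < Real.log n := Real.log_pos (by exact_mod_cast (by omega : 1 < n))
  refine (ha n' ha').trans ?_
  -- `n'^(5/2) ≤ 1/t ≤ (log n)^Ct`
  have ht0 : 0 < t := lt_of_lt_of_le (Real.rpow_pos_of_pos hln _) ht
  have h5 : ((n' : ℝ) ^ (5 / 2 : ℝ) * t) ^ 2 ≤ 1 := by
    have e : ((n' : ℝ) ^ (5 / 2 : ℝ)) ^ 2 = (n' : ℝ) ^ 5 := by
      rw [← Real.rpow_natCast, ← Real.rpow_mul hn1.le]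
      norm_num
    rw [mul_pow, e]
    exact h
  have h6 : (n' : ℝ) ^ (5 / 2 : ℝ) * t ≤ 1 := by
    have h7 : 0 ≤ (n' : ℝ) ^ (5 / 2 : ℝ) * t := by positivity
    nlinarith
  have h7 : (n' : ℝ) ^ (5 / 2 : ℝ) * Real.log n ^ (-Ct) ≤ 1 :=
    (mul_le_mul_of_nonneg_left ht (by positivity)).trans h6
  have h8 : (n' : ℝ) ^ (5 / 2 : ℝ) ≤ Real.log n ^ Ct := by
    rw [Real.rpow_neg hln.le, ← div_eq_mul_inv, div_le_one (Real.rpow_pos_of_pos hln _)] at h7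
    exact h7
  have h9 : ((n' : ℝ) ^ (5 / 2 : ℝ)) ^ (1 / Ct) ≤ (Real.log n ^ Ct) ^ (1 / Ct) :=
    Real.rpow_le_rpow (by positivity) h8 (by positivity)
  rw [← Real.rpow_mul hn1.le, ← Real.rpow_mul hln.le] at h9
  have e3 : Ct * (1 / Ct) = 1 := by field_simp
  have e4 : (5 / 2 : ℝ) * (1 / Ct) = 5 / (2 * Ct) := by field_simp
  rw [e3, e4, Real.rpow_one] at h9
  exact h9

/-- **the rate of the accuracy events of the pieces of a context** -/
theorem acc_rate_X {N : Skel189.Num} {Ct C₀ : ℝ} {Sx : ℕ → (ℕ → ℝ) → Finset ℕ → Finset ℕ}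
    (hN : NumOK N (ParT21.thF Ct) Ct C₀ Sx) (hCt : 0 < Ct) : ∃ (C : ℝ) (p₁ : ℕ), 0 < C ∧
    ∀ p0 ≥ p₁, ∀ (γ : ℝ) (P₀ : ℕ) (X : Ctx N γ p0 P₀), TH X → ∀ (q : ℕ) (z U : ℝ) (F : Finset ℕ),
      q ∈ X.S' → |z| ≤ X.c.r q → 1 ≤ U → (4 * U) ^ 4 ≤ p0 → (∀ n ∈ F, TL X.c n q) →
      (∀ n ∈ F, (Bl X.c n q : ℝ) * X.c.r q ≤ 1 / 10) →
      (∀ n ∈ F, n.Prime ∧ p0 < n ∧ AccBad X.c U z q n) →
        ∑ n ∈ F, (1 : ℝ) / n ≤ C * (Real.log U + 1) / Real.log p0 := by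
  obtain ⟨C, hC, h⟩ := acc_rate_c
  obtain ⟨a, ha⟩ := tower_log hCt
  -- `log n ^ (20 Ct) ≤ n`
  have e1 : ∀ᶠ x : ℝ in atTop, Real.log x ^ (20 * Ct) ≤ x := by
    have h1 := (isLittleO_log_rpow_rpow_atTop (20 * Ct) (show (0 : ℝ) < 1 by norm_num)).bound
      (show (0 : ℝ) < 1 by norm_num)
    filter_upwards [h1, eventually_ge_atTop (1 : ℝ)] with x hx hx1
    have hl : 0 ≤ Real.log x := Real.log_nonneg hx1
    rw [Real.norm_eq_abs, Real.norm_eq_abs, abs_of_nonneg (Real.rpow_nonneg hl _),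
      Real.rpow_one, abs_of_nonneg (by linarith), one_mul] at hx
    exact hx
  obtain ⟨b, hb⟩ := eventually_atTop.1 (tendsto_natCast_atTop_atTop (R := ℝ) |>.eventually e1)
  obtain ⟨g, hg⟩ := ParT21.ctx_lo hN hCt
  refine ⟨C, max (max a b) 9 + g, hC, fun p0 h0' γ P₀ X hT q z U F hq hz hU h4U hTL h10 hF => ?_⟩
  have h0 : max (max a b) 9 ≤ p0 := by omega
  have h0a : a ≤ p0 := ((le_max_left _ _).trans (le_max_left _ _)).trans h0
  have h0b : b ≤ p0 := ((le_max_right _ _).trans (le_max_left _ _)).trans h0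
  have h09 : 9 ≤ p0 := (le_max_right _ _).trans h0
  have hlo : ∀ n : ℕ, p0 < n → Real.log n ^ (-Ct) ≤ X.c.wp.thr n :=
    fun n hn => hg γ p0 P₀ X n (by omega)
  refine h X.c (top X.S) q z U p0 F X.tOk (by exact_mod_cast h09) hU (X.rpos hq) hz hT.lam
    (fun m k hm hk => hT.anti m k (by exact_mod_cast hm.le) hk)
    (fun n hn => hT.pos n (by exact_mod_cast (hF n hn).2.1.le)) (fun n hn => ?_) (fun n hn => ?_)
    (fun n hn n' hn' hlt h5 => ?_) hTL h10 (fun n hn => ⟨(hF n hn).1, by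
      exact_mod_cast (hF n hn).2.1, (hF n hn).2.2⟩)
  · obtain ⟨h1, h2, -⟩ := hF n hn
    have h3 := hlo n h2
    have hln : 0 < Real.log n := Real.log_pos (by exact_mod_cast (by omega : 1 < n))
    have h4 : Real.log n ^ (20 * Ct) ≤ n := hb n (by omega)
    have h5 : (Real.log n ^ (-Ct)) ^ 20 ≤ X.c.wp.thr n ^ 20 :=
      pow_le_pow_left₀ (Real.rpow_nonneg hln.le _) h3 20
    have h6 : (Real.log n ^ (-Ct)) ^ 20 * Real.log n ^ (20 * Ct) = 1 := by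
      rw [← Real.rpow_natCast, ← Real.rpow_mul hln.le, ← Real.rpow_add hln]
      have : -Ct * ((20 : ℕ) : ℝ) + 20 * Ct = 0 := by push_cast; ring
      rw [this, Real.rpow_zero]
    calc (1 : ℝ) = (Real.log n ^ (-Ct)) ^ 20 * Real.log n ^ (20 * Ct) := h6.symm
      _ ≤ X.c.wp.thr n ^ 20 * n :=
          mul_le_mul h5 h4 (Real.rpow_nonneg hln.le _) (by
            have := hT.pos n (by exact_mod_cast h2.le)
            positivity)
  · refine h4U.trans ?_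
    exact_mod_cast (hF n hn).2.1.le
  · exact ha p0 h0a n n' (hF n' hn').2.1 hlt _ (hlo n (hF n hn).2.1) h5

/-! ### purity at a node -/

section node
variable {N : Skel189.Num} {γ : ℝ} {p0 P₀ : ℕ} {X : Ctx N γ p0 P₀} {u u' : NS} {τ τ' : IT}

/-- the accuracy event from its data: `j` present, `j'` missing piece of the tie `n` -/
theorem acc_of (h : NDt X.par (w X.ψ) X.c.t u τ) (hl : ¬ isL τ)
    {j j' : X.c.Lam} (hix : (X.c.world (tp τ) j.1).1 = (X.c.world (tp τ) j'.1).1)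
    (hp : tp τ ≤ top X.S) (m1 : j.1.1 ∈ τ.items) (m2 : j'.1.1 ∈ τ.items)
    (d1 : tp τ ∣ j.1.1) (d2 : ¬ tp τ ∣ j'.1.1) {y z z' : ℝ} {a a' : ℤ}
    (p1 : Pt X u j y z a) (p2 : Pt X u j' y z' a') {σ σ' : ℚ}
    (hs : X.c.st (tp τ) j.1.1 = some σ) (hs' : X.c.st (tp τ) j'.1.1 = some σ')
    (hown : lab0 X.c.γ (X.c.r j'.1.1) u.B = some σ')
    (h32 : 32 * (((tp τ * u.B : ℕ) : ℝ) * X.c.r j'.1.1) ≤ 1)
    (hacc : (((tp τ * u.B : ℕ) : ℝ) * X.c.r j'.1.1) ^ 4 <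
      |((tp τ * u.B : ℕ) : ℝ) * X.c.γ - ((tp τ * u.B : ℕ) : ℝ) * σ'| ^ 5)
    (hd : ((((u.B : ℚ) * σ').den : ℝ)) ^ 5 * X.c.wp.thr (tp τ) ≤ 1) {U : ℝ}
    (hU : ((j.1.1 / Nat.gcd j.1.1 j'.1.1 : ℕ) : ℝ) ≤ tp τ * U)
    (hV : ((j'.1.1 / Nat.gcd j'.1.1 j.1.1 : ℕ) : ℝ) ≤ U) :
    AccBad X.c U z j.1.1 (tp τ) := by
  have ht := (Crest.Agent.R4P.WalkIT579.top_of_nodeOk h.self.node hl).1
  have hW := node_win h hp hix m1 m2 p1 p2 hs hs' ht.pos h32 hacc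
  have hq0 : 0 < j.1.1 := X.sys.pos _ (X.mem_S j)
  have hr0 : 0 < j'.1.1 := X.sys.pos _ (X.mem_S j')
  obtain ⟨u₁, e1, e2⟩ := ResM48.tie_dvd_cof ht hr0 d1 d2
  have hB' : (0 : ℝ) < u.B := by exact_mod_cast h.B_pos
  have ht' : (0 : ℝ) < tp τ := by exact_mod_cast ht.pos
  refine ⟨σ, σ', hs, ?_, ?_, ?_, u₁, j'.1.1 / Nat.gcd j'.1.1 j.1.1, e2 hq0, ?_, ?_, hV, ?_⟩
  · rw [Bl_node h hl m1]
    exact hd
  · rw [Bl_node h hl m1]
    have hL := (lab0_spec h.B_pos hown).near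
    have e : |(u.B : ℝ) * X.c.γ - ((u.B * σ' : ℚ) : ℝ)| = u.B * |X.c.γ - σ'| := by
      push_cast
      rw [← mul_sub, abs_mul, abs_of_pos hB']
    rw [e] at hL
    have h1 : ((tp τ * u.B : ℕ) : ℝ) * X.c.r j'.1.1 ≤ 1 := by
      have : 0 ≤ ((tp τ * u.B : ℕ) : ℝ) * X.c.r j'.1.1 :=
        mul_nonneg (Nat.cast_nonneg _) (Cf.r_pos j').le
      linarith
    have h2 : 0 ≤ ((tp τ * u.B : ℕ) : ℝ) * X.c.r j'.1.1 :=
      mul_nonneg (Nat.cast_nonneg _) (Cf.r_pos j').le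
    calc ((u.B : ℝ) * |X.c.γ - σ'|) ^ 5 * (tp τ : ℝ) ^ 4 ≤
        ((u.B : ℝ) * X.c.r j'.1.1) ^ 4 * (tp τ : ℝ) ^ 4 :=
          mul_le_mul_of_nonneg_right hL (by positivity)
      _ = (((tp τ * u.B : ℕ) : ℝ) * X.c.r j'.1.1) ^ 4 := by push_cast; ring
      _ ≤ 1 := pow_le_one₀ h2 h1
  · intro hc
    rw [hc, sub_self, abs_zero, zero_pow (by norm_num)] at hacc
    have : 0 ≤ (((tp τ * u.B : ℕ) : ℝ) * X.c.r j'.1.1) ^ 4 := by positivity
    linarith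
  · exact Nat.div_pos (Nat.le_of_dvd hr0 (Nat.gcd_dvd_left _ _)) (Nat.gcd_pos_of_pos_left _ hr0)
  · rw [e1] at hU
    push_cast at hU
    exact le_of_mul_le_mul_left hU ht'
  · rw [e1] at hW
    exact hW

/-- **PURITY of the labelled real classes at a node**, low state as a list state (`sta`, the column of the
tie itself, `L` = missing ties above): `j` present, `j'` missing piece of the tie `tp τ`, same real class,
common point, cofactors `≤ U`: pure, or `AccBad`, or the denominator of `j'` is sparse -/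
theorem node_acc (hT : TH X) (h : NDt X.par (w X.ψ) X.c.t u τ) (hl : ¬ isL τ)
    (hp : tp τ ≤ top X.S) (h32 : X.c.wp.thr (tp τ) ≤ 1 / 32)
    {j j' : X.c.Lam} (hix : (X.c.world (tp τ) j.1).1 = (X.c.world (tp τ) j'.1).1)
    (m1 : j.1.1 ∈ τ.items) (m2 : j'.1.1 ∈ τ.items)
    (d1 : tp τ ∣ j.1.1) (d2 : ¬ tp τ ∣ j'.1.1) {y z z' : ℝ} {a a' : ℤ}
    (p1 : Pt X u j y z a) (p2 : Pt X u j' y z' a') {σ σ' : ℚ}
    (hs : X.c.st (tp τ) j.1.1 = some σ) (hs' : X.c.st (tp τ) j'.1.1 = some σ')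
    (hthin : (u.B : ℝ) * X.c.r j'.1.1 ≤ X.c.wp.thr (tp τ)) {U : ℝ}
    (hU : ((j.1.1 / Nat.gcd j.1.1 j'.1.1 : ℕ) : ℝ) ≤ tp τ * U)
    (hV : ((j'.1.1 / Nat.gcd j'.1.1 j.1.1 : ℕ) : ℝ) ≤ U) :
    sta X.c.wp.thr X.c.γ (X.c.r j'.1.1) (tp τ :: lst (X.c.t.mt j'.1.1) (tp τ)) (tp τ) = some σ' ∨
      AccBad X.c U z j.1.1 (tp τ) ∨
      1 < ((((u.B : ℚ) * σ').den : ℝ)) ^ 5 * X.c.wp.thr (tp τ) := by
  have ht := (Crest.Agent.R4P.WalkIT579.top_of_nodeOk h.self.node hl).1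
  have hr0 : 0 < X.c.r j'.1.1 := Cf.r_pos j'
  have hown : lab0 X.c.γ (X.c.r j'.1.1) u.B = some σ' := by
    rw [← node_thin hT h hl m2 hthin, hs']
  have hLp : (lst (X.c.t.mt j'.1.1) (tp τ)).prod = u.B := Bl_node h hl m2
  have hs2 : sta X.c.wp.thr X.c.γ (X.c.r j'.1.1) (lst (X.c.t.mt j'.1.1) (tp τ)) (tp τ) =
      some σ' := by
    rw [sta_thin (by rw [hLp]; exact hthin), hLp, hown]
  rcases low_s (thr := X.c.wp.thr) (p := tp τ) (by rw [hLp]; exact h.B_pos) ht.pos hr0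
    (by linarith) hs2 with k | ⟨k1, k2⟩
  · exact Or.inl k
  right
  rw [hLp] at k1 k2
  by_cases hd : ((((u.B : ℚ) * σ').den : ℝ)) ^ 5 * X.c.wp.thr (tp τ) ≤ 1
  · left
    exact acc_of h hl hix hp m1 m2 d1 d2 p1 p2 hs hs' hown (by linarith) (k2.acc k1 hr0.le hd) hd
      hU hV
  · exact Or.inr (not_le.1 hd)

end node

end Crest.Agent.R4P.AccC41
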