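import Crest.Agent.R4P.AccU_41

/-!
R4 (S0004) with powers, T3, helper41: **the accuracy events of the pieces, all sizes** (C2).

`AccU_41` for pieces of any size: a piece with `B r > 1/10` is in its last stage, its state does not change
there, so the ties of different windows are separated (`tower_same`).
* `acc_rateF_c`, **`acc_rateF_X`** : `∑_{n ∈ F} 1/n ≤ C / √(log p₀)`, cofactors `≤ (log n)^K`.
-/

set_option autoImplicit false
set_option linter.unusedSectionVars false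
set_option linter.unusedVariables false

open Filter

namespace Crest.Agent.R4P.AccF41

open Crest.Agent.R4.LF363 Crest.Agent.R4P.PurA41 Crest.Agent.R4P.PurN41
open Crest.Agent.R4P.AccR41 Crest.Agent.R4P.AccU41
open Crest.Agent.R4P.Item758 Crest.Agent.R4P.W363
open Crest.Agent.R4P.Data758 Crest.Agent.R4P.Skel189
open Crest.Agent.R4P.Link758 (Bl)
open Crest.Agent.R4P.StCh24 Crest.Agent.R4P.StB21 Crest.Agent.R4P.NumX34 Crest.Agent.R4P.ParF5
open Crest.Agent.R4P.AccC41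

/-- **two different very accurate dense labels of one stage**: tower -/
theorem tower_same {γ t t' : ℝ} {n n' B : ℕ} {μ μ' : ℚ} (hB : 0 < B) (hn' : 16 ≤ n')
    (hnn : n' < n) (ht : 0 < t) (ht' : 0 < t') (htn' : 1 ≤ t' ^ 20 * n') (hne : μ ≠ μ')
    (d : (((B : ℚ) * μ).den : ℝ) ^ 5 * t ≤ 1) (d' : (((B : ℚ) * μ').den : ℝ) ^ 5 * t' ≤ 1)
    (s : ((B : ℝ) * |γ - μ|) ^ 5 * (n : ℝ) ^ 4 ≤ 1)
    (s' : ((B : ℝ) * |γ - μ'|) ^ 5 * (n' : ℝ) ^ 4 ≤ 1) :
    (n' : ℝ) ^ 5 * t ^ 2 ≤ 1 := by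
  have hB'' : (0 : ℝ) < B := by exact_mod_cast hB
  have hn0 : (0 : ℝ) < n' := by exact_mod_cast (by omega : 0 < n')
  have hn1 : (16 : ℝ) ≤ n' := by exact_mod_cast hn'
  have hBq : (B : ℚ) ≠ 0 := by exact_mod_cast hB.ne'
  set e : ℝ := B * |γ - μ| with he
  set e' : ℝ := B * |γ - μ'| with he'
  have he0 : 0 ≤ e := by positivity
  have he0' : 0 ≤ e' := by positivity
  have k1 : e ^ 5 * (n' : ℝ) ^ 4 ≤ 1 := by
    refine le_trans (mul_le_mul_of_nonneg_left ?_ (by positivity)) s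
    refine pow_le_pow_left₀ hn0.le ?_ 4
    exact_mod_cast hnn.le
  set D : ℝ := (((B : ℚ) * μ).den : ℝ) with hD
  set D' : ℝ := (((B : ℚ) * μ').den : ℝ) with hD'
  have hD0 : 1 ≤ D := by rw [hD]; exact_mod_cast Rat.den_pos _
  have hD0' : 1 ≤ D' := by rw [hD']; exact_mod_cast Rat.den_pos _
  have hne' : (B : ℚ) * μ ≠ B * μ' := fun h => hne (mul_left_cancel₀ hBq h)
  have g := rat_gap hne'
  have g2 : |(((B : ℚ) * μ : ℚ) : ℝ) - (((B : ℚ) * μ' : ℚ) : ℝ)| ≤ e + e' := by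
    have e1 : (((B : ℚ) * μ : ℚ) : ℝ) - (((B : ℚ) * μ' : ℚ) : ℝ) =
        B * (γ - μ') - B * (γ - μ) := by push_cast; ring
    rw [e1]
    refine (abs_sub _ _).trans ?_
    rw [abs_mul, abs_mul, abs_of_pos hB'']
    linarith
  have g3 : 1 ≤ (e + e') * (D * D') := g.trans (mul_le_mul_of_nonneg_right g2 (by positivity))
  have g4 : (e + e') ^ 5 * (n' : ℝ) ^ 4 ≤ 32 := by
    have key : ∀ x : ℝ, 0 ≤ x → x ^ 5 * (n' : ℝ) ^ 4 ≤ 1 → e + e' ≤ 2 * x →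
        (e + e') ^ 5 * (n' : ℝ) ^ 4 ≤ 32 := by
      intro x hx h1 h2
      calc (e + e') ^ 5 * (n' : ℝ) ^ 4 ≤ (2 * x) ^ 5 * (n' : ℝ) ^ 4 :=
            mul_le_mul_of_nonneg_right (pow_le_pow_left₀ (by positivity) h2 5) (by positivity)
        _ = 32 * (x ^ 5 * (n' : ℝ) ^ 4) := by ring
        _ ≤ 32 := by linarith
    rcases le_total e e' with h | h
    · exact key e' he0' s' (by linarith)
    · exact key e he0 k1 (by linarith)
  have g5 : (n' : ℝ) ^ 4 ≤ 32 * (D * D') ^ 5 := by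
    have h1 : 1 ≤ ((e + e') * (D * D')) ^ 5 := one_le_pow₀ g3
    calc (n' : ℝ) ^ 4 ≤ (n' : ℝ) ^ 4 * ((e + e') * (D * D')) ^ 5 :=
          le_mul_of_one_le_right (by positivity) h1
      _ = ((e + e') ^ 5 * (n' : ℝ) ^ 4) * (D * D') ^ 5 := by ring
      _ ≤ 32 * (D * D') ^ 5 := mul_le_mul_of_nonneg_right g4 (by positivity)
  have g6 : D' ^ 100 ≤ n' := dn_pow (by linarith) ht' d' htn'
  have g7 : (n' : ℝ) ^ 79 ≤ 2 ^ 100 * (D ^ 2) ^ 50 := by
    have h1 : ((n' : ℝ) ^ 4) ^ 20 ≤ (32 * (D * D') ^ 5) ^ 20 := pow_le_pow_left₀ (by positivity) g5 20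
    have h2 : (n' : ℝ) * (n' : ℝ) ^ 79 ≤ n' * (2 ^ 100 * (D ^ 2) ^ 50) := by
      calc (n' : ℝ) * (n' : ℝ) ^ 79 = ((n' : ℝ) ^ 4) ^ 20 := by ring
        _ ≤ (32 * (D * D') ^ 5) ^ 20 := h1
        _ = 2 ^ 100 * (D' ^ 100 * D ^ 100) := by ring
        _ ≤ 2 ^ 100 * (n' * D ^ 100) :=
            mul_le_mul_of_nonneg_left (mul_le_mul_of_nonneg_right g6 (by positivity)) (by norm_num)
        _ = n' * (2 ^ 100 * (D ^ 2) ^ 50) := by ring
    exact le_of_mul_le_mul_left h2 hn0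
  have g8 : (n' : ℝ) ≤ D ^ 2 := by
    have h0 : (2 : ℝ) ^ 100 ≤ (n' : ℝ) ^ 29 := by
      calc (2 : ℝ) ^ 100 ≤ 16 ^ 29 := by norm_num
        _ ≤ (n' : ℝ) ^ 29 := pow_le_pow_left₀ (by norm_num) hn1 29
    have h1 : (2 : ℝ) ^ 100 * (n' : ℝ) ^ 50 ≤ 2 ^ 100 * (D ^ 2) ^ 50 := by
      calc (2 : ℝ) ^ 100 * (n' : ℝ) ^ 50 ≤ (n' : ℝ) ^ 29 * (n' : ℝ) ^ 50 :=
            mul_le_mul_of_nonneg_right h0 (by positivity)
        _ = (n' : ℝ) ^ 79 := by ring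
        _ ≤ _ := g7
    have h2 : (n' : ℝ) ^ 50 ≤ (D ^ 2) ^ 50 := le_of_mul_le_mul_left h1 (by norm_num)
    exact le_of_pow_le_pow_left₀ (by norm_num) (by positivity) h2
  have g10 : D ^ 10 * t ^ 2 ≤ 1 := by
    calc D ^ 10 * t ^ 2 = (D ^ 5 * t) ^ 2 := by ring
      _ ≤ 1 := pow_le_one₀ (by positivity) d
  calc (n' : ℝ) ^ 5 * t ^ 2 ≤ (D ^ 2) ^ 5 * t ^ 2 :=
        mul_le_mul_of_nonneg_right (pow_le_pow_left₀ hn0.le g8 5) (by positivity)
    _ = D ^ 10 * t ^ 2 := by ring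
    _ ≤ 1 := g10

/-- **the rate of the accuracy events**, all sizes -/
theorem acc_rateF_c : ∃ C : ℝ, 0 < C ∧ ∀ (c : Cf) (N q : ℕ) (z D p₀ : ℝ) (U : ℕ → ℝ) (F : Finset ℕ),
    c.t.Ok N → 16 ≤ p₀ → 0 ≤ D → 0 < c.r q → |z| ≤ c.r q → (∀ n, c.lam n = 0) →
    (∀ m k : ℕ, p₀ < m → m ≤ k → c.wp.thr k ≤ c.wp.thr m) → (∀ n ∈ F, 0 < c.wp.thr n) →
    (∀ n ∈ F, c.wp.thr n ≤ 1 / 10) →
    (∀ n ∈ F, 1 ≤ c.wp.thr n ^ 20 * n) → (∀ n ∈ F, 1 ≤ U n ∧ (4 * U n) ^ 4 ≤ n) →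
    (∀ n ∈ F, ∀ m ∈ F, m ≤ n → n ≤ m ^ 2 → 1 + Real.log (U n) ≤ D * Real.sqrt (Real.log m)) →
    (∀ n ∈ F, ∀ n' ∈ F, n' < n → (n' : ℝ) ^ 5 * c.wp.thr n ^ 2 ≤ 1 →
      4 * Real.log n' ≤ Real.log n) →
    (∀ n ∈ F, TL c n q) →
    (∀ n ∈ F, n.Prime ∧ p₀ < n ∧ AccBad c (U n) z q n) →
      ∑ n ∈ F, (1 : ℝ) / n ≤ C * (D + 1) / Real.sqrt (Real.log p₀) := by
  classical
  obtain ⟨C₁, hC₁, h₁⟩ := acc_rateU_c
  obtain ⟨C₂, hC₂, h₂⟩ := group_sumU
  refine ⟨C₁ + C₂, by positivity,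
    fun c N q z D p₀ U F hO h16 hD hr hz hlam hanti hpos ht10 h20 h4U hUD htw hTL hF => ?_⟩
  set F₁ := F.filter fun n => (Bl c n q : ℝ) * c.r q ≤ 1 / 10 with hF₁
  set F₂ := F.filter fun n => ¬ (Bl c n q : ℝ) * c.r q ≤ 1 / 10 with hF₂
  have m1 : ∀ n ∈ F₁, n ∈ F ∧ (Bl c n q : ℝ) * c.r q ≤ 1 / 10 := fun n hn => Finset.mem_filter.1 hn
  have m2 : ∀ n ∈ F₂, n ∈ F ∧ ¬ (Bl c n q : ℝ) * c.r q ≤ 1 / 10 :=
    fun n hn => Finset.mem_filter.1 hn
  have s1 := h₁ c N q z D p₀ U F₁ hO (by linarith) hD hr hz hlam hanti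
    (fun n hn => hpos n (m1 n hn).1) (fun n hn => h20 n (m1 n hn).1) (fun n hn => h4U n (m1 n hn).1)
    (fun n hn m hm => hUD n (m1 n hn).1 m (m1 m hm).1)
    (fun n hn n' hn' => htw n (m1 n hn).1 n' (m1 n' hn').1) (fun n hn => hTL n (m1 n hn).1)
    (fun n hn => (m1 n hn).2) (fun n hn => hF n (m1 n hn).1)
  have hex : ∀ n ∈ F, ∃ σ μ : ℚ, c.st n q = some σ ∧
      Ev c.γ z (U n) (c.wp.thr n) n (Bl c n q) σ μ :=
    fun n hn => (hF n hn).2.2
  choose! σ μ hst hEv using hex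
  have hBpos : ∀ n, 0 < Bl c n q := by
    intro n
    unfold Bl
    rw [Crest.Agent.R4.W363.lst_prod]
    exact Finset.prod_pos fun s hs => (BldF542.mt_lt c.t N hO q s (Finset.mem_filter.1 hs).1).1.pos
  -- two ties of `F₂` : one stage
  have stage : ∀ n ∈ F₂, ∀ n' ∈ F₂, n' < n → (∀ l ∈ c.t.mt q, n' < l → n < l) := by
    intro n hn n' hn' hlt l hl1 hl2
    by_contra hc
    push Not at hc
    obtain ⟨a, b⟩ := m2 n hn
    obtain ⟨a', b'⟩ := m2 n' hn'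
    have hmem : l ∈ lst (c.t.mt q) n' := Crest.Agent.R4.W363.mem_lst.2 ⟨hl1, hl2⟩
    cases hL : lst (c.t.mt q) n' with
    | nil => rw [hL] at hmem; exact absurd hmem (by simp)
    | cons s L =>
      have hne : lst (c.t.mt q) n ≠ lst (c.t.mt q) n' := by
        intro e
        rw [← e] at hmem
        have := (Crest.Agent.R4.W363.mem_lst.1 hmem).2
        omega
      obtain ⟨t1, t2⟩ := tail_dvd hlt.le hL hne
      have h1 := hTL n' a' s L hL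
      have h2 : c.wp.thr s ≤ c.wp.thr n' := hanti n' s (hF n' a').2.1 t2.le
      have h3 := ht10 n' a'
      have hLp : 0 < L.prod := by
        have h1 := hBpos n'
        unfold Bl at h1
        rw [hL, List.prod_cons] at h1
        exact Nat.pos_of_mul_pos_left h1
      have h4 : Bl c n q ≤ L.prod := Nat.le_of_dvd hLp t1
      have h5 : (Bl c n q : ℝ) * c.r q ≤ (L.prod : ℝ) * c.r q :=
        mul_le_mul_of_nonneg_right (by exact_mod_cast h4) hr.le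
      exact b (by linarith)
  have sameB : ∀ n ∈ F₂, ∀ n' ∈ F₂, n' < n → Bl c n' q = Bl c n q := by
    intro n hn n' hn' hlt
    unfold Bl
    rw [IxRange34.lst_congr hlt.le (stage n hn n' hn' hlt)]
  have sameσ : ∀ n ∈ F₂, ∀ n' ∈ F₂, n' < n → σ n' = σ n := by
    intro n hn n' hn' hlt
    obtain ⟨a, b⟩ := m2 n hn
    obtain ⟨a', b'⟩ := m2 n' hn'
    have h1 := same_fat (c := c) (q := q) (hlam n) (hlam n') hlt.le (stage n hn n' hn' hlt)
      (hanti n' n (hF n' a').2.1 hlt.le) (by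
        push Not at b'
        have := ht10 n' a'
        linarith)
    rw [hst n a, hst n' a'] at h1
    exact Option.some.inj h1
  have s2 := h₂ U D p₀ (by linarith) hD F₂ (fun n => |z + (c.γ - σ n)| / |c.γ - μ n|)
    (fun n hn => h4U n (m2 n hn).1)
    (fun n hn m hm => hUD n (m2 n hn).1 m (m2 m hm).1)
    (fun n hn => ⟨(hF n (m2 n hn).1).1, (hF n (m2 n hn).1).2.1, (hEv n (m2 n hn).1).norm⟩)
    (fun n hn n' hn' hlt hne => by
      obtain ⟨a, b⟩ := m2 n hn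
      obtain ⟨a', b'⟩ := m2 n' hn'
      have hμ : μ n ≠ μ n' := by
        intro e
        apply hne
        show |z + (c.γ - σ n)| / |c.γ - μ n| = |z + (c.γ - σ n')| / |c.γ - μ n'|
        rw [e, sameσ n hn n' hn' hlt]
      have h16' : 16 ≤ n' := by
        have := (hF n' a').2.1
        have h : (16 : ℝ) ≤ n' := by linarith
        exact_mod_cast h
      have eB := sameB n hn n' hn' hlt
      have ev' := hEv n' a'
      rw [eB] at ev'
      exact htw n a n' a' hlt (tower_same (hBpos n) h16' hlt (hpos n a) (hpos n' a')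
        (h20 n' a') hμ (hEv n a).dn ev'.dn (hEv n a).ac ev'.ac))
  rw [← Finset.sum_filter_add_sum_filter_not F (fun n => (Bl c n q : ℝ) * c.r q ≤ 1 / 10)]
  have : (C₁ + C₂) * (D + 1) / Real.sqrt (Real.log p₀) =
      C₁ * (D + 1) / Real.sqrt (Real.log p₀) + C₂ * (D + 1) / Real.sqrt (Real.log p₀) := by ring
  rw [this]
  exact add_le_add s1 s2

/-- the thinness is small -/
lemma thr_small {Ct : ℝ} (hCt : 0 < Ct) {ε : ℝ} (hε : 0 < ε) : ∃ p₁ : ℕ, ∀ p ≥ p₁,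
    thrF Ct p ≤ ε := by
  have e1 : ∀ᶠ p : ℕ in atTop, (2 : ℝ) ^ Ct / ε ≤ Real.log p ^ Ct :=
    ((tendsto_rpow_atTop hCt).comp
      (Real.tendsto_log_atTop.comp tendsto_natCast_atTop_atTop)).eventually_ge_atTop _
  obtain ⟨a, ha⟩ := eventually_atTop.1 e1
  refine ⟨a + 3, fun p hp => ?_⟩
  have h3 : 3 ≤ p := by omega
  have hl := one_lt_log h3
  have hl0 : 0 < Real.log p := by linarith
  refine (thrF_le hCt.le h3).trans ?_
  have h1 := ha p (by omega)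
  have h2 : 0 < Real.log p ^ Ct := Real.rpow_pos_of_pos hl0 _
  rw [Real.rpow_neg hl0.le, ← div_eq_mul_inv, div_le_iff₀ h2]
  rw [div_le_iff₀ hε] at h1
  linarith

/-- **the rate of the accuracy events of the pieces of a context**, cofactors `≤ (log n)^K`, all sizes -/
theorem acc_rateF_X {N : Skel189.Num} {Ct C₀ K : ℝ} {Sx : ℕ → (ℕ → ℝ) → Finset ℕ → Finset ℕ}
    (hN : NumOK N (ParT21.thF Ct) Ct C₀ Sx) (hCt : 0 < Ct) (hK : 0 ≤ K) :
    ∃ (C : ℝ) (p₁ : ℕ), 0 < C ∧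
    ∀ p0 ≥ p₁, ∀ (γ : ℝ) (P₀ : ℕ) (X : Ctx N γ p0 P₀), TH X → ∀ (q : ℕ) (z : ℝ) (F : Finset ℕ),
      q ∈ X.S' → |z| ≤ X.c.r q → (∀ n ∈ F, TL X.c n q) →
      (∀ n ∈ F, n.Prime ∧ p0 < n ∧ AccBad X.c (Real.log n ^ K) z q n) →
        ∑ n ∈ F, (1 : ℝ) / n ≤ C / Real.sqrt (Real.log p0) := by
  obtain ⟨C, hC, h⟩ := acc_rateF_c
  obtain ⟨a, ha⟩ := tower_log4 hCt
  obtain ⟨d, hd⟩ := logK hK
  obtain ⟨f, hf⟩ := ParT21.ctx_small hN hCt (show (0 : ℝ) < 1 / 10 by norm_num)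
  obtain ⟨g, hg⟩ := ParT21.ctx_lo hN hCt
  -- `log n ^ (20 Ct) ≤ n`
  have e1 : ∀ᶠ x : ℝ in atTop, Real.log x ^ (20 * Ct) ≤ x := by
    have h1 := (isLittleO_log_rpow_rpow_atTop (20 * Ct) (show (0 : ℝ) < 1 by norm_num)).bound
      (show (0 : ℝ) < 1 by norm_num)
    filter_upwards [h1, eventually_ge_atTop (1 : ℝ)] with x hx hx1
    have hl : 0 ≤ Real.log x := Real.log_nonneg hx1
    rw [Real.norm_eq_abs, Real.norm_eq_abs, abs_of_nonneg (Real.rpow_nonneg hl _),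
      Real.rpow_one, abs_of_nonneg (by linarith), one_mul] at hx
    exact hx
  obtain ⟨b, hb⟩ := eventually_atTop.1 (tendsto_natCast_atTop_atTop (R := ℝ) |>.eventually e1)
  refine ⟨C * (1 + 1), max (max (max a b) 16) (max d f) + g, by positivity,
    fun p0 h00 γ P₀ X hT q z F hq hz hTL hF => ?_⟩
  have h0 : max (max (max a b) 16) (max d f) ≤ p0 := by omega
  have h0d : d ≤ p0 := ((le_max_left _ _).trans (le_max_right _ _)).trans h0
  have h0f : f ≤ p0 := ((le_max_right _ _).trans (le_max_right _ _)).trans h0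
  have h0' : max (max a b) 16 ≤ p0 := (le_max_left _ _).trans h0
  have h0a : a ≤ p0 := ((le_max_left _ _).trans (le_max_left _ _)).trans h0'
  have h0b : b ≤ p0 := ((le_max_right _ _).trans (le_max_left _ _)).trans h0'
  have h016 : 16 ≤ p0 := (le_max_right _ _).trans h0'
  have hlo : ∀ n : ℕ, p0 < n → Real.log n ^ (-Ct) ≤ X.c.wp.thr n :=
    fun n hn => hg γ p0 P₀ X n (by omega)
  refine h X.c (top X.S) q z 1 p0 (fun n => Real.log n ^ K) F X.tOk (by exact_mod_cast h016)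
    zero_le_one (X.rpos hq) hz hT.lam
    (fun m k hm hk => hT.anti m k (by exact_mod_cast hm.le) hk)
    (fun n hn => hT.pos n (by exact_mod_cast (hF n hn).2.1.le)) (fun n hn => ?_)
    (fun n hn => ?_) (fun n hn => ?_)
    (fun n hn m hm hmn hnm => ?_)
    (fun n hn n' hn' hlt h5 => ?_) hTL (fun n hn => ⟨(hF n hn).1, by
      exact_mod_cast (hF n hn).2.1, (hF n hn).2.2⟩)
  · have h2 := (hF n hn).2.1
    exact hf γ p0 P₀ X n (by omega)
  · obtain ⟨h1, h2, -⟩ := hF n hn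
    have h3 := hlo n h2
    have hln : 0 < Real.log n := Real.log_pos (by exact_mod_cast (by omega : 1 < n))
    have h4 : Real.log n ^ (20 * Ct) ≤ n := hb n (by omega)
    have h5 : (Real.log n ^ (-Ct)) ^ 20 ≤ X.c.wp.thr n ^ 20 :=
      pow_le_pow_left₀ (Real.rpow_nonneg hln.le _) h3 20
    have h6 : (Real.log n ^ (-Ct)) ^ 20 * Real.log n ^ (20 * Ct) = 1 := by
      rw [← Real.rpow_natCast, ← Real.rpow_mul hln.le, ← Real.rpow_add hln]
      have : -Ct * ((20 : ℕ) : ℝ) + 20 * Ct = 0 := by push_cast; ring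
      rw [this, Real.rpow_zero]
    calc (1 : ℝ) = (Real.log n ^ (-Ct)) ^ 20 * Real.log n ^ (20 * Ct) := h6.symm
      _ ≤ X.c.wp.thr n ^ 20 * n :=
          mul_le_mul h5 h4 (Real.rpow_nonneg hln.le _) (by
            have := hT.pos n (by exact_mod_cast h2.le)
            positivity)
  · have h1 : d ≤ n := by
      have := (hF n hn).2.1
      omega
    exact ⟨(hd n h1).1, (hd n h1).2.1⟩
  · have h1 : d ≤ n := by
      have := (hF n hn).2.1
      omega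
    have h2 : d ≤ m := by
      have := (hF m hm).2.1
      omega
    exact (hd n h1).2.2 m h2 hnm
  · exact ha p0 h0a n n' (hF n' hn').2.1 hlt _ (hlo n (hF n hn).2.1) h5

end Crest.Agent.R4P.AccF41
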