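import Crest.Agent.R4P.PurN_41

/-!
R4 (S0004) with powers, T3, helper41: **the accuracy windows of a piece have a uniform total rate**
(PLAN v1, leaf C2; Err3 of the dense labelled classes).

For one piece `h` (radius `ψ`, missing ties `Mt`, point `z` of its arc) and a finite set `F` of ties at
which `h` (state `σ n`) meets, in its own real class, a missing piece with a DENSE label `μ n` which dies
by accuracy below its missing tie (`PurN41.pur_c`, `pur_s`), reduced cofactors `≤ U`: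

  `∑_{n ∈ F} 1/n ≤ C (1 + log U) / log p₀`, `C` absolute (`acc_rate`).

Reason: the windows with `σ = μ` depend on `μ` only; two different values of the window belong to ties
`n' < n` with `n'^5 thr(n)^2 ≤ 1` (tower).

* `geo_real`, `group_sum` : sums over windows with separated centres.
* `Ev` : accuracy event; `Ev.small` : `|γ - μ|^4 n^3 ≤ ψ^4`.
* `tower_ne`, `tower_eq`, `acc_rate`; `acc_rate_c` : for a configuration.
-/

set_option autoImplicit false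
set_option linter.unusedSectionVars false
set_option linter.unusedVariables false

namespace Crest.Agent.R4P.AccR41

open Crest.Agent.R4.LF363 Crest.Agent.R4.W363 Crest.Agent.R4P.PurA41 Crest.Agent.R4P.PurN41

/-! ### sums over separated windows -/

/-- values which at least double -/
lemma geo_real {ι : Type*} [DecidableEq ι] (f : ι → ℝ) : ∀ (k : ℕ) (V : Finset ι), V.card = k →
    ∀ L0 : ℝ, 0 < L0 → (∀ i ∈ V, L0 ≤ f i) →
    (∀ i ∈ V, ∀ j ∈ V, i ≠ j → 2 * f i ≤ f j ∨ 2 * f j ≤ f i) → ∑ i ∈ V, 1 / f i ≤ 2 / L0 := by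
  intro k
  induction k with
  | zero =>
    intro V hV L0 h0 _ _
    rw [Finset.card_eq_zero] at hV
    rw [hV, Finset.sum_empty]
    positivity
  | succ k ih =>
    intro V hV L0 h0 h1 h2
    have hne : V.Nonempty := Finset.card_pos.1 (by omega)
    obtain ⟨i, hi, hmin⟩ := V.exists_min_image f hne
    have hfi : 0 < f i := lt_of_lt_of_le h0 (h1 i hi)
    have h3 := ih (V.erase i) (by rw [Finset.card_erase_of_mem hi, hV]; rfl) (2 * f i)
      (by linarith) (fun j hj => by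
        obtain ⟨a, b⟩ := Finset.mem_erase.1 hj
        rcases h2 i hi j b (Ne.symm a) with h | h
        · exact h
        · have := hmin j b
          linarith) (fun j hj l hl hjl => h2 j (Finset.mem_of_mem_erase hj) l
            (Finset.mem_of_mem_erase hl) hjl)
    rw [← Finset.add_sum_erase V _ hi]
    have h4 : 1 / f i + 2 / (2 * f i) = 2 / f i := by
      field_simp
      norm_num
    calc 1 / f i + ∑ j ∈ V.erase i, 1 / f j ≤ 1 / f i + 2 / (2 * f i) := by linarith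
      _ = 2 / f i := h4
      _ ≤ 2 / L0 := div_le_div_of_nonneg_left (by norm_num) h0 (h1 i hi)

/-- **ties of windows with separated centres** -/
theorem group_sum : ∃ C : ℝ, 0 < C ∧ ∀ (U p₀ : ℝ), 9 ≤ p₀ → 1 ≤ U → ∀ (F : Finset ℕ) (q : ℕ → ℝ),
    (∀ n ∈ F, n.Prime ∧ p₀ < n ∧ ∃ u v : ℕ, 0 < u ∧ 0 < v ∧ (u : ℝ) ≤ U ∧ (v : ℝ) ≤ U ∧
      ((n * u : ℕ) : ℝ) ≤ 2 * (v * q n) ∧ 2 * (v * q n) ≤ 3 * ((n * u : ℕ) : ℝ)) →
    (∀ n ∈ F, ∀ n' ∈ F, n' < n → q n ≠ q n' → 2 * Real.log n' ≤ Real.log n) →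
      ∑ n ∈ F, (1 : ℝ) / n ≤ C * (Real.log U + 1) / Real.log p₀ := by
  classical
  obtain ⟨C, hC, h⟩ := acc_sum
  refine ⟨4 * C, by positivity, fun U p₀ h9 hU F q hF hsep => ?_⟩
  have hlp : 0 < Real.log p₀ := Real.log_pos (by linarith)
  have hlU : 0 ≤ Real.log U := Real.log_nonneg hU
  set V : Finset ℝ := F.image q with hV
  -- the least tie of a value
  have hex : ∀ x ∈ V, ∃ m ∈ F, q m = x ∧ ∀ n ∈ F, q n = x → m ≤ n := by
    intro x hx
    obtain ⟨n, hn, hnx⟩ := Finset.mem_image.1 hx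
    have hne : (F.filter fun n => q n = x).Nonempty := ⟨n, Finset.mem_filter.2 ⟨hn, hnx⟩⟩
    obtain ⟨m, hm, hmin⟩ := (F.filter fun n => q n = x).exists_min_image id hne
    obtain ⟨a, b⟩ := Finset.mem_filter.1 hm
    exact ⟨m, a, b, fun n hn hnx => hmin n (Finset.mem_filter.2 ⟨hn, hnx⟩)⟩
  choose! m hmF hmq hmin using hex
  have key : ∀ x ∈ V, ∑ n ∈ F.filter (fun n => q n = x), (1 : ℝ) / n ≤
      C * (Real.log U + 1) * 2 * (1 / Real.log (m x)) := by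
    intro x hx
    obtain ⟨a1, a2, -⟩ := hF (m x) (hmF x hx)
    have hm9 : (9 : ℝ) < m x := lt_of_le_of_lt h9 a2
    have hlm : 0 < Real.log (m x) := Real.log_pos (by linarith)
    set P : ℝ := max p₀ ((m x : ℝ) / 2) with hP
    have hP9 : 9 ≤ P := h9.trans (le_max_left _ _)
    have h1 := h x U P hP9 hU (F.filter fun n => q n = x) fun n hn => by
      obtain ⟨b1, b2⟩ := Finset.mem_filter.1 hn
      obtain ⟨c1, c2, c3⟩ := hF n b1
      refine ⟨c1, ?_, ?_⟩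
      · rw [hP]
        refine max_lt c2 ?_
        have : (m x : ℝ) ≤ n := by exact_mod_cast hmin x hx n b1 b2
        linarith
      · rw [b2] at c3
        exact c3
    refine h1.trans ?_
    have h2 : Real.log (m x) / 2 ≤ Real.log P := by
      have h3 : Real.sqrt (m x) ≤ P := by
        refine le_trans ?_ (le_max_right _ _)
        rw [Real.sqrt_le_left (by linarith)]
        nlinarith
      have h4 : 0 < Real.sqrt (m x) := Real.sqrt_pos.2 (by linarith)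
      have h5 := Real.log_le_log h4 h3
      rwa [Real.log_sqrt (by linarith)] at h5
    have h6 : C * (Real.log U + 1) / Real.log P ≤ C * (Real.log U + 1) / (Real.log (m x) / 2) :=
      div_le_div_of_nonneg_left (by positivity) (by linarith) h2
    refine h6.trans (le_of_eq ?_)
    field_simp
  have hs : ∑ n ∈ F, (1 : ℝ) / n = ∑ x ∈ V, ∑ n ∈ F.filter (fun n => q n = x), (1 : ℝ) / n :=
    (Finset.sum_fiberwise_of_maps_to (fun n hn => Finset.mem_image_of_mem q hn) _).symm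
  rw [hs]
  refine (Finset.sum_le_sum key).trans ?_
  rw [← Finset.mul_sum]
  have hgeo : ∑ x ∈ V, 1 / Real.log (m x) ≤ 2 / Real.log p₀ := by
    refine geo_real (fun x => Real.log (m x)) V.card V rfl _ hlp (fun x hx => ?_) ?_
    · obtain ⟨-, a2, -⟩ := hF (m x) (hmF x hx)
      exact Real.log_le_log (by linarith) a2.le
    · intro x hx y hy hxy
      have hne : m x ≠ m y := fun e => hxy (by rw [← hmq x hx, ← hmq y hy, e])
      rcases lt_or_gt_of_ne hne with hlt | hlt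
      · left
        exact hsep (m y) (hmF y hy) (m x) (hmF x hx) hlt (by
          rw [hmq x hx, hmq y hy]; exact Ne.symm hxy)
      · right
        exact hsep (m x) (hmF x hx) (m y) (hmF y hy) hlt (by
          rw [hmq x hx, hmq y hy]; exact hxy)
  calc C * (Real.log U + 1) * 2 * ∑ x ∈ V, 1 / Real.log (m x) ≤
      C * (Real.log U + 1) * 2 * (2 / Real.log p₀) :=
        mul_le_mul_of_nonneg_left hgeo (by positivity)
    _ = 4 * C * (Real.log U + 1) / Real.log p₀ := by ring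

/-! ### accuracy events -/

/-- **accuracy event** at the tie `n`: `B` = missing product, `σ` = label of the present piece, `μ` =
label of the missing piece, `t = thr n` -/
structure Ev (γ z U t : ℝ) (n B : ℕ) (σ μ : ℚ) : Prop where
  dn : (((B : ℚ) * μ).den : ℝ) ^ 5 * t ≤ 1
  ac : ((B : ℝ) * |γ - μ|) ^ 5 * (n : ℝ) ^ 4 ≤ 1
  ne : γ ≠ μ
  win : ∃ u v : ℕ, 0 < u ∧ 0 < v ∧ (u : ℝ) ≤ U ∧ (v : ℝ) ≤ U ∧ Win γ z σ μ (n * u) v

section ev
variable {γ ψ z U t : ℝ} {n B : ℕ} {σ μ : ℚ}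

/-- the window in the normalised form -/
lemma Ev.norm (h : Ev γ z U t n B σ μ) : ∃ u v : ℕ, 0 < u ∧ 0 < v ∧ (u : ℝ) ≤ U ∧ (v : ℝ) ≤ U ∧
    ((n * u : ℕ) : ℝ) ≤ 2 * (v * (|z + (γ - σ)| / |γ - μ|)) ∧
      2 * (v * (|z + (γ - σ)| / |γ - μ|)) ≤ 3 * ((n * u : ℕ) : ℝ) := by
  obtain ⟨u, v, h1, h2, h3, h4, h5, h6⟩ := h.win
  have h0 : 0 < |γ - μ| := abs_pos.2 (sub_ne_zero.2 h.ne)
  refine ⟨u, v, h1, h2, h3, h4, ?_, ?_⟩
  · rw [mul_div_assoc', mul_div_assoc', le_div_iff₀ h0]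
    exact h5
  · rw [mul_div_assoc', mul_div_assoc', div_le_iff₀ h0]
    linarith

/-- the distance of the centres: from the window -/
lemma Ev.dist (h : Ev γ z U t n B σ μ) (hn : 0 < n) (hU : 0 < U) :
    (n : ℝ) * |γ - μ| ≤ 2 * U * |z + (γ - σ)| := by
  obtain ⟨u, v, h1, h2, h3, h4, h5, h6⟩ := h.win
  have hu : (1 : ℝ) ≤ u := by exact_mod_cast h1
  have hn' : (0 : ℝ) < n := by exact_mod_cast hn
  have h7 : (n : ℝ) * |γ - μ| ≤ (n * u : ℕ) * |γ - μ| := by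
    refine mul_le_mul_of_nonneg_right ?_ (abs_nonneg _)
    push_cast
    exact le_mul_of_one_le_right hn'.le hu
  refine h7.trans (h5.trans ?_)
  have : (v : ℝ) * |z + (γ - σ)| ≤ U * |z + (γ - σ)| :=
    mul_le_mul_of_nonneg_right h4 (abs_nonneg _)
  linarith

/-- **the label of the missing piece is very accurate** -/
theorem Ev.small (h : Ev γ z U t n B σ μ) (hn : 0 < n) (hB : 0 < B) (hU : 1 ≤ U)
    (hUn : (4 * U) ^ 4 ≤ n) (hψ : 0 ≤ ψ) (hz : |z| ≤ ψ) (ht : 0 < t) (htn : 1 ≤ t ^ 20 * n)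
    (hc : σ = μ ∨ t < B * ψ) : |γ - μ| ^ 4 * (n : ℝ) ^ 3 ≤ ψ ^ 4 := by
  have hn' : (0 : ℝ) < n := by exact_mod_cast hn
  have hB' : (0 : ℝ) < B := by exact_mod_cast hB
  have hd : 0 ≤ |γ - μ| := abs_nonneg _
  rcases hc with rfl | hc
  · have h1 := h.dist hn (by linarith)
    have h2 : |z + (γ - σ)| ≤ ψ + |γ - σ| := (abs_add_le _ _).trans (by linarith)
    have h3 : (n : ℝ) * |γ - σ| ≤ 2 * U * (ψ + |γ - σ|) :=
      h1.trans (mul_le_mul_of_nonneg_left h2 (by linarith))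
    have h4 : 4 * U ≤ n := by
      have : (4 * U) ^ 1 ≤ (4 * U) ^ 4 := pow_le_pow_right₀ (by linarith) (by norm_num)
      linarith
    have h5 : (n : ℝ) * |γ - σ| ≤ 4 * U * ψ := by nlinarith
    have h6 : ((n : ℝ) * |γ - σ|) ^ 4 ≤ (4 * U * ψ) ^ 4 := pow_le_pow_left₀ (by positivity) h5 4
    have h7 : (n : ℝ) * (|γ - σ| ^ 4 * (n : ℝ) ^ 3) ≤ n * ψ ^ 4 := by
      calc (n : ℝ) * (|γ - σ| ^ 4 * (n : ℝ) ^ 3) = ((n : ℝ) * |γ - σ|) ^ 4 := by ring
        _ ≤ (4 * U * ψ) ^ 4 := h6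
        _ = (4 * U) ^ 4 * ψ ^ 4 := by ring
        _ ≤ n * ψ ^ 4 := mul_le_mul_of_nonneg_right hUn (by positivity)
    exact le_of_mul_le_mul_left h7 hn'
  · set x : ℝ := B * |γ - μ| with hx
    have hx0 : 0 ≤ x := by positivity
    have h1 : (x ^ 4 * (n : ℝ) ^ 3) ^ 5 ≤ ((B * ψ) ^ 4) ^ 5 := by
      have h2 : x ^ 5 * (n : ℝ) ^ 4 ≤ 1 := h.ac
      have h3 : n * (x ^ 4 * (n : ℝ) ^ 3) ^ 5 ≤ 1 := by
        calc n * (x ^ 4 * (n : ℝ) ^ 3) ^ 5 = (x ^ 5 * (n : ℝ) ^ 4) ^ 4 := by ring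
          _ ≤ 1 := pow_le_one₀ (by positivity) h2
      have h4 : n * (x ^ 4 * (n : ℝ) ^ 3) ^ 5 ≤ n * t ^ 20 := by linarith
      have h5 := le_of_mul_le_mul_left h4 hn'
      refine h5.trans ?_
      calc t ^ 20 ≤ (B * ψ) ^ 20 := pow_le_pow_left₀ ht.le hc.le 20
        _ = ((B * ψ) ^ 4) ^ 5 := by ring
    have h6 : x ^ 4 * (n : ℝ) ^ 3 ≤ (B * ψ) ^ 4 :=
      le_of_pow_le_pow_left₀ (by norm_num) (by positivity) h1
    have h7 : (B : ℝ) ^ 4 * (|γ - μ| ^ 4 * (n : ℝ) ^ 3) ≤ B ^ 4 * ψ ^ 4 := by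
      calc (B : ℝ) ^ 4 * (|γ - μ| ^ 4 * (n : ℝ) ^ 3) = x ^ 4 * (n : ℝ) ^ 3 := by rw [hx]; ring
        _ ≤ (B * ψ) ^ 4 := h6
        _ = B ^ 4 * ψ ^ 4 := by ring
    exact le_of_mul_le_mul_left h7 (by positivity)

end ev

/-! ### towers -/

/-- a dense denominator against its tie: `d^100 ≤ n` -/
lemma dn_pow {d t n : ℝ} (hd : 0 ≤ d) (ht : 0 < t) (h : d ^ 5 * t ≤ 1) (htn : 1 ≤ t ^ 20 * n) :
    d ^ 100 ≤ n := by
  have h1 : d ^ 100 * t ^ 20 ≤ 1 := by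
    calc d ^ 100 * t ^ 20 = (d ^ 5 * t) ^ 20 := by ring
      _ ≤ 1 := pow_le_one₀ (by positivity) h
  have h2 : t ^ 20 * d ^ 100 ≤ t ^ 20 * n := by linarith
  exact le_of_mul_le_mul_left h2 (by positivity)

/-- **two different very accurate dense labels**: tower -/
theorem tower_ne {γ ψ t t' : ℝ} {n n' B B' : ℕ} {μ μ' : ℚ} (hB : 0 < B) (hBB : B ∣ B')
    (hB' : 0 < B') (hn' : 0 < n') (hnn : n' < n) (hr : (B' : ℝ) * ψ ≤ 1 / 10) (hψ : 0 ≤ ψ)
    (ht : 0 < t) (ht' : 0 < t') (htn' : 1 ≤ t' ^ 20 * n') (hne : μ ≠ μ')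
    (d : (((B : ℚ) * μ).den : ℝ) ^ 5 * t ≤ 1) (d' : (((B' : ℚ) * μ').den : ℝ) ^ 5 * t' ≤ 1)
    (s : |γ - μ| ^ 4 * (n : ℝ) ^ 3 ≤ ψ ^ 4) (s' : |γ - μ'| ^ 4 * (n' : ℝ) ^ 3 ≤ ψ ^ 4) :
    (n' : ℝ) ^ 5 * t ^ 2 ≤ 1 := by
  have hB'' : (0 : ℝ) < B' := by exact_mod_cast hB'
  have hn0 : (0 : ℝ) < n' := by exact_mod_cast hn'
  have hn1 : (1 : ℝ) ≤ n' := by exact_mod_cast hn'
  have hBq : (B' : ℚ) ≠ 0 := by exact_mod_cast hB'.ne'
  set e : ℝ := B' * |γ - μ| with he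
  set e' : ℝ := B' * |γ - μ'| with he'
  have he0 : 0 ≤ e := by positivity
  have he0' : 0 ≤ e' := by positivity
  have key : ∀ x : ℝ, 0 ≤ x → x ^ 4 * (n' : ℝ) ^ 3 ≤ ψ ^ 4 →
      (B' * x) ^ 4 * (n' : ℝ) ^ 3 ≤ (1 / 10) ^ 4 := by
    intro x hx h
    calc (B' * x) ^ 4 * (n' : ℝ) ^ 3 = B' ^ 4 * (x ^ 4 * (n' : ℝ) ^ 3) := by ring
      _ ≤ B' ^ 4 * ψ ^ 4 := mul_le_mul_of_nonneg_left h (by positivity)
      _ = (B' * ψ) ^ 4 := by ring
      _ ≤ (1 / 10) ^ 4 := pow_le_pow_left₀ (by positivity) hr 4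
  have k1 : e ^ 4 * (n' : ℝ) ^ 3 ≤ (1 / 10) ^ 4 := by
    refine key _ (abs_nonneg _) (le_trans ?_ s)
    refine mul_le_mul_of_nonneg_left ?_ (by positivity)
    refine pow_le_pow_left₀ hn0.le ?_ 3
    exact_mod_cast hnn.le
  have k2 : e' ^ 4 * (n' : ℝ) ^ 3 ≤ (1 / 10) ^ 4 := key _ (abs_nonneg _) s'
  set D : ℝ := (((B' : ℚ) * μ).den : ℝ) with hD
  set D' : ℝ := (((B' : ℚ) * μ').den : ℝ) with hD'
  have hD0 : 1 ≤ D := by rw [hD]; exact_mod_cast Rat.den_pos _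
  have hD0' : 1 ≤ D' := by rw [hD']; exact_mod_cast Rat.den_pos _
  have hne' : (B' : ℚ) * μ ≠ B' * μ' := fun h => hne (mul_left_cancel₀ hBq h)
  have g := rat_gap hne'
  have g2 : |(((B' : ℚ) * μ : ℚ) : ℝ) - (((B' : ℚ) * μ' : ℚ) : ℝ)| ≤ e + e' := by
    have e1 : (((B' : ℚ) * μ : ℚ) : ℝ) - (((B' : ℚ) * μ' : ℚ) : ℝ) =
        B' * (γ - μ') - B' * (γ - μ) := by push_cast; ring
    rw [e1]
    refine (abs_sub _ _).trans ?_
    rw [abs_mul, abs_mul, abs_of_pos hB'']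
    linarith
  have g3 : 1 ≤ (e + e') * (D * D') := g.trans (mul_le_mul_of_nonneg_right g2 (by positivity))
  have g4 : (e + e') ^ 4 * (n' : ℝ) ^ 3 ≤ 1 := by
    have h1 : (e + e') ^ 4 ≤ 8 * (e ^ 4 + e' ^ 4) := by
      nlinarith [sq_nonneg (e - e'), sq_nonneg (e ^ 2 - e' ^ 2), sq_nonneg (e + e'),
        mul_nonneg he0 he0', sq_nonneg (e * e'), mul_nonneg (mul_nonneg he0 he0') (sq_nonneg (e - e'))]
    calc (e + e') ^ 4 * (n' : ℝ) ^ 3 ≤ 8 * (e ^ 4 + e' ^ 4) * (n' : ℝ) ^ 3 :=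
          mul_le_mul_of_nonneg_right h1 (by positivity)
      _ = 8 * (e ^ 4 * (n' : ℝ) ^ 3) + 8 * (e' ^ 4 * (n' : ℝ) ^ 3) := by ring
      _ ≤ 8 * (1 / 10) ^ 4 + 8 * (1 / 10) ^ 4 := by linarith
      _ ≤ 1 := by norm_num
  have g5 : (n' : ℝ) ^ 3 ≤ (D * D') ^ 4 := by
    have h1 : 1 ≤ ((e + e') * (D * D')) ^ 4 := one_le_pow₀ g3
    have h2 : (n' : ℝ) ^ 3 ≤ (n' : ℝ) ^ 3 * ((e + e') * (D * D')) ^ 4 :=
      le_mul_of_one_le_right (by positivity) h1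
    calc (n' : ℝ) ^ 3 ≤ (n' : ℝ) ^ 3 * ((e + e') * (D * D')) ^ 4 := h2
      _ = ((e + e') ^ 4 * (n' : ℝ) ^ 3) * (D * D') ^ 4 := by ring
      _ ≤ 1 * (D * D') ^ 4 := mul_le_mul_of_nonneg_right g4 (by positivity)
      _ = (D * D') ^ 4 := one_mul _
  have g6 : D' ^ 100 ≤ n' := dn_pow (by linarith) ht' d' htn'
  have g7 : (n' : ℝ) ^ 74 ≤ (D ^ 2) ^ 50 := by
    have h1 : ((n' : ℝ) ^ 3) ^ 25 ≤ ((D * D') ^ 4) ^ 25 := pow_le_pow_left₀ (by positivity) g5 25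
    have h2 : (n' : ℝ) * (n' : ℝ) ^ 74 ≤ n' * (D ^ 2) ^ 50 := by
      calc (n' : ℝ) * (n' : ℝ) ^ 74 = ((n' : ℝ) ^ 3) ^ 25 := by ring
        _ ≤ ((D * D') ^ 4) ^ 25 := h1
        _ = D' ^ 100 * D ^ 100 := by ring
        _ ≤ n' * D ^ 100 := mul_le_mul_of_nonneg_right g6 (by positivity)
        _ = n' * (D ^ 2) ^ 50 := by ring
    exact le_of_mul_le_mul_left h2 hn0
  have g8 : (n' : ℝ) ≤ D ^ 2 := by
    have h1 : (n' : ℝ) ^ 50 ≤ (D ^ 2) ^ 50 :=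
      (pow_le_pow_right₀ hn1 (by norm_num)).trans g7
    exact le_of_pow_le_pow_left₀ (by norm_num) (by positivity) h1
  have g9 : D ≤ (((B : ℚ) * μ).den : ℝ) := by
    obtain ⟨V, rfl⟩ := hBB
    rw [hD]
    have e1 : ((B * V : ℕ) : ℚ) * μ = (V : ℚ) * ((B : ℚ) * μ) := by push_cast; ring
    rw [e1]
    exact_mod_cast PurA41.den_mul_le V _
  have g10 : D ^ 10 * t ^ 2 ≤ 1 := by
    have h1 : D ^ 5 * t ≤ 1 := (mul_le_mul_of_nonneg_right
      (pow_le_pow_left₀ (by linarith) g9 5) ht.le).trans d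
    calc D ^ 10 * t ^ 2 = (D ^ 5 * t) ^ 2 := by ring
      _ ≤ 1 := pow_le_one₀ (by positivity) h1
  calc (n' : ℝ) ^ 5 * t ^ 2 ≤ (D ^ 2) ^ 5 * t ^ 2 :=
        mul_le_mul_of_nonneg_right (pow_le_pow_left₀ hn0.le g8 5) (by positivity)
    _ = D ^ 10 * t ^ 2 := by ring
    _ ≤ 1 := g10

/-- the denominator changes only if the prime divides it -/
lemma den_prime {s : ℕ} (hs : s.Prime) {ρ : ℚ} (h : ¬ s ∣ ρ.den) : ((s : ℚ) * ρ).den = ρ.den := by
  have h1 : ((s : ℚ) * ρ).den ∣ ρ.den := by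
    have h : ((s : ℚ) * ρ).den ∣ (s : ℚ).den * ρ.den := Rat.mul_den_dvd _ _
    rwa [Rat.den_natCast, one_mul] at h
  have hs0 : (s : ℚ) ≠ 0 := by exact_mod_cast hs.ne_zero
  have h2 : ρ.den ∣ s * ((s : ℚ) * ρ).den := by
    have e : ρ = ((1 : ℚ) / s) * ((s : ℚ) * ρ) := by field_simp
    have h3 : ρ.den ∣ ((1 : ℚ) / s).den * ((s : ℚ) * ρ).den := by
      conv_lhs => rw [e]
      exact Rat.mul_den_dvd _ _
    have h4 : ((1 : ℚ) / s).den = s := by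
      rw [one_div]
      exact Rat.inv_natCast_den_of_pos hs.pos
    rwa [h4] at h3
  have hc : Nat.Coprime ρ.den s := ((Nat.Prime.coprime_iff_not_dvd hs).2 h).symm
  exact Nat.dvd_antisymm h1 (hc.dvd_of_dvd_mul_left h2)

/-- **the same very accurate dense label, which is not the own label of the previous stage**: tower -/
theorem tower_eq {γ ψ t t' : ℝ} {n n' s B B₂ : ℕ} {μ : ℚ} (hB : 0 < B) (hB2 : B ∣ B₂)
    (hB0 : 0 < B₂) (hs : s.Prime) (hn' : 0 < n') (hn1 : 1 ≤ n) (hs' : n' < s)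
    (hr : ((s * B₂ : ℕ) : ℝ) * ψ ≤ 1 / 10) (hψ : 0 < ψ) (ht : 0 < t) (ht' : 0 < t')
    (d : (((B : ℚ) * μ).den : ℝ) ^ 5 * t ≤ 1)
    (d' : ((((s * B₂ : ℕ) : ℚ) * μ).den : ℝ) ^ 5 * t' ≤ 1)
    (hTL : (B₂ : ℝ) * ψ ≤ t') (hno : lab0 γ ψ B₂ ≠ some μ)
    (sm : |γ - μ| ^ 4 * (n : ℝ) ^ 3 ≤ ψ ^ 4) : (n' : ℝ) ^ 5 * t ^ 2 ≤ 1 := by
  have hB2' : (0 : ℝ) < B₂ := by exact_mod_cast hB0
  have hs1 : (1 : ℝ) ≤ s := by exact_mod_cast hs.one_lt.le
  have hR : (B₂ : ℝ) * ψ ≤ 1 / 10 := by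
    refine le_trans ?_ hr
    push_cast
    have : 0 ≤ (B₂ : ℝ) * ψ := by positivity
    nlinarith
  have hn1' : (1 : ℝ) ≤ n := by exact_mod_cast hn1
  -- accuracy at `B₂`
  have hacc : |(B₂ : ℝ) * γ - ((B₂ : ℚ) * μ : ℚ)| ^ 5 ≤ (B₂ * ψ) ^ 4 := by
    have e1 : |(B₂ : ℝ) * γ - ((B₂ : ℚ) * μ : ℚ)| = B₂ * |γ - μ| := by
      push_cast
      rw [← mul_sub, abs_mul, abs_of_pos hB2']
    rw [e1]
    have h1 : |γ - μ| ^ 4 ≤ ψ ^ 4 := by
      refine le_trans (le_mul_of_one_le_right (by positivity) ?_) sm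
      exact one_le_pow₀ hn1'
    have h2 : |γ - μ| ≤ ψ := le_of_pow_le_pow_left₀ (by norm_num) hψ.le h1
    have h3 : (B₂ : ℝ) * |γ - μ| ≤ B₂ * ψ := mul_le_mul_of_nonneg_left h2 hB2'.le
    have h4 : 0 ≤ (B₂ : ℝ) * |γ - μ| := by positivity
    have h5 : (B₂ : ℝ) * |γ - μ| ≤ 1 := by linarith
    calc ((B₂ : ℝ) * |γ - μ|) ^ 5 = (B₂ * |γ - μ|) * (B₂ * |γ - μ|) ^ 4 := by ring
      _ ≤ 1 * (B₂ * |γ - μ|) ^ 4 := mul_le_mul_of_nonneg_right h5 (by positivity)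
      _ ≤ (B₂ * ψ) ^ 4 := by
          rw [one_mul]
          exact pow_le_pow_left₀ h4 h3 4
  have hden : 1 < (((B₂ : ℚ) * μ).den : ℝ) ^ 5 * (B₂ * ψ) := by
    by_contra hc
    push Not at hc
    exact hno (StCh24.lab0_of_Lab hB0 ⟨by positivity, hR, hc, hacc⟩)
  have hdvd : s ∣ ((B₂ : ℚ) * μ).den := by
    by_contra hc
    have e1 := den_prime hs hc
    have e2 : ((s * B₂ : ℕ) : ℚ) * μ = (s : ℚ) * ((B₂ : ℚ) * μ) := by push_cast; ring
    rw [e2, e1] at d'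
    have h1 : (((B₂ : ℚ) * μ).den : ℝ) ^ 5 * (B₂ * ψ) ≤ (((B₂ : ℚ) * μ).den : ℝ) ^ 5 * t' :=
      mul_le_mul_of_nonneg_left hTL (by positivity)
    linarith
  have h1 : s ≤ ((B₂ : ℚ) * μ).den := Nat.le_of_dvd (Rat.den_pos _) hdvd
  have h2 : ((B₂ : ℚ) * μ).den ≤ ((B : ℚ) * μ).den := by
    obtain ⟨V, rfl⟩ := hB2
    have e1 : ((B * V : ℕ) : ℚ) * μ = (V : ℚ) * ((B : ℚ) * μ) := by push_cast; ring
    rw [e1]
    exact PurA41.den_mul_le V _
  have h3 : (n' : ℝ) ≤ (((B : ℚ) * μ).den : ℝ) := by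
    exact_mod_cast (hs'.le.trans h1).trans h2
  have hn0 : (1 : ℝ) ≤ n' := by exact_mod_cast hn'
  set D : ℝ := (((B : ℚ) * μ).den : ℝ) with hD
  have hD1 : 1 ≤ D := hn0.trans h3
  calc (n' : ℝ) ^ 5 * t ^ 2 ≤ D ^ 5 * t ^ 2 :=
        mul_le_mul_of_nonneg_right (pow_le_pow_left₀ (by linarith) h3 5) (by positivity)
    _ ≤ D ^ 10 * t ^ 2 := mul_le_mul_of_nonneg_right (pow_le_pow_right₀ hD1 (by norm_num))
        (by positivity)
    _ = (D ^ 5 * t) ^ 2 := by ring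
    _ ≤ 1 := pow_le_one₀ (by positivity) d

/-! ### the rate -/

/-- the products of the missing ties divide each other -/
lemma lst_dvd (Mt : Finset ℕ) {p p' : ℕ} (h : p' ≤ p) : (lst Mt p).prod ∣ (lst Mt p').prod := by
  rw [lst_prod, lst_prod]
  refine Finset.prod_dvd_prod_of_subset _ _ _ fun s hs => ?_
  obtain ⟨a, b⟩ := Finset.mem_filter.1 hs
  exact Finset.mem_filter.2 ⟨a, by omega⟩

/-- the previous stage: if the lists at `n' < n` differ, the tail of the list at `n'` is a multiple of the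
list at `n` -/
lemma tail_dvd {Mt : Finset ℕ} {n n' s : ℕ} {L : List ℕ} (hn : n' ≤ n) (hL : lst Mt n' = s :: L)
    (hne : lst Mt n ≠ lst Mt n') : (lst Mt n).prod ∣ L.prod ∧ n' < s := by
  classical
  have hs : s ∈ lst Mt n' := by rw [hL]; exact List.mem_cons_self
  obtain ⟨hs1, hs2⟩ := mem_lst.1 hs
  refine ⟨?_, hs2⟩
  -- `s ≤ n`
  have hsn : s ≤ n := by
    by_contra hc
    push Not at hc
    apply hne
    unfold lst
    congr 1
    ext l
    simp only [Finset.mem_filter]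
    constructor
    · exact fun h => ⟨h.1, by omega⟩
    · rintro ⟨h1, h2⟩
      refine ⟨h1, ?_⟩
      have h3 : l ∈ lst Mt n' := mem_lst.2 ⟨h1, h2⟩
      have h4 : (lst Mt n').Pairwise (· ≤ ·) := by
        unfold lst
        exact Finset.pairwise_sort _ _
      rw [hL] at h3 h4
      rcases List.mem_cons.1 h3 with rfl | h5
      · exact hc
      · have := (List.pairwise_cons.1 h4).1 l h5
        omega
  have h1 : (lst Mt n').prod = s * L.prod := by rw [hL, List.prod_cons]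
  have h2 : (lst Mt n').prod = s * ∏ l ∈ (Mt.filter (n' < ·)).erase s, l := by
    rw [lst_prod]
    exact (Finset.mul_prod_erase _ (fun l => l) (Finset.mem_filter.2 ⟨hs1, hs2⟩)).symm
  rcases Nat.eq_zero_or_pos s with rfl | hs0
  · omega
  have h3 : L.prod = ∏ l ∈ (Mt.filter (n' < ·)).erase s, l := by
    have : s * L.prod = s * ∏ l ∈ (Mt.filter (n' < ·)).erase s, l := by rw [← h1, h2]
    exact Nat.eq_of_mul_eq_mul_left hs0 this
  rw [h3, lst_prod]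
  refine Finset.prod_dvd_prod_of_subset _ _ _ fun l hl => ?_
  obtain ⟨a, b⟩ := Finset.mem_filter.1 hl
  exact Finset.mem_erase.2 ⟨by omega, Finset.mem_filter.2 ⟨a, by omega⟩⟩

/-- **THE RATE OF THE ACCURACY EVENTS OF A PIECE**, uniform -/
theorem acc_rate : ∃ C : ℝ, 0 < C ∧ ∀ (γ ψ z U p₀ : ℝ) (thr : ℕ → ℝ) (Mt F : Finset ℕ)
    (σ μ : ℕ → ℚ), 9 ≤ p₀ → 1 ≤ U → 0 < ψ → |z| ≤ ψ → (∀ l ∈ Mt, l.Prime) →
    (∀ m k : ℕ, p₀ < m → m ≤ k → thr k ≤ thr m) → (∀ n ∈ F, 0 < thr n) →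
    (∀ n ∈ F, 1 ≤ thr n ^ 20 * n) → (∀ n ∈ F, (4 * U) ^ 4 ≤ n) →
    (∀ n ∈ F, ∀ n' ∈ F, n' < n → (n' : ℝ) ^ 5 * thr n ^ 2 ≤ 1 → 2 * Real.log n' ≤ Real.log n) →
    (∀ n ∈ F, ∀ s L, lst Mt n = s :: L → (L.prod : ℝ) * ψ ≤ thr s) →
    (∀ n ∈ F, ((lst Mt n).prod : ℝ) * ψ ≤ 1 / 10) →
    (∀ n ∈ F, n.Prime ∧ p₀ < n ∧ Ev γ z U (thr n) n (lst Mt n).prod (σ n) (μ n)) →
    (∀ n ∈ F, σ n ≠ μ n → thr n < ((lst Mt n).prod : ℝ) * ψ ∧
      ∀ s L, lst Mt n = s :: L → lab0 γ ψ L.prod ≠ some (μ n)) →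
    (∀ n ∈ F, ∀ n' ∈ F, σ n ≠ μ n → σ n' ≠ μ n' → lst Mt n = lst Mt n' → σ n = σ n') →
      ∑ n ∈ F, (1 : ℝ) / n ≤ C * (Real.log U + 1) / Real.log p₀ := by
  classical
  obtain ⟨C, hC, h⟩ := group_sum
  refine ⟨2 * C, by positivity, ?_⟩
  intro γ ψ z U p₀ thr Mt F σ μ h9 hU hψ hz hMt hanti hpos h20 h4U htw hTL h10 hEv hfat hsame
  have hBpos : ∀ n, 0 < (lst Mt n).prod := by
    intro n
    rw [lst_prod]
    exact Finset.prod_pos fun s hs => (hMt s (Finset.mem_filter.1 hs).1).pos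
  have hn0 : ∀ n ∈ F, 0 < n := fun n hn => (hEv n hn).1.pos
  -- the labels of the missing pieces are very accurate
  have hsm : ∀ n ∈ F, |γ - μ n| ^ 4 * (n : ℝ) ^ 3 ≤ ψ ^ 4 := by
    intro n hn
    refine (hEv n hn).2.2.small (hn0 n hn) (hBpos n) hU (h4U n hn) hψ.le hz (hpos n hn)
      (h20 n hn) ?_
    by_cases e : σ n = μ n
    · exact Or.inl e
    · exact Or.inr (hfat n hn e).1
  have tow : ∀ n ∈ F, ∀ n' ∈ F, n' < n → μ n ≠ μ n' → 2 * Real.log n' ≤ Real.log n := by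
    intro n hn n' hn' hlt hne
    exact htw n hn n' hn' hlt (tower_ne (hBpos n) (lst_dvd Mt hlt.le) (hBpos n') (hn0 n' hn') hlt
      (h10 n' hn') hψ.le (hpos n hn) (hpos n' hn') (h20 n' hn') hne (hEv n hn).2.2.dn
      (hEv n' hn').2.2.dn (hsm n hn) (hsm n' hn'))
  set q : ℕ → ℝ := fun n => |z + (γ - σ n)| / |γ - μ n| with hq
  have hA := h U p₀ h9 hU (F.filter fun n => σ n = μ n) q (fun n hn => by
    obtain ⟨a, -⟩ := Finset.mem_filter.1 hn
    exact ⟨(hEv n a).1, (hEv n a).2.1, (hEv n a).2.2.norm⟩) (fun n hn n' hn' hlt hne => by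
      obtain ⟨a, b⟩ := Finset.mem_filter.1 hn
      obtain ⟨a', b'⟩ := Finset.mem_filter.1 hn'
      refine tow n a n' a' hlt fun e => hne ?_
      simp only [hq]
      rw [b, b', e])
  have hBs := h U p₀ h9 hU (F.filter fun n => ¬ σ n = μ n) q (fun n hn => by
    obtain ⟨a, -⟩ := Finset.mem_filter.1 hn
    exact ⟨(hEv n a).1, (hEv n a).2.1, (hEv n a).2.2.norm⟩) (fun n hn n' hn' hlt hne => by
      obtain ⟨a, b⟩ := Finset.mem_filter.1 hn
      obtain ⟨a', b'⟩ := Finset.mem_filter.1 hn'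
      by_cases e : μ n = μ n'
      · have hσ : σ n ≠ σ n' := fun e2 => hne (by simp only [hq]; rw [e, e2])
        have hl : lst Mt n ≠ lst Mt n' := fun e2 => hσ (hsame n a n' a' b b' e2)
        obtain ⟨f1, f2⟩ := hfat n' a' b'
        cases hL : lst Mt n' with
        | nil =>
          exfalso
          apply hl
          rw [hL]
          have h1 : (lst Mt n) = [] := by
            rw [List.eq_nil_iff_forall_not_mem]
            intro l hl2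
            obtain ⟨c1, c2⟩ := mem_lst.1 hl2
            have : l ∈ lst Mt n' := mem_lst.2 ⟨c1, by omega⟩
            rw [hL] at this
            exact absurd this (by simp)
          exact h1
        | cons s L =>
          obtain ⟨t1, t2⟩ := tail_dvd hlt.le hL hl
          have hsm2 : s ∈ Mt := by
            have : s ∈ lst Mt n' := by rw [hL]; exact List.mem_cons_self
            exact (mem_lst.1 this).1
          have hsp := hMt s hsm2
          have hLp : 0 < L.prod := by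
            have h1 := hBpos n'
            rw [hL, List.prod_cons] at h1
            exact Nat.pos_of_mul_pos_left h1
          have e10 := h10 n' a'
          have ed := (hEv n' a').2.2.dn
          rw [hL, List.prod_cons] at e10 ed
          rw [← e] at ed
          refine htw n a n' a' hlt (tower_eq (hBpos n) t1 hLp hsp (hn0 n' a') (hn0 n a) t2 e10 hψ
            (hpos n a) (hpos n' a') (hEv n a).2.2.dn ed ?_ ?_ (hsm n a))
          · refine (hTL n' a' s L hL).trans (hanti n' s (hEv n' a').2.1 t2.le)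
          · rw [e]
            exact f2 s L hL
      · exact tow n a n' a' hlt e)
  rw [← Finset.sum_filter_add_sum_filter_not F (fun n => σ n = μ n)]
  have : 2 * C * (Real.log U + 1) / Real.log p₀ =
      C * (Real.log U + 1) / Real.log p₀ + C * (Real.log U + 1) / Real.log p₀ := by ring
  rw [this]
  exact add_le_add hA hBs

end Crest.Agent.R4P.AccR41
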