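import Crest.Agent.R4P.AccC_41

/-!
R4 (S0004) with powers, T3, helper41: **the accuracy windows of a piece, cofactors up to `U n`** (a bound
which grows with the tie, for instance `U n = (log n)^K`), the same as `AccR_41`, `AccC_41`:

  `∑_{n ∈ F} 1/n ≤ C (1 + D) / √(log p₀)`   if `1 + log (U n) ≤ D √(log m)` for `m ≤ n ≤ m²`.
-/

set_option autoImplicit false
set_option linter.unusedSectionVars false
set_option linter.unusedVariables false

open Filter

namespace Crest.Agent.R4P.AccU41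

open Crest.Agent.R4.LF363 Crest.Agent.R4.W363 Crest.Agent.R4P.PurA41 Crest.Agent.R4P.PurN41
open Crest.Agent.R4P.AccR41

/-- **ties of windows with separated centres**, growing cofactors -/
theorem group_sumU : ∃ C : ℝ, 0 < C ∧ ∀ (U : ℕ → ℝ) (D p₀ : ℝ), 9 ≤ p₀ → 0 ≤ D →
    ∀ (F : Finset ℕ) (q : ℕ → ℝ), (∀ n ∈ F, 1 ≤ U n ∧ (4 * U n) ^ 4 ≤ n) →
    (∀ n ∈ F, ∀ m ∈ F, m ≤ n → n ≤ m ^ 2 → 1 + Real.log (U n) ≤ D * Real.sqrt (Real.log m)) →
    (∀ n ∈ F, n.Prime ∧ p₀ < n ∧ ∃ u v : ℕ, 0 < u ∧ 0 < v ∧ (u : ℝ) ≤ U n ∧ (v : ℝ) ≤ U n ∧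
      ((n * u : ℕ) : ℝ) ≤ 2 * (v * q n) ∧ 2 * (v * q n) ≤ 3 * ((n * u : ℕ) : ℝ)) →
    (∀ n ∈ F, ∀ n' ∈ F, n' < n → q n ≠ q n' → 4 * Real.log n' ≤ Real.log n) →
      ∑ n ∈ F, (1 : ℝ) / n ≤ C * (D + 1) / Real.sqrt (Real.log p₀) := by
  classical
  obtain ⟨C, hC, h⟩ := win_sum
  refine ⟨20 * C, by positivity, fun U D p₀ h9 hD F q hU hUD hF hsep => ?_⟩
  have hlp : 0 < Real.log p₀ := Real.log_pos (by linarith)
  set V : Finset ℝ := F.image q with hV
  have hex : ∀ x ∈ V, ∃ m ∈ F, q m = x ∧ ∀ n ∈ F, q n = x → m ≤ n := by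
    intro x hx
    obtain ⟨n, hn, hnx⟩ := Finset.mem_image.1 hx
    have hne : (F.filter fun n => q n = x).Nonempty := ⟨n, Finset.mem_filter.2 ⟨hn, hnx⟩⟩
    obtain ⟨m, hm, hmin⟩ := (F.filter fun n => q n = x).exists_min_image id hne
    obtain ⟨a, b⟩ := Finset.mem_filter.1 hm
    exact ⟨m, a, b, fun n hn hnx => hmin n (Finset.mem_filter.2 ⟨hn, hnx⟩)⟩
  choose! m hmF hmq hmin using hex
  have key : ∀ x ∈ V, ∑ n ∈ F.filter (fun n => q n = x), (1 : ℝ) / n ≤
      C * (D + 1) * 10 * (1 / Real.sqrt (Real.log (m x))) := by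
    intro x hx
    obtain ⟨a1, a2, um, vm, am1, am2, am3, am4, am5, am6⟩ := hF (m x) (hmF x hx)
    have hm9 : (9 : ℝ) < m x := lt_of_le_of_lt h9 a2
    have hm0 : (0 : ℝ) < m x := by linarith
    have hlm1 : 1 ≤ Real.log (m x) := by
      rw [Real.le_log_iff_exp_le hm0]
      have := Real.exp_one_lt_d9
      linarith
    have hlm : 0 < Real.log (m x) := by linarith
    have hs1 : 1 ≤ Real.sqrt (Real.log (m x)) := Real.one_le_sqrt.2 hlm1
    set S := Real.sqrt (Real.log (m x)) with hS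
    have hSS : S * S = Real.log (m x) := Real.mul_self_sqrt hlm.le
    have hUm := hU (m x) (hmF x hx)
    have hUm0 : 0 < U (m x) := by linarith [hUm.1]
    -- every tie of the group
    have hgrp : ∀ n ∈ F, q n = x → (m x : ℝ) ≤ n ∧
        (n : ℝ) ≤ 3 * Real.exp (2 * (D * S)) * m x := by
      intro n hn hnx
      have hmn := hmin x hx n hn hnx
      have hmn' : (m x : ℝ) ≤ n := by exact_mod_cast hmn
      refine ⟨hmn', ?_⟩
      obtain ⟨b1, b2, u, v, b3, b4, b5, b6, b7, b8⟩ := hF n hn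
      have hUn := hU n hn
      have hUn0 : 0 < U n := by linarith [hUn.1]
      have hn0 : (0 : ℝ) < n := by linarith
      have hx' : q (m x) = x := hmq x hx
      rw [hnx] at b7
      rw [hx'] at am6
      have hvm : (1 : ℝ) ≤ vm := by exact_mod_cast am2
      have hu1 : (1 : ℝ) ≤ u := by exact_mod_cast b3
      -- the centre is nonnegative
      have hx0 : 0 ≤ x := by
        by_contra hc
        push Not at hc
        have h1 : (v : ℝ) * x ≤ 0 := mul_nonpos_of_nonneg_of_nonpos (Nat.cast_nonneg _) hc.le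
        have h2 : (0 : ℝ) < ((n * u : ℕ) : ℝ) := by
          exact_mod_cast Nat.mul_pos b1.pos b3
        linarith
      have c1 : 2 * x ≤ 3 * (m x * U (m x)) := by
        push_cast at am6
        calc 2 * x ≤ 2 * (vm * x) := by nlinarith
          _ ≤ 3 * (m x * um) := am6
          _ ≤ 3 * (m x * U (m x)) := by nlinarith
      have c2 : (n : ℝ) ≤ 3 * (U n * U (m x)) * m x := by
        push_cast at b7
        calc (n : ℝ) ≤ n * u := le_mul_of_one_le_right hn0.le hu1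
          _ ≤ 2 * (v * x) := b7
          _ ≤ 2 * (U n * x) := by
              have := mul_le_mul_of_nonneg_right b6 hx0
              linarith
          _ = U n * (2 * x) := by ring
          _ ≤ U n * (3 * (m x * U (m x))) := mul_le_mul_of_nonneg_left c1 hUn0.le
          _ = 3 * (U n * U (m x)) * m x := by ring
      -- `n ≤ m²`
      have c3 : n ≤ m x ^ 2 := by
        by_contra hc
        push Not at hc
        have hc' : (m x : ℝ) ^ 2 < n := by exact_mod_cast hc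
        have d1 : (4 * U n) ^ 4 * (4 * U (m x)) ^ 4 ≤ (n : ℝ) * (m x : ℝ) :=
          mul_le_mul hUn.2 hUm.2 (by positivity) hn0.le
        have d2 : (16 * (U n * U (m x))) ^ 4 ≤ (n : ℝ) * (m x : ℝ) := by
          calc (16 * (U n * U (m x))) ^ 4 = (4 * U n) ^ 4 * (4 * U (m x)) ^ 4 := by ring
            _ ≤ (n : ℝ) * (m x : ℝ) := d1
        have d3 : (n : ℝ) ^ 4 ≤ (n : ℝ) * (m x : ℝ) * (m x : ℝ) ^ 4 := by
          calc (n : ℝ) ^ 4 ≤ (3 * (U n * U (m x)) * (m x : ℝ)) ^ 4 := pow_le_pow_left₀ hn0.le c2 4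
            _ ≤ (16 * (U n * U (m x)) * (m x : ℝ)) ^ 4 := by
                refine pow_le_pow_left₀ (by positivity) ?_ 4
                refine mul_le_mul_of_nonneg_right ?_ hm0.le
                nlinarith [mul_pos hUn0 hUm0]
            _ = (16 * (U n * U (m x))) ^ 4 * (m x : ℝ) ^ 4 := by ring
            _ ≤ (n : ℝ) * (m x : ℝ) * (m x : ℝ) ^ 4 := mul_le_mul_of_nonneg_right d2 (by positivity)
        have d4 : (n : ℝ) ^ 3 ≤ (m x : ℝ) ^ 5 := by
          have : (n : ℝ) * (n : ℝ) ^ 3 ≤ (n : ℝ) * (m x : ℝ) ^ 5 := by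
            calc (n : ℝ) * (n : ℝ) ^ 3 = (n : ℝ) ^ 4 := by ring
              _ ≤ (n : ℝ) * (m x : ℝ) * (m x : ℝ) ^ 4 := d3
              _ = (n : ℝ) * (m x : ℝ) ^ 5 := by ring
          exact le_of_mul_le_mul_left this hn0
        have d5 : ((m x : ℝ) ^ 2) ^ 3 < (n : ℝ) ^ 3 := pow_lt_pow_left₀ hc' (by positivity) (by norm_num)
        have d6 : (m x : ℝ) ^ 5 ≤ ((m x : ℝ) ^ 2) ^ 3 := by
          rw [← pow_mul]
          exact pow_le_pow_right₀ (by linarith) (by norm_num)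
        linarith
      have e1 : Real.log (U n) ≤ D * S := by
        have := hUD n hn (m x) (hmF x hx) hmn c3
        linarith
      have e2 : Real.log (U (m x)) ≤ D * S := by
        have := hUD (m x) (hmF x hx) (m x) (hmF x hx) le_rfl
          (by
            have : 1 ≤ m x := a1.one_lt.le
            nlinarith)
        linarith
      have e3 : U n ≤ Real.exp (D * S) := (Real.log_le_iff_le_exp hUn0).1 e1
      have e4 : U (m x) ≤ Real.exp (D * S) := (Real.log_le_iff_le_exp hUm0).1 e2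
      have e5 : U n * U (m x) ≤ Real.exp (2 * (D * S)) := by
        calc U n * U (m x) ≤ Real.exp (D * S) * Real.exp (D * S) :=
              mul_le_mul e3 e4 hUm0.le (Real.exp_pos _).le
          _ = Real.exp (2 * (D * S)) := by rw [← Real.exp_add]; congr 1; ring
      calc (n : ℝ) ≤ 3 * (U n * U (m x)) * m x := c2
        _ ≤ 3 * Real.exp (2 * (D * S)) * m x := by
            refine mul_le_mul_of_nonneg_right ?_ hm0.le
            linarith
    set P : ℝ := max p₀ ((m x : ℝ) / 2) with hP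
    have hP9 : 9 ≤ P := h9.trans (le_max_left _ _)
    have hP0 : 0 < P := by linarith
    have hPm : P ≤ m x := max_le a2.le (by linarith)
    set Q : ℝ := 3 * Real.exp (2 * (D * S)) * m x with hQ
    have hexp1 : 1 ≤ Real.exp (2 * (D * S)) := Real.one_le_exp (by positivity)
    have hmQ : (m x : ℝ) ≤ Q := by
      rw [hQ]
      nlinarith
    have h1 := h P Q hP9 (hPm.trans hmQ) (F.filter fun n => q n = x) fun n hn => by
      obtain ⟨b1, b2⟩ := Finset.mem_filter.1 hn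
      obtain ⟨c1, c2, -⟩ := hF n b1
      obtain ⟨g1, g2⟩ := hgrp n b1 b2
      refine ⟨c1, ?_, g2⟩
      rw [hP]
      exact max_lt c2 (by linarith)
    refine h1.trans ?_
    have hl2 : Real.log (m x) / 2 ≤ Real.log P := by
      have h3 : Real.sqrt (m x) ≤ P := by
        refine le_trans ?_ (le_max_right _ _)
        rw [Real.sqrt_le_left (by linarith)]
        nlinarith
      have h4 : 0 < Real.sqrt (m x) := Real.sqrt_pos.2 (by linarith)
      have h5 := Real.log_le_log h4 h3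
      rwa [Real.log_sqrt (by linarith)] at h5
    have hlP : 0 < Real.log P := by linarith
    have hQP : Real.log (Q / P) ≤ 2 + 2 * (D * S) := by
      have h3 : Q / P ≤ 6 * Real.exp (2 * (D * S)) := by
        rw [div_le_iff₀ hP0, hQ]
        have : (m x : ℝ) / 2 ≤ P := le_max_right _ _
        have h5 : (m x : ℝ) ≤ 2 * P := by linarith
        calc 3 * Real.exp (2 * (D * S)) * m x ≤ 3 * Real.exp (2 * (D * S)) * (2 * P) :=
              mul_le_mul_of_nonneg_left h5 (by positivity)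
          _ = 6 * Real.exp (2 * (D * S)) * P := by ring
      have h4 : 0 < Q / P := div_pos (by linarith) hP0
      refine (Real.log_le_log h4 h3).trans ?_
      rw [Real.log_mul (by norm_num) (Real.exp_pos _).ne', Real.log_exp]
      have : Real.log 6 ≤ 2 := by
        rw [Real.log_le_iff_le_exp (by norm_num)]
        have h7 : (2.7 : ℝ) ≤ Real.exp 1 := by linarith [Real.exp_one_gt_d9]
        have h8 : Real.exp 2 = Real.exp 1 * Real.exp 1 := by rw [← Real.exp_add]; norm_num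
        rw [h8]
        nlinarith
      linarith
    have h6 : Real.log (Q / P) + 1 ≤ 5 * (D + 1) * S := by
      have : 0 ≤ D * S := by positivity
      nlinarith
    calc C * (Real.log (Q / P) + 1) / Real.log P ≤ C * (5 * (D + 1) * S) / (Real.log (m x) / 2) := by
          refine div_le_div₀ (by positivity) (mul_le_mul_of_nonneg_left h6 hC.le) (by linarith) hl2
      _ = C * (D + 1) * 10 * (1 / S) := by
          rw [← hSS]
          have : S ≠ 0 := by linarith
          field_simp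
          ring
  have hs : ∑ n ∈ F, (1 : ℝ) / n = ∑ x ∈ V, ∑ n ∈ F.filter (fun n => q n = x), (1 : ℝ) / n :=
    (Finset.sum_fiberwise_of_maps_to (fun n hn => Finset.mem_image_of_mem q hn) _).symm
  rw [hs]
  refine (Finset.sum_le_sum key).trans ?_
  rw [← Finset.mul_sum]
  have hgeo : ∑ x ∈ V, 1 / Real.sqrt (Real.log (m x)) ≤ 2 / Real.sqrt (Real.log p₀) := by
    refine geo_real (fun x => Real.sqrt (Real.log (m x))) V.card V rfl _ (Real.sqrt_pos.2 hlp)
      (fun x hx => ?_) ?_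
    · obtain ⟨-, a2, -⟩ := hF (m x) (hmF x hx)
      exact Real.sqrt_le_sqrt (Real.log_le_log (by linarith) a2.le)
    · intro x hx y hy hxy
      have hne : m x ≠ m y := fun e => hxy (by rw [← hmq x hx, ← hmq y hy, e])
      have hsq : ∀ a b : ℕ, 4 * Real.log a ≤ Real.log b →
          2 * Real.sqrt (Real.log a) ≤ Real.sqrt (Real.log b) := by
        intro a b hab
        have h1 : 2 * Real.sqrt (Real.log a) = Real.sqrt (4 * Real.log a) := by
          rw [Real.sqrt_mul (by norm_num), show (4 : ℝ) = 2 ^ 2 by norm_num,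
            Real.sqrt_sq (by norm_num)]
        rw [h1]
        exact Real.sqrt_le_sqrt hab
      rcases lt_or_gt_of_ne hne with hlt | hlt
      · left
        exact hsq _ _ (hsep (m y) (hmF y hy) (m x) (hmF x hx) hlt (by
          rw [hmq x hx, hmq y hy]; exact Ne.symm hxy))
      · right
        exact hsq _ _ (hsep (m x) (hmF x hx) (m y) (hmF y hy) hlt (by
          rw [hmq x hx, hmq y hy]; exact hxy))
  calc C * (D + 1) * 10 * ∑ x ∈ V, 1 / Real.sqrt (Real.log (m x)) ≤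
      C * (D + 1) * 10 * (2 / Real.sqrt (Real.log p₀)) :=
        mul_le_mul_of_nonneg_left hgeo (by positivity)
    _ = 20 * C * (D + 1) / Real.sqrt (Real.log p₀) := by ring

/-- **THE RATE OF THE ACCURACY EVENTS OF A PIECE**, uniform, growing cofactors -/
theorem acc_rateU : ∃ C : ℝ, 0 < C ∧ ∀ (γ ψ z D p₀ : ℝ) (U thr : ℕ → ℝ) (Mt F : Finset ℕ)
    (σ μ : ℕ → ℚ), 9 ≤ p₀ → 0 ≤ D → 0 < ψ → |z| ≤ ψ → (∀ l ∈ Mt, l.Prime) →
    (∀ m k : ℕ, p₀ < m → m ≤ k → thr k ≤ thr m) → (∀ n ∈ F, 0 < thr n) →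
    (∀ n ∈ F, 1 ≤ thr n ^ 20 * n) → (∀ n ∈ F, 1 ≤ U n ∧ (4 * U n) ^ 4 ≤ n) →
    (∀ n ∈ F, ∀ m ∈ F, m ≤ n → n ≤ m ^ 2 → 1 + Real.log (U n) ≤ D * Real.sqrt (Real.log m)) →
    (∀ n ∈ F, ∀ n' ∈ F, n' < n → (n' : ℝ) ^ 5 * thr n ^ 2 ≤ 1 → 4 * Real.log n' ≤ Real.log n) →
    (∀ n ∈ F, ∀ s L, lst Mt n = s :: L → (L.prod : ℝ) * ψ ≤ thr s) →
    (∀ n ∈ F, ((lst Mt n).prod : ℝ) * ψ ≤ 1 / 10) →
    (∀ n ∈ F, n.Prime ∧ p₀ < n ∧ Ev γ z (U n) (thr n) n (lst Mt n).prod (σ n) (μ n)) →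
    (∀ n ∈ F, σ n ≠ μ n → thr n < ((lst Mt n).prod : ℝ) * ψ ∧
      ∀ s L, lst Mt n = s :: L → lab0 γ ψ L.prod ≠ some (μ n)) →
    (∀ n ∈ F, ∀ n' ∈ F, σ n ≠ μ n → σ n' ≠ μ n' → lst Mt n = lst Mt n' → σ n = σ n') →
      ∑ n ∈ F, (1 : ℝ) / n ≤ C * (D + 1) / Real.sqrt (Real.log p₀) := by
  classical
  obtain ⟨C, hC, h⟩ := group_sumU
  refine ⟨2 * C, by positivity, ?_⟩
  intro γ ψ z D p₀ U thr Mt F σ μ h9 hD hψ hz hMt hanti hpos h20 h4U hUD htw hTL h10 hEv hfat hsame
  have hBpos : ∀ n, 0 < (lst Mt n).prod := by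
    intro n
    rw [lst_prod]
    exact Finset.prod_pos fun s hs => (hMt s (Finset.mem_filter.1 hs).1).pos
  have hn0 : ∀ n ∈ F, 0 < n := fun n hn => (hEv n hn).1.pos
  have hsm : ∀ n ∈ F, |γ - μ n| ^ 4 * (n : ℝ) ^ 3 ≤ ψ ^ 4 := by
    intro n hn
    refine (hEv n hn).2.2.small (hn0 n hn) (hBpos n) (h4U n hn).1 (h4U n hn).2 hψ.le hz (hpos n hn)
      (h20 n hn) ?_
    by_cases e : σ n = μ n
    · exact Or.inl e
    · exact Or.inr (hfat n hn e).1
  have tow : ∀ n ∈ F, ∀ n' ∈ F, n' < n → μ n ≠ μ n' → 4 * Real.log n' ≤ Real.log n := by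
    intro n hn n' hn' hlt hne
    exact htw n hn n' hn' hlt (tower_ne (hBpos n) (lst_dvd Mt hlt.le) (hBpos n') (hn0 n' hn') hlt
      (h10 n' hn') hψ.le (hpos n hn) (hpos n' hn') (h20 n' hn') hne (hEv n hn).2.2.dn
      (hEv n' hn').2.2.dn (hsm n hn) (hsm n' hn'))
  set q : ℕ → ℝ := fun n => |z + (γ - σ n)| / |γ - μ n| with hq
  have hA := h U D p₀ h9 hD (F.filter fun n => σ n = μ n) q
    (fun n hn => h4U n (Finset.mem_filter.1 hn).1)
    (fun n hn m hm => hUD n (Finset.mem_filter.1 hn).1 m (Finset.mem_filter.1 hm).1)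
    (fun n hn => by
      obtain ⟨a, -⟩ := Finset.mem_filter.1 hn
      exact ⟨(hEv n a).1, (hEv n a).2.1, (hEv n a).2.2.norm⟩) (fun n hn n' hn' hlt hne => by
      obtain ⟨a, b⟩ := Finset.mem_filter.1 hn
      obtain ⟨a', b'⟩ := Finset.mem_filter.1 hn'
      refine tow n a n' a' hlt fun e => hne ?_
      simp only [hq]
      rw [b, b', e])
  have hBs := h U D p₀ h9 hD (F.filter fun n => ¬ σ n = μ n) q
    (fun n hn => h4U n (Finset.mem_filter.1 hn).1)
    (fun n hn m hm => hUD n (Finset.mem_filter.1 hn).1 m (Finset.mem_filter.1 hm).1)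
    (fun n hn => by
      obtain ⟨a, -⟩ := Finset.mem_filter.1 hn
      exact ⟨(hEv n a).1, (hEv n a).2.1, (hEv n a).2.2.norm⟩) (fun n hn n' hn' hlt hne => by
      obtain ⟨a, b⟩ := Finset.mem_filter.1 hn
      obtain ⟨a', b'⟩ := Finset.mem_filter.1 hn'
      by_cases e : μ n = μ n'
      · have hσ : σ n ≠ σ n' := fun e2 => hne (by simp only [hq]; rw [e, e2])
        have hl : lst Mt n ≠ lst Mt n' := fun e2 => hσ (hsame n a n' a' b b' e2)
        obtain ⟨f1, f2⟩ := hfat n' a' b'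
        cases hL : lst Mt n' with
        | nil =>
          exfalso
          apply hl
          rw [hL]
          have h1 : (lst Mt n) = [] := by
            rw [List.eq_nil_iff_forall_not_mem]
            intro l hl2
            obtain ⟨c1, c2⟩ := mem_lst.1 hl2
            have : l ∈ lst Mt n' := mem_lst.2 ⟨c1, by omega⟩
            rw [hL] at this
            exact absurd this (by simp)
          exact h1
        | cons s L =>
          obtain ⟨t1, t2⟩ := tail_dvd hlt.le hL hl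
          have hsm2 : s ∈ Mt := by
            have : s ∈ lst Mt n' := by rw [hL]; exact List.mem_cons_self
            exact (mem_lst.1 this).1
          have hsp := hMt s hsm2
          have hLp : 0 < L.prod := by
            have h1 := hBpos n'
            rw [hL, List.prod_cons] at h1
            exact Nat.pos_of_mul_pos_left h1
          have e10 := h10 n' a'
          have ed := (hEv n' a').2.2.dn
          rw [hL, List.prod_cons] at e10 ed
          rw [← e] at ed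
          refine htw n a n' a' hlt (tower_eq (hBpos n) t1 hLp hsp (hn0 n' a') (hn0 n a) t2 e10 hψ
            (hpos n a) (hpos n' a') (hEv n a).2.2.dn ed ?_ ?_ (hsm n a))
          · refine (hTL n' a' s L hL).trans (hanti n' s (hEv n' a').2.1 t2.le)
          · rw [e]
            exact f2 s L hL
      · exact tow n a n' a' hlt e)
  rw [← Finset.sum_filter_add_sum_filter_not F (fun n => σ n = μ n)]
  have : 2 * C * (D + 1) / Real.sqrt (Real.log p₀) =
      C * (D + 1) / Real.sqrt (Real.log p₀) + C * (D + 1) / Real.sqrt (Real.log p₀) := by ring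
  rw [this]
  exact add_le_add hA hBs


open Crest.Agent.R4P.Item758
open Crest.Agent.R4P.Data758 Crest.Agent.R4P.Skel189
open Crest.Agent.R4P.Link758 (Bl)
open Crest.Agent.R4P.StCh24 Crest.Agent.R4P.StB21 Crest.Agent.R4P.NumX34 Crest.Agent.R4P.ParF5
open Crest.Agent.R4P.AccC41

/-- **the rate of the accuracy events**, for a configuration, growing cofactors -/
theorem acc_rateU_c : ∃ C : ℝ, 0 < C ∧ ∀ (c : Cf) (N q : ℕ) (z D p₀ : ℝ) (U : ℕ → ℝ) (F : Finset ℕ),
    c.t.Ok N → 9 ≤ p₀ → 0 ≤ D → 0 < c.r q → |z| ≤ c.r q → (∀ n, c.lam n = 0) →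
    (∀ m k : ℕ, p₀ < m → m ≤ k → c.wp.thr k ≤ c.wp.thr m) → (∀ n ∈ F, 0 < c.wp.thr n) →
    (∀ n ∈ F, 1 ≤ c.wp.thr n ^ 20 * n) → (∀ n ∈ F, 1 ≤ U n ∧ (4 * U n) ^ 4 ≤ n) →
    (∀ n ∈ F, ∀ m ∈ F, m ≤ n → n ≤ m ^ 2 → 1 + Real.log (U n) ≤ D * Real.sqrt (Real.log m)) →
    (∀ n ∈ F, ∀ n' ∈ F, n' < n → (n' : ℝ) ^ 5 * c.wp.thr n ^ 2 ≤ 1 →
      4 * Real.log n' ≤ Real.log n) →
    (∀ n ∈ F, TL c n q) → (∀ n ∈ F, (Bl c n q : ℝ) * c.r q ≤ 1 / 10) →
    (∀ n ∈ F, n.Prime ∧ p₀ < n ∧ AccBad c (U n) z q n) →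
      ∑ n ∈ F, (1 : ℝ) / n ≤ C * (D + 1) / Real.sqrt (Real.log p₀) := by
  obtain ⟨C, hC, h⟩ := acc_rateU
  refine ⟨C, hC, fun c N q z D p₀ U F hO h9 hD hr hz hlam hanti hpos h20 h4U hUD htw hTL h10 hF => ?_⟩
  have hex : ∀ n ∈ F, ∃ σ μ : ℚ, c.st n q = some σ ∧
      Ev c.γ z (U n) (c.wp.thr n) n (Bl c n q) σ μ :=
    fun n hn => (hF n hn).2.2
  choose! σ μ hst hEv using hex
  have hBpos : ∀ n, 0 < Bl c n q := by
    intro n
    unfold Bl
    rw [Crest.Agent.R4.W363.lst_prod]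
    exact Finset.prod_pos fun s hs => (BldF542.mt_lt c.t N hO q s (Finset.mem_filter.1 hs).1).1.pos
  have hfat : ∀ n ∈ F, σ n ≠ μ n → c.wp.thr n < (Bl c n q : ℝ) * c.r q := by
    intro n hn hne
    by_contra hc
    push Not at hc
    have h1 := StB21.thin (hlam n) hc
    rw [hst n hn] at h1
    have h4 : 4 * U n ≤ n := by
      have h5 := (h4U n hn).2
      have h6 := (h4U n hn).1
      have : (4 * U n) ^ 1 ≤ (4 * U n) ^ 4 := pow_le_pow_right₀ (by linarith) (by norm_num)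
      linarith
    exact hne (own_eq (hF n hn).1.pos (hBpos n) (h4U n hn).1 h4 hr hz (h10 n hn) hc h1.symm
      (hEv n hn))
  refine h c.γ (c.r q) z D p₀ U c.wp.thr (c.t.mt q) F σ μ h9 hD hr hz
    (fun l hl => (BldF542.mt_lt c.t N hO q l hl).1) hanti hpos h20 h4U hUD htw
    (fun n hn s L hL => hTL n hn s L hL) (fun n hn => h10 n hn)
    (fun n hn => ⟨(hF n hn).1, (hF n hn).2.1, hEv n hn⟩) (fun n hn hne => ?_) ?_
  · refine ⟨hfat n hn hne, fun s L hL hlab => hne ?_⟩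
    have h1 := fat_some (hlam n) hL (hTL n hn s L hL) (hfat n hn hne) hlab
    rw [hst n hn] at h1
    exact Option.some.inj h1
  · intro n hn n' hn' hne hne' hl
    have key : ∀ a ∈ F, ∀ b ∈ F, σ a ≠ μ a → σ b ≠ μ b → lst (c.t.mt q) a = lst (c.t.mt q) b →
        b ≤ a → σ a = σ b := by
      intro a ha b hb hna hnb hab hba
      have hm : ∀ l ∈ c.t.mt q, b < l → a < l := by
        intro l hl1 hl2
        have : l ∈ lst (c.t.mt q) b := Crest.Agent.R4.W363.mem_lst.2 ⟨hl1, hl2⟩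
        rw [← hab] at this
        exact (Crest.Agent.R4.W363.mem_lst.1 this).2
      have h1 := same_fat (hlam a) (hlam b) hba hm (hanti b a (hF b hb).2.1 hba) (hfat b hb hnb)
      rw [hst a ha, hst b hb] at h1
      exact (Option.some.inj h1).symm
    rcases le_total n' n with h1 | h1
    · exact key n hn n' hn' hne hne' hl h1
    · exact (key n' hn' n hn hne' hne hl.symm h1).symm

/-- `n'^5 thr(n)^2 ≤ 1` is a tower, factor 4 -/
lemma tower_log4 {Ct : ℝ} (hCt : 0 < Ct) : ∃ p₁ : ℕ, ∀ p0 ≥ p₁, ∀ n n' : ℕ, p0 < n' → n' < n →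
    ∀ t : ℝ, Real.log n ^ (-Ct) ≤ t → (n' : ℝ) ^ 5 * t ^ 2 ≤ 1 → 4 * Real.log n' ≤ Real.log n := by
  have e1 : ∀ᶠ x : ℝ in atTop, 4 * Real.log x ≤ x ^ (5 / (2 * Ct)) := by
    have h1 := (isLittleO_log_rpow_atTop (show (0 : ℝ) < 5 / (2 * Ct) by positivity)).bound
      (show (0 : ℝ) < 1 / 4 by norm_num)
    filter_upwards [h1, eventually_ge_atTop (1 : ℝ)] with x hx hx1
    have hl : 0 ≤ Real.log x := Real.log_nonneg hx1
    rw [Real.norm_eq_abs, Real.norm_eq_abs, abs_of_nonneg hl,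
      abs_of_nonneg (by positivity : (0 : ℝ) ≤ x ^ (5 / (2 * Ct)))] at hx
    linarith
  have e2 := tendsto_natCast_atTop_atTop (R := ℝ) |>.eventually e1
  obtain ⟨a, ha⟩ := eventually_atTop.1 e2
  refine ⟨max a 3, fun p0 h0 n n' hn' hnn t ht h => ?_⟩
  have ha' : a ≤ n' := ((le_max_left _ _).trans h0).trans hn'.le
  have h3 : 3 < n' := lt_of_le_of_lt ((le_max_right a 3).trans h0) hn'
  have hn1 : (0 : ℝ) < n' := by exact_mod_cast (by omega : 0 < n')
  have hln : 0 < Real.log n := Real.log_pos (by exact_mod_cast (by omega : 1 < n))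
  refine (ha n' ha').trans ?_
  have ht0 : 0 < t := lt_of_lt_of_le (Real.rpow_pos_of_pos hln _) ht
  have h5 : ((n' : ℝ) ^ (5 / 2 : ℝ) * t) ^ 2 ≤ 1 := by
    have e : ((n' : ℝ) ^ (5 / 2 : ℝ)) ^ 2 = (n' : ℝ) ^ 5 := by
      rw [← Real.rpow_natCast, ← Real.rpow_mul hn1.le]
      norm_num
    rw [mul_pow, e]
    exact h
  have h6 : (n' : ℝ) ^ (5 / 2 : ℝ) * t ≤ 1 := by
    have h7 : 0 ≤ (n' : ℝ) ^ (5 / 2 : ℝ) * t := by positivity
    nlinarith
  have h7 : (n' : ℝ) ^ (5 / 2 : ℝ) * Real.log n ^ (-Ct) ≤ 1 :=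
    (mul_le_mul_of_nonneg_left ht (by positivity)).trans h6
  have h8 : (n' : ℝ) ^ (5 / 2 : ℝ) ≤ Real.log n ^ Ct := by
    rw [Real.rpow_neg hln.le, ← div_eq_mul_inv, div_le_one (Real.rpow_pos_of_pos hln _)] at h7
    exact h7
  have h9 : ((n' : ℝ) ^ (5 / 2 : ℝ)) ^ (1 / Ct) ≤ (Real.log n ^ Ct) ^ (1 / Ct) :=
    Real.rpow_le_rpow (by positivity) h8 (by positivity)
  rw [← Real.rpow_mul hn1.le, ← Real.rpow_mul hln.le] at h9
  have e3 : Ct * (1 / Ct) = 1 := by field_simp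
  have e4 : (5 / 2 : ℝ) * (1 / Ct) = 5 / (2 * Ct) := by field_simp
  rw [e3, e4, Real.rpow_one] at h9
  exact h9

/-- size facts for the cofactor bound `U n = (log n)^K` -/
lemma logK {K : ℝ} (hK : 0 ≤ K) : ∃ p₁ : ℕ, ∀ n : ℕ, p₁ ≤ n → 1 ≤ Real.log n ^ K ∧
    (4 * Real.log n ^ K) ^ 4 ≤ n ∧ ∀ m : ℕ, p₁ ≤ m → n ≤ m ^ 2 →
      1 + Real.log (Real.log n ^ K) ≤ 1 * Real.sqrt (Real.log m) := by
  have e1 : ∀ᶠ x : ℝ in atTop, Real.log x ^ (4 * K) ≤ 1 / 256 * x := by
    have h1 := (isLittleO_log_rpow_rpow_atTop (4 * K) (show (0 : ℝ) < 1 by norm_num)).bound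
      (show (0 : ℝ) < 1 / 256 by norm_num)
    filter_upwards [h1, eventually_ge_atTop (1 : ℝ)] with x hx hx1
    have hl : 0 ≤ Real.log x := Real.log_nonneg hx1
    rw [Real.norm_eq_abs, Real.norm_eq_abs, abs_of_nonneg (Real.rpow_nonneg hl _),
      Real.rpow_one, abs_of_nonneg (by linarith)] at hx
    exact hx
  -- `1 + K log (2 y) ≤ √y` eventually
  have e2 : ∀ᶠ y : ℝ in atTop, 1 + K * (Real.log 2 + Real.log y) ≤ y ^ (1 / 2 : ℝ) := by
    have h1 := (isLittleO_log_rpow_atTop (show (0 : ℝ) < 1 / 2 by norm_num)).bound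
      (show (0 : ℝ) < 1 / (2 * (K + 1)) by positivity)
    have h2 := (tendsto_rpow_atTop (show (0 : ℝ) < 1 / 2 by norm_num)).eventually_ge_atTop
      (2 * (1 + K * Real.log 2))
    filter_upwards [h1, h2, eventually_ge_atTop (1 : ℝ)] with y hy hy2 hy1
    have hl : 0 ≤ Real.log y := Real.log_nonneg hy1
    have hp : 0 ≤ y ^ (1 / 2 : ℝ) := by positivity
    rw [Real.norm_eq_abs, Real.norm_eq_abs, abs_of_nonneg hl, abs_of_nonneg hp] at hy
    have h3 : K * Real.log y ≤ y ^ (1 / 2 : ℝ) / 2 := by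
      calc K * Real.log y ≤ (K + 1) * Real.log y := by nlinarith
        _ ≤ (K + 1) * (1 / (2 * (K + 1)) * y ^ (1 / 2 : ℝ)) :=
            mul_le_mul_of_nonneg_left hy (by linarith)
        _ = y ^ (1 / 2 : ℝ) / 2 := by field_simp
    linarith
  have e3 := (tendsto_natCast_atTop_atTop (R := ℝ)).eventually e1
  have e4 := ((Real.tendsto_log_atTop.comp (tendsto_natCast_atTop_atTop (R := ℝ)))).eventually e2
  obtain ⟨a, ha⟩ := eventually_atTop.1 e3
  obtain ⟨b, hb⟩ := eventually_atTop.1 e4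
  refine ⟨max (max a b) 3, fun n hn => ?_⟩
  have hna : a ≤ n := ((le_max_left _ _).trans (le_max_left _ _)).trans hn
  have hn3 : 3 ≤ n := (le_max_right _ _).trans hn
  have hn0 : (0 : ℝ) < n := by exact_mod_cast (by omega : 0 < n)
  have hl1 : 1 ≤ Real.log n := by
    rw [Real.le_log_iff_exp_le hn0]
    have h1 := Real.exp_one_lt_d9
    have h2 : (3 : ℝ) ≤ n := by exact_mod_cast hn3
    linarith
  have hl0 : 0 < Real.log n := by linarith
  refine ⟨Real.one_le_rpow hl1 hK, ?_, fun m hm hnm => ?_⟩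
  · have h1 := ha n hna
    have e : (4 * Real.log n ^ K) ^ 4 = 256 * Real.log n ^ (4 * K) := by
      rw [mul_pow, ← Real.rpow_natCast (Real.log n ^ K), ← Real.rpow_mul hl0.le]
      norm_num
      congr 1
      ring
    rw [e]
    linarith
  · have hmb : b ≤ m := ((le_max_right _ _).trans (le_max_left _ _)).trans hm
    have hm3 : 3 ≤ m := (le_max_right _ _).trans hm
    have hm0 : (0 : ℝ) < m := by exact_mod_cast (by omega : 0 < m)
    have hlm1 : 1 ≤ Real.log m := by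
      rw [Real.le_log_iff_exp_le hm0]
      have h1 := Real.exp_one_lt_d9
      have h2 : (3 : ℝ) ≤ m := by exact_mod_cast hm3
      linarith
    have h1 := hb m hmb
    have h2 : Real.log n ≤ 2 * Real.log m := by
      have h3 : (n : ℝ) ≤ (m : ℝ) ^ 2 := by exact_mod_cast hnm
      have h4 := Real.log_le_log hn0 h3
      rwa [Real.log_pow] at h4
    have h3 : Real.log (Real.log n) ≤ Real.log 2 + Real.log (Real.log m) := by
      rw [← Real.log_mul (by norm_num) (by linarith)]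
      exact Real.log_le_log hl0 h2
    rw [Real.log_rpow hl0, one_mul, Real.sqrt_eq_rpow]
    have h4 : K * Real.log (Real.log n) ≤ K * (Real.log 2 + Real.log (Real.log m)) :=
      mul_le_mul_of_nonneg_left h3 hK
    have h5 : 1 + K * (Real.log 2 + Real.log (Real.log m)) ≤ Real.log m ^ (1 / 2 : ℝ) := h1
    linarith

/-- **the rate of the accuracy events of the pieces of a context**, cofactors `≤ (log n)^K` -/
theorem acc_rateU_X {N : Skel189.Num} {Ct C₀ K : ℝ} {Sx : ℕ → (ℕ → ℝ) → Finset ℕ → Finset ℕ}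
    (hN : NumOK N (ParT21.thF Ct) Ct C₀ Sx) (hCt : 0 < Ct) (hK : 0 ≤ K) :
    ∃ (C : ℝ) (p₁ : ℕ), 0 < C ∧
    ∀ p0 ≥ p₁, ∀ (γ : ℝ) (P₀ : ℕ) (X : Ctx N γ p0 P₀), TH X → ∀ (q : ℕ) (z : ℝ) (F : Finset ℕ),
      q ∈ X.S' → |z| ≤ X.c.r q → (∀ n ∈ F, TL X.c n q) →
      (∀ n ∈ F, (Bl X.c n q : ℝ) * X.c.r q ≤ 1 / 10) →
      (∀ n ∈ F, n.Prime ∧ p0 < n ∧ AccBad X.c (Real.log n ^ K) z q n) →
        ∑ n ∈ F, (1 : ℝ) / n ≤ C / Real.sqrt (Real.log p0) := by
  obtain ⟨C, hC, h⟩ := acc_rateU_c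
  obtain ⟨a, ha⟩ := tower_log4 hCt
  obtain ⟨d, hd⟩ := logK hK
  -- `log n ^ (20 Ct) ≤ n`
  have e1 : ∀ᶠ x : ℝ in atTop, Real.log x ^ (20 * Ct) ≤ x := by
    have h1 := (isLittleO_log_rpow_rpow_atTop (20 * Ct) (show (0 : ℝ) < 1 by norm_num)).bound
      (show (0 : ℝ) < 1 by norm_num)
    filter_upwards [h1, eventually_ge_atTop (1 : ℝ)] with x hx hx1
    have hl : 0 ≤ Real.log x := Real.log_nonneg hx1
    rw [Real.norm_eq_abs, Real.norm_eq_abs, abs_of_nonneg (Real.rpow_nonneg hl _),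
      Real.rpow_one, abs_of_nonneg (by linarith), one_mul] at hx
    exact hx
  obtain ⟨b, hb⟩ := eventually_atTop.1 (tendsto_natCast_atTop_atTop (R := ℝ) |>.eventually e1)
  obtain ⟨g, hg⟩ := ParT21.ctx_lo hN hCt
  refine ⟨C * (1 + 1), max (max (max a b) 9) d + g, by positivity,
    fun p0 h00 γ P₀ X hT q z F hq hz hTL h10 hF => ?_⟩
  have h0 : max (max (max a b) 9) d ≤ p0 := by omega
  have h0d : d ≤ p0 := (le_max_right _ _).trans h0
  have h0' : max (max a b) 9 ≤ p0 := (le_max_left _ _).trans h0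
  have h0a : a ≤ p0 := ((le_max_left _ _).trans (le_max_left _ _)).trans h0'
  have h0b : b ≤ p0 := ((le_max_right _ _).trans (le_max_left _ _)).trans h0'
  have h09 : 9 ≤ p0 := (le_max_right _ _).trans h0'
  have hlo : ∀ n : ℕ, p0 < n → Real.log n ^ (-Ct) ≤ X.c.wp.thr n :=
    fun n hn => hg γ p0 P₀ X n (by omega)
  refine h X.c (top X.S) q z 1 p0 (fun n => Real.log n ^ K) F X.tOk (by exact_mod_cast h09)
    zero_le_one (X.rpos hq) hz hT.lam
    (fun m k hm hk => hT.anti m k (by exact_mod_cast hm.le) hk)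
    (fun n hn => hT.pos n (by exact_mod_cast (hF n hn).2.1.le)) (fun n hn => ?_) (fun n hn => ?_)
    (fun n hn m hm hmn hnm => ?_)
    (fun n hn n' hn' hlt h5 => ?_) hTL h10 (fun n hn => ⟨(hF n hn).1, by
      exact_mod_cast (hF n hn).2.1, (hF n hn).2.2⟩)
  · obtain ⟨h1, h2, -⟩ := hF n hn
    have h3 := hlo n h2
    have hln : 0 < Real.log n := Real.log_pos (by exact_mod_cast (by omega : 1 < n))
    have h4 : Real.log n ^ (20 * Ct) ≤ n := hb n (by omega)
    have h5 : (Real.log n ^ (-Ct)) ^ 20 ≤ X.c.wp.thr n ^ 20 :=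
      pow_le_pow_left₀ (Real.rpow_nonneg hln.le _) h3 20
    have h6 : (Real.log n ^ (-Ct)) ^ 20 * Real.log n ^ (20 * Ct) = 1 := by
      rw [← Real.rpow_natCast, ← Real.rpow_mul hln.le, ← Real.rpow_add hln]
      have : -Ct * ((20 : ℕ) : ℝ) + 20 * Ct = 0 := by push_cast; ring
      rw [this, Real.rpow_zero]
    calc (1 : ℝ) = (Real.log n ^ (-Ct)) ^ 20 * Real.log n ^ (20 * Ct) := h6.symm
      _ ≤ X.c.wp.thr n ^ 20 * n :=
          mul_le_mul h5 h4 (Real.rpow_nonneg hln.le _) (by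
            have := hT.pos n (by exact_mod_cast h2.le)
            positivity)
  · have h1 : d ≤ n := by
      have := (hF n hn).2.1
      omega
    exact ⟨(hd n h1).1, (hd n h1).2.1⟩
  · have h1 : d ≤ n := by
      have := (hF n hn).2.1
      omega
    have h2 : d ≤ m := by
      have := (hF m hm).2.1
      omega
    exact (hd n h1).2.2 m h2 hnm
  · exact ha p0 h0a n n' (hF n' hn').2.1 hlt _ (hlo n (hF n hn).2.1) h5

end Crest.Agent.R4P.AccU41
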