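import Crest.Agent.R4P.TyG_16

/-!
R4 (S0004) with powers, T3 (heights > 1), helper16: **the budget `jA` of the losses inside the typed rows**
is a sum of products inside ONE type.

* `TRow.jb` : the budget of one type, `jz = j0 + 2 gm (Wm + gm) + 2 gs (Ws + gs)`;
* `HM.Ep_jz`, `HU.Ep_jz`, **`GMU.Ep_jz`** : `Ep jz ≤ (a + b) (8/p (ν + m | η + m) + 4 Ep (gm + gs))`;
* `Ep_jA` : the bundle.
-/

set_option autoImplicit false
set_option linter.unusedSectionVars false
set_option linter.unusedVariables false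
open MeasureTheory Filter Set

namespace Crest.Agent.R4P.TyS16

open Crest.Agent.R4.Tour104 Crest.Agent.R4.Tour758 Crest.Agent.R4P.MisR16 Crest.Agent.R4P.TyR16
open Crest.Agent.R4P.TrR343 Crest.Agent.R4P.RXs343 Crest.Agent.R4P.RXm55 Crest.Agent.R4P.TrM28

/-- the budget of one type -/
noncomputable def jz (R : TRaw) (x : ℝ) : ℝ :=
  R.j0 x + 2 * (R.gm x * (R.Wm x + R.gm x)) + 2 * (R.gs x * (R.Ws x + R.gs x))

lemma jA_eq {δ : Type} [Fintype δ] (R : δ → TRaw) (x : ℝ) : jA R x = ∑ z, jz (R z) x := rfl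

lemma Ep_mono_fib {p : ℕ} (hp : 0 < p) {f g : ℝ → ℝ} {y : ℝ}
    (h : ∀ i < p, f ((y + (i : ℕ)) / p) ≤ g ((y + (i : ℕ)) / p)) : Ep p f y ≤ Ep p g y := by
  have hp' : (0 : ℝ) < p := by exact_mod_cast hp
  unfold Ep
  exact div_le_div_of_nonneg_right (Finset.sum_le_sum fun i hi => h i (Finset.mem_range.1 hi)) hp'.le

lemma Ep_smul' {p : ℕ} (c : ℝ) (f : ℝ → ℝ) (y : ℝ) : Ep p (fun x => c * f x) y = c * Ep p f y := by
  unfold Ep
  rw [← Finset.mul_sum, mul_div_assoc]

/-- a factor which is constant on the fibre -/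
lemma Ep_fib {p : ℕ} (hp : 0 < p) {c : ℝ → ℝ} (hc : PB c) (f : ℝ → ℝ) (y : ℝ) :
    Ep p (fun x => c (p * x) * f x) y = c y * Ep p f y := by
  unfold Ep
  rw [← mul_div_assoc, Finset.mul_sum]
  congr 1
  refine Finset.sum_congr rfl fun i _ => ?_
  show c (p * ((y + (i : ℕ)) / p)) * f ((y + (i : ℕ)) / p) = c y * f ((y + (i : ℕ)) / p)
  rw [pull_fibre hp hc.per y i]

lemma Ep_cst {p : ℕ} (hp : 0 < p) {c : ℝ → ℝ} (hc : PB c) (y : ℝ) :
    Ep p (fun x => c (p * x)) y = c y := by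
  have hp' : (p : ℝ) ≠ 0 := by exact_mod_cast hp.ne'
  unfold Ep
  rw [Finset.sum_congr rfl fun i _ => pull_fibre hp hc.per y i, Finset.sum_const,
    Finset.card_range, nsmul_eq_mul, mul_div_cancel_left₀ _ hp']

namespace HM
variable {p : ℕ} {α κ b ν m s nu hm hs gm gs lm lS : ℝ → ℝ}
  (H : HM p α κ b ν m s nu hm hs gm gs lm lS)
include H

/-- the ideal main row is at most the contents -/
lemma mn_le (x : ℝ) : mnR (1 / (p : ℝ)) (α (p * x)) (b (p * x)) (κ (p * x)) (s x) ≤
    α (p * x) + κ (p * x) + b (p * x) := by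
  have hw := H.w0
  have hw1 := H.w1
  have hA := H.pα.nonneg (p * x)
  have hB := H.pb.nonneg (p * x)
  have hK := H.pκ.nonneg (p * x)
  have s0 := H.s0 x
  have s1 := H.s1 x
  have h1 := mul_le_mul s1 (dd_le_B hA hB) (dd_nonneg _ _) zero_le_one
  have h2 := mul_le_mul_of_nonneg_left (min_le_left (α (p * x)) (b (p * x))) hw
  have h3 : (1 - s x) * ((1 - 1 / (p : ℝ)) * κ (p * x)) ≤ κ (p * x) := by
    have a1 : 0 ≤ 1 - s x := by linarith
    have a2 : (1 - 1 / (p : ℝ)) * κ (p * x) ≤ κ (p * x) := by nlinarith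
    have a3 : 0 ≤ (1 - 1 / (p : ℝ)) * κ (p * x) := mul_nonneg (by linarith) hK
    nlinarith
  unfold mnR rV
  linarith

lemma sp_le (x : ℝ) : spR (1 / (p : ℝ)) (κ (p * x)) (s x) ≤ κ (p * x) := by
  have hw := H.w0
  have hw1 := H.w1
  have hK := H.pκ.nonneg (p * x)
  have s0 := H.s0 x
  have s1 := H.s1 x
  have a2 : (1 - 1 / (p : ℝ)) * κ (p * x) ≤ κ (p * x) := by nlinarith
  have a3 : 0 ≤ (1 - 1 / (p : ℝ)) * κ (p * x) := mul_nonneg (by linarith) hK
  unfold spR
  nlinarith

/-- **the budget of the marked row** -/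
theorem Ep_jz (hg : ∀ x, gm x ≤ α (p * x) + κ (p * x) + (b (p * x) + ν (p * x) + m (p * x)))
    (hG : ∀ x, gs x ≤ α (p * x) + κ (p * x) + (b (p * x) + ν (p * x) + m (p * x))) (y : ℝ) :
    Ep p (jz (mkM p α κ b ν m s nu hm hs gm gs lm lS)) y ≤
      (α y + κ y + (b y + ν y + m y)) * (8 * (1 / (p : ℝ) * (ν y + m y)) +
        4 * (Ep p gm y + Ep p gs y)) := by
  have hw := H.w0
  have hw1 := H.w1
  have pS : PB fun y => α y + κ y + (b y + ν y + m y) :=
    (H.pα.add H.pκ).add ((H.pb.add H.pν).add H.pm)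
  have h1 : Ep p (jz (mkM p α κ b ν m s nu hm hs gm gs lm lS)) y ≤
      Ep p (fun x => (fun y => α y + κ y + (b y + ν y + m y)) (p * x) *
        ((8 * nu x + 8 * (1 / (p : ℝ) * m (p * x))) + (4 * gm x + 4 * gs x))) y := by
    refine Ep_mono_fib H.hp fun i _ => ?_
    generalize (y + (i : ℕ)) / (p : ℝ) = x
    have i1 := H.mn_le x
    have i0 := H.PB_ideal.nonneg x
    have i2 := H.sp_le x
    have i3 := H.PB_idealS.nonneg x
    have n0 := H.pnu.nonneg x
    have n1 := lift_le H.hp H.pnu H.nuL x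
    have m0 := H.pm.nonneg (p * x)
    have ν0 := H.pν.nonneg (p * x)
    have b0 := H.pb.nonneg (p * x)
    have α0 := H.pα.nonneg (p * x)
    have κ0 := H.pκ.nonneg (p * x)
    have g0 := H.pgm.nonneg x
    have G0 := H.pgs.nonneg x
    have wm0 : 0 ≤ 1 / (p : ℝ) * m (p * x) := mul_nonneg hw m0
    have wm1 : 1 / (p : ℝ) * m (p * x) ≤ m (p * x) := by nlinarith
    have g1 := hg x
    have G1 := hG x
    show 4 * (mnR (1 / (p : ℝ)) (α (p * x)) (b (p * x)) (κ (p * x)) (s x) * nu x +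
      mnR (1 / (p : ℝ)) (α (p * x)) (b (p * x)) (κ (p * x)) (s x) * (1 / (p : ℝ) * m (p * x)) +
      nu x * (1 / (p : ℝ) * m (p * x))) +
      2 * (gm x * ((mnR (1 / (p : ℝ)) (α (p * x)) (b (p * x)) (κ (p * x)) (s x) + nu x +
      1 / (p : ℝ) * m (p * x)) + gm x)) +
      2 * (gs x * (spR (1 / (p : ℝ)) (κ (p * x)) (s x) + gs x)) ≤
      (α (p * x) + κ (p * x) + (b (p * x) + ν (p * x) + m (p * x))) *
        ((8 * nu x + 8 * (1 / (p : ℝ) * m (p * x))) + (4 * gm x + 4 * gs x))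
    set S := α (p * x) + κ (p * x) + (b (p * x) + ν (p * x) + m (p * x)) with hS
    set I := mnR (1 / (p : ℝ)) (α (p * x)) (b (p * x)) (κ (p * x)) (s x) with hI
    set W := 1 / (p : ℝ) * m (p * x) with hW
    have c1 : I ≤ S := by linarith
    have c2 : nu x ≤ S := by linarith
    have c3 : I + nu x + W ≤ S := by linarith
    have c4 : spR (1 / (p : ℝ)) (κ (p * x)) (s x) ≤ S := by linarith
    have e1 : I * nu x ≤ S * nu x := mul_le_mul_of_nonneg_right c1 n0
    have e2 : I * W ≤ S * W := mul_le_mul_of_nonneg_right c1 wm0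
    have e3 : nu x * W ≤ S * W := mul_le_mul_of_nonneg_right c2 wm0
    have e4 : gm x * ((I + nu x + W) + gm x) ≤ gm x * (2 * S) :=
      mul_le_mul_of_nonneg_left (by linarith) g0
    have e5 : gs x * (spR (1 / (p : ℝ)) (κ (p * x)) (s x) + gs x) ≤ gs x * (2 * S) :=
      mul_le_mul_of_nonneg_left (by linarith) G0
    have S0 : 0 ≤ S := by linarith
    have e6 : 0 ≤ S * nu x := mul_nonneg S0 n0
    nlinarith
  refine h1.trans (le_of_eq ?_)
  rw [Ep_fib H.hp pS, Ep_add', Ep_add', Ep_add', Ep_smul', Ep_smul', Ep_smul', Ep_smul',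
    Ep_lift H.nuL, Ep_smul', Ep_cst H.hp H.pm]
  ring

end HM

namespace HU
variable {p : ℕ} {A B m δ gc hm hs gm gs lm lS : ℝ → ℝ}
  (H : HU p A B m δ gc hm hs gm gs lm lS)
include H

lemma mI_le (x : ℝ) : mI p A B δ gc x + pI p A B δ gc x ≤ A (p * x) + B (p * x) := by
  have h := H.ideal x
  have h1 := H.gc_le x
  have h2 := H.δ2 (p * x)
  have hA := H.pA.nonneg (p * x)
  have h3 : (1 - 1 / (p : ℝ)) * A (p * x) ≤ A (p * x) := by nlinarith [H.w0]
  have h4 : 1 / (p : ℝ) * (B (p * x) - δ (p * x)) ≤ B (p * x) - δ (p * x) := by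
    nlinarith [H.w1]
  linarith

lemma pI_le (x : ℝ) : pI p A B δ gc x ≤ sh p δ gc x * et A B δ (p * x) := by
  have h0 : 0 ≤ sh p δ gc x * et A B δ (p * x) := mul_nonneg (H.sh0 x) (H.et0 _)
  unfold pI
  nlinarith [H.w0]

/-- **the budget of the unmarked row** -/
theorem Ep_jz (hg : ∀ x, gm x ≤ A (p * x) + (B (p * x) + m (p * x)))
    (hG : ∀ x, gs x ≤ A (p * x) + (B (p * x) + m (p * x))) (y : ℝ) :
    Ep p (jz (mkU p A B m δ gc hm gm gs lm lS)) y ≤
      (A y + (B y + m y)) * (8 * (1 / (p : ℝ) * (et A B δ y + m y)) +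
        4 * (Ep p gm y + Ep p gs y)) := by
  have hw := H.w0
  have hw1 := H.w1
  have pS : PB fun y => A y + (B y + m y) := H.pA.add (H.pB.add H.pm)
  have h1 : Ep p (jz (mkU p A B m δ gc hm gm gs lm lS)) y ≤
      Ep p (fun x => (fun y => A y + (B y + m y)) (p * x) *
        ((8 * (sh p δ gc x * et A B δ (p * x)) + 8 * (1 / (p : ℝ) * m (p * x))) +
          (4 * gm x + 4 * gs x))) y := by
    refine Ep_mono_fib H.hp fun i _ => ?_
    generalize (y + (i : ℕ)) / (p : ℝ) = x
    have i1 := H.mI_le x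
    have i0 := H.PB_mI.nonneg x
    have i3 := H.PB_pI.nonneg x
    have i4 := H.pI_le x
    have i5 := H.ideal x
    have m0 := H.pm.nonneg (p * x)
    have A0 := H.pA.nonneg (p * x)
    have B0 := H.pB.nonneg (p * x)
    have g0 := H.pgm.nonneg x
    have G0 := H.pgs.nonneg x
    have wm0 : 0 ≤ 1 / (p : ℝ) * m (p * x) := mul_nonneg hw m0
    have wm1 : 1 / (p : ℝ) * m (p * x) ≤ m (p * x) := by nlinarith
    have g1 := hg x
    have G1 := hG x
    show 4 * (mI p A B δ gc x * pI p A B δ gc x +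
      mI p A B δ gc x * (1 / (p : ℝ) * m (p * x)) + pI p A B δ gc x * (1 / (p : ℝ) * m (p * x))) +
      2 * (gm x * ((((1 - 1 / (p : ℝ)) * A (p * x) + 1 / (p : ℝ) * (B (p * x) - δ (p * x))) +
        gc x + 1 / (p : ℝ) * m (p * x)) + gm x)) +
      2 * (gs x * (0 + gs x)) ≤
      (A (p * x) + (B (p * x) + m (p * x))) *
        ((8 * (sh p δ gc x * et A B δ (p * x)) + 8 * (1 / (p : ℝ) * m (p * x))) +
          (4 * gm x + 4 * gs x))
    rw [← i5]
    set S := A (p * x) + (B (p * x) + m (p * x)) with hS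
    set I := mI p A B δ gc x with hI
    set J := pI p A B δ gc x with hJ
    set W := 1 / (p : ℝ) * m (p * x) with hW
    set T := sh p δ gc x * et A B δ (p * x) with hT
    have c1 : I ≤ S := by linarith
    have c2 : J ≤ S := by linarith
    have c3 : I + J + W ≤ S := by linarith
    have S0 : 0 ≤ S := by linarith
    have T0 : 0 ≤ T := i3.trans i4
    have e1 : I * J ≤ S * T := mul_le_mul c1 i4 i3 S0
    have e2 : I * W ≤ S * W := mul_le_mul_of_nonneg_right c1 wm0
    have e3 : J * W ≤ S * W := mul_le_mul_of_nonneg_right c2 wm0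
    have e4 : gm x * ((I + J + W) + gm x) ≤ gm x * (2 * S) :=
      mul_le_mul_of_nonneg_left (by linarith) g0
    have e5 : gs x * (0 + gs x) ≤ gs x * (2 * S) :=
      mul_le_mul_of_nonneg_left (by linarith) G0
    have e6 : 0 ≤ S * T := mul_nonneg S0 T0
    nlinarith
  refine h1.trans (le_of_eq ?_)
  rw [Ep_fib H.hp pS, Ep_add', Ep_add', Ep_add', Ep_smul', Ep_smul', Ep_smul', Ep_smul',
    Ep_lift (H.s_L H.PB_et), Ep_smul', Ep_cst H.hp H.pm]
  ring

end HU

/-! ### the glued row and the bundle -/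

lemma jz_glue {p : ℕ} {P : ℝ → Prop} (R1 R2 : TRaw) :
    jz (TRaw.glue p P R1 R2) = cho (fun x => P (p * x)) (jz R1) (jz R2) := by
  funext x
  by_cases h : P (p * x)
  · simp only [jz, TRaw.glue, cho, h, if_true]
  · simp only [jz, TRaw.glue, cho, h, if_false]

namespace GMU
variable {p : ℕ} {P : ℝ → Prop} {a b hm hs bt gc α κ b0 ν s nu B1 δ m gm gs lm lS : ℝ → ℝ}
  (H : GMU p P a b hm hs bt gc α κ b0 ν s nu B1 δ m gm gs lm lS)
include H

/-- **the budget of the glued row** -/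
theorem Ep_jz (hg : ∀ x, gm x ≤ a (p * x) + b (p * x)) (hG : ∀ x, gs x ≤ a (p * x) + b (p * x))
    (y : ℝ) : Ep p (jz (mkMU p P a hm hs gc α κ b0 ν s nu B1 δ m gm gs lm lS)) y ≤
      (a y + b y) * (8 * (1 / (p : ℝ) * (cho P ν (et a B1 δ) y + m y)) +
        4 * (Ep p gm y + Ep p gs y)) := by
  unfold mkMU
  rw [jz_glue, Ep_cho H.hp H.hper]
  have hf := fib_iff H.hp H.hper y
  by_cases h : P y
  · have e := H.HM'.Ep_jz (fun x => ?_) (fun x => ?_) y
    · rw [cho_on h, cho_on h]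
      refine e.trans (le_of_eq ?_)
      have eg : ∀ f : ℝ → ℝ, Ep p (cho (fun x => P (p * x)) f z0) y = Ep p f y := fun f => by
        rw [Ep_cho H.hp H.hper, cho_on h]
      rw [eg, eg, H.aM y h, H.bM y h]
      simp only [cho, h, if_true]
    · by_cases hx : P (p * x)
      · simp only [cho, hx, if_true]
        have := hg x
        rwa [H.aM _ hx, H.bM _ hx] at this
      · simp only [cho, hx, if_false, z0]; simp
    · by_cases hx : P (p * x)
      · simp only [cho, hx, if_true]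
        have := hG x
        rwa [H.aM _ hx, H.bM _ hx] at this
      · simp only [cho, hx, if_false, z0]; simp
  · have e := H.HU'.Ep_jz (fun x => ?_) (fun x => ?_) y
    · rw [cho_off h, cho_off h]
      refine e.trans (le_of_eq ?_)
      have eg : ∀ f : ℝ → ℝ, Ep p (cho (fun x => P (p * x)) z0 f) y = Ep p f y := fun f => by
        rw [Ep_cho H.hp H.hper, cho_off h]
      rw [eg, eg, H.bU y h]
      simp only [et, cho, h, if_false]
    · by_cases hx : P (p * x)
      · simp only [cho, hx, if_true, z0]; simp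
      · simp only [cho, hx, if_false]
        have := hg x
        rwa [H.bU _ hx] at this
    · by_cases hx : P (p * x)
      · simp only [cho, hx, if_true, z0]; simp
      · simp only [cho, hx, if_false]
        have := hG x
        rwa [H.bU _ hx] at this

/-- **the mean error of the glued row** -/
theorem Ep_er (y : ℝ) : Ep p (mkMU p P a hm hs gc α κ b0 ν s nu B1 δ m gm gs lm lS).er y ≤
    Ep p lm y + Ep p lS y + 1 / (p : ℝ) * (cho P ν (et a B1 δ) y + m y) := by
  have hf := fib_iff H.hp H.hper y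
  have hle : Ep p (mkMU p P a hm hs gc α κ b0 ν s nu B1 δ m gm gs lm lS).er y ≤
      Ep p (fun x => (lm x + lS x) + (cho (fun x => P (p * x)) nu
        (fun x => sh p δ gc x * et a B1 δ (p * x)) x + 1 / (p : ℝ) * m (p * x))) y := by
    refine Ep_mono_fib H.hp fun i _ => ?_
    generalize (y + (i : ℕ)) / (p : ℝ) = x
    by_cases hx : P (p * x)
    · rw [er_on hx, cho_on (P := fun x => P (p * x)) hx]
      linarith
    · rw [er_off hx, cho_off (P := fun x => P (p * x)) hx]
      have := H.plS.nonneg x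
      linarith
  refine hle.trans (le_of_eq ?_)
  rw [Ep_add', Ep_add', Ep_add', Ep_cho H.hp H.hper, Ep_smul', Ep_cst H.hp H.pm]
  by_cases h : P y
  · rw [cho_on h, cho_on h]
    have e : Ep p nu y = 1 / (p : ℝ) * ν y := by
      unfold Ep
      rw [H.nuL y h]; ring
    rw [e]; ring
  · rw [cho_off h, cho_off h]
    have e : Ep p (fun x => sh p δ gc x * et a B1 δ (p * x)) y = 1 / (p : ℝ) * et a B1 δ y := by
      have h1 := Ep_lift (H.HU'.s_L H.HU'.PB_et) y
      have h2 : et (cho P z0 a) (cho P z0 B1) (cho P z0 δ) y = et a B1 δ y := by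
        simp only [et, cho, h, if_false]
      rw [h2] at h1
      rw [← h1]
      unfold Ep
      congr 1
      refine Finset.sum_congr rfl fun i _ => ?_
      have hi : ¬ P (p * ((y + (i : ℕ)) / p)) := fun h' => h ((hf i).1 h')
      simp only [sh, et, cho, hi, if_false]
    rw [e]; ring

end GMU

section bundle
variable {δ : Type} [Fintype δ] {p : ℕ}

lemma Ep_jA (R : δ → TRaw) (y : ℝ) : Ep p (jA R) y = ∑ z, Ep p (jz (R z)) y := by
  unfold Ep
  rw [← Finset.sum_div, Finset.sum_comm]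
  rfl

lemma Ep_eA (R : δ → TRaw) (y : ℝ) : Ep p (eA R) y = ∑ z, Ep p (R z).er y := by
  unfold Ep
  rw [← Finset.sum_div, Finset.sum_comm]
  rfl

end bundle

end Crest.Agent.R4P.TyS16
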