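import Crest.Agent.R4P.ModeS_16

/-!
R4 (S0004) with powers, T3, helper25: **the scaled mode game with two class changes** (of the rest and
of the ties).

* `MSx σ` : as `ModeS16.MS`, but
  - rest: `PtR` = potential of the rest by the classes of the column; slack `as`, join energy `jm`,
    price `br` of the change to the classes of `N p t`;
  - ties: `AP, PtP` = short content and potential by the PRESCRIBED classes (those of the rows),
    `AB, PtB` = by the classes of the point; slack `asB`, join energy `jmB`, price `brB`.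
* `MSx.toMS` : **the instance of `ModeS16.MS`** (same walk, same costs).
-/

set_option autoImplicit false
set_option linter.unusedSectionVars false
set_option linter.unusedVariables false
open MeasureTheory Filter Set

namespace Crest.Agent.R4P.MSx25

open Crest.Agent.R4.Tour104 Crest.Agent.R4.Clos758
open Crest.Agent.R4P.LogG51 (PB_max)
open Crest.Agent.R4P.Mode940 Crest.Agent.R4P.ModeG51 Crest.Agent.R4P.ModeR16
open Crest.Agent.R4P.ModeS16 (MS)

/-- **abstract walk with scales and class changes** -/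
structure MSx (σ : Type*) where
  del : ℝ
  Km : ℕ
  C : ℕ → σ → σ
  N : ℕ → σ → σ
  ok : ℕ → σ → Prop
  T : σ → ℝ → ℝ
  TL : ℕ → σ → ℝ → ℝ
  TB : ℕ → σ → ℝ → ℝ
  bT : ℕ → σ → ℝ → ℝ
  GT : ℕ → σ → ℝ → ℝ
  cost : ℕ → σ → ℝ → ℝ
  jn : ℕ → σ → ℝ → ℝ
  jB : ℕ → σ → ℝ → ℝ
  /-- join energy of the class change of the rest -/
  jm : ℕ → σ → ℝ → ℝ
  /-- join energy of the class change of the ties -/
  jmB : ℕ → σ → ℝ → ℝ
  A : ℕ → σ → ℝ → ℝ
  AL : ℕ → ℕ → σ → ℝ → ℝ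
  /-- short content of the ties by the classes of the point -/
  AB : ℕ → ℕ → σ → ℝ → ℝ
  /-- short content of the ties by the prescribed classes -/
  AP : ℕ → ℕ → σ → ℝ → ℝ
  AR : ℕ → ℕ → σ → ℝ → ℝ
  be : ℕ → ℕ → σ → ℝ → ℝ
  G : ℕ → ℕ → σ → ℝ → ℝ
  ls : ℕ → ℕ → σ → ℝ → ℝ
  as : ℕ → ℕ → σ → ℝ → ℝ
  asB : ℕ → ℕ → σ → ℝ → ℝ
  cS : ℕ → ℕ → σ → ℝ → ℝ
  cT : ℕ → ℕ → σ → ℝ → ℝ
  ex : ℕ → ℕ → σ → ℝ → ℝ
  br : ℕ → ℕ → σ → ℝ → ℝ
  brB : ℕ → ℕ → σ → ℝ → ℝ
  Pt : ℕ → ℕ → σ → ℝ → ℝ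
  PR : ℕ → ℕ → σ → ℝ → ℝ
  PtP : ℕ → ℕ → σ → ℝ → ℝ
  PtB : ℕ → ℕ → σ → ℝ → ℝ
  PtR : ℕ → ℕ → σ → ℝ → ℝ
  del0 : 0 < del
  del1 : del ≤ 1
  okC : ∀ {p t}, ok p t → p ≠ 0 → ok p (C p t)
  okN : ∀ {p t}, ok p t → p ≠ 0 → ok (p - 1) (N p t)
  pT : ∀ {p t}, ok p t → PB (T t)
  pTL : ∀ {p t}, ok p t → p ≠ 0 → PB (TL p t)
  pTB : ∀ {p t}, ok p t → p ≠ 0 → PB (TB p t)
  pGT : ∀ {p t}, ok p t → p ≠ 0 → PB (GT p t)
  pcost : ∀ {p t}, ok p t → p ≠ 0 → PB (cost p t)
  pjn : ∀ {p t}, ok p t → p ≠ 0 → PB (jn p t)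
  pjB : ∀ {p t}, ok p t → p ≠ 0 → PB (jB p t)
  pjm : ∀ {p t}, ok p t → p ≠ 0 → PB (jm p t)
  pjmB : ∀ {p t}, ok p t → p ≠ 0 → PB (jmB p t)
  pA : ∀ {k p t}, ok p t → PB (A k t)
  pAL : ∀ {k p t}, ok p t → p ≠ 0 → PB (AL k p t)
  pAB : ∀ {k p t}, ok p t → p ≠ 0 → PB (AB k p t)
  pAP : ∀ {k p t}, ok p t → p ≠ 0 → PB (AP k p t)
  pAR : ∀ {k p t}, ok p t → p ≠ 0 → PB (AR k p t)
  pG : ∀ {k p t}, ok p t → p ≠ 0 → PB (G k p t)
  pas : ∀ {k p t}, ok p t → p ≠ 0 → PB (as k p t)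
  pasB : ∀ {k p t}, ok p t → p ≠ 0 → PB (asB k p t)
  pex : ∀ {k p t}, ok p t → p ≠ 0 → PB (ex k p t)
  pbr : ∀ {k p t}, ok p t → p ≠ 0 → PB (br k p t)
  pbrB : ∀ {k p t}, ok p t → p ≠ 0 → PB (brB k p t)
  pPt : ∀ {k p t}, ok p t → PB (Pt k p t)
  pPtB : ∀ {k p t}, ok p t → p ≠ 0 → PB (PtB k p t)
  mbe : ∀ {k p t}, ok p t → p ≠ 0 → Measurable (be k p t)
  bper : ∀ {k p t}, ok p t → p ≠ 0 → ∀ x, be k p t (x + 1) = be k p t x
  bTper : ∀ {p t}, ok p t → p ≠ 0 → ∀ x, bT p t (x + 1) = bT p t x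
  cS0 : ∀ {k p t}, ok p t → p ≠ 0 → ∀ x, 0 ≤ cS k p t x
  PR0 : ∀ {k p t}, ok p t → p ≠ 0 → ∀ x, 0 ≤ PR k p t x
  ls0 : ∀ {k p t}, ok p t → p ≠ 0 → ∀ x, 0 ≤ ls k p t x
  bd : ∀ {p t}, ok p t → ∀ x, del * T t x ≤ 2 ^ Km
  spl : ∀ {p t}, ok p t → p ≠ 0 → ∀ x, T t x = TL p t x + TB p t x + T (N p t) x
  mean : ∀ {p t}, ok p t → p ≠ 0 → ∀ y, Ep p (TB p t) y = T (C p t) y
  dec : ∀ {p t}, ok p t → p ≠ 0 → ∀ x, TB p t x = bT p t (p * x) + GT p t x
  AT : ∀ {k p t}, ok p t → ∀ x, A k t x ≤ T t x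
  ABT : ∀ {k p t}, ok p t → p ≠ 0 → ∀ x, AB k p t x ≤ TB p t x
  APT : ∀ {k p t}, ok p t → p ≠ 0 → ∀ x, AP k p t x ≤ TB p t x
  ALT : ∀ {k p t}, ok p t → p ≠ 0 → ∀ x, AL k p t x ≤ TL p t x
  /-- the virtual total of the rows -/
  uA : ∀ {k p t}, ok p t → p ≠ 0 → ∀ x,
    be k p t (p * x) + G k p t x ≤ AP k p t x + ls k p t x
  decR : ∀ {k p t}, ok p t → p ≠ 0 → ∀ x, 0 ≤ be k p t (p * x) + G k p t x
  uT : ∀ {k p t}, ok p t → p ≠ 0 → ∀ x, be k p t (p * x) + G k p t x ≤ TB p t x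
  meanA : ∀ {k p t}, ok p t → p ≠ 0 → ∀ y, be k p t y + Ep p (G k p t) y = A k (C p t) y
  GG : ∀ {k p t}, ok p t → p ≠ 0 → ∀ x, G k p t x ≤ GT p t x
  lsJ : ∀ {p t}, ok p t → p ≠ 0 → ∀ x,
    ∑ l ∈ Finset.range (Km + 1), 2 ^ l * ls l p t x ≤ jB p t x
  cc : ∀ {k p t}, ok p t → p ≠ 0 → ∀ x, cost p t x ≤ 2 * cS k p t x + 2 * cT k p t x
  c1 : ∀ {k p t}, ok p t → p ≠ 0 → ∀ x, cS k p t x ≤ G k p t x ^ 2
  c2 : ∀ {k p t}, ok p t → p ≠ 0 → ∀ x,
    cS k p t x ≤ 2 ^ k * (be k p t (p * x) + G k p t x)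
  c4 : ∀ {k p t}, ok p t → p ≠ 0 → ∀ x, cT k p t x ≤ (GT p t x - G k p t x) ^ 2
  /-- costs against the classes of the point -/
  c3 : ∀ {k p t}, ok p t → p ≠ 0 → ∀ x,
    cost p t x ≤ 2 * (2 ^ k * AB k p t x) + 2 * (TB p t x - AB k p t x) ^ 2
  col : ∀ {k p t}, ok p t → p ≠ 0 → ∀ y,
    Ep p (fun x => cS k p t x + PR k p t x) y ≤ Pt k p (C p t) y + Ep p (ex k p t) y
  pPR : ∀ {k p t}, ok p t → p ≠ 0 → PB (PR k p t)
  pcS : ∀ {k p t}, ok p t → p ≠ 0 → PB (cS k p t)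
  /-- potential of the prescribed classes -/
  PB1 : ∀ {k p t}, ok p t → p ≠ 0 → ∀ x, PtP k p t x ≤ PR k p t x +
    14 * (2 ^ k * (AP k p t x - (be k p t (p * x) + G k p t x)))
  PB2 : ∀ {k p t}, ok p t → p ≠ 0 → ∀ x, PtB k p t x ≤ 14 * (2 ^ k * AB k p t x)
  /-- class change of the ties -/
  arB : ∀ {k p t}, ok p t → p ≠ 0 → ∀ x, AP k p t x ≤ AB k p t x + asB k p t x
  refB : ∀ {k p t}, ok p t → p ≠ 0 → ∀ x, PtB k p t x ≤ PtP k p t x +
    14 * (2 ^ k * (AB k p t x + asB k p t x - AP k p t x)) + brB k p t x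
  asBJ : ∀ {p t}, ok p t → p ≠ 0 → ∀ x,
    ∑ l ∈ Finset.range (Km + 1), 2 ^ l * asB l p t x ≤ jmB p t x
  born : ∀ {k p t}, ok p t → ∀ x, Pt k p t x ≤ 14 * (2 ^ k * A k t x)
  /-- class change of the rest -/
  arN : ∀ {k p t}, ok p t → p ≠ 0 → ∀ x, A k (N p t) x ≤ AR k p t x + as k p t x
  ref : ∀ {k p t}, ok p t → p ≠ 0 → ∀ x, PtR k p t x ≤ Pt k (p - 1) (N p t) x +
    14 * (2 ^ k * (AR k p t x + as k p t x - A k (N p t) x)) + br k p t x
  asJ : ∀ {p t}, ok p t → p ≠ 0 → ∀ x,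
    ∑ l ∈ Finset.range (Km + 1), 2 ^ l * as l p t x ≤ jm p t x
  ART : ∀ {k p t}, ok p t → p ≠ 0 → ∀ x, AR k p t x ≤ T (N p t) x
  lam : ∀ {k p t}, ok p t → p ≠ 0 → ∀ x, A k t x ≤ AB k p t x + AR k p t x + AL k p t x
  lamJ : ∀ {p t}, ok p t → p ≠ 0 → ∀ x, ∑ l ∈ Finset.range (Km + 1),
    2 ^ l * (AB l p t x + AR l p t x + AL l p t x - A l t x) ≤ jn p t x
  joH : ∀ {k p t}, ok p t → p ≠ 0 → ∀ x, Pt k p t x ≤ PtB k p t x + PtR k p t x +
    14 * (2 ^ k * min (AB k p t x) (AR k p t x)) + 14 * (2 ^ k * AL k p t x)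
  joB : ∀ {k p t}, ok p t → p ≠ 0 → ∀ x, Pt k p t x ≤ PtB k p t x +
    14 * (2 ^ k * (AR k p t x + AL k p t x))
  joN : ∀ {k p t}, ok p t → p ≠ 0 → ∀ x, Pt k p t x ≤ PtR k p t x +
    14 * (2 ^ k * (AB k p t x + AL k p t x))

section
variable {σ : Type*} (w : MSx σ)

lemma two0 (k : ℕ) : (0 : ℝ) < 2 ^ k := by positivity

/-- the virtual total of the rows -/
def MSx.u (k p : ℕ) (t : σ) (x : ℝ) : ℝ := w.be k p t (p * x) + w.G k p t x

variable {w}

lemma be_nat {k p : ℕ} {t : σ} (ht : w.ok p t) (hp : p ≠ 0) (x : ℝ) (m : ℕ) :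
    w.be k p t (x + m) = w.be k p t x := by
  induction m with
  | zero => simp
  | succ m ih =>
    have e : x + ((m + 1 : ℕ) : ℝ) = (x + m) + 1 := by push_cast; ring
    rw [e, w.bper ht hp, ih]

lemma PB_u {k p : ℕ} {t : σ} (ht : w.ok p t) (hp : p ≠ 0) : PB (w.u k p t) := by
  obtain ⟨B, hB⟩ := (w.pTB ht hp).bdd
  refine ⟨((w.mbe ht hp).comp (measurable_const.mul measurable_id)).add (w.pG ht hp).meas,
    fun x => w.decR ht hp x, ⟨B, fun x => (w.uT ht hp x).trans (hB x)⟩, fun x => ?_⟩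
  show w.be k p t (p * (x + 1)) + w.G k p t (x + 1) = w.be k p t (p * x) + w.G k p t x
  have e : (p : ℝ) * (x + 1) = p * x + p := by ring
  rw [e, be_nat ht hp, (w.pG ht hp).per]

/-- births of the ties -/
noncomputable def MSx.btx (w : MSx σ) (k p : ℕ) (t : σ) (x : ℝ) : ℝ :=
  max (max (w.AB k p t x) (w.AP k p t x)) (w.u k p t x) - w.u k p t x

/-- losses of the ties -/
noncomputable def MSx.lsx (w : MSx σ) (k p : ℕ) (t : σ) (x : ℝ) : ℝ :=
  max (max (w.AB k p t x) (w.AP k p t x)) (w.u k p t x) - w.AB k p t x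

/-- the potential of the rows -/
noncomputable def MSx.PRx (w : MSx σ) (k p : ℕ) (t : σ) (x : ℝ) : ℝ :=
  min (w.PR k p t x + (w.brB k p t x + 14 * (2 ^ k * w.asB k p t x)))
    (14 * (2 ^ k * w.u k p t x))

lemma PB_min {f g : ℝ → ℝ} (hf : PB f) (hg : PB g) : PB fun x => min (f x) (g x) := by
  obtain ⟨B, hB⟩ := hf.bdd
  exact ⟨hf.meas.min hg.meas, fun x => le_min (hf.nonneg x) (hg.nonneg x),
    ⟨B, fun x => (min_le_left _ _).trans (hB x)⟩, fun x => by rw [hf.per, hg.per]⟩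

/-- **the instance** -/
noncomputable def MSx.toMS (w : MSx σ) : MS σ where
  del := w.del
  Km := w.Km
  C := w.C
  N := w.N
  ok := w.ok
  T := w.T
  TL := w.TL
  TB := w.TB
  bT := w.bT
  GT := w.GT
  cost := w.cost
  jn := fun p t x => w.jn p t x + w.jm p t x
  jB := fun p t x => w.jB p t x + w.jmB p t x
  A := w.A
  AL := w.AL
  AB := w.AB
  AR := fun k p t x => max (w.AR k p t x) (w.A k (w.N p t) x)
  be := w.be
  G := w.G
  bt := w.btx
  ls := w.lsx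
  cS := w.cS
  cT := w.cT
  ex := fun k p t x => w.ex k p t x + (w.brB k p t x + 14 * (2 ^ k * w.asB k p t x))
  br := fun k p t x => w.br k p t x + 14 * (2 ^ k * w.as k p t x)
  Pt := w.Pt
  PR := w.PRx
  PtB := w.PtB
  del0 := w.del0
  del1 := w.del1
  okC := w.okC
  okN := w.okN
  pT := w.pT
  pTL := w.pTL
  pTB := w.pTB
  pGT := w.pGT
  pcost := w.pcost
  pjn := fun ht hp => (w.pjn ht hp).add (w.pjm ht hp)
  pjB := fun ht hp => (w.pjB ht hp).add (w.pjmB ht hp)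
  pA := w.pA
  pAL := w.pAL
  pAB := w.pAB
  pAR := fun ht hp => PB_max (w.pAR ht hp) (w.pA (w.okN ht hp))
  pG := w.pG
  pbt := fun ht hp => ModeS16.PB_sub (PB_max (PB_max (w.pAB ht hp) (w.pAP ht hp)) (PB_u ht hp))
    (PB_u ht hp) fun x => le_max_right _ _
  pex := fun ht hp => (w.pex ht hp).add ((w.pbrB ht hp).add
    (((w.pasB ht hp).smul (two0 _).le).smul (by norm_num)))
  pbr := fun ht hp => (w.pbr ht hp).add (((w.pas ht hp).smul (two0 _).le).smul (by norm_num))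
  pPt := w.pPt
  pPtB := w.pPtB
  mbe := w.mbe
  bper := w.bper
  bTper := w.bTper
  cS0 := w.cS0
  PR0 := fun {k p t} ht hp x => by
    have h1 := w.PR0 (k := k) ht hp x
    have h2 := (w.pbrB (k := k) ht hp).nonneg x
    have h3 := mul_nonneg (two0 k).le ((w.pasB (k := k) ht hp).nonneg x)
    have h4 := mul_nonneg (two0 k).le ((PB_u (w := w) (k := k) ht hp).nonneg x)
    exact le_min (by linarith) (by linarith)
  ls0 := fun ht hp x => sub_nonneg.2 ((le_max_left _ _).trans (le_max_left _ _))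
  bd := w.bd
  spl := w.spl
  mean := w.mean
  dec := w.dec
  AT := w.AT
  ABT := w.ABT
  ALT := w.ALT
  decA := fun {k p t} ht hp x => by
    show w.AB k p t x = w.be k p t (p * x) + w.G k p t x +
      (max (max (w.AB k p t x) (w.AP k p t x)) (w.u k p t x) - w.u k p t x) -
      (max (max (w.AB k p t x) (w.AP k p t x)) (w.u k p t x) - w.AB k p t x)
    have e : w.u k p t x = w.be k p t (p * x) + w.G k p t x := rfl
    rw [← e]; ring
  decR := w.decR
  decB := fun {k p t} ht hp x => by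
    show w.be k p t (p * x) + w.G k p t x +
      (max (max (w.AB k p t x) (w.AP k p t x)) (w.u k p t x) - w.u k p t x) ≤ w.TB p t x
    have e : w.u k p t x = w.be k p t (p * x) + w.G k p t x := rfl
    rw [← e]
    have h : max (max (w.AB k p t x) (w.AP k p t x)) (w.u k p t x) ≤ w.TB p t x :=
      max_le (max_le (w.ABT ht hp x) (w.APT ht hp x)) (w.uT ht hp x)
    linarith
  meanA := w.meanA
  GG := w.GG
  lsJ := fun {p t} ht hp x => by
    refine le_trans ?_ (add_le_add (w.lsJ ht hp x) (w.asBJ ht hp x))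
    rw [← Finset.sum_add_distrib]
    refine Finset.sum_le_sum fun l _ => ?_
    rw [← mul_add]
    refine mul_le_mul_of_nonneg_left ?_ (two0 l).le
    show max (max (w.AB l p t x) (w.AP l p t x)) (w.u l p t x) - w.AB l p t x ≤ _
    have h1 := w.arB (k := l) ht hp x
    have h2 := w.uA (k := l) ht hp x
    have h3 := w.ls0 (k := l) ht hp x
    have h4 := (w.pasB (k := l) ht hp).nonneg x
    have e : w.u l p t x = w.be l p t (p * x) + w.G l p t x := rfl
    have h : max (max (w.AB l p t x) (w.AP l p t x)) (w.u l p t x) ≤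
        w.AB l p t x + w.ls l p t x + w.asB l p t x :=
      max_le (max_le (by linarith) (by linarith)) (by rw [e]; linarith)
    linarith
  cc := w.cc
  c1 := w.c1
  c2 := w.c2
  c4 := w.c4
  c3 := w.c3
  col := fun {k p t} ht hp y => by
    have h := w.col (k := k) ht hp y
    have h1 : Ep p (fun x => w.cS k p t x + w.PRx k p t x) y ≤
        Ep p (fun x => w.cS k p t x + w.PR k p t x) y +
          Ep p (fun x => w.brB k p t x + 14 * (2 ^ k * w.asB k p t x)) y := by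
      unfold Ep
      rw [← add_div, ← Finset.sum_add_distrib]
      refine div_le_div_of_nonneg_right (Finset.sum_le_sum fun i _ => ?_) (Nat.cast_nonneg p)
      have := min_le_left (w.PR k p t ((y + i) / p) + (w.brB k p t ((y + i) / p) +
        14 * (2 ^ k * w.asB k p t ((y + i) / p)))) (14 * (2 ^ k * w.u k p t ((y + i) / p)))
      show w.cS k p t ((y + i) / p) + min (w.PR k p t ((y + i) / p) +
        (w.brB k p t ((y + i) / p) + 14 * (2 ^ k * w.asB k p t ((y + i) / p))))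
        (14 * (2 ^ k * w.u k p t ((y + i) / p))) ≤ _
      linarith
    have h2 : Ep p (fun x => w.ex k p t x + (w.brB k p t x + 14 * (2 ^ k * w.asB k p t x))) y =
        Ep p (w.ex k p t) y + Ep p (fun x => w.brB k p t x + 14 * (2 ^ k * w.asB k p t x)) y := by
      unfold Ep
      rw [← add_div, ← Finset.sum_add_distrib]
    show Ep p (fun x => w.cS k p t x + w.PRx k p t x) y ≤ w.Pt k p (w.C p t) y +
      Ep p (fun x => w.ex k p t x + (w.brB k p t x + 14 * (2 ^ k * w.asB k p t x))) y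
    rw [h2]
    linarith
  bR := fun ht hp x => min_le_right _ _
  PB1 := fun {k p t} ht hp x => by
    have h1 := w.PB1 (k := k) ht hp x
    have h2 := w.refB (k := k) ht hp x
    have h3 := w.PB2 (k := k) ht hp x
    have e : w.u k p t x = w.be k p t (p * x) + w.G k p t x := rfl
    rw [← e] at h1
    have h4 : w.AB k p t x ≤ max (max (w.AB k p t x) (w.AP k p t x)) (w.u k p t x) :=
      (le_max_left _ _).trans (le_max_left _ _)
    have h5 := mul_le_mul_of_nonneg_left h4 (two0 k).le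
    have e2 : (2 : ℝ) ^ k * (max (max (w.AB k p t x) (w.AP k p t x)) (w.u k p t x) - w.u k p t x) =
        2 ^ k * max (max (w.AB k p t x) (w.AP k p t x)) (w.u k p t x) - 2 ^ k * w.u k p t x := by ring
    show w.PtB k p t x ≤ min (w.PR k p t x + (w.brB k p t x + 14 * (2 ^ k * w.asB k p t x)))
      (14 * (2 ^ k * w.u k p t x)) + 14 * (2 ^ k *
        (max (max (w.AB k p t x) (w.AP k p t x)) (w.u k p t x) - w.u k p t x))
    rw [e2]
    have k1 : w.PtB k p t x - 14 * (2 ^ k * max (max (w.AB k p t x) (w.AP k p t x)) (w.u k p t x) -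
        2 ^ k * w.u k p t x) ≤ min (w.PR k p t x + (w.brB k p t x +
        14 * (2 ^ k * w.asB k p t x))) (14 * (2 ^ k * w.u k p t x)) :=
      le_min (by linarith) (by linarith)
    linarith
  PB2 := w.PB2
  born := w.born
  arN := fun ht hp x => le_max_right _ _
  ART := fun ht hp x => max_le (w.ART ht hp x) (w.AT (w.okN ht hp) x)
  lam := fun {k p t} ht hp x => by
    have h := w.lam (k := k) ht hp x
    have h2 := le_max_left (w.AR k p t x) (w.A k (w.N p t) x)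
    linarith
  lamJ := fun {p t} ht hp x => by
    refine le_trans ?_ (add_le_add (w.lamJ ht hp x) (w.asJ ht hp x))
    rw [← Finset.sum_add_distrib]
    refine Finset.sum_le_sum fun l _ => ?_
    rw [← mul_add]
    refine mul_le_mul_of_nonneg_left ?_ (two0 l).le
    have h1 := w.arN (k := l) ht hp x
    have h4 := (w.pas (k := l) ht hp).nonneg x
    have h : max (w.AR l p t x) (w.A l (w.N p t) x) ≤ w.AR l p t x + w.as l p t x :=
      max_le (by linarith) h1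
    linarith
  joH := fun {k p t} ht hp x => by
    have h1 := w.joH (k := k) ht hp x
    have h2 := w.ref (k := k) ht hp x
    have h3 := le_max_left (w.AR k p t x) (w.A k (w.N p t) x)
    have h4 := mul_le_mul_of_nonneg_left (min_le_min_left (w.AB k p t x) h3) (two0 k).le
    have h5 := mul_le_mul_of_nonneg_left h3 (two0 k).le
    show w.Pt k p t x ≤ w.PtB k p t x + w.Pt k (p - 1) (w.N p t) x +
      14 * (2 ^ k * (max (w.AR k p t x) (w.A k (w.N p t) x) - w.A k (w.N p t) x)) +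
      14 * (2 ^ k * min (w.AB k p t x) (max (w.AR k p t x) (w.A k (w.N p t) x))) +
      14 * (2 ^ k * w.AL k p t x) + (w.br k p t x + 14 * (2 ^ k * w.as k p t x))
    linarith
  joB := fun {k p t} ht hp x => by
    have h1 := w.joB (k := k) ht hp x
    have h2 := (w.pbr (k := k) ht hp).nonneg x
    have h6 := mul_nonneg (two0 k).le ((w.pas (k := k) ht hp).nonneg x)
    have h3 := le_max_left (w.AR k p t x) (w.A k (w.N p t) x)
    have h5 := mul_le_mul_of_nonneg_left h3 (two0 k).le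
    show w.Pt k p t x ≤ w.PtB k p t x +
      14 * (2 ^ k * (max (w.AR k p t x) (w.A k (w.N p t) x) + w.AL k p t x)) +
      (w.br k p t x + 14 * (2 ^ k * w.as k p t x))
    linarith
  joN := fun {k p t} ht hp x => by
    have h1 := w.joN (k := k) ht hp x
    have h2 := w.ref (k := k) ht hp x
    have h3 := le_max_left (w.AR k p t x) (w.A k (w.N p t) x)
    have h5 := mul_le_mul_of_nonneg_left h3 (two0 k).le
    show w.Pt k p t x ≤ w.Pt k (p - 1) (w.N p t) x +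
      14 * (2 ^ k * (max (w.AR k p t x) (w.A k (w.N p t) x) - w.A k (w.N p t) x)) +
      14 * (2 ^ k * (w.AB k p t x + w.AL k p t x)) + (w.br k p t x + 14 * (2 ^ k * w.as k p t x))
    linarith

end

end Crest.Agent.R4P.MSx25
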