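import Crest.Agent.R4P.Pay_45
import Crest.Agent.R4P.MSi_343

/-!
R4 (S0004) with powers, T3, helper45: **payment lemmas for group states of bundles** (`Pay_45` over
`RG.ms`, `RGm.ms`, ...).

* `BM β` : bundle maps `cP cN rN ok`; `Over w B` : the walk `w` is the walk of group states over `B`.
* `BCh B` : charges of one bundle (member); `BCh.chg : Chg w` = sum over the members;
  `pay` : walk sum of the charges `≤ J (I T + 4 δ I T²)` if `Y ≤ J tt` for the bundles.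
* `PV B Λ` : contents `v` of the pieces of a bundle, `vB` = in the ties and pulls of the column, `vT` =
  in the true ties, `u ≤ Lv v` = still to meet a true tie of the column;
  `Rates` : every piece `j` is charged the rate `r p j` at the true ties of the column `p` and
  `e p j` at the rest of the column; `Rates.bch`; **`Rates.pay`** : total rates
  `Σ_q r q j Lv q j + e q j ≤ J` per piece give `WS ≤ J (I T + 4 δ I T²)`.
-/

set_option autoImplicit false
set_option linter.unusedSectionVars false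
set_option linter.unusedVariables false
open MeasureTheory Filter Set

namespace Crest.Agent.R4P.PayR45

open Crest.Agent.R4.Tour104 Crest.Agent.R4.Clos758
open Crest.Agent.R4P.GMer27 Crest.Agent.R4P.GCol27 Crest.Agent.R4P.RSys343
open Crest.Agent.R4P.ModeS16 (MS)
open Crest.Agent.R4P.MSi343 (su)
open Crest.Agent.R4P.Pay45

/-- bundle maps -/
structure BM (β : Type) where
  cP : ℕ → β → β
  cN : ℕ → β → β
  rN : ℕ → β → β
  ok : ℕ → β → Prop

variable {β : Type}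

/-- the state of the children -/
noncomputable def BM.C (B : BM β) (p : ℕ) (s : Gs β) : Gs β :=
  if 2 ≤ p then ⟨s.J × Bool, inferInstance, cT (1 - 1 / (p : ℝ)) s.c,
    WT (1 - 1 / (p : ℝ)) s.W, fun x => if x.2 then B.cP p (s.L x.1) else B.cN p (s.L x.1)⟩
  else ⟨s.J, s.fJ, s.c, s.W, fun j => B.cP p (s.L j)⟩

/-- the state of the rest -/
def BM.N (B : BM β) (p : ℕ) (s : Gs β) : Gs β := ⟨s.J, s.fJ, s.c, s.W, fun j => B.rN p (s.L j)⟩

/-- the walk is the walk of the group states -/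
structure Over (w : MS (ℕ × Gs β)) (B : BM β) : Prop where
  C : ∀ {p t}, w.ok p t → p ≠ 0 → w.C p t = (p, B.C p t.2)
  N : ∀ {p t}, w.ok p t → p ≠ 0 → w.N p t = (p - 1, B.N p t.2)
  tc : ∀ {p t}, w.ok p t → TC t.2.c t.2.W
  ok : ∀ {p t}, w.ok p t → ∀ j, B.ok p (t.2.L j)

/-- the sum over the members of the children state -/
lemma su_C {B : BM β} {p : ℕ} {s : Gs β} (hp : p ≠ 0) (F : β → ℝ → ℝ) (y : ℝ)
    (h1 : p = 1 → ∀ j, F (B.cP p (s.L j)) y = 0) (h1' : p = 1 → ∀ j, 0 ≤ F (B.cN p (s.L j)) y)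
    (c0 : ∀ j, 0 ≤ s.c j) :
    su (B.C p s) F y ≤ M s.c fun j => (1 - 1 / (p : ℝ)) * F (B.cP p (s.L j)) y +
      1 / (p : ℝ) * F (B.cN p (s.L j)) y := by
  by_cases h2 : 2 ≤ p
  · have e : B.C p s = ⟨s.J × Bool, inferInstance, cT (1 - 1 / (p : ℝ)) s.c,
      WT (1 - 1 / (p : ℝ)) s.W, fun x => if x.2 then B.cP p (s.L x.1) else B.cN p (s.L x.1)⟩ :=
      if_pos h2
    rw [e]
    show M (cT (1 - 1 / (p : ℝ)) s.c) (fun (x : s.J × Bool) =>
      F (if x.2 = true then B.cP p (s.L x.1) else B.cN p (s.L x.1)) y) ≤ _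
    rw [M_cT]
    refine le_of_eq ?_
    congr 1
    funext j
    unfold av
    simp
    ring
  · have hp1 : p = 1 := by omega
    have e : B.C p s = ⟨s.J, s.fJ, s.c, s.W, fun j => B.cP p (s.L j)⟩ := if_neg h2
    rw [e]
    show M s.c (fun j => F (B.cP p (s.L j)) y) ≤ _
    refine M_mono c0 fun j => ?_
    have a1 := h1 hp1 j
    have a2 := h1' hp1 j
    rw [a1, mul_zero, zero_add]
    exact mul_nonneg (by positivity) a2

lemma Ep_sum' {ι : Type*} (s : Finset ι) (p : ℕ) (f : ι → ℝ → ℝ) (y : ℝ) :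
    Ep p (fun x => ∑ i ∈ s, f i x) y = ∑ i ∈ s, Ep p (f i) y := by
  unfold Ep
  rw [Finset.sum_comm, Finset.sum_div]

/-- **charges of a bundle** -/
structure BCh (B : BM β) where
  Y : ℕ → β → ℝ → ℝ
  YB : ℕ → β → ℝ → ℝ
  yx : ℕ → β → ℝ → ℝ
  yc : ℕ → β → ℝ → ℝ
  pY : ∀ {p b}, B.ok p b → PB (Y p b)
  pYB : ∀ {p b}, B.ok p b → p ≠ 0 → PB (YB p b)
  pyx : ∀ {p b}, B.ok p b → p ≠ 0 → PB (yx p b)
  pyc : ∀ {p b}, B.ok p b → p ≠ 0 → PB (yc p b)
  spl : ∀ {p b}, B.ok p b → p ≠ 0 → ∀ x, yx p b x + YB p b x + Y (p - 1) (B.rN p b) x ≤ Y p b x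
  mean : ∀ {p b}, B.ok p b → p ≠ 0 → ∀ y, yc p b y + ((1 - 1 / (p : ℝ)) * Y p (B.cP p b) y +
    1 / (p : ℝ) * Y p (B.cN p b) y) ≤ Ep p (YB p b) y
  one : ∀ {b}, B.ok 1 b → ∀ y, Y 1 (B.cP 1 b) y = 0 ∧ 0 ≤ Y 1 (B.cN 1 b) y

lemma PB_su' {s : Gs β} (H : TC s.c s.W) {f : β → ℝ → ℝ} (hf : ∀ j, PB (f (s.L j))) :
    PB (su s f) := PB_M H.c0 (f := fun x j => f (s.L j) x) hf

lemma Ep_su' {s : Gs β} {p : ℕ} (f : β → ℝ → ℝ) (y : ℝ) :
    Ep p (su s f) y = M s.c fun j => Ep p (f (s.L j)) y := by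
  unfold su M Ep
  rw [Finset.sum_comm, Finset.sum_div]
  refine Finset.sum_congr rfl fun j _ => ?_
  rw [← Finset.mul_sum, mul_div_assoc]

/-- **the charges of the groups** -/
noncomputable def BCh.chg {w : MS (ℕ × Gs β)} {B : BM β} (Q : BCh B) (h : Over w B) : Chg w where
  Y := fun p t => su t.2 (Q.Y p)
  YB := fun p t => su t.2 (Q.YB p)
  yx := fun p t => su t.2 (Q.yx p)
  yc := fun p t => su t.2 (Q.yc p)
  pY := fun ht => PB_su' (h.tc ht) fun j => Q.pY (h.ok ht j)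
  pYB := fun ht hp => PB_su' (h.tc ht) fun j => Q.pYB (h.ok ht j) hp
  pyx := fun ht hp => PB_su' (h.tc ht) fun j => Q.pyx (h.ok ht j) hp
  pyc := fun ht hp => PB_su' (h.tc ht) fun j => Q.pyc (h.ok ht j) hp
  spl := fun {p t} ht hp x => by
    rw [h.N ht hp]
    show su t.2 (Q.yx p) x + su t.2 (Q.YB p) x +
      M t.2.c (fun j => Q.Y (p - 1) (B.rN p (t.2.L j)) x) ≤ su t.2 (Q.Y p) x
    unfold su
    rw [← M_add, ← M_add]
    exact M_mono (h.tc ht).c0 fun j => Q.spl (h.ok ht j) hp x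
  mean := fun {p t} ht hp y => by
    rw [h.C ht hp, Ep_su']
    have h1 := su_C (B := B) (s := t.2) hp (Q.Y p) y
      (fun e j => by have := h.ok ht j; subst e; exact (Q.one this y).1)
      (fun e j => by have := h.ok ht j; subst e; exact (Q.one this y).2) (h.tc ht).c0
    show su t.2 (Q.yc p) y + su (B.C p t.2) (Q.Y p) y ≤ _
    refine (add_le_add le_rfl h1).trans ?_
    unfold su
    rw [← M_add]
    exact M_mono (h.tc ht).c0 fun j => Q.mean (h.ok ht j) hp y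

/-- **payment** -/
theorem BCh.pay {w : MS (ℕ × Gs β)} {B : BM β} (Q : BCh B) (h : Over w B) {J : ℝ} (hJ : 0 ≤ J)
    {tt : β → ℝ → ℝ} {n p : ℕ} {t : ℕ × Gs β} (ht : w.ok p t) (hT : ∀ x, su t.2 tt x ≤ w.T t x)
    (hY : ∀ b, B.ok p b → ∀ x, Q.Y p b x ≤ J * tt b x) :
    WS (Q.chg h) n p t ≤ J * (I (w.T t) + 4 * w.del * I (fun x => w.T t x ^ 2)) := by
  refine WS_le_J (Q.chg h) hJ n p t ht fun x => ?_
  show su t.2 (Q.Y p) x ≤ _
  have h1 : su t.2 (Q.Y p) x ≤ J * su t.2 tt x := by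
    unfold su
    rw [← M_smul]
    exact M_mono (h.tc ht).c0 fun j => hY _ (h.ok ht j) x
  exact h1.trans (mul_le_mul_of_nonneg_left (hT x) hJ)

/-! ### charges by pieces -/

/-- **contents of the pieces of the bundles** -/
structure PV (B : BM β) (Λ : Type) where
  v : β → Λ → ℝ → ℝ
  /-- in the ties and pulls of the column -/
  vB : ℕ → β → Λ → ℝ → ℝ
  /-- still to meet a true tie of the column -/
  u : ℕ → β → Λ → ℝ → ℝ
  uB : ℕ → β → Λ → ℝ → ℝ
  /-- in the true ties of the column -/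
  vT : ℕ → β → Λ → ℝ → ℝ
  /-- number of the true ties of the column met by the piece -/
  Lv : ℕ → Λ → ℕ
  pv : ∀ {p b}, B.ok p b → ∀ j, PB (v b j)
  pvB : ∀ {p b}, B.ok p b → p ≠ 0 → ∀ j, PB (vB p b j)
  pu : ∀ {p b}, B.ok p b → ∀ j, PB (u p b j)
  puB : ∀ {p b}, B.ok p b → p ≠ 0 → ∀ j, PB (uB p b j)
  pvT : ∀ {p b}, B.ok p b → p ≠ 0 → ∀ j, PB (vT p b j)
  spl : ∀ {p b}, B.ok p b → p ≠ 0 → ∀ j x, vB p b j x + v (B.rN p b) j x ≤ v b j x
  splU : ∀ {p b}, B.ok p b → p ≠ 0 → ∀ j x, uB p b j x ≤ u p b j x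
  uv : ∀ {p b}, B.ok p b → ∀ j x, u p b j x ≤ Lv p j * v b j x
  mean : ∀ {p b}, B.ok p b → p ≠ 0 → ∀ j y, (1 - 1 / (p : ℝ)) * v (B.cP p b) j y +
    1 / (p : ℝ) * v (B.cN p b) j y ≤ Ep p (vB p b j) y
  meanU : ∀ {p b}, B.ok p b → p ≠ 0 → ∀ j y, Ep p (vT p b j) y +
    ((1 - 1 / (p : ℝ)) * u p (B.cP p b) j y + 1 / (p : ℝ) * u p (B.cN p b) j y) ≤ Ep p (uB p b j) y
  okP : ∀ {p b}, B.ok p b → p ≠ 0 → B.ok p (B.cP p b)
  okN : ∀ {p b}, B.ok p b → p ≠ 0 → B.ok p (B.cN p b)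
  okR : ∀ {p b}, B.ok p b → p ≠ 0 → B.ok (p - 1) (B.rN p b)
  one : ∀ {b}, B.ok 1 b → ∀ j y, v (B.cP 1 b) j y = 0

/-- **rates** : the piece `j` is charged `r p j` at every true tie of the column `p` and `e p j` at
the rest -/
structure Rates (Λ : Type) where
  r : ℕ → Λ → ℝ
  e : ℕ → Λ → ℝ
  r0 : ∀ p j, 0 ≤ r p j
  e0 : ∀ p j, 0 ≤ e p j

namespace Rates
variable {Λ : Type} [Fintype Λ] (R : Rates Λ) {B : BM β} (V : PV B Λ)

/-- rate of the piece at the column -/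
def rt (q : ℕ) (j : Λ) : ℝ := R.r q j * V.Lv q j + R.e q j

lemma rt_nonneg (q : ℕ) (j : Λ) : 0 ≤ R.rt V q j :=
  add_nonneg (mul_nonneg (R.r0 q j) (Nat.cast_nonneg _)) (R.e0 q j)

/-- total rate of the columns below `p` (`p` excluded) -/
def bel (p : ℕ) (j : Λ) : ℝ := ∑ q ∈ Finset.range p, R.rt V q j

lemma bel_nonneg (p : ℕ) (j : Λ) : 0 ≤ R.bel V p j :=
  Finset.sum_nonneg fun q _ => R.rt_nonneg V q j

/-- total rate up to `p` -/
lemma bel_succ (p : ℕ) (j : Λ) : R.bel V (p + 1) j = R.bel V p j + R.rt V p j :=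
  Finset.sum_range_succ _ _

/-- the rates below `p - 1`, and at `p - 1` -/
lemma bel_pred {p : ℕ} (hp : p ≠ 0) (j : Λ) :
    R.bel V p j = R.bel V (p - 1) j + (R.r (p - 1) j * V.Lv (p - 1) j + R.e (p - 1) j) := by
  obtain ⟨q, rfl⟩ := Nat.exists_eq_succ_of_ne_zero hp
  exact R.bel_succ V q j

/-- **the charges of the bundles by the rates** -/
noncomputable def bch : BCh B where
  Y := fun p b x => ∑ j, ((R.bel V p j + R.e p j) * V.v b j x + R.r p j * V.u p b j x)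
  YB := fun p b x => ∑ j, ((R.bel V p j + R.e p j) * V.vB p b j x + R.r p j * V.uB p b j x)
  yx := fun p b x => ∑ j, R.e p j * V.v (B.rN p b) j x
  yc := fun p b y => ∑ j, R.r p j * Ep p (V.vT p b j) y
  pY := fun {p b} hb => PB.sum _ fun j _ =>
    ((V.pv hb j).smul (add_nonneg (R.bel_nonneg V p j) (R.e0 p j))).add ((V.pu hb j).smul (R.r0 p j))
  pYB := fun {p b} hb hp => PB.sum _ fun j _ => ((V.pvB hb hp j).smul
    (add_nonneg (R.bel_nonneg V p j) (R.e0 p j))).add ((V.puB hb hp j).smul (R.r0 p j))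
  pyx := fun {p b} hb hp => PB.sum _ fun j _ => (V.pv (V.okR hb hp) j).smul (R.e0 p j)
  pyc := fun {p b} hb hp => PB.sum _ fun j _ =>
    ((V.pvT hb hp j).Ep (Nat.pos_of_ne_zero hp)).smul (R.r0 p j)
  spl := fun {p b} hb hp x => by
    rw [← Finset.sum_add_distrib, ← Finset.sum_add_distrib]
    refine Finset.sum_le_sum fun j _ => ?_
    have h1 := V.spl hb hp j x
    have h2 := V.splU hb hp j x
    have h3 := mul_le_mul_of_nonneg_left h1 (add_nonneg (R.bel_nonneg V p j) (R.e0 p j))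
    have h4 := mul_le_mul_of_nonneg_left (V.uv (V.okR hb hp) j x) (R.r0 (p - 1) j)
    have h5 := R.bel_pred V hp j
    have h6 := mul_le_mul_of_nonneg_left h2 (R.r0 p j)
    rw [h5] at h3 ⊢
    nlinarith
  mean := fun {p b} hb hp y => by
    have e1 : Ep p (fun x => ∑ j, ((R.bel V p j + R.e p j) * V.vB p b j x +
        R.r p j * V.uB p b j x)) y =
        ∑ j, ((R.bel V p j + R.e p j) * Ep p (V.vB p b j) y + R.r p j * Ep p (V.uB p b j) y) := by
      rw [Ep_sum']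
      refine Finset.sum_congr rfl fun j _ => ?_
      rw [Ep_add, Ep_smul, Ep_smul]
    rw [e1, Finset.mul_sum, Finset.mul_sum, ← Finset.sum_add_distrib, ← Finset.sum_add_distrib]
    refine Finset.sum_le_sum fun j _ => ?_
    have h1 := mul_le_mul_of_nonneg_left (V.mean hb hp j y)
      (add_nonneg (R.bel_nonneg V p j) (R.e0 p j))
    have h2 := mul_le_mul_of_nonneg_left (V.meanU hb hp j y) (R.r0 p j)
    nlinarith
  one := fun {b} hb y => by
    have h1 : ∀ j, V.u 1 (B.cP 1 b) j y = 0 := fun j => by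
      have h2 := V.uv (V.okP hb one_ne_zero) j y
      have h3 := (V.pu (V.okP hb one_ne_zero) j).nonneg y
      rw [V.one hb j y, mul_zero] at h2
      linarith
    constructor
    · refine Finset.sum_eq_zero fun j _ => ?_
      rw [h1 j, V.one hb j y]
      ring
    · exact Finset.sum_nonneg fun j _ => add_nonneg
        (mul_nonneg (add_nonneg (R.bel_nonneg V 1 j) (R.e0 1 j))
          ((V.pv (V.okN hb one_ne_zero) j).nonneg y))
        (mul_nonneg (R.r0 1 j) ((V.pu (V.okN hb one_ne_zero) j).nonneg y))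

/-- **total rates at most `J`** : the payment -/
theorem pay {w : MS (ℕ × Gs β)} (h : Over w B) {J : ℝ} (hJ : 0 ≤ J) {tt : β → ℝ → ℝ}
    {n p : ℕ} {t : ℕ × Gs β} (ht : w.ok p t) (hT : ∀ x, su t.2 tt x ≤ w.T t x)
    (hv : ∀ b, B.ok p b → ∀ x, ∑ j, V.v b j x ≤ tt b x)
    (hR : ∀ j, ∑ q ∈ Finset.range (p + 1), (R.r q j * V.Lv q j + R.e q j) ≤ J) :
    WS ((R.bch V).chg h) n p t ≤ J * (I (w.T t) + 4 * w.del * I (fun x => w.T t x ^ 2)) := by
  refine (R.bch V).pay h hJ ht hT fun b hb x => ?_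
  show ∑ j, ((R.bel V p j + R.e p j) * V.v b j x + R.r p j * V.u p b j x) ≤ _
  have h1 : ∑ j, ((R.bel V p j + R.e p j) * V.v b j x + R.r p j * V.u p b j x) ≤
      ∑ j, J * V.v b j x := by
    refine Finset.sum_le_sum fun j _ => ?_
    have a1 := mul_le_mul_of_nonneg_left (V.uv hb j x) (R.r0 p j)
    have a2 := hR j
    have a3 : R.bel V p j + (R.r p j * V.Lv p j + R.e p j) ≤ J := by
      have := R.bel_succ V p j
      unfold rt at this
      rw [← this]; exact a2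
    have a4 := mul_le_mul_of_nonneg_right a3 ((V.pv hb j).nonneg x)
    linarith
  refine h1.trans ?_
  rw [← Finset.mul_sum]
  exact mul_le_mul_of_nonneg_left (hv b hb x) hJ

end Rates

end Crest.Agent.R4P.PayR45
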