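import Crest.Agent.R4P.RXn_55
import Crest.Agent.R4P.MSx_25
import Crest.Agent.R4P.PayR_45

/-!
R4 (S0004) with powers, T3 (heights > 1), helper25: **row systems with separated contents (`RXm_55`,
`RXn_55`) are instances of the scaled mode game, with BOTH class changes** (`MSx_25`).

* `RBm R` (helper55's `MSm_55`) : budgets of a row system: total `tt` of ALL the contents, `u` =
  contents outside the game.
* `RGx U` : group data with the class changes of the rest (`as, jm, br` : classes of the column `p` to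
  classes of `N p s`) and of the ties (`asB, jmB, brB` : classes of the rows `hP` to classes of the
  point `hB`).
* `RGx.msx : MSx (ℕ × Gs β)`, `RGx.ms = msx.toMS` : the instance; its cost is the LEAST of the cost by
  the classes of the rows and the cost by the classes of the point (`1/14 Σ_z (M gc_z)²`,
  `1/14 Σ_z (M gB_z)²`); every family of real costs below both is paid: `Kr`, `Kr_le`.
* `msx_main`, `msx_real` : `Kr ≤ ε I tot² + C_ε I tot + 14 E`.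
* payments (`Pay_45`, `PayR_45`): `E_le2`, **`msx_pay`**, **`msx_payB`** (charges of the bundles) :
  charges `O(J)` per content : `Kr ≤ ε I tot² + C I tot + 28 E0`.
-/

set_option autoImplicit false
set_option linter.unusedSectionVars false
set_option linter.unusedVariables false
open MeasureTheory Filter Set

namespace Crest.Agent.R4P.MSm25

open Crest.Agent.R4.Tour104 Crest.Agent.R4.Clos758
open Crest.Agent.R4P.GMer27 Crest.Agent.R4P.GCol27 Crest.Agent.R4P.RSys343 Crest.Agent.R4P.TrR343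
open Crest.Agent.R4P.RXs343 Crest.Agent.R4P.RXm55 Crest.Agent.R4P.RXm55.RXm
open Crest.Agent.R4P.RXj343.RX (sm2 q2)
open Crest.Agent.R4P.MSi343 (su su_add two_pos')
open Crest.Agent.R4P.LogG51 (PB_max)
open Crest.Agent.R4P.ModeP940 (PP SS SS_nonneg SS_add)
open Crest.Agent.R4P.ModeS16 (MS)
open Crest.Agent.R4P.MSx25 (MSx)

section
variable {β δ : Type} [Fintype δ]

/-- **budgets of a row system** : `tt` = total of all the contents, `u` = contents outside the game -/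
structure RBm (R : RXm β δ) where
  tt : β → ℝ → ℝ
  u : ℕ → β → ℝ → ℝ
  uL : ℕ → β → ℝ → ℝ
  uN : ℕ → β → ℝ → ℝ
  bU : ℕ → β → ℝ → ℝ
  gU : ℕ → β → ℝ → ℝ
  pu : ∀ {p b}, R.ok p b → PB (u p b)
  puL : ∀ {p b}, R.ok p b → p ≠ 0 → PB (uL p b)
  puN : ∀ {p b}, R.ok p b → p ≠ 0 → PB (uN p b)
  pbU : ∀ {p b}, R.ok p b → p ≠ 0 → PB (bU p b)
  pgU : ∀ {p b}, R.ok p b → p ≠ 0 → PB (gU p b)
  sh : ∀ {p b}, R.ok p b → ∀ x, ∑ z, R.h p b z x + u p b x = tt b x
  sN : ∀ {p b}, R.ok p b → p ≠ 0 → ∀ x, ∑ z, R.hN p b z x + uN p b x = tt (R.rN p b) x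
  us : ∀ {p b}, R.ok p b → p ≠ 0 → ∀ x,
    u p b x = uL p b x + (bU p b (p * x) + gU p b x) + uN p b x
  um : ∀ {p b}, R.ok p b → p ≠ 0 → ∀ y, bU p b y + Ep p (gU p b) y =
    (1 - 1 / (p : ℝ)) * u p (R.cP p b) y + 1 / (p : ℝ) * u p (R.cN p b) y
  un : ∀ {b}, R.ok 1 b → ∀ x, u 1 (R.cP 1 b) x = 0 ∧ u 1 (R.cN 1 b) x = 0
  /-- a uniform bound -/
  B0 : ℝ
  bd : ∀ {p b}, R.ok p b → ∀ x, tt b x ≤ B0

variable {R : RXm β δ} {p : ℕ} {s : Gs β} {σ : ℝ}

/-- the mean of the outside contents -/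
lemma mean_su (hs : R.gok p s) (hp : p ≠ 0) {F B g : β → ℝ → ℝ}
    (h : ∀ j y, B (s.L j) y + Ep p (g (s.L j)) y =
      (1 - 1 / (p : ℝ)) * F (R.cP p (s.L j)) y + 1 / (p : ℝ) * F (R.cN p (s.L j)) y)
    (h1 : p = 1 → ∀ j y, F (R.cP p (s.L j)) y = 0 ∧ F (R.cN p (s.L j)) y = 0)
    (y : ℝ) : su s B y + Ep p (su s g) y = su (R.C p s) F y := by
  have e1 : su s B y + Ep p (su s g) y = M s.c fun j =>
      (1 - 1 / (p : ℝ)) * F (R.cP p (s.L j)) y + 1 / (p : ℝ) * F (R.cN p (s.L j)) y := by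
    rw [Ep_su]
    unfold su
    rw [← M_add]
    congr 1
    funext j
    exact h j y
  rw [e1]
  by_cases h2 : 2 ≤ p
  · rw [RXm.C_pos R h2]
    show _ = M (cT (1 - 1 / (p : ℝ)) s.c) fun (x : s.J × Bool) =>
      F (if x.2 = true then R.cP p (s.L x.1) else R.cN p (s.L x.1)) y
    rw [M_cT]
    congr 1
    funext j
    unfold av
    simp
    ring
  · have hp1 : p = 1 := by omega
    rw [RXm.C_neg R h2]
    show _ = M s.c fun j => F (R.cP p (s.L j)) y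
    congr 1
    funext j
    rw [(h1 hp1 j y).1, (h1 hp1 j y).2]
    ring

namespace RBm
variable (U : RBm R)

/-- all the short content -/
noncomputable def A (σ : ℝ) (p : ℕ) (s : Gs β) (x : ℝ) : ℝ := R.A σ p s x + su s (U.u p) x
noncomputable def AR (σ : ℝ) (p : ℕ) (s : Gs β) (x : ℝ) : ℝ := R.AR σ p s x + su s (U.uN p) x

lemma T_eq (hs : R.gok p s) (x : ℝ) : R.T p s x + su s (U.u p) x = su s U.tt x := by
  unfold RXm.T sm2 SS su
  rw [← M_sum, ← M_add]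
  congr 1
  funext j
  exact U.sh (hs.2 j) x

lemma TN_eq (hs : R.gok p s) (hp : p ≠ 0) (x : ℝ) :
    R.TN p s x + su s (U.uN p) x = su (R.N p s) U.tt x := by
  show _ = M s.c fun j => U.tt (R.rN p (s.L j)) x
  unfold RXm.TN sm2 SS su
  rw [← M_sum, ← M_add]
  congr 1
  funext j
  exact U.sN (hs.2 j) hp x

lemma us' (hs : R.gok p s) (hp : p ≠ 0) (x : ℝ) : su s (U.u p) x =
    su s (U.uL p) x + (su s (U.bU p) (p * x) + su s (U.gU p) x) + su s (U.uN p) x := by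
  unfold su
  rw [← M_add, ← M_add, ← M_add]
  congr 1
  funext j
  exact U.us (hs.2 j) hp x

lemma um' (hs : R.gok p s) (hp : p ≠ 0) (y : ℝ) :
    su s (U.bU p) y + Ep p (su s (U.gU p)) y = su (R.C p s) (U.u p) y :=
  mean_su (F := U.u p) hs hp (fun j y => U.um (hs.2 j) hp y)
    (fun h1 j y => by subst h1; exact U.un (hs.2 j) y) y

lemma PB_tt (hs : R.gok p s) : PB (su s U.tt) := by
  have e : su s U.tt = fun x => R.T p s x + su s (U.u p) x := funext fun x => (U.T_eq hs x).symm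
  rw [e]
  exact (RXm.PB_T hs).add (PB_su hs.1 fun j => U.pu (hs.2 j))

lemma bd' (hs : R.gok p s) (x : ℝ) : su s U.tt x ≤ U.B0 := by
  unfold su
  rw [← M_const hs.1.c1 U.B0]
  exact M_mono hs.1.c0 fun j => U.bd (hs.2 j) x

end RBm

/-- the cost of the game: the least of the costs by the classes of the rows and of the point -/
noncomputable def cst (R : RXm β δ) (p : ℕ) (s : Gs β) (x : ℝ) : ℝ :=
  min (R.costP p s x) (R.costB p s x)

lemma PB_cst (hs : R.gok p s) (hp : p ≠ 0) : PB (cst R p s) :=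
  MSx25.PB_min (RXm.PB_costP hs hp) (RXm.PB_costB hs hp)

lemma PB_cS (hσ : 0 < σ) (hs : R.gok p s) (hp : p ≠ 0) : PB (R.cS σ p s) :=
  (PB_q2 hs.1 fun j z => (RXm.so hσ hs hp j).psg z).smul (by norm_num)

/-- **group data with the class changes** of the rest and of the ties -/
structure RGx (U : RBm R) where
  /-- good group states -/
  ok : ℕ → Gs β → Prop
  gk : ∀ {p s}, ok p s → R.gok p s
  gs : ∀ {p s}, ok p s → p ≠ 0 → R.grp p s
  okC : ∀ {p s}, ok p s → p ≠ 0 → ok p (R.C p s)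
  okN : ∀ {p s}, ok p s → p ≠ 0 → ok (p - 1) (R.N p s)
  /-- error of the class change of the rest -/
  br : ℝ → ℕ → Gs β → ℝ → ℝ
  /-- slack of the short content of the rest -/
  as : ℝ → ℕ → Gs β → ℝ → ℝ
  /-- join energy of the class change of the rest -/
  jm : ℕ → ℕ → Gs β → ℝ → ℝ
  /-- error of the class change of the ties -/
  brB : ℝ → ℕ → Gs β → ℝ → ℝ
  /-- slack of the short content of the ties -/
  asB : ℝ → ℕ → Gs β → ℝ → ℝ
  /-- join energy of the class change of the ties -/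
  jmB : ℕ → ℕ → Gs β → ℝ → ℝ
  pbr : ∀ {σ p s}, 0 < σ → ok p s → p ≠ 0 → PB (br σ p s)
  pas : ∀ {σ p s}, 0 < σ → ok p s → p ≠ 0 → PB (as σ p s)
  pjm : ∀ {Km p s}, ok p s → p ≠ 0 → PB (jm Km p s)
  pbrB : ∀ {σ p s}, 0 < σ → ok p s → p ≠ 0 → PB (brB σ p s)
  pasB : ∀ {σ p s}, 0 < σ → ok p s → p ≠ 0 → PB (asB σ p s)
  pjmB : ∀ {Km p s}, ok p s → p ≠ 0 → PB (jmB Km p s)
  arN : ∀ {σ p s}, 0 < σ → ok p s → p ≠ 0 → ∀ x,
    U.A σ (p - 1) (R.N p s) x ≤ U.AR σ p s x + as σ p s x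
  ref : ∀ {σ p s}, 0 < σ → ok p s → p ≠ 0 → ∀ x, R.PtR σ p s x ≤ R.Pt σ (p - 1) (R.N p s) x +
    14 * (σ * (U.AR σ p s x + as σ p s x - U.A σ (p - 1) (R.N p s) x)) + br σ p s x
  asJ : ∀ {Km p s}, ok p s → p ≠ 0 → ∀ x,
    ∑ l ∈ Finset.range (Km + 1), 2 ^ l * as (2 ^ l) p s x ≤ jm Km p s x
  arB : ∀ {σ p s}, 0 < σ → ok p s → p ≠ 0 → ∀ x,
    R.AP σ p s x ≤ R.AB σ p s x + asB σ p s x
  refB : ∀ {σ p s}, 0 < σ → ok p s → p ≠ 0 → ∀ x, R.PtB σ p s x ≤ R.PtP σ p s x +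
    14 * (σ * (R.AB σ p s x + asB σ p s x - R.AP σ p s x)) + brB σ p s x
  asBJ : ∀ {Km p s}, ok p s → p ≠ 0 → ∀ x,
    ∑ l ∈ Finset.range (Km + 1), 2 ^ l * asB (2 ^ l) p s x ≤ jmB Km p s x

variable {U : RBm R}

/-- **the scaled walk with both class changes** -/
noncomputable def RGx.msx (D : RGx U) {del : ℝ} {Km : ℕ} (h0 : 0 < del) (h1 : del ≤ 1)
    (hK : del * U.B0 ≤ 2 ^ Km) : MSx (ℕ × Gs β) where
  del := del
  Km := Km
  C := fun p t => (p, R.C p t.2)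
  N := fun p t => (p - 1, R.N p t.2)
  ok := fun p t => t.1 = p ∧ D.ok p t.2
  T := fun t => su t.2 U.tt
  TL := fun p t x => R.TL p t.2 x + su t.2 (U.uL p) x
  TB := fun p t x => R.TB p t.2 x + (su t.2 (U.bU p) (p * x) + su t.2 (U.gU p) x)
  bT := fun p t x => R.bt0 p t.2 x + su t.2 (U.bU p) x
  GT := fun p t x => R.GT p t.2 x + su t.2 (U.gU p) x
  cost := fun p t => cst R p t.2
  jn := fun p t => R.jn p t.2
  jB := fun p t => R.jb0 p t.2
  jm := fun p t => D.jm Km p t.2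
  jmB := fun p t => D.jmB Km p t.2
  A := fun k t => U.A (2 ^ k) t.1 t.2
  AL := fun k p t x => R.AL (2 ^ k) p t.2 x + su t.2 (U.uL p) x
  AB := fun k p t x => R.AB (2 ^ k) p t.2 x + (su t.2 (U.bU p) (p * x) + su t.2 (U.gU p) x)
  AP := fun k p t x => R.AP (2 ^ k) p t.2 x + (su t.2 (U.bU p) (p * x) + su t.2 (U.gU p) x)
  AR := fun k p t => U.AR (2 ^ k) p t.2
  be := fun k p t x => R.be (2 ^ k) p t.2 x + su t.2 (U.bU p) x
  G := fun k p t x => R.G (2 ^ k) p t.2 x + su t.2 (U.gU p) x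
  ls := fun k p t => R.ls (2 ^ k) p t.2
  as := fun k p t => D.as (2 ^ k) p t.2
  asB := fun k p t => D.asB (2 ^ k) p t.2
  cS := fun k p t => R.cS (2 ^ k) p t.2
  cT := fun k p t => R.cTk (2 ^ k) p t.2
  ex := fun k p t => R.ex (2 ^ k) p t.2
  br := fun k p t => D.br (2 ^ k) p t.2
  brB := fun k p t => D.brB (2 ^ k) p t.2
  Pt := fun k p t => R.Pt (2 ^ k) p t.2
  PR := fun k p t => R.PR (2 ^ k) p t.2
  PtP := fun k p t => R.PtP (2 ^ k) p t.2
  PtB := fun k p t => R.PtB (2 ^ k) p t.2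
  PtR := fun k p t => R.PtR (2 ^ k) p t.2
  del0 := h0
  del1 := h1
  okC := fun ht hp => ⟨rfl, D.okC ht.2 hp⟩
  okN := fun ht hp => ⟨rfl, D.okN ht.2 hp⟩
  pT := fun ht => U.PB_tt (D.gk ht.2)
  pTL := fun ht hp => (RXm.PB_TL (D.gk ht.2) hp).add
    (PB_su (D.gk ht.2).1 fun j => U.puL ((D.gk ht.2).2 j) hp)
  pTB := fun ht hp => (RXm.PB_TB (D.gk ht.2) hp).add
    (((PB_su (D.gk ht.2).1 fun j => U.pbU ((D.gk ht.2).2 j) hp).pull _).add
      (PB_su (D.gk ht.2).1 fun j => U.pgU ((D.gk ht.2).2 j) hp))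
  pGT := fun ht hp => (RXm.PB_GT (D.gk ht.2) hp).add
    (PB_su (D.gk ht.2).1 fun j => U.pgU ((D.gk ht.2).2 j) hp)
  pcost := fun ht hp => PB_cst (D.gk ht.2) hp
  pjn := fun ht hp => RXm.PB_jn (D.gk ht.2) hp
  pjB := fun ht hp => RXm.PB_jb0 (D.gk ht.2) hp
  pjm := fun ht hp => D.pjm ht.2 hp
  pjmB := fun ht hp => D.pjmB ht.2 hp
  pA := fun {k p t} ht => by
    have h := ht.1
    subst h
    exact (RXm.PB_A (two_pos' _) (D.gk ht.2)).add
      (PB_su (D.gk ht.2).1 fun j => U.pu ((D.gk ht.2).2 j))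
  pAL := fun ht hp => (RXm.PB_AL (two_pos' _) (D.gk ht.2) hp).add
    (PB_su (D.gk ht.2).1 fun j => U.puL ((D.gk ht.2).2 j) hp)
  pAB := fun ht hp => (RXm.PB_AB (two_pos' _) (D.gk ht.2) hp).add
    (((PB_su (D.gk ht.2).1 fun j => U.pbU ((D.gk ht.2).2 j) hp).pull _).add
      (PB_su (D.gk ht.2).1 fun j => U.pgU ((D.gk ht.2).2 j) hp))
  pAP := fun ht hp => (RXm.PB_AP (two_pos' _) (D.gk ht.2) hp).add
    (((PB_su (D.gk ht.2).1 fun j => U.pbU ((D.gk ht.2).2 j) hp).pull _).add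
      (PB_su (D.gk ht.2).1 fun j => U.pgU ((D.gk ht.2).2 j) hp))
  pAR := fun ht hp => (RXm.PB_AR (two_pos' _) (D.gk ht.2) hp).add
    (PB_su (D.gk ht.2).1 fun j => U.puN ((D.gk ht.2).2 j) hp)
  pG := fun ht hp => (RXm.PB_G (two_pos' _) (D.gk ht.2) hp).add
    (PB_su (D.gk ht.2).1 fun j => U.pgU ((D.gk ht.2).2 j) hp)
  pas := fun ht hp => D.pas (two_pos' _) ht.2 hp
  pasB := fun ht hp => D.pasB (two_pos' _) ht.2 hp
  pex := fun ht hp => RXm.PB_ex (two_pos' _) (D.gk ht.2) hp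
  pbr := fun ht hp => D.pbr (two_pos' _) ht.2 hp
  pbrB := fun ht hp => D.pbrB (two_pos' _) ht.2 hp
  pPt := fun ht => RXm.PB_Pt (two_pos' _) (D.gk ht.2)
  pPtB := fun ht hp => RXm.PB_PtB (two_pos' _) (D.gk ht.2) hp
  pPR := fun ht hp => RXm.PB_PR (two_pos' _) (D.gk ht.2) hp
  pcS := fun ht hp => PB_cS (two_pos' _) (D.gk ht.2) hp
  mbe := fun ht hp => ((RXm.PB_be (two_pos' _) (D.gk ht.2) hp).add
    (PB_su (D.gk ht.2).1 fun j => U.pbU ((D.gk ht.2).2 j) hp)).meas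
  bper := fun ht hp => ((RXm.PB_be (two_pos' _) (D.gk ht.2) hp).add
    (PB_su (D.gk ht.2).1 fun j => U.pbU ((D.gk ht.2).2 j) hp)).per
  bTper := fun ht hp => ((RXm.PB_bt0 (D.gk ht.2) hp).add
    (PB_su (D.gk ht.2).1 fun j => U.pbU ((D.gk ht.2).2 j) hp)).per
  cS0 := fun _ _ x => mul_nonneg (by norm_num) (q2_nonneg _ x)
  PR0 := fun ht hp x => (RXm.PB_PR (two_pos' _) (D.gk ht.2) hp).nonneg x
  ls0 := fun ht hp x => (RXm.PB_ls (two_pos' _) (D.gk ht.2) hp).nonneg x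
  bd := fun ht x => by
    have h := U.bd' (D.gk ht.2) x
    exact (mul_le_mul_of_nonneg_left h h0.le).trans hK
  spl := fun {p t} ht hp x => by
    have e1 := RXm.spl (D.gk ht.2) hp x
    have e2 := U.us' (D.gk ht.2) hp x
    have e3 := U.T_eq (D.gk ht.2) x
    have e4 := U.TN_eq (D.gk ht.2) hp x
    show su t.2 U.tt x = (R.TL p t.2 x + su t.2 (U.uL p) x) + (R.TB p t.2 x +
      (su t.2 (U.bU p) (p * x) + su t.2 (U.gU p) x)) + su (R.N p t.2) U.tt x
    linarith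
  mean := fun {p t} ht hp y => by
    have hs := D.gk ht.2
    have hp0 : 0 < p := Nat.pos_of_ne_zero hp
    have hp' : (p : ℝ) ≠ 0 := by exact_mod_cast hp
    have e1 := RXm.mean hs hp y
    have e2 := U.um' hs hp y
    have e3 := U.T_eq (RXm.gok_C hs hp) y
    have pb := PB_su hs.1 fun j => U.pbU (hs.2 j) hp
    have e4 : Ep p (fun x => R.TB p t.2 x + (su t.2 (U.bU p) (p * x) + su t.2 (U.gU p) x)) y =
        Ep p (R.TB p t.2) y + (su t.2 (U.bU p) y + Ep p (su t.2 (U.gU p)) y) := by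
      unfold Ep
      have e5 : ∀ i ∈ Finset.range p, (R.TB p t.2 ((y + (i : ℝ)) / p) +
          (su t.2 (U.bU p) (p * ((y + (i : ℝ)) / p)) + su t.2 (U.gU p) ((y + (i : ℝ)) / p))) =
          R.TB p t.2 ((y + (i : ℝ)) / p) + (su t.2 (U.bU p) y +
            su t.2 (U.gU p) ((y + (i : ℝ)) / p)) := fun i _ => by
        rw [pull_fibre hp0 pb.per y i]
      rw [Finset.sum_congr rfl e5, Finset.sum_add_distrib, Finset.sum_add_distrib,
        Finset.sum_const, Finset.card_range, nsmul_eq_mul, add_div, add_div,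
        mul_div_cancel_left₀ _ hp']
    show Ep p (fun x => R.TB p t.2 x + (su t.2 (U.bU p) (p * x) + su t.2 (U.gU p) x)) y =
      su (R.C p t.2) U.tt y
    rw [e4]
    linarith
  dec := fun {p t} ht hp x => by
    have e1 := RXm.dec' (D.gk ht.2) hp x
    show R.TB p t.2 x + (su t.2 (U.bU p) (p * x) + su t.2 (U.gU p) x) =
      (R.bt0 p t.2 (p * x) + su t.2 (U.bU p) (p * x)) + (R.GT p t.2 x + su t.2 (U.gU p) x)
    linarith
  AT := fun {k p t} ht x => by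
    have h := ht.1
    subst h
    have e1 := U.T_eq (D.gk ht.2) x
    have e2 := RXm.A_le (two_pos' k) (D.gk ht.2) x
    show R.A (2 ^ k) t.1 t.2 x + su t.2 (U.u t.1) x ≤ su t.2 U.tt x
    linarith
  ABT := fun ht hp x => add_le_add_left (RXm.AB_le (two_pos' _) (D.gk ht.2) hp x) _
  APT := fun ht hp x => add_le_add_left (RXm.AP_le (two_pos' _) (D.gk ht.2) hp x) _
  ALT := fun ht hp x => add_le_add_left (RXm.AL_le (two_pos' _) (D.gk ht.2) hp x) _
  uA := fun {k p t} ht hp x => by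
    have e1 := RXm.vt_le (two_pos' k) (D.gk ht.2) hp x
    have e2 : R.vt (2 ^ k) p t.2 x = R.be (2 ^ k) p t.2 (p * x) + R.G (2 ^ k) p t.2 x := rfl
    show (R.be (2 ^ k) p t.2 (p * x) + su t.2 (U.bU p) (p * x)) +
      (R.G (2 ^ k) p t.2 x + su t.2 (U.gU p) x) ≤ (R.AP (2 ^ k) p t.2 x +
      (su t.2 (U.bU p) (p * x) + su t.2 (U.gU p) x)) + R.ls (2 ^ k) p t.2 x
    linarith
  decR := fun {k p t} ht hp x => by
    have a1 := (RXm.PB_be (two_pos' k) (D.gk ht.2) hp).nonneg (p * x)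
    have a2 := (RXm.PB_G (two_pos' k) (D.gk ht.2) hp).nonneg x
    have a3 := (PB_su (D.gk ht.2).1 fun j => U.pbU ((D.gk ht.2).2 j) hp).nonneg (p * x)
    have a4 := (PB_su (D.gk ht.2).1 fun j => U.pgU ((D.gk ht.2).2 j) hp).nonneg x
    show 0 ≤ (R.be (2 ^ k) p t.2 (p * x) + su t.2 (U.bU p) (p * x)) +
      (R.G (2 ^ k) p t.2 x + su t.2 (U.gU p) x)
    linarith
  uT := fun {k p t} ht hp x => by
    have e1 := RXm.vt_TB (two_pos' k) (D.gk ht.2) hp x
    have e2 : R.vt (2 ^ k) p t.2 x = R.be (2 ^ k) p t.2 (p * x) + R.G (2 ^ k) p t.2 x := rfl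
    show (R.be (2 ^ k) p t.2 (p * x) + su t.2 (U.bU p) (p * x)) +
      (R.G (2 ^ k) p t.2 x + su t.2 (U.gU p) x) ≤
      R.TB p t.2 x + (su t.2 (U.bU p) (p * x) + su t.2 (U.gU p) x)
    linarith
  meanA := fun {k p t} ht hp y => by
    have e1 := RXm.meanA (two_pos' k) (D.gk ht.2) hp y
    have e2 := U.um' (D.gk ht.2) hp y
    have e3 : Ep p (fun x => R.G (2 ^ k) p t.2 x + su t.2 (U.gU p) x) y =
        Ep p (R.G (2 ^ k) p t.2) y + Ep p (su t.2 (U.gU p)) y := by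
      unfold Ep
      rw [Finset.sum_add_distrib, add_div]
    show (R.be (2 ^ k) p t.2 y + su t.2 (U.bU p) y) +
      Ep p (fun x => R.G (2 ^ k) p t.2 x + su t.2 (U.gU p) x) y =
      R.A (2 ^ k) p (R.C p t.2) y + su (R.C p t.2) (U.u p) y
    rw [e3]
    linarith
  GG := fun ht hp x => add_le_add_left (RXm.G_le (two_pos' _) (D.gk ht.2) hp x) _
  lsJ := fun ht hp x => RXm.lsJ' (D.gk ht.2) hp (Km + 1) x
  cc := fun ht hp x => (min_le_left _ _).trans (RXm.cc x)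
  c1 := fun {k p t} ht hp x => by
    have a1 := (RXm.PB_G (two_pos' k) (D.gk ht.2) hp).nonneg x
    have a4 := (PB_su (D.gk ht.2).1 fun j => U.pgU ((D.gk ht.2).2 j) hp).nonneg x
    refine (RXm.c1 (two_pos' k) (D.gk ht.2) hp x).trans ?_
    exact pow_le_pow_left₀ a1 (by linarith) 2
  c2 := fun {k p t} ht hp x => by
    have a3 := (PB_su (D.gk ht.2).1 fun j => U.pbU ((D.gk ht.2).2 j) hp).nonneg (p * x)
    have a4 := (PB_su (D.gk ht.2).1 fun j => U.pgU ((D.gk ht.2).2 j) hp).nonneg x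
    have e2 : R.vt (2 ^ k) p t.2 x = R.be (2 ^ k) p t.2 (p * x) + R.G (2 ^ k) p t.2 x := rfl
    refine (RXm.c2 (two_pos' k) (D.gk ht.2) hp x).trans ?_
    exact mul_le_mul_of_nonneg_left (by linarith) (two_pos' k).le
  c3 := fun {k p t} ht hp x => by
    have a3 := (PB_su (D.gk ht.2).1 fun j => U.pbU ((D.gk ht.2).2 j) hp).nonneg (p * x)
    have a4 := (PB_su (D.gk ht.2).1 fun j => U.pgU ((D.gk ht.2).2 j) hp).nonneg x
    have h := (min_le_right (R.costP p t.2 x) (R.costB p t.2 x)).trans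
      (RXm.c3 (two_pos' k) (D.gk ht.2) hp x)
    show cst R p t.2 x ≤ 2 * (2 ^ k * (R.AB (2 ^ k) p t.2 x +
      (su t.2 (U.bU p) (p * x) + su t.2 (U.gU p) x))) + 2 * ((R.TB p t.2 x +
      (su t.2 (U.bU p) (p * x) + su t.2 (U.gU p) x)) - (R.AB (2 ^ k) p t.2 x +
      (su t.2 (U.bU p) (p * x) + su t.2 (U.gU p) x))) ^ 2
    have e : (R.TB p t.2 x + (su t.2 (U.bU p) (p * x) + su t.2 (U.gU p) x)) -
      (R.AB (2 ^ k) p t.2 x + (su t.2 (U.bU p) (p * x) + su t.2 (U.gU p) x)) =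
      R.TB p t.2 x - R.AB (2 ^ k) p t.2 x := by ring
    rw [e]
    have h5 : (2:ℝ) ^ k * R.AB (2 ^ k) p t.2 x ≤ 2 ^ k * (R.AB (2 ^ k) p t.2 x +
      (su t.2 (U.bU p) (p * x) + su t.2 (U.gU p) x)) :=
      mul_le_mul_of_nonneg_left (by linarith) (two_pos' k).le
    have h6 : cst R p t.2 x ≤ 2 * (2 ^ k * R.AB (2 ^ k) p t.2 x) +
      2 * (R.TB p t.2 x - R.AB (2 ^ k) p t.2 x) ^ 2 := h
    linarith
  c4 := fun {k p t} ht hp x => by
    have h := RXm.c4 (two_pos' k) (D.gk ht.2) hp x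
    show R.cTk (2 ^ k) p t.2 x ≤ ((R.GT p t.2 x + su t.2 (U.gU p) x) -
      (R.G (2 ^ k) p t.2 x + su t.2 (U.gU p) x)) ^ 2
    have e : (R.GT p t.2 x + su t.2 (U.gU p) x) - (R.G (2 ^ k) p t.2 x + su t.2 (U.gU p) x) =
      R.GT p t.2 x - R.G (2 ^ k) p t.2 x := by ring
    rw [e]
    exact h
  col := fun ht hp y => RXm.col (two_pos' _) (D.gk ht.2) hp (D.gs ht.2 hp) y
  PB1 := fun {k p t} ht hp x => by
    have h := RXm.PB1 (two_pos' k) (D.gk ht.2) hp x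
    have e2 : R.vt (2 ^ k) p t.2 x = R.be (2 ^ k) p t.2 (p * x) + R.G (2 ^ k) p t.2 x := rfl
    show R.PtP (2 ^ k) p t.2 x ≤ R.PR (2 ^ k) p t.2 x + 14 * (2 ^ k * ((R.AP (2 ^ k) p t.2 x +
      (su t.2 (U.bU p) (p * x) + su t.2 (U.gU p) x)) - ((R.be (2 ^ k) p t.2 (p * x) +
      su t.2 (U.bU p) (p * x)) + (R.G (2 ^ k) p t.2 x + su t.2 (U.gU p) x))))
    have e3 : (R.AP (2 ^ k) p t.2 x + (su t.2 (U.bU p) (p * x) + su t.2 (U.gU p) x)) -
      ((R.be (2 ^ k) p t.2 (p * x) + su t.2 (U.bU p) (p * x)) + (R.G (2 ^ k) p t.2 x +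
      su t.2 (U.gU p) x)) = R.AP (2 ^ k) p t.2 x - R.vt (2 ^ k) p t.2 x := by rw [e2]; ring
    rw [e3]
    exact h
  PB2 := fun {k p t} ht hp x => by
    have a3 := (PB_su (D.gk ht.2).1 fun j => U.pbU ((D.gk ht.2).2 j) hp).nonneg (p * x)
    have a4 := (PB_su (D.gk ht.2).1 fun j => U.pgU ((D.gk ht.2).2 j) hp).nonneg x
    refine (RXm.PB2 (two_pos' k) (D.gk ht.2) hp x).trans ?_
    exact mul_le_mul_of_nonneg_left (mul_le_mul_of_nonneg_left (by linarith) (two_pos' k).le)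
      (by norm_num)
  arB := fun {k p t} ht hp x => by
    have h := D.arB (two_pos' k) ht.2 hp x
    show R.AP (2 ^ k) p t.2 x + (su t.2 (U.bU p) (p * x) + su t.2 (U.gU p) x) ≤
      (R.AB (2 ^ k) p t.2 x + (su t.2 (U.bU p) (p * x) + su t.2 (U.gU p) x)) +
      D.asB (2 ^ k) p t.2 x
    linarith
  refB := fun {k p t} ht hp x => by
    have h := D.refB (two_pos' k) ht.2 hp x
    show R.PtB (2 ^ k) p t.2 x ≤ R.PtP (2 ^ k) p t.2 x + 14 * (2 ^ k * ((R.AB (2 ^ k) p t.2 x +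
      (su t.2 (U.bU p) (p * x) + su t.2 (U.gU p) x)) + D.asB (2 ^ k) p t.2 x -
      (R.AP (2 ^ k) p t.2 x + (su t.2 (U.bU p) (p * x) + su t.2 (U.gU p) x)))) +
      D.brB (2 ^ k) p t.2 x
    have e : (R.AB (2 ^ k) p t.2 x + (su t.2 (U.bU p) (p * x) + su t.2 (U.gU p) x)) +
      D.asB (2 ^ k) p t.2 x - (R.AP (2 ^ k) p t.2 x + (su t.2 (U.bU p) (p * x) +
      su t.2 (U.gU p) x)) = R.AB (2 ^ k) p t.2 x + D.asB (2 ^ k) p t.2 x -
      R.AP (2 ^ k) p t.2 x := by ring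
    rw [e]
    exact h
  asBJ := fun ht hp x => D.asBJ ht.2 hp x
  born := fun {k p t} ht x => by
    have h := ht.1
    subst h
    have a3 := (PB_su (D.gk ht.2).1 fun j => U.pu ((D.gk ht.2).2 j)).nonneg x
    refine (RXm.born (two_pos' k) (D.gk ht.2) x).trans ?_
    exact mul_le_mul_of_nonneg_left (mul_le_mul_of_nonneg_left
      (show R.A (2 ^ k) t.1 t.2 x ≤ R.A (2 ^ k) t.1 t.2 x + su t.2 (U.u t.1) x by linarith)
      (two_pos' k).le) (by norm_num)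
  arN := fun ht hp x => D.arN (two_pos' _) ht.2 hp x
  ref := fun ht hp x => D.ref (two_pos' _) ht.2 hp x
  asJ := fun ht hp x => D.asJ ht.2 hp x
  ART := fun {k p t} ht hp x => by
    have e1 := RXm.AR_le (two_pos' k) (D.gk ht.2) hp x
    have e2 := U.TN_eq (D.gk ht.2) hp x
    show R.AR (2 ^ k) p t.2 x + su t.2 (U.uN p) x ≤ su (R.N p t.2) U.tt x
    linarith
  lam := fun {k p t} ht hp x => by
    have h := ht.1
    subst h
    have e1 := RXm.lam (two_pos' k) (D.gk ht.2) hp x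
    have e2 := U.us' (D.gk ht.2) hp x
    have e5 : U.AR (2 ^ k) t.1 t.2 x = R.AR (2 ^ k) t.1 t.2 x + su t.2 (U.uN t.1) x := rfl
    show R.A (2 ^ k) t.1 t.2 x + su t.2 (U.u t.1) x ≤ (R.AB (2 ^ k) t.1 t.2 x +
      (su t.2 (U.bU t.1) (t.1 * x) + su t.2 (U.gU t.1) x)) + U.AR (2 ^ k) t.1 t.2 x +
      (R.AL (2 ^ k) t.1 t.2 x + su t.2 (U.uL t.1) x)
    linarith
  lamJ := fun {p t} ht hp x => by
    have h := ht.1
    subst h
    have e2 := U.us' (D.gk ht.2) hp x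
    have e4 := RXm.lamJ (D.gk ht.2) hp (Km + 1) x
    refine le_trans ?_ e4
    refine Finset.sum_le_sum fun l _ => ?_
    have e6 : U.AR (2 ^ l) t.1 t.2 x = R.AR (2 ^ l) t.1 t.2 x + su t.2 (U.uN t.1) x := rfl
    refine mul_le_mul_of_nonneg_left ?_ (two_pos' l).le
    show (R.AB (2 ^ l) t.1 t.2 x +
      (su t.2 (U.bU t.1) (t.1 * x) + su t.2 (U.gU t.1) x)) + U.AR (2 ^ l) t.1 t.2 x +
      (R.AL (2 ^ l) t.1 t.2 x + su t.2 (U.uL t.1) x) -
      (R.A (2 ^ l) t.1 t.2 x + su t.2 (U.u t.1) x) ≤ _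
    rw [e2]
    linarith
  joH := fun {k p t} ht hp x => by
    have hs := D.gk ht.2
    have h1 := (RXm.joins (two_pos' k) hs hp x).1
    have a1 := (PB_su hs.1 fun j => U.pbU (hs.2 j) hp).nonneg (p * x)
    have a2 := (PB_su hs.1 fun j => U.pgU (hs.2 j) hp).nonneg x
    have a3 := (PB_su hs.1 fun j => U.puN (hs.2 j) hp).nonneg x
    have a4 := (PB_su hs.1 fun j => U.puL (hs.2 j) hp).nonneg x
    have a6 : U.AR (2 ^ k) p t.2 x = R.AR (2 ^ k) p t.2 x + su t.2 (U.uN p) x := rfl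
    have h3 : min (R.AB (2 ^ k) p t.2 x) (R.AR (2 ^ k) p t.2 x) ≤
      min (R.AB (2 ^ k) p t.2 x + (su t.2 (U.bU p) (p * x) + su t.2 (U.gU p) x))
        (U.AR (2 ^ k) p t.2 x) :=
      min_le_min (by linarith) (by linarith)
    have h4 := mul_le_mul_of_nonneg_left h3 (two_pos' k).le
    have h5 := mul_le_mul_of_nonneg_left
      (show R.AL (2 ^ k) p t.2 x ≤ R.AL (2 ^ k) p t.2 x + su t.2 (U.uL p) x by linarith)
      (two_pos' k).le
    show R.Pt (2 ^ k) p t.2 x ≤ R.PtB (2 ^ k) p t.2 x + R.PtR (2 ^ k) p t.2 x +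
      14 * (2 ^ k * min (R.AB (2 ^ k) p t.2 x + (su t.2 (U.bU p) (p * x) + su t.2 (U.gU p) x))
        (U.AR (2 ^ k) p t.2 x)) +
      14 * (2 ^ k * (R.AL (2 ^ k) p t.2 x + su t.2 (U.uL p) x))
    linarith
  joB := fun {k p t} ht hp x => by
    have hs := D.gk ht.2
    have h1 := (RXm.joins (two_pos' k) hs hp x).2.1
    have a3 := (PB_su hs.1 fun j => U.puN (hs.2 j) hp).nonneg x
    have a4 := (PB_su hs.1 fun j => U.puL (hs.2 j) hp).nonneg x
    have a6 : U.AR (2 ^ k) p t.2 x = R.AR (2 ^ k) p t.2 x + su t.2 (U.uN p) x := rfl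
    have h5 := mul_le_mul_of_nonneg_left
      (show R.AR (2 ^ k) p t.2 x + R.AL (2 ^ k) p t.2 x ≤ U.AR (2 ^ k) p t.2 x +
        (R.AL (2 ^ k) p t.2 x + su t.2 (U.uL p) x) by linarith) (two_pos' k).le
    show R.Pt (2 ^ k) p t.2 x ≤ R.PtB (2 ^ k) p t.2 x +
      14 * (2 ^ k * (U.AR (2 ^ k) p t.2 x + (R.AL (2 ^ k) p t.2 x + su t.2 (U.uL p) x)))
    linarith
  joN := fun {k p t} ht hp x => by
    have hs := D.gk ht.2
    have h1 := (RXm.joins (two_pos' k) hs hp x).2.2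
    have a1 := (PB_su hs.1 fun j => U.pbU (hs.2 j) hp).nonneg (p * x)
    have a2 := (PB_su hs.1 fun j => U.pgU (hs.2 j) hp).nonneg x
    have a4 := (PB_su hs.1 fun j => U.puL (hs.2 j) hp).nonneg x
    have h5 := mul_le_mul_of_nonneg_left
      (show R.AB (2 ^ k) p t.2 x + R.AL (2 ^ k) p t.2 x ≤
        (R.AB (2 ^ k) p t.2 x + (su t.2 (U.bU p) (p * x) + su t.2 (U.gU p) x)) +
        (R.AL (2 ^ k) p t.2 x + su t.2 (U.uL p) x) by linarith) (two_pos' k).le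
    show R.Pt (2 ^ k) p t.2 x ≤ R.PtR (2 ^ k) p t.2 x +
      14 * (2 ^ k * ((R.AB (2 ^ k) p t.2 x + (su t.2 (U.bU p) (p * x) + su t.2 (U.gU p) x)) +
        (R.AL (2 ^ k) p t.2 x + su t.2 (U.uL p) x)))
    linarith

/-- **the instance** -/
noncomputable def RGx.ms (D : RGx U) {del : ℝ} {Km : ℕ} (h0 : 0 < del) (h1 : del ≤ 1)
    (hK : del * U.B0 ≤ 2 ^ Km) : MS (ℕ × Gs β) := (D.msx h0 h1 hK).toMS

end

section pay
open Crest.Agent.R4P.Pay45
open Crest.Agent.R4P.Mode940 Crest.Agent.R4P.ModeG51 Crest.Agent.R4P.ModeR16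
open Crest.Agent.R4P.ModeS16
variable {σ : Type*} {w : MS σ}

/-- **the errors are at most the walk sum of the charges**, with a second order part -/
theorem E_le2 (Q : Chg w)
    (hx : ∀ {k p t}, w.ok p t → p ≠ 0 → ∀ y, Ep p (w.ex k p t) y ≤
      4 * Ep p (w.GT p t) y ^ 2 + 2 ^ k * Q.yc p t y)
    (hb : ∀ {k p t}, w.ok p t → p ≠ 0 → ∀ x, w.br k p t x ≤ 2 ^ k * Q.yx p t x) :
    ∀ (n p : ℕ) (t : σ), w.ok p t → ModeS16.E w n p t ≤ 2 * E0 w n p t + 2 * WS Q n p t := by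
  have hd := w.del0
  have L0 := Ld_pos hd
  have b0 : ∀ (p : ℕ) (t : σ), w.ok p t → 0 ≤ 8 / w.del * I (D w 0 t) := fun p t ht =>
    mul_nonneg (by positivity) (I_nonneg fun x => (PB_D w ht 0).nonneg x)
  intro n
  induction n with
  | zero =>
    intro p t ht
    have e1 : ModeS16.E w 0 p t = 8 / w.del * I (D w 0 t) := rfl
    have e2 : E0 w 0 p t = 8 / w.del * I (D w 0 t) := rfl
    have e3 : WS Q 0 p t = 0 := rfl
    have := b0 p t ht
    rw [e1, e2, e3]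
    linarith
  | succ n ih =>
    intro p t ht
    by_cases hp : p = 0
    · subst hp
      have e1 : ModeS16.E w (n + 1) 0 t = 8 / w.del * I (D w 0 t) := by simp [ModeS16.E]
      have e2 : E0 w (n + 1) 0 t = 8 / w.del * I (D w 0 t) := by simp [E0]
      have e3 : WS Q (n + 1) 0 t = 0 := by simp [WS]
      have := b0 0 t ht
      rw [e1, e2, e3]
      linarith
    · have hp0 : 0 < p := Nat.pos_of_ne_zero hp
      have oC := w.okC ht hp
      have oN := w.okN ht hp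
      have i1 := ih p _ oC
      have i2 := ih (p - 1) _ oN
      have e2 : E0 w (n + 1) p t = el0 w p t + E0 w n p (w.C p t) + E0 w n (p - 1) (w.N p t) := by
        show (if p = 0 then _ else _) = _
        rw [if_neg hp]
      rw [ModeS16.E_succ w n hp, e2, WS_succ Q n hp]
      have pG := PBsq ((w.pGT ht hp).Ep hp0)
      have a1 : I (exh w n p t) ≤ 4 * I (fun y => Ep p (w.GT p t) y ^ 2) +
          I (fun y => 2 ^ sc w n p (w.C p t) y * Q.yc p t y) := by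
        have pc := PB_sc n oC (Q.pyc ht hp)
        rw [← I_smul, ← I_add (pG.smul (show (0:ℝ) ≤ 4 by norm_num)).integrableOn pc.integrableOn]
        refine I_mono (PB_exh n ht hp).integrableOn
          ((pG.smul (show (0:ℝ) ≤ 4 by norm_num)).add pc).integrableOn
          fun y => ?_
        have n0 : 0 ≤ (2:ℝ) ^ sc w n p (w.C p t) y * Q.yc p t y :=
          mul_nonneg (by positivity) ((Q.pyc ht hp).nonneg y)
        have n1 : 0 ≤ 4 * Ep p (w.GT p t) y ^ 2 := by positivity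
        show exh w n p t y ≤ 4 * Ep p (w.GT p t) y ^ 2 + 2 ^ sc w n p (w.C p t) y * Q.yc p t y
        unfold exh on
        split_ifs with h
        · exact hx ht hp y
        · linarith
      have a2 : I (brh w n p t) ≤ I (fun x => 2 ^ sc w (n + 1) p t x * Q.yx p t x) := by
        refine I_mono (PB_brh n ht hp).integrableOn (PB_sc (n + 1) ht (Q.pyx ht hp)).integrableOn
          fun x => ?_
        have n0 : 0 ≤ (2:ℝ) ^ sc w (n + 1) p t x * Q.yx p t x :=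
          mul_nonneg (by positivity) ((Q.pyx ht hp).nonneg x)
        unfold brh on
        split_ifs with h
        · exact hb ht hp x
        · exact n0
      have a3 : 0 ≤ (8 / w.del + Ld w.del) * (I (w.jn p t) + I (w.jB p t)) :=
        mul_nonneg (by positivity) (add_nonneg (I_nonneg fun x => (w.pjn ht hp).nonneg x)
          (I_nonneg fun x => (w.pjB ht hp).nonneg x))
      have a4 : 0 ≤ 8 / w.del * I (DL w 0 p t) :=
        mul_nonneg (by positivity) (I_nonneg fun x => (PB_DL w ht hp 0).nonneg x)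
      unfold el el0
      linarith

/-- **the theorem with payments**, with a second order part -/
theorem main_pay2 (Q : Chg w)
    (hx : ∀ {k p t}, w.ok p t → p ≠ 0 → ∀ y, Ep p (w.ex k p t) y ≤
      4 * Ep p (w.GT p t) y ^ 2 + 2 ^ k * Q.yc p t y)
    (hb : ∀ {k p t}, w.ok p t → p ≠ 0 → ∀ x, w.br k p t x ≤ 2 ^ k * Q.yx p t x)
    {J : ℝ} (hJ : 0 ≤ J) (n p : ℕ) (t : σ) (ht : w.ok p t) (h : ∀ x, Q.Y p t x ≤ J * w.T t x) :
    K w n p t ≤ 8 * (w.del * (Ld w.del + J)) * I (fun x => w.T t x ^ 2) +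
      2 * (Ld w.del + J) * I (w.T t) + 2 * E0 w n p t := by
  have h1 := main_root (w := w) n p t ht
  have h2 := E_le2 Q hx hb n p t ht
  have h3 := WS_le_J Q hJ n p t ht h
  nlinarith

/-- the parameter `δ` -/
lemma exists_delJ {ε J : ℝ} (hε : 0 < ε) (hJ : 0 ≤ J) :
    ∃ δ : ℝ, 0 < δ ∧ δ ≤ 1 ∧ 8 * (δ * (Ld δ + J)) ≤ ε := by
  obtain ⟨δ, d0, d1, h⟩ := exists_del (ε := ε / (2 * (1 + J))) (by positivity)
  refine ⟨δ, d0, d1, ?_⟩
  have L := Ld_pos d0
  have e1 : ε / (2 * (1 + J)) ≤ ε / 2 := by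
    apply div_le_div_of_nonneg_left hε.le (by norm_num) (by linarith)
  have e2 : 8 * (δ * 600) ≤ ε / (2 * (1 + J)) := by
    have := mul_le_mul_of_nonneg_left L d0.le
    linarith
  have e3 : J * (ε / (2 * (1 + J))) ≤ ε / 2 := by
    rw [← mul_div_assoc, div_le_div_iff₀ (by positivity) (by norm_num)]
    nlinarith
  have e4 : 8 * (δ * J) ≤ ε / 2 := by
    have h5 := mul_le_mul_of_nonneg_left e2 hJ
    have h6 : 0 ≤ δ * J := by positivity
    nlinarith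
  nlinarith

end pay

section main
variable {β δ : Type} [Fintype δ] {R : RXm β δ} {U : RBm R}

/-- **the scaled mode game of group data with class changes** : `K ≤ ε I tot² + C_ε I tot + E` -/
theorem msx_main {ε : ℝ} (hε : 0 < ε) : ∃ (del : ℝ) (h0 : 0 < del) (h1 : del ≤ 1) (C : ℝ), 0 ≤ C ∧
    ∀ {β δ : Type} [Fintype δ] {R : RXm β δ} {U : RBm R} (D : RGx U) {Km : ℕ}
      (hK : del * U.B0 ≤ 2 ^ Km) (n p : ℕ) (s : Gs β), D.ok p s →
      ModeS16.K (D.ms h0 h1 hK) n p (p, s) ≤ ε * I (fun x => su s U.tt x ^ 2) + C * I (su s U.tt) +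
        ModeS16.E (D.ms h0 h1 hK) n p (p, s) := by
  obtain ⟨del, h0, h1, h2⟩ := ModeS16.exists_del hε
  refine ⟨del, h0, h1, 2 * ModeR16.Ld del, by
    have := ModeR16.Ld_pos h0
    positivity, ?_⟩
  intro β δ _ R U D Km hK n p s hs
  have h := ModeS16.main_root (w := D.ms h0 h1 hK) n p (p, s) ⟨rfl, hs⟩
  have e1 : (D.ms h0 h1 hK).T (p, s) = su s U.tt := rfl
  have e2 : (D.ms h0 h1 hK).del = del := rfl
  rw [e1, e2] at h
  have h3 : 0 ≤ I (fun x => su s U.tt x ^ 2) := I_nonneg fun x => sq_nonneg _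
  have h4 := mul_le_mul_of_nonneg_right h2 h3
  linarith

/-- walk sum of a family of costs -/
noncomputable def Kr (R : RXm β δ) (rc : ℕ → Gs β → ℝ → ℝ) : ℕ → ℕ → Gs β → ℝ
  | 0, _, _ => 0
  | n + 1, p, s => if p = 0 then 0 else
      I (rc p s) + Kr R rc n p (R.C p s) + Kr R rc n (p - 1) (R.N p s)

lemma Kr_succ (R : RXm β δ) (rc : ℕ → Gs β → ℝ → ℝ) (n : ℕ) {p : ℕ} (hp : p ≠ 0) (s : Gs β) :
    Kr R rc (n + 1) p s = I (rc p s) + Kr R rc n p (R.C p s) + Kr R rc n (p - 1) (R.N p s) := by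
  show (if p = 0 then 0 else _) = _
  rw [if_neg hp]

/-- **real costs** : below the costs by the classes of the rows and by the classes of the point -/
structure RCost (D : RGx U) (rc : ℕ → Gs β → ℝ → ℝ) : Prop where
  prc : ∀ {p s}, D.ok p s → p ≠ 0 → PB (rc p s)
  leP : ∀ {p s}, D.ok p s → p ≠ 0 → ∀ x, rc p s x ≤ q2 s (R.gc p) x
  leB : ∀ {p s}, D.ok p s → p ≠ 0 → ∀ x, rc p s x ≤ q2 s (R.gB p) x

/-- the game pays one fourteenth of the real costs -/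
lemma Kr_le (D : RGx U) {rc : ℕ → Gs β → ℝ → ℝ} (hr : RCost D rc) {del : ℝ} {Km : ℕ}
    (h0 : 0 < del) (h1 : del ≤ 1) (hK : del * U.B0 ≤ 2 ^ Km) : ∀ (n p : ℕ) (s : Gs β), D.ok p s →
    Kr R rc n p s ≤ 14 * ModeS16.K (D.ms h0 h1 hK) n p (p, s) := by
  intro n
  induction n with
  | zero => intro p s hs; show (0 : ℝ) ≤ 14 * 0; norm_num
  | succ n ih =>
    intro p s hs
    by_cases hp : p = 0
    · subst hp
      simp [ModeS16.K, Kr]
    · rw [ModeS16.K_succ _ n hp, Kr_succ R rc n hp]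
      have e1 : I (rc p s) ≤ 14 * I ((D.ms h0 h1 hK).cost p (p, s)) := by
        have pc : PB (cst R p s) := PB_cst (D.gk hs) hp
        rw [← I_smul]
        refine I_mono (hr.prc hs hp).integrableOn
          (pc.smul (show (0:ℝ) ≤ 14 by norm_num)).integrableOn fun x => ?_
        show rc p s x ≤ 14 * cst R p s x
        have a1 := hr.leP hs hp x
        have a2 := hr.leB hs hp x
        have e2 : 14 * cst R p s x = min (q2 s (R.gc p) x) (q2 s (R.gB p) x) := by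
          unfold cst RXm.costP RXm.costB
          rw [mul_min_of_nonneg _ _ (by norm_num)]
          congr 1 <;> ring
        rw [e2]
        exact le_min a1 a2
      have i1 := ih p (R.C p s) (D.okC hs hp)
      have i2 := ih (p - 1) (R.N p s) (D.okN hs hp)
      have e3 : ModeS16.K (D.ms h0 h1 hK) n p ((D.ms h0 h1 hK).C p (p, s)) =
        ModeS16.K (D.ms h0 h1 hK) n p (p, R.C p s) := rfl
      have e4 : ModeS16.K (D.ms h0 h1 hK) n (p - 1) ((D.ms h0 h1 hK).N p (p, s)) =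
        ModeS16.K (D.ms h0 h1 hK) n (p - 1) (p - 1, R.N p s) := rfl
      rw [e3, e4]
      linarith

/-- **the real costs** : `Kr ≤ ε I tot² + C_ε I tot + 14 E` -/
theorem msx_real {ε : ℝ} (hε : 0 < ε) : ∃ (del : ℝ) (h0 : 0 < del) (h1 : del ≤ 1) (C : ℝ), 0 ≤ C ∧
    ∀ {β δ : Type} [Fintype δ] {R : RXm β δ} {U : RBm R} (D : RGx U) {rc : ℕ → Gs β → ℝ → ℝ},
      RCost D rc → ∀ {Km : ℕ} (hK : del * U.B0 ≤ 2 ^ Km) (n p : ℕ) (s : Gs β), D.ok p s →
      Kr R rc n p s ≤ ε * I (fun x => su s U.tt x ^ 2) + C * I (su s U.tt) +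
        14 * ModeS16.E (D.ms h0 h1 hK) n p (p, s) := by
  obtain ⟨del, h0, h1, C, hC, H⟩ := msx_main (ε := ε / 14) (by positivity)
  refine ⟨del, h0, h1, 14 * C, by positivity, ?_⟩
  intro β δ _ R U D rc hr Km hK n p s hs
  have h := H D hK n p s hs
  have h2 := Kr_le D hr h0 h1 hK n p s hs
  linarith

open Crest.Agent.R4P.Pay45 in
/-- **charges of group data with class changes** : `bth` = births of the rows -/
structure GCh (D : RGx U) {del : ℝ} {Km : ℕ} (h0 : 0 < del) (h1 : del ≤ 1)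
    (hK : del * U.B0 ≤ 2 ^ Km) where
  Q : Chg (D.ms h0 h1 hK)
  /-- charges of the ties: births of the rows, class change of the ties -/
  hc : ∀ {k p s}, D.ok p s → p ≠ 0 → ∀ y,
    14 * Ep p (R.e0 (2 ^ k) p s) y + (Ep p (D.brB (2 ^ k) p s) y / 2 ^ k +
      14 * Ep p (D.asB (2 ^ k) p s) y) ≤ Q.yc p (p, s) y
  /-- charges of the rest -/
  hb : ∀ {k p s}, D.ok p s → p ≠ 0 → ∀ x,
    D.br (2 ^ k) p s x / 2 ^ k + 14 * D.as (2 ^ k) p s x ≤ Q.yx p (p, s) x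

/-- **the game with payments** : charges of total rate `J` -/
theorem msx_pay {ε J : ℝ} (hε : 0 < ε) (hJ : 0 ≤ J) :
    ∃ (del : ℝ) (h0 : 0 < del) (h1 : del ≤ 1) (C : ℝ), 0 ≤ C ∧
    ∀ {β δ : Type} [Fintype δ] {R : RXm β δ} {U : RBm R} (D : RGx U) {rc : ℕ → Gs β → ℝ → ℝ},
      RCost D rc → ∀ {Km : ℕ} (hK : del * U.B0 ≤ 2 ^ Km) (Q : GCh D h0 h1 hK) (n p : ℕ)
      (s : Gs β), D.ok p s → (∀ x, Q.Q.Y p (p, s) x ≤ J * su s U.tt x) →
      Kr R rc n p s ≤ ε * I (fun x => su s U.tt x ^ 2) + C * I (su s U.tt) +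
        28 * Pay45.E0 (D.ms h0 h1 hK) n p (p, s) := by
  obtain ⟨del, h0, h1, h2⟩ := exists_delJ (ε := ε / 14) (J := J) (by positivity) hJ
  have L0 := ModeR16.Ld_pos h0
  refine ⟨del, h0, h1, 28 * (ModeR16.Ld del + J), by positivity, ?_⟩
  intro β δ _ R U D rc hr Km hK Q n p s hs hY
  have hxx : ∀ {k p : ℕ} {t : ℕ × Gs β}, (D.ms h0 h1 hK).ok p t → p ≠ 0 → ∀ y,
      Ep p ((D.ms h0 h1 hK).ex k p t) y ≤
      4 * Ep p ((D.ms h0 h1 hK).GT p t) y ^ 2 + 2 ^ k * Q.Q.yc p t y := by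
    intro k p t ht hp y
    have hp0 : 0 < p := Nat.pos_of_ne_zero hp
    obtain ⟨q, s⟩ := t
    have hq : q = p := ht.1
    subst hq
    have a1 := RXm.ex_le (two_pos' k) (D.gk ht.2) hp y
    have a2 := Q.hc (k := k) ht.2 hp y
    have b1 : Ep q ((D.ms h0 h1 hK).ex k q (q, s)) y = Ep q (R.ex (2 ^ k) q s) y +
        (Ep q (D.brB (2 ^ k) q s) y + 14 * (2 ^ k * Ep q (D.asB (2 ^ k) q s) y)) := by
      show Ep q (fun x => R.ex (2 ^ k) q s x + (D.brB (2 ^ k) q s x +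
        14 * (2 ^ k * D.asB (2 ^ k) q s x))) y = _
      unfold Ep
      rw [Finset.sum_add_distrib, Finset.sum_add_distrib, ← Finset.mul_sum, ← Finset.mul_sum]
      ring
    rw [b1]
    have a3 := mul_le_mul_of_nonneg_left a2 (two_pos' k).le
    have b2 : (2:ℝ) ^ k * (14 * Ep q (R.e0 (2 ^ k) q s) y + (Ep q (D.brB (2 ^ k) q s) y / 2 ^ k +
      14 * Ep q (D.asB (2 ^ k) q s) y)) = 14 * (2 ^ k * Ep q (R.e0 (2 ^ k) q s) y) +
      (Ep q (D.brB (2 ^ k) q s) y + 14 * (2 ^ k * Ep q (D.asB (2 ^ k) q s) y)) := by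
      field_simp
    rw [b2] at a3
    have hs' := D.gk ht.2
    have c1 : Ep q (R.GT q s) y ≤ Ep q ((D.ms h0 h1 hK).GT q (q, s)) y := by
      unfold Ep
      refine div_le_div_of_nonneg_right (Finset.sum_le_sum fun i _ => ?_) (Nat.cast_nonneg q)
      show R.GT q s _ ≤ R.GT q s _ + su s (U.gU q) _
      have := (PB_su hs'.1 fun j => U.pgU (hs'.2 j) hp).nonneg ((y + (i:ℝ)) / q)
      linarith
    have c2 : 0 ≤ Ep q (R.GT q s) y := ((RXm.PB_GT hs' hp).Ep hp0).nonneg y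
    have c3 := pow_le_pow_left₀ c2 c1 2
    have c4 : 0 ≤ Ep q (R.GT q s) y ^ 2 := by positivity
    linarith
  have hbb : ∀ {k p : ℕ} {t : ℕ × Gs β}, (D.ms h0 h1 hK).ok p t → p ≠ 0 → ∀ x,
      (D.ms h0 h1 hK).br k p t x ≤ 2 ^ k * Q.Q.yx p t x := by
    intro k p t ht hp x
    obtain ⟨q, s⟩ := t
    have hq : q = p := ht.1
    subst hq
    have a2 := Q.hb (k := k) ht.2 hp x
    have a3 := mul_le_mul_of_nonneg_left a2 (two_pos' k).le
    have b2 : (2:ℝ) ^ k * (D.br (2 ^ k) q s x / 2 ^ k + 14 * D.as (2 ^ k) q s x) =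
      D.br (2 ^ k) q s x + 14 * (2 ^ k * D.as (2 ^ k) q s x) := by
      field_simp
    rw [b2] at a3
    exact a3
  have h := main_pay2 (w := D.ms h0 h1 hK) Q.Q hxx hbb hJ n p (p, s) ⟨rfl, hs⟩ hY
  have e1 : (D.ms h0 h1 hK).T (p, s) = su s U.tt := rfl
  have e2 : (D.ms h0 h1 hK).del = del := rfl
  rw [e1, e2] at h
  have h3 : 0 ≤ I (fun x => su s U.tt x ^ 2) := I_nonneg fun x => sq_nonneg _
  have h4 := mul_le_mul_of_nonneg_right h2 h3
  have h5 := Kr_le D hr h0 h1 hK n p s hs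
  linarith

open Crest.Agent.R4P.PayR45

/-- the bundle maps of a row system -/
def bm (R : RXm β δ) : BM β := ⟨R.cP, R.cN, R.rN, R.ok⟩

/-- the walk of the game is the walk of the group states -/
lemma ovr (D : RGx U) {del : ℝ} {Km : ℕ} (h0 : 0 < del) (h1 : del ≤ 1)
    (hK : del * U.B0 ≤ 2 ^ Km) : Over (D.ms h0 h1 hK) (bm R) where
  C := fun _ _ => rfl
  N := fun _ _ => rfl
  tc := fun ht => (D.gk ht.2).1
  ok := fun ht => (D.gk ht.2).2

/-- **charges of the bundles** -/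
structure BPay (D : RGx U) (Q : BCh (bm R)) : Prop where
  /-- ties: births of the rows, class change of the ties -/
  hc : ∀ {k : ℕ} {p s}, D.ok p s → p ≠ 0 → ∀ y,
    14 * Ep p (R.e0 (2 ^ k) p s) y + (Ep p (D.brB (2 ^ k) p s) y / 2 ^ k +
      14 * Ep p (D.asB (2 ^ k) p s) y) ≤ su s (Q.yc p) y
  /-- rest: class change of the rest -/
  hb : ∀ {k : ℕ} {p s}, D.ok p s → p ≠ 0 → ∀ x,
    D.br (2 ^ k) p s x / 2 ^ k + 14 * D.as (2 ^ k) p s x ≤ su s (Q.yx p) x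

/-- **the game with payments by the bundles** -/
theorem msx_payB {ε J : ℝ} (hε : 0 < ε) (hJ : 0 ≤ J) :
    ∃ (del : ℝ) (h0 : 0 < del) (h1 : del ≤ 1) (C : ℝ), 0 ≤ C ∧
    ∀ {β δ : Type} [Fintype δ] {R : RXm β δ} {U : RBm R} (D : RGx U) {rc : ℕ → Gs β → ℝ → ℝ},
      RCost D rc → ∀ {Q : BCh (bm R)}, BPay D Q →
      (∀ {p b}, R.ok p b → ∀ x, Q.Y p b x ≤ J * U.tt b x) →
      ∀ {Km : ℕ} (hK : del * U.B0 ≤ 2 ^ Km) (n p : ℕ) (s : Gs β), D.ok p s →
      Kr R rc n p s ≤ ε * I (fun x => su s U.tt x ^ 2) + C * I (su s U.tt) +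
        28 * Pay45.E0 (D.ms h0 h1 hK) n p (p, s) := by
  obtain ⟨del, h0, h1, C, hC, H⟩ := msx_pay hε hJ
  refine ⟨del, h0, h1, C, hC, ?_⟩
  intro β δ _ R U D rc hr Q hQ hY Km hK n p s hs
  refine H D hr hK ⟨Q.chg (ovr D h0 h1 hK), fun hs hp y => hQ.hc hs hp y,
    fun hs hp x => hQ.hb hs hp x⟩ n p s hs fun x => ?_
  show su s (Q.Y p) x ≤ J * su s U.tt x
  unfold su
  rw [← M_smul]
  exact M_mono (D.gk hs).1.c0 fun j => hY ((D.gk hs).2 j) x

end main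

end Crest.Agent.R4P.MSm25
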