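import Crest.Agent.R4P.DTn_407
import Crest.Agent.R4P.JbA_16
import Crest.Agent.R4P.MSm_25

/-!
R4 (S0004) with powers, T3, helper407: **the DT level of the marked game**, part 3: budgets and errors.

* `rb H : RBm (rxm H)` : contents outside the game;
* event contents per type: `rho z y` (cross content of the real classes), `evt z y` (inactive /
  off-sheet N content, or mismatch, and matched content of the other classes);
* **`Ep_er`** : births `Ep er ≤ 2/p (rho + evt)`, **`Ep_jz`** : budget of the losses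
  `Ep j ≤ (a + b) (16 rho + 12 evt) / p`.
-/

set_option autoImplicit false
set_option linter.unusedSectionVars false
set_option linter.unusedVariables false
open MeasureTheory Filter Set

namespace Crest.Agent.R4P.DTo407

open Crest.Agent.R4.Tour104 Crest.Agent.R4.Tour758 Crest.Agent.R4.Clos758 Crest.Agent.R4.ClosL758
open Crest.Agent.R4P.Grp36 Crest.Agent.R4P.GWa343 Crest.Agent.R4P.GWb343
open Crest.Agent.R4P.GWc343 hiding SB
open Crest.Agent.R4P.GWd343 Crest.Agent.R4P.GMer27 Crest.Agent.R4P.GCol27 Crest.Agent.R4P.TrR343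
open Crest.Agent.R4P.DTp26 Crest.Agent.R4P.VR407 Crest.Agent.R4P.Bp407 Crest.Agent.R4P.MSd343
open Crest.Agent.R4P.DTm407 Crest.Agent.R4P.DTn407 Crest.Agent.R4P.DTn407.TD'
open Crest.Agent.R4P.TyS16 (TRaw TRow GMU mkMU cho cho_on cho_off PB_cho z0 asm hPP jA eA Fam frP
  et Ep_mono_fib Ep_fib Ep_cst Ep_smul' Ep_add' jz)
open Crest.Agent.R4P.TyR16 (mnR spR rV dd)
open Crest.Agent.R4P.MSm25 (RBm)
open Crest.Agent.R4P.Walk560 (DT)

section
variable {μ Λ κ ζ : Type} [Fintype Λ] [DecidableEq Λ] [Fintype κ] [DecidableEq κ]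
  [Fintype ζ] [DecidableEq ζ]
variable {wr : ℕ → Λ → κ} {D : TD μ Λ κ ζ} {Inv : ℕ → μ × List (DT Λ κ) → Prop} {p : ℕ}
  {b : μ × List (DT Λ κ)}

/-! ### the contents outside the game -/

section rb
variable (H : TYp wr D Inv)
include H

lemma PcB (hb : Inv p b) (hp : p ≠ 0) (c : κ) (o : Option ζ) : PB (D.cB wr p b c o) := by
  have Kk := H.bok hb hp
  exact (((PB_cz (H.mlt p b.1) (fun j => Kk.PA j) c o).smul (w1 hp)).add
    (((PB_bf Kk c).mul (PB_cz (H.mlt p b.1) (fun j => Kk.PBb j) c o)).smul (w0 H hb hp))).add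
    (PB_cz (H.mlt p b.1) (fun j => Kk.PQ j) c o)

lemma PcG (hb : Inv p b) (hp : p ≠ 0) (c : κ) (o : Option ζ) : PB (D.cG wr p b c o) :=
  PB_cz (H.mltp p b.1) (fun j => PB_eg (H.bok hb hp) j) c o

/-- **the budgets** -/
noncomputable def rb : RBm (rxm H) where
  tt := fun b => bt b.2
  u := D.u
  uL := D.uL
  uN := D.uN
  bU := D.bU wr
  gU := D.gU wr
  pu := fun {p b} hb => PB_bcp (H.mtp p b.1) (H.pb hb).self none
  puL := fun {p b} hb hp => PB_bcp (H.mtp p b.1) ((H.pb hb).bL p).self none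
  puN := fun {p b} hb hp => PB_bcp (H.mtp p b.1) ((H.pb hb).bN p).self none
  pbU := fun {p b} hb hp => PB.sum _ fun c _ => PcB H hb hp c none
  pgU := fun {p b} hb hp => PB.sum _ fun c _ => PcG H hb hp c none
  sh := fun {p b} hb x => bcp_split_opt _ _ _
  sN := fun {p b} hb hp x => bcp_split_opt _ _ _
  us := fun {p b} hb hp x => us H hb hp x
  um := fun {p b} hb hp y => um H hb hp y
  un := fun {b} hb x => by
    have h := H.no1 hb
    constructor
    · show bcp (D.tp 1 (D.tu 1 b.1)) ((bB 1 b.2).map chP) none x = 0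
      rw [h]; rfl
    · show bcp (D.tp 1 (D.tu 1 b.1)) ((bB 1 b.2).map chN) none x = 0
      rw [h]; rfl
  B0 := H.B0
  bd := H.bd

end rb

/-! ### fibre means -/

section ep

lemma Ep_sum' {ι : Type*} (s : Finset ι) (p : ℕ) (f : ι → ℝ → ℝ) (y : ℝ) :
    Ep p (fun x => ∑ c ∈ s, f c x) y = ∑ c ∈ s, Ep p (f c) y := by
  unfold Ep
  rw [Finset.sum_comm, Finset.sum_div]

lemma fib_per {α : Type*} {p : ℕ} (hp : 0 < p) {P : ℝ → α} (h : ∀ x, P (x + 1) = P x) (y : ℝ)
    (i : ℕ) : P (p * ((y + (i : ℕ)) / p)) = P y := by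
  have hp' : (p : ℝ) ≠ 0 := by exact_mod_cast hp.ne'
  have e : (p : ℝ) * ((y + (i : ℝ)) / p) = y + i := by field_simp
  rw [e]
  induction i with
  | zero => simp
  | succ n ih =>
    have e2 : y + ((n + 1 : ℕ) : ℝ) = (y + n) + 1 := by push_cast; ring
    rw [e2, h]
    exact ih (by field_simp)

/-- choice by a condition on the point below -/
lemma Ep_ch {p : ℕ} (hp : 0 < p) {P : ℝ → Prop} (hP : ∀ x, P (x + 1) = P x) (f : ℝ → ℝ) (y : ℝ) :
    Ep p (fun x => ch (P (p * x)) (f x)) y = ch (P y) (Ep p f y) := by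
  unfold Ep
  by_cases h : P y
  · rw [ch_on h]
    congr 1
    refine Finset.sum_congr rfl fun i _ => ch_on ?_
    rw [fib_per hp hP]; exact h
  · rw [ch_off h]
    rw [Finset.sum_eq_zero fun i _ => ch_off ?_, zero_div]
    rw [fib_per hp hP]; exact h

end ep

/-! ### event contents -/

namespace TD'
variable (D : TD μ Λ κ ζ) (wr : ℕ → Λ → κ) (p : ℕ) (b : μ × List (DT Λ κ))

/-- cross content of the real classes: `z` matched with the other types -/
noncomputable def rho (z : ζ) (y : ℝ) : ℝ :=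
  ∑ c, (cx D wr p b z c y + dx D wr p b z c y) +
  ∑ c, ch (mrk D p b z y ∧ c = D.act p b z y) (cx D wr p b z c y)

/-- inactive and off-sheet N content or mismatch, matched content of the other classes -/
noncomputable def evt (z : ζ) (y : ℝ) : ℝ :=
  cho (mrk D p b z) (nuy D wr p b z)
    (et (D.h p (D.cP p b) z) (fB1 D wr p b z) (fde D wr p b z)) y + fm D wr p b z y

end TD'

open TD'

lemma ch_le' {P : Prop} {a : ℝ} (ha : 0 ≤ a) : ch P a ≤ a := by
  by_cases hP : P
  · rw [ch_on hP]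
  · rw [ch_off hP]; exact ha

section ev
variable (H : TYp wr D Inv) (hb : Inv p b) (hp : p ≠ 0)
include H hb hp

lemma Prho (z : ζ) : PB (rho D wr p b z) := by
  have h2 : MP fun y => (mrk D p b z y, D.act p b z y) := (mmk H hp z).prod (H.mac p b z)
  refine (PB.sum _ fun c _ => (Pcx H hb hp z c).add (Pdx H hb hp z c)).add
    (PB.sum _ fun c _ => ?_)
  exact PB_ch (h2.map fun q => q.1 ∧ c = q.2) (Pcx H hb hp z c)

lemma sum_mx (z : ζ) (y : ℝ) : ∑ c, mx D wr p b z c y ≤ ∑ c, rA D wr p b z c y := by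
  refine Finset.sum_le_sum fun c _ => ?_
  have := (mx_le H hb hp z c y).1
  have := cx0 H hb hp z c y
  linarith

lemma et_nonneg {z : ζ} (y : ℝ) :
    0 ≤ et (D.h p (D.cP p b) z) (fB1 D wr p b z) (fde D wr p b z) y := by
  have h1 := sum_mx H hb hp z y
  have h2 := (Pfde H hb hp z).nonneg y
  unfold et dd fB1
  rw [a_eq H hb hp, sub_nonneg]
  exact max_le (by linarith) h2

lemma Pev (z : ζ) : PB (evt D wr p b z) := by
  have G := gmu H hb hp z
  have h1 : PB (et (D.h p (D.cP p b) z) (fB1 D wr p b z) (fde D wr p b z)) :=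
    ModeS16.PB_sub (Pfde H hb hp z) (TyS16.PB_dd G.pa (PfB1 H hb hp z))
      fun y => sub_nonneg.1 (et_nonneg H hb hp y)
  exact (PB_cho G.hP G.hper (Pnuy H hb hp z) h1).add (Pfm H hb hp z)

lemma ev_nonneg (z : ζ) (y : ℝ) : 0 ≤ evt D wr p b z y := (Pev H hb hp z).nonneg y

lemma nuy_le_ev {z : ζ} {y : ℝ} (h : mrk D p b z y) :
    nuy D wr p b z y + fmM D wr p b z y ≤ evt D wr p b z y := by
  unfold evt
  rw [cho_on h, fm_on h]

/-! means of the parts -/

lemma Ep_SG (c : κ) (y : ℝ) : Ep p (SG (wr p) (bB p b.2) c) y = 1 / (p : ℝ) *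
    SB (wr p) (bB p b.2) c y := by
  unfold SG SB sm
  rw [Ep_sum', Finset.mul_sum]
  refine Finset.sum_congr rfl fun j _ => ?_
  rw [(lift_pG (H.bok hb hp) j).Ep]
  ring

lemma Ep_rG (z : ζ) (c : κ) (y : ℝ) : Ep p (rG D wr p b z c) y = 1 / (p : ℝ) * rB D wr p b z c y :=
  Ep_cz (wr p) (D.lt p b.1) (lift_pG (H.bok hb hp)) (Nat.pos_of_ne_zero hp) (H.mlt p b.1) c
    (some z) y

lemma Ep_gl (z : ζ) (c : κ) (y : ℝ) :
    Ep p (gl D wr p b z c) y = 1 / (p : ℝ) * dx D wr p b z c y := by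
  have h := Ep_fib (Nat.pos_of_ne_zero hp) ((Prf H hb hp c).mul (Pri' H hb hp z c))
    (rG D wr p b z c) y
  have e : Ep p (gl D wr p b z c) y = rf wr p b c y * (1 - ri D wr p b z c y) *
    Ep p (rG D wr p b z c) y := h
  rw [e, Ep_rG H hb hp]
  unfold dx
  ring

lemma Ep_ll (z : ζ) (c : κ) (y : ℝ) :
    Ep p (ll D wr p b z c) y = 1 / (p : ℝ) * cx D wr p b z c y := by
  have h := Ep_fib (Nat.pos_of_ne_zero hp) ((Prf H hb hp c).mul (Pri H hb hp z c))
    (fun x => SG (wr p) (bB p b.2) c x - rG D wr p b z c x) y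
  have e : Ep p (ll D wr p b z c) y = rf wr p b c y * ri D wr p b z c y *
    Ep p (fun x => SG (wr p) (bB p b.2) c x - rG D wr p b z c x) y := h
  have e2 : Ep p (fun x => SG (wr p) (bB p b.2) c x - rG D wr p b z c x) y =
      Ep p (SG (wr p) (bB p b.2) c) y - Ep p (rG D wr p b z c) y := by
    unfold Ep
    rw [Finset.sum_sub_distrib, sub_div]
  rw [e, e2, Ep_rG H hb hp, Ep_SG H hb hp]
  unfold cx
  ring

lemma gl0 (z : ζ) (c : κ) (x : ℝ) : 0 ≤ gl D wr p b z c x := (Pgl H hb hp z c).nonneg x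
lemma ll0 (z : ζ) (c : κ) (x : ℝ) : 0 ≤ ll D wr p b z c x := (Pll H hb hp z c).nonneg x
lemma ra0 (c : κ) (y : ℝ) : 0 ≤ ra wr p b c y := (Pra H hb hp c).nonneg y
lemma rQ0 (z : ζ) (y : ℝ) : 0 ≤ fQ D wr p b z y := (PfQ H hb hp z).nonneg y

/-- the mean of the share of the special sheet -/
lemma Ep_ss (z : ζ) (y : ℝ) : Ep p (ss D p b z) y = ch (mrk D p b z y) (1 / (p : ℝ)) := by
  by_cases h : mrk D p b z y
  · rw [ch_on h]
    unfold Ep
    rw [sum_ss H hp h]
  · rw [ch_off h]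
    unfold Ep
    rw [Finset.sum_eq_zero fun i hi => ?_, zero_div]
    exact ch_off fun h2 => h ⟨i, hi, h2⟩

/-- a part of the special sheet -/
lemma Ep_sp_le {z : ζ} {f : ℝ → ℝ} (hf : PB f) (y : ℝ) :
    Ep p (fun x => ss D p b z x * f (p * x)) y = ch (mrk D p b z y) (1 / (p : ℝ) * f y) := by
  have e : (fun x => ss D p b z x * f (p * x)) = fun x => f (p * x) * ss D p b z x :=
    funext fun x => mul_comm _ _
  rw [e, Ep_fib (Nat.pos_of_ne_zero hp) hf, Ep_ss H hb hp]
  by_cases h : mrk D p b z y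
  · rw [ch_on h, ch_on h]; ring
  · rw [ch_off h, ch_off h]; ring

/-- the off-sheet and inactive excess lifts of the marked fibres -/
lemma Ep_nu (z : ζ) (y : ℝ) : Ep p (fun x => ch (mrk D p b z (p * x)) (fNu D wr p b z x)) y =
    ch (mrk D p b z y) (1 / (p : ℝ) * nuy D wr p b z y) := by
  rw [Ep_ch (Nat.pos_of_ne_zero hp) (mmk H hp z).per]
  congr 1
  unfold Ep nuy
  ring

/-! the gains and losses -/

lemma fNu_ch (z : ζ) (x : ℝ) : ch (mrk D p b z (p * x)) (fNu D wr p b z x) =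
    ∑ c, ch (mrk D p b z (p * x)) (ch (¬ (D.spc p b z x ∧ c = D.act p b z (p * x)))
    ((1 - rf wr p b c (p * x)) * rG D wr p b z c x)) := by
  by_cases h : mrk D p b z (p * x)
  · rw [ch_on h]
    exact Finset.sum_congr rfl fun c _ => by rw [ch_on h]
  · rw [ch_off h]
    exact (Finset.sum_eq_zero fun c _ => ch_off h).symm

lemma ss0 (z : ζ) (x : ℝ) : 0 ≤ ss D p b z x := (Pss H hb hp z).nonneg x

lemma fmM_term (z : ζ) (c : κ) (y : ℝ) : 0 ≤ ch (¬ c = D.act p b z y)
    (rf wr p b c y * rB D wr p b z c y) + ch (c = D.act p b z y) (dx D wr p b z c y) :=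
  add_nonneg (ch_nonneg (mul_nonneg (rf0 H hb hp c y) (rB0 H hb hp z c y)))
    (ch_nonneg (dx0 H hb hp z c y))

lemma lm_le (z : ζ) (x : ℝ) : lm D wr p b z x ≤
    ∑ c, (1 / (p : ℝ) * dx D wr p b z c (p * x) + ll D wr p b z c x) +
    ss D p b z x * (1 / (p : ℝ) * fmM D wr p b z (p * x)) +
    ch (mrk D p b z (p * x)) (fNu D wr p b z x) := by
  have hw := w0 H hb hp
  have nB := fun c => mul_nonneg (rf0 H hb hp c (p * x)) (rB0 H hb hp z c (p * x))
  have nG := fun c => mul_nonneg (rf1 H hb hp c (p * x)) (rG0 H hb hp z c x)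
  have eM : ss D p b z x * (1 / (p : ℝ) * fmM D wr p b z (p * x)) =
      ∑ c, ss D p b z x * (1 / (p : ℝ) * (ch (¬ c = D.act p b z (p * x))
      (rf wr p b c (p * x) * rB D wr p b z c (p * x)) +
      ch (c = D.act p b z (p * x)) (dx D wr p b z c (p * x)))) := by
    unfold fmM
    rw [Finset.mul_sum, Finset.mul_sum]
  rw [fNu_ch H hb hp, eM]
  unfold lm
  rw [← Finset.sum_add_distrib, ← Finset.sum_add_distrib]
  refine Finset.sum_le_sum fun c _ => ?_
  have m1 : 0 ≤ 1 / (p : ℝ) * dx D wr p b z c (p * x) + ll D wr p b z c x :=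
    add_nonneg (mul_nonneg hw (dx0 H hb hp z c _)) (ll0 H hb hp z c x)
  have m2 : 0 ≤ ss D p b z x * (1 / (p : ℝ) * (ch (¬ c = D.act p b z (p * x))
      (rf wr p b c (p * x) * rB D wr p b z c (p * x)) +
      ch (c = D.act p b z (p * x)) (dx D wr p b z c (p * x)))) :=
    mul_nonneg (ss0 H hb hp z x) (mul_nonneg hw (fmM_term H hb hp z c _))
  have m3 : 0 ≤ ch (mrk D p b z (p * x)) (ch (¬ (D.spc p b z x ∧
      c = D.act p b z (p * x))) ((1 - rf wr p b c (p * x)) * rG D wr p b z c x)) :=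
    ch_nonneg (ch_nonneg (nG c))
  by_cases h2 : D.spc p b z x ∧ c ≠ D.act p b z (p * x)
  · have e1 : ss D p b z x = 1 := ch_on h2.1
    rw [ch_off (P := ¬ (D.spc p b z x ∧ c ≠ D.act p b z (p * x))) (fun h => h h2), ch_on h2, e1,
      ch_on (spc_mrk hp h2.1), ch_on (P := ¬ c = D.act p b z (p * x)) h2.2,
      ch_off (P := c = D.act p b z (p * x)) h2.2,
      ch_on (P := ¬ (D.spc p b z x ∧ c = D.act p b z (p * x))) (fun h => h2.2 h.2)]
    linarith
  · rw [ch_on (P := ¬ (D.spc p b z x ∧ c ≠ D.act p b z (p * x))) h2, ch_off h2]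
    linarith

lemma key_ev (z : ζ) (y : ℝ) :
    ch (mrk D p b z y) (1 / (p : ℝ) * (1 / (p : ℝ) * fmM D wr p b z y)) +
      ch (mrk D p b z y) (1 / (p : ℝ) * nuy D wr p b z y) ≤
      1 / (p : ℝ) * evt D wr p b z y := by
  have hw := w0 H hb hp
  have hw1 := w1 hp
  have hM := (PfmM H hb hp z).nonneg y
  by_cases h : mrk D p b z y
  · rw [ch_on h, ch_on h]
    have h3 := mul_le_mul_of_nonneg_left (nuy_le_ev H hb hp h) hw
    have h4 : 1 / (p : ℝ) * fmM D wr p b z y ≤ fmM D wr p b z y := by nlinarith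
    have h5 := mul_le_mul_of_nonneg_left h4 hw
    linarith
  · rw [ch_off h, ch_off h, add_zero]
    exact mul_nonneg hw (ev_nonneg H hb hp z y)

lemma act_sum (z : ζ) (y : ℝ) :
    ch (mrk D p b z y) (1 / (p : ℝ) * ∑ c, ch (c = D.act p b z y) (cx D wr p b z c y)) =
    1 / (p : ℝ) * ∑ c, ch (mrk D p b z y ∧ c = D.act p b z y) (cx D wr p b z c y) := by
  by_cases h : mrk D p b z y
  · rw [ch_on h]
    congr 1
    refine Finset.sum_congr rfl fun c _ => ?_
    by_cases h2 : c = D.act p b z y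
    · rw [ch_on h2, ch_on ⟨h, h2⟩]
    · rw [ch_off h2, ch_off fun h3 => h2 h3.2]
  · rw [ch_off h, Finset.sum_eq_zero fun c _ => ch_off fun h3 => h h3.1, mul_zero]

/-- **mean loss of the main part** -/
lemma Ep_lm (z : ζ) (y : ℝ) : Ep p (lm D wr p b z) y ≤
    1 / (p : ℝ) * (rho D wr p b z y + evt D wr p b z y) := by
  have hp0 : 0 < p := Nat.pos_of_ne_zero hp
  have hw := w0 H hb hp
  have h1 : Ep p (lm D wr p b z) y ≤ Ep p (fun x =>
      (∑ c, (1 / (p : ℝ) * dx D wr p b z c (p * x) + ll D wr p b z c x) +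
    ss D p b z x * (1 / (p : ℝ) * fmM D wr p b z (p * x))) +
    ch (mrk D p b z (p * x)) (fNu D wr p b z x)) y :=
    Ep_mono_fib hp0 fun i _ => lm_le H hb hp z _
  refine h1.trans ?_
  have e2 := Ep_sp_le H hb hp (z := z) ((PfmM H hb hp z).smul hw) y
  rw [Ep_add', Ep_add', Ep_sum', Ep_nu H hb hp, e2]
  have e3 : ∀ c, Ep p (fun x => 1 / (p : ℝ) * dx D wr p b z c (p * x) + ll D wr p b z c x) y =
      1 / (p : ℝ) * (cx D wr p b z c y + dx D wr p b z c y) := by
    intro c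
    have e4 := Ep_cst hp0 ((Pdx H hb hp z c).smul hw) y
    rw [Ep_add', Ep_ll H hb hp, e4]
    ring
  rw [Finset.sum_congr rfl fun c _ => e3 c, ← Finset.mul_sum]
  have n1 : 0 ≤ ∑ c, ch (mrk D p b z y ∧ c = D.act p b z y) (cx D wr p b z c y) :=
    Finset.sum_nonneg fun c _ => ch_nonneg (cx0 H hb hp z c y)
  have key := key_ev H hb hp z y
  have e5 : rho D wr p b z y = ∑ c, (cx D wr p b z c y + dx D wr p b z c y) +
    ∑ c, ch (mrk D p b z y ∧ c = D.act p b z y) (cx D wr p b z c y) := rfl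
  have n2 := mul_nonneg hw n1
  rw [e5]
  linarith

/-- **mean loss of the separated part** -/
lemma Ep_lS (z : ζ) (y : ℝ) : Ep p (lS D wr p b z) y ≤ 1 / (p : ℝ) * rho D wr p b z y := by
  have hp0 : 0 < p := Nat.pos_of_ne_zero hp
  have hw := w0 H hb hp
  have hw1 := w1 hp
  have h1 : Ep p (lS D wr p b z) y ≤ Ep p (fun x => ∑ c, ll D wr p b z c x +
      ss D p b z x * ∑ c, ch (c = D.act p b z (p * x)) (cx D wr p b z c (p * x))) y := by
    refine Ep_mono_fib hp0 fun i _ => ?_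
    generalize (y + (i : ℕ)) / (p : ℝ) = x
    unfold lS
    rw [Finset.sum_add_distrib, Finset.mul_sum]
    refine add_le_add (Finset.sum_le_sum fun c _ => ?_) (Finset.sum_le_sum fun c _ => ?_)
    · by_cases h2 : D.spc p b z x ∧ c ≠ D.act p b z (p * x)
      · rw [ch_on h2]
      · rw [ch_off h2]; exact ll0 H hb hp z c x
    · by_cases h2 : D.spc p b z x ∧ c = D.act p b z (p * x)
      · have e1 : ss D p b z x = 1 := ch_on h2.1
        rw [ch_on h2, e1, ch_on h2.2, one_mul]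
        have := cx0 H hb hp z c (p * x)
        nlinarith
      · rw [ch_off h2]
        exact mul_nonneg (ss0 H hb hp z x) (ch_nonneg (cx0 H hb hp z c (p * x)))
  refine h1.trans ?_
  have PA : PB fun y => ∑ c, ch (c = D.act p b z y) (cx D wr p b z c y) :=
    PB.sum _ fun c _ => PBy H z (fun q => c = q) (Pcx H hb hp z c)
  rw [Ep_add', Ep_sum', Ep_sp_le H hb hp PA, act_sum H hb hp,
    Finset.sum_congr rfl fun c _ => Ep_ll H hb hp z c y, ← Finset.mul_sum]
  have k1 : ∑ c, cx D wr p b z c y ≤ ∑ c, (cx D wr p b z c y + dx D wr p b z c y) :=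
    Finset.sum_le_sum fun c _ => le_add_of_nonneg_right (dx0 H hb hp z c y)
  have k3 := mul_le_mul_of_nonneg_left k1 hw
  have e5 : rho D wr p b z y = ∑ c, (cx D wr p b z c y + dx D wr p b z c y) +
    ∑ c, ch (mrk D p b z y ∧ c = D.act p b z y) (cx D wr p b z c y) := rfl
  rw [e5]
  linarith

/-- **mean gain of the main part** -/
lemma Ep_gm (z : ζ) (y : ℝ) : Ep p (gm D wr p b z) y ≤ 1 / (p : ℝ) * rho D wr p b z y := by
  have hp0 : 0 < p := Nat.pos_of_ne_zero hp
  have hw := w0 H hb hp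
  have hw1 := w1 hp
  have h1 : Ep p (gm D wr p b z) y ≤ Ep p (fun x =>
      ∑ c, (1 / (p : ℝ) * cx D wr p b z c (p * x) + gl D wr p b z c x) +
      ss D p b z x * ∑ c, ch (c = D.act p b z (p * x)) (cx D wr p b z c (p * x))) y := by
    refine Ep_mono_fib hp0 fun i _ => ?_
    generalize (y + (i : ℕ)) / (p : ℝ) = x
    unfold gm
    rw [Finset.sum_add_distrib, Finset.mul_sum]
    have n1 : ∀ c, 0 ≤ 1 / (p : ℝ) * cx D wr p b z c (p * x) + gl D wr p b z c x := fun c =>
      add_nonneg (mul_nonneg hw (cx0 H hb hp z c _)) (gl0 H hb hp z c x)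
    refine add_le_add (Finset.sum_le_sum fun c _ => ?_) (Finset.sum_le_sum fun c _ => ?_)
    · exact ch_le' (n1 c)
    · by_cases h2 : D.spc p b z x ∧ c = D.act p b z (p * x)
      · have e1 : ss D p b z x = 1 := ch_on h2.1
        rw [ch_on h2, e1, ch_on h2.2, one_mul]
        have := cx0 H hb hp z c (p * x)
        nlinarith
      · rw [ch_off h2]
        exact mul_nonneg (ss0 H hb hp z x) (ch_nonneg (cx0 H hb hp z c (p * x)))
  refine h1.trans (le_of_eq ?_)
  have PA : PB fun y => ∑ c, ch (c = D.act p b z y) (cx D wr p b z c y) :=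
    PB.sum _ fun c _ => PBy H z (fun q => c = q) (Pcx H hb hp z c)
  rw [Ep_add', Ep_sum', Ep_sp_le H hb hp PA, act_sum H hb hp]
  have e3 : ∀ c, Ep p (fun x => 1 / (p : ℝ) * cx D wr p b z c (p * x) + gl D wr p b z c x) y =
      1 / (p : ℝ) * (cx D wr p b z c y + dx D wr p b z c y) := by
    intro c
    have e4 := Ep_cst hp0 ((Pcx H hb hp z c).smul hw) y
    rw [Ep_add', Ep_gl H hb hp, e4]
    ring
  rw [Finset.sum_congr rfl fun c _ => e3 c, ← Finset.mul_sum]
  unfold rho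
  ring

/-- **mean gain of the separated part** -/
lemma Ep_gs (z : ζ) (y : ℝ) : Ep p (gs D wr p b z) y ≤
    1 / (p : ℝ) * (rho D wr p b z y + evt D wr p b z y) := by
  have hp0 : 0 < p := Nat.pos_of_ne_zero hp
  have hw := w0 H hb hp
  have h1 : Ep p (gs D wr p b z) y ≤ Ep p (fun x =>
      (∑ c, (1 / (p : ℝ) * cx D wr p b z c (p * x) + gl D wr p b z c x) +
      ss D p b z x * (1 / (p : ℝ) * fmM D wr p b z (p * x))) +
      ch (mrk D p b z (p * x)) (fNu D wr p b z x)) y := by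
    refine Ep_mono_fib hp0 fun i _ => ?_
    generalize (y + (i : ℕ)) / (p : ℝ) = x
    have nG := fun c => mul_nonneg (rf1 H hb hp c (p * x)) (rG0 H hb hp z c x)
    have eM : ss D p b z x * (1 / (p : ℝ) * fmM D wr p b z (p * x)) =
        ∑ c, ss D p b z x * (1 / (p : ℝ) * (ch (¬ c = D.act p b z (p * x))
        (rf wr p b c (p * x) * rB D wr p b z c (p * x)) +
        ch (c = D.act p b z (p * x)) (dx D wr p b z c (p * x)))) := by
      unfold fmM
      rw [Finset.mul_sum, Finset.mul_sum]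
    rw [fNu_ch H hb hp, eM]
    unfold gs
    rw [← Finset.sum_add_distrib, ← Finset.sum_add_distrib]
    refine Finset.sum_le_sum fun c _ => ?_
    have m1 : 0 ≤ 1 / (p : ℝ) * cx D wr p b z c (p * x) + gl D wr p b z c x :=
      add_nonneg (mul_nonneg hw (cx0 H hb hp z c _)) (gl0 H hb hp z c x)
    have m2 : 0 ≤ ss D p b z x * (1 / (p : ℝ) * (ch (¬ c = D.act p b z (p * x))
        (rf wr p b c (p * x) * rB D wr p b z c (p * x)) +
        ch (c = D.act p b z (p * x)) (dx D wr p b z c (p * x)))) :=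
      mul_nonneg (ss0 H hb hp z x) (mul_nonneg hw (fmM_term H hb hp z c _))
    have m3 : 0 ≤ ch (mrk D p b z (p * x)) (ch (¬ (D.spc p b z x ∧
        c = D.act p b z (p * x))) ((1 - rf wr p b c (p * x)) * rG D wr p b z c x)) :=
      ch_nonneg (ch_nonneg (nG c))
    by_cases h2 : D.spc p b z x ∧ c ≠ D.act p b z (p * x)
    · have e1 : ss D p b z x = 1 := ch_on h2.1
      rw [ch_on (P := D.spc p b z x ∧ c ≠ D.act p b z (p * x)) h2, e1,
        ch_on (spc_mrk hp h2.1), ch_on (P := ¬ c = D.act p b z (p * x)) h2.2,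
        ch_off (P := c = D.act p b z (p * x)) h2.2,
        ch_on (P := ¬ (D.spc p b z x ∧ c = D.act p b z (p * x))) (fun h => h2.2 h.2),
        ra_eq H hb hp, rf_eq (D := D) z c (p * x)]
      have k1 := mul_nonneg hw (dx0 H hb hp z c (p * x))
      have e5 : 1 / (p : ℝ) * (mx D wr p b z c (p * x) + cx D wr p b z c (p * x)) =
        1 / (p : ℝ) * mx D wr p b z c (p * x) + 1 / (p : ℝ) * cx D wr p b z c (p * x) := by ring
      have e6 : 1 / (p : ℝ) * (mx D wr p b z c (p * x) + dx D wr p b z c (p * x) + 0) =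
        1 / (p : ℝ) * mx D wr p b z c (p * x) + 1 / (p : ℝ) * dx D wr p b z c (p * x) := by ring
      rw [e5, e6]
      linarith
    · rw [ch_off h2]
      linarith
  refine h1.trans ?_
  have e2 := Ep_sp_le H hb hp (z := z) ((PfmM H hb hp z).smul hw) y
  rw [Ep_add', Ep_add', Ep_sum', Ep_nu H hb hp, e2]
  have e3 : ∀ c, Ep p (fun x => 1 / (p : ℝ) * cx D wr p b z c (p * x) + gl D wr p b z c x) y =
      1 / (p : ℝ) * (cx D wr p b z c y + dx D wr p b z c y) := by
    intro c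
    have e4 := Ep_cst hp0 ((Pcx H hb hp z c).smul hw) y
    rw [Ep_add', Ep_gl H hb hp, e4]
    ring
  rw [Finset.sum_congr rfl fun c _ => e3 c, ← Finset.mul_sum]
  have n1 : 0 ≤ ∑ c, ch (mrk D p b z y ∧ c = D.act p b z y) (cx D wr p b z c y) :=
    Finset.sum_nonneg fun c _ => ch_nonneg (cx0 H hb hp z c y)
  have key := key_ev H hb hp z y
  have e5 : rho D wr p b z y = ∑ c, (cx D wr p b z c y + dx D wr p b z c y) +
    ∑ c, ch (mrk D p b z y ∧ c = D.act p b z y) (cx D wr p b z c y) := rfl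
  have n2 := mul_nonneg hw n1
  rw [e5]
  linarith

/-! bounds by the contents -/

lemma rG_le (z : ζ) (c : κ) (x : ℝ) : rG D wr p b z c x ≤ rB D wr p b z c (p * x) := by
  unfold rG rB
  rw [cz_eq, cz_eq]
  refine Finset.sum_le_sum fun j _ => ?_
  split_ifs with hj
  · exact lift_le (Nat.pos_of_ne_zero hp) (PB_pG _ j).nonneg (lift_pG (H.bok hb hp) j) x
  · exact le_rfl

lemma sum_AB (z : ζ) (y : ℝ) : ∑ c, (rA D wr p b z c y + rB D wr p b z c y) ≤
    D.h p (D.cP p b) z y + D.h p (D.cN p b) z y := by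
  rw [a_eq H hb hp, b_eq H hb hp, Finset.sum_add_distrib]
  have := rQ0 H hb hp z y
  linarith

lemma gl_rG (z : ζ) (c : κ) (x : ℝ) : (1 - rf wr p b c (p * x)) * rG D wr p b z c x +
    gl D wr p b z c x ≤ rG D wr p b z c x := by
  have h1 := mul_nonneg (mul_nonneg (rf0 H hb hp c (p * x)) (ri0 H hb hp z c (p * x)))
    (rG0 H hb hp z c x)
  have e : (1 - rf wr p b c (p * x)) * rG D wr p b z c x + gl D wr p b z c x =
      rG D wr p b z c x - rf wr p b c (p * x) * ri D wr p b z c (p * x) * rG D wr p b z c x := by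
    unfold gl; ring
  rw [e]
  linarith

lemma gm_le (z : ζ) (x : ℝ) :
    gm D wr p b z x ≤ D.h p (D.cP p b) z (p * x) + D.h p (D.cN p b) z (p * x) := by
  refine le_trans (Finset.sum_le_sum fun c _ => ?_) (sum_AB H hb hp z (p * x))
  have hw := w0 H hb hp
  have hw1 := w1 hp
  have c0 := cx0 H hb hp z c (p * x)
  have g1 := rG_le H hb hp z c x
  have g2 := gl_rG H hb hp z c x
  have g3 := mul_nonneg (rf1 H hb hp c (p * x)) (rG0 H hb hp z c x)
  have c1 := cx_le H hb hp z c (p * x)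
  have t1 := ch_le' (P := ¬ (D.spc p b z x ∧ c ≠ D.act p b z (p * x)))
    (add_nonneg (mul_nonneg hw c0) (gl0 H hb hp z c x))
  have t2 := ch_le' (P := D.spc p b z x ∧ c = D.act p b z (p * x)) (mul_nonneg hw1 c0)
  have e : 1 / (p : ℝ) * cx D wr p b z c (p * x) + (1 - 1 / (p : ℝ)) * cx D wr p b z c (p * x) =
    cx D wr p b z c (p * x) := by ring
  linarith

lemma gs_le (z : ζ) (x : ℝ) :
    gs D wr p b z x ≤ D.h p (D.cP p b) z (p * x) + D.h p (D.cN p b) z (p * x) := by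
  refine le_trans (Finset.sum_le_sum fun c _ => ?_) (sum_AB H hb hp z (p * x))
  have hw := w0 H hb hp
  have hw1 := w1 hp
  have a0 := rA0 H hb hp z c (p * x)
  have g1 := rG_le H hb hp z c x
  have g2 := gl_rG H hb hp z c x
  have g3 := mul_nonneg (rf1 H hb hp c (p * x)) (rG0 H hb hp z c x)
  have r0 := ra0 H hb hp c (p * x)
  have r1 : ra wr p b c (p * x) ≤ 1 := al1 (H.bok hb hp) c _
  have k0 : 0 ≤ ra wr p b c (p * x) * rA D wr p b z c (p * x) := mul_nonneg r0 a0
  have k1 : ra wr p b c (p * x) * rA D wr p b z c (p * x) ≤ rA D wr p b z c (p * x) := by nlinarith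
  have k3 : 1 / (p : ℝ) * (ra wr p b c (p * x) * rA D wr p b z c (p * x)) ≤
      rA D wr p b z c (p * x) := by nlinarith
  have t1 := ch_le' (P := D.spc p b z x ∧ c ≠ D.act p b z (p * x))
    (add_nonneg (mul_nonneg hw k0) (add_nonneg g3 (gl0 H hb hp z c x)))
  linarith

/-- **births of a type** -/
theorem Ep_er (z : ζ) (y : ℝ) : Ep p (raw D wr p b z).er y ≤
    2 / (p : ℝ) * (rho D wr p b z y + evt D wr p b z y) := by
  have h := (gmu H hb hp z).Ep_er y
  have h1 := Ep_lm H hb hp z y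
  have h2 := Ep_lS H hb hp z y
  have e : 2 / (p : ℝ) * (rho D wr p b z y + evt D wr p b z y) =
    1 / (p : ℝ) * (rho D wr p b z y + evt D wr p b z y) + 1 / (p : ℝ) * rho D wr p b z y +
      1 / (p : ℝ) * evt D wr p b z y := by ring
  rw [e]
  exact h.trans (add_le_add (add_le_add h1 h2) le_rfl)

/-- **budget of a type** -/
theorem Ep_jz (z : ζ) (y : ℝ) : Ep p (jz (raw D wr p b z)) y ≤
    (D.h p (D.cP p b) z y + D.h p (D.cN p b) z y) *
      (1 / (p : ℝ) * (12 * evt D wr p b z y + 8 * rho D wr p b z y)) := by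
  have h := (gmu H hb hp z).Ep_jz (gm_le H hb hp z) (gs_le H hb hp z) y
  have h1 := Ep_gm H hb hp z y
  have h2 := Ep_gs H hb hp z y
  have pa := (gmu H hb hp z).pa
  have pb : 0 ≤ D.h p (D.cN p b) z y := by
    rw [b_eq H hb hp]
    exact add_nonneg (Finset.sum_nonneg fun c _ => rB0 H hb hp z c y) (rQ0 H hb hp z y)
  refine h.trans (mul_le_mul_of_nonneg_left ?_ (add_nonneg (pa.nonneg y) pb))
  have e : evt D wr p b z y = cho (mrk D p b z) (nuy D wr p b z)
    (et (D.h p (D.cP p b) z) (fB1 D wr p b z) (fde D wr p b z)) y + fm D wr p b z y := rfl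
  rw [← e]
  have e2 : 1 / (p : ℝ) * (12 * evt D wr p b z y + 8 * rho D wr p b z y) =
    8 * (1 / (p : ℝ) * evt D wr p b z y) + 4 * (1 / (p : ℝ) * rho D wr p b z y +
      1 / (p : ℝ) * (rho D wr p b z y + evt D wr p b z y)) := by ring
  rw [e2]
  linarith

/-- **births of the bundle** -/
theorem Ep_births (y : ℝ) : Ep p (eA (raw D wr p b)) y ≤
    2 / (p : ℝ) * ∑ z, (rho D wr p b z y + evt D wr p b z y) := by
  rw [TyS16.Ep_eA, Finset.mul_sum]
  exact Finset.sum_le_sum fun z _ => Ep_er H hb hp z y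

/-- **budget of the bundle** -/
theorem Ep_budget (y : ℝ) : Ep p (jA (raw D wr p b)) y ≤
    ∑ z, (D.h p (D.cP p b) z y + D.h p (D.cN p b) z y) *
      (1 / (p : ℝ) * (12 * evt D wr p b z y + 8 * rho D wr p b z y)) := by
  rw [TyS16.Ep_jA]
  exact Finset.sum_le_sum fun z _ => Ep_jz H hb hp z y

end ev

/-- the births of the rows at every scale are below `eA` -/
theorem births_le (H : TYp wr D Inv) (hb : Inv p b) (hp : p ≠ 0) {σ : ℝ} (hσ : 0 < σ) (x : ℝ) :
    ((rxm H).sd σ p b).e x ≤ eA (raw D wr p b) x := (fam H hb hp).e_le hσ x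

lemma PB_births (H : TYp wr D Inv) (hb : Inv p b) (hp : p ≠ 0) : PB (eA (raw D wr p b)) :=
  TyS16.PB_eA (fam H hb hp)

end

end Crest.Agent.R4P.DTo407
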