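import Crest.Agent.R4P.BthR_48
import Crest.Agent.R4P.DTo_407

/-!
R4 (S0004) with powers, T3, helper48: **births of the rows in the `L²` form, the group data**.

* `RowsL R` : typed rows of a row system with located births `E2m`, `E2s` (main, separated part);
  `E2` : their content by the classes of the rows, `e1` : the linear rest.
* `PokE s E c h X x` : rates `c` and second order part `X` of the located births at a point (parameters
  `θ`, `τ`, classes `Z` are chosen at the point).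
* `PrE` : the price property (`PokE.price`; `BthT_48` for the form with two parts).
* `LPr D Q` : rates and second order parts for the group data; **`LPr.bl : BL D`**.
* **`payL`** (over `Prc_49`) : `BPay3L` with the births `e1` (linear), `yE` (rates of the located births)
  and the second order parts `secL`; `SgL_eq` : walk sum of the second order parts.
* **`rowsL`** : the instance for the typed trees `rxm H` of `DTn_407`.
-/

set_option autoImplicit false
set_option linter.unusedSectionVars false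
set_option linter.unusedVariables false
open MeasureTheory Filter Set

namespace Crest.Agent.R4P.BthS48

open Crest.Agent.R4.Tour104 Crest.Agent.R4.Clos758
open Crest.Agent.R4P.GMer27 Crest.Agent.R4P.GCol27 Crest.Agent.R4P.RSys343 Crest.Agent.R4P.TrR343
open Crest.Agent.R4P.RXs343 Crest.Agent.R4P.RXm55 Crest.Agent.R4P.RXm55.RXm
open Crest.Agent.R4P.RXj343.RX (sm2 q2)
open Crest.Agent.R4P.MSi343 (su su_add two_pos')
open Crest.Agent.R4P.ModeP940 Crest.Agent.R4P.MisR16 Crest.Agent.R4P.Mism16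
open Crest.Agent.R4P.MvP25 Crest.Agent.R4P.PMs49 Crest.Agent.R4P.MSm25 Crest.Agent.R4P.ZetaL237
open Crest.Agent.R4P.RGf25 Crest.Agent.R4P.RGp25 Crest.Agent.R4P.Pay349 Crest.Agent.R4P.DTp26
open Crest.Agent.R4P.PayR45 (BM BCh PV)
open Crest.Agent.R4P.PVe45 (Cr)
open Crest.Agent.R4P.GSK55 (Kw Kw_succ)
open Crest.Agent.R4P.Prc49
open Crest.Agent.R4P.TyS16 Crest.Agent.R4P.TyR16
open Crest.Agent.R4P.BthL48 Crest.Agent.R4P.BthR48

/-! ### typed rows with located births -/

section rows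
variable {β δ : Type} [Fintype δ]

/-- **typed rows of a row system, located births** -/
structure RowsL (R : RXm β δ) where
  raw : ℕ → β → δ → TRaw
  τ : ℕ → β → Equiv.Perm δ
  hm : ℕ → β → δ → ℝ → ℝ
  hs : ℕ → β → δ → ℝ → ℝ
  E0 : ℕ → β → δ → ℝ → ℝ
  /-- located births, main and separated part -/
  E2m : ℕ → β → δ → ℝ → ℝ
  E2s : ℕ → β → δ → ℝ → ℝ
  fam : ∀ {p b}, R.ok p b → p ≠ 0 → ∃ (a b' bt gc : δ → ℝ → ℝ) (F : δ → Prop),
    Fam p a b' (hm p b) (hs p b) bt gc (raw p b) (τ p b) F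
  rl : ∀ {p b}, R.ok p b → p ≠ 0 → ∀ {σ : ℝ}, 0 < σ → ∀ z,
    ∃ ps, RL p σ (raw p b z) (E0 p b z) ps
  vm_eq : ∀ {p b}, R.ok p b → p ≠ 0 → ∀ {σ : ℝ}, 0 < σ → ∀ z x,
    (R.sd σ p b).vm z x = ((raw p b z).D σ).vm x
  vs_eq : ∀ {p b}, R.ok p b → p ≠ 0 → ∀ {σ : ℝ}, 0 < σ → ∀ z x,
    (R.sd σ p b).vs z x = ((raw p b ((τ p b).symm z)).D σ).vs x
  e_eq : ∀ {p b}, R.ok p b → p ≠ 0 → ∀ {σ : ℝ}, 0 < σ → ∀ x,
    (R.sd σ p b).e x = ∑ z, ((raw p b z).D σ).e x
  hP_eq : ∀ {p b}, R.ok p b → p ≠ 0 → ∀ z x, R.hP p b z x = hPP (τ p b) (hm p b) (hs p b) z x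
  jB_le : ∀ {p b}, R.ok p b → p ≠ 0 → ∀ x, jA (raw p b) x ≤ R.jB p b x
  pE0 : ∀ {p b}, R.ok p b → p ≠ 0 → ∀ z, PB (E0 p b z)
  pEm : ∀ {p b}, R.ok p b → p ≠ 0 → ∀ z, PB (E2m p b z)
  pEs : ∀ {p b}, R.ok p b → p ≠ 0 → ∀ z, PB (E2s p b z)
  Em : ∀ {p b}, R.ok p b → p ≠ 0 → ∀ z x, E2m p b z x ≤ E0 p b z x + (raw p b z).gm x
  Es : ∀ {p b}, R.ok p b → p ≠ 0 → ∀ z x, E2s p b z x ≤ (raw p b z).gs x

namespace RowsL
variable {R : RXm β δ} (Q : RowsL R) {p : ℕ} {b : β} {σ : ℝ}

/-- the located births by the classes of the rows -/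
noncomputable def E2 (p : ℕ) (b : β) (z : δ) (x : ℝ) : ℝ :=
  Q.E2m p b z x + Q.E2s p b ((Q.τ p b).symm z) x

/-- the linear rest of the births -/
noncomputable def e1 (p : ℕ) (b : β) : ℝ → ℝ := e1F (Q.raw p b) (Q.E0 p b) (Q.E2m p b) (Q.E2s p b)

/-- the location of the births -/
noncomputable def g2 (σ : ℝ) (p : ℕ) (b : β) (z : δ) : ℝ → ℝ :=
  g2F (Q.raw p b) (Q.τ p b) (Q.hm p b) (Q.hs p b) (Q.E2m p b) (Q.E2s p b) σ z

/-- the births in the `L²` form -/
noncomputable def eL (σ : ℝ) (p : ℕ) (b : β) (x : ℝ) : ℝ :=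
  dd (Q.e1 p b x) ((R.sd σ p b).e x)

/-- losses of the truncation -/
noncomputable def los (σ : ℝ) (p : ℕ) (b : β) (x : ℝ) : ℝ :=
  dd (∑ z, Q.g2 σ p b z x) (Q.eL σ p b x)

variable (hb : R.ok p b) (hp : p ≠ 0)
include hb hp

lemma pE2 (z : δ) : PB (Q.E2 p b z) := (Q.pEm hb hp z).add (Q.pEs hb hp _)

lemma pe1 : PB (Q.e1 p b) := by
  obtain ⟨a, b', bt, gc, F, H⟩ := Q.fam hb hp
  exact PB.sum _ fun z _ => (ModeS16.PB_sub ((Q.pE0 hb hp z).add (H.row z).pgm) (Q.pEm hb hp z)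
    (Q.Em hb hp z)).add (ModeS16.PB_sub (H.row z).pgs (Q.pEs hb hp z) (Q.Es hb hp z))

lemma pg2 (hσ : 0 < σ) (z : δ) : PB (Q.g2 σ p b z) := by
  obtain ⟨a, b', bt, gc, F, H⟩ := Q.fam hb hp
  have t1 := (H.row z).tr hσ
  have t2 := (H.row ((Q.τ p b).symm z)).tr hσ
  exact (PB_min (ModeS16.PB_sub (PB_minc hσ.le (H.row z).phm) t1.pvm t1.vm_le)
    (Q.pEm hb hp z)).add (PB_min (ModeS16.PB_sub (PB_minc hσ.le (H.row _).phs) t2.pvs t2.vs_le)
    (Q.pEs hb hp _))

include Q in
lemma pe (hσ : 0 < σ) : PB (R.sd σ p b).e := by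
  obtain ⟨a, b', bt, gc, F, H⟩ := Q.fam hb hp
  have e : (R.sd σ p b).e = fun x => ∑ z, ((Q.raw p b z).D σ).e x :=
    funext fun x => Q.e_eq hb hp hσ x
  rw [e]
  exact PB.sum _ fun z _ => ((H.row z).tr hσ).pe

lemma peL (hσ : 0 < σ) : PB (Q.eL σ p b) := TyS16.PB_dd (Q.pe1 hb hp) (Q.pe hb hp hσ)

lemma plos (hσ : 0 < σ) : PB (Q.los σ p b) :=
  TyS16.PB_dd (PB.sum _ fun z _ => Q.pg2 hb hp hσ z) (Q.peL hb hp hσ)

lemma eL_le (hσ : 0 < σ) (x : ℝ) : Q.eL σ p b x ≤ (R.sd σ p b).e x := by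
  have h1 := (Q.pe1 hb hp).nonneg x
  have h2 := (Q.pe hb hp hσ).nonneg x
  unfold eL dd
  exact max_le (by linarith) h2

/-- the linear part -/
lemma e_sub (x : ℝ) : (R.sd σ p b).e x - Q.eL σ p b x ≤ Q.e1 p b x := by
  unfold eL dd
  have := le_max_left ((R.sd σ p b).e x - Q.e1 p b x) 0
  linarith

lemma g2_E2 (hσ : 0 < σ) (z : δ) (x : ℝ) : Q.g2 σ p b z x ≤ Q.E2 p b z x :=
  g2F_E z x

lemma g2_nonneg (hσ : 0 < σ) (z : δ) (x : ℝ) : 0 ≤ Q.g2 σ p b z x := (Q.pg2 hb hp hσ z).nonneg x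

/-- the losses at a dyadic scale are in the budget of the rows -/
lemma los_le (k : ℕ) (x : ℝ) : (2 : ℝ) ^ k * Q.los (2 ^ k) p b x ≤ R.jB p b x := by
  obtain ⟨a, b', bt, gc, F, H⟩ := Q.fam hb hp
  have two : (0:ℝ) < 2 ^ k := two_pos' k
  have h1 := births_le H two (Q.rl hb hp two) (fun z x => (Q.pE0 hb hp z).nonneg x)
    (Q.Em hb hp) (Q.Es hb hp) x
  have h2 : Q.los (2 ^ k) p b x ≤ losF (Q.raw p b) (2 ^ k) x := by
    have h3 := losF_nonneg H two x
    have h4 : Q.eL (2 ^ k) p b x ≤ ∑ z, Q.g2 (2 ^ k) p b z x + losF (Q.raw p b) (2 ^ k) x := by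
      unfold eL dd
      have e1 : 0 ≤ ∑ z, Q.g2 (2 ^ k) p b z x := Finset.sum_nonneg fun z _ =>
        Q.g2_nonneg hb hp two z x
      refine max_le ?_ (by linarith)
      rw [Q.e_eq hb hp two]
      have e2 : ∑ z, Q.g2 (2 ^ k) p b z x = ∑ z, g2F (Q.raw p b) (Q.τ p b) (Q.hm p b) (Q.hs p b)
        (Q.E2m p b) (Q.E2s p b) (2 ^ k) z x := rfl
      have e3 : Q.e1 p b x = e1F (Q.raw p b) (Q.E0 p b) (Q.E2m p b) (Q.E2s p b) x := rfl
      rw [e2, e3]
      linarith
    unfold los dd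
    exact max_le (by linarith) h3
  have h3 := mul_le_mul_of_nonneg_left h2 two.le
  exact (h3.trans (losF_dy H k x)).trans (Q.jB_le hb hp x)

lemma g2_le (hσ : 0 < σ) (z : δ) (x : ℝ) :
    (R.sd σ p b).vm z x + (R.sd σ p b).vs z x + Q.g2 σ p b z x ≤ min (R.hP p b z x) σ := by
  obtain ⟨a, b', bt, gc, F, H⟩ := Q.fam hb hp
  rw [Q.vm_eq hb hp hσ, Q.vs_eq hb hp hσ, Q.hP_eq hb hp]
  exact g2F_le H hσ z x

omit hb hp in
lemma los_ge (x : ℝ) : Q.eL σ p b x ≤ ∑ z, Q.g2 σ p b z x + Q.los σ p b x := by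
  unfold los dd
  have := le_max_left (Q.eL σ p b x - ∑ z, Q.g2 σ p b z x) 0
  linarith

end RowsL

end rows

/-! ### prices of the located births -/

section grp
variable {β δ : Type} [Fintype δ] [DecidableEq δ]

/-- **rates `c` and second order part `X` of the located births `E`** in contents `h` -/
def PokE (s : Gs β) (E c h : β → δ → ℝ → ℝ) (X x : ℝ) : Prop :=
  ∃ (θ τ : δ → ℝ) (Z : Finset δ), (∀ z, 0 < θ z) ∧ (∀ z, 0 < τ z) ∧
    (∀ j z, E (s.L j) z x ≠ 0 → z ∈ Z ∧ 8 * θ z ≤ c (s.L j) z x) ∧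
    ∑ z ∈ Z, 4 / θ z * (τ z * M s.c (fun j => E (s.L j) z x ^ 2) +
      M s.c (fun j => h (s.L j) z x ^ 2) / τ z) ≤ X

lemma PokE.mono {s : Gs β} {E c h : β → δ → ℝ → ℝ} {X Y x : ℝ} (P : PokE s E c h X x)
    (hX : X ≤ Y) : PokE s E c h Y x := by
  obtain ⟨θ, τ, Z, h1, h2, h3, h4⟩ := P
  exact ⟨θ, τ, Z, h1, h2, h3, h4.trans hX⟩

/-- nothing happens at the point -/
lemma PokE.zero {s : Gs β} {E c h : β → δ → ℝ → ℝ} {X x : ℝ}
    (h0 : ∀ j z, E (s.L j) z x = 0) (hX : 0 ≤ X) : PokE s E c h X x :=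
  ⟨fun _ => 1, fun _ => 1, ∅, fun _ => one_pos, fun _ => one_pos,
    fun j z h => absurd (h0 j z) h, by simpa using hX⟩

/-- **price of located births at a point** : rates `c`, second order part `X` -/
def PrE (s : Gs β) (E c h : β → δ → ℝ → ℝ) (X x : ℝ) : Prop :=
  ∀ σ : ℝ, 0 < σ → ∀ g : β → δ → ℝ → ℝ, (∀ j z, 0 ≤ g (s.L j) z x) →
    (∀ j z, g (s.L j) z x ≤ E (s.L j) z x) →
    (∀ j z, g (s.L j) z x ≤ min (h (s.L j) z x) σ) →
    PM7 σ s.c s.W (fun z j => min (h (s.L j) z x) σ) ≤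
      PM7 σ s.c s.W (fun z j => min (h (s.L j) z x) σ - g (s.L j) z x) +
      (σ * su s (fun b x => ∑ z, c b z x * E b z x) x + X)

/-- **the price of the located births** -/
theorem PokE.price {s : Gs β} {E c h : β → δ → ℝ → ℝ} {X x : ℝ} (P : PokE s E c h X x)
    (H : TC s.c s.W) (h0 : ∀ j z, 0 ≤ h (s.L j) z x) (hc : ∀ j z, 0 ≤ c (s.L j) z x) :
    PrE s E c h X x := by
  intro σ hσ g g0 gE gh
  obtain ⟨θ, τ, Z, h1, h2, h3, h4⟩ := P
  have k := PM7_L2z H hσ (f := fun z j => min (h (s.L j) z x) σ - g (s.L j) z x)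
    (g := fun z j => g (s.L j) z x) (fun z j => sub_nonneg.2 (gh j z)) (fun z j => g0 j z) h1
  have e1 : (fun (z : δ) (j : s.J) => (min (h (s.L j) z x) σ - g (s.L j) z x) + g (s.L j) z x) =
      fun z j => min (h (s.L j) z x) σ := funext fun z => funext fun j => by ring
  have e2 : ∀ z : δ, (fun j : s.J => (min (h (s.L j) z x) σ - g (s.L j) z x) + g (s.L j) z x) =
      fun j => min (h (s.L j) z x) σ := fun z => funext fun j => by ring
  rw [e1] at k
  simp only [e2] at k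
  refine k.trans (add_le_add le_rfl ?_)
  rw [Finset.sum_add_distrib, mul_add]
  refine add_le_add ?_ (le_trans ?_ h4)
  · -- linear part
    have a1 : 8 * ∑ z, θ z * σ * M s.c (fun j => g (s.L j) z x) =
        σ * M s.c fun j => ∑ z, 8 * θ z * g (s.L j) z x := by
      have a2 : (M s.c fun j => ∑ z, 8 * θ z * g (s.L j) z x) =
          ∑ z, 8 * θ z * M s.c fun j => g (s.L j) z x := by
        unfold M
        rw [← Finset.sum_congr rfl fun j _ => (Finset.mul_sum _ _ _).symm, Finset.sum_comm]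
        refine Finset.sum_congr rfl fun z _ => ?_
        rw [Finset.mul_sum]
        exact Finset.sum_congr rfl fun j _ => by ring
      rw [a2, Finset.mul_sum, Finset.mul_sum]
      exact Finset.sum_congr rfl fun z _ => by ring
    rw [a1]
    refine mul_le_mul_of_nonneg_left (M_mono H.c0 fun j => ?_) hσ.le
    refine Finset.sum_le_sum fun z _ => ?_
    by_cases hz : E (s.L j) z x = 0
    · have h5 := g0 j z
      have h6 := gE j z
      rw [hz] at h6
      have h7 : g (s.L j) z x = 0 := le_antisymm h6 h5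
      rw [h7, hz]
      simp
    · obtain ⟨_, h5⟩ := h3 j z hz
      exact mul_le_mul h5 (gE j z) (g0 j z) (hc j z)
  · -- second order part
    rw [Finset.mul_sum]
    have a1 : ∑ z, 8 * (KK s.c (fun j => g (s.L j) z x) (fun j => min (h (s.L j) z x) σ) / θ z) =
        ∑ z ∈ Z, 8 * (KK s.c (fun j => g (s.L j) z x) (fun j => min (h (s.L j) z x) σ) / θ z) := by
      symm
      refine Finset.sum_subset (Finset.subset_univ Z) fun z _ hz => ?_
      have e0 : (fun j => g (s.L j) z x) = fun _ => 0 := funext fun j => by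
        by_contra hne
        have h5 : E (s.L j) z x ≠ 0 := fun h6 => hne (le_antisymm (h6 ▸ gE j z) (g0 j z))
        exact hz (h3 j z h5).1
      have e3 : nn s.c (fun j => g (s.L j) z x) = 0 := by
        rw [e0]
        unfold nn
        simp [M]
      unfold KK
      rw [e3]
      simp
    rw [a1]
    refine Finset.sum_le_sum fun z _ => ?_
    have b1 := KK_mono H.c0 (x := fun j => g (s.L j) z x) (x' := fun j => E (s.L j) z x)
      (z := fun j => min (h (s.L j) z x) σ) (z' := fun j => h (s.L j) z x) (fun j => g0 j z)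
      (fun j => le_min (h0 j z) hσ.le) (fun j => gE j z) fun j => min_le_left _ _
    have b2 := KK_le H.c0 (fun j => E (s.L j) z x) (fun j => h (s.L j) z x) (h2 z)
    have b3 : KK s.c (fun j => g (s.L j) z x) (fun j => min (h (s.L j) z x) σ) / θ z ≤
        (τ z * M s.c (fun j => E (s.L j) z x ^ 2) + M s.c (fun j => h (s.L j) z x ^ 2) / τ z) / 2 /
          θ z := div_le_div_of_nonneg_right (b1.trans b2) (h1 z).le
    calc 8 * (KK s.c (fun j => g (s.L j) z x) (fun j => min (h (s.L j) z x) σ) / θ z)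
        ≤ 8 * ((τ z * M s.c (fun j => E (s.L j) z x ^ 2) +
          M s.c (fun j => h (s.L j) z x ^ 2) / τ z) / 2 / θ z) := by linarith
      _ = 4 / θ z * (τ z * M s.c (fun j => E (s.L j) z x ^ 2) +
          M s.c (fun j => h (s.L j) z x ^ 2) / τ z) := by
        have := (h1 z).ne'
        have := (h2 z).ne'
        field_simp
        ring

/-! ### the group data -/

variable {R : RXm β δ} {U : RBm R}

/-- **rates and second order parts of the located births** -/
structure LPr (D : RGx U) (Q : RowsL R) where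
  cE : ℕ → β → δ → ℝ → ℝ
  pcE : ∀ {p b}, R.ok p b → p ≠ 0 → ∀ z, PB (cE p b z)
  xE : ℕ → Gs β → ℝ → ℝ
  pxE : ∀ {p s}, D.ok p s → p ≠ 0 → PB (xE p s)
  hE : ∀ {p s}, D.ok p s → p ≠ 0 → ∀ x, PrE s (Q.E2 p) (cE p) (R.hP p) (xE p s x) x

namespace LPr
variable {D : RGx U} {Q : RowsL R} (L : LPr D Q)

/-- charge of the located births -/
noncomputable def yE (p : ℕ) (b : β) (x : ℝ) : ℝ := ∑ z, L.cE p b z x * Q.E2 p b z x

lemma PB_yE {p : ℕ} {b : β} (hb : R.ok p b) (hp : p ≠ 0) : PB (L.yE p b) :=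
  PB.sum _ fun z _ => (L.pcE hb hp z).mul (Q.pE2 hb hp z)

/-- **the births in the `L²` form** -/
noncomputable def bl : BL D where
  eL := Q.eL
  g2 := Q.g2
  los := Q.los
  qp := fun σ p s x => σ * su s (L.yE p) x + L.xE p s x
  peL := fun hσ hb hp => Q.peL hb hp hσ
  pg2 := fun hσ hb hp z => Q.pg2 hb hp hσ z
  plos := fun hσ hb hp => Q.plos hb hp hσ
  pqp := fun hσ hs hp => ((PB_su (D.gk hs).1 fun j => L.PB_yE ((D.gk hs).2 j) hp).smul hσ.le).add
    (L.pxE hs hp)
  eLe := fun hσ hb hp x => Q.eL_le hb hp hσ x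
  g2le := fun hσ hb hp z x => Q.g2_le hb hp hσ z x
  lose := fun hσ hb hp x => Q.los_ge x
  price := fun {σ p s} hσ hs hp x => by
    have g := D.gk hs
    refine (L.hE hs hp x) σ hσ (Q.g2 σ p)
      (fun j z => Q.g2_nonneg (g.2 j) hp hσ z x) (fun j z => Q.g2_E2 (g.2 j) hp hσ z x)
      (fun j z => ?_)
    have h1 := Q.g2_le (g.2 j) hp hσ z x
    obtain ⟨a, b', bt, gc, F, H⟩ := Q.fam (g.2 j) hp
    have h2 := ((H.row z).tr hσ).pvm.nonneg x
    have h3 := ((H.row ((Q.τ p (s.L j)).symm z)).tr hσ).pvs.nonneg x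
    rw [Q.vm_eq (g.2 j) hp hσ, Q.vs_eq (g.2 j) hp hσ] at h1
    linarith

end LPr

end grp

/-! ### payments over `Prc_49` -/

section main
variable {β δ Λ : Type} [Fintype δ] [DecidableEq δ] [Fintype Λ] {R : RXm β δ} {U : RBm R}
  {P : PMap U Λ} (D : Prc P) {Q : RowsL R} (L : LPr D.rg Q)

/-- **second order parts of the prices and of the located births** -/
noncomputable def secL : GSec D.rg where
  rx := D.sec.rx
  rc := fun p s => Ep p fun x => (D.xB p s x + 14 * su s (prs (P.fl.fB p)) x) +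
    (L.xE p s x + 14 * su s (R.jB p) x)
  prx := D.sec.prx
  prc := fun {p s} hs hp => (((D.pxB hs hp).add ((PB_prs (D.gk hs).1 fun j z z' =>
    P.fl.pB ((D.gk hs).2 j) hp z z').smul (by norm_num))).add ((L.pxE hs hp).add
    ((PB_su (D.gk hs).1 fun j => R.pjB ((D.gk hs).2 j) hp).smul (by norm_num)))).Ep
    (Nat.pos_of_ne_zero hp)

/-- **the payments**, births in the `L²` form -/
theorem payL {Q1 Q2 : BCh (bm R)}
    (hc : ∀ {p b}, R.ok p b → p ≠ 0 → ∀ y,
      Ep p (fun x => 14 * Q.e1 p b x + (L.yE p b x + D.yB p b x)) y ≤ Q1.yc p b y + Q2.yc p b y)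
    (hb : ∀ {p b}, R.ok p b → p ≠ 0 → ∀ x, D.yN p b x ≤ Q1.yx p b x + Q2.yx p b x) :
    BPay3L D.rg L.bl Q1 Q2 (secL D L) where
  hc := fun {k p s} hs hp y => by
    have hp0 : 0 < p := Nat.pos_of_ne_zero hp
    have g := D.gk hs
    have two : (0:ℝ) < 2 ^ k := two_pos' k
    have pw : ∀ x, 14 * (2 ^ k * (R.e0 (2 ^ k) p s x - su s (L.bl.eL (2 ^ k) p) x)) +
        (L.bl.qp (2 ^ k) p s x + 14 * (2 ^ k * su s (L.bl.los (2 ^ k) p) x)) +
        (D.rg.brB (2 ^ k) p s x + 14 * (2 ^ k * D.rg.asB (2 ^ k) p s x)) ≤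
        2 ^ k * su s (fun b x => 14 * Q.e1 p b x + (L.yE p b x + D.yB p b x)) x +
          ((D.xB p s x + 14 * su s (prs (P.fl.fB p)) x) +
            (L.xE p s x + 14 * su s (R.jB p) x)) := fun x => by
      have a1 : D.rg.brB (2 ^ k) p s x = 2 ^ k * su s (D.yB p) x + D.xB p s x := rfl
      have a2 : 2 ^ k * D.rg.asB (2 ^ k) p s x ≤ su s (prs (P.fl.fB p)) x :=
        los_prs g.1 (fun j z z' => P.fl.pB (g.2 j) hp z z') k x
      have a0 : L.bl.qp (2 ^ k) p s x = 2 ^ k * su s (L.yE p) x + L.xE p s x := rfl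
      have a3 : R.e0 (2 ^ k) p s x - su s (L.bl.eL (2 ^ k) p) x ≤ su s (Q.e1 p) x := by
        have b1 : R.e0 (2 ^ k) p s x - su s (L.bl.eL (2 ^ k) p) x =
            M s.c fun j => (R.sd (2 ^ k) p (s.L j)).e x - Q.eL (2 ^ k) p (s.L j) x := by
          rw [M_sub]
          rfl
        rw [b1]
        exact M_mono g.1.c0 fun j => Q.e_sub (g.2 j) hp x
      have a4 := mul_le_mul_of_nonneg_left a3 two.le
      have a6 : 2 ^ k * su s (L.bl.los (2 ^ k) p) x ≤ su s (R.jB p) x := by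
        have b1 : 2 ^ k * su s (L.bl.los (2 ^ k) p) x =
            M s.c fun j => 2 ^ k * Q.los (2 ^ k) p (s.L j) x := by
          rw [M_smul]
          rfl
        rw [b1]
        exact M_mono g.1.c0 fun j => Q.los_le (g.2 j) hp k x
      have a5 : su s (fun b x => 14 * Q.e1 p b x + (L.yE p b x + D.yB p b x)) x =
          14 * su s (Q.e1 p) x + (su s (L.yE p) x + su s (D.yB p) x) := by
        unfold su
        rw [← M_smul, ← M_add, ← M_add]
      rw [a0, a1, a5]
      linarith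
    have e1 : 14 * (2 ^ k * (Ep p (R.e0 (2 ^ k) p s) y - Ep p (su s (L.bl.eL (2 ^ k) p)) y)) +
        (Ep p (L.bl.qp (2 ^ k) p s) y + 14 * (2 ^ k * Ep p (su s (L.bl.los (2 ^ k) p)) y)) +
        (Ep p (D.rg.brB (2 ^ k) p s) y + 14 * (2 ^ k * Ep p (D.rg.asB (2 ^ k) p s) y)) =
        Ep p (fun x => 14 * (2 ^ k * (R.e0 (2 ^ k) p s x - su s (L.bl.eL (2 ^ k) p) x)) +
        (L.bl.qp (2 ^ k) p s x + 14 * (2 ^ k * su s (L.bl.los (2 ^ k) p) x)) +
        (D.rg.brB (2 ^ k) p s x + 14 * (2 ^ k * D.rg.asB (2 ^ k) p s x))) y := by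
      unfold Ep
      simp only [Finset.sum_add_distrib, ← Finset.mul_sum, Finset.sum_sub_distrib]
      ring
    have e2 : Ep p (fun x => 2 ^ k * su s (fun b x => 14 * Q.e1 p b x +
          (L.yE p b x + D.yB p b x)) x + ((D.xB p s x + 14 * su s (prs (P.fl.fB p)) x) +
            (L.xE p s x + 14 * su s (R.jB p) x))) y =
        2 ^ k * (M s.c fun j => Ep p (fun x => 14 * Q.e1 p (s.L j) x +
          (L.yE p (s.L j) x + D.yB p (s.L j) x)) y) + (secL D L).rc p s y := by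
      rw [← Ep_su (f := fun b x => 14 * Q.e1 p b x + (L.yE p b x + D.yB p b x))]
      show _ = _ + Ep p (fun x => (D.xB p s x + 14 * su s (prs (P.fl.fB p)) x) +
            (L.xE p s x + 14 * su s (R.jB p) x)) y
      unfold Ep
      rw [Finset.sum_add_distrib, ← Finset.mul_sum]
      ring
    have e3 : Ep p (fun x => 14 * (2 ^ k * (R.e0 (2 ^ k) p s x - su s (L.bl.eL (2 ^ k) p) x)) +
        (L.bl.qp (2 ^ k) p s x + 14 * (2 ^ k * su s (L.bl.los (2 ^ k) p) x)) +
        (D.rg.brB (2 ^ k) p s x + 14 * (2 ^ k * D.rg.asB (2 ^ k) p s x))) y ≤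
        Ep p (fun x => 2 ^ k * su s (fun b x => 14 * Q.e1 p b x + (L.yE p b x + D.yB p b x)) x +
          ((D.xB p s x + 14 * su s (prs (P.fl.fB p)) x) +
            (L.xE p s x + 14 * su s (R.jB p) x))) y := by
      unfold Ep
      exact div_le_div_of_nonneg_right (Finset.sum_le_sum fun i _ => pw _) (Nat.cast_nonneg p)
    have e4 : (M s.c fun j => Ep p (fun x => 14 * Q.e1 p (s.L j) x +
          (L.yE p (s.L j) x + D.yB p (s.L j) x)) y) ≤
        su s (Q1.yc p) y + su s (Q2.yc p) y := by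
      unfold su
      rw [← M_add]
      exact M_mono g.1.c0 fun j => hc (g.2 j) hp y
    have e5 := mul_le_mul_of_nonneg_left e4 two.le
    rw [e1]
    rw [e2] at e3
    linarith
  hb := fun {k p s} hs hp x => by
    have g := D.gk hs
    have two : (0:ℝ) < 2 ^ k := two_pos' k
    have a1 : D.rg.br (2 ^ k) p s x = 2 ^ k * su s (D.yN p) x + D.xN p s x := rfl
    have a2 : 2 ^ k * D.rg.as (2 ^ k) p s x ≤ su s (prsN P.fl p) x := los_prsN g hp k x
    have a3 : (secL D L).rx p s x = D.xN p s x + 14 * su s (prsN P.fl p) x := rfl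
    have e4 : su s (D.yN p) x ≤ su s (Q1.yx p) x + su s (Q2.yx p) x := by
      unfold su
      rw [← M_add]
      exact M_mono g.1.c0 fun j => hb (g.2 j) hp x
    have e5 := mul_le_mul_of_nonneg_left e4 two.le
    rw [a1, a3]
    linarith

/-- **the walk sum of the second order parts** -/
lemma SgL_eq (n p : ℕ) (s : Gs β) (hs : D.ok p s) : Sg (secL D L) n p s =
    Sg D.sec n p s + Kw (bm R) (fun p s => I (L.xE p s)) n p s +
      14 * Kw (bm R) (fun p s => I (su s (R.jB p))) n p s := by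
  induction n generalizing p s with
  | zero => show (0:ℝ) = 0 + 0 + 14 * 0; norm_num
  | succ n ih =>
    by_cases hp : p = 0
    · subst hp
      simp [Sg, Kw]
    · have hp0 : 0 < p := Nat.pos_of_ne_zero hp
      have g := D.gk hs
      rw [Sg_succ _ n hp, Sg_succ _ n hp, Kw_succ _ _ n hp, Kw_succ _ _ n hp,
        ih p _ (D.okC hs hp), ih (p - 1) _ (D.okN hs hp)]
      have q1 := (PB_prs g.1 fun j z z' => P.fl.pB (g.2 j) hp z z').smul (show (0:ℝ) ≤ 14 by norm_num)
      have q2 := (PB_su g.1 fun j => R.pjB (g.2 j) hp).smul (show (0:ℝ) ≤ 14 by norm_num)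
      have q3 := (D.pxB hs hp).add q1
      have q4 := (L.pxE hs hp).add q2
      have e1 : I ((secL D L).rc p s) = I (D.sec.rc p s) + (I (L.xE p s) +
          14 * I (su s (R.jB p))) := by
        have c1 : I ((secL D L).rc p s) = I (fun x => (D.xB p s x +
            14 * su s (prs (P.fl.fB p)) x) + (L.xE p s x + 14 * su s (R.jB p) x)) :=
          I_Ep hp0 (q3.add q4).integrableOn
        have c2 : I (D.sec.rc p s) = I (fun x => D.xB p s x + 14 * su s (prs (P.fl.fB p)) x) :=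
          I_Ep hp0 q3.integrableOn
        rw [c1, c2, ← I_smul, ← I_add (L.pxE hs hp).integrableOn q2.integrableOn,
          ← I_add q3.integrableOn q4.integrableOn]
      have e0 : (secL D L).rx p s = D.sec.rx p s := rfl
      rw [e0, e1]
      have e3 : (bm R).C p s = R.C p s := rfl
      have e4 : (bm R).N p s = R.N p s := rfl
      rw [e3, e4]
      ring

end main

/-! ### the typed trees -/

section dt
open Crest.Agent.R4P.DTm407 Crest.Agent.R4P.DTn407 Crest.Agent.R4P.DTn407.TD'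
open Crest.Agent.R4P.DTo407
open Crest.Agent.R4P.Walk560 (DT)

variable {μ Λ κ ζ : Type} [Fintype Λ] [DecidableEq Λ] [Fintype κ] [DecidableEq κ]
  [Fintype ζ] [DecidableEq ζ]
variable {wr : ℕ → Λ → κ} {D : TD μ Λ κ ζ} {Inv : ℕ → μ × List (DT Λ κ) → Prop} {p : ℕ}
  {b : μ × List (DT Λ κ)}

/-- located births of the main part -/
noncomputable def E0D (D : TD μ Λ κ ζ) (wr : ℕ → Λ → κ) (p : ℕ) (b : μ × List (DT Λ κ)) (z : ζ) :
    ℝ → ℝ :=
  E0G p (mrk D p b z) (D.h p (D.cP p b) z) (D.gc wr p b z) (fNu D wr p b z) (fB1 D wr p b z)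
    (fde D wr p b z) (fm D wr p b z)

/-- **all the births of the rows of the typed trees in the `L²` form** -/
noncomputable def rowsL (H : TYp wr D Inv) : RowsL (rxm H) where
  raw := raw D wr
  τ := fun p b => frP (H.frF p b.1) (H.inj p b.1)
  hm := fun p b => hm D wr p b
  hs := fun p b => hs D wr p b
  E0 := E0D D wr
  E2m := fun p b z x => E0D D wr p b z x + gm D wr p b z x
  E2s := fun p b z => gs D wr p b z
  fam := fun hb hp => ⟨_, _, _, _, _, fam H hb hp⟩
  rl := fun hb hp σ hσ z => RL_GMU (gmu H hb hp z) hσ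
  vm_eq := fun hb hp σ hσ z x => rfl
  vs_eq := fun hb hp σ hσ z x => rfl
  e_eq := fun hb hp σ hσ x => rfl
  hP_eq := fun {p b} hb hp z x => (hPP_eq H hb hp z x).symm
  jB_le := fun hb hp x => le_rfl
  pE0 := fun hb hp z => PB_E0G (gmu H hb hp z)
  pEm := fun hb hp z => (PB_E0G (gmu H hb hp z)).add (Pgm H hb hp z)
  pEs := fun hb hp z => Pgs H hb hp z
  Em := fun {p b} hb hp z x => by
    have h : (raw D wr p b z).gm x = gm D wr p b z x := gm_eq x
    rw [h]
  Es := fun {p b} hb hp z x => by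
    have h : (raw D wr p b z).gs x = gs D wr p b z x := gs_eq x
    rw [h]

/-- the located births of a type of the rows -/
lemma E2_low (H : TYp wr D Inv) {z : ζ} (hz : ¬ D.F p b.1 z) (hb : Inv p b) (hp : p ≠ 0) (x : ℝ) :
    (rowsL H).E2 p b z x = E0D D wr p b z x + gm D wr p b z x +
      gs D wr p b (D.fr p b.1 z) x := by
  show _ + gs D wr p b ((frP (H.frF p b.1) (H.inj p b.1)).symm z) x = _
  rw [frP_symm, frP_low (H.frF p b.1) (H.inj p b.1) hz]
  rfl

/-- **the total of the located births is the error of the rows** -/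
theorem sum_E2 (H : TYp wr D Inv) (hb : Inv p b) (hp : p ≠ 0) (x : ℝ) :
    ∑ z, (rowsL H).E2 p b z x = eA (raw D wr p b) x := by
  have e1 : ∑ z, (rowsL H).E2 p b z x =
      ∑ z, (E0D D wr p b z x + gm D wr p b z x + gs D wr p b z x) := by
    have h1 : ∀ z, (rowsL H).E2 p b z x = (E0D D wr p b z x + gm D wr p b z x) +
      gs D wr p b ((frP (H.frF p b.1) (H.inj p b.1)).symm z) x := fun z => rfl
    have h2 : ∑ z, gs D wr p b ((frP (H.frF p b.1) (H.inj p b.1)).symm z) x =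
        ∑ z, gs D wr p b z x :=
      Equiv.sum_comp (frP (H.frF p b.1) (H.inj p b.1)).symm fun z => gs D wr p b z x
    rw [Finset.sum_congr rfl fun z _ => h1 z, Finset.sum_add_distrib, h2,
      ← Finset.sum_add_distrib]
  have e2 := gain_loss (fam H hb hp) x
  have e3 : ∀ z, (raw D wr p b z).gm x = gm D wr p b z x := fun z => gm_eq x
  have e4 : ∀ z, (raw D wr p b z).gs x = gs D wr p b z x := fun z => gs_eq x
  simp only [e3, e4] at e2
  have e5 : ∀ z, (raw D wr p b z).er x = E0D D wr p b z x +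
      ((raw D wr p b z).lm x + (raw D wr p b z).lS x) := by
    intro z
    have l1 : (raw D wr p b z).lm x = lm D wr p b z x := by
      by_cases h : mrk D p b z (p * x)
      · simp only [raw, mkMU, TRaw.glue, mkM, cho, h, if_true]
      · simp only [raw, mkMU, TRaw.glue, mkU, cho, h, if_false]
    have l2 : (raw D wr p b z).lS x = lS D wr p b z x := by
      by_cases h : mrk D p b z (p * x)
      · simp only [raw, mkMU, TRaw.glue, mkM, cho, h, if_true]
      · simp only [raw, mkMU, TRaw.glue, mkU, cho, h, if_false]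
    rw [l1, l2]
    by_cases h : mrk D p b z (p * x)
    · have h1 : (raw D wr p b z).er x = _ := er_on h
      have h2 : E0D D wr p b z x = _ := E0G_on h
      rw [h1, h2]
      ring
    · have h1 : (raw D wr p b z).er x = _ := er_off h
      have h2 : E0D D wr p b z x = _ := E0G_off h
      have hS : ¬ D.spc p b z x := fun h' => h (spc_mrk hp h')
      have h3 : lS D wr p b z x = 0 := by
        unfold lS
        refine Finset.sum_eq_zero fun c _ => ?_
        rw [ch_off fun h' => hS h'.1, ch_off fun h' => hS h'.1, add_zero]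
      rw [h1, h2, h3]
      ring
  have e6 : eA (raw D wr p b) x = ∑ z, (raw D wr p b z).er x := rfl
  rw [e1, e6, Finset.sum_congr rfl fun z _ => e5 z, Finset.sum_add_distrib (f := fun z =>
    E0D D wr p b z x), e2]
  rw [Finset.sum_congr rfl fun z _ => add_assoc (E0D D wr p b z x) (gm D wr p b z x)
    (gs D wr p b z x), Finset.sum_add_distrib (f := fun z => E0D D wr p b z x)]

/-- no linear rest -/
lemma e1_zero (H : TYp wr D Inv) (x : ℝ) : (rowsL H).e1 p b x = 0 := by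
  show ∑ z, ((E0D D wr p b z x + (raw D wr p b z).gm x - (E0D D wr p b z x + gm D wr p b z x)) +
    ((raw D wr p b z).gs x - gs D wr p b z x)) = 0
  refine Finset.sum_eq_zero fun z _ => ?_
  have e3 : (raw D wr p b z).gm x = gm D wr p b z x := gm_eq x
  have e4 : (raw D wr p b z).gs x = gs D wr p b z x := gs_eq x
  rw [e3, e4]
  ring

end dt

end Crest.Agent.R4P.BthS48
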