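import Crest.Agent.R4P.GWe_343

/-!
R4 (S0004) with powers, T3 (heights > 1), helper26: **point-dependent class maps** (measurability and
periodicity layer).

* `MP s` : `s : ℝ → ι` is measurable (into a countable type) and `1`-periodic; closed under everything:
  `const`, `pull`, `map` (ANY function of the data), `prod`, `pi`, `ite`, sheets, supports.
* `hz τ V z x = ∑_{c : τ x c = z} V c x` : contents of the point-dependent classes; `PB_hz`, `sum_hz`,
  additivity, monotony, pull-backs, composition, fibre means.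
* `cfp`, `bcp` : the same for nodes and bundles of decorated trees (`τ : ℝ → Λ → ζ`), with the
  resolution of a bundle at a column.
-/

set_option autoImplicit false
set_option linter.unusedSectionVars false
set_option linter.unusedVariables false
open MeasureTheory Filter Set

namespace Crest.Agent.R4P.DTp26

open Crest.Agent.R4.Tour104 Crest.Agent.R4.Clos758 Crest.Agent.R4.ClosL758
open Crest.Agent.R4P.Grp36 Crest.Agent.R4P.GWa343 Crest.Agent.R4P.GWb343 Crest.Agent.R4P.GWc343
open Crest.Agent.R4P.GMer27 Crest.Agent.R4P.GCol27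
open Crest.Agent.R4P.Walk560 (DT)

/-! ### measurable periodic maps into a discrete type -/

/-- measurable (for the discrete structure) and `1`-periodic -/
structure MP {ι : Type*} (s : ℝ → ι) : Prop where
  meas : ∀ i, MeasurableSet {x | s x = i}
  per : ∀ x, s (x + 1) = s x

section MP
variable {ι ι' ι'' : Type*}

lemma MP.per_nat {s : ℝ → ι} (h : MP s) (n : ℕ) (x : ℝ) : s (x + n) = s x := by
  induction n with
  | zero => simp
  | succ n ih => rw [Nat.cast_succ, ← add_assoc, h.per, ih]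

lemma MP.per_int {s : ℝ → ι} (h : MP s) (n : ℤ) (x : ℝ) : s (x + n) = s x := by
  obtain ⟨m, rfl | rfl⟩ := n.eq_nat_or_neg
  · simpa using h.per_nat m x
  · have e := h.per_nat m (x + ((-(m : ℤ) : ℤ) : ℝ))
    rw [← e]
    congr 1
    push_cast
    ring

lemma MP.fract {s : ℝ → ι} (h : MP s) (x : ℝ) : s (Int.fract x) = s x := by
  have e := h.per_int (⌊x⌋) (Int.fract x)
  rw [Int.fract_add_floor] at e
  exact e.symm

/-- preimages of arbitrary sets are measurable -/
lemma MP.preim [Countable ι] {s : ℝ → ι} (h : MP s) (A : Set ι) : MeasurableSet {x | s x ∈ A} := by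
  have e : {x | s x ∈ A} = ⋃ i ∈ A, {x | s x = i} := by
    ext x
    simp
  rw [e]
  exact MeasurableSet.biUnion (Set.to_countable A) fun i _ => h.meas i

lemma MP.const (i : ι) : MP fun _ : ℝ => i where
  meas := fun j => by
    by_cases h : i = j
    · simp [h]
    · simp [h]
  per := fun _ => rfl

/-- **any function of the data** -/
lemma MP.map [Countable ι] {s : ℝ → ι} (h : MP s) (F : ι → ι') : MP fun x => F (s x) where
  meas := fun j => h.preim {i | F i = j}
  per := fun x => by rw [h.per]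

lemma MP.pull {s : ℝ → ι} (h : MP s) (p : ℕ) : MP fun x => s (p * x) where
  meas := fun j => (measurable_const.mul measurable_id) (h.meas j)
  per := fun x => by rw [mul_add, mul_one, h.per_nat]

/-- translation -/
lemma MP.shift {s : ℝ → ι} (h : MP s) (c : ℝ) : MP fun x => s (x + c) where
  meas := fun j => (measurable_id.add_const c) (h.meas j)
  per := fun x => by rw [show x + 1 + c = x + c + 1 by ring, h.per]

lemma MP.prod {s : ℝ → ι} {t : ℝ → ι'} (h : MP s) (h' : MP t) : MP fun x => (s x, t x) where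
  meas := fun j => by
    have e : {x | (s x, t x) = j} = {x | s x = j.1} ∩ {x | t x = j.2} := by
      ext x
      simp [Prod.ext_iff]
    rw [e]
    exact (h.meas _).inter (h'.meas _)
  per := fun x => by rw [h.per, h'.per]

lemma MP.map2 [Countable ι] [Countable ι'] {s : ℝ → ι} {t : ℝ → ι'} (h : MP s) (h' : MP t)
    (F : ι → ι' → ι'') : MP fun x => F (s x) (t x) :=
  (h.prod h').map fun a => F a.1 a.2

/-- a finite family of measurable periodic maps -/
lemma MP.pi {κ : Type*} [Finite κ] {s : ℝ → κ → ι} (h : ∀ c, MP fun x => s x c) : MP s where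
  meas := fun j => by
    have e : {x | s x = j} = ⋂ c, {x | s x c = j c} := by
      ext x
      simp [funext_iff]
    rw [e]
    exact MeasurableSet.iInter fun c => (h c).meas _
  per := fun x => funext fun c => (h c).per x

lemma MP.apply {κ : Type*} [Finite κ] [Countable ι] {s : ℝ → κ → ι} (h : MP s) (c : κ) :
    MP fun x => s x c := by
  have : Countable (κ → ι) := inferInstance
  exact h.map fun f => f c

open Classical in
lemma MP.ite {P : ℝ → Prop} {s t : ℝ → ι} (mP : MeasurableSet {x | P x})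
    (pP : ∀ x, P (x + 1) ↔ P x) (h : MP s) (h' : MP t) : MP fun x => if P x then s x else t x where
  meas := fun j => by
    have e : {x | (if P x then s x else t x) = j} =
        ({x | P x} ∩ {x | s x = j}) ∪ ({x | P x}ᶜ ∩ {x | t x = j}) := by
      ext x
      by_cases hx : P x <;> simp [hx]
    rw [e]
    exact (mP.inter (h.meas j)).union (mP.compl.inter (h'.meas j))
  per := fun x => by
    by_cases hx : P x
    · rw [if_pos hx, if_pos ((pP x).2 hx), h.per]
    · rw [if_neg hx, if_neg (fun h2 => hx ((pP x).1 h2)), h'.per]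

open Classical in
/-- the indicator of a measurable periodic property -/
lemma MP.dec {P : ℝ → Prop} (mP : MeasurableSet {x | P x}) (pP : ∀ x, P (x + 1) ↔ P x) :
    MP fun x => if P x then true else false := MP.ite mP pP (MP.const _) (MP.const _)

lemma MP.ofProp {P : ℝ → Prop} (mP : MeasurableSet {x | P x}) (pP : ∀ x, P (x + 1) ↔ P x) :
    MP P where
  meas := fun j => by
    by_cases hj : j
    · have e : {x | P x = j} = {x | P x} := by
        ext x
        simp [hj]
      rw [e]; exact mP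
    · have e : {x | P x = j} = {x | P x}ᶜ := by
        ext x
        simp [hj]
      rw [e]; exact mP.compl
  per := fun x => propext (pP x)

lemma MP.prop {P : ℝ → Prop} (h : MP P) : MeasurableSet {x | P x} ∧ ∀ x, P (x + 1) ↔ P x := by
  refine ⟨?_, fun x => by rw [h.per]⟩
  have := h.meas True
  simpa using this

/-- a periodic measurable real function compared with a constant -/
lemma MP.lt_of {f g : ℝ → ℝ} (hf : Measurable f) (hg : Measurable g)
    (pf : ∀ x, f (x + 1) = f x) (pg : ∀ x, g (x + 1) = g x) : MP fun x => f x < g x :=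
  MP.ofProp (measurableSet_lt hf hg) fun x => by rw [pf, pg]

lemma MP.pos {f : ℝ → ℝ} (hf : PB f) : MP fun x => 0 < f x :=
  MP.lt_of measurable_const hf.meas (fun _ => rfl) hf.per

lemma MP.ne {f : ℝ → ℝ} (hf : PB f) : MP fun x => f x ≠ 0 := by
  have e : (fun x => f x ≠ 0) = fun x => 0 < f x := by
    funext x
    exact propext ⟨fun h => lt_of_le_of_ne (hf.nonneg x) (Ne.symm h), fun h => ne_of_gt h⟩
  rw [e]
  exact MP.pos hf

open Classical in
/-- **the support of a finite family** -/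
noncomputable def supp {κ : Type*} [Fintype κ] (V : κ → ℝ → ℝ) (x : ℝ) : Finset κ :=
  Finset.univ.filter fun c => V c x ≠ 0

lemma mem_supp {κ : Type*} [Fintype κ] {V : κ → ℝ → ℝ} {x : ℝ} {c : κ} :
    c ∈ supp V x ↔ V c x ≠ 0 := by
  classical
  simp [supp]

open Classical in
lemma MP.filter {κ : Type*} [Fintype κ] {P : ℝ → κ → Prop} (h : ∀ c, MP fun x => P x c) :
    MP fun x => Finset.univ.filter fun c => P x c := by
  have h1 : MP P := MP.pi h
  have h2 : Countable (κ → Prop) := by
    have : Finite (κ → Prop) := inferInstance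
    infer_instance
  exact h1.map fun f => Finset.univ.filter fun c => f c

lemma MP_supp {κ : Type*} [Fintype κ] {V : κ → ℝ → ℝ} (h : ∀ c, PB (V c)) : MP (supp V) := by
  have h1 := MP.filter (P := fun x c => V c x ≠ 0) fun c => MP.ne (h c)
  convert h1 using 1
  funext x
  unfold supp
  ext c
  simp

/-! sheets of `x ↦ p x` -/

/-- the sheet of a point: `x = (fract (p x) + sheet p x) / p` on the circle -/
noncomputable def sheet (p : ℕ) (x : ℝ) : ℤ := ⌊p * Int.fract x⌋

lemma MP_sheet (p : ℕ) : MP (sheet p) where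
  meas := fun j => by
    have hm : Measurable (sheet p) :=
      Int.measurable_floor.comp (measurable_const.mul measurable_fract)
    exact hm (measurableSet_singleton j)
  per := fun x => by
    unfold sheet
    rw [Int.fract_add_one]

lemma sheet_fibre {p : ℕ} (hp : 0 < p) {y : ℝ} (h0 : 0 ≤ y) (h1 : y < 1) {i : ℕ} (hi : i < p) :
    sheet p ((y + i) / p) = i := by
  have hp' : (0 : ℝ) < p := by exact_mod_cast hp
  have hi' : (i : ℝ) + 1 ≤ p := by exact_mod_cast hi
  have i0 : (0 : ℝ) ≤ i := Nat.cast_nonneg i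
  have h2 : 0 ≤ (y + i) / p := by positivity
  have h3 : (y + i) / p < 1 := by
    rw [div_lt_one hp']
    linarith
  unfold sheet
  rw [Int.fract_eq_self.2 ⟨h2, h3⟩, mul_div_cancel₀ _ hp'.ne', Int.floor_eq_iff]
  constructor
  · push_cast
    linarith
  · push_cast
    linarith

end MP

/-! ### contents of point-dependent classes -/

section hz
variable {κ κ' ζ ζ' : Type*} [Fintype κ] [Fintype κ']

open Classical in
/-- content of the point-dependent class `z` -/
noncomputable def hz (τ : ℝ → κ → ζ) (V : κ → ℝ → ℝ) (z : ζ) (x : ℝ) : ℝ :=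
  ∑ c ∈ Finset.univ.filter fun c => τ x c = z, V c x

open Classical in
lemma hz_eq (τ : ℝ → κ → ζ) (V : κ → ℝ → ℝ) (z : ζ) (x : ℝ) :
    hz τ V z x = ∑ c, if τ x c = z then V c x else 0 := by
  unfold hz
  rw [Finset.sum_filter]

lemma hz_nonneg {τ : ℝ → κ → ζ} {V : κ → ℝ → ℝ} {x : ℝ} (h : ∀ c, 0 ≤ V c x) (z : ζ) :
    0 ≤ hz τ V z x := Finset.sum_nonneg fun c _ => h c

lemma hz_mono {τ : ℝ → κ → ζ} {V V' : κ → ℝ → ℝ} {x : ℝ} (h : ∀ c, V c x ≤ V' c x) (z : ζ) :
    hz τ V z x ≤ hz τ V' z x := Finset.sum_le_sum fun c _ => h c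

lemma hz_congr {τ τ' : ℝ → κ → ζ} {V V' : κ → ℝ → ℝ} {x : ℝ} (h : ∀ c, V c x = V' c x)
    (ht : ∀ c, V c x ≠ 0 → τ x c = τ' x c) (z : ζ) : hz τ V z x = hz τ' V' z x := by
  classical
  rw [hz_eq, hz_eq]
  refine Finset.sum_congr rfl fun c _ => ?_
  by_cases hc : V c x = 0
  · rw [← h c, hc]
    simp
  · rw [ht c hc, h c]

lemma hz_add (τ : ℝ → κ → ζ) (V V' : κ → ℝ → ℝ) (z : ζ) (x : ℝ) :
    hz τ (fun c x => V c x + V' c x) z x = hz τ V z x + hz τ V' z x := Finset.sum_add_distrib

lemma hz_sub (τ : ℝ → κ → ζ) (V V' : κ → ℝ → ℝ) (z : ζ) (x : ℝ) :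
    hz τ (fun c x => V c x - V' c x) z x = hz τ V z x - hz τ V' z x :=
  Finset.sum_sub_distrib _ _

lemma hz_smul (τ : ℝ → κ → ζ) (a : ℝ) (V : κ → ℝ → ℝ) (z : ζ) (x : ℝ) :
    hz τ (fun c x => a * V c x) z x = a * hz τ V z x := (Finset.mul_sum _ _ _).symm

lemma hz_zero (τ : ℝ → κ → ζ) (z : ζ) (x : ℝ) : hz τ (fun _ _ => (0 : ℝ)) z x = 0 :=
  Finset.sum_const_zero

lemma sum_hz [Fintype ζ] (τ : ℝ → κ → ζ) (V : κ → ℝ → ℝ) (x : ℝ) :
    ∑ z, hz τ V z x = ∑ c, V c x := by
  classical
  unfold hz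
  exact Finset.sum_fiberwise Finset.univ (τ x) fun c => V c x

/-- every class content is below the sum -/
lemma hz_le_sum {τ : ℝ → κ → ζ} {V : κ → ℝ → ℝ} {x : ℝ} (h : ∀ c, 0 ≤ V c x) (z : ζ) :
    hz τ V z x ≤ ∑ c, V c x := by
  classical
  exact Finset.sum_le_sum_of_subset_of_nonneg (Finset.filter_subset _ _) fun c _ _ => h c

lemma le_hz {τ : ℝ → κ → ζ} {V : κ → ℝ → ℝ} {x : ℝ} (h : ∀ c, 0 ≤ V c x) (c : κ) :
    V c x ≤ hz τ V (τ x c) x := by
  classical
  exact Finset.single_le_sum (f := fun c => V c x) (fun c _ => h c) (by simp)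

/-- **the contents are fine** -/
lemma PB_hz [Countable ζ] {τ : ℝ → κ → ζ} {V : κ → ℝ → ℝ} (hτ : ∀ c, MP fun x => τ x c)
    (hV : ∀ c, PB (V c)) (z : ζ) : PB (hz τ V z) := by
  classical
  have e : hz τ V z = fun x => ∑ c, if τ x c = z then V c x else 0 :=
    funext fun x => hz_eq τ V z x
  rw [e]
  refine PB.sum _ fun c _ => ?_
  obtain ⟨B, hB⟩ := (hV c).bdd
  refine ⟨Measurable.ite ((hτ c).meas z) (hV c).meas measurable_const, fun x => ?_,
    ⟨max B 0, fun x => ?_⟩, fun x => ?_⟩
  · split_ifs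
    · exact (hV c).nonneg x
    · exact le_rfl
  · split_ifs
    · exact (hB x).trans (le_max_left _ _)
    · exact le_max_right _ _
  · have h1 := (hτ c).per x
    simp only [h1, (hV c).per]

/-- measurable periodic, sign-free version -/
lemma meas_hz {τ : ℝ → κ → ζ} {V : κ → ℝ → ℝ} (hτ : ∀ c, MP fun x => τ x c)
    (hV : ∀ c, Measurable (V c)) (z : ζ) : Measurable (hz τ V z) := by
  classical
  have e : hz τ V z = fun x => ∑ c, if τ x c = z then V c x else 0 :=
    funext fun x => hz_eq τ V z x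
  rw [e]
  exact Finset.measurable_sum _ fun c _ => Measurable.ite ((hτ c).meas z) (hV c) measurable_const

/-- pull-back -/
lemma hz_pull (τ : ℝ → κ → ζ) (V : κ → ℝ → ℝ) (p : ℕ) (z : ζ) (x : ℝ) :
    hz (fun x => τ (p * x)) (fun c x => V c (p * x)) z x = hz τ V z (p * x) := rfl

/-- composition with a point-dependent map of classes -/
lemma hz_comp [Fintype ζ] (τ : ℝ → κ → ζ) (σ : ℝ → ζ → ζ') (V : κ → ℝ → ℝ) (z' : ζ') (x : ℝ) :
    hz (fun x c => σ x (τ x c)) V z' x = hz σ (fun z x => hz τ V z x) z' x := by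
  classical
  rw [hz_eq, hz_eq]
  have e : ∀ z, (if σ x z = z' then hz τ V z x else 0) =
      ∑ c, if τ x c = z then (if σ x (τ x c) = z' then V c x else 0) else 0 := by
    intro z
    split_ifs with h
    · rw [hz_eq]
      refine Finset.sum_congr rfl fun c _ => ?_
      by_cases hc : τ x c = z
      · rw [if_pos hc, if_pos hc, hc, if_pos h]
      · rw [if_neg hc, if_neg hc]
    · refine (Finset.sum_eq_zero fun c _ => ?_).symm
      by_cases hc : τ x c = z
      · rw [if_pos hc, hc, if_neg h]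
      · rw [if_neg hc]
  rw [Finset.sum_congr rfl fun z _ => e z, Finset.sum_comm]
  refine Finset.sum_congr rfl fun c _ => ?_
  simp

/-- **fibre means**: the class map is constant on the fibre -/
lemma Ep_hz {p : ℕ} {τ : ℝ → κ → ζ} {V : κ → ℝ → ℝ} {y : ℝ} {k : κ → ζ}
    (h : ∀ i < p, ∀ c, V c ((y + i) / p) ≠ 0 → τ ((y + i) / p) c = k c) (z : ζ) :
    Ep p (hz τ V z) y = hz (fun _ => k) (fun c _ => Ep p (V c) y) z y := by
  classical
  unfold Ep
  rw [hz_eq]
  have e : ∀ i ∈ Finset.range p, hz τ V z ((y + (i : ℝ)) / p) =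
      ∑ c, if k c = z then V c ((y + (i : ℝ)) / p) else 0 := by
    intro i hi
    rw [hz_eq]
    refine Finset.sum_congr rfl fun c _ => ?_
    by_cases hc : V c ((y + (i : ℝ)) / p) = 0
    · rw [hc]; simp
    · rw [h i (Finset.mem_range.1 hi) c hc]
  rw [Finset.sum_congr rfl e, Finset.sum_comm, Finset.sum_div]
  refine Finset.sum_congr rfl fun c _ => ?_
  split_ifs with hc
  · rfl
  · simp

/-- the sum of the class contents over a fibre -/
lemma Ep_sum_hz [Fintype ζ] (p : ℕ) (τ : ℝ → κ → ζ) (V : κ → ℝ → ℝ) (y : ℝ) :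
    ∑ z, Ep p (hz τ V z) y = ∑ c, Ep p (V c) y := by
  unfold Ep
  rw [← Finset.sum_div, ← Finset.sum_div, Finset.sum_comm]
  congr 1
  rw [Finset.sum_comm (s := (Finset.univ : Finset κ))]
  exact Finset.sum_congr rfl fun i _ => sum_hz τ V _

end hz

/-! ### nodes and bundles -/

section tree
variable {Λ κ : Type} [Fintype Λ] [DecidableEq Λ] [Fintype κ] [DecidableEq κ]
  {ζ : Type} [Fintype ζ] [DecidableEq ζ]

/-- content of a point-dependent class in a node -/
noncomputable def cfp (τ : ℝ → Λ → ζ) (t : DT Λ κ) (z : ζ) (x : ℝ) : ℝ := GWb343.cf (τ x) t z x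

/-- content of a point-dependent class in a bundle -/
noncomputable def bcp (τ : ℝ → Λ → ζ) (L : List (DT Λ κ)) (z : ζ) (x : ℝ) : ℝ := bc (τ x) L z x

/-- total content of an item in a bundle -/
noncomputable def jv (L : List (DT Λ κ)) (j : Λ) (x : ℝ) : ℝ := (L.map fun t => t.g.val j x).sum

@[simp] lemma jv_nil (j : Λ) (x : ℝ) : jv ([] : List (DT Λ κ)) j x = 0 := rfl
lemma jv_cons (t : DT Λ κ) (L : List (DT Λ κ)) (j : Λ) (x : ℝ) :
    jv (t :: L) j x = t.g.val j x + jv L j x := by simp [jv]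
lemma jv_append (L K : List (DT Λ κ)) (j : Λ) (x : ℝ) : jv (L ++ K) j x = jv L j x + jv K j x := by
  simp [jv]

lemma PB_jv {L : List (DT Λ κ)} (h : PBL L) (j : Λ) : PB (jv L j) := by
  induction L with
  | nil =>
    have e : jv ([] : List (DT Λ κ)) j = fun _ => 0 := rfl
    rw [e]; exact PB.const le_rfl
  | cons t L ih =>
    have e : jv (t :: L) j = fun x => t.g.val j x + jv L j x := funext fun x => jv_cons t L j x
    rw [e]
    exact (h t (by simp) j).add (ih fun s hs => h s (List.mem_cons_of_mem _ hs))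

/-- a bundle content is a class content of the totals of the items -/
lemma bcp_eq (τ : ℝ → Λ → ζ) (L : List (DT Λ κ)) (z : ζ) (x : ℝ) : bcp τ L z x = hz τ (jv L) z x := by
  classical
  rw [hz_eq]
  unfold bcp
  induction L with
  | nil => simp
  | cons t L ih =>
    rw [bc_cons, ih]
    unfold GWb343.cf sm
    rw [Finset.sum_filter, ← Finset.sum_add_distrib]
    refine Finset.sum_congr rfl fun j _ => ?_
    rw [jv_cons]
    split_ifs <;> ring

lemma cfp_eq (τ : ℝ → Λ → ζ) (t : DT Λ κ) (z : ζ) (x : ℝ) : cfp τ t z x = hz τ t.g.val z x := by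
  classical
  rw [hz_eq]
  unfold cfp GWb343.cf sm
  rw [Finset.sum_filter]
  exact Finset.sum_congr rfl fun c _ => by split_ifs <;> rfl

lemma PB_bcp {τ : ℝ → Λ → ζ} (hτ : ∀ j, MP fun x => τ x j) {L : List (DT Λ κ)} (h : PBL L) (z : ζ) :
    PB (bcp τ L z) := by
  have e : bcp τ L z = hz τ (jv L) z := funext fun x => bcp_eq τ L z x
  rw [e]
  exact PB_hz hτ (fun j => PB_jv h j) z

lemma PB_cfp {τ : ℝ → Λ → ζ} (hτ : ∀ j, MP fun x => τ x j) {t : DT Λ κ}
    (h : ∀ j, PB (t.g.val j)) (z : ζ) : PB (cfp τ t z) := by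
  have e : cfp τ t z = hz τ t.g.val z := funext fun x => cfp_eq τ t z x
  rw [e]
  exact PB_hz hτ h z

lemma bcp_split (τ : ℝ → Λ → ζ) (p : ℕ) (L : List (DT Λ κ)) (z : ζ) (x : ℝ) :
    bcp τ L z x = bcp τ (bB p L) z x + bcp τ (bR p L) z x := bc_split (τ x) p L z x

lemma bcp_split3 (τ : ℝ → Λ → ζ) (p : ℕ) (L : List (DT Λ κ)) (z : ζ) (x : ℝ) :
    bcp τ L z x = bcp τ (bL p L) z x + bcp τ (bB p L) z x + bcp τ (bN p L) z x :=
  bc_split3 (τ x) p L z x

lemma sum_bcp (τ : ℝ → Λ → ζ) (L : List (DT Λ κ)) (x : ℝ) : ∑ z, bcp τ L z x = bt L x :=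
  sum_bc (τ x) L x

lemma sum_jv (L : List (DT Λ κ)) (x : ℝ) : ∑ j, jv L j x = bt L x := by
  rw [← sum_hz (fun _ => (id : Λ → Λ)) (jv L) x, ← sum_bc (id : Λ → Λ) L x]
  exact Finset.sum_congr rfl fun z _ => (bcp_eq (fun _ => id) L z x).symm

/-- support of a bundle -/
noncomputable def bs (L : List (DT Λ κ)) : ℝ → Finset Λ := supp (jv L)

lemma MP_bs {L : List (DT Λ κ)} (h : PBL L) : MP (bs L) := MP_supp fun j => PB_jv h j

end tree

end Crest.Agent.R4P.DTp26
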