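import Crest.Agent.R4P.VR_407
import Crest.Agent.R4P.DTp_26
import Crest.Agent.R4P.TrR_343

/-!
R4 (S0004) with powers, T3, helper407: **the pieces of a bundle of ties and pulls**.

For a bundle `K` (at most one tie, any number of pulls) at the column `p`: `pA K j` (P content of the
tie), `pB K j` (N content of the tie), `pQ K j` (content of the pulls), `pG K j` (lifts of `pB K j`).
* `jv_chP : jv (K.map chP) = pA + pQ`, `jv_chN : jv (K.map chN) = pB + pQ`, `lift_pG`;
* **`jv_K : jv K j x = vF p kd pA pB pG j x + pQ j (p x)`** (explicit form of the contents above);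
* `gb_K : gb K c x = (1 - bef_c) pG_c x`, `bb_K : bb K c y = (1-w) A_c + w min A_c B_c + Q_c`.
-/

set_option autoImplicit false
set_option linter.unusedSectionVars false
set_option linter.unusedVariables false
open MeasureTheory Filter Set

namespace Crest.Agent.R4P.Bp407

open Crest.Agent.R4.Tour104 Crest.Agent.R4.Tour758 Crest.Agent.R4.Avg758 Crest.Agent.R4.Clos758
open Crest.Agent.R4.ClosL758 Crest.Agent.R4.ClosG758 Crest.Agent.R4.ClosR758
open Crest.Agent.R4P.ClosR442 Crest.Agent.R4P.Grp36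
open Crest.Agent.R4P.Xfer36 Crest.Agent.R4P.TopC36 Crest.Agent.R4P.PN36
open Crest.Agent.R4P.GMer27 Crest.Agent.R4P.GCol27 Crest.Agent.R4P.GWa343 Crest.Agent.R4P.GWb343
open Crest.Agent.R4P.GWc343 Crest.Agent.R4P.GWd343 Crest.Agent.R4P.TrR343 Crest.Agent.R4P.DTp26
open Crest.Agent.R4P.VR407
open Crest.Agent.R4P.Walk560 (DT)

variable {Λ κ : Type} [Fintype Λ] [DecidableEq Λ] [Fintype κ] [DecidableEq κ]

/-! ### nodes -/

/-- P content of a tie -/
noncomputable def nA : DT Λ κ → Λ → ℝ → ℝ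
  | .br _ w _ t₁ _ _ _ _ => fun j y => if w = 0 then 0 else t₁.g.val j y
  | _ => fun _ _ => 0

/-- N content of a tie -/
noncomputable def nB : DT Λ κ → Λ → ℝ → ℝ
  | .br _ w _ _ t₀ _ _ _ => fun j y => if w = 0 then 0 else t₀.g.val j y
  | _ => fun _ _ => 0

/-- content of a pull -/
noncomputable def nQ : DT Λ κ → Λ → ℝ → ℝ
  | .br _ w _ t₁ _ _ _ _ => fun j y => if w = 0 then t₁.g.val j y else 0
  | _ => fun _ _ => 0

open Classical in
/-- lifts of the N content -/
noncomputable def nG : DT Λ κ → Λ → ℝ → ℝ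
  | .br p w r t₁ t₀ v _ G => fun j x =>
    if h : w ≠ 0 ∧ VRt p r t₁.g.val t₀.g.val v G then h.2.choose j x else 0
  | _ => fun _ _ => 0

lemma PB_zero : PB fun _ : ℝ => (0 : ℝ) := PB.const le_rfl

lemma PB_nA {t : DT Λ κ} (h : t.All fun t => ∀ j, PB (t.g.val j)) (j : Λ) : PB (nA t j) := by
  cases t with
  | br p w r t₁ t₀ v B G =>
    unfold nA
    by_cases hw : w = 0
    · simp only [if_pos hw]; exact PB_zero
    · simp only [if_neg hw]; exact h.2.1.self j
  | _ => exact PB_zero

lemma PB_nB {t : DT Λ κ} (h : t.All fun t => ∀ j, PB (t.g.val j)) (j : Λ) : PB (nB t j) := by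
  cases t with
  | br p w r t₁ t₀ v B G =>
    unfold nB
    by_cases hw : w = 0
    · simp only [if_pos hw]; exact PB_zero
    · simp only [if_neg hw]; exact h.2.2.self j
  | _ => exact PB_zero

lemma PB_nQ {t : DT Λ κ} (h : t.All fun t => ∀ j, PB (t.g.val j)) (j : Λ) : PB (nQ t j) := by
  cases t with
  | br p w r t₁ t₀ v B G =>
    unfold nQ
    by_cases hw : w = 0
    · simp only [if_pos hw]; exact h.2.1.self j
    · simp only [if_neg hw]; exact PB_zero
  | _ => exact PB_zero

lemma PB_nG (t : DT Λ κ) (j : Λ) : PB (nG t j) := by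
  cases t with
  | br p w r t₁ t₀ v B G =>
    unfold nG
    by_cases h : w ≠ 0 ∧ VRt p r t₁.g.val t₀.g.val v G
    · simp only [dif_pos h]; exact h.2.choose_spec.1 j
    · simp only [dif_neg h]; exact PB_zero
  | _ => exact PB_zero

/-! ### bundles -/

/-- sum over a bundle -/
noncomputable def ls (f : DT Λ κ → Λ → ℝ → ℝ) (K : List (DT Λ κ)) (j : Λ) (x : ℝ) : ℝ :=
  (K.map fun t => f t j x).sum

lemma ls_nil (f : DT Λ κ → Λ → ℝ → ℝ) (j : Λ) (x : ℝ) : ls f ([] : List (DT Λ κ)) j x = 0 := rfl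
lemma ls_cons (f : DT Λ κ → Λ → ℝ → ℝ) (t : DT Λ κ) (K : List (DT Λ κ)) (j : Λ) (x : ℝ) :
    ls f (t :: K) j x = f t j x + ls f K j x := by simp [ls]

lemma PB_ls {f : DT Λ κ → Λ → ℝ → ℝ} {K : List (DT Λ κ)} (h : ∀ t ∈ K, ∀ j, PB (f t j)) (j : Λ) :
    PB (ls f K j) := by
  induction K with
  | nil => exact PB_zero
  | cons t K ih =>
    have e : ls f (t :: K) j = fun x => f t j x + ls f K j x := funext fun x => ls_cons f t K j x
    rw [e]
    exact (h t (by simp) j).add (ih fun s hs => h s (List.mem_cons_of_mem _ hs))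

noncomputable def pA (K : List (DT Λ κ)) : Λ → ℝ → ℝ := ls nA K
noncomputable def pB (K : List (DT Λ κ)) : Λ → ℝ → ℝ := ls nB K
noncomputable def pQ (K : List (DT Λ κ)) : Λ → ℝ → ℝ := ls nQ K
noncomputable def pG (K : List (DT Λ κ)) : Λ → ℝ → ℝ := ls nG K

/-- fine bundles of ties and pulls -/
structure KOk (kd : Λ → κ) (p : ℕ) (K : List (DT Λ κ)) : Prop where
  bk : BOk kd p K
  pb : ∀ t ∈ K, t.All fun t => ∀ j, PB (t.g.val j)
  vr : ∀ t ∈ K, VR t

variable {kd : Λ → κ} {p : ℕ} {K : List (DT Λ κ)}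

lemma KOk.tail {t : DT Λ κ} (h : KOk kd p (t :: K)) : KOk kd p K where
  bk := h.bk.tail
  pb := fun s hs => h.pb s (List.mem_cons_of_mem _ hs)
  vr := fun s hs => h.vr s (List.mem_cons_of_mem _ hs)

lemma KOk.PA (h : KOk kd p K) (j : Λ) : PB (pA K j) := PB_ls (fun t ht j => PB_nA (h.pb t ht) j) j
lemma KOk.PBb (h : KOk kd p K) (j : Λ) : PB (pB K j) := PB_ls (fun t ht j => PB_nB (h.pb t ht) j) j
lemma KOk.PQ (h : KOk kd p K) (j : Λ) : PB (pQ K j) := PB_ls (fun t ht j => PB_nQ (h.pb t ht) j) j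
lemma PB_pG (K : List (DT Λ κ)) (j : Λ) : PB (pG K j) := PB_ls (fun t ht j => PB_nG t j) j

/-- a node of the bundle: tie or pull -/
lemma node (h : KOk kd p K) {t : DT Λ κ} (ht : t ∈ K) :
    (wT t ≠ 0 ∧ 0 < p ∧ (∀ j y, (chP t).g.val j y = nA t j y) ∧
      (∀ j y, (chN t).g.val j y = nB t j y) ∧ (∀ j y, nQ t j y = 0) ∧
      (∀ j, Lift p (nB t j) (nG t j)) ∧ (∀ j x, t.g.val j x = vF p kd (nA t) (nB t) (nG t) j x) ∧
      ∀ c x, Gm t c x = (1 - bef (sm kd (nA t) c (p * x)) (sm kd (nB t) c (p * x))) *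
        sm kd (nG t) c x) ∨
    (wT t = 0 ∧ (∀ j y, (chP t).g.val j y = nQ t j y) ∧ (∀ j y, (chN t).g.val j y = nQ t j y) ∧
      nA t = (fun _ _ => 0) ∧ nB t = (fun _ _ => 0) ∧ nG t = (fun _ _ => 0) ∧
      (∀ j x, t.g.val j x = nQ t j (p * x)) ∧ ∀ c x, Gm t c x = 0) := by
  obtain ⟨w, r, t₁, t₀, v, B, G, e⟩ := isB_eq (h.bk.ok t ht).2
  have hr := h.bk.cl t ht w r t₁ t₀ v B G e
  have hok := (h.bk.ok t ht).1
  have hv := h.vr t ht
  subst e
  subst hr
  have pG' : ∀ c, PB (G c) := fun c => (hok.2.2.2.col c).pG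
  rcases hv with ⟨hw, hp, hv⟩ | ⟨hw, hv, hG⟩
  · have hp' : (0 : ℝ) < p := by exact_mod_cast hp
    have hw0 : w ≠ 0 := by rw [hw]; positivity
    have hc : w ≠ 0 ∧ VRt p r t₁.g.val t₀.g.val v G := ⟨hw0, hv⟩
    have eA : nA (DT.br p w r t₁ t₀ v B G) = t₁.g.val := by
      funext j y; unfold nA; simp only [if_neg hw0]
    have eB : nB (DT.br p w r t₁ t₀ v B G) = t₀.g.val := by
      funext j y; unfold nB; simp only [if_neg hw0]
    have eG : nG (DT.br p w r t₁ t₀ v B G) = hc.2.choose := by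
      funext j y; unfold nG; simp only [dif_pos hc]
    obtain ⟨k1, k2, k3, k4⟩ := hc.2.choose_spec
    refine Or.inl ⟨hw0, hp, fun j y => ?_, fun j y => ?_, fun j y => ?_, ?_, ?_, ?_⟩
    · rw [eA]; rfl
    · rw [eB]
      show (if w = 0 then t₁ else t₀).g.val j y = _
      rw [if_neg hw0]
    · unfold nQ; simp only [if_neg hw0]
    · rw [eB, eG]; exact k2
    · rw [eA, eB, eG]; exact k3
    · rw [eA, eB, eG]
      intro c x
      unfold Gm
      simp only [if_pos pG']
      exact k4 c x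
  · refine Or.inr ⟨hw, fun j y => ?_, fun j y => ?_, ?_, ?_, ?_, fun j x => ?_, fun c x => ?_⟩
    · unfold nQ; simp only [if_pos hw]; rfl
    · unfold nQ; simp only [if_pos hw]
      show (if w = 0 then t₁ else t₀).g.val j y = _
      rw [if_pos hw]
    · funext j y; unfold nA; simp only [if_pos hw]
    · funext j y; unfold nB; simp only [if_pos hw]
    · have hn : ¬ (w ≠ 0 ∧ VRt p r t₁.g.val t₀.g.val v G) := fun h => h.1 hw
      funext j y; unfold nG
      simp only [dif_neg hn]
    · unfold nQ; simp only [if_pos hw]; exact hv j x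
    · unfold Gm; simp only [if_pos pG']; exact hG c x

lemma jv_chP (h : KOk kd p K) (j : Λ) (y : ℝ) : jv (K.map chP) j y = pA K j y + pQ K j y := by
  induction K with
  | nil => simp [pA, pQ, ls]
  | cons t K ih =>
    have e1 : pA (t :: K) j y = nA t j y + pA K j y := ls_cons _ _ _ _ _
    have e2 : pQ (t :: K) j y = nQ t j y + pQ K j y := ls_cons _ _ _ _ _
    rw [List.map_cons, jv_cons, ih h.tail, e1, e2]
    rcases node h (List.mem_cons_self (a := t) (l := K)) with ⟨-, -, h1, -, h2, -⟩ | ⟨-, h1, -, h2, -⟩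
    · rw [h1, h2]; ring
    · rw [h1, h2]; ring

lemma jv_chN (h : KOk kd p K) (j : Λ) (y : ℝ) : jv (K.map chN) j y = pB K j y + pQ K j y := by
  induction K with
  | nil => simp [pB, pQ, ls]
  | cons t K ih =>
    have e1 : pB (t :: K) j y = nB t j y + pB K j y := ls_cons _ _ _ _ _
    have e2 : pQ (t :: K) j y = nQ t j y + pQ K j y := ls_cons _ _ _ _ _
    rw [List.map_cons, jv_cons, ih h.tail, e1, e2]
    rcases node h (List.mem_cons_self (a := t) (l := K)) with ⟨-, -, -, h1, h2, -⟩ |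
      ⟨-, -, h1, -, h2, -⟩
    · rw [h1, h2]; ring
    · rw [h1, h2]; ring

lemma lift_pG (h : KOk kd p K) (j : Λ) : Lift p (pB K j) (pG K j) := by
  induction K with
  | nil => exact lift_zero
  | cons t K ih =>
    have e1 : pB (t :: K) j = fun y => nB t j y + pB K j y := funext fun y => ls_cons _ _ _ _ _
    have e2 : pG (t :: K) j = fun y => nG t j y + pG K j y := funext fun y => ls_cons _ _ _ _ _
    rw [e1, e2]
    refine lift_add ?_ (ih h.tail)
    rcases node h (List.mem_cons_self (a := t) (l := K)) with ⟨-, -, -, -, -, h1, -⟩ |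
      ⟨-, -, -, -, h1, h2, -⟩
    · exact h1 j
    · rw [h1, h2]; exact lift_zero

/-- no tie: only pulls -/
lemma no_tie (h : KOk kd p K) (h0 : (K.filter fun t => decide (wT t ≠ 0)).length = 0) :
    pA K = (fun _ _ => 0) ∧ pB K = (fun _ _ => 0) ∧ pG K = (fun _ _ => 0) ∧
      (∀ j x, jv K j x = pQ K j (p * x)) ∧ ∀ c x, gb K c x = 0 := by
  induction K with
  | nil => exact ⟨rfl, rfl, rfl, fun _ _ => rfl, fun _ _ => rfl⟩
  | cons t K ih =>
    rcases node h (List.mem_cons_self (a := t) (l := K)) with ⟨hw, -⟩ |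
      ⟨hw, -, -, h1, h2, h3, h4, h5⟩
    · rw [List.filter_cons_of_pos (by simpa using hw), List.length_cons] at h0
      omega
    · rw [List.filter_cons_of_neg (by simpa using hw)] at h0
      obtain ⟨i1, i2, i3, i4, i5⟩ := ih h.tail h0
      refine ⟨?_, ?_, ?_, fun j x => ?_, fun c x => ?_⟩
      · funext j y
        have e : pA (t :: K) j y = nA t j y + pA K j y := ls_cons _ _ _ _ _
        rw [e, h1, i1]; ring
      · funext j y
        have e : pB (t :: K) j y = nB t j y + pB K j y := ls_cons _ _ _ _ _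
        rw [e, h2, i2]; ring
      · funext j y
        have e : pG (t :: K) j y = nG t j y + pG K j y := ls_cons _ _ _ _ _
        rw [e, h3, i3]; ring
      · have e : pQ (t :: K) j (p * x) = nQ t j (p * x) + pQ K j (p * x) := ls_cons _ _ _ _ _
        rw [e, jv_cons, h4, i4]
      · have e : gb (t :: K) c x = Gm t c x + gb K c x := by simp [gb]
        rw [e, h5, i5]; ring

lemma vF_zero (p : ℕ) (kd : Λ → κ) (j : Λ) (x : ℝ) :
    vF p kd (fun _ _ => 0) (fun _ _ => 0) (fun _ _ => 0) j x = 0 := by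
  unfold vF sm; simp

/-- **the explicit form of the contents of a bundle** -/
theorem jv_K (h : KOk kd p K) (j : Λ) (x : ℝ) :
    jv K j x = vF p kd (pA K) (pB K) (pG K) j x + pQ K j (p * x) ∧
    ∀ c, gb K c x = (1 - bef (sm kd (pA K) c (p * x)) (sm kd (pB K) c (p * x))) *
        sm kd (pG K) c x := by
  induction K with
  | nil =>
    obtain ⟨h1, h2, h3, h4, h5⟩ := no_tie h rfl
    rw [h1, h2, h3, h4, vF_zero, zero_add]
    refine ⟨rfl, fun c => ?_⟩
    rw [h5]; unfold sm; simp
  | cons t K ih =>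
    rcases node h (List.mem_cons_self (a := t) (l := K)) with ⟨hw, hp, g1, g2, g3, g4, g5, g6⟩ |
      ⟨hw, -, -, h1, h2, h3, h4, h5⟩
    · have hl : (K.filter fun t => decide (wT t ≠ 0)).length = 0 := by
        have := h.bk.one
        rw [List.filter_cons_of_pos (by simpa using hw), List.length_cons] at this
        omega
      obtain ⟨i1, i2, i3, i4, i5⟩ := no_tie h.tail hl
      have e1 : pA (t :: K) = nA t := by
        funext j y
        have e : pA (t :: K) j y = nA t j y + pA K j y := ls_cons _ _ _ _ _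
        rw [e, i1, add_zero]
      have e2 : pB (t :: K) = nB t := by
        funext j y
        have e : pB (t :: K) j y = nB t j y + pB K j y := ls_cons _ _ _ _ _
        rw [e, i2, add_zero]
      have e3 : pG (t :: K) = nG t := by
        funext j y
        have e : pG (t :: K) j y = nG t j y + pG K j y := ls_cons _ _ _ _ _
        rw [e, i3, add_zero]
      have e4 : pQ (t :: K) j (p * x) = pQ K j (p * x) := by
        have e : pQ (t :: K) j (p * x) = nQ t j (p * x) + pQ K j (p * x) := ls_cons _ _ _ _ _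
        rw [e, g3, zero_add]
      rw [e1, e2, e3, e4, jv_cons, g5, i4]
      refine ⟨rfl, fun c => ?_⟩
      have e : gb (t :: K) c x = Gm t c x + gb K c x := by simp [gb]
      rw [e, i5, g6, add_zero]
    · obtain ⟨j1, j2⟩ := ih h.tail
      have e1 : pA (t :: K) = pA K := by
        funext j y
        have e : pA (t :: K) j y = nA t j y + pA K j y := ls_cons _ _ _ _ _
        rw [e, h1, zero_add]
      have e2 : pB (t :: K) = pB K := by
        funext j y
        have e : pB (t :: K) j y = nB t j y + pB K j y := ls_cons _ _ _ _ _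
        rw [e, h2, zero_add]
      have e3 : pG (t :: K) = pG K := by
        funext j y
        have e : pG (t :: K) j y = nG t j y + pG K j y := ls_cons _ _ _ _ _
        rw [e, h3, zero_add]
      have e4 : pQ (t :: K) j (p * x) = nQ t j (p * x) + pQ K j (p * x) := ls_cons _ _ _ _ _
      rw [e1, e2, e3, e4, jv_cons, j1, h4]
      refine ⟨by ring, fun c => ?_⟩
      have e : gb (t :: K) c x = Gm t c x + gb K c x := by simp [gb]
      rw [e, h5, j2, zero_add]

end Crest.Agent.R4P.Bp407
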