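import Crest.Agent.R4P.PVd_45
import Crest.Agent.R4P.Bp_407

/-!
R4 (S0004) with powers, T3, helper45: **charges of bundles over lists of trees, all forms**.

* `add`, `zr`, `sm`, `sumB` : the charges `BCh` of the bundles add up (every line of EVENTS may bring its
  own `BCh`, with its own total rate).
* `LB B lst Inv` : bundles `β` with a list of trees `lst b` (e.g. `b = (memory, list)`); `LB.pv : PV B Λ`.
* `Cr V` : **credits** : charges `r` at the ties and pulls (function of the point `x` above), `e` at the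
  rest, both depend on the bundle, the item and the point; `ρ` = remaining credit; `Cr.bch`.
* `Ep_tru`, `N_le`, `P_le` : P content and N content of the true tie against the content in the true ties.
-/

set_option autoImplicit false
set_option linter.unusedSectionVars false
set_option linter.unusedVariables false
open MeasureTheory Filter Set

namespace Crest.Agent.R4P.PVe45

open Crest.Agent.R4.Tour104 Crest.Agent.R4.Tour758 Crest.Agent.R4.Avg758 Crest.Agent.R4.Clos758
open Crest.Agent.R4.ClosL758 Crest.Agent.R4.ClosG758 Crest.Agent.R4.ClosR758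
open Crest.Agent.R4P.ClosR442 Crest.Agent.R4P.Grp36
open Crest.Agent.R4P.Xfer36 Crest.Agent.R4P.TopC36 Crest.Agent.R4P.PN36
open Crest.Agent.R4P.GMer27 Crest.Agent.R4P.GCol27 Crest.Agent.R4P.GWa343 Crest.Agent.R4P.GWb343
open Crest.Agent.R4P.GWc343 Crest.Agent.R4P.GWd343 Crest.Agent.R4P.GWe343 Crest.Agent.R4P.GWf343
open Crest.Agent.R4P.RSys343 Crest.Agent.R4P.TrR343 Crest.Agent.R4P.MSd343
open Crest.Agent.R4P.ModeS16 (MS)
open Crest.Agent.R4P.MSi343 (su)
open Crest.Agent.R4P.DTp26 (jv jv_nil jv_cons jv_append PB_jv sum_jv)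
open Crest.Agent.R4P.Bp407
open Crest.Agent.R4P.Pay45 Crest.Agent.R4P.PayR45 Crest.Agent.R4P.PVd45
open Crest.Agent.R4P.Walk560 (DT)

/-! ### sums of charges of bundles -/

section alg
variable {β : Type} {B : BM β}

lemma Ep_add' (p : ℕ) (f g : ℝ → ℝ) (y : ℝ) :
    Ep p (fun x => f x + g x) y = Ep p f y + Ep p g y := by
  unfold Ep
  rw [Finset.sum_add_distrib, add_div]

/-- no charges -/
noncomputable def zr (B : BM β) : BCh B where
  Y := fun _ _ _ => 0
  YB := fun _ _ _ => 0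
  yx := fun _ _ _ => 0
  yc := fun _ _ _ => 0
  pY := fun _ => PB.const le_rfl
  pYB := fun _ _ => PB.const le_rfl
  pyx := fun _ _ => PB.const le_rfl
  pyc := fun _ _ => PB.const le_rfl
  spl := fun _ _ _ => by norm_num
  mean := fun {p b} _ _ y => by
    unfold Ep
    simp
  one := fun _ _ => ⟨rfl, le_rfl⟩

/-- charges add up -/
noncomputable def add (P Q : BCh B) : BCh B where
  Y := fun p b x => P.Y p b x + Q.Y p b x
  YB := fun p b x => P.YB p b x + Q.YB p b x
  yx := fun p b x => P.yx p b x + Q.yx p b x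
  yc := fun p b x => P.yc p b x + Q.yc p b x
  pY := fun h => (P.pY h).add (Q.pY h)
  pYB := fun h hp => (P.pYB h hp).add (Q.pYB h hp)
  pyx := fun h hp => (P.pyx h hp).add (Q.pyx h hp)
  pyc := fun h hp => (P.pyc h hp).add (Q.pyc h hp)
  spl := fun h hp x => by
    have a := P.spl h hp x
    have b := Q.spl h hp x
    linarith
  mean := fun {p b} h hp y => by
    have a := P.mean h hp y
    have b' := Q.mean h hp y
    rw [Ep_add']
    linarith
  one := fun h y => by
    have a := P.one h y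
    have b := Q.one h y
    refine ⟨?_, by linarith [a.2, b.2]⟩
    show P.Y 1 _ y + Q.Y 1 _ y = 0
    rw [a.1, b.1, add_zero]

/-- multiples of charges -/
noncomputable def sm {c : ℝ} (hc : 0 ≤ c) (Q : BCh B) : BCh B where
  Y := fun p b x => c * Q.Y p b x
  YB := fun p b x => c * Q.YB p b x
  yx := fun p b x => c * Q.yx p b x
  yc := fun p b x => c * Q.yc p b x
  pY := fun h => (Q.pY h).smul hc
  pYB := fun h hp => (Q.pYB h hp).smul hc
  pyx := fun h hp => (Q.pyx h hp).smul hc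
  pyc := fun h hp => (Q.pyc h hp).smul hc
  spl := fun h hp x => by
    have a := mul_le_mul_of_nonneg_left (Q.spl h hp x) hc
    linarith
  mean := fun {p b} h hp y => by
    have a := mul_le_mul_of_nonneg_left (Q.mean h hp y) hc
    have e : Ep p (fun x => c * Q.YB p b x) y = c * Ep p (Q.YB p b) y := by
      unfold Ep
      rw [← Finset.mul_sum, mul_div_assoc]
    rw [e]
    linarith
  one := fun h y => by
    have a := Q.one h y
    refine ⟨?_, mul_nonneg hc a.2⟩
    show c * Q.Y 1 _ y = 0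
    rw [a.1, mul_zero]

/-- finite sums of charges -/
noncomputable def sumB {ι : Type*} (s : List ι) (Q : ι → BCh B) : BCh B :=
  (s.map Q).foldr add (zr B)

lemma sumB_Y {ι : Type*} (s : List ι) (Q : ι → BCh B) (p : ℕ) (b : β) (x : ℝ) :
    (sumB s Q).Y p b x = (s.map fun i => (Q i).Y p b x).sum := by
  induction s with
  | nil => rfl
  | cons i s ih =>
    show (Q i).Y p b x + (sumB s Q).Y p b x = _
    rw [ih, List.map_cons, List.sum_cons]

lemma sumB_yx {ι : Type*} (s : List ι) (Q : ι → BCh B) (p : ℕ) (b : β) (x : ℝ) :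
    (sumB s Q).yx p b x = (s.map fun i => (Q i).yx p b x).sum := by
  induction s with
  | nil => rfl
  | cons i s ih =>
    show (Q i).yx p b x + (sumB s Q).yx p b x = _
    rw [ih, List.map_cons, List.sum_cons]

lemma sumB_yc {ι : Type*} (s : List ι) (Q : ι → BCh B) (p : ℕ) (b : β) (x : ℝ) :
    (sumB s Q).yc p b x = (s.map fun i => (Q i).yc p b x).sum := by
  induction s with
  | nil => rfl
  | cons i s ih =>
    show (Q i).yc p b x + (sumB s Q).yc p b x = _
    rw [ih, List.map_cons, List.sum_cons]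

end alg

/-! ### credits -/

section cred
variable {β Λ : Type} [Fintype Λ] {B : BM β}

/-- **credits** : the item `j` is charged `r p b j x` (times its content) in the ties and pulls of the
column and `e p b j x` in the rest; `ρ` = remaining credit -/
structure Cr (V : PV B Λ) where
  ρ : ℕ → β → Λ → ℝ → ℝ
  r : ℕ → β → Λ → ℝ → ℝ
  e : ℕ → β → Λ → ℝ → ℝ
  pρ : ∀ {p b}, B.ok p b → ∀ j, PB (ρ p b j)
  pr : ∀ {p b}, B.ok p b → p ≠ 0 → ∀ j, PB (r p b j)
  pe : ∀ {p b}, B.ok p b → p ≠ 0 → ∀ j, PB (e p b j)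
  rest : ∀ {p b}, B.ok p b → p ≠ 0 → ∀ j x, V.v (B.rN p b) j x ≠ 0 →
    e p b j x + ρ (p - 1) (B.rN p b) j x ≤ ρ p b j x
  tie0 : ∀ {p b}, B.ok p b → p ≠ 0 → ∀ j x, V.vB p b j x ≠ 0 → r p b j x ≤ ρ p b j x
  tieP : ∀ {p b}, B.ok p b → p ≠ 0 → ∀ j x, V.vB p b j x ≠ 0 → V.v (B.cP p b) j (p * x) ≠ 0 →
    r p b j x + ρ p (B.cP p b) j (p * x) ≤ ρ p b j x
  tieN : ∀ {p b}, B.ok p b → p ≠ 0 → ∀ j x, V.vB p b j x ≠ 0 → V.v (B.cN p b) j (p * x) ≠ 0 →
    r p b j x + ρ p (B.cN p b) j (p * x) ≤ ρ p b j x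

variable {V : PV B Λ} (Z : Cr V)

lemma PBm {f g : ℝ → ℝ} (hf : PB f) (hg : PB g) : PB fun x => f x * g x := hf.mul hg

/-- the mean, one item -/
lemma Cr.mean1 {p : ℕ} {b : β} (hb : B.ok p b) (hp : p ≠ 0) (j : Λ) (y : ℝ) :
    Ep p (fun x => Z.r p b j x * V.vB p b j x) y +
      ((1 - 1 / (p : ℝ)) * (Z.ρ p (B.cP p b) j y * V.v (B.cP p b) j y) +
        1 / (p : ℝ) * (Z.ρ p (B.cN p b) j y * V.v (B.cN p b) j y)) ≤
      Ep p (fun x => Z.ρ p b j x * V.vB p b j x) y := by
  have hp0 : 0 < p := Nat.pos_of_ne_zero hp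
  have hp' : (0 : ℝ) < p := by exact_mod_cast hp0
  have hp1 : (1 : ℝ) ≤ p := by exact_mod_cast hp0
  have w0 : (0:ℝ) ≤ 1 / p := by positivity
  have w1 : (0:ℝ) ≤ 1 - 1 / p := by
    have : (1:ℝ) / p ≤ 1 := by rw [div_le_one hp']; exact hp1
    linarith
  have hm := V.mean hb hp j y
  have aP := (V.pv (V.okP hb hp) j).nonneg y
  have aN := (V.pv (V.okN hb hp) j).nonneg y
  have rP := (Z.pρ (V.okP hb hp) j).nonneg y
  have rN := (Z.pρ (V.okN hb hp) j).nonneg y
  set vP := V.v (B.cP p b) j y with hvP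
  set vN := V.v (B.cN p b) j y with hvN
  set cP := Z.ρ p (B.cP p b) j y with hcP
  set cN := Z.ρ p (B.cN p b) j y with hcN
  set mm : ℝ := max (if vP = 0 then 0 else cP) (if vN = 0 then 0 else cN) with hmm
  have m0 : 0 ≤ mm := by
    rw [hmm]
    refine le_max_of_le_left ?_
    split_ifs
    · exact le_rfl
    · exact rP
  have h1 : cP * vP ≤ mm * vP := by
    by_cases h : vP = 0
    · rw [h, mul_zero, mul_zero]
    · refine mul_le_mul_of_nonneg_right ?_ aP
      have : (if vP = 0 then 0 else cP) = cP := if_neg h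
      rw [hmm, this]
      exact le_max_left _ _
  have h2 : cN * vN ≤ mm * vN := by
    by_cases h : vN = 0
    · rw [h, mul_zero, mul_zero]
    · refine mul_le_mul_of_nonneg_right ?_ aN
      have : (if vN = 0 then 0 else cN) = cN := if_neg h
      rw [hmm, this]
      exact le_max_right _ _
  -- the points of the fibre
  have h3 : Ep p (fun x => Z.r p b j x * V.vB p b j x) y + mm * Ep p (V.vB p b j) y ≤
      Ep p (fun x => Z.ρ p b j x * V.vB p b j x) y := by
    have e1 : mm * Ep p (V.vB p b j) y = Ep p (fun x => mm * V.vB p b j x) y := by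
      unfold Ep
      rw [← Finset.mul_sum, mul_div_assoc]
    rw [e1, ← Ep_add']
    unfold Ep
    refine div_le_div_of_nonneg_right (Finset.sum_le_sum fun i _ => ?_) hp'.le
    set x : ℝ := (y + (i : ℝ)) / p with hx
    have hpx : (p : ℝ) * x = y + (i : ℝ) := by rw [hx]; field_simp
    have c0 := (V.pvB hb hp j).nonneg x
    show Z.r p b j x * V.vB p b j x + mm * V.vB p b j x ≤ Z.ρ p b j x * V.vB p b j x
    by_cases hv : V.vB p b j x = 0
    · rw [hv]; simp
    have q1 : V.v (B.cP p b) j (p * x) = vP := by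
      rw [hpx, hvP, (V.pv (V.okP hb hp) j).per_nat]
    have q2 : V.v (B.cN p b) j (p * x) = vN := by
      rw [hpx, hvN, (V.pv (V.okN hb hp) j).per_nat]
    have q3 : Z.ρ p (B.cP p b) j (p * x) = cP := by
      rw [hpx, hcP, (Z.pρ (V.okP hb hp) j).per_nat]
    have q4 : Z.ρ p (B.cN p b) j (p * x) = cN := by
      rw [hpx, hcN, (Z.pρ (V.okN hb hp) j).per_nat]
    have t0 := Z.tie0 hb hp j x hv
    have tP := Z.tieP hb hp j x hv
    have tN := Z.tieN hb hp j x hv
    rw [q1, q3] at tP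
    rw [q2, q4] at tN
    have k1 : Z.r p b j x + mm ≤ Z.ρ p b j x := by
      have z1 : Z.r p b j x + (if vP = 0 then 0 else cP) ≤ Z.ρ p b j x := by
        split_ifs with h
        · linarith
        · exact tP h
      have z2 : Z.r p b j x + (if vN = 0 then 0 else cN) ≤ Z.ρ p b j x := by
        split_ifs with h
        · linarith
        · exact tN h
      rw [hmm]
      rcases le_total (if vP = 0 then 0 else cP) (if vN = 0 then 0 else cN) with h | h
      · rw [max_eq_right h]; exact z2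
      · rw [max_eq_left h]; exact z1
    have k2 := mul_le_mul_of_nonneg_right k1 c0
    linarith
  have h4 := mul_le_mul_of_nonneg_left hm m0
  have h5 := mul_le_mul_of_nonneg_left h1 w1
  have h6 := mul_le_mul_of_nonneg_left h2 w0
  nlinarith

/-- **the charges of the credits** -/
noncomputable def Cr.bch : BCh B where
  Y := fun p b x => ∑ j, Z.ρ p b j x * V.v b j x
  YB := fun p b x => ∑ j, Z.ρ p b j x * V.vB p b j x
  yx := fun p b x => ∑ j, Z.e p b j x * V.v (B.rN p b) j x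
  yc := fun p b y => ∑ j, Ep p (fun x => Z.r p b j x * V.vB p b j x) y
  pY := fun hb => PB.sum _ fun j _ => PBm (Z.pρ hb j) (V.pv hb j)
  pYB := fun hb hp => PB.sum _ fun j _ => PBm (Z.pρ hb j) (V.pvB hb hp j)
  pyx := fun hb hp => PB.sum _ fun j _ => PBm (Z.pe hb hp j) (V.pv (V.okR hb hp) j)
  pyc := fun hb hp => PB.sum _ fun j _ =>
    (PBm (Z.pr hb hp j) (V.pvB hb hp j)).Ep (Nat.pos_of_ne_zero hp)
  spl := fun {p b} hb hp x => by
    rw [← Finset.sum_add_distrib, ← Finset.sum_add_distrib]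
    refine Finset.sum_le_sum fun j _ => ?_
    have h1 := V.spl hb hp j x
    have h2 := (V.pv (V.okR hb hp) j).nonneg x
    have h3 := (Z.pρ hb j).nonneg x
    have h4 : (Z.e p b j x + Z.ρ (p - 1) (B.rN p b) j x) * V.v (B.rN p b) j x ≤
        Z.ρ p b j x * V.v (B.rN p b) j x := by
      by_cases h : V.v (B.rN p b) j x = 0
      · rw [h, mul_zero, mul_zero]
      · exact mul_le_mul_of_nonneg_right (Z.rest hb hp j x h) h2
    have h5 := mul_le_mul_of_nonneg_left h1 h3
    nlinarith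
  mean := fun {p b} hb hp y => by
    rw [PayR45.Ep_sum', Finset.mul_sum, Finset.mul_sum, ← Finset.sum_add_distrib,
      ← Finset.sum_add_distrib]
    exact Finset.sum_le_sum fun j _ => Z.mean1 hb hp j y
  one := fun {b} hb y => by
    constructor
    · refine Finset.sum_eq_zero fun j _ => ?_
      rw [V.one hb j y, mul_zero]
    · exact Finset.sum_nonneg fun j _ => mul_nonneg ((Z.pρ (V.okN hb one_ne_zero) j).nonneg y)
        ((V.pv (V.okN hb one_ne_zero) j).nonneg y)

/-- total charges at most `J` -/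
lemma Cr.Y_le {J : ℝ} {tt : β → ℝ → ℝ} {p : ℕ} {b : β} (hb : B.ok p b)
    (hJ : ∀ j x, V.v b j x ≠ 0 → Z.ρ p b j x ≤ J) (hJ0 : 0 ≤ J)
    (hv : ∀ x, ∑ j, V.v b j x ≤ tt b x) (x : ℝ) : Z.bch.Y p b x ≤ J * tt b x := by
  show ∑ j, Z.ρ p b j x * V.v b j x ≤ _
  refine le_trans (Finset.sum_le_sum (g := fun j => J * V.v b j x) fun j _ => ?_) ?_
  · by_cases h : V.v b j x = 0
    · rw [h, mul_zero, mul_zero]
    · exact mul_le_mul_of_nonneg_right (hJ j x h) ((V.pv hb j).nonneg x)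
  · rw [← Finset.mul_sum]
    exact mul_le_mul_of_nonneg_left (hv x) hJ0

end cred

/-- total charges of the rates at most `J` -/
lemma rates_Y_le {β Λ : Type} [Fintype Λ] {B : BM β} (R : Rates Λ) (V : PV B Λ) {J : ℝ}
    (hJ : 0 ≤ J) {tt : β → ℝ → ℝ} {p : ℕ} {b : β} (hb : B.ok p b)
    (hv : ∀ x, ∑ j, V.v b j x ≤ tt b x)
    (hR : ∀ j, ∑ q ∈ Finset.range (p + 1), (R.r q j * V.Lv q j + R.e q j) ≤ J) (x : ℝ) :
    (R.bch V).Y p b x ≤ J * tt b x := by
  show ∑ j, ((R.bel V p j + R.e p j) * V.v b j x + R.r p j * V.u p b j x) ≤ _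
  have h1 : ∑ j, ((R.bel V p j + R.e p j) * V.v b j x + R.r p j * V.u p b j x) ≤
      ∑ j, J * V.v b j x := by
    refine Finset.sum_le_sum fun j _ => ?_
    have a1 := mul_le_mul_of_nonneg_left (V.uv hb j x) (R.r0 p j)
    have a2 := hR j
    have a3 : R.bel V p j + (R.r p j * V.Lv p j + R.e p j) ≤ J := by
      have := R.bel_succ V p j
      unfold Rates.rt at this
      rw [← this]; exact a2
    have a4 := mul_le_mul_of_nonneg_right a3 ((V.pv hb j).nonneg x)
    linarith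
  refine h1.trans ?_
  rw [← Finset.mul_sum]
  exact mul_le_mul_of_nonneg_left (hv x) hJ

/-! ### bundles with a list of trees -/

section lst
variable {Λ κ : Type} [Fintype Λ] [DecidableEq Λ] [Fintype κ] [DecidableEq κ] {β : Type}

/-- **bundles over lists of trees** -/
structure LB (B : BM β) (lst : β → List (DT Λ κ)) (Inv : ℕ → List (DT Λ κ) → Prop) : Prop where
  P : ∀ {p b}, B.ok p b → p ≠ 0 → lst (B.cP p b) = (bB p (lst b)).map chP
  N : ∀ {p b}, B.ok p b → p ≠ 0 → lst (B.cN p b) = (bB p (lst b)).map chN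
  R : ∀ {p b}, B.ok p b → p ≠ 0 → lst (B.rN p b) = bN p (lst b)
  inv : ∀ {p b}, B.ok p b → Inv p (lst b)
  okP : ∀ {p b}, B.ok p b → p ≠ 0 → B.ok p (B.cP p b)
  okN : ∀ {p b}, B.ok p b → p ≠ 0 → B.ok p (B.cN p b)
  okR : ∀ {p b}, B.ok p b → p ≠ 0 → B.ok (p - 1) (B.rN p b)

variable {B : BM β} {lst : β → List (DT Λ κ)} {Inv : ℕ → List (DT Λ κ) → Prop}

/-- **the contents of the items** -/
noncomputable def LB.pv (L : LB B lst Inv) (H : DI Inv) : PV B Λ where
  v := fun b => jv (lst b)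
  vB := fun p b => jv (bB p (lst b))
  u := fun p b => jv (act p (lst b))
  uB := fun p b => jv (bB p (lst b))
  vT := fun p b => jv (tru (bB p (lst b)))
  Lv := fun _ _ => 1
  pv := fun h j => H.pv.pv (L.inv h) j
  pvB := fun h hp j => H.pv.pvB (L.inv h) hp j
  pu := fun h j => H.pv.pu (L.inv h) j
  puB := fun h hp j => H.pv.puB (L.inv h) hp j
  pvT := fun h hp j => H.pv.pvT (L.inv h) hp j
  spl := fun {p b} h hp j x => by
    rw [L.R h hp]
    exact H.pv.spl (L.inv h) hp j x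
  splU := fun h hp j x => H.pv.splU (L.inv h) hp j x
  uv := fun h j x => H.pv.uv (L.inv h) j x
  mean := fun {p b} h hp j y => by
    rw [L.P h hp, L.N h hp]
    exact H.pv.mean (L.inv h) hp j y
  meanU := fun {p b} h hp j y => by
    rw [L.P h hp, L.N h hp]
    exact H.pv.meanU (L.inv h) hp j y
  okP := L.okP
  okN := L.okN
  okR := L.okR
  one := fun {b} h j y => by
    rw [L.P h one_ne_zero]
    exact H.pv.one (L.inv h) j y

lemma LB.sum_v (L : LB B lst Inv) (H : DI Inv) (b : β) (x : ℝ) :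
    ∑ j, (L.pv H).v b j x = bt (lst b) x := sum_jv (lst b) x

/-- **charges by the rates of the items, bundles over lists** -/
lemma LB.rates_Y_le (L : LB B lst Inv) (H : DI Inv) (R : Rates Λ) {J : ℝ} (hJ : 0 ≤ J) {p : ℕ}
    {b : β} (hb : B.ok p b) (hR : ∀ j, ∑ q ∈ Finset.range (p + 1), (R.r q j + R.e q j) ≤ J)
    (x : ℝ) : (R.bch (L.pv H)).Y p b x ≤ J * bt (lst b) x := by
  refine PVe45.rates_Y_le R (L.pv H) hJ (tt := fun b => bt (lst b)) hb
    (fun x => (L.sum_v H b x).le) (fun j => ?_) x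
  refine le_trans (le_of_eq ?_) (hR j)
  refine Finset.sum_congr rfl fun q _ => ?_
  show R.r q j * ((1 : ℕ) : ℝ) + R.e q j = _
  rw [Nat.cast_one, mul_one]

/-- **the credits of the items, bundles over lists** -/
lemma LB.cr_Y_le (L : LB B lst Inv) (H : DI Inv) (Z : Cr (L.pv H)) {J : ℝ} (hJ : 0 ≤ J) {p : ℕ}
    {b : β} (hb : B.ok p b) (hR : ∀ j x, jv (lst b) j x ≠ 0 → Z.ρ p b j x ≤ J) (x : ℝ) :
    Z.bch.Y p b x ≤ J * bt (lst b) x :=
  Z.Y_le (tt := fun b => bt (lst b)) hb hR hJ (fun x => (L.sum_v H b x).le) x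

end lst

/-! ### the true tie -/

section tie
variable {Λ κ : Type} [Fintype Λ] [DecidableEq Λ] [Fintype κ] [DecidableEq κ]

/-- **mean of the content in the true ties** -/
lemma Ep_tru {p : ℕ} {K : List (DT Λ κ)} (hi : ∀ t ∈ K, IMean t ∧ isB p t = true ∧ WOk p t)
    (j : Λ) (y : ℝ) :
    Ep p (jv (tru K) j) y = (1 - 1 / (p : ℝ)) * pA K j y + 1 / (p : ℝ) * pB K j y := by
  induction K with
  | nil =>
    have e1 : tru ([] : List (DT Λ κ)) = [] := rfl
    rw [e1, Ep_jv_nil]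
    show _ = (1 - 1 / (p : ℝ)) * 0 + 1 / (p : ℝ) * 0
    ring
  | cons t K ih =>
    have hK := ih fun s hs => hi s (List.mem_cons_of_mem _ hs)
    obtain ⟨h1, h2, h3⟩ := hi t (by simp)
    obtain ⟨w, r, t₁, t₀, v, B, G, e⟩ := isB_eq h2
    subst e
    have h4 : w = 1 / (p : ℝ) ∨ w = 0 := h3
    have h5 : Ep p ((DT.br p w r t₁ t₀ v B G).g.val j) y =
      (1 - w) * t₁.g.val j y + w * t₀.g.val j y := h1.2.2.2 j y
    have ewT : wT (DT.br p w r t₁ t₀ v B G) = w := rfl
    have eA : pA (DT.br p w r t₁ t₀ v B G :: K) j y =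
        (if w = 0 then 0 else t₁.g.val j y) + pA K j y := ls_cons _ _ _ _ _
    have eB : pB (DT.br p w r t₁ t₀ v B G :: K) j y =
        (if w = 0 then 0 else t₀.g.val j y) + pB K j y := ls_cons _ _ _ _ _
    rw [eA, eB]
    by_cases hw0 : w = 0
    · have e6 : tru (DT.br p w r t₁ t₀ v B G :: K) = tru K :=
        List.filter_cons_of_neg (by simpa [ewT] using hw0)
      rw [e6, hK, if_pos hw0, if_pos hw0]
      ring
    · have e6 : tru (DT.br p w r t₁ t₀ v B G :: K) = DT.br p w r t₁ t₀ v B G :: tru K :=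
        List.filter_cons_of_pos (by simpa [ewT] using hw0)
      rw [e6, Ep_jv_cons, hK, h5, if_neg hw0, if_neg hw0, h4.resolve_right hw0]
      ring

variable {p : ℕ} {K : List (DT Λ κ)} {j : Λ}

lemma pA_nonneg (h : PBA K) (j : Λ) (y : ℝ) : 0 ≤ pA K j y :=
  (PB_ls (fun t ht j => PB_nA (h t ht) j) j).nonneg y

lemma pB_nonneg (h : PBA K) (j : Λ) (y : ℝ) : 0 ≤ pB K j y :=
  (PB_ls (fun t ht j => PB_nB (h t ht) j) j).nonneg y

/-- **N-side form** -/
lemma N_le (hp : p ≠ 0) (hi : ∀ t ∈ K, IMean t ∧ isB p t = true ∧ WOk p t) (h : PBA K) (j : Λ)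
    (y : ℝ) : 1 / (p : ℝ) * pB K j y ≤ Ep p (jv (tru K) j) y := by
  have hp1 : (1 : ℝ) ≤ p := by exact_mod_cast Nat.pos_of_ne_zero hp
  rw [Ep_tru hi]
  have w1 : (0:ℝ) ≤ 1 - 1 / p := by
    have : (1:ℝ) / p ≤ 1 := by rw [div_le_one (by linarith)]; exact hp1
    linarith
  have := mul_nonneg w1 (pA_nonneg h j y)
  linarith

/-- **P-side form** : `w A ≤ (1/(p-1)) Ep` -/
lemma P_le (hp : 2 ≤ p) (hi : ∀ t ∈ K, IMean t ∧ isB p t = true ∧ WOk p t) (h : PBA K) (j : Λ)
    (y : ℝ) : 1 / (p : ℝ) * pA K j y ≤ 1 / ((p : ℝ) - 1) * Ep p (jv (tru K) j) y := by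
  have hp2 : (2 : ℝ) ≤ p := by exact_mod_cast hp
  rw [Ep_tru hi]
  have h1 : (0:ℝ) < (p : ℝ) - 1 := by linarith
  have h2 : (0:ℝ) < p := by linarith
  have h3 : 0 ≤ 1 / (p : ℝ) * pB K j y := mul_nonneg (by positivity) (pB_nonneg h j y)
  have h4 : 1 / ((p : ℝ) - 1) * ((1 - 1 / (p : ℝ)) * pA K j y) = 1 / (p : ℝ) * pA K j y := by
    field_simp
  have h5 : 0 ≤ 1 / ((p : ℝ) - 1) * (1 / (p : ℝ) * pB K j y) := mul_nonneg (by positivity) h3
  rw [mul_add, h4]
  linarith

end tie

end Crest.Agent.R4P.PVe45
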