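import Crest.Agent.R4P.RsT_47
import Crest.Agent.R4P.PVe_45

/-!
R4 (S0004) with powers, T3, helper41: **credits for events of (column, piece, point of the arc)**.

* `zb c p m x j` : the point of the arc of the piece `j` above the point `x` (memory `m`);
  `rest_zb`, `tie_zb` : it does not change along the rest, the ties (P and N) and the pulls;
  `zb_mem` : it is in the arc of `j` if the content is not zero.
* `rem p m q` : bound for the number of true ties which the item can still meet at the column `p`.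
* `Evs X` : events at the true ties and at the static columns with their prices;
  **`Evs.cr : Cr (L.pv H)`**, `Evs.rho_le`.
-/

set_option autoImplicit false
set_option linter.unusedSectionVars false
set_option linter.unusedVariables false
open MeasureTheory Filter Set

namespace Crest.Agent.R4P.CrZ41

open Crest.Agent.R4.Tour104 Crest.Agent.R4.Clos758
open Crest.Agent.R4P.Cnt588 Crest.Agent.R4P.Item758 Crest.Agent.R4P.W363
open Crest.Agent.R4.W363 (off cell cell_eq_iff brk brk_mono cell_mono_set)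
open Crest.Agent.R4P.Data758
open Crest.Agent.R4P.Bld532 (NS All NodeOk Bk dv nd)
open Crest.Agent.R4P.WalkIT579 (tp isL toDT_top toDT_leaf)
open Crest.Agent.R4P.StratN36 (ex)
open Crest.Agent.R4P.Step588 Crest.Agent.R4P.RseSt23
open Crest.Agent.R4P.DTp26 Crest.Agent.R4P.DTm407
open Crest.Agent.R4P.TYI47 Crest.Agent.R4P.TYJ47 Crest.Agent.R4P.TYK47
open Crest.Agent.R4P.TYP9 Crest.Agent.R4P.RsT47
open Crest.Agent.R4P.Walk560 (DT WrN)
open Crest.Agent.R4P.Skel189 Crest.Agent.R4P.Frame758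
open Crest.Agent.R4.Soft104 Crest.Agent.R4.Fam464
open Crest.Agent.R4P.StratX36 Crest.Agent.R4P.TopX36
open Crest.Agent.R4P.GWa343 Crest.Agent.R4P.GWb343 Crest.Agent.R4P.GWc343 Crest.Agent.R4P.GWf343
open Crest.Agent.R4P.TrR343
open Crest.Agent.R4P.Grp36 Crest.Agent.R4P.Bp407 Crest.Agent.R4P.VR407
open Crest.Agent.R4P.PayR45 (BM PV)
open Crest.Agent.R4P.PVe45 (Cr LB)
open Crest.Agent.R4P.PVd45 (DI)

/-! ### the point of the arc -/

/-- **the point of the arc** of `j` above `x` -/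
noncomputable def zb (c : Cf) (p : ℕ) (m : Me) (x : ℝ) (j : c.Lam) : ℝ :=
  zp c.γ (c.bp j.1.1 j.1.2) (Bm (pm c.t p m j.1.1)) (wm (pm c.t p m j.1.1) m.2 j.1.1) x

lemma meas_zb (c : Cf) (p : ℕ) (m : Me) (j : c.Lam) : Measurable fun x => zb c p m x j :=
  meas_zp _ _ _ _

lemma per_zb (c : Cf) (p : ℕ) (m : Me) (j : c.Lam) (x : ℝ) : zb c p m (x + 1) j = zb c p m x j :=
  per_zp _ _ _ _ _

section ctx
variable {N : Skel189.Num} {γ : ℝ} {p0 P₀ : ℕ} {X : Ctx N γ p0 P₀} {Q : NS → IT → Prop} {C : ℝ}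
  {p : ℕ} {b : Me × List (DT X.c.Lam (LbX X))} {j : X.c.Lam} {x : ℝ}

/-- the rest -/
lemma rest_zb (hQ : ∀ u τ, Q u τ → NDt X.par (w X.ψ) X.c.t u τ) (h : InvM X Q C p b) (hp : p ≠ 0)
    (hj : jv (bN p b.2) j x ≠ 0) : zb X.c (p - 1) b.1 x j = zb X.c p b.1 x j := by
  unfold zb
  rw [(rest_pmX hQ h hp hj).1]

/-- the point at a node -/
lemma node_zb (hQ : ∀ u τ, Q u τ → NDt X.par (w X.ψ) X.c.t u τ) (hd1 : X.c.d1 * Kc X.S ≤ 1)
    {m : Me} {u : NS} {τ : IT} (hs : RtX X Q p m u τ)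
    (hj : ((X.c.D.par X.Y).toDT X.c.sp u.B u.A τ).g.val j x ≠ 0) :
    j.1.1 ∈ τ.items ∧ X.c.bp j.1.1 j.1.2 ≤ zb X.c p m x j ∧
      zb X.c p m x j < X.c.bp j.1.1 (j.1.2 + 1) ∧
      ∃ a : ℤ, (u.B : ℝ) * zb X.c p m x j = ((j.1.1 / u.A : ℕ) : ℝ) * x - u.B * X.c.γ - a := by
  have hn := hQ _ _ hs.1.rm.all.self
  obtain ⟨hq, a, -, h2, h3⟩ := ctx_supp hn hj
  have hB0 : 0 < u.B := Nat.pos_of_ne_zero hn.bk.sfB.ne_zero
  have hBr : (0 : ℝ) < u.B := by exact_mod_cast hB0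
  have hwl := AddNode7.win_len hd1 hn (j := j) hq
  rw [Nat.cast_one, div_one, ← mul_sub] at hwl
  set z : ℝ := (((j.1.1 / u.A : ℕ) : ℝ) * x - u.B * X.c.γ - a) / u.B with hz
  have ez : (u.B : ℝ) * z = ((j.1.1 / u.A : ℕ) : ℝ) * x - u.B * X.c.γ - a := by
    rw [hz]; field_simp
  have h2' : (u.B : ℝ) * X.c.bp j.1.1 j.1.2 ≤ ((j.1.1 / u.A : ℕ) : ℝ) * x - u.B * X.c.γ - a := h2
  have h3' : ((j.1.1 / u.A : ℕ) : ℝ) * x - u.B * X.c.γ - a < u.B * X.c.bp j.1.1 (j.1.2 + 1) := h3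
  have g1 : X.c.bp j.1.1 j.1.2 ≤ z := by
    rw [hz, le_div_iff₀ hBr]; linarith
  have g2 : z < X.c.bp j.1.1 (j.1.2 + 1) := by
    rw [hz, div_lt_iff₀ hBr]; linarith
  have e : zb X.c p m x j = z := by
    unfold zb
    rw [hs.1.B_eq hQ X.tOk hq, hs.1.w_eq hQ X.tOk hq]
    refine zp_eq hB0 ez g1 (lt_of_lt_of_le (mul_lt_mul_of_pos_left ?_ hBr) hwl)
    linarith
  rw [e]
  exact ⟨hq, g1, g2, a, ez⟩

/-- **the point is in the arc** -/
lemma zb_mem (hQ : ∀ u τ, Q u τ → NDt X.par (w X.ψ) X.c.t u τ) (hd1 : X.c.d1 * Kc X.S ≤ 1)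
    (h : InvM X Q C p b) (hj : jv b.2 j x ≠ 0) :
    X.c.bp j.1.1 j.1.2 ≤ zb X.c p b.1 x j ∧ zb X.c p b.1 x j < X.c.bp j.1.1 (j.1.2 + 1) := by
  obtain ⟨s, τ, hs, -, h1⟩ := jv_node h.mi hj
  obtain ⟨-, h2, h3, -⟩ := node_zb hQ hd1 hs h1
  exact ⟨h2, h3⟩

/-- the exponents of the items of a tie or a pull -/
def TT (p : ℕ) (m : Me) (q : ℕ) : Prop := TYJ47.cnt p m.1 ≤ ex p q ∧ ex p q ≤ TYJ47.cnt p m.1 + 2

/-- **ties and pulls**: the point does not change; the item is processed at most once more -/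
theorem tie_zb (hQ : ∀ u τ, Q u τ → NDt X.par (w X.ψ) X.c.t u τ) (hd1 : X.c.d1 * Kc X.S ≤ 1)
    (h : InvM X Q C p b) (hj : jv (bB p b.2) j x ≠ 0) :
    zb X.c p (tuM p b.1) (p * x) j = zb X.c p b.1 x j ∧ TYJ47.cnt p b.1.1 ≤ ex p j.1.1 := by
  have H := carX hQ
  rcases jv_bB_node H h.mi hj with ⟨s, Sp, t₁, t₀, hs, h1⟩ | ⟨s, t₁, hs, h1⟩
  · have hn := hQ _ _ hs.1.rm.all.self
    have hp : p.Prime := prime_of_br hn.self.node
    have hpr : (1 : ℝ) ≤ p := by exact_mod_cast hp.one_lt.le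
    obtain ⟨hq, g1, g2, a, ez⟩ := node_zb hQ hd1 hs h1
    have hl : ¬ isL (IT.br p Sp t₁ t₀) := fun h => h
    obtain ⟨hP, hN⟩ := H.br hs
    have hx := hs.1.rm.exA hl rfl
    have h0 : ex p s.A ≤ ex p j.1.1 :=
      Crest.Agent.R4P.StratN36.ex_le (hn.bk.pos _ hq) (hn.bk.dvd _ hq)
    refine ⟨?_, by omega⟩
    rcases Finset.mem_union.1 hq with hq1 | hq0
    · have hn1 := hQ _ _ hP.1.rm.all.self
      have eB : Bm (pm X.c.t p (tuM p b.1) j.1.1) = Bm (pm X.c.t p b.1 j.1.1) := by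
        rw [hP.1.B_eq hQ X.tOk hq1, hs.1.B_eq hQ X.tOk hq]
      unfold zb
      rw [eB, hs.1.w_eq hQ X.tOk hq, hP.1.w_eq hQ X.tOk hq1]
      refine zp_congr ?_
      have e : j.1.1 / s.A = j.1.1 / (s.A * p) * p := by
        obtain ⟨k, hk⟩ := hn1.bk.dvd _ hq1
        have hk' : j.1.1 = s.A * p * k := hk
        rw [hk', Nat.mul_div_cancel_left _ (Nat.mul_pos hn.bk.Apos hp.pos), mul_assoc,
          Nat.mul_div_cancel_left _ hn.bk.Apos, mul_comm]
      have e2 : ((j.1.1 / s.A : ℕ) : ℝ) = ((j.1.1 / (s.A * p) : ℕ) : ℝ) * p := by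
        rw [e]; push_cast; ring
      rw [e2]
      ring
    · have hn0 := hQ _ _ hN.1.rm.all.self
      have hB0 : 0 < s.B * p := Nat.pos_of_ne_zero hn0.bk.sfB.ne_zero
      have hwl := AddNode7.win_len hd1 hn0 (j := j) hq0
      have e4 : ((⟨p, s.c * p, s.A, s.B * p⟩ : NS).B : ℝ) = ((s.B * p : ℕ) : ℝ) := rfl
      rw [e4, Nat.cast_one, div_one, ← mul_sub] at hwl
      have hBp : (0 : ℝ) < ((s.B * p : ℕ) : ℝ) := by exact_mod_cast hB0
      have e : zb X.c p (tuM p b.1) (p * x) j =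
          zp X.c.γ (X.c.bp j.1.1 j.1.2) (s.B * p) (j.1.1 / s.A) (p * x) := by
        unfold zb
        rw [hN.1.B_eq hQ X.tOk hq0, hN.1.w_eq hQ X.tOk hq0]
      rw [e]
      refine zp_eq hB0 (a := p * a) ?_ g1 (lt_of_lt_of_le (mul_lt_mul_of_pos_left ?_ hBp) hwl)
      · push_cast
        have : (s.B : ℝ) * p * zb X.c p b.1 x j = p * (s.B * zb X.c p b.1 x j) := by ring
        rw [this, ez]; ring
      · linarith
  · have hn := hQ _ _ hs.1.rm.all.self
    have hp : p.Prime := prime_of_pl hn.self.node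
    obtain ⟨hq, g1, g2, a, ez⟩ := node_zb hQ hd1 hs h1
    have hl : ¬ isL (IT.pl p t₁) := fun h => h
    have hP := H.pl hs
    have hx := hs.1.rm.exA hl rfl
    have h0 : ex p s.A ≤ ex p j.1.1 :=
      Crest.Agent.R4P.StratN36.ex_le (hn.bk.pos _ hq) (hn.bk.dvd _ hq)
    refine ⟨?_, by omega⟩
    have hq1 : j.1.1 ∈ t₁.items := hq
    have hn1 := hQ _ _ hP.1.rm.all.self
    have eB : Bm (pm X.c.t p (tuM p b.1) j.1.1) = Bm (pm X.c.t p b.1 j.1.1) := by
      rw [hP.1.B_eq hQ X.tOk hq1, hs.1.B_eq hQ X.tOk hq]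
    unfold zb
    rw [eB, hs.1.w_eq hQ X.tOk hq, hP.1.w_eq hQ X.tOk hq1]
    refine zp_congr ?_
    have e : j.1.1 / s.A = j.1.1 / (s.A * p) * p := by
      obtain ⟨k, hk⟩ := hn1.bk.dvd _ hq1
      have hk' : j.1.1 = s.A * p * k := hk
      rw [hk', Nat.mul_div_cancel_left _ (Nat.mul_pos hn.bk.Apos hp.pos), mul_assoc,
        Nat.mul_div_cancel_left _ hn.bk.Apos, mul_comm]
    have e2 : ((j.1.1 / s.A : ℕ) : ℝ) = ((j.1.1 / (s.A * p) : ℕ) : ℝ) * p := by
      rw [e]; push_cast; ring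
    rw [e2]
    ring

/-! ### the items of a true tie -/

lemma br_TT (hQ : ∀ u τ, Q u τ → NDt X.par (w X.ψ) X.c.t u τ) {m : Me} {s : NS} {Sp : Finset ℕ}
    {t₁ t₀ : IT} (hs : RtX X Q p m s (.br p Sp t₁ t₀)) {q : ℕ} (hq : q ∈ (IT.br p Sp t₁ t₀).items) :
    TT p m q := by
  have hn := hQ _ _ hs.1.rm.all.self
  have hno := hn.self.node
  have hp : p.Prime := prime_of_br hno
  have hl : ¬ isL (IT.br p Sp t₁ t₀) := fun h => h
  have hx := hs.1.rm.exA hl rfl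
  have h0 : ex p s.A ≤ ex p q := Crest.Agent.R4P.StratN36.ex_le (hn.bk.pos _ hq) (hn.bk.dvd _ hq)
  have h3 : ¬ p ^ 3 ∣ q / s.A := hno.2.2.2.2.2.2.2.2.1 q hq
  have h4 : ¬ ex p s.A + 3 ≤ ex p q := fun h5 => h3
    ((Crest.Agent.R4P.StratN36.dvd_iff (k := 3) hp (hn.bk.pos _ hq) (hn.bk.dvd _ hq)).2 h5)
  unfold TT
  omega

/-- P content of the true tie -/
lemma pA_TT (hQ : ∀ u τ, Q u τ → NDt X.par (w X.ψ) X.c.t u τ) (h : InvM X Q C p b) (hp : p ≠ 0)
    {y : ℝ} (hj : pA (bB p b.2) j y ≠ 0) : TT p b.1 j.1.1 := by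
  obtain ⟨s, Sp, t₁, t₀, hs, h1, h2⟩ := pA_node (carX hQ) hp h.mi hj
  exact br_TT hQ hs (Finset.mem_union_left _ (ctx_supp (hQ _ _ h1.1.rm.all.self) h2).1)

/-- N content of the true tie -/
lemma pB_TT (hQ : ∀ u τ, Q u τ → NDt X.par (w X.ψ) X.c.t u τ) (h : InvM X Q C p b) (hp : p ≠ 0)
    {y : ℝ} (hj : pB (bB p b.2) j y ≠ 0) : TT p b.1 j.1.1 := by
  obtain ⟨s, Sp, t₁, t₀, hs, h1, h2⟩ := pB_node (carX hQ) hp h.mi hj
  exact br_TT hQ hs (Finset.mem_union_right _ (ctx_supp (hQ _ _ h1.1.rm.all.self) h2).1)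

/-- content of the true ties -/
lemma vT_TT (hQ : ∀ u τ, Q u τ → NDt X.par (w X.ψ) X.c.t u τ) (h : InvM X Q C p b) (hp : p ≠ 0)
    {kd : X.c.Lam → LbX X} (hK : KOk kd p (bB p b.2)) (hj : vT p (bB p b.2) j x ≠ 0) :
    TT p b.1 j.1.1 := by
  by_cases hA : pA (bB p b.2) j (p * x) = 0
  · have hG : pG (bB p b.2) j x ≠ 0 := by
      intro hG
      apply hj
      rw [vT_eq hK]
      unfold vF
      rw [hA, hG]
      ring
    exact pB_TT hQ h hp (pG_supp hK (Nat.pos_of_ne_zero hp) hG)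
  · exact pA_TT hQ h hp hA

end ctx

/-! ### events -/

/-- the indicator -/
noncomputable def ind (P : Prop) : ℝ := by classical exact if P then 1 else 0

lemma ind_on {P : Prop} (h : P) : ind P = 1 := by unfold ind; exact if_pos h
lemma ind_off {P : Prop} (h : ¬ P) : ind P = 0 := by unfold ind; exact if_neg h
lemma ind_nonneg (P : Prop) : 0 ≤ ind P := by
  by_cases h : P
  · rw [ind_on h]; norm_num
  · rw [ind_off h]
lemma ind_le (P : Prop) : ind P ≤ 1 := by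
  by_cases h : P
  · rw [ind_on h]
  · rw [ind_off h]; norm_num
lemma ind_mono {P P' : Prop} (h : P → P') : ind P ≤ ind P' := by
  by_cases h1 : P
  · rw [ind_on h1, ind_on (h h1)]
  · rw [ind_off h1]; exact ind_nonneg _

/-- **events** of the pieces at the true ties (`E`, price `c`) and at the static columns (`E'`, price
`c'`), functions of the column, the piece and the point of the arc -/
structure Evs (Λ : Type) where
  E : ℕ → Λ → ℝ → Prop
  E' : ℕ → Λ → ℝ → Prop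
  mE : ∀ n j, MeasurableSet {z | E n j z}
  mE' : ∀ n j, MeasurableSet {z | E' n j z}
  c : ℕ → ℝ
  c' : ℕ → ℝ
  c0 : ∀ n, 0 ≤ c n
  c0' : ∀ n, 0 ≤ c' n

namespace Evs
variable {Λ : Type} (V : Evs Λ)

/-- price of the column -/
noncomputable def f (n : ℕ) (j : Λ) (z : ℝ) : ℝ :=
  3 * V.c n * ind (V.E n j z) + V.c' n * ind (V.E' n j z)

lemma f_nonneg (n : ℕ) (j : Λ) (z : ℝ) : 0 ≤ V.f n j z :=
  add_nonneg (mul_nonneg (mul_nonneg (by norm_num) (V.c0 n)) (ind_nonneg _))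
    (mul_nonneg (V.c0' n) (ind_nonneg _))

/-- credit with `k` true ties left at the column `p` -/
noncomputable def G (p k : ℕ) (j : Λ) (z : ℝ) : ℝ :=
  ∑ n ∈ Finset.range p, V.f n j z +
    (V.c p * k * ind (V.E p j z) + V.c' p * ind (V.E' p j z))

lemma G_nonneg (p k : ℕ) (j : Λ) (z : ℝ) : 0 ≤ V.G p k j z :=
  add_nonneg (Finset.sum_nonneg fun n _ => V.f_nonneg n j z)
    (add_nonneg (mul_nonneg (mul_nonneg (V.c0 p) (Nat.cast_nonneg _)) (ind_nonneg _))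
      (mul_nonneg (V.c0' p) (ind_nonneg _)))

lemma G_le {p k : ℕ} (hk : k ≤ 3) (j : Λ) (z : ℝ) :
    V.G p k j z ≤ ∑ n ∈ Finset.range (p + 1), V.f n j z := by
  rw [Finset.sum_range_succ]
  unfold G f
  have hk' : (k : ℝ) ≤ 3 := by exact_mod_cast hk
  have h1 : V.c p * k * ind (V.E p j z) ≤ 3 * V.c p * ind (V.E p j z) := by
    refine mul_le_mul_of_nonneg_right ?_ (ind_nonneg _)
    have := mul_le_mul_of_nonneg_left hk' (V.c0 p)
    linarith
  linarith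

lemma meas_ind {P : ℝ → Prop} (h : MeasurableSet {z | P z}) : Measurable fun z => ind (P z) := by
  classical
  have e : (fun z => ind (P z)) = fun z => if z ∈ {z | P z} then (1 : ℝ) else 0 := by
    funext z
    by_cases hz : P z
    · rw [ind_on hz, if_pos (show z ∈ {z | P z} from hz)]
    · rw [ind_off hz, if_neg (show ¬ z ∈ {z | P z} from hz)]
  rw [e]
  exact Measurable.ite h measurable_const measurable_const

lemma meas_f (n : ℕ) (j : Λ) : Measurable (V.f n j) := by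
  unfold f
  exact ((meas_ind (V.mE n j)).const_mul _).add ((meas_ind (V.mE' n j)).const_mul _)

lemma meas_G (p k : ℕ) (j : Λ) : Measurable (V.G p k j) := by
  unfold G
  exact (Finset.measurable_sum _ fun n _ => V.meas_f n j).add
    (((meas_ind (V.mE p j)).const_mul _).add ((meas_ind (V.mE' p j)).const_mul _))

lemma f_le (n : ℕ) (j : Λ) (z : ℝ) : V.f n j z ≤ 3 * V.c n + V.c' n := by
  unfold f
  have h1 := mul_le_mul_of_nonneg_left (ind_le (V.E n j z)) (mul_nonneg (by norm_num : (0:ℝ) ≤ 3)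
    (V.c0 n))
  have h2 := mul_le_mul_of_nonneg_left (ind_le (V.E' n j z)) (V.c0' n)
  linarith

lemma PB_z {c : Cf} {p : ℕ} {m : Me} {j : c.Lam} {g : ℝ → ℝ} (hg : Measurable g) (h0 : ∀ z, 0 ≤ g z)
    {K : ℝ} (hK : ∀ z, g z ≤ K) : PB fun x => g (zb c p m x j) :=
  ⟨hg.comp (meas_zb c p m j), fun _ => h0 _, ⟨K, fun _ => hK _⟩, fun x => by rw [per_zb]⟩

end Evs

/-- bound of the number of true ties of the item at the column `p` -/
def rem (p : ℕ) (m : Me) (q : ℕ) : ℕ := min 3 (ex p q + 1 - TYJ47.cnt p m.1)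

lemma rem_le (p : ℕ) (m : Me) (q : ℕ) : rem p m q ≤ 3 := min_le_left _ _

lemma rem_tu (p : ℕ) (m : Me) (q : ℕ) : rem p (tuM p m) q ≤ rem p m q := by
  unfold rem tuM
  rw [TYJ47.cnt_tu]
  omega

lemma rem_TT {p : ℕ} {m : Me} {q : ℕ} (h : TT p m q) : rem p (tuM p m) q + 1 = rem p m q := by
  unfold TT at h
  unfold rem tuM
  rw [TYJ47.cnt_tu]
  omega

section cred
variable {N : Skel189.Num} {γ : ℝ} {p0 P₀ : ℕ} {X : Ctx N γ p0 P₀} {Q : NS → IT → Prop} {C : ℝ}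
  {B : BM (Me × List (DT X.c.Lam (LbX X)))} {Inv' : ℕ → List (DT X.c.Lam (LbX X)) → Prop}

open Classical in
/-- **the credits of the events** -/
noncomputable def Evs.cr (V : Evs X.c.Lam) (L : LB B Prod.snd Inv') (H : DI Inv')
    (hQ : ∀ u τ, Q u τ → NDt X.par (w X.ψ) X.c.t u τ) (hd1 : X.c.d1 * Kc X.S ≤ 1)
    (hI : ∀ {p b}, B.ok p b → InvM X Q C p b)
    (mP : ∀ {p b}, B.ok p b → p ≠ 0 → (B.cP p b).1 = tuM p b.1)
    (mN : ∀ {p b}, B.ok p b → p ≠ 0 → (B.cN p b).1 = tuM p b.1)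
    (mR : ∀ {p b}, B.ok p b → p ≠ 0 → (B.rN p b).1 = b.1) : Cr (L.pv H) where
  ρ := fun p b j x => V.G p (rem p b.1 j.1.1) j (zb X.c p b.1 x j)
  r := fun p b j x => if TT p b.1 j.1.1 then V.c p * ind (V.E p j (zb X.c p b.1 x j)) else 0
  e := fun p b j x => V.c' p * ind (V.E' p j (zb X.c p b.1 x j))
  pρ := fun {p b} _ j => Evs.PB_z (V.meas_G p _ j) (fun z => V.G_nonneg p _ j z)
    (K := ∑ n ∈ Finset.range (p + 1), (3 * V.c n + V.c' n)) fun z =>
      (V.G_le (rem_le _ _ _) j z).trans (Finset.sum_le_sum fun n _ => V.f_le n j z)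
  pr := fun {p b} _ _ j => by
    by_cases h : TT p b.1 j.1.1
    · simp only [if_pos h]
      exact Evs.PB_z (g := fun z => V.c p * ind (V.E p j z)) ((Evs.meas_ind (V.mE p j)).const_mul _)
        (fun z => mul_nonneg (V.c0 p) (ind_nonneg _)) (K := V.c p) fun z => by
          have := mul_le_mul_of_nonneg_left (ind_le (V.E p j z)) (V.c0 p)
          linarith
    · simp only [if_neg h]
      exact PB.const le_rfl
  pe := fun {p b} _ _ j => Evs.PB_z (g := fun z => V.c' p * ind (V.E' p j z))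
    ((Evs.meas_ind (V.mE' p j)).const_mul _) (fun z => mul_nonneg (V.c0' p) (ind_nonneg _))
    (K := V.c' p) fun z => by
      have := mul_le_mul_of_nonneg_left (ind_le (V.E' p j z)) (V.c0' p)
      linarith
  rest := fun {p b} hb hp j x hv => by
    have hv' : jv (bN p b.2) j x ≠ 0 := by
      have e := L.R hb hp
      have h2 : jv (Prod.snd (B.rN p b)) j x ≠ 0 := hv
      rwa [e] at h2
    rw [mR hb hp, rest_zb hQ (hI hb) hp hv']
    set z := zb X.c p b.1 x j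
    have h1 := V.G_le (p := p - 1) (rem_le (p - 1) b.1 j.1.1) j z
    have e1 : p - 1 + 1 = p := by omega
    rw [e1] at h1
    have h2 : 0 ≤ V.c p * (rem p b.1 j.1.1 : ℕ) * ind (V.E p j z) :=
      mul_nonneg (mul_nonneg (V.c0 p) (Nat.cast_nonneg _)) (ind_nonneg _)
    show V.c' p * ind (V.E' p j z) + V.G (p - 1) _ j z ≤ V.G p _ j z
    unfold Evs.G at h1 ⊢
    linarith
  tie0 := fun {p b} hb hp j x hv => by
    set z := zb X.c p b.1 x j
    have h1 := Finset.sum_nonneg fun n (_ : n ∈ Finset.range p) => V.f_nonneg n j z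
    have h2 := mul_nonneg (V.c0' p) (ind_nonneg (V.E' p j z))
    split_ifs with h
    · have h3 : 1 ≤ rem p b.1 j.1.1 := by
        have := rem_TT h
        omega
      have h4 : (1 : ℝ) ≤ (rem p b.1 j.1.1 : ℕ) := by exact_mod_cast h3
      have h5 : V.c p * ind (V.E p j z) ≤ V.c p * (rem p b.1 j.1.1 : ℕ) * ind (V.E p j z) := by
        refine mul_le_mul_of_nonneg_right ?_ (ind_nonneg _)
        have := mul_le_mul_of_nonneg_left h4 (V.c0 p)
        linarith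
      unfold Evs.G
      linarith
    · exact V.G_nonneg p _ j z
  tieP := fun {p b} hb hp j x hv _ => by
    rw [mP hb hp, (tie_zb hQ hd1 (hI hb) hv).1]
    set z := zb X.c p b.1 x j
    split_ifs with h
    · have h3 := rem_TT h
      have h4 : ((rem p (tuM p b.1) j.1.1 : ℕ) : ℝ) + 1 = (rem p b.1 j.1.1 : ℕ) := by
        exact_mod_cast h3
      unfold Evs.G
      rw [← h4]
      linarith
    · have h4 : ((rem p (tuM p b.1) j.1.1 : ℕ) : ℝ) ≤ (rem p b.1 j.1.1 : ℕ) := by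
        exact_mod_cast rem_tu p b.1 j.1.1
      have h5 : V.c p * (rem p (tuM p b.1) j.1.1 : ℕ) * ind (V.E p j z) ≤
          V.c p * (rem p b.1 j.1.1 : ℕ) * ind (V.E p j z) :=
        mul_le_mul_of_nonneg_right (mul_le_mul_of_nonneg_left h4 (V.c0 p)) (ind_nonneg _)
      unfold Evs.G
      linarith
  tieN := fun {p b} hb hp j x hv _ => by
    rw [mN hb hp, (tie_zb hQ hd1 (hI hb) hv).1]
    set z := zb X.c p b.1 x j
    split_ifs with h
    · have h3 := rem_TT h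
      have h4 : ((rem p (tuM p b.1) j.1.1 : ℕ) : ℝ) + 1 = (rem p b.1 j.1.1 : ℕ) := by
        exact_mod_cast h3
      unfold Evs.G
      rw [← h4]
      linarith
    · have h4 : ((rem p (tuM p b.1) j.1.1 : ℕ) : ℝ) ≤ (rem p b.1 j.1.1 : ℕ) := by
        exact_mod_cast rem_tu p b.1 j.1.1
      have h5 : V.c p * (rem p (tuM p b.1) j.1.1 : ℕ) * ind (V.E p j z) ≤
          V.c p * (rem p b.1 j.1.1 : ℕ) * ind (V.E p j z) :=
        mul_le_mul_of_nonneg_right (mul_le_mul_of_nonneg_left h4 (V.c0 p)) (ind_nonneg _)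
      unfold Evs.G
      linarith

/-- **the credits are at most `J`** -/
theorem Evs.rho_le (V : Evs X.c.Lam) {J : ℝ} {P : ℕ}
    (hJ : ∀ (j : X.c.Lam) (z : ℝ), X.c.bp j.1.1 j.1.2 ≤ z → z < X.c.bp j.1.1 (j.1.2 + 1) →
      ∑ n ∈ Finset.range (P + 1), V.f n j z ≤ J)
    (hQ : ∀ u τ, Q u τ → NDt X.par (w X.ψ) X.c.t u τ) (hd1 : X.c.d1 * Kc X.S ≤ 1) {p : ℕ}
    {b : Me × List (DT X.c.Lam (LbX X))} (h : InvM X Q C p b) (hp : p ≤ P) {j : X.c.Lam} {x : ℝ}
    (hj : jv b.2 j x ≠ 0) : V.G p (rem p b.1 j.1.1) j (zb X.c p b.1 x j) ≤ J := by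
  obtain ⟨h1, h2⟩ := zb_mem hQ hd1 h hj
  refine (V.G_le (rem_le _ _ _) j _).trans (le_trans ?_ (hJ j _ h1 h2))
  refine Finset.sum_le_sum_of_subset_of_nonneg ?_ fun n _ _ => V.f_nonneg n j _
  intro n hn
  rw [Finset.mem_range] at hn ⊢
  omega

end cred

end Crest.Agent.R4P.CrZ41
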