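import Crest.Agent.R4P.E3W_479

/-!
R4 (S0004) with powers, T3, helper479 (PLAN v1, D1): **the local link of E3 with pieces outside the game**
(flags, helper845 2019 / 12147, F3).

The type `none` gets its own group (`hgr`): pairs inside | outside cost nothing, pairs outside | outside of
one index are below `I ((su s gU)^2)`.

* `wI` : the direct pairs, both pieces inside the game; `erF = n (Eo R + Es wI) + n I ((su s gU)^2)`;
* **`linkF`**, **`gT_leF`** : field `loc` with `c = n`; **`Kw_erF`** : `Kw erF ≤ n (Pp(root) + Kw (jumps +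
  direct pairs)) + n Kw (I ((su s gU)^2))`.
-/

set_option autoImplicit false
set_option linter.unusedSectionVars false
set_option linter.unusedVariables false
open MeasureTheory Filter Set

namespace Crest.Agent.R4P.E3F479

open Crest.Agent.R4.Tour104 Crest.Agent.R4.Tour758 Crest.Agent.R4.Avg758 Crest.Agent.R4.Clos758
open Crest.Agent.R4.ClosL758 Crest.Agent.R4.ClosG758 Crest.Agent.R4.ClosR758
open Crest.Agent.R4P.ClosR442 Crest.Agent.R4P.Grp36
open Crest.Agent.R4P.Xfer36 Crest.Agent.R4P.TopC36 Crest.Agent.R4P.PN36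
open Crest.Agent.R4P.GMer27 Crest.Agent.R4P.GCol27 Crest.Agent.R4P.GWa343 Crest.Agent.R4P.GWb343
open Crest.Agent.R4P.GWc343 Crest.Agent.R4P.GWd343 Crest.Agent.R4P.TrR343 Crest.Agent.R4P.DTp26
open Crest.Agent.R4P.RSys343 Crest.Agent.R4P.RXm55 Crest.Agent.R4P.MSm25
open Crest.Agent.R4P.VR407 Crest.Agent.R4P.Bp407 Crest.Agent.R4P.DTm407
open Crest.Agent.R4P.GSK55 (stp gk Pr Kw Kw_succ Kw_z one one_TC one_su BC_pos BC_neg)
open Crest.Agent.R4P.PayR45
open Crest.Agent.R4P.E3D479 Crest.Agent.R4P.E3E479 Crest.Agent.R4P.E3P479 Crest.Agent.R4P.E3T479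
open Crest.Agent.R4P.E3S479 Crest.Agent.R4P.E3J479 Crest.Agent.R4P.E3L479 Crest.Agent.R4P.E3V479
open Crest.Agent.R4P.E3W479
open Crest.Agent.R4P.E3G493 (gq rBG rCG ecoG)
open Crest.Agent.R4P.MSi343 (su)
open Crest.Agent.R4P.Walk560 (DT)

section td
variable {μ Λ κ ζ ι : Type} [Fintype Λ] [DecidableEq Λ] [Fintype κ] [DecidableEq κ]
  [Fintype ζ] [DecidableEq ζ] [Fintype ι] [DecidableEq ι] {n : ℕ}

variable {D : TD μ Λ κ ζ} {wr : ℕ → Λ → κ} {ix : κ → ι}
  {Inv : ℕ → μ × List (DT Λ κ) → Prop} {p : ℕ} {b : μ × List (DT Λ κ)}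
  {s : Gs (μ × List (DT Λ κ))} {gr : ℕ → ι → Option ζ × Option ζ → Fin n} {R W : PR μ Λ}

/-- both pieces are inside the game below the tie -/
def inI (D : TD μ Λ κ ζ) : PR μ Λ := fun p m x j j' =>
  D.lt p m (p * x) j ≠ none ∧ D.lt p m (p * x) j' ≠ none

/-- **the direct pairs inside the game** -/
def wI (D : TD μ Λ κ ζ) (wr : ℕ → Λ → κ) (ix : κ → ι) (gr : ℕ → ι → Option ζ × Option ζ → Fin n)
    (R : PR μ Λ) : PR μ Λ := fun p m x j j' => wD D wr ix gr R p m x j j' ∧ inI D p m x j j'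

lemma mp_inI (H : TYp wr D Inv) (p : ℕ) (m : μ) (j j' : Λ) : MP fun x => inI D p m x j j' :=
  ((H.mltp p m j).prod (H.mltp p m j')).map fun q => q.1 ≠ none ∧ q.2 ≠ none

lemma mp_wI (H : TYp wr D Inv) (mR : ∀ p m j i, MP fun x => R p m x j i)
    (gr : ℕ → ι → Option ζ × Option ζ → Fin n) (p : ℕ) (m : μ) (j j' : Λ) :
    MP fun x => wI D wr ix gr R p m x j j' :=
  ((mp_wD H mR gr p m j j').prod (mp_inI H p m j j')).map fun q => q.1 ∧ q.2

/-- the lost pairs inside the game -/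
def wJ (D : TD μ Λ κ ζ) (wr : ℕ → Λ → κ) (ix : κ → ι) (gr : ℕ → ι → Option ζ × Option ζ → Fin n) :
    PR μ Λ := fun p m x j j' => wA D wr ix gr p m x j j' ∧ inI D p m x j j'

lemma mp_wJ (H : TYp wr D Inv) (gr : ℕ → ι → Option ζ × Option ζ → Fin n) (p : ℕ) (m : μ)
    (j j' : Λ) : MP fun x => wJ D wr ix gr p m x j j' :=
  ((mp_wA H gr p m j j').prod (mp_inI H p m j j')).map fun q => q.1 ∧ q.2

/-- **the errors of the local link with flags** -/
noncomputable def erF (D : TD μ Λ κ ζ) (wr : ℕ → Λ → κ) (ix : κ → ι)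
    (gr : ℕ → ι → Option ζ × Option ζ → Fin n) (R : PR μ Λ) (p : ℕ)
    (s : Gs (μ × List (DT Λ κ))) : ℝ :=
  n * (Eo R wr D.tu p s + Es (wI D wr ix gr R) wr p s) + n * I (fun x => su s (D.gU wr p) x ^ 2)

open Classical in
/-- the outside lifts of one bundle -/
lemma gU_eq (p : ℕ) (b : μ × List (DT Λ κ)) (x : ℝ) : D.gU wr p b x =
    ∑ j, if D.lt p b.1 (p * x) j = none then eg (wr p) p (bB p b.2) j x else 0 := by
  unfold TD.gU TD.cG
  simp only [cz_eq]
  rw [Finset.sum_comm]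
  refine Finset.sum_congr rfl fun j _ => ?_
  by_cases h : D.lt p b.1 (p * x) j = none
  · simp only [h, and_true, if_true]
    rw [Finset.sum_ite_eq, if_pos (Finset.mem_univ _)]
  · simp [h]

open Classical in
/-- the outside lifts of a group with one memory -/
lemma su_gU {m : μ} (hm : Cm m s) (x : ℝ) : su s (D.gU wr p) x =
    ∑ j, if D.lt p m (p * x) j = none then (tl D wr ix).GP p s j x else 0 := by
  have e0 : ∀ j, (tl D wr ix).GP p s j x = ∑ k, s.c k * eg (wr p) p (bB p (s.L k).2) j x :=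
    fun j => rfl
  unfold su M
  have e1 : ∀ k, s.c k * D.gU wr p (s.L k) x = ∑ j, if D.lt p m (p * x) j = none then
      s.c k * eg (wr p) p (bB p (s.L k).2) j x else 0 := by
    intro k
    rw [gU_eq, hm k, Finset.mul_sum]
    refine Finset.sum_congr rfl fun j _ => ?_
    split_ifs
    · rfl
    · ring
  rw [Finset.sum_congr rfl fun k _ => e1 k, Finset.sum_comm]
  refine Finset.sum_congr rfl fun j _ => ?_
  rw [e0]
  split_ifs
  · rfl
  · simp

/-- **THE LOCAL LINK WITH FLAGS** -/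
theorem linkF (H : TYp wr D Inv) (hs : gst (bm (DTn407.rxm H)) p s) (hp : p ≠ 0) {m : μ}
    (hm : Cm m s) (gr : ℕ → ι → Option ζ × Option ζ → Fin n)
    (hgr : ∀ p i u v, gr p i u = gr p i v → (u.1 = none ↔ v.1 = none)) (j₀ : Λ)
    (mR : ∀ p m j i, MP fun x => R p m x j i) :
    I (fun x => ∑ i, ixF ix (GmG (gBs p (stp Prod.snd s))) i x ^ 2) ≤
      n * I ((tl D wr ix).rco p s) + erF D wr ix gr R p s := by
  classical
  have h : ∀ j, Inv p (s.L j) := hs.2
  have c0 := hs.1.c0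
  have l1 := E3G493.linkG gr H c0 h hp j₀ (s := s) (ix := ix)
  have hY : ∀ j, (tl D wr ix).Ok p (s.L j) := fun j => tl_ok H (h j) hp
  have h0 : ∀ x j, 0 ≤ (tl D wr ix).GP p s j x := fun x j => (TL.PB_GP c0 hY j).nonneg x
  have pG := fun j => TL.PB_GP c0 hY j
  -- pairs inside the game
  have mJ := mp_wJ (ix := ix) H gr p m
  have pJ : PB (psm (tl D wr ix) (wJ D wr ix gr p m) p s) := by
    refine PB.sum _ fun j _ => PB.sum _ fun j' _ => ?_
    exact ModeG51.PB_ite (mJ j j').prop.1 (mJ j j').prop.2 ((pG j).mul (pG j')) (PB.const le_rfl)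
  have pU1 : PB fun x => su s (D.gU wr p) x := by
    have e : (fun x => su s (D.gU wr p) x) = fun x => ∑ j,
        if D.lt p m (p * x) j = none then (tl D wr ix).GP p s j x else 0 :=
      funext fun x => su_gU (ix := ix) hm x
    rw [e]
    refine PB.sum _ fun j _ => ?_
    have mm : MP fun x => D.lt p m (p * x) j = none := (H.mltp p m j).map fun q => q = none
    exact ModeG51.PB_ite mm.prop.1 mm.prop.2 (pG j) (PB.const le_rfl)
  have pU : PB fun x => su s (D.gU wr p) x ^ 2 := by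
    have e : (fun x => su s (D.gU wr p) x ^ 2) =
        fun x => su s (D.gU wr p) x * su s (D.gU wr p) x := funext fun x => sq _
    rw [e]
    exact pU1.mul pU1
  -- the lost pairs
  have l2 : I (ecoG (tl D wr ix) gr p s) ≤ I (psm (tl D wr ix) (wJ D wr ix gr p m) p s) +
      I (fun x => su s (D.gU wr p) x ^ 2) := by
    rw [← I_add pJ.integrableOn pU.integrableOn]
    refine I_mono (E3G493.PB_ecoG gr c0 hY).integrableOn (pJ.add pU).integrableOn fun x => ?_
    refine (E3G493.ecoG_le gr H c0 h hp hm x).trans ?_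
    have e : su s (D.gU wr p) x ^ 2 = ∑ j, ∑ j',
        (if D.lt p m (p * x) j = none then (tl D wr ix).GP p s j x else 0) *
        (if D.lt p m (p * x) j' = none then (tl D wr ix).GP p s j' x else 0) := by
      rw [su_gU (ix := ix) hm x, sq, Finset.sum_mul_sum]
    show _ ≤ psm (tl D wr ix) (wJ D wr ix gr p m) p s x + su s (D.gU wr p) x ^ 2
    rw [e]
    unfold psm
    rw [← Finset.sum_add_distrib, ← Finset.sum_add_distrib]
    refine Finset.sum_le_sum fun j _ => ?_
    rw [← Finset.sum_add_distrib, ← Finset.sum_add_distrib]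
    refine Finset.sum_le_sum fun j' _ => ?_
    have n0 := mul_nonneg (h0 x j) (h0 x j')
    have n1 : 0 ≤ (if D.lt p m (p * x) j = none then (tl D wr ix).GP p s j x else 0) *
        (if D.lt p m (p * x) j' = none then (tl D wr ix).GP p s j' x else 0) := by
      split_ifs
      · exact n0
      · simp
      · simp
      · simp
    by_cases a : rBG D wr ix gr p m x j j'
    · have b : ¬ rCG D wr ix gr p m x j j' := fun hb => by
        rcases a.1.2 with h1 | h1
        · exact h1 hb.1.2.1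
        · exact hb.1.2.2.1 h1
      rw [if_pos a, if_neg b, add_zero]
      have hg : gr p (ix (wr p j)) (D.lt p m (p * x) j, D.tp p m x j) =
          gr p (ix (wr p j')) (D.lt p m (p * x) j', D.tp p m x j') := a.2
      rw [← a.1.1] at hg
      have hn := hgr p _ _ _ hg
      by_cases c : D.lt p m (p * x) j = none
      · have c' : D.lt p m (p * x) j' = none := hn.1 c
        rw [if_pos c, if_pos c']
        split_ifs <;> linarith
      · have c' : D.lt p m (p * x) j' ≠ none := fun hc => c (hn.2 hc)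
        rw [if_pos (show wJ D wr ix gr p m x j j' from ⟨Or.inl a, c, c'⟩)]
        linarith
    · rw [if_neg a, zero_add]
      by_cases b : rCG D wr ix gr p m x j j'
      · have c := b.1.2.2.1
        have c' : D.lt p m (p * x) j' ≠ none := fun hc => c (b.1.2.1.trans hc)
        rw [if_pos b, if_pos (show wJ D wr ix gr p m x j j' from ⟨Or.inr b, c, c'⟩)]
        linarith
      · rw [if_neg b]
        split_ifs <;> linarith
  rw [I_psm H hs hp hm mJ] at l2
  -- related or not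
  have l3 : Es (wJ D wr ix gr) wr p s ≤ Eo R wr D.tu p s + Es (wI D wr ix gr R) wr p s := by
    rw [Eo_eq]
    unfold Es Ps
    rw [← Finset.sum_add_distrib]
    refine Finset.sum_le_sum fun k _ => ?_
    rw [← Finset.sum_add_distrib]
    refine Finset.sum_le_sum fun k' _ => ?_
    rw [← mul_add]
    refine mul_le_mul_of_nonneg_left ?_ (mul_nonneg (c0 k) (c0 k'))
    unfold ee
    have p1 := PB_ee (wr := wr) H hs hp (Rl := oR R D.tu p (s.L k).1) (mp_oR H mR p (s.L k).1) k k'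
    have p2 := PB_ee (wr := wr) H hs hp (Rl := wI D wr ix gr R p (s.L k).1)
      (mp_wI H mR gr p (s.L k).1) k k'
    have p3 := PB_ee (wr := wr) H hs hp (Rl := wJ D wr ix gr p (s.L k).1)
      (mp_wJ H gr p (s.L k).1) k k'
    rw [← I_add p1.integrableOn p2.integrableOn]
    refine I_mono p3.integrableOn (p1.add p2).integrableOn fun x => ?_
    refine qe_cover (fun j => (PB_eg (H.bok (h k) hp) j).nonneg x)
      (fun j => (PB_eg (H.bok (h k') hp) j).nonneg x) fun j i _ _ hr => ?_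
    by_cases ho : oR R D.tu p (s.L k).1 x j i
    · exact Or.inl ho
    · exact Or.inr ⟨⟨hr.1, ho⟩, hr.2⟩
  unfold erF
  have n0 : (0:ℝ) ≤ n := Nat.cast_nonneg n
  have l4 : I (ecoG (tl D wr ix) gr p s) ≤ Eo R wr D.tu p s + Es (wI D wr ix gr R) wr p s +
      I (fun x => su s (D.gU wr p) x ^ 2) := by linarith
  have l5 := mul_le_mul_of_nonneg_left l4 n0
  rw [mul_add] at l5
  linarith

/-- **the walk sum of the errors** -/
theorem Kw_erF (H : TYp wr D Inv) (mR : ∀ p m j i, MP fun x => R p m x j i)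
    {sd : ℕ → μ → Λ → Prop} (hsd : ∀ {p b}, Inv p b → p ≠ 0 → Sd (bB p b.2) (sd p b.1))
    {ok : ℕ → Gs (μ × List (DT Λ κ)) → Prop}
    (hg : ∀ {p s}, ok p s → gst (bm (DTn407.rxm H)) p s)
    (hC : ∀ {p s}, ok p s → p ≠ 0 → ok p ((bm (DTn407.rxm H)).C p s))
    (hN : ∀ {p s}, ok p s → p ≠ 0 → ok (p - 1) ((bm (DTn407.rxm H)).N p s))
    (hm : ∀ {p s}, ok p s → ∃ m, Cm m s)
    (N p : ℕ) (s : Gs (μ × List (DT Λ κ))) (hs : ok p s) :
    Kw (bm (DTn407.rxm H)) (erF D wr ix gr R) N p s ≤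
      n * (Pp R p s + Kw (bm (DTn407.rxm H)) (Ps fun p b b' => Jp R D.tu sd p b b' +
        ee (wI D wr ix gr R) wr p b b') N p s) +
      n * Kw (bm (DTn407.rxm H)) (fun p s => I (fun x => su s (D.gU wr p) x ^ 2)) N p s := by
  have T := tbD (wr := wr) H
  have hm' : ∀ {p s}, ok p s → ∀ k k', (s.L k').1 = (s.L k).1 := fun {p s} hs k k' => by
    obtain ⟨m, hm⟩ := hm hs
    rw [hm k, hm k']
  have h1 := Kw_tel (R := R) (sd := sd) T mR (fun hb hp => hsd hb hp) hg hC hN hm' N p s hs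
  have e1 : Kw (bm (DTn407.rxm H)) (erF D wr ix gr R) N p s =
      n * (Kw (bm (DTn407.rxm H)) (Eo R wr D.tu) N p s +
        Kw (bm (DTn407.rxm H)) (Es (wI D wr ix gr R) wr) N p s) +
      n * Kw (bm (DTn407.rxm H)) (fun p s => I (fun x => su s (D.gU wr p) x ^ 2)) N p s := by
    have e0 : erF D wr ix gr R = fun p s => n * (Eo R wr D.tu p s +
      Es (wI D wr ix gr R) wr p s) + n * I (fun x => su s (D.gU wr p) x ^ 2) := rfl
    rw [e0, GSK55.Kw_add, GSK55.Kw_smul, GSK55.Kw_smul]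
    congr 2
    exact GSK55.Kw_add _ _ _ _ _
  have e2 : Kw (bm (DTn407.rxm H)) (Ps fun p b b' => Jp R D.tu sd p b b' +
      ee (wI D wr ix gr R) wr p b b') N p s = Kw (bm (DTn407.rxm H)) (Jg R D.tu sd) N p s +
        Kw (bm (DTn407.rxm H)) (Es (wI D wr ix gr R) wr) N p s := by
    rw [← GSK55.Kw_add]
    congr 1
    funext p s
    unfold Ps Jg Es Ps
    rw [← Finset.sum_add_distrib]
    refine Finset.sum_congr rfl fun k _ => ?_
    rw [← Finset.sum_add_distrib]
    refine Finset.sum_congr rfl fun k' _ => ?_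
    ring
  rw [e1, e2]
  have n0 : (0:ℝ) ≤ n := Nat.cast_nonneg n
  have := mul_le_mul_of_nonneg_left h1 n0
  linarith

end td

/-! ### pair sums, forms of the bounds -/

section kw
variable {β : Type} {B : BM β}

/-- **GROUP form** : the pair sums of every member below its charge -/
theorem Kw_grp (hc : Cl B) (Z : BCh B) {ok : ℕ → Gs β → Prop}
    (hg : ∀ {p s}, ok p s → gst B p s)
    (hC : ∀ {p s}, ok p s → p ≠ 0 → ok p (B.C p s))
    (hN : ∀ {p s}, ok p s → p ≠ 0 → ok (p - 1) (B.N p s)) {f : ℕ → β → β → ℝ}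
    (h : ∀ {p s}, ok p s → p ≠ 0 → ∀ k, ∑ k', s.c k' * f p (s.L k) (s.L k') ≤ ch Z p (s.L k))
    (n p : ℕ) (s : Gs β) (hs : ok p s) :
    Kw B (Ps f) n p s ≤ I (su s (Z.Y p)) := by
  have h1 := Kw_chg hc Z n p s (hg hs)
  refine le_trans ?_ h1
  refine GSK55.Kw_mono (ok := ok) hC hN (fun {p s} hs hp => ?_) n p s hs
  have g := hg hs
  have e1 : ∀ f : β → ℝ → ℝ, (∀ k, PB (f (s.L k))) →
      M s.c (fun k => I (f (s.L k))) = I (su s f) := by
    intro f hf
    unfold su M I
    rw [MeasureTheory.integral_finsetSum]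
    · refine Finset.sum_congr rfl fun k _ => ?_
      rw [MeasureTheory.integral_const_mul]
    · intro k _
      exact ((PB.const (g.1.c0 k)).mul (hf k)).integrableOn
  show Ps f p s ≤ I (su s (Z.yc p)) + I (su s (Z.yx p))
  rw [← e1 _ fun k => Z.pyc (g.2 k) hp, ← e1 _ fun k => Z.pyx (g.2 k) hp, ← M_add]
  unfold Ps M
  refine Finset.sum_le_sum fun k _ => ?_
  have h2 := mul_le_mul_of_nonneg_left (h hs hp k) (g.1.c0 k)
  rw [Finset.mul_sum] at h2
  refine le_trans (le_of_eq ?_) h2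
  exact Finset.sum_congr rfl fun k' _ => by ring

/-- pair sums are monotone -/
theorem Kw_Ps_mono {ok : ℕ → Gs β → Prop} (hg : ∀ {p s}, ok p s → gst B p s)
    (hC : ∀ {p s}, ok p s → p ≠ 0 → ok p (B.C p s))
    (hN : ∀ {p s}, ok p s → p ≠ 0 → ok (p - 1) (B.N p s)) {f g : ℕ → β → β → ℝ}
    (h : ∀ {p s}, ok p s → p ≠ 0 → ∀ k k', f p (s.L k) (s.L k') ≤ g p (s.L k) (s.L k'))
    (n p : ℕ) (s : Gs β) (hs : ok p s) : Kw B (Ps f) n p s ≤ Kw B (Ps g) n p s := by
  refine GSK55.Kw_mono (ok := ok) hC hN (fun {p s} hs hp => ?_) n p s hs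
  have c0 := (hg hs).1.c0
  exact Finset.sum_le_sum fun k _ => Finset.sum_le_sum fun k' _ =>
    mul_le_mul_of_nonneg_left (h hs hp k k') (mul_nonneg (c0 k) (c0 k'))

lemma Ps_add (f g : ℕ → β → β → ℝ) : Ps (fun p b b' => f p b b' + g p b b') =
    fun p s => Ps f p s + Ps g p s := by
  funext p s
  unfold Ps
  rw [← Finset.sum_add_distrib]
  refine Finset.sum_congr rfl fun k _ => ?_
  rw [← Finset.sum_add_distrib]
  exact Finset.sum_congr rfl fun k' _ => by ring

/-- pair sums add up -/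
theorem Kw_Ps_add (f g : ℕ → β → β → ℝ) (n p : ℕ) (s : Gs β) :
    Kw B (Ps fun p b b' => f p b b' + g p b b') n p s = Kw B (Ps f) n p s + Kw B (Ps g) n p s := by
  rw [Ps_add]
  exact GSK55.Kw_add _ _ _ _ _

end kw

/-! ### a context -/

section ctx
open Crest.Agent.R4.Fam464 Crest.Agent.R4P.Cnt588 Crest.Agent.R4P.Item758
open Crest.Agent.R4P.Data758 Crest.Agent.R4P.Skel189
open Crest.Agent.R4P.TopX36

variable {N : Skel189.Num} {γ : ℝ} {p0 P₀ : ℕ} {μ ζ : Type} [Fintype ζ] [DecidableEq ζ] {n : ℕ}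

/-- **the field `loc`** with `c = n`, `er = erF` -/
theorem gT_leF (X : Ctx N γ p0 P₀) (j₀ : X.c.Lam) {D : TD μ X.c.Lam (LbX X) ζ}
    {wr : ℕ → X.c.Lam → LbX X} {Inv : ℕ → μ × List (DT X.c.Lam (LbX X)) → Prop}
    (H : TYp wr D Inv) {p : ℕ} {s : Gs (μ × List (DT X.c.Lam (LbX X)))}
    (hs : gst (bm (DTn407.rxm H)) p s) (hp : p ≠ 0) {m : μ} (hm : Cm m s)
    (gr : ℕ → _ → Option ζ × Option ζ → Fin n)
    (hgr : ∀ p i u v, gr p i u = gr p i v → (u.1 = none ↔ v.1 = none)) {R : PR μ X.c.Lam}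
    (mR : ∀ p m j i, MP fun x => R p m x j i) :
    gT X p (gBs p (stp Prod.snd s)) ≤ n * I ((tl D wr (ixL (X := X))).rco p s) +
      erF D wr (ixL (X := X)) gr R p s :=
  linkF H hs hp hm gr hgr j₀ mR

end ctx

end Crest.Agent.R4P.E3F479
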