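import Crest.Agent.R4P.MSm_25
import Crest.Agent.R4P.GWe_343

/-!
R4 (S0004) with powers, T3, helper55: **the walk of a row system over bundles of decorated trees is the
group walk** (mechanical part of D1).

* `Pr M pr` : the bundle maps `M : BM β` project (`pr : β → List (DT Λ κ)`) to the maps of the bundles
  of trees (`chP`, `chN`, `bN`), with any memory in `β`.
* `Kw M f` : walk sum of local terms `f p s` over the group states.
* **`GS_eq`** : `GS loc n p (stp pr s).g = Kw M (fun p s => loc p (gBs p (stp pr s))) n p s`.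
* `Kw_mono`, `Kw_add`, `Kw_smul`, `Kw_zero`, `Kr_eq` : `Kr R rc = Kw (bm R) (I rc)`.
* **`GS_le`** : `loc p (gBs ..) ≤ I (rc p s) + er p s` on good states gives
  `GS loc n p (stp pr s).g ≤ Kr R rc n p s + Kw (bm R) er n p s`.
* `one b` : the state of one bundle; `one_g`, `one_su`.
-/

set_option autoImplicit false
set_option linter.unusedSectionVars false
set_option linter.unusedVariables false
open MeasureTheory Filter Set

namespace Crest.Agent.R4P.GSK55

open Crest.Agent.R4.Tour104 Crest.Agent.R4.Tour758 Crest.Agent.R4.Avg758 Crest.Agent.R4.Clos758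
open Crest.Agent.R4.ClosL758 Crest.Agent.R4.ClosG758 Crest.Agent.R4.ClosR758
open Crest.Agent.R4P.ClosR442 Crest.Agent.R4P.Grp36
open Crest.Agent.R4P.Xfer36 Crest.Agent.R4P.TopC36 Crest.Agent.R4P.PN36
open Crest.Agent.R4P.GMer27 Crest.Agent.R4P.GCol27 Crest.Agent.R4P.GWa343 Crest.Agent.R4P.GWb343
open Crest.Agent.R4P.GWc343 Crest.Agent.R4P.GWd343 Crest.Agent.R4P.RSys343
open Crest.Agent.R4P.RXm55 Crest.Agent.R4P.MSm25 Crest.Agent.R4P.PayR45
open Crest.Agent.R4P.MSi343 (su)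
open Crest.Agent.R4P.Walk560 (DT)

variable {Λ κ : Type} [Fintype Λ] [DecidableEq Λ] [Fintype κ] [DecidableEq κ] {β : Type}

/-- **the bundle maps project to the maps of the bundles of trees** -/
structure Pr (M : BM β) (pr : β → List (DT Λ κ)) : Prop where
  eP : ∀ {p b}, M.ok p b → p ≠ 0 → pr (M.cP p b) = (bB p (pr b)).map chP
  eN : ∀ {p b}, M.ok p b → p ≠ 0 → pr (M.cN p b) = (bB p (pr b)).map chN
  eR : ∀ {p b}, M.ok p b → p ≠ 0 → pr (M.rN p b) = bN p (pr b)
  okP : ∀ {p b}, M.ok p b → p ≠ 0 → M.ok p (M.cP p b)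
  okN : ∀ {p b}, M.ok p b → p ≠ 0 → M.ok p (M.cN p b)
  okR : ∀ {p b}, M.ok p b → p ≠ 0 → M.ok (p - 1) (M.rN p b)
  wok : ∀ {p b}, M.ok p b → p ≠ 0 → ∀ t ∈ bB p (pr b), WOk p t
  no1 : ∀ {b}, M.ok 1 b → bB 1 (pr b) = []

/-- the state of lists -/
def stp (pr : β → List (DT Λ κ)) (s : Gs β) : GWc343.St Λ κ := ⟨s.J, s.fJ, s.c, s.W, fun j => pr (s.L j)⟩

/-- good states -/
def gk (M : BM β) (p : ℕ) (s : Gs β) : Prop := ∀ j, M.ok p (s.L j)

lemma BC_pos (M : BM β) {p : ℕ} (hp : 2 ≤ p) (s : Gs β) : M.C p s =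
    ⟨s.J × Bool, inferInstance, cT (1 - 1 / (p : ℝ)) s.c,
    WT (1 - 1 / (p : ℝ)) s.W, fun x => if x.2 then M.cP p (s.L x.1) else M.cN p (s.L x.1)⟩ :=
  if_pos hp

lemma BC_neg (M : BM β) {p : ℕ} (hp : ¬ 2 ≤ p) (s : Gs β) : M.C p s =
    ⟨s.J, s.fJ, s.c, s.W, fun j => M.cP p (s.L j)⟩ := if_neg hp

variable {M : BM β} {pr : β → List (DT Λ κ)} {p : ℕ} {s : Gs β}

lemma gk_C (P : Pr M pr) (hs : gk M p s) (hp : p ≠ 0) : gk M p (M.C p s) := by
  by_cases h : 2 ≤ p
  · rw [BC_pos M h]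
    intro x
    show M.ok p (if x.2 = true then M.cP p (s.L x.1) else M.cN p (s.L x.1))
    split_ifs
    · exact P.okP (hs x.1) hp
    · exact P.okN (hs x.1) hp
  · rw [BC_neg M h]
    exact fun j => P.okP (hs j) hp

lemma gk_N (P : Pr M pr) (hs : gk M p s) (hp : p ≠ 0) : gk M (p - 1) (M.N p s) :=
  fun j => P.okR (hs j) hp

lemma stp_C (P : Pr M pr) (hs : gk M p s) (hp : p ≠ 0) :
    stp pr (M.C p s) = stCh p (stp pr s) := by
  by_cases h : 2 ≤ p
  · rw [BC_pos M h, stCh_pos h]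
    unfold stp
    congr 1
    funext x
    show pr (if x.2 = true then M.cP p (s.L x.1) else M.cN p (s.L x.1)) =
      (bB p (pr (s.L x.1))).map fun t => if x.2 = true then chP t else chN t
    have e1 := P.eP (hs x.1) hp
    have e2 := P.eN (hs x.1) hp
    cases x.2 <;> simp [e1, e2]
  · have hp1 : p = 1 := by omega
    subst hp1
    rw [BC_neg M h, stCh_neg h]
    unfold stp
    congr 1
    funext j
    show pr (M.cP 1 (s.L j)) = []
    rw [P.eP (hs j) hp, P.no1 (hs j)]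
    rfl

lemma stp_N (P : Pr M pr) (hs : gk M p s) (hp : p ≠ 0) :
    stp pr (M.N p s) = GWc343.stN p (stp pr s) := by
  show (⟨s.J, s.fJ, s.c, s.W, fun j => pr (M.rN p (s.L j))⟩ : GWc343.St Λ κ) =
    ⟨s.J, s.fJ, s.c, s.W, fun j => bN p (pr (s.L j))⟩
  congr 1
  funext j
  exact P.eR (hs j) hp

/-- the step of `GS` for a state, any local term -/
theorem GS_stp {loc : ℕ → Gp Λ κ → ℝ} (hl : LocE loc) (P : Pr M pr) (n : ℕ) (hs : gk M p s)
    (hp : p ≠ 0) : GS loc (n + 1) p (stp pr s).g = loc p (gBs p (stp pr s)) +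
      GS loc n p (stp pr (M.C p s)).g + GS loc n (p - 1) (stp pr (M.N p s)).g := by
  have hw : ∀ j, ∀ t ∈ bB p ((stp pr s).L j), WOk p t := fun j => P.wok (hs j) hp
  have h1 := GS_step hl n hp (stp pr s).c (stp pr s).L hw
  have h2 : GS loc n (p - 1) (fl (stp pr s).c fun j => bR p ((stp pr s).L j)) =
      GS loc n (p - 1) (stp pr (M.N p s)).g := by
    rw [stp_N P hs hp]
    exact GS_congrL hl n (p - 1) _ _ (fl_bR_bN p (stp pr s).c (stp pr s).L)
  have h3 : GS loc n p (fl (cT (1 - 1 / (p : ℝ)) (stp pr s).c) (stC p (stp pr s).L)) =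
      GS loc n p (stp pr (M.C p s)).g := by
    rw [stp_C P hs hp]
    by_cases h : 2 ≤ p
    · rw [stCh_pos h]; rfl
    · rw [stCh_neg h]
      have hp1 : p = 1 := by omega
      subst hp1
      have e1 : Eqv (fl (cT (1 - 1 / ((1 : ℕ) : ℝ)) (stp pr s).c) (stC 1 (stp pr s).L))
          ([] : Gp Λ κ) := fun φ => by
        rw [ev_fl, ev_nil]
        refine Finset.sum_eq_zero fun x _ => ?_
        unfold stC
        have : bB 1 ((stp pr s).L x.1) = [] := P.no1 (hs x.1)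
        rw [this]
        simp
      have e2 : Eqv (GWc343.St.g (⟨(stp pr s).J, (stp pr s).fJ, (stp pr s).c, (stp pr s).W,
          fun _ => []⟩ : GWc343.St Λ κ)) ([] : Gp Λ κ) := fun φ => by
        unfold GWc343.St.g
        rw [ev_fl, ev_nil]
        exact Finset.sum_eq_zero fun x _ => by simp
      rw [GS_congr hl n 1 _ _ e1, GS_congr hl n 1 _ _ e2]
  rw [← h2, ← h3]
  exact h1

/-- **walk sum of local terms** -/
noncomputable def Kw (M : BM β) (f : ℕ → Gs β → ℝ) : ℕ → ℕ → Gs β → ℝ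
  | 0, _, _ => 0
  | n + 1, p, s => if p = 0 then 0 else f p s + Kw M f n p (M.C p s) + Kw M f n (p - 1) (M.N p s)

lemma Kw_succ (M : BM β) (f : ℕ → Gs β → ℝ) (n : ℕ) {p : ℕ} (hp : p ≠ 0) (s : Gs β) :
    Kw M f (n + 1) p s = f p s + Kw M f n p (M.C p s) + Kw M f n (p - 1) (M.N p s) := by
  show (if p = 0 then 0 else _) = _
  rw [if_neg hp]

lemma Kw_z (M : BM β) (f : ℕ → Gs β → ℝ) (n : ℕ) (s : Gs β) : Kw M f n 0 s = 0 := by
  cases n with
  | zero => rfl
  | succ n => simp [Kw]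

/-- **the group walk is the walk sum** -/
theorem GS_eq {loc : ℕ → Gp Λ κ → ℝ} (hl : LocE loc) (P : Pr M pr) :
    ∀ (n p : ℕ) (s : Gs β), gk M p s →
      GS loc n p (stp pr s).g = Kw M (fun p s => loc p (gBs p (stp pr s))) n p s := by
  intro n
  induction n with
  | zero => intro p s _; rfl
  | succ n ih =>
    intro p s hs
    by_cases hp : p = 0
    · subst hp
      simp [GS, Kw]
    · rw [GS_stp hl P n hs hp, Kw_succ _ _ n hp, ih p _ (gk_C P hs hp),
        ih (p - 1) _ (gk_N P hs hp)]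

/-- monotony on a closed set of states -/
theorem Kw_mono {ok : ℕ → Gs β → Prop} {f g : ℕ → Gs β → ℝ}
    (hC : ∀ {p s}, ok p s → p ≠ 0 → ok p (M.C p s))
    (hN : ∀ {p s}, ok p s → p ≠ 0 → ok (p - 1) (M.N p s))
    (h : ∀ {p s}, ok p s → p ≠ 0 → f p s ≤ g p s) :
    ∀ (n p : ℕ) (s : Gs β), ok p s → Kw M f n p s ≤ Kw M g n p s := by
  intro n
  induction n with
  | zero => intro p s _; exact le_rfl
  | succ n ih =>
    intro p s hs
    by_cases hp : p = 0
    · subst hp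
      rw [Kw_z, Kw_z]
    · rw [Kw_succ _ _ n hp, Kw_succ _ _ n hp]
      exact add_le_add (add_le_add (h hs hp) (ih p _ (hC hs hp))) (ih (p - 1) _ (hN hs hp))

theorem Kw_congr {ok : ℕ → Gs β → Prop} {f g : ℕ → Gs β → ℝ}
    (hC : ∀ {p s}, ok p s → p ≠ 0 → ok p (M.C p s))
    (hN : ∀ {p s}, ok p s → p ≠ 0 → ok (p - 1) (M.N p s))
    (h : ∀ {p s}, ok p s → p ≠ 0 → f p s = g p s) (n p : ℕ) (s : Gs β) (hs : ok p s) :
    Kw M f n p s = Kw M g n p s :=
  le_antisymm (Kw_mono (ok := ok) hC hN (fun a b => (h a b).le) n p s hs)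
    (Kw_mono (ok := ok) hC hN (fun a b => (h a b).ge) n p s hs)

lemma Kw_add (f g : ℕ → Gs β → ℝ) : ∀ (n p : ℕ) (s : Gs β),
    Kw M (fun p s => f p s + g p s) n p s = Kw M f n p s + Kw M g n p s := by
  intro n
  induction n with
  | zero => intro p s; show (0 : ℝ) = 0 + 0; norm_num
  | succ n ih =>
    intro p s
    by_cases hp : p = 0
    · subst hp
      rw [Kw_z, Kw_z, Kw_z]; norm_num
    · rw [Kw_succ _ _ n hp, Kw_succ _ _ n hp, Kw_succ _ _ n hp, ih, ih]
      ring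

lemma Kw_smul (c : ℝ) (f : ℕ → Gs β → ℝ) : ∀ (n p : ℕ) (s : Gs β),
    Kw M (fun p s => c * f p s) n p s = c * Kw M f n p s := by
  intro n
  induction n with
  | zero => intro p s; show (0 : ℝ) = c * 0; norm_num
  | succ n ih =>
    intro p s
    by_cases hp : p = 0
    · subst hp
      rw [Kw_z, Kw_z]; norm_num
    · rw [Kw_succ _ _ n hp, Kw_succ _ _ n hp, ih, ih]
      ring

lemma Kw_nonneg {ok : ℕ → Gs β → Prop} {f : ℕ → Gs β → ℝ}
    (hC : ∀ {p s}, ok p s → p ≠ 0 → ok p (M.C p s))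
    (hN : ∀ {p s}, ok p s → p ≠ 0 → ok (p - 1) (M.N p s))
    (h : ∀ {p s}, ok p s → p ≠ 0 → 0 ≤ f p s) :
    ∀ (n p : ℕ) (s : Gs β), ok p s → 0 ≤ Kw M f n p s := by
  intro n
  induction n with
  | zero => intro p s _; exact le_rfl
  | succ n ih =>
    intro p s hs
    by_cases hp : p = 0
    · subst hp
      rw [Kw_z]
    · rw [Kw_succ _ _ n hp]
      exact add_nonneg (add_nonneg (h hs hp) (ih p _ (hC hs hp))) (ih (p - 1) _ (hN hs hp))

section sys
variable {δ : Type} [Fintype δ] {R : RXm β δ} {U : RBm R}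

/-- the walk sum of the real costs -/
lemma Kr_eq (R : RXm β δ) (rc : ℕ → Gs β → ℝ → ℝ) : ∀ (n p : ℕ) (s : Gs β),
    Kr R rc n p s = Kw (bm R) (fun p s => I (rc p s)) n p s := by
  intro n
  induction n with
  | zero => intro p s; rfl
  | succ n ih =>
    intro p s
    by_cases hp : p = 0
    · subst hp
      simp [Kr, Kw]
    · rw [Kr_succ _ _ n hp, Kw_succ _ _ n hp, ih, ih]
      rfl

/-- **the group walk is at most the walk sum of the real costs and of the rest** -/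
theorem GS_le {loc : ℕ → Gp Λ κ → ℝ} (hl : LocE loc) (P : Pr (bm R) pr) (D : RGx U)
    {rc : ℕ → Gs β → ℝ → ℝ} {er : ℕ → Gs β → ℝ}
    (h : ∀ {p s}, D.ok p s → p ≠ 0 → loc p (gBs p (stp pr s)) ≤ I (rc p s) + er p s)
    (n p : ℕ) (s : Gs β) (hs : D.ok p s) :
    GS loc n p (stp pr s).g ≤ Kr R rc n p s + Kw (bm R) er n p s := by
  rw [GS_eq hl P n p s (D.gk hs).2, Kr_eq, ← Kw_add]
  exact Kw_mono (M := bm R) (ok := D.ok) (fun hs hp => D.okC hs hp) (fun hs hp => D.okN hs hp)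
    (fun hs hp => h hs hp) n p s hs

end sys

/-! ### one bundle -/

/-- the state of one bundle -/
noncomputable def one (b : β) : Gs β := ⟨Unit, inferInstance, fun _ => 1, Wc Unit, fun _ => b⟩

lemma one_TC (b : β) : TC (one b).c (one b).W :=
  TC.triv (fun _ => zero_le_one) (by
    show ∑ _j : Unit, (1 : ℝ) = 1
    simp)

lemma one_g {b : β} {t : DT Λ κ} (h : pr b = [t]) : (stp pr (one b)).g = [((1 : ℝ), t)] := by
  show fl (fun _ : Unit => (1 : ℝ)) (fun _ => pr b) = _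
  rw [h]
  unfold fl
  simp

lemma one_su (b : β) (F : β → ℝ → ℝ) (x : ℝ) : su (one b) F x = F b x := by
  show GMer27.M (fun _ : Unit => (1 : ℝ)) (fun _ => F b x) = _
  unfold GMer27.M
  simp

lemma one_M (b : β) (F : β → ℝ) : GMer27.M (one b).c (fun j => F ((one b).L j)) = F b := by
  show GMer27.M (fun _ : Unit => (1 : ℝ)) (fun _ => F b) = _
  unfold GMer27.M
  simp

end Crest.Agent.R4P.GSK55
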