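import Crest.Agent.R4P.SecO_25
import Crest.Agent.R4P.GSK_55

/-!
R4 (S0004) with powers, T3, helper55: **the second order term for the full contents of the missing
children**.

* `SOn p g = I (1/p · Σ_m m.1 · (total of the missing child of m.2))²` : bounds the second order terms
  of ANY lifts which are at most the full lifts (impure real classes, decoupled rows);
* `ctx_SOn` : **`GS SOn ≤ ε mu` at all nodes of a context** under the bootstrap hypothesis;
* `Kw_SOn` : the walk sum of `I (Ep p GT)²` of a row system over bundles of trees is at most `GS SOn` as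
  soon as `Ep p (GT of the bundle) y ≤ 1/p · Σ_{ties} n0 t y`.
-/

set_option autoImplicit false
set_option linter.unusedSectionVars false
set_option linter.unusedVariables false
open MeasureTheory Filter Set

namespace Crest.Agent.R4P.SecO55

open Crest.Agent.R4.Tour104 Crest.Agent.R4.Tour758 Crest.Agent.R4.Avg758 Crest.Agent.R4.Clos758
open Crest.Agent.R4.ClosL758 Crest.Agent.R4.ClosG758 Crest.Agent.R4.ClosR758
open Crest.Agent.R4.Fam464
open Crest.Agent.R4P.ClosR442 Crest.Agent.R4P.Grp36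
open Crest.Agent.R4P.Xfer36 Crest.Agent.R4P.TopC36 Crest.Agent.R4P.PN36
open Crest.Agent.R4P.Walk560 (DT)
open Crest.Agent.R4P.Cnt588 Crest.Agent.R4P.Item758
open Crest.Agent.R4P.NodeG33 Crest.Agent.R4P.WtI25
open Crest.Agent.R4P.Bld532 (NS All NodeOk Bk Ws_nonneg Ws_mono)
open Crest.Agent.R4P.SecO25

section loc
variable {Λ κ : Type*} [Fintype Λ] [DecidableEq Λ] [Fintype κ] [DecidableEq κ]

/-- content of the missing children of a group -/
noncomputable def nG (g : Gp Λ κ) (y : ℝ) : ℝ := (g.map fun m => m.1 * n0 m.2 y).sum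

/-- **second order term** of a group of ties and pulls, full contents -/
noncomputable def SOn (p : ℕ) (g : Gp Λ κ) : ℝ :=
  I (fun y => (1 / (p : ℝ) * nG g y) ^ 2)

/-- **one step** -/
theorem SOn_le [WRel κ] {p : ℕ} {g : Gp Λ κ} (hw : ∀ m ∈ g, 0 ≤ m.1)
    (hg : ∀ m ∈ g, NOk m.2) (hb : ∀ m ∈ g, isB p m.2 = true) (u : DT Λ κ → ℝ)
    (hu : ∀ m ∈ g, (u m.2 = 1) ∨ (0 ≤ u m.2 ∧ ∀ y, n0 m.2 y = 0)) {Wt : ℝ}
    (hW : (g.map fun m => m.1 * u m.2).sum ≤ Wt) :
    SOn p g ≤ (1 / (p : ℝ)) ^ 2 * (Wt * (g.map fun m => m.1 * I (fun y => n0 m.2 y ^ 2)).sum) := by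
  have pn : ∀ m ∈ g, PB (n0 m.2) := fun m hm => n0_PB (hg m hm).2 (hb m hm)
  have pn2 : ∀ m ∈ g, PB (fun y => n0 m.2 y ^ 2) := fun m hm => PBsq (pn m hm)
  obtain ⟨q1, q2⟩ := I_list g (fun t y => n0 t y ^ 2) pn2 hw
  obtain ⟨pS, -⟩ := I_list g (fun t y => n0 t y) pn hw
  rw [← q2, ← mul_assoc, ← I_smul]
  have pL : PB (fun y => (1 / (p : ℝ) * nG g y) ^ 2) := PBsq (pS.smul (by positivity))
  have hS0 : 0 ≤ (g.map fun m => m.1 * u m.2).sum := (cs_list g hw (fun t => n0 t 0) u (fun m hm => by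
    rcases hu m hm with h | ⟨h, h0⟩
    · exact Or.inl h
    · exact Or.inr ⟨h, h0 0⟩)).2.1
  refine I_mono pL.integrableOn (q1.smul (mul_nonneg (sq_nonneg _) (hS0.trans hW))).integrableOn
    fun y => ?_
  have h2 := cs_list g hw (fun t => n0 t y) u (fun m hm => by
    rcases hu m hm with h | ⟨h, h0⟩
    · exact Or.inl h
    · exact Or.inr ⟨h, h0 y⟩)
  have h4 : nG g y ^ 2 ≤ (g.map fun m => m.1 * u m.2).sum *
    (g.map fun m => m.1 * n0 m.2 y ^ 2).sum := h2.1
  rw [mul_pow, mul_assoc]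
  refine mul_le_mul_of_nonneg_left (h4.trans ?_) (sq_nonneg _)
  exact mul_le_mul_of_nonneg_right hW h2.2.2

end loc

/-! ### node level -/

section node
variable {Λ κ : Type*} [Fintype Λ] [DecidableEq Λ] [Fintype κ] [DecidableEq κ] [WRel κ]
variable {D : Item758.Par Λ κ} {sp : ℕ → Finset Λ}
variable {P : Bld532.Par} {W : ℕ → ℝ} {Q : NS → IT → Prop} {c0 : ℝ} {T p : ℕ} {G : NGp}

/-- **one step of the node walk** -/
theorem SOn_im (hg : ∀ s t, Q s t → NOk (D.toDT sp s.B s.A t)) (hI : IV p G) (hG : NG Q c0 T G) :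
    SOn p (im D sp (gBN p G)) ≤ linN (phN (ph D sp)) (gBN p G) := by
  have hw := ngw0 (hG.gB p)
  have hB := hG.gB p
  have hb : ∀ m ∈ gBN p G, isBN p m.2 = true := fun m hm => (List.mem_filter.1 hm).2
  have hT := tieW_le hI hG
  set g := gBN p G with hgd
  have hw' : ∀ m ∈ im D sp g, 0 ≤ m.1 := by
    intro m hm
    obtain ⟨m', h1, rfl⟩ := List.mem_map.1 hm
    exact hw m' h1
  have hb' : ∀ m ∈ im D sp g, isB p m.2 = true := by
    intro m hm
    obtain ⟨m', h1, rfl⟩ := List.mem_map.1 hm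
    show isB p (imN D sp m'.2) = true
    rw [isB_imN]
    exact hb m' h1
  have hg' : ∀ m ∈ im D sp g, NOk m.2 := by
    intro m hm
    obtain ⟨m', h1, rfl⟩ := List.mem_map.1 hm
    have h2 := hB m' h1
    have h3 := hb m' h1
    rcases m' with ⟨c, x⟩
    rcases isBN_cases h3 with ⟨s, Sp, t₁, t₀, e⟩ | ⟨s, t, e⟩
    · simp only at e
      subst e
      exact hg _ _ h2.1.self
    · simp only at e
      subst e
      exact hg _ _ h2.1.self
  -- weights of the ties
  classical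
  let u : DT Λ κ → ℝ := fun t => if ∀ y, n0 t y = 0 then 0 else 1
  have hu : ∀ m ∈ im D sp g, (u m.2 = 1) ∨ (0 ≤ u m.2 ∧ ∀ y, n0 m.2 y = 0) := by
    intro m _
    by_cases h : ∀ y, n0 m.2 y = 0
    · right
      refine ⟨?_, h⟩
      show 0 ≤ if ∀ y, n0 m.2 y = 0 then (0 : ℝ) else 1
      rw [if_pos h]
    · left
      show (if ∀ y, n0 m.2 y = 0 then (0 : ℝ) else 1) = 1
      rw [if_neg h]
  have hle : ((im D sp g).map fun m => m.1 * u m.2).sum ≤ 1 := by
    refine le_trans ?_ hT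
    have e : ((im D sp g).map fun m => m.1 * u m.2).sum = linN (fun x => u (imN D sp x)) g := by
      unfold linN im
      rw [List.map_map]
      rfl
    rw [e]
    refine linN_le fun m hm => mul_le_mul_of_nonneg_left ?_ (hw m hm)
    rcases isBN_cases (hb m hm) with ⟨s, Sp, t₁, t₀, e⟩ | ⟨s, t, e⟩
    · rw [e]
      show (if _ then (0 : ℝ) else 1) ≤ 1
      split_ifs <;> norm_num
    · rw [e]
      show (if ∀ y, n0 (imN D sp (.inl (s, .pl p t))) y = 0 then (0 : ℝ) else 1) ≤ 0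
      rw [if_pos]
      intro y
      show ∑ j : Λ, (fun _ _ => (0 : ℝ)) j y = 0
      simp
  have key := SOn_le hw' hg' hb' u hu hle
  refine key.trans (le_of_eq ?_)
  rw [one_mul]
  have e2 : ((im D sp g).map fun m => m.1 * I (fun y => n0 m.2 y ^ 2)).sum =
      linN (fun x => I (fun y => n0 (imN D sp x) y ^ 2)) g := by
    unfold linN im
    rw [List.map_map]
    rfl
  rw [e2]
  have e3 : ∀ (l : NGp), (∀ m ∈ l, isBN p m.2 = true) →
      (1 / (p : ℝ)) ^ 2 * linN (fun x => I (fun y => n0 (imN D sp x) y ^ 2)) l =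
      linN (phN (ph D sp)) l := by
    intro l
    induction l with
    | nil => intro _; simp
    | cons m l ih =>
      intro hl
      rw [linN_cons, linN_cons, mul_add, ih fun a ha => hl a (List.mem_cons_of_mem _ ha)]
      congr 1
      rcases isBN_cases (hl m (by simp)) with ⟨s, Sp, t₁, t₀, e⟩ | ⟨s, t, e⟩
      · rw [e]
        show (1 / (p : ℝ)) ^ 2 * (m.1 *
            I (fun y => (∑ j, (D.toDT sp (s.B * p) s.A t₀).g.val j y) ^ 2)) =
          m.1 * ((1 / (p : ℝ)) ^ 2 *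
            I (fun y => (∑ j, (D.toDT sp (s.B * p) s.A t₀).g.val j y) ^ 2))
        ring
      · rw [e]
        have e4 : (fun y => n0 (imN D sp (.inl (s, .pl p t))) y ^ 2) = fun _ => (0 : ℝ) := by
          funext y
          have : n0 (imN D sp (.inl (s, .pl p t))) y = 0 := by
            show ∑ j : Λ, (fun _ _ => (0 : ℝ)) j y = 0
            simp
          rw [this]; norm_num
        rw [e4]
        show (1 / (p : ℝ)) ^ 2 * (m.1 * I (fun _ => (0 : ℝ))) = m.1 * 0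
        simp [I]
  exact e3 g hb

/-- **the whole walk** -/
theorem GS_SOn_le (hP : PO P W) (hC : C2 Q) (hQ : ∀ s t, Q s t → NodeOk P W s t)
    (hg : ∀ s t, Q s t → NOk (D.toDT sp s.B s.A t)) {u : NS} {τ : IT} (h : All Q u τ)
    (n p : ℕ) : GS SOn n p [((1 : ℝ), D.toDT sp u.B u.A τ)] ≤ tsum (ph D sp) u τ := by
  have e : ([((1 : ℝ), D.toDT sp u.B u.A τ)] : Gp Λ κ) = im D sp [((1 : ℝ), .inl (u, τ))] := rfl
  have h1 := GSN_monoW (P := P) (W := W) (c0 := u.c) hP hQ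
    (loc := fun p B _ => SOn p (im D sp B)) (loc' := fun _ B _ => linN (phN (ph D sp)) B) hC
    (fun p T G hp hG hI => SOn_im hg hI hG) n p (u.A * u.B) _ (NG.start h)
    (IV.start hP (All.mono hQ h) p)
  have h2 := GSN_lin (fun s t => ph_nonneg D sp s t) hC n p (u.A * u.B) _ (NG.start h)
  rw [e, GS_im]
  refine h1.trans (h2.trans (le_of_eq ?_))
  rw [linN_cons, linN_nil, add_zero, one_mul]
  rfl

end node

section ctx
open Crest.Agent.R4P.Data758 Crest.Agent.R4P.Skel189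
open Crest.Agent.R4P.Step588 (ctx_NDt All_All)
open Crest.Agent.R4P.AsmX26 (QE ctx_QE)
open Crest.Agent.R4P.SkelF29 (BootF)
open Crest.Agent.R4P.Strip29 (AdF)
open Crest.Agent.R4P.Frame758 Crest.Agent.R4.Soft104
open Crest.Agent.R4P.CtxNF36 (par_PG)

variable {N : Skel189.Num} {γ : ℝ} {p0 P₀ : ℕ}

/-- **the second order term of the group walks of a context** -/
theorem ctx_SOn (N : Skel189.Num) (M : ℝ) (hM : 0 ≤ M) {ε : ℝ} (hε : 0 < ε) : ∃ p₁ : ℕ,
    ∀ p0 ≥ p₁, ∀ (γ : ℝ) (P₀ : ℕ) (X : Ctx N γ p0 P₀) (j₀ : X.c.Lam) (Kb : ℝ), 0 ≤ Kb →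
      Kb ≤ M * Real.log p0 ^ M →
      All (fun u τ => BootF X j₀ (fun _ _ => 0) Kb u τ → ∀ n p,
        GS SOn n p [((1 : ℝ), (X.self u τ Finset.univ).t)] ≤ ε * X.mu j₀ u τ Finset.univ)
        ⟨top X.S, 1, 1, 1⟩ X.c.t := by
  have hB0 : 0 ≤ N.B := by have := N.hB; have := N.hC1; have := N.hc2; linarith
  have hc0 : 0 ≤ N.c2 := N.hc2
  obtain ⟨p1, h1⟩ := par_PG N
  obtain ⟨p2, hp3, h2⟩ := tail_le (M * 6) (M + (N.B + (N.B + N.c2))) (by positivity) hε
  refine ⟨p1 + p2, fun p0 hp0 γ P₀ X j₀ Kb hK0 hK => ?_⟩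
  have hψ : ∀ q, 0 ≤ w X.ψ q := fun q => by
    have := X.sys.nonneg q
    unfold w
    positivity
  have hG : StratX36.PG X.par (w X.ψ) := h1 p0 (by omega) (w X.ψ) hψ
  have hPO : PO X.par (w X.ψ) :=
    ⟨hG.w0, hG.lo0, fun k hk hk' => by have := hG.sg8 k hk hk'; have := hG.sg0 k; linarith⟩
  have hQE := ctx_QE X j₀ (Q' := fun _ _ => True) (All.mono (fun _ _ _ => trivial) (ctx_NDt X))
  refine All.mono (fun u τ hh hb n p => ?_) ((All_All _ _ hQE).and (All_All _ _ (ctx_NOk X j₀)))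
  obtain ⟨hq, hnok⟩ := hh
  have hkid := kid_below X τ u hb
  -- the walk
  have hall : All (fun s t => QE X j₀ (fun _ _ => True) s t ∧
      ((X.self s t Finset.univ).t.All NOk)) u τ := hq.and hnok
  have key := GS_SOn_le (D := X.c.D.par X.Y) (sp := X.c.sp) (P := X.par) (W := w X.ψ)
    (Q := fun s t => QE X j₀ (fun _ _ => True) s t ∧ ((X.self s t Finset.univ).t.All NOk)) hPO
    (fun s q Sp t₁ t₀ h => h.1.nd.self.node.1.two_le)
    (fun s t h => h.1.nd.self.node) (fun s t h => h.2.self) hall n p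
  refine key.trans ?_
  -- the energies of the missing children
  set a : ℕ → ℝ := fun q => M * 6 * Real.log q ^ (M + (N.B + (N.B + N.c2))) * (1 / (q : ℝ)) ^ 2
    with ha
  have ha0 : ∀ q, 0 ≤ a q := fun q => by
    have := Real.log_natCast_nonneg q
    positivity
  have hmu : X.mu j₀ u τ Finset.univ = u.c * Ws (w X.ψ) τ.items := hq.self.mass
  have hc0' : 0 ≤ u.c := hq.self.nf.c0.le
  rw [hmu]
  refine le_trans (tsum_le (P := X.par) (W := w X.ψ) ha0 hψ τ u (All.mono (fun s t hst => ?_)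
    ((All_All _ _ hq).and hkid))) (mul_le_mul_of_nonneg_right (h2 p0 (by omega) _)
      (mul_nonneg hc0' (Ws_nonneg hψ _)))
  obtain ⟨h, k⟩ := hst
  refine ⟨h.self.nd.self.node, h.self.nf.c0.le, fun q Sp t₁ t₀ e => ?_, fun q t' e => ?_⟩
  · subst e
    have hmass : X.tn j₀ (X.g ⟨q, s.c * q, s.A, s.B * q⟩ t₀) =
      s.c * q * Ws (w X.ψ) t₀.items := h.2.2.self.mass
    have hsc : 0 ≤ s.c := h.self.nf.c0.le
    obtain ⟨hp, g1, g2, g3, g4, g5, g6, g7, g8, hlo, hhi, hsg, -⟩ := h.self.nd.self.node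
    have hq3 : 3 ≤ q := by
      have : p0 < q := g2
      omega
    have hq0 : (0 : ℝ) < q := by positivity
    have hL := Bld532.one_le_log_nat hq3
    have hL0 : 0 < Real.log q := by linarith
    have kk := k Finset.univ (Or.inr rfl)
    have e1 : (fun x => tt Finset.univ (X.g ⟨q, s.c * q, s.A, s.B * q⟩ t₀) x ^ 2) =
        fun y => (∑ j, ((X.c.D.par X.Y).toDT X.c.sp (s.B * q) s.A t₀).g.val j y) ^ 2 := by
      funext y
      unfold tt
      rw [rv_univ, Item758.Par.toDT_g]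
      rfl
    rw [e1] at kk
    set m0 : ℝ := s.c * q * Ws (w X.ψ) t₀.items with hm0
    have e2 : X.tm j₀ (X.g ⟨q, s.c * q, s.A, s.B * q⟩ t₀) Finset.univ = m0 := hmass
    have kk' : I (fun y => (∑ j, ((X.c.D.par X.Y).toDT X.c.sp (s.B * q) s.A t₀).g.val j y) ^ 2) ≤
        Kb * (m0 + m0 * m0 + 0) := by
      have k2 := kk
      rw [e2, hmass] at k2
      exact k2
    rw [add_zero] at kk'
    set μ : ℝ := s.c * Ws (w X.ψ) (t₁.items ∪ t₀.items) with hμ
    have hμ0 : 0 ≤ μ := mul_nonneg hsc (Ws_nonneg hψ _)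
    have hm00 : 0 ≤ m0 := mul_nonneg (mul_nonneg hsc hq0.le) (Ws_nonneg hψ _)
    set L := Real.log (q : ℝ) with hLd
    have hLB : 0 < L ^ N.B := Real.rpow_pos_of_pos hL0 _
    have hLc : 1 ≤ L ^ (N.B + N.c2) := Real.one_le_rpow hL (by linarith)
    have hsg' : Ws (w X.ψ) t₀.items ≤
        2 * (L ^ N.B / q) * Ws (w X.ψ) (t₁.items ∪ t₀.items) := hsg
    have hhi' : μ ≤ L ^ N.c2 := hhi
    have hm1 : m0 ≤ 2 * L ^ N.B * μ := by
      have h5 : m0 ≤ s.c * q * (2 * (L ^ N.B / q) * Ws (w X.ψ) (t₁.items ∪ t₀.items)) :=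
        mul_le_mul_of_nonneg_left hsg' (mul_nonneg hsc hq0.le)
      refine h5.trans (le_of_eq ?_)
      rw [hμ]
      field_simp
    have hm2 : m0 ≤ 2 * L ^ (N.B + N.c2) := by
      rw [Real.rpow_add hL0]
      have : L ^ N.B * μ ≤ L ^ N.B * L ^ N.c2 := mul_le_mul_of_nonneg_left hhi' hLB.le
      linarith
    have hm3 : m0 + m0 * m0 ≤ 6 * L ^ N.B * L ^ (N.B + N.c2) * μ := by
      have h5 : m0 * m0 ≤ m0 * (2 * L ^ (N.B + N.c2)) := mul_le_mul_of_nonneg_left hm2 hm00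
      have h6 : m0 ≤ m0 * L ^ (N.B + N.c2) := by nlinarith
      have h7 : m0 * L ^ (N.B + N.c2) ≤ 2 * L ^ N.B * μ * L ^ (N.B + N.c2) :=
        mul_le_mul_of_nonneg_right hm1 (by linarith)
      nlinarith
    have hK' : Kb ≤ M * L ^ M := by
      refine hK.trans (mul_le_mul_of_nonneg_left ?_ hM)
      refine Real.rpow_le_rpow (Real.log_natCast_nonneg _) ?_ hM
      have hp00 : (0 : ℝ) < p0 := by
        have : 0 < p0 := by omega
        exact_mod_cast this
      exact Real.log_le_log hp00 (by exact_mod_cast (show p0 < q from g2).le)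
    show (1 / (q : ℝ)) ^ 2 *
      I (fun y => (∑ j, ((X.c.D.par X.Y).toDT X.c.sp (s.B * q) s.A t₀).g.val j y) ^ 2) ≤
      a q * μ
    have hLa : L ^ (M + (N.B + (N.B + N.c2))) = L ^ M * (L ^ N.B * L ^ (N.B + N.c2)) := by
      rw [Real.rpow_add hL0, Real.rpow_add hL0]
    calc (1 / (q : ℝ)) ^ 2 *
        I (fun y => (∑ j, ((X.c.D.par X.Y).toDT X.c.sp (s.B * q) s.A t₀).g.val j y) ^ 2) ≤
          (1 / (q : ℝ)) ^ 2 * ((M * L ^ M) * (6 * L ^ N.B * L ^ (N.B + N.c2) * μ)) :=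
          mul_le_mul_of_nonneg_left (kk'.trans (mul_le_mul hK' hm3
            (add_nonneg hm00 (mul_self_nonneg _)) (by positivity))) (sq_nonneg _)
      _ = a q * μ := by
          show _ = M * 6 * L ^ (M + (N.B + (N.B + N.c2))) * (1 / (q : ℝ)) ^ 2 * μ
          rw [hLa]; ring
  · subst e
    exact le_rfl

end ctx

/-! ### the walk of a row system -/

section walk
open Crest.Agent.R4P.GWa343 Crest.Agent.R4P.GWb343 Crest.Agent.R4P.GWc343 Crest.Agent.R4P.GWd343
open Crest.Agent.R4P.GMer27 Crest.Agent.R4P.GCol27 Crest.Agent.R4P.RSys343 Crest.Agent.R4P.PayR45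
open Crest.Agent.R4P.GSK55
open Crest.Agent.R4P.MSi343 (su)
open Crest.Agent.R4P.RXm55 (Ep_su PB_su)

variable {Λ κ : Type} [Fintype Λ] [DecidableEq Λ] [Fintype κ] [DecidableEq κ] {β : Type}
  {Mb : BM β} {pr : β → List (DT Λ κ)}

lemma nG_ev (g : Gp Λ κ) (y : ℝ) : nG g y = ev g (fun t => n0 t y) := rfl

lemma SOn_E : LocE (SOn : ℕ → Gp Λ κ → ℝ) := fun p g h H => by
  unfold SOn
  congr 1
  funext y
  rw [nG_ev, nG_ev, H]

/-- content of the missing children of a bundle -/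
noncomputable def nb (K : List (DT Λ κ)) (y : ℝ) : ℝ := (K.map fun t => n0 t y).sum

lemma nG_gBs (p : ℕ) (s : Gs β) (y : ℝ) :
    nG (gBs p (stp pr s)) y = su s (fun b y => nb (bB p (pr b)) y) y := by
  rw [nG_ev]
  unfold gBs
  rw [ev_fl]
  rfl

/-- **the second order terms of a row system over bundles of trees** : `gt p b` = total gain of the
bundle `b`, at most the content of the missing children -/
theorem Kw_SOn (P : Pr Mb pr) {gt : ℕ → β → ℝ → ℝ} {ok : ℕ → Gs β → Prop}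
    (hg : ∀ {p s}, ok p s → gk Mb p s)
    (hw : ∀ {p s}, ok p s → ∀ j, 0 ≤ s.c j)
    (hC : ∀ {p s}, ok p s → p ≠ 0 → ok p (Mb.C p s))
    (hN : ∀ {p s}, ok p s → p ≠ 0 → ok (p - 1) (Mb.N p s))
    (hgt : ∀ {p b}, Mb.ok p b → p ≠ 0 → PB (gt p b))
    (hnb : ∀ {p b}, Mb.ok p b → p ≠ 0 → PB (nb (bB p (pr b))))
    (h : ∀ {p b}, Mb.ok p b → p ≠ 0 → ∀ y, Ep p (gt p b) y ≤ 1 / (p : ℝ) * nb (bB p (pr b)) y)
    (n p : ℕ) (s : Gs β) (hs : ok p s) :
    Kw Mb (fun p s => I (fun y => Ep p (su s (gt p)) y ^ 2)) n p s ≤ GS SOn n p (stp pr s).g := by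
  rw [GS_eq SOn_E P n p s (hg hs)]
  refine Kw_mono (M := Mb) (ok := ok) hC hN (fun {p s} hs hp => ?_) n p s hs
  have hp0 : 0 < p := Nat.pos_of_ne_zero hp
  have c0 := hw hs
  have hb := hg hs
  have pS : PB (su s (gt p)) := by
    unfold su GMer27.M
    exact PB.sum _ fun j _ => (hgt (hb j) hp).smul (c0 j)
  have pn : PB (su s fun b y => nb (bB p (pr b)) y) := by
    unfold su GMer27.M
    exact PB.sum _ fun j _ => (hnb (hb j) hp).smul (c0 j)
  unfold SOn
  have p2 : PB fun y => (1 / (p : ℝ) * nG (gBs p (stp pr s)) y) ^ 2 := by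
    have e : (fun y => (1 / (p : ℝ) * nG (gBs p (stp pr s)) y) ^ 2) =
        fun y => (1 / (p : ℝ) * su s (fun b y => nb (bB p (pr b)) y) y) ^ 2 := by
      funext y; rw [nG_gBs]
    rw [e]
    exact PBsq (pn.smul (by positivity))
  refine I_mono (PBsq (pS.Ep hp0)).integrableOn p2.integrableOn fun y => ?_
  have h0 : 0 ≤ Ep p (su s (gt p)) y := (pS.Ep hp0).nonneg y
  refine pow_le_pow_left₀ h0 ?_ 2
  rw [nG_gBs, Ep_su]
  unfold su
  rw [← M_smul]
  exact M_mono c0 fun j => h (hb j) hp y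

end walk

end Crest.Agent.R4P.SecO55
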