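import Crest.Agent.R4P.E3M_479
import Crest.Agent.R4P.SecO2_55

/-!
R4 (S0004) with powers, T3, helper407: **the telescoped local link without sheets**.

`E3U479.TM.tie2` needs that related lifts of one fibre sit on one sheet (`hv`, `ShL_48`; not true for
unlabelled classes). Without it one only loses the second order term `(Σ_a Ep (lifts of a))²`, which is at
most `(1/p · content of the missing children)²` and is paid by `SecO55` (`GS SOn ≤ ε mass`).

* **`tie3`**, **`step3`**, **`loc_of3`**, **`link_leG3`**, **`gT_leG3`** : no hypothesis on sheets;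
  `er = erf2` with `ec + 2 m0 so2` (`AsB407.Kw_so2` : `Kw so2 ≤ GS SOn`).
-/

set_option autoImplicit false
set_option linter.unusedSectionVars false
set_option linter.unusedVariables false
open MeasureTheory Filter Set

namespace Crest.Agent.R4P.E3N407

open Crest.Agent.R4.Tour104 Crest.Agent.R4.Tour758 Crest.Agent.R4.Avg758 Crest.Agent.R4.Clos758
open Crest.Agent.R4.ClosL758 Crest.Agent.R4.ClosG758 Crest.Agent.R4.ClosR758
open Crest.Agent.R4P.ClosR442 Crest.Agent.R4P.Grp36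
open Crest.Agent.R4P.Xfer36 Crest.Agent.R4P.TopC36 Crest.Agent.R4P.PN36
open Crest.Agent.R4P.GMer27 Crest.Agent.R4P.GCol27 Crest.Agent.R4P.GWa343 Crest.Agent.R4P.GWb343
open Crest.Agent.R4P.GWc343 Crest.Agent.R4P.GWd343 Crest.Agent.R4P.TrR343 Crest.Agent.R4P.DTp26
open Crest.Agent.R4P.RSys343 Crest.Agent.R4P.RXm55 Crest.Agent.R4P.MSm25 Crest.Agent.R4P.MSd343
open Crest.Agent.R4P.VR407 Crest.Agent.R4P.Bp407 Crest.Agent.R4P.DTm407
open Crest.Agent.R4P.GSK55 (stp gk Pr Kw Kw_succ Kw_z one one_TC one_su BC_pos BC_neg)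
open Crest.Agent.R4P.PayR45
open Crest.Agent.R4P.E3D479 Crest.Agent.R4P.E3E479 Crest.Agent.R4P.E3P479 Crest.Agent.R4P.E3T479
open Crest.Agent.R4P.E3S479 Crest.Agent.R4P.E3U479 Crest.Agent.R4P.E3L479 Crest.Agent.R4P.E3M479
open Crest.Agent.R4P.MSi343 (su)
open Crest.Agent.R4P.Walk560 (DT)

section grp
variable {μ Λ κ φ ι : Type} [Fintype Λ] [DecidableEq Λ] [Fintype κ] [DecidableEq κ]
  [Fintype φ] [DecidableEq φ] [Fintype ι] [DecidableEq ι]
variable {B : BM (μ × List (DT Λ κ))} {wr : ℕ → Λ → κ} {tu : ℕ → μ → μ}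
  {fm : ℕ → μ → ℝ → Λ → φ} {p : ℕ} {s : Gs (μ × List (DT Λ κ))} {b : μ × List (DT Λ κ)}
  {pi : φ → ι} {ix : κ → ι}

variable (H : TM B wr tu fm)

include H

/-- **one step at a tie** -/
theorem tie3 {Q : φ → φ → Prop} (hs : gst B p s) (hp : p ≠ 0) (y : ℝ) :
    Ep p (QS Q (Eg wr tu fm p s) (Eg wr tu fm p s)) y +
      QS Q (Fg fm p (B.C p s)) (Fg fm p (B.C p s)) y ≤
      Ep p (QS Q (Bg tu fm p s) (Bg tu fm p s)) y + ir Q wr tu fm p s y +
      QS Q (fun a => Ep p (Xg wr tu fm p s a)) (fun a => Ep p (Xg wr tu fm p s a)) y := by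
  classical
  have hp0 : 0 < p := Nat.pos_of_ne_zero hp
  have c0 := hs.1.c0
  have nD : ∀ a x, 0 ≤ Dg wr tu fm p s a x := fun a => (H.pDg hs hp a).nonneg
  have nX : ∀ a x, 0 ≤ Xg wr tu fm p s a x := fun a => (H.pXg hs hp a).nonneg
  have nE : ∀ a x, 0 ≤ Eg wr tu fm p s a x := fun a => (H.pEg hs hp a).nonneg
  have hEX : ∀ a x, Eg wr tu fm p s a x ≤ Xg wr tu fm p s a x := fun a x =>
    M_mono c0 fun j => by
      have := (PB_uB (H.kok (hs.2 j) hp) (H.mo (s.L j) p) a).nonneg x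
      show eB (wr p) p (bB p (s.L j).2) (oL tu fm p (s.L j)) a x ≤
        eB (wr p) p (bB p (s.L j).2) (oL tu fm p (s.L j)) a x +
        uB (wr p) p (bB p (s.L j).2) (oL tu fm p (s.L j)) a x
      linarith
  -- the constant parts
  have hdec : ∀ a, ∀ i < p, Bg tu fm p s a ((y + i) / p) + Dg wr tu fm p s a ((y + i) / p) =
      (M s.c fun j => cB (wr p) p (bB p (s.L j).2) (oL tu fm p (s.L j)) a y) +
        Xg wr tu fm p s a ((y + i) / p) := by
    intro a i _
    have e1 : (p : ℝ) * ((y + (i : ℝ)) / p) = y + i := by field_simp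
    unfold Bg Dg Xg su
    rw [← M_add, ← M_add]
    congr 1
    funext j
    have e2 := dec (H.kok (hs.2 j) hp) (oL tu fm p (s.L j)) a ((y + (i : ℝ)) / p)
    rw [e1, (PB_cB (H.kok (hs.2 j) hp) hp0 (H.mo (s.L j) p) a).per_nat] at e2
    exact e2
  -- one pair
  have pair : ∀ a b, Q a b → Ep p (fun x => Eg wr tu fm p s a x *
      Eg wr tu fm p s b x) y + Fg fm p (B.C p s) a y * Fg fm p (B.C p s) b y ≤
      Ep p (fun x => Bg tu fm p s a x * Bg tu fm p s b x) y +
      (Ep p (fun x => Dg wr tu fm p s a x * Xg wr tu fm p s b x) y +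
      Ep p (fun x => Xg wr tu fm p s a x * Dg wr tu fm p s b x) y +
      Ep p (Dg wr tu fm p s a) y * Ep p (Dg wr tu fm p s b) y) +
      Ep p (Xg wr tu fm p s a) y * Ep p (Xg wr tu fm p s b) y := by
    intro a b hQ
    have h1 := Ep_pair2 hp0 (hdec a) (hdec b) (nD a) (nD b) (nX a) (nX b)
    have h3 : Ep p (fun x => Eg wr tu fm p s a x * Eg wr tu fm p s b x) y ≤
        Ep p (fun x => Xg wr tu fm p s a x * Xg wr tu fm p s b x) y := by
      unfold Ep
      refine div_le_div_of_nonneg_right (Finset.sum_le_sum fun i _ => ?_) (by positivity)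
      exact mul_le_mul (hEX a _) (hEX b _) (nE b _) (nX a _)
    have h4 : Fg fm p (B.C p s) a y * Fg fm p (B.C p s) b y ≤
        Ep p (Bg tu fm p s a) y * Ep p (Bg tu fm p s b) y := by
      have hsC := gst_C H.cl hs hp
      exact mul_le_mul (H.Fg_C hs hp a y) (H.Fg_C hs hp b y) ((H.pFg hsC b).nonneg y)
        (((H.pFg hsC a).nonneg y).trans (H.Fg_C hs hp a y))
    linarith
  unfold ir
  rw [Ep_QS, Ep_QS, Ep_QS, Ep_QS]
  unfold QS
  rw [← Finset.sum_add_distrib, ← Finset.sum_add_distrib, ← Finset.sum_add_distrib,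
    ← Finset.sum_add_distrib, ← Finset.sum_add_distrib]
  refine Finset.sum_le_sum fun a _ => ?_
  rw [← Finset.sum_add_distrib, ← Finset.sum_add_distrib, ← Finset.sum_add_distrib,
    ← Finset.sum_add_distrib, ← Finset.sum_add_distrib]
  refine Finset.sum_le_sum fun b _ => ?_
  by_cases hQ : Q a b
  · simp only [if_pos hQ]
    have := pair a b hQ
    linarith
  · simp [hQ]

/-- **one step** -/
theorem step3 {Q : φ → φ → Prop} (hs : gst B p s) (hp : p ≠ 0) :
    I (QS Q (Eg wr tu fm p s) (Eg wr tu fm p s)) + Phi Q fm p (B.C p s) +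
      Phi Q fm (p - 1) (B.N p s) ≤
      Phi Q fm p s + I (jmp Q tu fm p s) + I (ir Q wr tu fm p s) +
      I (QS Q (fun a => Ep p (Xg wr tu fm p s a)) (fun a => Ep p (Xg wr tu fm p s a))) := by
  have hp0 : 0 < p := Nat.pos_of_ne_zero hp
  have sC := gst_C H.cl hs hp
  have sN := gst_N H.cl hs hp
  have pE := PB_QS (Q := Q) (H.pEg hs hp) (H.pEg hs hp)
  have pC := PB_QS (Q := Q) (H.pFg sC) (H.pFg sC)
  have pB' := PB_QS (Q := Q) (H.pBg hs hp) (H.pBg hs hp)
  have pF := PB_QS (Q := Q) (H.pFg hs) (H.pFg hs)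
  have pN := PB_QS (Q := Q) (H.pFg sN) (H.pFg sN)
  have pI : PB (ir Q wr tu fm p s) := PB_ir H hs hp
  have pJ : PB (jmp Q tu fm p s) := (PB_QJ (H.pBB hs)).add (PB_QJ (H.pNN hs))
  -- the ties
  have pX : PB (QS Q (fun a => Ep p (Xg wr tu fm p s a)) (fun a => Ep p (Xg wr tu fm p s a))) :=
    PB_QS (fun a => (H.pXg hs hp a).Ep hp0) fun a => (H.pXg hs hp a).Ep hp0
  have a1 : I (QS Q (Eg wr tu fm p s) (Eg wr tu fm p s)) +
      Phi Q fm p (B.C p s) ≤ I (QS Q (Bg tu fm p s) (Bg tu fm p s)) + I (ir Q wr tu fm p s) +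
      I (QS Q (fun a => Ep p (Xg wr tu fm p s a)) (fun a => Ep p (Xg wr tu fm p s a))) := by
    rw [← I_Ep hp0 pE.integrableOn, ← I_Ep hp0 pB'.integrableOn]
    unfold Phi
    rw [← I_add (pE.Ep hp0).integrableOn pC.integrableOn,
      ← I_add (pB'.Ep hp0).integrableOn pI.integrableOn,
      ← I_add ((pB'.Ep hp0).add pI).integrableOn pX.integrableOn]
    exact I_mono ((pE.Ep hp0).add pC).integrableOn (((pB'.Ep hp0).add pI).add pX).integrableOn
      fun y => tie3 H hs hp y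
  -- the contents
  have a2 : I (QS Q (Bg tu fm p s) (Bg tu fm p s)) + Phi Q fm (p - 1) (B.N p s) ≤
      Phi Q fm p s + I (jmp Q tu fm p s) := by
    unfold Phi
    rw [← I_add pB'.integrableOn pN.integrableOn, ← I_add pF.integrableOn pJ.integrableOn]
    refine I_mono (pB'.add pN).integrableOn (pF.add pJ).integrableOn fun x => ?_
    have nBB : ∀ u, 0 ≤ BB tu fm p s u x := fun u => (H.pBB hs u).nonneg x
    have nNN : ∀ u, 0 ≤ NN fm p s u x := fun u => (H.pNN hs u).nonneg x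
    have r1 := QS_retype (Q := Q) nBB
    have r2 := QS_retype (Q := Q) nNN
    -- sums over the pairs of families
    have sm2 : ∀ (o o' : ℝ → Λ → φ) (V : Λ → ℝ → ℝ) (b : φ), ∑ a, hz (fun x j => (o x j, o' x j)) V
        (a, b) x = hz o' V b x := by
      intro o o' V b
      classical
      simp only [hz_eq]
      rw [Finset.sum_comm]
      refine Finset.sum_congr rfl fun j _ => ?_
      by_cases hj : o' x j = b
      · simp [hj]
      · simp [hj]
    have sm1 : ∀ (o o' : ℝ → Λ → φ) (V : Λ → ℝ → ℝ) (a : φ), ∑ b, hz (fun x j => (o x j, o' x j)) V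
        (a, b) x = hz o V a x := by
      intro o o' V a
      classical
      simp only [hz_eq]
      rw [Finset.sum_comm]
      refine Finset.sum_congr rfl fun j _ => ?_
      by_cases hj : o x j = a
      · simp [hj]
      · simp [hj]
    have eB1 : ∀ b, ∑ a, BB tu fm p s (a, b) x = Bg tu fm p s b x := fun b => by
      unfold BB Bg su
      rw [← M_sum]
      congr 1
      funext j
      exact sm2 _ _ _ b
    have eN1 : ∀ b, ∑ a, NN fm p s (a, b) x = Fg fm (p - 1) (B.N p s) b x := fun b => by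
      unfold NN Fg su
      rw [← M_sum]
      congr 1
      funext j
      show _ = vf fm (p - 1) (B.rN p (s.L j)) b x
      rw [H.eR (hs.2 j) hp]
      exact sm2 _ _ _ b
    have k1 : QS Q (Bg tu fm p s) (Bg tu fm p s) x =
        QS Q (fun b x => ∑ a, BB tu fm p s (a, b) x) (fun b x => ∑ a, BB tu fm p s (a, b) x) x := by
      unfold QS
      simp only [eB1]
    have k2 : QS Q (Fg fm (p - 1) (B.N p s)) (Fg fm (p - 1) (B.N p s)) x =
        QS Q (fun b x => ∑ a, NN fm p s (a, b) x) (fun b x => ∑ a, NN fm p s (a, b) x) x := by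
      unfold QS
      simp only [eN1]
    have nf : ∀ a, 0 ≤ ∑ b, BB tu fm p s (a, b) x := fun a => Finset.sum_nonneg fun b _ => nBB _
    have ng : ∀ a, 0 ≤ ∑ b, NN fm p s (a, b) x := fun a => Finset.sum_nonneg fun b _ => nNN _
    have k3 := QS_add (Q := Q) (f := fun a x => ∑ b, BB tu fm p s (a, b) x)
      (g := fun a x => ∑ b, NN fm p s (a, b) x) (h := Fg fm p s) nf ng fun a => by
        unfold BB NN Fg su
        rw [← M_sum, ← M_sum, ← M_add]
        refine M_mono hs.1.c0 fun j => ?_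
        rw [sm1, sm1]
        show _ ≤ hz (fm p (s.L j).1) (jv (s.L j).2) a x
        rw [← hz_add]
        refine hz_mono (fun i => ?_) a
        have h1 := PVd45.jv_split3 p (s.L j).2 i x
        have h2 : 0 ≤ jv (bL p (s.L j).2) i x :=
          (PB_jv ((H.pba (hs.2 j)).bL p).self i).nonneg x
        linarith
    show QS Q (Bg tu fm p s) (Bg tu fm p s) x +
      QS Q (Fg fm (p - 1) (B.N p s)) (Fg fm (p - 1) (B.N p s)) x ≤
      QS Q (Fg fm p s) (Fg fm p s) x + (QJ Q (BB tu fm p s) x + QJ Q (NN fm p s) x)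
    rw [k1, k2]
    linarith
  linarith


omit H in
lemma sum_hz (o : ℝ → Λ → φ) (V : Λ → ℝ → ℝ) (x : ℝ) : ∑ a, hz o V a x = ∑ j, V j x := by
  classical
  simp only [hz_eq]
  rw [Finset.sum_comm]
  refine Finset.sum_congr rfl fun j _ => ?_
  refine (Finset.sum_eq_single (o x j) (fun a _ ha => ?_)
    (fun h => absurd (Finset.mem_univ _) h)).trans ?_
  · exact if_neg fun h => ha h.symm
  · exact if_pos rfl

omit H in
/-- the lifts of all the families are at most the lifts of the pieces -/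
lemma sum_eu {kd : Λ → κ} {p : ℕ} {K : List (DT Λ κ)} (h : KOk kd p K) (o : ℝ → Λ → φ) (x : ℝ) :
    ∑ a, (eB kd p K o a x + uB kd p K o a x) ≤ ∑ j, pG K j x := by
  classical
  rw [Finset.sum_add_distrib]
  have e1 : ∑ a, eB kd p K o a x = ∑ j, eg kd p K j x := sum_hz _ _ x
  have nG : ∀ j, 0 ≤ pG K j x := fun j => (PB_pG K j).nonneg x
  have h1 : ∑ a, uB kd p K o a x ≤ ∑ j, bf kd K (kd j) (p * x) * pG K j x := by
    unfold uB
    rw [Finset.sum_comm]
    have h2 : ∀ c, ∑ a, bf kd K c (p * x) * cz kd (fun x => o (p * x)) (pG K) c a x *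
        (1 - cz kd o (pA K) c a (p * x) / SA kd K c (p * x)) ≤
        bf kd K c (p * x) * ∑ a, cz kd (fun x => o (p * x)) (pG K) c a x := by
      intro c
      rw [Finset.mul_sum]
      refine Finset.sum_le_sum fun a _ => ?_
      have n1 := mul_nonneg (bf0 h c (p * x))
        (cz_nonneg (kd := kd) (o := fun x => o (p * x)) (fun j => (PB_pG K j).nonneg x) c a)
      have n2 : 0 ≤ cz kd o (pA K) c a (p * x) / SA kd K c (p * x) := frac_nonneg h c a _
      nlinarith
    refine (Finset.sum_le_sum fun c _ => h2 c).trans (le_of_eq ?_)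
    have e2 : ∀ c, bf kd K c (p * x) * ∑ a, cz kd (fun x => o (p * x)) (pG K) c a x =
        ∑ j, if kd j = c then bf kd K (kd j) (p * x) * pG K j x else 0 := by
      intro c
      have e3 : ∑ a, cz kd (fun x => o (p * x)) (pG K) c a x =
          ∑ j, if kd j = c then pG K j x else 0 := by
        simp only [cz_eq]
        rw [Finset.sum_comm]
        refine Finset.sum_congr rfl fun j _ => ?_
        by_cases hc : kd j = c
        · simp [hc]
        · simp [hc]
      rw [e3, Finset.mul_sum]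
      refine Finset.sum_congr rfl fun j _ => ?_
      by_cases hc : kd j = c
      · rw [if_pos hc, if_pos hc, hc]
      · rw [if_neg hc, if_neg hc, mul_zero]
    rw [Finset.sum_congr rfl fun c _ => e2 c, Finset.sum_comm]
    refine Finset.sum_congr rfl fun j _ => ?_
    simp
  rw [e1]
  refine (add_le_add le_rfl h1).trans (le_of_eq ?_)
  rw [← Finset.sum_add_distrib]
  refine Finset.sum_congr rfl fun j _ => ?_
  unfold eg
  ring

omit H in
/-- **second order of the group lifts** -/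
noncomputable def so2 (p : ℕ) (s : Gs (μ × List (DT Λ κ))) : ℝ :=
  I (fun y => Ep p (su s (fun b x => ∑ j, pG (bB p b.2) j x)) y ^ 2)

/-- the pairs of the mean lifts -/
lemma QX_le {Q : φ → φ → Prop} (hs : gst B p s) (hp : p ≠ 0) :
    I (QS Q (fun a => Ep p (Xg wr tu fm p s a)) (fun a => Ep p (Xg wr tu fm p s a))) ≤
      so2 p s := by
  classical
  have hp0 : 0 < p := Nat.pos_of_ne_zero hp
  have c0 := hs.1.c0
  have pX : PB (QS Q (fun a => Ep p (Xg wr tu fm p s a)) (fun a => Ep p (Xg wr tu fm p s a))) :=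
    PB_QS (fun a => (H.pXg hs hp a).Ep hp0) fun a => (H.pXg hs hp a).Ep hp0
  have pS : PB (su s fun b x => ∑ j, pG (bB p b.2) j x) := by
    refine PB_su' hs.1 fun j => PB.sum _ fun i _ => PB_pG _ i
  refine I_mono pX.integrableOn (PBsq (pS.Ep hp0)).integrableOn fun y => ?_
  have nX : ∀ a, 0 ≤ Ep p (Xg wr tu fm p s a) y := fun a => ((H.pXg hs hp a).Ep hp0).nonneg y
  have h1 : QS Q (fun a => Ep p (Xg wr tu fm p s a)) (fun a => Ep p (Xg wr tu fm p s a)) y ≤
      (∑ a, Ep p (Xg wr tu fm p s a) y) ^ 2 := by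
    unfold QS
    rw [sq, Finset.sum_mul_sum]
    refine Finset.sum_le_sum fun a _ => Finset.sum_le_sum fun b _ => ?_
    split_ifs
    · exact le_rfl
    · exact mul_nonneg (nX a) (nX b)
  refine h1.trans ?_
  have h2 : 0 ≤ ∑ a, Ep p (Xg wr tu fm p s a) y := Finset.sum_nonneg fun a _ => nX a
  refine pow_le_pow_left₀ h2 ?_ 2
  rw [← Grp36.Ep_sum']
  unfold Ep
  refine div_le_div_of_nonneg_right (Finset.sum_le_sum fun l _ => ?_) (Nat.cast_nonneg p)
  show ∑ a, Xg wr tu fm p s a ((y + (l : ℝ)) / p) ≤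
    su s (fun b x => ∑ j, pG (bB p b.2) j x) ((y + (l : ℝ)) / p)
  unfold Xg su
  rw [← M_sum]
  refine M_mono c0 fun j => ?_
  exact sum_eu (H.kok (hs.2 j) hp) _ _

/-- **THE LOCAL LINK, without sheets** -/
theorem loc_of3 (hix : ∀ p m x j, pi (fm p m x j) = ix (wr p j))
    {Q : φ → φ → Prop} (hQ : ∀ a b, Q a b → pi a = pi b) (hs : gst B p s) (hp : p ≠ 0)
    {m0 A : ℝ} (hm0 : 1 ≤ m0) (ec : ℕ → Gs (μ × List (DT Λ κ)) → ℝ)
    (hL : I (fun x => ∑ i, EI wr tu fm pi p s i x ^ 2) ≤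
      m0 * A + m0 * I (QS Q (Eg wr tu fm p s) (Eg wr tu fm p s)) + ec p s) :
    I (fun x => ∑ i, EI wr tu fm pi p s i x ^ 2) ≤ 2 * m0 * A +
      erf2 B Q wr tu fm ix m0 (fun p s => ec p s + 2 * m0 * so2 p s) p s := by
  have h1 := step3 H (Q := Q) hs hp
  have h2 := I_ir_le H hix hQ hs hp (l := 4 * m0) (by linarith)
  have h9 := QX_le H (Q := Q) hs hp
  set L := I (fun x => ∑ i, EI wr tu fm pi p s i x ^ 2) with hLdef
  set E := I (QS Q (Eg wr tu fm p s) (Eg wr tu fm p s)) with hE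
  set T := dq wr tu fm ix p s with hT
  have n9 : 0 ≤ dPhi B Q fm p s + I (jmp Q tu fm p s) + I (ir Q wr tu fm p s) +
      so2 p s - E := by
    unfold dPhi
    linarith
  have nE : 0 ≤ E := I_nonneg fun x =>
    QS_nonneg (fun a => (H.pEg hs hp a).nonneg x) fun a => (H.pEg hs hp a).nonneg x
  have h3 : E ≤ dPhi B Q fm p s + I (jmp Q tu fm p s) + I (ir Q wr tu fm p s) + so2 p s := by
    linarith
  have h4 : 1 / (4 * m0) * L = L / (4 * m0) := by ring
  rw [h4] at h2
  have h5 : 2 * m0 * (L / (4 * m0)) = L / 2 := by field_simp; ring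
  unfold erf2
  rw [← hT]
  have h6 := mul_le_mul_of_nonneg_left h3 (by linarith : 0 ≤ m0)
  have h7 := mul_le_mul_of_nonneg_left h2 (by linarith : 0 ≤ 2 * m0)
  have h8 : 2 * m0 * ((3 + 4 * m0) * T + L / (4 * m0)) =
      2 * m0 * ((3 + 4 * m0) * T) + L / 2 := by
    rw [mul_add, h5]
  rw [h8] at h7
  have n1 : 0 ≤ dPhi B Q fm p s + I (jmp Q tu fm p s) + I (ir Q wr tu fm p s) + so2 p s :=
    nE.trans h3
  have hT2 := mul_nonneg (by linarith : 0 ≤ m0) n1
  show L ≤ 2 * m0 * A + (4 * m0 * (dPhi B Q fm p s + I (jmp Q tu fm p s)) +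
    4 * m0 * (3 + 4 * m0) * T + 2 * (ec p s + 2 * m0 * so2 p s))
  nlinarith

end grp

section td
variable {μ Λ κ ζ ι : Type} [Fintype Λ] [DecidableEq Λ] [Fintype κ] [DecidableEq κ]
  [Fintype ζ] [DecidableEq ζ] [Fintype ι] [DecidableEq ι]

variable {D : TD μ Λ κ ζ} {wr : ℕ → Λ → κ} {ix : κ → ι}
  {Inv : ℕ → μ × List (DT Λ κ) → Prop} {p : ℕ} {b : μ × List (DT Λ κ)}
  {s : Gs (μ × List (DT Λ κ))}

/-- **the local link with `n` groups, telescoped** -/
theorem link_leG3 (H : TYp wr D Inv) (hs : gst (bm (DTn407.rxm H)) p s) (hp : p ≠ 0) {m : μ}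
    (hm : Cm m s) {n : ℕ} (hn : 1 ≤ n) (gl : ι × Option ζ → Fin n) (j₀ : Λ)
    :
    I (fun x => ∑ i, ixF ix (GmG (gBs p (stp Prod.snd s))) i x ^ 2) ≤
      2 * n * I ((tl D wr ix).rco p s) +
      erf2 (bm (DTn407.rxm H)) (QG gl) wr D.tu (fmD D wr ix) ix n
        (fun p s => n * pC D wr ix p s + 2 * n * so2 p s) p s := by
  classical
  have h : ∀ j, Inv p (s.L j) := hs.2
  have c0 := hs.1.c0
  have hY : ∀ j, (tl D wr ix).Ok p (s.L j) := fun j => tl_ok H (h j) hp
  have pr := TL.PB_rco c0 hY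
  have pe := TL.PB_eco c0 hY
  have T := tmD H ix
  have hn' : (1 : ℝ) ≤ n := by exact_mod_cast hn
  -- the left side is the energy of the group lifts
  have eL : I (fun x => ∑ i, EI wr D.tu (fmD D wr ix) Prod.fst p s i x ^ 2) =
      I (fun x => ∑ i, ixF ix (GmG (gBs p (stp Prod.snd s))) i x ^ 2) := by
    congr 1
    funext x
    rw [EI_eq H h hp x, ← E3E479.lst_eq (D := D) (wr := wr) (ix := ix)]
    exact (TL.loc_eq hY j₀ x).symm
  set gr : ℕ → ι → Option ζ × Option ζ → Fin n := fun _ i u => gl (i, u.1) with hgr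
  have l1 := E3G493.linkG gr H c0 h hp j₀ (s := s) (ix := ix)
  have pQ := PB_QS (Q := QG gl) (T.pEg hs hp) (T.pEg hs hp)
  have pC' : PB (psm (tl D wr ix) (rC D wr ix p m) p s) := by
    have pG := fun j => TL.PB_GP c0 hY j
    refine PB.sum _ fun j _ => PB.sum _ fun j' _ => ?_
    have m1 : MP fun x : ℝ => rC D wr ix p m x j j' := by
      have a1 := (H.mltp p m j).prod ((H.mltp p m j').prod ((H.mtp p m j).prod (H.mtp p m j')))
      exact a1.map fun q => ix (wr p j) = ix (wr p j') ∧ q.1 = q.2.1 ∧ q.1 ≠ none ∧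
        q.2.2.1 ≠ q.2.2.2
    exact ModeG51.PB_ite m1.prop.1 m1.prop.2 ((pG j).mul (pG j')) (PB.const le_rfl)
  have l2 : I (E3G493.ecoG (tl D wr ix) gr p s) ≤
      I (QS (QG gl) (Eg wr D.tu (fmD D wr ix) p s) (Eg wr D.tu (fmD D wr ix) p s)) +
        pC D wr ix p s := by
    rw [pC_eq hs.1 hm]
    rw [← I_add pQ.integrableOn pC'.integrableOn]
    refine I_mono (E3G493.PB_ecoG gr c0 hY).integrableOn (pQ.add pC').integrableOn fun x => ?_
    have h0 : ∀ j, 0 ≤ (tl D wr ix).GP p s j x := fun j => (TL.PB_GP c0 hY j).nonneg x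
    refine (E3G493.ecoG_le gr H c0 h hp hm x).trans (add_le_add ?_ ?_)
    · rw [← psm_eqQ H hm (QG gl) x]
      refine E3G493.psm_mono h0 fun j j' _ _ hr => ?_
      exact ⟨hr.1, hr.2⟩
    · exact E3G493.psm_mono h0 fun j j' _ _ hr => hr.1
  have hL : I (fun x => ∑ i, EI wr D.tu (fmD D wr ix) Prod.fst p s i x ^ 2) ≤
      n * I ((tl D wr ix).rco p s) + n * I (QS (QG gl) (Eg wr D.tu (fmD D wr ix) p s)
        (Eg wr D.tu (fmD D wr ix) p s)) + n * pC D wr ix p s := by
    rw [eL]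
    have := mul_le_mul_of_nonneg_left l2 (by linarith : (0:ℝ) ≤ n)
    linarith
  have h1 := loc_of3 T (pi := Prod.fst) (ix := ix) (fun _ _ _ _ => rfl) (QG_ix gl) hs hp
    (A := I ((tl D wr ix).rco p s)) hn' (fun p s => n * pC D wr ix p s) hL
  rw [eL] at h1
  exact h1


end td

section ctx
open Crest.Agent.R4.Fam464 Crest.Agent.R4P.Cnt588 Crest.Agent.R4P.Item758
open Crest.Agent.R4P.Data758 Crest.Agent.R4P.Skel189
open Crest.Agent.R4P.TopX36

variable {N : Skel189.Num} {γ : ℝ} {p0 P₀ : ℕ} {μ ζ : Type} [Fintype ζ] [DecidableEq ζ]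

/-- **the field `loc` of `GTopW50.NData`** with `n` groups, `c = 2 n` -/
theorem gT_leG3 (X : Ctx N γ p0 P₀) (j₀ : X.c.Lam) {D : TD μ X.c.Lam (LbX X) ζ}
    {wr : ℕ → X.c.Lam → LbX X} {Inv : ℕ → μ × List (DT X.c.Lam (LbX X)) → Prop}
    (H : TYp wr D Inv) {p : ℕ} {s : Gs (μ × List (DT X.c.Lam (LbX X)))}
    (hs : gst (bm (DTn407.rxm H)) p s) (hp : p ≠ 0) {m : μ} (hm : Cm m s) {n : ℕ} (hn : 1 ≤ n)
    (gl : _ × Option ζ → Fin n) :
    gT X p (gBs p (stp Prod.snd s)) ≤ 2 * n * I ((tl D wr (ixL (X := X))).rco p s) +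
      erf2 (bm (DTn407.rxm H)) (QG gl) wr D.tu (fmD D wr (ixL (X := X))) (ixL (X := X)) n
        (fun p s => n * pC D wr (ixL (X := X)) p s + 2 * n * so2 p s) p s :=
  link_leG3 H hs hp hm hn gl j₀


end ctx

end Crest.Agent.R4P.E3N407
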