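import Crest.Agent.R4P.JnF_5

/-!
R4 (S0004) with powers, T3, helper845: **Lemma F, part 1: the real cost of the content outside the game
telescopes** (flags: pieces of type `none`).

For a row system `R` with budgets `U : RBm R` (`u` = content outside the game, `gU` = its excess lifts,
`uN` = its rest) and a group state `s`:

* `eU U p s = ∫ (Σ_j c_j u_j)²`, `cU = ∫ (Σ_j c_j gU_j)²` (bounds the real cost of the outside content of
  all real classes), `soU = ∫ (E_p Σ c_j gU_j)²`, `enU = ∫ (Σ c_j u(rest)_j)² - ∫ (Σ c_j uN_j)²`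
  (content which leaves the game at the rest);
* **`out_step`**, **`out_tel`** : `Kw cU ≤ eU + Kw (soU + enU)`; no classes, no types, no breaks.
-/

set_option autoImplicit false
set_option linter.unusedSectionVars false
set_option linter.unusedVariables false
open MeasureTheory Filter Set

namespace Crest.Agent.R4P.FlF845

open Crest.Agent.R4.Tour104 Crest.Agent.R4.Clos758
open Crest.Agent.R4P.GMer27 Crest.Agent.R4P.GCol27 Crest.Agent.R4P.RSys343 Crest.Agent.R4P.TrR343
open Crest.Agent.R4P.RXs343 Crest.Agent.R4P.RXm55 Crest.Agent.R4P.RXm55.RXm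
open Crest.Agent.R4P.MSi343 (su su_add)
open Crest.Agent.R4P.MSm25 Crest.Agent.R4P.PayR45
open Crest.Agent.R4P.GSK55

section tel
variable {β δ : Type} [Fintype δ] {R : RXm β δ} (U : RBm R)

/-- energy of the outside content -/
noncomputable def eU (p : ℕ) (s : Gs β) : ℝ := I fun x => su s (U.u p) x ^ 2
/-- energy of the outside lifts of a column -/
noncomputable def cU (p : ℕ) (s : Gs β) : ℝ := I fun x => su s (U.gU p) x ^ 2
/-- second order of the outside lifts -/
noncomputable def soU (p : ℕ) (s : Gs β) : ℝ := I fun y => Ep p (su s (U.gU p)) y ^ 2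
/-- the content which leaves the game at the rest -/
noncomputable def enU (p : ℕ) (s : Gs β) : ℝ :=
  I (fun x => su (R.N p s) (U.u (p - 1)) x ^ 2) - I fun x => su s (U.uN p) x ^ 2

variable {U} {p : ℕ} {s : Gs β}

/-- energy of a constant part and a lift part -/
lemma I_tie {b g : ℝ → ℝ} (hb : PB b) (hg : PB g) (hp : 0 < p) :
    I (fun x => (b (p * x) + g x) ^ 2) =
      I (fun y => (b y + Ep p g y) ^ 2) + I (fun x => g x ^ 2) - I (fun y => Ep p g y ^ 2) := by
  have h1 : PB fun x => (b (p * x) + g x) ^ 2 := PBsq ((hb.pull p).add hg)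
  have hE := hg.Ep hp
  rw [← I_Ep hp h1.integrableOn, ← I_Ep hp (PBsq hg).integrableOn,
    ← I_add (PBsq (hb.add hE)).integrableOn ((PBsq hg).Ep hp).integrableOn,
    ← I_sub ((PBsq (hb.add hE)).add ((PBsq hg).Ep hp)).integrableOn (PBsq hE).integrableOn]
  congr 1
  funext y
  have hp' : (p : ℝ) ≠ 0 := by exact_mod_cast hp.ne'
  have e1 : ∀ i : ℕ, (b (p * ((y + (i : ℝ)) / p)) + g ((y + (i : ℝ)) / p)) ^ 2 =
      b y ^ 2 + (2 * b y) * g ((y + (i : ℝ)) / p) + g ((y + (i : ℝ)) / p) ^ 2 := by
    intro i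
    have e2 : (p : ℝ) * ((y + (i : ℝ)) / p) = y + i := by field_simp
    have e3 : b (y + i) = b y := by
      induction i with
      | zero => simp
      | succ i ih =>
        push_cast
        rw [← add_assoc, hb.per]
        exact ih (by field_simp)
    rw [e2, e3]
    ring
  unfold Ep
  simp only [e1]
  rw [Finset.sum_add_distrib, Finset.sum_add_distrib, ← Finset.mul_sum]
  simp only [Finset.sum_const, Finset.card_range, nsmul_eq_mul]
  field_simp
  ring

/-- **one step of the telescope** -/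
theorem out_step (hs : R.gok p s) (hp : p ≠ 0) :
    cU U p s + eU U p (R.C p s) + eU U (p - 1) (R.N p s) ≤ eU U p s + (soU U p s + enU U p s) := by
  have hp0 : 0 < p := Nat.pos_of_ne_zero hp
  have tc := hs.1
  have pL : PB (su s (U.uL p)) := PB_su tc fun j => U.puL (hs.2 j) hp
  have pN : PB (su s (U.uN p)) := PB_su tc fun j => U.puN (hs.2 j) hp
  have pb : PB (su s (U.bU p)) := PB_su tc fun j => U.pbU (hs.2 j) hp
  have pg : PB (su s (U.gU p)) := PB_su tc fun j => U.pgU (hs.2 j) hp
  have pu : PB (su s (U.u p)) := PB_su tc fun j => U.pu (hs.2 j)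
  have pt : PB fun x => su s (U.bU p) (p * x) + su s (U.gU p) x := (pb.pull p).add pg
  -- the tie
  have e1 := I_tie pb pg hp0
  have e2 : (fun y => (su s (U.bU p) y + Ep p (su s (U.gU p)) y) ^ 2) =
      fun y => su (R.C p s) (U.u p) y ^ 2 := by
    funext y
    rw [U.um' hs hp y]
  rw [e2] at e1
  -- superadditivity
  have h1 : I (fun x => (su s (U.bU p) (p * x) + su s (U.gU p) x) ^ 2) +
      I (fun x => su s (U.uN p) x ^ 2) ≤ eU U p s := by
    rw [← I_add (PBsq pt).integrableOn (PBsq pN).integrableOn]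
    refine I_mono ((PBsq pt).add (PBsq pN)).integrableOn (PBsq pu).integrableOn fun x => ?_
    have e3 := U.us' hs hp x
    have a1 := pL.nonneg x
    have a2 := pt.nonneg x
    have a3 := pN.nonneg x
    show (su s (U.bU p) (p * x) + su s (U.gU p) x) ^ 2 + su s (U.uN p) x ^ 2 ≤ su s (U.u p) x ^ 2
    rw [e3]
    nlinarith [mul_nonneg a1 a2, mul_nonneg a1 a3, mul_nonneg a2 a3]
  have e4 : eU U p (R.C p s) = I fun y => su (R.C p s) (U.u p) y ^ 2 := rfl
  have e5 : eU U (p - 1) (R.N p s) = enU U p s + I fun x => su s (U.uN p) x ^ 2 := by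
    unfold eU enU
    ring
  unfold cU soU
  rw [e4, e5]
  linarith

/-- **the cost of the outside content telescopes** -/
theorem out_tel {ok : ℕ → Gs β → Prop} (hg : ∀ {p s}, ok p s → R.gok p s)
    (hC : ∀ {p s}, ok p s → p ≠ 0 → ok p (R.C p s))
    (hN : ∀ {p s}, ok p s → p ≠ 0 → ok (p - 1) (R.N p s)) :
    ∀ (n p : ℕ) (s : Gs β), ok p s →
      Kw (bm R) (cU U) n p s ≤ eU U p s + Kw (bm R) (fun p s => soU U p s + enU U p s) n p s := by
  intro n
  induction n with
  | zero =>
    intro p s hs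
    have h0 : 0 ≤ eU U p s := I_nonneg fun x => sq_nonneg _
    have e1 : Kw (bm R) (cU U) 0 p s = 0 := rfl
    have e2 : Kw (bm R) (fun p s => soU U p s + enU U p s) 0 p s = 0 := rfl
    rw [e1, e2]
    linarith
  | succ n ih =>
    intro p s hs
    by_cases hp : p = 0
    · subst hp
      have h0 : 0 ≤ eU U 0 s := I_nonneg fun x => sq_nonneg _
      rw [Kw_z, Kw_z]
      linarith
    · rw [Kw_succ _ _ n hp, Kw_succ _ _ n hp]
      have h1 := ih p _ (hC hs hp)
      have h2 := ih (p - 1) _ (hN hs hp)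
      have h3 := out_step (U := U) (hg hs) hp
      have e1 : (bm R).C p s = R.C p s := rfl
      have e2 : (bm R).N p s = R.N p s := rfl
      rw [e1, e2]
      linarith

/-- **the cost of the outside content**, walks which start inside the game -/
theorem out_tel0 {ok : ℕ → Gs β → Prop} (hg : ∀ {p s}, ok p s → R.gok p s)
    (hC : ∀ {p s}, ok p s → p ≠ 0 → ok p (R.C p s))
    (hN : ∀ {p s}, ok p s → p ≠ 0 → ok (p - 1) (R.N p s)) (n p : ℕ) (s : Gs β) (hs : ok p s)
    (h0 : ∀ j x, U.u p (s.L j) x = 0) :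
    Kw (bm R) (cU U) n p s ≤ Kw (bm R) (soU U) n p s + Kw (bm R) (enU U) n p s := by
  have h1 := out_tel (U := U) hg hC hN n p s hs
  have h2 : eU U p s = 0 := by
    unfold eU
    have e : (fun x => su s (U.u p) x ^ 2) = fun _ => 0 := by
      funext x
      have : su s (U.u p) x = 0 := by
        unfold su GMer27.M
        refine Finset.sum_eq_zero fun j _ => ?_
        show s.c j * U.u p (s.L j) x = 0
        rw [h0 j x, mul_zero]
      rw [this]; norm_num
    rw [e]
    simp [I]
  rw [h2, zero_add, Kw_add] at h1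
  exact h1

/-- the second order of the outside lifts is at most the second order of all the lifts -/
lemma soU_le (hs : R.gok p s) (hp : p ≠ 0) : soU U p s ≤ 1 / 8 * JnF5.so U p s := by
  have hp0 : 0 < p := Nat.pos_of_ne_zero hp
  have tc := hs.1
  have pg : PB (su s (U.gU p)) := PB_su tc fun j => U.pgU (hs.2 j) hp
  have pG : PB (R.GT p s) := RXm.PB_GT hs hp
  have pS : PB fun x => R.GT p s x + su s (U.gU p) x := pG.add pg
  unfold soU JnF5.so
  rw [← mul_assoc]
  norm_num
  refine I_mono (PBsq (pg.Ep hp0)).integrableOn (PBsq (pS.Ep hp0)).integrableOn fun y => ?_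
  have a1 := (pg.Ep hp0).nonneg y
  have a2 : Ep p (su s (U.gU p)) y ≤ Ep p (fun x => R.GT p s x + su s (U.gU p) x) y := by
    unfold Ep
    refine div_le_div_of_nonneg_right (Finset.sum_le_sum fun i _ => ?_) (Nat.cast_nonneg p)
    have := pG.nonneg ((y + (i : ℝ)) / p)
    linarith
  exact pow_le_pow_left₀ a1 a2 2

/-! ### the content which leaves: Cauchy-Schwarz with the weights -/

open Classical in
/-- weight of the members with a nonzero value at `x` -/
noncomputable def wt (s : Gs β) (f : β → ℝ → ℝ) (x : ℝ) : ℝ :=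
  GMer27.M s.c fun j => if f (s.L j) x = 0 then 0 else 1

/-- Cauchy-Schwarz over the members -/
lemma su_sq_le (c0 : ∀ j, 0 ≤ s.c j) (f : β → ℝ → ℝ) (x : ℝ) :
    su s f x ^ 2 ≤ wt s f x * su s (fun b x => f b x ^ 2) x := by
  classical
  unfold su wt GMer27.M
  have h := Finset.sum_mul_sq_le_sq_mul_sq Finset.univ
    (fun j => Real.sqrt (s.c j) * (if f (s.L j) x = 0 then 0 else 1))
    (fun j => Real.sqrt (s.c j) * f (s.L j) x)
  have e1 : ∀ j, Real.sqrt (s.c j) * (if f (s.L j) x = 0 then (0:ℝ) else 1) *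
      (Real.sqrt (s.c j) * f (s.L j) x) = s.c j * f (s.L j) x := by
    intro j
    have h2 := Real.mul_self_sqrt (c0 j)
    split_ifs with h3
    · rw [h3]; ring
    · calc Real.sqrt (s.c j) * 1 * (Real.sqrt (s.c j) * f (s.L j) x) =
          (Real.sqrt (s.c j) * Real.sqrt (s.c j)) * f (s.L j) x := by ring
        _ = _ := by rw [h2]
  have e2 : ∀ j, (Real.sqrt (s.c j) * (if f (s.L j) x = 0 then (0:ℝ) else 1)) ^ 2 =
      s.c j * (if f (s.L j) x = 0 then 0 else 1) := by
    intro j
    have h2 := Real.sq_sqrt (c0 j)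
    rw [mul_pow, h2]
    split_ifs <;> norm_num
  have e3 : ∀ j, (Real.sqrt (s.c j) * f (s.L j) x) ^ 2 = s.c j * f (s.L j) x ^ 2 := by
    intro j
    rw [mul_pow, Real.sq_sqrt (c0 j)]
  simp only [e1, e2, e3] at h
  exact h

lemma I_su (hs : ∀ j, 0 ≤ s.c j) {f : β → ℝ → ℝ} (hf : ∀ j, PB (f (s.L j))) :
    I (su s f) = GMer27.M s.c fun j => I (f (s.L j)) := by
  unfold su GMer27.M I
  rw [MeasureTheory.integral_finsetSum]
  · exact Finset.sum_congr rfl fun k _ => by rw [MeasureTheory.integral_const_mul]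
  · intro k _
    exact ((PB.const (hs k)).mul (hf k)).integrableOn

/-- the content outside the game below the rest -/
noncomputable def uF (U : RBm R) (p : ℕ) (b : β) (x : ℝ) : ℝ := U.u (p - 1) (R.rN p b) x
/-- the content which leaves the game at the rest -/
noncomputable def uE (U : RBm R) (p : ℕ) (b : β) (x : ℝ) : ℝ := uF U p b x - U.uN p b x

/-- the member form of the price of the content which leaves -/
noncomputable def phE (U : RBm R) (β' : ℝ) (p : ℕ) (b : β) : ℝ :=
  Real.sqrt β' * (1 / (p : ℝ) * I (fun x => uF U p b x ^ 2) + I (fun x => uE U p b x ^ 2))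

/-- **the price of the content which leaves** -/
theorem enU_le (hs : R.gok p s) (hp : p ≠ 0) {β' : ℝ} (hβ : 0 < β')
    (hE : ∀ j x, U.uN p (s.L j) x ≤ uF U p (s.L j) x)
    (hw : ∀ x, wt s (uF U p) x ≤ β') (hw2 : ∀ x, wt s (uE U p) x ≤ 1 / (p : ℝ)) :
    enU U p s ≤ GMer27.M s.c fun j => phE U β' p (s.L j) := by
  have hp0 : 0 < p := Nat.pos_of_ne_zero hp
  have hp' : (0 : ℝ) < p := by exact_mod_cast hp0
  have tc := hs.1
  have pF : ∀ j, PB (uF U p (s.L j)) := fun j => U.pu (R.okR (hs.2 j) hp)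
  have pN : ∀ j, PB (U.uN p (s.L j)) := fun j => U.puN (hs.2 j) hp
  have pE : ∀ j, PB (uE U p (s.L j)) := fun j => ModeS16.PB_sub (pF j) (pN j) (hE j)
  have sF : PB (su s (uF U p)) := PB_su tc pF
  have sN : PB (su s (U.uN p)) := PB_su tc pN
  have sE : PB (su s (uE U p)) := PB_su tc pE
  have qF : PB (su s fun b x => uF U p b x ^ 2) := PB_su tc fun j => PBsq (pF j)
  have qE : PB (su s fun b x => uE U p b x ^ 2) := PB_su tc fun j => PBsq (pE j)
  have hr : 0 < Real.sqrt β' := Real.sqrt_pos.2 hβ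
  have hrr : Real.sqrt β' * Real.sqrt β' = β' := Real.mul_self_sqrt hβ.le
  have e1 : enU U p s = I (fun x => su s (uF U p) x ^ 2) - I fun x => su s (U.uN p) x ^ 2 := rfl
  have e2 : (GMer27.M s.c fun j => phE U β' p (s.L j)) =
      I fun x => Real.sqrt β' * (1 / (p : ℝ) * su s (fun b x => uF U p b x ^ 2) x +
        su s (fun b x => uE U p b x ^ 2) x) := by
    have a1 := I_su (s := s) tc.c0 (f := fun b x => uF U p b x ^ 2) fun j => PBsq (pF j)
    have a2 := I_su (s := s) tc.c0 (f := fun b x => uE U p b x ^ 2) fun j => PBsq (pE j)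
    rw [I_smul, I_add ((qF.smul (by positivity : (0:ℝ) ≤ 1 / (p : ℝ))).integrableOn) qE.integrableOn,
      I_smul]
    rw [show I (fun x => su s (fun b x => uF U p b x ^ 2) x) =
      GMer27.M s.c fun j => I (fun x => uF U p (s.L j) x ^ 2) from a1,
      show I (fun x => su s (fun b x => uE U p b x ^ 2) x) =
      GMer27.M s.c fun j => I (fun x => uE U p (s.L j) x ^ 2) from a2]
    unfold phE
    rw [← M_smul, ← M_add, ← M_smul]
  rw [e1, e2, ← I_sub (PBsq sF).integrableOn (PBsq sN).integrableOn]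
  refine I_mono (ModeS16.PB_sub (PBsq sF) (PBsq sN) fun x => ?_).integrableOn
    (((qF.smul (by positivity : (0:ℝ) ≤ 1 / (p : ℝ))).add qE).smul hr.le).integrableOn fun x => ?_
  · exact pow_le_pow_left₀ (sN.nonneg x) (M_mono tc.c0 fun j => hE j x) 2
  · have f0 := sF.nonneg x
    have n0 := sN.nonneg x
    have g0 := sE.nonneg x
    have k1 := su_sq_le tc.c0 (uF U p) x
    have k2 := su_sq_le tc.c0 (uE U p) x
    have q1 := qF.nonneg x
    have q2 := qE.nonneg x
    have k3 := k1.trans (mul_le_mul_of_nonneg_right (hw x) q1)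
    have k4 := k2.trans (mul_le_mul_of_nonneg_right (hw2 x) q2)
    have e3 : su s (uE U p) x = su s (uF U p) x - su s (U.uN p) x := by
      unfold su
      rw [← M_sub]
      rfl
    set F := su s (uF U p) x
    set A := su s (U.uN p) x
    set E := su s (uE U p) x
    set SF := su s (fun b x => uF U p b x ^ 2) x
    set SE := su s (fun b x => uE U p b x ^ 2) x
    set r := Real.sqrt β'
    have hA : A = F - E := by rw [e3]; ring
    -- `F² - A² ≤ 2 F E ≤ (1/(r p)) F² + r p E²`
    have k5 : 2 * F * E ≤ 1 / (r * p) * F ^ 2 + (r * p) * E ^ 2 := by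
      have hrp : 0 < r * (p : ℝ) := by positivity
      have : 0 ≤ 1 / (r * p) * (F - r * p * E) ^ 2 := by positivity
      have e4 : 1 / (r * p) * (F - r * p * E) ^ 2 = 1 / (r * p) * F ^ 2 - 2 * F * E +
        (r * p) * E ^ 2 := by
        field_simp
        ring
      linarith
    have k6 : 1 / (r * p) * F ^ 2 ≤ r * (1 / (p : ℝ) * SF) := by
      have := mul_le_mul_of_nonneg_left k3 (show (0:ℝ) ≤ 1 / (r * p) by positivity)
      refine this.trans (le_of_eq ?_)
      rw [← hrr]
      field_simp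
    have k7 : (r * p) * E ^ 2 ≤ r * SE := by
      have := mul_le_mul_of_nonneg_left k4 (show (0:ℝ) ≤ r * p by positivity)
      refine this.trans (le_of_eq ?_)
      field_simp
    have k8 : F ^ 2 - A ^ 2 ≤ 2 * F * E := by
      rw [hA]
      nlinarith [sq_nonneg E]
    show F ^ 2 - A ^ 2 ≤ r * (1 / (p : ℝ) * SF + SE)
    have e5 : r * (1 / (p : ℝ) * SF + SE) = r * (1 / (p : ℝ) * SF) + r * SE := by ring
    rw [e5]
    linarith

end tel

/-! ### walk sums of member terms -/

section lw
variable {β : Type} {M : BM β}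

/-- **the walk sum of one bundle** -/
noncomputable def Lw (M : BM β) (φ : ℕ → β → ℝ) : ℕ → ℕ → β → ℝ
  | 0, _, _ => 0
  | n + 1, p, b => if p = 0 then 0 else φ p b +
      (if 2 ≤ p then (1 - 1 / (p : ℝ)) * Lw M φ n p (M.cP p b) + 1 / (p : ℝ) * Lw M φ n p (M.cN p b)
        else Lw M φ n p (M.cP p b)) + Lw M φ n (p - 1) (M.rN p b)

/-- **linear local terms** -/
theorem Kw_lin (φ : ℕ → β → ℝ) : ∀ (n p : ℕ) (s : Gs β),
    Kw M (fun p s => GMer27.M s.c fun j => φ p (s.L j)) n p s =
      GMer27.M s.c fun j => Lw M φ n p (s.L j) := by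
  intro n
  induction n with
  | zero =>
    intro p s
    show (0 : ℝ) = GMer27.M s.c fun j => (0 : ℝ)
    unfold GMer27.M
    simp
  | succ n ih =>
    intro p s
    by_cases hp : p = 0
    · subst hp
      rw [Kw_z]
      have e : ∀ b : β, Lw M φ (n + 1) 0 b = 0 := fun b => by simp [Lw]
      simp only [e]
      unfold GMer27.M
      simp
    · rw [Kw_succ _ _ n hp, ih, ih]
      have e : ∀ b : β, Lw M φ (n + 1) p b = φ p b +
          (if 2 ≤ p then (1 - 1 / (p : ℝ)) * Lw M φ n p (M.cP p b) +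
            1 / (p : ℝ) * Lw M φ n p (M.cN p b) else Lw M φ n p (M.cP p b)) +
          Lw M φ n (p - 1) (M.rN p b) := fun b => by
        show (if p = 0 then _ else _) = _
        rw [if_neg hp]
      simp only [e]
      have eC : (GMer27.M (M.C p s).c fun j => Lw M φ n p ((M.C p s).L j)) =
          GMer27.M s.c fun j => (if 2 ≤ p then (1 - 1 / (p : ℝ)) * Lw M φ n p (M.cP p (s.L j)) +
            1 / (p : ℝ) * Lw M φ n p (M.cN p (s.L j)) else Lw M φ n p (M.cP p (s.L j))) := by
        by_cases h2 : 2 ≤ p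
        · rw [BC_pos M h2]
          show GMer27.M (cT (1 - 1 / (p : ℝ)) s.c) (fun (x : s.J × Bool) =>
            Lw M φ n p (if x.2 = true then M.cP p (s.L x.1) else M.cN p (s.L x.1))) = _
          rw [M_cT]
          congr 1
          funext j
          rw [if_pos h2]
          unfold av
          simp
          ring
        · rw [BC_neg M h2]
          congr 1
          funext j
          rw [if_neg h2]
      rw [eC]
      show _ + _ + (GMer27.M s.c fun j => Lw M φ n (p - 1) (M.rN p (s.L j))) = _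
      rw [← M_add, ← M_add]

end lw

end Crest.Agent.R4P.FlF845
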