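import Crest.Agent.R4P.TyU_16

/-!
R4 (S0004) with powers, T3 (heights > 1), helper16: **typed rows whose kind depends on the point**.

`P y` (measurable, periodic) : the type is marked on the fibre of `y`.  `TRow.glue` : two typed rows are
glued along `P`;  `GMU` : the hypotheses of the marked row on `P`, of the unmarked row off `P`;
**`GMU.row : TRow`** for the raw data `mkMU`, with `er_on`, `er_off`, `jz_on`, `jz_off`.
-/

set_option autoImplicit false
set_option linter.unusedSectionVars false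
set_option linter.unusedVariables false
open MeasureTheory Filter Set

namespace Crest.Agent.R4P.TyS16

open Crest.Agent.R4.Tour104 Crest.Agent.R4.Tour758 Crest.Agent.R4P.MisR16 Crest.Agent.R4P.TyR16
open Crest.Agent.R4P.TrR343 Crest.Agent.R4P.RXs343 Crest.Agent.R4P.RXm55 Crest.Agent.R4P.TrM28

open Classical in
/-- choice by a condition -/
noncomputable def cho (P : ℝ → Prop) (f g : ℝ → ℝ) (x : ℝ) : ℝ := if P x then f x else g x

section cho
variable {P : ℝ → Prop} {f g : ℝ → ℝ} {x : ℝ}

lemma cho_on (h : P x) : cho P f g x = f x := if_pos h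
lemma cho_off (h : ¬ P x) : cho P f g x = g x := if_neg h

lemma PB_cho (hP : MeasurableSet {x | P x}) (hper : ∀ x, P (x + 1) ↔ P x) (hf : PB f) (hg : PB g) :
    PB (cho P f g) := by
  classical
  obtain ⟨A, hA⟩ := hf.bdd
  obtain ⟨B, hB⟩ := hg.bdd
  refine ⟨?_, fun x => ?_, ⟨max A B, fun x => ?_⟩, fun x => ?_⟩
  · have h : Measurable (fun x => if P x then f x else g x) := Measurable.ite hP hf.meas hg.meas
    exact h
  · by_cases h : P x
    · rw [cho_on h]; exact hf.nonneg x
    · rw [cho_off h]; exact hg.nonneg x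
  · by_cases h : P x
    · rw [cho_on h]; exact (hA x).trans (le_max_left _ _)
    · rw [cho_off h]; exact (hB x).trans (le_max_right _ _)
  · by_cases h : P x
    · rw [cho_on h, cho_on ((hper x).2 h), hf.per]
    · rw [cho_off h, cho_off (fun h' => h ((hper x).1 h')), hg.per]

end cho

/-- glue of the data of a type at a scale -/
noncomputable def TD.glue (p : ℕ) (P : ℝ → Prop) (D1 D2 : TD) : TD where
  vm := cho (fun x => P (p * x)) D1.vm D2.vm
  vs := cho (fun x => P (p * x)) D1.vs D2.vs
  gX := cho (fun x => P (p * x)) D1.gX D2.gX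
  bX := cho P D1.bX D2.bX
  gE := cho (fun x => P (p * x)) D1.gE D2.gE
  sg := cho (fun x => P (p * x)) D1.sg D2.sg
  be := cho P D1.be D2.be
  e := cho (fun x => P (p * x)) D1.e D2.e

/-- glue of the raw data -/
noncomputable def TRaw.glue (p : ℕ) (P : ℝ → Prop) (R1 R2 : TRaw) : TRaw where
  D := fun σ => TD.glue p P (R1.D σ) (R2.D σ)
  Wm := cho (fun x => P (p * x)) R1.Wm R2.Wm
  Ws := cho (fun x => P (p * x)) R1.Ws R2.Ws
  gm := cho (fun x => P (p * x)) R1.gm R2.gm
  gs := cho (fun x => P (p * x)) R1.gs R2.gs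
  lm := cho (fun x => P (p * x)) R1.lm R2.lm
  lS := cho (fun x => P (p * x)) R1.lS R2.lS
  l0 := fun σ => cho (fun x => P (p * x)) (R1.l0 σ) (R2.l0 σ)
  j0 := cho (fun x => P (p * x)) R1.j0 R2.j0
  er := cho (fun x => P (p * x)) R1.er R2.er

section glue
variable {p : ℕ} {P : ℝ → Prop} {a b hm hs bt gc a1 b1 hm1 hs1 bt1 gc1 a2 b2 hm2 hs2 bt2 gc2 : ℝ → ℝ}

lemma pull_meas (hP : MeasurableSet {x | P x}) : MeasurableSet {x | P ((p : ℝ) * x)} :=
  (measurable_const_mul (p : ℝ)) hP

lemma per_nat (hper : ∀ x, P (x + 1) ↔ P x) (n : ℕ) (x : ℝ) : P (x + n) ↔ P x := by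
  induction n with
  | zero => simp
  | succ n ih =>
    rw [show x + ((n + 1 : ℕ) : ℝ) = (x + n) + 1 by push_cast; ring, hper, ih]

lemma pull_per (hper : ∀ x, P (x + 1) ↔ P x) (x : ℝ) : P (p * (x + 1)) ↔ P (p * x) := by
  rw [show (p : ℝ) * (x + 1) = p * x + p by ring]
  exact per_nat hper p _

lemma fib_iff (hp : 0 < p) (hper : ∀ x, P (x + 1) ↔ P x) (y : ℝ) (i : ℕ) :
    P (p * ((y + i) / p)) ↔ P y := by
  have hp' : (p : ℝ) ≠ 0 := by exact_mod_cast hp.ne'
  rw [show (p : ℝ) * ((y + i) / p) = y + i by field_simp]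
  exact per_nat hper i y

/-- `Ep` of a chosen function -/
lemma Ep_cho (hp : 0 < p) (hper : ∀ x, P (x + 1) ↔ P x) (f g : ℝ → ℝ) (y : ℝ) :
    Ep p (cho (fun x => P (p * x)) f g) y = cho P (Ep p f) (Ep p g) y := by
  by_cases h : P y
  · rw [cho_on h]
    unfold Ep
    congr 1
    exact Finset.sum_congr rfl fun i _ => cho_on (P := fun x => P (p * x)) ((fib_iff hp hper y i).2 h)
  · rw [cho_off h]
    unfold Ep
    congr 1
    exact Finset.sum_congr rfl fun i _ =>
      cho_off (P := fun x => P (p * x)) (fun h' => h ((fib_iff hp hper y i).1 h'))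

/-- **glue of two typed rows** -/
theorem TRow.glue {R1 R2 : TRaw} (hp : 0 < p) (hP : MeasurableSet {x | P x})
    (hper : ∀ x, P (x + 1) ↔ P x) (h1 : TRow p a1 b1 hm1 hs1 bt1 gc1 R1)
    (h2 : TRow p a2 b2 hm2 hs2 bt2 gc2 R2) :
    TRow p (cho P a1 a2) (cho P b1 b2) (cho (fun x => P (p * x)) hm1 hm2)
      (cho (fun x => P (p * x)) hs1 hs2) (cho P bt1 bt2) (cho (fun x => P (p * x)) gc1 gc2)
      (TRaw.glue p P R1 R2) := by
  have hP' := pull_meas (p := p) hP
  have hper' := pull_per (p := p) hper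
  have X : ∀ {f g : ℝ → ℝ}, PB f → PB g → PB (cho (fun x => P (p * x)) f g) := fun hf hg =>
    PB_cho hP' hper' hf hg
  have Y : ∀ {f g : ℝ → ℝ}, PB f → PB g → PB (cho P f g) := fun hf hg => PB_cho hP hper hf hg
  refine
    { pWm := X h1.pWm h2.pWm
      pWs := X h1.pWs h2.pWs
      pgm := X h1.pgm h2.pgm
      pgs := X h1.pgs h2.pgs
      plm := X h1.plm h2.plm
      plS := X h1.plS h2.plS
      pj0 := X h1.pj0 h2.pj0
      per := X h1.per h2.per
      phm := X h1.phm h2.phm
      phs := X h1.phs h2.phs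
      pbt := Y h1.pbt h2.pbt
      pgc := X h1.pgc h2.pgc
      W_eq := fun x => ?_
      hm_eq := fun x => ?_
      hs_eq := fun x => ?_
      tr := fun {σ} hσ => ?_
      l0n := fun {σ} hσ x => ?_
      l0J := fun n x => ?_
      e_le := fun {σ} hσ x => ?_ }
  · by_cases h : P (p * x)
    · simp only [TRaw.glue, cho, h, if_true]; exact h1.W_eq x
    · simp only [TRaw.glue, cho, h, if_false]; exact h2.W_eq x
  · by_cases h : P (p * x)
    · simp only [TRaw.glue, cho, h, if_true]; exact h1.hm_eq x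
    · simp only [TRaw.glue, cho, h, if_false]; exact h2.hm_eq x
  · by_cases h : P (p * x)
    · simp only [TRaw.glue, cho, h, if_true]; exact h1.hs_eq x
    · simp only [TRaw.glue, cho, h, if_false]; exact h2.hs_eq x
  · have t1 := h1.tr hσ
    have t2 := h2.tr hσ
    refine
      { pvm := X t1.pvm t2.pvm
        pvs := X t1.pvs t2.pvs
        pgX := X t1.pgX t2.pgX
        pbX := Y t1.pbX t2.pbX
        pgE := X t1.pgE t2.pgE
        psg := X t1.psg t2.psg
        pbe := Y t1.pbe t2.pbe
        pe := X t1.pe t2.pe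
        vm_le := fun x => ?_
        vs_le := fun x => ?_
        tot := fun x => ?_
        mean := fun y => ?_
        be_le := fun y => ?_
        sgc := fun x => ?_
        sg2 := fun x => ?_
        sgX := fun x => ?_
        row := fun y => ?_
        mnX := fun x => ?_
        gE1 := fun x => ?_
        gXc := fun x => ?_
        en := fun hh y => ?_
        U_le := fun x => ?_ }
    · by_cases h : P (p * x)
      · simp only [TRaw.glue, TD.glue, cho, h, if_true]; exact t1.vm_le x
      · simp only [TRaw.glue, TD.glue, cho, h, if_false]; exact t2.vm_le x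
    · by_cases h : P (p * x)
      · simp only [TRaw.glue, TD.glue, cho, h, if_true]; exact t1.vs_le x
      · simp only [TRaw.glue, TD.glue, cho, h, if_false]; exact t2.vs_le x
    · by_cases h : P (p * x)
      · simp only [TRaw.glue, TD.glue, cho, h, if_true]; exact t1.tot x
      · simp only [TRaw.glue, TD.glue, cho, h, if_false]; exact t2.tot x
    · show cho P _ _ y + Ep p (cho (fun x => P (p * x)) _ _) y = _
      rw [Ep_cho hp hper]
      by_cases h : P y
      · simp only [cho, h, if_true]; exact t1.mean y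
      · simp only [cho, h, if_false]; exact t2.mean y
    · by_cases h : P y
      · simp only [TRaw.glue, TD.glue, cho, h, if_true]; exact t1.be_le y
      · simp only [TRaw.glue, TD.glue, cho, h, if_false]; exact t2.be_le y
    · by_cases h : P (p * x)
      · simp only [TRaw.glue, TD.glue, cho, h, if_true]; exact t1.sgc x
      · simp only [TRaw.glue, TD.glue, cho, h, if_false]; exact t2.sgc x
    · by_cases h : P (p * x)
      · simp only [TRaw.glue, TD.glue, cho, h, if_true]; exact t1.sg2 x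
      · simp only [TRaw.glue, TD.glue, cho, h, if_false]; exact t2.sg2 x
    · by_cases h : P (p * x)
      · simp only [TRaw.glue, TD.glue, cho, h, if_true]; exact t1.sgX x
      · simp only [TRaw.glue, TD.glue, cho, h, if_false]; exact t2.sgX x
    · have hf := fib_iff hp hper y
      by_cases h : P y
      · simp only [TRaw.glue, TD.glue, cho, h, if_true, hf]; exact t1.row y
      · simp only [TRaw.glue, TD.glue, cho, h, if_false, hf]; exact t2.row y
    · by_cases h : P (p * x)
      · simp only [TRaw.glue, TD.glue, cho, h, if_true]; exact t1.mnX x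
      · simp only [TRaw.glue, TD.glue, cho, h, if_false]; exact t2.mnX x
    · by_cases h : P (p * x)
      · simp only [TRaw.glue, TD.glue, cho, h, if_true]; exact t1.gE1 x
      · simp only [TRaw.glue, TD.glue, cho, h, if_false]; exact t2.gE1 x
    · by_cases h : P (p * x)
      · simp only [TRaw.glue, TD.glue, cho, h, if_true]; exact t1.gXc x
      · simp only [TRaw.glue, TD.glue, cho, h, if_false]; exact t2.gXc x
    · have hf := fib_iff hp hper y
      by_cases h : P y
      · simp only [TRaw.glue, TD.glue, cho, h, if_true, hf]; exact t1.en hh y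
      · simp only [TRaw.glue, TD.glue, cho, h, if_false, hf]; exact t2.en hh y
    · by_cases h : P (p * x)
      · simp only [TRaw.glue, TD.glue, cho, h, if_true]; exact t1.U_le x
      · simp only [TRaw.glue, TD.glue, cho, h, if_false]; exact t2.U_le x
  · by_cases h : P (p * x)
    · simp only [TRaw.glue, cho, h, if_true]; exact h1.l0n hσ x
    · simp only [TRaw.glue, cho, h, if_false]; exact h2.l0n hσ x
  · by_cases h : P (p * x)
    · simp only [TRaw.glue, cho, h, if_true]; exact h1.l0J n x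
    · simp only [TRaw.glue, cho, h, if_false]; exact h2.l0J n x
  · by_cases h : P (p * x)
    · simp only [TRaw.glue, TD.glue, cho, h, if_true]; exact h1.e_le hσ x
    · simp only [TRaw.glue, TD.glue, cho, h, if_false]; exact h2.e_le hσ x

end glue

section gmu

/-- hypotheses of a typed row which is marked on `P` -/
structure GMU (p : ℕ) (P : ℝ → Prop) (a b hm hs bt gc α κ b0 ν s nu B1 δ m gm gs lm lS : ℝ → ℝ) :
    Prop where
  hp : 0 < p
  hP : MeasurableSet {x | P x}
  hper : ∀ x, P (x + 1) ↔ P x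
  pa : PB a
  phm : PB hm
  phs : PB hs
  pgc : PB gc
  pα : PB α
  pκ : PB κ
  pb0 : PB b0
  pν : PB ν
  ps : PB s
  pnu : PB nu
  pB1 : PB B1
  pδ : PB δ
  pm : PB m
  pgm : PB gm
  pgs : PB gs
  plm : PB lm
  plS : PB lS
  -- the marked row on `P`
  s1 : ∀ x, P (p * x) → s x ≤ 1
  sL : ∀ y, P y → ∑ i ∈ Finset.range p, s ((y + i) / p) = 1
  nuL : ∀ y, P y → ∑ i ∈ Finset.range p, nu ((y + i) / p) = ν y
  aM : ∀ y, P y → a y = α y + κ y
  bM : ∀ y, P y → b y = b0 y + ν y + m y
  btM : ∀ y, P y → bt y = (1 - 1 / (p : ℝ)) * (α y + κ y) + 1 / (p : ℝ) * min (α y) (b0 y) +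
    1 / (p : ℝ) * m y
  gcM : ∀ x, P (p * x) → gc x = s x * dd (α (p * x)) (b0 (p * x)) + nu x
  hmM : ∀ x, P (p * x) → hm x + lm x = (mnR (1 / (p : ℝ)) (α (p * x)) (b0 (p * x)) (κ (p * x)) (s x) +
    nu x + 1 / (p : ℝ) * m (p * x)) + gm x
  hsM : ∀ x, P (p * x) → hs x + lS x = spR (1 / (p : ℝ)) (κ (p * x)) (s x) + gs x
  -- the unmarked row off `P`
  bU : ∀ y, ¬ P y → b y = B1 y + m y
  btU : ∀ y, ¬ P y → bt y = ((1 - 1 / (p : ℝ)) * a y + 1 / (p : ℝ) * (B1 y - δ y)) +
    1 / (p : ℝ) * m y
  gcU : ∀ y, ¬ P y → ∑ i ∈ Finset.range p, gc ((y + i) / p) = δ y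
  δ1 : ∀ y, ¬ P y → dd (a y) (B1 y) ≤ δ y
  δ2 : ∀ y, ¬ P y → δ y ≤ B1 y
  hmU : ∀ x, ¬ P (p * x) → hm x + lm x = (((1 - 1 / (p : ℝ)) * a (p * x) +
    1 / (p : ℝ) * (B1 (p * x) - δ (p * x))) + gc x + 1 / (p : ℝ) * m (p * x)) + gm x
  hsU : ∀ x, ¬ P (p * x) → hs x + lS x = gs x

/-- zero -/
def z0 (_ : ℝ) : ℝ := 0

/-- **raw data of the glued row** -/
noncomputable def mkMU (p : ℕ) (P : ℝ → Prop)
    (a hm hs gc α κ b0 ν s nu B1 δ m gm gs lm lS : ℝ → ℝ) : TRaw :=
  TRaw.glue p P
    (mkM p (cho P α z0) (cho P κ z0) (cho P b0 z0) (cho P ν z0) (cho P m z0)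
      (cho (fun x => P (p * x)) s (fun _ => 1 / (p : ℝ))) (cho (fun x => P (p * x)) nu z0)
      (cho (fun x => P (p * x)) hm z0) (cho (fun x => P (p * x)) hs z0)
      (cho (fun x => P (p * x)) gm z0) (cho (fun x => P (p * x)) gs z0)
      (cho (fun x => P (p * x)) lm z0) (cho (fun x => P (p * x)) lS z0))
    (mkU p (cho P z0 a) (cho P z0 B1) (cho P z0 m) (cho P z0 δ) (cho (fun x => P (p * x)) z0 gc)
      (cho (fun x => P (p * x)) z0 hm) (cho (fun x => P (p * x)) z0 gm)
      (cho (fun x => P (p * x)) z0 gs) (cho (fun x => P (p * x)) z0 lm)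
      (cho (fun x => P (p * x)) z0 lS))

variable {p : ℕ} {P : ℝ → Prop} {a b hm hs bt gc α κ b0 ν s nu B1 δ m gm gs lm lS : ℝ → ℝ}

namespace GMU
variable (H : GMU p P a b hm hs bt gc α κ b0 ν s nu B1 δ m gm gs lm lS)
include H

lemma HM' : HM p (cho P α z0) (cho P κ z0) (cho P b0 z0) (cho P ν z0) (cho P m z0)
      (cho (fun x => P (p * x)) s (fun _ => 1 / (p : ℝ))) (cho (fun x => P (p * x)) nu z0)
      (cho (fun x => P (p * x)) hm z0) (cho (fun x => P (p * x)) hs z0)
      (cho (fun x => P (p * x)) gm z0) (cho (fun x => P (p * x)) gs z0)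
      (cho (fun x => P (p * x)) lm z0) (cho (fun x => P (p * x)) lS z0) := by
  have hP' := pull_meas (p := p) H.hP
  have hper' := pull_per (p := p) H.hper
  have h0 : PB z0 := PB.const le_rfl
  have hp' : (p : ℝ) ≠ 0 := by exact_mod_cast H.hp.ne'
  have w0 : 0 ≤ 1 / (p : ℝ) := by positivity
  have w1 := (w01 H.hp).2
  have X : ∀ {f g : ℝ → ℝ}, PB f → PB g → PB (cho (fun x => P (p * x)) f g) := fun hf hg =>
    PB_cho hP' hper' hf hg
  have Y : ∀ {f g : ℝ → ℝ}, PB f → PB g → PB (cho P f g) := fun hf hg =>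
    PB_cho H.hP H.hper hf hg
  refine
    { hp := H.hp
      pα := Y H.pα h0
      pκ := Y H.pκ h0
      pb := Y H.pb0 h0
      pν := Y H.pν h0
      pm := Y H.pm h0
      ps := X H.ps (PB.const w0)
      s1 := fun x => ?_
      sL := fun y => ?_
      pnu := X H.pnu h0
      nuL := fun y => ?_
      phm := X H.phm h0
      phs := X H.phs h0
      pgm := X H.pgm h0
      pgs := X H.pgs h0
      plm := X H.plm h0
      plS := X H.plS h0
      hm_eq := fun x => ?_
      hs_eq := fun x => ?_ }
  · by_cases h : P (p * x)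
    · simp only [cho, h, if_true]; exact H.s1 x h
    · simp only [cho, h, if_false]; exact w1
  · have hf := fib_iff H.hp H.hper y
    by_cases h : P y
    · simp only [cho, hf, h, if_true]; exact H.sL y h
    · simp only [cho, hf, h, if_false]
      rw [Finset.sum_const, Finset.card_range, nsmul_eq_mul]
      field_simp
  · have hf := fib_iff H.hp H.hper y
    by_cases h : P y
    · simp only [cho, hf, h, if_true]; exact H.nuL y h
    · simp only [cho, hf, h, if_false, z0, Finset.sum_const_zero]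
  · by_cases h : P (p * x)
    · simp only [cho, h, if_true]; exact H.hmM x h
    · simp only [cho, h, if_false, z0, mnR, rV, dd]; simp
  · by_cases h : P (p * x)
    · simp only [cho, h, if_true]; exact H.hsM x h
    · simp only [cho, h, if_false, z0, spR]; simp

lemma HU' : HU p (cho P z0 a) (cho P z0 B1) (cho P z0 m) (cho P z0 δ)
      (cho (fun x => P (p * x)) z0 gc) (cho (fun x => P (p * x)) z0 hm)
      (cho (fun x => P (p * x)) z0 hs) (cho (fun x => P (p * x)) z0 gm)
      (cho (fun x => P (p * x)) z0 gs) (cho (fun x => P (p * x)) z0 lm)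
      (cho (fun x => P (p * x)) z0 lS) := by
  have hP' := pull_meas (p := p) H.hP
  have hper' := pull_per (p := p) H.hper
  have h0 : PB z0 := PB.const le_rfl
  have X : ∀ {f g : ℝ → ℝ}, PB f → PB g → PB (cho (fun x => P (p * x)) f g) := fun hf hg =>
    PB_cho hP' hper' hf hg
  have Y : ∀ {f g : ℝ → ℝ}, PB f → PB g → PB (cho P f g) := fun hf hg =>
    PB_cho H.hP H.hper hf hg
  refine
    { hp := H.hp
      pA := Y h0 H.pa
      pB := Y h0 H.pB1
      pm := Y h0 H.pm
      pδ := Y h0 H.pδ
      pgc := X h0 H.pgc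
      gcL := fun y => ?_
      δ1 := fun y => ?_
      δ2 := fun y => ?_
      phm := X h0 H.phm
      phs := X h0 H.phs
      pgm := X h0 H.pgm
      pgs := X h0 H.pgs
      plm := X h0 H.plm
      plS := X h0 H.plS
      hm_eq := fun x => ?_
      hs_eq := fun x => ?_ }
  · have hf := fib_iff H.hp H.hper y
    by_cases h : P y
    · simp only [cho, hf, h, if_true, z0, Finset.sum_const_zero]
    · simp only [cho, hf, h, if_false]; exact H.gcU y h
  · by_cases h : P y
    · simp only [cho, h, if_true, z0, dd]; simp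
    · simp only [cho, h, if_false]; exact H.δ1 y h
  · by_cases h : P y
    · simp only [cho, h, if_true, z0]; exact le_rfl
    · simp only [cho, h, if_false]; exact H.δ2 y h
  · by_cases h : P (p * x)
    · simp only [cho, h, if_true, z0]; simp
    · simp only [cho, h, if_false]; exact H.hmU x h
  · by_cases h : P (p * x)
    · simp only [cho, h, if_true, z0]; simp
    · simp only [cho, h, if_false]; exact H.hsU x h

/-- **the glued row** -/
theorem row : TRow p a b hm hs bt gc (mkMU p P a hm hs gc α κ b0 ν s nu B1 δ m gm gs lm lS) := by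
  have h := TRow.glue H.hp H.hP H.hper H.HM'.rowM H.HU'.rowU
  have ea : cho P (fun y => cho P α z0 y + cho P κ z0 y) (cho P z0 a) = a := by
    funext y
    by_cases h : P y
    · simp only [cho, h, if_true]; exact (H.aM y h).symm
    · simp only [cho, h, if_false]
  have eb : cho P (fun y => cho P b0 z0 y + cho P ν z0 y + cho P m z0 y)
      (fun y => cho P z0 B1 y + cho P z0 m y) = b := by
    funext y
    by_cases h : P y
    · simp only [cho, h, if_true]; exact (H.bM y h).symm
    · simp only [cho, h, if_false]; exact (H.bU y h).symm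
  have ehm : cho (fun x => P (p * x)) (cho (fun x => P (p * x)) hm z0)
      (cho (fun x => P (p * x)) z0 hm) = hm := by
    funext x
    by_cases h : P (p * x)
    · simp only [cho, h, if_true]
    · simp only [cho, h, if_false]
  have ehs : cho (fun x => P (p * x)) (cho (fun x => P (p * x)) hs z0)
      (cho (fun x => P (p * x)) z0 hs) = hs := by
    funext x
    by_cases h : P (p * x)
    · simp only [cho, h, if_true]
    · simp only [cho, h, if_false]
  have ebt : cho P (fun y => (1 - 1 / (p : ℝ)) * (cho P α z0 y + cho P κ z0 y) +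
      1 / (p : ℝ) * min (cho P α z0 y) (cho P b0 z0 y) + 1 / (p : ℝ) * cho P m z0 y)
      (fun y => ((1 - 1 / (p : ℝ)) * cho P z0 a y + 1 / (p : ℝ) * (cho P z0 B1 y - cho P z0 δ y)) +
        1 / (p : ℝ) * cho P z0 m y) = bt := by
    funext y
    by_cases h : P y
    · simp only [cho, h, if_true]; exact (H.btM y h).symm
    · simp only [cho, h, if_false]; exact (H.btU y h).symm
  have egc : cho (fun x => P (p * x)) (fun x => cho (fun x => P (p * x)) s (fun _ => 1 / (p : ℝ)) x *
      dd (cho P α z0 (p * x)) (cho P b0 z0 (p * x)) + cho (fun x => P (p * x)) nu z0 x)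
      (cho (fun x => P (p * x)) z0 gc) = gc := by
    funext x
    by_cases h : P (p * x)
    · simp only [cho, h, if_true]; exact (H.gcM x h).symm
    · simp only [cho, h, if_false]
  rw [ea, eb, ehm, ehs, ebt, egc] at h
  exact h

end GMU

/-- the error on `P` -/
lemma er_on {x : ℝ} (h : P (p * x)) :
    (mkMU p P a hm hs gc α κ b0 ν s nu B1 δ m gm gs lm lS).er x =
      lm x + lS x + nu x + 1 / (p : ℝ) * m (p * x) := by
  simp only [mkMU, TRaw.glue, mkM, cho, h, if_true]

/-- the error off `P` -/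
lemma er_off {x : ℝ} (h : ¬ P (p * x)) :
    (mkMU p P a hm hs gc α κ b0 ν s nu B1 δ m gm gs lm lS).er x =
      lm x + sh p δ gc x * et a B1 δ (p * x) + 1 / (p : ℝ) * m (p * x) := by
  simp only [mkMU, TRaw.glue, mkU, sh, et, cho, h, if_false]

/-- the own budget on `P` -/
lemma j0_on {x : ℝ} (h : P (p * x)) :
    (mkMU p P a hm hs gc α κ b0 ν s nu B1 δ m gm gs lm lS).j0 x =
      4 * (mnR (1 / (p : ℝ)) (α (p * x)) (b0 (p * x)) (κ (p * x)) (s x) * nu x +
      mnR (1 / (p : ℝ)) (α (p * x)) (b0 (p * x)) (κ (p * x)) (s x) * (1 / (p : ℝ) * m (p * x)) +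
      nu x * (1 / (p : ℝ) * m (p * x))) := by
  simp only [mkMU, TRaw.glue, mkM, cho, h, if_true]

/-- the own budget off `P` -/
lemma j0_off {x : ℝ} (h : ¬ P (p * x)) :
    (mkMU p P a hm hs gc α κ b0 ν s nu B1 δ m gm gs lm lS).j0 x =
      4 * (mI p a B1 δ gc x * pI p a B1 δ gc x +
      mI p a B1 δ gc x * (1 / (p : ℝ) * m (p * x)) +
      pI p a B1 δ gc x * (1 / (p : ℝ) * m (p * x))) := by
  simp only [mkMU, TRaw.glue, mkU, mI, pI, sh, et, cho, h, if_false]

lemma gm_eq (x : ℝ) : (mkMU p P a hm hs gc α κ b0 ν s nu B1 δ m gm gs lm lS).gm x = gm x := by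
  by_cases h : P (p * x)
  · simp only [mkMU, TRaw.glue, mkM, mkU, cho, h, if_true]
  · simp only [mkMU, TRaw.glue, mkM, mkU, cho, h, if_false]

lemma gs_eq (x : ℝ) : (mkMU p P a hm hs gc α κ b0 ν s nu B1 δ m gm gs lm lS).gs x = gs x := by
  by_cases h : P (p * x)
  · simp only [mkMU, TRaw.glue, mkM, mkU, cho, h, if_true]
  · simp only [mkMU, TRaw.glue, mkM, mkU, cho, h, if_false]

end gmu

/-! ### the permutation of the fresh classes -/

section perm
variable {δ : Type} (F : δ → Prop) (fr : δ → δ)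

open Classical in
/-- exchange of the classes with their fresh classes -/
noncomputable def frf (z : δ) : δ :=
  if ¬ F z then fr z else if h : ∃ z', ¬ F z' ∧ fr z' = z then h.choose else z

variable {F fr}

lemma frf_low {z : δ} (h : ¬ F z) : frf F fr z = fr z := by
  unfold frf
  rw [if_pos h]

lemma frf_inv (h1 : ∀ z, ¬ F z → F (fr z)) (h2 : ∀ z z', ¬ F z → ¬ F z' → fr z = fr z' → z = z') :
    Function.Involutive (frf F fr) := by
  intro z
  by_cases hz : F z
  · by_cases h : ∃ z', ¬ F z' ∧ fr z' = z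
    · have e : frf F fr z = h.choose := by
        unfold frf
        rw [if_neg (not_not.2 hz), dif_pos h]
      rw [e, frf_low h.choose_spec.1]
      exact h.choose_spec.2
    · have e : frf F fr z = z := by
        unfold frf
        rw [if_neg (not_not.2 hz), dif_neg h]
      rw [e, e]
  · rw [frf_low hz]
    have hF := h1 z hz
    have h : ∃ z', ¬ F z' ∧ fr z' = fr z := ⟨z, hz, rfl⟩
    have e : frf F fr (fr z) = h.choose := by
      unfold frf
      rw [if_neg (not_not.2 hF), dif_pos h]
    rw [e]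
    exact h2 _ _ h.choose_spec.1 hz h.choose_spec.2

/-- **the permutation** -/
noncomputable def frP (h1 : ∀ z, ¬ F z → F (fr z))
    (h2 : ∀ z z', ¬ F z → ¬ F z' → fr z = fr z' → z = z') : Equiv.Perm δ :=
  (frf_inv h1 h2).toPerm _

lemma frP_low (h1 : ∀ z, ¬ F z → F (fr z))
    (h2 : ∀ z z', ¬ F z → ¬ F z' → fr z = fr z' → z = z') {z : δ} (hz : ¬ F z) :
    frP h1 h2 z = fr z := frf_low hz

lemma frP_symm (h1 : ∀ z, ¬ F z → F (fr z))
    (h2 : ∀ z z', ¬ F z → ¬ F z' → fr z = fr z' → z = z') : (frP h1 h2).symm = frP h1 h2 := by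
  ext z
  rfl

/-- the classes of the rows : `z` not fresh keeps its main part, a fresh class has the separated content -/
lemma hPP_low {hm hs : δ → ℝ → ℝ} (h1 : ∀ z, ¬ F z → F (fr z))
    (h2 : ∀ z z', ¬ F z → ¬ F z' → fr z = fr z' → z = z')
    (hs0 : ∀ z, F z → ∀ x, hs z x = 0) {z : δ} (hz : ¬ F z) (x : ℝ) :
    hPP (frP h1 h2) hm hs z x = hm z x := by
  unfold hPP
  rw [frP_symm, frP_low h1 h2 hz, hs0 _ (h1 z hz), add_zero]

lemma hPP_fresh {hm hs : δ → ℝ → ℝ} (h1 : ∀ z, ¬ F z → F (fr z))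
    (h2 : ∀ z z', ¬ F z → ¬ F z' → fr z = fr z' → z = z')
    (hm0 : ∀ z, F z → ∀ x, hm z x = 0) {z : δ} (hz : ¬ F z) (x : ℝ) :
    hPP (frP h1 h2) hm hs (fr z) x = hs z x := by
  unfold hPP
  have e : (frP h1 h2).symm (fr z) = z := by
    rw [← frP_low h1 h2 hz, Equiv.symm_apply_apply]
  rw [e, hm0 _ (h1 z hz), zero_add]

end perm

end Crest.Agent.R4P.TyS16
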