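import Crest.Agent.R4P.DTm_407
import Crest.Agent.R4P.TyG_16

/-!
R4 (S0004) with powers, T3, helper407: **the DT level of the marked game**, part 2: the rows.

For a bundle `b = (m, L)`, a tie column `p` and a type `z` : the marked / unmarked typed row of helper16
(`TyG_16.GMU`).
* `ri z c y` : share of the low type `z` in the P content of the real class `c`; `cx z c y`, `dx z c y` :
  content of `z` matched with content of the OTHER low types of the same real class (helper41's cross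
  plan), P side and N side; `gl`, `ll` : the corresponding lifts;
* marked points `mrk z y`, share `ss z x`, row data `fAl fKa fB0 fNu nuy fm fB1 fde`, contents `hm hs`,
  gains and losses `gm gs lm lS` (only cross content, all classes alike);
* **`gmu : GMU ..`**, `raw` (raw data of the row), `fam : Fam ..`.
-/

set_option autoImplicit false
set_option linter.unusedSectionVars false
set_option linter.unusedVariables false
open MeasureTheory Filter Set

namespace Crest.Agent.R4P.DTn407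

open Crest.Agent.R4.Tour104 Crest.Agent.R4.Tour758 Crest.Agent.R4.Clos758 Crest.Agent.R4.ClosL758
open Crest.Agent.R4P.Grp36 Crest.Agent.R4P.GWa343 Crest.Agent.R4P.GWb343 Crest.Agent.R4P.GWc343
open Crest.Agent.R4P.GWd343 Crest.Agent.R4P.GMer27 Crest.Agent.R4P.GCol27 Crest.Agent.R4P.TrR343
open Crest.Agent.R4P.DTp26 Crest.Agent.R4P.VR407 Crest.Agent.R4P.Bp407 Crest.Agent.R4P.MSd343
open Crest.Agent.R4P.DTm407
open Crest.Agent.R4P.TyS16 (TRaw TRow GMU mkMU cho cho_on cho_off PB_cho z0 asm hPP jA eA Fam frP)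
open Crest.Agent.R4P.TyR16 (mnR spR rV dd)
open Crest.Agent.R4P.Walk560 (DT)

section
variable {μ Λ κ ζ : Type} [Fintype Λ] [DecidableEq Λ] [Fintype κ] [DecidableEq κ]
  [Fintype ζ] [DecidableEq ζ]

/-! ### choice with zero -/

/-- `f` on `P`, zero elsewhere -/
noncomputable def ch (P : Prop) (a : ℝ) : ℝ := by
  classical exact if P then a else 0

lemma ch_on {P : Prop} {a : ℝ} (h : P) : ch P a = a := by
  classical exact if_pos h
lemma ch_off {P : Prop} {a : ℝ} (h : ¬ P) : ch P a = 0 := by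
  classical exact if_neg h

lemma ch_nonneg {P : Prop} {a : ℝ} (h : 0 ≤ a) : 0 ≤ ch P a := by
  by_cases hP : P
  · rw [ch_on hP]; exact h
  · rw [ch_off hP]

lemma ch_add_not (P : Prop) (a : ℝ) : ch P a + ch (¬ P) a = a := by
  by_cases hP : P
  · rw [ch_on hP, ch_off (not_not.2 hP), add_zero]
  · rw [ch_off hP, ch_on hP, zero_add]

lemma PB_ch {P : ℝ → Prop} (hP : MP P) {f : ℝ → ℝ} (hf : PB f) : PB fun x => ch (P x) (f x) := by
  have h := PB_cho hP.prop.1 hP.prop.2 hf (PB.const (le_refl (0 : ℝ)))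
  have e : (fun x => ch (P x) (f x)) = cho P f (fun _ => 0) := by
    funext x
    by_cases hx : P x
    · rw [ch_on hx, cho_on hx]
    · rw [ch_off hx, cho_off hx]
  rw [e]
  exact h

namespace TD'
variable (D : TD μ Λ κ ζ) (wr : ℕ → Λ → κ) (p : ℕ) (b : μ × List (DT Λ κ))

/-- P, N, pulled content and lifts of (class, type) -/
noncomputable def rA (z : ζ) (c : κ) (y : ℝ) : ℝ :=
  cz (wr p) (D.lt p b.1) (pA (bB p b.2)) c (some z) y
noncomputable def rB (z : ζ) (c : κ) (y : ℝ) : ℝ :=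
  cz (wr p) (D.lt p b.1) (pB (bB p b.2)) c (some z) y
noncomputable def rQ (z : ζ) (c : κ) (y : ℝ) : ℝ :=
  cz (wr p) (D.lt p b.1) (pQ (bB p b.2)) c (some z) y
noncomputable def rG (z : ζ) (c : κ) (x : ℝ) : ℝ :=
  cz (wr p) (fun x => D.lt p b.1 (p * x)) (pG (bB p b.2)) c (some z) x
/-- content above of the true tie -/
noncomputable def rW (z : ζ) (c : κ) (x : ℝ) : ℝ :=
  cz (wr p) (fun x => D.lt p b.1 (p * x)) (vT p (bB p b.2)) c (some z) x

/-- matched fractions -/
noncomputable def rf (c : κ) (y : ℝ) : ℝ := bf (wr p) (bB p b.2) c y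
noncomputable def ra (c : κ) (y : ℝ) : ℝ := al (wr p) (bB p b.2) c y

/-- removed part -/
noncomputable def rR (z : ζ) (c : κ) (x : ℝ) : ℝ :=
  rA D wr p b z c (p * x) / SA (wr p) (bB p b.2) c (p * x) * rf wr p b c (p * x) *
    SG (wr p) (bB p b.2) c x

/-- share of the type `z` in the P content of the real class -/
noncomputable def ri (z : ζ) (c : κ) (y : ℝ) : ℝ :=
  rA D wr p b z c y / SA (wr p) (bB p b.2) c y

/-- **cross content** : P content of the type `z` matched with N content of the other types -/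
noncomputable def cx (z : ζ) (c : κ) (y : ℝ) : ℝ :=
  rf wr p b c y * ri D wr p b z c y * (SB (wr p) (bB p b.2) c y - rB D wr p b z c y)
/-- **cross content** : N content of the type `z` matched with P content of the other types -/
noncomputable def dx (z : ζ) (c : κ) (y : ℝ) : ℝ :=
  rf wr p b c y * (1 - ri D wr p b z c y) * rB D wr p b z c y
/-- cross lifts gained by the type -/
noncomputable def gl (z : ζ) (c : κ) (x : ℝ) : ℝ :=
  rf wr p b c (p * x) * (1 - ri D wr p b z c (p * x)) * rG D wr p b z c x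
/-- cross lifts lost by the type -/
noncomputable def ll (z : ζ) (c : κ) (x : ℝ) : ℝ :=
  rf wr p b c (p * x) * ri D wr p b z c (p * x) *
    (SG (wr p) (bB p b.2) c x - rG D wr p b z c x)
/-- content matched inside the type -/
noncomputable def mx (z : ζ) (c : κ) (y : ℝ) : ℝ :=
  rf wr p b c y * ri D wr p b z c y * rB D wr p b z c y

/-- marked point of the type `z` -/
def mrk (z : ζ) (y : ℝ) : Prop := ∃ i ∈ Finset.range p, D.spc p b z ((y + (i : ℕ)) / p)

/-- share of the special sheet -/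
noncomputable def ss (z : ζ) (x : ℝ) : ℝ := ch (D.spc p b z x) 1

/-- excess lifts of the special sheet and of the active class -/
noncomputable def fL (z : ζ) (x : ℝ) : ℝ :=
  ∑ c, ch (D.spc p b z x ∧ c = D.act p b z (p * x))
    ((1 - rf wr p b c (p * x)) * rG D wr p b z c x)
/-- the other excess lifts -/
noncomputable def fNu (z : ζ) (x : ℝ) : ℝ :=
  ∑ c, ch (¬ (D.spc p b z x ∧ c = D.act p b z (p * x)))
    ((1 - rf wr p b c (p * x)) * rG D wr p b z c x)
noncomputable def el (z : ζ) (y : ℝ) : ℝ := ∑ i ∈ Finset.range p, fL D wr p b z ((y + i) / p)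
noncomputable def nuy (z : ζ) (y : ℝ) : ℝ := ∑ i ∈ Finset.range p, fNu D wr p b z ((y + i) / p)

/-- all the pulled content -/
noncomputable def fQ (z : ζ) (y : ℝ) : ℝ := ∑ c, rQ D wr p b z c y

/-- active P content (without the cross content) -/
noncomputable def aA (z : ζ) (c : κ) (y : ℝ) : ℝ :=
  ch (c = D.act p b z y) (rA D wr p b z c y - cx D wr p b z c y)
/-- inactive P content, cross content of the active class -/
noncomputable def kA (z : ζ) (c : κ) (y : ℝ) : ℝ :=
  ch (¬ c = D.act p b z y) (rA D wr p b z c y) + ch (c = D.act p b z y) (cx D wr p b z c y)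
noncomputable def fAl (z : ζ) (y : ℝ) : ℝ := ∑ c, aA D wr p b z c y + fQ D wr p b z y
noncomputable def fKa (z : ζ) (y : ℝ) : ℝ := ∑ c, kA D wr p b z c y
noncomputable def fX (z : ζ) (y : ℝ) : ℝ :=
  ∑ c, ch (c = D.act p b z y) (mx D wr p b z c y)
noncomputable def fB0 (z : ζ) (y : ℝ) : ℝ := fX D wr p b z y + fQ D wr p b z y + el D wr p b z y
/-- matched content of the other classes, cross content of the active class, marked points -/
noncomputable def fmM (z : ζ) (y : ℝ) : ℝ :=
  ∑ c, (ch (¬ c = D.act p b z y) (rf wr p b c y * rB D wr p b z c y) +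
    ch (c = D.act p b z y) (dx D wr p b z c y))
/-- cross content, unmarked points -/
noncomputable def fmU (z : ζ) (y : ℝ) : ℝ := ∑ c, dx D wr p b z c y
noncomputable def fm (z : ζ) (y : ℝ) : ℝ :=
  ch (mrk D p b z y) (fmM D wr p b z y) + ch (¬ mrk D p b z y) (fmU D wr p b z y)
noncomputable def fde (z : ζ) (y : ℝ) : ℝ := ∑ c, (1 - rf wr p b c y) * rB D wr p b z c y
noncomputable def fB1 (z : ζ) (y : ℝ) : ℝ := fQ D wr p b z y + fde D wr p b z y +
  ∑ c, mx D wr p b z c y

/-- contents above -/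
noncomputable def hm (z : ζ) (x : ℝ) : ℝ :=
  ∑ c, ch (¬ (D.spc p b z x ∧ c ≠ D.act p b z (p * x))) (rW D wr p b z c x) +
    fQ D wr p b z (p * x)
noncomputable def hs (z : ζ) (x : ℝ) : ℝ :=
  ∑ c, ch (D.spc p b z x ∧ c ≠ D.act p b z (p * x)) (rW D wr p b z c x)

/-- gains and losses -/
noncomputable def gm (z : ζ) (x : ℝ) : ℝ :=
  ∑ c, (ch (¬ (D.spc p b z x ∧ c ≠ D.act p b z (p * x)))
    (1 / (p : ℝ) * cx D wr p b z c (p * x) + gl D wr p b z c x) +
    ch (D.spc p b z x ∧ c = D.act p b z (p * x)) ((1 - 1 / (p : ℝ)) * cx D wr p b z c (p * x)))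
noncomputable def lm (z : ζ) (x : ℝ) : ℝ :=
  ∑ c, (ch (¬ (D.spc p b z x ∧ c ≠ D.act p b z (p * x)))
    (1 / (p : ℝ) * dx D wr p b z c (p * x) + ll D wr p b z c x) +
    ch (D.spc p b z x ∧ c ≠ D.act p b z (p * x))
      (1 / (p : ℝ) * (rf wr p b c (p * x) * rB D wr p b z c (p * x)) +
        (1 - rf wr p b c (p * x)) * rG D wr p b z c x))
noncomputable def gs (z : ζ) (x : ℝ) : ℝ :=
  ∑ c, ch (D.spc p b z x ∧ c ≠ D.act p b z (p * x))
    (1 / (p : ℝ) * (ra wr p b c (p * x) * rA D wr p b z c (p * x)) +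
      ((1 - rf wr p b c (p * x)) * rG D wr p b z c x + gl D wr p b z c x))
noncomputable def lS (z : ζ) (x : ℝ) : ℝ :=
  ∑ c, (ch (D.spc p b z x ∧ c ≠ D.act p b z (p * x)) (ll D wr p b z c x) +
    ch (D.spc p b z x ∧ c = D.act p b z (p * x)) ((1 - 1 / (p : ℝ)) * cx D wr p b z c (p * x)))

end TD'

open TD'

/-! ### measurability -/

section pb
variable {wr : ℕ → Λ → κ} {D : TD μ Λ κ ζ} {Inv : ℕ → μ × List (DT Λ κ) → Prop} {p : ℕ}
  {b : μ × List (DT Λ κ)} (H : TYp wr D Inv) (hb : Inv p b) (hp : p ≠ 0)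
include H hb hp

lemma PrA (z : ζ) (c : κ) : PB (rA D wr p b z c) :=
  PB_cz (H.mlt p b.1) (fun j => (H.bok hb hp).PA j) c (some z)
lemma PrB (z : ζ) (c : κ) : PB (rB D wr p b z c) :=
  PB_cz (H.mlt p b.1) (fun j => (H.bok hb hp).PBb j) c (some z)
lemma PrQ (z : ζ) (c : κ) : PB (rQ D wr p b z c) :=
  PB_cz (H.mlt p b.1) (fun j => (H.bok hb hp).PQ j) c (some z)
omit hb hp in
lemma PrG (z : ζ) (c : κ) : PB (rG D wr p b z c) :=
  PB_cz (H.mltp p b.1) (fun j => PB_pG _ j) c (some z)
lemma PrW (z : ζ) (c : κ) : PB (rW D wr p b z c) :=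
  PB_cz (H.mltp p b.1) (fun j => PB_vT (H.bok hb hp) (Nat.pos_of_ne_zero hp) j) c (some z)
lemma Prf (c : κ) : PB (rf wr p b c) := PB_bf (H.bok hb hp) c
lemma Pra (c : κ) : PB (ra wr p b c) := PB_al (H.bok hb hp) c
lemma Prf' (c : κ) : PB fun y => 1 - rf wr p b c y := PB_th (H.bok hb hp) c

lemma rA_le (z : ζ) (c : κ) (y : ℝ) : rA D wr p b z c y ≤ SA (wr p) (bB p b.2) c y :=
  cz_le_sm (fun j => ((H.bok hb hp).PA j).nonneg y) c (some z)
lemma rB_le (z : ζ) (c : κ) (y : ℝ) : rB D wr p b z c y ≤ SB (wr p) (bB p b.2) c y :=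
  cz_le_sm (fun j => ((H.bok hb hp).PBb j).nonneg y) c (some z)

lemma PrR (z : ζ) (c : κ) : PB (rR D wr p b z c) := by
  have h1 : PB fun y => rA D wr p b z c y / SA (wr p) (bB p b.2) c y :=
    TyS16.PB_ratio (PrA H hb hp z c) (PB_SA (H.bok hb hp) c) (rA_le H hb hp z c)
  exact ((h1.pull p).mul ((Prf H hb hp c).pull p)).mul (PB_SG _ c)

lemma rG_le' (z : ζ) (c : κ) (x : ℝ) : rG D wr p b z c x ≤ SG (wr p) (bB p b.2) c x :=
  cz_le_sm (fun j => (PB_pG _ j).nonneg x) c (some z)

lemma Pri (z : ζ) (c : κ) : PB (ri D wr p b z c) :=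
  TyS16.PB_ratio (PrA H hb hp z c) (PB_SA (H.bok hb hp) c) (rA_le H hb hp z c)
lemma ri1 (z : ζ) (c : κ) (y : ℝ) : ri D wr p b z c y ≤ 1 := by
  have h1 := rA_le H hb hp z c y
  have h2 := (PB_SA (H.bok hb hp) c).nonneg y
  exact div_le_one_of_le₀ h1 h2
lemma Pri' (z : ζ) (c : κ) : PB fun y => 1 - ri D wr p b z c y :=
  ModeS16.PB_sub (PB.const zero_le_one) (Pri H hb hp z c) fun y => ri1 H hb hp z c y
lemma Pcx (z : ζ) (c : κ) : PB (cx D wr p b z c) :=
  ((Prf H hb hp c).mul (Pri H hb hp z c)).mul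
    (ModeS16.PB_sub (PB_SB (H.bok hb hp) c) (PrB H hb hp z c) (rB_le H hb hp z c))
lemma Pdx (z : ζ) (c : κ) : PB (dx D wr p b z c) :=
  ((Prf H hb hp c).mul (Pri' H hb hp z c)).mul (PrB H hb hp z c)
lemma Pmx (z : ζ) (c : κ) : PB (mx D wr p b z c) :=
  ((Prf H hb hp c).mul (Pri H hb hp z c)).mul (PrB H hb hp z c)
lemma Pgl (z : ζ) (c : κ) : PB (gl D wr p b z c) :=
  (((Prf H hb hp c).pull p).mul ((Pri' H hb hp z c).pull p)).mul (PrG H z c)
lemma Pll (z : ζ) (c : κ) : PB (ll D wr p b z c) :=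
  (((Prf H hb hp c).pull p).mul ((Pri H hb hp z c).pull p)).mul
    (ModeS16.PB_sub (PB_SG _ c) (PrG H z c) (rG_le' H hb hp z c))

omit hb hp in
/-- choice by a condition on the active class at the point below -/
lemma PBy (z : ζ) (F : κ → Prop) {f : ℝ → ℝ} (hf : PB f) :
    PB fun y => ch (F (D.act p b z y)) (f y) := PB_ch ((H.mac p b z).map F) hf

omit hb hp in
lemma mqx (z : ζ) : MP fun x : ℝ => (D.spc p b z x, D.act p b z (p * x)) :=
  (H.msp p b z).prod ((H.mac p b z).pull p)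

omit hb hp in
/-- choice by a condition on the data of the point above -/
lemma PBx (z : ζ) (F : Prop × κ → Prop) {f : ℝ → ℝ} (hf : PB f) :
    PB fun x => ch (F (D.spc p b z x, D.act p b z (p * x))) (f x) :=
  PB_ch ((mqx H z).map F) hf

omit H hb hp in
lemma PB_fsum {p : ℕ} (hp : 0 < p) {f : ℝ → ℝ} (hf : PB f) :
    PB fun y => ∑ i ∈ Finset.range p, f ((y + (i : ℕ)) / p) := by
  have hp' : (p : ℝ) ≠ 0 := by exact_mod_cast hp.ne'
  have h := (hf.Ep hp).smul (show (0 : ℝ) ≤ p by positivity)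
  have e : (fun y => ∑ i ∈ Finset.range p, f ((y + (i : ℕ)) / p)) = fun y => (p : ℝ) * Ep p f y := by
    funext y
    unfold Ep
    field_simp
  rw [e]
  exact h

lemma PfL (z : ζ) : PB (fL D wr p b z) :=
  PB.sum _ fun c _ => PBx H z (fun q => q.1 ∧ c = q.2)
    (((Prf' H hb hp c).pull p).mul (PrG H z c))
lemma PfNu (z : ζ) : PB (fNu D wr p b z) :=
  PB.sum _ fun c _ => PBx H z (fun q => ¬ (q.1 ∧ c = q.2))
    (((Prf' H hb hp c).pull p).mul (PrG H z c))
lemma Pel (z : ζ) : PB (el D wr p b z) := PB_fsum (Nat.pos_of_ne_zero hp) (PfL H hb hp z)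
lemma Pnuy (z : ζ) : PB (nuy D wr p b z) := PB_fsum (Nat.pos_of_ne_zero hp) (PfNu H hb hp z)
lemma PfQ (z : ζ) : PB (fQ D wr p b z) := PB.sum _ fun c _ => PrQ H hb hp z c
lemma cx_le (z : ζ) (c : κ) (y : ℝ) : cx D wr p b z c y ≤ rA D wr p b z c y := by
  have Kk := H.bok hb hp
  have e1 : rf wr p b c y * SB (wr p) (bB p b.2) c y =
      min (SA (wr p) (bB p b.2) c y) (SB (wr p) (bB p b.2) c y) := bf_mul Kk c y
  have e2 : ri D wr p b z c y * SA (wr p) (bB p b.2) c y = rA D wr p b z c y := by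
    unfold ri
    by_cases h0 : SA (wr p) (bB p b.2) c y = 0
    · rw [h0, mul_zero]
      exact (le_antisymm ((rA_le H hb hp z c y).trans h0.le) ((PrA H hb hp z c).nonneg y)).symm
    · exact div_mul_cancel₀ _ h0
  have h1 := (Pri H hb hp z c).nonneg y
  have h2 := (Prf H hb hp c).nonneg y
  have h3 := (PrB H hb hp z c).nonneg y
  have h4 := min_le_left (SA (wr p) (bB p b.2) c y) (SB (wr p) (bB p b.2) c y)
  have h5 := mul_le_mul_of_nonneg_left h4 h1
  have h6 : 0 ≤ rf wr p b c y * ri D wr p b z c y * rB D wr p b z c y :=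
    mul_nonneg (mul_nonneg h2 h1) h3
  have e3 : cx D wr p b z c y = ri D wr p b z c y * (rf wr p b c y * SB (wr p) (bB p b.2) c y) -
      rf wr p b c y * ri D wr p b z c y * rB D wr p b z c y := by unfold cx; ring
  rw [e3, e1]
  linarith

lemma PaA (z : ζ) (c : κ) : PB (aA D wr p b z c) :=
  PBy H z (fun q => c = q) (ModeS16.PB_sub (PrA H hb hp z c) (Pcx H hb hp z c)
    (cx_le H hb hp z c))
lemma PkA (z : ζ) (c : κ) : PB (kA D wr p b z c) :=
  (PBy H z (fun q => ¬ c = q) (PrA H hb hp z c)).add (PBy H z (fun q => c = q) (Pcx H hb hp z c))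
lemma PfAl (z : ζ) : PB (fAl D wr p b z) :=
  (PB.sum _ fun c _ => PaA H hb hp z c).add (PfQ H hb hp z)
lemma PfKa (z : ζ) : PB (fKa D wr p b z) := PB.sum _ fun c _ => PkA H hb hp z c
lemma PfX (z : ζ) : PB (fX D wr p b z) :=
  PB.sum _ fun c _ => PBy H z (fun q => c = q) (Pmx H hb hp z c)
lemma PfB0 (z : ζ) : PB (fB0 D wr p b z) := ((PfX H hb hp z).add (PfQ H hb hp z)).add (Pel H hb hp z)
lemma PfmM (z : ζ) : PB (fmM D wr p b z) :=
  PB.sum _ fun c _ => (PBy H z (fun q => ¬ c = q)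
    ((Prf H hb hp c).mul (PrB H hb hp z c))).add (PBy H z (fun q => c = q) (Pdx H hb hp z c))
lemma PfmU (z : ζ) : PB (fmU D wr p b z) := PB.sum _ fun c _ => Pdx H hb hp z c
lemma Pfde (z : ζ) : PB (fde D wr p b z) :=
  PB.sum _ fun c _ => (Prf' H hb hp c).mul (PrB H hb hp z c)
lemma PfB1 (z : ζ) : PB (fB1 D wr p b z) :=
  ((PfQ H hb hp z).add (Pfde H hb hp z)).add (PB.sum _ fun c _ => Pmx H hb hp z c)

lemma Phm (z : ζ) : PB (hm D wr p b z) :=
  (PB.sum _ fun c _ => PBx H z (fun q => ¬ (q.1 ∧ c ≠ q.2)) (PrW H hb hp z c)).add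
    ((PfQ H hb hp z).pull p)
lemma Phs (z : ζ) : PB (hs D wr p b z) :=
  PB.sum _ fun c _ => PBx H z (fun q => q.1 ∧ c ≠ q.2) (PrW H hb hp z c)

lemma w0 : (0 : ℝ) ≤ 1 / (p : ℝ) := by positivity
omit H hb in
lemma w1 : (0 : ℝ) ≤ 1 - 1 / (p : ℝ) := by
  have h : (1 : ℝ) ≤ p := by exact_mod_cast Nat.one_le_iff_ne_zero.2 hp
  rw [sub_nonneg, div_le_one (by linarith)]
  exact h

lemma Pgm (z : ζ) : PB (gm D wr p b z) :=
  PB.sum _ fun c _ => (PBx H z (fun q => ¬ (q.1 ∧ c ≠ q.2))
    ((((Pcx H hb hp z c).pull p).smul (w0 H hb hp)).add (Pgl H hb hp z c))).add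
    (PBx H z (fun q => q.1 ∧ c = q.2) (((Pcx H hb hp z c).pull p).smul (w1 hp)))
lemma Plm (z : ζ) : PB (lm D wr p b z) :=
  PB.sum _ fun c _ => (PBx H z (fun q => ¬ (q.1 ∧ c ≠ q.2))
    ((((Pdx H hb hp z c).pull p).smul (w0 H hb hp)).add (Pll H hb hp z c))).add
    (PBx H z (fun q => q.1 ∧ c ≠ q.2)
      (((((Prf H hb hp c).pull p).mul ((PrB H hb hp z c).pull p)).smul (w0 H hb hp)).add
        (((Prf' H hb hp c).pull p).mul (PrG H z c))))
lemma Pgs (z : ζ) : PB (gs D wr p b z) :=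
  PB.sum _ fun c _ => PBx H z (fun q => q.1 ∧ c ≠ q.2)
    (((((Pra H hb hp c).pull p).mul ((PrA H hb hp z c).pull p)).smul (w0 H hb hp)).add
      ((((Prf' H hb hp c).pull p).mul (PrG H z c)).add (Pgl H hb hp z c)))
lemma PlS (z : ζ) : PB (lS D wr p b z) :=
  PB.sum _ fun c _ => (PBx H z (fun q => q.1 ∧ c ≠ q.2) (Pll H hb hp z c)).add
    (PBx H z (fun q => q.1 ∧ c = q.2) (((Pcx H hb hp z c).pull p).smul (w1 hp)))

lemma Pss (z : ζ) : PB (ss D p b z) :=
  PB_ch (H.msp p b z) (PB.const zero_le_one)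

omit hb in
lemma mmk (z : ζ) : MP (mrk D p b z) := by
  have hp0 : 0 < p := Nat.pos_of_ne_zero hp
  have hp' : (p : ℝ) ≠ 0 := by exact_mod_cast hp
  have hm := (H.msp p b z).prop
  refine MP.ofProp ?_ fun y => ?_
  · have e : {y | mrk D p b z y} = ⋃ i ∈ Finset.range p, (fun y : ℝ => (y + (i : ℕ)) / p) ⁻¹'
        {x | D.spc p b z x} := by
      ext y
      simp [mrk]
    rw [e]
    refine Finset.measurableSet_biUnion _ fun i _ => ?_
    exact ((measurable_id.add_const _).div_const _) hm.1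
  · constructor
    · rintro ⟨i, hi, h⟩
      rw [Finset.mem_range] at hi
      by_cases h2 : i + 1 < p
      · refine ⟨i + 1, Finset.mem_range.2 h2, ?_⟩
        have e : (y + ((i + 1 : ℕ) : ℝ)) / p = (y + 1 + (i : ℕ)) / p := by push_cast; ring
        rw [e]; exact h
      · have h3 : i + 1 = p := by omega
        refine ⟨0, Finset.mem_range.2 hp0, ?_⟩
        have e : (y + 1 + (i : ℕ)) / p = (y + ((0 : ℕ) : ℝ)) / p + 1 := by
          have : (p : ℝ) = i + 1 := by rw [← h3]; push_cast; ring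
          rw [this] at hp' ⊢
          field_simp
          push_cast
          ring
        rw [e] at h
        exact (hm.2 _).1 h
    · rintro ⟨i, hi, h⟩
      rw [Finset.mem_range] at hi
      by_cases h2 : i = 0
      · subst h2
        refine ⟨p - 1, Finset.mem_range.2 (by omega), ?_⟩
        have e : (y + 1 + ((p - 1 : ℕ) : ℝ)) / p = (y + ((0 : ℕ) : ℝ)) / p + 1 := by
          rw [Nat.cast_sub hp0]
          field_simp
          push_cast
          ring
        rw [e]
        exact (hm.2 _).2 h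
      · refine ⟨i - 1, Finset.mem_range.2 (by omega), ?_⟩
        have e : (y + 1 + ((i - 1 : ℕ) : ℝ)) / p = (y + (i : ℕ)) / p := by
          rw [Nat.cast_sub (by omega)]
          push_cast
          ring
        rw [e]; exact h

lemma Pfm (z : ζ) : PB (fm D wr p b z) := by
  have h := mmk (b := b) H hp z
  exact (PB_ch h (PfmM H hb hp z)).add (PB_ch (h.map (fun P => ¬ P)) (PfmU H hb hp z))

end pb

/-! ### purity -/

section id
variable {wr : ℕ → Λ → κ} {D : TD μ Λ κ ζ} {Inv : ℕ → μ × List (DT Λ κ) → Prop} {p : ℕ}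
  {b : μ × List (DT Λ κ)} (H : TYp wr D Inv) (hb : Inv p b) (hp : p ≠ 0)
include H hb hp

lemma rA0 (z : ζ) (c : κ) (y : ℝ) : 0 ≤ rA D wr p b z c y := (PrA H hb hp z c).nonneg y
lemma rB0 (z : ζ) (c : κ) (y : ℝ) : 0 ≤ rB D wr p b z c y := (PrB H hb hp z c).nonneg y
lemma rG0 (z : ζ) (c : κ) (x : ℝ) : 0 ≤ rG D wr p b z c x := (PrG H z c).nonneg x
lemma rf0 (c : κ) (y : ℝ) : 0 ≤ rf wr p b c y := (Prf H hb hp c).nonneg y
lemma rf1 (c : κ) (y : ℝ) : 0 ≤ 1 - rf wr p b c y := (Prf' H hb hp c).nonneg y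

lemma ri0 (z : ζ) (c : κ) (y : ℝ) : 0 ≤ ri D wr p b z c y := (Pri H hb hp z c).nonneg y
lemma cx0 (z : ζ) (c : κ) (y : ℝ) : 0 ≤ cx D wr p b z c y := (Pcx H hb hp z c).nonneg y
lemma dx0 (z : ζ) (c : κ) (y : ℝ) : 0 ≤ dx D wr p b z c y := (Pdx H hb hp z c).nonneg y
lemma mx0 (z : ζ) (c : κ) (y : ℝ) : 0 ≤ mx D wr p b z c y := (Pmx H hb hp z c).nonneg y

lemma ri_mul (z : ζ) (c : κ) (y : ℝ) :
    ri D wr p b z c y * SA (wr p) (bB p b.2) c y = rA D wr p b z c y := by
  unfold ri
  by_cases h0 : SA (wr p) (bB p b.2) c y = 0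
  · rw [h0, mul_zero]
    exact (le_antisymm ((rA_le H hb hp z c y).trans h0.le) (rA0 H hb hp z c y)).symm
  · exact div_mul_cancel₀ _ h0

lemma rf_mul (c : κ) (y : ℝ) : rf wr p b c y * SB (wr p) (bB p b.2) c y =
    min (SA (wr p) (bB p b.2) c y) (SB (wr p) (bB p b.2) c y) := bf_mul (H.bok hb hp) c y
lemma ra_mul (c : κ) (y : ℝ) : ra wr p b c y * SA (wr p) (bB p b.2) c y =
    min (SA (wr p) (bB p b.2) c y) (SB (wr p) (bB p b.2) c y) := al_mul (H.bok hb hp) c y

/-- matched P content of the type -/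
lemma ra_rA (z : ζ) (c : κ) (y : ℝ) : ra wr p b c y * rA D wr p b z c y =
    rf wr p b c y * ri D wr p b z c y * SB (wr p) (bB p b.2) c y := by
  rw [← ri_mul H hb hp z c y]
  have h1 := rf_mul (wr := wr) H hb hp c y
  have h2 := ra_mul (wr := wr) H hb hp c y
  calc ra wr p b c y * (ri D wr p b z c y * SA (wr p) (bB p b.2) c y)
      = ri D wr p b z c y * (ra wr p b c y * SA (wr p) (bB p b.2) c y) := by ring
    _ = ri D wr p b z c y * (rf wr p b c y * SB (wr p) (bB p b.2) c y) := by rw [h1, h2]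
    _ = _ := by ring

lemma ra_eq (z : ζ) (c : κ) (y : ℝ) : ra wr p b c y * rA D wr p b z c y =
    mx D wr p b z c y + cx D wr p b z c y := by
  rw [ra_rA H hb hp]
  unfold mx cx
  ring

omit H hb hp in
lemma rf_eq (z : ζ) (c : κ) (y : ℝ) : rf wr p b c y * rB D wr p b z c y =
    mx D wr p b z c y + dx D wr p b z c y := by
  unfold mx dx
  ring

/-- content matched inside the type : below the P content without the cross content; equal to it if
there is unmatched N content -/
lemma mx_le (z : ζ) (c : κ) (y : ℝ) :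
    mx D wr p b z c y ≤ rA D wr p b z c y - cx D wr p b z c y ∧
    ((1 - rf wr p b c y) * rB D wr p b z c y = 0 ∨
      mx D wr p b z c y = rA D wr p b z c y - cx D wr p b z c y) := by
  have h1 := ra_eq H hb hp z c y
  have h2 : ra wr p b c y ≤ 1 := al1 (H.bok hb hp) c y
  have h3 := rA0 H hb hp z c y
  refine ⟨by nlinarith, ?_⟩
  have e1 := rf_mul (wr := wr) H hb hp c y
  have e2 := ra_mul (wr := wr) H hb hp c y
  rcases le_total (SA (wr p) (bB p b.2) c y) (SB (wr p) (bB p b.2) c y) with h | h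
  · right
    rw [min_eq_left h] at e2
    have h4 : ra wr p b c y * rA D wr p b z c y = rA D wr p b z c y := by
      by_cases h0 : SA (wr p) (bB p b.2) c y = 0
      · have h5 : rA D wr p b z c y = 0 := le_antisymm ((rA_le H hb hp z c y).trans h0.le) h3
        rw [h5, mul_zero]
      · have h5 : ra wr p b c y = 1 := mul_right_cancel₀ h0 (by rw [e2, one_mul])
        rw [h5, one_mul]
    linarith
  · left
    rw [min_eq_right h] at e1
    by_cases h0 : SB (wr p) (bB p b.2) c y = 0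
    · have h5 : rB D wr p b z c y = 0 :=
        le_antisymm ((rB_le H hb hp z c y).trans h0.le) (rB0 H hb hp z c y)
      rw [h5, mul_zero]
    · have h5 : rf wr p b c y = 1 := mul_right_cancel₀ h0 (by rw [e1, one_mul])
      rw [h5, sub_self, zero_mul]

/-- the content above of (class, type) -/
lemma rW_eq (z : ζ) (c : κ) (x : ℝ) : rW D wr p b z c x =
    (1 - 1 / (p : ℝ)) * rA D wr p b z c (p * x) +
    1 / (p : ℝ) * (ra wr p b c (p * x) * rA D wr p b z c (p * x)) + rG D wr p b z c x -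
    rR D wr p b z c x := cz_vT (H.bok hb hp) (D.lt p b.1) c (some z) x

/-- **the row of a class is ideal up to cross content** -/
lemma W_id (z : ζ) (c : κ) (x : ℝ) : rW D wr p b z c x +
    (1 / (p : ℝ) * dx D wr p b z c (p * x) + ll D wr p b z c x) =
    (1 - 1 / (p : ℝ)) * rA D wr p b z c (p * x) +
    1 / (p : ℝ) * (rf wr p b c (p * x) * rB D wr p b z c (p * x)) +
    (1 - rf wr p b c (p * x)) * rG D wr p b z c x +
    (1 / (p : ℝ) * cx D wr p b z c (p * x) + gl D wr p b z c x) := by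
  rw [rW_eq H hb hp, ra_rA H hb hp]
  unfold rR dx cx gl ll ri
  ring

/-- the row of a separated class -/
lemma W_is (z : ζ) (c : κ) (x : ℝ) : rW D wr p b z c x + ll D wr p b z c x =
    (1 - 1 / (p : ℝ)) * rA D wr p b z c (p * x) +
    (1 / (p : ℝ) * (ra wr p b c (p * x) * rA D wr p b z c (p * x)) +
      ((1 - rf wr p b c (p * x)) * rG D wr p b z c x + gl D wr p b z c x)) := by
  rw [rW_eq H hb hp]
  unfold rR gl ll ri
  ring

/-! ### the special sheet -/

omit H hb in
lemma fib (x : ℝ) : ((p : ℝ) * x + ((0 : ℕ) : ℝ)) / p = x := by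
  have hp' : (p : ℝ) ≠ 0 := by exact_mod_cast hp
  push_cast
  field_simp
  ring

omit H hb in
lemma spc_mrk {z : ζ} {x : ℝ} (h : D.spc p b z x) : mrk D p b z (p * x) :=
  ⟨0, Finset.mem_range.2 (Nat.pos_of_ne_zero hp), by rw [fib hp]; exact h⟩

omit hb in
lemma sum_ss {z : ζ} {y : ℝ} (h : mrk D p b z y) :
    ∑ i ∈ Finset.range p, ss D p b z ((y + i) / p) = 1 := by
  obtain ⟨i, hi, h1⟩ := h
  rw [Finset.sum_eq_single i]
  · exact ch_on h1
  · intro i' hi' hne
    refine ch_off fun h2 => hne ?_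
    exact H.one p b z y i' i (Finset.mem_range.1 hi') (Finset.mem_range.1 hi) h2 h1
  · intro h2; exact absurd hi h2

omit H hb in
lemma fL_zero {z : ζ} {x : ℝ} (h : ¬ D.spc p b z x) : fL D wr p b z x = 0 :=
  Finset.sum_eq_zero fun c _ => ch_off fun h2 => h h2.1

/-- the lifts of the special sheet -/
lemma fL_el (z : ζ) (x : ℝ) : ss D p b z x * el D wr p b z (p * x) = fL D wr p b z x := by
  by_cases h : D.spc p b z x
  · have e : ss D p b z x = 1 := ch_on h
    rw [e, one_mul]
    unfold el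
    rw [Finset.sum_eq_single 0]
    · rw [fib hp]
    · intro i hi hne
      refine fL_zero hp fun h2 => hne ?_
      refine (H.one p b z (p * x) i 0 (Finset.mem_range.1 hi) (Nat.pos_of_ne_zero hp) h2 ?_)
      rw [fib hp]; exact h
    · intro h2; exact absurd (Finset.mem_range.2 (Nat.pos_of_ne_zero hp)) h2
  · have e : ss D p b z x = 0 := ch_off h
    rw [e, zero_mul, fL_zero hp h]

omit hb in
lemma fL_add (z : ζ) (x : ℝ) : fL D wr p b z x + fNu D wr p b z x = D.gc wr p b z x := by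
  unfold fL fNu
  rw [← Finset.sum_add_distrib]
  show _ = hz _ _ _ _
  rw [← sum_cz' (wr p)]
  refine Finset.sum_congr rfl fun c _ => ?_
  rw [ch_add_not]
  exact (cz_eg _ _ _ _).symm

/-- the fibre sum of the excess lifts -/
lemma gc_sum (z : ζ) (y : ℝ) :
    ∑ i ∈ Finset.range p, D.gc wr p b z ((y + i) / p) = fde D wr p b z y := by
  have hp0 : 0 < p := Nat.pos_of_ne_zero hp
  have hp' : (p : ℝ) ≠ 0 := by exact_mod_cast hp
  have e : ∀ x, D.gc wr p b z x = ∑ c, (1 - rf wr p b c (p * x)) * rG D wr p b z c x := by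
    intro x
    show hz _ _ _ _ = _
    rw [← sum_cz' (wr p)]
    exact Finset.sum_congr rfl fun c _ => cz_eg _ _ _ _
  simp only [e]
  rw [Finset.sum_comm]
  unfold fde
  refine Finset.sum_congr rfl fun c _ => ?_
  have e2 := Ep_cz (wr p) (D.lt p b.1) (lift_pG (H.bok hb hp)) hp0 (H.mlt p b.1) c (some z) y
  have e3 : ∑ i ∈ Finset.range p, rG D wr p b z c ((y + (i : ℕ)) / p) = rB D wr p b z c y := by
    have e4 : Ep p (rG D wr p b z c) y = 1 / (p : ℝ) * rB D wr p b z c y := e2
    unfold Ep at e4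
    field_simp at e4
    linarith
  rw [← e3, Finset.mul_sum]
  refine Finset.sum_congr rfl fun i _ => ?_
  rw [pull_fibre hp0 (Prf H hb hp c).per y i]

/-- the lifts of the special sheet are below the unmatched active content -/
lemma el_le (z : ζ) (y : ℝ) : el D wr p b z y ≤
    ∑ c, ch (c = D.act p b z y) ((1 - rf wr p b c y) * rB D wr p b z c y) := by
  have hp0 : 0 < p := Nat.pos_of_ne_zero hp
  have hp' : (p : ℝ) ≠ 0 := by exact_mod_cast hp
  unfold el fL
  rw [Finset.sum_comm]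
  refine Finset.sum_le_sum fun c _ => ?_
  have e2 := Ep_cz (wr p) (D.lt p b.1) (lift_pG (H.bok hb hp)) hp0 (H.mlt p b.1) c (some z) y
  have e3 : ∑ i ∈ Finset.range p, rG D wr p b z c ((y + (i : ℕ)) / p) = rB D wr p b z c y := by
    have e4 : Ep p (rG D wr p b z c) y = 1 / (p : ℝ) * rB D wr p b z c y := e2
    unfold Ep at e4
    field_simp at e4
    linarith
  have eact : ∀ i : ℕ, D.act p b z (p * ((y + (i : ℕ)) / p)) = D.act p b z y := fun i => by
    have e : (p : ℝ) * ((y + (i : ℝ)) / p) = y + i := by field_simp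
    rw [e, (H.mac p b z).per_nat]
  by_cases hc : c = D.act p b z y
  · rw [ch_on hc, ← e3, Finset.mul_sum]
    refine Finset.sum_le_sum fun i _ => ?_
    rw [pull_fibre hp0 (Prf H hb hp c).per y i]
    by_cases h2 : D.spc p b z ((y + (i : ℕ)) / p) ∧
        c = D.act p b z (p * ((y + (i : ℕ)) / p))
    · rw [ch_on h2]
    · rw [ch_off h2]
      exact mul_nonneg (rf1 H hb hp c y) (rG0 H hb hp z c _)
  · rw [ch_off hc]
    refine (Finset.sum_eq_zero fun i _ => ch_off fun h2 => hc ?_).le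
    rw [h2.2, eact]

/-- **the truncation facts of the marked row** -/
lemma min_dd (z : ζ) (y : ℝ) :
    min (fAl D wr p b z y) (fB0 D wr p b z y) = fX D wr p b z y + fQ D wr p b z y ∧
    dd (fAl D wr p b z y) (fB0 D wr p b z y) = el D wr p b z y := by
  have hel := el_le H hb hp z y
  have hel0 := (Pel H hb hp z).nonneg y
  have key : fX D wr p b z y ≤ ∑ c, aA D wr p b z c y ∧
      (el D wr p b z y = 0 ∨ fX D wr p b z y = ∑ c, aA D wr p b z c y) := by
    have s2 : ∀ f : κ → ℝ, ∑ c, ch (c = D.act p b z y) (f c) = f (D.act p b z y) := fun f => by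
      rw [Finset.sum_eq_single (D.act p b z y)]
      · exact ch_on rfl
      · intro c _ hne; exact ch_off fun h => hne h
      · intro h; exact absurd (Finset.mem_univ _) h
    rw [s2] at hel
    have hB := mx_le H hb hp z (D.act p b z y) y
    unfold fX aA
    rw [s2, s2]
    refine ⟨hB.1, ?_⟩
    rcases hB.2 with h | h
    · left
      rw [h] at hel
      exact le_antisymm hel hel0
    · exact Or.inr h
  obtain ⟨k1, k2⟩ := key
  have eA : fAl D wr p b z y = ∑ c, aA D wr p b z c y + fQ D wr p b z y := rfl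
  have eB : fB0 D wr p b z y = fX D wr p b z y + fQ D wr p b z y + el D wr p b z y := rfl
  rw [eA, eB]
  unfold dd
  rcases k2 with h | h
  · rw [h, add_zero]
    exact ⟨min_eq_right (by linarith), max_eq_right (by linarith)⟩
  · rw [← h]
    exact ⟨min_eq_left (by linarith), by
      rw [max_eq_left (by linarith)]; ring⟩

/-! ### the typed rows -/

omit H hb hp in
/-- the constant part of the total of a type -/
noncomputable def btz (D : TD μ Λ κ ζ) (wr : ℕ → Λ → κ) (p : ℕ) (b : μ × List (DT Λ κ)) (z : ζ)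
    (y : ℝ) : ℝ := ∑ c, D.cB wr p b c (some z) y

omit H hb hp in
lemma btz_eq (z : ζ) (y : ℝ) : btz D wr p b z y = (1 - 1 / (p : ℝ)) * ∑ c, rA D wr p b z c y +
    1 / (p : ℝ) * ∑ c, rf wr p b c y * rB D wr p b z c y + fQ D wr p b z y := by
  unfold btz TD.cB fQ
  rw [Finset.sum_add_distrib, Finset.sum_add_distrib, ← Finset.mul_sum, ← Finset.mul_sum]
  rfl

lemma a_eq (z : ζ) (y : ℝ) :
    D.h p (D.cP p b) z y = ∑ c, rA D wr p b z c y + fQ D wr p b z y := by
  rw [h_cP H hb hp]
  unfold rA fQ rQ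
  rw [sum_cz', sum_cz']

lemma b_eq (z : ζ) (y : ℝ) :
    D.h p (D.cN p b) z y = ∑ c, rB D wr p b z c y + fQ D wr p b z y := by
  rw [h_cN H hb hp]
  unfold rB fQ rQ
  rw [sum_cz', sum_cz']

omit H hb hp in
lemma sum_ch (P : κ → Prop) (f : κ → ℝ) : ∑ c, ch (P c) (f c) + ∑ c, ch (¬ P c) (f c) = ∑ c, f c := by
  rw [← Finset.sum_add_distrib]
  exact Finset.sum_congr rfl fun c _ => ch_add_not _ _

omit H hb hp in
lemma aA_kA (z : ζ) (c : κ) (y : ℝ) :
    aA D wr p b z c y + kA D wr p b z c y = rA D wr p b z c y := by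
  unfold aA kA
  by_cases hc : c = D.act p b z y
  · rw [ch_on hc, ch_off (not_not.2 hc), ch_on hc]; ring
  · rw [ch_off hc, ch_on hc, ch_off hc]; ring

/-- the ideal row of a type, class by class -/
lemma row_id {z : ζ} {x : ℝ} (c : κ) :
    ch (¬ (D.spc p b z x ∧ c ≠ D.act p b z (p * x))) (rW D wr p b z c x) +
      (ch (¬ (D.spc p b z x ∧ c ≠ D.act p b z (p * x)))
        (1 / (p : ℝ) * dx D wr p b z c (p * x) + ll D wr p b z c x) +
      ch (D.spc p b z x ∧ c ≠ D.act p b z (p * x))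
        (1 / (p : ℝ) * (rf wr p b c (p * x) * rB D wr p b z c (p * x)) +
          (1 - rf wr p b c (p * x)) * rG D wr p b z c x)) =
    (1 - 1 / (p : ℝ)) * aA D wr p b z c (p * x) +
      (1 - ss D p b z x) * ((1 - 1 / (p : ℝ)) * kA D wr p b z c (p * x)) +
      1 / (p : ℝ) * (rf wr p b c (p * x) * rB D wr p b z c (p * x)) +
      (1 - rf wr p b c (p * x)) * rG D wr p b z c x +
      (ch (¬ (D.spc p b z x ∧ c ≠ D.act p b z (p * x)))
        (1 / (p : ℝ) * cx D wr p b z c (p * x) + gl D wr p b z c x) +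
      ch (D.spc p b z x ∧ c = D.act p b z (p * x))
        ((1 - 1 / (p : ℝ)) * cx D wr p b z c (p * x))) := by
  have hW := W_id H hb hp z c x
  have hA := aA_kA (D := D) (wr := wr) (p := p) (b := b) z c (p * x)
  by_cases hS : D.spc p b z x
  · have es : ss D p b z x = 1 := ch_on hS
    rw [es]
    by_cases hc : c = D.act p b z (p * x)
    · have eA : aA D wr p b z c (p * x) = rA D wr p b z c (p * x) - cx D wr p b z c (p * x) :=
        ch_on hc
      rw [ch_on (P := ¬ (D.spc p b z x ∧ c ≠ D.act p b z (p * x))) (fun h => h.2 hc),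
        ch_on (P := ¬ (D.spc p b z x ∧ c ≠ D.act p b z (p * x))) (fun h => h.2 hc),
        ch_off (P := D.spc p b z x ∧ c ≠ D.act p b z (p * x)) (fun h => h.2 hc),
        ch_on (P := ¬ (D.spc p b z x ∧ c ≠ D.act p b z (p * x))) (fun h => h.2 hc),
        ch_on (P := D.spc p b z x ∧ c = D.act p b z (p * x)) ⟨hS, hc⟩, eA]
      linear_combination hW
    · have eA : aA D wr p b z c (p * x) = 0 := ch_off hc
      rw [ch_off (P := ¬ (D.spc p b z x ∧ c ≠ D.act p b z (p * x))) (fun h => h ⟨hS, hc⟩),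
        ch_off (P := ¬ (D.spc p b z x ∧ c ≠ D.act p b z (p * x))) (fun h => h ⟨hS, hc⟩),
        ch_on (P := D.spc p b z x ∧ c ≠ D.act p b z (p * x)) ⟨hS, hc⟩,
        ch_off (P := ¬ (D.spc p b z x ∧ c ≠ D.act p b z (p * x))) (fun h => h ⟨hS, hc⟩),
        ch_off (P := D.spc p b z x ∧ c = D.act p b z (p * x)) (fun h => hc h.2), eA]
      ring
  · have es : ss D p b z x = 0 := ch_off hS
    rw [es, ch_on (P := ¬ (D.spc p b z x ∧ c ≠ D.act p b z (p * x))) (fun h => hS h.1),
      ch_on (P := ¬ (D.spc p b z x ∧ c ≠ D.act p b z (p * x))) (fun h => hS h.1),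
      ch_off (P := D.spc p b z x ∧ c ≠ D.act p b z (p * x)) (fun h => hS h.1),
      ch_on (P := ¬ (D.spc p b z x ∧ c ≠ D.act p b z (p * x))) (fun h => hS h.1),
      ch_off (P := D.spc p b z x ∧ c = D.act p b z (p * x)) (fun h => hS h.1)]
    linear_combination hW - (1 - 1 / (p : ℝ)) * hA

/-- the separated row of a type, class by class -/
lemma row_is {z : ζ} {x : ℝ} (c : κ) :
    ch (D.spc p b z x ∧ c ≠ D.act p b z (p * x)) (rW D wr p b z c x) +
      (ch (D.spc p b z x ∧ c ≠ D.act p b z (p * x)) (ll D wr p b z c x) +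
      ch (D.spc p b z x ∧ c = D.act p b z (p * x))
        ((1 - 1 / (p : ℝ)) * cx D wr p b z c (p * x))) =
    ss D p b z x * ((1 - 1 / (p : ℝ)) * kA D wr p b z c (p * x)) +
      ch (D.spc p b z x ∧ c ≠ D.act p b z (p * x))
        (1 / (p : ℝ) * (ra wr p b c (p * x) * rA D wr p b z c (p * x)) +
          ((1 - rf wr p b c (p * x)) * rG D wr p b z c x + gl D wr p b z c x)) := by
  have hW := W_is H hb hp z c x
  by_cases hS : D.spc p b z x
  · have es : ss D p b z x = 1 := ch_on hS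
    rw [es]
    by_cases hc : c = D.act p b z (p * x)
    · have eK : kA D wr p b z c (p * x) = cx D wr p b z c (p * x) := by
        unfold kA
        rw [ch_off (not_not.2 hc), ch_on hc, zero_add]
      rw [ch_off (P := D.spc p b z x ∧ c ≠ D.act p b z (p * x)) (fun h => h.2 hc),
        ch_off (P := D.spc p b z x ∧ c ≠ D.act p b z (p * x)) (fun h => h.2 hc),
        ch_on (P := D.spc p b z x ∧ c = D.act p b z (p * x)) ⟨hS, hc⟩,
        ch_off (P := D.spc p b z x ∧ c ≠ D.act p b z (p * x)) (fun h => h.2 hc), eK]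
      ring
    · have eK : kA D wr p b z c (p * x) = rA D wr p b z c (p * x) := by
        unfold kA
        rw [ch_on hc, ch_off hc, add_zero]
      rw [ch_on (P := D.spc p b z x ∧ c ≠ D.act p b z (p * x)) ⟨hS, hc⟩,
        ch_on (P := D.spc p b z x ∧ c ≠ D.act p b z (p * x)) ⟨hS, hc⟩,
        ch_off (P := D.spc p b z x ∧ c = D.act p b z (p * x)) (fun h => hc h.2),
        ch_on (P := D.spc p b z x ∧ c ≠ D.act p b z (p * x)) ⟨hS, hc⟩, eK]
      linear_combination hW
  · have es : ss D p b z x = 0 := ch_off hS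
    rw [es, ch_off (P := D.spc p b z x ∧ c ≠ D.act p b z (p * x)) (fun h => hS h.1),
      ch_off (P := D.spc p b z x ∧ c ≠ D.act p b z (p * x)) (fun h => hS h.1),
      ch_off (P := D.spc p b z x ∧ c = D.act p b z (p * x)) (fun h => hS h.1),
      ch_off (P := D.spc p b z x ∧ c ≠ D.act p b z (p * x)) (fun h => hS h.1)]
    ring

lemma hm_id (z : ζ) (x : ℝ) : hm D wr p b z x + lm D wr p b z x =
    (1 - 1 / (p : ℝ)) * ∑ c, aA D wr p b z c (p * x) +
      (1 - ss D p b z x) * ((1 - 1 / (p : ℝ)) * fKa D wr p b z (p * x)) +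
      1 / (p : ℝ) * ∑ c, rf wr p b c (p * x) * rB D wr p b z c (p * x) +
      D.gc wr p b z x + fQ D wr p b z (p * x) + gm D wr p b z x := by
  have h := Finset.sum_congr rfl fun c (_ : c ∈ Finset.univ) => row_id H hb hp (z := z) (x := x) c
  simp only [Finset.sum_add_distrib, ← Finset.mul_sum] at h
  have e1 : D.gc wr p b z x = ∑ c, (1 - rf wr p b c (p * x)) * rG D wr p b z c x := by
    show hz _ _ _ _ = _
    rw [← sum_cz' (wr p)]
    exact Finset.sum_congr rfl fun c _ => cz_eg _ _ _ _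
  rw [e1]
  unfold hm lm gm fKa
  simp only [Finset.sum_add_distrib]
  linarith

lemma hs_id (z : ζ) (x : ℝ) : hs D wr p b z x + lS D wr p b z x =
    ss D p b z x * ((1 - 1 / (p : ℝ)) * fKa D wr p b z (p * x)) + gs D wr p b z x := by
  have h := Finset.sum_congr rfl fun c (_ : c ∈ Finset.univ) => row_is H hb hp (z := z) (x := x) c
  simp only [Finset.sum_add_distrib, ← Finset.mul_sum] at h
  unfold hs lS gs fKa
  simp only [Finset.sum_add_distrib]
  linarith

omit H hb hp in
lemma fm_on {z : ζ} {y : ℝ} (h : mrk D p b z y) : fm D wr p b z y = fmM D wr p b z y := by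
  unfold fm
  rw [ch_on h, ch_off (not_not.2 h), add_zero]
omit H hb hp in
lemma fm_off {z : ζ} {y : ℝ} (h : ¬ mrk D p b z y) : fm D wr p b z y = fmU D wr p b z y := by
  unfold fm
  rw [ch_off h, ch_on h, zero_add]

omit H hb hp in
lemma fX_fmM (z : ζ) (y : ℝ) :
    fX D wr p b z y + fmM D wr p b z y = ∑ c, rf wr p b c y * rB D wr p b z c y := by
  unfold fX fmM
  rw [← Finset.sum_add_distrib]
  refine Finset.sum_congr rfl fun c _ => ?_
  rw [rf_eq]
  by_cases hc : c = D.act p b z y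
  · rw [ch_on hc, ch_off (not_not.2 hc), ch_on hc]; ring
  · rw [ch_off hc, ch_on hc, ch_off hc]; ring

omit H hb hp in
lemma fAl_fKa (z : ζ) (y : ℝ) :
    fAl D wr p b z y + fKa D wr p b z y = ∑ c, rA D wr p b z c y + fQ D wr p b z y := by
  have h : ∑ c, aA D wr p b z c y + ∑ c, kA D wr p b z c y = ∑ c, rA D wr p b z c y := by
    rw [← Finset.sum_add_distrib]
    exact Finset.sum_congr rfl fun c _ => aA_kA z c y
  unfold fAl fKa
  linarith

omit H hb hp in
lemma fU (z : ζ) (y : ℝ) : ∑ c, mx D wr p b z c y +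
    fmU D wr p b z y = ∑ c, rf wr p b c y * rB D wr p b z c y := by
  unfold fmU
  rw [← Finset.sum_add_distrib]
  exact Finset.sum_congr rfl fun c _ => (rf_eq z c y).symm

omit H hb hp in
lemma fB (z : ζ) (y : ℝ) : fde D wr p b z y + ∑ c, rf wr p b c y * rB D wr p b z c y =
    ∑ c, rB D wr p b z c y := by
  unfold fde
  rw [← Finset.sum_add_distrib]
  exact Finset.sum_congr rfl fun c _ => by ring

lemma el_nuy (z : ζ) (y : ℝ) : el D wr p b z y + nuy D wr p b z y = fde D wr p b z y := by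
  rw [← gc_sum H hb hp]
  unfold el nuy
  rw [← Finset.sum_add_distrib]
  exact Finset.sum_congr rfl fun i _ => fL_add H hp z _

/-- **the typed row of a bundle** -/
theorem gmu (z : ζ) : GMU p (mrk D p b z) (D.h p (D.cP p b) z) (D.h p (D.cN p b) z)
    (hm D wr p b z) (hs D wr p b z) (btz D wr p b z) (D.gc wr p b z) (fAl D wr p b z)
    (fKa D wr p b z) (fB0 D wr p b z) (nuy D wr p b z) (ss D p b z) (fNu D wr p b z)
    (fB1 D wr p b z) (fde D wr p b z) (fm D wr p b z) (gm D wr p b z) (gs D wr p b z)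
    (lm D wr p b z) (lS D wr p b z) := by
  have hp0 : 0 < p := Nat.pos_of_ne_zero hp
  have mk := mmk (b := b) H hp z
  have Kk := H.bok hb hp
  refine
    { hp := hp0
      hP := mk.prop.1
      hper := mk.prop.2
      pa := ?_
      phm := Phm H hb hp z
      phs := Phs H hb hp z
      pgc := PB_hz (H.mltp p b.1) (fun j => PB_eg Kk j) (some z)
      pα := PfAl H hb hp z
      pκ := PfKa H hb hp z
      pb0 := PfB0 H hb hp z
      pν := Pnuy H hb hp z
      ps := Pss H hb hp z
      pnu := PfNu H hb hp z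
      pB1 := PfB1 H hb hp z
      pδ := Pfde H hb hp z
      pm := Pfm H hb hp z
      pgm := Pgm H hb hp z
      pgs := Pgs H hb hp z
      plm := Plm H hb hp z
      plS := PlS H hb hp z
      s1 := fun x _ => ?_
      sL := fun y hy => sum_ss H hp hy
      nuL := fun y _ => rfl
      aM := fun y _ => ?_
      bM := fun y hy => ?_
      btM := fun y hy => ?_
      gcM := fun x _ => ?_
      hmM := fun x hx => ?_
      hsM := fun x hx => ?_
      bU := fun y hy => ?_
      btU := fun y hy => ?_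
      gcU := fun y _ => gc_sum H hb hp z y
      δ1 := fun y _ => ?_
      δ2 := fun y _ => ?_
      hmU := fun x hx => ?_
      hsU := fun x hx => ?_ }
  · have e : D.h p (D.cP p b) z = fun y => ∑ c, rA D wr p b z c y + fQ D wr p b z y :=
      funext fun y => a_eq H hb hp z y
    rw [e]
    exact (PB.sum _ fun c _ => PrA H hb hp z c).add (PfQ H hb hp z)
  · unfold ss
    by_cases h : D.spc p b z x
    · rw [ch_on h]
    · rw [ch_off h]; norm_num
  · rw [a_eq H hb hp, fAl_fKa]
  · have h1 := fX_fmM (D := D) (wr := wr) (p := p) (b := b) z y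
    have h2 := el_nuy H hb hp z y
    have h3 := fB (D := D) (wr := wr) (p := p) (b := b) z y
    rw [b_eq H hb hp, fm_on hy]
    unfold fB0
    linarith
  · have h1 := fX_fmM (D := D) (wr := wr) (p := p) (b := b) z y
    have h2 := fAl_fKa (D := D) (wr := wr) (p := p) (b := b) z y
    rw [btz_eq, (min_dd H hb hp z y).1, fm_on hy, h2, ← h1]
    ring
  · rw [(min_dd H hb hp z _).2, fL_el H hb hp, fL_add H hp]
  · have h1 := hm_id H hb hp z x
    have h2 := fX_fmM (D := D) (wr := wr) (p := p) (b := b) z (p * x)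
    have h3 := fL_el H hb hp z x
    have h4 := fL_add (wr := wr) (b := b) (p := p) H hp z x
    have h5 := min_dd H hb hp z (p * x)
    have e : fAl D wr p b z (p * x) = ∑ c, aA D wr p b z c (p * x) + fQ D wr p b z (p * x) := rfl
    rw [fm_on hx]
    unfold mnR rV
    rw [h5.1, h5.2, h3, h1, ← h2, e]
    have e2 : D.gc wr p b z x = fL D wr p b z x + fNu D wr p b z x := h4.symm
    rw [e2]
    ring
  · have h1 := hs_id H hb hp z x
    unfold spR
    linarith
  · have h1 := fU (D := D) (wr := wr) (p := p) (b := b) z y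
    have h3 := fB (D := D) (wr := wr) (p := p) (b := b) z y
    rw [b_eq H hb hp, fm_off hy]
    unfold fB1
    linarith
  · have h1 := fU (D := D) (wr := wr) (p := p) (b := b) z y
    rw [btz_eq, a_eq H hb hp, fm_off hy, ← h1]
    unfold fB1
    ring
  · have h1 : ∑ c, mx D wr p b z c y ≤ ∑ c, rA D wr p b z c y := by
      refine Finset.sum_le_sum fun c _ => ?_
      have := (mx_le H hb hp z c y).1
      have := cx0 H hb hp z c y
      linarith
    have h2 := (Pfde H hb hp z).nonneg y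
    rw [a_eq H hb hp]
    unfold dd fB1
    exact max_le (by linarith) h2
  · have h1 : 0 ≤ ∑ c, mx D wr p b z c y :=
      Finset.sum_nonneg fun c _ => mx0 H hb hp z c y
    have h2 := (PfQ H hb hp z).nonneg y
    unfold fB1
    linarith
  · have hS : ¬ D.spc p b z x := fun h => hx (spc_mrk hp h)
    have es : ss D p b z x = 0 := ch_off hS
    have h1 := hm_id H hb hp z x
    have h2 := fU (D := D) (wr := wr) (p := p) (b := b) z (p * x)
    have h3 := fAl_fKa (D := D) (wr := wr) (p := p) (b := b) z (p * x)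
    have e : fAl D wr p b z (p * x) = ∑ c, aA D wr p b z c (p * x) + fQ D wr p b z (p * x) := rfl
    have e5 : ∑ c, aA D wr p b z c (p * x) =
        ∑ c, rA D wr p b z c (p * x) - fKa D wr p b z (p * x) := by linarith
    rw [fm_off hx, h1, es, a_eq H hb hp, ← h2, e5]
    unfold fB1
    ring
  · have hS : ¬ D.spc p b z x := fun h => hx (spc_mrk hp h)
    have es : ss D p b z x = 0 := ch_off hS
    have h1 := hs_id H hb hp z x
    rw [es] at h1
    linarith

/-! ### fresh classes -/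

lemma low0 {z : ζ} (hz : D.F p b.1 z) {j : Λ} {y : ℝ} (hj : D.lt p b.1 y j = some z) :
    pA (bB p b.2) j y = 0 ∧ pB (bB p b.2) j y = 0 ∧ pQ (bB p b.2) j y = 0 := by
  by_contra hn
  have h : pA (bB p b.2) j y ≠ 0 ∨ pB (bB p b.2) j y ≠ 0 ∨ pQ (bB p b.2) j y ≠ 0 := by
    by_contra h2
    push Not at h2
    exact hn h2
  exact H.low hb hp y j z h hj hz

lemma vT_low {z : ζ} (hz : D.F p b.1 z) {j : Λ} {x : ℝ} (hj : D.lt p b.1 (p * x) j = some z) :
    vT p (bB p b.2) j x = 0 := by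
  by_contra h0
  have h1 : jv (bB p b.2) j x ≠ 0 := by
    intro h2
    have h3 := vT_le (H.bok hb hp) j x
    have h4 := vT_nonneg (H.bok hb hp) (Nat.pos_of_ne_zero hp) j x
    exact h0 (le_antisymm (h3.trans h2.le) h4)
  have h2 := low0 H hb hp hz hj
  rcases jv_supp (H.bok hb hp) (Nat.pos_of_ne_zero hp) h1 with h | h | h
  · exact h h2.1
  · exact h h2.2.1
  · exact h h2.2.2

lemma rW_F {z : ζ} (hz : D.F p b.1 z) (c : κ) (x : ℝ) : rW D wr p b z c x = 0 := by
  unfold rW
  rw [cz_eq]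
  refine Finset.sum_eq_zero fun j _ => ?_
  split_ifs with hj
  · exact vT_low H hb hp hz hj.2
  · rfl

lemma fQ_F {z : ζ} (hz : D.F p b.1 z) (y : ℝ) : fQ D wr p b z y = 0 := by
  unfold fQ rQ
  refine Finset.sum_eq_zero fun c _ => ?_
  rw [cz_eq]
  refine Finset.sum_eq_zero fun j _ => ?_
  split_ifs with hj
  · exact (low0 H hb hp hz hj.2).2.2
  · rfl

lemma hm_F {z : ζ} (hz : D.F p b.1 z) (x : ℝ) : hm D wr p b z x = 0 := by
  unfold hm
  rw [fQ_F H hb hp hz, add_zero]
  refine Finset.sum_eq_zero fun c _ => ?_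
  rw [rW_F H hb hp hz]
  by_cases h : ¬ (D.spc p b z x ∧ c ≠ D.act p b z (p * x))
  · exact ch_on h
  · exact ch_off h

lemma hs_F {z : ζ} (hz : D.F p b.1 z) (x : ℝ) : hs D wr p b z x = 0 := by
  unfold hs
  refine Finset.sum_eq_zero fun c _ => ?_
  rw [rW_F H hb hp hz]
  by_cases h : D.spc p b z x ∧ c ≠ D.act p b z (p * x)
  · exact ch_on h
  · exact ch_off h

omit H hb hp in
open Classical in
lemma sum_ch_cz {kd : Λ → κ} {ω : Type} [Fintype ω] [DecidableEq ω] (o : ℝ → Λ → ω)
    (f : Λ → ℝ → ℝ) (P : κ → Prop) (z : ω) (x : ℝ) :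
    ∑ c, ch (P c) (cz kd o f c z x) = ∑ j, if o x j = z ∧ P (kd j) then f j x else 0 := by
  have e : ∀ c, ch (P c) (cz kd o f c z x) =
      ∑ j, if kd j = c then (if o x j = z ∧ P (kd j) then f j x else 0) else 0 := by
    intro c
    rw [cz_eq]
    by_cases hc : P c
    · rw [ch_on hc]
      refine Finset.sum_congr rfl fun j _ => ?_
      by_cases hj : kd j = c
      · subst hj
        by_cases h2 : o x j = z
        · rw [if_pos ⟨rfl, h2⟩, if_pos rfl, if_pos ⟨h2, hc⟩]
        · rw [if_neg (fun h => h2 h.2), if_pos rfl, if_neg (fun h => h2 h.1)]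
      · rw [if_neg (fun h => hj h.1), if_neg hj]
    · rw [ch_off hc]
      refine (Finset.sum_eq_zero fun j _ => ?_).symm
      by_cases hj : kd j = c
      · subst hj
        rw [if_pos rfl, if_neg (fun h => hc h.2)]
      · rw [if_neg hj]
  rw [Finset.sum_congr rfl fun c _ => e c, Finset.sum_comm]
  refine Finset.sum_congr rfl fun j _ => ?_
  rw [Finset.sum_ite_eq Finset.univ (kd j), if_pos (Finset.mem_univ _)]

omit H hb hp in
lemma if_iff {P Q : Prop} {i1 : Decidable P} {i2 : Decidable Q} {a : ℝ} (h : P ↔ Q) :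
    (if P then a else 0) = if Q then a else 0 := by
  by_cases hP : P
  · rw [if_pos hP, if_pos (h.1 hP)]
  · rw [if_neg hP, if_neg fun hQ => hP (h.2 hQ)]

/-- **the contents by the prescribed classes** -/
theorem hPP_eq (z : ζ) (x : ℝ) :
    hPP (frP (H.frF p b.1) (H.inj p b.1)) (hm D wr p b) (hs D wr p b) z x = D.hP wr p b z x := by
  classical
  have eQ : hz (fun x => D.lt p b.1 (p * x)) (TD.pQx p (bB p b.2)) (some z) x =
      fQ D wr p b z (p * x) := by
    unfold fQ rQ
    rw [sum_cz']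
    rfl
  have eP : ∀ j, D.pt wr p b x j = (D.lt p b.1 (p * x) j).map fun z =>
      if D.spc p b z x ∧ wr p j ≠ D.act p b z (p * x) then D.fr p b.1 z else z := fun j => rfl
  have hV : ∀ j z1, D.lt p b.1 (p * x) j = some z1 → D.F p b.1 z1 → vT p (bB p b.2) j x = 0 :=
    fun j z1 h1 h2 => vT_low H hb hp h2 h1
  have ePz : D.hP wr p b z x = hz (D.pt wr p b) (vT p (bB p b.2)) (some z) x +
      fQ D wr p b z (p * x) := by
    show _ + _ = _
    rw [eQ]
  rw [ePz, hz_eq]
  by_cases hF : D.F p b.1 z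
  · -- fresh
    rw [fQ_F H hb hp hF, add_zero]
    by_cases hex : ∃ z0, ¬ D.F p b.1 z0 ∧ D.fr p b.1 z0 = z
    · obtain ⟨z0, h0, rfl⟩ := hex
      rw [TyS16.hPP_fresh (H.frF p b.1) (H.inj p b.1) (fun z hz x => hm_F H hb hp hz x) h0]
      unfold hs rW
      rw [sum_ch_cz]
      refine Finset.sum_congr rfl fun j _ => ?_
      by_cases hv : vT p (bB p b.2) j x = 0
      · rw [hv]; simp
      refine if_iff ?_
      rw [eP]
      constructor
      · rintro ⟨h1, h2⟩
        rw [h1, Option.map_some, if_pos h2]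
      · intro h1
        obtain ⟨z1, h2, h3⟩ := Option.map_eq_some_iff.1 h1
        have h4 : ¬ D.F p b.1 z1 := fun h => hv (hV j z1 h2 h)
        split_ifs at h3 with h5
        · have h6 := H.inj p b.1 z1 z0 h4 h0 h3
          subst h6
          exact ⟨h2, h5⟩
        · rw [h3] at h4
          exact absurd hF h4
    · have e : hPP (frP (H.frF p b.1) (H.inj p b.1)) (hm D wr p b) (hs D wr p b) z x = 0 := by
        unfold hPP
        rw [hm_F H hb hp hF, zero_add, TyS16.frP_symm]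
        have e2 : frP (H.frF p b.1) (H.inj p b.1) z = z := by
          show TyS16.frf (D.F p b.1) (D.fr p b.1) z = z
          unfold TyS16.frf
          rw [if_neg (not_not.2 hF), dif_neg hex]
        rw [e2]
        exact hs_F H hb hp hF x
      rw [e]
      refine (Finset.sum_eq_zero fun j _ => ?_).symm
      by_cases hv : vT p (bB p b.2) j x = 0
      · rw [hv]; simp
      refine if_neg fun h1 => ?_
      rw [eP] at h1
      obtain ⟨z1, h2, h3⟩ := Option.map_eq_some_iff.1 h1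
      have h4 : ¬ D.F p b.1 z1 := fun h => hv (hV j z1 h2 h)
      split_ifs at h3 with h5
      · exact hex ⟨z1, h4, h3⟩
      · rw [h3] at h4
        exact h4 hF
  · rw [TyS16.hPP_low (H.frF p b.1) (H.inj p b.1) (fun z hz x => hs_F H hb hp hz x) hF]
    unfold hm rW
    rw [sum_ch_cz (fun x => D.lt p b.1 (p * x)) (vT p (bB p b.2))
      (fun c => ¬ (D.spc p b z x ∧ c ≠ D.act p b z (p * x)))]
    congr 1
    refine Finset.sum_congr rfl fun j _ => ?_
    by_cases hv : vT p (bB p b.2) j x = 0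
    · rw [hv]; simp
    refine if_iff ?_
    rw [eP]
    constructor
    · rintro ⟨h1, h2⟩
      rw [h1, Option.map_some, if_neg h2]
    · intro h1
      obtain ⟨z1, h2, h3⟩ := Option.map_eq_some_iff.1 h1
      have h4 : ¬ D.F p b.1 z1 := fun h => hv (hV j z1 h2 h)
      split_ifs at h3 with h5
      · rw [← h3] at hF
        exact absurd (H.frF p b.1 z1 h4) hF
      · subst h3
        exact ⟨h2, h5⟩

end id

/-! ### the bundle -/

/-- raw data of the row of a type -/
noncomputable def raw (D : TD μ Λ κ ζ) (wr : ℕ → Λ → κ) (p : ℕ) (b : μ × List (DT Λ κ)) (z : ζ) :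
    TRaw :=
  mkMU p (mrk D p b z) (D.h p (D.cP p b) z) (hm D wr p b z) (hs D wr p b z) (D.gc wr p b z)
    (fAl D wr p b z) (fKa D wr p b z) (fB0 D wr p b z) (nuy D wr p b z) (ss D p b z)
    (fNu D wr p b z) (fB1 D wr p b z) (fde D wr p b z) (fm D wr p b z) (gm D wr p b z)
    (gs D wr p b z) (lm D wr p b z) (lS D wr p b z)

section fin
variable {wr : ℕ → Λ → κ} {D : TD μ Λ κ ζ} {Inv : ℕ → μ × List (DT Λ κ) → Prop} {p : ℕ}
  {b : μ × List (DT Λ κ)}

lemma gT_eq (p : ℕ) (b : μ × List (DT Λ κ)) (x : ℝ) :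
    D.gT wr p b x = ∑ z, D.gc wr p b z x := by
  unfold TD.gT
  rw [Finset.sum_comm]
  exact Finset.sum_congr rfl fun z _ => sum_cz' _ _ _ _ _

lemma bT_eq (p : ℕ) (b : μ × List (DT Λ κ)) (y : ℝ) : D.bT wr p b y = ∑ z, btz D wr p b z y := by
  unfold TD.bT btz
  rw [Finset.sum_comm]

/-- **the rows of a bundle** -/
theorem fam (H : TYp wr D Inv) (hb : Inv p b) (hp : p ≠ 0) :
    Fam p (D.h p (D.cP p b)) (D.h p (D.cN p b)) (hm D wr p b) (hs D wr p b) (btz D wr p b)
      (D.gc wr p b) (raw D wr p b) (frP (H.frF p b.1) (H.inj p b.1)) (D.F p b.1) where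
  row := fun z => (gmu H hb hp z).row
  hF := fun z hz x => hm_F H hb hp hz x
  hN := fun z hz x => by
    by_cases h : D.F p b.1 z
    · exact hs_F H hb hp h x
    · rw [TyS16.frP_low (H.frF p b.1) (H.inj p b.1) h] at hz
      exact absurd (H.frF p b.1 z h) hz
  bal := fun x => by
    rw [Finset.sum_congr rfl fun z _ => hPP_eq H hb hp z x, dT H hb hp, gT_eq, bT_eq,
      Finset.sum_add_distrib]

/-- **the row system of the typed trees** -/
noncomputable def rxm (H : TYp wr D Inv) : RXm55.RXm (μ × List (DT Λ κ)) ζ where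
  cP := D.cP
  cN := D.cN
  rN := D.rN
  ok := Inv
  okP := H.toP
  okN := H.toN
  okR := H.toR
  h := D.h
  hL := D.hL
  hP := D.hP wr
  hB := D.hB
  hN := D.hN
  gc := D.gc wr
  gB := D.gB wr
  bT := D.bT wr
  gT := D.gT wr
  jB := fun p b => jA (raw D wr p b)
  sd := fun σ p b => asm (raw D wr p b) (frP (H.frF p b.1) (H.inj p b.1)) (hm D wr p b)
    (hs D wr p b) p σ
  sep := fun p b F => F = D.F p b.1
  ph := fun {p b} hb z => PB_bcp (H.mtp p b.1) (H.pb hb).self (some z)
  pL := fun {p b} hb hp z => PB_bcp (H.mtp p b.1) ((H.pb hb).bL p).self (some z)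
  pP := fun {p b} hb hp z => by
    have e : D.hP wr p b z = hPP (frP (H.frF p b.1) (H.inj p b.1)) (hm D wr p b) (hs D wr p b) z :=
      funext fun x => (hPP_eq H hb hp z x).symm
    rw [e]
    exact TyS16.PB_hPP (fam H hb hp) z
  pB := fun {p b} hb hp z => PB_bcp (H.mtp p b.1) ((H.pb hb).bB p).self (some z)
  pN := fun {p b} hb hp z => PB_bcp (H.mtp p b.1) ((H.pb hb).bN p).self (some z)
  pg := fun {p b} hb hp z => PB_hz (H.mltp p b.1) (fun j => PB_eg (H.bok hb hp) j) (some z)
  pgB := fun {p b} hb hp z => PB_hz (H.mtp p b.1) (fun j => PB_eg (H.bok hb hp) j) (some z)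
  pbT := fun {p b} hb hp => by
    have e : D.bT wr p b = fun y => ∑ z, btz D wr p b z y := funext fun y => bT_eq p b y
    rw [e]
    exact PB.sum _ fun z _ => ((gmu H hb hp z).row).pbt
  pgT := fun {p b} hb hp => by
    have e : D.gT wr p b = fun x => ∑ z, D.gc wr p b z x := funext fun x => gT_eq p b x
    rw [e]
    exact PB.sum _ fun z _ => ((gmu H hb hp z).row).pgc
  pjB := fun {p b} hb hp => TyS16.PB_jA (fam H hb hp)
  sp := fun {p b} hb hp z x => sp p b z x
  hPB := fun {p b} hb hp x => hPB H hb hp x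
  gBh := fun {p b} hb hp z x => gBh H hb hp z x
  dT := fun {p b} hb hp x => dT H hb hp x
  mT := fun {p b} hb hp y => mT H hb hp y
  no1 := fun {b} hb z x => by
    have h := H.no1 hb
    constructor
    · show bcp (D.tp 1 (D.tu 1 b.1)) ((bB 1 b.2).map chP) (some z) x = 0
      rw [h]; rfl
    · show bcp (D.tp 1 (D.tu 1 b.1)) ((bB 1 b.2).map chN) (some z) x = 0
      rw [h]; rfl
  sok := fun {p b σ} hb hp hσ => by
    have e : D.hP wr p b = hPP (frP (H.frF p b.1) (H.inj p b.1)) (hm D wr p b) (hs D wr p b) :=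
      funext fun z => funext fun x => (hPP_eq H hb hp z x).symm
    rw [e]
    exact (fam H hb hp).ok (fun x => gT_eq p b x) hσ
  lsJ := fun {p b} hb hp n x => (fam H hb hp).lsJ n x
  sF := fun {p b F σ} hb hp hF hσ z hz x => by
    subst hF
    exact (fam H hb hp).sF hσ z hz x
  sN := fun {p b F σ} hb hp hF hσ z hz x => by
    subst hF
    exact (fam H hb hp).sN hσ z hz x

end fin

end

end Crest.Agent.R4P.DTn407
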