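import Crest.Agent.R4P.GMd_35
import Crest.Agent.R4P.ModeP_940

/-!
R4 (S0004) with powers, helper15: **class changes of the dual potential in the `θ` form**
(`PM7_chg` of helper407, second typist).

`D c h = Σ_{j,j'} c_j c_j' th (min (h j) (h j'))` (`GMd35.D`), `P1 c h = 28/3 M c (th h) - 1/6 D c h`,
`PX σ c f = √σ Σ_z P1 c (f z)` (`= PM7` for helper35's `PD = 28/3 M th - 7/6 D` and `PM = PK + 56 TT`:
`PX_eq`).
* `th_in`, `th_cross` : real variables, linear part only on the changing contents `Ev`; `th_inR`,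
  `th_crossR` : root forms.
* `PX_mono`, `PX_lip`, **`PX_chg`** (`θ` form), **`PX_root`** (root form) : one flow `f z z'` of high
  classes `z` into low classes `z'`.
-/

set_option autoImplicit false
set_option linter.unusedVariables false
set_option linter.unusedSectionVars false

namespace Crest.Agent.R4P.Chg15

open Finset
open Crest.Agent.R4P.GMer27 (M M_add M_smul M_sub M_sum M_mono M_nonneg M_const)
open Crest.Agent.R4P.ModeP940 (SS SS_nonneg)
open Crest.Agent.R4P.MisR16
open Crest.Agent.R4P.GMd35 (D th_own)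

/-! ### real variables -/

section real

lemma sq_am {d θ : ℝ} (hd : 0 ≤ d) (hθ : 0 < θ) : Real.sqrt d ≤ (θ + d / θ) / 2 := by
  have h1 : Real.sqrt d ^ 2 = d := Real.sq_sqrt hd
  have h2 : 0 ≤ (Real.sqrt d - θ) ^ 2 := sq_nonneg _
  have h3 : 2 * Real.sqrt d * θ ≤ θ ^ 2 + d := by nlinarith
  have h4 : (θ + d / θ) / 2 = (θ ^ 2 + d) / (2 * θ) := by field_simp
  rw [h4, le_div_iff₀ (by positivity)]
  linarith

lemma sum_one {α : Type*} [Fintype α] (P : α → Prop) [DecidablePred P]
    (h : ∀ a b, P a → P b → a = b) {c : ℝ} (hc : 0 ≤ c) :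
    ∑ a, (if P a then c else 0) ≤ c := by
  rw [← Finset.sum_filter, Finset.sum_const]
  have h1 : (Finset.univ.filter P).card ≤ 1 := Finset.card_le_one.2 fun a ha b hb =>
    h a b (Finset.mem_filter.1 ha).2 (Finset.mem_filter.1 hb).2
  rw [nsmul_eq_mul]
  have h2 : ((Finset.univ.filter P).card : ℝ) ≤ 1 := by exact_mod_cast h1
  nlinarith

variable {α : Type*} [Fintype α] {x y : α → ℝ} {Ev : α → Prop} [DecidablePred Ev] {θ : ℝ}

/-- the total without one main term is changing content -/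
lemma rest_le (x0 : ∀ a, 0 ≤ x a) {a : α} (hm : ∀ b, ¬ Ev b → x b ≠ 0 → b = a) :
    ∑ b, x b - x a ≤ ∑ b, if Ev b then x b else 0 := by
  classical
  have e : ∑ b, x b = x a + ∑ b ∈ Finset.univ.erase a, x b :=
    (Finset.add_sum_erase _ _ (Finset.mem_univ a)).symm
  rw [e, add_sub_cancel_left]
  have h1 : ∑ b ∈ Finset.univ.erase a, x b ≤
      ∑ b ∈ Finset.univ.erase a, if Ev b then x b else 0 := by
    refine Finset.sum_le_sum fun b hb => ?_
    by_cases h2 : Ev b
    · rw [if_pos h2]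
    · rw [if_neg h2]
      by_contra h3
      exact (Finset.mem_erase.1 hb).1 (hm b h2 fun h4 => h3 h4.le)
  refine h1.trans (Finset.sum_le_sum_of_subset_of_nonneg (Finset.erase_subset _ _)
    fun b _ _ => ?_)
  split_ifs
  · exact x0 b
  · exact le_rfl

/-- **the members**: `th (Σ x) - Σ th x` with the linear part on the changing contents -/
theorem th_in (x0 : ∀ a, 0 ≤ x a) (hθ : 0 < θ)
    (hm : ∀ a b, ¬ Ev a → ¬ Ev b → x a ≠ 0 → x b ≠ 0 → a = b) :
    th (∑ a, x a) ≤ ∑ a, th (x a) + θ * (∑ a, if Ev a then x a else 0) +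
      ((∑ a, x a) ^ 2 - ∑ a, x a ^ 2) / (2 * θ) := by
  classical
  set X := ∑ a, x a with hX
  set E := ∑ a, (if Ev a then x a else 0) with hE
  have X0 : 0 ≤ X := Finset.sum_nonneg fun a _ => x0 a
  have E0 : 0 ≤ E := Finset.sum_nonneg fun a _ => by
    split_ifs
    · exact x0 a
    · exact le_rfl
  have xX : ∀ a, x a ≤ X := fun a => Finset.single_le_sum (fun b _ => x0 b) (Finset.mem_univ a)
  have key : ∀ a, x a * (Real.sqrt X - Real.sqrt (x a)) ≤
      θ / 2 * (if Ev a then x a else 0) + (if ¬ Ev a ∧ x a ≠ 0 then θ / 2 * E else 0) +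
        x a * (X - x a) / (2 * θ) := by
    intro a
    have hxa := x0 a
    have hd : 0 ≤ X - x a := sub_nonneg.2 (xX a)
    by_cases hz : x a = 0
    · rw [hz]
      simp
    by_cases he : Ev a
    · rw [if_pos he, if_neg (fun h => h.1 he)]
      have h1 : Real.sqrt X - Real.sqrt (x a) ≤ Real.sqrt (X - x a) := by
        have h2 : Real.sqrt X ≤ Real.sqrt (x a) + Real.sqrt (X - x a) := by
          refine Real.sqrt_le_iff.2 ⟨by positivity, ?_⟩
          have h3 : Real.sqrt (x a) ^ 2 = x a := Real.sq_sqrt hxa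
          have h4 : Real.sqrt (X - x a) ^ 2 = X - x a := Real.sq_sqrt hd
          nlinarith [mul_nonneg (Real.sqrt_nonneg (x a)) (Real.sqrt_nonneg (X - x a))]
        linarith
      have h2 := mul_le_mul_of_nonneg_left (h1.trans (sq_am hd hθ)) hxa
      have e : x a * ((θ + (X - x a) / θ) / 2) = θ / 2 * x a + x a * (X - x a) / (2 * θ) := by
        field_simp
      linarith
    · rw [if_neg he, if_pos ⟨he, hz⟩]
      have hE2 : X - x a ≤ E := rest_le x0 fun b h1 h2 => hm b a h1 he h2 hz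
      have s0 : 0 ≤ Real.sqrt (x a) := Real.sqrt_nonneg _
      have sX : Real.sqrt (x a) ≤ Real.sqrt X := Real.sqrt_le_sqrt (xX a)
      have e1 : Real.sqrt X ^ 2 = X := Real.sq_sqrt X0
      have e2 : Real.sqrt (x a) ^ 2 = x a := Real.sq_sqrt hxa
      -- x (√X - √x) ≤ (X - x) √x
      have h1 : x a * (Real.sqrt X - Real.sqrt (x a)) ≤ (X - x a) * Real.sqrt (x a) := by
        set p := Real.sqrt (x a)
        set r := Real.sqrt X
        rw [← e1, ← e2]
        nlinarith [mul_nonneg (mul_nonneg s0 (sub_nonneg.2 sX)) (s0.trans sX)]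
      have h2 := mul_le_mul_of_nonneg_left (sq_am hxa hθ) hd
      have e : (X - x a) * ((θ + x a / θ) / 2) =
          θ / 2 * (X - x a) + x a * (X - x a) / (2 * θ) := by
        field_simp
      have h3 := mul_le_mul_of_nonneg_left hE2 (by positivity : 0 ≤ θ / 2)
      linarith
  have hs := Finset.sum_le_sum fun a (_ : a ∈ (Finset.univ : Finset α)) => key a
  rw [Finset.sum_add_distrib, Finset.sum_add_distrib, ← Finset.mul_sum] at hs
  have h1 := sum_one (fun a => ¬ Ev a ∧ x a ≠ 0) (fun a b ha hb => hm a b ha.1 hb.1 ha.2 hb.2)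
    (c := θ / 2 * E) (by positivity)
  have h2 : ∑ a, x a * (Real.sqrt X - Real.sqrt (x a)) = th X - ∑ a, th (x a) := by
    have e1 : th X = ∑ a, x a * Real.sqrt X := by
      rw [← Finset.sum_mul]
      rfl
    rw [e1, ← Finset.sum_sub_distrib]
    exact Finset.sum_congr rfl fun a _ => by unfold th; ring
  have h3 : ∑ a, x a * (X - x a) / (2 * θ) = (X ^ 2 - ∑ a, x a ^ 2) / (2 * θ) := by
    rw [← Finset.sum_div]
    congr 1
    have e1 : X ^ 2 = ∑ a, x a * X := by rw [← Finset.sum_mul]; ring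
    rw [e1, ← Finset.sum_sub_distrib]
    exact Finset.sum_congr rfl fun a _ => by ring
  rw [h2, h3] at hs
  linarith

/-- the larger one of two contents of one type -/
lemma th_sub_le {a b : ℝ} (ha : 0 ≤ a) (hb : 0 ≤ b) :
    th a - th (min a b) ≤ 3 / 2 * (max (a - b) 0 * Real.sqrt a) := by
  rcases le_total a b with h | h
  · rw [min_eq_left h, sub_self]
    exact mul_nonneg (by norm_num) (mul_nonneg (le_max_right _ _) (Real.sqrt_nonneg _))
  · rw [min_eq_right h, max_eq_left (sub_nonneg.2 h)]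
    have h1 := th_own hb (sub_nonneg.2 h)
    have e : b + (a - b) = a := by ring
    rw [e] at h1
    linarith

/-- **two members**, `Σ x ≤ Σ y` -/
theorem th_cross_aux (x0 : ∀ a, 0 ≤ x a) (y0 : ∀ a, 0 ≤ y a) (hθ : 0 < θ)
    (hm : ∀ a b, ¬ Ev a → ¬ Ev b → x a ≠ 0 → (x b ≠ 0 ∨ y b ≠ 0) → a = b)
    (hXY : ∑ a, x a ≤ ∑ a, y a) :
    th (∑ a, x a) ≤ ∑ a, th (min (x a) (y a)) + (th (∑ a, x a) - ∑ a, th (x a)) +
      3 / 4 * (θ * ((∑ a, if Ev a then x a else 0) + ∑ a, if Ev a then y a else 0) +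
        ((∑ a, x a) * (∑ a, y a) - ∑ a, x a * y a) / θ) := by
  classical
  set X := ∑ a, x a with hX
  set Y := ∑ a, y a with hY
  set E := ∑ a, (if Ev a then x a else 0) with hE
  set F := ∑ a, (if Ev a then y a else 0) with hF
  have F0 : 0 ≤ F := Finset.sum_nonneg fun a _ => by
    split_ifs
    · exact y0 a
    · exact le_rfl
  have xX : ∀ a, x a ≤ X := fun a => Finset.single_le_sum (fun b _ => x0 b) (Finset.mem_univ a)
  have yY : ∀ a, y a ≤ Y := fun a => Finset.single_le_sum (fun b _ => y0 b) (Finset.mem_univ a)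
  have key : ∀ a, th (x a) - th (min (x a) (y a)) ≤
      3 / 4 * (θ * (if Ev a then x a else 0) + (if ¬ Ev a ∧ x a ≠ 0 then θ * F else 0) +
        x a * (Y - y a) / θ) := by
    intro a
    have hxa := x0 a
    have hya := y0 a
    have hYa : 0 ≤ Y - y a := sub_nonneg.2 (yY a)
    by_cases hz : x a = 0
    · rw [hz, min_eq_left hya]
      simp
    have h0 := th_sub_le hxa hya
    set d := max (x a - y a) 0 with hd
    have d0 : 0 ≤ d := le_max_right _ _
    have dx : d ≤ x a := max_le (by linarith) hxa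
    have dY : d ≤ Y - y a := max_le (by linarith [xX a]) hYa
    by_cases he : Ev a
    · rw [if_pos he, if_neg (fun h => h.1 he)]
      have h1 : d * Real.sqrt (x a) ≤ x a * Real.sqrt d := by
        have e1 : Real.sqrt d ^ 2 = d := Real.sq_sqrt d0
        have e2 : Real.sqrt (x a) ^ 2 = x a := Real.sq_sqrt hxa
        have h3 : Real.sqrt d ≤ Real.sqrt (x a) := Real.sqrt_le_sqrt dx
        have h4 := Real.sqrt_nonneg d
        have h5 := Real.sqrt_nonneg (x a)
        set p := Real.sqrt d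
        set r := Real.sqrt (x a)
        rw [← e1, ← e2]
        nlinarith [mul_nonneg (mul_nonneg h4 h5) (sub_nonneg.2 h3)]
      have h2 := mul_le_mul_of_nonneg_left (sq_am d0 hθ) hxa
      have h3 : x a * ((θ + d / θ) / 2) ≤ x a * ((θ + (Y - y a) / θ) / 2) := by
        refine mul_le_mul_of_nonneg_left ?_ hxa
        have := div_le_div_of_nonneg_right dY hθ.le
        linarith
      have e : x a * ((θ + (Y - y a) / θ) / 2) = θ / 2 * x a + x a * (Y - y a) / θ / 2 := by
        field_simp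
      linarith
    · rw [if_neg he, if_pos ⟨he, hz⟩]
      have hE2 : Y - y a ≤ F := rest_le y0 fun b h1 h2 => (hm a b he h1 hz (Or.inr h2)).symm
      have h1 : d * Real.sqrt (x a) ≤ (Y - y a) * ((θ + x a / θ) / 2) :=
        mul_le_mul dY (sq_am hxa hθ) (Real.sqrt_nonneg _) hYa
      have e : (Y - y a) * ((θ + x a / θ) / 2) = θ / 2 * (Y - y a) + x a * (Y - y a) / θ / 2 := by
        field_simp
      have h3 := mul_le_mul_of_nonneg_left hE2 (by positivity : 0 ≤ θ / 2)
      linarith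
  have hs := Finset.sum_le_sum fun a (_ : a ∈ (Finset.univ : Finset α)) => key a
  rw [← Finset.mul_sum, Finset.sum_add_distrib, Finset.sum_add_distrib, ← Finset.mul_sum,
    Finset.sum_sub_distrib] at hs
  have h1 := sum_one (fun a => ¬ Ev a ∧ x a ≠ 0)
    (fun a b ha hb => hm a b ha.1 hb.1 ha.2 (Or.inl hb.2)) (c := θ * F) (by positivity)
  have h3 : ∑ a, x a * (Y - y a) / θ = (X * Y - ∑ a, x a * y a) / θ := by
    rw [← Finset.sum_div]
    congr 1
    rw [hX, Finset.sum_mul, ← Finset.sum_sub_distrib]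
    exact Finset.sum_congr rfl fun a _ => by ring
  rw [h3] at hs
  linarith

/-- **two members** -/
theorem th_cross (x0 : ∀ a, 0 ≤ x a) (y0 : ∀ a, 0 ≤ y a) (hθ : 0 < θ)
    (hm : ∀ a b, ¬ Ev a → ¬ Ev b → (x a ≠ 0 ∨ y a ≠ 0) → (x b ≠ 0 ∨ y b ≠ 0) → a = b) :
    th (min (∑ a, x a) (∑ a, y a)) ≤ ∑ a, th (min (x a) (y a)) +
      (th (∑ a, x a) - ∑ a, th (x a)) + (th (∑ a, y a) - ∑ a, th (y a)) +
      3 / 4 * (θ * ((∑ a, if Ev a then x a else 0) + ∑ a, if Ev a then y a else 0) +
        ((∑ a, x a) * (∑ a, y a) - ∑ a, x a * y a) / θ) := by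
  have n1 : 0 ≤ th (∑ a, x a) - ∑ a, th (x a) := by
    have := th_sum Finset.univ x fun a _ => x0 a
    linarith
  have n2 : 0 ≤ th (∑ a, y a) - ∑ a, th (y a) := by
    have := th_sum Finset.univ y fun a _ => y0 a
    linarith
  rcases le_total (∑ a, x a) (∑ a, y a) with h | h
  · rw [min_eq_left h]
    have := th_cross_aux (Ev := Ev) x0 y0 hθ
      (fun a b h1 h2 h3 h4 => hm a b h1 h2 (Or.inl h3) h4) h
    linarith
  · rw [min_eq_right h]
    have := th_cross_aux (Ev := Ev) y0 x0 hθ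
      (fun a b h1 h2 h3 h4 => hm a b h1 h2 (Or.inr h3) (Or.symm h4)) h
    have e1 : ∑ a, th (min (y a) (x a)) = ∑ a, th (min (x a) (y a)) :=
      Finset.sum_congr rfl fun a _ => by rw [min_comm]
    have e2 : (∑ a, y a) * (∑ a, x a) - ∑ a, y a * x a =
        (∑ a, x a) * (∑ a, y a) - ∑ a, x a * y a := by
      rw [mul_comm]
      congr 1
      exact Finset.sum_congr rfl fun a _ => mul_comm _ _
    rw [e1, e2] at this
    linarith

/-! root forms -/

lemma pair_le' (x0 : ∀ a, 0 ≤ x a) {a b : α} (h : a ≠ b) : x a ≤ ∑ c, x c - x b := by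
  classical
  have e : ∑ c, x c = x b + ∑ c ∈ Finset.univ.erase b, x c :=
    (Finset.add_sum_erase _ _ (Finset.mem_univ b)).symm
  rw [e, add_sub_cancel_left]
  exact Finset.single_le_sum (f := x) (fun c _ => x0 c) (Finset.mem_erase.2 ⟨h, Finset.mem_univ _⟩)

/-- the changing contents `y` next to the main content `x m` -/
lemma main_le (x0 : ∀ a, 0 ≤ x a) (y0 : ∀ a, 0 ≤ y a) {m : α} (he : ¬ Ev m) :
    (∑ a, if Ev a then y a else 0) * Real.sqrt (x m) ≤
      ∑ a, if Ev a then y a * Real.sqrt (∑ b, x b - x a) else 0 := by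
  rw [Finset.sum_mul]
  refine Finset.sum_le_sum fun a _ => ?_
  by_cases h : Ev a
  · rw [if_pos h, if_pos h]
    exact mul_le_mul_of_nonneg_left (Real.sqrt_le_sqrt (pair_le' x0 fun e => he (by rw [e]; exact h)))
      (y0 a)
  · rw [if_neg h, if_neg h, zero_mul]

/-- **the members**, root form -/
theorem th_inR (x0 : ∀ a, 0 ≤ x a)
    (hm : ∀ a b, ¬ Ev a → ¬ Ev b → x a ≠ 0 → x b ≠ 0 → a = b) :
    th (∑ a, x a) ≤ ∑ a, th (x a) +
      2 * ∑ a, (if Ev a then x a * Real.sqrt (∑ b, x b - x a) else 0) := by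
  classical
  set X := ∑ a, x a with hX
  set R := ∑ a, (if Ev a then x a * Real.sqrt (X - x a) else 0) with hR
  have X0 : 0 ≤ X := Finset.sum_nonneg fun a _ => x0 a
  have R0 : 0 ≤ R := Finset.sum_nonneg fun a _ => by
    split_ifs
    · exact mul_nonneg (x0 a) (Real.sqrt_nonneg _)
    · exact le_rfl
  have xX : ∀ a, x a ≤ X := fun a => Finset.single_le_sum (fun b _ => x0 b) (Finset.mem_univ a)
  have key : ∀ a, x a * (Real.sqrt X - Real.sqrt (x a)) ≤
      (if Ev a then x a * Real.sqrt (X - x a) else 0) + (if ¬ Ev a ∧ x a ≠ 0 then R else 0) := by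
    intro a
    have hxa := x0 a
    have hd : 0 ≤ X - x a := sub_nonneg.2 (xX a)
    by_cases hz : x a = 0
    · rw [hz]
      simp
    by_cases he : Ev a
    · rw [if_pos he, if_neg (fun h => h.1 he), add_zero]
      refine mul_le_mul_of_nonneg_left ?_ hxa
      have h2 : Real.sqrt X ≤ Real.sqrt (x a) + Real.sqrt (X - x a) := by
        refine Real.sqrt_le_iff.2 ⟨by positivity, ?_⟩
        have h3 : Real.sqrt (x a) ^ 2 = x a := Real.sq_sqrt hxa
        have h4 : Real.sqrt (X - x a) ^ 2 = X - x a := Real.sq_sqrt hd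
        nlinarith [mul_nonneg (Real.sqrt_nonneg (x a)) (Real.sqrt_nonneg (X - x a))]
      linarith
    · rw [if_neg he, if_pos ⟨he, hz⟩, zero_add]
      have hE2 : X - x a ≤ ∑ b, if Ev b then x b else 0 :=
        rest_le x0 fun b h1 h2 => hm b a h1 he h2 hz
      have s0 : 0 ≤ Real.sqrt (x a) := Real.sqrt_nonneg _
      have sX : Real.sqrt (x a) ≤ Real.sqrt X := Real.sqrt_le_sqrt (xX a)
      have e1 : Real.sqrt X ^ 2 = X := Real.sq_sqrt X0
      have e2 : Real.sqrt (x a) ^ 2 = x a := Real.sq_sqrt hxa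
      have h1 : x a * (Real.sqrt X - Real.sqrt (x a)) ≤ (X - x a) * Real.sqrt (x a) := by
        set p := Real.sqrt (x a)
        set r := Real.sqrt X
        rw [← e1, ← e2]
        nlinarith [mul_nonneg (mul_nonneg s0 (sub_nonneg.2 sX)) (s0.trans sX)]
      have h2 := mul_le_mul_of_nonneg_right hE2 s0
      have h3 := main_le (Ev := Ev) x0 x0 he
      exact h1.trans (h2.trans h3)
  have hs := Finset.sum_le_sum fun a (_ : a ∈ (Finset.univ : Finset α)) => key a
  rw [Finset.sum_add_distrib] at hs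
  have h1 := sum_one (fun a => ¬ Ev a ∧ x a ≠ 0) (fun a b ha hb => hm a b ha.1 hb.1 ha.2 hb.2) R0
  have h2 : ∑ a, x a * (Real.sqrt X - Real.sqrt (x a)) = th X - ∑ a, th (x a) := by
    have e1 : th X = ∑ a, x a * Real.sqrt X := by
      rw [← Finset.sum_mul]
      rfl
    rw [e1, ← Finset.sum_sub_distrib]
    exact Finset.sum_congr rfl fun a _ => by unfold th; ring
  rw [h2] at hs
  linarith

/-- **two members**, `Σ x ≤ Σ y`, root form -/
theorem th_crossR_aux (x0 : ∀ a, 0 ≤ x a) (y0 : ∀ a, 0 ≤ y a)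
    (hm : ∀ a b, ¬ Ev a → ¬ Ev b → x a ≠ 0 → (x b ≠ 0 ∨ y b ≠ 0) → a = b)
    (hXY : ∑ a, x a ≤ ∑ a, y a) :
    th (∑ a, x a) ≤ ∑ a, th (min (x a) (y a)) + (th (∑ a, x a) - ∑ a, th (x a)) +
      3 / 2 * ((∑ a, if Ev a then x a * Real.sqrt (∑ b, y b - y a) else 0) +
        ∑ a, if Ev a then y a * Real.sqrt (∑ b, x b - x a) else 0) := by
  classical
  set X := ∑ a, x a with hX
  set Y := ∑ a, y a with hY
  set F := ∑ a, (if Ev a then y a * Real.sqrt (X - x a) else 0) with hF
  have F0 : 0 ≤ F := Finset.sum_nonneg fun a _ => by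
    split_ifs
    · exact mul_nonneg (y0 a) (Real.sqrt_nonneg _)
    · exact le_rfl
  have xX : ∀ a, x a ≤ X := fun a => Finset.single_le_sum (fun b _ => x0 b) (Finset.mem_univ a)
  have yY : ∀ a, y a ≤ Y := fun a => Finset.single_le_sum (fun b _ => y0 b) (Finset.mem_univ a)
  have key : ∀ a, th (x a) - th (min (x a) (y a)) ≤
      3 / 2 * ((if Ev a then x a * Real.sqrt (Y - y a) else 0) +
        (if ¬ Ev a ∧ x a ≠ 0 then F else 0)) := by
    intro a
    have hxa := x0 a
    have hya := y0 a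
    have hYa : 0 ≤ Y - y a := sub_nonneg.2 (yY a)
    by_cases hz : x a = 0
    · rw [hz, min_eq_left hya]
      simp
    have h0 := th_sub_le hxa hya
    set d := max (x a - y a) 0 with hd
    have d0 : 0 ≤ d := le_max_right _ _
    have dx : d ≤ x a := max_le (by linarith) hxa
    have dY : d ≤ Y - y a := max_le (by linarith [xX a]) hYa
    by_cases he : Ev a
    · rw [if_pos he, if_neg (fun h => h.1 he), add_zero]
      have h1 : d * Real.sqrt (x a) ≤ x a * Real.sqrt d := by
        have e1 : Real.sqrt d ^ 2 = d := Real.sq_sqrt d0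
        have e2 : Real.sqrt (x a) ^ 2 = x a := Real.sq_sqrt hxa
        have h3 : Real.sqrt d ≤ Real.sqrt (x a) := Real.sqrt_le_sqrt dx
        have h4 := Real.sqrt_nonneg d
        have h5 := Real.sqrt_nonneg (x a)
        set p := Real.sqrt d
        set r := Real.sqrt (x a)
        rw [← e1, ← e2]
        nlinarith [mul_nonneg (mul_nonneg h4 h5) (sub_nonneg.2 h3)]
      have h2 := mul_le_mul_of_nonneg_left (Real.sqrt_le_sqrt dY) hxa
      linarith
    · rw [if_neg he, if_pos ⟨he, hz⟩, zero_add]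
      have hE2 : Y - y a ≤ ∑ b, if Ev b then y b else 0 :=
        rest_le y0 fun b h1 h2 => (hm a b he h1 hz (Or.inr h2)).symm
      have h1 : d * Real.sqrt (x a) ≤ (∑ b, if Ev b then y b else 0) * Real.sqrt (x a) :=
        mul_le_mul_of_nonneg_right (dY.trans hE2) (Real.sqrt_nonneg _)
      have h3 := main_le (Ev := Ev) x0 y0 he
      linarith
  have hs := Finset.sum_le_sum fun a (_ : a ∈ (Finset.univ : Finset α)) => key a
  rw [← Finset.mul_sum, Finset.sum_add_distrib, Finset.sum_sub_distrib] at hs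
  have h1 := sum_one (fun a => ¬ Ev a ∧ x a ≠ 0)
    (fun a b ha hb => hm a b ha.1 hb.1 ha.2 (Or.inl hb.2)) F0
  linarith

/-- **two members**, root form -/
theorem th_crossR (x0 : ∀ a, 0 ≤ x a) (y0 : ∀ a, 0 ≤ y a)
    (hm : ∀ a b, ¬ Ev a → ¬ Ev b → (x a ≠ 0 ∨ y a ≠ 0) → (x b ≠ 0 ∨ y b ≠ 0) → a = b) :
    th (min (∑ a, x a) (∑ a, y a)) ≤ ∑ a, th (min (x a) (y a)) +
      (th (∑ a, x a) - ∑ a, th (x a)) + (th (∑ a, y a) - ∑ a, th (y a)) +
      3 / 2 * ((∑ a, if Ev a then x a * Real.sqrt (∑ b, y b - y a) else 0) +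
        ∑ a, if Ev a then y a * Real.sqrt (∑ b, x b - x a) else 0) := by
  have n1 : 0 ≤ th (∑ a, x a) - ∑ a, th (x a) := by
    have := th_sum Finset.univ x fun a _ => x0 a
    linarith
  have n2 : 0 ≤ th (∑ a, y a) - ∑ a, th (y a) := by
    have := th_sum Finset.univ y fun a _ => y0 a
    linarith
  rcases le_total (∑ a, x a) (∑ a, y a) with h | h
  · rw [min_eq_left h]
    have := th_crossR_aux (Ev := Ev) x0 y0
      (fun a b h1 h2 h3 h4 => hm a b h1 h2 (Or.inl h3) h4) h
    linarith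
  · rw [min_eq_right h]
    have := th_crossR_aux (Ev := Ev) y0 x0
      (fun a b h1 h2 h3 h4 => hm a b h1 h2 (Or.inr h3) (Or.symm h4)) h
    have e1 : ∑ a, th (min (y a) (x a)) = ∑ a, th (min (x a) (y a)) :=
      Finset.sum_congr rfl fun a _ => by rw [min_comm]
    rw [e1] at this
    linarith

end real

/-! ### the potential of one class -/

section one
variable {J : Type*} [Fintype J] {c : J → ℝ}

/-- the dual potential (with the energy, divided by `7`) of one class at the scale `1` -/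
noncomputable def P1 (c : J → ℝ) (h : J → ℝ) : ℝ := 28 / 3 * M c (fun j => th (h j)) - 1 / 6 * D c h

lemma D_le (c0 : ∀ j, 0 ≤ c j) {h g : J → ℝ} (hh : ∀ j, 0 ≤ h j) (hg : ∀ j, h j ≤ g j) :
    D c h ≤ D c g :=
  Finset.sum_le_sum fun j _ => Finset.sum_le_sum fun j' _ =>
    mul_le_mul_of_nonneg_left (th_mono (le_min (hh j) (hh j')) (min_le_min (hg j) (hg j')))
      (mul_nonneg (c0 j) (c0 j'))

lemma dbl (c1 : ∑ j, c j = 1) (f : J → ℝ) :
    ∑ j, ∑ j', c j * c j' * (f j + f j') = 2 * M c f := by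
  have e1 : ∀ j, ∑ j', c j * c j' * (f j + f j') = c j * f j * ∑ j', c j' +
      c j * ∑ j', c j' * f j' := fun j => by
    rw [Finset.mul_sum, Finset.mul_sum, ← Finset.sum_add_distrib]
    exact Finset.sum_congr rfl fun j' _ => by ring
  rw [Finset.sum_congr rfl fun j _ => e1 j, Finset.sum_add_distrib, ← Finset.sum_mul,
    ← Finset.sum_mul]
  simp only [c1]
  unfold M
  ring

lemma min_sub {a b a' b' : ℝ} (h1 : a ≤ a') (h2 : b ≤ b') (ha : 0 ≤ a) (hb : 0 ≤ b) :
    th (min a' b') ≤ th (min a b) + ((th a' - th a) + (th b' - th b)) := by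
  have n1 := th_mono ha h1
  have n2 := th_mono hb h2
  rcases le_total a b with h | h
  · rw [min_eq_left h]
    have := th_mono (x := min a' b') (le_min (ha.trans h1) (hb.trans h2)) (min_le_left a' b')
    linarith
  · rw [min_eq_right h]
    have := th_mono (x := min a' b') (le_min (ha.trans h1) (hb.trans h2)) (min_le_right a' b')
    linarith

lemma D_sub (c0 : ∀ j, 0 ≤ c j) (c1 : ∑ j, c j = 1) {h g : J → ℝ} (hh : ∀ j, 0 ≤ h j)
    (hg : ∀ j, h j ≤ g j) :
    D c g ≤ D c h + 2 * (M c (fun j => th (g j)) - M c (fun j => th (h j))) := by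
  have e : D c g ≤ ∑ j, ∑ j', (c j * c j' * th (min (h j) (h j')) +
      c j * c j' * ((th (g j) - th (h j)) + (th (g j') - th (h j')))) :=
    Finset.sum_le_sum fun j _ => Finset.sum_le_sum fun j' _ => by
      rw [← mul_add]
      exact mul_le_mul_of_nonneg_left (min_sub (hg j) (hg j') (hh j) (hh j'))
        (mul_nonneg (c0 j) (c0 j'))
  simp only [Finset.sum_add_distrib] at e
  rw [dbl c1 fun j => th (g j) - th (h j), M_sub] at e
  exact e

lemma P1_mono (c0 : ∀ j, 0 ≤ c j) (c1 : ∑ j, c j = 1) {h g : J → ℝ} (hh : ∀ j, 0 ≤ h j)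
    (hg : ∀ j, h j ≤ g j) : P1 c h ≤ P1 c g := by
  have h1 := D_sub c0 c1 hh hg
  have h2 : M c (fun j => th (h j)) ≤ M c (fun j => th (g j)) :=
    M_mono c0 fun j => th_mono (hh j) (hg j)
  unfold P1
  linarith

lemma P1_lip (c0 : ∀ j, 0 ≤ c j) {h g : J → ℝ} (hh : ∀ j, 0 ≤ h j) (hg : ∀ j, h j ≤ g j) :
    P1 c g ≤ P1 c h + 14 * M c (fun j => (g j - h j) * Real.sqrt (g j)) := by
  have h1 := D_le c0 hh hg
  have h2 : M c (fun j => th (g j)) ≤ M c (fun j => th (h j)) +
      3 / 2 * M c (fun j => (g j - h j) * Real.sqrt (g j)) := by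
    rw [← M_smul, ← M_add]
    refine M_mono c0 fun j => ?_
    have h3 := th_own (hh j) (sub_nonneg.2 (hg j))
    have e : h j + (g j - h j) = g j := by ring
    rwa [e] at h3
  unfold P1
  linarith

variable {α : Type*} [Fintype α]

lemma min_sum_ge (x y : α → ℝ) : ∑ a, min (x a) (y a) ≤ min (∑ a, x a) (∑ a, y a) :=
  le_min (Finset.sum_le_sum fun a _ => min_le_left _ _)
    (Finset.sum_le_sum fun a _ => min_le_right _ _)

lemma D_super (c0 : ∀ j, 0 ≤ c j) {x : α → J → ℝ} (x0 : ∀ a j, 0 ≤ x a j) :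
    ∑ a, D c (x a) ≤ D c fun j => ∑ a, x a j := by
  unfold D
  rw [Finset.sum_comm]
  refine Finset.sum_le_sum fun j _ => ?_
  rw [Finset.sum_comm]
  refine Finset.sum_le_sum fun j' _ => ?_
  rw [← Finset.mul_sum]
  refine mul_le_mul_of_nonneg_left ?_ (mul_nonneg (c0 j) (c0 j'))
  refine (th_sum Finset.univ (fun a => min (x a j) (x a j')) fun a _ =>
    le_min (x0 a j) (x0 a j')).trans ?_
  exact th_mono (Finset.sum_nonneg fun a _ => le_min (x0 a j) (x0 a j'))
    (min_sum_ge (fun a => x a j) fun a => x a j')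

variable {Ev : α → Prop} [DecidablePred Ev] {θ : ℝ}

/-- **merging going up** -/
theorem P1_merge (c0 : ∀ j, 0 ≤ c j) {x : α → J → ℝ} (x0 : ∀ a j, 0 ≤ x a j) (hθ : 0 < θ)
    (hm : ∀ a b, ¬ Ev a → ¬ Ev b → x a ≠ 0 → x b ≠ 0 → a = b) :
    P1 c (fun j => ∑ a, x a j) ≤ ∑ a, P1 c (x a) +
      28 / 3 * (θ * M c (fun j => ∑ a, if Ev a then x a j else 0) +
        M c (fun j => (∑ a, x a j) ^ 2 - ∑ a, x a j ^ 2) / (2 * θ)) := by
  have h1 := D_super c0 x0
  have h2 : M c (fun j => th (∑ a, x a j)) ≤ ∑ a, M c (fun j => th (x a j)) +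
      (θ * M c (fun j => ∑ a, if Ev a then x a j else 0) +
        M c (fun j => (∑ a, x a j) ^ 2 - ∑ a, x a j ^ 2) / (2 * θ)) := by
    have e1 : M c (fun j => (∑ a, x a j) ^ 2 - ∑ a, x a j ^ 2) / (2 * θ) =
        M c (fun j => 1 / (2 * θ) * ((∑ a, x a j) ^ 2 - ∑ a, x a j ^ 2)) := by
      rw [M_smul]; ring
    rw [e1, ← M_sum, ← M_smul, ← M_add, ← M_add]
    refine M_mono c0 fun j => ?_
    have h3 := th_in (x := fun a => x a j) (Ev := Ev) (fun a => x0 a j) hθ
      fun a b ha hb h4 h5 => hm a b ha hb (fun e => h4 (by rw [e]; rfl))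
        fun e => h5 (by rw [e]; rfl)
    have e2 : 1 / (2 * θ) * ((∑ a, x a j) ^ 2 - ∑ a, x a j ^ 2) =
        ((∑ a, x a j) ^ 2 - ∑ a, x a j ^ 2) / (2 * θ) := by ring
    rw [e2]
    linarith
  unfold P1
  rw [Finset.sum_sub_distrib, ← Finset.mul_sum, ← Finset.mul_sum]
  linarith

/-- **merging going up**, root form -/
theorem P1_mergeR (c0 : ∀ j, 0 ≤ c j) {x : α → J → ℝ} (x0 : ∀ a j, 0 ≤ x a j)
    (hm : ∀ a b, ¬ Ev a → ¬ Ev b → x a ≠ 0 → x b ≠ 0 → a = b) :
    P1 c (fun j => ∑ a, x a j) ≤ ∑ a, P1 c (x a) +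
      56 / 3 * M c (fun j => ∑ a, if Ev a then x a j * Real.sqrt (∑ b, x b j - x a j) else 0) := by
  have h1 := D_super c0 x0
  have h2 : M c (fun j => th (∑ a, x a j)) ≤ ∑ a, M c (fun j => th (x a j)) +
      2 * M c (fun j => ∑ a, if Ev a then x a j * Real.sqrt (∑ b, x b j - x a j) else 0) := by
    rw [← M_sum, ← M_smul, ← M_add]
    refine M_mono c0 fun j => ?_
    exact th_inR (x := fun a => x a j) (Ev := Ev) (fun a => x0 a j)
      fun a b ha hb h4 h5 => hm a b ha hb (fun e => h4 (by rw [e]; rfl))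
        fun e => h5 (by rw [e]; rfl)
  unfold P1
  rw [Finset.sum_sub_distrib, ← Finset.mul_sum, ← Finset.mul_sum]
  linarith

/-- root form of the coexistence of two members -/
noncomputable def Rc [DecidableEq J] (c : J → ℝ) (Ev : α → Prop) [DecidablePred Ev]
    (x : α → J → ℝ) : ℝ := ∑ j, ∑ j', if j = j' then 0 else
  c j * c j' * ∑ a, if Ev a then x a j * Real.sqrt (∑ b, x b j' - x a j') else 0

/-- **splitting going up**, root form -/
theorem P1_splitR [DecidableEq J] (c0 : ∀ j, 0 ≤ c j) (c1 : ∑ j, c j = 1) {x : α → J → ℝ}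
    (x0 : ∀ a j, 0 ≤ x a j)
    (hm : ∀ a b, ¬ Ev a → ¬ Ev b → x a ≠ 0 → x b ≠ 0 → a = b) :
    ∑ a, P1 c (x a) ≤ P1 c (fun j => ∑ a, x a j) + 1 / 2 * Rc c Ev x := by
  classical
  set T : J → ℝ := fun j => th (∑ a, x a j) - ∑ a, th (x a j) with hT
  set U : J → J → ℝ := fun j j' => ∑ a, if Ev a then x a j * Real.sqrt (∑ b, x b j' - x a j')
    else 0 with hU
  have T0 : ∀ j, 0 ≤ T j := fun j => by
    have := th_sum Finset.univ (fun a => x a j) fun a _ => x0 a j
    show 0 ≤ th (∑ a, x a j) - ∑ a, th (x a j)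
    linarith
  have eR : Rc c Ev x = ∑ j, ∑ j', if j = j' then 0 else c j * c j' * U j j' := rfl
  have eR2 : Rc c Ev x = ∑ j, ∑ j', if j = j' then 0 else c j * c j' * U j' j := by
    rw [eR, Finset.sum_comm]
    refine Finset.sum_congr rfl fun j _ => Finset.sum_congr rfl fun j' _ => ?_
    by_cases h : j = j'
    · rw [if_pos h, if_pos h.symm]
    · rw [if_neg h, if_neg (Ne.symm h)]
      ring
  have key : D c (fun j => ∑ a, x a j) ≤ ∑ a, D c (x a) + (∑ j, ∑ j', c j * c j' *
      (T j + T j')) + 3 * Rc c Ev x := by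
    have e1 : ∑ a, D c (x a) = ∑ j, ∑ j', c j * c j' * ∑ a, th (min (x a j) (x a j')) := by
      unfold D
      rw [Finset.sum_comm]
      refine Finset.sum_congr rfl fun j _ => ?_
      rw [Finset.sum_comm]
      exact Finset.sum_congr rfl fun j' _ => (Finset.mul_sum _ _ _).symm
    have e2 : 3 * Rc c Ev x = ∑ j, ∑ j', if j = j' then 0 else
        c j * c j' * (3 / 2 * (U j j' + U j' j)) := by
      have e3 : 3 * Rc c Ev x = 3 / 2 * Rc c Ev x + 3 / 2 * Rc c Ev x := by ring
      rw [e3]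
      nth_rewrite 1 [eR]
      rw [eR2, Finset.mul_sum, Finset.mul_sum, ← Finset.sum_add_distrib]
      refine Finset.sum_congr rfl fun j _ => ?_
      rw [Finset.mul_sum, Finset.mul_sum, ← Finset.sum_add_distrib]
      refine Finset.sum_congr rfl fun j' _ => ?_
      split_ifs
      · simp
      · ring
    rw [e1, e2, ← Finset.sum_add_distrib, ← Finset.sum_add_distrib]
    unfold D
    refine Finset.sum_le_sum fun j _ => ?_
    rw [← Finset.sum_add_distrib, ← Finset.sum_add_distrib]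
    refine Finset.sum_le_sum fun j' _ => ?_
    have cc : 0 ≤ c j * c j' := mul_nonneg (c0 j) (c0 j')
    have t1 := T0 j
    have t2 := T0 j'
    by_cases hj : j = j'
    · subst hj
      rw [if_pos rfl, add_zero, ← mul_add]
      refine mul_le_mul_of_nonneg_left ?_ cc
      simp only [min_self]
      have e3 : th (∑ a, x a j) = ∑ a, th (x a j) + T j := by
        show _ = _ + (th (∑ a, x a j) - ∑ a, th (x a j)); ring
      rw [e3]
      linarith
    · rw [if_neg hj, ← mul_add, ← mul_add]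
      refine mul_le_mul_of_nonneg_left ?_ cc
      have h3 := th_crossR (x := fun a => x a j) (y := fun a => x a j') (Ev := Ev)
        (fun a => x0 a j) (fun a => x0 a j') fun a b ha hb h4 h5 => hm a b ha hb
          (by
            rintro e
            rcases h4 with h | h
            · exact h (by rw [e]; rfl)
            · exact h (by rw [e]; rfl))
          (by
            rintro e
            rcases h5 with h | h
            · exact h (by rw [e]; rfl)
            · exact h (by rw [e]; rfl))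
      have e3 : T j = th (∑ a, x a j) - ∑ a, th (x a j) := rfl
      have e4 : T j' = th (∑ a, x a j') - ∑ a, th (x a j') := rfl
      have e5 : U j j' = ∑ a, if Ev a then x a j * Real.sqrt (∑ b, x b j' - x a j') else 0 := rfl
      have e6 : U j' j = ∑ a, if Ev a then x a j' * Real.sqrt (∑ b, x b j - x a j) else 0 := rfl
      rw [e3, e4, e5, e6]
      linarith
  rw [dbl c1 T] at key
  have e8 : M c T = M c (fun j => th (∑ a, x a j)) - ∑ a, M c (fun j => th (x a j)) := by
    rw [← M_sum, ← M_sub]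
  have n1 : 0 ≤ M c T := M_nonneg c0 T0
  unfold P1
  rw [Finset.sum_sub_distrib, ← Finset.mul_sum, ← Finset.mul_sum]
  linarith

/-- cross product energy of different types, two members -/
def Qc [DecidableEq J] (c : J → ℝ) (x : α → J → ℝ) : ℝ := ∑ j, ∑ j', if j = j' then 0 else
  c j * c j' * ((∑ a, x a j) * (∑ a, x a j') - ∑ a, x a j * x a j')

lemma q2_nonneg {x y : α → ℝ} (x0 : ∀ a, 0 ≤ x a) (y0 : ∀ a, 0 ≤ y a) :
    0 ≤ (∑ a, x a) * (∑ a, y a) - ∑ a, x a * y a := by
  rw [Finset.sum_mul, ← Finset.sum_sub_distrib]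
  refine Finset.sum_nonneg fun a _ => ?_
  have h := Finset.single_le_sum (fun b _ => y0 b) (Finset.mem_univ a)
  have := mul_le_mul_of_nonneg_left h (x0 a)
  linarith

lemma Qc_nonneg [DecidableEq J] (c0 : ∀ j, 0 ≤ c j) {x : α → J → ℝ} (x0 : ∀ a j, 0 ≤ x a j) :
    0 ≤ Qc c x :=
  Finset.sum_nonneg fun j _ => Finset.sum_nonneg fun j' _ => by
    split_ifs
    · exact le_rfl
    · exact mul_nonneg (mul_nonneg (c0 j) (c0 j'))
        (q2_nonneg (fun a => x0 a j) fun a => x0 a j')

/-- **splitting going up** -/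
theorem P1_split [DecidableEq J] (c0 : ∀ j, 0 ≤ c j) (c1 : ∑ j, c j = 1) {x : α → J → ℝ}
    (x0 : ∀ a j, 0 ≤ x a j) (hθ : 0 < θ)
    (hm : ∀ a b, ¬ Ev a → ¬ Ev b → x a ≠ 0 → x b ≠ 0 → a = b) :
    ∑ a, P1 c (x a) ≤ P1 c (fun j => ∑ a, x a j) +
      1 / 4 * (θ * M c (fun j => ∑ a, if Ev a then x a j else 0) + Qc c x / θ) := by
  classical
  set T : J → ℝ := fun j => th (∑ a, x a j) - ∑ a, th (x a j) with hT
  set E : J → ℝ := fun j => ∑ a, if Ev a then x a j else 0 with hE
  have T0 : ∀ j, 0 ≤ T j := fun j => by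
    have := th_sum Finset.univ (fun a => x a j) fun a _ => x0 a j
    show 0 ≤ th (∑ a, x a j) - ∑ a, th (x a j)
    linarith
  have E0 : ∀ j, 0 ≤ E j := fun j => Finset.sum_nonneg fun a _ => by
    split_ifs
    · exact x0 a j
    · exact le_rfl
  have key : D c (fun j => ∑ a, x a j) ≤ ∑ a, D c (x a) + (∑ j, ∑ j', c j * c j' *
      ((T j + 3 / 4 * (θ * E j)) + (T j' + 3 / 4 * (θ * E j')))) + 3 / 4 * (Qc c x / θ) := by
    have e1 : ∑ a, D c (x a) = ∑ j, ∑ j', c j * c j' * ∑ a, th (min (x a j) (x a j')) := by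
      unfold D
      rw [Finset.sum_comm]
      refine Finset.sum_congr rfl fun j _ => ?_
      rw [Finset.sum_comm]
      exact Finset.sum_congr rfl fun j' _ => (Finset.mul_sum _ _ _).symm
    have e2 : 3 / 4 * (Qc c x / θ) = ∑ j, ∑ j', if j = j' then 0 else
        c j * c j' * (3 / 4 * (((∑ a, x a j) * (∑ a, x a j') - ∑ a, x a j * x a j') / θ)) := by
      unfold Qc
      rw [Finset.sum_div, Finset.mul_sum]
      refine Finset.sum_congr rfl fun j _ => ?_
      rw [Finset.sum_div, Finset.mul_sum]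
      refine Finset.sum_congr rfl fun j' _ => ?_
      split_ifs
      · simp
      · ring
    rw [e1, e2, ← Finset.sum_add_distrib, ← Finset.sum_add_distrib]
    unfold D
    refine Finset.sum_le_sum fun j _ => ?_
    rw [← Finset.sum_add_distrib, ← Finset.sum_add_distrib]
    refine Finset.sum_le_sum fun j' _ => ?_
    have cc : 0 ≤ c j * c j' := mul_nonneg (c0 j) (c0 j')
    have t1 := T0 j
    have t2 := T0 j'
    have t3 := mul_nonneg hθ.le (E0 j)
    have t4 := mul_nonneg hθ.le (E0 j')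
    by_cases hj : j = j'
    · subst hj
      rw [if_pos rfl, add_zero, ← mul_add]
      refine mul_le_mul_of_nonneg_left ?_ cc
      simp only [min_self]
      have e3 : th (∑ a, x a j) = ∑ a, th (x a j) + T j := by
        show _ = _ + (th (∑ a, x a j) - ∑ a, th (x a j)); ring
      rw [e3]
      linarith
    · rw [if_neg hj, ← mul_add, ← mul_add]
      refine mul_le_mul_of_nonneg_left ?_ cc
      have h3 := th_cross (x := fun a => x a j) (y := fun a => x a j') (Ev := Ev)
        (fun a => x0 a j) (fun a => x0 a j') hθ fun a b ha hb h4 h5 => hm a b ha hb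
          (by
            rintro e
            rcases h4 with h | h
            · exact h (by rw [e]; rfl)
            · exact h (by rw [e]; rfl))
          (by
            rintro e
            rcases h5 with h | h
            · exact h (by rw [e]; rfl)
            · exact h (by rw [e]; rfl))
      have e3 : T j = th (∑ a, x a j) - ∑ a, th (x a j) := rfl
      have e4 : T j' = th (∑ a, x a j') - ∑ a, th (x a j') := rfl
      have e5 : E j = ∑ a, if Ev a then x a j else 0 := rfl
      have e6 : E j' = ∑ a, if Ev a then x a j' else 0 := rfl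
      rw [e3, e4, e5, e6]
      linarith
  rw [dbl c1 fun j => T j + 3 / 4 * (θ * E j)] at key
  have e7 : M c (fun j => T j + 3 / 4 * (θ * E j)) = M c T + 3 / 4 * (θ * M c E) := by
    rw [M_add, M_smul, M_smul]
  have e8 : M c T = M c (fun j => th (∑ a, x a j)) - ∑ a, M c (fun j => th (x a j)) := by
    rw [← M_sum, ← M_sub]
  have n1 : 0 ≤ M c T := M_nonneg c0 T0
  rw [e7] at key
  unfold P1
  rw [Finset.sum_sub_distrib, ← Finset.mul_sum, ← Finset.mul_sum]
  have e9 : M c (fun j => ∑ a, if Ev a then x a j else 0) = M c E := rfl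
  rw [e9]
  have n2 : 0 ≤ Qc c x / θ := div_nonneg (Qc_nonneg c0 x0) hθ.le
  linarith

end one

/-! ### the flow of the classes at the scale `σ` -/

section flow
variable {J δ δ' : Type*} [Fintype J] [Fintype δ] [Fintype δ'] {c : J → ℝ} {σ θ : ℝ}

/-- the dual potential at the scale `σ` -/
noncomputable def PX {ζ : Type*} [Fintype ζ] (σ : ℝ) (c : J → ℝ) (f : ζ → J → ℝ) : ℝ :=
  Real.sqrt σ * ∑ z, P1 c (f z)

/-- the part of `x` below the level of the total -/
noncomputable def cut {α : Type*} [Fintype α] (σ : ℝ) (x : α → ℝ) (a : α) : ℝ :=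
  x a * (min (∑ b, x b) σ / ∑ b, x b)

section cut
variable {α : Type*} [Fintype α] {x : α → ℝ}

lemma cut_nonneg (hσ : 0 ≤ σ) (x0 : ∀ a, 0 ≤ x a) (a : α) : 0 ≤ cut σ x a :=
  have h := Finset.sum_nonneg fun b (_ : b ∈ (Finset.univ : Finset α)) => x0 b
  mul_nonneg (x0 a) (div_nonneg (le_min h hσ) h)

lemma cut_le (hσ : 0 ≤ σ) (x0 : ∀ a, 0 ≤ x a) (a : α) : cut σ x a ≤ min (x a) σ := by
  have hX := Finset.sum_nonneg fun b (_ : b ∈ (Finset.univ : Finset α)) => x0 b
  have hxX := Finset.single_le_sum (fun b _ => x0 b) (Finset.mem_univ a)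
  unfold cut
  rcases eq_or_lt_of_le hX with h | h
  · rw [← h, div_zero, mul_zero]
    exact le_min (x0 a) hσ
  · refine le_min (mul_le_of_le_one_right (x0 a) ?_) ?_
    · rw [div_le_one h]; exact min_le_left _ _
    · calc x a * (min (∑ b, x b) σ / ∑ b, x b) ≤
          (∑ b, x b) * (min (∑ b, x b) σ / ∑ b, x b) :=
            mul_le_mul_of_nonneg_right hxX (div_nonneg (le_min hX hσ) hX)
        _ = min (∑ b, x b) σ := mul_div_cancel₀ _ h.ne'
        _ ≤ σ := min_le_right _ _

lemma cut_sum (hσ : 0 ≤ σ) (x0 : ∀ a, 0 ≤ x a) : ∑ a, cut σ x a = min (∑ a, x a) σ := by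
  have hX := Finset.sum_nonneg fun b (_ : b ∈ (Finset.univ : Finset α)) => x0 b
  unfold cut
  rw [← Finset.sum_mul]
  rcases eq_or_lt_of_le hX with h | h
  · rw [← h, zero_mul, min_eq_left hσ]
  · exact mul_div_cancel₀ _ h.ne'

lemma cut_ne (a : α) (h : cut σ x a ≠ 0) : x a ≠ 0 := fun e => h (by unfold cut; rw [e, zero_mul])

lemma q2_mono {x y x' y' : α → ℝ} (x0 : ∀ a, 0 ≤ x a) (y0 : ∀ a, 0 ≤ y a) (hx : ∀ a, x a ≤ x' a)
    (hy : ∀ a, y a ≤ y' a) : (∑ a, x a) * (∑ a, y a) - ∑ a, x a * y a ≤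
      (∑ a, x' a) * (∑ a, y' a) - ∑ a, x' a * y' a := by
  rw [Finset.sum_mul, Finset.sum_mul, ← Finset.sum_sub_distrib, ← Finset.sum_sub_distrib]
  refine Finset.sum_le_sum fun a _ => ?_
  classical
  have e : ∀ z : α → ℝ, ∑ b, z b = z a + ∑ b ∈ Finset.univ.erase a, z b := fun z =>
    (Finset.add_sum_erase _ _ (Finset.mem_univ a)).symm
  have e1 : x a * ∑ b, y b - x a * y a = x a * ∑ b ∈ Finset.univ.erase a, y b := by
    rw [e y]; ring
  have e2 : x' a * ∑ b, y' b - x' a * y' a = x' a * ∑ b ∈ Finset.univ.erase a, y' b := by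
    rw [e y']; ring
  rw [e1, e2]
  exact mul_le_mul (hx a) (Finset.sum_le_sum fun b _ => hy b) (Finset.sum_nonneg fun b _ => y0 b)
    ((x0 a).trans (hx a))

end cut

lemma PX_mono {ζ : Type*} [Fintype ζ] (c0 : ∀ j, 0 ≤ c j) (c1 : ∑ j, c j = 1) {f g : ζ → J → ℝ}
    (hf : ∀ z j, 0 ≤ f z j) (hg : ∀ z j, f z j ≤ g z j) : PX σ c f ≤ PX σ c g :=
  mul_le_mul_of_nonneg_left (Finset.sum_le_sum fun z _ => P1_mono c0 c1 (hf z) (hg z))
    (Real.sqrt_nonneg _)

lemma one_lip (c0 : ∀ j, 0 ≤ c j) (hσ : 0 < σ) {h g : J → ℝ}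
    (hh : ∀ j, 0 ≤ h j) (hg : ∀ j, h j ≤ g j) (g1 : ∀ j, g j ≤ σ) :
    Real.sqrt σ * P1 c g ≤ Real.sqrt σ * P1 c h + 14 * (σ * (M c g - M c h)) := by
  have h1 := P1_lip c0 hh hg
  have h2 : M c (fun j => (g j - h j) * Real.sqrt (g j)) ≤ Real.sqrt σ * (M c g - M c h) := by
    rw [← M_sub, ← M_smul]
    refine M_mono c0 fun j => ?_
    rw [mul_comm (Real.sqrt σ)]
    exact mul_le_mul_of_nonneg_left (Real.sqrt_le_sqrt (g1 j)) (sub_nonneg.2 (hg j))
  have s0 := Real.sqrt_nonneg σ
  have s1 : Real.sqrt σ * Real.sqrt σ = σ := Real.mul_self_sqrt hσ.le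
  have h3 := mul_le_mul_of_nonneg_left (h1.trans (add_le_add le_rfl
    (mul_le_mul_of_nonneg_left h2 (by norm_num : (0:ℝ) ≤ 14)))) s0
  have e : Real.sqrt σ * (P1 c h + 14 * (Real.sqrt σ * (M c g - M c h))) =
      Real.sqrt σ * P1 c h + 14 * ((Real.sqrt σ * Real.sqrt σ) * (M c g - M c h)) := by ring
  rw [e, s1] at h3
  exact h3

lemma PX_lip {ζ : Type*} [Fintype ζ] (c0 : ∀ j, 0 ≤ c j) (hσ : 0 < σ) {f g : ζ → J → ℝ}
    (hf : ∀ z j, 0 ≤ f z j) (hg : ∀ z j, f z j ≤ g z j) (g1 : ∀ z j, g z j ≤ σ) :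
    PX σ c g ≤ PX σ c f + 14 * (σ * (SS c g - SS c f)) := by
  unfold PX SS
  rw [Finset.mul_sum, Finset.mul_sum, ← Finset.sum_sub_distrib, Finset.mul_sum, Finset.mul_sum,
    ← Finset.sum_add_distrib]
  exact Finset.sum_le_sum fun z _ => one_lip c0 hσ (hf z) (hg z) (g1 z)

variable {Ev : δ → δ' → Prop} [∀ z z', Decidable (Ev z z')] [DecidableEq J]

/-- **the class change**, dual potential, `θ` form -/
theorem PX_chg (c0 : ∀ j, 0 ≤ c j) (c1 : ∑ j, c j = 1) (hσ : 0 < σ) (hθ : 0 < θ)
    {f : δ → δ' → J → ℝ} (hf : ∀ z z' j, 0 ≤ f z z' j)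
    (hr : ∀ z a b, ¬ Ev z a → ¬ Ev z b → f z a ≠ 0 → f z b ≠ 0 → a = b)
    (hc : ∀ a b z', ¬ Ev a z' → ¬ Ev b z' → f a z' ≠ 0 → f b z' ≠ 0 → a = b) :
    PX σ c (fun z j => min (∑ z', f z z' j) σ) ≤ PX σ c (fun z' j => min (∑ z, f z z' j) σ) +
      14 * (σ * (M c (fun j => ∑ z, ∑ z', min (f z z' j) σ) -
        SS c (fun z' j => min (∑ z, f z z' j) σ))) +
      10 * (θ * (σ * M c (fun j => ∑ z, ∑ z', if Ev z z' then f z z' j else 0))) +
      10 / θ * (M c (fun j => ∑ z, ((∑ z', f z z' j) ^ 2 - ∑ z', f z z' j ^ 2)) +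
        ∑ j, ∑ j', if j = j' then 0 else c j * c j' *
          ∑ z', ((∑ z, f z z' j) * (∑ z, f z z' j') - ∑ z, f z z' j * f z z' j')) := by
  have hσ' := hσ.le
  set s := Real.sqrt σ with hs
  have s0 : 0 < s := Real.sqrt_pos.2 hσ
  have s1 : s * s = σ := Real.mul_self_sqrt hσ'
  have hθs : 0 < θ * s := mul_pos hθ s0
  -- the rows
  set e : δ → δ' → J → ℝ := fun z z' j => cut σ (fun a => f z a j) z' with he
  have e0 : ∀ z z' j, 0 ≤ e z z' j := fun z z' j => cut_nonneg hσ' (fun a => hf z a j) z'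
  have em : ∀ z z' j, e z z' j ≤ min (f z z' j) σ := fun z z' j =>
    cut_le hσ' (fun a => hf z a j) z'
  have ef : ∀ z z' j, e z z' j ≤ f z z' j := fun z z' j => (em z z' j).trans (min_le_left _ _)
  have es : ∀ z j, ∑ z', e z z' j = min (∑ z', f z z' j) σ := fun z j =>
    cut_sum hσ' fun a => hf z a j
  have en : ∀ z z', e z z' ≠ 0 → f z z' ≠ 0 := fun z z' h1 h2 => h1 (by
    funext j
    have h3 : e z z' j ≤ 0 := by
      have := ef z z' j
      rw [h2] at this
      exact this
    exact le_antisymm h3 (e0 z z' j))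
  -- the columns
  set d : δ → δ' → J → ℝ := fun z z' j => cut σ (fun a => f a z' j) z with hd
  have d0 : ∀ z z' j, 0 ≤ d z z' j := fun z z' j => cut_nonneg hσ' (fun a => hf a z' j) z
  have dm : ∀ z z' j, d z z' j ≤ min (f z z' j) σ := fun z z' j =>
    cut_le hσ' (fun a => hf a z' j) z
  have df : ∀ z z' j, d z z' j ≤ f z z' j := fun z z' j => (dm z z' j).trans (min_le_left _ _)
  have ds : ∀ z' j, ∑ z, d z z' j = min (∑ z, f z z' j) σ := fun z' j =>
    cut_sum hσ' fun a => hf a z' j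
  have dn : ∀ z z', d z z' ≠ 0 → f z z' ≠ 0 := fun z z' h1 h2 => h1 (by
    funext j
    have h3 : d z z' j ≤ 0 := by
      have := df z z' j
      rw [h2] at this
      exact this
    exact le_antisymm h3 (d0 z z' j))
  -- step 1
  have k1 : PX σ c (fun z j => min (∑ z', f z z' j) σ) ≤
      s * ∑ z, ∑ z', P1 c (e z z') + 28 / 3 * (θ * (σ *
        M c (fun j => ∑ z, ∑ z', if Ev z z' then f z z' j else 0)) +
        M c (fun j => ∑ z, ((∑ z', f z z' j) ^ 2 - ∑ z', f z z' j ^ 2)) / (2 * θ)) := by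
    have h1 : ∀ z, s * P1 c (fun j => min (∑ z', f z z' j) σ) ≤ s * ∑ z', P1 c (e z z') +
        28 / 3 * (θ * (σ * M c (fun j => ∑ z', if Ev z z' then f z z' j else 0)) +
          M c (fun j => (∑ z', f z z' j) ^ 2 - ∑ z', f z z' j ^ 2) / (2 * θ)) := by
      intro z
      have h2 := P1_merge (Ev := Ev z) c0 (x := fun a => e z a) (fun a j => e0 z a j) hθs
        fun a b ha hb h3 h4 => hr z a b ha hb (en z a h3) (en z b h4)
      have h3 : (fun j => ∑ a, e z a j) = fun j => min (∑ z', f z z' j) σ :=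
        funext fun j => es z j
      rw [h3] at h2
      have h4 := mul_le_mul_of_nonneg_left h2 s0.le
      have h5 : M c (fun j => ∑ a, if Ev z a then e z a j else 0) ≤
          M c (fun j => ∑ a, if Ev z a then f z a j else 0) :=
        M_mono c0 fun j => Finset.sum_le_sum fun a _ => by
          split_ifs
          · exact ef z a j
          · exact le_rfl
      have h6 : M c (fun j => (∑ a, e z a j) ^ 2 - ∑ a, e z a j ^ 2) ≤
          M c (fun j => (∑ a, f z a j) ^ 2 - ∑ a, f z a j ^ 2) :=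
        M_mono c0 fun j => by
          have := q2_mono (x := fun a => e z a j) (y := fun a => e z a j)
            (x' := fun a => f z a j) (y' := fun a => f z a j) (fun a => e0 z a j)
            (fun a => e0 z a j) (fun a => ef z a j) fun a => ef z a j
          simpa only [← pow_two] using this
      have h7 : s * (∑ a, P1 c (e z a) + 28 / 3 * (θ * s *
          M c (fun j => ∑ a, if Ev z a then e z a j else 0) +
          M c (fun j => (∑ a, e z a j) ^ 2 - ∑ a, e z a j ^ 2) / (2 * (θ * s)))) =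
          s * ∑ a, P1 c (e z a) + 28 / 3 * (θ * ((s * s) *
          M c (fun j => ∑ a, if Ev z a then e z a j else 0)) +
          M c (fun j => (∑ a, e z a j) ^ 2 - ∑ a, e z a j ^ 2) / (2 * θ)) := by
        field_simp
      rw [h7, s1] at h4
      have h8 := mul_le_mul_of_nonneg_left (mul_le_mul_of_nonneg_left h5 hσ') hθ.le
      have h9 := div_le_div_of_nonneg_right h6 (by positivity : 0 ≤ 2 * θ)
      linarith
    have h2 := Finset.sum_le_sum fun z (_ : z ∈ (Finset.univ : Finset δ)) => h1 z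
    rw [Finset.sum_add_distrib, ← Finset.mul_sum, ← Finset.mul_sum, ← Finset.mul_sum,
      Finset.sum_add_distrib, ← Finset.mul_sum, ← Finset.mul_sum, ← Finset.sum_div] at h2
    unfold PX
    rw [← M_sum, ← M_sum] at h2
    exact h2
  -- step 2
  have k2 : ∑ z, ∑ z', P1 c (e z z') ≤ ∑ z', ∑ z, P1 c (fun j => min (f z z' j) σ) := by
    rw [Finset.sum_comm]
    exact Finset.sum_le_sum fun z' _ => Finset.sum_le_sum fun z _ =>
      P1_mono c0 c1 (e0 z z') (em z z')
  have k3 : s * ∑ z', ∑ z, P1 c (fun j => min (f z z' j) σ) ≤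
      s * ∑ z', ∑ z, P1 c (d z z') + 14 * (σ * (M c (fun j => ∑ z, ∑ z', min (f z z' j) σ) -
        SS c (fun z' j => min (∑ z, f z z' j) σ))) := by
    have h1 : ∀ z' z, s * P1 c (fun j => min (f z z' j) σ) ≤ s * P1 c (d z z') +
        14 * (σ * (M c (fun j => min (f z z' j) σ) - M c (d z z'))) := fun z' z =>
      one_lip c0 hσ (d0 z z') (dm z z') fun j => min_le_right _ _
    have h2 := Finset.sum_le_sum fun z' (_ : z' ∈ (Finset.univ : Finset δ')) =>
      Finset.sum_le_sum fun z (_ : z ∈ (Finset.univ : Finset δ)) => h1 z' z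
    simp only [Finset.sum_add_distrib, ← Finset.mul_sum, Finset.sum_sub_distrib] at h2
    have e1 : ∑ z', ∑ z, M c (fun j => min (f z z' j) σ) =
        M c (fun j => ∑ z, ∑ z', min (f z z' j) σ) := by
      rw [Finset.sum_comm, M_sum]
      exact Finset.sum_congr rfl fun z _ => (M_sum _ _).symm
    have e2 : ∑ z', ∑ z, M c (d z z') = SS c (fun z' j => min (∑ z, f z z' j) σ) := by
      unfold SS
      refine Finset.sum_congr rfl fun z' _ => ?_
      rw [← M_sum]
      congr 1
      funext j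
      exact ds z' j
    rw [e1, e2] at h2
    exact h2
  -- step 3
  have k4 : s * ∑ z', ∑ z, P1 c (d z z') ≤ PX σ c (fun z' j => min (∑ z, f z z' j) σ) +
      1 / 4 * (θ * (σ * M c (fun j => ∑ z, ∑ z', if Ev z z' then f z z' j else 0)) +
        (∑ j, ∑ j', if j = j' then 0 else c j * c j' *
          ∑ z', ((∑ z, f z z' j) * (∑ z, f z z' j') - ∑ z, f z z' j * f z z' j')) / θ) := by
    have h1 : ∀ z', s * ∑ z, P1 c (d z z') ≤ s * P1 c (fun j => min (∑ z, f z z' j) σ) +
        1 / 4 * (θ * (σ * M c (fun j => ∑ z, if Ev z z' then f z z' j else 0)) +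
          Qc c (fun z => f z z') / θ) := by
      intro z'
      have h2 := P1_split (Ev := fun z => Ev z z') c0 c1 (x := fun a => d a z')
        (fun a j => d0 a z' j) hθs
        fun a b ha hb h3 h4 => hc a b z' ha hb (dn a z' h3) (dn b z' h4)
      have h3 : (fun j => ∑ a, d a z' j) = fun j => min (∑ z, f z z' j) σ :=
        funext fun j => ds z' j
      rw [h3] at h2
      have h4 := mul_le_mul_of_nonneg_left h2 s0.le
      have h5 : M c (fun j => ∑ a, if Ev a z' then d a z' j else 0) ≤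
          M c (fun j => ∑ a, if Ev a z' then f a z' j else 0) :=
        M_mono c0 fun j => Finset.sum_le_sum fun a _ => by
          split_ifs
          · exact df a z' j
          · exact le_rfl
      have h6 : Qc c (fun a => d a z') ≤ Qc c (fun z => f z z') :=
        Finset.sum_le_sum fun j _ => Finset.sum_le_sum fun j' _ => by
          split_ifs
          · exact le_rfl
          · exact mul_le_mul_of_nonneg_left (q2_mono (fun a => d0 a z' j) (fun a => d0 a z' j')
              (fun a => df a z' j) fun a => df a z' j') (mul_nonneg (c0 j) (c0 j'))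
      have h7 : s * (P1 c (fun j => min (∑ z, f z z' j) σ) + 1 / 4 * (θ * s *
          M c (fun j => ∑ a, if Ev a z' then d a z' j else 0) +
          Qc c (fun a => d a z') / (θ * s))) =
          s * P1 c (fun j => min (∑ z, f z z' j) σ) + 1 / 4 * (θ * ((s * s) *
          M c (fun j => ∑ a, if Ev a z' then d a z' j else 0)) +
          Qc c (fun a => d a z') / θ) := by
        field_simp
      rw [h7, s1] at h4
      have h8 := mul_le_mul_of_nonneg_left (mul_le_mul_of_nonneg_left h5 hσ') hθ.le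
      have h9 := div_le_div_of_nonneg_right h6 hθ.le
      linarith
    have h2 := Finset.sum_le_sum fun z' (_ : z' ∈ (Finset.univ : Finset δ')) => h1 z'
    rw [Finset.sum_add_distrib, ← Finset.mul_sum, ← Finset.mul_sum, ← Finset.mul_sum,
      Finset.sum_add_distrib, ← Finset.mul_sum, ← Finset.mul_sum, ← Finset.sum_div] at h2
    have e1 : ∑ z', M c (fun j => ∑ z, if Ev z z' then f z z' j else 0) =
        M c (fun j => ∑ z, ∑ z', if Ev z z' then f z z' j else 0) := by
      rw [← M_sum]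
      congr 1
      funext j
      exact Finset.sum_comm
    have e2 : ∑ z', Qc c (fun z => f z z') = ∑ j, ∑ j', if j = j' then 0 else c j * c j' *
          ∑ z', ((∑ z, f z z' j) * (∑ z, f z z' j') - ∑ z, f z z' j * f z z' j') := by
      unfold Qc
      rw [Finset.sum_comm]
      refine Finset.sum_congr rfl fun j _ => ?_
      rw [Finset.sum_comm]
      refine Finset.sum_congr rfl fun j' _ => ?_
      split_ifs
      · simp
      · rw [Finset.mul_sum]
    rw [e1, e2] at h2
    exact h2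
  have k5 := mul_le_mul_of_nonneg_left k2 s0.le
  -- nonnegativity
  set A := M c (fun j => ∑ z, ∑ z', if Ev z z' then f z z' j else 0) with hA
  set B := M c (fun j => ∑ z, ((∑ z', f z z' j) ^ 2 - ∑ z', f z z' j ^ 2)) with hB
  set Q := ∑ j, ∑ j', (if j = j' then 0 else c j * c j' *
          ∑ z', ((∑ z, f z z' j) * (∑ z, f z z' j') - ∑ z, f z z' j * f z z' j')) with hQ
  have A0 : 0 ≤ A := M_nonneg c0 fun j => Finset.sum_nonneg fun z _ =>
    Finset.sum_nonneg fun z' _ => by
      split_ifs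
      · exact hf z z' j
      · exact le_rfl
  have B0 : 0 ≤ B := M_nonneg c0 fun j => Finset.sum_nonneg fun z _ => by
    have := q2_nonneg (x := fun a => f z a j) (y := fun a => f z a j) (fun a => hf z a j)
      fun a => hf z a j
    simpa only [← pow_two] using this
  have Q0 : 0 ≤ Q := Finset.sum_nonneg fun j _ => Finset.sum_nonneg fun j' _ => by
    split_ifs
    · exact le_rfl
    · exact mul_nonneg (mul_nonneg (c0 j) (c0 j')) (Finset.sum_nonneg fun z' _ =>
        q2_nonneg (fun a => hf a z' j) fun a => hf a z' j')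
  have A1 : 0 ≤ θ * (σ * A) := mul_nonneg hθ.le (mul_nonneg hσ' A0)
  have B1 : B / (2 * θ) = 1 / 2 * (B / θ) := by field_simp
  have B2 : 0 ≤ B / θ := div_nonneg B0 hθ.le
  have Q2 : 0 ≤ Q / θ := div_nonneg Q0 hθ.le
  have e3 : 10 / θ * (B + Q) = 10 * (B / θ) + 10 * (Q / θ) := by ring
  rw [e3]
  rw [B1] at k1
  linarith

lemma oth_mono {α : Type*} [Fintype α] {x y : α → ℝ} (hσ : 0 ≤ σ) (x0 : ∀ a, 0 ≤ x a)
    (h : ∀ a, x a ≤ y a) (hx : ∑ a, x a ≤ σ) (a : α) :
    ∑ b, x b - x a ≤ min σ (∑ b, y b - y a) := by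
  classical
  refine le_min (by linarith [x0 a]) ?_
  have e : ∀ z : α → ℝ, ∑ b, z b - z a = ∑ b ∈ Finset.univ.erase a, z b := fun z => by
    rw [← Finset.add_sum_erase _ _ (Finset.mem_univ a)]; ring
  rw [e x, e y]
  exact Finset.sum_le_sum fun b _ => h b

/-- **the class change**, dual potential, root form -/
theorem PX_root (c0 : ∀ j, 0 ≤ c j) (c1 : ∑ j, c j = 1) (hσ : 0 < σ)
    {f : δ → δ' → J → ℝ} (hf : ∀ z z' j, 0 ≤ f z z' j)
    (hr : ∀ z a b, ¬ Ev z a → ¬ Ev z b → f z a ≠ 0 → f z b ≠ 0 → a = b)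
    (hc : ∀ a b z', ¬ Ev a z' → ¬ Ev b z' → f a z' ≠ 0 → f b z' ≠ 0 → a = b) :
    PX σ c (fun z j => min (∑ z', f z z' j) σ) ≤ PX σ c (fun z' j => min (∑ z, f z z' j) σ) +
      14 * (σ * (M c (fun j => ∑ z, ∑ z', min (f z z' j) σ) -
        SS c (fun z' j => min (∑ z, f z z' j) σ))) +
      19 * (Real.sqrt σ * (M c (fun j => ∑ z, ∑ z', if Ev z z' then
          f z z' j * Real.sqrt (min σ (∑ a, f z a j - f z z' j)) else 0) +
        ∑ j, ∑ j', if j = j' then 0 else c j * c j' * ∑ z, ∑ z', if Ev z z' then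
          f z z' j * Real.sqrt (min σ (∑ a, f a z' j' - f z z' j')) else 0)) := by
  have hσ' := hσ.le
  set s := Real.sqrt σ with hs
  have s0 : 0 < s := Real.sqrt_pos.2 hσ
  -- the rows
  set e : δ → δ' → J → ℝ := fun z z' j => cut σ (fun a => f z a j) z' with he
  have e0 : ∀ z z' j, 0 ≤ e z z' j := fun z z' j => cut_nonneg hσ' (fun a => hf z a j) z'
  have em : ∀ z z' j, e z z' j ≤ min (f z z' j) σ := fun z z' j =>
    cut_le hσ' (fun a => hf z a j) z'
  have ef : ∀ z z' j, e z z' j ≤ f z z' j := fun z z' j => (em z z' j).trans (min_le_left _ _)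
  have es : ∀ z j, ∑ z', e z z' j = min (∑ z', f z z' j) σ := fun z j =>
    cut_sum hσ' fun a => hf z a j
  have en : ∀ z z', e z z' ≠ 0 → f z z' ≠ 0 := fun z z' h1 h2 => h1 (by
    funext j
    have h3 : e z z' j ≤ 0 := by
      have := ef z z' j
      rw [h2] at this
      exact this
    exact le_antisymm h3 (e0 z z' j))
  -- the columns
  set d : δ → δ' → J → ℝ := fun z z' j => cut σ (fun a => f a z' j) z with hd
  have d0 : ∀ z z' j, 0 ≤ d z z' j := fun z z' j => cut_nonneg hσ' (fun a => hf a z' j) z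
  have dm : ∀ z z' j, d z z' j ≤ min (f z z' j) σ := fun z z' j =>
    cut_le hσ' (fun a => hf a z' j) z
  have df : ∀ z z' j, d z z' j ≤ f z z' j := fun z z' j => (dm z z' j).trans (min_le_left _ _)
  have ds : ∀ z' j, ∑ z, d z z' j = min (∑ z, f z z' j) σ := fun z' j =>
    cut_sum hσ' fun a => hf a z' j
  have dn : ∀ z z', d z z' ≠ 0 → f z z' ≠ 0 := fun z z' h1 h2 => h1 (by
    funext j
    have h3 : d z z' j ≤ 0 := by
      have := df z z' j
      rw [h2] at this
      exact this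
    exact le_antisymm h3 (d0 z z' j))
  set A := M c (fun j => ∑ z, ∑ z', if Ev z z' then
          f z z' j * Real.sqrt (min σ (∑ a, f z a j - f z z' j)) else 0) with hA
  set B := ∑ j, ∑ j', (if j = j' then 0 else c j * c j' * ∑ z, ∑ z', if Ev z z' then
          f z z' j * Real.sqrt (min σ (∑ a, f a z' j' - f z z' j')) else 0) with hB
  -- step 1
  have k1 : PX σ c (fun z j => min (∑ z', f z z' j) σ) ≤
      s * ∑ z, ∑ z', P1 c (e z z') + 56 / 3 * (s * A) := by
    have h1 : ∀ z, s * P1 c (fun j => min (∑ z', f z z' j) σ) ≤ s * ∑ z', P1 c (e z z') +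
        56 / 3 * (s * M c (fun j => ∑ z', if Ev z z' then
          f z z' j * Real.sqrt (min σ (∑ a, f z a j - f z z' j)) else 0)) := by
      intro z
      have h2 := P1_mergeR (Ev := Ev z) c0 (x := fun a => e z a) (fun a j => e0 z a j)
        fun a b ha hb h3 h4 => hr z a b ha hb (en z a h3) (en z b h4)
      have h3 : (fun j => ∑ a, e z a j) = fun j => min (∑ z', f z z' j) σ :=
        funext fun j => es z j
      rw [h3] at h2
      have h4 := mul_le_mul_of_nonneg_left h2 s0.le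
      have h5 : M c (fun j => ∑ a, if Ev z a then
          e z a j * Real.sqrt (∑ b, e z b j - e z a j) else 0) ≤
          M c (fun j => ∑ z', if Ev z z' then
          f z z' j * Real.sqrt (min σ (∑ a, f z a j - f z z' j)) else 0) :=
        M_mono c0 fun j => Finset.sum_le_sum fun a _ => by
          split_ifs
          · exact mul_le_mul (ef z a j) (Real.sqrt_le_sqrt (oth_mono hσ' (fun b => e0 z b j)
              (fun b => ef z b j) (by rw [es]; exact min_le_right _ _) a))
              (Real.sqrt_nonneg _) (hf z a j)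
          · exact le_rfl
      have h8 := mul_le_mul_of_nonneg_left h5 s0.le
      linarith
    have h2 := Finset.sum_le_sum fun z (_ : z ∈ (Finset.univ : Finset δ)) => h1 z
    rw [Finset.sum_add_distrib, ← Finset.mul_sum, ← Finset.mul_sum, ← Finset.mul_sum,
      ← Finset.mul_sum] at h2
    unfold PX
    rw [← M_sum] at h2
    exact h2
  -- step 2
  have k2 : ∑ z, ∑ z', P1 c (e z z') ≤ ∑ z', ∑ z, P1 c (fun j => min (f z z' j) σ) := by
    rw [Finset.sum_comm]
    exact Finset.sum_le_sum fun z' _ => Finset.sum_le_sum fun z _ =>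
      P1_mono c0 c1 (e0 z z') (em z z')
  have k3 : s * ∑ z', ∑ z, P1 c (fun j => min (f z z' j) σ) ≤
      s * ∑ z', ∑ z, P1 c (d z z') + 14 * (σ * (M c (fun j => ∑ z, ∑ z', min (f z z' j) σ) -
        SS c (fun z' j => min (∑ z, f z z' j) σ))) := by
    have h1 : ∀ z' z, s * P1 c (fun j => min (f z z' j) σ) ≤ s * P1 c (d z z') +
        14 * (σ * (M c (fun j => min (f z z' j) σ) - M c (d z z'))) := fun z' z =>
      one_lip c0 hσ (d0 z z') (dm z z') fun j => min_le_right _ _
    have h2 := Finset.sum_le_sum fun z' (_ : z' ∈ (Finset.univ : Finset δ')) =>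
      Finset.sum_le_sum fun z (_ : z ∈ (Finset.univ : Finset δ)) => h1 z' z
    simp only [Finset.sum_add_distrib, ← Finset.mul_sum, Finset.sum_sub_distrib] at h2
    have e1 : ∑ z', ∑ z, M c (fun j => min (f z z' j) σ) =
        M c (fun j => ∑ z, ∑ z', min (f z z' j) σ) := by
      rw [Finset.sum_comm, M_sum]
      exact Finset.sum_congr rfl fun z _ => (M_sum _ _).symm
    have e2 : ∑ z', ∑ z, M c (d z z') = SS c (fun z' j => min (∑ z, f z z' j) σ) := by
      unfold SS
      refine Finset.sum_congr rfl fun z' _ => ?_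
      rw [← M_sum]
      congr 1
      funext j
      exact ds z' j
    rw [e1, e2] at h2
    exact h2
  -- step 3
  have k4 : s * ∑ z', ∑ z, P1 c (d z z') ≤ PX σ c (fun z' j => min (∑ z, f z z' j) σ) +
      1 / 2 * (s * B) := by
    have h1 : ∀ z', s * ∑ z, P1 c (d z z') ≤ s * P1 c (fun j => min (∑ z, f z z' j) σ) +
        1 / 2 * (s * ∑ j, ∑ j', if j = j' then 0 else c j * c j' * ∑ z, if Ev z z' then
          f z z' j * Real.sqrt (min σ (∑ a, f a z' j' - f z z' j')) else 0) := by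
      intro z'
      have h2 := P1_splitR (Ev := fun z => Ev z z') c0 c1 (x := fun a => d a z')
        (fun a j => d0 a z' j)
        fun a b ha hb h3 h4 => hc a b z' ha hb (dn a z' h3) (dn b z' h4)
      have h3 : (fun j => ∑ a, d a z' j) = fun j => min (∑ z, f z z' j) σ :=
        funext fun j => ds z' j
      rw [h3] at h2
      have h4 := mul_le_mul_of_nonneg_left h2 s0.le
      have h6 : Rc c (fun z => Ev z z') (fun a => d a z') ≤
          ∑ j, ∑ j', if j = j' then 0 else c j * c j' * ∑ z, if Ev z z' then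
          f z z' j * Real.sqrt (min σ (∑ a, f a z' j' - f z z' j')) else 0 :=
        Finset.sum_le_sum fun j _ => Finset.sum_le_sum fun j' _ => by
          by_cases hj : j = j'
          · rw [if_pos hj, if_pos hj]
          · rw [if_neg hj, if_neg hj]
            refine mul_le_mul_of_nonneg_left ?_ (mul_nonneg (c0 j) (c0 j'))
            refine Finset.sum_le_sum fun a _ => ?_
            split_ifs
            · exact mul_le_mul (df a z' j) (Real.sqrt_le_sqrt (oth_mono hσ'
                (fun b => d0 b z' j') (fun b => df b z' j')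
                (by rw [ds]; exact min_le_right _ _) a)) (Real.sqrt_nonneg _) (hf a z' j)
            · exact le_rfl
      have h8 := mul_le_mul_of_nonneg_left h6 s0.le
      linarith
    have h2 := Finset.sum_le_sum fun z' (_ : z' ∈ (Finset.univ : Finset δ')) => h1 z'
    rw [Finset.sum_add_distrib, ← Finset.mul_sum, ← Finset.mul_sum, ← Finset.mul_sum,
      ← Finset.mul_sum] at h2
    have e2 : ∑ z', ∑ j, ∑ j', (if j = j' then 0 else c j * c j' * ∑ z, if Ev z z' then
          f z z' j * Real.sqrt (min σ (∑ a, f a z' j' - f z z' j')) else 0) = B := by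
      rw [hB, Finset.sum_comm]
      refine Finset.sum_congr rfl fun j _ => ?_
      rw [Finset.sum_comm]
      refine Finset.sum_congr rfl fun j' _ => ?_
      split_ifs
      · simp
      · rw [← Finset.mul_sum]
        congr 1
        exact Finset.sum_comm
    rw [e2] at h2
    exact h2
  have k5 := mul_le_mul_of_nonneg_left k2 s0.le
  have A0 : 0 ≤ A := M_nonneg c0 fun j => Finset.sum_nonneg fun z _ =>
    Finset.sum_nonneg fun z' _ => by
      split_ifs
      · exact mul_nonneg (hf z z' j) (Real.sqrt_nonneg _)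
      · exact le_rfl
  have B0 : 0 ≤ B := Finset.sum_nonneg fun j _ => Finset.sum_nonneg fun j' _ => by
    by_cases hj : j = j'
    · rw [if_pos hj]
    · rw [if_neg hj]
      refine mul_nonneg (mul_nonneg (c0 j) (c0 j')) (Finset.sum_nonneg fun z _ =>
        Finset.sum_nonneg fun z' _ => ?_)
      split_ifs
      · exact mul_nonneg (hf z z' j) (Real.sqrt_nonneg _)
      · exact le_rfl
  have A1 := mul_nonneg s0.le A0
  have B1 := mul_nonneg s0.le B0
  have e3 : 19 * (s * (A + B)) = 19 * (s * A) + 19 * (s * B) := by ring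
  rw [e3]
  linarith

/-- the scaled potential of any family `Σ_z PD + 56 TT`, divided by `7` -/
theorem PX_eq {ζ : Type*} [Fintype ζ] (hσ : 0 < σ) {f : ζ → J → ℝ} (hf : ∀ z j, 0 ≤ f z j) :
    σ ^ 2 * (∑ z, GMd35.PD c (fun j => f z j / σ) + 56 * ∑ z, M c fun j => th (f z j / σ)) / 7 =
      PX σ c f := by
  have hσ' : σ ≠ 0 := hσ.ne'
  have s1 : Real.sqrt σ * Real.sqrt σ = σ := Real.mul_self_sqrt hσ.le
  have s0 : 0 < Real.sqrt σ := Real.sqrt_pos.2 hσ
  have thd : ∀ x : ℝ, 0 ≤ x → σ ^ 2 * th (x / σ) = Real.sqrt σ * th x := fun x hx => by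
    unfold th
    rw [Real.sqrt_div hx]
    have e : σ ^ 2 * (x / σ * (Real.sqrt x / Real.sqrt σ)) =
        σ / Real.sqrt σ * (x * Real.sqrt x) := by field_simp
    have e2 : σ / Real.sqrt σ = Real.sqrt σ := by
      rw [div_eq_iff s0.ne']; exact s1.symm
    rw [e, e2]
  have e1 : ∀ z, σ ^ 2 * M c (fun j => th (f z j / σ)) = Real.sqrt σ * M c fun j => th (f z j) := by
    intro z
    rw [← M_smul, ← M_smul]
    congr 1
    exact funext fun j => thd _ (hf z j)
  have e2 : ∀ z, σ ^ 2 * D c (fun j => f z j / σ) = Real.sqrt σ * D c (f z) := by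
    intro z
    unfold D
    rw [Finset.mul_sum, Finset.mul_sum]
    refine Finset.sum_congr rfl fun j _ => ?_
    rw [Finset.mul_sum, Finset.mul_sum]
    refine Finset.sum_congr rfl fun j' _ => ?_
    rw [min_div_div_right hσ.le]
    have h := thd _ (le_min (hf z j) (hf z j'))
    calc σ ^ 2 * (c j * c j' * th (min (f z j) (f z j') / σ)) =
        c j * c j' * (σ ^ 2 * th (min (f z j) (f z j') / σ)) := by ring
      _ = _ := by rw [h]; ring
  unfold PX
  rw [← Finset.sum_congr rfl fun z _ => rfl, Finset.mul_sum, mul_add, Finset.mul_sum,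
    Finset.mul_sum, Finset.mul_sum, ← Finset.sum_add_distrib, Finset.sum_div]
  refine Finset.sum_congr rfl fun z _ => ?_
  unfold GMd35.PD P1
  have h1 := e1 z
  have h2 := e2 z
  have h3 : σ ^ 2 * (28 / 3 * M c (fun j => th (f z j / σ)) -
      7 / 6 * D c (fun j => f z j / σ)) = 28 / 3 * (σ ^ 2 * M c (fun j => th (f z j / σ))) -
      7 / 6 * (σ ^ 2 * D c (fun j => f z j / σ)) := by ring
  rw [h3, h1, h2]
  have h4 : σ ^ 2 * (56 * M c fun j => th (f z j / σ)) =
      56 * (σ ^ 2 * M c fun j => th (f z j / σ)) := by ring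
  rw [h4, h1]
  ring

end flow

end Crest.Agent.R4P.Chg15
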