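import Crest.Agent.R4P.PMs_49
import Crest.Agent.R4P.Chg_15

/-!
R4 (S0004) with powers, T3, helper49: **the class change of the dual potential `PM7`** (after helper15's
`Chg_15`): `PM7_eq` (closed form), **`PM7_chg`** (`θ` form), **`PM7_root`** (root form).
-/

set_option autoImplicit false
set_option linter.unusedVariables false
set_option linter.unusedSectionVars false

namespace Crest.Agent.R4P.PMr49

open Finset Crest.Agent.R4P.GMer27 Crest.Agent.R4P.ModeP940 Crest.Agent.R4P.MisR16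
open Crest.Agent.R4P.PMs49 Crest.Agent.R4P.Chg15

variable {J ζ : Type*} [Fintype J] [Fintype ζ] {c : J → ℝ} {W : Set (J → ℝ)} {σ : ℝ}

/-- **the closed form** -/
theorem PM7_eq (hσ : 0 < σ) {f : ζ → J → ℝ} (hf : ∀ z j, 0 ≤ f z j) :
    PM7 σ c W f = PX σ c f := by
  classical
  rw [← PX_eq hσ hf]
  rfl

variable {δ δ' : Type*} [Fintype δ] [Fintype δ'] [DecidableEq J]
  {Ev : δ → δ' → Prop} [∀ z z', Decidable (Ev z z')]

/-- **the class change**, `θ` form -/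
theorem PM7_chg (H : TC c W) (hσ : 0 < σ) {θ : ℝ} (hθ : 0 < θ)
    {f : δ → δ' → J → ℝ} (hf : ∀ z z' j, 0 ≤ f z z' j)
    (hr : ∀ z a b, ¬ Ev z a → ¬ Ev z b → f z a ≠ 0 → f z b ≠ 0 → a = b)
    (hc : ∀ a b z', ¬ Ev a z' → ¬ Ev b z' → f a z' ≠ 0 → f b z' ≠ 0 → a = b) :
    PM7 σ c W (fun z j => min (∑ z', f z z' j) σ) ≤
      PM7 σ c W (fun z' j => min (∑ z, f z z' j) σ) +
      14 * (σ * (M c (fun j => ∑ z, ∑ z', min (f z z' j) σ) -
        SS c (fun z' j => min (∑ z, f z z' j) σ))) +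
      10 * (θ * (σ * M c (fun j => ∑ z, ∑ z', if Ev z z' then f z z' j else 0))) +
      10 / θ * (M c (fun j => ∑ z, ((∑ z', f z z' j) ^ 2 - ∑ z', f z z' j ^ 2)) +
        ∑ j, ∑ j', if j = j' then 0 else c j * c j' *
          ∑ z', ((∑ z, f z z' j) * (∑ z, f z z' j') - ∑ z, f z z' j * f z z' j')) := by
  rw [PM7_eq hσ fun z j => le_min (Finset.sum_nonneg fun z' _ => hf z z' j) hσ.le,
    PM7_eq hσ fun z' j => le_min (Finset.sum_nonneg fun z _ => hf z z' j) hσ.le]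
  exact PX_chg H.c0 H.c1 hσ hθ hf hr hc

/-- **the class change**, root form -/
theorem PM7_root (H : TC c W) (hσ : 0 < σ) {f : δ → δ' → J → ℝ} (hf : ∀ z z' j, 0 ≤ f z z' j)
    (hr : ∀ z a b, ¬ Ev z a → ¬ Ev z b → f z a ≠ 0 → f z b ≠ 0 → a = b)
    (hc : ∀ a b z', ¬ Ev a z' → ¬ Ev b z' → f a z' ≠ 0 → f b z' ≠ 0 → a = b) :
    PM7 σ c W (fun z j => min (∑ z', f z z' j) σ) ≤
      PM7 σ c W (fun z' j => min (∑ z, f z z' j) σ) +
      14 * (σ * (M c (fun j => ∑ z, ∑ z', min (f z z' j) σ) -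
        SS c (fun z' j => min (∑ z, f z z' j) σ))) +
      19 * (Real.sqrt σ * (M c (fun j => ∑ z, ∑ z', if Ev z z' then
          f z z' j * Real.sqrt (min σ (∑ a, f z a j - f z z' j)) else 0) +
        ∑ j, ∑ j', if j = j' then 0 else c j * c j' * ∑ z, ∑ z', if Ev z z' then
          f z z' j * Real.sqrt (min σ (∑ a, f a z' j' - f z z' j')) else 0)) := by
  rw [PM7_eq hσ fun z j => le_min (Finset.sum_nonneg fun z' _ => hf z z' j) hσ.le,
    PM7_eq hσ fun z' j => le_min (Finset.sum_nonneg fun z _ => hf z z' j) hσ.le]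
  exact PX_root H.c0 H.c1 hσ hf hr hc

end Crest.Agent.R4P.PMr49
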