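import Crest.Agent.R4P.MSm_25

/-!
R4 (S0004) with powers, T3, helper49: **the general payment theorem of the scaled game**.

The errors of the game (`ModeS16.E`) are paid by any combination of
* `Q1 : Chg` : linear charges of total rate `J` per piece (`Pay45.WS_le_J`),
* `Q2 : Chg` : linear charges which are small in `L²` (Cauchy-Schwarz, rare members, `Pay45.WS_le_cs`),
* `S : Sec` : **second order parts, without the factor `2^k`** (what the `L²` form of the prices leaves).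

`Chg.add`, `WS_add`; `S2` (walk sum of the second order parts), `E_le3`, `main_pay3`, `sum_pay3` (constants);
for group data `RGx`: `GPay` (charges of the groups), `msx_pay3`; `BPay3` (charges of the bundles, second
order parts of the groups), `Sg`, `msx_pay3B`.
-/

set_option autoImplicit false
set_option linter.unusedSectionVars false
set_option linter.unusedVariables false
open MeasureTheory Filter Set

namespace Crest.Agent.R4P.Pay349

open Crest.Agent.R4.Tour104 Crest.Agent.R4.Clos758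
open Crest.Agent.R4P.LogG51 (PB_max)
open Crest.Agent.R4P.Mode940 Crest.Agent.R4P.ModeG51 Crest.Agent.R4P.ModeR16
open Crest.Agent.R4P.ModeS16 Crest.Agent.R4P.Pay45

variable {σ : Type*} {w : MS σ}

/-! ### sums of charges -/

/-- charges add up -/
noncomputable def addC (P Q : Chg w) : Chg w where
  Y := fun p t x => P.Y p t x + Q.Y p t x
  YB := fun p t x => P.YB p t x + Q.YB p t x
  yx := fun p t x => P.yx p t x + Q.yx p t x
  yc := fun p t x => P.yc p t x + Q.yc p t x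
  pY := fun ht => (P.pY ht).add (Q.pY ht)
  pYB := fun ht hp => (P.pYB ht hp).add (Q.pYB ht hp)
  pyx := fun ht hp => (P.pyx ht hp).add (Q.pyx ht hp)
  pyc := fun ht hp => (P.pyc ht hp).add (Q.pyc ht hp)
  spl := fun ht hp x => by
    have a := P.spl ht hp x
    have b := Q.spl ht hp x
    linarith
  mean := fun {p t} ht hp y => by
    have a := P.mean ht hp y
    have b := Q.mean ht hp y
    have e : Ep p (fun x => P.YB p t x + Q.YB p t x) y = Ep p (P.YB p t) y + Ep p (Q.YB p t) y := by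
      unfold Ep
      rw [Finset.sum_add_distrib, add_div]
    rw [e]
    linarith

/-- the walk sums add up -/
lemma WS_add (P Q : Chg w) : ∀ (n p : ℕ) (t : σ), w.ok p t →
    WS (addC P Q) n p t = WS P n p t + WS Q n p t := by
  intro n
  induction n with
  | zero => intro p t _; show (0:ℝ) = 0 + 0; norm_num
  | succ n ih =>
    intro p t ht
    by_cases hp : p = 0
    · subst hp
      simp [WS]
    · have oC := w.okC ht hp
      have oN := w.okN ht hp
      rw [WS_succ _ n hp, WS_succ _ n hp, WS_succ _ n hp, ih p _ oC, ih (p - 1) _ oN]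
      have e1 : I (fun x => 2 ^ sc w (n + 1) p t x * (addC P Q).yx p t x) =
          I (fun x => 2 ^ sc w (n + 1) p t x * P.yx p t x) +
            I (fun x => 2 ^ sc w (n + 1) p t x * Q.yx p t x) := by
        rw [← I_add (PB_sc (n + 1) ht (P.pyx ht hp)).integrableOn
          (PB_sc (n + 1) ht (Q.pyx ht hp)).integrableOn]
        congr 1
        funext x
        exact mul_add _ _ _
      have e2 : I (fun y => 2 ^ sc w n p (w.C p t) y * (addC P Q).yc p t y) =
          I (fun y => 2 ^ sc w n p (w.C p t) y * P.yc p t y) +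
            I (fun y => 2 ^ sc w n p (w.C p t) y * Q.yc p t y) := by
        rw [← I_add (PB_sc n oC (P.pyc ht hp)).integrableOn
          (PB_sc n oC (Q.pyc ht hp)).integrableOn]
        congr 1
        funext x
        exact mul_add _ _ _
      rw [e1, e2]
      ring

/-! ### second order parts -/

/-- **second order parts** : `rx` at the state (point above), `rc` at the column (point below) -/
structure Sec (w : MS σ) where
  rx : ℕ → σ → ℝ → ℝ
  rc : ℕ → σ → ℝ → ℝ
  prx : ∀ {p t}, w.ok p t → p ≠ 0 → PB (rx p t)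
  prc : ∀ {p t}, w.ok p t → p ≠ 0 → PB (rc p t)

/-- walk sum of the second order parts -/
noncomputable def S2 (S : Sec w) : ℕ → ℕ → σ → ℝ
  | 0, _, _ => 0
  | n + 1, p, t => if p = 0 then 0 else
      I (S.rx p t) + I (S.rc p t) + S2 S n p (w.C p t) + S2 S n (p - 1) (w.N p t)

lemma S2_succ (S : Sec w) (n : ℕ) {p : ℕ} (hp : p ≠ 0) (t : σ) : S2 S (n + 1) p t =
    I (S.rx p t) + I (S.rc p t) + S2 S n p (w.C p t) + S2 S n (p - 1) (w.N p t) := by
  show (if p = 0 then 0 else _) = _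
  rw [if_neg hp]

/-- **the errors are at most the walk sum of the charges and of the second order parts** -/
theorem E_le3 (Q : Chg w) (S : Sec w)
    (hx : ∀ {k p t}, w.ok p t → p ≠ 0 → ∀ y, Ep p (w.ex k p t) y ≤
      4 * Ep p (w.GT p t) y ^ 2 + 2 ^ k * Q.yc p t y + S.rc p t y)
    (hb : ∀ {k p t}, w.ok p t → p ≠ 0 → ∀ x, w.br k p t x ≤ 2 ^ k * Q.yx p t x + S.rx p t x) :
    ∀ (n p : ℕ) (t : σ), w.ok p t →
      ModeS16.E w n p t ≤ 2 * E0 w n p t + 2 * WS Q n p t + 2 * S2 S n p t := by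
  have hd := w.del0
  have L0 := Ld_pos hd
  have b0 : ∀ (p : ℕ) (t : σ), w.ok p t → 0 ≤ 8 / w.del * I (D w 0 t) := fun p t ht =>
    mul_nonneg (by positivity) (I_nonneg fun x => (PB_D w ht 0).nonneg x)
  intro n
  induction n with
  | zero =>
    intro p t ht
    have e1 : ModeS16.E w 0 p t = 8 / w.del * I (D w 0 t) := rfl
    have e2 : E0 w 0 p t = 8 / w.del * I (D w 0 t) := rfl
    have e3 : WS Q 0 p t = 0 := rfl
    have e4 : S2 S 0 p t = 0 := rfl
    have := b0 p t ht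
    rw [e1, e2, e3, e4]
    linarith
  | succ n ih =>
    intro p t ht
    by_cases hp : p = 0
    · subst hp
      have e1 : ModeS16.E w (n + 1) 0 t = 8 / w.del * I (D w 0 t) := by simp [ModeS16.E]
      have e2 : E0 w (n + 1) 0 t = 8 / w.del * I (D w 0 t) := by simp [E0]
      have e3 : WS Q (n + 1) 0 t = 0 := by simp [WS]
      have e4 : S2 S (n + 1) 0 t = 0 := by simp [S2]
      have := b0 0 t ht
      rw [e1, e2, e3, e4]
      linarith
    · have hp0 : 0 < p := Nat.pos_of_ne_zero hp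
      have oC := w.okC ht hp
      have oN := w.okN ht hp
      have i1 := ih p _ oC
      have i2 := ih (p - 1) _ oN
      have e2 : E0 w (n + 1) p t = el0 w p t + E0 w n p (w.C p t) + E0 w n (p - 1) (w.N p t) := by
        show (if p = 0 then _ else _) = _
        rw [if_neg hp]
      rw [ModeS16.E_succ w n hp, e2, WS_succ Q n hp, S2_succ S n hp]
      have pG := PBsq ((w.pGT ht hp).Ep hp0)
      have prx := S.prx ht hp
      have prc := S.prc ht hp
      have a1 : I (exh w n p t) ≤ 4 * I (fun y => Ep p (w.GT p t) y ^ 2) +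
          I (fun y => 2 ^ sc w n p (w.C p t) y * Q.yc p t y) + I (S.rc p t) := by
        have pc := PB_sc n oC (Q.pyc ht hp)
        have p4 := pG.smul (show (0:ℝ) ≤ 4 by norm_num)
        rw [← I_smul, ← I_add p4.integrableOn pc.integrableOn,
          ← I_add (p4.add pc).integrableOn prc.integrableOn]
        refine I_mono (PB_exh n ht hp).integrableOn ((p4.add pc).add prc).integrableOn
          fun y => ?_
        have n0 : 0 ≤ (2:ℝ) ^ sc w n p (w.C p t) y * Q.yc p t y :=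
          mul_nonneg (by positivity) ((Q.pyc ht hp).nonneg y)
        have n1 : 0 ≤ 4 * Ep p (w.GT p t) y ^ 2 := by positivity
        have n2 := prc.nonneg y
        show exh w n p t y ≤ 4 * Ep p (w.GT p t) y ^ 2 +
          2 ^ sc w n p (w.C p t) y * Q.yc p t y + S.rc p t y
        unfold exh on
        split_ifs with h
        · exact hx ht hp y
        · linarith
      have a2 : I (brh w n p t) ≤ I (fun x => 2 ^ sc w (n + 1) p t x * Q.yx p t x) +
          I (S.rx p t) := by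
        have pc := PB_sc (n + 1) ht (Q.pyx ht hp)
        rw [← I_add pc.integrableOn prx.integrableOn]
        refine I_mono (PB_brh n ht hp).integrableOn (pc.add prx).integrableOn fun x => ?_
        have n0 : 0 ≤ (2:ℝ) ^ sc w (n + 1) p t x * Q.yx p t x :=
          mul_nonneg (by positivity) ((Q.pyx ht hp).nonneg x)
        have n2 := prx.nonneg x
        unfold brh on
        split_ifs with h
        · exact hb ht hp x
        · linarith
      have a3 : 0 ≤ (8 / w.del + Ld w.del) * (I (w.jn p t) + I (w.jB p t)) :=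
        mul_nonneg (by positivity) (add_nonneg (I_nonneg fun x => (w.pjn ht hp).nonneg x)
          (I_nonneg fun x => (w.pjB ht hp).nonneg x))
      have a4 : 0 ≤ 8 / w.del * I (DL w 0 p t) :=
        mul_nonneg (by positivity) (I_nonneg fun x => (PB_DL w ht hp 0).nonneg x)
      unfold el el0
      linarith

/-- **the theorem with payments** : linear charges `Q1` of rate `J`, Cauchy-Schwarz charges `Q2`,
second order parts `S` -/
theorem main_pay3 (Q1 Q2 : Chg w) (S : Sec w)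
    (hx : ∀ {k p t}, w.ok p t → p ≠ 0 → ∀ y, Ep p (w.ex k p t) y ≤
      4 * Ep p (w.GT p t) y ^ 2 + 2 ^ k * (Q1.yc p t y + Q2.yc p t y) + S.rc p t y)
    (hb : ∀ {k p t}, w.ok p t → p ≠ 0 → ∀ x,
      w.br k p t x ≤ 2 ^ k * (Q1.yx p t x + Q2.yx p t x) + S.rx p t x)
    {J l : ℝ} (hJ : 0 ≤ J) (hl : 0 < l) (n p : ℕ) (t : σ) (ht : w.ok p t)
    (h : ∀ x, Q1.Y p t x ≤ J * w.T t x) :
    K w n p t ≤ 8 * (w.del * (Ld w.del + J)) * I (fun x => w.T t x ^ 2) +
      2 * (Ld w.del + J) * I (w.T t) + 2 * E0 w n p t + 2 * S2 S n p t +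
      2 * (I (Q2.Y p t) +
        2 * w.del * (l * I (fun x => w.T t x ^ 2) + 1 / l * I (fun x => Q2.Y p t x ^ 2))) := by
  have h1 := main_root (w := w) n p t ht
  have h2 := E_le3 (addC Q1 Q2) S hx hb n p t ht
  have h3 := WS_le_J Q1 hJ n p t ht h
  have h4 := WS_le_cs Q2 hl n p t ht
  rw [WS_add Q1 Q2 n p t ht] at h2
  nlinarith

/-! ### group data -/

section group
open Crest.Agent.R4P.GMer27 Crest.Agent.R4P.GCol27 Crest.Agent.R4P.RSys343
open Crest.Agent.R4P.MSi343 Crest.Agent.R4P.PayR45 Crest.Agent.R4P.MSm25 Crest.Agent.R4P.RXm55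

variable {β δ : Type} [Fintype δ] {R : RXm β δ} {U : RBm R}

/-- second order parts of the groups -/
structure GSec (D : RGx U) where
  rx : ℕ → Gs β → ℝ → ℝ
  rc : ℕ → Gs β → ℝ → ℝ
  prx : ∀ {p s}, D.ok p s → p ≠ 0 → PB (rx p s)
  prc : ∀ {p s}, D.ok p s → p ≠ 0 → PB (rc p s)

/-- walk sum of the second order parts of the groups (does not depend on the scales) -/
noncomputable def Sg {D : RGx U} (S : GSec D) : ℕ → ℕ → Gs β → ℝ
  | 0, _, _ => 0
  | n + 1, p, s => if p = 0 then 0 else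
      I (S.rx p s) + I (S.rc p s) + Sg S n p (R.C p s) + Sg S n (p - 1) (R.N p s)

lemma Sg_succ {D : RGx U} (S : GSec D) (n : ℕ) {p : ℕ} (hp : p ≠ 0) (s : Gs β) :
    Sg S (n + 1) p s =
      I (S.rx p s) + I (S.rc p s) + Sg S n p (R.C p s) + Sg S n (p - 1) (R.N p s) := by
  show (if p = 0 then 0 else _) = _
  rw [if_neg hp]

/-- the second order parts over the walk -/
def GSec.sec {D : RGx U} (S : GSec D) {del : ℝ} {Km : ℕ} (h0 : 0 < del) (h1 : del ≤ 1)
    (hK : del * U.B0 ≤ 2 ^ Km) : Sec (D.ms h0 h1 hK) where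
  rx := fun p t => S.rx p t.2
  rc := fun p t => S.rc p t.2
  prx := fun ht hp => S.prx ht.2 hp
  prc := fun ht hp => S.prc ht.2 hp

lemma S2_eq {D : RGx U} (S : GSec D) {del : ℝ} {Km : ℕ} (h0 : 0 < del) (h1 : del ≤ 1)
    (hK : del * U.B0 ≤ 2 ^ Km) : ∀ (n p : ℕ) (s : Gs β),
    S2 (S.sec h0 h1 hK) n p (p, s) = Sg S n p s := by
  intro n
  induction n with
  | zero => intro p s; rfl
  | succ n ih =>
    intro p s
    by_cases hp : p = 0
    · subst hp
      simp [S2, Sg]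
    · rw [S2_succ _ n hp, Sg_succ S n hp]
      have e3 : S2 (S.sec h0 h1 hK) n p ((D.ms h0 h1 hK).C p (p, s)) =
        S2 (S.sec h0 h1 hK) n p (p, R.C p s) := rfl
      have e4 : S2 (S.sec h0 h1 hK) n (p - 1) ((D.ms h0 h1 hK).N p (p, s)) =
        S2 (S.sec h0 h1 hK) n (p - 1) (p - 1, R.N p s) := rfl
      rw [e3, e4, ih, ih]
      rfl

/-- **payment of the errors of group data** -/
structure GPay (D : RGx U) {del : ℝ} {Km : ℕ} (h0 : 0 < del) (h1 : del ≤ 1)
    (hK : del * U.B0 ≤ 2 ^ Km) where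
  /-- linear charges of bounded rate -/
  Q1 : Chg (D.ms h0 h1 hK)
  /-- linear charges, small in `L²` -/
  Q2 : Chg (D.ms h0 h1 hK)
  /-- second order parts -/
  S : GSec D
  /-- ties: births of the rows, class change of the ties -/
  hc : ∀ {k p s}, D.ok p s → p ≠ 0 → ∀ y,
    14 * (2 ^ k * Ep p (R.e0 (2 ^ k) p s) y) + (Ep p (D.brB (2 ^ k) p s) y +
      14 * (2 ^ k * Ep p (D.asB (2 ^ k) p s) y)) ≤
      2 ^ k * (Q1.yc p (p, s) y + Q2.yc p (p, s) y) + S.rc p s y
  /-- rest: class change of the rest -/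
  hb : ∀ {k p s}, D.ok p s → p ≠ 0 → ∀ x,
    D.br (2 ^ k) p s x + 14 * (2 ^ k * D.as (2 ^ k) p s x) ≤
      2 ^ k * (Q1.yx p (p, s) x + Q2.yx p (p, s) x) + S.rx p s x

/-- **the game with payments** -/
theorem msx_pay3 {ε J : ℝ} (hε : 0 < ε) (hJ : 0 ≤ J) :
    ∃ (del : ℝ) (h0 : 0 < del) (h1 : del ≤ 1) (C : ℝ), 0 ≤ C ∧
    ∀ {β δ : Type} [Fintype δ] {R : RXm β δ} {U : RBm R} (D : RGx U) {rc : ℕ → Gs β → ℝ → ℝ},
      RCost D rc → ∀ {Km : ℕ} (hK : del * U.B0 ≤ 2 ^ Km) (Q : GPay D h0 h1 hK) (n p : ℕ)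
      (s : Gs β), D.ok p s → (∀ x, Q.Q1.Y p (p, s) x ≤ J * su s U.tt x) →
      Kr R rc n p s ≤ ε * I (fun x => su s U.tt x ^ 2) + C * I (su s U.tt) +
        28 * Pay45.E0 (D.ms h0 h1 hK) n p (p, s) + 28 * Sg Q.S n p s +
        C * (I (Q.Q2.Y p (p, s)) + I (fun x => Q.Q2.Y p (p, s) x ^ 2)) := by
  obtain ⟨del, h0, h1, h2⟩ := exists_delJ (ε := ε / 28) (J := J) (by positivity) hJ
  have L0 := ModeR16.Ld_pos h0
  -- the parameter of the Cauchy-Schwarz form
  obtain ⟨l, hl, hl2⟩ : ∃ l : ℝ, 0 < l ∧ 56 * del * l ≤ ε / 2 :=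
    ⟨ε / (2 * (56 * del)), by positivity, le_of_eq (by field_simp)⟩
  refine ⟨del, h0, h1, 28 * (ModeR16.Ld del + J) + 28 + 56 * del * (1 / l), by positivity, ?_⟩
  intro β δ _ R U D rc hr Km hK Q n p s hs hY
  have hxx : ∀ {k p : ℕ} {t : ℕ × Gs β}, (D.ms h0 h1 hK).ok p t → p ≠ 0 → ∀ y,
      Ep p ((D.ms h0 h1 hK).ex k p t) y ≤
      4 * Ep p ((D.ms h0 h1 hK).GT p t) y ^ 2 + 2 ^ k * (Q.Q1.yc p t y + Q.Q2.yc p t y) +
        (Q.S.sec h0 h1 hK).rc p t y := by
    intro k p t ht hp y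
    have hp0 : 0 < p := Nat.pos_of_ne_zero hp
    obtain ⟨q, s⟩ := t
    have hq : q = p := ht.1
    subst hq
    have a1 := RXm.ex_le (two_pos' k) (D.gk ht.2) hp y
    have a2 := Q.hc (k := k) ht.2 hp y
    have b1 : Ep q ((D.ms h0 h1 hK).ex k q (q, s)) y = Ep q (R.ex (2 ^ k) q s) y +
        (Ep q (D.brB (2 ^ k) q s) y + 14 * (2 ^ k * Ep q (D.asB (2 ^ k) q s) y)) := by
      show Ep q (fun x => R.ex (2 ^ k) q s x + (D.brB (2 ^ k) q s x +
        14 * (2 ^ k * D.asB (2 ^ k) q s x))) y = _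
      unfold Ep
      rw [Finset.sum_add_distrib, Finset.sum_add_distrib, ← Finset.mul_sum, ← Finset.mul_sum]
      ring
    rw [b1]
    have hs' := D.gk ht.2
    have c1 : Ep q (R.GT q s) y ≤ Ep q ((D.ms h0 h1 hK).GT q (q, s)) y := by
      unfold Ep
      refine div_le_div_of_nonneg_right (Finset.sum_le_sum fun i _ => ?_) (Nat.cast_nonneg q)
      show R.GT q s _ ≤ R.GT q s _ + su s (U.gU q) _
      have := (PB_su hs'.1 fun j => U.pgU (hs'.2 j) hp).nonneg ((y + (i:ℝ)) / q)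
      linarith
    have c2 : 0 ≤ Ep q (R.GT q s) y := ((RXm.PB_GT hs' hp).Ep hp0).nonneg y
    have c3 := pow_le_pow_left₀ c2 c1 2
    have c4 : 0 ≤ Ep q (R.GT q s) y ^ 2 := by positivity
    have c5 : (Q.S.sec h0 h1 hK).rc q (q, s) y = Q.S.rc q s y := rfl
    rw [c5]
    linarith
  have hbb : ∀ {k p : ℕ} {t : ℕ × Gs β}, (D.ms h0 h1 hK).ok p t → p ≠ 0 → ∀ x,
      (D.ms h0 h1 hK).br k p t x ≤ 2 ^ k * (Q.Q1.yx p t x + Q.Q2.yx p t x) +
        (Q.S.sec h0 h1 hK).rx p t x := by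
    intro k p t ht hp x
    obtain ⟨q, s⟩ := t
    have hq : q = p := ht.1
    subst hq
    exact Q.hb (k := k) ht.2 hp x
  have h := main_pay3 (w := D.ms h0 h1 hK) Q.Q1 Q.Q2 (Q.S.sec h0 h1 hK) hxx hbb hJ hl n p (p, s)
    ⟨rfl, hs⟩ hY
  have e1 : (D.ms h0 h1 hK).T (p, s) = su s U.tt := rfl
  have e2 : (D.ms h0 h1 hK).del = del := rfl
  rw [e1, e2, S2_eq] at h
  have h3 : 0 ≤ I (fun x => su s U.tt x ^ 2) := I_nonneg fun x => sq_nonneg _
  have h4 := mul_le_mul_of_nonneg_right h2 h3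
  have h5 := Kr_le D hr h0 h1 hK n p s hs
  have hs' := D.gk hs
  have h6 : 0 ≤ I (su s U.tt) := I_nonneg fun x => (U.PB_tt hs').nonneg x
  have hok : (D.ms h0 h1 hK).ok p (p, s) := ⟨rfl, hs⟩
  have h7 : 0 ≤ I (Q.Q2.Y p (p, s)) := I_nonneg fun x => (Q.Q2.pY hok).nonneg x
  have h8 : 0 ≤ I (fun x => Q.Q2.Y p (p, s) x ^ 2) := I_nonneg fun x => sq_nonneg _
  have h9 := mul_le_mul_of_nonneg_right hl2 h3
  set A := I (fun x => su s U.tt x ^ 2)
  set B := I (su s U.tt)
  set Y1 := I (Q.Q2.Y p (p, s))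
  set Y2 := I (fun x => Q.Q2.Y p (p, s) x ^ 2)
  have n1 : 0 ≤ 56 * del * (1 / l) := by positivity
  have n2 : 0 ≤ 28 * (ModeR16.Ld del + J) := by positivity
  have k1 := mul_nonneg n1 h6
  have k2 := mul_nonneg n1 h7
  have k3 := mul_nonneg n2 h7
  have k4 := mul_nonneg n2 h8
  have e3 : 14 * (2 * (Y1 + 2 * del * (l * A + 1 / l * Y2))) =
      28 * Y1 + 56 * del * l * A + 56 * del * (1 / l) * Y2 := by ring
  nlinarith

/-- **charges of the bundles** with second order parts of the groups -/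
structure BPay3 (D : RGx U) (Q1 Q2 : BCh (bm R)) (S : GSec D) : Prop where
  /-- ties: births of the rows, class change of the ties -/
  hc : ∀ {k : ℕ} {p s}, D.ok p s → p ≠ 0 → ∀ y,
    14 * (2 ^ k * Ep p (R.e0 (2 ^ k) p s) y) + (Ep p (D.brB (2 ^ k) p s) y +
      14 * (2 ^ k * Ep p (D.asB (2 ^ k) p s) y)) ≤
      2 ^ k * (su s (Q1.yc p) y + su s (Q2.yc p) y) + S.rc p s y
  /-- rest: class change of the rest -/
  hb : ∀ {k : ℕ} {p s}, D.ok p s → p ≠ 0 → ∀ x,
    D.br (2 ^ k) p s x + 14 * (2 ^ k * D.as (2 ^ k) p s x) ≤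
      2 ^ k * (su s (Q1.yx p) x + su s (Q2.yx p) x) + S.rx p s x

/-- **the game with payments by the bundles** -/
theorem msx_pay3B {ε J : ℝ} (hε : 0 < ε) (hJ : 0 ≤ J) :
    ∃ (del : ℝ) (h0 : 0 < del) (h1 : del ≤ 1) (C : ℝ), 0 ≤ C ∧
    ∀ {β δ : Type} [Fintype δ] {R : RXm β δ} {U : RBm R} (D : RGx U) {rc : ℕ → Gs β → ℝ → ℝ},
      RCost D rc → ∀ {Q1 Q2 : BCh (bm R)} {S : GSec D}, BPay3 D Q1 Q2 S →
      (∀ {p b}, R.ok p b → ∀ x, Q1.Y p b x ≤ J * U.tt b x) →
      ∀ {Km : ℕ} (hK : del * U.B0 ≤ 2 ^ Km) (n p : ℕ) (s : Gs β), D.ok p s →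
      Kr R rc n p s ≤ ε * I (fun x => su s U.tt x ^ 2) + C * I (su s U.tt) +
        28 * Pay45.E0 (D.ms h0 h1 hK) n p (p, s) + 28 * Sg S n p s +
        C * (I (su s (Q2.Y p)) + I (fun x => su s (Q2.Y p) x ^ 2)) := by
  obtain ⟨del, h0, h1, C, hC, H⟩ := msx_pay3 hε hJ
  refine ⟨del, h0, h1, C, hC, ?_⟩
  intro β δ _ R U D rc hr Q1 Q2 S hQ hY Km hK n p s hs
  refine H D hr hK ⟨Q1.chg (ovr D h0 h1 hK), Q2.chg (ovr D h0 h1 hK), S,
    fun hs hp y => hQ.hc hs hp y, fun hs hp x => hQ.hb hs hp x⟩ n p s hs fun x => ?_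
  show su s (Q1.Y p) x ≤ J * su s U.tt x
  unfold su
  rw [← M_smul]
  exact M_mono (D.gk hs).1.c0 fun j => hY ((D.gk hs).2 j) x

end group

end Crest.Agent.R4P.Pay349
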