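import Crest.Agent.R4P.RGp_25
import Crest.Agent.R4P.Pay3_49
import Crest.Agent.R4P.PVe_45
import Crest.Agent.R4P.GSK_55
import Crest.Agent.R4P.PMr_49

/-!
R4 (S0004) with powers, T3, helper49, helper407: **prices of the class changes by pieces** (over
`RGp_25`), dual potential of helper35 (`PMr_49`, `Chg_15`).

* `PM7_L2z` … : the `L²` form of the prices of births with a parameter `θ z` for every class.
* `PrG` : the price property of a class change at a point (potential of the new classes of the same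
  pieces, losses of the truncations); **`Pod`** : pieces which leave pay `14`; the flows outside `Ev` are a
  partial bijection of the classes; a piece of a changing flow `Ev` pays `Cr0 (θ + weight of the members with
  Lt)`, second order part `Cr0 / θ (Ein + Ecr)`: separated pairs of one member, joined pairs of two members
  (one of them changes, without the members `Lt`). **`Pod.prg`**.
* `Prc P` : group states, rates `cN`, `cB` of the pieces (function of bundle, piece, point), second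
  order parts `xN`, `xB`. **`Prc.fg : FlG`, `Prc.rg : RGx U`, `Prc.sec : GSec`, `Prc.pay : BPay3`**.
  The losses of the truncations are paid by the pair energies (second order).
* `Prc.pay_cr` : the same with the credits `Cr` of helper45.
-/

set_option autoImplicit false
set_option linter.unusedSectionVars false
set_option linter.unusedVariables false
open MeasureTheory Filter Set

namespace Crest.Agent.R4P.Prc49

open Crest.Agent.R4.Tour104 Crest.Agent.R4.Clos758
open Crest.Agent.R4P.GMer27 Crest.Agent.R4P.GCol27 Crest.Agent.R4P.RSys343 Crest.Agent.R4P.TrR343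
open Crest.Agent.R4P.RXs343 Crest.Agent.R4P.RXm55 Crest.Agent.R4P.RXm55.RXm
open Crest.Agent.R4P.RXj343.RX (sm2 q2)
open Crest.Agent.R4P.MSi343 (su su_add two_pos')
open Crest.Agent.R4P.ModeP940 Crest.Agent.R4P.MisR16 Crest.Agent.R4P.Mism16
open Crest.Agent.R4P.MvP25 Crest.Agent.R4P.PMs49 Crest.Agent.R4P.MSm25 Crest.Agent.R4P.ZetaL237
open Crest.Agent.R4P.RGf25 Crest.Agent.R4P.RGp25 Crest.Agent.R4P.Pay349 Crest.Agent.R4P.DTp26
open Crest.Agent.R4P.PayR45 (BM BCh PV)
open Crest.Agent.R4P.PVe45 (Cr)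
open Crest.Agent.R4P.GSK55 (Kw Kw_succ)
open Crest.Agent.R4P.PMr49

/-! ### the `L²` form with a parameter for every class -/

section single
variable {J ζ : Type*} [Fintype J] [Fintype ζ] {c : J → ℝ} {W : Set (J → ℝ)} {σ : ℝ}

/-- families, scale `1` -/
theorem PM_L2z (H : TC c W) {h x : ζ → J → ℝ} (hh : ∀ z j, 0 ≤ h z j) (hx : ∀ z j, 0 ≤ x z j)
    {θ : ζ → ℝ} (hθ : ∀ z, 0 < θ z) :
    PM c W (fun z j => h z j + x z j) ≤ PM c W h +
      56 * ∑ z, (θ z * M c (x z) + KK c (x z) (fun j => h z j + x z j) / θ z) := by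
  have k1 : ModeK49.PK c W (fun z j => h z j + x z j) ≤
      ModeK49.PK c W h + 14 * ∑ z, (θ z * M c (x z) + KK c (x z) (fun j => h z j + x z j) / θ z) := by
    unfold ModeK49.PK
    rw [Finset.mul_sum, ← Finset.sum_add_distrib]
    exact Finset.sum_le_sum fun z _ => PN_L2 H (hh z) (hx z) (hθ z)
  have k2 : TT c (fun z j => h z j + x z j) ≤
      TT c h + 3 / 4 * ∑ z, (θ z * M c (x z) + KK c (x z) (fun j => h z j + x z j) / θ z) := by
    unfold TT
    rw [Finset.mul_sum, ← Finset.sum_add_distrib]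
    refine Finset.sum_le_sum fun z _ => ?_
    have e : M c (fun j => th (h z j + x z j)) ≤ M c (fun j => th (h z j) +
        3 / 4 * (θ z * x z j + x z j * (h z j + x z j) / θ z)) :=
      M_mono H.c0 fun j => th_L2 (hh z j) (hx z j) (hθ z)
    refine e.trans (le_of_eq_of_le (M_add _ _) ?_)
    refine add_le_add le_rfl ?_
    rw [M_smul]
    apply mul_le_mul_of_nonneg_left _ (by norm_num)
    have e2 : M c (fun j => θ z * x z j + x z j * (h z j + x z j) / θ z) =
        θ z * M c (x z) + M c (fun j => x z j * (h z j + x z j)) / θ z := by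
      rw [M_add, M_smul]
      congr 1
      have e3 : (fun j => x z j * (h z j + x z j) / θ z) =
          fun j => 1 / θ z * (x z j * (h z j + x z j)) := funext fun j => by ring
      rw [e3, M_smul]
      ring
    rw [e2]
    have e4 := M_cs H.c0 (x z) (fun j => h z j + x z j)
    exact add_le_add le_rfl (div_le_div_of_nonneg_right e4 (hθ z).le)
  unfold PM
  linarith

/-- families at the scale `σ` -/
theorem PMs_L2z (H : TC c W) (hσ : 0 < σ) {f g : ζ → J → ℝ} (hf : ∀ z j, 0 ≤ f z j)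
    (hg : ∀ z j, 0 ≤ g z j) {θ : ζ → ℝ} (hθ : ∀ z, 0 < θ z) :
    PMs σ c W (fun z j => f z j + g z j) ≤ PMs σ c W f +
      56 * ∑ z, (θ z * σ * M c (g z) + KK c (g z) (fun j => f z j + g z j) / θ z) := by
  have h := PM_L2z H (h := fun z j => f z j / σ) (x := fun z j => g z j / σ)
    (fun z j => div_nonneg (hf z j) hσ.le) (fun z j => div_nonneg (hg z j) hσ.le) hθ
  have h2 := mul_le_mul_of_nonneg_left h (sq_nonneg σ)
  have e : σ ^ 2 * (PM c W (fun z j => f z j / σ) +
      56 * ∑ z, (θ z * M c (fun j => g z j / σ) +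
        KK c (fun j => g z j / σ) (fun j => f z j / σ + g z j / σ) / θ z)) =
      PMs σ c W f +
      56 * ∑ z, (θ z * σ * M c (g z) + KK c (g z) (fun j => f z j + g z j) / θ z) := by
    rw [mul_add]
    congr 1
    rw [mul_left_comm, Finset.mul_sum]
    congr 1
    refine Finset.sum_congr rfl fun z _ => ?_
    have hz := hθ z
    have e0 : (fun j => g z j / σ) = fun j => 1 / σ * g z j := funext fun j => by ring
    have e1 : M c (fun j => g z j / σ) = M c (g z) / σ := by
      rw [e0, M_smul]; ring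
    have e2 : KK c (fun j => g z j / σ) (fun j => f z j / σ + g z j / σ) =
        KK c (g z) (fun j => f z j + g z j) / σ ^ 2 := by
      have e3 : (fun j => f z j / σ + g z j / σ) = fun j => 1 / σ * (f z j + g z j) :=
        funext fun j => by ring
      rw [e0, e3, KK_smul (by positivity) (by positivity)]
      field_simp
    rw [e1, e2]
    field_simp
  have e2 : (fun z j => (f z j + g z j) / σ) = fun z j => f z j / σ + g z j / σ :=
    funext fun z => funext fun j => add_div _ _ _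
  rw [e] at h2
  show σ ^ 2 * PM c W (fun z j => (f z j + g z j) / σ) ≤ _
  rw [e2]
  exact h2

/-- **the price of `g` is `8 Σ_z (θ_z σ M g_z + √(M g_z²) √(M (f+g)_z²) / θ_z)`** -/
theorem PM7_L2z (H : TC c W) (hσ : 0 < σ) {f g : ζ → J → ℝ} (hf : ∀ z j, 0 ≤ f z j)
    (hg : ∀ z j, 0 ≤ g z j) {θ : ζ → ℝ} (hθ : ∀ z, 0 < θ z) :
    PM7 σ c W (fun z j => f z j + g z j) ≤ PM7 σ c W f +
      8 * ∑ z, (θ z * σ * M c (g z) + KK c (g z) (fun j => f z j + g z j) / θ z) := by
  have h := PMs_L2z H hσ hf hg hθ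
  unfold PM7
  linarith

/-- content `e` moves: new family `g ≤ f + e` -/
theorem PM7_L2z_move (H : TC c W) (hσ : 0 < σ) {f g e : ζ → J → ℝ} (hf : ∀ z j, 0 ≤ f z j)
    (hg : ∀ z j, 0 ≤ g z j) (he : ∀ z j, 0 ≤ e z j) (h1 : ∀ z j, g z j ≤ f z j + e z j)
    (f1 : ∀ z j, f z j ≤ σ) {θ : ζ → ℝ} (hθ : ∀ z, 0 < θ z) :
    PM7 σ c W g ≤ PM7 σ c W f +
      8 * ∑ z, (θ z * σ * M c (e z) + KK c (e z) (g z) / θ z) := by
  let m : ζ → J → ℝ := fun z j => min (g z j) (f z j)
  let r : ζ → J → ℝ := fun z j => g z j - m z j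
  have m0 : ∀ z j, 0 ≤ m z j := fun z j => le_min (hg z j) (hf z j)
  have r0 : ∀ z j, 0 ≤ r z j := fun z j => sub_nonneg.2 (min_le_left _ _)
  have re : ∀ z j, r z j ≤ e z j := fun z j => by
    show g z j - min (g z j) (f z j) ≤ e z j
    rcases le_total (g z j) (f z j) with h | h
    · rw [min_eq_left h, sub_self]; exact he z j
    · rw [min_eq_right h]; linarith [h1 z j]
  have k := PM7_L2z H hσ m0 r0 hθ
  have e1 : (fun z j => m z j + r z j) = g := funext fun z => funext fun j => by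
    show m z j + (g z j - m z j) = _; ring
  have e2 : ∀ z, (fun j => m z j + r z j) = g z := fun z => funext fun j => by
    show m z j + (g z j - m z j) = _; ring
  rw [e1] at k
  simp only [e2] at k
  have k2 : PM7 σ c W m ≤ PM7 σ c W f :=
    PM7_mono H hσ m0 (fun z j => min_le_right _ _) f1
  have k3 : ∑ z, (θ z * σ * M c (r z) + KK c (r z) (g z) / θ z) ≤
      ∑ z, (θ z * σ * M c (e z) + KK c (e z) (g z) / θ z) :=
    Finset.sum_le_sum fun z _ => add_le_add
      (mul_le_mul_of_nonneg_left (M_mono H.c0 (re z)) (mul_nonneg (hθ z).le hσ.le))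
      (div_le_div_of_nonneg_right (KK_mono H.c0 (r0 z) (hg z) (re z) fun j => le_rfl) (hθ z).le)
  linarith

end single

/-! ### prices of the groups -/

section grp
variable {β δ Λ : Type} [Fintype δ] [DecidableEq δ] [Fintype Λ]

/-- constant of the class changes -/
noncomputable def Cr0 : ℝ := 19

/-- flows of a class change of a state at a point -/
noncomputable def flw (s : Gs β) (k k' : β → ℝ → Λ → Option δ) (V : β → Λ → ℝ → ℝ) (x : ℝ)
    (z z' : δ) (j : s.J) : ℝ := fh (k (s.L j)) (k' (s.L j)) (V (s.L j)) z z' x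

/-- **the price property** of a class change at a point (`h` = contents of the pieces by the old
classes, pieces may leave): the potential of the new classes of the same pieces, truncation losses -/
def PrG (s : Gs β) (k k' : β → ℝ → Λ → Option δ) (V c : β → Λ → ℝ → ℝ) (h : β → δ → ℝ → ℝ) (X : ℝ)
    (x : ℝ) : Prop :=
  TC s.c s.W → (∀ j i, 0 ≤ V (s.L j) i x) → (∀ j i, 0 ≤ c (s.L j) i x) →
    (∀ j z, hz (k (s.L j)) (V (s.L j)) (some z) x = h (s.L j) z x) →
    ∀ σ : ℝ, 0 < σ → PM7 σ s.c s.W (fun z j => min (h (s.L j) z x) σ) ≤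
      PM7 σ s.c s.W (fun z' j => min (∑ z, flw s k k' V x z z' j) σ) +
      14 * (σ * (SS s.c (fun z j => min (h (s.L j) z x) σ) +
        M s.c (Lx σ (flw s k k' V x) fun z j => h (s.L j) z x) +
        (SS s.c (fun z' j => ∑ z, flw s k k' V x z z' j) - SS s.c (fun z j => h (s.L j) z x)) -
        SS s.c (fun z' j => min (∑ z, flw s k k' V x z z' j) σ))) +
      (σ * su s (fun b x => ∑ i, c b i x * V b i x) x + X)

variable {s : Gs β} {k k' : β → ℝ → Λ → Option δ} {V c : β → Λ → ℝ → ℝ} {h : β → δ → ℝ → ℝ}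
  {X x : ℝ}

/-- weaker second order part -/
lemma PrG.mono (P : PrG s k k' V c h X x) {Y : ℝ} (hX : X ≤ Y) : PrG s k k' V c h Y x := by
  intro H hV hc hh σ hσ
  have := P H hV hc hh σ hσ
  linarith

/-- larger rates -/
lemma PrG.mono_c (P : PrG s k k' V c h X x) {c' : β → Λ → ℝ → ℝ}
    (hc0 : ∀ j i, 0 ≤ c (s.L j) i x)
    (hcc : ∀ j i, V (s.L j) i x ≠ 0 → c (s.L j) i x ≤ c' (s.L j) i x) :
    PrG s k k' V c' h X x := by
  intro H hV hc hh σ hσ
  have hr := P H hV hc0 hh σ hσ
  refine hr.trans ?_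
  have : su s (fun b x => ∑ i, c b i x * V b i x) x ≤
      su s (fun b x => ∑ i, c' b i x * V b i x) x := by
    refine M_mono H.c0 fun j => ?_
    refine Finset.sum_le_sum fun i _ => ?_
    by_cases h0 : V (s.L j) i x = 0
    · rw [h0]; simp
    · exact mul_le_mul_of_nonneg_right (hcc j i h0) (hV j i)
  have := mul_le_mul_of_nonneg_left this hσ.le
  linarith

/-- pairs of pieces of one member which are separated -/
noncomputable def Ein (s : Gs β) (k k' : β → ℝ → Λ → Option δ) (V : β → Λ → ℝ → ℝ) (x : ℝ) : ℝ :=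
  M s.c fun j => ∑ z, ((∑ z', flw s k k' V x z z' j) ^ 2 - ∑ z', flw s k k' V x z z' j ^ 2)

open Classical in
/-- value of a function of the two classes on the changing flows -/
noncomputable def gE (Ev : δ → δ → Prop) (g : δ → δ → ℝ) : Option δ → Option δ → ℝ
  | some z, some z' => if Ev z z' then g z z' else 0
  | _, _ => 0

open Classical in
/-- mates of a piece: the same new class, another old class -/
noncomputable def Ym (k k' : Λ → Option δ) (V : Λ → ℝ) (z z' : δ) : ℝ :=
  ∑ i, if k' i = some z' ∧ k i ≠ none ∧ k i ≠ some z then V i else 0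

open Classical in
/-- **pairs of pieces of two members which are joined** (the first one changes), without the pairs `Lt` -/
noncomputable def Ecr (s : Gs β) (k k' : β → ℝ → Λ → Option δ) (V : β → Λ → ℝ → ℝ)
    (Ev : δ → δ → Prop) (Lt : s.J → Λ → s.J → Prop) (x : ℝ) : ℝ :=
  ∑ j, ∑ j', if j = j' then 0 else s.c j * s.c j' * ∑ i, if Lt j i j' then 0 else
    gE Ev (fun z z' => Ym (k (s.L j') x) (k' (s.L j') x) (fun i => V (s.L j') i x) z z')
      (k (s.L j) x i) (k' (s.L j) x i) * V (s.L j) i x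

open Classical in
/-- **rates and second order part of a class change at a point** (`k`, `k'` old and new classes of the
pieces, `V` contents, `c` rates, `X` second order part): pieces which leave pay `14`, pieces of the
changing flows `Ev` pay `Cr0 (θ + weight of the members with Lt)`; the other flows are a partial
bijection of the classes -/
def Pod (s : Gs β) (k k' : β → ℝ → Λ → Option δ) (V c : β → Λ → ℝ → ℝ) (X : ℝ) (x : ℝ) : Prop :=
  ∃ (Ev : δ → δ → Prop) (θ : ℝ) (Lt : s.J → Λ → s.J → Prop), 0 < θ ∧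
    (∀ z a b j i j' i', ¬ Ev z a → ¬ Ev z b → V (s.L j) i x ≠ 0 → k (s.L j) x i = some z →
      k' (s.L j) x i = some a → V (s.L j') i' x ≠ 0 → k (s.L j') x i' = some z →
      k' (s.L j') x i' = some b → a = b) ∧
    (∀ z z₁ a j i j' i', ¬ Ev z a → ¬ Ev z₁ a → V (s.L j) i x ≠ 0 → k (s.L j) x i = some z →
      k' (s.L j) x i = some a → V (s.L j') i' x ≠ 0 → k (s.L j') x i' = some z₁ →
      k' (s.L j') x i' = some a → z = z₁) ∧
    (∀ j i z, V (s.L j) i x ≠ 0 → k (s.L j) x i = some z → k' (s.L j) x i = none →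
      14 ≤ c (s.L j) i x) ∧
    (∀ j i z a, V (s.L j) i x ≠ 0 → k (s.L j) x i = some z → k' (s.L j) x i = some a → Ev z a →
      Cr0 * (θ + ∑ j', if Lt j i j' then s.c j' else 0) ≤ c (s.L j) i x) ∧
    Cr0 / θ * (Ein s k k' V x + Ecr s k k' V Ev Lt x) ≤ X

lemma flw_ne {z z' : δ} (h0 : flw s k k' V x z z' ≠ 0) : ∃ j i, V (s.L j) i x ≠ 0 ∧
    k (s.L j) x i = some z ∧ k' (s.L j) x i = some z' := by
  obtain ⟨j, hj⟩ := Function.ne_iff.1 h0
  have h1 : fh (k (s.L j)) (k' (s.L j)) (V (s.L j)) z z' x ≠ 0 := hj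
  rw [fh_eq] at h1
  obtain ⟨i, -, hi⟩ := Finset.exists_ne_zero_of_sum_ne_zero h1
  refine ⟨j, i, ?_⟩
  by_cases h2 : k (s.L j) x i = some z ∧ k' (s.L j) x i = some z'
  · rw [if_pos h2] at hi
    exact ⟨hi, h2.1, h2.2⟩
  · rw [if_neg h2] at hi
    exact absurd rfl hi

lemma gE_pos {Ev : δ → δ → Prop} {g : δ → δ → ℝ} {z z' : δ} (h : Ev z z') :
    gE Ev g (some z) (some z') = g z z' := if_pos h

lemma gE_neg {Ev : δ → δ → Prop} {g : δ → δ → ℝ} {z z' : δ} (h : ¬ Ev z z') :
    gE Ev g (some z) (some z') = 0 := if_neg h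

lemma sum_gE {k k' : ℝ → Λ → Option δ} {V : Λ → ℝ → ℝ} {x : ℝ} (Ev : δ → δ → Prop)
    [∀ z z', Decidable (Ev z z')] (g : δ → δ → ℝ) :
    ∑ z, ∑ z', (if Ev z z' then fh k k' V z z' x * g z z' else 0) =
      ∑ i, gE Ev g (k x i) (k' x i) * V i x := by
  classical
  have c1 : ∀ z z', (if Ev z z' then fh k k' V z z' x * g z z' else 0) =
      ∑ i, if k x i = some z then (if k' x i = some z' then (if Ev z z' then g z z' * V i x else 0)
        else 0) else 0 := fun z z' => by
    by_cases he : Ev z z'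
    · rw [if_pos he, fh_eq, Finset.sum_mul]
      refine Finset.sum_congr rfl fun i _ => ?_
      by_cases e1 : k x i = some z
      · by_cases e2 : k' x i = some z'
        · simp [e1, e2, he, mul_comm]
        · simp [e1, e2]
      · simp [e1]
    · simp [he]
  simp only [c1]
  have c2 : ∀ z, ∑ z', ∑ i, (if k x i = some z then (if k' x i = some z' then
      (if Ev z z' then g z z' * V i x else 0) else 0) else 0) = ∑ i, ∑ z', (if k x i = some z then
      (if k' x i = some z' then (if Ev z z' then g z z' * V i x else 0) else 0) else 0) :=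
    fun z => Finset.sum_comm
  simp only [c2]
  rw [Finset.sum_comm]
  refine Finset.sum_congr rfl fun i _ => ?_
  rcases h1 : k x i with _ | a
  · simp [gE]
  rcases h2 : k' x i with _ | a'
  · simp [gE]
  have c3 : ∀ z, ∑ z', (if some a = some z then (if some a' = some z' then
      (if Ev z z' then g z z' * V i x else 0) else 0) else 0) =
      if a = z then (if Ev z a' then g z a' * V i x else 0) else 0 := fun z => by
    by_cases e1 : a = z
    · simp [e1]
    · simp [e1]
  simp only [c3]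
  rw [Finset.sum_ite_eq, if_pos (Finset.mem_univ _)]
  by_cases he : Ev a a'
  · rw [if_pos he, gE_pos he]
  · rw [if_neg he, gE_neg he, zero_mul]

lemma gE_mono {Ev : δ → δ → Prop} {g g' : δ → δ → ℝ} {a b : Option δ}
    (h : ∀ z z', a = some z → b = some z' → Ev z z' → g z z' ≤ g' z z') :
    gE Ev g a b ≤ gE Ev g' a b := by
  rcases a with _ | z
  · exact le_rfl
  rcases b with _ | z'
  · exact le_rfl
  by_cases he : Ev z z'
  · rw [gE_pos he, gE_pos he]
    exact h z z' rfl rfl he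
  · rw [gE_neg he, gE_neg he]

lemma gE_nonneg {Ev : δ → δ → Prop} {g : δ → δ → ℝ} {a b : Option δ}
    (h : ∀ z z', a = some z → b = some z' → Ev z z' → 0 ≤ g z z') : 0 ≤ gE Ev g a b := by
  rcases a with _ | z
  · exact le_rfl
  rcases b with _ | z'
  · exact le_rfl
  by_cases he : Ev z z'
  · rw [gE_pos he]
    exact h z z' rfl rfl he
  · rw [gE_neg he]

lemma gE_add (Ev : δ → δ → Prop) (g g' : δ → δ → ℝ) (a b : Option δ) :
    gE Ev (fun z z' => g z z' + g' z z') a b = gE Ev g a b + gE Ev g' a b := by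
  rcases a with _ | z
  · show (0:ℝ) = 0 + 0; ring
  rcases b with _ | z'
  · show (0:ℝ) = 0 + 0; ring
  by_cases he : Ev z z'
  · rw [gE_pos he, gE_pos he, gE_pos he]
  · rw [gE_neg he, gE_neg he, gE_neg he, add_zero]

lemma gE_smul (Ev : δ → δ → Prop) (r : ℝ) (g : δ → δ → ℝ) (a b : Option δ) :
    gE Ev (fun z z' => r * g z z') a b = r * gE Ev g a b := by
  rcases a with _ | z
  · show (0:ℝ) = r * 0; ring
  rcases b with _ | z'
  · show (0:ℝ) = r * 0; ring
  by_cases he : Ev z z'
  · rw [gE_pos he, gE_pos he]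
  · rw [gE_neg he, gE_neg he, mul_zero]

/-- `√σ √(min σ Y) ≤ (θ σ + Y / θ) / 2` -/
lemma rt_th {σ Y θ : ℝ} (hσ : 0 < σ) (hY : 0 ≤ Y) (hθ : 0 < θ) :
    Real.sqrt σ * Real.sqrt (min σ Y) ≤ (θ * σ + Y / θ) / 2 := by
  have h1 : Real.sqrt (min σ Y) ≤ Real.sqrt Y := Real.sqrt_le_sqrt (min_le_right _ _)
  have h2 : Real.sqrt σ * Real.sqrt (min σ Y) ≤ Real.sqrt σ * Real.sqrt Y :=
    mul_le_mul_of_nonneg_left h1 (Real.sqrt_nonneg _)
  refine h2.trans ?_
  have e1 := Real.sq_sqrt (show 0 ≤ θ * σ by positivity)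
  have e2 := Real.sq_sqrt (show 0 ≤ Y / θ by positivity)
  have e3 : Real.sqrt (θ * σ) * Real.sqrt (Y / θ) = Real.sqrt σ * Real.sqrt Y := by
    rw [← Real.sqrt_mul (by positivity), ← Real.sqrt_mul hσ.le]
    congr 1
    field_simp
  have h3 := sq_nonneg (Real.sqrt (θ * σ) - Real.sqrt (Y / θ))
  nlinarith

/-- `√σ √(min σ Y) ≤ σ` -/
lemma rt_one {σ Y : ℝ} (hσ : 0 < σ) : Real.sqrt σ * Real.sqrt (min σ Y) ≤ σ := by
  have h1 : Real.sqrt (min σ Y) ≤ Real.sqrt σ := Real.sqrt_le_sqrt (min_le_left _ _)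
  have h2 := mul_le_mul_of_nonneg_left h1 (Real.sqrt_nonneg σ)
  rwa [Real.mul_self_sqrt hσ.le] at h2


/-- the mates by classes -/
lemma Ym_eq {s : Gs β} {k k' : β → ℝ → Λ → Option δ} {V : β → Λ → ℝ → ℝ} {x : ℝ} (j : s.J)
    (z z' : δ) : ∑ w ∈ Finset.univ.filter (fun w => w ≠ z), flw s k k' V x w z' j =
      Ym (k (s.L j) x) (k' (s.L j) x) (fun i => V (s.L j) i x) z z' := by
  classical
  unfold Ym flw
  simp only [fh_eq]
  rw [Finset.sum_comm]
  refine Finset.sum_congr rfl fun i _ => ?_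
  by_cases h1 : k' (s.L j) x i = some z'
  · simp only [h1, and_true, true_and]
    rcases h2 : k (s.L j) x i with _ | a
    · simp
    · rw [Finset.sum_filter]
      have e : ∀ w, (if w ≠ z then (if some a = some w then V (s.L j) i x else 0) else 0) =
          if a = w then (if a ≠ z then V (s.L j) i x else 0) else 0 := fun w => by
        by_cases h : a = w
        · subst h; simp
        · simp [h]
      simp only [e]
      rw [Finset.sum_ite_eq, if_pos (Finset.mem_univ _)]
      simp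
  · simp [h1]

lemma Ym_eq' {s : Gs β} {k k' : β → ℝ → Λ → Option δ} {V : β → Λ → ℝ → ℝ} {x : ℝ} (j : s.J)
    (z z' : δ) : ∑ w, flw s k k' V x w z' j - flw s k k' V x z z' j =
      Ym (k (s.L j) x) (k' (s.L j) x) (fun i => V (s.L j) i x) z z' := by
  rw [← Ym_eq j z z']
  have h := Finset.sum_filter_add_sum_filter_not Finset.univ (fun w => w ≠ z)
    fun w => flw s k k' V x w z' j
  have e : ∑ w ∈ Finset.univ.filter (fun w => ¬ w ≠ z), flw s k k' V x w z' j =
      flw s k k' V x z z' j := by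
    rw [Finset.sum_filter]
    simp
  linarith

lemma Ym_nonneg {k k' : Λ → Option δ} {V : Λ → ℝ} (hV : ∀ i, 0 ≤ V i) (z z' : δ) :
    0 ≤ Ym k k' V z z' := by
  classical
  unfold Ym
  exact Finset.sum_nonneg fun i _ => by
    split_ifs
    · exact hV i
    · exact le_rfl

/-- **the price** -/
theorem Pod.prg (P : Pod s k k' V c X x) : PrG s k k' V c h X x := by
  classical
  intro H hV hc hh σ hσ
  obtain ⟨Ev, θ, Lt, hθ, p1, p2, p3, p4, p5⟩ := P
  set f : δ → δ → s.J → ℝ := flw s k k' V x with hf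
  have f0 : ∀ z z' j, 0 ≤ f z z' j := fun z z' j => by
    show 0 ≤ fh _ _ _ z z' x
    rw [fh_eq]
    exact Finset.sum_nonneg fun i _ => by
      split_ifs
      · exact hV j i
      · exact le_rfl
  have key := PM7_root H hσ f0 (Ev := Ev) (fun z a b e1 e2 e3 e4 => by
      obtain ⟨j, i, a1, a2, a3⟩ := flw_ne e3
      obtain ⟨j', i', b1, b2, b3⟩ := flw_ne e4
      exact p1 z a b j i j' i' e1 e2 a1 a2 a3 b1 b2 b3) (fun z z₁ a e1 e2 e3 e4 => by
      obtain ⟨j, i, a1, a2, a3⟩ := flw_ne e3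
      obtain ⟨j', i', b1, b2, b3⟩ := flw_ne e4
      exact p2 z z₁ a j i j' i' e1 e2 a1 a2 a3 b1 b2 b3)
  set ev : s.J → Λ → ℝ := fun j i => gE Ev (fun _ _ => 1) (k (s.L j) x i) (k' (s.L j) x i) with hev
  have ev0 : ∀ j i, 0 ≤ ev j i := fun j i => gE_nonneg fun _ _ _ _ _ => zero_le_one
  have rs := Real.sqrt_nonneg σ
  -- one member
  have m1 : ∀ j, Real.sqrt σ * ∑ z, ∑ z', (if Ev z z' then
      f z z' j * Real.sqrt (min σ (∑ a, f z a j - f z z' j)) else 0) ≤
      σ * (∑ i, ev j i * (θ / 2) * V (s.L j) i x) +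
        1 / (2 * θ) * ∑ z, ((∑ z', f z z' j) ^ 2 - ∑ z', f z z' j ^ 2) := by
    intro j
    have Y0 : ∀ z z', 0 ≤ ∑ a, f z a j - f z z' j := fun z z' =>
      sub_nonneg.2 (Finset.single_le_sum (f := fun a => f z a j) (fun a _ => f0 z a j)
        (Finset.mem_univ z'))
    have a1 : Real.sqrt σ * ∑ z, ∑ z', (if Ev z z' then
        f z z' j * Real.sqrt (min σ (∑ a, f z a j - f z z' j))
        else 0) ≤ ∑ z, ∑ z', (if Ev z z' then f z z' j * (σ * (θ / 2)) else 0) +
        1 / (2 * θ) * ∑ z, ∑ z', f z z' j * (∑ a, f z a j - f z z' j) := by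
      rw [Finset.mul_sum, Finset.mul_sum, ← Finset.sum_add_distrib]
      refine Finset.sum_le_sum fun z _ => ?_
      rw [Finset.mul_sum, Finset.mul_sum, ← Finset.sum_add_distrib]
      refine Finset.sum_le_sum fun z' _ => ?_
      have b1 := rt_th hσ (Y0 z z') hθ
      have b2 := f0 z z' j
      by_cases he : Ev z z'
      · rw [if_pos he, if_pos he]
        have b3 := mul_le_mul_of_nonneg_left b1 b2
        calc _ = f z z' j * (Real.sqrt σ * Real.sqrt (min σ (∑ a, f z a j - f z z' j))) := by ring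
          _ ≤ _ := b3
          _ = _ := by field_simp
      · rw [if_neg he, if_neg he, mul_zero, zero_add]
        have := mul_nonneg b2 (Y0 z z')
        positivity
    refine a1.trans (add_le_add (le_of_eq ?_) (mul_le_mul_of_nonneg_left (le_of_eq ?_)
      (by positivity)))
    · have a2 := sum_gE (k := k (s.L j)) (k' := k' (s.L j)) (V := V (s.L j)) (x := x) Ev
        (fun _ _ => σ * (θ / 2))
      refine Eq.trans a2 ?_
      rw [Finset.mul_sum]
      refine Finset.sum_congr rfl fun i _ => ?_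
      have a3 := gE_smul Ev (σ * (θ / 2)) (fun _ _ => (1:ℝ)) (k (s.L j) x i) (k' (s.L j) x i)
      simp only [mul_one] at a3
      rw [a3]
      show σ * (θ / 2) * ev j i * V (s.L j) i x = _
      ring
    · refine Finset.sum_congr rfl fun z _ => ?_
      rw [sq, Finset.sum_mul, ← Finset.sum_sub_distrib]
      refine Finset.sum_congr rfl fun z' _ => by ring
  -- two members
  have m2 : ∀ j j', Real.sqrt σ * ∑ z, ∑ z', (if Ev z z' then
      f z z' j * Real.sqrt (min σ (∑ a, f a z' j' - f z z' j')) else 0) ≤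
      σ * (∑ i, ev j i * ((if Lt j i j' then 1 else 0) + θ / 2) * V (s.L j) i x) +
        1 / (2 * θ) * ∑ i, if Lt j i j' then 0 else
          gE Ev (fun z z' => Ym (k (s.L j') x) (k' (s.L j') x) (fun i => V (s.L j') i x) z z')
          (k (s.L j) x i) (k' (s.L j) x i) * V (s.L j) i x := by
    intro j j'
    set Y : δ → δ → ℝ := fun z z' =>
      Ym (k (s.L j') x) (k' (s.L j') x) (fun i => V (s.L j') i x) z z' with hY
    have Y0 : ∀ z z', 0 ≤ Y z z' := fun z z' => Ym_nonneg (fun i => hV j' i) z z'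
    have a1 : Real.sqrt σ * ∑ z, ∑ z', (if Ev z z' then
        f z z' j * Real.sqrt (min σ (∑ a, f a z' j' - f z z' j'))
        else 0) = ∑ i, gE Ev (fun z z' => Real.sqrt σ * Real.sqrt (min σ (Y z z')))
          (k (s.L j) x i) (k' (s.L j) x i) * V (s.L j) i x := by
      rw [← sum_gE (k := k (s.L j)) (k' := k' (s.L j)) (V := V (s.L j)) (x := x) Ev, Finset.mul_sum]
      refine Finset.sum_congr rfl fun z _ => ?_
      rw [Finset.mul_sum]
      refine Finset.sum_congr rfl fun z' _ => ?_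
      have e : ∑ a, f a z' j' - f z z' j' = Y z z' := Ym_eq' j' z z'
      rw [e]
      by_cases he : Ev z z'
      · rw [if_pos he, if_pos he]
        show _ = f z z' j * _
        ring
      · rw [if_neg he, if_neg he, mul_zero]
    rw [a1, Finset.mul_sum, Finset.mul_sum, ← Finset.sum_add_distrib]
    refine Finset.sum_le_sum fun i _ => ?_
    have vi := hV j i
    by_cases hl : Lt j i j'
    · rw [if_pos hl, if_pos hl, mul_zero, add_zero]
      have b1 : gE Ev (fun z z' => Real.sqrt σ * Real.sqrt (min σ (Y z z')))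
          (k (s.L j) x i) (k' (s.L j) x i) ≤ σ * ev j i := by
        have b2 := gE_mono (Ev := Ev) (g := fun z z' => Real.sqrt σ * Real.sqrt (min σ (Y z z')))
          (g' := fun _ _ => σ * 1) (a := k (s.L j) x i) (b := k' (s.L j) x i)
          fun z z' _ _ _ => by rw [mul_one]; exact rt_one hσ
        have b5 := gE_smul Ev σ (fun _ _ => (1:ℝ)) (k (s.L j) x i) (k' (s.L j) x i)
        rw [b5] at b2
        exact b2
      have b3 := mul_le_mul_of_nonneg_right b1 vi
      have b4 : 0 ≤ σ * (ev j i * (θ / 2) * V (s.L j) i x) :=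
        mul_nonneg hσ.le (mul_nonneg (mul_nonneg (ev0 j i) (by positivity)) vi)
      calc _ ≤ _ := b3
        _ ≤ _ := by nlinarith
    · rw [if_neg hl, if_neg hl]
      have b2 := gE_mono (Ev := Ev) (g := fun z z' => Real.sqrt σ * Real.sqrt (min σ (Y z z')))
          (g' := fun z z' => σ * (θ / 2) * 1 + 1 / (2 * θ) * Y z z') (a := k (s.L j) x i)
          (b := k' (s.L j) x i)
          fun z z' _ _ _ => by
            refine (rt_th hσ (Y0 z z') hθ).trans (le_of_eq ?_)
            field_simp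
      have b5 := gE_add Ev (fun _ _ => σ * (θ / 2) * 1) (fun z z' => 1 / (2 * θ) * Y z z')
        (k (s.L j) x i) (k' (s.L j) x i)
      have b6 := gE_smul Ev (σ * (θ / 2)) (fun _ _ => (1:ℝ)) (k (s.L j) x i) (k' (s.L j) x i)
      have b7 := gE_smul Ev (1 / (2 * θ)) Y (k (s.L j) x i) (k' (s.L j) x i)
      rw [b5, b6, b7] at b2
      have b3 := mul_le_mul_of_nonneg_right b2 vi
      refine b3.trans (le_of_eq ?_)
      show (σ * (θ / 2) * ev j i + 1 / (2 * θ) * gE Ev Y (k (s.L j) x i) (k' (s.L j) x i)) *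
        V (s.L j) i x = _
      ring
  -- the sum
  set R1 := M s.c (fun j => ∑ z, ∑ z', if Ev z z' then
          f z z' j * Real.sqrt (min σ (∑ a, f z a j - f z z' j))
          else 0) with hR1
  set R2 := ∑ j, ∑ j', (if j = j' then 0 else s.c j * s.c j' * ∑ z, ∑ z', if Ev z z' then
          f z z' j * Real.sqrt (min σ (∑ a, f a z' j' - f z z' j'))
          else 0) with hR2
  set A : s.J → ℝ := fun j => ∑ i, ev j i * (θ + ∑ j', if Lt j i j' then s.c j' else 0) *
    V (s.L j) i x with hA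
  have r1 : Real.sqrt σ * R1 ≤ σ * M s.c (fun j => ∑ i, ev j i * (θ / 2) * V (s.L j) i x) +
      1 / (2 * θ) * Ein s k k' V x := by
    have e1 : Real.sqrt σ * R1 = M s.c fun j => Real.sqrt σ * ∑ z, ∑ z', (if Ev z z' then
      f z z' j * Real.sqrt (min σ (∑ a, f z a j - f z z' j))
      else 0) := by rw [M_smul]
    have e2 : σ * M s.c (fun j => ∑ i, ev j i * (θ / 2) * V (s.L j) i x) +
      1 / (2 * θ) * Ein s k k' V x = M s.c fun j => σ * (∑ i, ev j i * (θ / 2) * V (s.L j) i x) +
        1 / (2 * θ) * ∑ z, ((∑ z', f z z' j) ^ 2 - ∑ z', f z z' j ^ 2) := by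
      rw [M_add, M_smul, M_smul]
      rfl
    rw [e1, e2]
    exact M_mono H.c0 m1
  have r2 : Real.sqrt σ * R2 ≤ σ * M s.c (fun j => ∑ i, ev j i *
      ((∑ j', if Lt j i j' then s.c j' else 0) + θ / 2) * V (s.L j) i x) +
      1 / (2 * θ) * Ecr s k k' V Ev Lt x := by
    have e1 : ∀ j, σ * (s.c j * ∑ i, ev j i *
        ((∑ j', if Lt j i j' then s.c j' else 0) + θ / 2) * V (s.L j) i x) =
        ∑ j', s.c j * s.c j' * (σ * (∑ i, ev j i * ((if Lt j i j' then 1 else 0) + θ / 2) *
          V (s.L j) i x)) := by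
      intro j
      have e3 : ∀ i, (∑ j', if Lt j i j' then s.c j' else 0) + θ / 2 =
          ∑ j', s.c j' * ((if Lt j i j' then 1 else 0) + θ / 2) := fun i => by
        have e4 : ∀ j', s.c j' * ((if Lt j i j' then (1:ℝ) else 0) + θ / 2) =
            (if Lt j i j' then s.c j' else 0) + s.c j' * (θ / 2) := fun j' => by
          split_ifs <;> ring
        simp only [e4]
        rw [Finset.sum_add_distrib, ← Finset.sum_mul, H.c1, one_mul]
      simp only [e3, Finset.mul_sum, Finset.sum_mul]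
      rw [Finset.sum_comm]
      refine Finset.sum_congr rfl fun j' _ => Finset.sum_congr rfl fun i _ => by ring
    have e2 : σ * M s.c (fun j => ∑ i, ev j i *
      ((∑ j', if Lt j i j' then s.c j' else 0) + θ / 2) * V (s.L j) i x) = ∑ j, ∑ j',
        s.c j * s.c j' * (σ * (∑ i, ev j i * ((if Lt j i j' then 1 else 0) + θ / 2) *
          V (s.L j) i x)) := by
      unfold M
      rw [Finset.mul_sum]
      exact Finset.sum_congr rfl fun j _ => e1 j
    rw [e2]
    unfold Ecr
    rw [hR2, Finset.mul_sum, Finset.mul_sum, ← Finset.sum_add_distrib]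
    refine Finset.sum_le_sum fun j _ => ?_
    rw [Finset.mul_sum, Finset.mul_sum, ← Finset.sum_add_distrib]
    refine Finset.sum_le_sum fun j' _ => ?_
    have c2 := mul_nonneg (H.c0 j) (H.c0 j')
    by_cases hj : j = j'
    · rw [if_pos hj, if_pos hj, mul_zero, mul_zero, add_zero]
      refine mul_nonneg c2 (mul_nonneg hσ.le (Finset.sum_nonneg fun i _ => ?_))
      have := ev0 j i
      have := hV j i
      have : (0:ℝ) ≤ if Lt j i j' then 1 else 0 := by split_ifs <;> norm_num
      positivity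
    · rw [if_neg hj, if_neg hj]
      have b := mul_le_mul_of_nonneg_left (m2 j j') c2
      calc _ = s.c j * s.c j' * (Real.sqrt σ * ∑ z, ∑ z', (if Ev z z' then
            f z z' j * Real.sqrt (min σ (∑ a, f a z' j' - f z z' j'))
            else 0)) := by ring
        _ ≤ _ := b
        _ = _ := by ring
  have r3 : M s.c (fun j => ∑ i, ev j i * (θ / 2) * V (s.L j) i x) + M s.c (fun j => ∑ i, ev j i *
      ((∑ j', if Lt j i j' then s.c j' else 0) + θ / 2) * V (s.L j) i x) = M s.c A := by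
    rw [← M_add]
    congr 1
    funext j
    rw [← Finset.sum_add_distrib]
    exact Finset.sum_congr rfl fun i _ => by ring
  -- the content which leaves
  set o : δ → s.J → ℝ := fun z j => h (s.L j) z x - Fo f z j with ho
  have oe : ∀ z j, o z j = ∑ i, if k (s.L j) x i = some z ∧ k' (s.L j) x i = none
      then V (s.L j) i x else 0 := fun z j => by
    show h (s.L j) z x - ∑ z', fh (k (s.L j)) (k' (s.L j)) (V (s.L j)) z z' x = _
    rw [← hh j z, hz_eq]
    simp only [fh_eq]
    rw [Finset.sum_comm, ← Finset.sum_sub_distrib]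
    refine Finset.sum_congr rfl fun i _ => ?_
    by_cases h1 : k (s.L j) x i = some z
    · simp only [h1, true_and, if_true]
      rw [sum_opt_ite]
      split_ifs <;> ring
    · simp [h1]
  have o0 : ∀ z j, 0 ≤ o z j := fun z j => by
    rw [oe]
    exact Finset.sum_nonneg fun i _ => by
      split_ifs
      · exact hV j i
      · exact le_rfl
  have F0 : ∀ z j, 0 ≤ Fo f z j := fun z j => Finset.sum_nonneg fun z' _ => f0 _ _ _
  have eh : ∀ z j, h (s.L j) z x = Fo f z j + o z j := fun z j => by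
    show _ = Fo f z j + (h (s.L j) z x - Fo f z j); ring
  have k1 := PM7_drop H hσ (f := fun z j => min (Fo f z j) σ)
    (g := fun z j => min (h (s.L j) z x) σ - min (Fo f z j) σ)
    (fun z j => le_min (F0 z j) hσ.le)
    (fun z j => sub_nonneg.2 (min_le_min_right _ (by rw [eh]; linarith [o0 z j])))
    (fun z j => by
      have e : min (Fo f z j) σ + (min (h (s.L j) z x) σ - min (Fo f z j) σ) =
        min (h (s.L j) z x) σ := by ring
      rw [e]
      exact min_le_right _ _)
  have e1 : PM7 σ s.c s.W (fun z j => min (Fo f z j) σ +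
      (min (h (s.L j) z x) σ - min (Fo f z j) σ)) =
      PM7 σ s.c s.W (fun z j => min (h (s.L j) z x) σ) := PM7_congr fun z j => by ring
  rw [e1] at k1
  have k1b : SS s.c (fun z j => min (h (s.L j) z x) σ - min (Fo f z j) σ) ≤ SS s.c o := by
    refine Finset.sum_le_sum fun z _ => M_mono H.c0 fun j => ?_
    have a1 := min_add_le hσ.le (F0 z j) (o0 z j)
    rw [← eh] at a1
    have a2 : min (o z j) σ ≤ o z j := min_le_left _ _
    linarith
  -- the charges
  have hs : 14 * SS s.c o + Cr0 * M s.c A ≤ su s (fun b x => ∑ i, c b i x * V b i x) x := by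
    have a1 : 14 * SS s.c o + Cr0 * M s.c A = M s.c fun j => 14 * ∑ z, o z j + Cr0 * A j := by
      rw [SS_eq_M, M_add, M_smul, M_smul]
    rw [a1]
    refine M_mono H.c0 fun j => ?_
    have b1 : ∑ z, o z j = ∑ i, if k (s.L j) x i ≠ none ∧ k' (s.L j) x i = none
        then V (s.L j) i x else 0 := by
      simp only [oe]
      rw [Finset.sum_comm]
      refine Finset.sum_congr rfl fun i _ => ?_
      by_cases h1 : k' (s.L j) x i = none
      · simp only [h1, and_true]
        rw [sum_opt_ite]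
        by_cases h2 : k (s.L j) x i = none
        · simp [h2]
        · simp [h2]
      · simp [h1]
    rw [b1, hA, Finset.mul_sum, Finset.mul_sum, ← Finset.sum_add_distrib]
    refine Finset.sum_le_sum fun i _ => ?_
    have vi := hV j i
    have ci := hc j i
    have hcv := mul_nonneg ci vi
    by_cases v0 : V (s.L j) i x = 0
    · rw [v0]; simp
    show 14 * _ + Cr0 * (gE Ev (fun _ _ => 1) (k (s.L j) x i) (k' (s.L j) x i) *
      (θ + ∑ j', if Lt j i j' then s.c j' else 0) * V (s.L j) i x) ≤ c (s.L j) i x * V (s.L j) i x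
    rcases h2 : k (s.L j) x i with _ | z
    · rw [if_neg (fun e => e.1 rfl)]
      show 14 * (0:ℝ) + Cr0 * (0 * _ * _) ≤ _
      simpa using hcv
    rcases h1 : k' (s.L j) x i with _ | z'
    · rw [if_pos ⟨by simp, rfl⟩]
      show 14 * V (s.L j) i x + Cr0 * (0 * _ * _) ≤ _
      have := mul_le_mul_of_nonneg_right (p3 j i z v0 h2 h1) vi
      linarith
    · rw [if_neg (fun e => absurd e.2 (by simp))]
      by_cases he : Ev z z'
      · rw [gE_pos he, one_mul]
        have := mul_le_mul_of_nonneg_right (p4 j i z z' v0 h2 h1 he) vi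
        linarith
      · rw [gE_neg he]
        simpa using hcv
  have hs2 := mul_le_mul_of_nonneg_left hs hσ.le
  have k1c := mul_le_mul_of_nonneg_left k1b hσ.le
  -- the losses
  have t1 : SS s.c (fun z j => min (h (s.L j) z x) σ) + M s.c (Lx σ f fun z j => h (s.L j) z x) -
      SS s.c (fun z j => h (s.L j) z x) = SS s.c (fun z j => min (Fo f z j) σ) + M s.c (Lo σ f) -
      SS s.c (Fo f) := Lx_eq (c := s.c) (σ := σ) f fun z j => h (s.L j) z x
  have t2 : SS s.c (fun z' j => ∑ z, f z z' j) = SS s.c (Fo f) := by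
    rw [SS_eq_M, SS_eq_M]
    congr 1
    funext j
    exact Finset.sum_comm
  have t3 : M s.c (fun j => ∑ z, ∑ z', min (f z z' j) σ) =
      SS s.c (fun z j => min (Fo f z j) σ) + M s.c (Lo σ f) := by
    rw [SS_eq_M, ← M_add]
    congr 1
    funext j
    rw [Lo_eq]
    ring
  have t5 : PM7 σ s.c s.W (fun z j => min (∑ z', f z z' j) σ) =
      PM7 σ s.c s.W (fun z j => min (Fo f z j) σ) := rfl
  rw [t3, t5] at key
  have e9 : SS s.c (fun z j => min (h (s.L j) z x) σ) + M s.c (Lx σ f fun z j => h (s.L j) z x) +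
      (SS s.c (fun z' j => ∑ z, f z z' j) - SS s.c (fun z j => h (s.L j) z x)) -
      SS s.c (fun z' j => min (∑ z, f z z' j) σ) =
      SS s.c (fun z j => min (Fo f z j) σ) + M s.c (Lo σ f) -
      SS s.c (fun z' j => min (∑ z, f z z' j) σ) := by
    rw [t2]; linarith
  rw [e9]
  -- the price
  have C0 : 0 ≤ Cr0 := by unfold Cr0; norm_num
  have En0 : 0 ≤ Ein s k k' V x + Ecr s k k' V Ev Lt x := by
    refine add_nonneg (M_nonneg H.c0 fun j => Finset.sum_nonneg fun z _ => sub_nonneg.2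
      (PN36.sum_sq_le _ _ fun z' _ => f0 z z' j)) (Finset.sum_nonneg fun j _ =>
      Finset.sum_nonneg fun j' _ => ?_)
    split_ifs
    · exact le_rfl
    · refine mul_nonneg (mul_nonneg (H.c0 j) (H.c0 j')) (Finset.sum_nonneg fun i _ => ?_)
      split_ifs
      · exact le_rfl
      · exact mul_nonneg (gE_nonneg fun z z' _ _ _ => Ym_nonneg (fun i => hV j' i) z z') (hV j i)
  have q1 : Real.sqrt σ * (R1 + R2) ≤ σ * M s.c A +
      1 / (2 * θ) * (Ein s k k' V x + Ecr s k k' V Ev Lt x) := by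
    rw [← r3, mul_add, mul_add, mul_add]
    linarith
  have q2 := mul_le_mul_of_nonneg_left q1 C0
  have q3 : Cr0 * (1 / (2 * θ) * (Ein s k k' V x + Ecr s k k' V Ev Lt x)) ≤
      Cr0 / θ * (Ein s k k' V x + Ecr s k k' V Ev Lt x) := by
    rw [← mul_assoc]
    refine mul_le_mul_of_nonneg_right ?_ En0
    rw [mul_one_div]
    exact div_le_div_of_nonneg_left C0 hθ (by linarith)
  have q4 : σ * (14 * SS s.c o + Cr0 * M s.c A) = 14 * (σ * SS s.c o) + Cr0 * (σ * M s.c A) := by
    ring
  rw [q4] at hs2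
  rw [mul_add Cr0 (σ * M s.c A)] at q2
  have key' : PM7 σ s.c s.W (fun z j => min (Fo f z j) σ) ≤
      PM7 σ s.c s.W (fun z' j => min (∑ z, f z z' j) σ) +
      14 * (σ * (SS s.c (fun z j => min (Fo f z j) σ) + M s.c (Lo σ f) -
        SS s.c (fun z' j => min (∑ z, f z z' j) σ))) + Cr0 * (Real.sqrt σ * (R1 + R2)) := key
  linarith

/-- the loss at one scale against the separated pairs -/
lemma los_prs {s : Gs β} {f : β → δ → δ → ℝ → ℝ} (H : TC s.c s.W)
    (hf : ∀ j z z', PB (f (s.L j) z z')) (n : ℕ) (x : ℝ) :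
    2 ^ n * su s (los f (2 ^ n)) x ≤ su s (prs f) x := by
  refine le_trans ?_ (dy_los H hf (n + 1) x)
  refine Finset.single_le_sum (f := fun l => (2:ℝ) ^ l * su s (los f (2 ^ l)) x)
    (fun l _ => mul_nonneg (two_pos' l).le ?_) (Finset.self_mem_range_succ n)
  exact (PB_los H hf (two_pos' l)).nonneg x

end grp

/-! ### the group data -/

section main
variable {β δ Λ : Type} [Fintype δ] [DecidableEq δ] [Fintype Λ] {R : RXm β δ} {U : RBm R}

/-- the loss of the rest at one scale against the separated pairs -/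
lemma los_prsN {F : Fl U} {s : Gs β} {p : ℕ} (hs : R.gok p s) (hp : p ≠ 0) (n : ℕ) (x : ℝ) :
    2 ^ n * su s (losN F (2 ^ n) p) x ≤ su s (prsN F p) x := by
  refine le_trans ?_ (dy_losN (F := F) hs hp (n + 1) x)
  refine Finset.single_le_sum (f := fun l => (2:ℝ) ^ l * su s (losN F (2 ^ l) p) x)
    (fun l _ => mul_nonneg (two_pos' l).le ?_) (Finset.self_mem_range_succ n)
  exact (PB_losN hs hp (two_pos' l)).nonneg x

/-- **group states, rates of the moved pieces, second order parts** -/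
structure Prc (P : PMap U Λ) where
  ok : ℕ → Gs β → Prop
  gk : ∀ {p s}, ok p s → R.gok p s
  gs : ∀ {p s}, ok p s → p ≠ 0 → R.grp p s
  okC : ∀ {p s}, ok p s → p ≠ 0 → ok p (R.C p s)
  okN : ∀ {p s}, ok p s → p ≠ 0 → ok (p - 1) (R.N p s)
  /-- rates of the class change of the rest and of the ties -/
  cN : ℕ → β → Λ → ℝ → ℝ
  cB : ℕ → β → Λ → ℝ → ℝ
  pcN : ∀ {p b}, R.ok p b → p ≠ 0 → ∀ i, PB (cN p b i)
  pcB : ∀ {p b}, R.ok p b → p ≠ 0 → ∀ i, PB (cB p b i)
  /-- second order parts -/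
  xN : ℕ → Gs β → ℝ → ℝ
  xB : ℕ → Gs β → ℝ → ℝ
  pxN : ∀ {p s}, ok p s → p ≠ 0 → PB (xN p s)
  pxB : ∀ {p s}, ok p s → p ≠ 0 → PB (xB p s)
  hN : ∀ {p s}, ok p s → p ≠ 0 → ∀ x,
    PrG s (P.kO p) (P.kN p) (P.vN p) (cN p) (R.hN p) (xN p s x) x
  hB : ∀ {p s}, ok p s → p ≠ 0 → ∀ x,
    PrG s (P.kO p) (P.kR p) (P.vB p) (cB p) (R.hB p) (xB p s x) x

variable {P : PMap U Λ} (D : Prc P)

/-- charge of the rest -/
noncomputable def Prc.yN (p : ℕ) (b : β) (x : ℝ) : ℝ := ∑ i, D.cN p b i x * P.vN p b i x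
/-- charge of the ties, at the point above -/
noncomputable def Prc.yB (p : ℕ) (b : β) (x : ℝ) : ℝ := ∑ i, D.cB p b i x * P.vB p b i x

lemma Prc.PB_yN {p : ℕ} {b : β} (hb : R.ok p b) (hp : p ≠ 0) : PB (D.yN p b) :=
  PB.sum _ fun i _ => (D.pcN hb hp i).mul (P.pvN hb hp i)
lemma Prc.PB_yB {p : ℕ} {b : β} (hb : R.ok p b) (hp : p ≠ 0) : PB (D.yB p b) :=
  PB.sum _ fun i _ => (D.pcB hb hp i).mul (P.pvB hb hp i)

/-- the group data -/
noncomputable def Prc.fg : FlG P.fl where
  ok := D.ok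
  gk := D.gk
  gs := D.gs
  okC := D.okC
  okN := D.okN
  br := fun σ p s x => σ * su s (D.yN p) x + D.xN p s x
  brB := fun σ p s x => σ * su s (D.yB p) x + D.xB p s x
  pbr := fun hσ hs hp => ((PB_su (D.gk hs).1 fun j => D.PB_yN ((D.gk hs).2 j) hp).smul hσ.le).add
    (D.pxN hs hp)
  pbrB := fun hσ hs hp => ((PB_su (D.gk hs).1 fun j => D.PB_yB ((D.gk hs).2 j) hp).smul hσ.le).add
    (D.pxB hs hp)
  pr := fun {σ p s} hσ hs hp x => (D.hN hs hp x) (D.gk hs).1
    (fun j i => (P.pvN ((D.gk hs).2 j) hp i).nonneg x)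
    (fun j i => (D.pcN ((D.gk hs).2 j) hp i).nonneg x)
    (fun j z => (P.eN ((D.gk hs).2 j) hp z x).symm) σ hσ
  prB := fun {σ p s} hσ hs hp x => by
    have h := (D.hB hs hp x) (D.gk hs).1
      (fun j i => (P.pvB ((D.gk hs).2 j) hp i).nonneg x)
      (fun j i => (D.pcB ((D.gk hs).2 j) hp i).nonneg x)
      (fun j z => (P.eB ((D.gk hs).2 j) hp z x).symm) σ hσ
    have e : M s.c (Lx σ (flw s (P.kO p) (P.kR p) (P.vB p) x) fun z j => R.hB p (s.L j) z x) =
        su s (los (P.fl.fB p) σ) x := by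
      show _ = M s.c _
      congr 1
      funext j
      refine Finset.sum_congr rfl fun z _ => ?_
      have e1 : R.hB p (s.L j) z x = ∑ z', P.fl.fB p (s.L j) z z' x :=
        (P.fl.oB ((D.gk hs).2 j) hp z x).symm
      have e2 : Fo (flw s (P.kO p) (P.kR p) (P.vB p) x) z j = ∑ z', P.fl.fB p (s.L j) z z' x := rfl
      show ∑ z', min (P.fl.fB p (s.L j) z z' x) σ + (R.hB p (s.L j) z x -
        Fo (flw s (P.kO p) (P.kR p) (P.vB p) x) z j) - min (R.hB p (s.L j) z x) σ =
        ∑ z', min (P.fl.fB p (s.L j) z z' x) σ - min (∑ z', P.fl.fB p (s.L j) z z' x) σ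
      rw [e2, e1]
      ring
    rw [e] at h
    exact h

/-- **the group data `RGx`** -/
noncomputable def Prc.rg : RGx U := D.fg.rg

/-- **the second order parts** -/
noncomputable def Prc.sec : GSec D.rg where
  rx := fun p s x => D.xN p s x + 14 * su s (prsN P.fl p) x
  rc := fun p s => Ep p fun x => D.xB p s x + 14 * su s (prs (P.fl.fB p)) x
  prx := fun {p s} hs hp => (D.pxN hs hp).add ((PB_prsN (D.gk hs) hp).smul (by norm_num))
  prc := fun {p s} hs hp => ((D.pxB hs hp).add ((PB_prs (D.gk hs).1 fun j z z' =>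
    P.fl.pB ((D.gk hs).2 j) hp z z').smul (by norm_num))).Ep (Nat.pos_of_ne_zero hp)

/-- **the payments** -/
theorem Prc.pay {Q1 Q2 : BCh (bm R)} {ee : ℕ → β → ℝ → ℝ}
    (he : ∀ {k : ℕ} {p b}, R.ok p b → p ≠ 0 → ∀ x, (R.sd (2 ^ k) p b).e x ≤ ee p b x)
    (hc : ∀ {p b}, R.ok p b → p ≠ 0 → ∀ y,
      Ep p (fun x => 14 * ee p b x + D.yB p b x) y ≤ Q1.yc p b y + Q2.yc p b y)
    (hb : ∀ {p b}, R.ok p b → p ≠ 0 → ∀ x, D.yN p b x ≤ Q1.yx p b x + Q2.yx p b x) :
    BPay3 D.rg Q1 Q2 D.sec where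
  hc := fun {k p s} hs hp y => by
    have hp0 : 0 < p := Nat.pos_of_ne_zero hp
    have g := D.gk hs
    have two : (0:ℝ) < 2 ^ k := two_pos' k
    have pw : ∀ x, 14 * (2 ^ k * R.e0 (2 ^ k) p s x) + (D.rg.brB (2 ^ k) p s x +
        14 * (2 ^ k * D.rg.asB (2 ^ k) p s x)) ≤
        2 ^ k * su s (fun b x => 14 * ee p b x + D.yB p b x) x +
          (D.xB p s x + 14 * su s (prs (P.fl.fB p)) x) := fun x => by
      have a1 : D.rg.brB (2 ^ k) p s x = 2 ^ k * su s (D.yB p) x + D.xB p s x := rfl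
      have a2 : 2 ^ k * D.rg.asB (2 ^ k) p s x ≤ su s (prs (P.fl.fB p)) x :=
        los_prs g.1 (fun j z z' => P.fl.pB (g.2 j) hp z z') k x
      have a3 : R.e0 (2 ^ k) p s x ≤ su s (ee p) x := M_mono g.1.c0 fun j => he (g.2 j) hp x
      have a4 := mul_le_mul_of_nonneg_left a3 two.le
      have a5 : su s (fun b x => 14 * ee p b x + D.yB p b x) x =
          14 * su s (ee p) x + su s (D.yB p) x := by
        unfold su
        rw [← M_smul, ← M_add]
      rw [a1, a5]
      linarith
    have e1 : 14 * (2 ^ k * Ep p (R.e0 (2 ^ k) p s) y) + (Ep p (D.rg.brB (2 ^ k) p s) y +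
        14 * (2 ^ k * Ep p (D.rg.asB (2 ^ k) p s) y)) =
        Ep p (fun x => 14 * (2 ^ k * R.e0 (2 ^ k) p s x) + (D.rg.brB (2 ^ k) p s x +
        14 * (2 ^ k * D.rg.asB (2 ^ k) p s x))) y := by
      unfold Ep
      rw [Finset.sum_add_distrib, Finset.sum_add_distrib, ← Finset.mul_sum, ← Finset.mul_sum,
        ← Finset.mul_sum, ← Finset.mul_sum]
      ring
    have e2 : Ep p (fun x => 2 ^ k * su s (fun b x => 14 * ee p b x + D.yB p b x) x +
          (D.xB p s x + 14 * su s (prs (P.fl.fB p)) x)) y =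
        2 ^ k * (M s.c fun j => Ep p (fun x => 14 * ee p (s.L j) x + D.yB p (s.L j) x) y) +
          D.sec.rc p s y := by
      rw [← Ep_su (f := fun b x => 14 * ee p b x + D.yB p b x)]
      show _ = _ + Ep p (fun x => D.xB p s x + 14 * su s (prs (P.fl.fB p)) x) y
      unfold Ep
      rw [Finset.sum_add_distrib, ← Finset.mul_sum]
      ring
    have e3 : Ep p (fun x => 14 * (2 ^ k * R.e0 (2 ^ k) p s x) + (D.rg.brB (2 ^ k) p s x +
        14 * (2 ^ k * D.rg.asB (2 ^ k) p s x))) y ≤
        Ep p (fun x => 2 ^ k * su s (fun b x => 14 * ee p b x + D.yB p b x) x +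
          (D.xB p s x + 14 * su s (prs (P.fl.fB p)) x)) y := by
      unfold Ep
      exact div_le_div_of_nonneg_right (Finset.sum_le_sum fun i _ => pw _) (Nat.cast_nonneg p)
    have e4 : (M s.c fun j => Ep p (fun x => 14 * ee p (s.L j) x + D.yB p (s.L j) x) y) ≤
        su s (Q1.yc p) y + su s (Q2.yc p) y := by
      unfold su
      rw [← M_add]
      exact M_mono g.1.c0 fun j => hc (g.2 j) hp y
    have e5 := mul_le_mul_of_nonneg_left e4 two.le
    rw [e1]
    rw [e2] at e3
    linarith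
  hb := fun {k p s} hs hp x => by
    have g := D.gk hs
    have two : (0:ℝ) < 2 ^ k := two_pos' k
    have a1 : D.rg.br (2 ^ k) p s x = 2 ^ k * su s (D.yN p) x + D.xN p s x := rfl
    have a2 : 2 ^ k * D.rg.as (2 ^ k) p s x ≤ su s (prsN P.fl p) x :=
      los_prsN g hp k x
    have a3 : D.sec.rx p s x = D.xN p s x + 14 * su s (prsN P.fl p) x := rfl
    have e4 : su s (D.yN p) x ≤ su s (Q1.yx p) x + su s (Q2.yx p) x := by
      unfold su
      rw [← M_add]
      exact M_mono g.1.c0 fun j => hb (g.2 j) hp x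
    have e5 := mul_le_mul_of_nonneg_left e4 two.le
    rw [a1, a3]
    linarith

/-- **the payments by the credits of the pieces** -/
theorem Prc.pay_cr {V : PV (bm R) Λ} {Z1 Z2 : Cr V}
    (eN : ∀ {p b}, R.ok p b → p ≠ 0 → ∀ i x, P.vN p b i x = V.v (R.rN p b) i x)
    (eB : ∀ {p b}, R.ok p b → p ≠ 0 → ∀ i x, P.vB p b i x = V.vB p b i x)
    {ee : ℕ → β → ℝ → ℝ} {ew : ℕ → β → Λ → ℝ → ℝ}
    (he : ∀ {k : ℕ} {p b}, R.ok p b → p ≠ 0 → ∀ x, (R.sd (2 ^ k) p b).e x ≤ ee p b x)
    (hE : ∀ {p b}, R.ok p b → p ≠ 0 → ∀ y, 14 * Ep p (ee p b) y ≤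
      ∑ i, Ep p (fun x => ew p b i x * P.vB p b i x) y)
    (hc : ∀ {p b}, R.ok p b → p ≠ 0 → ∀ i x, P.vB p b i x ≠ 0 →
      ew p b i x + D.cB p b i x ≤ Z1.r p b i x + Z2.r p b i x)
    (hb : ∀ {p b}, R.ok p b → p ≠ 0 → ∀ i x, P.vN p b i x ≠ 0 →
      D.cN p b i x ≤ Z1.e p b i x + Z2.e p b i x) :
    BPay3 D.rg Z1.bch Z2.bch D.sec := by
  refine D.pay he (fun {p b} hb' hp y => ?_) (fun {p b} hb' hp x => ?_)
  · have e1 : Ep p (fun x => 14 * ee p b x + D.yB p b x) y =
        14 * Ep p (ee p b) y + ∑ i, Ep p (fun x => D.cB p b i x * P.vB p b i x) y := by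
      rw [← Grp36.Ep_sum']
      unfold Ep
      rw [Finset.sum_add_distrib, ← Finset.mul_sum]
      unfold Prc.yB
      ring
    rw [e1]
    refine (add_le_add_left (hE hb' hp y) _).trans ?_
    rw [← Finset.sum_add_distrib]
    show _ ≤ ∑ j, Ep p (fun x => Z1.r p b j x * V.vB p b j x) y +
      ∑ j, Ep p (fun x => Z2.r p b j x * V.vB p b j x) y
    rw [← Finset.sum_add_distrib]
    refine Finset.sum_le_sum fun i _ => ?_
    unfold Ep
    rw [← add_div, ← add_div, ← Finset.sum_add_distrib, ← Finset.sum_add_distrib]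
    refine div_le_div_of_nonneg_right (Finset.sum_le_sum fun l _ => ?_) (Nat.cast_nonneg p)
    beta_reduce
    rw [← eB hb' hp]
    by_cases h0 : P.vB p b i ((y + (l : ℝ)) / p) = 0
    · rw [h0]; simp
    · have h1 := mul_le_mul_of_nonneg_right (hc hb' hp i _ h0)
        ((P.pvB hb' hp i).nonneg ((y + (l : ℝ)) / p))
      linarith
  · show ∑ i, D.cN p b i x * P.vN p b i x ≤ ∑ j, Z1.e p b j x * V.v (R.rN p b) j x +
      ∑ j, Z2.e p b j x * V.v (R.rN p b) j x
    rw [← Finset.sum_add_distrib]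
    refine Finset.sum_le_sum fun i _ => ?_
    rw [← eN hb' hp]
    by_cases h0 : P.vN p b i x = 0
    · rw [h0]; simp
    · have h1 := mul_le_mul_of_nonneg_right (hb hb' hp i x h0) ((P.pvN hb' hp i).nonneg x)
      linarith

/-! ### walk sums -/

/-- the walk sum of the second order parts -/
lemma Sg_Kw {D : RGx U} (S : GSec D) : ∀ (n p : ℕ) (s : Gs β), Sg S n p s =
    Kw (bm R) (fun p s => I (S.rx p s) + I (S.rc p s)) n p s := by
  intro n
  induction n with
  | zero => intro p s; rfl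
  | succ n ih =>
    intro p s
    by_cases hp : p = 0
    · subst hp
      simp [Sg, Kw]
    · rw [Sg_succ S n hp, Kw_succ _ _ n hp, ih p, ih (p - 1)]
      rfl

/-- **the second order parts of the prices** : parts `xN`, `xB` and the separated pairs -/
lemma Prc.Sg_eq (n p : ℕ) (s : Gs β) (hs : D.ok p s) : Sg D.sec n p s =
    Kw (bm R) (fun p s => I (D.xN p s) + I (D.xB p s)) n p s +
    14 * Kw (bm R) (fun p s => I (su s (prsN P.fl p)) + I (su s (prs (P.fl.fB p)))) n p s := by
  induction n generalizing p s with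
  | zero => show (0:ℝ) = 0 + 14 * 0; norm_num
  | succ n ih =>
    by_cases hp : p = 0
    · subst hp
      simp [Sg, Kw]
    · have hp0 : 0 < p := Nat.pos_of_ne_zero hp
      have g := D.gk hs
      rw [Sg_succ _ n hp, Kw_succ _ _ n hp, Kw_succ _ _ n hp, ih p _ (D.okC hs hp),
        ih (p - 1) _ (D.okN hs hp)]
      have q1 := (PB_prsN (F := P.fl) g hp).smul (show (0:ℝ) ≤ 14 by norm_num)
      have q2 := (PB_prs g.1 fun j z z' => P.fl.pB (g.2 j) hp z z').smul (show (0:ℝ) ≤ 14 by norm_num)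
      have e1 : I (D.sec.rx p s) = I (D.xN p s) + 14 * I (su s (prsN P.fl p)) := by
        rw [← I_smul, ← I_add (D.pxN hs hp).integrableOn q1.integrableOn]
        rfl
      have e2 : I (D.sec.rc p s) = I (D.xB p s) + 14 * I (su s (prs (P.fl.fB p))) := by
        rw [← I_smul, ← I_add (D.pxB hs hp).integrableOn q2.integrableOn]
        exact I_Ep hp0 ((D.pxB hs hp).add q2).integrableOn
      rw [e1, e2]
      show _ = _ + _
      have e3 : (bm R).C p s = R.C p s := rfl
      have e4 : (bm R).N p s = R.N p s := rfl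
      rw [e3, e4]
      ring

end main

end Crest.Agent.R4P.Prc49

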