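import Crest.Agent.R4P.RGp_25
import Crest.Agent.R4P.DTn_407
import Crest.Agent.R4P.Prc_49

/-!
R4 (S0004) with powers, T3 (heights > 1), helper25: **point maps of the pieces of the typed trees**
(`RGp_25` over `rxm H` of `DTn_407`) and payments with several parts per piece.

* index of the parts: `Λ × Bool`: `(j, true)` = rest, resp. content of `j` in the true ties;
  `(j, false)` = content of `j` in the pulls of the column.
* `pmdx H U : PMap U (Λ × Bool)` for every `U : RBm (rxm H)` (pieces of the rest may enter the game),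
  `pmd H hNo U := pmdx H U`; `pmdx_prN`; `pmd_rest`, `pmd_tie` moved content,
  `pmd_prN`, `pmd_prB` separated pairs.
* `pay_cr2` : payments by the credits of the pieces when a piece has several parts (`π : Λ' → Λ`).
-/

set_option autoImplicit false
set_option linter.unusedSectionVars false
set_option linter.unusedVariables false
open MeasureTheory Filter Set

namespace Crest.Agent.R4P.RGd25

open Crest.Agent.R4.Tour104 Crest.Agent.R4.Tour758 Crest.Agent.R4.Clos758 Crest.Agent.R4.ClosL758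
open Crest.Agent.R4P.Grp36 Crest.Agent.R4P.GMer27 Crest.Agent.R4P.GCol27 Crest.Agent.R4P.RSys343
open Crest.Agent.R4P.RXs343 Crest.Agent.R4P.RXm55 Crest.Agent.R4P.RXm55.RXm Crest.Agent.R4P.DTp26
open Crest.Agent.R4P.TrR343 Crest.Agent.R4P.GWa343 Crest.Agent.R4P.GWb343 Crest.Agent.R4P.Bp407
open Crest.Agent.R4P.VR407 Crest.Agent.R4P.DTm407 Crest.Agent.R4P.DTn407
open Crest.Agent.R4P.MSi343 (su two_pos')
open Crest.Agent.R4P.MSd343 Crest.Agent.R4P.GWc343 Crest.Agent.R4P.GWd343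
open Crest.Agent.R4P.MSm25 Crest.Agent.R4P.RGf25 Crest.Agent.R4P.RGp25 Crest.Agent.R4P.Pay349
open Crest.Agent.R4P.Prc49
open Crest.Agent.R4P.PayR45 (BM BCh PV)
open Crest.Agent.R4P.PVe45 (Cr)
open Crest.Agent.R4P.Walk560 (DT)

/-! ### two parts of the pieces -/

section two
variable {Λ ω : Type} [Fintype Λ] [DecidableEq ω]

lemma hz_bool (o : ℝ → Λ × Bool → ω) (V : Λ × Bool → ℝ → ℝ) (z : ω) (x : ℝ) :
    hz o V z x = hz (fun x j => o x (j, true)) (fun j => V (j, true)) z x +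
      hz (fun x j => o x (j, false)) (fun j => V (j, false)) z x := by
  classical
  simp only [hz_eq]
  rw [Fintype.sum_prod_type, ← Finset.sum_add_distrib]
  refine Finset.sum_congr rfl fun j _ => ?_
  rw [Fintype.sum_bool]

/-- two parts of the contents -/
def two (a b : Λ → ℝ → ℝ) : Λ × Bool → ℝ → ℝ
  | (j, true) => a j
  | (j, false) => b j

lemma sum_two (f : Λ × Bool → ℝ) : ∑ i, f i = ∑ j, (f (j, true) + f (j, false)) := by
  rw [Fintype.sum_prod_type]
  exact Finset.sum_congr rfl fun j _ => Fintype.sum_bool _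

end two

section pm
variable {μ Λ κ ζ : Type} [Fintype Λ] [DecidableEq Λ] [Fintype κ] [DecidableEq κ]
  [Fintype ζ] [DecidableEq ζ] {wr : ℕ → Λ → κ} {D : TD μ Λ κ ζ}
  {Inv : ℕ → μ × List (DT Λ κ) → Prop}

/-- **no piece leaves the game at a rest** -/
def NoOut (D : TD μ Λ κ ζ) (Inv : ℕ → μ × List (DT Λ κ) → Prop) : Prop :=
  ∀ {p b}, Inv p b → p ≠ 0 → ∀ x j, jv (bN p b.2) j x ≠ 0 → D.tp p b.1 x j ≠ none →
    D.tp (p - 1) b.1 x j ≠ none

/-- classes of the rows -/
noncomputable def kRt (D : TD μ Λ κ ζ) (wr : ℕ → Λ → κ) (p : ℕ) (b : μ × List (DT Λ κ)) (x : ℝ) :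
    Λ × Bool → Option ζ
  | (j, true) => D.pt wr p b x j
  | (j, false) => D.lt p b.1 (p * x) j

lemma vTp_jv {p : ℕ} (K : List (DT Λ κ)) (j : Λ) (x : ℝ) :
    vT p K j x + TD.pQx p K j x = jv K j x := by
  unfold vT TD.pQx
  ring

lemma none_pt {p : ℕ} {b : μ × List (DT Λ κ)} {x : ℝ} {j : Λ} (h : D.pt wr p b x j = none) :
    D.lt p b.1 (p * x) j = none := by
  unfold TD.pt TD.pm at h
  rcases e : D.lt p b.1 (p * x) j with _ | z
  · rfl
  · rw [e] at h
    simp at h

/-- **the point maps of the pieces of the typed trees** (pieces may be outside at the column `p - 1`) -/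
noncomputable def pmdx (H : TYp wr D Inv) (U : RBm (rxm H)) :
    PMap U (Λ × Bool) where
  vN := fun p b => two (jv (bN p b.2)) fun _ _ => 0
  vB := fun p b => two (vT p (bB p b.2)) (TD.pQx p (bB p b.2))
  kO := fun p b x i => D.tp p b.1 x i.1
  kN := fun p b x i => D.tp (p - 1) b.1 x i.1
  kR := fun p b x i => kRt D wr p b x i
  pvN := fun {p b} hb hp i => by
    obtain ⟨j, t⟩ := i
    cases t
    · exact PB.const le_rfl
    · exact PB_jv ((H.pb hb).bN p).self j
  pvB := fun {p b} hb hp i => by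
    obtain ⟨j, t⟩ := i
    cases t
    · exact ((H.bok hb hp).PQ j).pull p
    · exact PB_vT (H.bok hb hp) (Nat.pos_of_ne_zero hp) j
  mO := fun {p b} hb hp i => H.mtp p b.1 i.1
  mN := fun {p b} hb hp i => H.mtp (p - 1) b.1 i.1
  mR := fun {p b} hb hp i => by
    obtain ⟨j, t⟩ := i
    cases t
    · exact H.mltp p b.1 j
    · exact H.mpt p b j
  eN := fun {p b} hb hp z x => by
    rw [hz_bool]
    have e : hz (fun x (j : Λ) => D.tp p b.1 x j) (fun (_ : Λ) (_ : ℝ) => (0 : ℝ)) (some z) x = 0 :=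
      hz_zero _ _ _
    show bcp (D.tp p b.1) (bN p b.2) (some z) x = hz (D.tp p b.1) (jv (bN p b.2)) (some z) x +
      hz (fun x (j : Λ) => D.tp p b.1 x j) (fun (_ : Λ) (_ : ℝ) => (0 : ℝ)) (some z) x
    rw [e, add_zero, bcp_eq]
  eN' := fun {p b} hb hp z x => by
    rw [hz_bool]
    have e : hz (fun x (j : Λ) => D.tp (p - 1) b.1 x j) (fun (_ : Λ) (_ : ℝ) => (0 : ℝ))
      (some z) x = 0 := hz_zero _ _ _
    show hz (D.tp (p - 1) b.1) (jv (bN p b.2)) (some z) x +
      hz (fun x (j : Λ) => D.tp (p - 1) b.1 x j) (fun (_ : Λ) (_ : ℝ) => (0 : ℝ)) (some z) x ≤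
      bcp (D.tp (p - 1) b.1) (bN p b.2) (some z) x
    rw [e, add_zero, bcp_eq]
  eB := fun {p b} hb hp z x => by
    rw [hz_bool]
    show bcp (D.tp p b.1) (bB p b.2) (some z) x = hz (D.tp p b.1) (vT p (bB p b.2)) (some z) x +
      hz (D.tp p b.1) (TD.pQx p (bB p b.2)) (some z) x
    rw [bcp_eq, ← hz_add]
    exact hz_congr (fun j => (vTp_jv (bB p b.2) j x).symm) (fun _ _ => rfl) _
  eB' := fun {p b} hb hp z x => by
    rw [hz_bool]
    exact le_rfl
  nB := fun {p b} hb hp x i h0 h1 => by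
    obtain ⟨j, t⟩ := i
    have hp0 : 0 < p := Nat.pos_of_ne_zero hp
    have a1 := vT_nonneg (H.bok hb hp) hp0 j x
    have a2 : 0 ≤ TD.pQx p (bB p b.2) j x := ((H.bok hb hp).PQ j).nonneg _
    have a3 := vTp_jv (p := p) (bB p b.2) j x
    have hj : jv (bB p b.2) j x ≠ 0 := by
      intro e
      cases t
      · exact h0 (show TD.pQx p (bB p b.2) j x = 0 by linarith)
      · exact h0 (show vT p (bB p b.2) j x = 0 by linarith)
    have h2 := H.out1 hb hp x j hj
    intro h3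
    cases t
    · exact h1 (h2.2 h3)
    · exact h1 (h2.2 (none_pt h3))

/-- the same, no piece leaves (`hNo` is only used by `pmd_prN`) -/
noncomputable abbrev pmd (H : TYp wr D Inv) (hNo : NoOut D Inv) (U : RBm (rxm H)) :
    PMap U (Λ × Bool) := pmdx H U

variable {H : TYp wr D Inv} {hNo : NoOut D Inv} {U : RBm (rxm H)}

open Classical in
/-- **separated pairs of the rest**, pieces may enter -/
lemma pmdx_prN {p : ℕ} {b : μ × List (DT Λ κ)} (hb : Inv p b) (hp : p ≠ 0) (x : ℝ) :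
    prsN (pmdx H U).fl p b x ≤ 2 * ∑ i, ∑ j, if D.tp p b.1 x i ≠ none ∧
      D.tp p b.1 x i = D.tp p b.1 x j ∧ (D.tp (p - 1) b.1 x i ≠ D.tp (p - 1) b.1 x j ∨
        D.tp (p - 1) b.1 x i = none)
      then jv (bN p b.2) i x * jv (bN p b.2) j x else 0 := by
  refine ((pmdx H U).prN hb hp x).trans (le_of_eq ?_)
  congr 1
  rw [sum_two]
  refine Finset.sum_congr rfl fun i _ => ?_
  have e0 : ∀ j, (pmdx H U).vN p b (j, false) x = 0 := fun j => rfl
  rw [sum_two, sum_two]
  simp only [e0, mul_zero, zero_mul, ite_self, add_zero, Finset.sum_const_zero]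
  rfl

open Classical in
/-- **moved content of the rest, by pieces** -/
lemma pmd_rest {p : ℕ} {b : μ × List (DT Λ κ)} (hb : Inv p b) (hp : p ≠ 0) (r : ζ → ζ) (x : ℝ) :
    mvd ((pmd H hNo U).fl.fN p) r b x ≤
      ∑ j, if D.tp p b.1 x j ≠ none ∧ D.tp (p - 1) b.1 x j ≠ (D.tp p b.1 x j).map r
        then jv (bN p b.2) j x else 0 := by
  refine ((pmd H hNo U).mvN hb hp r x).trans (le_of_eq ?_)
  rw [sum_two]
  refine Finset.sum_congr rfl fun j _ => ?_
  have e : (pmd H hNo U).vN p b (j, false) x = 0 := rfl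
  rw [e, ite_self, add_zero]
  rfl

open Classical in
/-- **moved content of the ties and pulls, by pieces** -/
lemma pmd_tie {p : ℕ} {b : μ × List (DT Λ κ)} (hb : Inv p b) (hp : p ≠ 0) (r : ζ → ζ) (x : ℝ) :
    mvd ((pmd H hNo U).fl.fB p) r b x ≤
      ∑ j, ((if D.tp p b.1 x j ≠ none ∧ D.pt wr p b x j ≠ (D.tp p b.1 x j).map r
          then vT p (bB p b.2) j x else 0) +
        (if D.tp p b.1 x j ≠ none ∧ D.lt p b.1 (p * x) j ≠ (D.tp p b.1 x j).map r
          then pQ (bB p b.2) j (p * x) else 0)) := by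
  refine ((pmd H hNo U).mvB hb hp r x).trans (le_of_eq ?_)
  rw [sum_two]
  rfl

open Classical in
/-- **separated pairs of the rest**, no piece leaves -/
lemma pmd_prN {p : ℕ} {b : μ × List (DT Λ κ)} (hb : Inv p b) (hp : p ≠ 0) (x : ℝ) :
    prsN (pmd H hNo U).fl p b x ≤ 2 * ∑ i, ∑ j, if D.tp p b.1 x i ≠ none ∧
      D.tp p b.1 x i = D.tp p b.1 x j ∧ D.tp (p - 1) b.1 x i ≠ D.tp (p - 1) b.1 x j
      then jv (bN p b.2) i x * jv (bN p b.2) j x else 0 := by
  refine ((pmd H hNo U).prN' hb hp x fun i h0 h1 => ?_).trans (le_of_eq ?_)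
  · obtain ⟨j, t⟩ := i
    cases t
    · exact absurd rfl h0
    · exact hNo hb hp x j h0 h1
  congr 1
  rw [sum_two]
  refine Finset.sum_congr rfl fun i _ => ?_
  have e0 : ∀ j, (pmd H hNo U).vN p b (j, false) x = 0 := fun j => rfl
  rw [sum_two, sum_two]
  simp only [e0, mul_zero, zero_mul, ite_self, add_zero, Finset.sum_const_zero]
  rfl

lemma sum_fst (v : Λ × Bool → ℝ) (j : Λ) :
    ∑ i, (if i.1 = j then v i else 0) = v (j, true) + v (j, false) := by
  rw [sum_two]
  have e : ∀ k : Λ, ((if ((k, true) : Λ × Bool).1 = j then v (k, true) else 0) +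
      (if ((k, false) : Λ × Bool).1 = j then v (k, false) else 0)) =
      if j = k then v (k, true) + v (k, false) else 0 := fun k => by
    by_cases h : k = j
    · subst h; simp
    · have h' : ¬ j = k := fun e => h e.symm
      simp [h, h']
  rw [Finset.sum_congr rfl fun k _ => e k, Finset.sum_ite_eq, if_pos (Finset.mem_univ _)]

/-- the parts of a piece in the rest (field `eN` of `pay_cr2` with `V = LB.pv`) -/
lemma pmd_eN {p : ℕ} {b : μ × List (DT Λ κ)} (j : Λ) (x : ℝ) :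
    ∑ i, (if i.1 = j then (pmd H hNo U).vN p b i x else 0) = jv (bN p b.2) j x := by
  rw [sum_fst fun i => (pmd H hNo U).vN p b i x]
  show jv (bN p b.2) j x + 0 = _
  ring

/-- the parts of a piece in the ties (field `eB` of `pay_cr2` with `V = LB.pv`) -/
lemma pmd_eB {p : ℕ} {b : μ × List (DT Λ κ)} (j : Λ) (x : ℝ) :
    ∑ i, (if i.1 = j then (pmd H hNo U).vB p b i x else 0) = jv (bB p b.2) j x := by
  rw [sum_fst fun i => (pmd H hNo U).vB p b i x]
  exact vTp_jv _ _ _

open Classical in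
/-- **separated pairs of the ties and pulls** (parts `true` = true tie: class `pt`, `false` = pull:
class `lt`) -/
lemma pmd_prB {p : ℕ} {b : μ × List (DT Λ κ)} (hb : Inv p b) (hp : p ≠ 0) (x : ℝ) :
    prs ((pmd H hNo U).fl.fB p) b x ≤ 2 * ∑ i, ∑ j, if D.tp p b.1 x i.1 ≠ none ∧
      D.tp p b.1 x i.1 = D.tp p b.1 x j.1 ∧ kRt D wr p b x i ≠ kRt D wr p b x j
      then two (vT p (bB p b.2)) (TD.pQx p (bB p b.2)) i x *
        two (vT p (bB p b.2)) (TD.pQx p (bB p b.2)) j x else 0 :=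
  (pmd H hNo U).prB hb hp x

end pm

/-! ### payments by the credits, several parts per piece -/

section pay
variable {β δ Λ Λ' : Type} [Fintype δ] [DecidableEq δ] [Fintype Λ] [Fintype Λ'] [DecidableEq Λ]
  {R : RXm β δ} {U : RBm R} {P : PMap U Λ'} (Q : Prc P)

/-- sums over the parts -/
lemma sum_parts (π : Λ' → Λ) (f : Λ' → ℝ) : ∑ i, f i = ∑ j, ∑ i, if π i = j then f i else 0 := by
  rw [Finset.sum_comm]
  refine Finset.sum_congr rfl fun i _ => ?_
  rw [Finset.sum_ite_eq, if_pos (Finset.mem_univ _)]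

/-- **the payments by the credits of the pieces, a piece has several parts** -/
theorem pay_cr2 {V : PV (bm R) Λ} {Z1 Z2 : Cr V} (π : Λ' → Λ)
    (eN : ∀ {p b}, R.ok p b → p ≠ 0 → ∀ j x,
      ∑ i, (if π i = j then P.vN p b i x else 0) ≤ V.v (R.rN p b) j x)
    (eB : ∀ {p b}, R.ok p b → p ≠ 0 → ∀ j x,
      ∑ i, (if π i = j then P.vB p b i x else 0) ≤ V.vB p b j x)
    (z0 : ∀ {p b}, R.ok p b → p ≠ 0 → ∀ j x, 0 ≤ Z1.r p b j x + Z2.r p b j x)
    (z1 : ∀ {p b}, R.ok p b → p ≠ 0 → ∀ j x, 0 ≤ Z1.e p b j x + Z2.e p b j x)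
    {ee : ℕ → β → ℝ → ℝ} {ew : ℕ → β → Λ' → ℝ → ℝ}
    (he : ∀ {k : ℕ} {p b}, R.ok p b → p ≠ 0 → ∀ x, (R.sd (2 ^ k) p b).e x ≤ ee p b x)
    (hE : ∀ {p b}, R.ok p b → p ≠ 0 → ∀ y, 14 * Ep p (ee p b) y ≤
      ∑ i, Ep p (fun x => ew p b i x * P.vB p b i x) y)
    (hc : ∀ {p b}, R.ok p b → p ≠ 0 → ∀ i x, P.vB p b i x ≠ 0 →
      ew p b i x + Q.cB p b i x ≤ Z1.r p b (π i) x + Z2.r p b (π i) x)
    (hb : ∀ {p b}, R.ok p b → p ≠ 0 → ∀ i x, P.vN p b i x ≠ 0 →
      Q.cN p b i x ≤ Z1.e p b (π i) x + Z2.e p b (π i) x) :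
    BPay3 Q.rg Z1.bch Z2.bch Q.sec := by
  have key : ∀ (c : Λ' → ℝ) (v : Λ' → ℝ) (a : Λ → ℝ) (w : Λ → ℝ), (∀ i, 0 ≤ v i) →
      (∀ j, 0 ≤ a j) → (∀ j, ∑ i, (if π i = j then v i else 0) ≤ w j) →
      (∀ i, v i ≠ 0 → c i ≤ a (π i)) → ∑ i, c i * v i ≤ ∑ j, a j * w j := by
    intro c v a w hv ha hw hc
    have h1 : ∑ i, c i * v i ≤ ∑ i, a (π i) * v i := by
      refine Finset.sum_le_sum fun i _ => ?_
      by_cases h : v i = 0
      · rw [h, mul_zero, mul_zero]
      · exact mul_le_mul_of_nonneg_right (hc i h) (hv i)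
    refine h1.trans ?_
    rw [sum_parts π]
    refine Finset.sum_le_sum fun j _ => ?_
    have h2 : ∑ i, (if π i = j then a (π i) * v i else 0) =
        a j * ∑ i, (if π i = j then v i else 0) := by
      rw [Finset.mul_sum]
      refine Finset.sum_congr rfl fun i _ => ?_
      split_ifs with h
      · rw [h]
      · rw [mul_zero]
    rw [h2]
    exact mul_le_mul_of_nonneg_left (hw j) (ha j)
  refine Q.pay he (fun {p b} hb' hp y => ?_) (fun {p b} hb' hp x => ?_)
  · have e1 : Ep p (fun x => 14 * ee p b x + Q.yB p b x) y =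
        14 * Ep p (ee p b) y + ∑ i, Ep p (fun x => Q.cB p b i x * P.vB p b i x) y := by
      rw [← Grp36.Ep_sum']
      unfold Ep
      rw [Finset.sum_add_distrib, ← Finset.mul_sum]
      unfold Prc.yB
      ring
    rw [e1]
    refine (add_le_add_left (hE hb' hp y) _).trans ?_
    show _ ≤ ∑ j, Ep p (fun x => Z1.r p b j x * V.vB p b j x) y +
      ∑ j, Ep p (fun x => Z2.r p b j x * V.vB p b j x) y
    rw [← Grp36.Ep_sum', ← Grp36.Ep_sum', ← Grp36.Ep_sum', ← Grp36.Ep_sum']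
    unfold Ep
    rw [← add_div, ← add_div, ← Finset.sum_add_distrib, ← Finset.sum_add_distrib]
    refine div_le_div_of_nonneg_right (Finset.sum_le_sum fun l _ => ?_) (Nat.cast_nonneg p)
    beta_reduce
    set x : ℝ := (y + (l : ℝ)) / p with hx
    rw [← Finset.sum_add_distrib, ← Finset.sum_add_distrib]
    have h := key (fun i => ew p b i x + Q.cB p b i x) (fun i => P.vB p b i x)
      (fun j => Z1.r p b j x + Z2.r p b j x) (fun j => V.vB p b j x)
      (fun i => (P.pvB hb' hp i).nonneg x) (fun j => z0 hb' hp j x) (fun j => eB hb' hp j x)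
      (fun i hi => hc hb' hp i x hi)
    simpa only [add_mul] using h
  · show ∑ i, Q.cN p b i x * P.vN p b i x ≤ ∑ j, Z1.e p b j x * V.v (R.rN p b) j x +
      ∑ j, Z2.e p b j x * V.v (R.rN p b) j x
    rw [← Finset.sum_add_distrib]
    have h := key (fun i => Q.cN p b i x) (fun i => P.vN p b i x)
      (fun j => Z1.e p b j x + Z2.e p b j x) (fun j => V.v (R.rN p b) j x)
      (fun i => (P.pvN hb' hp i).nonneg x) (fun j => z1 hb' hp j x) (fun j => eN hb' hp j x)
      (fun i hi => hb hb' hp i x hi)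
    simpa only [add_mul] using h

end pay

end Crest.Agent.R4P.RGd25
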