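import Crest.Agent.R4P.PrD_45
import Crest.Agent.R4P.RGd_25

/-!
R4 (S0004) with powers, T3, helper45: **the error `E0` of typed bundles with charges of pairs of items**
(`JnH_5` + `PrE_45` + `PrD_45`).

* `KP.lb`, `E0_pairs` : if the other in-member terms `oth = I jm + I jb0 + I jmB` are at most
  the charges of the pairs (`QC.chg`, weights `κ'`), the charges of the P against N pairs of the ties
  (kernels `K''` of the columns) and an error `er`, then
  `E0 ≤ Kw (so) + (8/δ + Ld) (Σ_j c_j (Psi K + W + PNs K'') + Kw er)`, `W ≤ Vc κ'`.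
* **`E0_pairs_root`** : at one tree the value is
  `2 (leU K + dC K) + (leU κ' + dC κ' + pn κ') + pn K''`.
* `prsN_le`, `prsB_le` : separated pairs of the flows of point maps by the rates of the pairs.
-/

set_option autoImplicit false
set_option linter.unusedSectionVars false
set_option linter.unusedVariables false
open MeasureTheory Filter Set

namespace Crest.Agent.R4P.PrF45

open Crest.Agent.R4.Tour104 Crest.Agent.R4.Tour758 Crest.Agent.R4.Clos758
open Crest.Agent.R4.ClosL758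
open Crest.Agent.R4P.Grp36 Crest.Agent.R4P.GWa343 Crest.Agent.R4P.GWb343 Crest.Agent.R4P.GWc343
open Crest.Agent.R4P.GMer27 Crest.Agent.R4P.GCol27 Crest.Agent.R4P.RSys343
open Crest.Agent.R4P.RXm55 Crest.Agent.R4P.RXm55.RXm
open Crest.Agent.R4P.MSi343 (su su_add two_pos')
open Crest.Agent.R4P.ModeR16 (Ld Ld_pos)
open Crest.Agent.R4P.MSm25 Crest.Agent.R4P.PayR45 Crest.Agent.R4P.GSK55
open Crest.Agent.R4P.DTp26 (jv PB_jv hz)
open Crest.Agent.R4P.MSd343 Crest.Agent.R4P.Bp407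
open Crest.Agent.R4P.RGf25 Crest.Agent.R4P.RGp25
open Crest.Agent.R4P.JnE5 Crest.Agent.R4P.JnF5 Crest.Agent.R4P.JnH5
open Crest.Agent.R4P.PVd45 Crest.Agent.R4P.PVe45 Crest.Agent.R4P.PrE45 Crest.Agent.R4P.PrD45
open Crest.Agent.R4P.LogL51 (isLf)
open Crest.Agent.R4P.Walk560 (DT)

section e0
variable {Λ κ : Type} [Fintype Λ] [DecidableEq Λ] [Fintype κ] [DecidableEq κ]
  {β δ : Type} [Fintype δ] [DecidableEq δ]
  {R : RXm β δ} {pr : β → List (DT Λ κ)} {kO : ℕ → β → ℝ → Λ → Option δ}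
  {K : ℕ → Λ → Λ → ℝ} {U : RBm R} {Inv : ℕ → List (DT Λ κ) → Prop} {kd : ℕ → Λ → κ}
  {κ' : Λ → Λ → ℝ} {K'' : ℕ → Λ → Λ → ℝ}

/-- P against N energy of the tie of a bundle -/
noncomputable def pnE (K'' : ℕ → Λ → Λ → ℝ) (pr : β → List (DT Λ κ)) (p : ℕ) (b : β) : ℝ :=
  1 / (p : ℝ) * (2 * bil (K'' p) (pA (bB p (pr b))) (pB (bB p (pr b))))

/-- **`E0` with charges of pairs** -/
theorem E0_pairs (H : KP R pr kO K) (L : LB (bm R) pr Inv) (HI : DI Inv)
    (hK : ∀ {p b}, (bm R).ok p b → p ≠ 0 → KOk (kd p) p (bB p (pr b))) (hκ : Ker κ')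
    (hK'' : ∀ p, Ker (K'' p)) (Z : QC (L.pv HI) κ') (D : RGx U) {del : ℝ} {Km : ℕ} (h0 : 0 < del)
    (h1 : del ≤ 1) (hdK : del * U.B0 ≤ 2 ^ Km) {er : ℕ → Gs β → ℝ}
    (hf : ∀ {p s}, D.ok p s → p ≠ 0 → oth D Km p s ≤
      GMer27.M s.c (fun j => Z.chg p (s.L j) + pnE K'' pr p (s.L j)) + er p s)
    (n p : ℕ) (s : Gs β) (hs : D.ok p s) (hn : ∀ j, siz (pr (s.L j)) + p ≤ n) :
    Pay45.E0 (D.ms h0 h1 hdK) n p (p, s) ≤ Kw (bm R) (so U) n p s +
      (8 / del + Ld del) * (GMer27.M s.c (fun j => Psi K idk p (pr (s.L j)) +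
        Vc κ' p (pr (s.L j)) + PNs K'' (pr (s.L j))) + Kw (bm R) er n p s) := by
  have tk : ∀ {p b}, (bm R).ok p b → p ≠ 0 → TOk p (bB p (pr b)) := fun h hp => H.tk h hp
  have len : ∀ {p b}, (bm R).ok p b → p ≠ 0 → (bN p (pr b)).length ≤ 1 := fun h hp => H.len h hp
  have S1 := H.sv
  have S2 := QC.sv Z (LB.qp L HI hK) hκ.nn (crn_sv L HI hK tk len hκ)
  have S3 := pn_sv (K' := K'') L HI hK tk
  have S := sv_add (sv_add S1 S2) S3
  have L0 := Ld_pos h0
  have c8 : 0 ≤ 8 / del := by positivity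
  have key := E0_le D h0 h1 hdK S (er := er) (fun {p s} hs hp => ?_) (fun {p s} hs h => ?_)
    n p s hs hn
  · refine key.trans (add_le_add le_rfl (mul_le_mul_of_nonneg_left ?_ (by linarith)))
    refine add_le_add ?_ le_rfl
    refine M_mono (D.gk hs).1.c0 fun j => ?_
    have h2 : (bm R).ok p (s.L j) := (D.gk hs).2 j
    have h3 := Z.W_le (Vc := fun p b => Vc κ' p (pr b)) h2
    exact add_le_add (add_le_add le_rfl h3) le_rfl
  · have h2 := H.inm_le (D.gk hs) hp
    have h3 := hf hs hp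
    have e1 : inm D Km p s = (I (R.jn p s) + lfE R p s) + oth D Km p s := by
      unfold inm oth
      ring
    rw [e1]
    have e2 : GMer27.M s.c (fun j => jl K idk p (pr (s.L j)) + Z.chg p (s.L j) +
        1 / (p : ℝ) * (2 * bil (K'' p) (pA (bB p (pr (s.L j)))) (pB (bB p (pr (s.L j)))))) =
        GMer27.M s.c (fun j => jl K idk p (pr (s.L j))) +
        GMer27.M s.c (fun j => Z.chg p (s.L j) + pnE K'' pr p (s.L j)) := by
      rw [← M_add]
      congr 1
      funext j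
      unfold pnE
      ring
    rw [e2]
    linarith
  · have c0 := (D.gk hs).1.c0
    refine (H.bse_le (D.gk hs) h).trans (M_mono c0 fun j => ?_)
    have hb : R.ok p (s.L j) := (D.gk hs).2 j
    have hlf : ∀ t ∈ pr (s.L j), isLf t = true := by
      rcases h with h0 | h0
      · subst h0; exact H.lf0 hb
      · have := siz_zero (h0 j)
        rw [this]
        simp
    have hW : 0 ≤ Z.W (fun p b => Vc κ' p (pr b)) p (s.L j) :=
      Z.W_nonneg hb (Vc_base hlf).ge
    have hP : PNs K'' (pr (s.L j)) = 0 := by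
      refine List.sum_eq_zero fun y hy => ?_
      obtain ⟨t, ht, rfl⟩ := List.mem_map.1 hy
      obtain ⟨r, f, rfl⟩ := isLf_eq (hlf t ht)
      rfl
    show Psi K idk p (pr (s.L j)) ≤ Psi K idk p (pr (s.L j)) +
      Z.W (fun p b => Vc κ' p (pr b)) p (s.L j) + PNs K'' (pr (s.L j))
    rw [hP]
    linarith

/-- **the form at the root** -/
theorem E0_pairs_root (H : KP R pr kO K) (L : LB (bm R) pr Inv) (HI : DI Inv)
    (hK : ∀ {p b}, (bm R).ok p b → p ≠ 0 → KOk (kd p) p (bB p (pr b))) (hκ : Ker κ')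
    (hK'' : ∀ p, Ker (K'' p)) (Z : QC (L.pv HI) κ') (D : RGx U) {del : ℝ} {Km : ℕ} (h0 : 0 < del)
    (h1 : del ≤ 1) (hdK : del * U.B0 ≤ 2 ^ Km) {er : ℕ → Gs β → ℝ}
    (hf : ∀ {p s}, D.ok p s → p ≠ 0 → oth D Km p s ≤
      GMer27.M s.c (fun j => Z.chg p (s.L j) + pnE K'' pr p (s.L j)) + er p s)
    (n p : ℕ) (b : β) (t : DT Λ κ) (hb : pr b = [t]) (hs : D.ok p (one b)) (hn : t.size + p ≤ n) :
    Pay45.E0 (D.ms h0 h1 hdK) n p (p, one b) ≤ Kw (bm R) (so U) n p (one b) +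
      (8 / del + Ld del) * (2 * (leU K idk p t + dC K idk t) +
        (leU (fun _ => κ') idk p t + dC (fun _ => κ') idk t + pn (fun _ => κ') t) + pn K'' t +
        Kw (bm R) er n p (one b)) := by
  have h2 := E0_pairs H L HI hK hκ hK'' Z D h0 h1 hdK (er := er) hf n p (one b) hs (fun j => by
    have e : pr ((one b).L j) = [t] := hb
    rw [e]
    show siz [t] + p ≤ n
    simpa [siz] using hn)
  have e : GMer27.M (one b).c (fun j => Psi K idk p (pr ((one b).L j)) +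
      Vc κ' p (pr ((one b).L j)) + PNs K'' (pr ((one b).L j))) =
      2 * (leU K idk p t + dC K idk t) +
      (leU (fun _ => κ') idk p t + dC (fun _ => κ') idk t + pn (fun _ => κ') t) + pn K'' t := by
    rw [one_M b (fun b' => Psi K idk p (pr b') + Vc κ' p (pr b') + PNs K'' (pr b')), hb, Psi_single,
      Vc_single, PNs_cons, PNs_nil, add_zero]
  rw [e] at h2
  linarith

end e0

/-! ### the separated pairs of the flows -/

section dom
variable {β δ Λ Λ' : Type} [Fintype δ] [DecidableEq δ] [Fintype Λ] [DecidableEq Λ] [Fintype Λ']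
  {R : RXm β δ} {U : RBm R} {P : PMap U Λ'} {V : PV (bm R) Λ} {κ' : Λ → Λ → ℝ}

/-- sums of products over the parts -/
lemma parts_le (π : Λ' → Λ) {v : Λ' → ℝ} {V : Λ → ℝ} {e : Λ → Λ → ℝ} {q : Λ' → Λ' → ℝ}
    (hv : ∀ i, 0 ≤ v i) (he : ∀ i j, 0 ≤ e i j)
    (hV : ∀ j, ∑ i, (if π i = j then v i else 0) ≤ V j)
    (hq : ∀ i j, v i ≠ 0 → v j ≠ 0 → q i j ≤ e (π i) (π j) * (v i * v j))
    (hq0 : ∀ i j, v i = 0 ∨ v j = 0 → q i j ≤ 0) :
    ∑ i, ∑ j, q i j ≤ ∑ i, ∑ j, e i j * (V i * V j) := by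
  have h1 : ∀ i j, q i j ≤ e (π i) (π j) * (v i * v j) := by
    intro i j
    by_cases h : v i = 0 ∨ v j = 0
    · exact (hq0 i j h).trans (mul_nonneg (he _ _) (mul_nonneg (hv i) (hv j)))
    · push Not at h
      exact hq i j h.1 h.2
  have hW : ∀ j, 0 ≤ ∑ i, (if π i = j then v i else 0) := fun j =>
    Finset.sum_nonneg fun i _ => by
      split_ifs
      · exact hv i
      · exact le_rfl
  calc ∑ i, ∑ j, q i j ≤ ∑ i, ∑ j, e (π i) (π j) * (v i * v j) :=
        Finset.sum_le_sum fun i _ => Finset.sum_le_sum fun j _ => h1 i j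
    _ = ∑ i, ∑ j, e i j * ((∑ k, if π k = i then v k else 0) * ∑ l, if π l = j then v l else 0) := by
        rw [RGd25.sum_parts π fun i => ∑ j, e (π i) (π j) * (v i * v j)]
        refine Finset.sum_congr rfl fun a _ => ?_
        have e1 : ∀ k, (if π k = a then ∑ j, e (π k) (π j) * (v k * v j) else 0) =
            ∑ b, ∑ l, if π k = a ∧ π l = b then e a b * (v k * v l) else 0 := by
          intro k
          by_cases hk : π k = a
          · rw [if_pos hk, RGd25.sum_parts π fun j => e (π k) (π j) * (v k * v j)]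
            refine Finset.sum_congr rfl fun b _ => Finset.sum_congr rfl fun l _ => ?_
            by_cases hl : π l = b
            · rw [if_pos hl, if_pos ⟨hk, hl⟩, hk, hl]
            · rw [if_neg hl, if_neg fun h => hl h.2]
          · rw [if_neg hk]
            refine (Finset.sum_eq_zero fun b _ => Finset.sum_eq_zero fun l _ => ?_).symm
            rw [if_neg fun h => hk h.1]
        rw [Finset.sum_congr rfl fun k _ => e1 k, Finset.sum_comm]
        refine Finset.sum_congr rfl fun b _ => ?_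
        rw [Finset.sum_mul_sum, Finset.mul_sum]
        refine Finset.sum_congr rfl fun k _ => ?_
        rw [Finset.mul_sum]
        refine Finset.sum_congr rfl fun l _ => ?_
        by_cases hk : π k = a
        · by_cases hl : π l = b
          · rw [if_pos ⟨hk, hl⟩, if_pos hk, if_pos hl]
          · rw [if_neg fun h => hl h.2, if_neg hl]
            ring
        · rw [if_neg fun h => hk h.1, if_neg hk]
          ring
    _ ≤ ∑ i, ∑ j, e i j * (V i * V j) :=
        Finset.sum_le_sum fun i _ => Finset.sum_le_sum fun j _ =>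
          mul_le_mul_of_nonneg_left (mul_le_mul (hV i) (hV j) (hW j) ((hW i).trans (hV i))) (he i j)

lemma PB_prs1 {f : β → δ → δ → ℝ → ℝ} {b : β} (hf : ∀ z z', PB (f b z z')) : PB (prs f b) := by
  refine PB.smul (PB.sum _ fun z _ => ?_) (by norm_num)
  exact ModeS16.PB_sub (PBsq (PB.sum _ fun z' _ => hf z z'))
    (PB.sum _ fun z' _ => PBsq (hf z z')) fun x =>
      PN36.sum_sq_le _ _ fun z' _ => (hf z z').nonneg x

lemma PB_prsN1 {F : Fl U} {p : ℕ} {b : β} (hb : R.ok p b) (hp : p ≠ 0) : PB (prsN F p b) := by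
  refine PB.smul (PB.sum _ fun z _ => ?_) (by norm_num)
  have pf := F.pN hb hp z
  refine ModeS16.PB_sub (PBsq (R.pN hb hp z)) (PB.sum _ fun z' _ => PBsq (pf z')) fun x => ?_
  have h1 : ∑ z', F.fN p b z z' x ^ 2 ≤ (∑ z', F.fN p b z z' x) ^ 2 :=
    PN36.sum_sq_le _ _ fun z' _ => (pf z').nonneg x
  have h2 : 0 ≤ ∑ z', F.fN p b z z' x := Finset.sum_nonneg fun z' _ => (pf z').nonneg x
  exact h1.trans (pow_le_pow_left₀ h2 (F.oN hb hp z x) 2)

variable (Z : QC V κ')

/-- **separated pairs of the rest** -/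
theorem prsN_le (π : Λ' → Λ) {p : ℕ} {b : β} (hb : R.ok p b) (hp : p ≠ 0)
    (eN : ∀ j x, ∑ i, (if π i = j then P.vN p b i x else 0) ≤ V.v (R.rN p b) j x)
    (hr : ∀ i i' x, P.vN p b i x ≠ 0 → P.vN p b i' x ≠ 0 → P.kO p b x i ≠ none →
      P.kO p b x i = P.kO p b x i' → (P.kN p b x i ≠ P.kN p b x i' ∨ P.kN p b x i = none) →
      2 ≤ Z.e p b (π i) (π i') x) (x : ℝ) :
    prsN P.fl p b x ≤ ∑ i, ∑ j, Z.e p b i j x * (V.v (R.rN p b) i x * V.v (R.rN p b) j x) := by
  classical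
  have hb' : (bm R).ok p b := hb
  refine (P.prN hb hp x).trans ?_
  rw [Finset.mul_sum]
  simp only [Finset.mul_sum]
  refine parts_le π (fun i => (P.pvN hb hp i).nonneg x) (fun i j => (Z.pe hb' hp i j).nonneg x)
    (fun j => eN j x) (fun i i' h1 h2 => ?_) fun i i' h => ?_
  · have n1 := mul_nonneg ((P.pvN hb hp i).nonneg x) ((P.pvN hb hp i').nonneg x)
    split_ifs with hc
    · exact mul_le_mul_of_nonneg_right (hr i i' x h1 h2 hc.1 hc.2.1 hc.2.2) n1
    · rw [mul_zero]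
      exact mul_nonneg ((Z.pe hb' hp _ _).nonneg x) n1
  · have n1 : P.vN p b i x * P.vN p b i' x = 0 := by
      rcases h with h | h <;> rw [h] <;> ring
    rw [n1, ite_self, mul_zero]

/-- **separated pairs of the ties and pulls** -/
theorem prsB_le (π : Λ' → Λ) {p : ℕ} {b : β} (hb : R.ok p b) (hp : p ≠ 0)
    (eB : ∀ j x, ∑ i, (if π i = j then P.vB p b i x else 0) ≤ V.vB p b j x)
    (hr : ∀ i i' x, P.vB p b i x ≠ 0 → P.vB p b i' x ≠ 0 → P.kO p b x i ≠ none →
      P.kO p b x i = P.kO p b x i' → P.kR p b x i ≠ P.kR p b x i' →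
      2 ≤ Z.r p b (π i) (π i') x) (x : ℝ) :
    prs (P.fl.fB p) b x ≤ ∑ i, ∑ j, Z.r p b i j x * (V.vB p b i x * V.vB p b j x) := by
  classical
  have hb' : (bm R).ok p b := hb
  refine (P.prB hb hp x).trans ?_
  rw [Finset.mul_sum]
  simp only [Finset.mul_sum]
  refine parts_le π (fun i => (P.pvB hb hp i).nonneg x) (fun i j => (Z.pr hb' hp i j).nonneg x)
    (fun j => eB j x) (fun i i' h1 h2 => ?_) fun i i' h => ?_
  · have n1 := mul_nonneg ((P.pvB hb hp i).nonneg x) ((P.pvB hb hp i').nonneg x)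
    split_ifs with hc
    · exact mul_le_mul_of_nonneg_right (hr i i' x h1 h2 hc.1 hc.2.1 hc.2.2) n1
    · rw [mul_zero]
      exact mul_nonneg ((Z.pr hb' hp _ _).nonneg x) n1
  · have n1 : P.vB p b i x * P.vB p b i' x = 0 := by
      rcases h with h | h <;> rw [h] <;> ring
    rw [n1, ite_self, mul_zero]

lemma I_su {s : Gs β} (c0 : ∀ j, 0 ≤ s.c j) {f : β → ℝ → ℝ} (hf : ∀ j, PB (f (s.L j))) :
    I (su s f) = GMer27.M s.c fun j => I (f (s.L j)) :=
  I_M (c0 := c0) (f := fun j => f (s.L j)) hf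

lemma I_sum2 {f : Λ → Λ → ℝ → ℝ} (hf : ∀ i j, PB (f i j)) :
    I (fun x => ∑ i, ∑ j, f i j x) = ∑ i, ∑ j, I (f i j) := by
  rw [I_sum _ fun i _ => (PB.sum _ fun j _ => hf i j).integrableOn]
  exact Finset.sum_congr rfl fun i _ => I_sum _ fun j _ => (hf i j).integrableOn

/-- **the other in-member terms of a game given by point maps**: separated pairs by the rates of the
pairs, budgets `jb0` by `hJ` -/
theorem oth_le (Q : Prc49.Prc P) (π : Λ' → Λ) {Km p : ℕ} {s : Gs β} {g : β → ℝ} {er : ℝ}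
    (hs : Q.ok p s) (hp : p ≠ 0)
    (eN : ∀ {b}, R.ok p b → ∀ j x,
      ∑ i, (if π i = j then P.vN p b i x else 0) ≤ V.v (R.rN p b) j x)
    (eB : ∀ {b}, R.ok p b → ∀ j x, ∑ i, (if π i = j then P.vB p b i x else 0) ≤ V.vB p b j x)
    (hN : ∀ {b}, R.ok p b → ∀ i i' x, P.vN p b i x ≠ 0 → P.vN p b i' x ≠ 0 →
      P.kO p b x i ≠ none → P.kO p b x i = P.kO p b x i' →
      (P.kN p b x i ≠ P.kN p b x i' ∨ P.kN p b x i = none) → 2 ≤ Z.e p b (π i) (π i') x)
    (hB : ∀ {b}, R.ok p b → ∀ i i' x, P.vB p b i x ≠ 0 → P.vB p b i' x ≠ 0 →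
      P.kO p b x i ≠ none → P.kO p b x i = P.kO p b x i' → P.kR p b x i ≠ P.kR p b x i' →
      2 ≤ Z.r p b (π i) (π i') x)
    (hJ : I (R.jb0 p s) ≤ GMer27.M s.c (fun j => ∑ i, ∑ i', Z.low p (s.L j) i i' + g (s.L j)) +
      er) :
    oth Q.rg Km p s ≤ GMer27.M s.c (fun j => Z.chg p (s.L j) + g (s.L j)) + er := by
  have hg := Q.gk hs
  have c0 := hg.1.c0
  have hok : ∀ j, R.ok p (s.L j) := hg.2
  have hok' : ∀ j, (bm R).ok p (s.L j) := hg.2
  have pN : ∀ j, PB (prsN P.fl p (s.L j)) := fun j => PB_prsN1 (hok j) hp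
  have pB : ∀ j, PB (prs (P.fl.fB p) (s.L j)) := fun j => PB_prs1 (P.fl.pB (hok j) hp)
  have e1 : I (Q.rg.jm Km p s) = GMer27.M s.c fun j => I (prsN P.fl p (s.L j)) :=
    I_su c0 pN
  have e2 : I (Q.rg.jmB Km p s) = GMer27.M s.c fun j => I (prs (P.fl.fB p) (s.L j)) :=
    I_su c0 pB
  have h1 : ∀ j, I (prsN P.fl p (s.L j)) ≤ ∑ i, ∑ i', I (fun x => Z.e p (s.L j) i i' x *
      (V.v (R.rN p (s.L j)) i x * V.v (R.rN p (s.L j)) i' x)) := fun j => by
    have pe : ∀ i i', PB fun x => Z.e p (s.L j) i i' x *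
        (V.v (R.rN p (s.L j)) i x * V.v (R.rN p (s.L j)) i' x) := fun i i' =>
      (Z.pe (hok' j) hp i i').mul ((V.pv (V.okR (hok' j) hp) i).mul (V.pv (V.okR (hok' j) hp) i'))
    rw [← I_sum2 pe]
    exact I_mono (pN j).integrableOn (PB.sum _ fun i _ => PB.sum _ fun i' _ => pe i i').integrableOn
      fun x => prsN_le Z π (hok j) hp (eN (hok j)) (hN (hok j)) x
  have h2 : ∀ j, I (prs (P.fl.fB p) (s.L j)) ≤ ∑ i, ∑ i', I (fun x => Z.r p (s.L j) i i' x *
      (V.vB p (s.L j) i x * V.vB p (s.L j) i' x)) := fun j => by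
    have pr : ∀ i i', PB fun x => Z.r p (s.L j) i i' x *
        (V.vB p (s.L j) i x * V.vB p (s.L j) i' x) := fun i i' =>
      (Z.pr (hok' j) hp i i').mul ((V.pvB (hok' j) hp i).mul (V.pvB (hok' j) hp i'))
    rw [← I_sum2 pr]
    exact I_mono (pB j).integrableOn (PB.sum _ fun i _ => PB.sum _ fun i' _ => pr i i').integrableOn
      fun x => prsB_le Z π (hok j) hp (eB (hok j)) (hB (hok j)) x
  have h3 := M_mono c0 fun j => add_le_add (h1 j) (h2 j)
  have e3 : GMer27.M s.c (fun j => Z.chg p (s.L j) + g (s.L j)) =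
      GMer27.M s.c (fun j => ∑ i, ∑ i', I (fun x => Z.e p (s.L j) i i' x *
        (V.v (R.rN p (s.L j)) i x * V.v (R.rN p (s.L j)) i' x)) +
        ∑ i, ∑ i', I (fun x => Z.r p (s.L j) i i' x *
        (V.vB p (s.L j) i x * V.vB p (s.L j) i' x))) +
      GMer27.M s.c (fun j => ∑ i, ∑ i', Z.low p (s.L j) i i' + g (s.L j)) := by
    rw [← M_add]
    congr 1
    funext j
    unfold QC.chg
    rw [← sum2_add, ← add_assoc, ← sum2_add]
    rfl
  unfold oth
  rw [e1, e2, e3]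
  rw [M_add] at h3
  linarith

end dom

end Crest.Agent.R4P.PrF45
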