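import Crest.Agent.R4P.GTopA_50
import Crest.Agent.R4P.BthS_48
import Crest.Agent.R4P.E3N_407
import Crest.Agent.R4P.E3F_479
import Crest.Agent.R4P.FlF_845
import Crest.Agent.R4P.PrF_45
import Crest.Agent.R4P.CrZ_41
import Crest.Agent.R4P.SecO2_55

/-!
R4 (S0004) with powers, T3, helper407: **assembly of the games at a node** (`GTopA50.ND1`, `NDA`, `Tgt50A`).

* §1 the bundles of a context: `InvL`, `diX`, `lbX` (typed row system = real bundles), `prX`, `lf0`, `tokX`,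
  `kpX : KP` from kernels of pieces which dominate the game types on joined pairs (`JnH5.Xp`);
* §2 `Kw_so`, `Kw_so2` (second order of the lifts by `GS SOn`); §3 `okG` (good group states, one memory);
* §4 **`payX`** : the payments `BPay3L` from pointwise rates of the pieces; `oth_eq`;
* §5 **`Gm X Q C n`** (one game, pieces may be outside the game), `Gm.nd : ND1 X u τ n` (local link at the
  level of pieces with flags, `E3F_479`), its analytic quantities `vPhi`, `vJmp`, `vU`, `vSep`, `vJb`, `vX`,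
  `vE`, `vCS`; `Gm.her`, `Gm.e0_le`, `Gm.Sg_le`;
* §6 `Bd`, **`Fm X j₀ u τ n J a ϑ`** (family of games), **`Fm.nda : NDA ..`**;
* §7 **`TgtB`** (all what is left for the leaves) and **`TgtB.tgt : TgtB N γ P → Tgt50A N γ P 0`**.
-/

set_option autoImplicit false
set_option linter.unusedSectionVars false
set_option linter.unusedVariables false
open MeasureTheory Filter Set

namespace Crest.Agent.R4P.AsB407

open Crest.Agent.R4.Tour104 Crest.Agent.R4.Tour758 Crest.Agent.R4.Avg758 Crest.Agent.R4.Clos758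
open Crest.Agent.R4.ClosL758 Crest.Agent.R4.ClosG758 Crest.Agent.R4.ClosR758
open Crest.Agent.R4P.ClosR442 Crest.Agent.R4P.Grp36
open Crest.Agent.R4P.Xfer36 Crest.Agent.R4P.TopC36 Crest.Agent.R4P.PN36
open Crest.Agent.R4P.GMer27 Crest.Agent.R4P.GCol27 Crest.Agent.R4P.GWa343 Crest.Agent.R4P.GWb343
open Crest.Agent.R4P.GWc343 Crest.Agent.R4P.GWd343 Crest.Agent.R4P.GWf343 Crest.Agent.R4P.TrR343
open Crest.Agent.R4P.GWg343 (FX ctx_BI)
open Crest.Agent.R4P.RSys343 Crest.Agent.R4P.RXm55 Crest.Agent.R4P.MSm25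
open Crest.Agent.R4P.MSd343 Crest.Agent.R4P.VR407 Crest.Agent.R4P.Bp407 Crest.Agent.R4P.DTm407
open Crest.Agent.R4P.DTn407 Crest.Agent.R4P.DTo407
open Crest.Agent.R4P.DTp26
open Crest.Agent.R4P.Cnt588 Crest.Agent.R4P.Item758
open Crest.Agent.R4P.Bld532 (NS All NodeOk)
open Crest.Agent.R4P.WalkIT579 (tp isL toDT_top toDT_leaf)
open Crest.Agent.R4P.Walk560 (DT WrN)
open Crest.Agent.R4P.Step588 Crest.Agent.R4P.RseSt23
open Crest.Agent.R4P.TYI47 Crest.Agent.R4P.TYJ47 Crest.Agent.R4P.TYK47 Crest.Agent.R4P.TYP9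
open Crest.Agent.R4P.RsT47
open Crest.Agent.R4P.GSK55 (stp gk Pr Kw Kw_succ Kw_z Kw_mono one one_TC one_su)
open Crest.Agent.R4P.PayR45 (BM BCh PV)
open Crest.Agent.R4P.PVd45 (DI)
open Crest.Agent.R4P.PVe45 (LB Cr)
open Crest.Agent.R4P.JnE5 (Ker TOk)
open Crest.Agent.R4P.JnH5 (KP Xp)
open Crest.Agent.R4P.LogL51 (isLf)
open Crest.Agent.R4P.MSi343 (su)
open Crest.Agent.R4P.Skel189 Crest.Agent.R4P.Frame758 Crest.Agent.R4P.Data758
open Crest.Agent.R4.Soft104 Crest.Agent.R4.Fam464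
open Crest.Agent.R4P.StratX36 Crest.Agent.R4P.TopX36

/-! ### the real bundles of a context -/

section inst
variable {N : Skel189.Num} {γ : ℝ} {p0 P₀ : ℕ} {X : Ctx N γ p0 P₀} {Q : NS → IT → Prop} {C : ℝ}
  {ζ : Type} [Fintype ζ] [DecidableEq ζ] {D : TD Me X.c.Lam (LbX X) ζ}

/-- the invariant of the lists -/
abbrev InvL (X : Ctx N γ p0 P₀) : ℕ → List (DT X.c.Lam (LbX X)) → Prop :=
  BI (FV (rhoX X) fun _ => True)

theorem diX : DI (InvL X) := DI.of_BI (fun t h => h.1.1.1) (fun t h => h.1.1.2.1) (fun h => h)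
  (fun h hp => h.toP) (fun h hp => h.toN) (fun h hp => h.toR hp)

theorem lbX (H : TYp (rhoX X) D (InvM X Q C)) : LB (bm (rxm H)) Prod.snd (InvL X) where
  P := fun _ _ => rfl
  N := fun _ _ => rfl
  R := fun _ _ => rfl
  inv := fun h => h.bi
  okP := fun h hp => H.toP h hp
  okN := fun h hp => H.toN h hp
  okR := fun h hp => H.toR h hp

theorem prX (H : TYp (rhoX X) D (InvM X Q C)) : Pr (bm (rxm H)) Prod.snd :=
  PrD45.LB.Pr (lbX H) diX

/-- the bundles at the column `0` are leaves -/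
theorem lf0 {m : Me} {L : List (DT X.c.Lam (LbX X))} (hQ : ∀ u τ, Q u τ → NDt X.par (w X.ψ) X.c.t u τ)
    (h : InvM X Q C 0 (m, L)) : ∀ t ∈ L, isLf t = true := by
  intro t ht
  obtain ⟨s, τ, hs, e⟩ := h.mi t ht
  have h2 := h.bi.col t ht
  have hn := hQ _ _ hs.1.rm.all.self
  have h4 : t.top ≤ 0 := h2.top_le
  have e1 := toDT_top (X.c.D.par X.Y) X.c.sp s.B s.A τ
  rw [LogL51.isLf_iff]
  subst e
  rw [e1] at h4
  rw [toDT_leaf]
  have hno := hn.self.node
  cases τ with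
  | leaf S => trivial
  | br p Sp t₁ t₀ => exact absurd hno.1.pos (not_lt.2 h4)
  | add b t₁ t₀ => exact absurd hno.1.pos (not_lt.2 h4)
  | up b Sp t => exact absurd hno.1.pos (not_lt.2 h4)
  | pl b t => exact absurd hno.1.pos (not_lt.2 h4)
  | far b t₁ t₀ => exact absurd hno.1.pos (not_lt.2 h4)

lemma w01_of {t : DT X.c.Lam (LbX X)} (h : NOk t) : JnE5.W01 t := by
  cases t with
  | br p w r t₁ t₀ v B G =>
    have h1 := TieOk.br h.1
    rcases h1.hw with h2 | h2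
    · show 0 ≤ w ∧ w ≤ 1
      rw [h2]
      refine ⟨by positivity, ?_⟩
      rcases Nat.eq_zero_or_pos p with h0 | h0
      · rw [h0]; norm_num
      · have h3 : (1:ℝ) ≤ p := by exact_mod_cast h0
        rw [div_le_one (by linarith)]
        exact h3
    · show 0 ≤ w ∧ w ≤ 1
      rw [h2.1]
      exact ⟨le_rfl, zero_le_one⟩
  | leaf r f => trivial
  | add q r t₁ t₀ => trivial
  | up q Sp t => trivial

/-- the ties and pulls of a bundle -/
theorem tokX {p : ℕ} {b : Me × List (DT X.c.Lam (LbX X))} (h : InvM X Q C p b) (hp : p ≠ 0) :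
    TOk p (bB p b.2) where
  isb := fun t ht => isB_of_bB ht
  wok := fun t ht => diX.wok h.bi hp t ht
  mean := fun t ht j y => by
    obtain ⟨w, r, t₁, t₀, v, B, G, e⟩ := isB_eq (isB_of_bB ht)
    have hw := diX.wok h.bi hp t ht
    have hm := (h.bi.bB.all t ht).self.1.1.2.1
    subst e
    have h4 : w = 1 / (p : ℝ) ∨ w = 0 := hw
    obtain ⟨a1, a2, a3, a4⟩ := hm
    have e5 : chN (DT.br p w r t₁ t₀ v B G) = if w = 0 then t₁ else t₀ := rfl
    have e6 : chP (DT.br p w r t₁ t₀ v B G) = t₁ := rfl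
    have e7 : (DT.br p w r t₁ t₀ v B G).g.val j = v j := rfl
    rw [e5, e6, e7, a4 j y]
    rcases h4 with h5 | h5
    · have hp' : (p : ℝ) ≠ 0 := by exact_mod_cast hp
      rw [if_neg (by rw [h5]; positivity), h5]
    · rw [if_pos h5, h5]; ring
  pull := fun t ht hw j x => by
    obtain ⟨w, r, t₁, t₀, v, B, G, e⟩ := isB_eq (isB_of_bB ht)
    have hv := (h.bi.bB.all t ht).self.1.2
    subst e
    have h0 : w = 0 := hw
    rcases hv with ⟨a1, a2, -⟩ | ⟨a1, a2, -⟩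
    · exfalso
      rw [h0] at a1
      have hp0 : 0 < p := Nat.pos_of_ne_zero hp
      have hp' : (0 : ℝ) < 1 / (p : ℝ) := by positivity
      linarith
    · exact a2 j x
  one := h.bi.one

/-- **the in-member data of the joins** : kernels of pieces which dominate the game types -/
theorem kpX (hQ : ∀ u τ, Q u τ → NDt X.par (w X.ψ) X.c.t u τ) (H : TYp (rhoX X) D (InvM X Q C))
    {K : ℕ → X.c.Lam → X.c.Lam → ℝ} (hK : ∀ p, Ker (K p))
    (dom : ∀ {p b}, InvM X Q C p b → ∀ x j j', Xp p b.2 x j j' →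
      D.tp p b.1 x j = D.tp p b.1 x j' → D.tp p b.1 x j ≠ none → 1 ≤ K p j j') :
    KP (rxm H) Prod.snd (fun p b x j => D.tp p b.1 x j) K where
  P := prX H
  ker := hK
  pba := fun h => H.pb h
  w01 := fun {p b} h t ht => (h.bi.all t ht).mono fun s hs => w01_of hs.1.1.1
  tk := fun {p b} h hp => tokX h hp
  len := fun h hp => h.bi.len
  lf0 := fun {b} h => lf0 hQ (m := b.1) (L := b.2) h
  eH := fun {p b} h z x => by
    show bcp (D.tp p b.1) b.2 (some z) x = _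
    rw [bcp_eq]
  eL := fun {p b} h hp z x => by
    show bcp (D.tp p b.1) (bL p b.2) (some z) x = _
    rw [bcp_eq]
  eB := fun {p b} h hp z x => by
    show bcp (D.tp p b.1) (bB p b.2) (some z) x = _
    rw [bcp_eq]
  eN := fun {p b} h hp z x => by
    show bcp (D.tp p b.1) (bN p b.2) (some z) x = _
    rw [bcp_eq]
  dom := fun {p b} h x j j' h1 h2 h3 => dom h x j j' h1 h2 h3

end inst

/-! ### the second order of the lifts -/

section so
variable {μ Λ κ ζ : Type} [Fintype Λ] [DecidableEq Λ] [Fintype κ] [DecidableEq κ]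
  [Fintype ζ] [DecidableEq ζ] {wr : ℕ → Λ → κ} {D : TD μ Λ κ ζ}
  {Inv : ℕ → μ × List (DT Λ κ) → Prop} {p : ℕ} {b : μ × List (DT Λ κ)}

/-- all the lifts -/
lemma gTU (p : ℕ) (b : μ × List (DT Λ κ)) (x : ℝ) :
    D.gT wr p b x + D.gU wr p b x = ∑ j, eg (wr p) p (bB p b.2) j x := by
  classical
  unfold TD.gT TD.gU TD.cG
  rw [← Finset.sum_add_distrib]
  have e : ∀ c : κ, ∑ z : ζ, cz (wr p) (fun x => D.lt p b.1 (p * x)) (eg (wr p) p (bB p b.2)) c
      (some z) x + cz (wr p) (fun x => D.lt p b.1 (p * x)) (eg (wr p) p (bB p b.2)) c none x =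
      ∑ j, if wr p j = c then eg (wr p) p (bB p b.2) j x else 0 := by
    intro c
    simp only [cz_eq]
    rw [Finset.sum_comm, ← Finset.sum_add_distrib]
    refine Finset.sum_congr rfl fun j _ => ?_
    by_cases hc : wr p j = c
    · simp only [hc, true_and, if_true]
      rcases h : D.lt p b.1 (p * x) j with _ | z
      · simp
      · simp
    · simp [hc]
  rw [Finset.sum_congr rfl fun c _ => e c, Finset.sum_comm]
  refine Finset.sum_congr rfl fun j _ => ?_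
  rw [Finset.sum_ite_eq, if_pos (Finset.mem_univ _)]

lemma sum_pB {p : ℕ} : ∀ {K : List (DT Λ κ)} (h : ∀ t ∈ K, isB p t = true ∧
    t.All fun t => ∀ j, PB (t.g.val j)) (y : ℝ), ∑ j, pB K j y ≤ SecO55.nb K y := by
  intro K
  induction K with
  | nil =>
    intro _ y
    show ∑ j : Λ, (0:ℝ) ≤ 0
    simp
  | cons t K ih =>
    intro h y
    have h1 := ih (fun s hs => h s (List.mem_cons_of_mem _ hs)) y
    obtain ⟨h2, h3⟩ := h t (by simp)
    obtain ⟨w, r, t₁, t₀, v, B, G, e⟩ := isB_eq h2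
    subst e
    have e1 : SecO55.nb (DT.br p w r t₁ t₀ v B G :: K) y =
        (∑ j, t₀.g.val j y) + SecO55.nb K y := by
      unfold SecO55.nb
      rw [List.map_cons, List.sum_cons]
      rfl
    have e2 : ∑ j, pB (DT.br p w r t₁ t₀ v B G :: K) j y =
        (∑ j, (if w = 0 then 0 else t₀.g.val j y)) + ∑ j, pB K j y := by
      rw [← Finset.sum_add_distrib]
      refine Finset.sum_congr rfl fun j _ => ?_
      exact ls_cons _ _ _ _ _
    rw [e1, e2]
    refine add_le_add (Finset.sum_le_sum fun j _ => ?_) h1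
    split_ifs
    · exact (h3.2.2.self j).nonneg y
    · exact le_rfl

lemma PB_nb {p : ℕ} : ∀ {K : List (DT Λ κ)} (h : ∀ t ∈ K, isB p t = true ∧
    t.All fun t => ∀ j, PB (t.g.val j)), PB (SecO55.nb K) := by
  intro K
  induction K with
  | nil => intro _; exact PB.const le_rfl
  | cons t K ih =>
    intro h
    have h1 := ih (fun s hs => h s (List.mem_cons_of_mem _ hs))
    obtain ⟨h2, h3⟩ := h t (by simp)
    obtain ⟨w, r, t₁, t₀, v, B, G, e⟩ := isB_eq h2
    subst e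
    have e1 : SecO55.nb (DT.br p w r t₁ t₀ v B G :: K) =
        fun y => (∑ j, t₀.g.val j y) + SecO55.nb K y := by
      funext y
      unfold SecO55.nb
      rw [List.map_cons, List.sum_cons]
      rfl
    rw [e1]
    exact (PB.sum _ fun j _ => h3.2.2.self j).add h1

/-- **the second order terms of the lifts** -/
theorem Kw_so (H : TYp wr D Inv) (P : Pr (bm (rxm H)) Prod.snd) (n p : ℕ)
    (s : Gs (μ × List (DT Λ κ))) (hs : E3P479.gst (bm (rxm H)) p s) :
    Kw (bm (rxm H)) (JnF5.so (rb H)) n p s ≤ 8 * GS SecO55.SOn n p (stp Prod.snd s).g := by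
  have hcl : E3P479.Cl (bm (rxm H)) := ⟨fun h hp => H.toP h hp, fun h hp => H.toN h hp,
    fun h hp => H.toR h hp⟩
  have key := SecO55.Kw_SOn P (gt := fun p b x => D.gT wr p b x + D.gU wr p b x)
    (ok := E3P479.gst (bm (rxm H))) (fun h => h.2) (fun h => h.1.c0)
    (fun h hp => E3P479.gst_C hcl h hp) (fun h hp => E3P479.gst_N hcl h hp)
    (fun {p b} hb hp => ((rxm H).pgT hb hp).add ((rb H).pgU hb hp))
    (fun {p b} hb hp => PB_nb fun t ht =>
      ⟨((H.bok hb hp).bk.ok t ht).2, (H.bok hb hp).pb t ht⟩)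
    (fun {p b} hb hp y => by
      have hb' : Inv p b := hb
      have Kk := H.bok hb' hp
      have e1 : (fun x => D.gT wr p b x + D.gU wr p b x) =
        fun x => ∑ j, eg (wr p) p (bB p b.2) j x := funext fun x => gTU p b x
      rw [e1, Grp36.Ep_sum']
      have h1 : ∑ j, Ep p (eg (wr p) p (bB p b.2) j) y ≤ ∑ j, 1 / (p : ℝ) * pB (bB p b.2) j y :=
        Finset.sum_le_sum fun j _ => E3P479.Ep_eg Kk j y
      refine h1.trans ?_
      rw [← Finset.mul_sum]
      refine mul_le_mul_of_nonneg_left ?_ (by positivity)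
      exact sum_pB (fun t ht => ⟨(Kk.bk.ok t ht).2, Kk.pb t ht⟩) y) n p s hs
  have e2 : Kw (bm (rxm H)) (JnF5.so (rb H)) n p s = 8 * Kw (bm (rxm H)) (fun p s =>
      I (fun y => Ep p (su s ((fun p b x => D.gT wr p b x + D.gU wr p b x) p)) y ^ 2)) n p s := by
    rw [← GSK55.Kw_smul]
    congr 1
    funext p s
    unfold JnF5.so
    congr 2
    funext y
    congr 2
    funext x
    show su s (D.gT wr p) x + su s (D.gU wr p) x = _
    unfold su
    rw [← M_add]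
  rw [e2]
  linarith

/-- **the second order terms of the group lifts** (`E3N407.so2`) -/
theorem Kw_so2 (H : TYp wr D Inv) (P : Pr (bm (rxm H)) Prod.snd) (n p : ℕ)
    (s : Gs (μ × List (DT Λ κ))) (hs : E3P479.gst (bm (rxm H)) p s) :
    Kw (bm (rxm H)) E3N407.so2 n p s ≤ GS SecO55.SOn n p (stp Prod.snd s).g := by
  have hcl : E3P479.Cl (bm (rxm H)) := ⟨fun h hp => H.toP h hp, fun h hp => H.toN h hp,
    fun h hp => H.toR h hp⟩
  exact SecO55.Kw_SOn P (gt := fun p b x => ∑ j, pG (bB p b.2) j x)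
    (ok := E3P479.gst (bm (rxm H))) (fun h => h.2) (fun h => h.1.c0)
    (fun h hp => E3P479.gst_C hcl h hp) (fun h hp => E3P479.gst_N hcl h hp)
    (fun {p b} hb hp => PB.sum _ fun j _ => PB_pG _ j)
    (fun {p b} hb hp => PB_nb fun t ht =>
      ⟨((H.bok hb hp).bk.ok t ht).2, (H.bok hb hp).pb t ht⟩)
    (fun {p b} hb hp y => by
      have hb' : Inv p b := hb
      have Kk := H.bok hb' hp
      rw [Grp36.Ep_sum']
      have h1 : ∑ j, Ep p (pG (bB p b.2) j) y ≤ ∑ j, 1 / (p : ℝ) * pB (bB p b.2) j y :=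
        Finset.sum_le_sum fun j _ => le_of_eq (by
          unfold Ep
          rw [lift_pG Kk j y]; ring)
      refine h1.trans ?_
      rw [← Finset.mul_sum]
      refine mul_le_mul_of_nonneg_left ?_ (by positivity)
      exact sum_pB (fun t ht => ⟨(Kk.bk.ok t ht).2, Kk.pb t ht⟩) y) n p s hs

end so

/-! ### group states -/

section gst
open Crest.Agent.R4P.E3P479 (gst gst_C gst_N Cl)
open Crest.Agent.R4P.E3E479 (Cm Cm_one Cm_C Cm_N)

variable {μ Λ κ ζ : Type} [Fintype Λ] [DecidableEq Λ] [Fintype κ] [DecidableEq κ]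
  [Fintype ζ] [DecidableEq ζ] {wr : ℕ → Λ → κ} {D : TD μ Λ κ ζ}
  {Inv : ℕ → μ × List (DT Λ κ) → Prop} {p : ℕ} {s : Gs (μ × List (DT Λ κ))}

lemma clX (H : TYp wr D Inv) : Cl (bm (rxm H)) :=
  ⟨fun h hp => H.toP h hp, fun h hp => H.toN h hp, fun h hp => H.toR h hp⟩

/-- **good group states** : the members have one memory -/
def okG (H : TYp wr D Inv) (p : ℕ) (s : Gs (μ × List (DT Λ κ))) : Prop :=
  gst (bm (rxm H)) p s ∧ ∃ m, Cm m s

namespace okG
variable {H : TYp wr D Inv}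

lemma gok (h : okG H p s) : (rxm H).gok p s := h.1

lemma grp (h : okG H p s) : (rxm H).grp p s := by
  obtain ⟨m, hm⟩ := h.2
  exact ⟨D.F p m, fun j => by
    show D.F p m = D.F p (s.L j).1
    rw [hm j]⟩

lemma C (h : okG H p s) (hp : p ≠ 0) : okG H p ((bm (rxm H)).C p s) := by
  obtain ⟨m, hm⟩ := h.2
  exact ⟨gst_C (clX H) h.1 hp, D.tu p m, Cm_C (D := D) (fun _ _ => rfl) (fun _ _ => rfl) hm⟩

lemma N (h : okG H p s) (hp : p ≠ 0) : okG H (p - 1) ((bm (rxm H)).N p s) := by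
  obtain ⟨m, hm⟩ := h.2
  exact ⟨gst_N (clX H) h.1 hp, m, Cm_N (D := D) (fun _ _ => rfl) hm⟩

lemma one {b : μ × List (DT Λ κ)} (h : Inv p b) : okG H p (GSK55.one b) :=
  ⟨⟨one_TC b, fun _ => h⟩, b.1, Cm_one b⟩

end okG

end gst

/-! ### payments by the pieces -/

section pay
open Crest.Agent.R4P.RGf25 Crest.Agent.R4P.RGp25 Crest.Agent.R4P.RGd25 Crest.Agent.R4P.Prc49
open Crest.Agent.R4P.Pay349 Crest.Agent.R4P.BthL48 Crest.Agent.R4P.BthS48

variable {μ Λ κ ζ : Type} [Fintype Λ] [DecidableEq Λ] [Fintype κ] [DecidableEq κ]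
  [Fintype ζ] [DecidableEq ζ] {wr : ℕ → Λ → κ} {D : TD μ Λ κ ζ}
  {Inv : ℕ → μ × List (DT Λ κ) → Prop} {Inv' : ℕ → List (DT Λ κ) → Prop}

/-- **the payments by the credits of the pieces** : `eb` rates of the births, on the content `vT` of the
true ties -/
theorem payX {H : TYp wr D Inv} {U : RBm (rxm H)}
    (L : LB (bm (rxm H)) Prod.snd Inv') (HI : DI Inv') {Pc : Prc (pmdx H U)}
    {rows : RowsL (rxm H)} (Lp : LPr Pc.rg rows) {Z1 Z2 : Cr (L.pv HI)}
    {eb : ℕ → μ × List (DT Λ κ) → Λ → ℝ → ℝ}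
    (hE : ∀ {p b}, Inv p b → p ≠ 0 → ∀ y, Ep p (fun x => 14 * rows.e1 p b x + Lp.yE p b x) y ≤
      ∑ j, Ep p (fun x => eb p b j x * vT p (bB p b.2) j x) y)
    (hT : ∀ {p b}, Inv p b → p ≠ 0 → ∀ j x, vT p (bB p b.2) j x ≠ 0 →
      eb p b j x + Pc.cB p b (j, true) x ≤ Z1.r p b j x + Z2.r p b j x)
    (hP : ∀ {p b}, Inv p b → p ≠ 0 → ∀ j x, pQ (bB p b.2) j (p * x) ≠ 0 →
      Pc.cB p b (j, false) x ≤ Z1.r p b j x + Z2.r p b j x)
    (hR : ∀ {p b}, Inv p b → p ≠ 0 → ∀ j x, jv (bN p b.2) j x ≠ 0 →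
      Pc.cN p b (j, true) x ≤ Z1.e p b j x + Z2.e p b j x) :
    BPay3L Pc.rg Lp.bl Z1.bch Z2.bch (secL Pc Lp) := by
  refine payL Pc Lp (fun {p b} hb hp y => ?_) (fun {p b} hb hp x => ?_)
  · have hb' : Inv p b := hb
    have hp0 : 0 < p := Nat.pos_of_ne_zero hp
    have e1 : Ep p (fun x => 14 * rows.e1 p b x + (Lp.yE p b x + Pc.yB p b x)) y =
        Ep p (fun x => 14 * rows.e1 p b x + Lp.yE p b x) y + Ep p (Pc.yB p b) y := by
      rw [← TyS16.Ep_add']
      congr 1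
      funext x
      ring
    rw [e1]
    refine (add_le_add_left (hE hb' hp y) _).trans ?_
    show _ ≤ ∑ j, Ep p (fun x => Z1.r p b j x * jv (bB p b.2) j x) y +
      ∑ j, Ep p (fun x => Z2.r p b j x * jv (bB p b.2) j x) y
    rw [← Grp36.Ep_sum', ← Grp36.Ep_sum', ← Grp36.Ep_sum', ← TyS16.Ep_add', ← TyS16.Ep_add']
    unfold Ep
    refine div_le_div_of_nonneg_right (Finset.sum_le_sum fun l _ => ?_) (Nat.cast_nonneg p)
    beta_reduce
    set x : ℝ := (y + (l : ℝ)) / p with hx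
    have e2 : Pc.yB p b x = ∑ j, (Pc.cB p b (j, true) x * vT p (bB p b.2) j x +
        Pc.cB p b (j, false) x * pQ (bB p b.2) j (p * x)) := sum_two _
    rw [e2, ← Finset.sum_add_distrib, ← Finset.sum_add_distrib]
    refine Finset.sum_le_sum fun j _ => ?_
    have v1 := vTp_jv (p := p) (bB p b.2) j x
    have v2 : TD.pQx p (bB p b.2) j x = pQ (bB p b.2) j (p * x) := rfl
    have n1 := vT_nonneg (H.bok hb' hp) hp0 j x
    have n2 : 0 ≤ pQ (bB p b.2) j (p * x) := ((H.bok hb' hp).PQ j).nonneg _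
    have n3 : 0 ≤ Z1.r p b j x + Z2.r p b j x :=
      add_nonneg ((Z1.pr hb hp j).nonneg x) ((Z2.pr hb hp j).nonneg x)
    have a1 : (eb p b j x + Pc.cB p b (j, true) x) * vT p (bB p b.2) j x ≤
        (Z1.r p b j x + Z2.r p b j x) * vT p (bB p b.2) j x := by
      by_cases h0 : vT p (bB p b.2) j x = 0
      · rw [h0, mul_zero, mul_zero]
      · exact mul_le_mul_of_nonneg_right (hT hb' hp j x h0) n1
    have a2 : Pc.cB p b (j, false) x * pQ (bB p b.2) j (p * x) ≤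
        (Z1.r p b j x + Z2.r p b j x) * pQ (bB p b.2) j (p * x) := by
      by_cases h0 : pQ (bB p b.2) j (p * x) = 0
      · rw [h0, mul_zero, mul_zero]
      · exact mul_le_mul_of_nonneg_right (hP hb' hp j x h0) n2
    rw [← v1, v2]
    nlinarith
  · have hb' : Inv p b := hb
    show ∑ i, Pc.cN p b i x * (pmdx H U).vN p b i x ≤
      ∑ j, Z1.e p b j x * jv (bN p b.2) j x + ∑ j, Z2.e p b j x * jv (bN p b.2) j x
    rw [← Finset.sum_add_distrib]
    refine (le_of_eq (sum_two _)).trans (Finset.sum_le_sum fun j _ => ?_)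
    have e1 : (pmdx H U).vN p b (j, false) x = 0 := rfl
    have e2 : (pmdx H U).vN p b (j, true) x = jv (bN p b.2) j x := rfl
    rw [e1, e2, mul_zero, add_zero, ← add_mul]
    by_cases h0 : jv (bN p b.2) j x = 0
    · rw [h0, mul_zero, mul_zero]
    · exact mul_le_mul_of_nonneg_right (hR hb' hp j x h0)
        ((PB_jv ((H.pb hb').bN p).self j).nonneg x)

/-- the other in-member terms of a game given by prices -/
lemma oth_eq {β δ Λ' : Type} [Fintype δ] [DecidableEq δ] [Fintype Λ'] {R : RXm β δ} {U : RBm R}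
    {P : PMap U Λ'} (Pc : Prc P) (Km p : ℕ) (s : Gs β) : JnH5.oth Pc.rg Km p s =
      (I (su s (prsN P.fl p)) + I (su s (prs (P.fl.fB p)))) + I (R.jb0 p s) := by
  have e1 : I (Pc.rg.jm Km p s) = I (su s (prsN P.fl p)) := rfl
  have e2 : I (Pc.rg.jmB Km p s) = I (su s (prs (P.fl.fB p))) := rfl
  unfold JnH5.oth
  rw [e1, e2]
  ring

end pay

/-! ### one game at a node -/

section game
open Crest.Agent.R4P.RGf25 Crest.Agent.R4P.RGp25 Crest.Agent.R4P.RGd25 Crest.Agent.R4P.Prc49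
open Crest.Agent.R4P.Pay349 Crest.Agent.R4P.BthL48 Crest.Agent.R4P.BthS48
open Crest.Agent.R4P.E3D479 Crest.Agent.R4P.E3E479 Crest.Agent.R4P.E3P479 Crest.Agent.R4P.E3T479
open Crest.Agent.R4P.E3L479 Crest.Agent.R4P.E3U479 Crest.Agent.R4P.E3M479
open Crest.Agent.R4P.E3V479 Crest.Agent.R4P.E3W479 Crest.Agent.R4P.E3F479
open Crest.Agent.R4P.GTopA50

variable {N : Skel189.Num} {γ : ℝ} {p0 P₀ : ℕ}

/-- **inputs of one game** over the typed bundles of a context (`n` groups of families) -/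
structure Gm (X : Ctx N γ p0 P₀) (Q : NS → IT → Prop) (C : ℝ) (n : ℕ) where
  /-- types -/
  ζ : Type
  [fζ : Fintype ζ]
  [dζ : DecidableEq ζ]
  /-- typing data, memory of `TYP_9` -/
  D : TD Me X.c.Lam (LbX X) ζ
  tu : D.tu = tuM
  H : TYp (rhoX X) D (InvM X Q C)
  /-- prices of the class changes (content may enter the game in the rest) -/
  Pc : Prc (pmdx H (rb H))
  hok : ∀ {p s}, Pc.ok p s → okG H p s
  /-- births -/
  rows : RowsL (rxm H)
  Lp : LPr Pc.rg rows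
  /-- linear and Cauchy-Schwarz credits of the pieces -/
  Z1 : Cr ((lbX H).pv diX)
  Z2 : Cr ((lbX H).pv diX)
  /-- payments (`payX`) -/
  pay : BPay3L Pc.rg Lp.bl Z1.bch Z2.bch (secL Pc Lp)
  /-- groups of the lifts (column, index, low type and point type); outside the game: own groups -/
  gr : ℕ → X.c.Lam → Option ζ × Option ζ → Fin n
  hgr : ∀ p i u v, gr p i u = gr p i v → (u.1 = none ↔ v.1 = none)
  /-- related pieces -/
  R3 : PR Me X.c.Lam
  mR3 : ∀ p m j i, MP fun x => R3 p m x j i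
  /-- sides of the ties -/
  sd : ℕ → Me → X.c.Lam → Prop
  hsd : ∀ {p b}, InvM X Q C p b → p ≠ 0 → Sd (bB p b.2) (sd p b.1)

attribute [instance] Gm.fζ Gm.dζ

/-- the start bundle of a node -/
noncomputable def b₀ (X : Ctx N γ p0 P₀) (u : NS) (τ : IT) : Me × List (DT X.c.Lam (LbX X)) :=
  (mS u τ, [(X.self u τ Finset.univ).t])

variable {X : Ctx N γ p0 P₀} {Q : NS → IT → Prop} {C : ℝ} {n : ℕ}

namespace Gm
variable (G : Gm X Q C n)

/-- the row system of the game -/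
noncomputable abbrev R : RXm (Me × List (DT X.c.Lam (LbX X))) G.ζ := rxm G.H

/-- the errors of the local link -/
noncomputable def er : ℕ → Gs (Me × List (DT X.c.Lam (LbX X))) → ℝ :=
  erF G.D (rhoX X) (ixL (X := X)) G.gr G.R3

/-- **one game at one node** -/
noncomputable def nd (j₀ : X.c.Lam) {u : NS} {τ : IT}
    (hst : G.Pc.ok (X.self u τ Finset.univ).p (one (b₀ X u τ))) : ND1 X u τ n where
  β := Me × List (DT X.c.Lam (LbX X))
  δ := G.ζ
  fδ := G.fζ
  R := G.R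
  U := rb G.H
  D := G.Pc.rg
  L := G.Lp.bl
  rc := (tl G.D (rhoX X) (ixL (X := X))).rco
  hr := rcost_DT G.H G.Pc.rg (fun h => h) (fun _ _ _ _ => le_rfl) (fun _ _ _ _ => le_rfl)
  Q1 := G.Z1.bch
  Q2 := G.Z2.bch
  S := secL G.Pc G.Lp
  hQ := G.pay
  pr := Prod.snd
  P := prX G.H
  b₀ := b₀ X u τ
  hb₀ := rfl
  ok := hst
  tot := fun x => bt_start X u τ x
  er := G.er
  loc := fun {p s} hs hp => by
    obtain ⟨hg, m, hm⟩ := G.hok hs
    exact gT_leF X j₀ G.H hg hp hm G.gr G.hgr G.mR3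

/-! #### the analytic quantities of a game -/

variable (u : NS) (τ : IT)

/-- **(E3a)** potential of the related pieces at the start -/
noncomputable def vPhi : ℝ := Pp G.R3 (X.self u τ Finset.univ).p (one (b₀ X u τ))

/-- **(E3b)** newly related pairs and direct pairs, pairs of members -/
noncomputable def vJmp (k : ℕ) : ℝ := Kw (bm G.R) (Ps fun p b b' => Jp G.R3 G.D.tu G.sd p b b' +
  ee (wI G.D (rhoX X) (ixL (X := X)) G.gr G.R3) (rhoX X) p b b') k
  (X.self u τ Finset.univ).p (one (b₀ X u τ))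

/-- **(F)** real cost of the content outside the game -/
noncomputable def vU (k : ℕ) : ℝ := Kw (bm G.R) (FlF845.cU (rb G.H)) k
  (X.self u τ Finset.univ).p (one (b₀ X u τ))

/-- **(E0b, S)** separated pairs of the flows (rest, ties and pulls) -/
noncomputable def vSep (k : ℕ) : ℝ := Kw (bm G.R) (fun p s =>
  I (su s (prsN (pmdx G.H (rb G.H)).fl p)) +
  I (su s (prs ((pmdx G.H (rb G.H)).fl.fB p)))) k
  (X.self u τ Finset.univ).p (one (b₀ X u τ))

/-- **(E0c, S)** budgets of the rows -/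
noncomputable def vJb (k : ℕ) : ℝ := Kw (bm G.R) (fun p s => I (su s (G.R.jB p))) k
  (X.self u τ Finset.univ).p (one (b₀ X u τ))

/-- **(S)** second order parts of the prices of the class changes -/
noncomputable def vX (k : ℕ) : ℝ := Kw (bm G.R) (fun p s => I (G.Pc.xN p s) + I (G.Pc.xB p s)) k
  (X.self u τ Finset.univ).p (one (b₀ X u τ))

/-- **(S)** second order parts of the births -/
noncomputable def vE (k : ℕ) : ℝ := Kw (bm G.R) (fun p s => I (G.Lp.xE p s)) k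
  (X.self u τ Finset.univ).p (one (b₀ X u τ))

/-- **(CS)** mass and energy of the Cauchy-Schwarz credits at the start -/
noncomputable def vCS : ℝ := I (G.Z2.bch.Y (X.self u τ Finset.univ).p (b₀ X u τ)) +
  I (fun x => G.Z2.bch.Y (X.self u τ Finset.univ).p (b₀ X u τ) x ^ 2)

variable {u τ}

/-- **the errors of the local link** -/
theorem her (hB : InvM X Q C (X.self u τ Finset.univ).p (b₀ X u τ)) (k : ℕ) :
    Kw (bm G.R) G.er k (X.self u τ Finset.univ).p (one (b₀ X u τ)) ≤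
      n * (G.vPhi u τ + G.vJmp u τ k) + n * G.vU u τ k :=
  Kw_erF G.H G.mR3 (fun h hp => G.hsd h hp) (ok := okG G.H) (fun h => h.1) (fun h hp => h.C hp)
    (fun h hp => h.N hp) (fun h => h.2) k (X.self u τ Finset.univ).p (one (b₀ X u τ)) (okG.one hB)

/-- **the in-member part of `E0`** -/
theorem e0_le (hQ : ∀ u τ, Q u τ → NDt X.par (w X.ψ) X.c.t u τ)
    (hB : InvM X Q C (X.self u τ Finset.univ).p (b₀ X u τ)) {K : ℕ → X.c.Lam → X.c.Lam → ℝ}
    (hK : ∀ p, Ker (K p))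
    (dom : ∀ {p b}, InvM X Q C p b → ∀ x j j', Xp p b.2 x j j' →
      G.D.tp p b.1 x j = G.D.tp p b.1 x j' → G.D.tp p b.1 x j ≠ none → 1 ≤ K p j j')
    {del : ℝ} {Km : ℕ} (h0 : 0 < del) (h1 : del ≤ 1) (hK' : del * (rb G.H).B0 ≤ 2 ^ Km) {k : ℕ}
    (hk : (X.self u τ Finset.univ).t.size + (X.self u τ Finset.univ).p ≤ k)
    (hst : G.Pc.ok (X.self u τ Finset.univ).p (one (b₀ X u τ))) :
    Pay45.E0 (G.Pc.rg.ms h0 h1 hK') k (X.self u τ Finset.univ).p
        ((X.self u τ Finset.univ).p, one (b₀ X u τ)) ≤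
      8 * GS SecO55.SOn k (X.self u τ Finset.univ).p [((1 : ℝ), (X.self u τ Finset.univ).t)] +
      (8 / del + ModeR16.Ld del) * (2 * (JnE5.leU K JnH5.idk (X.self u τ Finset.univ).p
        (X.self u τ Finset.univ).t + JnE5.dC K JnH5.idk (X.self u τ Finset.univ).t) +
        (G.vSep u τ k + G.vJb u τ k)) := by
  have a1 := JnH5.E0_root (kpX hQ G.H hK dom) G.Pc.rg h0 h1 hK' k (X.self u τ Finset.univ).p
    (b₀ X u τ) (X.self u τ Finset.univ).t rfl hst hk
  have a2 := Kw_so G.H (prX G.H) k (X.self u τ Finset.univ).p (one (b₀ X u τ)) (okG.one hB).1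
  have e1 : (stp Prod.snd (one (b₀ X u τ))).g = [((1 : ℝ), (X.self u τ Finset.univ).t)] :=
    GSK55.one_g rfl
  rw [e1] at a2
  have e2 : Kw (bm G.R) (JnH5.oth G.Pc.rg Km) k (X.self u τ Finset.univ).p (one (b₀ X u τ)) =
      G.vSep u τ k + G.vJb u τ k := by
    have e3 : JnH5.oth G.Pc.rg Km = fun p s =>
        (I (su s (prsN (pmdx G.H (rb G.H)).fl p)) +
        I (su s (prs ((pmdx G.H (rb G.H)).fl.fB p)))) + I (su s (G.R.jB p)) := by
      funext p s
      exact oth_eq G.Pc Km p s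
    rw [e3, GSK55.Kw_add]
    rfl
  rw [e2] at a1
  linarith

/-- **the second order parts** -/
theorem Sg_le (hst : G.Pc.ok (X.self u τ Finset.univ).p (one (b₀ X u τ))) (k : ℕ) :
    Sg (secL G.Pc G.Lp) k (X.self u τ Finset.univ).p (one (b₀ X u τ)) =
      G.vX u τ k + G.vE u τ k + 14 * (G.vSep u τ k + G.vJb u τ k) := by
  rw [SgL_eq G.Pc G.Lp k _ _ hst, G.Pc.Sg_eq k _ _ hst]
  unfold vX vE vSep vJb
  ring

end Gm

/-! ### families of games -/

/-- **the form of all the bounds** -/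
def Bd (X : Ctx N γ p0 P₀) (j₀ : X.c.Lam) (u : NS) (τ : IT) (a ϑ v : ℝ) : Prop :=
  v ≤ a * (X.mu j₀ u τ Finset.univ + X.mu j₀ u τ Finset.univ * X.mu j₀ u τ Finset.univ) +
    a * ϑ * I (fun x => tt Finset.univ (X.g u τ) x ^ 2)

/-- **inputs of a family of games at one node** : everything the leaves of the proof have to supply.
`n` groups of lifts, `J` total rate of the linear charges (on average, only at the start), `a`, `ϑ`
constants of all the error bounds -/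
structure Fm (X : Ctx N γ p0 P₀) (j₀ : X.c.Lam) (u : NS) (τ : IT) (n : ℕ) (J a ϑ : ℝ) where
  /-- node facts -/
  Q : NS → IT → Prop
  hQ : ∀ u τ, Q u τ → NDt X.par (w X.ψ) X.c.t u τ
  C : ℝ
  hB : InvM X Q C (X.self u τ Finset.univ).p (b₀ X u τ)
  /-- thresholds and their weights -/
  A : Type
  [fA : Fintype A]
  [nA : Nonempty A]
  ω : A → ℝ
  ω0 : ∀ i, 0 ≤ ω i
  ω1 : ∑ i, ω i = 1
  /-- the games -/
  G : A → Gm X Q C n
  hst : ∀ i, (G i).Pc.ok (X.self u τ Finset.univ).p (one (b₀ X u τ))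
  /-- total rate of the linear charges -/
  hJ : ∀ x, ∑ i, ω i * (G i).Z1.bch.Y (X.self u τ Finset.univ).p (b₀ X u τ) x ≤
    J * tt Finset.univ (X.g u τ) x
  /-- kernels of pieces which dominate the game types on joined pairs (`Xp` : two leaves, or two
  different trees of the bundle) -/
  K : A → ℕ → X.c.Lam → X.c.Lam → ℝ
  hK : ∀ i p, Ker (K i p)
  dom : ∀ i {p b}, InvM X Q C p b → ∀ x j j', Xp p b.2 x j j' →
    (G i).D.tp p b.1 x j = (G i).D.tp p b.1 x j' → (G i).D.tp p b.1 x j ≠ none → 1 ≤ K i p j j'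
  /-- the bounds, for large step numbers -/
  k0 : ℕ
  hPhi : Bd X j₀ u τ a ϑ (∑ i, ω i * (G i).vPhi u τ)
  hJmp : ∀ k, k0 ≤ k → Bd X j₀ u τ a ϑ (∑ i, ω i * (G i).vJmp u τ k)
  hU : ∀ k, k0 ≤ k → Bd X j₀ u τ a ϑ (∑ i, ω i * (G i).vU u τ k)
  hLeU : Bd X j₀ u τ a ϑ (∑ i, ω i * (JnE5.leU (K i) JnH5.idk (X.self u τ Finset.univ).p
    (X.self u τ Finset.univ).t + JnE5.dC (K i) JnH5.idk (X.self u τ Finset.univ).t))
  hSep : ∀ k, k0 ≤ k → Bd X j₀ u τ a ϑ (∑ i, ω i * (G i).vSep u τ k)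
  hJb : ∀ k, k0 ≤ k → Bd X j₀ u τ a ϑ (∑ i, ω i * (G i).vJb u τ k)
  hX : ∀ k, k0 ≤ k → Bd X j₀ u τ a ϑ (∑ i, ω i * (G i).vX u τ k)
  hE : ∀ k, k0 ≤ k → Bd X j₀ u τ a ϑ (∑ i, ω i * (G i).vE u τ k)
  hCS : Bd X j₀ u τ a ϑ (∑ i, ω i * (G i).vCS u τ)

attribute [instance] Fm.fA Fm.nA

lemma avg_her {A : Type} [Fintype A] {ω : A → ℝ} (c : ℝ) (P Jm Uu : A → ℝ) :
    ∑ i, ω i * (c * (P i + Jm i) + c * Uu i) =
      c * (∑ i, ω i * P i + ∑ i, ω i * Jm i) + c * ∑ i, ω i * Uu i := by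
  simp only [← Finset.sum_add_distrib, Finset.mul_sum]
  exact Finset.sum_congr rfl fun i _ => by ring

lemma avg_e0 {A : Type} [Fintype A] {ω : A → ℝ} (h1 : ∑ i, ω i = 1) (c s : ℝ)
    (L Se Jb : A → ℝ) : ∑ i, ω i * (8 * s + c * (2 * L i + (Se i + Jb i))) =
      8 * s + c * (2 * ∑ i, ω i * L i + (∑ i, ω i * Se i + ∑ i, ω i * Jb i)) := by
  have e : ∑ i, ω i * (8 * s) = 8 * s := by rw [← Finset.sum_mul, h1, one_mul]
  have e2 : ∀ y : ℝ, 8 * s + y = ∑ i, ω i * (8 * s) + y := fun y => by rw [e]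
  rw [e2]
  simp only [← Finset.sum_add_distrib, Finset.mul_sum]
  exact Finset.sum_congr rfl fun i _ => by ring

lemma avg_S {A : Type} [Fintype A] {ω : A → ℝ} (x e Se Jb : A → ℝ) :
    ∑ i, ω i * (x i + e i + 14 * (Se i + Jb i)) =
      ∑ i, ω i * x i + ∑ i, ω i * e i + 14 * (∑ i, ω i * Se i + ∑ i, ω i * Jb i) := by
  simp only [← Finset.sum_add_distrib, Finset.mul_sum]
  exact Finset.sum_congr rfl fun i _ => by ring

/-- constants of the family -/
noncomputable def cn (a : ℝ) (del : ℝ) : ℝ := a * (8 + 4 * |8 / del + ModeR16.Ld del|)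

/-- **the family of games** -/
noncomputable def Fm.nda {j₀ : X.c.Lam} {u : NS} {τ : IT} {J a ϑ : ℝ}
    (F : Fm X j₀ u τ n J a ϑ) (hn : 1 ≤ n) (ha : 0 ≤ a) (hϑ : 0 ≤ ϑ)
    (hm : 0 ≤ X.mu j₀ u τ Finset.univ)
    (hSo : ∀ k, Bd X j₀ u τ a ϑ (GS SecO55.SOn k (X.self u τ Finset.univ).p
      [((1 : ℝ), (X.self u τ Finset.univ).t)])) :
    NDA X j₀ u τ J n (100 * n ^ 2 * a) 0 ϑ (cn a) where
  A := F.A
  fA := F.fA
  nA := F.nA
  ω := F.ω
  ω0 := F.ω0
  ω1 := F.ω1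
  G := fun i => (F.G i).nd j₀ (F.hst i)
  mx := fun i j {del Km Km'} h0 h1 hK hK' k => by
    refine mx_of (F.G i).Pc.rg (F.G j).Pc.rg ?_ ?_ rfl rfl h0 h1 hK hK' k _ _
    · show (F.G i).D.cP = (F.G j).D.cP
      unfold TD.cP
      rw [(F.G i).tu, (F.G j).tu]
    · show (F.G i).D.cN = (F.G j).D.cN
      unfold TD.cN
      rw [(F.G i).tu, (F.G j).tu]
  hJ := F.hJ
  n0 := max F.k0 ((X.self u τ Finset.univ).t.size + (X.self u τ Finset.univ).p)
  her := fun k hk => by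
    have hk0 : F.k0 ≤ k := (le_max_left _ _).trans hk
    have h1 : ∀ i, F.ω i * Kw (bm (F.G i).R) (F.G i).er k (X.self u τ Finset.univ).p
        (one (b₀ X u τ)) ≤ F.ω i * (n * ((F.G i).vPhi u τ + (F.G i).vJmp u τ k) +
        n * (F.G i).vU u τ k) :=
      fun i => mul_le_mul_of_nonneg_left ((F.G i).her F.hB k) (F.ω0 i)
    have h2 := Finset.sum_le_sum fun i (_ : i ∈ Finset.univ) => h1 i
    have b1 := F.hPhi
    have b2 := F.hJmp k hk0
    have b3 := F.hU k hk0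
    unfold Bd at b1 b2 b3
    rw [avg_her] at h2
    have hn' : (1 : ℝ) ≤ n := by exact_mod_cast hn
    have I2 : 0 ≤ I (fun x => tt Finset.univ (X.g u τ) x ^ 2) := I_nonneg fun x => sq_nonneg _
    have m2 := mul_nonneg hm hm
    set m := X.mu j₀ u τ Finset.univ + X.mu j₀ u τ Finset.univ * X.mu j₀ u τ Finset.univ with hmd
    have m0 : 0 ≤ m := add_nonneg hm m2
    set T2 := I (fun x => tt Finset.univ (X.g u τ) x ^ 2) with hT2
    set V1 := ∑ i, F.ω i * (F.G i).vPhi u τ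
    set V2 := ∑ i, F.ω i * (F.G i).vJmp u τ k
    set V3 := ∑ i, F.ω i * (F.G i).vU u τ k
    have B0 : 0 ≤ a * m + a * ϑ * T2 := by positivity
    have c1 : (n:ℝ) * (V1 + V2) ≤ n * (2 * (a * m + a * ϑ * T2)) :=
      mul_le_mul_of_nonneg_left (by linarith) (by positivity)
    have c2 : (n:ℝ) * V3 ≤ n * (a * m + a * ϑ * T2) :=
      mul_le_mul_of_nonneg_left b3 (by positivity)
    have c5 : 3 * (n:ℝ) * (a * m + a * ϑ * T2) ≤
        100 * (n:ℝ) ^ 2 * (a * m + a * ϑ * T2) :=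
      mul_le_mul_of_nonneg_right (by nlinarith) B0
    have e2 : 100 * (n:ℝ) ^ 2 * a * m + (0 + 100 * n ^ 2 * a * ϑ) * T2 =
        100 * (n:ℝ) ^ 2 * (a * m + a * ϑ * T2) := by ring
    rw [e2]
    show ∑ i, F.ω i * Kw (bm (F.G i).R) (F.G i).er k (X.self u τ Finset.univ).p
      (one (b₀ X u τ)) ≤ _
    linarith
  e0 := fun {del Km} h0 h1 hK k hk => by
    have hk0 : F.k0 ≤ k := (le_max_left _ _).trans hk
    have hk1 : (X.self u τ Finset.univ).t.size + (X.self u τ Finset.univ).p ≤ k :=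
      (le_max_right _ _).trans hk
    have h2 := Finset.sum_le_sum fun i (_ : i ∈ Finset.univ) => mul_le_mul_of_nonneg_left
      ((F.G i).e0_le F.hQ F.hB (F.hK i) (fun h x j j' => F.dom i h x j j') h0 h1 (hK i) hk1
        (F.hst i))
      (F.ω0 i)
    have b1 := F.hLeU
    have b2 := F.hSep k hk0
    have b3 := F.hJb k hk0
    have b4 := hSo k
    unfold Bd at b1 b2 b3 b4
    rw [avg_e0 F.ω1] at h2
    have L0 := ModeR16.Ld_pos h0
    have c0 : 0 ≤ 8 / del + ModeR16.Ld del := by positivity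
    unfold cn
    rw [abs_of_nonneg c0]
    set m := X.mu j₀ u τ Finset.univ + X.mu j₀ u τ Finset.univ * X.mu j₀ u τ Finset.univ with hmd
    set T2 := I (fun x => tt Finset.univ (X.g u τ) x ^ 2) with hT2
    set c := 8 / del + ModeR16.Ld del
    have c1 : c * (2 * (∑ i, F.ω i * (JnE5.leU (F.K i) JnH5.idk (X.self u τ Finset.univ).p
        (X.self u τ Finset.univ).t + JnE5.dC (F.K i) JnH5.idk (X.self u τ Finset.univ).t)) +
        (∑ i, F.ω i * (F.G i).vSep u τ k + ∑ i, F.ω i * (F.G i).vJb u τ k)) ≤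
        c * (4 * (a * m + a * ϑ * T2)) := mul_le_mul_of_nonneg_left (by linarith) c0
    have e2 : a * (8 + 4 * c) * m + a * (8 + 4 * c) * ϑ * T2 =
        8 * (a * m + a * ϑ * T2) + c * (4 * (a * m + a * ϑ * T2)) := by ring
    rw [e2]
    show ∑ i, F.ω i * Pay45.E0 ((F.G i).Pc.rg.ms h0 h1 (hK i)) k (X.self u τ Finset.univ).p
        ((X.self u τ Finset.univ).p, one (b₀ X u τ)) ≤ _
    linarith
  hS := fun k hk => by
    have hk0 : F.k0 ≤ k := (le_max_left _ _).trans hk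
    have hn' : (1 : ℝ) ≤ n := by exact_mod_cast hn
    have e1 : ∑ i, F.ω i * Sg (secL (F.G i).Pc (F.G i).Lp) k (X.self u τ Finset.univ).p
        (one (b₀ X u τ)) = ∑ i, F.ω i * ((F.G i).vX u τ k + (F.G i).vE u τ k +
          14 * ((F.G i).vSep u τ k + (F.G i).vJb u τ k)) :=
      Finset.sum_congr rfl fun i _ => by rw [(F.G i).Sg_le (F.hst i) k]
    have b1 := F.hX k hk0
    have b2 := F.hSep k hk0
    have b3 := F.hJb k hk0
    have b4 := F.hE k hk0
    unfold Bd at b1 b2 b3 b4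
    rw [avg_S] at e1
    have I2 : 0 ≤ I (fun x => tt Finset.univ (X.g u τ) x ^ 2) := I_nonneg fun x => sq_nonneg _
    have m2 := mul_nonneg hm hm
    set m := X.mu j₀ u τ Finset.univ + X.mu j₀ u τ Finset.univ * X.mu j₀ u τ Finset.univ with hmd
    have m0 : 0 ≤ m := add_nonneg hm m2
    set T2 := I (fun x => tt Finset.univ (X.g u τ) x ^ 2) with hT2
    have B0 : 0 ≤ a * m + a * ϑ * T2 := by positivity
    have c5 : 30 * (a * m + a * ϑ * T2) ≤ 100 * (n:ℝ) ^ 2 * (a * m + a * ϑ * T2) :=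
      mul_le_mul_of_nonneg_right (by nlinarith) B0
    have e2 : 100 * (n:ℝ) ^ 2 * a * m + 100 * n ^ 2 * a * ϑ * T2 =
        100 * (n:ℝ) ^ 2 * (a * m + a * ϑ * T2) := by ring
    rw [e2]
    show ∑ i, F.ω i * Sg (secL (F.G i).Pc (F.G i).Lp) k (X.self u τ Finset.univ).p
        (one (b₀ X u τ)) ≤ _
    rw [e1]
    linarith
  hy := by
    have hn' : (1 : ℝ) ≤ n := by exact_mod_cast hn
    have b1 := F.hCS
    unfold Bd at b1
    have I2 : 0 ≤ I (fun x => tt Finset.univ (X.g u τ) x ^ 2) := I_nonneg fun x => sq_nonneg _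
    have m2 := mul_nonneg hm hm
    set m := X.mu j₀ u τ Finset.univ + X.mu j₀ u τ Finset.univ * X.mu j₀ u τ Finset.univ with hmd
    have m0 : 0 ≤ m := add_nonneg hm m2
    set T2 := I (fun x => tt Finset.univ (X.g u τ) x ^ 2) with hT2
    have B0 : 0 ≤ a * m + a * ϑ * T2 := by positivity
    have c5 : 1 * (a * m + a * ϑ * T2) ≤ 100 * (n:ℝ) ^ 2 * (a * m + a * ϑ * T2) :=
      mul_le_mul_of_nonneg_right (by nlinarith) B0
    have e2 : 100 * (n:ℝ) ^ 2 * a * m + 100 * n ^ 2 * a * ϑ * T2 =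
        100 * (n:ℝ) ^ 2 * (a * m + a * ϑ * T2) := by ring
    rw [e2]
    exact b1.trans (by linarith)

/-! ### the target -/

open Crest.Agent.R4P.SkelF29 (BootF)
open Crest.Agent.R4P.Fin5 (CF)

/-- **the target of the leaves** : `n` groups of lifts, rate `J`, constant `a` are chosen before
`M`; the second order budget `ϑ` is arbitrarily small; `M`, `ϑ` before `p0` -/
def TgtB (N : Skel189.Num) (γ : ℝ) (P : ∀ {p0 P₀ : ℕ} (X : Ctx N γ p0 P₀), Prop) : Prop :=
  ∃ (n : ℕ) (J a : ℝ), 1 ≤ n ∧ 0 ≤ J ∧ 1 ≤ a ∧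
    ∀ M : ℝ, 0 ≤ M → ∀ ϑ : ℝ, 0 < ϑ → Ev N γ fun p0 P₀ X => CF X → P X → ∀ (j₀ : X.c.Lam) (Kb : ℝ),
    0 ≤ Kb → Kb ≤ M * Real.log p0 ^ M →
    All (fun u τ => ¬ isL τ → BootF X j₀ (fun _ _ => 0) Kb u τ →
      Nonempty (Fm X j₀ u τ n J a ϑ)) ⟨top X.S, 1, 1, 1⟩ X.c.t

/-- **the data of the contract `GTopA50.Tgt50A`** -/
theorem TgtB.tgt {γ : ℝ} {P : ∀ {p0 P₀ : ℕ} (X : Ctx N γ p0 P₀), Prop}
    (h : TgtB N γ P) : Tgt50A N γ P 0 := by
  obtain ⟨n, J, a, hn, hJ, ha, h⟩ := h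
  have ha0 : 0 ≤ a := by linarith
  refine ⟨J, n, 100 * n ^ 2 * a, cn a, hJ, by positivity, by positivity, fun del => ?_,
    fun M hM ϑ hϑ => ?_⟩
  · unfold cn
    positivity
  obtain ⟨p1, h1⟩ := SecO55.ctx_SOn N M hM (ε := 1) one_pos
  obtain ⟨p₁, h2⟩ := h M hM ϑ hϑ
  refine ⟨p1 + p₁, fun p0 hp0 => ?_⟩
  obtain ⟨Q₁, h3⟩ := h2 p0 (by omega)
  refine ⟨Q₁, fun P₀ hP₀ X hC hP j₀ Kb k1 k2 => ?_⟩
  have h4 := h3 P₀ hP₀ X hC hP j₀ Kb k1 k2
  have h5 := h1 p0 (by omega) γ P₀ X j₀ Kb k1 k2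
  refine All.mono (fun u τ hh hl hB => ?_) ((h4.and h5).and (ctx_mumu X j₀))
  obtain ⟨⟨a1, a2⟩, a3⟩ := hh
  obtain ⟨F⟩ := a1 hl hB
  have m1 := (a3 Finset.univ).1
  have m2 := (a3 Finset.univ).2
  refine ⟨F.nda hn ha0 hϑ.le m1 fun k => ?_⟩
  have b1 := a2 hB k (X.self u τ Finset.univ).p
  have I2 : 0 ≤ I (fun x => tt Finset.univ (X.g u τ) x ^ 2) := I_nonneg fun x => sq_nonneg _
  unfold Bd
  have b2 : 0 ≤ a * ϑ * I (fun x => tt Finset.univ (X.g u τ) x ^ 2) := by positivity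
  have b3 : 1 * X.mu j₀ u τ Finset.univ ≤ a * (X.mu j₀ u τ Finset.univ +
      X.mu j₀ u τ Finset.univ * X.mu j₀ u τ Finset.univ) :=
    mul_le_mul ha (by linarith) m1 ha0
  linarith

end game

end Crest.Agent.R4P.AsB407
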