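import Crest.Agent.R4P.PayR_45

/-!
R4 (S0004) with powers, T3, helper8: **averaged game-only thresholds** (payment by averaging).

The scales `sc` and the running maximum `Mx` of the walk (`ModeS_16`) only depend on the class-blind
total `T`, on `del` and on the maps `C`, `N`, not on the game classes. So every family of games
`w a : MS (σ a)`, `a : A` (`a` = choice of the game-only thresholds), over one real walk has the same
scales, and every charge may be averaged over `a`, at the root, piece by piece.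

* `SameT` : two walks with the same totals; `Mx_congr`, `sc_congr`, `same_of_ok`, `same_of_sim`.
* `avg_WS` : if the averaged future charge content is `≤ J T` then the averaged walk sum of the charges
  is `≤ J (I T + 4 δ I T²)`; `exists_le_avg` : there is a good `a`; `le_avg` : a number bounded by every
  game is bounded by the average.
* `avg_Y`, `avg_pay` : the form for rates (`PayR_45.Rates`): the averaged total rate of every piece is
  `≤ J`.
* `Spread A f κ η` : `f : A → ℝ` is spread: the share of `{a : |f a - x| ≤ ε}` is at most `κ ε + η`;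
  `spread_grid` (grid of `N` points of an interval of length `len` : `κ = 2 / len`, `η = 1 / N`),
  `Spread.fst`, `Spread.snd` (pairs of thresholds).
* `avg_windows` : a piece which is charged at most `c l` at the events `l` with `|f a - x l| ≤ ε l`
  has the averaged total rate `Σ_l c l (κ ε l + η)`; `sum_dyadic`, `sum_doubling`, `avg_eras` : windows
  `C g_l^(-θ)` with at most `D` complexities `g_l` per dyadic block; `avg_rate_windows`,
  `avg_pay_windows` : all together.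
-/

set_option autoImplicit false
set_option linter.unusedSectionVars false
set_option linter.unusedVariables false
open MeasureTheory Filter Set

namespace Crest.Agent.R4P.AvgT8

open Crest.Agent.R4.Tour104 Crest.Agent.R4.Clos758
open Crest.Agent.R4P.GMer27 Crest.Agent.R4P.GCol27 Crest.Agent.R4P.RSys343
open Crest.Agent.R4P.ModeS16
open Crest.Agent.R4P.MSi343 (su)
open Crest.Agent.R4P.Pay45 Crest.Agent.R4P.PayR45

/-! ### walks with the same totals -/

section same
variable {σ τ : Type*}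

/-- the two walks have the same totals (`n` steps, started at `(p, s)` and `(p, t)`) -/
def SameT (w : MS σ) (v : MS τ) : ℕ → ℕ → σ → τ → Prop
  | 0, _, s, t => w.T s = v.T t
  | n + 1, p, s, t => w.T s = v.T t ∧ (p ≠ 0 → SameT w v n p (w.C p s) (v.C p t) ∧
      SameT w v n (p - 1) (w.N p s) (v.N p t))

lemma SameT.T {w : MS σ} {v : MS τ} {n p : ℕ} {s : σ} {t : τ} (h : SameT w v n p s t) :
    w.T s = v.T t := by
  cases n with
  | zero => exact h
  | succ n => exact h.1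

/-- the same running maximum -/
lemma Mx_congr {w : MS σ} {v : MS τ} : ∀ {n p : ℕ} {s : σ} {t : τ}, SameT w v n p s t →
    Mx w n p s = Mx v n p t := by
  intro n
  induction n with
  | zero => intro p s t h; exact h
  | succ n ih =>
    intro p s t h
    by_cases hp : p = 0
    · subst hp
      exact h.1
    · funext x
      rw [Mx_succ w n hp, Mx_succ v n hp, h.1, ih (h.2 hp).1, ih (h.2 hp).2]

/-- the same scales -/
lemma sc_congr {w : MS σ} {v : MS τ} (hd : w.del = v.del) : ∀ {n p : ℕ} {s : σ} {t : τ},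
    SameT w v n p s t → sc w n p s = sc v n p t := by
  intro n
  induction n with
  | zero =>
    intro p s t h
    have h1 : w.T s = v.T t := h
    funext x
    show dy (w.del * w.T s x) = dy (v.del * v.T t x)
    rw [hd, h1]
  | succ n ih =>
    intro p s t h
    by_cases hp : p = 0
    · subst hp
      funext x
      rw [sc_succ0 w n, sc_succ0 v n, hd, h.1]
    · funext x
      rw [sc_succ w n hp, sc_succ v n hp, hd, h.1, ih (h.2 hp).1, ih (h.2 hp).2]

/-- walks with literally the same `T`, `C`, `N` -/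
lemma same_of {w v : MS σ} (hT : ∀ t, w.T t = v.T t) (hC : ∀ p t, w.C p t = v.C p t)
    (hN : ∀ p t, w.N p t = v.N p t) : ∀ (n p : ℕ) (t : σ), SameT w v n p t t := by
  intro n
  induction n with
  | zero => intro p t; exact hT t
  | succ n ih =>
    intro p t
    refine ⟨hT t, fun hp => ?_⟩
    rw [← hC, ← hN]
    exact ⟨ih _ _, ih _ _⟩

/-- walks with the same `T`, `C`, `N` at the good states -/
lemma same_of_ok {w v : MS σ} (hT : ∀ {p t}, w.ok p t → w.T t = v.T t)
    (hC : ∀ {p t}, w.ok p t → p ≠ 0 → w.C p t = v.C p t)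
    (hN : ∀ {p t}, w.ok p t → p ≠ 0 → w.N p t = v.N p t) :
    ∀ (n p : ℕ) (t : σ), w.ok p t → SameT w v n p t t := by
  intro n
  induction n with
  | zero => intro p t ht; exact hT ht
  | succ n ih =>
    intro p t ht
    refine ⟨hT ht, fun hp => ?_⟩
    rw [← hC ht hp, ← hN ht hp]
    exact ⟨ih _ _ (w.okC ht hp), ih _ _ (w.okN ht hp)⟩

/-- a simulation gives the same totals -/
lemma same_of_sim {w : MS σ} {v : MS τ} (S : ℕ → σ → τ → Prop)
    (hT : ∀ {p s t}, S p s t → w.T s = v.T t)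
    (hC : ∀ {p s t}, S p s t → p ≠ 0 → S p (w.C p s) (v.C p t))
    (hN : ∀ {p s t}, S p s t → p ≠ 0 → S (p - 1) (w.N p s) (v.N p t)) :
    ∀ (n p : ℕ) (s : σ) (t : τ), S p s t → SameT w v n p s t := by
  intro n
  induction n with
  | zero => intro p s t h; exact hT h
  | succ n ih =>
    intro p s t h
    exact ⟨hT h, fun hp => ⟨ih _ _ _ (hC h hp), ih _ _ _ (hN h hp)⟩⟩

end same

/-! ### averaging at the root -/

section avg
variable {A : Type} [Fintype A]

/-- **the averaged walk sum of the charges** : `Mx` and `T` do not depend on `a` -/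
theorem avg_WS [Nonempty A] {σ : A → Type*} {w : ∀ a, MS (σ a)} (Q : ∀ a, Chg (w a))
    {ω : A → ℝ} (hω : ∀ a, 0 ≤ ω a) {d : ℝ} (hd : ∀ a, (w a).del = d) {n p : ℕ} {t : ∀ a, σ a}
    (ht : ∀ a, (w a).ok p (t a)) {T Mm : ℝ → ℝ} (hT : ∀ a, (w a).T (t a) = T)
    (hM : ∀ a, Mx (w a) n p (t a) = Mm) {J : ℝ} (hJ : 0 ≤ J)
    (h : ∀ x, ∑ a, ω a * (Q a).Y p (t a) x ≤ J * T x) :
    ∑ a, ω a * WS (Q a) n p (t a) ≤ J * (I T + 4 * d * I (fun x => T x ^ 2)) := by
  obtain ⟨a₀⟩ := ‹Nonempty A›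
  have d0 : 0 < d := hd a₀ ▸ (w a₀).del0
  have PM : PB Mm := hM a₀ ▸ PB_Mx (w := w a₀) n p (t a₀) (ht a₀)
  have PT : PB T := hT a₀ ▸ (w a₀).pT (ht a₀)
  have pf : PB fun x => 1 + 2 * (d * Mm x) :=
    (PB.const zero_le_one).add ((PM.smul d0.le).smul (by norm_num))
  have h1 : ∀ a, WS (Q a) n p (t a) ≤ I (fun x => (1 + 2 * (d * Mm x)) * (Q a).Y p (t a) x) := by
    intro a
    have := WS_le (Q a) n p (t a) (ht a)
    rw [hd a, hM a] at this
    exact this
  have h2 : ∑ a, ω a * WS (Q a) n p (t a) ≤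
      ∑ a, ω a * I (fun x => (1 + 2 * (d * Mm x)) * (Q a).Y p (t a) x) :=
    Finset.sum_le_sum fun a _ => mul_le_mul_of_nonneg_left (h1 a) (hω a)
  have h3 : ∑ a, ω a * I (fun x => (1 + 2 * (d * Mm x)) * (Q a).Y p (t a) x) =
      I (fun x => (1 + 2 * (d * Mm x)) * ∑ a, ω a * (Q a).Y p (t a) x) := by
    have e : (fun x => (1 + 2 * (d * Mm x)) * ∑ a, ω a * (Q a).Y p (t a) x) =
        fun x => ∑ a, ω a * ((1 + 2 * (d * Mm x)) * (Q a).Y p (t a) x) := by
      funext x
      rw [Finset.mul_sum]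
      exact Finset.sum_congr rfl fun a _ => by ring
    rw [e, I_sum _ fun a _ => ((pf.mul ((Q a).pY (ht a))).smul (hω a)).integrableOn]
    exact Finset.sum_congr rfl fun a _ => (I_smul _ _).symm
  have pY : PB fun x => ∑ a, ω a * (Q a).Y p (t a) x :=
    PB.sum _ fun a _ => ((Q a).pY (ht a)).smul (hω a)
  have h4 : I (fun x => (1 + 2 * (d * Mm x)) * ∑ a, ω a * (Q a).Y p (t a) x) ≤
      I (fun x => (1 + 2 * (d * Mm x)) * (J * T x)) := by
    refine I_mono (pf.mul pY).integrableOn (pf.mul (PT.smul hJ)).integrableOn fun x => ?_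
    exact mul_le_mul_of_nonneg_left (h x) (pf.nonneg x)
  have h5 : I (fun x => (1 + 2 * (d * Mm x)) * (J * T x)) =
      J * I T + 2 * d * J * I (fun x => Mm x * T x) := by
    have q := (PM.mul PT).smul (show (0 : ℝ) ≤ 2 * d * J by positivity)
    rw [← I_smul, ← I_smul, ← I_add (PT.smul hJ).integrableOn q.integrableOn]
    congr 1
    funext x
    ring
  have h6 : I (fun x => Mm x * T x) ≤ 2 * I (fun x => T x ^ 2) := by
    have := doob (w := w a₀) n p (t a₀) (ht a₀)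
    rw [hM a₀, hT a₀] at this
    exact this
  rw [h3] at h2
  rw [h5] at h4
  have h7 := mul_le_mul_of_nonneg_left h6 (show (0 : ℝ) ≤ 2 * d * J by positivity)
  nlinarith

/-- weights with sum `1` : one term is at most the average -/
lemma exists_le_avg [Nonempty A] {ω : A → ℝ} (hω : ∀ a, 0 ≤ ω a) (h1 : ∑ a, ω a = 1) {f : A → ℝ}
    {c : ℝ} (h : ∑ a, ω a * f a ≤ c) : ∃ a, f a ≤ c := by
  by_contra hc
  push Not at hc
  have hs : ∀ a, 0 ≤ ω a * (f a - c) := fun a => mul_nonneg (hω a) (by linarith [hc a])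
  have h0 : ∑ a, ω a * (f a - c) ≤ 0 := by
    have e : ∑ a, ω a * (f a - c) = ∑ a, ω a * f a - (∑ a, ω a) * c := by
      rw [Finset.sum_mul, ← Finset.sum_sub_distrib]
      exact Finset.sum_congr rfl fun a _ => by ring
    rw [e, h1]; linarith
  have hz := (Finset.sum_eq_zero_iff_of_nonneg fun a _ => hs a).1
    (le_antisymm h0 (Finset.sum_nonneg fun a _ => hs a))
  have hw : ∀ a, ω a = 0 := fun a => by
    rcases mul_eq_zero.1 (hz a (Finset.mem_univ a)) with h | h
    · exact h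
    · linarith [hc a]
  rw [Finset.sum_eq_zero fun a _ => hw a] at h1
  exact zero_ne_one h1

/-- a number which is bounded by every game is bounded by the average -/
lemma le_avg {ω : A → ℝ} (hω : ∀ a, 0 ≤ ω a) (h1 : ∑ a, ω a = 1) {K : ℝ} {b f : A → ℝ}
    (h : ∀ a, K ≤ b a + f a) {F : ℝ} (hF : ∑ a, ω a * f a ≤ F) : K ≤ ∑ a, ω a * b a + F := by
  have e : K = ∑ a, ω a * K := by rw [← Finset.sum_mul, h1, one_mul]
  have h2 : ∑ a, ω a * K ≤ ∑ a, ω a * (b a + f a) :=
    Finset.sum_le_sum fun a _ => mul_le_mul_of_nonneg_left (h a) (hω a)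
  have h3 : ∑ a, ω a * (b a + f a) = ∑ a, ω a * b a + ∑ a, ω a * f a := by
    rw [← Finset.sum_add_distrib]
    exact Finset.sum_congr rfl fun a _ => by ring
  linarith

end avg

/-! ### the form for rates -/

section rates
variable {Λ : Type} [Fintype Λ]

/-- total rate of the piece up to the column `p` -/
noncomputable def tot {β : Type} {B : BM β} (R : Rates Λ) (V : PV B Λ) (p : ℕ) (j : Λ) : ℝ :=
  ∑ q ∈ Finset.range (p + 1), (R.r q j * V.Lv q j + R.e q j)

lemma tot_nonneg {β : Type} {B : BM β} (R : Rates Λ) (V : PV B Λ) (p : ℕ) (j : Λ) :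
    0 ≤ tot R V p j :=
  Finset.sum_nonneg fun q _ => R.rt_nonneg V q j

/-- the future charge content is at most `total rate * content` -/
lemma Y_le_tot {β : Type} {B : BM β} (R : Rates Λ) (V : PV B Λ) {p : ℕ} {b : β} (hb : B.ok p b)
    (x : ℝ) : (R.bch V).Y p b x ≤ ∑ j, tot R V p j * V.v b j x := by
  show ∑ j, ((R.bel V p j + R.e p j) * V.v b j x + R.r p j * V.u p b j x) ≤ _
  refine Finset.sum_le_sum fun j _ => ?_
  have a1 := mul_le_mul_of_nonneg_left (V.uv hb j x) (R.r0 p j)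
  have a3 : tot R V p j = R.bel V p j + (R.r p j * V.Lv p j + R.e p j) := by
    have := R.bel_succ V p j
    unfold Rates.rt at this
    rw [← this]; rfl
  rw [a3]
  nlinarith [(V.pv hb j).nonneg x]

variable {A : Type} [Fintype A]

/-- **averaged rates, content form** : if the averaged total rate of every piece is at most `J` then the
averaged future charge content is at most `J T` -/
theorem avg_Y {β : A → Type} {B : ∀ a, BM (β a)} (V : ∀ a, PV (B a) Λ) (R : ∀ a, Rates Λ)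
    {ω : A → ℝ} (hω : ∀ a, 0 ≤ ω a) {p : ℕ} {s : ∀ a, Gs (β a)} (c0 : ∀ a j, 0 ≤ (s a).c j)
    (hok : ∀ a j, (B a).ok p ((s a).L j)) {T : ℝ → ℝ} {v₀ : Λ → ℝ → ℝ} (v0 : ∀ j x, 0 ≤ v₀ j x)
    (hv : ∀ a j x, su (s a) (fun b => (V a).v b j) x ≤ v₀ j x) (hvT : ∀ x, ∑ j, v₀ j x ≤ T x)
    {J : ℝ} (hJ : 0 ≤ J) (hR : ∀ j, ∑ a, ω a * tot (R a) (V a) p j ≤ J) (x : ℝ) :
    ∑ a, ω a * su (s a) (((R a).bch (V a)).Y p) x ≤ J * T x := by
  have h1 : ∀ a, su (s a) (((R a).bch (V a)).Y p) x ≤ ∑ j, tot (R a) (V a) p j * v₀ j x := by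
    intro a
    have e1 : su (s a) (((R a).bch (V a)).Y p) x ≤
        M (s a).c (fun i => ∑ j, tot (R a) (V a) p j * (V a).v ((s a).L i) j x) :=
      M_mono (c0 a) fun i => Y_le_tot (R a) (V a) (hok a i) x
    have e2 : M (s a).c (fun i => ∑ j, tot (R a) (V a) p j * (V a).v ((s a).L i) j x) =
        ∑ j, tot (R a) (V a) p j * su (s a) (fun b => (V a).v b j) x := by
      unfold su M
      simp only [Finset.mul_sum]
      rw [Finset.sum_comm]
      exact Finset.sum_congr rfl fun j _ => Finset.sum_congr rfl fun i _ => by ring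
    rw [e2] at e1
    exact e1.trans (Finset.sum_le_sum fun j _ =>
      mul_le_mul_of_nonneg_left (hv a j x) (tot_nonneg _ _ _ _))
  have h2 : ∑ a, ω a * su (s a) (((R a).bch (V a)).Y p) x ≤
      ∑ a, ω a * ∑ j, tot (R a) (V a) p j * v₀ j x :=
    Finset.sum_le_sum fun a _ => mul_le_mul_of_nonneg_left (h1 a) (hω a)
  have h3 : ∑ a, ω a * ∑ j, tot (R a) (V a) p j * v₀ j x =
      ∑ j, (∑ a, ω a * tot (R a) (V a) p j) * v₀ j x := by
    simp only [Finset.mul_sum, Finset.sum_mul]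
    rw [Finset.sum_comm]
    exact Finset.sum_congr rfl fun j _ => Finset.sum_congr rfl fun a _ => by ring
  have h4 : ∑ j, (∑ a, ω a * tot (R a) (V a) p j) * v₀ j x ≤ ∑ j, J * v₀ j x :=
    Finset.sum_le_sum fun j _ => mul_le_mul_of_nonneg_right (hR j) (v0 j x)
  rw [← Finset.mul_sum] at h4
  exact (h2.trans (h3.le.trans h4)).trans (mul_le_mul_of_nonneg_left (hvT x) hJ)

/-- **averaged payment by rates** : if the averaged total rate of every piece is at most `J` then the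
averaged walk sum of the charges is at most `J (I T + 4 δ I T²)` -/
theorem avg_pay [Nonempty A] {β : A → Type} {B : ∀ a, BM (β a)} {w : ∀ a, MS (ℕ × Gs (β a))}
    (h : ∀ a, Over (w a) (B a)) (V : ∀ a, PV (B a) Λ) (R : ∀ a, Rates Λ) {ω : A → ℝ}
    (hω : ∀ a, 0 ≤ ω a) {d : ℝ} (hd : ∀ a, (w a).del = d) {n p : ℕ} {t : ∀ a, ℕ × Gs (β a)}
    (ht : ∀ a, (w a).ok p (t a)) {T Mm : ℝ → ℝ} (hT : ∀ a, (w a).T (t a) = T)
    (hM : ∀ a, Mx (w a) n p (t a) = Mm) {v₀ : Λ → ℝ → ℝ} (v0 : ∀ j x, 0 ≤ v₀ j x)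
    (hv : ∀ a j x, su (t a).2 (fun b => (V a).v b j) x ≤ v₀ j x) (hvT : ∀ x, ∑ j, v₀ j x ≤ T x)
    {J : ℝ} (hJ : 0 ≤ J) (hR : ∀ j, ∑ a, ω a * tot (R a) (V a) p j ≤ J) :
    ∑ a, ω a * WS (((R a).bch (V a)).chg (h a)) n p (t a) ≤
      J * (I T + 4 * d * I (fun x => T x ^ 2)) :=
  avg_WS (fun a => ((R a).bch (V a)).chg (h a)) hω hd ht hT hM hJ fun x =>
    avg_Y V R hω (s := fun a => (t a).2) (fun a => ((h a).tc (ht a)).c0)
      (fun a => (h a).ok (ht a)) v0 hv hvT hJ hR x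

end rates

/-! ### spread thresholds -/

section spread
variable {A : Type} [Fintype A]

open Classical in
/-- `f` is spread: a window of half width `ε` contains at most the share `κ ε + η` -/
def Spread (A : Type) [Fintype A] (f : A → ℝ) (κ η : ℝ) : Prop :=
  ∀ x ε : ℝ, 0 ≤ ε → ((Finset.univ.filter fun a => |f a - x| ≤ ε).card : ℝ) ≤
    (κ * ε + η) * Fintype.card A

/-- the grid `a₀ + len * i / N`, `i < N` -/
noncomputable def grid (a₀ len : ℝ) (N : ℕ) (i : Fin N) : ℝ := a₀ + len * i / N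

lemma grid_mem {a₀ len : ℝ} (hl : 0 ≤ len) {N : ℕ} (i : Fin N) :
    a₀ ≤ grid a₀ len N i ∧ grid a₀ len N i ≤ a₀ + len := by
  have hN : (0 : ℝ) < N := by exact_mod_cast (Nat.pos_of_ne_zero (by rintro rfl; exact i.elim0))
  have hi : (i : ℝ) ≤ N := by exact_mod_cast i.2.le
  unfold grid
  constructor
  · have : 0 ≤ len * i / N := by positivity
    linarith
  · have : len * i / N ≤ len := by
      rw [div_le_iff₀ hN]
      exact mul_le_mul_of_nonneg_left hi hl
    linarith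

/-- **the grid is spread** -/
theorem spread_grid (a₀ : ℝ) {len : ℝ} (hl : 0 < len) {N : ℕ} (hN : 0 < N) :
    Spread (Fin N) (grid a₀ len N) (2 / len) (1 / N) := by
  classical
  intro x ε hε
  have hN' : (0 : ℝ) < N := by exact_mod_cast hN
  rw [Fintype.card_fin]
  set S := Finset.univ.filter fun a : Fin N => |grid a₀ len N a - x| ≤ ε with hS
  rcases S.eq_empty_or_nonempty with he | hne
  · rw [he, Finset.card_empty, Nat.cast_zero]
    positivity
  obtain ⟨S', hS'⟩ : ∃ S' : Finset ℕ, S' = S.image Fin.val := ⟨_, rfl⟩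
  have hc : S'.card = S.card := by
    rw [hS']
    exact Finset.card_image_of_injective S Fin.val_injective
  have hne' : S'.Nonempty := by
    rw [hS']
    exact hne.image _
  set m := S'.min' hne' with hm
  set M := S'.max' hne' with hM
  have h1 : S' ⊆ Finset.Icc m M := fun i hi =>
    Finset.mem_Icc.2 ⟨Finset.min'_le _ _ hi, Finset.le_max' _ _ hi⟩
  have h2 : (S.card : ℝ) ≤ (M : ℝ) - m + 1 := by
    rw [← hc]
    have := Finset.card_le_card h1
    rw [Nat.card_Icc] at this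
    have hmM : m ≤ M := Finset.min'_le_max' _ _
    have h3 : ((S'.card : ℕ) : ℝ) ≤ ((M + 1 - m : ℕ) : ℝ) := by exact_mod_cast this
    rw [Nat.cast_sub (by omega)] at h3
    push_cast at h3
    linarith
  obtain ⟨i, hi, ei⟩ : ∃ i ∈ S, (i : ℕ) = m := by
    have := Finset.min'_mem S' hne'
    rw [← hm] at this
    rw [hS'] at this
    exact Finset.mem_image.1 this
  obtain ⟨k, hk, ek⟩ : ∃ k ∈ S, (k : ℕ) = M := by
    have := Finset.max'_mem S' hne'
    rw [← hM] at this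
    rw [hS'] at this
    exact Finset.mem_image.1 this
  have a1 := abs_le.1 (Finset.mem_filter.1 hi).2
  have a2 := abs_le.1 (Finset.mem_filter.1 hk).2
  have e1 : ((i : ℕ) : ℝ) = m := by exact_mod_cast ei
  have e2 : ((k : ℕ) : ℝ) = M := by exact_mod_cast ek
  unfold grid at a1 a2
  rw [e1] at a1
  rw [e2] at a2
  have h4 : len * (M : ℝ) / N - len * m / N ≤ 2 * ε := by linarith [a1.1, a2.2]
  have h5 : len * ((M : ℝ) - m) ≤ 2 * ε * N := by
    rw [← sub_div, div_le_iff₀ hN'] at h4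
    linarith
  have h6 : (M : ℝ) - m ≤ 2 / len * ε * N := by
    have : (M : ℝ) - m ≤ 2 * ε * N / len := by
      rw [le_div_iff₀ hl]; linarith
    refine this.trans (le_of_eq ?_)
    ring
  have h7 : 1 / (N : ℝ) * N = 1 := by field_simp
  calc (S.card : ℝ) ≤ (M : ℝ) - m + 1 := h2
    _ ≤ 2 / len * ε * N + 1 / (N : ℝ) * N := by rw [h7]; linarith
    _ = (2 / len * ε + 1 / N) * N := by ring

/-- the first of two thresholds -/
lemma Spread.fst {A' : Type} [Fintype A'] {f : A → ℝ} {κ η : ℝ} (h : Spread A f κ η) :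
    Spread (A × A') (fun a => f a.1) κ η := by
  classical
  intro x ε hε
  have e : (Finset.univ.filter fun a : A × A' => |f a.1 - x| ≤ ε) =
      (Finset.univ.filter fun a : A => |f a - x| ≤ ε) ×ˢ (Finset.univ : Finset A') := by
    ext a
    simp
  have h1 := h x ε hε
  rw [e, Finset.card_product, Fintype.card_prod, Finset.card_univ]
  push_cast
  have h2 := mul_le_mul_of_nonneg_right h1 (Nat.cast_nonneg (α := ℝ) (Fintype.card A'))
  convert h2 using 1
  · congr!
  · ring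

/-- the second of two thresholds -/
lemma Spread.snd {A' : Type} [Fintype A'] {f : A → ℝ} {κ η : ℝ} (h : Spread A f κ η) :
    Spread (A' × A) (fun a => f a.2) κ η := by
  classical
  intro x ε hε
  have e : (Finset.univ.filter fun a : A' × A => |f a.2 - x| ≤ ε) =
      (Finset.univ : Finset A') ×ˢ (Finset.univ.filter fun a : A => |f a - x| ≤ ε) := by
    ext a
    simp
  have h1 := h x ε hε
  rw [e, Finset.card_product, Fintype.card_prod, Finset.card_univ]
  push_cast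
  have h2 := mul_le_mul_of_nonneg_left h1 (Nat.cast_nonneg (α := ℝ) (Fintype.card A'))
  convert h2 using 1
  · congr!
  · ring

/-- uniform weights -/
noncomputable def uw (A : Type) [Fintype A] (_ : A) : ℝ := 1 / Fintype.card A

lemma uw_nonneg (a : A) : 0 ≤ uw A a := by unfold uw; positivity

lemma sum_uw [Nonempty A] : ∑ a, uw A a = 1 := by
  unfold uw
  rw [Finset.sum_const, Finset.card_univ, nsmul_eq_mul]
  have : (Fintype.card A : ℝ) ≠ 0 := by exact_mod_cast Fintype.card_ne_zero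
  field_simp

open Classical in
/-- the share of a window -/
lemma Spread.avg [Nonempty A] {f : A → ℝ} {κ η : ℝ} (h : Spread A f κ η) (x : ℝ) {ε : ℝ}
    (hε : 0 ≤ ε) : ∑ a, uw A a * (if |f a - x| ≤ ε then 1 else 0) ≤ κ * ε + η := by
  have hc : (0 : ℝ) < Fintype.card A := by exact_mod_cast Fintype.card_pos
  have e : ∑ a, uw A a * (if |f a - x| ≤ ε then (1 : ℝ) else 0) =
      1 / Fintype.card A * ((Finset.univ.filter fun a => |f a - x| ≤ ε).card : ℝ) := by
    unfold uw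
    rw [← Finset.mul_sum, Finset.sum_boole]
  rw [e, div_mul_eq_mul_div, one_mul, div_le_iff₀ hc]
  exact h x ε hε

open Classical in
/-- **windows** : a number which is at most the sum of `c l` over the events `l` with
`|f_l a - x l| ≤ ε l` has the average `Σ_l c l (κ ε l + η)` -/
theorem avg_windows [Nonempty A] {L : Type*} (s : Finset L) {f : L → A → ℝ} {κ η : ℝ}
    (h : ∀ l ∈ s, Spread A (f l) κ η) {x ε c : L → ℝ} (hε : ∀ l ∈ s, 0 ≤ ε l)
    (hc : ∀ l ∈ s, 0 ≤ c l) {g : A → ℝ}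
    (hg : ∀ a, g a ≤ ∑ l ∈ s, c l * (if |f l a - x l| ≤ ε l then 1 else 0)) :
    ∑ a, uw A a * g a ≤ ∑ l ∈ s, c l * (κ * ε l + η) := by
  have h1 : ∑ a, uw A a * g a ≤
      ∑ a, uw A a * ∑ l ∈ s, c l * (if |f l a - x l| ≤ ε l then 1 else 0) :=
    Finset.sum_le_sum fun a _ => mul_le_mul_of_nonneg_left (hg a) (uw_nonneg a)
  refine h1.trans ?_
  have e : ∑ a, uw A a * ∑ l ∈ s, c l * (if |f l a - x l| ≤ ε l then (1 : ℝ) else 0) =
      ∑ l ∈ s, c l * ∑ a, uw A a * (if |f l a - x l| ≤ ε l then 1 else 0) := by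
    simp only [Finset.mul_sum]
    rw [Finset.sum_comm]
    exact Finset.sum_congr rfl fun l _ => Finset.sum_congr rfl fun a _ => by ring
  rw [e]
  exact Finset.sum_le_sum fun l hl =>
    mul_le_mul_of_nonneg_left ((h l hl).avg (x l) (hε l hl)) (hc l hl)

/-! ### sums over the events of a piece -/

/-- **doubling complexities** : at most `D` events in every dyadic block `[2^k m, 2^(k+1) m)` -/
theorem sum_dyadic {L : Type*} [DecidableEq L] (s : Finset L) {g : L → ℝ} {m : ℝ} (hm : 0 < m)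
    (hg : ∀ l ∈ s, m ≤ g l) {θ : ℝ} (hθ : 0 < θ) {D : ℕ}
    (hD : ∀ k : ℕ, (s.filter fun l => 2 ^ k * m ≤ g l ∧ g l < 2 ^ (k + 1) * m).card ≤ D) :
    ∑ l ∈ s, g l ^ (-θ) ≤ D * (m ^ (-θ) / (1 - (2 : ℝ) ^ (-θ))) := by
  classical
  -- block index
  have hex : ∀ l ∈ s, ∃ k : ℕ, 2 ^ k * m ≤ g l ∧ g l < 2 ^ (k + 1) * m := by
    intro l hl
    have h1 : 1 ≤ g l / m := by rw [le_div_iff₀ hm]; linarith [hg l hl]
    obtain ⟨k, hk1, hk2⟩ := exists_nat_pow_near (x := g l / m) (y := (2 : ℝ)) h1 (by norm_num)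
    refine ⟨k, ?_, ?_⟩
    · rwa [le_div_iff₀ hm] at hk1
    · rwa [div_lt_iff₀ hm] at hk2
  choose! k hk using hex
  set K := (s.sup k) + 1 with hK
  have hkK : ∀ l ∈ s, k l ∈ Finset.range K := fun l hl =>
    Finset.mem_range.2 (Nat.lt_succ_of_le (Finset.le_sup hl))
  have q0 : (0 : ℝ) < (2 : ℝ) ^ (-θ) := Real.rpow_pos_of_pos (by norm_num) _
  have q1 : (2 : ℝ) ^ (-θ) < 1 := Real.rpow_lt_one_of_one_lt_of_neg (by norm_num) (by linarith)
  rw [← Finset.sum_fiberwise_of_maps_to hkK]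
  have h2 : ∀ i ∈ Finset.range K, ∑ l ∈ s.filter (fun l => k l = i), g l ^ (-θ) ≤
      D * (m ^ (-θ) * ((2 : ℝ) ^ (-θ)) ^ i) := by
    intro i _
    have h3 : ∀ l ∈ s.filter (fun l => k l = i), g l ^ (-θ) ≤ m ^ (-θ) * ((2 : ℝ) ^ (-θ)) ^ i := by
      intro l hl
      obtain ⟨hl1, hl2⟩ := Finset.mem_filter.1 hl
      have h4 := (hk l hl1).1
      rw [hl2] at h4
      have h5 : (0 : ℝ) < 2 ^ i * m := by positivity
      have h6 : g l ^ (-θ) ≤ (2 ^ i * m) ^ (-θ) :=
        Real.rpow_le_rpow_of_nonpos h5 h4 (by linarith)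
      refine h6.trans (le_of_eq ?_)
      rw [Real.mul_rpow (by positivity) hm.le, ← Real.rpow_natCast, ← Real.rpow_natCast,
        ← Real.rpow_mul (by norm_num), ← Real.rpow_mul (by norm_num), mul_comm (i : ℝ) (-θ)]
      ring
    have h7 : s.filter (fun l => k l = i) ⊆
        s.filter fun l => 2 ^ i * m ≤ g l ∧ g l < 2 ^ (i + 1) * m := by
      intro l hl
      obtain ⟨hl1, hl2⟩ := Finset.mem_filter.1 hl
      have := hk l hl1
      rw [hl2] at this
      exact Finset.mem_filter.2 ⟨hl1, this⟩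
    refine (Finset.sum_le_card_nsmul _ _ _ h3).trans ?_
    rw [nsmul_eq_mul]
    refine mul_le_mul_of_nonneg_right ?_ (by positivity)
    exact_mod_cast (Finset.card_le_card h7).trans (hD i)
  refine (Finset.sum_le_sum h2).trans ?_
  rw [← Finset.mul_sum, ← Finset.mul_sum]
  refine mul_le_mul_of_nonneg_left ?_ (Nat.cast_nonneg _)
  rw [div_eq_mul_inv]
  refine mul_le_mul_of_nonneg_left ?_ (by positivity)
  rw [geom_sum_eq q1.ne K]
  rw [div_le_iff_of_neg (by linarith)]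
  have h8 : (1 - (2 : ℝ) ^ (-θ))⁻¹ * ((2 : ℝ) ^ (-θ) - 1) = -1 := by
    have : (1 - (2 : ℝ) ^ (-θ)) ≠ 0 := by linarith
    field_simp
    ring
  rw [h8]
  have := pow_nonneg q0.le K
  linarith

/-- doubling-separated complexities -/
theorem sum_doubling {L : Type*} [DecidableEq L] (s : Finset L) {g : L → ℝ} {m : ℝ} (hm : 0 < m)
    (hg : ∀ l ∈ s, m ≤ g l) {θ : ℝ} (hθ : 0 < θ)
    (hD : ∀ l ∈ s, ∀ l' ∈ s, l ≠ l' → 2 * g l ≤ g l' ∨ 2 * g l' ≤ g l) :
    ∑ l ∈ s, g l ^ (-θ) ≤ m ^ (-θ) / (1 - (2 : ℝ) ^ (-θ)) := by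
  have h := sum_dyadic s hm hg hθ (D := 1) fun k => by
    rw [Finset.card_le_one]
    intro l hl l' hl'
    obtain ⟨h1, h2, h3⟩ := by simpa using hl
    obtain ⟨h1', h2', h3'⟩ := by simpa using hl'
    by_contra hne
    rw [pow_succ] at h3 h3'
    rcases hD l h1 l' h1' hne with h | h
    · linarith
    · linarith
  simpa using h

open Classical in
/-- **windows of width `C (log A_l)^(-θ)`** at events with at most `D` complexities per dyadic
block -/
theorem avg_eras [Nonempty A] {L : Type*} (s : Finset L) {f : L → A → ℝ} {κ η : ℝ} (hκ : 0 ≤ κ)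
    (h : ∀ l ∈ s, Spread A (f l) κ η) {x g : L → ℝ} {m C c θ : ℝ} (hm : 0 < m) (hC : 0 ≤ C)
    (hc : 0 ≤ c) (hθ : 0 < θ) (hg : ∀ l ∈ s, m ≤ g l) {D : ℕ}
    (hD : ∀ k : ℕ, (s.filter fun l => 2 ^ k * m ≤ g l ∧ g l < 2 ^ (k + 1) * m).card ≤ D)
    {u : A → ℝ} (hu : ∀ a, u a ≤ ∑ l ∈ s, c * (if |f l a - x l| ≤ C * g l ^ (-θ) then 1 else 0)) :
    ∑ a, uw A a * u a ≤ c * (κ * C * (D * (m ^ (-θ) / (1 - (2 : ℝ) ^ (-θ)))) + η * s.card) := by
  have h1 := avg_windows s h (x := x) (ε := fun l => C * g l ^ (-θ)) (c := fun _ => c)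
    (fun l hl => mul_nonneg hC (Real.rpow_nonneg (hm.le.trans (hg l hl)) _)) (fun _ _ => hc) hu
  refine h1.trans ?_
  rw [← Finset.mul_sum]
  refine mul_le_mul_of_nonneg_left ?_ hc
  rw [Finset.sum_add_distrib, Finset.sum_const, nsmul_eq_mul, mul_comm (s.card : ℝ) η]
  refine add_le_add ?_ le_rfl
  have h2 := sum_dyadic s hm hg hθ hD
  have e : ∑ l ∈ s, κ * (C * g l ^ (-θ)) = κ * C * ∑ l ∈ s, g l ^ (-θ) := by
    rw [Finset.mul_sum]
    exact Finset.sum_congr rfl fun l _ => by ring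
  rw [e]
  exact mul_le_mul_of_nonneg_left h2 (mul_nonneg hκ hC)

open Classical in
/-- **averaged total rate, windows form** : the piece has its events `l ∈ s`; at the event `l` it is
charged at most `c` for the thresholds `a` with `|f l a - x l| ≤ C g^(-θ)`, and at most `J₀`
independently of `a` -/
theorem avg_rate_windows [Nonempty A] {L : Type*} (s : Finset L) {f : L → A → ℝ} {κ η : ℝ}
    (hκ : 0 ≤ κ) (hη : 0 ≤ η) (hf : ∀ l ∈ s, Spread A (f l) κ η) {x g : L → ℝ} {m C c θ J₀ : ℝ}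
    (hm : 0 < m) (hC : 0 ≤ C) (hc : 0 ≤ c) (hθ : 0 < θ) (hg : ∀ l ∈ s, m ≤ g l) {D Nm : ℕ}
    (hD : ∀ k : ℕ, (s.filter fun l => 2 ^ k * m ≤ g l ∧ g l < 2 ^ (k + 1) * m).card ≤ D)
    (hN : s.card ≤ Nm) {u : A → ℝ}
    (hu : ∀ a, u a ≤ J₀ + ∑ l ∈ s, c * (if |f l a - x l| ≤ C * g l ^ (-θ) then 1 else 0)) :
    ∑ a, uw A a * u a ≤
      J₀ + c * (κ * C * (D * (m ^ (-θ) / (1 - (2 : ℝ) ^ (-θ)))) + η * Nm) := by
  have h1 := avg_eras s hκ hf hm hC hc hθ hg hD (u := fun a => u a - J₀) (x := x) fun a => by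
    linarith [hu a]
  have h2 : ∑ a, uw A a * (u a - J₀) = ∑ a, uw A a * u a - J₀ := by
    have e : ∑ a, uw A a * (u a - J₀) = ∑ a, uw A a * u a - (∑ a, uw A a) * J₀ := by
      rw [Finset.sum_mul, ← Finset.sum_sub_distrib]
      exact Finset.sum_congr rfl fun a _ => by ring
    rw [e, sum_uw, one_mul]
  have h3 : η * s.card ≤ η * Nm := mul_le_mul_of_nonneg_left (by exact_mod_cast hN) hη
  have h4 := mul_le_mul_of_nonneg_left h3 hc
  rw [h2] at h1
  have e5 : c * (κ * C * (D * (m ^ (-θ) / (1 - (2 : ℝ) ^ (-θ)))) + η * s.card) =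
    c * (κ * C * (D * (m ^ (-θ) / (1 - (2 : ℝ) ^ (-θ))))) + c * (η * s.card) := by ring
  have e6 : c * (κ * C * (D * (m ^ (-θ) / (1 - (2 : ℝ) ^ (-θ)))) + η * Nm) =
    c * (κ * C * (D * (m ^ (-θ) / (1 - (2 : ℝ) ^ (-θ))))) + c * (η * Nm) := by ring
  rw [e5] at h1
  rw [e6]
  linarith

open Classical in
/-- **averaged payment by rates, windows form** -/
theorem avg_pay_windows [Nonempty A] {Λ : Type} [Fintype Λ] {β : A → Type} {B : ∀ a, BM (β a)}
    {w : ∀ a, MS (ℕ × Gs (β a))} (h : ∀ a, Over (w a) (B a)) (V : ∀ a, PV (B a) Λ)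
    (R : ∀ a, Rates Λ) {d : ℝ} (hd : ∀ a, (w a).del = d) {n p : ℕ} {t : ∀ a, ℕ × Gs (β a)}
    (ht : ∀ a, (w a).ok p (t a)) {T Mm : ℝ → ℝ} (hT : ∀ a, (w a).T (t a) = T)
    (hM : ∀ a, Mx (w a) n p (t a) = Mm) {v₀ : Λ → ℝ → ℝ} (v0 : ∀ j x, 0 ≤ v₀ j x)
    (hv : ∀ a j x, su (t a).2 (fun b => (V a).v b j) x ≤ v₀ j x) (hvT : ∀ x, ∑ j, v₀ j x ≤ T x)
    {L : Type*} (s : Λ → Finset L) {f : L → A → ℝ} {κ η : ℝ} (hκ : 0 ≤ κ) (hη : 0 ≤ η)
    (hf : ∀ j, ∀ l ∈ s j, Spread A (f l) κ η) {x g : Λ → L → ℝ} {m C c θ J₀ : ℝ} (hm : 0 < m)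
    (hC : 0 ≤ C) (hc : 0 ≤ c) (hθ : 0 < θ) (hJ₀ : 0 ≤ J₀) (hg : ∀ j, ∀ l ∈ s j, m ≤ g j l) {D Nm : ℕ}
    (hD : ∀ j, ∀ k : ℕ, ((s j).filter fun l => 2 ^ k * m ≤ g j l ∧ g j l < 2 ^ (k + 1) * m).card ≤ D)
    (hN : ∀ j, (s j).card ≤ Nm)
    (hu : ∀ j a, tot (R a) (V a) p j ≤
      J₀ + ∑ l ∈ s j, c * (if |f l a - x j l| ≤ C * g j l ^ (-θ) then 1 else 0)) :
    ∑ a, uw A a * WS (((R a).bch (V a)).chg (h a)) n p (t a) ≤
      (J₀ + c * (κ * C * (D * (m ^ (-θ) / (1 - (2 : ℝ) ^ (-θ)))) + η * Nm)) *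
        (I T + 4 * d * I (fun x => T x ^ 2)) := by
  have q1 : (2 : ℝ) ^ (-θ) < 1 := Real.rpow_lt_one_of_one_lt_of_neg (by norm_num) (by linarith)
  have q2 : 0 ≤ m ^ (-θ) / (1 - (2 : ℝ) ^ (-θ)) :=
    div_nonneg (Real.rpow_nonneg hm.le _) (by linarith)
  refine avg_pay h V R (fun a => uw_nonneg a) hd ht hT hM v0 hv hvT ?_ fun j =>
    avg_rate_windows (s j) hκ hη (hf j) hm hC hc hθ (hg j) (hD j) (hN j) (hu j)
  have := mul_nonneg (mul_nonneg hκ hC) (mul_nonneg (Nat.cast_nonneg (α := ℝ) D) q2)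
  have h2 := mul_nonneg hη (Nat.cast_nonneg (α := ℝ) Nm)
  exact add_nonneg hJ₀ (mul_nonneg hc (add_nonneg this h2))

end spread

end Crest.Agent.R4P.AvgT8
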