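import Crest.Agent.R4P.Pay3_49
import Crest.Agent.R4P.AvgT_8

/-!
R4 (S0004) with powers, T3, helper8: **averaged game-only thresholds over the group data `RGx`**.

A family of games `D a : RGx (U a)` (`a` = choice of the game-only thresholds) over one real walk. The
linear charges `Q1` only have to be bounded on average over `a`: `avg_msx3` (general), `avg_msx3B`
(charges of the bundles), `same_ms` / `Mx_ms` (the running maximum does not depend on `a`: the same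
bundle maps and the same total `tt`).
-/

set_option autoImplicit false
set_option linter.unusedSectionVars false
set_option linter.unusedVariables false
open MeasureTheory Filter Set

namespace Crest.Agent.R4P.AvgM8

open Crest.Agent.R4.Tour104 Crest.Agent.R4.Clos758
open Crest.Agent.R4P.ModeS16 Crest.Agent.R4P.Pay45
open Crest.Agent.R4P.GMer27 Crest.Agent.R4P.GCol27 Crest.Agent.R4P.RSys343
open Crest.Agent.R4P.MSi343 Crest.Agent.R4P.PayR45 Crest.Agent.R4P.MSm25 Crest.Agent.R4P.RXm55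
open Crest.Agent.R4P.Pay349 Crest.Agent.R4P.AvgT8

/-! ### the same walk -/

section same
variable {β δ δ' : Type} [Fintype δ] [Fintype δ'] {R : RXm β δ} {U : RBm R} {R' : RXm β δ'}
  {U' : RBm R'}

/-- two games over the same bundle maps with the same total -/
theorem same_ms (D : RGx U) (D' : RGx U') (hP : R.cP = R'.cP) (hN : R.cN = R'.cN)
    (hr : R.rN = R'.rN) (htt : U.tt = U'.tt) {del : ℝ} {Km Km' : ℕ} (h0 : 0 < del) (h1 : del ≤ 1)
    (hK : del * U.B0 ≤ 2 ^ Km) (hK' : del * U'.B0 ≤ 2 ^ Km') (n p : ℕ) (s : Gs β) :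
    SameT (D.ms h0 h1 hK) (D'.ms h0 h1 hK') n p (p, s) (p, s) := by
  refine same_of_sim (fun _ s t => s = t) (fun {p s t} h => ?_) (fun {p s t} h hp => ?_)
    (fun {p s t} h hp => ?_) n p _ _ rfl
  · subst h
    show su s.2 U.tt = su s.2 U'.tt
    rw [htt]
  · subst h
    show (p, R.C p s.2) = (p, R'.C p s.2)
    unfold RXm.C
    rw [hP, hN]
  · subst h
    show (p - 1, R.N p s.2) = (p - 1, R'.N p s.2)
    unfold RXm.N
    rw [hr]

/-- the running maximum does not depend on the game -/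
theorem Mx_ms (D : RGx U) (D' : RGx U') (hP : R.cP = R'.cP) (hN : R.cN = R'.cN)
    (hr : R.rN = R'.rN) (htt : U.tt = U'.tt) {del : ℝ} {Km Km' : ℕ} (h0 : 0 < del) (h1 : del ≤ 1)
    (hK : del * U.B0 ≤ 2 ^ Km) (hK' : del * U'.B0 ≤ 2 ^ Km') (n p : ℕ) (s : Gs β) :
    Mx (D.ms h0 h1 hK) n p (p, s) = Mx (D'.ms h0 h1 hK') n p (p, s) :=
  Mx_congr (same_ms D D' hP hN hr htt h0 h1 hK hK' n p s)

end same

/-! ### the averaged theorem -/

/-- **the game with averaged payments** : the linear charges `Q1` are bounded on average over the games -/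
theorem avg_msx3 {ε J : ℝ} (hε : 0 < ε) (hJ : 0 ≤ J) :
    ∃ (del : ℝ) (h0 : 0 < del) (h1 : del ≤ 1) (C : ℝ), 0 ≤ C ∧
    ∀ {A : Type} [Fintype A] [Nonempty A] {ω : A → ℝ}, (∀ a, 0 ≤ ω a) → ∑ a, ω a = 1 →
      ∀ {β δ : A → Type} [∀ a, Fintype (δ a)] {R : ∀ a, RXm (β a) (δ a)} {U : ∀ a, RBm (R a)}
      (D : ∀ a, RGx (U a)) {rc : ∀ a, ℕ → Gs (β a) → ℝ → ℝ}, (∀ a, RCost (D a) (rc a)) →
      ∀ {Km : A → ℕ} (hK : ∀ a, del * (U a).B0 ≤ 2 ^ Km a) (Q : ∀ a, GPay (D a) h0 h1 (hK a))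
      (n p : ℕ) (s : ∀ a, Gs (β a)), (∀ a, (D a).ok p (s a)) →
      ∀ {T Mm : ℝ → ℝ}, (∀ a, su (s a) (U a).tt = T) →
      (∀ a, Mx ((D a).ms h0 h1 (hK a)) n p (p, s a) = Mm) →
      (∀ x, ∑ a, ω a * (Q a).Q1.Y p (p, s a) x ≤ J * T x) →
      ∑ a, ω a * Kr (R a) (rc a) n p (s a) ≤ ε * I (fun x => T x ^ 2) + C * I T +
        28 * ∑ a, ω a * Pay45.E0 ((D a).ms h0 h1 (hK a)) n p (p, s a) +
        28 * ∑ a, ω a * Sg (Q a).S n p (s a) +
        C * ∑ a, ω a * (I ((Q a).Q2.Y p (p, s a)) + I (fun x => (Q a).Q2.Y p (p, s a) x ^ 2)) := by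
  obtain ⟨del, h0, h1, h2⟩ := exists_delJ (ε := ε / 28) (J := J) (by positivity) hJ
  have L0 := ModeR16.Ld_pos h0
  -- the parameter of the Cauchy-Schwarz form
  obtain ⟨l, hl, hl2⟩ : ∃ l : ℝ, 0 < l ∧ 56 * del * l ≤ ε / 2 :=
    ⟨ε / (2 * (56 * del)), by positivity, le_of_eq (by field_simp)⟩
  refine ⟨del, h0, h1, 28 * (ModeR16.Ld del + J) + 28 + 56 * del * (1 / l), by positivity, ?_⟩
  intro A _ _ ω hω h1ω β δ _ R U D rc hr Km hK Q n p s hs T Mm hT hM hY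
  set A2 := I (fun x => T x ^ 2) with hA2
  set A1 := I T with hA1
  -- one game
  have one : ∀ a, Kr (R a) (rc a) n p (s a) ≤
      14 * (8 * (del * ModeR16.Ld del) * A2 + 2 * ModeR16.Ld del * A1) +
      28 * Pay45.E0 ((D a).ms h0 h1 (hK a)) n p (p, s a) + 28 * WS (Q a).Q1 n p (p, s a) +
      28 * Sg (Q a).S n p (s a) +
      28 * (I ((Q a).Q2.Y p (p, s a)) +
        2 * del * (l * A2 + 1 / l * I (fun x => (Q a).Q2.Y p (p, s a) x ^ 2))) := by
    intro a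
    have hxx : ∀ {k p : ℕ} {t : ℕ × Gs (β a)}, ((D a).ms h0 h1 (hK a)).ok p t → p ≠ 0 → ∀ y,
        Ep p (((D a).ms h0 h1 (hK a)).ex k p t) y ≤
        4 * Ep p (((D a).ms h0 h1 (hK a)).GT p t) y ^ 2 +
          2 ^ k * ((Q a).Q1.yc p t y + (Q a).Q2.yc p t y) +
          ((Q a).S.sec h0 h1 (hK a)).rc p t y := by
      intro k p t ht hp y
      have hp0 : 0 < p := Nat.pos_of_ne_zero hp
      obtain ⟨q, s⟩ := t
      have hq : q = p := ht.1
      subst hq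
      have a1 := RXm.ex_le (two_pos' k) ((D a).gk ht.2) hp y
      have a2 := (Q a).hc (k := k) ht.2 hp y
      have b1 : Ep q (((D a).ms h0 h1 (hK a)).ex k q (q, s)) y = Ep q ((R a).ex (2 ^ k) q s) y +
          (Ep q ((D a).brB (2 ^ k) q s) y + 14 * (2 ^ k * Ep q ((D a).asB (2 ^ k) q s) y)) := by
        show Ep q (fun x => (R a).ex (2 ^ k) q s x + ((D a).brB (2 ^ k) q s x +
          14 * (2 ^ k * (D a).asB (2 ^ k) q s x))) y = _
        unfold Ep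
        rw [Finset.sum_add_distrib, Finset.sum_add_distrib, ← Finset.mul_sum, ← Finset.mul_sum]
        ring
      rw [b1]
      have hs' := (D a).gk ht.2
      have c1 : Ep q ((R a).GT q s) y ≤ Ep q (((D a).ms h0 h1 (hK a)).GT q (q, s)) y := by
        unfold Ep
        refine div_le_div_of_nonneg_right (Finset.sum_le_sum fun i _ => ?_) (Nat.cast_nonneg q)
        show (R a).GT q s _ ≤ (R a).GT q s _ + su s ((U a).gU q) _
        have := (PB_su hs'.1 fun j => (U a).pgU (hs'.2 j) hp).nonneg ((y + (i:ℝ)) / q)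
        linarith
      have c2 : 0 ≤ Ep q ((R a).GT q s) y := ((RXm.PB_GT hs' hp).Ep hp0).nonneg y
      have c3 := pow_le_pow_left₀ c2 c1 2
      have c4 : 0 ≤ Ep q ((R a).GT q s) y ^ 2 := by positivity
      have c5 : ((Q a).S.sec h0 h1 (hK a)).rc q (q, s) y = (Q a).S.rc q s y := rfl
      rw [c5]
      linarith
    have hbb : ∀ {k p : ℕ} {t : ℕ × Gs (β a)}, ((D a).ms h0 h1 (hK a)).ok p t → p ≠ 0 → ∀ x,
        ((D a).ms h0 h1 (hK a)).br k p t x ≤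
          2 ^ k * ((Q a).Q1.yx p t x + (Q a).Q2.yx p t x) +
          ((Q a).S.sec h0 h1 (hK a)).rx p t x := by
      intro k p t ht hp x
      obtain ⟨q, s⟩ := t
      have hq : q = p := ht.1
      subst hq
      exact (Q a).hb (k := k) ht.2 hp x
    have hok : ((D a).ms h0 h1 (hK a)).ok p (p, s a) := ⟨rfl, hs a⟩
    have k1 := main_root (w := (D a).ms h0 h1 (hK a)) n p (p, s a) hok
    have k2 := E_le3 (addC (Q a).Q1 (Q a).Q2) ((Q a).S.sec h0 h1 (hK a)) hxx hbb n p (p, s a) hok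
    have k4 := WS_le_cs (Q a).Q2 hl n p (p, s a) hok
    have k5 := Kr_le (D a) (hr a) h0 h1 (hK a) n p (s a) (hs a)
    have e1 : ((D a).ms h0 h1 (hK a)).T (p, s a) = T := hT a
    have e2 : ((D a).ms h0 h1 (hK a)).del = del := rfl
    rw [WS_add (Q a).Q1 (Q a).Q2 n p (p, s a) hok, S2_eq] at k2
    rw [e1, e2] at k1 k4
    rw [← hA2] at k1 k4
    rw [← hA1] at k1
    linarith
  -- the average of the charges
  have av := avg_WS (fun a => (Q a).Q1) hω (d := del) (fun a => rfl) (n := n) (p := p)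
    (t := fun a => (p, s a)) (fun a => ⟨rfl, hs a⟩) (T := T) (fun a => hT a) hM hJ hY
  rw [← hA2, ← hA1] at av
  have sum1 : ∑ a, ω a * Kr (R a) (rc a) n p (s a) ≤ ∑ a, ω a *
      (14 * (8 * (del * ModeR16.Ld del) * A2 + 2 * ModeR16.Ld del * A1) +
      28 * Pay45.E0 ((D a).ms h0 h1 (hK a)) n p (p, s a) + 28 * WS (Q a).Q1 n p (p, s a) +
      28 * Sg (Q a).S n p (s a) +
      28 * (I ((Q a).Q2.Y p (p, s a)) +
        2 * del * (l * A2 + 1 / l * I (fun x => (Q a).Q2.Y p (p, s a) x ^ 2)))) :=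
    Finset.sum_le_sum fun a _ => mul_le_mul_of_nonneg_left (one a) (hω a)
  have e3 : ∑ a, ω a *
      (14 * (8 * (del * ModeR16.Ld del) * A2 + 2 * ModeR16.Ld del * A1) +
      28 * Pay45.E0 ((D a).ms h0 h1 (hK a)) n p (p, s a) + 28 * WS (Q a).Q1 n p (p, s a) +
      28 * Sg (Q a).S n p (s a) +
      28 * (I ((Q a).Q2.Y p (p, s a)) +
        2 * del * (l * A2 + 1 / l * I (fun x => (Q a).Q2.Y p (p, s a) x ^ 2)))) =
      (14 * (8 * (del * ModeR16.Ld del) * A2 + 2 * ModeR16.Ld del * A1) +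
        56 * del * l * A2) +
      28 * ∑ a, ω a * Pay45.E0 ((D a).ms h0 h1 (hK a)) n p (p, s a) +
      28 * ∑ a, ω a * WS (Q a).Q1 n p (p, s a) +
      28 * ∑ a, ω a * Sg (Q a).S n p (s a) +
      (28 * ∑ a, ω a * I ((Q a).Q2.Y p (p, s a)) + 56 * del * (1 / l) *
        ∑ a, ω a * I (fun x => (Q a).Q2.Y p (p, s a) x ^ 2)) := by
    have c0 : (14 * (8 * (del * ModeR16.Ld del) * A2 + 2 * ModeR16.Ld del * A1) +
        56 * del * l * A2) = ∑ a, ω a *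
        (14 * (8 * (del * ModeR16.Ld del) * A2 + 2 * ModeR16.Ld del * A1) +
        56 * del * l * A2) := by rw [← Finset.sum_mul, h1ω, one_mul]
    rw [c0]
    simp only [Finset.mul_sum]
    rw [← Finset.sum_add_distrib, ← Finset.sum_add_distrib, ← Finset.sum_add_distrib,
      ← Finset.sum_add_distrib, ← Finset.sum_add_distrib]
    exact Finset.sum_congr rfl fun a _ => by ring
  rw [e3] at sum1
  -- constants
  have h3 : 0 ≤ A2 := I_nonneg fun x => sq_nonneg _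
  obtain ⟨a₀⟩ := ‹Nonempty A›
  have h6 : 0 ≤ A1 := by
    rw [hA1, ← hT a₀]
    exact I_nonneg fun x => ((U a₀).PB_tt ((D a₀).gk (hs a₀))).nonneg x
  have h4 := mul_le_mul_of_nonneg_right h2 h3
  have h9 := mul_le_mul_of_nonneg_right hl2 h3
  have h7 : 0 ≤ ∑ a, ω a * I ((Q a).Q2.Y p (p, s a)) := Finset.sum_nonneg fun a _ =>
    mul_nonneg (hω a) (I_nonneg fun x => ((Q a).Q2.pY
      (show ((D a).ms h0 h1 (hK a)).ok p (p, s a) from ⟨rfl, hs a⟩)).nonneg x)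
  have h8 : 0 ≤ ∑ a, ω a * I (fun x => (Q a).Q2.Y p (p, s a) x ^ 2) :=
    Finset.sum_nonneg fun a _ => mul_nonneg (hω a) (I_nonneg fun x => sq_nonneg _)
  have e9 : ∑ a, ω a * (I ((Q a).Q2.Y p (p, s a)) + I (fun x => (Q a).Q2.Y p (p, s a) x ^ 2)) =
      ∑ a, ω a * I ((Q a).Q2.Y p (p, s a)) +
      ∑ a, ω a * I (fun x => (Q a).Q2.Y p (p, s a) x ^ 2) := by
    rw [← Finset.sum_add_distrib]
    exact Finset.sum_congr rfl fun a _ => by ring
  rw [e9]
  set Y1 := ∑ a, ω a * I ((Q a).Q2.Y p (p, s a))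
  set Y2 := ∑ a, ω a * I (fun x => (Q a).Q2.Y p (p, s a) x ^ 2)
  set W1 := ∑ a, ω a * WS (Q a).Q1 n p (p, s a)
  set E1 := ∑ a, ω a * Pay45.E0 ((D a).ms h0 h1 (hK a)) n p (p, s a)
  set S1 := ∑ a, ω a * Sg (Q a).S n p (s a)
  have n1 : 0 ≤ 56 * del * (1 / l) := by positivity
  have n2 : 0 ≤ 28 * (ModeR16.Ld del + J) := by positivity
  have k1 := mul_nonneg n1 h6
  have k2 := mul_nonneg n1 h7
  have k3 := mul_nonneg n2 h7
  have k4 := mul_nonneg n2 h8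
  have k5 : 28 * W1 ≤ 28 * (J * (A1 + 4 * del * A2)) := by linarith
  have f1 : 14 * (8 * (del * ModeR16.Ld del) * A2 + 2 * ModeR16.Ld del * A1) +
      28 * (J * (A1 + 4 * del * A2)) =
      14 * (8 * (del * (ModeR16.Ld del + J)) * A2) + 28 * (ModeR16.Ld del + J) * A1 := by ring
  have f2 : 14 * (8 * (del * (ModeR16.Ld del + J)) * A2) ≤ ε / 2 * A2 := by linarith
  have f3 : (28 * (ModeR16.Ld del + J) + 28 + 56 * del * (1 / l)) * A1 =
    28 * (ModeR16.Ld del + J) * A1 + 28 * A1 + 56 * del * (1 / l) * A1 := by ring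
  have f4 : (28 * (ModeR16.Ld del + J) + 28 + 56 * del * (1 / l)) * (Y1 + Y2) =
    28 * (ModeR16.Ld del + J) * Y1 + 28 * (ModeR16.Ld del + J) * Y2 + 28 * Y1 + 28 * Y2 +
      56 * del * (1 / l) * Y1 + 56 * del * (1 / l) * Y2 := by ring
  rw [f3, f4]
  linarith

/-- **the game with averaged payments by the bundles** -/
theorem avg_msx3B {ε J : ℝ} (hε : 0 < ε) (hJ : 0 ≤ J) :
    ∃ (del : ℝ) (h0 : 0 < del) (h1 : del ≤ 1) (C : ℝ), 0 ≤ C ∧
    ∀ {A : Type} [Fintype A] [Nonempty A] {ω : A → ℝ}, (∀ a, 0 ≤ ω a) → ∑ a, ω a = 1 →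
      ∀ {β : Type} {δ : A → Type} [∀ a, Fintype (δ a)] {R : ∀ a, RXm β (δ a)} {U : ∀ a, RBm (R a)}
      (D : ∀ a, RGx (U a)) (a₀ : A), (∀ a, (R a).cP = (R a₀).cP) → (∀ a, (R a).cN = (R a₀).cN) →
      (∀ a, (R a).rN = (R a₀).rN) → (∀ a, (U a).tt = (U a₀).tt) →
      ∀ {rc : A → ℕ → Gs β → ℝ → ℝ}, (∀ a, RCost (D a) (rc a)) →
      ∀ {Q1 Q2 : ∀ a, BCh (bm (R a))} {S : ∀ a, GSec (D a)},
      (∀ a, BPay3 (D a) (Q1 a) (Q2 a) (S a)) →
      ∀ {Km : A → ℕ} (hK : ∀ a, del * (U a).B0 ≤ 2 ^ Km a) (n p : ℕ) (s : Gs β),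
      (∀ a, (D a).ok p s) →
      (∀ x, ∑ a, ω a * su s ((Q1 a).Y p) x ≤ J * su s (U a₀).tt x) →
      ∑ a, ω a * Kr (R a) (rc a) n p s ≤ ε * I (fun x => su s (U a₀).tt x ^ 2) +
        C * I (su s (U a₀).tt) +
        28 * ∑ a, ω a * Pay45.E0 ((D a).ms h0 h1 (hK a)) n p (p, s) +
        28 * ∑ a, ω a * Sg (S a) n p s +
        C * ∑ a, ω a * (I (su s ((Q2 a).Y p)) + I (fun x => su s ((Q2 a).Y p) x ^ 2)) := by
  obtain ⟨del, h0, h1, C, hC, H⟩ := avg_msx3 hε hJ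
  refine ⟨del, h0, h1, C, hC, ?_⟩
  intro A _ _ ω hω h1ω β δ _ R U D a₀ hcP hcN hrN htt rc hr Q1 Q2 S hQ Km hK n p s hs hY
  exact H hω h1ω D hr hK (fun a => ⟨(Q1 a).chg (ovr (D a) h0 h1 (hK a)),
    (Q2 a).chg (ovr (D a) h0 h1 (hK a)), S a, fun hs hp y => (hQ a).hc hs hp y,
    fun hs hp x => (hQ a).hb hs hp x⟩) n p (fun _ => s) hs
    (T := su s (U a₀).tt) (Mm := Mx ((D a₀).ms h0 h1 (hK a₀)) n p (p, s))
    (fun a => by rw [htt a])
    (fun a => Mx_ms (D a) (D a₀) (hcP a) (hcN a) (hrN a) (htt a) h0 h1 (hK a) (hK a₀) n p s) hY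

end Crest.Agent.R4P.AvgM8
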