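import Crest.Agent.Lib.LinSieve.Cor

/-!
R4 (S0004) with powers, helper18: **Brun–Titchmarsh sums of `1/p` in residue classes** (from
`Lib/LinSieve/Cor.sieve_one`), for the P-side rarity counts.

* `ap_sum` : primes `p ≡ a (mod k)` in `(P₁, P₂]`, `P₁ ≥ k²` :
  `∑ 1/p ≤ (C / φ(k)) (log (log P₂ / log P₁) + 1 / log P₁)`.
* `ap_count` : `#{X < p ≤ X + H, p ≡ a (mod k)} ≤ C H / (φ(k) log (H / k))`, `H ≥ 2 k`.
* `ap_triv` : all `n ≡ a (mod k)` in `(P₁, P₂]` : `∑ 1/n ≤ 1 / P₁ + log (P₂ / P₁) / k`.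
* `tot_ge` : `k^(3/4) ≤ C φ(k)`.
* `res_sum` : the primes with `k ∣ p y - x`.
-/

set_option autoImplicit false

namespace Crest.Agent.R4P.BTs18

open Finset Crest.Agent.Lib.LinSieve

/-! ### elementary inequalities -/

/-- the floor of `P / k`, minus one -/
lemma u_ge {P : ℝ} {k : ℕ} (hk : 1 ≤ k) (h9 : 9 ≤ P) (hP : (k:ℝ) ^ 2 ≤ P) :
    2 ≤ ⌊P / k⌋₊ - 1 ∧ Real.log P / 4 ≤ Real.log ((⌊P / k⌋₊ - 1 : ℕ) : ℝ) ∧
      P / k - 2 ≤ ((⌊P / k⌋₊ - 1 : ℕ) : ℝ) := by
  have hk0 : (0:ℝ) < k := by exact_mod_cast hk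
  have hP0 : 0 < P := by linarith
  set s : ℝ := Real.sqrt P with hs
  have hs2 : s ^ 2 = P := Real.sq_sqrt hP0.le
  have hs3 : 3 ≤ s := by
    rw [hs]
    exact Real.le_sqrt_of_sq_le (by linarith)
  have hks : (k:ℝ) ≤ s := by
    rw [hs]
    exact Real.le_sqrt_of_sq_le hP
  have h1 : s ≤ P / k := by
    rw [le_div_iff₀ hk0, ← hs2]
    nlinarith
  have h2 : 3 ≤ ⌊P / k⌋₊ := Nat.le_floor (by push_cast; linarith)
  have h3 : P / k - 1 < (⌊P / k⌋₊ : ℝ) := Nat.sub_one_lt_floor _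
  have e : ((⌊P / k⌋₊ - 1 : ℕ) : ℝ) = (⌊P / k⌋₊ : ℝ) - 1 := by
    rw [Nat.cast_sub (by omega)]; norm_num
  have h4 : P / k - 2 ≤ ((⌊P / k⌋₊ - 1 : ℕ) : ℝ) := by rw [e]; linarith
  refine ⟨by omega, ?_, h4⟩
  have h5 : (2:ℝ) ≤ ((⌊P / k⌋₊ - 1 : ℕ) : ℝ) := by
    have : 2 ≤ ⌊P / k⌋₊ - 1 := by omega
    exact_mod_cast this
  -- `√s ≤ u`
  have hs0 : 0 < s := by linarith
  have h6 : Real.sqrt s ≤ ((⌊P / k⌋₊ - 1 : ℕ) : ℝ) := by
    set r := Real.sqrt s with hr
    have hr2 : r ^ 2 = s := Real.sq_sqrt hs0.le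
    have hr0 : 0 ≤ r := Real.sqrt_nonneg _
    rcases le_total r 2 with h | h
    · exact h.trans h5
    · have : r ≤ s - 2 := by rw [← hr2]; nlinarith
      linarith
  have h7 : 0 < Real.sqrt s := Real.sqrt_pos.2 hs0
  have h8 := Real.log_le_log h7 h6
  have h9' : Real.log (Real.sqrt s) = Real.log P / 4 := by
    rw [Real.log_sqrt hs0.le, hs, Real.log_sqrt hP0.le]; ring
  linarith

/-- the double logarithm -/
lemma loglog_le {P Q k u w : ℝ} (h9 : 9 ≤ P) (hPQ : P ≤ Q) (hk : 0 < k) (hkP : k ^ 2 ≤ P)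
    (hu : Real.log P / 4 ≤ Real.log u) (hu2 : P / k - 2 ≤ u) (hw : w ≤ Q / k) (huw : u ≤ w)
    (hu0 : 0 < u) :
    Real.log (Real.log w) - Real.log (Real.log u) ≤
      4 * Real.log (Real.log Q / Real.log P) + 24 / Real.log P := by
  have hP0 : 0 < P := by linarith
  have hQ0 : 0 < Q := by linarith
  have hlP : 0 < Real.log P := Real.log_pos (by linarith)
  have hlu : 0 < Real.log u := by linarith
  have hw0 : 0 < w := by linarith
  have hlw : Real.log u ≤ Real.log w := Real.log_le_log hu0 huw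
  have hlw0 : 0 < Real.log w := by linarith
  have hlQ : Real.log P ≤ Real.log Q := Real.log_le_log hP0 hPQ
  set s : ℝ := Real.sqrt P with hs
  have hs2 : s ^ 2 = P := Real.sq_sqrt hP0.le
  have hs3 : 3 ≤ s := by rw [hs]; exact Real.le_sqrt_of_sq_le (by linarith)
  have hks : k ≤ s := by rw [hs]; exact Real.le_sqrt_of_sq_le hkP
  -- `log w - log u ≤ log (Q / P) + 6 / s`
  have h1 : Real.log w - Real.log u ≤ Real.log (Q / P) + 6 / s := by
    have h2 : P / k * (1 - 2 / s) ≤ u := by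
      refine le_trans ?_ hu2
      have h3 : 2 ≤ P / k * (2 / s) := by
        rw [div_mul_div_comm, le_div_iff₀ (by positivity), ← hs2]
        nlinarith
      nlinarith
    have h3 : 0 < 1 - 2 / s := by
      have : 2 / s ≤ 2 / 3 := div_le_div_of_nonneg_left (by norm_num) (by norm_num) hs3
      linarith
    have h4 : Real.log w ≤ Real.log (Q / k) := Real.log_le_log hw0 hw
    have h5 : Real.log (P / k * (1 - 2 / s)) ≤ Real.log u := Real.log_le_log (by positivity) h2
    rw [Real.log_mul (by positivity) h3.ne', Real.log_div hP0.ne' hk.ne'] at h5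
    rw [Real.log_div hQ0.ne' hk.ne'] at h4
    have h6 : -(6 / s) ≤ Real.log (1 - 2 / s) := by
      have h7 := Real.log_le_sub_one_of_pos (show 0 < (1 - 2 / s)⁻¹ by positivity)
      rw [Real.log_inv] at h7
      have h8 : (1 - 2 / s)⁻¹ - 1 ≤ 6 / s := by
        have hs0 : 0 < s := by linarith
        rw [inv_eq_one_div, sub_le_iff_le_add, div_le_iff₀ h3]
        have e : (6 / s + 1) * (1 - 2 / s) = 1 + 4 / s * (1 - 3 / s) := by field_simp; ring
        rw [e]
        have : 3 / s ≤ 1 := by rw [div_le_one hs0]; exact hs3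
        have h9 : 0 ≤ 4 / s * (1 - 3 / s) := mul_nonneg (by positivity) (by linarith)
        linarith
      linarith
    rw [Real.log_div hQ0.ne' hP0.ne']
    linarith
  -- the ratio
  set r : ℝ := Real.log (Q / P) / Real.log P with hr
  have hr0 : 0 ≤ r := div_nonneg (Real.log_nonneg (by rw [le_div_iff₀ hP0]; linarith)) hlP.le
  have e1 : Real.log Q / Real.log P = 1 + r := by
    rw [hr, Real.log_div hQ0.ne' hP0.ne']
    field_simp
    ring
  set b : ℝ := 24 / (s * Real.log P) with hb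
  have hb0 : 0 ≤ b := by positivity
  have h10 : Real.log w / Real.log u ≤ (1 + r) ^ 4 * (1 + b) := by
    have h11 : Real.log w / Real.log u ≤ 1 + 4 * r + b := by
      have h12 : Real.log w / Real.log u = 1 + (Real.log w - Real.log u) / Real.log u := by
        field_simp
        ring
      rw [h12]
      have h13 : (Real.log w - Real.log u) / Real.log u ≤
          (Real.log (Q / P) + 6 / s) / (Real.log P / 4) := by
        refine div_le_div₀ ?_ h1 (by positivity) hu
        have : 0 ≤ Real.log (Q / P) := Real.log_nonneg (by rw [le_div_iff₀ hP0]; linarith)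
        positivity
      have h14 : (Real.log (Q / P) + 6 / s) / (Real.log P / 4) = 4 * r + b := by
        rw [hr, hb]
        have hs0 : s ≠ 0 := by
          have : 0 < s := by linarith
          exact this.ne'
        field_simp
        ring
      linarith
    refine h11.trans ?_
    have h15 : 1 + 4 * r ≤ (1 + r) ^ 4 := by nlinarith [sq_nonneg r, pow_nonneg hr0 3, pow_nonneg hr0 4]
    have h16 : 1 ≤ (1 + r) ^ 4 := by linarith
    nlinarith
  have h17 : Real.log (Real.log w / Real.log u) ≤ Real.log ((1 + r) ^ 4 * (1 + b)) :=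
    Real.log_le_log (by positivity) h10
  rw [Real.log_div hlw0.ne' hlu.ne', Real.log_mul (by positivity) (by positivity), Real.log_pow,
    ← e1] at h17
  have h18 : Real.log (1 + b) ≤ 24 / Real.log P := by
    have h19 := Real.log_le_sub_one_of_pos (show 0 < 1 + b by positivity)
    have h20 : b ≤ 24 / Real.log P := by
      rw [hb]
      refine div_le_div_of_nonneg_left (by norm_num) hlP ?_
      nlinarith
    linarith
  push_cast at h17
  linarith

/-! ### the sum over a residue class -/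

/-- **Brun–Titchmarsh sum of `1/p`**, `P₁ ≥ k²` -/
theorem ap_sum : ∃ C : ℝ, 0 < C ∧ ∀ (k a : ℕ), 1 ≤ k → ∀ P Q : ℝ, 9 ≤ P → (k:ℝ) ^ 2 ≤ P → P ≤ Q →
    ∀ F : Finset ℕ, (∀ p ∈ F, p.Prime ∧ P < p ∧ (p:ℝ) ≤ Q ∧ p % k = a % k) →
      ∑ p ∈ F, (1:ℝ) / p ≤
        C / Nat.totient k * (Real.log (Real.log Q / Real.log P) + 1 / Real.log P) := by
  classical
  obtain ⟨C, hC, h⟩ := sieve_one_inv
  refine ⟨C * 52, by positivity, fun k a hk P Q h9 hkP hPQ F hF => ?_⟩
  have hk0 : (0:ℝ) < k := by exact_mod_cast hk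
  have hP0 : 0 < P := by linarith
  have hφ : (0:ℝ) < Nat.totient k := by exact_mod_cast Nat.totient_pos.2 hk
  have hlP : 0 < Real.log P := Real.log_pos (by linarith)
  obtain ⟨hu2, hlu, hu⟩ := u_ge hk h9 hkP
  set u : ℕ := ⌊P / k⌋₊ - 1 with hudef
  set w : ℕ := ⌊Q / k⌋₊ with hwdef
  have hfl : ⌊P / k⌋₊ ≤ w := Nat.floor_mono (div_le_div_of_nonneg_right hPQ hk0.le)
  have huw : u ≤ w := by omega
  set b : ℕ := a % k with hb
  have key : ∑ p ∈ F, (1:ℝ) / p ≤
      1 / k * ∑ m ∈ (Finset.Ioc u w).filter (fun m => (k * m + b).Prime), (1:ℝ) / m := by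
    have hinj : Set.InjOn (fun p : ℕ => p / k) (F : Set ℕ) := by
      intro p hp q hq hpq
      have h1 := (hF p hp).2.2.2
      have h2 := (hF q hq).2.2.2
      simp only at hpq
      rw [← Nat.div_add_mod p k, ← Nat.div_add_mod q k, hpq, h1, h2]
    have hsub : F.image (fun p => p / k) ⊆
        (Finset.Ioc u w).filter (fun m => (k * m + b).Prime) := by
      intro m hm
      obtain ⟨p, hp, rfl⟩ := Finset.mem_image.1 hm
      obtain ⟨h1, h2, h3, h4⟩ := hF p hp
      rw [Finset.mem_filter, Finset.mem_Ioc]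
      refine ⟨⟨?_, ?_⟩, ?_⟩
      · have h5 : ⌊P / k⌋₊ ≤ p / k := by
          rw [← Nat.floor_div_eq_div (K := ℝ) p k]
          exact Nat.floor_mono (div_le_div_of_nonneg_right h2.le hk0.le)
        omega
      · have h5 : p / k ≤ w := by
          rw [hwdef, ← Nat.floor_div_eq_div (K := ℝ) p k]
          exact Nat.floor_mono (div_le_div_of_nonneg_right h3 hk0.le)
        exact h5
      · rw [← h4, Nat.div_add_mod]
        exact h1
    have h1 : ∑ p ∈ F, (1:ℝ) / p ≤ ∑ p ∈ F, 1 / k * (1 / ((p / k : ℕ) : ℝ)) := by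
      refine Finset.sum_le_sum fun p hp => ?_
      obtain ⟨h1, h2, h3, h4⟩ := hF p hp
      have h5 : u < p / k := by
        have := hsub (Finset.mem_image_of_mem _ hp)
        rw [Finset.mem_filter, Finset.mem_Ioc] at this
        exact this.1.1
      have h6 : (0:ℝ) < ((p / k : ℕ) : ℝ) := by
        have : 0 < p / k := by omega
        exact_mod_cast this
      rw [div_mul_div_comm, one_mul]
      refine one_div_le_one_div_of_le (by positivity) ?_
      have : k * (p / k) ≤ p := Nat.mul_div_le p k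
      exact_mod_cast this
    rw [← Finset.mul_sum] at h1
    refine h1.trans (mul_le_mul_of_nonneg_left ?_ (by positivity))
    rw [← Finset.sum_image (f := fun m : ℕ => (1:ℝ) / (m:ℝ)) hinj]
    exact Finset.sum_le_sum_of_subset_of_nonneg hsub fun m _ _ => by positivity
  refine key.trans ?_
  have h1 := h k b hk u w hu2 huw
  have hw' : (w:ℝ) ≤ Q / k := Nat.floor_le (div_nonneg (by linarith) hk0.le)
  have hu0 : (0:ℝ) < u := by
    have : 0 < u := by omega
    exact_mod_cast this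
  have h2 := loglog_le h9 hPQ hk0 hkP hlu hu hw' (by exact_mod_cast huw) hu0
  have h3 : 1 / Real.log (u:ℝ) ≤ 4 / Real.log P := by
    have : 1 / Real.log (u:ℝ) ≤ 1 / (Real.log P / 4) := one_div_le_one_div_of_le (by positivity) hlu
    refine this.trans (le_of_eq ?_)
    field_simp
  set L : ℝ := Real.log (Real.log Q / Real.log P) with hL
  have hL0 : 0 ≤ L := Real.log_nonneg (by
    rw [le_div_iff₀ hlP, one_mul]
    exact Real.log_le_log hP0 hPQ)
  have h4 : 2 * (Real.log (Real.log (w:ℝ)) - Real.log (Real.log (u:ℝ))) + 1 / Real.log (u:ℝ) ≤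
      52 * (L + 1 / Real.log P) := by
    have e1 : 24 / Real.log P = 24 * (1 / Real.log P) := by ring
    have e2 : 4 / Real.log P = 4 * (1 / Real.log P) := by ring
    have h5 : 0 ≤ 1 / Real.log P := by positivity
    rw [e1] at h2
    rw [e2] at h3
    linarith
  have h5 : ∑ m ∈ (Finset.Ioc u w).filter (fun m => (k * m + b).Prime), (1:ℝ) / m ≤
      C * ((k:ℝ) / Nat.totient k) * (52 * (L + 1 / Real.log P)) :=
    h1.trans (mul_le_mul_of_nonneg_left h4 (by positivity))
  calc 1 / (k:ℝ) * ∑ m ∈ (Finset.Ioc u w).filter (fun m => (k * m + b).Prime), (1:ℝ) / m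
      ≤ 1 / (k:ℝ) * (C * ((k:ℝ) / Nat.totient k) * (52 * (L + 1 / Real.log P))) :=
        mul_le_mul_of_nonneg_left h5 (by positivity)
    _ = C * 52 / Nat.totient k * (L + 1 / Real.log P) := by
        field_simp

/-! ### counting in an interval -/

/-- **Brun–Titchmarsh** : primes `p ≡ a (mod k)` in `(X, X + H]`, `2 k ≤ H` -/
theorem ap_count : ∃ C : ℝ, 0 < C ∧ ∀ (k a : ℕ), 1 ≤ k → ∀ X H : ℝ, 0 ≤ X → 2 * (k:ℝ) ≤ H →
    ∀ F : Finset ℕ, (∀ p ∈ F, p.Prime ∧ X < p ∧ (p:ℝ) ≤ X + H ∧ p % k = a % k) →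
      (F.card : ℝ) ≤ C / Nat.totient k * (H / Real.log (H / k)) := by
  classical
  obtain ⟨C, hC, h⟩ := sieve_one
  refine ⟨2 * C + 1, by positivity, fun k a hk X H hX hH F hF => ?_⟩
  have hk0 : (0:ℝ) < k := by exact_mod_cast hk
  have hφ : (0:ℝ) < Nat.totient k := by exact_mod_cast Nat.totient_pos.2 hk
  have hφk : (Nat.totient k : ℝ) ≤ k := by exact_mod_cast Nat.totient_le k
  have hH0 : 0 < H := by linarith
  set y : ℝ := H / k with hy
  have hy2 : 2 ≤ y := by rw [hy, le_div_iff₀ hk0]; exact hH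
  have hly : 0 < Real.log y := Real.log_pos (by linarith)
  set b : ℕ := a % k with hb
  set u : ℕ := ⌊X / k⌋₊ with hu
  set n : ℕ := ⌊y⌋₊ + 1 with hn
  have hyn : y ≤ n := by
    have := Nat.lt_floor_add_one y
    rw [hn]; push_cast; exact this.le
  have hn2 : 2 ≤ n := by
    have : (2:ℝ) ≤ n := hy2.trans hyn
    exact_mod_cast this
  have hny : (n:ℝ) ≤ 2 * y := by
    have := Nat.floor_le (show 0 ≤ y by linarith)
    rw [hn]; push_cast; linarith
  -- the elements with `u < p / k` and the others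
  have hcard1 : (((F.filter fun p => u < p / k).card : ℕ) : ℝ) ≤
      C * ((k:ℝ) / Nat.totient k) * (n / Real.log n) := by
    have h1 := h k (k * u + b) hk n hn2
    refine le_trans ?_ h1
    have hsub : ((F.filter fun p => u < p / k).image fun p => p / k - u) ⊆
        (Finset.Ioc 0 n).filter (fun m => (k * m + (k * u + b)).Prime) := by
      intro m hm
      obtain ⟨p, hp, rfl⟩ := Finset.mem_image.1 hm
      rw [Finset.mem_filter] at hp
      obtain ⟨h1, h2, h3, h4⟩ := hF p hp.1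
      rw [Finset.mem_filter, Finset.mem_Ioc]
      refine ⟨⟨by omega, ?_⟩, ?_⟩
      · have h5 : p / k ≤ u + n := by
          rw [← Nat.floor_div_eq_div (K := ℝ) p k]
          have h6 : (p:ℝ) / k ≤ X / k + y := by
            rw [hy, ← add_div]
            exact div_le_div_of_nonneg_right h3 hk0.le
          have h7 : ⌊(p:ℝ) / k⌋₊ ≤ ⌊X / k + y⌋₊ := Nat.floor_mono h6
          have h8 : X / k + y < (u + n + 1 : ℕ) := by
            have a1 := Nat.lt_floor_add_one (X / k)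
            have a2 := Nat.lt_floor_add_one y
            rw [hu, hn]
            push_cast
            linarith
          have h9 := (Nat.floor_lt (show 0 ≤ X / k + y by positivity)).2 h8
          omega
        omega
      · have e : k * (p / k - u) + (k * u + b) = p := by
          have h5 : k * (p / k - u) = k * (p / k) - k * u := Nat.mul_sub k (p / k) u
          have h6 : k * u ≤ k * (p / k) := Nat.mul_le_mul_left k hp.2.le
          have h7 := Nat.div_add_mod p k
          rw [h4] at h7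
          omega
        rw [e]
        exact h1
    have hinj : Set.InjOn (fun p : ℕ => p / k - u) ((F.filter fun p => u < p / k : Finset ℕ) : Set ℕ) := by
      intro p hp q hq hpq
      rw [Finset.mem_coe, Finset.mem_filter] at hp hq
      have h1 := (hF p hp.1).2.2.2
      have h2 := (hF q hq.1).2.2.2
      simp only at hpq
      have h3 : p / k = q / k := by omega
      rw [← Nat.div_add_mod p k, ← Nat.div_add_mod q k, h3, h1, h2]
    rw [← Finset.card_image_of_injOn hinj]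
    exact_mod_cast Finset.card_le_card hsub
  have hcard2 : (F.filter fun p => ¬ u < p / k).card ≤ 1 := by
    rw [Finset.card_le_one]
    intro p hp q hq
    rw [Finset.mem_filter] at hp hq
    have h1 := (hF p hp.1).2.2.2
    have h2 := (hF q hq.1).2.2.2
    have h3 : u ≤ p / k := by
      rw [hu, ← Nat.floor_div_eq_div (K := ℝ) p k]
      exact Nat.floor_mono (div_le_div_of_nonneg_right (hF p hp.1).2.1.le hk0.le)
    have h4 : u ≤ q / k := by
      rw [hu, ← Nat.floor_div_eq_div (K := ℝ) q k]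
      exact Nat.floor_mono (div_le_div_of_nonneg_right (hF q hq.1).2.1.le hk0.le)
    have h5 : p / k = q / k := by omega
    rw [← Nat.div_add_mod p k, ← Nat.div_add_mod q k, h5, h1, h2]
  have hsum : F.card = (F.filter fun p => u < p / k).card +
      (F.filter fun p => ¬ u < p / k).card := by
    rw [Finset.card_filter_add_card_filter_not]
  have h1 : (F.card : ℝ) ≤ C * ((k:ℝ) / Nat.totient k) * (n / Real.log n) + 1 := by
    rw [hsum]
    push_cast
    have : (((F.filter fun p => ¬ u < p / k).card : ℕ) : ℝ) ≤ 1 := by exact_mod_cast hcard2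
    linarith
  have h2 : (n:ℝ) / Real.log n ≤ 2 * (y / Real.log y) := by
    rw [← mul_div_assoc]
    refine div_le_div₀ (by positivity) hny hly (Real.log_le_log (by linarith) hyn)
  have h3 : (1:ℝ) ≤ 1 / Nat.totient k * (H / Real.log y) := by
    have h4 : Real.log y ≤ y := (Real.log_le_sub_one_of_pos (by linarith)).trans (by linarith)
    rw [div_mul_div_comm, one_mul, le_div_iff₀ (by positivity), one_mul]
    calc (Nat.totient k : ℝ) * Real.log y ≤ k * y := mul_le_mul hφk h4 hly.le hk0.le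
      _ = H := by rw [hy]; field_simp
  calc (F.card : ℝ) ≤ C * ((k:ℝ) / Nat.totient k) * (n / Real.log n) + 1 := h1
    _ ≤ C * ((k:ℝ) / Nat.totient k) * (2 * (y / Real.log y)) +
        1 / Nat.totient k * (H / Real.log y) := by
        refine add_le_add (mul_le_mul_of_nonneg_left h2 (by positivity)) h3
    _ = (2 * C + 1) / Nat.totient k * (H / Real.log y) := by
        rw [hy]
        field_simp

/-- **multiplicative windows** : primes `p ≡ a (mod k)` in `(V, (1 + d) V]`, `2 k ≤ d V` -/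
theorem ap_window : ∃ C : ℝ, 0 < C ∧ ∀ (k a : ℕ), 1 ≤ k → ∀ V d : ℝ, 0 < V → 2 * (k:ℝ) ≤ d * V →
    ∀ F : Finset ℕ, (∀ p ∈ F, p.Prime ∧ V < p ∧ (p:ℝ) ≤ (1 + d) * V ∧ p % k = a % k) →
      ∑ p ∈ F, (1:ℝ) / p ≤ C / Nat.totient k * (d / Real.log (d * V / k)) := by
  obtain ⟨C, hC, h⟩ := ap_count
  refine ⟨C, hC, fun k a hk V d hV hd F hF => ?_⟩
  have h1 := h k a hk V (d * V) hV.le hd F fun p hp => by
    obtain ⟨h1, h2, h3, h4⟩ := hF p hp
    exact ⟨h1, h2, by linarith, h4⟩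
  have h2 : ∑ p ∈ F, (1:ℝ) / p ≤ F.card * (1 / V) := by
    rw [← nsmul_eq_mul]
    refine Finset.sum_le_card_nsmul F _ _ fun p hp => ?_
    exact one_div_le_one_div_of_le hV (hF p hp).2.1.le
  calc ∑ p ∈ F, (1:ℝ) / p ≤ F.card * (1 / V) := h2
    _ ≤ (C / Nat.totient k * (d * V / Real.log (d * V / k))) * (1 / V) :=
        mul_le_mul_of_nonneg_right h1 (by positivity)
    _ = _ := by field_simp

/-! ### all numbers of a residue class -/

/-- **all `n ≡ a (mod k)` in `(P, Q]`** -/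
theorem ap_triv {k a : ℕ} (hk : 1 ≤ k) {P Q : ℝ} (hP : 0 < P) (hPQ : P ≤ Q) {F : Finset ℕ}
    (hF : ∀ n ∈ F, P < n ∧ (n:ℝ) ≤ Q ∧ n % k = a % k) :
    ∑ n ∈ F, (1:ℝ) / n ≤ 1 / P + Real.log (Q / P) / k := by
  classical
  have hk0 : (0:ℝ) < k := by exact_mod_cast hk
  -- induction on the card, with the largest element
  have key : ∀ (m : ℕ) (F : Finset ℕ) (Q : ℝ), F.card = m → P ≤ Q →
      (∀ n ∈ F, P < n ∧ (n:ℝ) ≤ Q ∧ n % k = a % k) →
      ∑ n ∈ F, (1:ℝ) / n ≤ 1 / P + Real.log (Q / P) / k := by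
    intro m
    induction m with
    | zero =>
      intro F Q hc hPQ _
      rw [Finset.card_eq_zero.1 hc, Finset.sum_empty]
      have : 0 ≤ Real.log (Q / P) := Real.log_nonneg (by rw [le_div_iff₀ hP]; linarith)
      positivity
    | succ m ih =>
      intro F Q hc hPQ hF
      have hne : F.Nonempty := Finset.card_pos.1 (by omega)
      set M : ℕ := F.max' hne with hM
      have hMF : M ∈ F := Finset.max'_mem F hne
      obtain ⟨h1, h2, h3⟩ := hF M hMF
      have hM0 : (0:ℝ) < M := by linarith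
      rw [← Finset.add_sum_erase F _ hMF]
      rcases Finset.eq_empty_or_nonempty (F.erase M) with he | he
      · rw [he, Finset.sum_empty, add_zero]
        have h4 : (1:ℝ) / M ≤ 1 / P := one_div_le_one_div_of_le hP h1.le
        have : 0 ≤ Real.log (Q / P) := Real.log_nonneg (by rw [le_div_iff₀ hP]; linarith)
        have : 0 ≤ Real.log (Q / P) / k := by positivity
        linarith
      · -- the others are at most `M - k`
        have h4 : ∀ n ∈ F.erase M, P < n ∧ (n:ℝ) ≤ (M:ℝ) - k ∧ n % k = a % k := by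
          intro n hn
          obtain ⟨hne', hn'⟩ := Finset.mem_erase.1 hn
          obtain ⟨a1, a2, a3⟩ := hF n hn'
          refine ⟨a1, ?_, a3⟩
          have hlt : n < M := lt_of_le_of_ne (Finset.le_max' F n hn') hne'
          have hd : k ∣ M - n := (Nat.modEq_iff_dvd' hlt.le).1 (by
            show n % k = M % k
            rw [a3, h3])
          have : k ≤ M - n := Nat.le_of_dvd (by omega) hd
          have h5 : n + k ≤ M := by omega
          have h6 : (n:ℝ) + k ≤ M := by exact_mod_cast h5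
          linarith
        obtain ⟨n₀, hn₀⟩ := he
        have h5 : P ≤ (M:ℝ) - k := (h4 n₀ hn₀).1.le.trans (h4 n₀ hn₀).2.1
        have h6 := ih (F.erase M) ((M:ℝ) - k) (by
          rw [Finset.card_erase_of_mem hMF, hc]; rfl) h5 h4
        have h7 : (1:ℝ) / M + Real.log (((M:ℝ) - k) / P) / k ≤ Real.log (Q / P) / k := by
          have hMk : 0 < (M:ℝ) - k := by linarith
          have h8 : Real.log ((M:ℝ) / P) ≤ Real.log (Q / P) :=
            Real.log_le_log (by positivity) (div_le_div_of_nonneg_right h2 hP.le)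
          have h9 := Real.log_le_sub_one_of_pos (show 0 < ((M:ℝ) - k) / M by positivity)
          have e1 : ((M:ℝ) - k) / M - 1 = -(k / M) := by field_simp; ring
          rw [e1, Real.log_div hMk.ne' hM0.ne'] at h9
          have h10 : k / (M:ℝ) + Real.log (((M:ℝ) - k) / P) ≤ Real.log (Q / P) := by
            rw [Real.log_div hMk.ne' hP.ne']
            rw [Real.log_div hM0.ne' hP.ne'] at h8
            linarith
          have h11 : (1:ℝ) / M = (k / M) / k := by field_simp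
          rw [h11, ← add_div]
          exact div_le_div_of_nonneg_right h10 hk0.le
        linarith
  exact key F.card F Q rfl hPQ hF

/-! ### the totient -/

/-- `k^(3/4) ≤ C φ(k)` -/
theorem tot_ge : ∃ C : ℝ, 0 < C ∧ ∀ k : ℕ, 1 ≤ k →
    (1:ℝ) / Nat.totient k ≤ C / (k:ℝ) ^ (3 / 4 : ℝ) := by
  obtain ⟨C, hC, h⟩ := ratio_le
  refine ⟨C * 8, by positivity, fun k hk => ?_⟩
  have hk0 : (0:ℝ) < k := by exact_mod_cast hk
  have hk1 : (1:ℝ) ≤ k := by exact_mod_cast hk
  have hφ : (0:ℝ) < Nat.totient k := by exact_mod_cast Nat.totient_pos.2 hk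
  have h1 := h k (by omega)
  have hlk : 0 ≤ Real.log (k:ℝ) := Real.log_nonneg hk1
  -- `log (log k + 3) ≤ log k + 2 ≤ 8 k^(1/4)`
  have h2 : Real.log (Real.log (k:ℝ) + 3) ≤ 8 * (k:ℝ) ^ (1 / 4 : ℝ) := by
    have h3 := Real.log_le_sub_one_of_pos (show 0 < Real.log (k:ℝ) + 3 by linarith)
    have h4 : Real.log (k:ℝ) ≤ 4 * (k:ℝ) ^ (1 / 4 : ℝ) := by
      have h5 := Real.log_le_sub_one_of_pos (show 0 < (k:ℝ) ^ (1 / 4 : ℝ) by positivity)
      rw [Real.log_rpow hk0] at h5
      linarith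
    have h6 : 1 ≤ (k:ℝ) ^ (1 / 4 : ℝ) := Real.one_le_rpow hk1 (by norm_num)
    linarith
  have h3 : (k:ℝ) / Nat.totient k ≤ C * 8 * (k:ℝ) ^ (1 / 4 : ℝ) := by
    refine h1.trans ?_
    calc C * Real.log (Real.log (k:ℝ) + 3) ≤ C * (8 * (k:ℝ) ^ (1 / 4 : ℝ)) :=
          mul_le_mul_of_nonneg_left h2 hC.le
      _ = _ := by ring
  have e : (k:ℝ) = (k:ℝ) ^ (1 / 4 : ℝ) * (k:ℝ) ^ (3 / 4 : ℝ) := by
    rw [← Real.rpow_add hk0]; norm_num
  rw [div_le_div_iff₀ hφ (by positivity), one_mul]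
  rw [div_le_iff₀ hφ] at h3
  have h6 : 0 < (k:ℝ) ^ (1 / 4 : ℝ) := by positivity
  have h7 : (k:ℝ) ^ (1 / 4 : ℝ) * (k:ℝ) ^ (3 / 4 : ℝ) ≤
      (k:ℝ) ^ (1 / 4 : ℝ) * (C * 8 * Nat.totient k) := by
    rw [← e]; linarith
  exact le_of_mul_le_mul_left h7 h6

lemma tot_mul_le (a b : ℕ) (ha : 1 ≤ a) (hb : 1 ≤ b) :
    Nat.totient (a * b) ≤ 2 * a * Nat.totient b := by
  have h1 := Nat.filter_coprime_Ico_eq_totient (a * b) 0
  have h2 := Nat.Ico_filter_coprime_le (a := b) 0 (a * b) (by omega)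
  rw [zero_add] at h1 h2
  have h3 : ((Finset.Ico 0 (a * b)).filter fun x => (a * b).Coprime x).card ≤
      ((Finset.Ico 0 (a * b)).filter fun x => b.Coprime x).card :=
    Finset.card_le_card (Finset.monotone_filter_right _ fun x _ hx =>
      Nat.Coprime.coprime_mul_left hx)
  rw [h1] at h3
  have h4 : a * b / b = a := Nat.mul_div_cancel _ (by omega)
  rw [h4] at h2
  calc Nat.totient (a * b) ≤ Nat.totient b * (a + 1) := h3.trans h2
    _ ≤ Nat.totient b * (2 * a) := Nat.mul_le_mul_left _ (by omega)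
    _ = _ := by ring

/-! ### the classes `k ∣ p y - x` -/

/-- the elements with `k ∣ n y - x` lie in one class mod `k / gcd(y,k)` -/
lemma class_of {k x y n m : ℕ} (hk : 1 ≤ k) (hn : (k:ℤ) ∣ (n:ℤ) * y - x)
    (hm : (k:ℤ) ∣ (m:ℤ) * y - x) : n % (k / Nat.gcd y k) = m % (k / Nat.gcd y k) := by
  have hg : 0 < Nat.gcd y k := Nat.gcd_pos_of_pos_right _ (by omega)
  have h1 : (k:ℤ) ∣ ((n:ℤ) - m) * y := by
    have h2 := dvd_sub hn hm
    have e : (n:ℤ) * y - x - ((m:ℤ) * y - x) = ((n:ℤ) - m) * y := by ring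
    rwa [e] at h2
  -- divide by the gcd
  have h3 : ((k / Nat.gcd y k : ℕ) : ℤ) ∣ (n:ℤ) - m := by
    obtain ⟨y', hy'⟩ := Nat.gcd_dvd_left y k
    obtain ⟨k', hk'⟩ := Nat.gcd_dvd_right y k
    set g := Nat.gcd y k with hgd
    have e1 : k / g = k' := by
      rw [hk']; exact Nat.mul_div_cancel_left _ hg
    rw [e1]
    have hcop : Nat.Coprime y' k' := by
      have := Nat.coprime_div_gcd_div_gcd (m := y) (n := k) hg
      rw [← hgd] at this
      have e2 : y / g = y' := by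
        conv_lhs => rw [hy']
        exact Nat.mul_div_cancel_left _ hg
      rwa [e2, e1] at this
    have h4 : ((g:ℤ) * k') ∣ ((n:ℤ) - m) * (g * y') := by
      have a1 : ((g:ℤ) * k') = (k:ℤ) := by exact_mod_cast hk'.symm
      have a2 : ((g:ℤ) * y') = (y:ℤ) := by exact_mod_cast hy'.symm
      rw [a1, a2]; exact h1
    have h5 : (k':ℤ) ∣ ((n:ℤ) - m) * y' := by
      have hg0 : (g:ℤ) ≠ 0 := by exact_mod_cast hg.ne'
      refine (mul_dvd_mul_iff_left hg0).1 ?_
      have e3 : (g:ℤ) * (((n:ℤ) - m) * y') = ((n:ℤ) - m) * (g * y') := by ring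
      rw [e3]; exact h4
    exact (IsCoprime.dvd_of_dvd_mul_right (Nat.Coprime.isCoprime hcop.symm) h5)
  have h6 : (n:ℤ) ≡ m [ZMOD ((k / Nat.gcd y k : ℕ) : ℤ)] := by
    rw [Int.modEq_iff_dvd]
    have := (dvd_neg (a := ((k / Nat.gcd y k : ℕ) : ℤ)) (b := (n:ℤ) - m)).2 h3
    rwa [neg_sub] at this
  exact (Int.natCast_modEq_iff.1 h6)

/-- **primes with `k ∣ p y - x`**, `P ≥ k²` -/
theorem res_sum : ∃ C : ℝ, 0 < C ∧ ∀ (k x y : ℕ), 1 ≤ k → 1 ≤ y → ∀ P Q : ℝ, 9 ≤ P →
    (k:ℝ) ^ 2 ≤ P → P ≤ Q →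
    ∀ F : Finset ℕ, (∀ p ∈ F, p.Prime ∧ P < p ∧ (p:ℝ) ≤ Q ∧ (k:ℤ) ∣ (p:ℤ) * y - x) →
      ∑ p ∈ F, (1:ℝ) / p ≤
        C * y / Nat.totient k * (Real.log (Real.log Q / Real.log P) + 1 / Real.log P) := by
  obtain ⟨C, hC, h⟩ := ap_sum
  refine ⟨2 * C, by positivity, fun k x y hk hy P Q h9 hkP hPQ F hF => ?_⟩
  have hP0 : 0 < P := by linarith
  have hlP : 0 < Real.log P := Real.log_pos (by linarith)
  have hφ : (0:ℝ) < Nat.totient k := by exact_mod_cast Nat.totient_pos.2 hk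
  have hL0 : 0 ≤ Real.log (Real.log Q / Real.log P) := Real.log_nonneg (by
    rw [le_div_iff₀ hlP, one_mul]; exact Real.log_le_log hP0 hPQ)
  have hR : 0 ≤ Real.log (Real.log Q / Real.log P) + 1 / Real.log P := by positivity
  rcases Finset.eq_empty_or_nonempty F with he | ⟨q, hq⟩
  · rw [he, Finset.sum_empty]
    positivity
  set g : ℕ := Nat.gcd y k with hg
  have hg0 : 0 < g := Nat.gcd_pos_of_pos_right _ (by omega)
  have hgy : g ≤ y := Nat.gcd_le_left _ (by omega)
  obtain ⟨k', hk'⟩ := Nat.gcd_dvd_right y k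
  rw [← hg] at hk'
  have e1 : k / g = k' := by rw [hk']; exact Nat.mul_div_cancel_left _ hg0
  have hk'0 : 1 ≤ k' := by
    rcases Nat.eq_zero_or_pos k' with h0 | h0
    · rw [h0, mul_zero] at hk'; omega
    · exact h0
  have hk'k : k' ≤ k := by
    rw [hk']; exact Nat.le_mul_of_pos_left _ hg0
  have h1 := h k' q hk'0 P Q h9 (le_trans (by
    have : (k':ℝ) ≤ k := by exact_mod_cast hk'k
    have h0 : (0:ℝ) ≤ k' := Nat.cast_nonneg _
    nlinarith) hkP) hPQ F fun p hp => by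
      obtain ⟨a1, a2, a3, a4⟩ := hF p hp
      refine ⟨a1, a2, a3, ?_⟩
      have := class_of hk a4 (hF q hq).2.2.2
      rwa [← hg, e1] at this
  refine h1.trans (mul_le_mul_of_nonneg_right ?_ hR)
  have h2 : (Nat.totient k : ℝ) ≤ 2 * g * Nat.totient k' := by
    have := tot_mul_le g k' hg0 hk'0
    rw [← hk'] at this
    exact_mod_cast this
  have hφ' : (0:ℝ) < Nat.totient k' := by exact_mod_cast Nat.totient_pos.2 hk'0
  rw [div_le_div_iff₀ hφ' hφ]
  have h3 : (g:ℝ) ≤ y := by exact_mod_cast hgy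
  calc C * (Nat.totient k : ℝ) ≤ C * (2 * g * Nat.totient k') :=
        mul_le_mul_of_nonneg_left h2 hC.le
    _ ≤ C * (2 * y * Nat.totient k') := by
        refine mul_le_mul_of_nonneg_left ?_ hC.le
        nlinarith
    _ = _ := by ring

/-- **all `n` with `k ∣ n y - x`** -/
theorem res_triv {k x y : ℕ} (hk : 1 ≤ k) (hy : 1 ≤ y) {P Q : ℝ} (hP : 0 < P) (hPQ : P ≤ Q)
    {F : Finset ℕ} (hF : ∀ n ∈ F, P < n ∧ (n:ℝ) ≤ Q ∧ (k:ℤ) ∣ (n:ℤ) * y - x) :
    ∑ n ∈ F, (1:ℝ) / n ≤ 1 / P + y * Real.log (Q / P) / k := by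
  have hL : 0 ≤ Real.log (Q / P) := Real.log_nonneg (by rw [le_div_iff₀ hP]; linarith)
  rcases Finset.eq_empty_or_nonempty F with he | ⟨q, hq⟩
  · rw [he, Finset.sum_empty]
    positivity
  set g : ℕ := Nat.gcd y k with hg
  have hg0 : 0 < g := Nat.gcd_pos_of_pos_right _ (by omega)
  have hgy : g ≤ y := Nat.gcd_le_left _ (by omega)
  obtain ⟨k', hk'⟩ := Nat.gcd_dvd_right y k
  rw [← hg] at hk'
  have e1 : k / g = k' := by rw [hk']; exact Nat.mul_div_cancel_left _ hg0
  have hk'0 : 1 ≤ k' := by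
    rcases Nat.eq_zero_or_pos k' with h0 | h0
    · rw [h0, mul_zero] at hk'; omega
    · exact h0
  have h1 := ap_triv (a := q) hk'0 hP hPQ (F := F) fun n hn => by
      obtain ⟨a2, a3, a4⟩ := hF n hn
      refine ⟨a2, a3, ?_⟩
      have := class_of hk a4 (hF q hq).2.2
      rwa [← hg, e1] at this
  refine h1.trans (add_le_add le_rfl ?_)
  have hk'r : (0:ℝ) < k' := by exact_mod_cast hk'0
  have hk0 : (0:ℝ) < k := by exact_mod_cast hk
  have h2 : (k:ℝ) ≤ y * k' := by
    have : k ≤ y * k' := by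
      calc k = g * k' := hk'
        _ ≤ y * k' := Nat.mul_le_mul_right _ hgy
    exact_mod_cast this
  rw [div_le_div_iff₀ hk'r hk0]
  nlinarith

/-- **primes with `k ∣ p y - x`, no condition on the size of `k`** -/
theorem res_all : ∃ C : ℝ, 0 < C ∧ ∀ (k x y : ℕ), 1 ≤ k → 1 ≤ y → ∀ P Q : ℝ, 9 ≤ P → P ≤ Q →
    ∀ F : Finset ℕ, (∀ p ∈ F, p.Prime ∧ P < p ∧ (p:ℝ) ≤ Q ∧ (k:ℤ) ∣ (p:ℤ) * y - x) →
      ∑ p ∈ F, (1:ℝ) / p ≤
        1 / P + C * y / (k:ℝ) ^ (3 / 4 : ℝ) * (1 + Real.log (Real.log Q / Real.log P)) := by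
  classical
  obtain ⟨C, hC, h⟩ := res_sum
  obtain ⟨C', hC', h'⟩ := tot_ge
  refine ⟨C * C' + 8, by positivity, fun k x y hk hy P Q h9 hPQ F hF => ?_⟩
  have hP0 : 0 < P := by linarith
  have hQ0 : 0 < Q := by linarith
  have hlP1 : 1 ≤ Real.log P := by
    rw [Real.le_log_iff_exp_le hP0]
    have := Real.exp_one_lt_d9
    linarith
  have hlP : 0 < Real.log P := by linarith
  have hk0 : (0:ℝ) < k := by exact_mod_cast hk
  have hy0 : (0:ℝ) < y := by exact_mod_cast hy
  have hL0 : 0 ≤ Real.log (Real.log Q / Real.log P) := Real.log_nonneg (by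
    rw [le_div_iff₀ hlP, one_mul]; exact Real.log_le_log hP0 hPQ)
  set L : ℝ := Real.log (Real.log Q / Real.log P) with hL
  set K : ℝ := (k:ℝ) ^ (3 / 4 : ℝ) with hK
  have hK0 : 0 < K := by positivity
  -- the part with `k² ≤ P`
  have main : ∀ P' : ℝ, P ≤ P' → 9 ≤ P' → (k:ℝ) ^ 2 ≤ P' → ∀ F' ⊆ F,
      (∀ p ∈ F', P' < p) → ∑ p ∈ F', (1:ℝ) / p ≤ C * C' * y / K * (1 + L) := by
    intro P' hPP' h9' hkP' F' hF' hlt
    rcases le_total P' Q with hQ | hQ
    swap
    · have : F' = ∅ := by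
        rw [Finset.eq_empty_iff_forall_notMem]
        intro p hp
        have a1 := hlt p hp
        have a2 := (hF p (hF' hp)).2.2.1
        linarith
      rw [this, Finset.sum_empty]
      positivity
    have h1 := h k x y hk hy P' Q h9' hkP' hQ F' fun p hp =>
      ⟨(hF p (hF' hp)).1, hlt p hp, (hF p (hF' hp)).2.2.1, (hF p (hF' hp)).2.2.2⟩
    have hP'0 : 0 < P' := by linarith
    have hlP' : Real.log P ≤ Real.log P' := Real.log_le_log hP0 hPP'
    have hlQ : Real.log P' ≤ Real.log Q := Real.log_le_log hP'0 hQ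
    have h2 : Real.log (Real.log Q / Real.log P') ≤ L := by
      refine Real.log_le_log (by
        have : 0 < Real.log Q := by linarith
        have : 0 < Real.log P' := by linarith
        positivity) ?_
      exact div_le_div_of_nonneg_left (by linarith) hlP hlP'
    have h3 : 1 / Real.log P' ≤ 1 := by
      rw [div_le_one (by linarith)]; linarith
    have h4 : C * y / Nat.totient k ≤ C * C' * y / K := by
      have := h' k hk
      calc C * y / Nat.totient k = C * y * (1 / Nat.totient k) := by ring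
        _ ≤ C * y * (C' / K) := mul_le_mul_of_nonneg_left this (by positivity)
        _ = _ := by ring
    have h0' : 0 ≤ Real.log (Real.log Q / Real.log P') := Real.log_nonneg (by
      rw [le_div_iff₀ (by linarith), one_mul]; exact hlQ)
    calc ∑ p ∈ F', (1:ℝ) / p ≤ C * y / Nat.totient k *
          (Real.log (Real.log Q / Real.log P') + 1 / Real.log P') := h1
      _ ≤ C * C' * y / K * (1 + L) := by
          refine mul_le_mul h4 (by linarith) ?_ (by positivity)
          have : 0 < Real.log P' := by linarith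
          positivity
  rcases le_total ((k:ℝ) ^ 2) P with hkP | hkP
  · have h1 := main P le_rfl h9 hkP F (Finset.Subset.refl _) fun p hp => (hF p hp).2.1
    have h2 : C * C' * y / K * (1 + L) ≤ (C * C' + 8) * y / K * (1 + L) := by
      refine mul_le_mul_of_nonneg_right ?_ (by linarith)
      refine div_le_div_of_nonneg_right ?_ hK0.le
      nlinarith
    have : 0 ≤ 1 / P := by positivity
    linarith
  · -- split at `k²`
    have hk2 : 0 < (k:ℝ) ^ 2 := by positivity
    have e0 := Finset.sum_filter_add_sum_filter_not F (fun p : ℕ => (p:ℝ) ≤ (k:ℝ) ^ 2)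
      (fun p => (1:ℝ) / p)
    rw [← e0]
    have h1 := res_triv hk hy hP0 hkP (F := F.filter fun p : ℕ => (p:ℝ) ≤ (k:ℝ) ^ 2) (x := x)
      fun n hn => by
        rw [Finset.mem_filter] at hn
        exact ⟨(hF n hn.1).2.1, hn.2, (hF n hn.1).2.2.2⟩
    have h2 := main ((k:ℝ) ^ 2) hkP (by linarith) le_rfl
      (F.filter fun p : ℕ => ¬ (p:ℝ) ≤ (k:ℝ) ^ 2) (Finset.filter_subset _ _) fun p hp => by
        rw [Finset.mem_filter] at hp
        exact not_le.1 hp.2
    have h3 : (y:ℝ) * Real.log ((k:ℝ) ^ 2 / P) / k ≤ 8 * y / K := by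
      have hk1 : (1:ℝ) ≤ k := by exact_mod_cast hk
      have h4 : Real.log ((k:ℝ) ^ 2 / P) ≤ 8 * (k:ℝ) ^ (1 / 4 : ℝ) := by
        have h5 : Real.log ((k:ℝ) ^ 2 / P) ≤ Real.log ((k:ℝ) ^ 2) := by
          refine Real.log_le_log (by positivity) (div_le_self (by positivity) (by linarith))
        rw [Real.log_pow] at h5
        have h6 := Real.log_le_sub_one_of_pos (show 0 < (k:ℝ) ^ (1 / 4 : ℝ) by positivity)
        rw [Real.log_rpow hk0] at h6
        push_cast at h5
        linarith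
      have e : (k:ℝ) = (k:ℝ) ^ (1 / 4 : ℝ) * K := by
        rw [hK, ← Real.rpow_add hk0]; norm_num
      rw [div_le_div_iff₀ hk0 hK0]
      have h7 : 0 < (k:ℝ) ^ (1 / 4 : ℝ) := by positivity
      calc (y:ℝ) * Real.log ((k:ℝ) ^ 2 / P) * K ≤ y * (8 * (k:ℝ) ^ (1 / 4 : ℝ)) * K := by
            refine mul_le_mul_of_nonneg_right ?_ hK0.le
            exact mul_le_mul_of_nonneg_left h4 hy0.le
        _ = 8 * y * ((k:ℝ) ^ (1 / 4 : ℝ) * K) := by ring
        _ = 8 * y * k := by rw [← e]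
    have h5 : 8 * (y:ℝ) / K ≤ 8 * y / K * (1 + L) := by
      have : 0 ≤ 8 * (y:ℝ) / K := by positivity
      nlinarith
    have e6 : (C * C' + 8) * y / K * (1 + L) = C * C' * y / K * (1 + L) + 8 * y / K * (1 + L) := by
      ring
    rw [e6]
    linarith

/-- **union over the cofactors** : the primes of `F` with `k ∣ p y - x` for some `x ≤ X`, `1 ≤ y ≤ Y` -/
theorem res_union : ∃ C : ℝ, 0 < C ∧ ∀ (k X Y : ℕ), 1 ≤ k → ∀ P Q : ℝ, 9 ≤ P → P ≤ Q →
    ∀ F : Finset ℕ, (∀ p ∈ F, p.Prime ∧ P < p ∧ (p:ℝ) ≤ Q ∧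
      ∃ x y : ℕ, x ≤ X ∧ 1 ≤ y ∧ y ≤ Y ∧ (k:ℤ) ∣ (p:ℤ) * y - x) →
      ∑ p ∈ F, (1:ℝ) / p ≤ (X + 1) * Y * (1 / P + C * Y / (k:ℝ) ^ (3 / 4 : ℝ) *
        (1 + Real.log (Real.log Q / Real.log P))) := by
  classical
  obtain ⟨C, hC, h⟩ := res_all
  refine ⟨C, hC, fun k X Y hk P Q h9 hPQ F hF => ?_⟩
  have hP0 : 0 < P := by linarith
  have hlP : 0 < Real.log P := Real.log_pos (by linarith)
  have hk0 : (0:ℝ) < k := by exact_mod_cast hk
  have hL0 : 0 ≤ Real.log (Real.log Q / Real.log P) := Real.log_nonneg (by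
    rw [le_div_iff₀ hlP, one_mul]; exact Real.log_le_log hP0 hPQ)
  set T := (Finset.range (X + 1)) ×ˢ (Finset.Icc 1 Y) with hT
  have h1 : ∑ p ∈ F, (1:ℝ) / p ≤
      ∑ t ∈ T, ∑ p ∈ F.filter (fun p : ℕ => (k:ℤ) ∣ (p:ℤ) * (t.2 : ℕ) - (t.1 : ℕ)), (1:ℝ) / p := by
    have e : ∀ t ∈ T, ∑ p ∈ F.filter (fun p : ℕ => (k:ℤ) ∣ (p:ℤ) * (t.2 : ℕ) - (t.1 : ℕ)), (1:ℝ) / p =
        ∑ p ∈ F, if (k:ℤ) ∣ (p:ℤ) * (t.2 : ℕ) - (t.1 : ℕ) then (1:ℝ) / p else 0 :=
      fun t _ => Finset.sum_filter _ _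
    rw [Finset.sum_congr rfl e, Finset.sum_comm]
    refine Finset.sum_le_sum fun p hp => ?_
    obtain ⟨-, -, -, x, y, hx, hy1, hy, hd⟩ := hF p hp
    have ht : (x, y) ∈ T := by
      rw [hT, Finset.mem_product, Finset.mem_range, Finset.mem_Icc]
      exact ⟨by show x < X + 1; omega, hy1, hy⟩
    have h2 := Finset.single_le_sum (f := fun t : ℕ × ℕ =>
      if (k:ℤ) ∣ (p:ℤ) * (t.2 : ℕ) - (t.1 : ℕ) then (1:ℝ) / p else 0)
      (fun t _ => by split_ifs <;> positivity) ht
    simp only [hd, if_true] at h2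
    exact h2
  refine h1.trans ?_
  have h2 : ∀ t ∈ T, ∑ p ∈ F.filter (fun p : ℕ => (k:ℤ) ∣ (p:ℤ) * (t.2 : ℕ) - (t.1 : ℕ)), (1:ℝ) / p ≤
      1 / P + C * Y / (k:ℝ) ^ (3 / 4 : ℝ) * (1 + Real.log (Real.log Q / Real.log P)) := by
    intro t ht
    rw [hT, Finset.mem_product, Finset.mem_range, Finset.mem_Icc] at ht
    have h3 := h k t.1 t.2 hk ht.2.1 P Q h9 hPQ
      (F.filter fun p : ℕ => (k:ℤ) ∣ (p:ℤ) * (t.2 : ℕ) - (t.1 : ℕ)) fun p hp => by
        rw [Finset.mem_filter] at hp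
        exact ⟨(hF p hp.1).1, (hF p hp.1).2.1, (hF p hp.1).2.2.1, hp.2⟩
    have h4 : C * (t.2 : ℝ) / (k:ℝ) ^ (3 / 4 : ℝ) ≤ C * Y / (k:ℝ) ^ (3 / 4 : ℝ) := by
      refine div_le_div_of_nonneg_right ?_ (by positivity)
      have : (t.2 : ℝ) ≤ Y := by exact_mod_cast ht.2.2
      exact mul_le_mul_of_nonneg_left this hC.le
    have h5 : 0 ≤ 1 + Real.log (Real.log Q / Real.log P) := by linarith
    have h6 := mul_le_mul_of_nonneg_right h4 h5
    linarith
  refine (Finset.sum_le_card_nsmul T _ _ h2).trans (le_of_eq ?_)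
  rw [nsmul_eq_mul, hT, Finset.card_product, Finset.card_range, Nat.card_Icc]
  push_cast
  simp

/-! ### D-periods -/

/-- the log-log length of a crossing period -/
lemma dper {Rx Rh Ct : ℝ} (hx : 0 < Rx) (hh : 0 < Rh) :
    Real.log (Real.log (Real.exp (Rx ^ (-(1 / Ct)))) / Real.log (Real.exp (Rh ^ (-(1 / Ct))))) =
      Real.log (Rh / Rx) / Ct := by
  rw [Real.log_exp, Real.log_exp, Real.log_div (by positivity) (by positivity),
    Real.log_rpow hx, Real.log_rpow hh, Real.log_div hh.ne' hx.ne']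
  ring

end Crest.Agent.R4P.BTs18
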