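import Crest.Agent.R4P.TYP_9

/-!
R4 (S0004) with powers, T3, helper9: **the rule of PLAN v1** (C1), states of the pieces.

`M` = set of the processed missing ties of an item.
* `Ls M` list (most recent first); `an c M q` births anticipated; `rs c p M q` real state, `gr c p M q` game
  label; `rs_hi gr_hi` (`M = (mt q).filter (p < ·)` : `c.st`, `ghi`), `rs_lo gr_lo`
  (`M = (mt q).filter (p ≤ ·)` : `low`, `glow`).
* `pm_hi pm_lo` : the processed missing ties of an item in a node (memory).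
* `MTag` : tag = product of the missing ties which are not processed and larger than a bound;
  **`RV Z`** : the rule of PLAN v1 (tag iff the game label is sparse), **`RVk Z`** : tag iff the game
  label or the real label is sparse.
-/

set_option autoImplicit false
set_option linter.unusedSectionVars false
set_option linter.unusedVariables false
open MeasureTheory Filter Set

namespace Crest.Agent.R4P.TYP9

open Crest.Agent.R4P.Cnt588 Crest.Agent.R4P.Item758 Crest.Agent.R4P.W363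
open Crest.Agent.R4P.Data758
open Crest.Agent.R4P.Bld532 (NS All NodeOk Bk)
open Crest.Agent.R4P.WalkIT579 (tp isL)
open Crest.Agent.R4P.StratN36 (ex)
open Crest.Agent.R4P.Step588 Crest.Agent.R4P.RseSt23
open Crest.Agent.R4P.DTp26 Crest.Agent.R4P.DTm407
open Crest.Agent.R4P.TYI47 Crest.Agent.R4P.TYJ47
open Crest.Agent.R4P.StM6 Crest.Agent.R4P.StM246
open Crest.Agent.R4P.StB21 (bt)

section states
variable {c : Cf} {n p q : ℕ} {M : Finset ℕ}

/-- list of a set of missing ties, most recent first -/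
noncomputable def Ls (M : Finset ℕ) : List ℕ := M.sort (· ≤ ·)

lemma Ls_prod (M : Finset ℕ) : (Ls M).prod = Bm M := by
  unfold Ls Bm
  have h : ((M.sort (· ≤ ·) : List ℕ) : Multiset ℕ) = M.val := Finset.sort_eq _ _
  rw [← Multiset.prod_coe, h, Finset.prod_eq_multiset_prod, Multiset.map_id']

lemma Ls_hi (c : Cf) (p q : ℕ) : Ls ((c.t.mt q).filter (p < ·)) = ms c p q := rfl

lemma filter_le_pred {B : Finset ℕ} (hp : 0 < p) :
    B.filter (p ≤ ·) = B.filter (p - 1 < ·) :=
  Finset.filter_congr fun l _ => by omega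

lemma Ls_lo (c : Cf) {p : ℕ} (hp : 0 < p) (q : ℕ) :
    Ls ((c.t.mt q).filter (p ≤ ·)) = ms c (p - 1) q := by
  rw [filter_le_pred hp]
  rfl

/-- births are anticipated -/
def an (c : Cf) (M : Finset ℕ) (q : ℕ) : Prop :=
  (∃ s ∈ c.t.mt q, s ∉ M) ∨ (mp c.t q : ℝ) * c.r q ≤ c.wpL.thr (c.lv q)

lemma an_hi : an c ((c.t.mt q).filter (p < ·)) q ↔ bt c p q := by
  unfold an bt btA
  refine or_congr_left ?_
  constructor
  · rintro ⟨s, h1, h2⟩
    refine ⟨s, h1, ?_⟩
    by_contra h3
    exact h2 (Finset.mem_filter.2 ⟨h1, not_le.1 h3⟩)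
  · rintro ⟨s, h1, h2⟩
    exact ⟨s, h1, fun h3 => absurd (Finset.mem_filter.1 h3).2 (not_lt.2 h2)⟩

lemma an_lo (hp : 0 < p) : an c ((c.t.mt q).filter (p ≤ ·)) q ↔ bt c (p - 1) q := by
  rw [filter_le_pred hp]
  exact an_hi

/-- **real state** of the item `q` at the column `p` if the missing ties of `M` are processed -/
noncomputable def rs (c : Cf) (p : ℕ) (M : Finset ℕ) (q : ℕ) : Option ℚ :=
  stl c.wp.thr c.γ (c.r q) (an c M q) (Ls M) p

/-- **game label** -/
noncomputable def gr (c : Cf) (p : ℕ) (M : Finset ℕ) (q : ℕ) : Option ℚ :=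
  gl (rs c p M q) (c.wp.thr p) c.γ (c.r q) (Ls M)

theorem rs_hi (hl : c.lam p = 0) : rs c p ((c.t.mt q).filter (p < ·)) q = c.st p q := by
  rw [Cf_st hl]
  unfold rs
  rw [Ls_hi]
  congr 1
  exact propext an_hi

theorem rs_lo (hp : 0 < p) : rs c p ((c.t.mt q).filter (p ≤ ·)) q = low c p q := by
  unfold rs low
  rw [Ls_lo c hp]
  congr 1
  exact propext (an_lo hp)

theorem gr_hi (hl : c.lam p = 0) : gr c p ((c.t.mt q).filter (p < ·)) q = ghi c p q := by
  unfold gr ghi
  rw [rs_hi hl, Ls_hi]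

theorem gr_lo (hp : 0 < p) : gr c p ((c.t.mt q).filter (p ≤ ·)) q = glow c p q := by
  unfold gr glow
  rw [rs_lo hp, Ls_lo c hp]

end states

/-! ### the processed missing ties of the pieces of a node -/

section nodes
variable {P : Bld532.Par} {W : ℕ → ℝ} {t' : IT} {Q : NS → IT → Prop} {p : ℕ} {m : Me} {q : ℕ}

/-- nothing is processed at the column `p` for the item -/
lemma pm_hi (h : ¬ ex p q < TYJ47.cnt p m.1) : pm t' p m q = (t'.mt q).filter (p < ·) := prm_not h

/-- the missing tie `p` of the item is processed -/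
lemma pm_lo (h : ex p q < TYJ47.cnt p m.1) : pm t' p m q = (t'.mt q).filter (p ≤ ·) := prm_mem h

/-- not a missing tie -/
lemma pm_nm (h : p ∉ t'.mt q) : pm t' p m q = (t'.mt q).filter (p < ·) := prm_not_mem h

/-- **C-step** : only the N items change -/
lemma pm_tu : pm t' p (tuM p m) q =
    if ex p q = TYJ47.cnt p m.1 then (t'.mt q).filter (p ≤ ·) else pm t' p m q := prm_tu p m.1 q

/-- an item of a tie or of a pull at the column `p` : the tie `p` is not processed -/
lemma Rt.hi (hQ : ∀ u τ, Q u τ → NDt P W t' u τ) {u : NS} {τ : IT} (h : Rt t' Q p m u τ)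
    (hl : ¬ isL τ) (ht : tp τ = p) {q : ℕ} (hq : q ∈ τ.items) :
    pm t' p m q = (t'.mt q).filter (p < ·) := by
  have hn := hQ _ _ h.rm.all.self
  refine pm_hi fun h1 => ?_
  have h2 : ex p u.A ≤ ex p q := Crest.Agent.R4P.StratN36.ex_le (hn.bk.pos q hq) (hn.bk.dvd q hq)
  rw [h.rm.exA hl ht] at h2
  omega

end nodes

/-! ### tags -/

section tags
variable {c : Cf} {n p q : ℕ} {M : Finset ℕ}

/-- **tag** : product of the missing ties which are not processed and larger than `z` -/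
noncomputable def MTag (c : Cf) (z : ℝ) (M : Finset ℕ) (q : ℕ) : ℕ := by
  classical
  exact ∏ s ∈ (c.t.mt q).filter (fun s => s ∉ M ∧ z < (s : ℝ)), s

lemma MTag_le (hO : c.t.Ok n) (z : ℝ) (M : Finset ℕ) (q : ℕ) :
    MTag c z M q ≤ ∏ s ∈ c.t.mt q, s := by
  classical
  unfold MTag
  exact Finset.prod_le_prod_of_subset_of_one_le' (Finset.filter_subset _ _) fun i hi _ =>
    (BldF542.mt_lt c.t n hO q i hi).1.one_lt.le

/-- bound of the tags -/
noncomputable def Kt (c : Cf) : ℕ := c.S.sup fun q => ∏ s ∈ c.t.mt q, s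

lemma le_Kt (hO : c.t.Ok n) {q : ℕ} (hq : q ∈ c.S) (z : ℝ) (M : Finset ℕ) :
    MTag c z M q ≤ Kt c :=
  (MTag_le hO z M q).trans (Finset.le_sup (f := fun q => ∏ s ∈ c.t.mt q, s) hq)

lemma one_le_Kt (hO : c.t.Ok n) {q : ℕ} (hq : q ∈ c.S) : 1 ≤ Kt c := by
  refine le_trans ?_ (Finset.le_sup (f := fun q => ∏ s ∈ c.t.mt q, s) hq)
  exact Nat.one_le_iff_ne_zero.2 (Finset.prod_ne_zero_iff.2 fun i hi =>
    (BldF542.mt_lt c.t n hO q i hi).1.ne_zero)

open Classical in
/-- tag of an item whose label `κ` is sparse, `1` otherwise; `Z k` = bound for the denominator `k` -/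
noncomputable def tagZ (c : Cf) (Z : ℕ → ℝ) (p : ℕ) (s : Option ℚ) (M : Finset ℕ) (q : ℕ) : ℕ :=
  if h : ∃ κ : ℚ, s = some κ ∧ ¬ dense (c.wp.thr p) (Bm M) κ then
    MTag c (Z (((Bm M : ℕ) : ℚ) * h.choose).den) M q
  else 1

lemma tagZ_sparse {Z : ℕ → ℝ} {s : Option ℚ} {κ : ℚ} (h : s = some κ)
    (hd : ¬ dense (c.wp.thr p) (Bm M) κ) :
    tagZ c Z p s M q = MTag c (Z (((Bm M : ℕ) : ℚ) * κ).den) M q := by
  have hex : ∃ κ : ℚ, s = some κ ∧ ¬ dense (c.wp.thr p) (Bm M) κ := ⟨κ, h, hd⟩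
  unfold tagZ
  rw [dif_pos hex]
  have e : hex.choose = κ := Option.some.inj (hex.choose_spec.1.symm.trans h)
  rw [e]

lemma tagZ_dense {Z : ℕ → ℝ} {s : Option ℚ}
    (h : ∀ κ : ℚ, s = some κ → dense (c.wp.thr p) (Bm M) κ) : tagZ c Z p s M q = 1 := by
  unfold tagZ
  rw [dif_neg]
  rintro ⟨κ, h1, h2⟩
  exact h2 (h κ h1)

lemma tagZ_none {Z : ℕ → ℝ} : tagZ c Z p none M q = 1 :=
  tagZ_dense fun κ h => absurd h (by simp)

lemma tagZ_le (hO : c.t.Ok n) {q : ℕ} (hq : q ∈ c.S) (Z : ℕ → ℝ) (p : ℕ) (s : Option ℚ)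
    (M : Finset ℕ) : tagZ c Z p s M q ≤ Kt c := by
  unfold tagZ
  split_ifs
  · exact le_Kt hO hq _ _
  · exact one_le_Kt hO hq

variable (c)

/-- **a rule without dependence on the point** -/
noncomputable def RC (lb : ℕ → Finset ℕ → ℕ → Option ℚ) (tg : ℕ → Finset ℕ → ℕ → ℕ) (K : ℕ) :
    Rule c where
  lb := fun p M _ j => lb p M j.1.1
  tg := fun p M _ _ j => tg p M j.1.1
  mlb := fun _ _ _ => MP.const _
  mtg := fun _ _ _ _ => MP.const _
  K := K

/-- **the rule of PLAN v1** : game label; tag iff the game label is sparse -/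
noncomputable def RV (Z : ℕ → ℝ) : Rule c :=
  RC c (gr c) (fun p M q => tagZ c Z p (gr c p M q) M q) (Kt c)

/-- the variant: tag iff the real label is sparse (its bound), or the game label -/
noncomputable def RVk (Z : ℕ → ℝ) : Rule c :=
  RC c (gr c) (fun p M q => by
    classical exact if (∃ κ : ℚ, rs c p M q = some κ ∧ ¬ dense (c.wp.thr p) (Bm M) κ)
      then tagZ c Z p (rs c p M q) M q else tagZ c Z p (gr c p M q) M q) (Kt c)

/-- **real typing** : the type is the real index -/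
noncomputable def RR : Rule c := RC c (rs c) (fun _ _ _ => 1) 1

end tags

end Crest.Agent.R4P.TYP9
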