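import Crest.Agent.R4P.StMc_46
import Crest.Agent.R4P.TYR_9

/-!
R4 (S0004) with powers, helper32: **the state machine with abstract game labels**.

The real states (`lab0`, `sta`, `stl`, `Cf.st`, `low`), `thr` and `dense` are unchanged. Only the sparse part
of the game label is abstract: `G : GLb` = own game label `G.ow b` at the missing product `b` and the criterion
`G.ac b τ` for a sleeping label.

* `GLb.OK G γ ψ` : a real label is the game label (`own`), an own game label is accurate (`acc`), `ac` is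
  inherited by the earlier stages (`anti`);
* `G.sl G.sla G.gl` : sticky, sparse, game label (as in `StM_6`); `GLb.std` = the labels of `StM_6`,
  `std_sl std_sla std_gl`;
* `gl_own`, `sla_cons`, `static_cases`, `miss_cases`, **`KindG`**, **`kindG`**, **`gl_stepG`**;
* Cf level: `glowG ghiG grG`, `grG_hi grG_lo`, **`glowG_kind`**, **`glowG_next`**; context level
  `ctx_glowG_kind`, `ctx_glowG_next`.
-/

set_option autoImplicit false
set_option linter.unusedSectionVars false
set_option linter.unusedVariables false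

namespace Crest.Agent.R4P.StG32

open Crest.Agent.R4.LF363 Crest.Agent.R4.W363
open Crest.Agent.R4P.StM6 (own dense d5 acc dense_anti d5_pos)
open Crest.Agent.R4P.StM246 (TLl stl stl_two stl_thin stl_fat_const stl_cases cross)

/-- **abstract game labels** of an item: own label of the missing product, criterion of a sleeping label -/
structure GLb where
  ow : ℕ → Option ℚ
  ac : ℕ → ℚ → Prop

/-- compatible with the real labels of the target `γ` and the root radius `ψ` -/
structure GLb.OK (G : GLb) (γ ψ : ℝ) : Prop where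
  own : ∀ (b : ℕ) (κ : ℚ), 0 < b → lab0 γ ψ b = some κ → G.ow b = some κ
  acc : ∀ (b : ℕ) (κ : ℚ), 0 < b → G.ow b = some κ → G.ac b κ
  anti : ∀ (b V : ℕ) (κ : ℚ), 0 < V → G.ac (V * b) κ → G.ac b κ

namespace GLb

/-- sticky label: the last own label -/
noncomputable def sl (G : GLb) : List ℕ → Option ℚ
  | [] => G.ow 1
  | s :: L => (G.ow (s * L.prod)).or (G.sl L)

open Classical in
/-- sparse label: the sticky label, if the criterion holds -/
noncomputable def sla (G : GLb) (L : List ℕ) : Option ℚ :=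
  if ∃ τ : ℚ, G.sl L = some τ ∧ G.ac L.prod τ then G.sl L else none

open Classical in
/-- **game label**: the real state if it is dense, else the sparse label -/
noncomputable def gl (G : GLb) (st : Option ℚ) (t : ℝ) (L : List ℕ) : Option ℚ :=
  if ∃ κ : ℚ, st = some κ ∧ dense t L.prod κ then st else G.sla L

variable {G : GLb} {γ ψ t t' : ℝ} {s : ℕ} {L : List ℕ} {σ τ ρ κ : ℚ} {st st' : Option ℚ}

lemma sl_cons (G : GLb) (s : ℕ) (L : List ℕ) : G.sl (s :: L) = (G.ow (s * L.prod)).or (G.sl L) := rfl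

lemma sl_of_ow (h : G.ow L.prod = some τ) : G.sl L = some τ := by
  cases L with
  | nil => simpa [sl] using h
  | cons s L =>
    have e : G.ow (s * L.prod) = some τ := by simpa [List.prod_cons] using h
    rw [sl_cons, e, Option.some_or]

lemma sl_of_none (h : G.ow (s :: L).prod = none) : G.sl (s :: L) = G.sl L := by
  have e : G.ow (s * L.prod) = none := by simpa [List.prod_cons] using h
  rw [sl_cons, e, Option.none_or]

/-- **the sticky label is the own label of some stage, and there is no own label at the later stages** -/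
theorem sl_spec : ∀ {L : List ℕ}, G.sl L = some τ →
    ∃ L₁ L₂ : List ℕ, L = L₁ ++ L₂ ∧ G.ow L₂.prod = some τ ∧
      ∀ M₁ M₂ : List ℕ, L₁ = M₁ ++ M₂ → M₂ ≠ [] → G.ow (M₂ ++ L₂).prod = none
  | [], h => ⟨[], [], rfl, by simpa [sl] using h, fun M₁ M₂ e h2 => by
      have := (List.append_eq_nil_iff.1 e.symm).2
      exact absurd this h2⟩
  | s :: L, h => by
    cases h1 : G.ow (s :: L).prod with
    | some τ' =>
      have h2 := sl_of_ow h1
      rw [h] at h2
      have e : τ = τ' := Option.some.inj h2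
      refine ⟨[], s :: L, rfl, by rw [h1, e], fun M₁ M₂ e h2 => ?_⟩
      have := (List.append_eq_nil_iff.1 e.symm).2
      exact absurd this h2
    | none =>
      rw [sl_of_none h1] at h
      obtain ⟨L₁, L₂, e1, e2, e3⟩ := sl_spec h
      refine ⟨s :: L₁, L₂, by rw [e1]; rfl, e2, fun M₁ M₂ e h2 => ?_⟩
      cases M₁ with
      | nil =>
        have e4 : M₂ = s :: L₁ := by simpa using e.symm
        rw [e4, List.cons_append, ← e1]
        exact h1
      | cons x M₁ =>
        have e4 : L₁ = M₁ ++ M₂ := by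
          have := congrArg List.tail e
          simpa using this
        exact e3 M₁ M₂ e4 h2

lemma sla_some : G.sla L = some τ ↔ G.sl L = some τ ∧ G.ac L.prod τ := by
  unfold sla
  split_ifs with h
  · obtain ⟨σ, h1, h2⟩ := h
    constructor
    · intro h3
      refine ⟨h3, ?_⟩
      rw [h1] at h3
      rw [← Option.some.inj h3]; exact h2
    · exact fun h3 => h3.1
  · constructor
    · intro h3; exact absurd h3 (by simp)
    · intro h3; exact absurd ⟨τ, h3⟩ h

lemma sla_none : G.sla L = none ↔ ∀ τ : ℚ, G.sl L = some τ → ¬ G.ac L.prod τ := by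
  rw [Option.eq_none_iff_forall_ne_some]
  constructor
  · intro h τ h1 h2
    exact h τ (sla_some.2 ⟨h1, h2⟩)
  · intro h τ h1
    obtain ⟨h2, h3⟩ := sla_some.1 h1
    exact h τ h2 h3

/-- the own label is the sparse label -/
lemma sla_of_ow (hG : G.OK γ ψ) (hL : 0 < L.prod) (h : G.ow L.prod = some τ) : G.sla L = some τ :=
  sla_some.2 ⟨sl_of_ow h, hG.acc _ _ hL h⟩

/-- a real own-radius label is the own label -/
lemma ow_of_own (hG : G.OK γ ψ) (hL : 0 < L.prod) (h : own γ ψ L = some τ) : G.ow L.prod = some τ :=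
  hG.own _ _ hL h

lemma sla_of_own (hG : G.OK γ ψ) (hL : 0 < L.prod) (h : own γ ψ L = some τ) : G.sla L = some τ :=
  sla_of_ow hG hL (ow_of_own hG hL h)

lemma gl_dense (h : st = some κ) (hd : dense t L.prod κ) : G.gl st t L = some κ := by
  unfold gl
  rw [if_pos ⟨κ, h, hd⟩, h]

lemma gl_sparse (h : ∀ κ, st = some κ → ¬ dense t L.prod κ) : G.gl st t L = G.sla L := by
  unfold gl
  rw [if_neg]
  rintro ⟨κ, h1, h2⟩
  exact h κ h1 h2

lemma gl_none : G.gl none t L = G.sla L := gl_sparse fun κ h => absurd h (by simp)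

/-- **two cases** -/
lemma gl_cases (G : GLb) (st : Option ℚ) (t : ℝ) (L : List ℕ) :
    (∃ κ, st = some κ ∧ dense t L.prod κ ∧ G.gl st t L = some κ) ∨
      ((∀ κ, st = some κ → ¬ dense t L.prod κ) ∧ G.gl st t L = G.sla L) := by
  by_cases h : ∃ κ : ℚ, st = some κ ∧ dense t L.prod κ
  · obtain ⟨κ, h1, h2⟩ := h
    exact Or.inl ⟨κ, h1, h2, gl_dense h1 h2⟩
  · push Not at h
    exact Or.inr ⟨h, gl_sparse h⟩

/-- **thin** (or births seen): if the real state is the own-radius label, the game label is `sla` -/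
theorem gl_own (hG : G.OK γ ψ) (hL : 0 < L.prod) (h : st = own γ ψ L) : G.gl st t L = G.sla L := by
  rcases gl_cases G st t L with ⟨κ, h1, -, h3⟩ | ⟨-, h3⟩
  · rw [h3]
    rw [h1] at h
    exact (sla_of_own hG hL h.symm).symm
  · exact h3

/-- a real own-radius label is the game label -/
lemma gl_own_some (hG : G.OK γ ψ) (hL : 0 < L.prod) (h : st = own γ ψ L) (h1 : st = some κ) :
    G.gl st t L = some κ := by
  rw [gl_own hG hL h]
  exact sla_of_own hG hL (by rw [← h, h1])

/-- **a game label is a sleeping or own label or a dense real label** -/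
lemma gl_some (h : G.gl st t L = some τ) :
    (st = some τ ∧ dense t L.prod τ) ∨ (G.sl L = some τ ∧ G.ac L.prod τ) := by
  rcases gl_cases G st t L with ⟨κ, h1, h2, h3⟩ | ⟨-, h3⟩
  · left
    rw [h3] at h
    rw [← Option.some.inj h]
    exact ⟨h1, h2⟩
  · right
    rw [h3] at h
    exact sla_some.1 h

/-! ### a missing tie -/

/-- **the sparse label across a missing tie `s`**: new own label, or nothing changes, or the criterion fails -/
theorem sla_cons (hG : G.OK γ ψ) (hs : 0 < s) (hL : 0 < L.prod) :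
    (∃ ρ, G.ow (s * L.prod) = some ρ ∧ G.sla (s :: L) = some ρ) ∨
      (G.ow (s * L.prod) = none ∧ G.sla (s :: L) = G.sla L) ∨
      (G.ow (s * L.prod) = none ∧ G.sla (s :: L) = none ∧
        ∃ τ, G.sla L = some τ ∧ G.ac L.prod τ ∧ ¬ G.ac (s * L.prod) τ) := by
  have hsL : 0 < (s :: L).prod := by rw [List.prod_cons]; exact Nat.mul_pos hs hL
  have e0 : (s :: L).prod = s * L.prod := List.prod_cons
  cases h : G.ow (s * L.prod) with
  | some ρ => exact Or.inl ⟨ρ, rfl, sla_of_ow hG hsL (by rw [e0, h])⟩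
  | none =>
    right
    have e := sl_of_none (G := G) (s := s) (L := L) (by rw [e0, h])
    cases h1 : G.sla L with
    | none =>
      left
      refine ⟨rfl, sla_none.2 fun τ h2 h3 => ?_⟩
      rw [e] at h2
      rw [e0] at h3
      exact sla_none.1 h1 τ h2 (hG.anti _ _ _ hs h3)
    | some τ =>
      obtain ⟨h2, h3⟩ := sla_some.1 h1
      by_cases h4 : G.ac (s * L.prod) τ
      · left
        refine ⟨rfl, sla_some.2 ⟨by rw [e, h2], ?_⟩⟩
        rw [e0]; exact h4
      · right
        refine ⟨rfl, sla_none.2 fun τ' h5 h6 => ?_, τ, rfl, h3, h4⟩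
        rw [e, h2] at h5
        rw [← Option.some.inj h5, e0] at h6
        exact h4 h6

/-- **static column** -/
theorem static_cases (hG : G.OK γ ψ) (hL : 0 < L.prod) (hst : st' = st ∨ st' = own γ ψ L)
    (hne : G.gl st' t' L ≠ G.gl st t L) (ht : t ≤ t') :
    ∃ κ, st = some κ ∧ dense t L.prod κ ∧ G.sla L ≠ some κ ∧ own γ ψ L ≠ some κ ∧
      G.gl st t L = some κ ∧ G.gl st' t' L = G.sla L ∧ (st' = own γ ψ L ∨ ¬ dense t' L.prod κ) := by
  rcases gl_cases G st t L with ⟨κ, h1, h2, h3⟩ | ⟨h2, h3⟩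
  · rcases hst with h | h
    · subst h
      rcases gl_cases G st' t' L with ⟨κ', k1, k2, k3⟩ | ⟨k2, k3⟩
      · exfalso
        rw [h1] at k1
        rw [Option.some.inj k1] at h3
        exact hne (by rw [k3, h3])
      · have hs : G.sla L ≠ some κ := fun h4 => hne (by rw [k3, h3, h4])
        exact ⟨κ, h1, h2, hs, fun h4 => hs (sla_of_own hG hL h4), h3, k3, Or.inr (k2 κ h1)⟩
    · have k3 : G.gl st' t' L = G.sla L := gl_own hG hL h
      have hs : G.sla L ≠ some κ := fun h4 => hne (by rw [k3, h3, h4])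
      exact ⟨κ, h1, h2, hs, fun h4 => hs (sla_of_own hG hL h4), h3, k3, Or.inl h⟩
  · exfalso
    rcases hst with h | h
    · subst h
      have k : G.gl st' t' L = G.sla L :=
        gl_sparse fun κ h1 h4 => h2 κ h1 (dense_anti h4 ht)
      exact hne (by rw [k, h3])
    · exact hne (by rw [gl_own hG hL h, h3])

/-- **the kinds of changes** of the game label from `g` (above) to `g'` (below) at the own missing tie `s`;
`t'` = threshold below, `st'` = real state below -/
inductive KindG (G : GLb) (t' : ℝ) (s : ℕ) (L : List ℕ) (st' g g' : Option ℚ) : Prop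
  /-- nothing changes, the label below is the sparse label -/
  | stay : g' = g → G.sla (s :: L) = g → KindG G t' s L st' g g'
  /-- nothing changes, the real state is kept and dense below -/
  | kept (κ : ℚ) : g = some κ → g' = some κ → st' = some κ → dense t' (s * L.prod) κ →
      KindG G t' s L st' g g'
  /-- a new own label -/
  | new (ρ : ℚ) : g ≠ some ρ → g' = some ρ → G.ow (s * L.prod) = some ρ → KindG G t' s L st' g g'
  /-- the criterion fails, no own label -/
  | dead (κ : ℚ) : g = some κ → g' = none → G.ow (s * L.prod) = none → G.ac L.prod κ →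
      ¬ G.ac (s * L.prod) κ → KindG G t' s L st' g g'

/-- **own missing tie `s`**: above it the real state is the own-radius label of `L` (thin); below it is the
own-radius label of `s :: L`, or the kept label, or `none` -/
theorem kindG (hG : G.OK γ ψ) (hs : 0 < s) (hL : 0 < L.prod) (hst : st = own γ ψ L)
    (hst' : st' = own γ ψ (s :: L) ∨ st' = st ∨ st' = none) :
    KindG G t' s L st' (G.gl st t L) (G.gl st' t' (s :: L)) := by
  have hsL : 0 < (s :: L).prod := by rw [List.prod_cons]; exact Nat.mul_pos hs hL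
  have e0 : G.gl st t L = G.sla L := gl_own hG hL hst
  have key : G.gl st' t' (s :: L) = G.sla (s :: L) ∨
      ∃ κ, G.gl st t L = some κ ∧ G.gl st' t' (s :: L) = some κ ∧ st' = some κ ∧
        dense t' (s * L.prod) κ := by
    rcases gl_cases G st' t' (s :: L) with ⟨κ, k1, k2, k3⟩ | ⟨-, k3⟩
    · rcases hst' with h | h | h
      · left
        exact gl_own hG hsL h
      · right
        have k1' := k1
        rw [h, hst] at k1'
        rw [List.prod_cons] at k2
        exact ⟨κ, by rw [e0]; exact sla_of_own hG hL k1', k3, k1, k2⟩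
      · rw [h] at k1
        exact absurd k1 (by simp)
    · exact Or.inl k3
  rcases key with key | ⟨κ, k1, k2, k3, k4⟩
  · rw [key, e0]
    rcases sla_cons hG hs hL with ⟨ρ, h1, h2⟩ | ⟨h1, h2⟩ | ⟨h1, h2, τ, h3, h4, h5⟩
    · by_cases he : G.sla L = some ρ
      · exact KindG.stay (by rw [h2, he]) (by rw [h2, he])
      · exact KindG.new ρ he h2 h1
    · exact KindG.stay h2 h2
    · exact KindG.dead τ h3 h2 h1 h4 h5
  · exact KindG.kept κ k1 k2 k3 k4

/-- **the general step with the same missing ties** (`thr p ≤ thr p'`) -/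
theorem gl_stepG {thr : ℕ → ℝ} {p p' : ℕ} {a a' : Prop} (hG : G.OK γ ψ) (hthr : thr p ≤ thr p')
    (hT : TLl thr ψ L) (hL : 0 < L.prod) (ha : ¬ a → thr p' < (L.prod : ℝ) * ψ) (haa : a ↔ a')
    (hne : G.gl (stl thr γ ψ a' L p') (thr p') L ≠ G.gl (stl thr γ ψ a L p) (thr p) L) :
    ∃ κ, stl thr γ ψ a L p = some κ ∧ (∃ s M, L = s :: M ∧ own γ ψ M = some κ) ∧
      thr p < (L.prod : ℝ) * ψ ∧ dense (thr p) L.prod κ ∧ own γ ψ L ≠ some κ ∧
      G.gl (stl thr γ ψ a L p) (thr p) L = some κ ∧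
      G.gl (stl thr γ ψ a' L p') (thr p') L = G.sla L ∧
      ((∃ τ, G.ow L.prod = some τ ∧ τ ≠ κ ∧ G.sla L = some τ) ∨
        (G.ow L.prod = none ∧ G.sla L = none ∧ ¬ G.ac L.prod κ)) ∧
      ((L.prod * ψ ≤ thr p' ∧ stl thr γ ψ a' L p' = own γ ψ L) ∨
        (thr p' < L.prod * ψ ∧ stl thr γ ψ a' L p' = some κ ∧ ¬ dense (thr p') L.prod κ ∧
          1 < d5 L.prod κ * (L.prod * ψ))) := by
  have e : stl thr γ ψ a' L p' = stl thr γ ψ a L p' := by
    congr 1
    exact (propext haa).symm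
  rw [e] at hne ⊢
  have hst : stl thr γ ψ a L p' = stl thr γ ψ a L p ∨ stl thr γ ψ a L p' = own γ ψ L := by
    by_cases h : stl thr γ ψ a L p' = stl thr γ ψ a L p
    · exact Or.inl h
    · obtain ⟨κ, hc⟩ := cross hthr hT ha h
      exact Or.inr ((hc.st (a := a) hT).2 a)
  obtain ⟨κ, h1, h2, hsl, h3, h4, h5, h6⟩ := static_cases hG hL hst hne hthr
  have hk : ∃ s M, L = s :: M ∧ thr p < (L.prod : ℝ) * ψ ∧ own γ ψ M = some κ := by
    rcases stl_two hT h1 with h | h
    · exact absurd h h3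
    · exact h
  obtain ⟨s, M, e1, hf, hM⟩ := hk
  have hMpos : 0 < M.prod := by
    rw [e1, List.prod_cons] at hL
    exact Nat.pos_of_mul_pos_left hL
  have hslM : G.sl M = some κ := sl_of_ow (ow_of_own hG hMpos hM)
  refine ⟨κ, h1, ⟨s, M, e1, hM⟩, hf, h2, h3, h4, h5, ?_, ?_⟩
  · cases ho : G.ow L.prod with
    | some τ =>
      have h7 := sla_of_ow hG hL ho
      exact Or.inl ⟨τ, rfl, fun e => hsl (by rw [h7, e]), h7⟩
    | none =>
      have h7 : G.sl L = some κ := by
        rw [e1] at ho ⊢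
        rw [sl_of_none ho, hslM]
      have hac : ¬ G.ac L.prod κ := fun h => hsl (sla_some.2 ⟨h7, h⟩)
      refine Or.inr ⟨rfl, sla_none.2 fun τ k1 k2 => ?_, hac⟩
      rw [h7] at k1
      rw [← Option.some.inj k1] at k2
      exact hac k2
  · rcases lt_or_ge (thr p') ((L.prod : ℝ) * ψ) with hf' | hf'
    · right
      have k1 : stl thr γ ψ a L p' = some κ := by rw [stl_fat_const hthr hf', h1]
      have k2 : ¬ dense (thr p') L.prod κ := by
        rcases h6 with h | h
        · rw [k1] at h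
          exact absurd h.symm h3
        · exact h
      exact ⟨hf', k1, k2, (StM6.kept_dead (γ := γ) hL hf' k2).1⟩
    · exact Or.inl ⟨hf', stl_thin hf'⟩

/-! ### the labels of `StM_6` -/

/-- the labels of `StM_6` -/
noncomputable def std (γ ψ : ℝ) : GLb := ⟨lab0 γ ψ, StM6.acc γ ψ⟩

lemma std_OK (γ ψ : ℝ) : (std γ ψ).OK γ ψ :=
  ⟨fun _ _ _ h => h, fun _ _ hb h => (StM6.own_spec hb h).2.2.2, fun _ _ _ hV h => StM6.acc_anti hV h⟩

lemma std_sl (γ ψ : ℝ) : ∀ L : List ℕ, (std γ ψ).sl L = StM6.sl γ ψ L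
  | [] => rfl
  | s :: L => by rw [sl_cons, StM6.sl_cons, std_sl γ ψ L]; rfl

lemma std_sla (γ ψ : ℝ) (L : List ℕ) : (std γ ψ).sla L = StM6.sla γ ψ L := by
  unfold sla StM6.sla
  rw [std_sl]
  rfl

lemma std_gl (γ ψ : ℝ) (st : Option ℚ) (t : ℝ) (L : List ℕ) :
    (std γ ψ).gl st t L = StM6.gl st t γ ψ L := by
  unfold gl StM6.gl
  rw [std_sla]

end GLb

/-! ### Cf level -/

section cf
open Crest.Agent.R4P.Cnt588 Crest.Agent.R4P.Item758 Crest.Agent.R4P.W363
open Crest.Agent.R4P.Data758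
open Crest.Agent.R4P.StM246 Crest.Agent.R4P.StB21 Crest.Agent.R4P.TYP9

variable {c : Cf} {n p q : ℕ} {G : ℕ → GLb} {M : Finset ℕ}

/-- **game label of the low state** -/
noncomputable def glowG (c : Cf) (G : ℕ → GLb) (p q : ℕ) : Option ℚ :=
  (G q).gl (low c p q) (c.wp.thr p) (ms c (p - 1) q)

/-- **game label of the state** -/
noncomputable def ghiG (c : Cf) (G : ℕ → GLb) (p q : ℕ) : Option ℚ :=
  (G q).gl (c.st p q) (c.wp.thr p) (ms c p q)

/-- **game label**, `M` = the processed missing ties -/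
noncomputable def grG (c : Cf) (G : ℕ → GLb) (p : ℕ) (M : Finset ℕ) (q : ℕ) : Option ℚ :=
  (G q).gl (rs c p M q) (c.wp.thr p) (Ls M)

theorem grG_hi (hl : c.lam p = 0) : grG c G p ((c.t.mt q).filter (p < ·)) q = ghiG c G p q := by
  unfold grG ghiG
  rw [rs_hi hl, Ls_hi]

theorem grG_lo (hp : 0 < p) : grG c G p ((c.t.mt q).filter (p ≤ ·)) q = glowG c G p q := by
  unfold grG glowG
  rw [rs_lo hp, Ls_lo c hp]

lemma glowG_eq (hl : c.lam p = 0) (h : p ∉ c.t.mt q) : glowG c G p q = ghiG c G p q := by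
  unfold glowG ghiG ms
  rw [low_eq hl h, lst_pred h]

/-- **game label at an own missing tie `p`** -/
theorem glowG_kind (hG : (G q).OK c.γ (c.r q)) (hO : c.t.Ok n) (hl : c.lam p = 0)
    (hm : p ∈ c.t.mt q) (hthin : ((ms c p q).prod : ℝ) * c.r q ≤ c.wp.thr p) :
    GLb.KindG (G q) (c.wp.thr p) p (ms c p q) (low c p q) (ghiG c G p q) (glowG c G p q) := by
  have h := low_step hO hl hm hthin
  have hp := (BldF542.mt_lt c.t n hO q p hm).1
  have e : ms c (p - 1) q = p :: ms c p q := lst_pred_cons hp.pos hm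
  unfold glowG ghiG
  rw [e]
  exact GLb.kindG hG hp.pos h.pos h.hst h.opts

/-- the game label above an own missing tie is the sparse label -/
theorem ghiG_sla (hG : (G q).OK c.γ (c.r q)) (hO : c.t.Ok n) (hl : c.lam p = 0)
    (hthin : ((ms c p q).prod : ℝ) * c.r q ≤ c.wp.thr p) :
    ghiG c G p q = (G q).sla (ms c p q) :=
  GLb.gl_own hG (ms_pos hO _ _) (StB21.thin hl hthin)

/-- **game label from the low state of `p` to the state of `p - 1`** -/
theorem glowG_next (hG : (G q).OK c.γ (c.r q)) (hO : c.t.Ok n) (hl : c.lam (p - 1) = 0)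
    (hthr : c.wp.thr p ≤ c.wp.thr (p - 1)) (hL' : c.wp.thr (p - 1) ≤ c.wpL.thr (c.lv q))
    (hT : TLl c.wp.thr (c.r q) (ms c (p - 1) q)) (hne : ghiG c G (p - 1) q ≠ glowG c G p q) :
    ∃ κ, low c p q = some κ ∧ (∃ s M, ms c (p - 1) q = s :: M ∧ own c.γ (c.r q) M = some κ) ∧
      c.wp.thr p < ((ms c (p - 1) q).prod : ℝ) * c.r q ∧
      dense (c.wp.thr p) (ms c (p - 1) q).prod κ ∧ own c.γ (c.r q) (ms c (p - 1) q) ≠ some κ ∧
      glowG c G p q = some κ ∧ ghiG c G (p - 1) q = (G q).sla (ms c (p - 1) q) ∧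
      ((∃ τ, (G q).ow (ms c (p - 1) q).prod = some τ ∧ τ ≠ κ ∧
          (G q).sla (ms c (p - 1) q) = some τ) ∨
        ((G q).ow (ms c (p - 1) q).prod = none ∧ (G q).sla (ms c (p - 1) q) = none ∧
          ¬ (G q).ac (ms c (p - 1) q).prod κ)) ∧
      (((ms c (p - 1) q).prod * c.r q ≤ c.wp.thr (p - 1) ∧
          c.st (p - 1) q = own c.γ (c.r q) (ms c (p - 1) q)) ∨
        (c.wp.thr (p - 1) < (ms c (p - 1) q).prod * c.r q ∧ c.st (p - 1) q = some κ ∧
          ¬ dense (c.wp.thr (p - 1)) (ms c (p - 1) q).prod κ ∧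
          1 < d5 (ms c (p - 1) q).prod κ * ((ms c (p - 1) q).prod * c.r q))) := by
  unfold glowG ghiG low at *
  rw [Cf_st hl] at hne ⊢
  exact GLb.gl_stepG hG hthr hT (ms_pos hO _ _) (fun h => hL'.trans_lt (not_bt hO h le_rfl)) Iff.rfl
    hne

end cf

/-! ### context level -/

section ctx
open Crest.Agent.R4P.Cnt588 Crest.Agent.R4P.Item758 Crest.Agent.R4P.W363
open Crest.Agent.R4P.Data758
open Crest.Agent.R4P.StM246 Crest.Agent.R4P.StB21 Crest.Agent.R4P.TYP9
open Crest.Agent.R4P.Bld532 (NS All NodeOk Bk)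
open Crest.Agent.R4P.Skel189

variable {N : Skel189.Num} {γ : ℝ} {p0 P₀ : ℕ} {X : Ctx N γ p0 P₀} {G : ℕ → GLb}

/-- **(context)** the kinds of the game label at an own missing tie `p` -/
theorem ctx_glowG_kind (hT : TH X) (hR : All (Step588.RdOk X) ⟨top X.S, 1, 1, 1⟩ X.c.t) {p q : ℕ}
    (hG : (G q).OK X.c.γ (X.c.r q)) (hq : q ∈ X.S') (hm : p ∈ X.c.t.mt q) :
    GLb.KindG (G q) (X.c.wp.thr p) p (ms X.c p q) (low X.c p q) (ghiG X.c G p q)
      (glowG X.c G p q) :=
  glowG_kind hG X.tOk (hT.lam _) hm (ctx_thin hT hR hq hm)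

/-- **(context)** the game label from the low state of `p` to the state of `p - 1` -/
theorem ctx_glowG_next (hT : TH X) (hR : All (Step588.RdOk X) ⟨top X.S, 1, 1, 1⟩ X.c.t) {p q : ℕ}
    (hG : (G q).OK X.c.γ (X.c.r q)) (hq : q ∈ X.S') (hlv : p0 ≤ X.c.lv q) (hp : X.c.lv q < p)
    (hne : ghiG X.c G (p - 1) q ≠ glowG X.c G p q) :
    ∃ κ, low X.c p q = some κ ∧
      (∃ s M, ms X.c (p - 1) q = s :: M ∧ own X.c.γ (X.c.r q) M = some κ) ∧
      X.c.wp.thr p < ((ms X.c (p - 1) q).prod : ℝ) * X.c.r q ∧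
      dense (X.c.wp.thr p) (ms X.c (p - 1) q).prod κ ∧
      own X.c.γ (X.c.r q) (ms X.c (p - 1) q) ≠ some κ ∧
      glowG X.c G p q = some κ ∧ ghiG X.c G (p - 1) q = (G q).sla (ms X.c (p - 1) q) ∧
      ((∃ τ, (G q).ow (ms X.c (p - 1) q).prod = some τ ∧ τ ≠ κ ∧
          (G q).sla (ms X.c (p - 1) q) = some τ) ∨
        ((G q).ow (ms X.c (p - 1) q).prod = none ∧ (G q).sla (ms X.c (p - 1) q) = none ∧
          ¬ (G q).ac (ms X.c (p - 1) q).prod κ)) ∧
      (((ms X.c (p - 1) q).prod * X.c.r q ≤ X.c.wp.thr (p - 1) ∧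
          X.c.st (p - 1) q = own X.c.γ (X.c.r q) (ms X.c (p - 1) q)) ∨
        (X.c.wp.thr (p - 1) < (ms X.c (p - 1) q).prod * X.c.r q ∧ X.c.st (p - 1) q = some κ ∧
          ¬ dense (X.c.wp.thr (p - 1)) (ms X.c (p - 1) q).prod κ ∧
          1 < d5 (ms X.c (p - 1) q).prod κ * ((ms X.c (p - 1) q).prod * X.c.r q))) :=
  glowG_next hG X.tOk (hT.lam _) (hT.anti _ _ (by omega) (Nat.sub_le p 1))
    (hT.leL _ _ hlv (by omega)) (ctx_TLl hT hR hq _) hne

end ctx

end Crest.Agent.R4P.StG32
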