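import Crest.Agent.R4P.LabD_33
import Crest.Agent.R4P.StG_32

/-!
R4 (S0004) with powers, helper32: the permissive labels of `LabD_33` as abstract game labels of `StG_32`.

* `gP e γ ψ : GLb`, **`gP_OK`**, `gP_sl gP_sla gP_gl` (the definitions of `LabD_33`);
* `gC e c q` = the labels of the item `q` of a `Cf`, `gC_OK`.
-/

set_option autoImplicit false
set_option linter.unusedSectionVars false
set_option linter.unusedVariables false

namespace Crest.Agent.R4P.GlP32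

open Crest.Agent.R4P.PosP33 Crest.Agent.R4P.StG32 Crest.Agent.R4P.Data758

variable {e : UV} {γ ψ t : ℝ} {L : List ℕ} {st : Option ℚ}

/-- **the permissive game labels** -/
noncomputable def gP (e : UV) (γ ψ : ℝ) : GLb := ⟨LabD33.lab0P e γ ψ, LabD33.acc e γ ψ⟩

theorem gP_OK (e : UV) (γ ψ : ℝ) : (gP e γ ψ).OK γ ψ :=
  ⟨fun _ _ hb h => LabD33.lab0P_of_real hb h, fun _ _ hb h => (LabD33.own_spec hb h).2.2.2,
    fun _ _ _ hV h => LabD33.acc_anti hV h⟩

lemma gP_sl (e : UV) (γ ψ : ℝ) : ∀ L : List ℕ, (gP e γ ψ).sl L = LabD33.sl e γ ψ L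
  | [] => rfl
  | s :: L => by rw [GLb.sl_cons, LabD33.sl_cons, gP_sl e γ ψ L]; rfl

lemma gP_sla (e : UV) (γ ψ : ℝ) (L : List ℕ) : (gP e γ ψ).sla L = LabD33.sla e γ ψ L := by
  unfold GLb.sla LabD33.sla
  rw [gP_sl]
  rfl

lemma gP_gl (e : UV) (st : Option ℚ) (t γ ψ : ℝ) (L : List ℕ) :
    (gP e γ ψ).gl st t L = LabD33.gl e st t γ ψ L := by
  unfold GLb.gl LabD33.gl
  rw [gP_sla]

/-- the permissive labels of the items of `c` -/
noncomputable def gC (e : UV) (c : Cf) (q : ℕ) : GLb := gP e c.γ (c.r q)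

theorem gC_OK (e : UV) (c : Cf) (q : ℕ) : (gC e c q).OK c.γ (c.r q) := gP_OK e c.γ (c.r q)

end Crest.Agent.R4P.GlP32
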