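import Crest.Agent.R4P.SxT_6

/-!
R4 (S0004) with powers, helper47: **prune of the births of PERMISSIVE labels** (`PosP33.LabP`:
`den^5 R^(1+u) ≤ 1`, `|θ - ρ|^5 ≤ R^(4(1-v))`, `0 ≤ u, v ≤ 1/20`, i.e. denominators `≤ T^(21/100)`, errors
`≤ T^(-3/4)`, `T = 1/R`).

* `NoBirP`            : no birth at the missing ties and the up primes, denominators `≤ t^(21/100)`,
  windows `t^(-3/4)`, scales `t ∈ [(log p)^A, exp (p^(1/4))]`;
* `SxBirP`, `SxBirP_mass` : the pruned set and its mass;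
* `SyBP`              : **the further prune** = `SxBir ∩ SxBirP` (a smaller prune than `SyB`), `SyBP_mass`
  (**`MassP`**, so usable as `Sy` in `S0004_50n`, `KbL845.S0004_BL`), `InS.toB` (a context in `SyBP` is in
  `SyB`), `noBirP_of`, `noBir_of`.
-/

set_option autoImplicit false
set_option linter.unusedSectionVars false
set_option linter.unusedVariables false

namespace Crest.Agent.R4P.NbP47

open Finset
open Crest.Agent.R4P.Cnt588
open Crest.Agent.R4P.PruneBir12 (Bir bir_log NoBir SxBir SxBir_mass)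
open Crest.Agent.R4P.PruneAcc17 (Bab)
open Crest.Agent.R4.Max709 Crest.Agent.R4.Soft104 Crest.Agent.R4P.Skel189
open Crest.Agent.R4P.SxT6

/-- **no birth of a permissive label at the missing ties and the up primes** -/
def NoBirP (γ A : ℝ) (t : IT) (q : ℕ) : Prop :=
  ∀ p, (p ∈ t.mt q ∨ p ∈ t.uq q) →
    ¬ Bir (21 / 100) (3 / 4) (1 / 4) (Bab t q p * γ) (Real.log p ^ A) p

open Classical in
/-- **the pruned set**: no births of permissive labels, target `γ`, scales `≥ (log p)^A` -/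
noncomputable def SxBirP (γ A B C1 c2 : ℝ) (p0 : ℕ) (ψ : ℕ → ℝ) (S : Finset ℕ) : Finset ℕ :=
  S.filter fun q => NoBirP γ A (Bld532.bld (Bld532.par B C1 c2 p0) (w ψ) (top S) 1 1 S) q

/-- **mass of the pruned set** -/
theorem SxBirP_mass (γ A B C1 c2 ε : ℝ) (hε : 0 < ε) (hB : 0 ≤ B) (hC1 : 0 ≤ C1) (hc2 : 0 ≤ c2)
    (hA : 5 * (B + C1 + c2 + 3) ≤ A) :
    ∃ p₁ : ℕ, ∀ p0 ≥ p₁, ∃ Q₁ : ℕ, ∀ P₀ ≥ Q₁, ∀ (ψ : ℕ → ℝ) (S : Finset ℕ), SysM P₀ ψ S →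
      SxBirP γ A B C1 c2 p0 ψ S ⊆ S ∧
        (1 - ε) * Ws (w ψ) S ≤ Ws (w ψ) (SxBirP γ A B C1 c2 p0 ψ S) := by
  classical
  obtain ⟨p1, h1⟩ := PruneAcc17.prune_ev B C1 c2 ε hε hB hC1 hc2
  obtain ⟨p2, h2⟩ := bir_log (κ := 21 / 100) (ω := 3 / 4) (τ := 1 / 4) (by norm_num) (by norm_num)
    (by norm_num) (by norm_num) (by norm_num) (B + C1 + c2 + 2) (by positivity)
  refine ⟨p1 + p2, fun p0 hp0 => ⟨0, fun P₀ _ ψ S hS => ⟨Finset.filter_subset _ _, ?_⟩⟩⟩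
  have key := (h1 p0 (by omega)).2
    (fun B' p => Bir (21 / 100) (3 / 4) (1 / 4) ((B' : ℝ) * γ) (Real.log p ^ A) p)
    (fun B' P hP => by
      have := h2 A (by linarith) P (by omega) ((B' : ℝ) * γ)
      convert this using 2)
    (w ψ) (fun q => w_nonneg hS.nonneg q) (top S) S hS.pos
  exact key

/-- mass of an intersection -/
lemma Ws_inter {ψ : ℕ → ℝ} (hψ : ∀ q, 0 ≤ ψ q) {S A B : Finset ℕ} (hA : A ⊆ S) (hB : B ⊆ S)
    {a b : ℝ} (h1 : (1 - a) * Ws (w ψ) S ≤ Ws (w ψ) A) (h2 : (1 - b) * Ws (w ψ) S ≤ Ws (w ψ) B) :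
    (1 - (a + b)) * Ws (w ψ) S ≤ Ws (w ψ) (A ∩ B) := by
  classical
  have e : Ws (w ψ) (A ∪ B) + Ws (w ψ) (A ∩ B) = Ws (w ψ) A + Ws (w ψ) B := by
    unfold Ws
    exact Finset.sum_union_inter
  have h3 : Ws (w ψ) (A ∪ B) ≤ Ws (w ψ) S := by
    unfold Ws
    exact Finset.sum_le_sum_of_subset_of_nonneg (Finset.union_subset hA hB)
      fun q _ _ => w_nonneg hψ q
  nlinarith

/-- **the further prune of the births of labels, real and permissive** -/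
noncomputable def SyBP (γ C1 : ℝ) (p0 : ℕ) (ψ : ℕ → ℝ) (S : Finset ℕ) : Finset ℕ :=
  SxBir γ (5 * (4 * C1 + C1 + 1 + 3)) (4 * C1) C1 1 p0 ψ S ∩
    SxBirP γ (5 * (4 * C1 + C1 + 1 + 3)) (4 * C1) C1 1 p0 ψ S

/-- **mass of the further prune** -/
theorem SyBP_mass (γ C1 : ℝ) (hC1 : 0 ≤ C1) : MassP (SyBP γ C1) := by
  classical
  obtain ⟨p1, h1⟩ := SxBir_mass γ (5 * (4 * C1 + C1 + 1 + 3)) (4 * C1) C1 1 (1 / 32) (by norm_num)
    (by linarith) hC1 zero_le_one le_rfl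
  obtain ⟨p2, h2⟩ := SxBirP_mass γ (5 * (4 * C1 + C1 + 1 + 3)) (4 * C1) C1 1 (1 / 32)
    (by norm_num) (by linarith) hC1 zero_le_one le_rfl
  refine ⟨max p1 p2, fun p0 hp0 => ?_⟩
  obtain ⟨Q1, k1⟩ := h1 p0 ((le_max_left _ _).trans hp0)
  obtain ⟨Q2, k2⟩ := h2 p0 ((le_max_right _ _).trans hp0)
  refine ⟨max Q1 Q2, fun P₀ hP₀ ψ S hS => ?_⟩
  obtain ⟨a1, a2⟩ := k1 P₀ ((le_max_left _ _).trans hP₀) ψ S hS
  obtain ⟨b1, b2⟩ := k2 P₀ ((le_max_right _ _).trans hP₀) ψ S hS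
  refine ⟨fun q hq => a1 (Finset.mem_inter.1 hq).1, ?_⟩
  have h := Ws_inter hS.nonneg a1 b1 a2 b2
  have e : (1 : ℝ) / 32 + 1 / 32 = 1 / 16 := by norm_num
  rw [e] at h
  exact h

variable {N : Skel189.Num} {γ : ℝ}

/-- **a context in `SyBP` is a context in `SyB`** -/
theorem InS.toB {p0 P₀ : ℕ} {X : Ctx N γ p0 P₀} (h : InS SyBP N γ X) : InS SyB N γ X := by
  intro q hq
  have h1 := h hq
  exact (Finset.mem_inter.1 h1).1

/-- **the items of such a context have no births of labels** -/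
theorem noBir_of {th : ℕ → (ℕ → ℝ) → Finset ℕ → ℕ → ℝ} {Ct c : ℝ} (h : FinAll26.NumFin N th Ct c) {p0 P₀ : ℕ}
    (X : Ctx N γ p0 P₀) (hX : InS SyBP N γ X) {q : ℕ} (hq : q ∈ X.S') :
    NoBir γ (5 * (4 * N.C1 + N.C1 + 1 + 3)) X.c.t q :=
  SxT6.noBir_of h X (InS.toB hX) hq

/-- **the items of such a context have no births of permissive labels** -/
theorem noBirP_of {th : ℕ → (ℕ → ℝ) → Finset ℕ → ℕ → ℝ} {Ct c : ℝ} (h : FinAll26.NumFin N th Ct c) {p0 P₀ : ℕ}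
    (X : Ctx N γ p0 P₀) (hX : InS SyBP N γ X) {q : ℕ} (hq : q ∈ X.S') :
    NoBirP γ (5 * (4 * N.C1 + N.C1 + 1 + 3)) X.c.t q := by
  classical
  have h1 := (Finset.mem_inter.1 (hX hq)).2
  have h2 := (Finset.mem_filter.1 h1).2
  have h3 : NoBirP γ (5 * (4 * N.C1 + N.C1 + 1 + 3)) (Bld532.bld
    (Bld532.par N.B N.C1 N.c2 p0) (w X.ψ) (top X.S) 1 1 X.S) q := by
    rw [h.B, h.c2]; exact h2
  rw [X.ht]
  exact h3

end Crest.Agent.R4P.NbP47
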