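import Crest.Agent.R4P.Bir_30
import Crest.Agent.R4P.NbP_47
import Crest.Agent.R4P.GlP_32

/-!
R4 (S0004) with powers, helper47: **thin births of PERMISSIVE labels** = port of `Bir_30` (helper30) to the
labels `LabD33.lab0P e`, `own e`, `sl e`, `sla e`, `gl e`, uniformly in `e : PosP33.UV`. Items of the further
prune `SyBP` (`NbP47.NoBirP`), exponent `Aex N = 25 C1 + 20`.

* `lab0P_eq_of_small` : two labels `κ` of `b` and `σ` of `Q b` are equal if `Q^3 (b r) < 1/8`.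
* `lab0P_up`          : no birth in the range `(log s)^A ≤ 1/(s b r) ≤ exp (s^(1/4))`.
* `BigP`, `exists_bigP`, `BigP.big`; `supTP_unique` : at most one label in the super-tiny phase.
* `BirLP e t γ r q s τ`, `birLP_supT`, **`thinP_birth`**, `slP_change`, `slaP_new`, `slP_const`,
  `slP_change_unique`, **`birthP_dich`**, `slaP_new_unique`.
* **`BFP N c p0 q`** (extends `Bir30.BF`: the real and the permissive facts of an item), **`ev_factsP`**;
  `BFP.up`, `BFP.up_fat`, `BFP.dich`, `BFP.fat_dense`, `BFP.sl_unique`, `BFP.sla_unique`,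
  `BFP.newG_unique`.
* **`BFG N c p0 q G`** : the same facts for an abstract game label `G : StG32.GLb` of the item, `BFG.perm`
  (`G = GlP32.gC e c q`), `BFG.std` (`G = GLb.std`), `BFG.new_sla`, **`BFG.new_unique`** (`J = 1`).
-/

set_option autoImplicit false
set_option linter.unusedSectionVars false
set_option linter.unusedVariables false

namespace Crest.Agent.R4P.BirP47

open Crest.Agent.R4.W363 (lab0 lab0_eq_some lab0_spec lab0_none lst lst_prod mem_lst)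
open Crest.Agent.R4.LF363 (Lab rat_gap)
open Crest.Agent.R4P.PruneBir12 (Bir NoBir)
open Crest.Agent.R4P.NbP47 (NoBirP SyBP)
open Crest.Agent.R4P.PruneAcc17 (Bab)
open Crest.Agent.R4P.Cnt588
open Crest.Agent.R4P.PosP33 Crest.Agent.R4P.LabD33
open Crest.Agent.R4P.PosD33 (le_of_pow5)
open Crest.Agent.R4P.StM6 (d5 dense d5_pos)
open Crest.Agent.R4P.Bir30 (Few Big Qb Qb_pos Qb_le Bab_lt Bab_pos SupT den_mul_le lst_mem
  lst_not_mem lst_prod_Bab)

variable {e : UV}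

/-! ### arithmetic of two labels -/

/-- labels of two stages whose quotient is small against the radius are equal -/
theorem lab0P_eq_of_small {γ r : ℝ} {b Q : ℕ} {κ σ : ℚ} (hb : 0 < b) (hQ : 0 < Q)
    (h : lab0P e γ r b = some κ) (h' : lab0P e γ r (Q * b) = some σ)
    (hs : (Q : ℝ) ^ 3 * (b * r) < 1 / 8) : κ = σ := by
  have hL := lab0P_spec hb h
  have hQb : 0 < Q * b := Nat.mul_pos hQ hb
  have hL' := lab0P_spec hQb h'
  by_contra hne
  have hQb0 : (((Q * b : ℕ) : ℚ)) ≠ 0 := by exact_mod_cast hQb.ne'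
  have hne' : ((Q * b : ℕ) : ℚ) * κ ≠ ((Q * b : ℕ) : ℚ) * σ := fun e => hne (mul_left_cancel₀ hQb0 e)
  have hgap := rat_gap hne'
  set R : ℝ := b * r with hR
  have hR0 : 0 < R := hL.pos
  have hR1 : R ≤ 1 := by linarith [hL.le]
  have hQ0 : (0 : ℝ) < Q := by exact_mod_cast hQ
  have hQ1 : (1 : ℝ) ≤ Q := by exact_mod_cast hQ
  set x : ℝ := |(b : ℝ) * γ - ((b * κ : ℚ) : ℝ)| with hx
  set y : ℝ := |((Q * b : ℕ) : ℝ) * γ - ((((Q * b : ℕ) : ℚ) * σ : ℚ) : ℝ)| with hy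
  set k₁ : ℝ := (((b * κ : ℚ)).den : ℝ) with hk₁
  set k₂ : ℝ := (((((Q * b : ℕ) : ℚ) * σ : ℚ)).den : ℝ) with hk₂
  have hk10 : 0 < k₁ := by rw [hk₁]; exact_mod_cast (b * κ : ℚ).den_pos
  have hk20 : 0 < k₂ := by rw [hk₂]; exact_mod_cast (((Q * b : ℕ) : ℚ) * σ : ℚ).den_pos
  have hx0 : 0 ≤ x := abs_nonneg _
  have hy0 : 0 ≤ y := abs_nonneg _
  have eR : (((Q * b : ℕ) : ℝ)) * r = Q * R := by rw [hR]; push_cast; ring
  have hQR0 : 0 < Q * R := by positivity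
  have hQR1 : Q * R ≤ 1 := by
    have := hL'.le
    rw [eR] at this
    linarith
  have d1 : k₁ ^ 5 * R ^ (1 + e.u) ≤ 1 := hL.den
  have d2 : k₂ ^ 5 * (Q * R) ^ (1 + e.u) ≤ 1 := by have := hL'.den; rwa [eR] at this
  have n1 : x ^ 5 ≤ R ^ (4 * (1 - e.v)) := hL.near
  have n2 : y ^ 5 ≤ (Q * R) ^ (4 * (1 - e.v)) := by have := hL'.near; rwa [eR] at this
  -- roots
  obtain ⟨t, ht0, ht⟩ := hund hR0.le
  obtain ⟨w, hw0, hw⟩ := hund hQ0.le
  have hw1 : 1 ≤ w := by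
    by_contra hc
    push Not at hc
    have := pow_lt_one₀ hw0 hc (show (100 : ℕ) ≠ 0 by norm_num)
    linarith
  have ht1 : t ≤ 1 := by
    by_contra hc
    push Not at hc
    have := one_lt_pow₀ hc (show (100 : ℕ) ≠ 0 by norm_num)
    linarith
  have htp : 0 < t := by
    rcases ht0.lt_or_eq with h1 | h1
    · exact h1
    · rw [← h1] at ht; norm_num at ht; linarith
  have hwp : 0 < w := by linarith
  have hwt : (w * t) ^ 100 = Q * R := by rw [mul_pow, hw, ht]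
  -- the errors
  have x1 : x ≤ t ^ 76 := by
    refine le_of_pow5 (by positivity) ?_
    calc x ^ 5 ≤ R ^ (4 * (1 - e.v)) := n1
      _ ≤ R ^ (19 / 5 : ℝ) := Real.rpow_le_rpow_of_exponent_ge hR0 hR1 (by linarith [e.v1])
      _ = t ^ 380 := hund_rp ht0 ht 380 (by norm_num)
      _ = (t ^ 76) ^ 5 := by ring
  have y1 : y ≤ (w * t) ^ 76 := by
    refine le_of_pow5 (by positivity) ?_
    calc y ^ 5 ≤ (Q * R) ^ (4 * (1 - e.v)) := n2
      _ ≤ (Q * R) ^ (19 / 5 : ℝ) :=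
          Real.rpow_le_rpow_of_exponent_ge hQR0 hQR1 (by linarith [e.v1])
      _ = (w * t) ^ 380 := hund_rp (by positivity) hwt 380 (by norm_num)
      _ = ((w * t) ^ 76) ^ 5 := by ring
  -- the denominators
  have z1 : k₁ * t ^ 21 ≤ 1 := by
    refine le_of_pow5 zero_le_one ?_
    rw [one_pow]
    calc (k₁ * t ^ 21) ^ 5 = k₁ ^ 5 * t ^ 105 := by ring
      _ = k₁ ^ 5 * R ^ (21 / 20 : ℝ) := by rw [hund_rp ht0 ht 105 (by norm_num)]
      _ ≤ k₁ ^ 5 * R ^ (1 + e.u) := by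
          refine mul_le_mul_of_nonneg_left ?_ (by positivity)
          exact Real.rpow_le_rpow_of_exponent_ge hR0 hR1 (by linarith [e.u1])
      _ ≤ 1 := d1
  have z2 : k₂ * (w * t) ^ 21 ≤ 1 := by
    refine le_of_pow5 zero_le_one ?_
    rw [one_pow]
    calc (k₂ * (w * t) ^ 21) ^ 5 = k₂ ^ 5 * (w * t) ^ 105 := by ring
      _ = k₂ ^ 5 * (Q * R) ^ (21 / 20 : ℝ) := by
          rw [hund_rp (by positivity) hwt 105 (by norm_num)]
      _ ≤ k₂ ^ 5 * (Q * R) ^ (1 + e.u) := by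
          refine mul_le_mul_of_nonneg_left ?_ (by positivity)
          exact Real.rpow_le_rpow_of_exponent_ge hQR0 hQR1 (by linarith [e.u1])
      _ ≤ 1 := d2
  have zz : (k₁ * k₂) * (w ^ 21 * t ^ 42) ≤ 1 := by
    calc (k₁ * k₂) * (w ^ 21 * t ^ 42) = (k₁ * t ^ 21) * (k₂ * (w * t) ^ 21) := by ring
      _ ≤ 1 * 1 := mul_le_mul z1 z2 (by positivity) zero_le_one
      _ = 1 := one_mul 1
  -- the first denominator
  have hdle : ((((Q * b : ℕ) : ℚ) * κ : ℚ).den : ℝ) ≤ k₁ := by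
    have e : (((Q * b : ℕ) : ℚ) * κ : ℚ) = (Q : ℚ) * (b * κ) := by push_cast; ring
    rw [e, hk₁]
    exact_mod_cast den_mul_le Q (b * κ)
  -- the distance
  have hdist : |((((Q * b : ℕ) : ℚ) * κ : ℚ) : ℝ) - ((((Q * b : ℕ) : ℚ) * σ : ℚ) : ℝ)| ≤
      y + Q * x := by
    have e1 : ((((Q * b : ℕ) : ℚ) * κ : ℚ) : ℝ) - ((((Q * b : ℕ) : ℚ) * σ : ℚ) : ℝ) =
        (((Q * b : ℕ) : ℝ) * γ - ((((Q * b : ℕ) : ℚ) * σ : ℚ) : ℝ)) -
          Q * ((b : ℝ) * γ - ((b * κ : ℚ) : ℝ)) := by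
      push_cast; ring
    rw [e1]
    refine (abs_sub _ _).trans ?_
    rw [abs_mul, abs_of_pos hQ0]
  have hkk : 1 ≤ (y + Q * x) * (k₁ * k₂) := by
    refine hgap.trans ?_
    refine mul_le_mul hdist (mul_le_mul_of_nonneg_right hdle hk20.le) (by positivity) (by positivity)
  -- the small number `s = w^3 t`
  set s : ℝ := w ^ 3 * t with hsdef
  have hs0 : 0 < s := by positivity
  have hs100 : s ^ 100 < 1 / 8 := by
    calc s ^ 100 = (w ^ 100) ^ 3 * t ^ 100 := by rw [hsdef]; ring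
      _ = (Q : ℝ) ^ 3 * R := by rw [hw, ht]
      _ < 1 / 8 := hs
  have hs1 : s ≤ 1 := by
    by_contra hc
    push Not at hc
    have := one_lt_pow₀ hc (show (100 : ℕ) ≠ 0 by norm_num)
    linarith
  have hs34 : s ^ 34 < 1 / 2 := by
    by_contra hc
    push Not at hc
    have h1 : (1 / 2 : ℝ) ^ 3 ≤ (s ^ 34) ^ 3 := pow_le_pow_left₀ (by norm_num) hc 3
    have h2 : (s ^ 34) ^ 3 = s ^ 100 * s ^ 2 := by ring
    have h3 : s ^ 2 ≤ 1 := pow_le_one₀ hs0.le hs1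
    have h4 : s ^ 100 * s ^ 2 ≤ s ^ 100 * 1 := mul_le_mul_of_nonneg_left h3 (by positivity)
    norm_num at h1
    linarith
  have a1 : y * (k₁ * k₂) ≤ s ^ 34 := by
    calc y * (k₁ * k₂) ≤ (w * t) ^ 76 * (k₁ * k₂) := mul_le_mul_of_nonneg_right y1 (by positivity)
      _ = (w ^ 55 * t ^ 34) * ((k₁ * k₂) * (w ^ 21 * t ^ 42)) := by ring
      _ ≤ (w ^ 55 * t ^ 34) * 1 := mul_le_mul_of_nonneg_left zz (by positivity)
      _ ≤ (w ^ 102 * t ^ 34) * 1 := by
          refine mul_le_mul_of_nonneg_right ?_ zero_le_one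
          exact mul_le_mul_of_nonneg_right (pow_le_pow_right₀ hw1 (by norm_num)) (by positivity)
      _ = s ^ 34 := by rw [hsdef]; ring
  have a2 : Q * x * (k₁ * k₂) ≤ s ^ 34 := by
    calc Q * x * (k₁ * k₂) ≤ Q * t ^ 76 * (k₁ * k₂) :=
          mul_le_mul_of_nonneg_right (mul_le_mul_of_nonneg_left x1 hQ0.le) (by positivity)
      _ = (w ^ 79 * t ^ 34) * ((k₁ * k₂) * (w ^ 21 * t ^ 42)) := by rw [← hw]; ring
      _ ≤ (w ^ 79 * t ^ 34) * 1 := mul_le_mul_of_nonneg_left zz (by positivity)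
      _ ≤ (w ^ 102 * t ^ 34) * 1 := by
          refine mul_le_mul_of_nonneg_right ?_ zero_le_one
          exact mul_le_mul_of_nonneg_right (pow_le_pow_right₀ hw1 (by norm_num)) (by positivity)
      _ = s ^ 34 := by rw [hsdef]; ring
  have : (y + Q * x) * (k₁ * k₂) = y * (k₁ * k₂) + Q * x * (k₁ * k₂) := by ring
  linarith

/-- **in the range of the prune of the births, a permissive label of `s b` is a label of `b`** -/
theorem lab0P_up {γ r A : ℝ} {t : IT} {q s : ℕ} (hN : NoBirP γ A t q)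
    (hs : s ∈ t.mt q ∨ s ∈ t.uq q) (hs0 : 0 < s) (hb : 0 < Bab t q s) {σ : ℚ}
    (h1 : Real.log s ^ A * (s * (Bab t q s * r)) ≤ 1)
    (h2 : Real.exp (-((s : ℝ) ^ (1 / 4 : ℝ))) ≤ s * (Bab t q s * r))
    (h : lab0P e γ r (s * Bab t q s) = some σ) : lab0P e γ r (Bab t q s) = some σ := by
  set b := Bab t q s with hbd
  have hsb : 0 < s * b := Nat.mul_pos hs0 hb
  have hL := lab0P_spec hsb h
  obtain ⟨f0, f1, f2, f3⟩ := own_spec hsb h
  set R : ℝ := s * (b * r) with hR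
  have eR : (((s * b : ℕ) : ℝ)) * r = R := by rw [hR]; push_cast; ring
  have hR0 : 0 < R := by have := hL.pos; rwa [eR] at this
  have hR1 : R ≤ 1 / 10 := by have := hL.le; rwa [eR] at this
  have hR1' : R ≤ 1 := by linarith
  set ρ : ℚ := ((s * b : ℕ) : ℚ) * σ with hρ
  have hk0 : 0 < ρ.den := ρ.den_pos
  have hkR : (0 : ℝ) < ρ.den := by exact_mod_cast hk0
  have d2 : (ρ.den : ℝ) ^ 5 * R ^ (1 + e.u) ≤ 1 := by have := hL.den; rwa [eR] at this
  have n2 : |((s * b : ℕ) : ℝ) * γ - (ρ : ℝ)| ^ 5 ≤ R ^ (4 * (1 - e.v)) := by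
    have := hL.near; rwa [eR] at this
  set T : ℝ := 1 / R with hT
  have hT0 : 0 < T := by positivity
  have hT1 : 1 ≤ T := by rw [hT, le_div_iff₀ hR0]; linarith
  have hTR : ∀ a : ℝ, T ^ (-a) = R ^ a := fun a => by
    rw [hT, one_div, Real.inv_rpow hR0.le, Real.rpow_neg hR0.le, inv_inv]
  -- `s` divides the numerator
  have hdiv : (s : ℤ) ∣ ρ.num := by
    by_contra hnd
    refine hN s hs ⟨T, ?_, ?_, ρ.den, hk0, ?_, ρ.num, hnd, ?_⟩
    · rw [hT, le_div_iff₀ hR0]; exact h1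
    · rw [hT, one_div, inv_le_comm₀ hR0 (Real.exp_pos _), ← Real.exp_neg]; exact h2
    · -- the denominator
      have h5 : (ρ.den : ℝ) ^ 5 * R ^ (21 / 20 : ℝ) ≤ 1 := by
        refine le_trans (mul_le_mul_of_nonneg_left ?_ (by positivity)) d2
        exact Real.rpow_le_rpow_of_exponent_ge hR0 hR1' (by linarith [e.u1])
      have h5' : (ρ.den : ℝ) ^ 5 ≤ T ^ (21 / 20 : ℝ) := by
        have e1 : T ^ (21 / 20 : ℝ) = (R ^ (21 / 20 : ℝ))⁻¹ := by
          rw [hT, one_div, Real.inv_rpow hR0.le]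
        have hp : 0 < R ^ (21 / 20 : ℝ) := Real.rpow_pos_of_pos hR0 _
        rw [e1, ← one_div, le_div_iff₀ hp]
        exact h5
      have e : (ρ.den : ℝ) = ((ρ.den : ℝ) ^ 5) ^ (1 / 5 : ℝ) := by
        rw [← Real.rpow_natCast, ← Real.rpow_mul hkR.le]
        norm_num
      have e2 : T ^ (21 / 100 : ℝ) = (T ^ (21 / 20 : ℝ)) ^ (1 / 5 : ℝ) := by
        rw [← Real.rpow_mul hT0.le]
        norm_num
      rw [e, e2]
      exact Real.rpow_le_rpow (by positivity) h5' (by norm_num)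
    · have h7 : |((s * b : ℕ) : ℝ) * γ - (ρ : ℝ)| ≤ T ^ (-(3 / 4) : ℝ) := by
        rw [hTR]
        have e : |((s * b : ℕ) : ℝ) * γ - (ρ : ℝ)| =
            (|((s * b : ℕ) : ℝ) * γ - (ρ : ℝ)| ^ 5) ^ (1 / 5 : ℝ) := by
          rw [← Real.rpow_natCast, ← Real.rpow_mul (abs_nonneg _)]
          norm_num
        have e2 : R ^ (3 / 4 : ℝ) = (R ^ (15 / 4 : ℝ)) ^ (1 / 5 : ℝ) := by
          rw [← Real.rpow_mul hR0.le]
          norm_num
        rw [e, e2]
        refine Real.rpow_le_rpow (by positivity) (n2.trans ?_) (by norm_num)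
        exact Real.rpow_le_rpow_of_exponent_ge hR0 hR1' (by linarith [UV.v1 ‹UV›])
      have e3 : (ρ.den : ℝ) * s * ((b : ℝ) * γ) - ρ.num =
          ρ.den * (((s * b : ℕ) : ℝ) * γ - (ρ : ℝ)) := by
        have e4 : (ρ.num : ℝ) = ρ.den * (ρ : ℝ) := by
          have := Rat.den_mul_eq_num ρ
          exact_mod_cast this.symm
        rw [e4]; push_cast; ring
      rw [e3, abs_mul, abs_of_pos hkR]
      exact mul_le_mul_of_nonneg_left h7 hkR.le
  -- the denominator of `b σ`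
  obtain ⟨m, hm⟩ := hdiv
  have hsQ : (s : ℚ) ≠ 0 := by exact_mod_cast hs0.ne'
  have hkQ : (ρ.den : ℚ) ≠ 0 := by exact_mod_cast hk0.ne'
  have e5 : ((b : ℚ) * σ) = (m : ℚ) / ((ρ.den : ℤ) : ℚ) := by
    have e6 : (ρ.num : ℚ) = ρ.den * ρ := (Rat.den_mul_eq_num ρ).symm
    have e7 : (ρ.num : ℚ) = s * m := by rw [hm]; push_cast; ring
    have e8 : (s : ℚ) * (b * σ) = ρ := by rw [hρ]; push_cast; ring
    have e9 : (s : ℚ) * m = ρ.den * (s * (b * σ)) := by rw [← e7, e6, e8]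
    have e10 : (m : ℚ) = ρ.den * (b * σ) := by
      apply mul_left_cancel₀ hsQ
      rw [e9]; ring
    rw [e10]
    push_cast
    field_simp
  have hdd : ((b : ℚ) * σ).den ≤ ρ.den := by
    have h8 := Rat.den_dvd m (ρ.den : ℤ)
    rw [← Rat.intCast_div_eq_divInt, ← e5] at h8
    exact Nat.le_of_dvd hk0 (by exact_mod_cast h8)
  have hs1 : (1 : ℝ) ≤ s := by exact_mod_cast hs0
  have hbr : 0 ≤ (b : ℝ) * r := by positivity
  have h10 : (b : ℝ) * r ≤ R := by rw [hR]; nlinarith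
  refine own_of hb f0 (by linarith) ?_ (acc_anti hs0 f3)
  have h9 : (((b * σ : ℚ)).den : ℝ) ^ 5 ≤ (ρ.den : ℝ) ^ 5 :=
    pow_le_pow_left₀ (by positivity) (by exact_mod_cast hdd) 5
  have h11 : ((b : ℝ) * r) ^ (1 + e.u) ≤ R ^ (1 + e.u) :=
    Real.rpow_le_rpow hbr h10 (by linarith [e.u0])
  calc d5 b σ * ((b : ℝ) * r) ^ (1 + e.u) ≤ (ρ.den : ℝ) ^ 5 * R ^ (1 + e.u) :=
        mul_le_mul h9 h11 (Real.rpow_nonneg hbr _) (by positivity)
    _ ≤ 1 := d2

/-! ### the missing ties below a stage -/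

/-- the numbers `s` which are large for the exponent `C` (permissive version) -/
def BigP (C : ℝ) (s0 : ℕ) : Prop :=
  ∀ s : ℕ, s0 ≤ s → 3 ≤ s ∧
    3 * Real.log s ^ (C + 2) + 3 ≤ (s : ℝ) ^ (1 / 4 : ℝ) ∧
    Real.log s ^ (C + 2) + (s : ℝ) ^ (1 / 5 : ℝ) ≤ (s : ℝ) ^ (1 / 4 : ℝ)

lemma BigP.mono {C : ℝ} {s0 s1 : ℕ} (h : BigP C s0) (h1 : s0 ≤ s1) : BigP C s1 :=
  fun s hs => h s (h1.trans hs)

lemma BigP.big {C : ℝ} {s0 : ℕ} (h : BigP C s0) : Big C s0 := by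
  intro s hs
  obtain ⟨h1, h2, h3⟩ := h s hs
  refine ⟨h1, ?_, h3⟩
  have hl : 0 ≤ Real.log s := Real.log_nonneg (by exact_mod_cast (by omega : 1 ≤ s))
  have : 0 ≤ Real.log s ^ (C + 2) := Real.rpow_nonneg hl _
  linarith

lemma exists_bigP (C : ℝ) : ∃ s0 : ℕ, BigP C s0 := by
  have h1 := (isLittleO_log_rpow_rpow_atTop (C + 2) (show (0 : ℝ) < 1 / 4 by norm_num)).bound
    (show (0 : ℝ) < 1 / 6 by norm_num)
  have h2 : ∀ᶠ x : ℝ in Filter.atTop, 6 ≤ x ^ (1 / 4 : ℝ) :=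
    (tendsto_rpow_atTop (show (0 : ℝ) < 1 / 4 by norm_num)).eventually_ge_atTop 6
  have h3 : ∀ᶠ x : ℝ in Filter.atTop, 2 ≤ x ^ (1 / 20 : ℝ) :=
    (tendsto_rpow_atTop (show (0 : ℝ) < 1 / 20 by norm_num)).eventually_ge_atTop 2
  obtain ⟨x0, hx⟩ := Filter.eventually_atTop.1 ((h1.and h2).and h3)
  refine ⟨⌈x0⌉₊ + 3, fun s hs => ⟨by omega, ?_⟩⟩
  have hs3 : (3 : ℝ) ≤ s := by exact_mod_cast (by omega : 3 ≤ s)
  have hs0 : (0 : ℝ) < s := by linarith
  have hxs : x0 ≤ s := by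
    have h5 : x0 ≤ ⌈x0⌉₊ := Nat.le_ceil _
    have h6 : ((⌈x0⌉₊ : ℕ) : ℝ) ≤ s := by exact_mod_cast (by omega : ⌈x0⌉₊ ≤ s)
    linarith
  obtain ⟨⟨k1, k2⟩, k3⟩ := hx s hxs
  have hl : 0 ≤ Real.log s := Real.log_nonneg (by linarith)
  rw [Real.norm_eq_abs, Real.norm_eq_abs, abs_of_nonneg (by positivity),
    abs_of_nonneg (by positivity)] at k1
  refine ⟨by linarith, ?_⟩
  have e : (s : ℝ) ^ (1 / 4 : ℝ) = (s : ℝ) ^ (1 / 20 : ℝ) * (s : ℝ) ^ (1 / 5 : ℝ) := by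
    rw [← Real.rpow_add hs0]; norm_num
  have h7 : 0 < (s : ℝ) ^ (1 / 5 : ℝ) := by positivity
  have h8 : 2 * (s : ℝ) ^ (1 / 5 : ℝ) ≤ (s : ℝ) ^ (1 / 4 : ℝ) := by
    rw [e]; exact mul_le_mul_of_nonneg_right k3 h7.le
  linarith

section few
variable {C : ℝ} {p0 : ℕ} {M : Finset ℕ} {t : IT} {q : ℕ}

/-- **at most one permissive label in the super-tiny phase** -/
theorem supTP_unique (hM : ∀ x ∈ t.mt q, 0 < x) (hF : Few C p0 (t.mt q)) (hB : BigP C p0)
    {γ r : ℝ} {s p : ℕ} (hs : s ∈ t.mt q) (hs0 : p0 ≤ s) (hT : SupT t r q s) (hp : p < s)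
    {κ σ : ℚ} (h : lab0P e γ r (s * Bab t q s) = some κ) (h' : lab0P e γ r (Bab t q p) = some σ) :
    κ = σ := by
  obtain ⟨b1, b2, b3⟩ := hB s hs0
  have hsp := hM s hs
  have hb : 0 < s * Bab t q s := Nat.mul_pos hsp (Bab_pos hM s)
  have hr : 0 < ((s * Bab t q s : ℕ) : ℝ) * r := (lab0P_spec hb h).pos
  rw [Bab_lt hs hp] at h'
  refine lab0P_eq_of_small hb (Qb_pos hM p s) h h' ?_
  have h1 := Qb_le (p := p) hM hF hs0 b1
  have h2 : ((s * Bab t q s : ℕ) : ℝ) * r ≤ Real.exp (-((s : ℝ) ^ (1 / 4 : ℝ))) := by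
    refine le_trans (le_of_eq ?_) hT
    push_cast; ring
  have h3 : (Qb (t.mt q) p s : ℝ) ^ 3 ≤ Real.exp (3 * Real.log s ^ (C + 2)) := by
    have e : Real.exp (3 * Real.log s ^ (C + 2)) = Real.exp (Real.log s ^ (C + 2)) ^ 3 := by
      rw [← Real.exp_nat_mul]; push_cast; ring_nf
    rw [e]
    exact pow_le_pow_left₀ (Nat.cast_nonneg _) h1 3
  have h4 : (Qb (t.mt q) p s : ℝ) ^ 3 * (((s * Bab t q s : ℕ) : ℝ) * r) ≤
      Real.exp (3 * Real.log s ^ (C + 2)) * Real.exp (-((s : ℝ) ^ (1 / 4 : ℝ))) :=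
    mul_le_mul h3 h2 hr.le (Real.exp_pos _).le
  rw [← Real.exp_add] at h4
  have h5 : Real.exp (3 * Real.log s ^ (C + 2) + -((s : ℝ) ^ (1 / 4 : ℝ))) ≤ Real.exp (-3) :=
    Real.exp_le_exp.2 (by linarith)
  have h6 : Real.exp (-3) < 1 / 8 := by
    rw [Real.exp_neg, inv_eq_one_div]
    have h7 : (8 : ℝ) < Real.exp 3 := by
      have h8 : (2.7 : ℝ) < Real.exp 1 := by
        have := Real.exp_one_gt_d9; linarith
      have h9 : Real.exp 3 = Real.exp 1 ^ 3 := by rw [← Real.exp_nat_mul]; norm_num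
      rw [h9]
      have h10 : (2.7 : ℝ) ^ 3 < Real.exp 1 ^ 3 := pow_lt_pow_left₀ h8 (by norm_num) (by norm_num)
      norm_num at h10 ⊢
      linarith
    exact one_div_lt_one_div_of_lt (by norm_num) h7
  linarith

/-! ### births -/

/-- **birth of a permissive label** at the missing tie `s` (going down) -/
def BirLP (e : UV) (t : IT) (γ r : ℝ) (q s : ℕ) (τ : ℚ) : Prop :=
  lab0P e γ r (s * Bab t q s) = some τ ∧ lab0P e γ r (Bab t q s) ≠ some τ

/-- **thin births are super-tiny** -/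
theorem birLP_supT (hM : ∀ x ∈ t.mt q, 0 < x) {γ r A : ℝ} (hN : NoBirP γ A t q) {s : ℕ}
    (hs : s ∈ t.mt q) (hA : (s : ℝ) * (Bab t q s * r) ≤ Real.log s ^ (-A)) (hl : 0 < Real.log s)
    {τ : ℚ} (h : BirLP e t γ r q s τ) :
    (s : ℝ) * (Bab t q s * r) < Real.exp (-((s : ℝ) ^ (1 / 4 : ℝ))) := by
  by_contra hc
  push Not at hc
  refine h.2 (lab0P_up hN (Or.inl hs) (hM s hs) (Bab_pos hM s) ?_ hc h.1)
  have h1 : Real.log s ^ A * (s * (Bab t q s * r)) ≤ Real.log s ^ A * Real.log s ^ (-A) :=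
    mul_le_mul_of_nonneg_left hA (by positivity)
  refine h1.trans (le_of_eq ?_)
  rw [← Real.rpow_add hl, add_neg_cancel, Real.rpow_zero]

/-- the stage just below a missing tie -/
lemma Bab_pred (hM : ∀ x ∈ t.mt q, 0 < x) {x : ℕ} (hx : x ∈ t.mt q) :
    Bab t q (x - 1) = x * Bab t q x := by
  have hx1 := hM x hx
  have h := Bab_lt (t := t) (q := q) (p := x - 1) hx (by omega)
  have h2 : Qb (t.mt q) (x - 1) x = 1 := by
    unfold Qb
    rw [Finset.filter_false_of_mem (fun y _ hy => by omega), Finset.prod_empty]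
  rw [h, h2, one_mul]

/-- **all the thin births of an item are births of one rational** -/
theorem thinP_birth (hM : ∀ x ∈ t.mt q, 0 < x) (hF : Few C p0 (t.mt q)) (hB : BigP C p0)
    (hMp : ∀ x ∈ t.mt q, p0 ≤ x) {γ r A : ℝ} (hN : NoBirP γ A t q) :
    ∃ σ : ℚ, ∀ s ∈ t.mt q, (s : ℝ) * (Bab t q s * r) ≤ Real.log s ^ (-A) → ∀ τ : ℚ,
      BirLP e t γ r q s τ →
        τ = σ ∧ (s : ℝ) * (Bab t q s * r) < Real.exp (-((s : ℝ) ^ (1 / 4 : ℝ))) := by
  classical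
  have hlog : ∀ s ∈ t.mt q, 0 < Real.log s := fun s hs => by
    have := (hB s (hMp s hs)).1
    exact Real.log_pos (by exact_mod_cast (by omega : 1 < s))
  by_cases hex : ∃ s ∈ t.mt q, (s : ℝ) * (Bab t q s * r) ≤ Real.log s ^ (-A) ∧
      ∃ τ, BirLP e t γ r q s τ
  · obtain ⟨s₀, h1, h2, τ₀, h3⟩ := hex
    refine ⟨τ₀, fun s hs hA τ hτ => ⟨?_, birLP_supT hM hN hs hA (hlog s hs) hτ⟩⟩
    have k1 := birLP_supT hM hN hs hA (hlog s hs) hτ
    have k2 := birLP_supT hM hN h1 h2 (hlog s₀ h1) h3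
    rcases lt_trichotomy s s₀ with h | h | h
    · have hs1 := hM s hs
      exact (supTP_unique hM hF hB h1 (hMp s₀ h1) k2.le (show s - 1 < s₀ by omega) h3.1
        (by rw [Bab_pred hM hs]; exact hτ.1)).symm
    · subst h
      exact Option.some.inj (hτ.1.symm.trans h3.1)
    · have hs1 := hM s₀ h1
      exact supTP_unique hM hF hB hs (hMp s hs) k1.le (show s₀ - 1 < s by omega) hτ.1
        (by rw [Bab_pred hM h1]; exact h3.1)
  · refine ⟨0, fun s hs hA τ hτ => absurd ⟨s, hs, hA, τ, hτ⟩ hex⟩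

/-! ### the sticky label (`LabD33.sl`, `LabD33.sla`) -/

lemma slP_cons_none {γ r : ℝ} {s : ℕ} {L : List ℕ} (h : lab0P e γ r (s * L.prod) = none) :
    sl e γ r (s :: L) = sl e γ r L := by
  rw [sl_cons, h, Option.none_or]

lemma slP_cons_some {γ r : ℝ} {s : ℕ} {L : List ℕ} {τ : ℚ}
    (h : lab0P e γ r (s * L.prod) = some τ) : sl e γ r (s :: L) = some τ := by
  rw [sl_cons, h, Option.some_or]

/-- a change of the sticky label is a birth -/
lemma slP_change {γ r : ℝ} {s : ℕ} {L : List ℕ} (h : sl e γ r (s :: L) ≠ sl e γ r L) :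
    ∃ τ, lab0P e γ r (s * L.prod) = some τ ∧ sl e γ r L ≠ some τ ∧
      lab0P e γ r L.prod ≠ some τ := by
  cases hl : lab0P e γ r (s * L.prod) with
  | none => exact absurd (slP_cons_none hl) h
  | some τ =>
    rw [slP_cons_some hl] at h
    exact ⟨τ, rfl, fun e => h e.symm, fun e => h (sl_of_own e).symm⟩

/-- **a new label of the sparse regime is a change of the sticky label** -/
lemma slaP_new {γ r : ℝ} {s : ℕ} {L : List ℕ} {τ : ℚ} (hs : 0 < s)
    (h : sla e γ r (s :: L) = some τ) (hne : sla e γ r L ≠ some τ) :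
    sl e γ r (s :: L) ≠ sl e γ r L := by
  obtain ⟨h1, h2⟩ := sla_some.1 h
  intro e
  rw [List.prod_cons] at h2
  exact hne (sla_some.2 ⟨by rw [← e, h1], acc_anti hs h2⟩)

/-- below a super-tiny label the sticky label is constant -/
theorem slP_const (hM : ∀ x ∈ t.mt q, 0 < x) (hF : Few C p0 (t.mt q)) (hB : BigP C p0)
    {γ r : ℝ} {s : ℕ} (hs : s ∈ t.mt q) (hs0 : p0 ≤ s) (hT : SupT t r q s) {κ : ℚ}
    (h : lab0P e γ r (s * Bab t q s) = some κ) : ∀ d p : ℕ, p + 1 + d = s →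
      sl e γ r (lst (t.mt q) p) = some κ := by
  have hs1 := hM s hs
  intro d
  induction d with
  | zero =>
    intro p hp
    have e : p = s - 1 := by omega
    rw [e, lst_mem hs hs1]
    refine slP_cons_some ?_
    rw [lst_prod_Bab]
    exact h
  | succ d ih =>
    intro p hp
    have ih' := ih (p + 1) (by omega)
    by_cases hm : (p + 1) ∈ t.mt q
    · have e1 : lst (t.mt q) p = (p + 1) :: lst (t.mt q) (p + 1) := by
        have := lst_mem hm (Nat.succ_pos p)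
        simpa using this
      rw [e1]
      cases hl : lab0P e γ r ((p + 1) * (lst (t.mt q) (p + 1)).prod) with
      | none => rw [slP_cons_none hl, ih']
      | some τ =>
        rw [slP_cons_some hl]
        have hl' : lab0P e γ r (Bab t q p) = some τ := by
          rw [← lst_prod_Bab, e1, List.prod_cons]
          exact hl
        rw [supTP_unique hM hF hB hs hs0 hT (by omega) h hl']
    · have e1 : lst (t.mt q) p = lst (t.mt q) (p + 1) := by
        have := lst_not_mem hm (Nat.succ_pos p)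
        simpa using this
      rw [e1, ih']

/-- **the sticky label changes at most once at the missing ties with thin radius** -/
theorem slP_change_unique (hM : ∀ x ∈ t.mt q, 0 < x) (hF : Few C p0 (t.mt q)) (hB : BigP C p0)
    (hMp : ∀ x ∈ t.mt q, p0 ≤ x) {γ r A : ℝ} (hN : NoBirP γ A t q) {s s' : ℕ}
    (hs : s ∈ t.mt q) (hs' : s' ∈ t.mt q)
    (hA : (s : ℝ) * (Bab t q s * r) ≤ Real.log s ^ (-A))
    (hA' : (s' : ℝ) * (Bab t q s' * r) ≤ Real.log s' ^ (-A))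
    (hc : sl e γ r (s :: lst (t.mt q) s) ≠ sl e γ r (lst (t.mt q) s))
    (hc' : sl e γ r (s' :: lst (t.mt q) s') ≠ sl e γ r (lst (t.mt q) s')) : s = s' := by
  -- the key: no change below a change
  have key : ∀ s s' : ℕ, s ∈ t.mt q → s' ∈ t.mt q →
      (s : ℝ) * (Bab t q s * r) ≤ Real.log s ^ (-A) →
      sl e γ r (s :: lst (t.mt q) s) ≠ sl e γ r (lst (t.mt q) s) →
      sl e γ r (s' :: lst (t.mt q) s') ≠ sl e γ r (lst (t.mt q) s') → ¬ s' < s := by
    intro s s' hs hs' hA hc hc' hlt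
    have hl : 0 < Real.log s := by
      have := (hB s (hMp s hs)).1
      exact Real.log_pos (by exact_mod_cast (by omega : 1 < s))
    obtain ⟨τ, h1, h2, h3⟩ := slP_change hc
    rw [lst_prod_Bab] at h1 h3
    have hT := (birLP_supT hM hN hs hA hl ⟨h1, h3⟩).le
    have e1 := slP_const hM hF hB hs (hMp s hs) hT h1 (s - 1 - s') s' (by omega)
    have hs'1 := hM s' hs'
    have e2 := slP_const hM hF hB hs (hMp s hs) hT h1 (s - s') (s' - 1) (by omega)
    rw [lst_mem hs' hs'1] at e2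
    exact hc' (e2.trans e1.symm)
  rcases lt_trichotomy s s' with h | h | h
  · exact absurd h (key s' s hs' hs hA' hc' hc)
  · exact h
  · exact absurd h (key s s' hs hs' hA hc hc')

/-- **every birth of a label is fat or super-tiny**, one rational only for the second kind -/
theorem birthP_dich (hM : ∀ x ∈ t.mt q, 0 < x) (hF : Few C p0 (t.mt q)) (hB : BigP C p0)
    (hMp : ∀ x ∈ t.mt q, p0 ≤ x) {γ r A : ℝ} (hN : NoBirP γ A t q) :
    ∃ σ : ℚ, ∀ s ∈ t.mt q, ∀ τ : ℚ, BirLP e t γ r q s τ →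
      Real.log s ^ (-A) < (s : ℝ) * (Bab t q s * r) ∨
        (τ = σ ∧ (s : ℝ) * (Bab t q s * r) < Real.exp (-((s : ℝ) ^ (1 / 4 : ℝ)))) := by
  obtain ⟨σ, h⟩ := thinP_birth (e := e) hM hF hB hMp (r := r) hN
  refine ⟨σ, fun s hs τ hτ => ?_⟩
  rcases le_or_gt ((s : ℝ) * (Bab t q s * r)) (Real.log s ^ (-A)) with h1 | h1
  · exact Or.inr (h s hs h1 τ hτ)
  · exact Or.inl h1

/-- **the new sparse labels at the thin missing ties: at most one tie** -/
theorem slaP_new_unique (hM : ∀ x ∈ t.mt q, 0 < x) (hF : Few C p0 (t.mt q)) (hB : BigP C p0)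
    (hMp : ∀ x ∈ t.mt q, p0 ≤ x) {γ r A : ℝ} (hN : NoBirP γ A t q) {s s' : ℕ}
    (hs : s ∈ t.mt q) (hs' : s' ∈ t.mt q)
    (hA : (s : ℝ) * (Bab t q s * r) ≤ Real.log s ^ (-A))
    (hA' : (s' : ℝ) * (Bab t q s' * r) ≤ Real.log s' ^ (-A)) {τ τ' : ℚ}
    (h1 : sla e γ r (s :: lst (t.mt q) s) = some τ) (h2 : sla e γ r (lst (t.mt q) s) ≠ some τ)
    (h1' : sla e γ r (s' :: lst (t.mt q) s') = some τ')
    (h2' : sla e γ r (lst (t.mt q) s') ≠ some τ') : s = s' ∧ τ = τ' := by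
  have e := slP_change_unique hM hF hB hMp hN hs hs' hA hA' (slaP_new (hM s hs) h1 h2)
    (slaP_new (hM s' hs') h1' h2')
  subst e
  exact ⟨rfl, Option.some.inj (h1.symm.trans h1')⟩

end few

/-! ### the items of a context -/

section ctx

open Crest.Agent.R4P.Skel189 Crest.Agent.R4P.ParF5 Crest.Agent.R4P.FinAll26
open Crest.Agent.R4P.Data758 Crest.Agent.R4P.SxT6
open Crest.Agent.R4.Soft104 (w)
open Crest.Agent.R4P.Bir30 (Aex BF)
open Crest.Agent.R4P.Bir30.BF (Rad)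
open Filter

/-- **the facts of one item**, real and permissive -/
structure BFP (N : Skel189.Num) (c : Cf) (p0 q : ℕ) : Prop extends BF N c p0 q where
  bigP : BigP (N.C1 + N.c2) p0
  nbP : NoBirP c.γ (Aex N) c.t q
  thr2 : ∀ s : ℕ, p0 ≤ s → c.wp.thr s ≤ Real.log s ^ (-(2 * Aex N))

/-- **the items of the contexts in `SyBP` have the facts** -/
theorem ev_factsP {N : Skel189.Num} {Ct C₀ c : ℝ} {Sx : ℕ → (ℕ → ℝ) → Finset ℕ → Finset ℕ}
    (hc : 1 ≤ c) (h : NumOK N (ParT21.thF Ct) Ct C₀ Sx) (hf : NumFin N (ParT21.thF Ct) Ct c) :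
    ∃ p₁ : ℕ, ∀ p0 ≥ p₁, ∀ (γ : ℝ) (P₀ : ℕ) (X : Ctx N γ p0 P₀), InS SyBP N γ X → ∀ q ∈ X.S',
      BFP N X.c p0 q := by
  obtain ⟨pa, ha⟩ := Bir30.ev_facts hc h hf
  obtain ⟨s0, hs0⟩ := exists_bigP (N.C1 + N.c2)
  have hC1 : 1 ≤ N.C1 := hc.trans hf.C1
  have hd : 0 < Ct - 2 * Aex N := by rw [hf.Ct]; unfold Aex; linarith
  obtain ⟨a, hA⟩ := ParT21.ctx_hi h (by rw [hf.Ct]; linarith) hd
  refine ⟨max (max a pa) (max s0 4), fun p0 h0 γ P₀ X hX q hq => ?_⟩
  have h0a : a ≤ p0 := ((le_max_left _ _).trans (le_max_left _ _)).trans h0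
  have h0b : pa ≤ p0 := ((le_max_right _ _).trans (le_max_left _ _)).trans h0
  have h0s : s0 ≤ p0 := ((le_max_left _ _).trans (le_max_right _ _)).trans h0
  have h04 : 4 ≤ p0 := ((le_max_right _ _).trans (le_max_right _ _)).trans h0
  refine ⟨ha p0 h0b γ P₀ X (NbP47.InS.toB hX) q hq, hs0.mono h0s, ?_, fun s hs => ?_⟩
  · rw [X.hγ]
    exact NbP47.noBirP_of hf X hX hq
  · have h5 := hA γ p0 P₀ X s (h0a.trans hs)
    have e5 : -(Ct - (Ct - 2 * Aex N)) = -(2 * Aex N) := by ring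
    rwa [e5] at h5

namespace BFP

variable {N : Skel189.Num} {c : Cf} {p0 q : ℕ}

lemma log_pos' (h : BFP N c p0 q) {s : ℕ} (hs : s ∈ c.t.mt q) : 1 < Real.log s := by
  have h1 := (h.bigP s (h.mp s hs).le).1
  have hs3 : (3 : ℝ) ≤ s := by exact_mod_cast h1
  rw [Real.lt_log_iff_exp_lt (by linarith)]
  have := Real.exp_one_lt_d9
  linarith

/-- **a permissive label below the missing tie `s` with radius in `[exp (-s^(1/4)), (log s)^(-A)]` is a
label above `s`** -/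
theorem up (h : BFP N c p0 q) {s : ℕ} (hs : s ∈ c.t.mt q)
    (h1 : Rad c q s ≤ Real.log s ^ (-(Aex N)))
    (h2 : Real.exp (-((s : ℝ) ^ (1 / 4 : ℝ))) ≤ Rad c q s) {σ : ℚ}
    (hl : lab0P e c.γ (c.r q) (s * Bab c.t q s) = some σ) :
    lab0P e c.γ (c.r q) (Bab c.t q s) = some σ := by
  by_contra hne
  exact absurd (birLP_supT h.mpos h.nbP hs h1 (by linarith [h.log_pos' hs]) ⟨hl, hne⟩) (not_lt.2 h2)

/-- **fat item** (`thr n < s B r ≤ (log s)^(-A)` at a column `n ≤ s`): the same -/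
theorem up_fat (h : BFP N c p0 q) {s n : ℕ} (hs : s ∈ c.t.mt q) (hn : p0 ≤ n) (hns : n ≤ s)
    (hf : c.wp.thr n ≤ Rad c q s) (h1 : Rad c q s ≤ Real.log s ^ (-(Aex N))) {σ : ℚ}
    (hl : lab0P e c.γ (c.r q) (s * Bab c.t q s) = some σ) :
    lab0P e c.γ (c.r q) (Bab c.t q s) = some σ :=
  h.up hs h1 ((h.tlo s n hn hns).trans hf) hl

/-- **every birth of a permissive label is fat (radius `> (log s)^(-A)`) or super-tiny**, the second kind
for one rational only -/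
theorem dich (h : BFP N c p0 q) (e : UV) : ∃ σ : ℚ, ∀ s ∈ c.t.mt q, ∀ τ : ℚ,
    BirLP e c.t c.γ (c.r q) q s τ → Real.log s ^ (-(Aex N)) < Rad c q s ∨
      (τ = σ ∧ Rad c q s < Real.exp (-((s : ℝ) ^ (1 / 4 : ℝ)))) :=
  birthP_dich h.mpos h.few h.bigP (fun x hx => (h.mp x hx).le) h.nbP

/-- **a fat birth is dense at the birth tie**: `k^5 thr s ≤ 1` -/
theorem fat_dense (h : BFP N c p0 q) {s : ℕ} (hs : s ∈ c.t.mt q)
    (hf : Real.log s ^ (-(Aex N)) < Rad c q s) {τ : ℚ}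
    (hl : lab0P e c.γ (c.r q) (s * Bab c.t q s) = some τ) :
    dense (c.wp.thr s) (s * Bab c.t q s) τ := by
  have hb : 0 < s * Bab c.t q s := Nat.mul_pos (h.mpos s hs) (Bab_pos h.mpos s)
  obtain ⟨h0, h1, h2, h3⟩ := own_spec hb hl
  have e1 : ((s * Bab c.t q s : ℕ) : ℝ) * c.r q = Rad c q s := by unfold Rad; push_cast; ring
  rw [e1] at h1 h2
  unfold dense
  refine (mul_le_mul_of_nonneg_left ?_ (d5_pos _ _).le).trans h2
  have hlog := h.log_pos' hs
  have hl0 : 0 < Real.log s := by linarith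
  have hR0 : 0 < Rad c q s := lt_trans (Real.rpow_pos_of_pos hl0 _) hf
  calc c.wp.thr s ≤ Real.log s ^ (-(2 * Aex N)) := h.thr2 s (h.mp s hs).le
    _ = (Real.log s ^ (-(Aex N))) ^ (2 : ℝ) := by
        rw [← Real.rpow_mul hl0.le]; congr 1; ring
    _ ≤ (Rad c q s) ^ (2 : ℝ) :=
        Real.rpow_le_rpow (Real.rpow_nonneg hl0.le _) hf.le (by norm_num)
    _ ≤ (Rad c q s) ^ (1 + e.u) :=
        Real.rpow_le_rpow_of_exponent_ge hR0 (by linarith) (by linarith [e.u1])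

/-- **the sticky label changes at most once at the missing ties which are thin below** -/
theorem sl_unique (h : BFP N c p0 q) {s s' : ℕ} (hs : s ∈ c.t.mt q) (hs' : s' ∈ c.t.mt q)
    (ht : Rad c q s ≤ c.wp.thr s) (ht' : Rad c q s' ≤ c.wp.thr s')
    (hc : sl e c.γ (c.r q) (s :: lst (c.t.mt q) s) ≠ sl e c.γ (c.r q) (lst (c.t.mt q) s))
    (hc' : sl e c.γ (c.r q) (s' :: lst (c.t.mt q) s') ≠ sl e c.γ (c.r q) (lst (c.t.mt q) s')) :
    s = s' :=
  slP_change_unique h.mpos h.few h.bigP (fun x hx => (h.mp x hx).le) h.nbP hs hs'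
    (h.toBF.le_A hs ht) (h.toBF.le_A hs' ht') hc hc'

/-- the same for the radii `≤ (log s)^(-A)` -/
theorem sl_uniqueA (h : BFP N c p0 q) {s s' : ℕ} (hs : s ∈ c.t.mt q) (hs' : s' ∈ c.t.mt q)
    (ht : Rad c q s ≤ Real.log s ^ (-(Aex N))) (ht' : Rad c q s' ≤ Real.log s' ^ (-(Aex N)))
    (hc : sl e c.γ (c.r q) (s :: lst (c.t.mt q) s) ≠ sl e c.γ (c.r q) (lst (c.t.mt q) s))
    (hc' : sl e c.γ (c.r q) (s' :: lst (c.t.mt q) s') ≠ sl e c.γ (c.r q) (lst (c.t.mt q) s')) :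
    s = s' :=
  slP_change_unique h.mpos h.few h.bigP (fun x hx => (h.mp x hx).le) h.nbP hs hs' ht ht' hc hc'

/-- **a new label of the sparse regime at a missing tie which is thin below: once per item** -/
theorem sla_unique (h : BFP N c p0 q) {s s' : ℕ} (hs : s ∈ c.t.mt q) (hs' : s' ∈ c.t.mt q)
    (ht : Rad c q s ≤ c.wp.thr s) (ht' : Rad c q s' ≤ c.wp.thr s') {τ τ' : ℚ}
    (h1 : sla e c.γ (c.r q) (s :: lst (c.t.mt q) s) = some τ)
    (h2 : sla e c.γ (c.r q) (lst (c.t.mt q) s) ≠ some τ)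
    (h1' : sla e c.γ (c.r q) (s' :: lst (c.t.mt q) s') = some τ')
    (h2' : sla e c.γ (c.r q) (lst (c.t.mt q) s') ≠ some τ') : s = s' ∧ τ = τ' :=
  slaP_new_unique h.mpos h.few h.bigP (fun x hx => (h.mp x hx).le) h.nbP hs hs'
    (h.toBF.le_A hs ht) (h.toBF.le_A hs' ht') h1 h2 h1' h2'

/-- a **new game label at the own missing tie `s`**: real state `st` above (`= StM6.own`), `st'` below -/
def NewG (e : UV) (c : Cf) (q s : ℕ) (t' : ℝ) (st' : Option ℚ) (τ : ℚ) : Prop :=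
  (st' = StM6.own c.γ (c.r q) (s :: lst (c.t.mt q) s) ∨
      st' = StM6.own c.γ (c.r q) (lst (c.t.mt q) s) ∨ st' = none) ∧
    gl e st' t' c.γ (c.r q) (s :: lst (c.t.mt q) s) = some τ ∧
    gl e (StM6.own c.γ (c.r q) (lst (c.t.mt q) s)) (c.wp.thr s) c.γ (c.r q) (lst (c.t.mt q) s) ≠
      some τ

/-- a new game label is a new label of the sparse regime and an own-radius label -/
lemma newG_sla (h : BFP N c p0 q) {s : ℕ} (hs : s ∈ c.t.mt q) {t' : ℝ} {st' : Option ℚ} {τ : ℚ}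
    (hn : NewG e c q s t' st' τ) :
    sla e c.γ (c.r q) (s :: lst (c.t.mt q) s) = some τ ∧
      sla e c.γ (c.r q) (lst (c.t.mt q) s) ≠ some τ ∧
      own e c.γ (c.r q) (s :: lst (c.t.mt q) s) = some τ := by
  obtain ⟨h1, h2, h3⟩ := hn
  have hs0 := h.mpos s hs
  have hL : 0 < (lst (c.t.mt q) s).prod := by rw [lst_prod_Bab]; exact Bab_pos h.mpos s
  have hsL : 0 < (s :: lst (c.t.mt q) s).prod := by
    rw [List.prod_cons]; exact Nat.mul_pos hs0 hL
  have e0 := gl_own (e := e) (t := c.wp.thr s) (γ := c.γ) (ψ := c.r q)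
    (st := StM6.own c.γ (c.r q) (lst (c.t.mt q) s)) hL rfl
  rcases miss_cases (e := e) (t := c.wp.thr s) (t' := t') (st' := st') (γ := c.γ) (ψ := c.r q)
    (st := StM6.own c.γ (c.r q) (lst (c.t.mt q) s)) hs0 hL rfl h1 with k | ⟨ρ, k1, k2⟩ | ⟨-, k2, -⟩
  · rw [k] at h2; exact absurd h2 h3
  · rw [h2] at k2
    have e1 : τ = ρ := Option.some.inj k2
    subst e1
    refine ⟨sla_of_own hsL k1, ?_, k1⟩
    rw [← e0]; exact h3
  · rw [h2] at k2; exact absurd k2 (by simp)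

/-- **THE LINE OF THE THIN BIRTHS, `J = 1`**, permissive game labels: the game label of an item becomes a
new label at at most ONE own missing tie which is thin below -/
theorem newG_unique (h : BFP N c p0 q) {s s' : ℕ} (hs : s ∈ c.t.mt q) (hs' : s' ∈ c.t.mt q)
    (ht : Rad c q s ≤ c.wp.thr s) (ht' : Rad c q s' ≤ c.wp.thr s') {t₁ t₂ : ℝ}
    {st₁ st₂ : Option ℚ} {τ τ' : ℚ} (h1 : NewG e c q s t₁ st₁ τ) (h2 : NewG e c q s' t₂ st₂ τ') :
    s = s' ∧ τ = τ' := by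
  obtain ⟨a1, a2, -⟩ := h.newG_sla hs h1
  obtain ⟨b1, b2, -⟩ := h.newG_sla hs' h2
  exact h.sla_unique hs hs' ht ht' a1 a2 b1 b2

end BFP

/-! ### abstract game labels (`StG32.GLb`) -/

open Crest.Agent.R4P.StG32 Crest.Agent.R4P.GlP32

/-- **the facts of the births of the abstract game labels `G` of an item** (one interface for the real labels
`GLb.std` and the permissive labels `gC e c q`) -/
structure BFG (N : Skel189.Num) (c : Cf) (p0 q : ℕ) (G : GLb) : Prop where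
  ok : G.OK c.γ (c.r q)
  mpos : ∀ x ∈ c.t.mt q, 0 < x
  /-- no birth with radius in `[exp (-s^(1/4)), (log s)^(-A)]` -/
  up : ∀ s ∈ c.t.mt q, Rad c q s ≤ Real.log s ^ (-(Aex N)) →
    Real.exp (-((s : ℝ) ^ (1 / 4 : ℝ))) ≤ Rad c q s → ∀ σ : ℚ,
    G.ow (s * Bab c.t q s) = some σ → G.ow (Bab c.t q s) = some σ
  /-- the same at a fat column `n ≤ s` -/
  up_fat : ∀ s ∈ c.t.mt q, ∀ n : ℕ, p0 ≤ n → n ≤ s → c.wp.thr n ≤ Rad c q s →
    Rad c q s ≤ Real.log s ^ (-(Aex N)) → ∀ σ : ℚ,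
    G.ow (s * Bab c.t q s) = some σ → G.ow (Bab c.t q s) = some σ
  /-- a birth is fat or super-tiny -/
  dich : ∃ σ : ℚ, ∀ s ∈ c.t.mt q, ∀ τ : ℚ, G.ow (s * Bab c.t q s) = some τ →
    G.ow (Bab c.t q s) ≠ some τ → Real.log s ^ (-(Aex N)) < Rad c q s ∨
      (τ = σ ∧ Rad c q s < Real.exp (-((s : ℝ) ^ (1 / 4 : ℝ))))
  /-- a fat birth is dense at the birth tie -/
  fat_dense : ∀ s ∈ c.t.mt q, Real.log s ^ (-(Aex N)) < Rad c q s → ∀ τ : ℚ,
    G.ow (s * Bab c.t q s) = some τ → dense (c.wp.thr s) (s * Bab c.t q s) τ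
  /-- the sticky label changes at most once at the thin missing ties -/
  sl_unique : ∀ s ∈ c.t.mt q, ∀ s' ∈ c.t.mt q, Rad c q s ≤ c.wp.thr s →
    Rad c q s' ≤ c.wp.thr s' → G.sl (s :: lst (c.t.mt q) s) ≠ G.sl (lst (c.t.mt q) s) →
    G.sl (s' :: lst (c.t.mt q) s') ≠ G.sl (lst (c.t.mt q) s') → s = s'
  /-- a new sparse label at a thin missing tie: once per item -/
  sla_unique : ∀ s ∈ c.t.mt q, ∀ s' ∈ c.t.mt q, Rad c q s ≤ c.wp.thr s →
    Rad c q s' ≤ c.wp.thr s' → ∀ τ τ' : ℚ, G.sla (s :: lst (c.t.mt q) s) = some τ →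
    G.sla (lst (c.t.mt q) s) ≠ some τ → G.sla (s' :: lst (c.t.mt q) s') = some τ' →
    G.sla (lst (c.t.mt q) s') ≠ some τ' → s = s' ∧ τ = τ'

namespace BFG

variable {N : Skel189.Num} {c : Cf} {p0 q : ℕ} {G : GLb}

/-- **the permissive labels** -/
theorem perm (h : BFP N c p0 q) (e : UV) : BFG N c p0 q (gC e c q) where
  ok := gC_OK e c q
  mpos := h.mpos
  up := fun s hs h1 h2 σ hl => h.up (e := e) hs h1 h2 hl
  up_fat := fun s hs n hn hns hf h1 σ hl => h.up_fat (e := e) hs hn hns hf h1 hl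
  dich := by
    obtain ⟨σ, hσ⟩ := h.dich e
    exact ⟨σ, fun s hs τ h1 h2 => hσ s hs τ ⟨h1, h2⟩⟩
  fat_dense := fun s hs hf τ hl => h.fat_dense (e := e) hs hf hl
  sl_unique := fun s hs s' hs' ht ht' hc hc' => by
    refine h.sl_unique (e := e) hs hs' ht ht' ?_ ?_
    · simpa only [gC, gP_sl] using hc
    · simpa only [gC, gP_sl] using hc'
  sla_unique := fun s hs s' hs' ht ht' τ τ' h1 h2 h1' h2' => by
    refine h.sla_unique (e := e) hs hs' ht ht' ?_ ?_ ?_ ?_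
    · simpa only [gC, gP_sla] using h1
    · simpa only [gC, gP_sla] using h2
    · simpa only [gC, gP_sla] using h1'
    · simpa only [gC, gP_sla] using h2'

/-- **the real labels** -/
theorem std (h : BF N c p0 q) : BFG N c p0 q (GLb.std c.γ (c.r q)) where
  ok := GLb.std_OK _ _
  mpos := h.mpos
  up := fun s hs h1 h2 σ hl => h.up hs h1 h2 hl
  up_fat := fun s hs n hn hns hf h1 σ hl => h.up_fat hs hn hns hf h1 hl
  dich := by
    obtain ⟨σ, hσ⟩ := h.dich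
    exact ⟨σ, fun s hs τ h1 h2 => hσ s hs τ ⟨h1, h2⟩⟩
  fat_dense := fun s hs hf τ hl => h.fat_dense hs hf hl
  sl_unique := fun s hs s' hs' ht ht' hc hc' => by
    refine h.sl_unique hs hs' ht ht' ?_ ?_
    · simpa only [GLb.std_sl] using hc
    · simpa only [GLb.std_sl] using hc'
  sla_unique := fun s hs s' hs' ht ht' τ τ' h1 h2 h1' h2' => by
    refine h.sla_unique hs hs' ht ht' ?_ ?_ ?_ ?_
    · simpa only [GLb.std_sla] using h1
    · simpa only [GLb.std_sla] using h2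
    · simpa only [GLb.std_sla] using h1'
    · simpa only [GLb.std_sla] using h2'

/-- a change of the sticky label is a birth -/
lemma sl_change {s : ℕ} {L : List ℕ} (h : G.sl (s :: L) ≠ G.sl L) :
    ∃ τ, G.ow (s * L.prod) = some τ ∧ G.sl L ≠ some τ ∧ G.ow L.prod ≠ some τ := by
  cases hl : G.ow (s * L.prod) with
  | none => exact absurd (by rw [GLb.sl_cons, hl, Option.none_or]) h
  | some τ =>
    rw [GLb.sl_cons, hl, Option.some_or] at h
    exact ⟨τ, rfl, fun e => h e.symm, fun e => h (GLb.sl_of_ow e).symm⟩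

/-- **the kinds of the game label at an own missing tie**: a `new` label is a new sparse label -/
lemma new_sla (h : BFG N c p0 q G) {s : ℕ} (hs : s ∈ c.t.mt q) {t t' : ℝ} {st' : Option ℚ} {τ : ℚ}
    (hst : st' = StM6.own c.γ (c.r q) (s :: lst (c.t.mt q) s) ∨
      st' = StM6.own c.γ (c.r q) (lst (c.t.mt q) s) ∨ st' = none)
    (h2 : G.gl st' t' (s :: lst (c.t.mt q) s) = some τ)
    (h3 : G.gl (StM6.own c.γ (c.r q) (lst (c.t.mt q) s)) t (lst (c.t.mt q) s) ≠ some τ) :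
    G.sla (s :: lst (c.t.mt q) s) = some τ ∧ G.sla (lst (c.t.mt q) s) ≠ some τ ∧
      G.ow (s * (lst (c.t.mt q) s).prod) = some τ := by
  have hs0 := h.mpos s hs
  have hL : 0 < (lst (c.t.mt q) s).prod := by rw [lst_prod_Bab]; exact Bab_pos h.mpos s
  have hsL : 0 < (s :: lst (c.t.mt q) s).prod := by
    rw [List.prod_cons]; exact Nat.mul_pos hs0 hL
  have e0 := GLb.gl_own (t := t) h.ok hL (rfl : StM6.own c.γ (c.r q) (lst (c.t.mt q) s) = _)
  have hk := GLb.kindG (t := t) (t' := t') h.ok hs0 hL rfl hst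
  cases hk with
  | stay k1 k2 => rw [k1] at h2; exact absurd h2 h3
  | kept κ k1 k2 k3 k4 =>
    rw [k2] at h2
    rw [k1] at h3
    exact absurd h2 h3
  | new ρ k1 k2 k3 =>
    rw [h2] at k2
    have e1 : τ = ρ := Option.some.inj k2
    subst e1
    have e2 : (s :: lst (c.t.mt q) s).prod = s * (lst (c.t.mt q) s).prod := List.prod_cons
    refine ⟨GLb.sla_of_ow h.ok hsL (by rw [e2]; exact k3), ?_, k3⟩
    rw [← e0]; exact h3
  | dead κ k1 k2 k3 k4 k5 => rw [h2] at k2; exact absurd k2 (by simp)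

/-- **THE LINE OF THE THIN BIRTHS, `J = 1`**, abstract game labels -/
theorem new_unique (h : BFG N c p0 q G) {s s' : ℕ} (hs : s ∈ c.t.mt q) (hs' : s' ∈ c.t.mt q)
    (ht : Rad c q s ≤ c.wp.thr s) (ht' : Rad c q s' ≤ c.wp.thr s') {t t' t₁ t₁' : ℝ}
    {st st' : Option ℚ} {τ τ' : ℚ}
    (a1 : st = StM6.own c.γ (c.r q) (s :: lst (c.t.mt q) s) ∨
      st = StM6.own c.γ (c.r q) (lst (c.t.mt q) s) ∨ st = none)
    (a2 : G.gl st t (s :: lst (c.t.mt q) s) = some τ)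
    (a3 : G.gl (StM6.own c.γ (c.r q) (lst (c.t.mt q) s)) t₁ (lst (c.t.mt q) s) ≠ some τ)
    (b1 : st' = StM6.own c.γ (c.r q) (s' :: lst (c.t.mt q) s') ∨
      st' = StM6.own c.γ (c.r q) (lst (c.t.mt q) s') ∨ st' = none)
    (b2 : G.gl st' t' (s' :: lst (c.t.mt q) s') = some τ')
    (b3 : G.gl (StM6.own c.γ (c.r q) (lst (c.t.mt q) s')) t₁' (lst (c.t.mt q) s') ≠ some τ') :
    s = s' ∧ τ = τ' := by
  obtain ⟨k1, k2, -⟩ := h.new_sla hs a1 a2 a3
  obtain ⟨l1, l2, -⟩ := h.new_sla hs' b1 b2 b3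
  exact h.sla_unique s hs s' hs' ht ht' τ τ' k1 k2 l1 l2

end BFG

end ctx

end Crest.Agent.R4P.BirP47
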