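import Crest.Agent.R4.World2_363

/-!
R4 (S0004), helper21: **FINAL-LABEL lemma** and the label inequalities for lost pairs, pure arithmetic.

Root coordinates: an item has root target `γ` and root radius `ψ`; at missing product `b` its target
is `b γ`, its radius `b ψ`; a label `σ` (root coordinates) is valid if `Lab (b γ) (b ψ) (b σ)`.
The relative error `|γ - σ| / ψ` is static.

* `labR_iff`  : the four conditions, accuracy is `b * |γ - σ|^5 ≤ ψ^4`, i.e. an upper bound for `b`;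
* `acc_static`, `keep_of_acc` : if `|γ - σ| ≤ ψ` then only the denominator can kill the label;
* `near_of_N`, `final_label`, `final_dich` : if matched (`N`) content of a fat item `h` at the tie
  `n` has the label `σ` then `|γ - σ| ≤ ψ_h`, hence in all later stages of `h` the label is `σ` or
  the denominator of `σ` is `> R^(-1/5)` (**final label**);
* `sta_fat`, `sta_keep`, `sta_of_den` : the state of a fat piece;
* `L1` : a fat (`P`) and a matched (`N`) piece which both are statically accurate for `λ` are both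
  in state `λ` at `n`, if `k_λ^5 ≤ n`;
* `thin_death` (L2 b), `fat_death`, `L2c` (L2 c), `den_dvd`, `den_pow_le`.
-/

set_option autoImplicit false

namespace Crest.Agent.R4P.FinL21

open Crest.Agent.R4.LF363 Crest.Agent.R4.W363

/-- fifth powers are monotone -/
lemma le_of_pow5 {x y : ℝ} (hy : 0 ≤ y) (h : x ^ 5 ≤ y ^ 5) : x ≤ y := by
  by_contra hc
  push Not at hc
  have := pow_lt_pow_left₀ hc hy (show (5 : ℕ) ≠ 0 by norm_num)
  linarith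

/-- denominators only divide when the missing product grows -/
lemma den_dvd (b V : ℕ) (σ : ℚ) : (((V * b : ℕ) : ℚ) * σ).den ∣ ((b : ℚ) * σ).den := by
  have e : (((V * b : ℕ) : ℚ) * σ) = (V : ℚ) * ((b : ℚ) * σ) := by push_cast; ring
  rw [e]
  have h := Rat.mul_den_dvd (V : ℚ) ((b : ℚ) * σ)
  simpa using h

lemma den_le (b V : ℕ) (σ : ℚ) : (((V * b : ℕ) : ℚ) * σ).den ≤ ((b : ℚ) * σ).den :=
  Nat.le_of_dvd (Rat.den_pos _) (den_dvd b V σ)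

/-- accuracy and denominator in root coordinates -/
lemma labR_iff {γ ψ : ℝ} {b : ℕ} {σ : ℚ} (hb : 0 < b) :
    Lab (b * γ) (b * ψ) (b * σ) ↔ 0 < ψ ∧ b * ψ ≤ 1 / 10 ∧
      ((((b : ℚ) * σ).den : ℝ) ^ 5 * (b * ψ) ≤ 1) ∧ b * |γ - σ| ^ 5 ≤ ψ ^ 4 := by
  have hb' : (0 : ℝ) < b := by exact_mod_cast hb
  have e0 : (b : ℝ) * γ - ((b * σ : ℚ) : ℝ) = b * (γ - σ) := by push_cast; ring
  have e1 : |(b : ℝ) * γ - ((b * σ : ℚ) : ℝ)| ^ 5 = b ^ 4 * (b * |γ - σ| ^ 5) := by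
    rw [e0, abs_mul, abs_of_pos hb']; ring
  have e2 : ((b : ℝ) * ψ) ^ 4 = b ^ 4 * ψ ^ 4 := by ring
  have hb4 : (0 : ℝ) < (b : ℝ) ^ 4 := by positivity
  constructor
  · rintro ⟨h1, h2, h3, h4⟩
    refine ⟨?_, h2, h3, ?_⟩
    · exact (mul_pos_iff_of_pos_left hb').1 h1
    · rw [e1, e2] at h4
      exact le_of_mul_le_mul_left h4 hb4
  · rintro ⟨h1, h2, h3, h4⟩
    refine ⟨mul_pos hb' h1, h2, h3, ?_⟩
    rw [e1, e2]
    exact mul_le_mul_of_nonneg_left h4 hb4.le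

/-- a relative error `≤ 1` is accurate at every radius `≤ 1` -/
lemma acc_static {γ ψ : ℝ} {b : ℕ} {σ : ℚ} (hR : b * ψ ≤ 1)
    (he : |γ - σ| ≤ ψ) : b * |γ - σ| ^ 5 ≤ ψ ^ 4 := by
  have h0 : 0 ≤ |γ - σ| := abs_nonneg _
  have h1 : |γ - σ| ^ 5 ≤ ψ ^ 5 := pow_le_pow_left₀ h0 he 5
  calc b * |γ - σ| ^ 5 ≤ b * ψ ^ 5 := mul_le_mul_of_nonneg_left h1 (Nat.cast_nonneg _)
    _ = (b * ψ) * ψ ^ 4 := by ring
    _ ≤ 1 * ψ ^ 4 := mul_le_mul_of_nonneg_right hR (by positivity)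
    _ = ψ ^ 4 := one_mul _

/-- statically accurate: only the denominator can kill the label -/
lemma keep_of_acc {γ ψ : ℝ} {b : ℕ} {σ : ℚ} (hb : 0 < b) (hψ : 0 < ψ) (hR : b * ψ ≤ 1 / 10)
    (he : |γ - σ| ≤ ψ) (hk : (((b : ℚ) * σ).den : ℝ) ^ 5 * (b * ψ) ≤ 1) :
    Lab (b * γ) (b * ψ) (b * σ) ∧ lab0 γ ψ b = some σ := by
  have h : Lab (b * γ) (b * ψ) ((b * σ : ℚ)) :=
    (labR_iff hb).2 ⟨hψ, hR, hk, acc_static (by linarith) he⟩
  refine ⟨h, ?_⟩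
  rw [lab0_eq_some h]
  have hb' : (b : ℚ) ≠ 0 := by exact_mod_cast hb.ne'
  rw [mul_div_cancel_left₀ _ hb']

/-- accuracy of the label of matched content: `R_x n ≤ 1` gives `(b_x |γ - σ|)^5 n^4 ≤ 1` -/
lemma near_of_N {γ ψ : ℝ} {b : ℕ} {σ : ℚ} {n : ℝ} (hn : 0 ≤ n)
    (h : Lab (b * γ) (b * ψ) (b * σ)) (hN : (b * ψ) * n ≤ 1) :
    (b * |γ - σ|) ^ 5 * n ^ 4 ≤ 1 := by
  have e0 : (b : ℝ) * γ - ((b * σ : ℚ) : ℝ) = b * (γ - σ) := by push_cast; ring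
  have e1 : |(b : ℝ) * γ - ((b * σ : ℚ) : ℝ)| = b * |γ - σ| := by
    rw [e0, abs_mul, abs_of_nonneg (Nat.cast_nonneg b)]
  have h1 := h.near
  rw [e1] at h1
  have h2 : 0 ≤ (b * ψ) * n := mul_nonneg h.pos.le hn
  calc (b * |γ - σ|) ^ 5 * n ^ 4 ≤ (b * ψ) ^ 4 * n ^ 4 :=
        mul_le_mul_of_nonneg_right h1 (by positivity)
    _ = ((b * ψ) * n) ^ 4 := by ring
    _ ≤ 1 := pow_le_one₀ h2 hN

/-- **FINAL LABEL, accuracy**: `x` = matched content at `n` with label `σ`, missing product `bx`;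
`h` = an item of the same root target with missing product `bh ≤ Z bx` and a radius which is large
compared with `1 / n` (`Z^5 ≤ n^4 R_h^5`).  Then the relative error of `σ` for `h` is `≤ 1`. -/
lemma final_label {γ ψx ψh : ℝ} {bx bh : ℕ} {σ : ℚ} {n Z : ℝ} (hbh : 0 < bh)
    (hn : 0 < n) (hZ : 0 ≤ Z) (hψh : 0 < ψh) (hbx : bh ≤ Z * bx)
    (h : Lab (bx * γ) (bx * ψx) (bx * σ)) (hN : (bx * ψx) * n ≤ 1)
    (hfat : Z ^ 5 ≤ n ^ 4 * (bh * ψh) ^ 5) : |γ - σ| ≤ ψh := by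
  have hbh' : (0 : ℝ) < bh := by exact_mod_cast hbh
  have h1 := near_of_N hn.le h hN
  have h0 : 0 ≤ |γ - σ| := abs_nonneg _
  have h2 : (bh * |γ - σ|) ^ 5 ≤ Z ^ 5 * (bx * |γ - σ|) ^ 5 := by
    calc (bh * |γ - σ|) ^ 5 ≤ ((Z * bx) * |γ - σ|) ^ 5 := by
          refine pow_le_pow_left₀ (by positivity) ?_ 5
          exact mul_le_mul_of_nonneg_right hbx h0
      _ = Z ^ 5 * (bx * |γ - σ|) ^ 5 := by ring
  have h3 : (bh * |γ - σ|) ^ 5 ≤ (bh * ψh) ^ 5 := by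
    have h4 : n ^ 4 * (bh * |γ - σ|) ^ 5 ≤ n ^ 4 * (bh * ψh) ^ 5 := by
      calc n ^ 4 * (bh * |γ - σ|) ^ 5 ≤ n ^ 4 * (Z ^ 5 * (bx * |γ - σ|) ^ 5) :=
            mul_le_mul_of_nonneg_left h2 (by positivity)
        _ = Z ^ 5 * ((bx * |γ - σ|) ^ 5 * n ^ 4) := by ring
        _ ≤ Z ^ 5 * 1 := mul_le_mul_of_nonneg_left h1 (by positivity)
        _ ≤ n ^ 4 * (bh * ψh) ^ 5 := by linarith
    exact le_of_mul_le_mul_left h4 (by positivity)
  have h5 : bh * |γ - σ| ≤ bh * ψh := le_of_pow5 (by positivity) h3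
  exact le_of_mul_le_mul_left h5 hbh'

/-- **FINAL LABEL, dichotomy**: after a relative error `≤ 1` the label of every stage is `σ`, unless
its denominator is `> R^(-1/5)` there -/
lemma final_dich {γ ψ : ℝ} {b : ℕ} {σ : ℚ} (hb : 0 < b) (hψ : 0 < ψ) (hR : b * ψ ≤ 1 / 10)
    (he : |γ - σ| ≤ ψ) :
    lab0 γ ψ b = some σ ∨ 1 < (((b : ℚ) * σ).den : ℝ) ^ 5 * (b * ψ) := by
  by_cases hk : (((b : ℚ) * σ).den : ℝ) ^ 5 * (b * ψ) ≤ 1
  · exact Or.inl (keep_of_acc hb hψ hR he hk).2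
  · exact Or.inr (not_le.1 hk)

/-- another label `τ ≠ σ` (or no label) at a later stage `V b` forces `den (b σ) > R^(-1/5)` -/
lemma final_change {γ ψ : ℝ} {b V : ℕ} {σ : ℚ} (hb : 0 < b) (hV : 0 < V) (hψ : 0 < ψ)
    (hR : ((V * b : ℕ) : ℝ) * ψ ≤ 1 / 10) (he : |γ - σ| ≤ ψ)
    (hne : lab0 γ ψ (V * b) ≠ some σ) :
    1 < (((b : ℚ) * σ).den : ℝ) ^ 5 * (((V * b : ℕ) : ℝ) * ψ) := by
  rcases final_dich (Nat.mul_pos hV hb) hψ hR he with h | h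
  · exact absurd h hne
  · refine lt_of_lt_of_le h ?_
    refine mul_le_mul_of_nonneg_right ?_ (by positivity)
    refine pow_le_pow_left₀ (by positivity) ?_ 5
    exact_mod_cast den_le b V σ

/-! ### the state of a fat piece -/

/-- a fat piece keeps the plain label of the stage before its last missing tie -/
lemma sta_fat {thr : ℕ → ℝ} {γ ψ : ℝ} {s : ℕ} {L : List ℕ} {p : ℕ}
    (hf : thr p < ((s * L.prod : ℕ) : ℝ) * ψ) (ht : (L.prod : ℝ) * ψ ≤ thr s) :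
    sta thr γ ψ (s :: L) p = lab0 γ ψ L.prod := by
  rw [sta, if_neg (not_le.2 hf), sta_thin ht]

/-- if moreover `λ` is statically accurate and `k^5 R' ≤ 1`, the kept state is `λ` -/
lemma sta_keep {thr : ℕ → ℝ} {γ ψ : ℝ} {s : ℕ} {L : List ℕ} {p : ℕ} {lam : ℚ}
    (hL : 0 < L.prod) (hψ : 0 < ψ)
    (hf : thr p < ((s * L.prod : ℕ) : ℝ) * ψ) (ht : (L.prod : ℝ) * ψ ≤ thr s)
    (h10 : (L.prod : ℝ) * ψ ≤ 1 / 10) (he : |γ - lam| ≤ ψ)
    (hk : ((((L.prod : ℕ) : ℚ) * lam).den : ℝ) ^ 5 * (L.prod * ψ) ≤ 1) :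
    sta thr γ ψ (s :: L) p = some lam := by
  rw [sta_fat hf ht]
  exact (keep_of_acc hL hψ h10 he hk).2

/-- the same with the missing rule `s R' ≤ 1` and `k^5 ≤ s` -/
lemma sta_of_den {thr : ℕ → ℝ} {γ ψ : ℝ} {s : ℕ} {L : List ℕ} {p : ℕ} {lam : ℚ}
    (hL : 0 < L.prod) (hψ : 0 < ψ) (hs : 10 ≤ s)
    (hf : thr p < ((s * L.prod : ℕ) : ℝ) * ψ) (hthr : 1 / (s : ℝ) ≤ thr s)
    (hmiss : s * (L.prod * ψ) ≤ 1) (he : |γ - lam| ≤ ψ)
    (hk : ((((L.prod : ℕ) : ℚ) * lam).den : ℝ) ^ 5 ≤ s) :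
    sta thr γ ψ (s :: L) p = some lam := by
  have hs0 : (0 : ℝ) < s := by
    have : (10 : ℝ) ≤ s := by exact_mod_cast hs
    linarith
  have hs1 : (10 : ℝ) ≤ s := by exact_mod_cast hs
  have hR : (L.prod : ℝ) * ψ ≤ 1 / s := by
    rw [le_div_iff₀ hs0]; linarith
  have h10 : (1 : ℝ) / s ≤ 1 / 10 := one_div_le_one_div_of_le (by norm_num) hs1
  refine sta_keep hL hψ hf (hR.trans hthr) (hR.trans h10) he ?_
  have hR0 : 0 ≤ (L.prod : ℝ) * ψ := by positivity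
  calc ((((L.prod : ℕ) : ℚ) * lam).den : ℝ) ^ 5 * (L.prod * ψ) ≤ s * (L.prod * ψ) :=
        mul_le_mul_of_nonneg_right hk hR0
    _ ≤ 1 := hmiss

/-- matched content at `n` (`R n ≤ 1`, thin) which is statically accurate for `λ` has the state `λ`
if `k^5 ≤ n` -/
lemma sta_N {thr : ℕ → ℝ} {γ ψ : ℝ} {L : List ℕ} {n : ℕ} {lam : ℚ}
    (hL : 0 < L.prod) (hψ : 0 < ψ) (hn : 10 ≤ n) (hthr : 1 / (n : ℝ) ≤ thr n)
    (hN : (L.prod * ψ) * n ≤ 1) (he : |γ - lam| ≤ ψ)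
    (hk : ((((L.prod : ℕ) : ℚ) * lam).den : ℝ) ^ 5 ≤ n) :
    sta thr γ ψ L n = some lam := by
  have hn1 : (10 : ℝ) ≤ n := by exact_mod_cast hn
  have hn0 : (0 : ℝ) < n := by linarith
  have hR : (L.prod : ℝ) * ψ ≤ 1 / n := by
    rw [le_div_iff₀ hn0]; exact hN
  have h10 : (1 : ℝ) / n ≤ 1 / 10 := one_div_le_one_div_of_le (by norm_num) hn1
  rw [sta_thin (hR.trans hthr)]
  refine (keep_of_acc hL hψ (hR.trans h10) he ?_).2
  have hR0 : 0 ≤ (L.prod : ℝ) * ψ := by positivity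
  calc ((((L.prod : ℕ) : ℚ) * lam).den : ℝ) ^ 5 * (L.prod * ψ) ≤ n * (L.prod * ψ) :=
        mul_le_mul_of_nonneg_right hk hR0
    _ = (L.prod * ψ) * n := by ring
    _ ≤ 1 := hN

/-- **L1**: a fat piece `h` and a matched piece `j` at the tie `n`, both statically accurate for `λ`
(same root target or not), denominators `≤ n^(1/5)`: both are in the state `λ` at `n`. -/
theorem L1 {thr : ℕ → ℝ} {γh γj ψh ψj : ℝ} {s n : ℕ} {Lh Lj : List ℕ} {lh lj : ℚ}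
    (hLh : 0 < Lh.prod) (hLj : 0 < Lj.prod) (hψh : 0 < ψh) (hψj : 0 < ψj)
    (hn : 10 ≤ n) (hns : n ≤ s) (hthn : 1 / (n : ℝ) ≤ thr n) (hths : 1 / (s : ℝ) ≤ thr s)
    (hf : thr n < ((s * Lh.prod : ℕ) : ℝ) * ψh) (hmiss : s * (Lh.prod * ψh) ≤ 1)
    (hN : (Lj.prod * ψj) * n ≤ 1)
    (heh : |γh - lh| ≤ ψh) (hej : |γj - lj| ≤ ψj)
    (hkh : ((((Lh.prod : ℕ) : ℚ) * lh).den : ℝ) ^ 5 ≤ n)
    (hkj : ((((Lj.prod : ℕ) : ℚ) * lj).den : ℝ) ^ 5 ≤ n) :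
    sta thr γh ψh (s :: Lh) n = some lh ∧ sta thr γj ψj Lj n = some lj := by
  have hns' : (n : ℝ) ≤ s := by exact_mod_cast hns
  exact ⟨sta_of_den hLh hψh (hn.trans hns) hf hths hmiss heh (hkh.trans hns'),
    sta_N hLj hψj hn hthn hN hej hkj⟩

/-- **L2 (b)**: a thin death has a large denominator: `k^5 thr(p) > 1` -/
lemma thin_death {thr : ℕ → ℝ} {γ ψ : ℝ} {L : List ℕ} {p : ℕ} {lam : ℚ}
    (hL : 0 < L.prod) (hψ : 0 < ψ) (h10 : (L.prod : ℝ) * ψ ≤ 1 / 10)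
    (ht : (L.prod : ℝ) * ψ ≤ thr p) (he : |γ - lam| ≤ ψ)
    (hne : sta thr γ ψ L p ≠ some lam) :
    1 < ((((L.prod : ℕ) : ℚ) * lam).den : ℝ) ^ 5 * thr p := by
  rw [sta_thin ht] at hne
  rcases final_dich hL hψ h10 he with h | h
  · exact absurd h hne
  · exact lt_of_lt_of_le h (mul_le_mul_of_nonneg_left ht (by positivity))

/-- **fat death**: a fat piece which is not in the state `λ` died before its last missing tie `s`
(`k^5 R' > 1`, `s R' ≤ 1`), in particular `k^5 > s` -/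
lemma fat_death {thr : ℕ → ℝ} {γ ψ : ℝ} {s : ℕ} {L : List ℕ} {p : ℕ} {lam : ℚ}
    (hL : 0 < L.prod) (hψ : 0 < ψ) (hs : 10 ≤ s)
    (hf : thr p < ((s * L.prod : ℕ) : ℝ) * ψ) (hthr : 1 / (s : ℝ) ≤ thr s)
    (hmiss : s * (L.prod * ψ) ≤ 1) (he : |γ - lam| ≤ ψ)
    (hne : sta thr γ ψ (s :: L) p ≠ some lam) :
    1 < ((((L.prod : ℕ) : ℚ) * lam).den : ℝ) ^ 5 * (L.prod * ψ) ∧
      (s : ℝ) < ((((L.prod : ℕ) : ℚ) * lam).den : ℝ) ^ 5 := by
  have hs1 : (10 : ℝ) ≤ s := by exact_mod_cast hs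
  have hs0 : (0 : ℝ) < s := by linarith
  have hR : (L.prod : ℝ) * ψ ≤ 1 / s := by
    rw [le_div_iff₀ hs0]; linarith
  have h10 : (1 : ℝ) / s ≤ 1 / 10 := one_div_le_one_div_of_le (by norm_num) hs1
  rw [sta_fat hf (hR.trans hthr)] at hne
  have h1 : 1 < ((((L.prod : ℕ) : ℚ) * lam).den : ℝ) ^ 5 * (L.prod * ψ) := by
    rcases final_dich hL hψ (hR.trans h10) he with h | h
    · exact absurd h hne
    · exact h
  refine ⟨h1, ?_⟩
  set K := ((((L.prod : ℕ) : ℚ) * lam).den : ℝ) ^ 5 with hK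
  have hK0 : 0 < K := by
    have : (0 : ℝ) < (((L.prod : ℕ) : ℚ) * lam).den := by exact_mod_cast Rat.den_pos _
    positivity
  have h2 : 1 < K * (1 / s) := lt_of_lt_of_le h1 (mul_le_mul_of_nonneg_left hR hK0.le)
  rw [mul_one_div, one_lt_div hs0] at h2
  exact h2

/-- **L2 (c)**: `h` fat and not in the state `λ`, `j` thin in the state `λ`, `k_h ≤ k_j` : the radius
of `j` is smaller than the radius of `h` before its last missing tie: `R_j s < R_h` -/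
lemma L2c {thr : ℕ → ℝ} {γh ψh γj ψj : ℝ} {s : ℕ} {L : List ℕ} {bj p : ℕ} {lh lj : ℚ}
    (hL : 0 < L.prod) (hψ : 0 < ψh) (hs : 10 ≤ s)
    (hf : thr p < ((s * L.prod : ℕ) : ℝ) * ψh) (hthr : 1 / (s : ℝ) ≤ thr s)
    (hmiss : s * (L.prod * ψh) ≤ 1) (he : |γh - lh| ≤ ψh)
    (hne : sta thr γh ψh (s :: L) p ≠ some lh)
    (hj : Lab (bj * γj) (bj * ψj) (bj * lj))
    (hk : (((L.prod : ℕ) : ℚ) * lh).den ≤ ((bj : ℚ) * lj).den) :
    (bj * ψj) * s < ((s * L.prod : ℕ) : ℝ) * ψh := by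
  have hs1 : (10 : ℝ) ≤ s := by exact_mod_cast hs
  have hs0 : (0 : ℝ) < s := by linarith
  have h1 := (fat_death hL hψ hs hf hthr hmiss he hne).1
  have h2 := hj.den
  have hk' : ((((L.prod : ℕ) : ℚ) * lh).den : ℝ) ^ 5 ≤ (((bj : ℚ) * lj).den : ℝ) ^ 5 := by
    refine pow_le_pow_left₀ (by positivity) ?_ 5
    exact_mod_cast hk
  set K := ((((L.prod : ℕ) : ℚ) * lh).den : ℝ) ^ 5 with hK
  have hK0 : 0 < K := by
    have : (0 : ℝ) < (((L.prod : ℕ) : ℚ) * lh).den := by exact_mod_cast Rat.den_pos _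
    positivity
  have hRj : 0 < (bj : ℝ) * ψj := hj.pos
  have h3 : K * (bj * ψj) ≤ 1 := (mul_le_mul_of_nonneg_right hk' hRj.le).trans h2
  have h4 : K * (bj * ψj) < K * (L.prod * ψh) := lt_of_le_of_lt h3 h1
  have h5 : (bj : ℝ) * ψj < L.prod * ψh := lt_of_mul_lt_mul_left h4 hK0.le
  have e : ((s * L.prod : ℕ) : ℝ) * ψh = (L.prod * ψh) * s := by push_cast; ring
  rw [e]
  exact mul_lt_mul_of_pos_right h5 hs0

/-- the kept label of a fat piece as a denominator bound at the crossing: label death at a crossing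
(`R ≤ thr p`, plain label evaluated) has `k^5 thr(p) > 1`; the kept label itself has
`k^5 R / s ≤ 1` -/
lemma kept_den {γ ψ : ℝ} {s : ℕ} {b : ℕ} {lam : ℚ}
    (h : Lab (b * γ) (b * ψ) (b * lam)) :
    (((b : ℚ) * lam).den : ℝ) ^ 5 * (((s * b : ℕ) : ℝ) * ψ) ≤ s := by
  have h1 := h.den
  have e : (((b : ℚ) * lam).den : ℝ) ^ 5 * (((s * b : ℕ) : ℝ) * ψ) =
      s * ((((b : ℚ) * lam).den : ℝ) ^ 5 * (b * ψ)) := by push_cast; ring
  rw [e]
  calc (s : ℝ) * ((((b : ℚ) * lam).den : ℝ) ^ 5 * (b * ψ)) ≤ s * 1 :=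
        mul_le_mul_of_nonneg_left h1 (Nat.cast_nonneg _)
    _ = s := mul_one _

/-- two labels of the same root target which are both statically accurate at `b` (radius `≤ 1/10`):
equal, or the product of the denominators is `≥ 1 / (2 b ψ)` -/
lemma two_static {γ ψ : ℝ} {b : ℕ} {σ τ : ℚ} (hb : 0 < b)
    (hσ : |γ - σ| ≤ ψ) (hτ : |γ - τ| ≤ ψ) (hne : σ ≠ τ) :
    1 ≤ 2 * (b * ψ) * (((b : ℚ) * σ).den * ((b : ℚ) * τ).den) := by
  have hb' : (0 : ℝ) < b := by exact_mod_cast hb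
  have hbq : (b : ℚ) ≠ 0 := by exact_mod_cast hb.ne'
  have hne' : (b : ℚ) * σ ≠ b * τ := fun h => hne (mul_left_cancel₀ hbq h)
  have h1 := rat_gap hne'
  have h2 : |(((b : ℚ) * σ : ℚ) : ℝ) - (((b : ℚ) * τ : ℚ) : ℝ)| ≤ 2 * (b * ψ) := by
    have e : (((b : ℚ) * σ : ℚ) : ℝ) - (((b : ℚ) * τ : ℚ) : ℝ) =
        b * ((γ - τ) - (γ - σ)) := by push_cast; ring
    rw [e, abs_mul, abs_of_pos hb']
    have h3 : |(γ - τ) - (γ - σ)| ≤ 2 * ψ := by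
      calc |(γ - τ) - (γ - σ)| ≤ |γ - τ| + |γ - σ| := abs_sub _ _
        _ ≤ 2 * ψ := by linarith
    calc (b : ℝ) * |(γ - τ) - (γ - σ)| ≤ b * (2 * ψ) := mul_le_mul_of_nonneg_left h3 hb'.le
      _ = 2 * (b * ψ) := by ring
  refine h1.trans (mul_le_mul_of_nonneg_right h2 ?_)
  positivity

/-- the new label of a fat item `h` whose old kept label is `τ ≠ σ`: if both are statically
accurate, the old one has `k_τ ≥ 1 / (2 R' k_σ)` at `R' = b ψ`; so with `k_σ ≤ R'^(-1/5)` one gets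
`k_τ ≥ R'^(-4/5) / 2`, in particular `k_τ > R'^(-1/5)`: the old label is not valid -/
lemma old_invalid {γ ψ : ℝ} {b : ℕ} {σ τ : ℚ} (hb : 0 < b) (hψ : 0 < ψ)
    (hR : b * ψ ≤ 1 / 10) (hσ : |γ - σ| ≤ ψ) (hτ : |γ - τ| ≤ ψ) (hne : σ ≠ τ)
    (hkσ : (((b : ℚ) * σ).den : ℝ) ^ 5 * (b * ψ) ≤ 1) :
    1 < (((b : ℚ) * τ).den : ℝ) ^ 5 * (b * ψ) := by
  by_contra hc
  push Not at hc
  have h1 := (keep_of_acc hb hψ hR hσ hkσ).2
  have h2 := (keep_of_acc hb hψ hR hτ hc).2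
  rw [h1] at h2
  exact hne (Option.some.inj h2)

end Crest.Agent.R4P.FinL21
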