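import Crest.Agent.R4P.StCh_24
import Crest.Agent.R4P.FinL_21

/-!
R4 (S0004) with powers, [B8], helper6: **state machine of a piece**, part 1: definitions, pure level
(one target `γ`, one root radius `ψ`, the list `L` of the missing ties, most recent first; the stage is
`b = L.prod`, stage radius `R = b ψ`; labels are in root coordinates).

* `own`    : the own-radius label `lab0 γ ψ b`;
* `sl`     : the sticky label = the last own-radius label (present stage or an earlier one);
* `acc`    : accuracy `b |γ - τ|^5 ≤ ψ^4` (equivalent to the accuracy condition of `Lab` at `b`);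
* `d5 b τ` : `k^5`, `k = den (b τ)`;
* `dense t b τ` : `k^5 t ≤ 1` (`t = thr p`), sparse = not dense;
* `sla`    : the sticky label if it is still accurate (asleep pieces), else `none` (real U cell);
* `gl st t` : **the game label**: the real state `st` if it is dense, else `sla`.

Transitions (pure level): `gl_own` (thin), `gl_kept` (fat), `static_cases`, `miss_cases`, `sla_cons`,
`birth_ineq`, `asleep_den`, `kept_dead`.
-/

set_option autoImplicit false
set_option linter.unusedSectionVars false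
set_option linter.unusedVariables false

namespace Crest.Agent.R4P.StM6

open Crest.Agent.R4.LF363 Crest.Agent.R4.W363
open Crest.Agent.R4P.FinL21 (labR_iff den_le den_dvd)

variable {γ ψ t t' : ℝ} {b s : ℕ} {σ τ ρ κ : ℚ} {L : List ℕ} {st st' : Option ℚ}

/-! ### definitions -/

/-- own-radius label of the stage `L` -/
noncomputable abbrev own (γ ψ : ℝ) (L : List ℕ) : Option ℚ := lab0 γ ψ L.prod

/-- **sticky label**: the last own-radius label -/
noncomputable def sl (γ ψ : ℝ) : List ℕ → Option ℚ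
  | [] => lab0 γ ψ 1
  | s :: L => (lab0 γ ψ (s * L.prod)).or (sl γ ψ L)

/-- accuracy of `τ` at the missing product `b` -/
def acc (γ ψ : ℝ) (b : ℕ) (τ : ℚ) : Prop := b * |γ - τ| ^ 5 ≤ ψ ^ 4

/-- fifth power of the denominator of `τ` at the missing product `b` -/
noncomputable def d5 (b : ℕ) (τ : ℚ) : ℝ := (((b : ℚ) * τ).den : ℝ) ^ 5

/-- dense: `k^5 t ≤ 1` -/
def dense (t : ℝ) (b : ℕ) (τ : ℚ) : Prop := d5 b τ * t ≤ 1

open Classical in
/-- **label of the sparse regime**: the sticky label, if it is still accurate -/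
noncomputable def sla (γ ψ : ℝ) (L : List ℕ) : Option ℚ :=
  if ∃ τ : ℚ, sl γ ψ L = some τ ∧ acc γ ψ L.prod τ then sl γ ψ L else none

open Classical in
/-- **game label**: the real state `st` if it is dense, else the sparse label; `t = thr p` -/
noncomputable def gl (st : Option ℚ) (t γ ψ : ℝ) (L : List ℕ) : Option ℚ :=
  if ∃ κ : ℚ, st = some κ ∧ dense t L.prod κ then st else sla γ ψ L

/-! ### first properties -/

lemma d5_pos (b : ℕ) (τ : ℚ) : 0 < d5 b τ := by
  unfold d5
  have : (0 : ℝ) < ((b : ℚ) * τ).den := by exact_mod_cast Rat.den_pos _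
  positivity

lemma one_le_d5 (b : ℕ) (τ : ℚ) : 1 ≤ d5 b τ := by
  unfold d5
  have : (1 : ℝ) ≤ ((b : ℚ) * τ).den := by exact_mod_cast Rat.den_pos _
  exact one_le_pow₀ this

/-- the denominators only shrink when the missing product grows -/
lemma d5_anti (b V : ℕ) (τ : ℚ) : d5 (V * b) τ ≤ d5 b τ := by
  unfold d5
  refine pow_le_pow_left₀ (by positivity) ?_ 5
  exact_mod_cast den_le b V τ

/-- accuracy is inherited by the earlier stages -/
lemma acc_anti {V : ℕ} (hV : 0 < V) (h : acc γ ψ (V * b) τ) : acc γ ψ b τ := by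
  unfold acc at h ⊢
  refine le_trans ?_ h
  refine mul_le_mul_of_nonneg_right ?_ (by positivity)
  exact_mod_cast Nat.le_mul_of_pos_left b hV

lemma dense_mul {V : ℕ} (ht : 0 ≤ t) (h : dense t b τ) : dense t (V * b) τ :=
  le_trans (mul_le_mul_of_nonneg_right (d5_anti b V τ) ht) h

lemma dense_anti (h : dense t' b τ) (ht : t ≤ t') : dense t b τ :=
  le_trans (mul_le_mul_of_nonneg_left ht (d5_pos b τ).le) h

/-- the facts of a label -/
lemma own_spec (hb : 0 < b) (h : lab0 γ ψ b = some τ) :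
    0 < ψ ∧ b * ψ ≤ 1 / 10 ∧ d5 b τ * (b * ψ) ≤ 1 ∧ acc γ ψ b τ :=
  (labR_iff hb).1 (lab0_spec hb h)

/-- a label from its facts -/
lemma own_of (hb : 0 < b) (h0 : 0 < ψ) (h1 : b * ψ ≤ 1 / 10) (h2 : d5 b τ * (b * ψ) ≤ 1)
    (h3 : acc γ ψ b τ) : lab0 γ ψ b = some τ :=
  StCh24.lab0_of_Lab hb ((labR_iff hb).2 ⟨h0, h1, h2, h3⟩)

/-- not the own label: dead by the denominator or by accuracy -/
lemma not_own (hb : 0 < b) (h0 : 0 < ψ) (h1 : b * ψ ≤ 1 / 10) (h : lab0 γ ψ b ≠ some τ) :
    1 < d5 b τ * (b * ψ) ∨ ¬ acc γ ψ b τ := by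
  by_contra hc
  push Not at hc
  exact h (own_of hb h0 h1 hc.1 hc.2)

lemma sl_cons (s : ℕ) (L : List ℕ) :
    sl γ ψ (s :: L) = (lab0 γ ψ (s * L.prod)).or (sl γ ψ L) := rfl

lemma sl_of_own (h : own γ ψ L = some τ) : sl γ ψ L = some τ := by
  cases L with
  | nil => simpa [own, sl] using h
  | cons s L =>
    have e : lab0 γ ψ (s * L.prod) = some τ := by simpa [own, List.prod_cons] using h
    rw [sl_cons, e, Option.some_or]

lemma sl_of_none (h : own γ ψ (s :: L) = none) : sl γ ψ (s :: L) = sl γ ψ L := by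
  have e : lab0 γ ψ (s * L.prod) = none := by simpa [own, List.prod_cons] using h
  rw [sl_cons, e, Option.none_or]

/-- **the sticky label is the own-radius label of some stage, and there is no own-radius label at
the later stages** -/
theorem sl_spec : ∀ {L : List ℕ}, sl γ ψ L = some τ →
    ∃ L₁ L₂ : List ℕ, L = L₁ ++ L₂ ∧ own γ ψ L₂ = some τ ∧
      ∀ M₁ M₂ : List ℕ, L₁ = M₁ ++ M₂ → M₂ ≠ [] → own γ ψ (M₂ ++ L₂) = none
  | [], h => ⟨[], [], rfl, by simpa [own, sl] using h, fun M₁ M₂ e h2 => by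
      have := (List.append_eq_nil_iff.1 e.symm).2
      exact absurd this h2⟩
  | s :: L, h => by
    cases h1 : own γ ψ (s :: L) with
    | some τ' =>
      have h2 := sl_of_own h1
      rw [h] at h2
      have e : τ = τ' := Option.some.inj h2
      refine ⟨[], s :: L, rfl, by rw [h1, e], fun M₁ M₂ e h2 => ?_⟩
      have := (List.append_eq_nil_iff.1 e.symm).2
      exact absurd this h2
    | none =>
      rw [sl_of_none h1] at h
      obtain ⟨L₁, L₂, e1, e2, e3⟩ := sl_spec h
      refine ⟨s :: L₁, L₂, by rw [e1]; rfl, e2, fun M₁ M₂ e h2 => ?_⟩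
      cases M₁ with
      | nil =>
        have e4 : M₂ = s :: L₁ := by simpa using e.symm
        rw [e4, List.cons_append, ← e1]
        exact h1
      | cons x M₁ =>
        have e4 : L₁ = M₁ ++ M₂ := by
          have := congrArg List.tail e
          simpa using this
        exact e3 M₁ M₂ e4 h2

lemma sla_some : sla γ ψ L = some τ ↔ sl γ ψ L = some τ ∧ acc γ ψ L.prod τ := by
  unfold sla
  split_ifs with h
  · obtain ⟨σ, h1, h2⟩ := h
    constructor
    · intro h3
      refine ⟨h3, ?_⟩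
      rw [h1] at h3
      rw [← Option.some.inj h3]; exact h2
    · exact fun h3 => h3.1
  · constructor
    · intro h3; exact absurd h3 (by simp)
    · intro h3; exact absurd ⟨τ, h3⟩ h

lemma sla_none : sla γ ψ L = none ↔ ∀ τ : ℚ, sl γ ψ L = some τ → ¬ acc γ ψ L.prod τ := by
  rw [Option.eq_none_iff_forall_ne_some]
  constructor
  · intro h τ h1 h2
    exact h τ (sla_some.2 ⟨h1, h2⟩)
  · intro h τ h1
    obtain ⟨h2, h3⟩ := sla_some.1 h1
    exact h τ h2 h3

lemma prod_pos {L : List ℕ} (hL : ∀ s ∈ L, 0 < s) : 0 < L.prod := List.prod_pos hL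

/-- the own-radius label is the sparse label -/
lemma sla_of_own (hL : 0 < L.prod) (h : own γ ψ L = some τ) : sla γ ψ L = some τ :=
  sla_some.2 ⟨sl_of_own h, (own_spec hL h).2.2.2⟩

lemma gl_dense (h : st = some κ) (hd : dense t L.prod κ) : gl st t γ ψ L = some κ := by
  unfold gl
  rw [if_pos ⟨κ, h, hd⟩, h]

lemma gl_sparse (h : ∀ κ, st = some κ → ¬ dense t L.prod κ) : gl st t γ ψ L = sla γ ψ L := by
  unfold gl
  rw [if_neg]
  rintro ⟨κ, h1, h2⟩
  exact h κ h1 h2

lemma gl_none : gl none t γ ψ L = sla γ ψ L := gl_sparse fun κ h => absurd h (by simp)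

/-- **two cases** -/
lemma gl_cases (st : Option ℚ) (t γ ψ : ℝ) (L : List ℕ) :
    (∃ κ, st = some κ ∧ dense t L.prod κ ∧ gl st t γ ψ L = some κ) ∨
      ((∀ κ, st = some κ → ¬ dense t L.prod κ) ∧ gl st t γ ψ L = sla γ ψ L) := by
  by_cases h : ∃ κ : ℚ, st = some κ ∧ dense t L.prod κ
  · obtain ⟨κ, h1, h2⟩ := h
    exact Or.inl ⟨κ, h1, h2, gl_dense h1 h2⟩
  · push Not at h
    exact Or.inr ⟨h, gl_sparse h⟩

/-- **thin** (or births seen): if the real state is the own-radius label, the game label is `sla` -/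
theorem gl_own (hL : 0 < L.prod) (h : st = own γ ψ L) : gl st t γ ψ L = sla γ ψ L := by
  rcases gl_cases st t γ ψ L with ⟨κ, h1, -, h3⟩ | ⟨-, h3⟩
  · rw [h3]
    rw [h1] at h
    exact (sla_of_own hL h.symm).symm
  · exact h3

/-- a real own-radius label is the game label -/
lemma gl_own_some (hL : 0 < L.prod) (h : st = own γ ψ L) (h1 : st = some κ) :
    gl st t γ ψ L = some κ := by
  rw [gl_own hL h]
  exact sla_of_own hL (by rw [← h, h1])

/-- the game label is the real state, or the real state is sparse or `none` -/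
lemma gl_ne (h : gl st t γ ψ L ≠ st) :
    (∀ κ, st = some κ → ¬ dense t L.prod κ) ∧ gl st t γ ψ L = sla γ ψ L := by
  rcases gl_cases st t γ ψ L with ⟨κ, h1, -, h3⟩ | h3
  · exact absurd (by rw [h3, h1]) h
  · exact h3

/-- **a game label is accurate or a dense real label** -/
lemma gl_some (h : gl st t γ ψ L = some τ) :
    (st = some τ ∧ dense t L.prod τ) ∨ (sl γ ψ L = some τ ∧ acc γ ψ L.prod τ) := by
  rcases gl_cases st t γ ψ L with ⟨κ, h1, h2, h3⟩ | ⟨-, h3⟩
  · left
    rw [h3] at h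
    rw [← Option.some.inj h]
    exact ⟨h1, h2⟩
  · right
    rw [h3] at h
    exact sla_some.1 h

/-! ### fat pieces -/

/-- **a sparse kept label is dead**: `k^5 R > 1`, so it is not the own-radius label -/
theorem kept_dead (hL : 0 < L.prod) (hfat : t < L.prod * ψ) (h : ¬ dense t L.prod κ) :
    1 < d5 L.prod κ * (L.prod * ψ) ∧ own γ ψ L ≠ some κ := by
  unfold dense at h
  push Not at h
  have h1 : 1 < d5 L.prod κ * (L.prod * ψ) :=
    h.trans_le (mul_le_mul_of_nonneg_left hfat.le (d5_pos _ _).le)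
  exact ⟨h1, fun h2 => absurd (own_spec hL h2).2.2.1 (not_le.2 h1)⟩

/-- an asleep piece (no own-radius label) with an accurate label: the denominator is dead -/
theorem asleep_den (hL : 0 < L.prod) (h0 : 0 < ψ) (h1 : L.prod * ψ ≤ 1 / 10)
    (h : own γ ψ L ≠ some τ) (ha : acc γ ψ L.prod τ) : 1 < d5 L.prod τ * (L.prod * ψ) := by
  rcases not_own hL h0 h1 h with h2 | h2
  · exact h2
  · exact absurd ha h2

/-! ### change of the sticky label at a missing tie -/

/-- **the sparse label across a missing tie `s`**: newborn own-radius label, or nothing changes, or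
the death by accuracy -/
theorem sla_cons (hs : 0 < s) (hL : 0 < L.prod) :
    (∃ ρ, own γ ψ (s :: L) = some ρ ∧ sla γ ψ (s :: L) = some ρ) ∨
      (own γ ψ (s :: L) = none ∧ sla γ ψ (s :: L) = sla γ ψ L) ∨
      (own γ ψ (s :: L) = none ∧ sla γ ψ (s :: L) = none ∧
        ∃ τ, sla γ ψ L = some τ ∧ ¬ acc γ ψ (s * L.prod) τ) := by
  have hsL : 0 < (s :: L).prod := by rw [List.prod_cons]; exact Nat.mul_pos hs hL
  cases h : own γ ψ (s :: L) with
  | some ρ => exact Or.inl ⟨ρ, rfl, sla_of_own hsL h⟩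
  | none =>
    right
    have e := sl_of_none h
    cases h1 : sla γ ψ L with
    | none =>
      left
      refine ⟨rfl, sla_none.2 fun τ h2 h3 => ?_⟩
      rw [e] at h2
      rw [List.prod_cons] at h3
      exact sla_none.1 h1 τ h2 (acc_anti hs h3)
    | some τ =>
      obtain ⟨h2, h3⟩ := sla_some.1 h1
      by_cases h4 : acc γ ψ (s * L.prod) τ
      · left
        refine ⟨rfl, sla_some.2 ⟨by rw [e, h2], ?_⟩⟩
        rw [List.prod_cons]; exact h4
      · right
        refine ⟨rfl, sla_none.2 fun τ' h5 h6 => ?_, τ, rfl, h4⟩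
        rw [e, h2] at h5
        rw [← Option.some.inj h5, List.prod_cons] at h6
        exact h4 h6

/-! ### inequalities of a birth -/

/-- two different rationals which are both accurate at `b`: `1 ≤ 32 R^4 (k k')^5` -/
theorem two_acc (hb : 0 < b) (hne : σ ≠ τ) (h1 : acc γ ψ b σ) (h2 : acc γ ψ b τ) :
    1 ≤ 32 * (b * ψ) ^ 4 * (d5 b σ * d5 b τ) := by
  have hb' : (0 : ℝ) < b := by exact_mod_cast hb
  have hbq : (b : ℚ) ≠ 0 := by exact_mod_cast hb.ne'
  have hne' : (b : ℚ) * σ ≠ b * τ := fun h => hne (mul_left_cancel₀ hbq h)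
  have g := rat_gap hne'
  have key : ∀ υ : ℚ, acc γ ψ b υ → (b * |γ - υ|) ^ 5 ≤ (b * ψ) ^ 4 := by
    intro υ h
    have e : ((b : ℝ) * |γ - υ|) ^ 5 = b ^ 4 * (b * |γ - υ| ^ 5) := by ring
    have e2 : ((b : ℝ) * ψ) ^ 4 = b ^ 4 * ψ ^ 4 := by ring
    rw [e, e2]
    exact mul_le_mul_of_nonneg_left h (by positivity)
  set x := (b : ℝ) * |γ - σ| with hx
  set y := (b : ℝ) * |γ - τ| with hy
  have hx0 : 0 ≤ x := by positivity
  have hy0 : 0 ≤ y := by positivity
  have h3 : |(((b : ℚ) * σ : ℚ) : ℝ) - (((b : ℚ) * τ : ℚ) : ℝ)| ≤ x + y := by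
    have e : (((b : ℚ) * σ : ℚ) : ℝ) - (((b : ℚ) * τ : ℚ) : ℝ) =
        b * (γ - τ) - b * (γ - σ) := by push_cast; ring
    rw [e]
    refine (abs_sub _ _).trans ?_
    rw [abs_mul, abs_mul, abs_of_pos hb']
    linarith
  have h4 : x + y ≤ 2 * max x y := by
    have := le_max_left x y
    have := le_max_right x y
    linarith
  have h5 : (max x y) ^ 5 ≤ (b * ψ) ^ 4 := by
    rcases max_choice x y with h | h
    · rw [h]; exact key σ h1
    · rw [h]; exact key τ h2
  have hk : (0 : ℝ) < ((b : ℚ) * σ).den * ((b : ℚ) * τ).den := by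
    have a1 : (0 : ℝ) < ((b : ℚ) * σ).den := by exact_mod_cast Rat.den_pos _
    have a2 : (0 : ℝ) < ((b : ℚ) * τ).den := by exact_mod_cast Rat.den_pos _
    positivity
  have h6 : 1 ≤ (2 * max x y) * (((b : ℚ) * σ).den * ((b : ℚ) * τ).den) :=
    g.trans (mul_le_mul_of_nonneg_right (h3.trans h4) hk.le)
  have h7 : (1 : ℝ) ≤ ((2 * max x y) * (((b : ℚ) * σ).den * ((b : ℚ) * τ).den)) ^ 5 :=
    one_le_pow₀ h6
  calc (1 : ℝ) ≤ ((2 * max x y) * (((b : ℚ) * σ).den * ((b : ℚ) * τ).den)) ^ 5 := h7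
    _ = 32 * (max x y) ^ 5 * (d5 b σ * d5 b τ) := by unfold d5; ring
    _ ≤ 32 * (b * ψ) ^ 4 * (d5 b σ * d5 b τ) := by
      refine mul_le_mul_of_nonneg_right ?_ (mul_pos (d5_pos _ _) (d5_pos _ _)).le
      linarith

/-- **a birth**: the own-radius label is `ρ`, the old label `τ ≠ ρ` is still accurate: its
denominator is large, `1 ≤ 32 R^3 k_τ^5`, in particular it is dead (`k_τ^5 R > 1`) -/
theorem birth_ineq (hb : 0 < b) (h : lab0 γ ψ b = some ρ) (hne : τ ≠ ρ) (ha : acc γ ψ b τ) :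
    1 ≤ 32 * (b * ψ) ^ 4 * (d5 b ρ * d5 b τ) ∧ 1 ≤ 32 * (b * ψ) ^ 3 * d5 b τ ∧
      1 < d5 b τ * (b * ψ) := by
  obtain ⟨h0, h1, h2, h3⟩ := own_spec hb h
  have hb' : (0 : ℝ) < b := by exact_mod_cast hb
  have hR : 0 < (b : ℝ) * ψ := by positivity
  have k1 := two_acc hb hne.symm h3 ha
  have hτ := d5_pos b τ
  have k2 : 1 ≤ 32 * (b * ψ) ^ 3 * d5 b τ := by
    calc 1 ≤ 32 * (b * ψ) ^ 4 * (d5 b ρ * d5 b τ) := k1
      _ = 32 * (b * ψ) ^ 3 * d5 b τ * (d5 b ρ * (b * ψ)) := by ring
      _ ≤ 32 * (b * ψ) ^ 3 * d5 b τ * 1 := mul_le_mul_of_nonneg_left h2 (by positivity)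
      _ = _ := mul_one _
  refine ⟨k1, k2, ?_⟩
  by_contra hc
  push Not at hc
  have k3 : 32 * (b * ψ) ^ 3 * d5 b τ ≤ 32 * (b * ψ) ^ 2 := by
    calc 32 * (b * ψ) ^ 3 * d5 b τ = 32 * (b * ψ) ^ 2 * (d5 b τ * (b * ψ)) := by ring
      _ ≤ 32 * (b * ψ) ^ 2 * 1 := mul_le_mul_of_nonneg_left hc (by positivity)
      _ = _ := mul_one _
  have k4 : ((b : ℝ) * ψ) ^ 2 ≤ (1 / 10) ^ 2 := pow_le_pow_left₀ hR.le h1 2
  norm_num at k4
  linarith

/-! ### transitions of the game label, pure level -/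

/-- **static column** (the list `L` does not change): the real states are the own-radius label or
kept; the game label changes only if the state `κ` above is kept, dense and not the own-radius label,
and then it becomes `sla` (own-radius label, asleep in `κ`, or `none` = death by accuracy) -/
theorem static_cases (hL : 0 < L.prod) (hst : st' = st ∨ st' = own γ ψ L)
    (hne : gl st' t' γ ψ L ≠ gl st t γ ψ L) (ht : t ≤ t') :
    ∃ κ, st = some κ ∧ dense t L.prod κ ∧ own γ ψ L ≠ some κ ∧ gl st t γ ψ L = some κ ∧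
      gl st' t' γ ψ L = sla γ ψ L ∧ (st' = own γ ψ L ∨ ¬ dense t' L.prod κ) := by
  rcases gl_cases st t γ ψ L with ⟨κ, h1, h2, h3⟩ | ⟨h2, h3⟩
  · rcases hst with h | h
    · subst h
      rcases gl_cases st' t' γ ψ L with ⟨κ', k1, k2, k3⟩ | ⟨k2, k3⟩
      · exfalso
        rw [h1] at k1
        rw [Option.some.inj k1] at h3
        exact hne (by rw [k3, h3])
      · refine ⟨κ, h1, h2, fun h4 => hne ?_, h3, k3, Or.inr (k2 κ h1)⟩
        rw [k3, h3]
        exact sla_of_own hL h4
    · have k3 : gl st' t' γ ψ L = sla γ ψ L := gl_own hL h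
      refine ⟨κ, h1, h2, fun h4 => hne ?_, h3, k3, Or.inl h⟩
      rw [k3, h3]
      exact sla_of_own hL h4
  · exfalso
    rcases hst with h | h
    · subst h
      have k : gl st' t' γ ψ L = sla γ ψ L :=
        gl_sparse fun κ h1 h4 => h2 κ h1 (dense_anti h4 ht)
      exact hne (by rw [k, h3])
    · exact hne (by rw [gl_own hL h, h3])

/-- **own missing tie `s`**: above it the real state is the own-radius label of `L` (thin); below it
is the own-radius label of `s :: L`, or the kept label, or (no label to keep) `none` -/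
theorem miss_cases (hs : 0 < s) (hL : 0 < L.prod) (hst : st = own γ ψ L)
    (hst' : st' = own γ ψ (s :: L) ∨ st' = st ∨ st' = none) :
    (gl st' t' γ ψ (s :: L) = gl st t γ ψ L) ∨
      (∃ ρ, own γ ψ (s :: L) = some ρ ∧ gl st' t' γ ψ (s :: L) = some ρ) ∨
      (own γ ψ (s :: L) = none ∧ gl st' t' γ ψ (s :: L) = none ∧
        ∃ τ, gl st t γ ψ L = some τ ∧ ¬ acc γ ψ (s * L.prod) τ) := by
  have hsL : 0 < (s :: L).prod := by rw [List.prod_cons]; exact Nat.mul_pos hs hL
  have e0 : gl st t γ ψ L = sla γ ψ L := gl_own hL hst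
  have key : gl st' t' γ ψ (s :: L) = sla γ ψ (s :: L) ∨
      gl st' t' γ ψ (s :: L) = gl st t γ ψ L := by
    rcases gl_cases st' t' γ ψ (s :: L) with ⟨κ, k1, -, k3⟩ | ⟨-, k3⟩
    · rcases hst' with h | h | h
      · left
        exact gl_own hsL h
      · right
        rw [h, hst] at k1
        rw [k3, e0]
        exact (sla_of_own hL k1).symm
      · rw [h] at k1
        exact absurd k1 (by simp)
    · exact Or.inl k3
  rcases key with key | key
  · rw [key, e0]
    rcases sla_cons (γ := γ) (ψ := ψ) hs hL with ⟨ρ, h1, h2⟩ | ⟨h1, h2⟩ | ⟨h1, h2, h3⟩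
    · exact Or.inr (Or.inl ⟨ρ, h1, h2⟩)
    · exact Or.inl h2
    · exact Or.inr (Or.inr ⟨h1, h2, h3⟩)
  · exact Or.inl key

end Crest.Agent.R4P.StM6
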