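import Crest.Agent.R4P.SxT_6
import Crest.Agent.R4P.StM_6
import Crest.Agent.R4P.ParT_21

/-!
R4 (S0004), powers, helper30, PLAN v1 leaf B9: **thin births of labels**.

Stages of an item `q`: `b` = a missing product (product of the missing ties above a column), radius
`b r`, label `lab0 γ r b` (static rational). Numbers of the final theorem, items of the further prune
`SyB` (`PruneBir12.NoBir`), exponent `A = 5 (5 C1 + 4)`.

* `lab0_eq_of_small` : two labels `κ` of `b` and `σ` of `Q b` are equal if `Q^2 (b r) < 1/6`.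
* `lab0_up`          : **(B1)** no birth in the range `(log s)^A ≤ 1/(s b r) ≤ exp (s^(1/4))` for an item
  without births (`NoBir`): a label of `s b` is a label of `b`.
* `SupT`             : super-tiny: `s b r ≤ exp (-s^(1/4))` (`s` = last missing tie).
* `Qb_le`, `supT_absorb` : **(B2)** the product of the missing ties below `s` is
  `≤ exp ((log s)^(C+2))`; super-tiny is absorbing: below, the radius is `≤ exp (-s^(1/5))`.
* `supT_unique`      : **(B4)** in the super-tiny phase there is at most one label.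
* `sl_cons_none`, `sl_change`, `sla_new` : the sticky labels `StM6.sl`, `StM6.sla` (a new label is a birth).
* `thin_birth`       : **(B5)** there is ONE rational `σ` such that every birth (label of `s b` that is not
  the label of `b`) with radius `≤ (log s)^(-A)` is a birth of `σ`, super-tiny.
* `sl_change_unique` : the sticky label changes at most once at the missing ties `s` with radius
  `≤ (log s)^(-A)`.
* `birth_dich`       : every birth is fat (radius `> (log s)^(-A)`) or super-tiny.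
* `BF`, `ev_facts`   : the facts for the items `S'` of the contexts in `SyB`, eventually in `p0`;
  `BF.up`, `BF.up_fat`, `BF.dich`, `BF.fat_dense`, `BF.sl_unique`, `BF.sla_unique`,
  `BF.newG_unique` (**the line of the thin births, `J = 1`**).
-/

set_option autoImplicit false
set_option linter.unusedSectionVars false
set_option linter.unusedVariables false

namespace Crest.Agent.R4P.Bir30

open Crest.Agent.R4.W363 (lab0 lab0_eq_some lab0_spec lab0_none lst lst_prod mem_lst)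
open Crest.Agent.R4.LF363 (Lab rat_gap)
open Crest.Agent.R4P.PruneBir12 (Bir NoBir)
open Crest.Agent.R4P.PruneAcc17 (Bab)
open Crest.Agent.R4P.Cnt588
open Crest.Agent.R4P.StM6 (sl sla own gl acc)

/-! ### arithmetic of two labels -/

lemma den_mul_le (Q : ℕ) (x : ℚ) : ((Q * x : ℚ).den : ℕ) ≤ x.den := by
  have h := Rat.mul_den_dvd (Q : ℚ) x
  rw [Rat.den_natCast, one_mul] at h
  exact Nat.le_of_dvd x.den_pos h

/-- **(B3)** labels of two stages whose quotient is small against the radius are equal -/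
theorem lab0_eq_of_small {γ r : ℝ} {b Q : ℕ} {κ σ : ℚ} (hb : 0 < b) (hQ : 0 < Q)
    (h : lab0 γ r b = some κ) (h' : lab0 γ r (Q * b) = some σ)
    (hs : (Q : ℝ) ^ 2 * (b * r) < 1 / 6) : κ = σ := by
  have hL := lab0_spec hb h
  have hQb : 0 < Q * b := Nat.mul_pos hQ hb
  have hL' := lab0_spec hQb h'
  by_contra hne
  have hQb0 : (((Q * b : ℕ) : ℚ)) ≠ 0 := by exact_mod_cast hQb.ne'
  have hne' : ((Q * b : ℕ) : ℚ) * κ ≠ ((Q * b : ℕ) : ℚ) * σ := fun e => hne (mul_left_cancel₀ hQb0 e)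
  have hgap := rat_gap hne'
  set R : ℝ := b * r with hR
  have hR0 : 0 < R := hL.pos
  have hQ0 : (0 : ℝ) < Q := by exact_mod_cast hQ
  have hQ1 : (1 : ℝ) ≤ Q := by exact_mod_cast hQ
  set x : ℝ := |(b : ℝ) * γ - ((b * κ : ℚ) : ℝ)| with hx
  set y : ℝ := |((Q * b : ℕ) : ℝ) * γ - ((((Q * b : ℕ) : ℚ) * σ : ℚ) : ℝ)| with hy
  set k₁ : ℝ := (((b * κ : ℚ)).den : ℝ) with hk₁
  set k₂ : ℝ := (((((Q * b : ℕ) : ℚ) * σ : ℚ)).den : ℝ) with hk₂
  have hk10 : 0 < k₁ := by rw [hk₁]; exact_mod_cast (b * κ : ℚ).den_pos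
  have hk20 : 0 < k₂ := by rw [hk₂]; exact_mod_cast (((Q * b : ℕ) : ℚ) * σ : ℚ).den_pos
  have hx0 : 0 ≤ x := abs_nonneg _
  have hy0 : 0 ≤ y := abs_nonneg _
  have eR : (((Q * b : ℕ) : ℝ)) * r = Q * R := by rw [hR]; push_cast; ring
  have d1 : k₁ ^ 5 * R ≤ 1 := hL.den
  have d2 : k₂ ^ 5 * (Q * R) ≤ 1 := by have := hL'.den; rwa [eR] at this
  have n1 : x ^ 5 ≤ R ^ 4 := hL.near
  have n2 : y ^ 5 ≤ (Q * R) ^ 4 := by have := hL'.near; rwa [eR] at this
  -- the first denominator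
  have hdle : ((((Q * b : ℕ) : ℚ) * κ : ℚ).den : ℝ) ≤ k₁ := by
    have e : (((Q * b : ℕ) : ℚ) * κ : ℚ) = (Q : ℚ) * (b * κ) := by push_cast; ring
    rw [e, hk₁]
    exact_mod_cast den_mul_le Q (b * κ)
  -- the distance
  have hdist : |((((Q * b : ℕ) : ℚ) * κ : ℚ) : ℝ) - ((((Q * b : ℕ) : ℚ) * σ : ℚ) : ℝ)| ≤
      y + Q * x := by
    have e1 : ((((Q * b : ℕ) : ℚ) * κ : ℚ) : ℝ) - ((((Q * b : ℕ) : ℚ) * σ : ℚ) : ℝ) =
        (((Q * b : ℕ) : ℝ) * γ - ((((Q * b : ℕ) : ℚ) * σ : ℚ) : ℝ)) -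
          Q * ((b : ℝ) * γ - ((b * κ : ℚ) : ℝ)) := by
      push_cast; ring
    rw [e1]
    refine (abs_sub _ _).trans ?_
    rw [abs_mul, abs_of_pos hQ0]
  have hkk : 1 ≤ (y + Q * x) * (k₁ * k₂) := by
    refine hgap.trans ?_
    refine mul_le_mul hdist (mul_le_mul_of_nonneg_right hdle hk20.le) (by positivity) (by positivity)
  -- the two products
  have hsm : ((Q : ℝ) ^ 2 * R) ^ 2 < 1 / 32 := by
    have h0 : 0 ≤ (Q : ℝ) ^ 2 * R := by positivity
    nlinarith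
  have half : ∀ z : ℝ, 0 ≤ z → z ^ 5 < 1 / 32 → z < 1 / 2 := by
    intro z hz h5
    by_contra hc
    push Not at hc
    have : (1 / 2 : ℝ) ^ 5 ≤ z ^ 5 := pow_le_pow_left₀ (by norm_num) hc 5
    norm_num at this
    linarith
  have hkk5 : (k₁ * k₂) ^ 5 * (R * (Q * R)) ≤ 1 := by
    calc (k₁ * k₂) ^ 5 * (R * (Q * R)) = (k₁ ^ 5 * R) * (k₂ ^ 5 * (Q * R)) := by ring
      _ ≤ 1 * 1 := mul_le_mul d1 d2 (by positivity) zero_le_one
      _ = 1 := one_mul 1
  have hQR : 0 < R * (Q * R) := by positivity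
  have p1 : (Q * x * (k₁ * k₂)) ^ 5 < 1 / 32 := by
    refine lt_of_le_of_lt ?_ hsm
    have e : (Q * x * (k₁ * k₂)) ^ 5 * (R * (Q * R)) =
        ((Q : ℝ) ^ 5 * x ^ 5) * ((k₁ * k₂) ^ 5 * (R * (Q * R))) := by ring
    have h1 : (Q * x * (k₁ * k₂)) ^ 5 * (R * (Q * R)) ≤ ((Q : ℝ) ^ 5 * R ^ 4) * 1 := by
      rw [e]
      exact mul_le_mul (mul_le_mul_of_nonneg_left n1 (by positivity)) hkk5 (by positivity)
        (by positivity)
    have h2 : ((Q : ℝ) ^ 5 * R ^ 4) * 1 = ((Q : ℝ) ^ 2 * R) ^ 2 * (R * (Q * R)) := by ring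
    rw [h2] at h1
    exact le_of_mul_le_mul_right h1 hQR
  have p2 : (y * (k₁ * k₂)) ^ 5 < 1 / 32 := by
    refine lt_of_le_of_lt ?_ hsm
    have e : (y * (k₁ * k₂)) ^ 5 * (R * (Q * R)) =
        (y ^ 5) * ((k₁ * k₂) ^ 5 * (R * (Q * R))) := by ring
    have h1 : (y * (k₁ * k₂)) ^ 5 * (R * (Q * R)) ≤ ((Q * R) ^ 4) * 1 := by
      rw [e]
      exact mul_le_mul n2 hkk5 (by positivity) (by positivity)
    have h2 : ((Q * R) ^ 4) * 1 ≤ ((Q : ℝ) ^ 2 * R) ^ 2 * (R * (Q * R)) := by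
      have e2 : ((Q : ℝ) ^ 2 * R) ^ 2 * (R * (Q * R)) = (Q : ℝ) ^ 5 * R ^ 4 := by ring
      have e3 : ((Q * R) ^ 4) * 1 = (Q : ℝ) ^ 4 * R ^ 4 := by ring
      rw [e2, e3]
      exact mul_le_mul_of_nonneg_right (pow_le_pow_right₀ hQ1 (by norm_num)) (by positivity)
    exact le_of_mul_le_mul_right (h1.trans h2) hQR
  have q1 := half _ (by positivity) p1
  have q2 := half _ (by positivity) p2
  have : (y + Q * x) * (k₁ * k₂) < 1 := by
    have e : (y + Q * x) * (k₁ * k₂) = y * (k₁ * k₂) + Q * x * (k₁ * k₂) := by ring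
    rw [e]; linarith
  linarith

/-- **(B1)** in the range of the prune of the births, a label of `s b` is a label of `b` -/
theorem lab0_up {γ r A : ℝ} {t : IT} {q s : ℕ} (hN : NoBir γ A t q)
    (hs : s ∈ t.mt q ∨ s ∈ t.uq q) (hs0 : 0 < s) (hb : 0 < Bab t q s) {σ : ℚ}
    (h1 : Real.log s ^ A * (s * (Bab t q s * r)) ≤ 1)
    (h2 : Real.exp (-((s : ℝ) ^ (1 / 4 : ℝ))) ≤ s * (Bab t q s * r))
    (h : lab0 γ r (s * Bab t q s) = some σ) : lab0 γ r (Bab t q s) = some σ := by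
  set b := Bab t q s with hbd
  have hsb : 0 < s * b := Nat.mul_pos hs0 hb
  have hL := lab0_spec hsb h
  by_contra hne
  have hd := StCh24.death_size hs0 hb h hne
  set R : ℝ := s * (b * r) with hR
  have eR : (((s * b : ℕ) : ℝ)) * r = R := by rw [hR]; push_cast; ring
  have hR0 : 0 < R := by have := hL.pos; rwa [eR] at this
  have hR1 : R ≤ 1 / 10 := by have := hL.le; rwa [eR] at this
  set ρ : ℚ := ((s * b : ℕ) : ℚ) * σ with hρ
  have hk0 : 0 < ρ.den := ρ.den_pos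
  have hkR : (0 : ℝ) < ρ.den := by exact_mod_cast hk0
  have d2 : (ρ.den : ℝ) ^ 5 * R ≤ 1 := by have := hL.den; rwa [eR] at this
  have n2 : |((s * b : ℕ) : ℝ) * γ - (ρ : ℝ)| ^ 5 ≤ R ^ 4 := by have := hL.near; rwa [eR] at this
  set T : ℝ := 1 / R with hT
  have hT0 : 0 < T := by positivity
  have hT1 : 1 ≤ T := by rw [hT, le_div_iff₀ hR0]; linarith
  -- `s` divides the numerator
  have hdiv : (s : ℤ) ∣ ρ.num := by
    by_contra hnd
    refine hN s hs ⟨T, ?_, ?_, ρ.den, hk0, ?_, ρ.num, hnd, ?_⟩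
    · rw [hT, le_div_iff₀ hR0]; exact h1
    · rw [hT, one_div, inv_le_comm₀ hR0 (Real.exp_pos _), ← Real.exp_neg]; exact h2
    · -- the denominator
      have h5 : (ρ.den : ℝ) ^ 5 ≤ T := by rw [hT, le_div_iff₀ hR0]; exact d2
      have h6 : (ρ.den : ℝ) ≤ T ^ (1 / 5 : ℝ) := by
        have e : (ρ.den : ℝ) = ((ρ.den : ℝ) ^ 5) ^ (1 / 5 : ℝ) := by
          rw [← Real.rpow_natCast, ← Real.rpow_mul hkR.le]
          norm_num
        rw [e]
        exact Real.rpow_le_rpow (by positivity) h5 (by norm_num)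
      exact h6.trans (Real.rpow_le_rpow_of_exponent_le hT1 (by norm_num))
    · have h7 : |((s * b : ℕ) : ℝ) * γ - (ρ : ℝ)| ≤ T ^ (-(4 / 5) : ℝ) := by
        have e1 : T ^ (-(4 / 5) : ℝ) = R ^ (4 / 5 : ℝ) := by
          rw [hT, one_div, Real.inv_rpow hR0.le, Real.rpow_neg hR0.le, inv_inv]
        rw [e1]
        have e : |((s * b : ℕ) : ℝ) * γ - (ρ : ℝ)| =
            (|((s * b : ℕ) : ℝ) * γ - (ρ : ℝ)| ^ 5) ^ (1 / 5 : ℝ) := by
          rw [← Real.rpow_natCast, ← Real.rpow_mul (abs_nonneg _)]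
          norm_num
        have e2 : R ^ (4 / 5 : ℝ) = (R ^ 4) ^ (1 / 5 : ℝ) := by
          rw [← Real.rpow_natCast, ← Real.rpow_mul hR0.le]
          norm_num
        rw [e, e2]
        exact Real.rpow_le_rpow (by positivity) n2 (by norm_num)
      have e3 : (ρ.den : ℝ) * s * ((b : ℝ) * γ) - ρ.num =
          ρ.den * (((s * b : ℕ) : ℝ) * γ - (ρ : ℝ)) := by
        have e4 : (ρ.num : ℝ) = ρ.den * (ρ : ℝ) := by
          have := Rat.den_mul_eq_num ρ
          exact_mod_cast this.symm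
        rw [e4]; push_cast; ring
      rw [e3, abs_mul, abs_of_pos hkR]
      exact mul_le_mul_of_nonneg_left h7 hkR.le
  -- the denominator of `b σ`
  obtain ⟨m, hm⟩ := hdiv
  have hsQ : (s : ℚ) ≠ 0 := by exact_mod_cast hs0.ne'
  have hkQ : (ρ.den : ℚ) ≠ 0 := by exact_mod_cast hk0.ne'
  have e5 : ((b : ℚ) * σ) = (m : ℚ) / ((ρ.den : ℤ) : ℚ) := by
    have e6 : (ρ.num : ℚ) = ρ.den * ρ := (Rat.den_mul_eq_num ρ).symm
    have e7 : (ρ.num : ℚ) = s * m := by rw [hm]; push_cast; ring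
    have e8 : (s : ℚ) * (b * σ) = ρ := by rw [hρ]; push_cast; ring
    have e9 : (s : ℚ) * m = ρ.den * (s * (b * σ)) := by rw [← e7, e6, e8]
    have e10 : (m : ℚ) = ρ.den * (b * σ) := by
      apply mul_left_cancel₀ hsQ
      rw [e9]; ring
    rw [e10]
    push_cast
    field_simp
  have hdd : ((b : ℚ) * σ).den ≤ ρ.den := by
    have h8 := Rat.den_dvd m (ρ.den : ℤ)
    rw [← Rat.intCast_div_eq_divInt, ← e5] at h8
    exact Nat.le_of_dvd hk0 (by exact_mod_cast h8)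
  have hd' : (((b * σ : ℚ)).den : ℝ) ^ 5 * (b * r) ≤ 1 := by
    have hbr : 0 ≤ (b : ℝ) * r := by
      have hs' : (0 : ℝ) < s := by exact_mod_cast hs0
      have := hR0.le
      rw [hR] at this
      exact (mul_nonneg_iff_of_pos_left hs').1 this
    have h9 : (((b * σ : ℚ)).den : ℝ) ^ 5 ≤ (ρ.den : ℝ) ^ 5 :=
      pow_le_pow_left₀ (by positivity) (by exact_mod_cast hdd) 5
    have hs1 : (1 : ℝ) ≤ s := by exact_mod_cast hs0
    have h10 : (b : ℝ) * r ≤ R := by rw [hR]; nlinarith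
    calc (((b * σ : ℚ)).den : ℝ) ^ 5 * (b * r) ≤ (ρ.den : ℝ) ^ 5 * R :=
          mul_le_mul h9 h10 hbr (by positivity)
      _ ≤ 1 := d2
  linarith

/-! ### the missing ties below a stage -/

/-- few missing ties (field `mt` of `Pr`) -/
def Few (C : ℝ) (p0 : ℕ) (M : Finset ℕ) : Prop :=
  ∀ P : ℕ, p0 ≤ P → ((M.filter (· ≤ P)).card : ℝ) ≤ Real.log P ^ (C + 1)

/-- the numbers `s` which are large for the exponent `C` -/
def Big (C : ℝ) (s0 : ℕ) : Prop :=
  ∀ s : ℕ, s0 ≤ s → 3 ≤ s ∧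
    2 * Real.log s ^ (C + 2) + 2 ≤ (s : ℝ) ^ (1 / 4 : ℝ) ∧
    Real.log s ^ (C + 2) + (s : ℝ) ^ (1 / 5 : ℝ) ≤ (s : ℝ) ^ (1 / 4 : ℝ)

lemma Big.mono {C : ℝ} {s0 s1 : ℕ} (h : Big C s0) (h1 : s0 ≤ s1) : Big C s1 :=
  fun s hs => h s (h1.trans hs)

lemma exists_big (C : ℝ) : ∃ s0 : ℕ, Big C s0 := by
  have h1 := (isLittleO_log_rpow_rpow_atTop (C + 2) (show (0 : ℝ) < 1 / 4 by norm_num)).bound
    (show (0 : ℝ) < 1 / 4 by norm_num)
  have h2 : ∀ᶠ x : ℝ in Filter.atTop, 4 ≤ x ^ (1 / 4 : ℝ) :=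
    (tendsto_rpow_atTop (show (0 : ℝ) < 1 / 4 by norm_num)).eventually_ge_atTop 4
  have h3 : ∀ᶠ x : ℝ in Filter.atTop, 2 ≤ x ^ (1 / 20 : ℝ) :=
    (tendsto_rpow_atTop (show (0 : ℝ) < 1 / 20 by norm_num)).eventually_ge_atTop 2
  obtain ⟨x0, hx⟩ := Filter.eventually_atTop.1 ((h1.and h2).and h3)
  refine ⟨⌈x0⌉₊ + 3, fun s hs => ⟨by omega, ?_⟩⟩
  have hs3 : (3 : ℝ) ≤ s := by exact_mod_cast (by omega : 3 ≤ s)
  have hs0 : (0 : ℝ) < s := by linarith
  have hxs : x0 ≤ s := by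
    have h5 : x0 ≤ ⌈x0⌉₊ := Nat.le_ceil _
    have h6 : ((⌈x0⌉₊ : ℕ) : ℝ) ≤ s := by exact_mod_cast (by omega : ⌈x0⌉₊ ≤ s)
    linarith
  obtain ⟨⟨k1, k2⟩, k3⟩ := hx s hxs
  have hl : 0 ≤ Real.log s := Real.log_nonneg (by linarith)
  rw [Real.norm_eq_abs, Real.norm_eq_abs, abs_of_nonneg (by positivity),
    abs_of_nonneg (by positivity)] at k1
  refine ⟨by linarith, ?_⟩
  have e : (s : ℝ) ^ (1 / 4 : ℝ) = (s : ℝ) ^ (1 / 20 : ℝ) * (s : ℝ) ^ (1 / 5 : ℝ) := by
    rw [← Real.rpow_add hs0]; norm_num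
  have h7 : 0 < (s : ℝ) ^ (1 / 5 : ℝ) := by positivity
  have h8 : 2 * (s : ℝ) ^ (1 / 5 : ℝ) ≤ (s : ℝ) ^ (1 / 4 : ℝ) := by
    rw [e]; exact mul_le_mul_of_nonneg_right k3 h7.le
  linarith

section few
variable {C : ℝ} {p0 : ℕ} {M : Finset ℕ}

/-- product of the missing ties in `(p, s)` -/
def Qb (M : Finset ℕ) (p s : ℕ) : ℕ := ∏ x ∈ M.filter (fun x => p < x ∧ x < s), x

lemma Qb_pos (hM : ∀ x ∈ M, 0 < x) (p s : ℕ) : 0 < Qb M p s :=
  Finset.prod_pos fun x hx => hM x (Finset.mem_filter.1 hx).1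

/-- **(B2)** the product of the missing ties below `s` -/
theorem Qb_le (hM : ∀ x ∈ M, 0 < x) (hF : Few C p0 M) {p s : ℕ} (hs : p0 ≤ s) (hs3 : 3 ≤ s) :
    (Qb M p s : ℝ) ≤ Real.exp (Real.log s ^ (C + 2)) := by
  have hs0 : (0 : ℝ) < s := by exact_mod_cast (by omega : 0 < s)
  have hs1 : (1 : ℝ) < s := by exact_mod_cast (by omega : 1 < s)
  have hl : 0 < Real.log s := Real.log_pos hs1
  have h1 : Qb M p s ≤ s ^ (M.filter (fun x => p < x ∧ x < s)).card := by
    unfold Qb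
    rw [← Finset.prod_const]
    exact Finset.prod_le_prod' fun x hx => (Finset.mem_filter.1 hx).2.2.le
  have h2 : (M.filter (fun x => p < x ∧ x < s)).card ≤ (M.filter (· ≤ s)).card :=
    Finset.card_le_card fun x hx => by
      rw [Finset.mem_filter] at hx ⊢
      exact ⟨hx.1, hx.2.2.le⟩
  have h3 : ((M.filter (fun x => p < x ∧ x < s)).card : ℝ) ≤ Real.log s ^ (C + 1) :=
    (by exact_mod_cast h2 : ((M.filter (fun x => p < x ∧ x < s)).card : ℝ) ≤
      ((M.filter (· ≤ s)).card : ℝ)).trans (hF s hs)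
  have h4 : (Qb M p s : ℝ) ≤ (s : ℝ) ^ (M.filter (fun x => p < x ∧ x < s)).card := by
    exact_mod_cast h1
  refine h4.trans ?_
  rw [← Real.rpow_natCast, Real.rpow_def_of_pos hs0]
  apply Real.exp_le_exp.2
  have e : Real.log s ^ (C + 2) = Real.log s * Real.log s ^ (C + 1) := by
    rw [show C + 2 = 1 + (C + 1) by ring, Real.rpow_add hl, Real.rpow_one]
  rw [e]
  exact mul_le_mul_of_nonneg_left h3 hl.le

variable {t : IT} {q : ℕ}

/-- the stage below `s` -/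
lemma Bab_lt {p s : ℕ} (hs : s ∈ t.mt q) (hps : p < s) :
    Bab t q p = Qb (t.mt q) p s * (s * Bab t q s) := by
  classical
  unfold Bab Qb
  have e : (t.mt q).filter (p < ·) = (t.mt q).filter (fun x => p < x ∧ x < s) ∪
      insert s ((t.mt q).filter (s < ·)) := by
    ext x
    simp only [Finset.mem_filter, Finset.mem_union, Finset.mem_insert]
    constructor
    · rintro ⟨h1, h2⟩
      rcases lt_trichotomy x s with h | h | h
      · exact Or.inl ⟨h1, h2, h⟩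
      · exact Or.inr (Or.inl h)
      · exact Or.inr (Or.inr ⟨h1, h⟩)
    · rintro (⟨h1, h2, h3⟩ | rfl | ⟨h1, h2⟩)
      · exact ⟨h1, h2⟩
      · exact ⟨hs, hps⟩
      · exact ⟨h1, hps.trans h2⟩
  rw [e, Finset.prod_union, Finset.prod_insert]
  · simp
  · rw [Finset.disjoint_left]
    intro x hx hx'
    rw [Finset.mem_filter] at hx
    rw [Finset.mem_insert, Finset.mem_filter] at hx'
    rcases hx' with rfl | h
    · exact lt_irrefl _ hx.2.2
    · exact lt_asymm h.2 hx.2.2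

lemma Bab_pos (hM : ∀ x ∈ t.mt q, 0 < x) (p : ℕ) : 0 < Bab t q p :=
  Finset.prod_pos fun x hx => hM x (Finset.mem_filter.1 hx).1

/-- **super-tiny** below the missing tie `s` -/
def SupT (t : IT) (r : ℝ) (q s : ℕ) : Prop :=
  (s : ℝ) * (Bab t q s * r) ≤ Real.exp (-((s : ℝ) ^ (1 / 4 : ℝ)))

/-- **(B2)** super-tiny is absorbing -/
theorem supT_absorb (hM : ∀ x ∈ t.mt q, 0 < x) (hF : Few C p0 (t.mt q)) (hB : Big C p0) {r : ℝ}
    (hr : 0 ≤ r) {s p : ℕ} (hs : s ∈ t.mt q) (hs0 : p0 ≤ s) (hT : SupT t r q s) (hp : p < s) :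
    (Bab t q p : ℝ) * r ≤ Real.exp (-((s : ℝ) ^ (1 / 5 : ℝ))) := by
  obtain ⟨b1, b2, b3⟩ := hB s hs0
  have h1 := Qb_le (p := p) hM hF hs0 b1
  rw [Bab_lt hs hp]
  have e : ((Qb (t.mt q) p s * (s * Bab t q s) : ℕ) : ℝ) * r =
      Qb (t.mt q) p s * ((s : ℝ) * (Bab t q s * r)) := by push_cast; ring
  rw [e]
  calc (Qb (t.mt q) p s : ℝ) * ((s : ℝ) * (Bab t q s * r))
      ≤ Real.exp (Real.log s ^ (C + 2)) * Real.exp (-((s : ℝ) ^ (1 / 4 : ℝ))) :=
        mul_le_mul h1 hT (by positivity) (Real.exp_pos _).le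
    _ = Real.exp (Real.log s ^ (C + 2) - (s : ℝ) ^ (1 / 4 : ℝ)) := by
        rw [← Real.exp_add]; ring_nf
    _ ≤ _ := Real.exp_le_exp.2 (by linarith)

/-- **(B4)** at most one label in the super-tiny phase -/
theorem supT_unique (hM : ∀ x ∈ t.mt q, 0 < x) (hF : Few C p0 (t.mt q)) (hB : Big C p0) {γ r : ℝ}
    {s p : ℕ} (hs : s ∈ t.mt q) (hs0 : p0 ≤ s) (hT : SupT t r q s) (hp : p < s) {κ σ : ℚ}
    (h : lab0 γ r (s * Bab t q s) = some κ) (h' : lab0 γ r (Bab t q p) = some σ) : κ = σ := by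
  obtain ⟨b1, b2, b3⟩ := hB s hs0
  have hsp := hM s hs
  have hb : 0 < s * Bab t q s := Nat.mul_pos hsp (Bab_pos hM s)
  have hr : 0 < ((s * Bab t q s : ℕ) : ℝ) * r := (lab0_spec hb h).pos
  rw [Bab_lt hs hp] at h'
  refine lab0_eq_of_small hb (Qb_pos hM p s) h h' ?_
  have h1 := Qb_le (p := p) hM hF hs0 b1
  have h2 : ((s * Bab t q s : ℕ) : ℝ) * r ≤ Real.exp (-((s : ℝ) ^ (1 / 4 : ℝ))) := by
    refine le_trans (le_of_eq ?_) hT
    push_cast; ring
  have h3 : (Qb (t.mt q) p s : ℝ) ^ 2 ≤ Real.exp (2 * Real.log s ^ (C + 2)) := by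
    rw [two_mul, Real.exp_add, sq]
    exact mul_le_mul h1 h1 (by positivity) (Real.exp_pos _).le
  have h4 : (Qb (t.mt q) p s : ℝ) ^ 2 * (((s * Bab t q s : ℕ) : ℝ) * r) ≤
      Real.exp (2 * Real.log s ^ (C + 2)) * Real.exp (-((s : ℝ) ^ (1 / 4 : ℝ))) :=
    mul_le_mul h3 h2 hr.le (Real.exp_pos _).le
  rw [← Real.exp_add] at h4
  have h5 : Real.exp (2 * Real.log s ^ (C + 2) + -((s : ℝ) ^ (1 / 4 : ℝ))) ≤ Real.exp (-2) :=
    Real.exp_le_exp.2 (by linarith)
  have h6 : Real.exp (-2) < 1 / 6 := by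
    rw [Real.exp_neg, inv_eq_one_div]
    have h7 : (6 : ℝ) < Real.exp 2 := by
      have h8 : (2.7 : ℝ) < Real.exp 1 := by
        have := Real.exp_one_gt_d9; linarith
      have h9 : Real.exp 2 = Real.exp 1 * Real.exp 1 := by rw [← Real.exp_add]; norm_num
      rw [h9]; nlinarith
    exact one_div_lt_one_div_of_lt (by norm_num) h7
  linarith

/-! ### births -/

/-- **birth of a label** at the missing tie `s` (going down): a label of the stage below `s` which is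
not the label of the stage above `s` -/
def BirL (t : IT) (γ r : ℝ) (q s : ℕ) (τ : ℚ) : Prop :=
  lab0 γ r (s * Bab t q s) = some τ ∧ lab0 γ r (Bab t q s) ≠ some τ

/-- **thin births are super-tiny** -/
theorem birL_supT (hM : ∀ x ∈ t.mt q, 0 < x) {γ r A : ℝ} (hN : NoBir γ A t q) {s : ℕ}
    (hs : s ∈ t.mt q) (hA : (s : ℝ) * (Bab t q s * r) ≤ Real.log s ^ (-A)) (hl : 0 < Real.log s)
    {τ : ℚ} (h : BirL t γ r q s τ) :
    (s : ℝ) * (Bab t q s * r) < Real.exp (-((s : ℝ) ^ (1 / 4 : ℝ))) := by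
  by_contra hc
  push Not at hc
  refine h.2 (lab0_up hN (Or.inl hs) (hM s hs) (Bab_pos hM s) ?_ hc h.1)
  have h1 : Real.log s ^ A * (s * (Bab t q s * r)) ≤ Real.log s ^ A * Real.log s ^ (-A) :=
    mul_le_mul_of_nonneg_left hA (by positivity)
  refine h1.trans (le_of_eq ?_)
  rw [← Real.rpow_add hl, add_neg_cancel, Real.rpow_zero]

/-- **(B5)** all the thin births of an item are births of one rational -/
theorem thin_birth (hM : ∀ x ∈ t.mt q, 0 < x) (hF : Few C p0 (t.mt q)) (hB : Big C p0)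
    (hMp : ∀ x ∈ t.mt q, p0 ≤ x) {γ r A : ℝ} (hN : NoBir γ A t q) :
    ∃ σ : ℚ, ∀ s ∈ t.mt q, (s : ℝ) * (Bab t q s * r) ≤ Real.log s ^ (-A) → ∀ τ : ℚ,
      BirL t γ r q s τ → τ = σ ∧ (s : ℝ) * (Bab t q s * r) < Real.exp (-((s : ℝ) ^ (1 / 4 : ℝ))) := by
  classical
  have hlog : ∀ s ∈ t.mt q, 0 < Real.log s := fun s hs => by
    have := (hB s (hMp s hs)).1
    exact Real.log_pos (by exact_mod_cast (by omega : 1 < s))
  by_cases hex : ∃ s ∈ t.mt q, (s : ℝ) * (Bab t q s * r) ≤ Real.log s ^ (-A) ∧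
      ∃ τ, BirL t γ r q s τ
  · obtain ⟨s₀, h1, h2, τ₀, h3⟩ := hex
    refine ⟨τ₀, fun s hs hA τ hτ => ⟨?_, birL_supT hM hN hs hA (hlog s hs) hτ⟩⟩
    have k1 := birL_supT hM hN hs hA (hlog s hs) hτ
    have k2 := birL_supT hM hN h1 h2 (hlog s₀ h1) h3
    have eB : ∀ x ∈ t.mt q, Bab t q (x - 1) = x * Bab t q x := by
      intro x hx
      have hx1 := hM x hx
      have h := Bab_lt (t := t) (q := q) (p := x - 1) hx (by omega)
      have h2 : Qb (t.mt q) (x - 1) x = 1 := by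
        unfold Qb
        rw [Finset.filter_false_of_mem (fun y _ hy => by omega), Finset.prod_empty]
      rw [h, h2, one_mul]
    rcases lt_trichotomy s s₀ with h | h | h
    · have hs1 := hM s hs
      exact (supT_unique hM hF hB h1 (hMp s₀ h1) k2.le (show s - 1 < s₀ by omega) h3.1
        (by rw [eB s hs]; exact hτ.1)).symm
    · subst h
      exact Option.some.inj (hτ.1.symm.trans h3.1)
    · have hs1 := hM s₀ h1
      exact supT_unique hM hF hB hs (hMp s hs) k1.le (show s₀ - 1 < s by omega) hτ.1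
        (by rw [eB s₀ h1]; exact h3.1)
  · refine ⟨0, fun s hs hA τ hτ => absurd ⟨s, hs, hA, τ, hτ⟩ hex⟩

/-! ### the sticky label (`StM6.sl`, `StM6.sla`) -/

lemma sl_cons_none {γ r : ℝ} {s : ℕ} {L : List ℕ} (h : lab0 γ r (s * L.prod) = none) :
    sl γ r (s :: L) = sl γ r L := by
  rw [StM6.sl_cons, h, Option.none_or]

lemma sl_cons_some {γ r : ℝ} {s : ℕ} {L : List ℕ} {τ : ℚ} (h : lab0 γ r (s * L.prod) = some τ) :
    sl γ r (s :: L) = some τ := by
  rw [StM6.sl_cons, h, Option.some_or]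

/-- a change of the sticky label is a birth -/
lemma sl_change {γ r : ℝ} {s : ℕ} {L : List ℕ} (h : sl γ r (s :: L) ≠ sl γ r L) :
    ∃ τ, lab0 γ r (s * L.prod) = some τ ∧ sl γ r L ≠ some τ ∧ lab0 γ r L.prod ≠ some τ := by
  cases hl : lab0 γ r (s * L.prod) with
  | none => exact absurd (sl_cons_none hl) h
  | some τ =>
    rw [sl_cons_some hl] at h
    exact ⟨τ, rfl, fun e => h e.symm, fun e => h (StM6.sl_of_own e).symm⟩

/-- **a new label of the sparse regime is a change of the sticky label** -/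
lemma sla_new {γ r : ℝ} {s : ℕ} {L : List ℕ} {τ : ℚ} (hs : 0 < s)
    (h : sla γ r (s :: L) = some τ) (hne : sla γ r L ≠ some τ) : sl γ r (s :: L) ≠ sl γ r L := by
  obtain ⟨h1, h2⟩ := StM6.sla_some.1 h
  intro e
  rw [List.prod_cons] at h2
  exact hne (StM6.sla_some.2 ⟨by rw [← e, h1], StM6.acc_anti hs h2⟩)

lemma lst_mem {M : Finset ℕ} {s : ℕ} (hs : s ∈ M) (h0 : 0 < s) :
    lst M (s - 1) = s :: lst M s := by
  classical
  unfold Crest.Agent.R4.W363.lst
  have e : M.filter (s - 1 < ·) = insert s (M.filter (s < ·)) := by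
    ext x
    simp only [Finset.mem_filter, Finset.mem_insert]
    constructor
    · rintro ⟨h1, h2⟩
      rcases eq_or_ne x s with h | h
      · exact Or.inl h
      · exact Or.inr ⟨h1, by omega⟩
    · rintro (rfl | ⟨h1, h2⟩)
      · exact ⟨hs, by omega⟩
      · exact ⟨h1, by omega⟩
  rw [e, Finset.sort_insert]
  · intro b hb
    exact (Finset.mem_filter.1 hb).2.le
  · simp

lemma lst_not_mem {M : Finset ℕ} {s : ℕ} (hs : s ∉ M) (h0 : 0 < s) : lst M (s - 1) = lst M s := by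
  classical
  unfold Crest.Agent.R4.W363.lst
  congr 1
  ext x
  simp only [Finset.mem_filter]
  constructor
  · rintro ⟨h1, h2⟩
    exact ⟨h1, lt_of_le_of_ne (by omega) (fun e => hs (e ▸ h1))⟩
  · rintro ⟨h1, h2⟩
    exact ⟨h1, by omega⟩

lemma lst_prod_Bab (p : ℕ) : (lst (t.mt q) p).prod = Bab t q p := lst_prod _ _

/-- below a super-tiny label the sticky label is constant -/
theorem sl_const (hM : ∀ x ∈ t.mt q, 0 < x) (hF : Few C p0 (t.mt q)) (hB : Big C p0) {γ r : ℝ}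
    {s : ℕ} (hs : s ∈ t.mt q) (hs0 : p0 ≤ s) (hT : SupT t r q s) {κ : ℚ}
    (h : lab0 γ r (s * Bab t q s) = some κ) : ∀ d p : ℕ, p + 1 + d = s →
      sl γ r (lst (t.mt q) p) = some κ := by
  have hs1 := hM s hs
  intro d
  induction d with
  | zero =>
    intro p hp
    have e : p = s - 1 := by omega
    rw [e, lst_mem hs hs1]
    refine sl_cons_some ?_
    rw [lst_prod_Bab]
    exact h
  | succ d ih =>
    intro p hp
    have ih' := ih (p + 1) (by omega)
    by_cases hm : (p + 1) ∈ t.mt q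
    · have e : lst (t.mt q) p = (p + 1) :: lst (t.mt q) (p + 1) := by
        have := lst_mem hm (Nat.succ_pos p)
        simpa using this
      rw [e]
      cases hl : lab0 γ r ((p + 1) * (lst (t.mt q) (p + 1)).prod) with
      | none => rw [sl_cons_none hl, ih']
      | some τ =>
        rw [sl_cons_some hl]
        have hl' : lab0 γ r (Bab t q p) = some τ := by
          rw [← lst_prod_Bab, e, List.prod_cons]
          exact hl
        rw [supT_unique hM hF hB hs hs0 hT (by omega) h hl']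
    · have e : lst (t.mt q) p = lst (t.mt q) (p + 1) := by
        have := lst_not_mem hm (Nat.succ_pos p)
        simpa using this
      rw [e, ih']

/-- **the sticky label changes at most once at the missing ties with thin radius** -/
theorem sl_change_unique (hM : ∀ x ∈ t.mt q, 0 < x) (hF : Few C p0 (t.mt q)) (hB : Big C p0)
    (hMp : ∀ x ∈ t.mt q, p0 ≤ x) {γ r A : ℝ} (hN : NoBir γ A t q) {s s' : ℕ}
    (hs : s ∈ t.mt q) (hs' : s' ∈ t.mt q)
    (hA : (s : ℝ) * (Bab t q s * r) ≤ Real.log s ^ (-A))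
    (hA' : (s' : ℝ) * (Bab t q s' * r) ≤ Real.log s' ^ (-A))
    (hc : sl γ r (s :: lst (t.mt q) s) ≠ sl γ r (lst (t.mt q) s))
    (hc' : sl γ r (s' :: lst (t.mt q) s') ≠ sl γ r (lst (t.mt q) s')) : s = s' := by
  -- the key: no change below a change
  have key : ∀ s s' : ℕ, s ∈ t.mt q → s' ∈ t.mt q →
      (s : ℝ) * (Bab t q s * r) ≤ Real.log s ^ (-A) →
      sl γ r (s :: lst (t.mt q) s) ≠ sl γ r (lst (t.mt q) s) →
      sl γ r (s' :: lst (t.mt q) s') ≠ sl γ r (lst (t.mt q) s') → ¬ s' < s := by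
    intro s s' hs hs' hA hc hc' hlt
    have hl : 0 < Real.log s := by
      have := (hB s (hMp s hs)).1
      exact Real.log_pos (by exact_mod_cast (by omega : 1 < s))
    obtain ⟨τ, h1, h2, h3⟩ := sl_change hc
    rw [lst_prod_Bab] at h1 h3
    have hT := (birL_supT hM hN hs hA hl ⟨h1, h3⟩).le
    have e1 := sl_const hM hF hB hs (hMp s hs) hT h1 (s - 1 - s') s' (by omega)
    have hs'1 := hM s' hs'
    have e2 := sl_const hM hF hB hs (hMp s hs) hT h1 (s - s') (s' - 1) (by omega)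
    rw [lst_mem hs' hs'1] at e2
    exact hc' (e2.trans e1.symm)
  rcases lt_trichotomy s s' with h | h | h
  · exact absurd h (key s' s hs' hs hA' hc' hc)
  · exact h
  · exact absurd h (key s s' hs hs' hA hc hc')

/-- **every birth of a label is fat or super-tiny**, and there is only one rational for the second kind -/
theorem birth_dich (hM : ∀ x ∈ t.mt q, 0 < x) (hF : Few C p0 (t.mt q)) (hB : Big C p0)
    (hMp : ∀ x ∈ t.mt q, p0 ≤ x) {γ r A : ℝ} (hN : NoBir γ A t q) :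
    ∃ σ : ℚ, ∀ s ∈ t.mt q, ∀ τ : ℚ, BirL t γ r q s τ →
      Real.log s ^ (-A) < (s : ℝ) * (Bab t q s * r) ∨
        (τ = σ ∧ (s : ℝ) * (Bab t q s * r) < Real.exp (-((s : ℝ) ^ (1 / 4 : ℝ)))) := by
  obtain ⟨σ, h⟩ := thin_birth hM hF hB hMp (r := r) hN
  refine ⟨σ, fun s hs τ hτ => ?_⟩
  rcases le_or_gt ((s : ℝ) * (Bab t q s * r)) (Real.log s ^ (-A)) with h1 | h1
  · exact Or.inr (h s hs h1 τ hτ)
  · exact Or.inl h1

/-- **the new sparse labels at the thin missing ties: at most one tie** -/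
theorem sla_new_unique (hM : ∀ x ∈ t.mt q, 0 < x) (hF : Few C p0 (t.mt q)) (hB : Big C p0)
    (hMp : ∀ x ∈ t.mt q, p0 ≤ x) {γ r A : ℝ} (hN : NoBir γ A t q) {s s' : ℕ}
    (hs : s ∈ t.mt q) (hs' : s' ∈ t.mt q)
    (hA : (s : ℝ) * (Bab t q s * r) ≤ Real.log s ^ (-A))
    (hA' : (s' : ℝ) * (Bab t q s' * r) ≤ Real.log s' ^ (-A)) {τ τ' : ℚ}
    (h1 : sla γ r (s :: lst (t.mt q) s) = some τ) (h2 : sla γ r (lst (t.mt q) s) ≠ some τ)
    (h1' : sla γ r (s' :: lst (t.mt q) s') = some τ') (h2' : sla γ r (lst (t.mt q) s') ≠ some τ') :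
    s = s' ∧ τ = τ' := by
  have e := sl_change_unique hM hF hB hMp hN hs hs' hA hA' (sla_new (hM s hs) h1 h2)
    (sla_new (hM s' hs') h1' h2')
  subst e
  exact ⟨rfl, Option.some.inj (h1.symm.trans h1')⟩

end few

/-! ### the items of a context -/

section ctx

open Crest.Agent.R4P.Skel189 Crest.Agent.R4P.ParF5 Crest.Agent.R4P.FinAll26
open Crest.Agent.R4P.Data758 Crest.Agent.R4P.SxT6
open Crest.Agent.R4.Soft104 (w)
open Filter

/-- the exponent of the prune of the births (`25 C1 + 20`) -/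
noncomputable abbrev Aex (N : Skel189.Num) : ℝ := 5 * (4 * N.C1 + N.C1 + 1 + 3)

/-- **the facts of one item** -/
structure BF (N : Skel189.Num) (c : Cf) (p0 q : ℕ) : Prop where
  mpos : ∀ x ∈ c.t.mt q, 0 < x
  mp : ∀ x ∈ c.t.mt q, p0 < x
  few : Few (N.C1 + N.c2) p0 (c.t.mt q)
  big : Big (N.C1 + N.c2) p0
  nb : NoBir c.γ (Aex N) c.t q
  thr : ∀ s : ℕ, p0 ≤ s → c.wp.thr s ≤ Real.log s ^ (-(Aex N))
  tlo : ∀ s n : ℕ, p0 ≤ n → n ≤ s → Real.exp (-((s : ℝ) ^ (1 / 4 : ℝ))) ≤ c.wp.thr n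

/-- **the items of the contexts in `SyB` have the facts** -/
theorem ev_facts {N : Skel189.Num} {Ct C₀ c : ℝ} {Sx : ℕ → (ℕ → ℝ) → Finset ℕ → Finset ℕ}
    (hc : 1 ≤ c) (h : NumOK N (ParT21.thF Ct) Ct C₀ Sx) (hf : NumFin N (ParT21.thF Ct) Ct c) :
    ∃ p₁ : ℕ, ∀ p0 ≥ p₁, ∀ (γ : ℝ) (P₀ : ℕ) (X : Ctx N γ p0 P₀), InS SyB N γ X → ∀ q ∈ X.S',
      BF N X.c p0 q := by
  obtain ⟨s0, hs0⟩ := exists_big (N.C1 + N.c2)
  have hC1 : 1 ≤ N.C1 := hc.trans hf.C1
  have hd : 0 < Ct - Aex N := by rw [hf.Ct]; unfold Aex; linarith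
  have hCt : 0 < Ct := by rw [hf.Ct]; linarith
  obtain ⟨a, ha⟩ := ParT21.ctx_hi h hCt hd
  obtain ⟨a', ha'⟩ := ParT21.ctx_lo h hCt
  -- `Ct log log s ≤ s^(1/4)`
  have e2 : ∀ᶠ p : ℕ in atTop, Ct * Real.log (Real.log p) ≤ (p : ℝ) ^ (1 / 4 : ℝ) := by
    have h1 := (isLittleO_log_rpow_atTop (show (0 : ℝ) < 1 / 4 by norm_num)).bound
      (show (0 : ℝ) < 1 / (|Ct| + 1) by positivity)
    have h2 : ∀ᶠ x : ℝ in atTop, Ct * Real.log (Real.log x) ≤ x ^ (1 / 4 : ℝ) := by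
      filter_upwards [h1, eventually_ge_atTop (Real.exp 1)] with x hx hx1
      have hx0 : 0 < x := (Real.exp_pos 1).trans_le hx1
      have hl : 1 ≤ Real.log x := by
        rw [← Real.log_exp 1]; exact Real.log_le_log (Real.exp_pos 1) hx1
      have hll : Real.log (Real.log x) ≤ Real.log x :=
        (Real.log_le_sub_one_of_pos (by linarith)).trans (by linarith)
      have hll0 : 0 ≤ Real.log (Real.log x) := Real.log_nonneg hl
      rw [Real.norm_eq_abs, Real.norm_eq_abs, abs_of_nonneg (by linarith : (0 : ℝ) ≤ Real.log x),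
        abs_of_nonneg (by positivity : (0 : ℝ) ≤ x ^ (1 / 4 : ℝ))] at hx
      have h3 : (|Ct| + 1) * Real.log x ≤ x ^ (1 / 4 : ℝ) := by
        have h4 : 0 < |Ct| + 1 := by positivity
        calc (|Ct| + 1) * Real.log x ≤ (|Ct| + 1) * (1 / (|Ct| + 1) * x ^ (1 / 4 : ℝ)) :=
              mul_le_mul_of_nonneg_left hx h4.le
          _ = x ^ (1 / 4 : ℝ) := by field_simp
      calc Ct * Real.log (Real.log x) ≤ |Ct| * Real.log (Real.log x) :=
            mul_le_mul_of_nonneg_right (le_abs_self Ct) hll0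
        _ ≤ (|Ct| + 1) * Real.log x := mul_le_mul (by linarith) hll hll0 (by positivity)
        _ ≤ _ := h3
    exact tendsto_natCast_atTop_atTop.eventually h2
  obtain ⟨b, hb⟩ := eventually_atTop.1 e2
  refine ⟨max (max a b) (max s0 4) + a', fun p0 h0' γ P₀ X hX q hq => ?_⟩
  have h0 : max (max a b) (max s0 4) ≤ p0 := by omega
  have h0a : a ≤ p0 := ((le_max_left _ _).trans (le_max_left _ _)).trans h0
  have h0b : b ≤ p0 := ((le_max_right _ _).trans (le_max_left _ _)).trans h0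
  have h0s : s0 ≤ p0 := ((le_max_left _ _).trans (le_max_right _ _)).trans h0
  have h04 : 4 ≤ p0 := ((le_max_right _ _).trans (le_max_right _ _)).trans h0
  have hcol : ∀ x ∈ X.c.t.mt q, p0 < x := fun x hx =>
    (Bld532.cols_of_All _ _ _ _ X.nodes q x (Or.inl hx)).2.1
  have hpr := X.prn.pr q hq
  refine ⟨fun x hx => (Nat.zero_le _).trans_lt (hcol x hx), hcol, ?_, hs0.mono h0s, ?_,
    fun s hs => ?_, fun s n hn hns => ?_⟩
  · intro P hP
    have h1 := hpr.mt P hP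
    rw [X.ht]
    exact h1
  · rw [X.hγ]
    exact noBir_of hf X hX hq
  · have h5 := ha γ p0 P₀ X s (h0a.trans hs)
    have e5 : -(Ct - (Ct - Aex N)) = -(Aex N) := by ring
    rwa [e5] at h5
  · have hn3 : 3 ≤ n := by omega
    have hs3 : 3 ≤ s := by omega
    have hn1 : 0 < Real.log n := Real.log_pos (by exact_mod_cast (by omega : 1 < n))
    have hls : 0 < Real.log s := Real.log_pos (by exact_mod_cast (by omega : 1 < s))
    have hlns : Real.log n ≤ Real.log s :=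
      Real.log_le_log (by exact_mod_cast (by omega : 0 < n)) (by exact_mod_cast hns)
    refine le_trans ?_ (ha' γ p0 P₀ X n (by omega))
    have h5 := hb s (by omega)
    calc Real.exp (-((s : ℝ) ^ (1 / 4 : ℝ))) ≤ Real.exp (-(Ct * Real.log (Real.log s))) :=
          Real.exp_le_exp.2 (neg_le_neg h5)
      _ = Real.log s ^ (-Ct) := by
        rw [Real.rpow_def_of_pos hls]; congr 1; ring
      _ ≤ Real.log n ^ (-Ct) :=
        Real.rpow_le_rpow_of_nonpos hn1 hlns (neg_nonpos.2 h.Ct0)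

namespace BF

variable {N : Skel189.Num} {c : Cf} {p0 q : ℕ}

/-- the radius below the missing tie `s` -/
noncomputable abbrev Rad (c : Cf) (q s : ℕ) : ℝ := (s : ℝ) * (Bab c.t q s * c.r q)

/-- thin below `s`: in the range of the prune -/
lemma le_A (h : BF N c p0 q) {s : ℕ} (hs : s ∈ c.t.mt q) (ht : Rad c q s ≤ c.wp.thr s) :
    Rad c q s ≤ Real.log s ^ (-(Aex N)) := ht.trans (h.thr s (h.mp s hs).le)

/-- **(B1)** a label below the missing tie `s` with radius in `[exp (-s^(1/4)), (log s)^(-A)]` is a label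
above `s` -/
theorem up (h : BF N c p0 q) {s : ℕ} (hs : s ∈ c.t.mt q)
    (h1 : Rad c q s ≤ Real.log s ^ (-(Aex N)))
    (h2 : Real.exp (-((s : ℝ) ^ (1 / 4 : ℝ))) ≤ Rad c q s) {σ : ℚ}
    (hl : lab0 c.γ (c.r q) (s * Bab c.t q s) = some σ) :
    lab0 c.γ (c.r q) (Bab c.t q s) = some σ := by
  by_contra hne
  have hlog : 0 < Real.log s := by
    have := (h.big s (h.mp s hs).le).1
    exact Real.log_pos (by exact_mod_cast (by omega : 1 < s))
  exact absurd (birL_supT h.mpos h.nb hs h1 hlog ⟨hl, hne⟩) (not_lt.2 h2)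

/-- **(B1), fat item** (`thr n < s B r ≤ (log s)^(-A)` at a column `n ≤ s`): the same; in particular at the
crossing of `thr` a new label `≠` the kept one has radius `> (log s)^(-A)` -/
theorem up_fat (h : BF N c p0 q) {s n : ℕ} (hs : s ∈ c.t.mt q) (hn : p0 ≤ n) (hns : n ≤ s)
    (hf : c.wp.thr n ≤ Rad c q s) (h1 : Rad c q s ≤ Real.log s ^ (-(Aex N))) {σ : ℚ}
    (hl : lab0 c.γ (c.r q) (s * Bab c.t q s) = some σ) :
    lab0 c.γ (c.r q) (Bab c.t q s) = some σ :=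
  h.up hs h1 ((h.tlo s n hn hns).trans hf) hl

/-- **every birth of a label is fat (radius `> (log s)^(-A)`) or super-tiny**, the second kind for one
rational only -/
theorem dich (h : BF N c p0 q) : ∃ σ : ℚ, ∀ s ∈ c.t.mt q, ∀ τ : ℚ,
    BirL c.t c.γ (c.r q) q s τ → Real.log s ^ (-(Aex N)) < Rad c q s ∨
      (τ = σ ∧ Rad c q s < Real.exp (-((s : ℝ) ^ (1 / 4 : ℝ)))) :=
  birth_dich h.mpos h.few h.big (fun x hx => (h.mp x hx).le) h.nb

/-- **a fat birth is dense at the birth tie**: `k^5 thr s ≤ 1` -/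
theorem fat_dense (h : BF N c p0 q) {s : ℕ} (hs : s ∈ c.t.mt q)
    (hf : Real.log s ^ (-(Aex N)) < Rad c q s) {τ : ℚ}
    (hl : lab0 c.γ (c.r q) (s * Bab c.t q s) = some τ) :
    StM6.dense (c.wp.thr s) (s * Bab c.t q s) τ := by
  have hb : 0 < s * Bab c.t q s := Nat.mul_pos (h.mpos s hs) (Bab_pos h.mpos s)
  obtain ⟨h0, h1, h2, h3⟩ := StM6.own_spec hb hl
  have e : ((s * Bab c.t q s : ℕ) : ℝ) * c.r q = Rad c q s := by unfold Rad; push_cast; ring
  rw [e] at h2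
  unfold StM6.dense
  refine (mul_le_mul_of_nonneg_left ?_ (StM6.d5_pos _ _).le).trans h2
  exact (h.thr s (h.mp s hs).le).trans hf.le

/-- **the sticky label changes at most once at the missing ties which are thin below** -/
theorem sl_unique (h : BF N c p0 q) {s s' : ℕ} (hs : s ∈ c.t.mt q) (hs' : s' ∈ c.t.mt q)
    (ht : Rad c q s ≤ c.wp.thr s) (ht' : Rad c q s' ≤ c.wp.thr s')
    (hc : sl c.γ (c.r q) (s :: lst (c.t.mt q) s) ≠ sl c.γ (c.r q) (lst (c.t.mt q) s))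
    (hc' : sl c.γ (c.r q) (s' :: lst (c.t.mt q) s') ≠ sl c.γ (c.r q) (lst (c.t.mt q) s')) :
    s = s' :=
  sl_change_unique h.mpos h.few h.big (fun x hx => (h.mp x hx).le) h.nb hs hs' (h.le_A hs ht)
    (h.le_A hs' ht') hc hc'

/-- **a new label of the sparse regime at a missing tie which is thin below: once per item** -/
theorem sla_unique (h : BF N c p0 q) {s s' : ℕ} (hs : s ∈ c.t.mt q) (hs' : s' ∈ c.t.mt q)
    (ht : Rad c q s ≤ c.wp.thr s) (ht' : Rad c q s' ≤ c.wp.thr s') {τ τ' : ℚ}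
    (h1 : sla c.γ (c.r q) (s :: lst (c.t.mt q) s) = some τ)
    (h2 : sla c.γ (c.r q) (lst (c.t.mt q) s) ≠ some τ)
    (h1' : sla c.γ (c.r q) (s' :: lst (c.t.mt q) s') = some τ')
    (h2' : sla c.γ (c.r q) (lst (c.t.mt q) s') ≠ some τ') : s = s' ∧ τ = τ' :=
  sla_new_unique h.mpos h.few h.big (fun x hx => (h.mp x hx).le) h.nb hs hs' (h.le_A hs ht)
    (h.le_A hs' ht') h1 h2 h1' h2'

/-- a **new game label at the own missing tie `s`**: state `st` above (`= own`), `st'` below -/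
def NewG (c : Cf) (q s : ℕ) (t' : ℝ) (st' : Option ℚ) (τ : ℚ) : Prop :=
  (st' = own c.γ (c.r q) (s :: lst (c.t.mt q) s) ∨ st' = own c.γ (c.r q) (lst (c.t.mt q) s) ∨
      st' = none) ∧
    gl st' t' c.γ (c.r q) (s :: lst (c.t.mt q) s) = some τ ∧
    gl (own c.γ (c.r q) (lst (c.t.mt q) s)) (c.wp.thr s) c.γ (c.r q) (lst (c.t.mt q) s) ≠ some τ

/-- a new game label is a new label of the sparse regime and an own-radius label -/
lemma newG_sla (h : BF N c p0 q) {s : ℕ} (hs : s ∈ c.t.mt q) {t' : ℝ} {st' : Option ℚ} {τ : ℚ}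
    (hn : NewG c q s t' st' τ) :
    sla c.γ (c.r q) (s :: lst (c.t.mt q) s) = some τ ∧
      sla c.γ (c.r q) (lst (c.t.mt q) s) ≠ some τ ∧
      own c.γ (c.r q) (s :: lst (c.t.mt q) s) = some τ := by
  obtain ⟨h1, h2, h3⟩ := hn
  have hs0 := h.mpos s hs
  have hL : 0 < (lst (c.t.mt q) s).prod := by rw [lst_prod_Bab]; exact Bab_pos h.mpos s
  have hsL : 0 < (s :: lst (c.t.mt q) s).prod := by
    rw [List.prod_cons]; exact Nat.mul_pos hs0 hL
  have e0 := StM6.gl_own (t := c.wp.thr s) (γ := c.γ) (ψ := c.r q) (st := own c.γ (c.r q)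
    (lst (c.t.mt q) s)) hL rfl
  rcases StM6.miss_cases (t := c.wp.thr s) (t' := t') (st' := st') (γ := c.γ) (ψ := c.r q)
    (st := own c.γ (c.r q) (lst (c.t.mt q) s)) hs0 hL rfl h1 with k | ⟨ρ, k1, k2⟩ | ⟨-, k2, -⟩
  · rw [k] at h2; exact absurd h2 h3
  · rw [h2] at k2
    have e : τ = ρ := Option.some.inj k2
    subst e
    refine ⟨StM6.sla_of_own hsL k1, ?_, k1⟩
    rw [← e0]; exact h3
  · rw [h2] at k2; exact absurd k2 (by simp)

/-- **THE LINE OF THE THIN BIRTHS, `J = 1`**: the game label of an item becomes a new label at at most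
ONE own missing tie which is thin below (rate `1` at that column) -/
theorem newG_unique (h : BF N c p0 q) {s s' : ℕ} (hs : s ∈ c.t.mt q) (hs' : s' ∈ c.t.mt q)
    (ht : Rad c q s ≤ c.wp.thr s) (ht' : Rad c q s' ≤ c.wp.thr s') {t₁ t₂ : ℝ}
    {st₁ st₂ : Option ℚ} {τ τ' : ℚ} (h1 : NewG c q s t₁ st₁ τ) (h2 : NewG c q s' t₂ st₂ τ') :
    s = s' ∧ τ = τ' := by
  obtain ⟨a1, a2, -⟩ := h.newG_sla hs h1
  obtain ⟨b1, b2, -⟩ := h.newG_sla hs' h2
  exact h.sla_unique hs hs' ht ht' a1 a2 b1 b2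

end BF

end ctx

end Crest.Agent.R4P.Bir30
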