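import Crest.Agent.R4P.Prc_49

/-!
R4 (S0004) with powers, T3 (heights > 1), helper48: **births of the rows in the `L²` form**.

* `adj` : from an instance of `MSx_25` and functions `d` (discount of the births), `q` (price) the
  instance with `PR - d`, `ex - d`, `PtP - q`, `brB + q` (same walk, costs, scales, energies).
* `BL D` : births paid in the `L²` form: `eL ≤ e` (total), located in the classes as `g2`
  (`v + g2 ≤ min hP σ`), up to losses `los` of the truncation; price `qp` of the located part.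
* `BPay3L`, **`msx_pay3L`** : `Pay349.msx_pay3B` with the births `e0 - eL` (linear) and the price
  `qp + 14 σ los`.
* `price_g2` : the price by `PM7_L2z` (parameters for every class, at every point).
-/

set_option autoImplicit false
set_option linter.unusedSectionVars false
set_option linter.unusedVariables false
open MeasureTheory Filter Set

namespace Crest.Agent.R4P.BthL48

open Crest.Agent.R4.Tour104 Crest.Agent.R4.Clos758
open Crest.Agent.R4P.LogG51 (PB_max)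
open Crest.Agent.R4P.Mode940 Crest.Agent.R4P.ModeG51 Crest.Agent.R4P.ModeR16
open Crest.Agent.R4P.ModeS16 Crest.Agent.R4P.Pay45
open Crest.Agent.R4P.MSx25 (MSx)

/-! ### the abstract walk -/

section abs
variable {σ : Type*}

lemma Ep_sub' {p : ℕ} (f g : ℝ → ℝ) (y : ℝ) :
    Ep p (fun x => f x - g x) y = Ep p f y - Ep p g y := by
  unfold Ep
  rw [Finset.sum_sub_distrib, sub_div]

lemma Ep_add' {p : ℕ} (f g : ℝ → ℝ) (y : ℝ) :
    Ep p (fun x => f x + g x) y = Ep p f y + Ep p g y := by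
  unfold Ep
  rw [Finset.sum_add_distrib, add_div]

lemma Ep_smul' {p : ℕ} (a : ℝ) (f : ℝ → ℝ) (y : ℝ) :
    Ep p (fun x => a * f x) y = a * Ep p f y := by
  unfold Ep
  rw [← Finset.mul_sum, mul_div_assoc]

/-- **discount `d` of the births against the price `q`** -/
noncomputable def adj (w : MSx σ) (d q : ℕ → ℕ → σ → ℝ → ℝ)
    (pd : ∀ {k p t}, w.ok p t → p ≠ 0 → PB (d k p t))
    (pq : ∀ {k p t}, w.ok p t → p ≠ 0 → PB (q k p t))
    (hPR : ∀ {k p t}, w.ok p t → p ≠ 0 → ∀ x, d k p t x ≤ w.PR k p t x)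
    (hex : ∀ {k p t}, w.ok p t → p ≠ 0 → ∀ x, d k p t x ≤ w.ex k p t x)
    (h1 : ∀ {k p t}, w.ok p t → p ≠ 0 → ∀ x, w.PtP k p t x ≤ (w.PR k p t x - d k p t x) +
      14 * (2 ^ k * (w.AP k p t x - (w.be k p t (p * x) + w.G k p t x))) + q k p t x) :
    MSx σ :=
  { w with
    ex := fun k p t x => w.ex k p t x - d k p t x
    brB := fun k p t x => w.brB k p t x + q k p t x
    PR := fun k p t x => w.PR k p t x - d k p t x
    PtP := fun k p t x => w.PtP k p t x - q k p t x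
    pex := fun ht hp => PB_sub (w.pex ht hp) (pd ht hp) (hex ht hp)
    pbrB := fun ht hp => (w.pbrB ht hp).add (pq ht hp)
    PR0 := fun ht hp x => sub_nonneg.2 (hPR ht hp x)
    pPR := fun ht hp => PB_sub (w.pPR ht hp) (pd ht hp) (hPR ht hp)
    col := fun {k p t} ht hp y => by
      have h := w.col (k := k) ht hp y
      have e1 : Ep p (fun x => w.cS k p t x + (w.PR k p t x - d k p t x)) y =
          Ep p (fun x => w.cS k p t x + w.PR k p t x) y - Ep p (d k p t) y := by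
        rw [← Ep_sub']
        congr 1
        funext x
        ring
      have e2 : Ep p (fun x => w.ex k p t x - d k p t x) y =
          Ep p (w.ex k p t) y - Ep p (d k p t) y := Ep_sub' _ _ y
      show Ep p (fun x => w.cS k p t x + (w.PR k p t x - d k p t x)) y ≤
        w.Pt k p (w.C p t) y + Ep p (fun x => w.ex k p t x - d k p t x) y
      rw [e1, e2]
      linarith
    PB1 := fun {k p t} ht hp x => by
      have h := h1 (k := k) ht hp x
      show w.PtP k p t x - q k p t x ≤ (w.PR k p t x - d k p t x) +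
        14 * (2 ^ k * (w.AP k p t x - (w.be k p t (p * x) + w.G k p t x)))
      linarith
    refB := fun {k p t} ht hp x => by
      have h := w.refB (k := k) ht hp x
      show w.PtB k p t x ≤ (w.PtP k p t x - q k p t x) +
        14 * (2 ^ k * (w.AB k p t x + w.asB k p t x - w.AP k p t x)) +
          (w.brB k p t x + q k p t x)
      linarith }

end abs

/-! ### group data -/

section group
open Crest.Agent.R4P.GMer27 Crest.Agent.R4P.GCol27 Crest.Agent.R4P.RSys343 Crest.Agent.R4P.TrR343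
open Crest.Agent.R4P.MSi343 Crest.Agent.R4P.PayR45 Crest.Agent.R4P.MSm25 Crest.Agent.R4P.RXm55
open Crest.Agent.R4P.RXm55.RXm Crest.Agent.R4P.Pay349
open Crest.Agent.R4P.PMs49 Crest.Agent.R4P.ModeP940
open Crest.Agent.R4P.RXj343.RX (sm2 q2)

variable {β δ : Type} [Fintype δ] {R : RXm β δ} {U : RBm R}

/-- **births in the `L²` form** -/
structure BL (D : RGx U) where
  /-- births paid in the `L²` form -/
  eL : ℝ → ℕ → β → ℝ → ℝ
  /-- their location in the classes -/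
  g2 : ℝ → ℕ → β → δ → ℝ → ℝ
  /-- losses of the truncation -/
  los : ℝ → ℕ → β → ℝ → ℝ
  /-- price of the located part -/
  qp : ℝ → ℕ → Gs β → ℝ → ℝ
  peL : ∀ {σ p b}, 0 < σ → R.ok p b → p ≠ 0 → PB (eL σ p b)
  pg2 : ∀ {σ p b}, 0 < σ → R.ok p b → p ≠ 0 → ∀ z, PB (g2 σ p b z)
  plos : ∀ {σ p b}, 0 < σ → R.ok p b → p ≠ 0 → PB (los σ p b)
  pqp : ∀ {σ p s}, 0 < σ → D.ok p s → p ≠ 0 → PB (qp σ p s)
  eLe : ∀ {σ p b}, 0 < σ → R.ok p b → p ≠ 0 → ∀ x, eL σ p b x ≤ (R.sd σ p b).e x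
  g2le : ∀ {σ p b}, 0 < σ → R.ok p b → p ≠ 0 → ∀ z x,
    (R.sd σ p b).vm z x + (R.sd σ p b).vs z x + g2 σ p b z x ≤ min (R.hP p b z x) σ
  lose : ∀ {σ p b}, 0 < σ → R.ok p b → p ≠ 0 → ∀ x,
    eL σ p b x ≤ ∑ z, g2 σ p b z x + los σ p b x
  price : ∀ {σ p s}, 0 < σ → D.ok p s → p ≠ 0 → ∀ x, R.PtP σ p s x ≤
    pot σ s (fun b z x => min (R.hP p b z x) σ - g2 σ p b z x) x + qp σ p s x

namespace BL
variable {D : RGx U} (L : BL D) {σ : ℝ} {p : ℕ} {s : Gs β}

/-- the discount -/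
noncomputable def dd (σ : ℝ) (p : ℕ) (s : Gs β) (x : ℝ) : ℝ := 14 * (σ * su s (L.eL σ p) x)

/-- the price -/
noncomputable def qq (σ : ℝ) (p : ℕ) (s : Gs β) (x : ℝ) : ℝ :=
  L.qp σ p s x + 14 * (σ * su s (L.los σ p) x)

lemma PB_eL (hσ : 0 < σ) (hs : D.ok p s) (hp : p ≠ 0) : PB (su s (L.eL σ p)) :=
  PB_su (D.gk hs).1 fun j => L.peL hσ ((D.gk hs).2 j) hp

lemma PB_los (hσ : 0 < σ) (hs : D.ok p s) (hp : p ≠ 0) : PB (su s (L.los σ p)) :=
  PB_su (D.gk hs).1 fun j => L.plos hσ ((D.gk hs).2 j) hp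

lemma PB_dd (hσ : 0 < σ) (hs : D.ok p s) (hp : p ≠ 0) : PB (L.dd σ p s) :=
  ((L.PB_eL hσ hs hp).smul hσ.le).smul (by norm_num)

lemma PB_qq (hσ : 0 < σ) (hs : D.ok p s) (hp : p ≠ 0) : PB (L.qq σ p s) :=
  (L.pqp hσ hs hp).add (((L.PB_los hσ hs hp).smul hσ.le).smul (by norm_num))

lemma eL_le (hσ : 0 < σ) (hs : D.ok p s) (hp : p ≠ 0) (x : ℝ) :
    su s (L.eL σ p) x ≤ R.e0 σ p s x :=
  M_mono (D.gk hs).1.c0 fun j => L.eLe hσ ((D.gk hs).2 j) hp x

lemma dd_le (hσ : 0 < σ) (hs : D.ok p s) (hp : p ≠ 0) (x : ℝ) :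
    L.dd σ p s x ≤ 14 * (σ * R.e0 σ p s x) :=
  mul_le_mul_of_nonneg_left (mul_le_mul_of_nonneg_left (L.eL_le hσ hs hp x) hσ.le) (by norm_num)

lemma dd_PR (hσ : 0 < σ) (hs : D.ok p s) (hp : p ≠ 0) (x : ℝ) :
    L.dd σ p s x ≤ R.PR σ p s x := by
  have h1 := L.dd_le hσ hs hp x
  have h2 : 0 ≤ pot σ s (R.vk σ p) x :=
    (PB_pot hσ (D.gk hs).1 (fun j z => PB_vk hσ (D.gk hs) hp j z)
      (fun j z x => v_le hσ (D.gk hs) hp j z x)).nonneg x
  unfold RXm.PR
  linarith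

lemma dd_ex (hσ : 0 < σ) (hs : D.ok p s) (hp : p ≠ 0) (x : ℝ) :
    L.dd σ p s x ≤ R.ex σ p s x := by
  have h1 := L.dd_le hσ hs hp x
  have h2 : 0 ≤ 1 / 7 * ∑ z, Ep p (fun x => M s.c fun j => (R.sd σ p (s.L j)).gX z x)
      (p * x) ^ 2 := mul_nonneg (by norm_num) (Finset.sum_nonneg fun z _ => sq_nonneg _)
  unfold RXm.ex
  linarith

/-- **the potential of the ties, births in the `L²` form** -/
theorem PB1L (hσ : 0 < σ) (hs : D.ok p s) (hp : p ≠ 0) (x : ℝ) :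
    R.PtP σ p s x ≤ (R.PR σ p s x - L.dd σ p s x) +
      14 * (σ * (R.AP σ p s x - R.vt σ p s x)) + L.qq σ p s x := by
  have hg := D.gk hs
  have h0 := L.price hσ hs hp x
  -- the part which is not located
  have hle : ∀ z j, 0 ≤ (min (R.hP p (s.L j) z x) σ - L.g2 σ p (s.L j) z x) -
      R.vk σ p (s.L j) z x := fun z j => by
    have := L.g2le hσ (hg.2 j) hp z x
    unfold RXm.vk
    linarith
  have h := PM7_drop hg.1 hσ (f := fun z j => R.vk σ p (s.L j) z x)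
    (g := fun z j => (min (R.hP p (s.L j) z x) σ - L.g2 σ p (s.L j) z x) -
      R.vk σ p (s.L j) z x)
    (fun z j => (PB_vk hσ hg hp j z).nonneg x) hle fun z j => by
      have e : R.vk σ p (s.L j) z x + ((min (R.hP p (s.L j) z x) σ -
        L.g2 σ p (s.L j) z x) - R.vk σ p (s.L j) z x) =
        min (R.hP p (s.L j) z x) σ - L.g2 σ p (s.L j) z x := by ring
      rw [e]
      have h1 := (L.pg2 hσ (hg.2 j) hp z).nonneg x
      have h2 : min (R.hP p (s.L j) z x) σ ≤ σ := min_le_right _ _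
      linarith
  have e : pot σ s (fun b z x => min (R.hP p b z x) σ - L.g2 σ p b z x) x =
      PM7 σ s.c s.W fun z j => R.vk σ p (s.L j) z x +
        ((min (R.hP p (s.L j) z x) σ - L.g2 σ p (s.L j) z x) - R.vk σ p (s.L j) z x) :=
    PM7_congr fun z j => by ring
  have e2 : SS s.c (fun z j => (min (R.hP p (s.L j) z x) σ - L.g2 σ p (s.L j) z x) -
      R.vk σ p (s.L j) z x) =
      R.AP σ p s x - sm2 s (L.g2 σ p) x - sm2 s (R.vk σ p) x := by
    unfold RXm.AP sm2 SS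
    rw [← Finset.sum_sub_distrib, ← Finset.sum_sub_distrib]
    refine Finset.sum_congr rfl fun z _ => ?_
    rw [M_sub, M_sub]
    rfl
  have h2 := v_tot hσ hg hp x
  -- the located part
  have h3 : su s (L.eL σ p) x ≤ sm2 s (L.g2 σ p) x + su s (L.los σ p) x := by
    rw [sm2_su]
    unfold su
    rw [← M_add]
    exact M_mono hg.1.c0 fun j => L.lose hσ (hg.2 j) hp x
  have h4 := mul_le_mul_of_nonneg_left h3 hσ.le
  rw [e2] at h
  rw [e] at h0
  unfold RXm.PR dd qq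
  have e3 : pot σ s (R.vk σ p) x = PM7 σ s.c s.W fun z j => R.vk σ p (s.L j) z x := rfl
  rw [e3]
  nlinarith

/-- **the scaled walk with births in the `L²` form** -/
noncomputable def msx {del : ℝ} {Km : ℕ} (h0 : 0 < del) (h1 : del ≤ 1)
    (hK : del * U.B0 ≤ 2 ^ Km) : MSx (ℕ × Gs β) :=
  adj (D.msx h0 h1 hK) (fun k p t => L.dd (2 ^ k) p t.2) (fun k p t => L.qq (2 ^ k) p t.2)
    (fun ht hp => L.PB_dd (two_pos' _) ht.2 hp) (fun ht hp => L.PB_qq (two_pos' _) ht.2 hp)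
    (fun ht hp x => L.dd_PR (two_pos' _) ht.2 hp x)
    (fun ht hp x => L.dd_ex (two_pos' _) ht.2 hp x)
    (fun {k p t} ht hp x => by
      have h := L.PB1L (two_pos' k) ht.2 hp x
      have e2 : R.vt (2 ^ k) p t.2 x = R.be (2 ^ k) p t.2 (p * x) + R.G (2 ^ k) p t.2 x := rfl
      show R.PtP (2 ^ k) p t.2 x ≤ (R.PR (2 ^ k) p t.2 x - L.dd (2 ^ k) p t.2 x) +
        14 * (2 ^ k * ((R.AP (2 ^ k) p t.2 x +
        (su t.2 (U.bU p) (p * x) + su t.2 (U.gU p) x)) - ((R.be (2 ^ k) p t.2 (p * x) +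
        su t.2 (U.bU p) (p * x)) + (R.G (2 ^ k) p t.2 x + su t.2 (U.gU p) x)))) +
        L.qq (2 ^ k) p t.2 x
      have e3 : (R.AP (2 ^ k) p t.2 x + (su t.2 (U.bU p) (p * x) + su t.2 (U.gU p) x)) -
        ((R.be (2 ^ k) p t.2 (p * x) + su t.2 (U.bU p) (p * x)) + (R.G (2 ^ k) p t.2 x +
        su t.2 (U.gU p) x)) = R.AP (2 ^ k) p t.2 x - R.vt (2 ^ k) p t.2 x := by rw [e2]; ring
      rw [e3]
      exact h)

/-- **the instance** -/
noncomputable def ms {del : ℝ} {Km : ℕ} (h0 : 0 < del) (h1 : del ≤ 1)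
    (hK : del * U.B0 ≤ 2 ^ Km) : MS (ℕ × Gs β) := (L.msx h0 h1 hK).toMS

variable {del : ℝ} {Km : ℕ} (h0 : 0 < del) (h1 : del ≤ 1) (hK : del * U.B0 ≤ 2 ^ Km)

/-- the same costs -/
lemma K_eq : ∀ (n p : ℕ) (t : ℕ × Gs β),
    ModeS16.K (L.ms h0 h1 hK) n p t = ModeS16.K (D.ms h0 h1 hK) n p t := by
  intro n
  induction n with
  | zero => intro p t; rfl
  | succ n ih =>
    intro p t
    by_cases hp : p = 0
    · subst hp
      simp [ModeS16.K]
    · rw [ModeS16.K_succ _ n hp, ModeS16.K_succ _ n hp, ih, ih]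
      rfl

/-- the same energies -/
lemma E0_eq : ∀ (n p : ℕ) (t : ℕ × Gs β),
    Pay45.E0 (L.ms h0 h1 hK) n p t = Pay45.E0 (D.ms h0 h1 hK) n p t := by
  intro n
  induction n with
  | zero => intro p t; rfl
  | succ n ih =>
    intro p t
    have e : ∀ (w : MS (ℕ × Gs β)), Pay45.E0 w (n + 1) p t =
        if p = 0 then 8 / w.del * I (ModeS16.D w 0 t) else
          el0 w p t + Pay45.E0 w n p (w.C p t) + Pay45.E0 w n (p - 1) (w.N p t) := fun w => rfl
    rw [e, e, ih, ih]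
    rfl

/-- the walk of the game is the walk of the group states -/
lemma ovr : Over (L.ms h0 h1 hK) (bm R) where
  C := fun _ _ => rfl
  N := fun _ _ => rfl
  tc := fun ht => (D.gk ht.2).1
  ok := fun ht => (D.gk ht.2).2

/-- the second order parts over the walk -/
def sec (S : GSec D) : Sec (L.ms h0 h1 hK) where
  rx := fun p t => S.rx p t.2
  rc := fun p t => S.rc p t.2
  prx := fun ht hp => S.prx ht.2 hp
  prc := fun ht hp => S.prc ht.2 hp

lemma S2_eq (S : GSec D) : ∀ (n p : ℕ) (s : Gs β),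
    S2 (L.sec h0 h1 hK S) n p (p, s) = Sg S n p s := by
  intro n
  induction n with
  | zero => intro p s; rfl
  | succ n ih =>
    intro p s
    by_cases hp : p = 0
    · subst hp
      simp [S2, Sg]
    · rw [S2_succ _ n hp, Sg_succ S n hp]
      have e3 : S2 (L.sec h0 h1 hK S) n p ((L.ms h0 h1 hK).C p (p, s)) =
        S2 (L.sec h0 h1 hK S) n p (p, R.C p s) := rfl
      have e4 : S2 (L.sec h0 h1 hK S) n (p - 1) ((L.ms h0 h1 hK).N p (p, s)) =
        S2 (L.sec h0 h1 hK S) n (p - 1) (p - 1, R.N p s) := rfl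
      rw [e3, e4, ih, ih]
      rfl

end BL

/-- **charges of the bundles** with second order parts and births in the `L²` form -/
structure BPay3L (D : RGx U) (L : BL D) (Q1 Q2 : BCh (bm R)) (S : GSec D) : Prop where
  /-- ties: linear births of the rows, price of the `L²` births, class change of the ties -/
  hc : ∀ {k : ℕ} {p s}, D.ok p s → p ≠ 0 → ∀ y,
    14 * (2 ^ k * (Ep p (R.e0 (2 ^ k) p s) y - Ep p (su s (L.eL (2 ^ k) p)) y)) +
      (Ep p (L.qp (2 ^ k) p s) y + 14 * (2 ^ k * Ep p (su s (L.los (2 ^ k) p)) y)) +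
      (Ep p (D.brB (2 ^ k) p s) y + 14 * (2 ^ k * Ep p (D.asB (2 ^ k) p s) y)) ≤
      2 ^ k * (su s (Q1.yc p) y + su s (Q2.yc p) y) + S.rc p s y
  /-- rest: class change of the rest -/
  hb : ∀ {k : ℕ} {p s}, D.ok p s → p ≠ 0 → ∀ x,
    D.br (2 ^ k) p s x + 14 * (2 ^ k * D.as (2 ^ k) p s x) ≤
      2 ^ k * (su s (Q1.yx p) x + su s (Q2.yx p) x) + S.rx p s x

/-- **the game with payments by the bundles**, births in the `L²` form -/
theorem msx_pay3L {ε J : ℝ} (hε : 0 < ε) (hJ : 0 ≤ J) :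
    ∃ (del : ℝ) (h0 : 0 < del) (h1 : del ≤ 1) (C : ℝ), 0 ≤ C ∧
    ∀ {β δ : Type} [Fintype δ] {R : RXm β δ} {U : RBm R} (D : RGx U) (L : BL D)
      {rc : ℕ → Gs β → ℝ → ℝ},
      RCost D rc → ∀ {Q1 Q2 : BCh (bm R)} {S : GSec D}, BPay3L D L Q1 Q2 S →
      (∀ {p b}, R.ok p b → ∀ x, Q1.Y p b x ≤ J * U.tt b x) →
      ∀ {Km : ℕ} (hK : del * U.B0 ≤ 2 ^ Km) (n p : ℕ) (s : Gs β), D.ok p s →
      Kr R rc n p s ≤ ε * I (fun x => su s U.tt x ^ 2) + C * I (su s U.tt) +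
        28 * Pay45.E0 (D.ms h0 h1 hK) n p (p, s) + 28 * Sg S n p s +
        C * (I (su s (Q2.Y p)) + I (fun x => su s (Q2.Y p) x ^ 2)) := by
  obtain ⟨del, h0, h1, h2⟩ := exists_delJ (ε := ε / 28) (J := J) (by positivity) hJ
  have L0 := ModeR16.Ld_pos h0
  -- the parameter of the Cauchy-Schwarz form
  obtain ⟨l, hl, hl2⟩ : ∃ l : ℝ, 0 < l ∧ 56 * del * l ≤ ε / 2 :=
    ⟨ε / (2 * (56 * del)), by positivity, le_of_eq (by field_simp)⟩
  refine ⟨del, h0, h1, 28 * (ModeR16.Ld del + J) + 28 + 56 * del * (1 / l), by positivity, ?_⟩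
  intro β δ _ R U D L rc hr Q1 Q2 S hQ hY' Km hK n p s hs
  set P1 := Q1.chg (L.ovr h0 h1 hK) with hP1
  set P2 := Q2.chg (L.ovr h0 h1 hK) with hP2
  have hY : ∀ x, P1.Y p (p, s) x ≤ J * su s U.tt x := fun x => by
    show su s (Q1.Y p) x ≤ J * su s U.tt x
    unfold su
    rw [← M_smul]
    exact M_mono (D.gk hs).1.c0 fun j => hY' ((D.gk hs).2 j) x
  have hxx : ∀ {k p : ℕ} {t : ℕ × Gs β}, (L.ms h0 h1 hK).ok p t → p ≠ 0 → ∀ y,
      Ep p ((L.ms h0 h1 hK).ex k p t) y ≤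
      4 * Ep p ((L.ms h0 h1 hK).GT p t) y ^ 2 + 2 ^ k * (P1.yc p t y + P2.yc p t y) +
        (L.sec h0 h1 hK S).rc p t y := by
    intro k p t ht hp y
    have hp0 : 0 < p := Nat.pos_of_ne_zero hp
    obtain ⟨q, s⟩ := t
    have hq : q = p := ht.1
    subst hq
    have a1 := RXm.ex_le (two_pos' k) (D.gk ht.2) hp y
    have a2 := hQ.hc (k := k) ht.2 hp y
    have b1 : Ep q ((L.ms h0 h1 hK).ex k q (q, s)) y =
        (Ep q (R.ex (2 ^ k) q s) y - 14 * (2 ^ k * Ep q (su s (L.eL (2 ^ k) q)) y)) +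
        ((Ep q (D.brB (2 ^ k) q s) y + (Ep q (L.qp (2 ^ k) q s) y +
          14 * (2 ^ k * Ep q (su s (L.los (2 ^ k) q)) y))) +
          14 * (2 ^ k * Ep q (D.asB (2 ^ k) q s) y)) := by
      have e0 : (L.ms h0 h1 hK).ex k q (q, s) = fun x =>
        (R.ex (2 ^ k) q s x - 14 * (2 ^ k * su s (L.eL (2 ^ k) q) x)) +
        ((D.brB (2 ^ k) q s x + (L.qp (2 ^ k) q s x + 14 * (2 ^ k * su s (L.los (2 ^ k) q) x))) +
        14 * (2 ^ k * D.asB (2 ^ k) q s x)) := rfl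
      rw [e0]
      rw [Ep_add' (fun x => R.ex (2 ^ k) q s x - 14 * (2 ^ k * su s (L.eL (2 ^ k) q) x))
        (fun x => (D.brB (2 ^ k) q s x + (L.qp (2 ^ k) q s x +
          14 * (2 ^ k * su s (L.los (2 ^ k) q) x))) + 14 * (2 ^ k * D.asB (2 ^ k) q s x)),
        Ep_sub' (R.ex (2 ^ k) q s) (fun x => 14 * (2 ^ k * su s (L.eL (2 ^ k) q) x)),
        Ep_add' (fun x => D.brB (2 ^ k) q s x + (L.qp (2 ^ k) q s x +
          14 * (2 ^ k * su s (L.los (2 ^ k) q) x))) (fun x => 14 * (2 ^ k * D.asB (2 ^ k) q s x)),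
        Ep_add' (D.brB (2 ^ k) q s) (fun x => L.qp (2 ^ k) q s x +
          14 * (2 ^ k * su s (L.los (2 ^ k) q) x)),
        Ep_add' (L.qp (2 ^ k) q s) (fun x => 14 * (2 ^ k * su s (L.los (2 ^ k) q) x)),
        Ep_smul' 14, Ep_smul' 14, Ep_smul' 14, Ep_smul' (2 ^ k), Ep_smul' (2 ^ k),
        Ep_smul' (2 ^ k)]
    rw [b1]
    have hs' := D.gk ht.2
    have c1 : Ep q (R.GT q s) y ≤ Ep q ((L.ms h0 h1 hK).GT q (q, s)) y := by
      unfold Ep
      refine div_le_div_of_nonneg_right (Finset.sum_le_sum fun i _ => ?_) (Nat.cast_nonneg q)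
      show R.GT q s _ ≤ R.GT q s _ + su s (U.gU q) _
      have := (PB_su hs'.1 fun j => U.pgU (hs'.2 j) hp).nonneg ((y + (i:ℝ)) / q)
      linarith
    have c2 : 0 ≤ Ep q (R.GT q s) y := ((RXm.PB_GT hs' hp).Ep hp0).nonneg y
    have c3 := pow_le_pow_left₀ c2 c1 2
    have c4 : 0 ≤ Ep q (R.GT q s) y ^ 2 := by positivity
    have c5 : (L.sec h0 h1 hK S).rc q (q, s) y = S.rc q s y := rfl
    have c6 : P1.yc q (q, s) y = su s (Q1.yc q) y := rfl
    have c7 : P2.yc q (q, s) y = su s (Q2.yc q) y := rfl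
    rw [c5, c6, c7]
    linarith
  have hbb : ∀ {k p : ℕ} {t : ℕ × Gs β}, (L.ms h0 h1 hK).ok p t → p ≠ 0 → ∀ x,
      (L.ms h0 h1 hK).br k p t x ≤ 2 ^ k * (P1.yx p t x + P2.yx p t x) +
        (L.sec h0 h1 hK S).rx p t x := by
    intro k p t ht hp x
    obtain ⟨q, s⟩ := t
    have hq : q = p := ht.1
    subst hq
    exact hQ.hb (k := k) ht.2 hp x
  have h := main_pay3 (w := L.ms h0 h1 hK) P1 P2 (L.sec h0 h1 hK S) hxx hbb hJ hl n p (p, s)
    ⟨rfl, hs⟩ hY
  have e1 : (L.ms h0 h1 hK).T (p, s) = su s U.tt := rfl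
  have e2 : (L.ms h0 h1 hK).del = del := rfl
  rw [e1, e2, L.S2_eq, L.K_eq, L.E0_eq] at h
  have h3 : 0 ≤ I (fun x => su s U.tt x ^ 2) := I_nonneg fun x => sq_nonneg _
  have h4 := mul_le_mul_of_nonneg_right h2 h3
  have h5 := Kr_le D hr h0 h1 hK n p s hs
  have hs' := D.gk hs
  have h6 : 0 ≤ I (su s U.tt) := I_nonneg fun x => (U.PB_tt hs').nonneg x
  have hok : (L.ms h0 h1 hK).ok p (p, s) := ⟨rfl, hs⟩
  have h7 : 0 ≤ I (P2.Y p (p, s)) := I_nonneg fun x => (P2.pY hok).nonneg x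
  have h8 : 0 ≤ I (fun x => P2.Y p (p, s) x ^ 2) := I_nonneg fun x => sq_nonneg _
  have h9 := mul_le_mul_of_nonneg_right hl2 h3
  have e5 : P2.Y p (p, s) = su s (Q2.Y p) := rfl
  rw [e5] at h h7 h8
  set A := I (fun x => su s U.tt x ^ 2)
  set B := I (su s U.tt)
  set Y1 := I (su s (Q2.Y p))
  set Y2 := I (fun x => su s (Q2.Y p) x ^ 2)
  have n1 : 0 ≤ 56 * del * (1 / l) := by positivity
  have n2 : 0 ≤ 28 * (ModeR16.Ld del + J) := by positivity
  have k1 := mul_nonneg n1 h6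
  have k2 := mul_nonneg n1 h7
  have k3 := mul_nonneg n2 h7
  have k4 := mul_nonneg n2 h8
  have e3 : 14 * (2 * (Y1 + 2 * del * (l * A + 1 / l * Y2))) =
      28 * Y1 + 56 * del * l * A + 56 * del * (1 / l) * Y2 := by ring
  nlinarith

end group

end Crest.Agent.R4P.BthL48
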