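import Crest.Agent.R4P.BthL_48
import Crest.Agent.R4P.TyG_16

/-!
R4 (S0004) with powers, T3, helper48: **births of the typed rows (`TyS_16`, `TyG_16`) in the `L²` form**.

* `key` : the room of a class after the event: births and gains at a scale;
* `RL` : the virtual parts of a typed row (`ps` = separated part), `RL_M`, `RL_U`, `RL_glue`, `GMU.RL` :
  births `≤` losses `+ E0`, `E0 = nu + m / p` (marked), `sh η + m / p` (unmarked);
* `g2F`, `losF`, `e1F` : location, losses, linear rest; **`births_le`** : `Σ e ≤ Σ g2 + Σ e1 + los`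
  (gains of the family = losses of the family), `losF_dy` : `2^l los(2^l) ≤ jA`;
(The `BL` of a row system with typed rows: `BthS_48`.)
-/

set_option autoImplicit false
set_option linter.unusedSectionVars false
set_option linter.unusedVariables false
open MeasureTheory Filter Set

namespace Crest.Agent.R4P.BthR48

open Crest.Agent.R4.Tour104 Crest.Agent.R4P.MisR16 Crest.Agent.R4P.TyR16
open Crest.Agent.R4P.TrR343 Crest.Agent.R4P.RXs343 Crest.Agent.R4P.RXm55 Crest.Agent.R4P.TyS16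
open Crest.Agent.R4P.TrM28

/-! ### the scalar lemma -/

lemma min_add_le' {a b σ : ℝ} (hb : 0 ≤ b) : min (a + b) σ ≤ min a σ + b := by
  rcases le_total a σ with h | h
  · rw [min_eq_left h]; exact min_le_left _ _
  · rw [min_eq_right h]; exact (min_le_right _ _).trans (by linarith)

/-- **the room of a class** -/
lemma key {σ W g l h v u E l0 : ℝ} (hg : 0 ≤ g) (hl : 0 ≤ l) (hl0 : 0 ≤ l0)
    (e : h + l = W + g) (hu : u ≤ min W σ + l0) (hu2 : u - v ≤ l + E) :
    u - v + (g - xg σ W g) ≤ min (min h σ - v) (E + g) + l + l0 := by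
  unfold xg
  rcases le_total (min h σ - v) (E + g) with h1 | h1
  · rw [min_eq_left h1]
    have h2 : min (W + g) σ ≤ min h σ + l := by
      rw [← e]; exact min_add_le' hl
    linarith
  · rw [min_eq_right h1]
    have h2 : min (W + g) σ ≤ min W σ + g := min_add_le' hg
    linarith

/-- a part `E2` of the located births -/
lemma key2 {σ W g l h v u E l0 E2 : ℝ} (hg : 0 ≤ g) (hl : 0 ≤ l) (hl0 : 0 ≤ l0)
    (e : h + l = W + g) (hu : u ≤ min W σ + l0) (hu2 : u - v ≤ l + E) (hE : E2 ≤ E + g) :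
    u - v + (g - xg σ W g) ≤ min (min h σ - v) E2 + (E + g - E2) + l + l0 := by
  have h1 := key (σ := σ) hg hl hl0 e hu hu2
  have h2 : min (min h σ - v) (E + g) ≤ min (min h σ - v) E2 + (E + g - E2) := by
    rcases le_total (min h σ - v) E2 with h3 | h3
    · rw [min_eq_left h3]
      exact (min_le_left _ _).trans (by linarith)
    · rw [min_eq_right h3]
      exact (min_le_right _ _).trans (by linarith)
  linarith

/-! ### the virtual parts of a typed row -/

/-- **virtual parts of a typed row** : `ps` = separated part, `E0` = located births of the main part -/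
structure RL (p : ℕ) (σ : ℝ) (R : TRaw) (E0 ps : ℝ → ℝ) : Prop where
  s2 : ∀ x, ps x ≤ min (R.Ws x) σ
  s3 : ∀ x, ps x - (R.D σ).vs x ≤ R.lS x
  m1 : ∀ x, (R.D σ).be (p * x) + (R.D σ).sg x - ps x ≤ min (R.Wm x) σ + R.l0 σ x
  m2 : ∀ x, (R.D σ).be (p * x) + (R.D σ).sg x - ps x - (R.D σ).vm x ≤ R.lm x + E0 x

section M
variable {p : ℕ} {α κ b ν m s nu hm hs gm gs lm lS : ℝ → ℝ}

/-- the marked row -/
theorem RL_M (H : HM p α κ b ν m s nu hm hs gm gs lm lS) {σ : ℝ} (hσ : 0 < σ) :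
    RL p σ (mkM p α κ b ν m s nu hm hs gm gs lm lS)
      (fun x => nu x + 1 / (p : ℝ) * m (p * x)) (pS p α κ s σ) := by
  have hw := H.w0
  have pm' := (H.pm.pull p).smul hw
  have htot : ∀ x, ((mkM p α κ b ν m s nu hm hs gm gs lm lS).D σ).be (p * x) +
      ((mkM p α κ b ν m s nu hm hs gm gs lm lS).D σ).sg x = mS p α κ b s σ x + pS p α κ s σ x +
      nS p b ν nu σ x + 1 / (p : ℝ) * tmS b ν m σ (p * x) := fun x => by
    rw [← (H.tr hσ).tot x]
    show min (mS p α κ b s σ x) (hm x) + min (pS p α κ s σ x) (hs x) +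
      ((mS p α κ b s σ x - min (mS p α κ b s σ x) (hm x)) +
        (pS p α κ s σ x - min (pS p α κ s σ x) (hs x)) + nS p b ν nu σ x +
        1 / (p : ℝ) * tmS b ν m σ (p * x)) = _
    ring
  have hmS : ∀ x, mS p α κ b s σ x - min (mS p α κ b s σ x) (hm x) ≤ lm x := fun x => by
    have a1 := (H.mS_le (σ := σ) x).trans (min_le_left _ _)
    have a2 := H.hm_eq x
    have a3 := H.pgm.nonneg x
    have a4 := H.pnu.nonneg x
    have a5 := pm'.nonneg x
    have a6 := H.plm.nonneg x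
    rcases le_total (mS p α κ b s σ x) (hm x) with h | h
    · rw [min_eq_left h]; linarith
    · rw [min_eq_right h]; linarith
  have hpS : ∀ x, pS p α κ s σ x - min (pS p α κ s σ x) (hs x) ≤ lS x := fun x => by
    have a1 := (H.pS_le hσ.le x).trans (min_le_left _ _)
    have a2 := H.hs_eq x
    have a3 := H.pgs.nonneg x
    have a6 := H.plS.nonneg x
    rcases le_total (pS p α κ s σ x) (hs x) with h | h
    · rw [min_eq_left h]; linarith
    · rw [min_eq_right h]; linarith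
  have htm : ∀ x, 1 / (p : ℝ) * tmS b ν m σ (p * x) ≤ 1 / (p : ℝ) * m (p * x) := fun x =>
    mul_le_mul_of_nonneg_left (tκ_le (H.pm.nonneg _) σ) hw
  refine ⟨fun x => H.pS_le hσ.le x, fun x => hpS x, fun x => ?_, fun x => ?_⟩
  · rw [htot x]
    have h1 := H.mS_le (σ := σ) x
    have h2 : nS p b ν nu σ x ≤ min (nu x) σ := by
      refine le_min (H.nS_le hσ.le x) ((H.nS_le_tn hσ.le x).trans ?_)
      have h3 := H.tb_tn (σ := σ) (p * x)
      have h4 : min (b (p * x) + ν (p * x)) σ ≤ σ := min_le_right _ _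
      have h5 := (PB_minc hσ.le H.pb).nonneg (p * x)
      linarith
    have h3 : 1 / (p : ℝ) * tmS b ν m σ (p * x) ≤ min (1 / (p : ℝ) * m (p * x)) σ := by
      refine le_min (htm x) ?_
      have h4 : tmS b ν m σ (p * x) ≤ σ := by
        unfold tmS tκ
        have h5 : min (b (p * x) + ν (p * x) + m (p * x)) σ ≤ σ := min_le_right _ _
        have h6 := (PB_minc hσ.le (H.pb.add H.pν)).nonneg (p * x)
        linarith
      have h7 := mul_le_mul_of_nonneg_right H.w1 ((H.PB_tm hσ.le).nonneg (p * x))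
      linarith
    show mS p α κ b s σ x + pS p α κ s σ x + nS p b ν nu σ x +
      1 / (p : ℝ) * tmS b ν m σ (p * x) - pS p α κ s σ x ≤
      min (mnR (1 / (p : ℝ)) (α (p * x)) (b (p * x)) (κ (p * x)) (s x) + nu x +
        1 / (p : ℝ) * m (p * x)) σ +
      (min (mnR (1 / (p : ℝ)) (α (p * x)) (b (p * x)) (κ (p * x)) (s x)) σ +
        min (nu x) σ + min (1 / (p : ℝ) * m (p * x)) σ -
        min (mnR (1 / (p : ℝ)) (α (p * x)) (b (p * x)) (κ (p * x)) (s x) + nu x +
          1 / (p : ℝ) * m (p * x)) σ)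
    linarith
  · rw [htot x]
    have h1 := hmS x
    have h2 := H.nS_le hσ.le x
    have h3 := htm x
    show mS p α κ b s σ x + pS p α κ s σ x + nS p b ν nu σ x +
      1 / (p : ℝ) * tmS b ν m σ (p * x) - pS p α κ s σ x - min (mS p α κ b s σ x) (hm x) ≤
      lm x + (nu x + 1 / (p : ℝ) * m (p * x))
    linarith

end M

section U
variable {p : ℕ} {A B m δ gc hm hs gm gs lm lS : ℝ → ℝ}

/-- the unmarked row -/
theorem RL_U (H : HU p A B m δ gc hm hs gm gs lm lS) {σ : ℝ} (hσ : 0 < σ) :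
    RL p σ (mkU p A B m δ gc hm gm gs lm lS)
      (fun x => sh p δ gc x * et A B δ (p * x) + 1 / (p : ℝ) * m (p * x)) (fun _ => 0) := by
  have hw := H.w0
  have hw1' : 0 ≤ 1 - 1 / (p : ℝ) := by linarith [H.w1]
  have pm' := (H.pm.pull p).smul hw
  have htot : ∀ x, ((mkU p A B m δ gc hm gm gs lm lS).D σ).be (p * x) +
      ((mkU p A B m δ gc hm gm gs lm lS).D σ).sg x = mU p A B δ gc σ x + pU p A B δ gc σ x +
      1 / (p : ℝ) * tκ (B (p * x)) (m (p * x)) σ := fun x => by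
    rw [← (H.tr hσ).tot x]
    show min (mU p A B δ gc σ x) (hm x) + 0 +
      ((mU p A B δ gc σ x - min (mU p A B δ gc σ x) (hm x)) + pU p A B δ gc σ x +
        1 / (p : ℝ) * tκ (B (p * x)) (m (p * x)) σ) = _
    ring
  have hpI : ∀ x, pU p A B δ gc σ x ≤ sh p δ gc x * et A B δ (p * x) := fun x => by
    refine ((H.pU_le hσ.le x).trans (min_le_left _ _)).trans ?_
    have h1 := mul_nonneg (H.sh0 x) (H.et0 (p * x))
    have h2 := mul_nonneg hw h1
    unfold pI
    nlinarith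
  have hmU : ∀ x, mU p A B δ gc σ x - min (mU p A B δ gc σ x) (hm x) ≤ lm x := fun x => by
    have a1 := (H.mU_le (σ := σ) x).trans (min_le_left _ _)
    have a2 := H.hm_eq x
    have a3 := H.pgm.nonneg x
    have a4 := H.ideal x
    have a5 := pm'.nonneg x
    have a6 := H.plm.nonneg x
    have a7 := H.PB_pI.nonneg x
    rcases le_total (mU p A B δ gc σ x) (hm x) with h | h
    · rw [min_eq_left h]; linarith
    · rw [min_eq_right h]; linarith
  have htm : ∀ x, 1 / (p : ℝ) * tκ (B (p * x)) (m (p * x)) σ ≤ 1 / (p : ℝ) * m (p * x) := fun x =>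
    mul_le_mul_of_nonneg_left (tκ_le (H.pm.nonneg _) σ) hw
  refine ⟨fun x => ?_, fun x => ?_, fun x => ?_, fun x => ?_⟩
  · show (0 : ℝ) ≤ min 0 σ
    rw [min_eq_left hσ.le]
  · show (0 : ℝ) - 0 ≤ lS x
    rw [sub_zero]; exact H.plS.nonneg x
  · rw [htot x]
    have h1 := H.mU_le (σ := σ) x
    have h2 := H.pU_le hσ.le x
    have h3 : 1 / (p : ℝ) * tκ (B (p * x)) (m (p * x)) σ ≤ min (1 / (p : ℝ) * m (p * x)) σ := by
      refine le_min (htm x) ?_
      have h4 : tκ (B (p * x)) (m (p * x)) σ ≤ σ := by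
        unfold tκ
        have h5 : min (B (p * x) + m (p * x)) σ ≤ σ := min_le_right _ _
        have h6 := (PB_minc hσ.le H.pB).nonneg (p * x)
        linarith
      have h7 := mul_le_mul_of_nonneg_right H.w1 ((PB_tκ H.pB H.pm hσ.le).nonneg (p * x))
      linarith
    have h4 := H.ideal x
    show mU p A B δ gc σ x + pU p A B δ gc σ x + 1 / (p : ℝ) * tκ (B (p * x)) (m (p * x)) σ - 0 ≤
      min (((1 - 1 / (p : ℝ)) * A (p * x) + 1 / (p : ℝ) * (B (p * x) - δ (p * x))) + gc x +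
        1 / (p : ℝ) * m (p * x)) σ +
      (min (mI p A B δ gc x) σ + min (pI p A B δ gc x) σ + min (1 / (p : ℝ) * m (p * x)) σ -
        min (mI p A B δ gc x + pI p A B δ gc x + 1 / (p : ℝ) * m (p * x)) σ)
    rw [h4]
    linarith
  · rw [htot x]
    have h1 := hmU x
    have h2 := hpI x
    have h3 := htm x
    show mU p A B δ gc σ x + pU p A B δ gc σ x + 1 / (p : ℝ) * tκ (B (p * x)) (m (p * x)) σ - 0 -
      min (mU p A B δ gc σ x) (hm x) ≤
      lm x + (sh p δ gc x * et A B δ (p * x) + 1 / (p : ℝ) * m (p * x))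
    linarith

end U

/-- glue -/
theorem RL_glue {p : ℕ} {P : ℝ → Prop} {R1 R2 : TRaw} {σ : ℝ} {E1 E2 p1 p2 : ℝ → ℝ}
    (h1 : RL p σ R1 E1 p1) (h2 : RL p σ R2 E2 p2) :
    RL p σ (TRaw.glue p P R1 R2) (cho (fun x => P (p * x)) E1 E2)
      (cho (fun x => P (p * x)) p1 p2) := by
  refine ⟨fun x => ?_, fun x => ?_, fun x => ?_, fun x => ?_⟩
  · by_cases h : P (p * x)
    · rw [cho_on (P := fun x => P (p * x)) h]
      show p1 x ≤ min (cho (fun x => P (p * x)) R1.Ws R2.Ws x) σ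
      rw [cho_on (P := fun x => P (p * x)) h]
      exact h1.s2 x
    · rw [cho_off (P := fun x => P (p * x)) h]
      show p2 x ≤ min (cho (fun x => P (p * x)) R1.Ws R2.Ws x) σ
      rw [cho_off (P := fun x => P (p * x)) h]
      exact h2.s2 x
  · show cho (fun x => P (p * x)) p1 p2 x -
      cho (fun x => P (p * x)) (R1.D σ).vs (R2.D σ).vs x ≤ cho (fun x => P (p * x)) R1.lS R2.lS x
    by_cases h : P (p * x)
    · simp only [cho_on (P := fun x => P (p * x)) h]
      exact h1.s3 x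
    · simp only [cho_off (P := fun x => P (p * x)) h]
      exact h2.s3 x
  · show cho P (R1.D σ).be (R2.D σ).be (p * x) +
      cho (fun x => P (p * x)) (R1.D σ).sg (R2.D σ).sg x - cho (fun x => P (p * x)) p1 p2 x ≤
      min (cho (fun x => P (p * x)) R1.Wm R2.Wm x) σ +
        cho (fun x => P (p * x)) (R1.l0 σ) (R2.l0 σ) x
    by_cases h : P (p * x)
    · simp only [cho_on (P := fun x => P (p * x)) h, cho_on (P := P) h]
      exact h1.m1 x
    · simp only [cho_off (P := fun x => P (p * x)) h, cho_off (P := P) h]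
      exact h2.m1 x
  · show cho P (R1.D σ).be (R2.D σ).be (p * x) +
      cho (fun x => P (p * x)) (R1.D σ).sg (R2.D σ).sg x - cho (fun x => P (p * x)) p1 p2 x -
      cho (fun x => P (p * x)) (R1.D σ).vm (R2.D σ).vm x ≤
      cho (fun x => P (p * x)) R1.lm R2.lm x + cho (fun x => P (p * x)) E1 E2 x
    by_cases h : P (p * x)
    · simp only [cho_on (P := fun x => P (p * x)) h, cho_on (P := P) h]
      exact h1.m2 x
    · simp only [cho_off (P := fun x => P (p * x)) h, cho_off (P := P) h]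
      exact h2.m2 x

section GMU
variable {p : ℕ} {P : ℝ → Prop} {a b hm hs bt gc α κ b0 ν s nu B1 δ m gm gs lm lS : ℝ → ℝ}

/-- **located births of the glued row** : `nu + m / p` on `P`, `sh η + m / p` off `P` -/
noncomputable def E0G (p : ℕ) (P : ℝ → Prop) (a gc nu B1 δ m : ℝ → ℝ) : ℝ → ℝ :=
  cho (fun x => P (p * x))
    (fun x => cho (fun x => P (p * x)) nu z0 x + 1 / (p : ℝ) * cho P m z0 (p * x))
    (fun x => sh p (cho P z0 δ) (cho (fun x => P (p * x)) z0 gc) x *
      et (cho P z0 a) (cho P z0 B1) (cho P z0 δ) (p * x) + 1 / (p : ℝ) * cho P z0 m (p * x))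

lemma E0G_on {x : ℝ} (h : P (p * x)) :
    E0G p P a gc nu B1 δ m x = nu x + 1 / (p : ℝ) * m (p * x) := by
  unfold E0G
  simp only [cho_on (P := fun x => P (p * x)) h, cho_on (P := P) h]

lemma E0G_off {x : ℝ} (h : ¬ P (p * x)) :
    E0G p P a gc nu B1 δ m x = sh p δ gc x * et a B1 δ (p * x) + 1 / (p : ℝ) * m (p * x) := by
  unfold E0G sh et
  simp only [cho_off (P := fun x => P (p * x)) h, cho_off (P := P) h]

/-- the glued row -/
theorem RL_GMU (H : GMU p P a b hm hs bt gc α κ b0 ν s nu B1 δ m gm gs lm lS) {σ : ℝ}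
    (hσ : 0 < σ) : ∃ ps : ℝ → ℝ, RL p σ (mkMU p P a hm hs gc α κ b0 ν s nu B1 δ m gm gs lm lS)
      (E0G p P a gc nu B1 δ m) ps :=
  ⟨_, RL_glue (RL_M H.HM' hσ) (RL_U H.HU' hσ)⟩

lemma PB_E0G (H : GMU p P a b hm hs bt gc α κ b0 ν s nu B1 δ m gm gs lm lS) :
    PB (E0G p P a gc nu B1 δ m) := by
  have hP' := pull_meas (p := p) H.hP
  have hper' := pull_per (p := p) H.hper
  have HM := H.HM'
  have HU := H.HU'
  refine PB_cho hP' hper' ?_ ?_
  · exact HM.pnu.add ((HM.pm.pull p).smul HM.w0)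
  · exact (HU.PB_sh.mul (HU.PB_et.pull p)).add ((HU.pm.pull p).smul HU.w0)

end GMU

/-! ### families of rows -/

section fam
variable {δ : Type} [Fintype δ] {p : ℕ} {a b hm hs bt gc : δ → ℝ → ℝ} {R : δ → TRaw}
  {τ : Equiv.Perm δ} {F : δ → Prop} {E0 E2m E2s : δ → ℝ → ℝ} {σ : ℝ}

/-- location of the part `E2m`, `E2s` (main, separated) of the births -/
noncomputable def g2F (R : δ → TRaw) (τ : Equiv.Perm δ) (hm hs E2m E2s : δ → ℝ → ℝ) (σ : ℝ) (z : δ)
    (x : ℝ) : ℝ :=
  min (min (hm z x) σ - ((R z).D σ).vm x) (E2m z x) +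
    min (min (hs (τ.symm z) x) σ - ((R (τ.symm z)).D σ).vs x) (E2s (τ.symm z) x)

/-- losses of the truncation -/
noncomputable def losF (R : δ → TRaw) (σ : ℝ) (x : ℝ) : ℝ :=
  ∑ z, ((R z).l0 σ x + xg σ ((R z).Wm x) ((R z).gm x) + xg σ ((R z).Ws x) ((R z).gs x))

/-- the linear rest -/
noncomputable def e1F (R : δ → TRaw) (E0 E2m E2s : δ → ℝ → ℝ) (x : ℝ) : ℝ :=
  ∑ z, ((E0 z x + (R z).gm x - E2m z x) + ((R z).gs x - E2s z x))

lemma g2F_nonneg (H : Fam p a b hm hs bt gc R τ F) (hσ : 0 < σ) (h1 : ∀ z x, 0 ≤ E2m z x)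
    (h2 : ∀ z x, 0 ≤ E2s z x) (z : δ) (x : ℝ) : 0 ≤ g2F R τ hm hs E2m E2s σ z x := by
  have a1 := ((H.row z).tr hσ).vm_le x
  have a2 := ((H.row (τ.symm z)).tr hσ).vs_le x
  exact add_nonneg (le_min (sub_nonneg.2 a1) (h1 _ _)) (le_min (sub_nonneg.2 a2) (h2 _ _))

/-- **the location is in the room of the class** -/
lemma g2F_le (H : Fam p a b hm hs bt gc R τ F) (hσ : 0 < σ) (z : δ) (x : ℝ) :
    ((R z).D σ).vm x + ((R (τ.symm z)).D σ).vs x + g2F R τ hm hs E2m E2s σ z x ≤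
      min (hPP τ hm hs z x) σ := by
  rw [H.min_eq hσ.le]
  unfold g2F
  have h1 := min_le_left (min (hm z x) σ - ((R z).D σ).vm x) (E2m z x)
  have h2 := min_le_left (min (hs (τ.symm z) x) σ - ((R (τ.symm z)).D σ).vs x)
    (E2s (τ.symm z) x)
  linarith

/-- the location is at most the event contents -/
lemma g2F_E (z : δ) (x : ℝ) : g2F R τ hm hs E2m E2s σ z x ≤ E2m z x + E2s (τ.symm z) x :=
  add_le_add (min_le_right _ _) (min_le_right _ _)

/-- gains = losses -/
lemma gain_loss (H : Fam p a b hm hs bt gc R τ F) (x : ℝ) :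
    ∑ z, ((R z).lm x + (R z).lS x) = ∑ z, ((R z).gm x + (R z).gs x) := by
  have h1 := H.bal x
  rw [sum_hPP] at h1
  have h2 : ∑ z, (hm z x + hs z x) + ∑ z, ((R z).lm x + (R z).lS x) =
      ∑ z, (bt z (p * x) + gc z x) + ∑ z, ((R z).gm x + (R z).gs x) := by
    rw [← Finset.sum_add_distrib, ← Finset.sum_add_distrib]
    refine Finset.sum_congr rfl fun z _ => ?_
    have a1 := (H.row z).hm_eq x
    have a2 := (H.row z).hs_eq x
    have a3 := (H.row z).W_eq x
    linarith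
  linarith

/-- **the births of a family** -/
theorem births_le (H : Fam p a b hm hs bt gc R τ F) (hσ : 0 < σ)
    (hR : ∀ z, ∃ ps, RL p σ (R z) (E0 z) ps) (hE0 : ∀ z x, 0 ≤ E0 z x)
    (h1 : ∀ z x, E2m z x ≤ E0 z x + (R z).gm x) (h2 : ∀ z x, E2s z x ≤ (R z).gs x) (x : ℝ) :
    ∑ z, ((R z).D σ).e x ≤ ∑ z, g2F R τ hm hs E2m E2s σ z x + e1F R E0 E2m E2s x + losF R σ x := by
  have key0 : ∀ z, ((R z).D σ).e x + ((R z).gm x + (R z).gs x) -
      (xg σ ((R z).Wm x) ((R z).gm x) + xg σ ((R z).Ws x) ((R z).gs x)) ≤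
      (min (min (hm z x) σ - ((R z).D σ).vm x) (E2m z x) +
        min (min (hs z x) σ - ((R z).D σ).vs x) (E2s z x)) +
      ((E0 z x + (R z).gm x - E2m z x) + ((R z).gs x - E2s z x)) +
      ((R z).lm x + (R z).lS x) + (R z).l0 σ x := by
    intro z
    obtain ⟨ps, hps⟩ := hR z
    have Hz := H.row z
    have k1 := key2 (σ := σ) (W := (R z).Wm x) (g := (R z).gm x) (l := (R z).lm x) (h := hm z x)
      (v := ((R z).D σ).vm x) (u := ((R z).D σ).be (p * x) + ((R z).D σ).sg x - ps x)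
      (E := E0 z x) (l0 := (R z).l0 σ x) (E2 := E2m z x) (Hz.pgm.nonneg x) (Hz.plm.nonneg x)
      (Hz.l0n hσ x) (Hz.hm_eq x) (hps.m1 x) (hps.m2 x) (h1 z x)
    have k2 := key2 (σ := σ) (W := (R z).Ws x) (g := (R z).gs x) (l := (R z).lS x) (h := hs z x)
      (v := ((R z).D σ).vs x) (u := ps x)
      (E := 0) (l0 := 0) (E2 := E2s z x) (Hz.pgs.nonneg x) (Hz.plS.nonneg x)
      le_rfl (Hz.hs_eq x) (by rw [add_zero]; exact hps.s2 x) (by rw [add_zero]; exact hps.s3 x)
      (by rw [zero_add]; exact h2 z x)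
    have k3 := (Hz.tr hσ).tot x
    linarith
  have hsum := Finset.sum_le_sum fun z (_ : z ∈ (Finset.univ : Finset δ)) => key0 z
  have e1 := gain_loss H x
  have e2 : ∑ z, g2F R τ hm hs E2m E2s σ z x =
      ∑ z, (min (min (hm z x) σ - ((R z).D σ).vm x) (E2m z x) +
        min (min (hs z x) σ - ((R z).D σ).vs x) (E2s z x)) := by
    unfold g2F
    rw [Finset.sum_add_distrib, Finset.sum_add_distrib]
    congr 1
    exact Equiv.sum_comp τ.symm fun z =>
      min (min (hs z x) σ - ((R z).D σ).vs x) (E2s z x)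
  rw [e2]
  unfold e1F losF
  rw [Finset.sum_add_distrib, Finset.sum_add_distrib, Finset.sum_add_distrib] at *
  simp only [Finset.sum_add_distrib, Finset.sum_sub_distrib] at *
  linarith

lemma losF_nonneg (H : Fam p a b hm hs bt gc R τ F) (hσ : 0 < σ) (x : ℝ) : 0 ≤ losF R σ x :=
  Finset.sum_nonneg fun z _ => add_nonneg (add_nonneg ((H.row z).l0n hσ x)
    (xg_nonneg ((H.row z).pgm.nonneg x))) (xg_nonneg ((H.row z).pgs.nonneg x))

/-- **the losses at one scale are in the budget of the losses of the rows** -/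
lemma losF_dy (H : Fam p a b hm hs bt gc R τ F) (k : ℕ) (x : ℝ) :
    (2 : ℝ) ^ k * losF R (2 ^ k) x ≤ jA R x := by
  have h2 : ∀ l : ℕ, (0 : ℝ) < 2 ^ l := fun l => by positivity
  unfold losF jA
  rw [Finset.mul_sum]
  refine Finset.sum_le_sum fun z _ => ?_
  have Hz := H.row z
  have a1 : (2 : ℝ) ^ k * (R z).l0 (2 ^ k) x ≤ (R z).j0 x := by
    refine le_trans ?_ (Hz.l0J (k + 1) x)
    exact Finset.single_le_sum (f := fun l => (2 : ℝ) ^ l * (R z).l0 (2 ^ l) x)
      (fun l _ => mul_nonneg (h2 l).le (Hz.l0n (h2 l) x)) (Finset.mem_range.2 (Nat.lt_succ_self k))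
  have a2 : ∀ {W g : ℝ}, 0 ≤ W → 0 ≤ g → (2 : ℝ) ^ k * xg (2 ^ k) W g ≤ 2 * (g * (W + g)) :=
    fun {W g} hW hg => by
      refine le_trans ?_ (xg_dy hW hg (k + 1))
      exact Finset.single_le_sum (f := fun l => (2 : ℝ) ^ l * xg (2 ^ l) W g)
        (fun l _ => mul_nonneg (h2 l).le (xg_nonneg hg)) (Finset.mem_range.2 (Nat.lt_succ_self k))
  have a3 := a2 (Hz.pWm.nonneg x) (Hz.pgm.nonneg x)
  have a4 := a2 (Hz.pWs.nonneg x) (Hz.pgs.nonneg x)
  have e : (2 : ℝ) ^ k * ((R z).l0 (2 ^ k) x + xg (2 ^ k) ((R z).Wm x) ((R z).gm x) +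
      xg (2 ^ k) ((R z).Ws x) ((R z).gs x)) = (2 : ℝ) ^ k * (R z).l0 (2 ^ k) x +
      (2 : ℝ) ^ k * xg (2 ^ k) ((R z).Wm x) ((R z).gm x) +
      (2 : ℝ) ^ k * xg (2 ^ k) ((R z).Ws x) ((R z).gs x) := by ring
  rw [e]
  linarith

end fam

end Crest.Agent.R4P.BthR48
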