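import Crest.Agent.R4P.GSK_55
import Crest.Agent.R4P.Pay3_49

/-!
R4 (S0004) with powers, T3, helper5: **the in-member part of the error `E0`** of the T3 game.

* `Kb M f g` : walk sum of the local terms `f` with base terms `g`.
* `Kb_le` : **superharmonic values of bundles** : if `f ≤ Σ_j c_j φ (L_j) + er` and
  `φ + (1 - 1/p) V (cP) + 1/p V (cN) + V (rN) ≤ V` then `Kb M f g n p s ≤ Σ_j c_j V p (L_j) + Kw er`
  for `n` large (`siz`).
* `inm D Km p s` : in-member terms of `E0` (`jn, jm, jb0, jmB`, leaves), `bse` : base term.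
* **`E0_le`** : `E0 (D.ms ..) n p (p, s) ≤ Kw (8 I (Ep GT)²) + (8/δ + Ld) (Σ_j c_j V p (L_j) + Kw er)`.
* `Kr_mono_n` : the walk sum of nonnegative costs grows with `n`.
-/

set_option autoImplicit false
set_option linter.unusedSectionVars false
set_option linter.unusedVariables false
open MeasureTheory Filter Set

namespace Crest.Agent.R4P.JnF5

open Crest.Agent.R4.Tour104 Crest.Agent.R4.Clos758
open Crest.Agent.R4P.GMer27 Crest.Agent.R4P.GCol27 Crest.Agent.R4P.RSys343 Crest.Agent.R4P.TrR343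
open Crest.Agent.R4P.RXs343 Crest.Agent.R4P.RXm55 Crest.Agent.R4P.RXm55.RXm
open Crest.Agent.R4P.RXj343.RX (sm2 q2)
open Crest.Agent.R4P.MSi343 (su su_add two_pos')
open Crest.Agent.R4P.ModeP940 (PP SS SS_nonneg SS_add)
open Crest.Agent.R4P.ModeR16 (Ld Ld_pos)
open Crest.Agent.R4P.MSm25 Crest.Agent.R4P.PayR45 Crest.Agent.R4P.GSK55

section walk
variable {β : Type} {M : BM β}

/-- **walk sum with base terms** -/
noncomputable def Kb (M : BM β) (f g : ℕ → Gs β → ℝ) : ℕ → ℕ → Gs β → ℝ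
  | 0, p, s => g p s
  | n + 1, p, s => if p = 0 then g 0 s else
      f p s + Kb M f g n p (M.C p s) + Kb M f g n (p - 1) (M.N p s)

lemma Kb_succ (f g : ℕ → Gs β → ℝ) (n : ℕ) {p : ℕ} (hp : p ≠ 0) (s : Gs β) :
    Kb M f g (n + 1) p s = f p s + Kb M f g n p (M.C p s) + Kb M f g n (p - 1) (M.N p s) := by
  show (if p = 0 then _ else _) = _
  rw [if_neg hp]

lemma Kb_z (f g : ℕ → Gs β → ℝ) (n : ℕ) (s : Gs β) : Kb M f g n 0 s = g 0 s := by
  cases n with
  | zero => rfl
  | succ n => simp [Kb]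

/-- **superharmonic values** of the bundles: `φ` local term, `siz` size -/
structure SV (M : BM β) (φ V : ℕ → β → ℝ) (siz : β → ℕ) : Prop where
  okP : ∀ {p b}, M.ok p b → p ≠ 0 → M.ok p (M.cP p b)
  okN : ∀ {p b}, M.ok p b → p ≠ 0 → M.ok p (M.cN p b)
  okR : ∀ {p b}, M.ok p b → p ≠ 0 → M.ok (p - 1) (M.rN p b)
  v2 : ∀ {p b}, M.ok p b → 2 ≤ p → φ p b + ((1 - 1 / (p : ℝ)) * V p (M.cP p b) +
    1 / (p : ℝ) * V p (M.cN p b)) + V (p - 1) (M.rN p b) ≤ V p b
  v1 : ∀ {b}, M.ok 1 b → φ 1 b + V 1 (M.cP 1 b) + V 0 (M.rN 1 b) ≤ V 1 b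
  sP : ∀ {p b}, M.ok p b → p ≠ 0 → siz (M.cP p b) = 0 ∨ siz (M.cP p b) + 1 ≤ siz b
  sN : ∀ {p b}, M.ok p b → p ≠ 0 → siz (M.cN p b) = 0 ∨ siz (M.cN p b) + 1 ≤ siz b
  sR : ∀ {p b}, M.ok p b → p ≠ 0 → siz (M.rN p b) ≤ siz b

/-- **the walk sum is at most the value** -/
theorem Kb_le {φ V : ℕ → β → ℝ} {siz : β → ℕ} (H : SV M φ V siz) {ok : ℕ → Gs β → Prop}
    {f g er : ℕ → Gs β → ℝ}
    (hC : ∀ {p s}, ok p s → p ≠ 0 → ok p (M.C p s))
    (hN : ∀ {p s}, ok p s → p ≠ 0 → ok (p - 1) (M.N p s))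
    (hT : ∀ {p s}, ok p s → TC s.c s.W) (hM : ∀ {p s}, ok p s → ∀ j, M.ok p (s.L j))
    (hf : ∀ {p s}, ok p s → p ≠ 0 → f p s ≤ GMer27.M s.c (fun j => φ p (s.L j)) + er p s)
    (hg : ∀ {p s}, ok p s → (p = 0 ∨ ∀ j, siz (s.L j) = 0) →
      g p s ≤ GMer27.M s.c fun j => V p (s.L j)) :
    ∀ (n p : ℕ) (s : Gs β), ok p s → (∀ j, siz (s.L j) = 0 ∨ siz (s.L j) + p ≤ n) →
      Kb M f g n p s ≤ GMer27.M s.c (fun j => V p (s.L j)) + Kw M er n p s := by
  intro n
  induction n with
  | zero =>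
    intro p s hs hz
    have h1 : Kb M f g 0 p s = g p s := rfl
    have h2 : Kw M er 0 p s = 0 := rfl
    rw [h1, h2, add_zero]
    exact hg hs (Or.inr fun j => by rcases hz j with h | h <;> omega)
  | succ n ih =>
    intro p s hs hz
    by_cases hp : p = 0
    · subst hp
      rw [Kb_z, Kw_z, add_zero]
      exact hg hs (Or.inl rfl)
    · rw [Kb_succ _ _ n hp, Kw_succ _ _ n hp]
      have tc := hT hs
      have mo := hM hs
      have iN := ih (p - 1) _ (hN hs hp) (fun j => by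
        have h1 := H.sR (mo j) hp
        have h1' : siz ((M.N p s).L j) ≤ siz (s.L j) := h1
        rcases hz j with h | h
        · left; omega
        · right; omega)
      have eN : GMer27.M (M.N p s).c (fun j => V (p - 1) ((M.N p s).L j)) =
          GMer27.M s.c fun j => V (p - 1) (M.rN p (s.L j)) := rfl
      rw [eN] at iN
      have hf' := hf hs hp
      by_cases h2 : 2 ≤ p
      · have iC := ih p _ (hC hs hp) (by
          rw [BC_pos M h2]
          intro x
          show siz (if x.2 = true then M.cP p (s.L x.1) else M.cN p (s.L x.1)) = 0 ∨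
            siz (if x.2 = true then M.cP p (s.L x.1) else M.cN p (s.L x.1)) + p ≤ n
          split_ifs
          · rcases H.sP (mo x.1) hp with h | h
            · exact Or.inl h
            · rcases hz x.1 with h' | h'
              · omega
              · right; omega
          · rcases H.sN (mo x.1) hp with h | h
            · exact Or.inl h
            · rcases hz x.1 with h' | h'
              · omega
              · right; omega)
        have eC : GMer27.M (M.C p s).c (fun j => V p ((M.C p s).L j)) =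
            GMer27.M s.c fun j => (1 - 1 / (p : ℝ)) * V p (M.cP p (s.L j)) +
              1 / (p : ℝ) * V p (M.cN p (s.L j)) := by
          rw [BC_pos M h2]
          show GMer27.M (cT (1 - 1 / (p : ℝ)) s.c) (fun (x : s.J × Bool) =>
            V p (if x.2 = true then M.cP p (s.L x.1) else M.cN p (s.L x.1))) = _
          rw [M_cT]
          congr 1
          funext j
          unfold av
          simp
          ring
        rw [eC] at iC
        have key : GMer27.M s.c (fun j => φ p (s.L j)) +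
            GMer27.M s.c (fun j => (1 - 1 / (p : ℝ)) * V p (M.cP p (s.L j)) +
              1 / (p : ℝ) * V p (M.cN p (s.L j))) +
            GMer27.M s.c (fun j => V (p - 1) (M.rN p (s.L j))) ≤
            GMer27.M s.c fun j => V p (s.L j) := by
          rw [← M_add, ← M_add]
          exact M_mono tc.c0 fun j => H.v2 (mo j) h2
        linarith
      · have hp1 : p = 1 := by omega
        subst hp1
        have iC := ih 1 _ (hC hs hp) (by
          rw [BC_neg M h2]
          intro j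
          show siz (M.cP 1 (s.L j)) = 0 ∨ siz (M.cP 1 (s.L j)) + 1 ≤ n
          rcases H.sP (mo j) hp with h | h
          · exact Or.inl h
          · rcases hz j with h' | h'
            · omega
            · right; omega)
        have eC : GMer27.M (M.C 1 s).c (fun j => V 1 ((M.C 1 s).L j)) =
            GMer27.M s.c fun j => V 1 (M.cP 1 (s.L j)) := by
          rw [BC_neg M h2]
        rw [eC] at iC
        have key : GMer27.M s.c (fun j => φ 1 (s.L j)) +
            GMer27.M s.c (fun j => V 1 (M.cP 1 (s.L j))) +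
            GMer27.M s.c (fun j => V (1 - 1) (M.rN 1 (s.L j))) ≤
            GMer27.M s.c fun j => V 1 (s.L j) := by
          rw [← M_add, ← M_add]
          exact M_mono tc.c0 fun j => H.v1 (mo j)
        linarith

end walk

/-! ### the error `E0` -/

section sys
variable {β δ : Type} [Fintype δ] {R : RXm β δ} {U : RBm R}

/-- leaf energies of the classes -/
noncomputable def lfE (R : RXm β δ) (p : ℕ) (s : Gs β) : ℝ :=
  2 * I fun x => ∑ z, GMer27.M s.c fun j => R.hL p (s.L j) z x ^ 2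

/-- **in-member terms** of `E0` -/
noncomputable def inm (D : RGx U) (Km p : ℕ) (s : Gs β) : ℝ :=
  I (R.jn p s) + I (D.jm Km p s) + I (R.jb0 p s) + I (D.jmB Km p s) + lfE R p s

/-- base term -/
noncomputable def bse (R : RXm β δ) (p : ℕ) (s : Gs β) : ℝ :=
  2 * I fun x => ∑ z, GMer27.M s.c fun j => R.h p (s.L j) z x ^ 2

/-- second order terms -/
noncomputable def so (U : RBm R) (p : ℕ) (s : Gs β) : ℝ :=
  8 * I fun y => Ep p (fun x => R.GT p s x + su s (U.gU p) x) y ^ 2

/-- the truncations of one content -/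
lemma trunc_sum {h : ℝ} (h0 : 0 ≤ h) : ∀ n : ℕ,
    ∑ l ∈ Finset.range n, (2 : ℝ) ^ l * (h - min h (2 ^ l)) ≤ 2 * h ^ 2 := by
  -- `Σ_{2^l < h} 2^l h ≤ 2 h²`
  have key : ∀ n : ℕ, ∑ l ∈ Finset.range n, (2 : ℝ) ^ l * (h - min h (2 ^ l)) ≤
      h * min (2 * h) (2 ^ n) := by
    intro n
    induction n with
    | zero =>
      simp
      exact mul_nonneg h0 (le_min (by linarith) (by norm_num))
    | succ n ih =>
      rw [Finset.sum_range_succ]
      have p2 : (0 : ℝ) < 2 ^ n := by positivity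
      have e2 : (2 : ℝ) ^ (n + 1) = 2 * 2 ^ n := by rw [pow_succ]; ring
      rw [e2]
      rcases le_total h (2 ^ n) with hh | hh
      · rw [min_eq_left hh, sub_self, mul_zero, add_zero]
        refine ih.trans (mul_le_mul_of_nonneg_left (min_le_min le_rfl ?_) h0)
        linarith
      · rw [min_eq_right hh]
        have e3 : min (2 * h) ((2 : ℝ) ^ n) ≤ 2 ^ n := min_le_right _ _
        have e4 : min (2 * h) (2 * (2 : ℝ) ^ n) = 2 * 2 ^ n := min_eq_right (by linarith)
        rw [e4]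
        have e5 := mul_le_mul_of_nonneg_left e3 h0
        nlinarith
  intro n
  refine (key n).trans ?_
  calc h * min (2 * h) (2 ^ n) ≤ h * (2 * h) := mul_le_mul_of_nonneg_left (min_le_left _ _) h0
    _ = 2 * h ^ 2 := by ring

/-- truncations of families -/
lemma sm2_trunc {s : Gs β} (tc : TC s.c s.W) {f : β → δ → ℝ → ℝ} {x : ℝ}
    (hf : ∀ j z, 0 ≤ f (s.L j) z x) (n : ℕ) :
    ∑ l ∈ Finset.range n, (2 : ℝ) ^ l * (sm2 s f x - sm2 s (fun b z x => min (f b z x) (2 ^ l)) x) ≤
      2 * ∑ z, GMer27.M s.c fun j => f (s.L j) z x ^ 2 := by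
  have e1 : ∀ l, (2 : ℝ) ^ l * (sm2 s f x - sm2 s (fun b z x => min (f b z x) (2 ^ l)) x) =
      ∑ z, GMer27.M s.c fun j => (2 : ℝ) ^ l * (f (s.L j) z x - min (f (s.L j) z x) (2 ^ l)) := by
    intro l
    unfold RXj343.RX.sm2 SS
    rw [← Finset.sum_sub_distrib, Finset.mul_sum]
    refine Finset.sum_congr rfl fun z _ => ?_
    rw [← M_sub, ← M_smul]
  rw [Finset.sum_congr rfl fun l _ => e1 l, Finset.sum_comm, Finset.mul_sum]
  refine Finset.sum_le_sum fun z _ => ?_
  rw [← M_sum, ← M_smul]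
  exact M_mono tc.c0 fun j => trunc_sum (hf j z) n

variable (D : RGx U) {del : ℝ} {Km : ℕ} (h0 : 0 < del) (h1 : del ≤ 1) (hK : del * U.B0 ≤ 2 ^ Km)

include D

lemma I_DL_le {p : ℕ} {s : Gs β} (hs : D.ok p s) (hp : p ≠ 0) :
    I (ModeS16.DL (D.ms h0 h1 hK) 0 p (p, s)) ≤ lfE R p s := by
  have tc := (D.gk hs).1
  have hL : ∀ j z, PB (R.hL p (s.L j) z) := fun j z => R.pL ((D.gk hs).2 j) hp z
  have pb : PB fun x => ∑ z, GMer27.M s.c fun j => R.hL p (s.L j) z x ^ 2 :=
    PB.sum _ fun z _ => PB_M tc.c0 (f := fun x j => R.hL p (s.L j) z x ^ 2) fun j => PBsq (hL j z)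
  unfold lfE
  rw [← I_smul]
  refine I_mono (ModeS16.PB_DL (D.ms h0 h1 hK) (t := (p, s)) ⟨rfl, hs⟩ hp 0).integrableOn
    (pb.smul (by norm_num)).integrableOn fun x => ?_
  have h2 := sm2_trunc tc (f := R.hL p) (x := x) (fun j z => (hL j z).nonneg x) (Km + 1)
  refine le_trans (le_of_eq ?_) h2
  unfold ModeS16.DL
  have e0 : Finset.Ico 0 ((D.ms h0 h1 hK).Km + 1) = Finset.range (Km + 1) := by
    rw [Finset.range_eq_Ico]; rfl
  rw [e0]
  refine Finset.sum_congr rfl fun l _ => ?_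
  show (2 : ℝ) ^ l * ((R.TL p s x + su s (U.uL p) x) - (R.AL (2 ^ l) p s x + su s (U.uL p) x)) = _
  have e1 : R.TL p s x = sm2 s (R.hL p) x := rfl
  have e2 : R.AL (2 ^ l) p s x = sm2 s (fun b z x => min (R.hL p b z x) (2 ^ l)) x := rfl
  rw [e1, e2]
  ring

lemma I_D_le {p : ℕ} {s : Gs β} (hs : D.ok p s) :
    I (ModeS16.D (D.ms h0 h1 hK) 0 (p, s)) ≤ bse R p s := by
  have tc := (D.gk hs).1
  have hh : ∀ j z, PB (R.h p (s.L j) z) := fun j z => R.ph ((D.gk hs).2 j) z
  have pb : PB fun x => ∑ z, GMer27.M s.c fun j => R.h p (s.L j) z x ^ 2 :=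
    PB.sum _ fun z _ => PB_M tc.c0 (f := fun x j => R.h p (s.L j) z x ^ 2) fun j => PBsq (hh j z)
  unfold bse
  rw [← I_smul]
  refine I_mono (ModeS16.PB_D (D.ms h0 h1 hK) (p := p) (t := (p, s)) ⟨rfl, hs⟩ 0).integrableOn
    (pb.smul (by norm_num)).integrableOn fun x => ?_
  have h2 := sm2_trunc tc (f := R.h p) (x := x) (fun j z => (hh j z).nonneg x) (Km + 1)
  refine le_trans (le_of_eq ?_) h2
  unfold ModeS16.D
  have e0 : Finset.Ico 0 ((D.ms h0 h1 hK).Km + 1) = Finset.range (Km + 1) := by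
    rw [Finset.range_eq_Ico]; rfl
  rw [e0]
  refine Finset.sum_congr rfl fun l _ => ?_
  show (2 : ℝ) ^ l * (su s U.tt x - (R.A (2 ^ l) p s x + su s (U.u p) x)) = _
  have e1 : R.T p s x = sm2 s (R.h p) x := rfl
  have e2 : R.A (2 ^ l) p s x = sm2 s (fun b z x => min (R.h p b z x) (2 ^ l)) x := rfl
  have e3 := U.T_eq (D.gk hs) x
  rw [← e3, e1, e2]
  ring

/-- the error `E0` : second order terms and in-member terms -/
theorem E0_split : ∀ (n p : ℕ) (s : Gs β), D.ok p s →
    Pay45.E0 (D.ms h0 h1 hK) n p (p, s) ≤ Kw (bm R) (so U) n p s +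
      (8 / del + Ld del) * Kb (bm R) (inm D Km) (bse R) n p s := by
  have L0 := Ld_pos h0
  have c8 : 0 ≤ 8 / del := by positivity
  intro n
  have base : ∀ (p : ℕ) (s : Gs β), D.ok p s → 8 / (D.ms h0 h1 hK).del *
      I (ModeS16.D (D.ms h0 h1 hK) 0 (p, s)) ≤ (8 / del + Ld del) * bse R p s := by
    intro p s hs
    have e1 := I_D_le D h0 h1 hK hs
    have e2 : (D.ms h0 h1 hK).del = del := rfl
    rw [e2]
    have e3 : 0 ≤ I (ModeS16.D (D.ms h0 h1 hK) 0 (p, s)) :=
      I_nonneg fun x => (ModeS16.PB_D (D.ms h0 h1 hK) (p := p) (t := (p, s)) ⟨rfl, hs⟩ 0).nonneg x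
    calc 8 / del * I (ModeS16.D (D.ms h0 h1 hK) 0 (p, s)) ≤
        (8 / del + Ld del) * I (ModeS16.D (D.ms h0 h1 hK) 0 (p, s)) :=
          mul_le_mul_of_nonneg_right (by linarith) e3
      _ ≤ _ := mul_le_mul_of_nonneg_left e1 (by linarith)
  induction n with
  | zero =>
    intro p s hs
    have e1 : Pay45.E0 (D.ms h0 h1 hK) 0 p (p, s) = 8 / (D.ms h0 h1 hK).del *
      I (ModeS16.D (D.ms h0 h1 hK) 0 (p, s)) := rfl
    have e2 : Kw (bm R) (so U) 0 p s = 0 := rfl
    have e3 : Kb (bm R) (inm D Km) (bse R) 0 p s = bse R p s := rfl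
    rw [e1, e2, e3, zero_add]
    exact base p s hs
  | succ n ih =>
    intro p s hs
    by_cases hp : p = 0
    · subst hp
      have e1 : Pay45.E0 (D.ms h0 h1 hK) (n + 1) 0 (0, s) = 8 / (D.ms h0 h1 hK).del *
        I (ModeS16.D (D.ms h0 h1 hK) 0 (0, s)) := by simp [Pay45.E0]
      rw [e1, Kw_z, Kb_z, zero_add]
      exact base 0 s hs
    · have iC := ih p _ (D.okC hs hp)
      have iN := ih (p - 1) _ (D.okN hs hp)
      have e2 : Pay45.E0 (D.ms h0 h1 hK) (n + 1) p (p, s) = Pay45.el0 (D.ms h0 h1 hK) p (p, s) +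
          Pay45.E0 (D.ms h0 h1 hK) n p (p, R.C p s) +
          Pay45.E0 (D.ms h0 h1 hK) n (p - 1) (p - 1, R.N p s) := by
        show (if p = 0 then _ else _) = _
        rw [if_neg hp]
        rfl
      rw [e2, Kw_succ _ _ n hp, Kb_succ _ _ n hp]
      have eC : (bm R).C p s = R.C p s := rfl
      have eN : (bm R).N p s = R.N p s := rfl
      rw [eC, eN]
      have el : Pay45.el0 (D.ms h0 h1 hK) p (p, s) ≤ so U p s +
          (8 / del + Ld del) * inm D Km p s := by
        have a1 := I_DL_le D h0 h1 hK hs hp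
        have a2 : I (fun x => R.jn p s x + D.jm Km p s x) = I (R.jn p s) + I (D.jm Km p s) :=
          I_add (RXm.PB_jn (D.gk hs) hp).integrableOn (D.pjm hs hp).integrableOn
        have a3 : I (fun x => R.jb0 p s x + D.jmB Km p s x) = I (R.jb0 p s) + I (D.jmB Km p s) :=
          I_add (RXm.PB_jb0 (D.gk hs) hp).integrableOn (D.pjmB hs hp).integrableOn
        have a4 : 0 ≤ I (ModeS16.DL (D.ms h0 h1 hK) 0 p (p, s)) := I_nonneg fun x =>
          (ModeS16.PB_DL (D.ms h0 h1 hK) (t := (p, s)) ⟨rfl, hs⟩ hp 0).nonneg x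
        have e3 : Pay45.el0 (D.ms h0 h1 hK) p (p, s) = so U p s +
            (8 / del + Ld del) * (I (fun x => R.jn p s x + D.jm Km p s x) +
              I (fun x => R.jb0 p s x + D.jmB Km p s x)) +
            8 / del * I (ModeS16.DL (D.ms h0 h1 hK) 0 p (p, s)) := rfl
        rw [e3, a2, a3]
        have a5 : 8 / del * I (ModeS16.DL (D.ms h0 h1 hK) 0 p (p, s)) ≤
            (8 / del + Ld del) * lfE R p s :=
          (mul_le_mul_of_nonneg_right (by linarith) a4).trans
            (mul_le_mul_of_nonneg_left a1 (by linarith))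
        unfold inm
        linarith
      linarith

/-- **the in-member part of `E0`** from superharmonic values of the bundles -/
theorem E0_le {φ V : ℕ → β → ℝ} {siz : β → ℕ} (H : SV (bm R) φ V siz) {er : ℕ → Gs β → ℝ}
    (hf : ∀ {p s}, D.ok p s → p ≠ 0 →
      inm D Km p s ≤ GMer27.M s.c (fun j => φ p (s.L j)) + er p s)
    (hg : ∀ {p s}, D.ok p s → (p = 0 ∨ ∀ j, siz (s.L j) = 0) →
      bse R p s ≤ GMer27.M s.c fun j => V p (s.L j))
    (n p : ℕ) (s : Gs β) (hs : D.ok p s) (hn : ∀ j, siz (s.L j) + p ≤ n) :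
    Pay45.E0 (D.ms h0 h1 hK) n p (p, s) ≤ Kw (bm R) (so U) n p s +
      (8 / del + Ld del) * (GMer27.M s.c (fun j => V p (s.L j)) + Kw (bm R) er n p s) := by
  have L0 := Ld_pos h0
  have c8 : 0 ≤ 8 / del := by positivity
  refine (E0_split D h0 h1 hK n p s hs).trans (add_le_add le_rfl
    (mul_le_mul_of_nonneg_left ?_ (by linarith)))
  exact Kb_le H (ok := D.ok) (fun hs hp => D.okC hs hp) (fun hs hp => D.okN hs hp)
    (fun hs => (D.gk hs).1) (fun hs => (D.gk hs).2) (fun hs hp => hf hs hp)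
    (fun hs h => hg hs h) n p s hs fun j => Or.inr (hn j)

end sys

/-! ### more steps -/

/-- the walk sum of nonnegative terms grows with the number of steps -/
theorem Kw_mono_n {β : Type} {M : BM β} {ok : ℕ → Gs β → Prop} {f : ℕ → Gs β → ℝ}
    (hC : ∀ {p s}, ok p s → p ≠ 0 → ok p (M.C p s))
    (hN : ∀ {p s}, ok p s → p ≠ 0 → ok (p - 1) (M.N p s))
    (h : ∀ {p s}, ok p s → p ≠ 0 → 0 ≤ f p s) :
    ∀ (n n' p : ℕ) (s : Gs β), n ≤ n' → ok p s → Kw M f n p s ≤ Kw M f n' p s := by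
  intro n
  induction n with
  | zero =>
    intro n' p s _ hs
    exact Kw_nonneg (M := M) (ok := ok) hC hN h n' p s hs
  | succ n ih =>
    intro n' p s hn hs
    obtain ⟨m, rfl⟩ : ∃ m, n' = m + 1 := ⟨n' - 1, by omega⟩
    by_cases hp : p = 0
    · subst hp
      rw [Kw_z, Kw_z]
    · rw [Kw_succ _ _ n hp, Kw_succ _ _ m hp]
      exact add_le_add (add_le_add le_rfl (ih m p _ (by omega) (hC hs hp)))
        (ih m (p - 1) _ (by omega) (hN hs hp))

end Crest.Agent.R4P.JnF5
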