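import Crest.Agent.R4P.JnE_5
import Crest.Agent.R4P.JnF_5
import Crest.Agent.R4P.DTp_26

/-!
R4 (S0004) with powers, T3, helper5: **the in-member part of `E0` for typed bundles of decorated trees**.

* kernels of PIECES: `K : ℕ → Λ → Λ → ℝ`, `Ker (K p)`; `Psi K (fun _ => id)`.
* `KP R pr kO K` : the contents of the game are given by point maps `kO p b x j` of the pieces; if two
  pieces of a bundle have the same game class at a point then `1 ≤ K p j j'`; facts of the bundles.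
* `KP.sv` : `Psi` is superharmonic (`SV`); `inm_le` : joins and leaves;
* **`E0_leK`** : `E0 ≤ Kw (8 I (Ep GT)²) + (8/δ + Ld) (Σ_j c_j Psi p (L_j) + Kw (I jm + I jb0 + I jmB))`;
  `E0_root` : for one tree `Psi = 2 (leU + dC)`.
* `Kr_mono_n` : the real costs grow with the number of steps.
-/

set_option autoImplicit false
set_option linter.unusedSectionVars false
set_option linter.unusedVariables false
open MeasureTheory Filter Set

namespace Crest.Agent.R4P.JnH5

open Crest.Agent.R4.Tour104 Crest.Agent.R4.Tour758 Crest.Agent.R4.Clos758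
open Crest.Agent.R4.ClosL758
open Crest.Agent.R4P.Grp36 Crest.Agent.R4P.GWa343 Crest.Agent.R4P.GWb343 Crest.Agent.R4P.GWc343
open Crest.Agent.R4P.GMer27 Crest.Agent.R4P.GCol27 Crest.Agent.R4P.RSys343
open Crest.Agent.R4P.RXm55 Crest.Agent.R4P.RXm55.RXm
open Crest.Agent.R4P.RXj343.RX (sm2 q2)
open Crest.Agent.R4P.MSi343 (su su_add two_pos')
open Crest.Agent.R4P.ModeP940 (PP SS SS_nonneg SS_add)
open Crest.Agent.R4P.ModeR16 (Ld Ld_pos)
open Crest.Agent.R4P.MSm25 Crest.Agent.R4P.PayR45 Crest.Agent.R4P.GSK55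
open Crest.Agent.R4P.DTp26 Crest.Agent.R4P.MSd343
open Crest.Agent.R4P.JnE5 Crest.Agent.R4P.JnF5
open Crest.Agent.R4P.LogL51 (isLf)
open Crest.Agent.R4P.Walk560 (DT)

/-! ### point products -/

section pt
variable {Λ ζ : Type} [Fintype Λ] [DecidableEq Λ] [Fintype ζ] [DecidableEq ζ]

/-- **typed products are kernel products** at a point -/
lemma hz_prod_le {o : ℝ → Λ → Option ζ} {V W : Λ → ℝ → ℝ} {x : ℝ} {K : Λ → Λ → ℝ}
    (hV : ∀ j, 0 ≤ V j x) (hW : ∀ j, 0 ≤ W j x) (hK : ∀ j j', 0 ≤ K j j')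
    (h : ∀ j j', V j x ≠ 0 → W j' x ≠ 0 → o x j = o x j' → o x j ≠ none → 1 ≤ K j j') :
    ∑ z : ζ, hz o V (some z) x * hz o W (some z) x ≤ ∑ j, ∑ j', K j j' * (V j x * W j' x) := by
  classical
  have e1 : ∀ z : ζ, hz o V (some z) x * hz o W (some z) x =
      ∑ j, ∑ j', if o x j = some z ∧ o x j' = some z then V j x * W j' x else 0 := by
    intro z
    rw [hz_eq, hz_eq, Finset.sum_mul]
    refine Finset.sum_congr rfl fun j _ => ?_
    rw [Finset.mul_sum]
    refine Finset.sum_congr rfl fun j' _ => ?_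
    by_cases h1 : o x j = some z <;> by_cases h2 : o x j' = some z <;> simp [h1, h2]
  rw [Finset.sum_congr rfl fun z _ => e1 z, Finset.sum_comm]
  refine Finset.sum_le_sum fun j _ => ?_
  rw [Finset.sum_comm]
  refine Finset.sum_le_sum fun j' _ => ?_
  have hVW : 0 ≤ V j x * W j' x := mul_nonneg (hV j) (hW j')
  rcases ho : o x j with _ | z
  · refine le_trans (le_of_eq ?_) (mul_nonneg (hK j j') hVW)
    exact Finset.sum_eq_zero fun z _ => by simp
  · rw [Finset.sum_eq_single z]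
    · by_cases h2 : o x j' = some z
      · rw [if_pos ⟨rfl, h2⟩]
        by_cases hv : V j x = 0
        · rw [hv]; simp
        · by_cases hw : W j' x = 0
          · rw [hw]; simp
          · have := h j j' hv hw (by rw [ho, h2]) (by rw [ho]; simp)
            nlinarith
      · rw [if_neg (fun hh => h2 hh.2)]
        exact mul_nonneg (hK j j') hVW
    · intro z' _ hne
      rw [if_neg]
      rintro ⟨h1, -⟩
      exact hne (Option.some.inj h1).symm
    · intro hz'
      exact absurd (Finset.mem_univ z) hz'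

/-- integrated form -/
lemma I_hz_prod_le {o : ℝ → Λ → Option ζ} {V W : Λ → ℝ → ℝ} {K : Λ → Λ → ℝ} (hK : Ker K)
    {A B : ζ → ℝ → ℝ} (hA : ∀ z, PB (A z)) (hB : ∀ z, PB (B z))
    (eA : ∀ z x, A z x = hz o V (some z) x) (eB : ∀ z x, B z x = hz o W (some z) x)
    (hV : ∀ j, PB (V j)) (hW : ∀ j, PB (W j))
    (h : ∀ x j j', V j x ≠ 0 → W j' x ≠ 0 → o x j = o x j' → o x j ≠ none → 1 ≤ K j j') :
    ∑ z, I (fun x => A z x * B z x) ≤ bil K V W := by
  have e1 : ∑ z, I (fun x => A z x * B z x) = I (fun x => ∑ z, A z x * B z x) :=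
    (I_sum _ fun z _ => ((hA z).mul (hB z)).integrableOn).symm
  have e2 : bil K V W = I (fun x => ∑ j, ∑ j', K j j' * (V j x * W j' x)) := by
    unfold bil
    rw [I_sum _ fun j _ => (PB.sum _ fun j' _ => (((hV j).mul (hW j')).smul (hK.nn j j'))).integrableOn]
    refine Finset.sum_congr rfl fun j _ => ?_
    rw [I_sum _ fun j' _ => (((hV j).mul (hW j')).smul (hK.nn j j')).integrableOn]
    exact Finset.sum_congr rfl fun j' _ => (I_smul _ _).symm
  rw [e1, e2]
  refine I_mono (PB.sum _ fun z _ => (hA z).mul (hB z)).integrableOn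
    (PB.sum _ fun j _ => PB.sum _ fun j' _ => (((hV j).mul (hW j')).smul (hK.nn j j'))).integrableOn
    fun x => ?_
  have e3 : ∑ z, A z x * B z x = ∑ z, hz o V (some z) x * hz o W (some z) x :=
    Finset.sum_congr rfl fun z _ => by rw [eA, eB]
  rw [e3]
  exact hz_prod_le (fun j => (hV j).nonneg x) (fun j => (hW j).nonneg x) hK.nn fun j j' => h x j j'

end pt

section kp
variable {Λ κ : Type} [Fintype Λ] [DecidableEq Λ] [Fintype κ] [DecidableEq κ]
  {β δ : Type} [Fintype δ] [DecidableEq δ]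

/-- contents of the pieces -/
lemma bc_id (L : List (DT Λ κ)) : bc (fun j : Λ => j) L = jv L := by
  funext j x
  induction L with
  | nil => rfl
  | cons t L ih =>
    rw [bc_cons, jv_cons, ih]
    congr 1
    unfold GWb343.cf sm
    simp [Finset.filter_eq']

/-- the identity classes -/
def idk : ℕ → Λ → Λ := fun _ j => j

/-- **pairs of pieces of a bundle which are joined**: two leaf members, or members of two different
parts (leaves, ties and pulls, the rest) -/
def Xp (p : ℕ) (L : List (DT Λ κ)) (x : ℝ) (j j' : Λ) : Prop :=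
  (jv (bL p L) j x ≠ 0 ∧ (jv (bL p L) j' x ≠ 0 ∨ jv (bB p L) j' x ≠ 0 ∨ jv (bN p L) j' x ≠ 0)) ∨
    (jv (bB p L) j x ≠ 0 ∧ jv (bN p L) j' x ≠ 0)

/-- a bundle of leaves -/
lemma bL_leaves {p : ℕ} {L : List (DT Λ κ)} (h : ∀ t ∈ L, isLf t = true) : bL p L = L := by
  have e1 : L.flatMap (Grp36.rs p) = L := by
    induction L with
    | nil => rfl
    | cons t L ih =>
      rw [List.flatMap_cons, (GWd343.rs_leaf p (h t (List.mem_cons_self ..))).1,
        ih fun t ht => h t (List.mem_cons_of_mem _ ht)]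
      rfl
  have e2 : (L.flatMap (Grp36.rs p)).filter (fun t => !Grp36.isB p t) = L := by
    rw [e1]
    exact List.filter_eq_self.2 fun t ht => by rw [(GWd343.rs_leaf p (h t ht)).2]; rfl
  show ((L.flatMap (Grp36.rs p)).filter (fun t => !Grp36.isB p t)).filter (fun t => isLf t) = L
  rw [e2]
  exact List.filter_eq_self.2 fun t ht => h t ht

/-- **typed bundles with kernels of pieces** -/
structure KP (R : RXm β δ) (pr : β → List (DT Λ κ)) (kO : ℕ → β → ℝ → Λ → Option δ)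
    (K : ℕ → Λ → Λ → ℝ) : Prop where
  P : Pr (bm R) pr
  ker : ∀ p, Ker (K p)
  pba : ∀ {p b}, R.ok p b → PBA (pr b)
  w01 : ∀ {p b}, R.ok p b → ∀ t ∈ pr b, t.All W01
  tk : ∀ {p b}, R.ok p b → p ≠ 0 → TOk p (bB p (pr b))
  len : ∀ {p b}, R.ok p b → p ≠ 0 → (bN p (pr b)).length ≤ 1
  lf0 : ∀ {b}, R.ok 0 b → ∀ t ∈ pr b, isLf t = true
  eH : ∀ {p b}, R.ok p b → ∀ z x, R.h p b z x = hz (kO p b) (jv (pr b)) (some z) x
  eL : ∀ {p b}, R.ok p b → p ≠ 0 → ∀ z x,
    R.hL p b z x = hz (kO p b) (jv (bL p (pr b))) (some z) x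
  eB : ∀ {p b}, R.ok p b → p ≠ 0 → ∀ z x,
    R.hB p b z x = hz (kO p b) (jv (bB p (pr b))) (some z) x
  eN : ∀ {p b}, R.ok p b → p ≠ 0 → ∀ z x,
    R.hN p b z x = hz (kO p b) (jv (bN p (pr b))) (some z) x
  dom : ∀ {p b}, R.ok p b → ∀ x j j', Xp p (pr b) x j j' →
    kO p b x j = kO p b x j' → kO p b x j ≠ none → 1 ≤ K p j j'

variable {R : RXm β δ} {pr : β → List (DT Λ κ)} {kO : ℕ → β → ℝ → Λ → Option δ}
  {K : ℕ → Λ → Λ → ℝ} {U : RBm R}

/-- the three parts of the contents of the pieces -/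
lemma jv_split3 (p : ℕ) (L : List (DT Λ κ)) (j : Λ) (x : ℝ) :
    jv L j x = jv (bL p L) j x + jv (bB p L) j x + jv (bN p L) j x := by
  rw [← bc_id L, ← bc_id (bL p L), ← bc_id (bB p L), ← bc_id (bN p L)]
  exact bc_split3 _ p L j x

/-- a piece of a part is a piece of the bundle -/
lemma jv_part {p : ℕ} {L : List (DT Λ κ)} (h : PBA L) {j : Λ} {x : ℝ} :
    (jv (bL p L) j x ≠ 0 → jv L j x ≠ 0) ∧ (jv (bB p L) j x ≠ 0 → jv L j x ≠ 0) ∧
      (jv (bN p L) j x ≠ 0 → jv L j x ≠ 0) := by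
  have h1 := (PB_jv (h.bL p).self j).nonneg x
  have h2 := (PB_jv (h.bB p).self j).nonneg x
  have h3 := (PB_jv (h.bN p).self j).nonneg x
  have e := jv_split3 p L j x
  refine ⟨fun h4 h5 => h4 ?_, fun h4 h5 => h4 ?_, fun h4 h5 => h4 ?_⟩ <;> linarith

/-- joined pieces are pieces of the bundle -/
lemma Xp.full {p : ℕ} {L : List (DT Λ κ)} (h : PBA L) {x : ℝ} {j j' : Λ} (hX : Xp p L x j j') :
    jv L j x ≠ 0 ∧ jv L j' x ≠ 0 := by
  have a1 := jv_part h (p := p) (j := j) (x := x)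
  have a2 := jv_part h (p := p) (j := j') (x := x)
  rcases hX with ⟨h1, h2 | h2 | h2⟩ | ⟨h1, h2⟩
  · exact ⟨a1.1 h1, a2.1 h2⟩
  · exact ⟨a1.1 h1, a2.2.1 h2⟩
  · exact ⟨a1.1 h1, a2.2.2 h2⟩
  · exact ⟨a1.2.1 h1, a2.2.2 h2⟩

/-- the value of an empty bundle -/
lemma Psi_nil (p : ℕ) : Psi K idk p ([] : List (DT Λ κ)) = 0 := by
  unfold Psi E2
  have : bc (idk p) ([] : List (DT Λ κ)) = fun _ _ => 0 := rfl
  rw [this, bil_zero_left]
  simp

/-- **`Psi` is superharmonic** -/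
theorem KP.sv (H : KP R pr kO K) : SV (bm R) (fun p b => jl K idk p (pr b))
    (fun p b => Psi K idk p (pr b)) (fun b => siz (pr b)) where
  okP := fun h hp => R.okP h hp
  okN := fun h hp => R.okN h hp
  okR := fun h hp => R.okR h hp
  v2 := fun {p b} h hp => by
    have hp0 : p ≠ 0 := by omega
    have h' : R.ok p b := h
    have e1 := H.P.eP h hp0
    have e2 := H.P.eN h hp0
    have e3 := H.P.eR h hp0
    show jl K idk p (pr b) + ((1 - 1 / (p : ℝ)) * Psi K idk p (pr ((bm R).cP p b)) +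
      1 / (p : ℝ) * Psi K idk p (pr ((bm R).cN p b))) + Psi K idk (p - 1) (pr ((bm R).rN p b)) ≤
      Psi K idk p (pr b)
    rw [e1, e2, e3]
    exact (Psi_step (wr := idk) (by omega) H.ker (H.pba h') (H.tk h' hp0) (H.len h' hp0)).ge
  v1 := fun {b} h => by
    have h' : R.ok 1 b := h
    have e1 := H.P.eP h one_ne_zero
    have e3 := H.P.eR h one_ne_zero
    have e4 := H.P.no1 h
    show jl K idk 1 (pr b) + Psi K idk 1 (pr ((bm R).cP 1 b)) + Psi K idk 0 (pr ((bm R).rN 1 b)) ≤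
      Psi K idk 1 (pr b)
    have h5 := Psi_step (K := K) (wr := idk) one_pos H.ker (H.pba h') (H.tk h' one_ne_zero)
      (H.len h' one_ne_zero)
    rw [e1, e3, h5, e4]
    simp only [List.map_nil, Psi_nil]
    refine le_of_eq ?_
    norm_num
  sP := fun {p b} h hp => by
    have e1 := H.P.eP h hp
    show siz (pr ((bm R).cP p b)) = 0 ∨ siz (pr ((bm R).cP p b)) + 1 ≤ siz (pr b)
    rw [e1]
    exact siz_ch fun t ht => (size_ch ((H.tk h hp).isb t ht)).1
  sN := fun {p b} h hp => by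
    have e1 := H.P.eN h hp
    show siz (pr ((bm R).cN p b)) = 0 ∨ siz (pr ((bm R).cN p b)) + 1 ≤ siz (pr b)
    rw [e1]
    exact siz_ch fun t ht => (size_ch ((H.tk h hp).isb t ht)).2
  sR := fun {p b} h hp => by
    have e1 := H.P.eR h hp
    show siz (pr ((bm R).rN p b)) ≤ siz (pr b)
    rw [e1]
    exact siz_bN p _

lemma I_M {s : Gs β} {c0 : ∀ j, 0 ≤ s.c j} {f : s.J → ℝ → ℝ} (hf : ∀ j, PB (f j)) :
    I (fun x => GMer27.M s.c fun j => f j x) = GMer27.M s.c fun j => I (f j) := by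
  unfold GMer27.M
  rw [I_sum _ fun j _ => ((hf j).smul (c0 j)).integrableOn]
  exact Finset.sum_congr rfl fun j _ => I_smul _ _

lemma I_sumM {s : Gs β} {c0 : ∀ j, 0 ≤ s.c j} {f : δ → s.J → ℝ → ℝ} (hf : ∀ z j, PB (f z j)) :
    I (fun x => ∑ z, GMer27.M s.c fun j => f z j x) =
      GMer27.M s.c fun j => ∑ z, I (f z j) := by
  rw [I_sum _ fun z _ => (PB_M c0 (f := fun x j => f z j x) (hf z)).integrableOn, M_sum]
  exact Finset.sum_congr rfl fun z _ => I_M (c0 := c0) (hf z)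

/-- **joins and leaves** -/
theorem KP.inm_le (H : KP R pr kO K) {p : ℕ} {s : Gs β} (hs : R.gok p s) (hp : p ≠ 0) :
    I (R.jn p s) + lfE R p s ≤ GMer27.M s.c fun j => jl K idk p (pr (s.L j)) := by
  have c0 := hs.1.c0
  have pL : ∀ j z, PB (R.hL p (s.L j) z) := fun j z => R.pL (hs.2 j) hp z
  have pB : ∀ j z, PB (R.hB p (s.L j) z) := fun j z => R.pB (hs.2 j) hp z
  have pN : ∀ j z, PB (R.hN p (s.L j) z) := fun j z => R.pN (hs.2 j) hp z
  have e1 : I (R.jn p s) = GMer27.M s.c fun j => ∑ z, I (R.jb p (s.L j) z) := by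
    have : R.jn p s = fun x => ∑ z, GMer27.M s.c fun j => R.jb p (s.L j) z x := rfl
    rw [this]
    exact I_sumM (c0 := c0) (f := fun z j => R.jb p (s.L j) z) fun z j =>
      ((((pL j z).mul (pB j z)).add ((pL j z).mul (pN j z))).add ((pB j z).mul (pN j z))).smul
        (by norm_num)
  have e2 : lfE R p s = GMer27.M s.c fun j => 2 * ∑ z, I (fun x => R.hL p (s.L j) z x ^ 2) := by
    unfold lfE
    rw [I_sumM (c0 := c0) (f := fun z j x => R.hL p (s.L j) z x ^ 2) fun z j => PBsq (pL j z), M_smul]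
  rw [e1, e2, ← M_add]
  refine M_mono c0 fun j => ?_
  have hb : R.ok p (s.L j) := hs.2 j
  have hK := H.ker p
  set L := pr (s.L j) with hL
  have hA := H.pba hb
  rw [← hL] at hA
  have vL : ∀ i, PB (jv (bL p L) i) := fun i => PB_jv (hA.bL p).self i
  have vB : ∀ i, PB (jv (bB p L) i) := fun i => PB_jv (hA.bB p).self i
  have vN : ∀ i, PB (jv (bN p L) i) := fun i => PB_jv (hA.bN p).self i
  have q1 := I_hz_prod_le hK (pL j) (pB j) (H.eL hb hp) (H.eB hb hp) vL vB
    fun x i i' a1 a2 a3 a4 => H.dom hb x i i' (Or.inl ⟨a1, Or.inr (Or.inl a2)⟩) a3 a4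
  have q2 := I_hz_prod_le hK (pL j) (pN j) (H.eL hb hp) (H.eN hb hp) vL vN
    fun x i i' a1 a2 a3 a4 => H.dom hb x i i' (Or.inl ⟨a1, Or.inr (Or.inr a2)⟩) a3 a4
  have q3 := I_hz_prod_le hK (pB j) (pN j) (H.eB hb hp) (H.eN hb hp) vB vN
    fun x i i' a1 a2 a3 a4 => H.dom hb x i i' (Or.inr ⟨a1, a2⟩) a3 a4
  have q4 := I_hz_prod_le hK (pL j) (pL j) (H.eL hb hp) (H.eL hb hp) vL vL
    fun x i i' a1 a2 a3 a4 => H.dom hb x i i' (Or.inl ⟨a1, Or.inl a2⟩) a3 a4
  have e3 : ∀ z, I (R.jb p (s.L j) z) = 4 * (I (fun x => R.hL p (s.L j) z x * R.hB p (s.L j) z x) +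
      I (fun x => R.hL p (s.L j) z x * R.hN p (s.L j) z x) +
      I (fun x => R.hB p (s.L j) z x * R.hN p (s.L j) z x)) := by
    intro z
    have a1 := (pL j z).mul (pB j z)
    have a2 := (pL j z).mul (pN j z)
    have a3 := (pB j z).mul (pN j z)
    rw [← I_add a1.integrableOn a2.integrableOn, ← I_add (a1.add a2).integrableOn a3.integrableOn,
      ← I_smul]
    rfl
  have e4 : ∑ z, I (R.jb p (s.L j) z) =
      4 * (∑ z, I (fun x => R.hL p (s.L j) z x * R.hB p (s.L j) z x) +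
      ∑ z, I (fun x => R.hL p (s.L j) z x * R.hN p (s.L j) z x) +
      ∑ z, I (fun x => R.hB p (s.L j) z x * R.hN p (s.L j) z x)) := by
    rw [Finset.sum_congr rfl fun z _ => e3 z, ← Finset.mul_sum, Finset.sum_add_distrib,
      Finset.sum_add_distrib]
  have e5 : ∑ z, I (fun x => R.hL p (s.L j) z x ^ 2) =
      ∑ z, I (fun x => R.hL p (s.L j) z x * R.hL p (s.L j) z x) :=
    Finset.sum_congr rfl fun z _ => by congr 1; funext x; ring
  rw [e4, e5]
  have e6 : ∀ M : List (DT Λ κ), bc (idk p) M = jv M := fun M => bc_id M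
  unfold jl
  rw [e6, e6, e6]
  linarith

/-- the base -/
theorem KP.bse_le (H : KP R pr kO K) {p : ℕ} {s : Gs β} (hs : R.gok p s)
    (h : p = 0 ∨ ∀ j, siz (pr (s.L j)) = 0) :
    bse R p s ≤ GMer27.M s.c fun j => Psi K idk p (pr (s.L j)) := by
  have c0 := hs.1.c0
  have ph' : ∀ j z, PB (R.h p (s.L j) z) := fun j z => R.ph (hs.2 j) z
  have e2 : bse R p s = GMer27.M s.c fun j => 2 * ∑ z, I (fun x => R.h p (s.L j) z x ^ 2) := by
    unfold bse
    rw [I_sumM (c0 := c0) (f := fun z j x => R.h p (s.L j) z x ^ 2) fun z j => PBsq (ph' j z), M_smul]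
  rw [e2]
  refine M_mono c0 fun j => ?_
  have hb : R.ok p (s.L j) := hs.2 j
  have hK := H.ker p
  set L := pr (s.L j) with hL
  have hA := H.pba hb
  rw [← hL] at hA
  have v : ∀ i, PB (jv L i) := fun i => PB_jv hA.self i
  have hlf : ∀ t ∈ L, isLf t = true := by
    rcases h with h0 | h0
    · subst h0; exact H.lf0 hb
    · have := siz_zero (h0 j)
      rw [← hL] at this
      rw [this]
      simp
  have eLL : bL p L = L := bL_leaves hlf
  have q := I_hz_prod_le hK (ph' j) (ph' j) (H.eH hb) (H.eH hb) v v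
    fun x i i' a1 a2 a3 a4 => H.dom hb x i i'
      (Or.inl ⟨by rw [← hL, eLL]; exact a1, Or.inl (by rw [← hL, eLL]; exact a2)⟩) a3 a4
  have e5 : ∑ z, I (fun x => R.h p (s.L j) z x ^ 2) =
      ∑ z, I (fun x => R.h p (s.L j) z x * R.h p (s.L j) z x) :=
    Finset.sum_congr rfl fun z _ => by congr 1; funext x; ring
  rw [e5]
  have e7 : (L.map (ph K idk p)).sum = 0 := by
    refine List.sum_eq_zero fun y hy => ?_
    obtain ⟨t, ht, rfl⟩ := List.mem_map.1 hy
    exact ph_leaf (hlf t ht)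
  have e6 : bc (idk p) L = jv L := bc_id L
  unfold Psi E2
  rw [e7, e6]
  linarith

/-- the other in-member terms: class changes and losses inside the rows -/
noncomputable def oth (D : RGx U) (Km p : ℕ) (s : Gs β) : ℝ :=
  I (D.jm Km p s) + I (R.jb0 p s) + I (D.jmB Km p s)

/-- **the in-member part of `E0`, typed bundles** -/
theorem E0_leK (H : KP R pr kO K) (D : RGx U) {del : ℝ} {Km : ℕ} (h0 : 0 < del) (h1 : del ≤ 1)
    (hK : del * U.B0 ≤ 2 ^ Km) (n p : ℕ) (s : Gs β) (hs : D.ok p s)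
    (hn : ∀ j, siz (pr (s.L j)) + p ≤ n) :
    Pay45.E0 (D.ms h0 h1 hK) n p (p, s) ≤ Kw (bm R) (so U) n p s +
      (8 / del + Ld del) * (GMer27.M s.c (fun j => Psi K idk p (pr (s.L j))) +
        Kw (bm R) (oth D Km) n p s) := by
  refine E0_le D h0 h1 hK H.sv (er := oth D Km) (fun {p s} hs hp => ?_)
    (fun {p s} hs h => H.bse_le (D.gk hs) h) n p s hs hn
  have h2 := H.inm_le (D.gk hs) hp
  unfold inm oth
  linarith

/-- **the form at the root** -/
theorem E0_root (H : KP R pr kO K) (D : RGx U) {del : ℝ} {Km : ℕ} (h0 : 0 < del) (h1 : del ≤ 1)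
    (hK : del * U.B0 ≤ 2 ^ Km) (n p : ℕ) (b : β) (t : DT Λ κ) (hb : pr b = [t])
    (hs : D.ok p (one b)) (hn : t.size + p ≤ n) :
    Pay45.E0 (D.ms h0 h1 hK) n p (p, one b) ≤ Kw (bm R) (so U) n p (one b) +
      (8 / del + Ld del) * (2 * (leU K idk p t + dC K idk t) +
        Kw (bm R) (oth D Km) n p (one b)) := by
  have h2 := E0_leK H D h0 h1 hK n p (one b) hs (fun j => by
    have e : pr ((one b).L j) = [t] := hb
    rw [e]
    show siz [t] + p ≤ n
    simpa [siz] using hn)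
  rw [one_M b (fun b' => Psi K idk p (pr b')), hb, Psi_single] at h2
  exact h2

/-- the real costs grow with the number of steps -/
theorem Kr_mono_n (D : RGx U) {rc : ℕ → Gs β → ℝ → ℝ} (hr : RCost D rc) {n n' p : ℕ} {s : Gs β}
    (h : n ≤ n') (hs : D.ok p s) : Kr R rc n p s ≤ Kr R rc n' p s := by
  rw [Kr_eq, Kr_eq]
  exact Kw_mono_n (M := bm R) (ok := D.ok) (fun hs hp => D.okC hs hp) (fun hs hp => D.okN hs hp)
    (fun hs hp => I_nonneg fun x => (hr.prc hs hp).nonneg x) n n' p s h hs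

end kp

end Crest.Agent.R4P.JnH5
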