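import Crest.Agent.R4P.BthS_48
import Crest.Agent.R4P.JnH_5

/-!
R4 (S0004) with powers, T3, helper48: **prices of located births in two parts**.

`E ≤ E₁ + E₂` : `E₁` located on few sheets (parameter `τ₁`, classes `Z`), `E₂` spread over all the sheets
(parameter `τ₂`, all the classes).  `nn_add` : Minkowski; **`price2 : PrE ..`**.
* **`LPr.of2`** : rates `8 θ p` and second order part
  `x2 = ∑ z 4/θ (τ₁ M E₁² + 1[z ∈ Z] M h² / τ₁ + τ₂ M E₂² + M h² / τ₂)`; `I_x2` : its integral by fibre means.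
-/

set_option autoImplicit false
set_option linter.unusedSectionVars false
set_option linter.unusedVariables false
open MeasureTheory Filter Set

namespace Crest.Agent.R4P.BthT48

open Crest.Agent.R4.Tour104 Crest.Agent.R4.Clos758
open Crest.Agent.R4P.GMer27 Crest.Agent.R4P.GCol27 Crest.Agent.R4P.RSys343 Crest.Agent.R4P.TrR343
open Crest.Agent.R4P.RXs343 Crest.Agent.R4P.RXm55 Crest.Agent.R4P.RXm55.RXm
open Crest.Agent.R4P.MSi343 (su su_add two_pos')
open Crest.Agent.R4P.ModeP940 Crest.Agent.R4P.MisR16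
open Crest.Agent.R4P.PMs49 Crest.Agent.R4P.MSm25 Crest.Agent.R4P.ZetaL237
open Crest.Agent.R4P.Pay349 Crest.Agent.R4P.Prc49
open Crest.Agent.R4P.BthS48

section single
variable {J : Type*} [Fintype J] {c : J → ℝ}

/-- Minkowski -/
lemma nn_add (c0 : ∀ j, 0 ≤ c j) (f g : J → ℝ) : nn c (fun j => f j + g j) ≤ nn c f + nn c g := by
  have h1 := M_cs c0 f g
  have hf : 0 ≤ M c fun j => f j ^ 2 := M_nonneg c0 fun j => sq_nonneg _
  have hg : 0 ≤ M c fun j => g j ^ 2 := M_nonneg c0 fun j => sq_nonneg _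
  have e : (M c fun j => (f j + g j) ^ 2) =
      (M c fun j => f j ^ 2) + 2 * (M c fun j => f j * g j) + (M c fun j => g j ^ 2) := by
    rw [← M_smul, ← M_add, ← M_add]
    congr 1
    funext j
    ring
  have e1 : nn c f ^ 2 = M c fun j => f j ^ 2 := Real.sq_sqrt hf
  have e2 : nn c g ^ 2 = M c fun j => g j ^ 2 := Real.sq_sqrt hg
  unfold nn at h1 e1 e2 ⊢
  apply Real.sqrt_le_iff.2
  refine ⟨add_nonneg (Real.sqrt_nonneg _) (Real.sqrt_nonneg _), ?_⟩
  rw [e]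
  nlinarith

lemma KK_add (c0 : ∀ j, 0 ≤ c j) (f g h : J → ℝ) :
    KK c (fun j => f j + g j) h ≤ KK c f h + KK c g h := by
  unfold KK
  rw [← add_mul]
  exact mul_le_mul_of_nonneg_right (nn_add c0 f g) (nn_nonneg _)

end single

section grp
variable {β δ : Type} [Fintype δ] [DecidableEq δ]

/-- **the price of located births in two parts** -/
theorem price2 {s : Gs β} {E E₁ E₂ c h : β → δ → ℝ → ℝ} {X x : ℝ} (H : TC s.c s.W)
    (hh : ∀ j z, 0 ≤ h (s.L j) z x) (hE1 : ∀ j z, 0 ≤ E₁ (s.L j) z x)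
    (hE2 : ∀ j z, 0 ≤ E₂ (s.L j) z x)
    (hE : ∀ j z, E (s.L j) z x ≤ E₁ (s.L j) z x + E₂ (s.L j) z x) (θ τ₁ τ₂ : δ → ℝ)
    (Z : Finset δ) (h1 : ∀ z, 0 < θ z) (h2 : ∀ z, 0 < τ₁ z) (h2' : ∀ z, 0 < τ₂ z)
    (hZ : ∀ j z, E₁ (s.L j) z x ≠ 0 → z ∈ Z) (hc : ∀ j z, 8 * θ z ≤ c (s.L j) z x)
    (hX : ∑ z ∈ Z, 4 / θ z * (τ₁ z * M s.c (fun j => E₁ (s.L j) z x ^ 2) +
      M s.c (fun j => h (s.L j) z x ^ 2) / τ₁ z) +
      ∑ z, 4 / θ z * (τ₂ z * M s.c (fun j => E₂ (s.L j) z x ^ 2) +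
      M s.c (fun j => h (s.L j) z x ^ 2) / τ₂ z) ≤ X) : PrE s E c h X x := by
  intro σ hσ g g0 gE gh
  have k := PM7_L2z H hσ (f := fun z j => min (h (s.L j) z x) σ - g (s.L j) z x)
    (g := fun z j => g (s.L j) z x) (fun z j => sub_nonneg.2 (gh j z)) (fun z j => g0 j z) h1
  have e1 : (fun (z : δ) (j : s.J) => (min (h (s.L j) z x) σ - g (s.L j) z x) + g (s.L j) z x) =
      fun z j => min (h (s.L j) z x) σ := funext fun z => funext fun j => by ring
  have e2 : ∀ z : δ, (fun j : s.J => (min (h (s.L j) z x) σ - g (s.L j) z x) + g (s.L j) z x) =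
      fun j => min (h (s.L j) z x) σ := fun z => funext fun j => by ring
  rw [e1] at k
  simp only [e2] at k
  refine k.trans (add_le_add le_rfl ?_)
  rw [Finset.sum_add_distrib, mul_add]
  refine add_le_add ?_ (le_trans ?_ hX)
  · -- linear part
    have a1 : 8 * ∑ z, θ z * σ * M s.c (fun j => g (s.L j) z x) =
        σ * M s.c fun j => ∑ z, 8 * θ z * g (s.L j) z x := by
      have a2 : (M s.c fun j => ∑ z, 8 * θ z * g (s.L j) z x) =
          ∑ z, 8 * θ z * M s.c fun j => g (s.L j) z x := by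
        unfold M
        rw [← Finset.sum_congr rfl fun j _ => (Finset.mul_sum _ _ _).symm, Finset.sum_comm]
        refine Finset.sum_congr rfl fun z _ => ?_
        rw [Finset.mul_sum]
        exact Finset.sum_congr rfl fun j _ => by ring
      rw [a2, Finset.mul_sum, Finset.mul_sum]
      exact Finset.sum_congr rfl fun z _ => by ring
    rw [a1]
    refine mul_le_mul_of_nonneg_left (M_mono H.c0 fun j => ?_) hσ.le
    refine Finset.sum_le_sum fun z _ => ?_
    have h5 : 0 ≤ 8 * θ z := by linarith [h1 z]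
    exact mul_le_mul (hc j z) (gE j z) (g0 j z) (h5.trans (hc j z))
  · -- second order part
    have b0 : ∀ z, KK s.c (fun j => g (s.L j) z x) (fun j => min (h (s.L j) z x) σ) ≤
        KK s.c (fun j => E₁ (s.L j) z x) (fun j => h (s.L j) z x) +
        KK s.c (fun j => E₂ (s.L j) z x) (fun j => h (s.L j) z x) := fun z =>
      (KK_mono H.c0 (x' := fun j => E₁ (s.L j) z x + E₂ (s.L j) z x)
        (z' := fun j => h (s.L j) z x) (fun j => g0 j z)
        (fun j => le_min (hh j z) hσ.le) (fun j => (gE j z).trans (hE j z))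
        fun j => min_le_left _ _).trans (KK_add H.c0 _ _ _)
    have b1 : ∀ (z : δ) (e : s.J → ℝ) (t : ℝ), 0 < t →
        8 * (KK s.c e (fun j => h (s.L j) z x) / θ z) ≤
        4 / θ z * (t * M s.c (fun j => e j ^ 2) + M s.c (fun j => h (s.L j) z x ^ 2) / t) := by
      intro z e t ht
      have b2 := KK_le H.c0 e (fun j => h (s.L j) z x) ht
      have b3 := div_le_div_of_nonneg_right b2 (h1 z).le
      calc 8 * (KK s.c e (fun j => h (s.L j) z x) / θ z)
          ≤ 8 * ((t * M s.c (fun j => e j ^ 2) +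
            M s.c (fun j => h (s.L j) z x ^ 2) / t) / 2 / θ z) := by linarith
        _ = 4 / θ z * (t * M s.c (fun j => e j ^ 2) +
            M s.c (fun j => h (s.L j) z x ^ 2) / t) := by
          have := (h1 z).ne'
          field_simp
          ring
    have b4 : ∀ z, 8 * (KK s.c (fun j => E₁ (s.L j) z x) (fun j => h (s.L j) z x) / θ z) ≤
        if z ∈ Z then 4 / θ z * (τ₁ z * M s.c (fun j => E₁ (s.L j) z x ^ 2) +
          M s.c (fun j => h (s.L j) z x ^ 2) / τ₁ z) else 0 := by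
      intro z
      split_ifs with hz
      · exact b1 z _ _ (h2 z)
      · have e0 : (fun j => E₁ (s.L j) z x) = fun _ => 0 := funext fun j => by
          by_contra hne
          exact hz (hZ j z hne)
        have e3 : nn s.c (fun j => E₁ (s.L j) z x) = 0 := by
          rw [e0]
          unfold nn
          simp [M]
        unfold KK
        rw [e3]
        simp
    have b5 : ∑ z ∈ Z, 4 / θ z * (τ₁ z * M s.c (fun j => E₁ (s.L j) z x ^ 2) +
        M s.c (fun j => h (s.L j) z x ^ 2) / τ₁ z) =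
        ∑ z, if z ∈ Z then 4 / θ z * (τ₁ z * M s.c (fun j => E₁ (s.L j) z x ^ 2) +
          M s.c (fun j => h (s.L j) z x ^ 2) / τ₁ z) else 0 := by
      rw [← Finset.sum_filter]
      congr 1
      ext z
      simp
    rw [b5, ← Finset.sum_add_distrib, Finset.mul_sum]
    refine Finset.sum_le_sum fun z _ => ?_
    have b6 := div_le_div_of_nonneg_right (b0 z) (h1 z).le
    rw [add_div] at b6
    have b7 := b4 z
    have b8 := b1 z (fun j => E₂ (s.L j) z x) (τ₂ z) (h2' z)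
    linarith

/-! ### fibre means -/

/-- **fibre data of the located births** : located part `E₁`, spread part `E₂`, content `a` of the child P
and lifts `G`, bounds `n1 n2 bb` of the fibre means -/
structure Fib (R : RXm β δ) where
  E₁ : ℕ → β → δ → ℝ → ℝ
  E₂ : ℕ → β → δ → ℝ → ℝ
  a : ℕ → β → δ → ℝ → ℝ
  G : ℕ → β → δ → ℝ → ℝ
  n1 : ℕ → β → δ → ℝ → ℝ
  n2 : ℕ → β → δ → ℝ → ℝ
  bb : ℕ → β → δ → ℝ → ℝ
  pE1 : ∀ {p b}, R.ok p b → p ≠ 0 → ∀ z, PB (E₁ p b z)
  pE2 : ∀ {p b}, R.ok p b → p ≠ 0 → ∀ z, PB (E₂ p b z)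
  pa : ∀ {p b}, R.ok p b → p ≠ 0 → ∀ z, PB (a p b z)
  pG : ∀ {p b}, R.ok p b → p ≠ 0 → ∀ z, PB (G p b z)
  pn1 : ∀ {p b}, R.ok p b → p ≠ 0 → ∀ z, PB (n1 p b z)
  pn2 : ∀ {p b}, R.ok p b → p ≠ 0 → ∀ z, PB (n2 p b z)
  pbb : ∀ {p b}, R.ok p b → p ≠ 0 → ∀ z, PB (bb p b z)
  e1 : ∀ {p b}, R.ok p b → p ≠ 0 → ∀ z y, Ep p (fun x => E₁ p b z x ^ 2) y ≤
    1 / (p : ℝ) * n1 p b z y
  e2 : ∀ {p b}, R.ok p b → p ≠ 0 → ∀ z y, Ep p (fun x => E₂ p b z x ^ 2) y ≤
    (1 / (p : ℝ)) ^ 2 * n2 p b z y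
  hP : ∀ {p b}, R.ok p b → p ≠ 0 → ∀ z x, R.hP p b z x ≤ a p b z (p * x) + G p b z x
  eG : ∀ {p b}, R.ok p b → p ≠ 0 → ∀ z y, Ep p (fun x => G p b z x ^ 2) y ≤
    1 / (p : ℝ) * bb p b z y

open Crest.Agent.R4P.DTn407 (ch ch_on ch_off PB_ch ch_nonneg)
open Crest.Agent.R4P.DTp26 (MP)

variable {R : RXm β δ}

namespace Fib
variable (F : Fib R)

/-- a class with a located birth -/
def Zs (p : ℕ) (s : Gs β) (z : δ) (x : ℝ) : Prop := ∃ j, F.E₁ p (s.L j) z x ≠ 0

/-- second moment of the class content -/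
noncomputable def h2 (R : RXm β δ) (p : ℕ) (s : Gs β) (z : δ) (x : ℝ) : ℝ :=
  M s.c fun j => R.hP p (s.L j) z x ^ 2

/-- **second order part of the located births** (`τ` for the located part, `p τ` for the spread part) -/
noncomputable def x2 (θ : ℕ → ℝ) (τ : ℕ → δ → ℝ) (p : ℕ) (s : Gs β) (x : ℝ) : ℝ :=
  ∑ z, 4 / θ p * ((τ p z * (M s.c fun j => F.E₁ p (s.L j) z x ^ 2) +
      1 / τ p z * ch (F.Zs p s z x) (h2 R p s z x)) +
    (p * τ p z * (M s.c fun j => F.E₂ p (s.L j) z x ^ 2) + 1 / (p * τ p z) * h2 R p s z x))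

lemma M_x {s : Gs β} {c0 : ∀ j, 0 ≤ s.c j} {f : s.J → ℝ → ℝ} (hf : ∀ j, PB (f j)) :
    PB fun x => M s.c fun j => f j x := GCol27.PB_M c0 (f := fun x j => f j x) hf

lemma PB_sq {f : ℝ → ℝ} (hf : PB f) : PB fun x => f x ^ 2 := by
  simpa [sq] using hf.mul hf

lemma PB_h2 {p : ℕ} {s : Gs β} (hs : R.gok p s) (hp : p ≠ 0) (z : δ) : PB (h2 R p s z) :=
  M_x (c0 := hs.1.c0) fun j => PB_sq (R.pP (hs.2 j) hp z)

lemma MP_Zs {p : ℕ} {s : Gs β} (hs : R.gok p s) (hp : p ≠ 0) (z : δ) : MP (F.Zs p s z) := by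
  have h1 : PB fun x => ∑ j : s.J, F.E₁ p (s.L j) z x :=
    PB.sum _ fun j _ => F.pE1 (hs.2 j) hp z
  have e : F.Zs p s z = fun x => ∑ j : s.J, F.E₁ p (s.L j) z x ≠ 0 := by
    funext x
    refine propext ⟨fun ⟨j, hj⟩ h0 => hj ?_, fun h => ?_⟩
    · exact (Finset.sum_eq_zero_iff_of_nonneg fun j _ => (F.pE1 (hs.2 j) hp z).nonneg x).1 h0 j
        (Finset.mem_univ _)
    · by_contra hn
      unfold Zs at hn
      push Not at hn
      exact h (Finset.sum_eq_zero fun j _ => hn j)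
  rw [e]
  exact MP.ne h1

lemma PB_x2 {θ : ℕ → ℝ} {τ : ℕ → δ → ℝ} {p : ℕ} {s : Gs β} (hs : R.gok p s) (hp : p ≠ 0)
    (hθ : 0 < θ p) (hτ : ∀ z, 0 < τ p z) : PB (F.x2 θ τ p s) := by
  have c0 := hs.1.c0
  have h0 : ∀ z, 0 < τ p z := hτ
  exact PB.sum _ fun z _ =>
    ((((M_x (c0 := c0) fun j => PB_sq (F.pE1 (hs.2 j) hp z)).smul (h0 z).le).add
      ((PB_ch (F.MP_Zs hs hp z) (PB_h2 hs hp z)).smul (one_div_nonneg.2 (h0 z).le))).add
      (((M_x (c0 := c0) fun j => PB_sq (F.pE2 (hs.2 j) hp z)).smul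
        (mul_nonneg (Nat.cast_nonneg _) (h0 z).le)).add
        ((PB_h2 hs hp z).smul (one_div_nonneg.2 (mul_nonneg (Nat.cast_nonneg _) (h0 z).le))))).smul
      (by positivity)

/-- **the price with the second order part `x2`** -/
theorem prE {θ : ℕ → ℝ} {τ : ℕ → δ → ℝ} {p : ℕ} {s : Gs β} (hs : R.gok p s) (hp : p ≠ 0)
    (hθ : 0 < θ p) (hτ : ∀ z, 0 < τ p z) {E : β → δ → ℝ → ℝ}
    (hE : ∀ j z x, E (s.L j) z x ≤ F.E₁ p (s.L j) z x + F.E₂ p (s.L j) z x) (x : ℝ) :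
    PrE s E (fun _ _ _ => 8 * θ p) (R.hP p) (F.x2 θ τ p s x) x := by
  classical
  have hp' : (0:ℝ) < p := by exact_mod_cast Nat.pos_of_ne_zero hp
  refine price2 (E₁ := F.E₁ p) (E₂ := F.E₂ p) (c := fun _ _ _ => 8 * θ p) hs.1 (fun j z => (R.pP (hs.2 j) hp z).nonneg x)
    (fun j z => (F.pE1 (hs.2 j) hp z).nonneg x) (fun j z => (F.pE2 (hs.2 j) hp z).nonneg x)
    (fun j z => hE j z x) (fun _ => θ p) (fun z => τ p z) (fun z => p * τ p z)
    (Finset.univ.filter fun z => F.Zs p s z x) (fun _ => hθ) hτ (fun z => mul_pos hp' (hτ z))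
    (fun j z h => Finset.mem_filter.2 ⟨Finset.mem_univ _, j, h⟩)
    (fun _ _ => le_refl (8 * θ p)) ?_
  rw [Finset.sum_filter, ← Finset.sum_add_distrib]
  unfold x2
  refine Finset.sum_le_sum fun z _ => ?_
  have hM : 0 ≤ M s.c fun j => F.E₁ p (s.L j) z x ^ 2 := M_nonneg hs.1.c0 fun j => sq_nonneg _
  refine le_trans (add_le_add ?_ (le_of_eq ?_)) (le_of_eq (mul_add _ _ _).symm)
  · by_cases hz : F.Zs p s z x
    · rw [if_pos hz, ch_on hz]
      refine le_of_eq ?_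
      unfold h2
      ring
    · rw [if_neg hz, ch_off hz]
      have h1 := hτ z
      positivity
  · unfold h2
    ring

/-! ### the integral -/

/-- squares of the contents above -/
lemma hP_sq {p : ℕ} {b : β} (hb : R.ok p b) (hp : p ≠ 0) (z : δ) (x : ℝ) :
    R.hP p b z x ^ 2 ≤ 2 * F.a p b z (p * x) ^ 2 + 2 * F.G p b z x ^ 2 := by
  have h1 := F.hP hb hp z x
  have h2 := (R.pP hb hp z).nonneg x
  have h3 := (F.pa hb hp z).nonneg (p * x)
  have h4 := (F.pG hb hp z).nonneg x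
  nlinarith [sq_nonneg (F.a p b z (p * x) - F.G p b z x), pow_le_pow_left₀ h2 h1 2]

open Classical in
/-- fibre mean of the second moment on `Z` -/
lemma Ep_Z {p : ℕ} {s : Gs β} (hs : R.gok p s) (hp : p ≠ 0) (z : δ) {Nz : ℝ} (y : ℝ)
    (hN : (((Finset.range p).filter fun i : ℕ => F.Zs p s z ((y + i) / p)).card : ℝ) ≤ Nz) :
    Ep p (fun x => ch (F.Zs p s z x) (h2 R p s z x)) y ≤
      1 / (p : ℝ) * (2 * Nz * (M s.c fun j => F.a p (s.L j) z y ^ 2) +
        2 * M s.c fun j => F.bb p (s.L j) z y) := by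
  classical
  have hp0 : 0 < p := Nat.pos_of_ne_zero hp
  have hp' : (0:ℝ) < p := by exact_mod_cast hp0
  have c0 := hs.1.c0
  set A := M s.c fun j => F.a p (s.L j) z y ^ 2 with hA
  have hA0 : 0 ≤ A := M_nonneg c0 fun j => sq_nonneg _
  have h1 : ∀ i ∈ Finset.range p, ch (F.Zs p s z ((y + (i:ℕ)) / p)) (h2 R p s z ((y + (i:ℕ)) / p)) ≤
      (if F.Zs p s z ((y + (i:ℕ)) / p) then 2 * A else 0) +
        2 * M s.c fun j => F.G p (s.L j) z ((y + (i:ℕ)) / p) ^ 2 := by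
    intro i _
    have g0 : 0 ≤ M s.c fun j => F.G p (s.L j) z ((y + (i:ℕ)) / p) ^ 2 :=
      M_nonneg c0 fun j => sq_nonneg _
    by_cases hz : F.Zs p s z ((y + (i:ℕ)) / p)
    · rw [ch_on hz, if_pos hz]
      unfold h2
      have e : 2 * A + 2 * (M s.c fun j => F.G p (s.L j) z ((y + (i:ℕ)) / p) ^ 2) =
          M s.c fun j => 2 * F.a p (s.L j) z y ^ 2 +
            2 * F.G p (s.L j) z ((y + (i:ℕ)) / p) ^ 2 := by
        rw [M_add, M_smul, M_smul]
      rw [e]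
      refine M_mono c0 fun j => ?_
      have h3 := F.hP_sq (hs.2 j) hp z ((y + (i:ℕ)) / p)
      have h4 : F.a p (s.L j) z (p * ((y + (i:ℕ)) / p)) = F.a p (s.L j) z y :=
        DTo407.fib_per hp0 (fun x => (F.pa (hs.2 j) hp z).per x) y i
      rw [h4] at h3
      exact h3
    · rw [ch_off hz, if_neg hz]
      linarith
  have h2' : ∑ i ∈ Finset.range p, M s.c (fun j => F.G p (s.L j) z ((y + (i:ℕ)) / p) ^ 2) ≤
      M s.c fun j => F.bb p (s.L j) z y := by
    have e : ∑ i ∈ Finset.range p, M s.c (fun j => F.G p (s.L j) z ((y + (i:ℕ)) / p) ^ 2) =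
        M s.c fun j => ∑ i ∈ Finset.range p, F.G p (s.L j) z ((y + (i:ℕ)) / p) ^ 2 := by
      unfold M
      rw [Finset.sum_comm]
      exact Finset.sum_congr rfl fun j _ => by rw [Finset.mul_sum]
    rw [e]
    refine M_mono c0 fun j => ?_
    have h3 := F.eG (hs.2 j) hp z y
    unfold Ep at h3
    rw [div_le_iff₀ hp'] at h3
    refine h3.trans (le_of_eq ?_)
    field_simp
  have h3 := Finset.sum_le_sum h1
  rw [Finset.sum_add_distrib, ← Finset.mul_sum, Finset.sum_ite, Finset.sum_const_zero, add_zero,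
    Finset.sum_const, nsmul_eq_mul] at h3
  unfold Ep
  rw [div_le_iff₀ hp']
  have h4 : (((Finset.range p).filter fun i : ℕ => F.Zs p s z ((y + i) / p)).card : ℝ) * (2 * A) ≤
      Nz * (2 * A) := mul_le_mul_of_nonneg_right hN (by linarith)
  have e2 : 1 / (p : ℝ) * (2 * Nz * A + 2 * M s.c fun j => F.bb p (s.L j) z y) * p =
      2 * Nz * A + 2 * M s.c fun j => F.bb p (s.L j) z y := by field_simp
  rw [e2]
  linarith

/-- fibre mean of the second moment -/
lemma Ep_h2 {p : ℕ} {s : Gs β} (hs : R.gok p s) (hp : p ≠ 0) (z : δ) (y : ℝ) :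
    Ep p (h2 R p s z) y ≤ 2 * (M s.c fun j => F.a p (s.L j) z y ^ 2) +
        2 * M s.c fun j => F.bb p (s.L j) z y := by
  have hp0 : 0 < p := Nat.pos_of_ne_zero hp
  have hp1 : (1:ℝ) ≤ p := by exact_mod_cast hp0
  have hp' : (0:ℝ) < p := by linarith
  have c0 := hs.1.c0
  have h1 : ∀ i ∈ Finset.range p, h2 R p s z ((y + (i:ℕ)) / p) ≤
      2 * (M s.c fun j => F.a p (s.L j) z y ^ 2) +
        2 * M s.c fun j => F.G p (s.L j) z ((y + (i:ℕ)) / p) ^ 2 := by
    intro i _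
    have e : 2 * (M s.c fun j => F.a p (s.L j) z y ^ 2) +
        2 * (M s.c fun j => F.G p (s.L j) z ((y + (i:ℕ)) / p) ^ 2) =
          M s.c fun j => 2 * F.a p (s.L j) z y ^ 2 +
            2 * F.G p (s.L j) z ((y + (i:ℕ)) / p) ^ 2 := by
      rw [M_add, M_smul, M_smul]
    rw [e]
    refine M_mono c0 fun j => ?_
    have h3 := F.hP_sq (hs.2 j) hp z ((y + (i:ℕ)) / p)
    have h4 : F.a p (s.L j) z (p * ((y + (i:ℕ)) / p)) = F.a p (s.L j) z y :=
      DTo407.fib_per hp0 (fun x => (F.pa (hs.2 j) hp z).per x) y i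
    rw [h4] at h3
    exact h3
  have h2' : ∑ i ∈ Finset.range p, M s.c (fun j => F.G p (s.L j) z ((y + (i:ℕ)) / p) ^ 2) ≤
      M s.c fun j => F.bb p (s.L j) z y := by
    have e : ∑ i ∈ Finset.range p, M s.c (fun j => F.G p (s.L j) z ((y + (i:ℕ)) / p) ^ 2) =
        M s.c fun j => ∑ i ∈ Finset.range p, F.G p (s.L j) z ((y + (i:ℕ)) / p) ^ 2 := by
      unfold M
      rw [Finset.sum_comm]
      exact Finset.sum_congr rfl fun j _ => by rw [Finset.mul_sum]
    rw [e]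
    refine M_mono c0 fun j => ?_
    have h3 := F.eG (hs.2 j) hp z y
    unfold Ep at h3
    rw [div_le_iff₀ hp'] at h3
    refine h3.trans (le_of_eq ?_)
    field_simp
  have h3 := Finset.sum_le_sum h1
  rw [Finset.sum_add_distrib, Finset.sum_const, Finset.card_range,
    nsmul_eq_mul, ← Finset.mul_sum] at h3
  have hb0 : 0 ≤ M s.c fun j => F.bb p (s.L j) z y :=
    M_nonneg c0 fun j => (F.pbb (hs.2 j) hp z).nonneg y
  unfold Ep
  rw [div_le_iff₀ hp']
  have h5 : M s.c (fun j => F.bb p (s.L j) z y) ≤ M s.c (fun j => F.bb p (s.L j) z y) * p :=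
    le_mul_of_one_le_right hb0 hp1
  linarith

open Classical in
/-- **the integral of the second order part** -/
theorem I_x2 {θ : ℕ → ℝ} {τ : ℕ → δ → ℝ} {p : ℕ} {s : Gs β} (hs : R.gok p s) (hp : p ≠ 0)
    (hθ : 0 < θ p) (hτ : ∀ z, 0 < τ p z) {Nz : δ → ℝ}
    (hN : ∀ z y, (((Finset.range p).filter fun i : ℕ => F.Zs p s z ((y + i) / p)).card : ℝ) ≤ Nz z) :
    I (F.x2 θ τ p s) ≤ 4 / (θ p * p) * ∑ z,
      (τ p z * (M s.c fun j => I (F.n1 p (s.L j) z) + I (F.n2 p (s.L j) z)) +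
        (2 * (Nz z + 1)) / τ p z * (M s.c fun j => I fun y => F.a p (s.L j) z y ^ 2) +
        4 / τ p z * M s.c fun j => I (F.bb p (s.L j) z)) := by
  have hp0 : 0 < p := Nat.pos_of_ne_zero hp
  have hp1 : (1:ℝ) ≤ p := by exact_mod_cast hp0
  have hp' : (0:ℝ) < p := by linarith
  have c0 := hs.1.c0
  -- the four parts
  have q1 : ∀ z, PB fun x => M s.c fun j => F.E₁ p (s.L j) z x ^ 2 := fun z =>
    M_x (c0 := c0) fun j => PB_sq (F.pE1 (hs.2 j) hp z)
  have q2 : ∀ z, PB fun x => ch (F.Zs p s z x) (h2 R p s z x) := fun z =>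
    PB_ch (F.MP_Zs hs hp z) (PB_h2 hs hp z)
  have q3 : ∀ z, PB fun x => M s.c fun j => F.E₂ p (s.L j) z x ^ 2 := fun z =>
    M_x (c0 := c0) fun j => PB_sq (F.pE2 (hs.2 j) hp z)
  have q4 : ∀ z, PB (h2 R p s z) := fun z => PB_h2 hs hp z
  have qn1 : ∀ z, PB fun y => M s.c fun j => F.n1 p (s.L j) z y := fun z =>
    M_x (c0 := c0) fun j => F.pn1 (hs.2 j) hp z
  have qn2 : ∀ z, PB fun y => M s.c fun j => F.n2 p (s.L j) z y := fun z =>
    M_x (c0 := c0) fun j => F.pn2 (hs.2 j) hp z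
  have qa : ∀ z, PB fun y => M s.c fun j => F.a p (s.L j) z y ^ 2 := fun z =>
    M_x (c0 := c0) fun j => PB_sq (F.pa (hs.2 j) hp z)
  have qb : ∀ z, PB fun y => M s.c fun j => F.bb p (s.L j) z y := fun z =>
    M_x (c0 := c0) fun j => F.pbb (hs.2 j) hp z
  have Ia : ∀ z, I (fun y => M s.c fun j => F.a p (s.L j) z y ^ 2) =
      M s.c fun j => I fun y => F.a p (s.L j) z y ^ 2 := fun z =>
    JnH5.I_M (c0 := c0) (f := fun j y => F.a p (s.L j) z y ^ 2) fun j => PB_sq (F.pa (hs.2 j) hp z)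
  have Ib : ∀ z, I (fun y => M s.c fun j => F.bb p (s.L j) z y) =
      M s.c fun j => I (F.bb p (s.L j) z) := fun z =>
    JnH5.I_M (c0 := c0) (f := fun j y => F.bb p (s.L j) z y) fun j => F.pbb (hs.2 j) hp z
  have In1 : ∀ z, I (fun y => M s.c fun j => F.n1 p (s.L j) z y) =
      M s.c fun j => I (F.n1 p (s.L j) z) := fun z =>
    JnH5.I_M (c0 := c0) (f := fun j y => F.n1 p (s.L j) z y) fun j => F.pn1 (hs.2 j) hp z
  have In2 : ∀ z, I (fun y => M s.c fun j => F.n2 p (s.L j) z y) =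
      M s.c fun j => I (F.n2 p (s.L j) z) := fun z =>
    JnH5.I_M (c0 := c0) (f := fun j y => F.n2 p (s.L j) z y) fun j => F.pn2 (hs.2 j) hp z
  have i1 : ∀ z, I (fun x => M s.c fun j => F.E₁ p (s.L j) z x ^ 2) ≤
      1 / (p : ℝ) * M s.c fun j => I (F.n1 p (s.L j) z) := by
    intro z
    rw [← I_Ep hp0 (q1 z).integrableOn, ← In1, ← I_smul]
    refine I_mono ((q1 z).Ep hp0).integrableOn ((qn1 z).smul (by positivity)).integrableOn
      fun y => ?_
    have e : Ep p (fun x => M s.c fun j => F.E₁ p (s.L j) z x ^ 2) y =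
        M s.c fun j => Ep p (fun x => F.E₁ p (s.L j) z x ^ 2) y := by
      unfold Ep M
      rw [Finset.sum_comm, Finset.sum_div]
      exact Finset.sum_congr rfl fun j _ => by rw [← Finset.mul_sum, mul_div_assoc]
    rw [e, ← M_smul]
    exact M_mono c0 fun j => F.e1 (hs.2 j) hp z y
  have i3 : ∀ z, I (fun x => M s.c fun j => F.E₂ p (s.L j) z x ^ 2) ≤
      (1 / (p : ℝ)) ^ 2 * M s.c fun j => I (F.n2 p (s.L j) z) := by
    intro z
    rw [← I_Ep hp0 (q3 z).integrableOn, ← In2, ← I_smul]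
    refine I_mono ((q3 z).Ep hp0).integrableOn ((qn2 z).smul (by positivity)).integrableOn
      fun y => ?_
    have e : Ep p (fun x => M s.c fun j => F.E₂ p (s.L j) z x ^ 2) y =
        M s.c fun j => Ep p (fun x => F.E₂ p (s.L j) z x ^ 2) y := by
      unfold Ep M
      rw [Finset.sum_comm, Finset.sum_div]
      exact Finset.sum_congr rfl fun j _ => by rw [← Finset.mul_sum, mul_div_assoc]
    rw [e, ← M_smul]
    exact M_mono c0 fun j => F.e2 (hs.2 j) hp z y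
  have i2 : ∀ z, I (fun x => ch (F.Zs p s z x) (h2 R p s z x)) ≤
      1 / (p : ℝ) * (2 * Nz z * (M s.c fun j => I fun y => F.a p (s.L j) z y ^ 2) +
        2 * M s.c fun j => I (F.bb p (s.L j) z)) := by
    intro z
    have hNz : 0 ≤ Nz z := le_trans (Nat.cast_nonneg _) (hN z 0)
    rw [← I_Ep hp0 (q2 z).integrableOn, ← Ia, ← Ib, ← I_smul, ← I_smul (2:ℝ),
      ← I_add ((qa z).smul (by positivity)).integrableOn ((qb z).smul (by norm_num)).integrableOn,
      ← I_smul]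
    exact I_mono ((q2 z).Ep hp0).integrableOn (((((qa z).smul (by positivity)).add
      ((qb z).smul (by norm_num)))).smul (by positivity)).integrableOn
      fun y => F.Ep_Z hs hp z y (hN z y)
  have i4 : ∀ z, I (h2 R p s z) ≤ 2 * (M s.c fun j => I fun y => F.a p (s.L j) z y ^ 2) +
        2 * M s.c fun j => I (F.bb p (s.L j) z) := by
    intro z
    rw [← I_Ep hp0 (q4 z).integrableOn, ← Ia, ← Ib, ← I_smul, ← I_smul (2:ℝ),
      ← I_add ((qa z).smul (by norm_num)).integrableOn ((qb z).smul (by norm_num)).integrableOn]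
    exact I_mono ((q4 z).Ep hp0).integrableOn (((qa z).smul (by norm_num)).add
      ((qb z).smul (by norm_num))).integrableOn fun y => F.Ep_h2 hs hp z y
  have t0 := hτ
  -- the integral of `x2`
  have hx : I (F.x2 θ τ p s) = ∑ z, 4 / θ p *
      ((τ p z * I (fun x => M s.c fun j => F.E₁ p (s.L j) z x ^ 2) +
        1 / τ p z * I (fun x => ch (F.Zs p s z x) (h2 R p s z x))) +
      (p * τ p z * I (fun x => M s.c fun j => F.E₂ p (s.L j) z x ^ 2) +
        1 / (p * τ p z) * I (h2 R p s z))) := by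
    have r1 : ∀ z, PB fun x => τ p z * (M s.c fun j => F.E₁ p (s.L j) z x ^ 2) := fun z =>
      (q1 z).smul (t0 z).le
    have r2 : ∀ z, PB fun x => 1 / τ p z * ch (F.Zs p s z x) (h2 R p s z x) := fun z =>
      (q2 z).smul (one_div_nonneg.2 (t0 z).le)
    have r3 : ∀ z, PB fun x => p * τ p z * (M s.c fun j => F.E₂ p (s.L j) z x ^ 2) := fun z =>
      (q3 z).smul (mul_nonneg hp'.le (t0 z).le)
    have r4 : ∀ z, PB fun x => 1 / (p * τ p z) * h2 R p s z x := fun z =>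
      (q4 z).smul (one_div_nonneg.2 (mul_nonneg hp'.le (t0 z).le))
    have e0 : F.x2 θ τ p s = fun x => ∑ z, 4 / θ p *
      ((τ p z * (M s.c fun j => F.E₁ p (s.L j) z x ^ 2) +
      1 / τ p z * ch (F.Zs p s z x) (h2 R p s z x)) +
    (p * τ p z * (M s.c fun j => F.E₂ p (s.L j) z x ^ 2) + 1 / (p * τ p z) * h2 R p s z x)) := rfl
    rw [e0, I_sum _ fun z _ => ((((r1 z).add (r2 z)).add ((r3 z).add (r4 z))).smul
      (by positivity)).integrableOn]
    refine Finset.sum_congr rfl fun z _ => ?_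
    rw [I_smul, I_add ((r1 z).add (r2 z)).integrableOn ((r3 z).add (r4 z)).integrableOn,
      I_add (r1 z).integrableOn (r2 z).integrableOn, I_add (r3 z).integrableOn (r4 z).integrableOn,
      I_smul, I_smul, I_smul, I_smul]
  rw [hx, Finset.mul_sum]
  refine Finset.sum_le_sum fun z _ => ?_
  have tz := t0 z
  have k1 := mul_le_mul_of_nonneg_left (i1 z) tz.le
  have k2 := mul_le_mul_of_nonneg_left (i2 z) (one_div_nonneg.2 tz.le)
  have k3 := mul_le_mul_of_nonneg_left (i3 z) (mul_nonneg hp'.le tz.le)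
  have k4 := mul_le_mul_of_nonneg_left (i4 z) (one_div_nonneg.2 (mul_nonneg hp'.le tz.le))
  rw [M_add]
  set A := M s.c fun j => I fun y => F.a p (s.L j) z y ^ 2 with hA
  set B := M s.c fun j => I (F.bb p (s.L j) z) with hB
  set N1 := M s.c fun j => I (F.n1 p (s.L j) z) with hN1
  set N2 := M s.c fun j => I (F.n2 p (s.L j) z) with hN2
  have hB0 : 0 ≤ B := M_nonneg c0 fun j => I_nonneg fun y => (F.pbb (hs.2 j) hp z).nonneg y
  have e1 : 4 / (θ p * p) * (τ p z * (N1 + N2) + 2 * (Nz z + 1) / τ p z * A + 4 / τ p z * B) =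
      4 / θ p * ((τ p z * (1 / (p:ℝ) * N1) + 1 / τ p z * (1 / (p:ℝ) * (2 * Nz z * A + 2 * B))) +
      (p * τ p z * ((1 / (p:ℝ)) ^ 2 * N2) + 1 / (p * τ p z) * (2 * A + 2 * B))) := by
    field_simp
    ring
  rw [e1]
  refine mul_le_mul_of_nonneg_left ?_ (by positivity)
  linarith

/-- **rates and second order part of located births in two parts** -/
noncomputable def lpr {U : RBm R} {D : RGx U} {Q : RowsL R} {θ : ℕ → ℝ} {τ : ℕ → δ → ℝ}
    (hθ : ∀ p, 0 < θ p) (hτ : ∀ p z, 0 < τ p z)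
    (hE : ∀ {p b}, R.ok p b → p ≠ 0 → ∀ z x, Q.E2 p b z x ≤ F.E₁ p b z x + F.E₂ p b z x) :
    LPr D Q where
  cE := fun p _ _ _ => 8 * θ p
  pcE := fun {p b} _ _ _ => PB.const (by linarith [hθ p])
  xE := F.x2 θ τ
  pxE := fun {p s} hs hp => F.PB_x2 (D.gk hs) hp (hθ p) (hτ p)
  hE := fun {p s} hs hp x => F.prE (D.gk hs) hp (hθ p) (hτ p)
    (fun j z x => hE ((D.gk hs).2 j) hp z x) x

end Fib

end grp

end Crest.Agent.R4P.BthT48
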