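import Crest.Agent.R4P.DTo_407

/-!
R4 (S0004) with powers, T3, helper407: **the DT level of the marked game**, part 4: the event contents in
terms of the pieces.

For one bundle, one tie column `p` and the low point `y` (point above `x`, `y = p x`):
* **cross plan** (helper41): `xw y j` = share of the P piece `j` matched with N pieces of OTHER low types of
  its real class (`= Σ_i B_i / max (SA, SB)`), `yw y i` = the same for the N piece `i`; `cx_sum`, `dx_sum`,
  `xw_le`, `yw_le`, `cross_swap`, `cx_sq`, `dx_sq` (squares of the cross contents by the pair energies);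
* `rho_le`, `fm_le`, `et_le`, `nuy_eq` : the event contents of one type `z` as sums over the pieces of the
  type;
* **`births_pieces`** : the births of the rows, summed over the types, are at most
  `2/p Σ_j (5 xw_j + [inactive, matched] + [R j]) pA_j y + 2 Ep (Σ_j ([off-sheet or inactive] + [S j]) eg_j)`,
  for all sets `R` (P pieces), `S` (N pieces) which meet every pair (P piece, N piece) of different real
  classes in one unmarked type.
-/

set_option autoImplicit false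
set_option linter.unusedSectionVars false
set_option linter.unusedVariables false
open MeasureTheory Filter Set

namespace Crest.Agent.R4P.DTe407

open Crest.Agent.R4.Tour104 Crest.Agent.R4.Tour758 Crest.Agent.R4.Clos758 Crest.Agent.R4.ClosL758
open Crest.Agent.R4P.Grp36 Crest.Agent.R4P.GWa343 Crest.Agent.R4P.GWb343
open Crest.Agent.R4P.GWc343 hiding SB
open Crest.Agent.R4P.GWd343 Crest.Agent.R4P.GMer27 Crest.Agent.R4P.GCol27 Crest.Agent.R4P.TrR343
open Crest.Agent.R4P.DTp26 Crest.Agent.R4P.VR407 Crest.Agent.R4P.Bp407 Crest.Agent.R4P.MSd343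
open Crest.Agent.R4P.DTm407 Crest.Agent.R4P.DTn407 Crest.Agent.R4P.DTn407.TD'
open Crest.Agent.R4P.DTo407 Crest.Agent.R4P.DTo407.TD'
open Crest.Agent.R4P.TyS16 (TRaw TRow GMU mkMU cho cho_on cho_off PB_cho z0 asm hPP jA eA Fam frP
  et Ep_mono_fib Ep_fib Ep_cst Ep_smul' Ep_add' jz)
open Crest.Agent.R4P.TyR16 (mnR spR rV dd)
open Crest.Agent.R4P.Walk560 (DT)

section
variable {μ Λ κ ζ : Type} [Fintype Λ] [DecidableEq Λ] [Fintype κ] [DecidableEq κ]
  [Fintype ζ] [DecidableEq ζ]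
variable {wr : ℕ → Λ → κ} {D : TD μ Λ κ ζ} {Inv : ℕ → μ × List (DT Λ κ) → Prop} {p : ℕ}
  {b : μ × List (DT Λ κ)}

/-- sums over the classes are sums over the pieces -/
lemma sum_w {ω : Type} [Fintype ω] [DecidableEq ω] (kd : Λ → κ) (o : ℝ → Λ → ω) (f : Λ → ℝ → ℝ)
    (P : κ → Prop) (w : κ → ℝ) (z : ω) (x : ℝ) :
    ∑ c, ch (P c) (w c * cz kd o f c z x) =
      ∑ j, ch (o x j = z ∧ P (kd j)) (w (kd j) * f j x) := by
  have e : ∀ c, ch (P c) (w c * cz kd o f c z x) =
      ∑ j, if kd j = c then ch (o x j = z ∧ P (kd j)) (w (kd j) * f j x) else 0 := by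
    intro c
    rw [cz_eq]
    by_cases hc : P c
    · rw [ch_on hc, Finset.mul_sum]
      refine Finset.sum_congr rfl fun j _ => ?_
      by_cases hj : kd j = c
      · subst hj
        rw [if_pos rfl]
        by_cases h2 : o x j = z
        · rw [if_pos ⟨rfl, h2⟩, ch_on ⟨h2, hc⟩]
        · rw [if_neg (fun h => h2 h.2), ch_off (fun h => h2 h.1), mul_zero]
      · rw [if_neg (fun h => hj h.1), if_neg hj, mul_zero]
    · rw [ch_off hc]
      refine (Finset.sum_eq_zero fun j _ => ?_).symm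
      by_cases hj : kd j = c
      · subst hj
        rw [if_pos rfl]
        exact ch_off fun h => hc h.2
      · rw [if_neg hj]
  rw [Finset.sum_congr rfl fun c _ => e c, Finset.sum_comm]
  refine Finset.sum_congr rfl fun j _ => ?_
  rw [Finset.sum_ite_eq Finset.univ (kd j), if_pos (Finset.mem_univ _)]

lemma ch_mono {P : Prop} {a c : ℝ} (h : a ≤ c) : ch P a ≤ ch P c := by
  by_cases hP : P
  · rw [ch_on hP, ch_on hP]; exact h
  · rw [ch_off hP, ch_off hP]

lemma ch_imp {P Q : Prop} {a : ℝ} (h : P → Q) (ha : 0 ≤ a) : ch P a ≤ ch Q a := by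
  by_cases hP : P
  · rw [ch_on hP, ch_on (h hP)]
  · rw [ch_off hP]; exact ch_nonneg ha

lemma ch_congr {P Q : Prop} {a : ℝ} (h : P ↔ Q) : ch P a = ch Q a := by rw [propext h]

lemma ch_and (P Q : Prop) (a : ℝ) : ch P (ch Q a) = ch (P ∧ Q) a := by
  by_cases hP : P
  · rw [ch_on hP]
    by_cases hQ : Q
    · rw [ch_on hQ, ch_on ⟨hP, hQ⟩]
    · rw [ch_off hQ, ch_off fun h => hQ h.2]
  · rw [ch_off hP, ch_off fun h => hP h.1]

lemma ch_le {P : Prop} {a : ℝ} (ha : 0 ≤ a) : ch P a ≤ a := by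
  by_cases hP : P
  · rw [ch_on hP]
  · rw [ch_off hP]; exact ha

/-- sum over the types of a condition on the type of a piece -/
lemma sum_type (o : Option ζ) (Q : ζ → Prop) (a : ℝ) :
    ∑ z, ch (o = some z ∧ Q z) a = ch (∃ z, o = some z ∧ Q z) a := by
  cases o with
  | none =>
    rw [ch_off (by rintro ⟨z, h, -⟩; exact absurd h (by simp))]
    exact Finset.sum_eq_zero fun z _ => ch_off fun h => absurd h.1 (by simp)
  | some w =>
    rw [Finset.sum_eq_single w]
    · refine ch_congr ⟨fun h => ⟨w, h⟩, ?_⟩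
      rintro ⟨z, h, hq⟩
      cases h
      exact ⟨rfl, hq⟩
    · intro z _ hz
      refine ch_off fun h => hz ?_
      cases h.1
      rfl
    · intro h; exact absurd (Finset.mem_univ _) h

lemma sum_type' (o : Option ζ) (a : ℝ) : ∑ z, ch (o = some z) a = ch (o ≠ none) a := by
  have h := sum_type o (fun _ => True) a
  have e1 : ∑ z, ch (o = some z ∧ True) a = ∑ z, ch (o = some z) a :=
    Finset.sum_congr rfl fun z _ => ch_congr (by simp)
  rw [← e1, h]
  refine ch_congr ⟨?_, ?_⟩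
  · rintro ⟨z, h, -⟩
    rw [h]
    exact fun h => by cases h
  · intro h
    obtain ⟨z, hz⟩ := Option.ne_none_iff_exists'.1 h
    exact ⟨z, hz, trivial⟩

/-! ### the cross plan -/

/-- share of the P piece `j` matched with N pieces of the other low types of its real class -/
noncomputable def xw (D : TD μ Λ κ ζ) (wr : ℕ → Λ → κ) (p : ℕ) (b : μ × List (DT Λ κ)) (y : ℝ)
    (j : Λ) : ℝ :=
  (∑ i, ch (wr p i = wr p j ∧ D.lt p b.1 y i ≠ D.lt p b.1 y j) (pB (bB p b.2) i y)) *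
    (rf wr p b (wr p j) y / SA (wr p) (bB p b.2) (wr p j) y)
/-- share of the N piece `i` matched with P pieces of the other low types of its real class -/
noncomputable def yw (D : TD μ Λ κ ζ) (wr : ℕ → Λ → κ) (p : ℕ) (b : μ × List (DT Λ κ)) (y : ℝ)
    (i : Λ) : ℝ :=
  (∑ j, ch (wr p j = wr p i ∧ D.lt p b.1 y j ≠ D.lt p b.1 y i) (pA (bB p b.2) j y)) *
    (rf wr p b (wr p i) y / SA (wr p) (bB p b.2) (wr p i) y)

/-! ### one type -/

section one
variable (H : TYp wr D Inv) (hb : Inv p b) (hp : p ≠ 0)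
include H hb hp

lemma pA0 (j : Λ) (y : ℝ) : 0 ≤ pA (bB p b.2) j y := ((H.bok hb hp).PA j).nonneg y
lemma pB0 (j : Λ) (y : ℝ) : 0 ≤ pB (bB p b.2) j y := ((H.bok hb hp).PBb j).nonneg y
lemma ra1 (c : κ) (y : ℝ) : ra wr p b c y ≤ 1 := al1 (H.bok hb hp) c y
lemma rfle1 (c : κ) (y : ℝ) : rf wr p b c y ≤ 1 := bf1 (H.bok hb hp) c y
lemma SA0' (c : κ) (y : ℝ) : 0 ≤ SA (wr p) (bB p b.2) c y := (PB_SA (H.bok hb hp) c).nonneg y
lemma SB0' (c : κ) (y : ℝ) : 0 ≤ SB (wr p) (bB p b.2) c y := (PB_SB (H.bok hb hp) c).nonneg y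

/-- the plan density -/
lemma fs0 (c : κ) (y : ℝ) : 0 ≤ rf wr p b c y / SA (wr p) (bB p b.2) c y :=
  div_nonneg (rf0 H hb hp c y) (SA0' H hb hp c y)
lemma SB_fs (c : κ) (y : ℝ) :
    SB (wr p) (bB p b.2) c y * (rf wr p b c y / SA (wr p) (bB p b.2) c y) ≤ 1 := by
  have h1 := rf_mul (wr := wr) H hb hp c y
  have h2 := ra1 (wr := wr) H hb hp c y
  have e : SB (wr p) (bB p b.2) c y * (rf wr p b c y / SA (wr p) (bB p b.2) c y) =
      ra wr p b c y := by
    rw [mul_div_assoc', mul_comm (SB (wr p) (bB p b.2) c y), h1]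
    rfl
  rw [e]; exact h2
lemma SA_fs (c : κ) (y : ℝ) :
    SA (wr p) (bB p b.2) c y * (rf wr p b c y / SA (wr p) (bB p b.2) c y) = rf wr p b c y := by
  by_cases h0 : SA (wr p) (bB p b.2) c y = 0
  · have h1 : rf wr p b c y = 0 := bf_of_A (H.bok hb hp) h0
    rw [h1, zero_div, mul_zero]
  · field_simp

omit H hb hp in
lemma sum_cls (kd : Λ → κ) (o : ℝ → Λ → Option ζ) (f : Λ → ℝ → ℝ) (c : κ) (z : ζ) (x : ℝ) :
    sm kd f c x - cz kd o f c (some z) x = ∑ i, ch (kd i = c ∧ o x i ≠ some z) (f i x) := by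
  rw [sm_eq, cz_eq, ← Finset.sum_sub_distrib]
  refine Finset.sum_congr rfl fun i _ => ?_
  by_cases h1 : kd i = c
  · by_cases h2 : o x i = some z
    · rw [if_pos h1, if_pos ⟨h1, h2⟩, ch_off fun h => h.2 h2, sub_self]
    · rw [if_pos h1, if_neg fun h => h2 h.2, ch_on ⟨h1, h2⟩, sub_zero]
  · rw [if_neg h1, if_neg fun h => h1 h.1, ch_off fun h => h1 h.1, sub_zero]

lemma xw0 (y : ℝ) (j : Λ) : 0 ≤ xw D wr p b y j :=
  mul_nonneg (Finset.sum_nonneg fun i _ => ch_nonneg (pB0 H hb hp i y)) (fs0 H hb hp _ y)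
lemma yw0 (y : ℝ) (i : Λ) : 0 ≤ yw D wr p b y i :=
  mul_nonneg (Finset.sum_nonneg fun j _ => ch_nonneg (pA0 H hb hp j y)) (fs0 H hb hp _ y)

lemma xw1 (y : ℝ) (j : Λ) : xw D wr p b y j ≤ 1 := by
  refine le_trans (mul_le_mul_of_nonneg_right ?_ (fs0 H hb hp _ y)) (SB_fs H hb hp (wr p j) y)
  unfold SB
  rw [sm_eq]
  refine Finset.sum_le_sum fun i _ => ?_
  by_cases h : wr p i = wr p j
  · rw [if_pos h]
    exact ch_le (pB0 H hb hp i y)
  · rw [if_neg h, ch_off fun h' => h h'.1]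

/-- a P piece is matched with another type only if there is one -/
lemma xw_le (y : ℝ) (j : Λ) : xw D wr p b y j ≤
    ch (∃ i, wr p i = wr p j ∧ pB (bB p b.2) i y ≠ 0 ∧ D.lt p b.1 y i ≠ D.lt p b.1 y j) 1 := by
  by_cases h : ∃ i, wr p i = wr p j ∧ pB (bB p b.2) i y ≠ 0 ∧ D.lt p b.1 y i ≠ D.lt p b.1 y j
  · rw [ch_on h]
    exact xw1 H hb hp y j
  · rw [ch_off h]
    have e : ∑ i, ch (wr p i = wr p j ∧ D.lt p b.1 y i ≠ D.lt p b.1 y j)
        (pB (bB p b.2) i y) = 0 := by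
      refine Finset.sum_eq_zero fun i _ => ?_
      by_cases h2 : wr p i = wr p j ∧ D.lt p b.1 y i ≠ D.lt p b.1 y j
      · rw [ch_on h2]
        by_contra h0
        exact h ⟨i, h2.1, h0, h2.2⟩
      · exact ch_off h2
    unfold xw
    rw [e, zero_mul]

lemma yw1 (y : ℝ) (i : Λ) : yw D wr p b y i ≤ rf wr p b (wr p i) y := by
  refine le_trans (mul_le_mul_of_nonneg_right ?_ (fs0 H hb hp _ y)) (SA_fs H hb hp (wr p i) y).le
  unfold SA
  rw [sm_eq]
  refine Finset.sum_le_sum fun j _ => ?_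
  by_cases h : wr p j = wr p i
  · rw [if_pos h]
    exact ch_le (pA0 H hb hp j y)
  · rw [if_neg h, ch_off fun h' => h h'.1]

lemma yw_le (y : ℝ) (i : Λ) : yw D wr p b y i ≤
    ch (∃ j, wr p j = wr p i ∧ pA (bB p b.2) j y ≠ 0 ∧ D.lt p b.1 y j ≠ D.lt p b.1 y i) 1 := by
  by_cases h : ∃ j, wr p j = wr p i ∧ pA (bB p b.2) j y ≠ 0 ∧ D.lt p b.1 y j ≠ D.lt p b.1 y i
  · rw [ch_on h]
    exact (yw1 H hb hp y i).trans (rfle1 H hb hp _ y)
  · rw [ch_off h]
    have e : ∑ j, ch (wr p j = wr p i ∧ D.lt p b.1 y j ≠ D.lt p b.1 y i)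
        (pA (bB p b.2) j y) = 0 := by
      refine Finset.sum_eq_zero fun j _ => ?_
      by_cases h2 : wr p j = wr p i ∧ D.lt p b.1 y j ≠ D.lt p b.1 y i
      · rw [ch_on h2]
        by_contra h0
        exact h ⟨j, h2.1, h0, h2.2⟩
      · exact ch_off h2
    unfold yw
    rw [e, zero_mul]

lemma xw_per (y : ℝ) (j : Λ) : xw D wr p b (y + 1) j = xw D wr p b y j := by
  have Kk := H.bok hb hp
  have e2 := fun i => (H.mlt p b.1 i).per y
  have e3 := fun i => (Kk.PBb i).per y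
  have e4 := fun c => (Prf (wr := wr) H hb hp c).per y
  have e5 := fun c => (PB_SA Kk c).per y
  unfold xw
  simp only [e2, e3, e4, e5]

lemma yw_per (y : ℝ) (i : Λ) : yw D wr p b (y + 1) i = yw D wr p b y i := by
  have Kk := H.bok hb hp
  have e2 := fun i => (H.mlt p b.1 i).per y
  have e3 := fun i => (Kk.PA i).per y
  have e4 := fun c => (Prf (wr := wr) H hb hp c).per y
  have e5 := fun c => (PB_SA Kk c).per y
  unfold yw
  simp only [e2, e3, e4, e5]

omit hp H hb in
lemma cx_w (z : ζ) (y : ℝ) {j : Λ} (h : D.lt p b.1 y j = some z) :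
    rf wr p b (wr p j) y / SA (wr p) (bB p b.2) (wr p j) y *
      (SB (wr p) (bB p b.2) (wr p j) y - rB D wr p b z (wr p j) y) = xw D wr p b y j := by
  have e1 : SB (wr p) (bB p b.2) (wr p j) y - rB D wr p b z (wr p j) y =
      ∑ i, ch (wr p i = wr p j ∧ D.lt p b.1 y i ≠ D.lt p b.1 y j) (pB (bB p b.2) i y) := by
    have h1 := sum_cls (wr p) (D.lt p b.1) (pB (bB p b.2)) (wr p j) z y
    rw [h]
    exact h1
  rw [e1]
  unfold xw
  ring

/-- **cross content of a type, P pieces** -/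
lemma cx_sum (z : ζ) (y : ℝ) : ∑ c, cx D wr p b z c y =
    ∑ j, ch (D.lt p b.1 y j = some z) (xw D wr p b y j * pA (bB p b.2) j y) := by
  have e1 := sum_w (wr p) (D.lt p b.1) (pA (bB p b.2)) (fun _ => True)
    (fun c => rf wr p b c y / SA (wr p) (bB p b.2) c y *
      (SB (wr p) (bB p b.2) c y - rB D wr p b z c y)) (some z) y
  have e2 : ∑ c, cx D wr p b z c y = ∑ c, ch True (rf wr p b c y / SA (wr p) (bB p b.2) c y *
      (SB (wr p) (bB p b.2) c y - rB D wr p b z c y) *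
        cz (wr p) (D.lt p b.1) (pA (bB p b.2)) c (some z) y) := by
    refine Finset.sum_congr rfl fun c _ => ?_
    rw [ch_on trivial]
    show rf wr p b c y * (rA D wr p b z c y / SA (wr p) (bB p b.2) c y) *
      (SB (wr p) (bB p b.2) c y - rB D wr p b z c y) = _ * rA D wr p b z c y
    ring
  rw [e2, e1]
  refine Finset.sum_congr rfl fun j _ => ?_
  by_cases h : D.lt p b.1 y j = some z
  · rw [ch_on ⟨h, trivial⟩, ch_on h, cx_w z y h]
  · rw [ch_off fun h' => h h'.1, ch_off h]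

/-- **cross content of a type, N pieces** -/
lemma dx_sum (z : ζ) (y : ℝ) : ∑ c, dx D wr p b z c y =
    ∑ i, ch (D.lt p b.1 y i = some z) (yw D wr p b y i * pB (bB p b.2) i y) := by
  have e1 := sum_w (wr p) (D.lt p b.1) (pB (bB p b.2)) (fun _ => True)
    (fun c => rf wr p b c y * (1 - ri D wr p b z c y)) (some z) y
  have e2 : ∑ c, dx D wr p b z c y = ∑ c, ch True (rf wr p b c y * (1 - ri D wr p b z c y) *
        cz (wr p) (D.lt p b.1) (pB (bB p b.2)) c (some z) y) := by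
    refine Finset.sum_congr rfl fun c _ => ?_
    rw [ch_on trivial]
    rfl
  rw [e2, e1]
  refine Finset.sum_congr rfl fun i _ => ?_
  by_cases h : D.lt p b.1 y i = some z
  · rw [ch_on ⟨h, trivial⟩, ch_on h]
    congr 1
    have e3 : SA (wr p) (bB p b.2) (wr p i) y - rA D wr p b z (wr p i) y =
        ∑ j, ch (wr p j = wr p i ∧ D.lt p b.1 y j ≠ D.lt p b.1 y i) (pA (bB p b.2) j y) := by
      have h1 := sum_cls (wr p) (D.lt p b.1) (pA (bB p b.2)) (wr p i) z y
      rw [h]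
      exact h1
    unfold yw
    rw [← e3, sub_mul, SA_fs H hb hp]
    unfold ri
    ring
  · rw [ch_off fun h' => h h'.1, ch_off h]

/-- the cross content of P and N pieces agrees -/
lemma cross_swap (y : ℝ) : ∑ z : ζ, ∑ c, dx D wr p b z c y = ∑ z : ζ, ∑ c, cx D wr p b z c y := by
  rw [Finset.sum_comm, Finset.sum_comm (γ := ζ)]
  refine Finset.sum_congr rfl fun c _ => ?_
  rcases out_dich H hb hp c y with h | h
  · have e3 : ∑ z : ζ, rB D wr p b z c y = SB (wr p) (bB p b.2) c y := by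
      show _ = sm (wr p) (pB (bB p b.2)) c y
      rw [← sum_cz (wr p) (D.lt p b.1), Fintype.sum_option, h.2, zero_add]
      rfl
    have e4 : ∑ z : ζ, rA D wr p b z c y = SA (wr p) (bB p b.2) c y := by
      show _ = sm (wr p) (pA (bB p b.2)) c y
      rw [← sum_cz (wr p) (D.lt p b.1), Fintype.sum_option, h.1, zero_add]
      rfl
    have e5 : rf wr p b c y * ∑ z : ζ, ri D wr p b z c y = rf wr p b c y := by
      by_cases h0 : SA (wr p) (bB p b.2) c y = 0
      · have h1 : rf wr p b c y = 0 := bf_of_A (H.bok hb hp) h0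
        rw [h1, zero_mul]
      · have : ∑ z : ζ, ri D wr p b z c y = 1 := by
          unfold ri
          rw [← Finset.sum_div, e4, div_self h0]
        rw [this, mul_one]
    have k1 : ∑ z : ζ, cx D wr p b z c y = rf wr p b c y * (∑ z : ζ, ri D wr p b z c y) *
        SB (wr p) (bB p b.2) c y -
        rf wr p b c y * ∑ z : ζ, ri D wr p b z c y * rB D wr p b z c y := by
      rw [Finset.mul_sum, Finset.mul_sum, Finset.sum_mul, ← Finset.sum_sub_distrib]
      refine Finset.sum_congr rfl fun z _ => ?_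
      unfold cx
      ring
    have k2 : ∑ z : ζ, dx D wr p b z c y = rf wr p b c y * ∑ z : ζ, rB D wr p b z c y -
        rf wr p b c y * ∑ z : ζ, ri D wr p b z c y * rB D wr p b z c y := by
      rw [Finset.mul_sum, Finset.mul_sum, ← Finset.sum_sub_distrib]
      refine Finset.sum_congr rfl fun z _ => ?_
      unfold dx
      ring
    rw [k1, k2, e3, e5]
  · have e3 : ∀ z : ζ, dx D wr p b z c y = 0 := fun z => by
      have h1 : rB D wr p b z c y = 0 := (h z).2
      unfold dx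
      rw [h1, mul_zero]
    have e4 : ∀ z : ζ, cx D wr p b z c y = 0 := fun z => by
      have h1 : rA D wr p b z c y = 0 := (h z).1
      unfold cx ri
      rw [h1]; ring
    rw [Finset.sum_eq_zero fun z _ => e3 z, Finset.sum_eq_zero fun z _ => e4 z]

/-- **squares of the cross content by the pair energy of the class** -/
lemma cx_sq (z : ζ) (c : κ) (y : ℝ) : cx D wr p b z c y ^ 2 ≤
    rA D wr p b z c y * (SB (wr p) (bB p b.2) c y - rB D wr p b z c y) := by
  have a0 := rA0 H hb hp z c y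
  have a1 := rA_le H hb hp z c y
  have b0 := rB0 H hb hp z c y
  have b1 := rB_le H hb hp z c y
  have f0 := rf0 (wr := wr) H hb hp c y
  have f1 := rfle1 (wr := wr) H hb hp c y
  have i0 := ri0 H hb hp z c y
  have i1 := ri1 H hb hp z c y
  have s0 := SA0' (wr := wr) H hb hp c y
  have e1 := ri_mul H hb hp z c y
  have e2 := rf_mul (wr := wr) H hb hp c y
  have e3 := min_le_left (SA (wr p) (bB p b.2) c y) (SB (wr p) (bB p b.2) c y)
  have hd : 0 ≤ SB (wr p) (bB p b.2) c y - rB D wr p b z c y := sub_nonneg.2 b1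
  -- `rf ri (SB - rB) <= rA`
  have k1 := cx_le H hb hp z c y
  have k0 := cx0 H hb hp z c y
  -- `cx <= SB - rB`
  have k2 : cx D wr p b z c y ≤ SB (wr p) (bB p b.2) c y - rB D wr p b z c y := by
    unfold cx
    have h1 : rf wr p b c y * ri D wr p b z c y ≤ 1 := by nlinarith
    nlinarith
  nlinarith

lemma dx_sq (z : ζ) (c : κ) (y : ℝ) : dx D wr p b z c y ^ 2 ≤
    (SA (wr p) (bB p b.2) c y - rA D wr p b z c y) * rB D wr p b z c y := by
  have a0 := rA0 H hb hp z c y
  have a1 := rA_le H hb hp z c y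
  have b0 := rB0 H hb hp z c y
  have b1 := rB_le H hb hp z c y
  have f0 := rf0 (wr := wr) H hb hp c y
  have f1 := rfle1 (wr := wr) H hb hp c y
  have i0 := ri0 H hb hp z c y
  have i1 := ri1 H hb hp z c y
  have e1 := ri_mul H hb hp z c y
  have e2 := rf_mul (wr := wr) H hb hp c y
  have e3 := min_le_left (SA (wr p) (bB p b.2) c y) (SB (wr p) (bB p b.2) c y)
  have k0 := dx0 H hb hp z c y
  have h1 : 0 ≤ 1 - ri D wr p b z c y := sub_nonneg.2 i1
  -- `dx <= rB`
  have k1 : dx D wr p b z c y ≤ rB D wr p b z c y := by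
    unfold dx
    have h2 : rf wr p b c y * (1 - ri D wr p b z c y) ≤ 1 := by nlinarith
    nlinarith
  -- `dx <= SA - rA`
  have k2 : dx D wr p b z c y ≤ SA (wr p) (bB p b.2) c y - rA D wr p b z c y := by
    have h3 : rf wr p b c y * rB D wr p b z c y ≤ SA (wr p) (bB p b.2) c y := by
      have h4 := mul_le_mul_of_nonneg_left b1 f0
      linarith
    have h5 := mul_le_mul_of_nonneg_left h3 h1
    have e5 : dx D wr p b z c y = (1 - ri D wr p b z c y) *
      (rf wr p b c y * rB D wr p b z c y) := by unfold dx; ring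
    have e6 : (1 - ri D wr p b z c y) * SA (wr p) (bB p b.2) c y =
      SA (wr p) (bB p b.2) c y - rA D wr p b z c y := by rw [sub_mul, e1, one_mul]
    rw [e5]
    linarith
  nlinarith

/-- **cross content**, one type -/
lemma rho_le (z : ζ) (y : ℝ) : rho D wr p b z y ≤
    ∑ j, ch (D.lt p b.1 y j = some z) (2 * (xw D wr p b y j * pA (bB p b.2) j y) +
      yw D wr p b y j * pB (bB p b.2) j y) := by
  have e1 := cx_sum H hb hp z y
  have e2 := dx_sum H hb hp z y
  have e3 : ∑ c, ch (mrk D p b z y ∧ c = D.act p b z y) (cx D wr p b z c y) ≤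
      ∑ c, cx D wr p b z c y := Finset.sum_le_sum fun c _ => ch_le (cx0 H hb hp z c y)
  have e4 : ∑ j, ch (D.lt p b.1 y j = some z) (2 * (xw D wr p b y j * pA (bB p b.2) j y) +
      yw D wr p b y j * pB (bB p b.2) j y) =
      2 * ∑ j, ch (D.lt p b.1 y j = some z) (xw D wr p b y j * pA (bB p b.2) j y) +
      ∑ j, ch (D.lt p b.1 y j = some z) (yw D wr p b y j * pB (bB p b.2) j y) := by
    rw [Finset.mul_sum, ← Finset.sum_add_distrib]
    refine Finset.sum_congr rfl fun j _ => ?_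
    by_cases h : D.lt p b.1 y j = some z
    · rw [ch_on h, ch_on h, ch_on h]
    · rw [ch_off h, ch_off h, ch_off h]; ring
  rw [e4, ← e1, ← e2]
  unfold rho
  rw [Finset.sum_add_distrib]
  linarith

/-- **matched content of the other classes**, one type -/
lemma fm_le (z : ζ) (y : ℝ) : fm D wr p b z y ≤
    ∑ j, ch (D.lt p b.1 y j = some z) (yw D wr p b y j * pB (bB p b.2) j y) +
    ∑ j, ch (D.lt p b.1 y j = some z ∧ mrk D p b z y ∧ wr p j ≠ D.act p b z y ∧
      SB (wr p) (bB p b.2) (wr p j) y ≠ 0) (pA (bB p b.2) j y) := by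
  have e3 := sum_w (wr p) (D.lt p b.1) (pA (bB p b.2))
    (fun c => mrk D p b z y ∧ c ≠ D.act p b z y ∧ SB (wr p) (bB p b.2) c y ≠ 0)
    (fun c => 1) (some z) y
  rw [← dx_sum H hb hp]
  have e4 : ∑ j, ch (D.lt p b.1 y j = some z ∧ mrk D p b z y ∧ wr p j ≠ D.act p b z y ∧
      SB (wr p) (bB p b.2) (wr p j) y ≠ 0) (pA (bB p b.2) j y) =
      ∑ c, ch (mrk D p b z y ∧ c ≠ D.act p b z y ∧ SB (wr p) (bB p b.2) c y ≠ 0)
        (1 * rA D wr p b z c y) := by
    refine (e3.trans ?_).symm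
    exact Finset.sum_congr rfl fun j _ => by rw [one_mul]
  rw [e4, ← Finset.sum_add_distrib]
  by_cases hm : mrk D p b z y
  · rw [fm_on hm]
    refine Finset.sum_le_sum fun c _ => ?_
    have nA := rA0 H hb hp z c y
    have nd := dx0 H hb hp z c y
    have n2 : 0 ≤ ch (mrk D p b z y ∧ c ≠ D.act p b z y ∧ SB (wr p) (bB p b.2) c y ≠ 0)
        (1 * rA D wr p b z c y) := ch_nonneg (by linarith)
    by_cases hc : c = D.act p b z y
    · rw [ch_off (P := ¬ c = D.act p b z y) (not_not.2 hc), ch_on hc, zero_add]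
      linarith
    · rw [ch_on (P := ¬ c = D.act p b z y) hc, ch_off (P := c = D.act p b z y) hc, add_zero,
        rf_eq (D := D) z c y]
      by_cases h0 : SB (wr p) (bB p b.2) c y = 0
      · have h5 : mx D wr p b z c y = 0 := by
          have h6 : rf wr p b c y = 0 := bf_of_B h0
          unfold mx
          rw [h6]; ring
        rw [h5]
        linarith
      · rw [ch_on ⟨hm, hc, h0⟩]
        have h7 := (mx_le H hb hp z c y).1
        have h8 := cx0 H hb hp z c y
        linarith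
  · rw [fm_off hm]
    refine Finset.sum_le_sum fun c _ => ?_
    have h2 : 0 ≤ ch (mrk D p b z y ∧ c ≠ D.act p b z y ∧ SB (wr p) (bB p b.2) c y ≠ 0)
        (1 * rA D wr p b z c y) := ch_nonneg (by linarith [rA0 H hb hp z c y])
    linarith

/-- **inactive and off-sheet N content**, one type: mean of the excess lifts of the pieces -/
lemma nuy_eq (z : ζ) (y : ℝ) : 1 / (p : ℝ) * nuy D wr p b z y =
    Ep p (fun x => ∑ j, ch (D.lt p b.1 (p * x) j = some z ∧
      ¬ (D.spc p b z x ∧ wr p j = D.act p b z (p * x))) (eg (wr p) p (bB p b.2) j x)) y := by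
  have e1 : ∀ x, fNu D wr p b z x = ∑ j, ch (D.lt p b.1 (p * x) j = some z ∧
      ¬ (D.spc p b z x ∧ wr p j = D.act p b z (p * x))) (eg (wr p) p (bB p b.2) j x) := by
    intro x
    have h := sum_w (wr p) (fun x => D.lt p b.1 (p * x)) (pG (bB p b.2))
      (fun c => ¬ (D.spc p b z x ∧ c = D.act p b z (p * x)))
      (fun c => 1 - rf wr p b c (p * x)) (some z) x
    exact h
  rw [← funext e1]
  unfold Ep nuy
  ring

/-- the mismatch of an unmarked type in the min form -/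
lemma et_eq (z : ζ) (y : ℝ) :
    et (D.h p (D.cP p b) z) (fB1 D wr p b z) (fde D wr p b z) y =
      min (fde D wr p b z y) (∑ c, rA D wr p b z c y - ∑ c, mx D wr p b z c y) := by
  unfold et dd fB1
  rw [a_eq H hb hp]
  set X := fde D wr p b z y
  set Y := ∑ c, mx D wr p b z c y
  set A := ∑ c, rA D wr p b z c y
  rcases le_total (fQ D wr p b z y + X + Y - (A + fQ D wr p b z y)) 0 with h | h
  · rw [max_eq_right h, min_eq_left (by linarith)]; ring
  · rw [max_eq_left h, min_eq_right (by linarith)]; ring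

/-- P excess of a type by the pieces: unmatched P content and cross content -/
lemma eP_eq (z : ζ) (y : ℝ) : ∑ c, rA D wr p b z c y - ∑ c, mx D wr p b z c y =
    ∑ j, ch (D.lt p b.1 y j = some z) (xw D wr p b y j * pA (bB p b.2) j y) +
    ∑ j, ch (D.lt p b.1 y j = some z)
      ((1 - ra wr p b (wr p j) y) * pA (bB p b.2) j y) := by
  have h2 := sum_w (wr p) (D.lt p b.1) (pA (bB p b.2)) (fun _ => True)
    (fun c => 1 - ra wr p b c y) (some z) y
  have e2 : ∑ j, ch (D.lt p b.1 y j = some z)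
      ((1 - ra wr p b (wr p j) y) * pA (bB p b.2) j y) =
      ∑ c, (1 - ra wr p b c y) * rA D wr p b z c y := by
    have e3 : ∑ j, ch (D.lt p b.1 y j = some z ∧ True)
      ((1 - ra wr p b (wr p j) y) * pA (bB p b.2) j y) = ∑ j, ch (D.lt p b.1 y j = some z)
      ((1 - ra wr p b (wr p j) y) * pA (bB p b.2) j y) :=
      Finset.sum_congr rfl fun j _ => ch_congr (by simp)
    rw [← e3, ← h2]
    exact Finset.sum_congr rfl fun c _ => ch_on trivial
  rw [e2, ← cx_sum H hb hp, ← Finset.sum_add_distrib, ← Finset.sum_sub_distrib]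
  refine Finset.sum_congr rfl fun c _ => ?_
  have h1 := ra_eq H hb hp z c y
  linarith

/-- N excess of a type by the pieces -/
lemma eN_eq (z : ζ) (y : ℝ) : fde D wr p b z y = ∑ j, ch (D.lt p b.1 y j = some z)
      ((1 - rf wr p b (wr p j) y) * pB (bB p b.2) j y) := by
  have h := sum_w (wr p) (D.lt p b.1) (pB (bB p b.2)) (fun _ => True)
    (fun c => 1 - rf wr p b c y) (some z) y
  have h2 : fde D wr p b z y = ∑ c, ch True ((1 - rf wr p b c y) *
      cz (wr p) (D.lt p b.1) (pB (bB p b.2)) c (some z) y) :=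
    Finset.sum_congr rfl fun c _ => (ch_on trivial).symm
  rw [h2, h]
  exact Finset.sum_congr rfl fun j _ => ch_congr (by simp)

/-- unmatched P and N content live in different real classes -/
lemma exc_ne {y : ℝ} {j i : Λ} (h1 : (1 - ra wr p b (wr p j) y) * pA (bB p b.2) j y ≠ 0)
    (h2 : (1 - rf wr p b (wr p i) y) * pB (bB p b.2) i y ≠ 0) : wr p j ≠ wr p i := by
  have Kk := H.bok hb hp
  intro hc
  have hAj : pA (bB p b.2) j y ≠ 0 := fun h => h1 (by rw [h, mul_zero])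
  have hBi : pB (bB p b.2) i y ≠ 0 := fun h => h2 (by rw [h, mul_zero])
  have hAc : SA (wr p) (bB p b.2) (wr p j) y ≠ 0 := fun h =>
    hAj (sm_congr0 (kd := wr p) (fun j => pA0 H hb hp j y) h)
  have hBc : SB (wr p) (bB p b.2) (wr p j) y ≠ 0 := fun h => by
    rw [hc] at h
    exact hBi (sm_congr0 (kd := wr p) (fun j => pB0 H hb hp j y) h)
  have e1 := rf_mul (wr := wr) H hb hp (wr p j) y
  have e2 := ra_mul (wr := wr) H hb hp (wr p j) y
  rcases le_total (SA (wr p) (bB p b.2) (wr p j) y)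
    (SB (wr p) (bB p b.2) (wr p j) y) with h3 | h3
  · rw [min_eq_left h3] at e2
    have h4 : ra wr p b (wr p j) y = 1 := mul_right_cancel₀ hAc (by rw [e2, one_mul])
    exact h1 (by rw [h4]; ring)
  · rw [min_eq_right h3] at e1
    have h4 : rf wr p b (wr p j) y = 1 := mul_right_cancel₀ hBc (by rw [e1, one_mul])
    rw [hc] at h4
    exact h2 (by rw [h4]; ring)

/-- **the mismatch of an unmarked type**: `R` (P pieces) and `S` (N pieces) meet every pair of different
real classes of the type -/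
lemma et_le {z : ζ} {y : ℝ} {R S : Λ → Prop}
    (hRS : ∀ j i, D.lt p b.1 y j = some z → D.lt p b.1 y i = some z → pA (bB p b.2) j y ≠ 0 →
      pB (bB p b.2) i y ≠ 0 → wr p j ≠ wr p i → R j ∨ S i) :
    et (D.h p (D.cP p b) z) (fB1 D wr p b z) (fde D wr p b z) y ≤
      ∑ j, ch (D.lt p b.1 y j = some z) (xw D wr p b y j * pA (bB p b.2) j y) +
      ∑ j, ch (D.lt p b.1 y j = some z ∧ R j) (pA (bB p b.2) j y) +
      ∑ j, ch (D.lt p b.1 y j = some z ∧ S j)
        ((1 - rf wr p b (wr p j) y) * pB (bB p b.2) j y) := by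
  have n1 : 0 ≤ ∑ j, ch (D.lt p b.1 y j = some z) (xw D wr p b y j * pA (bB p b.2) j y) :=
    Finset.sum_nonneg fun j _ => ch_nonneg (mul_nonneg (xw0 H hb hp y j) (pA0 H hb hp j y))
  have n2 : 0 ≤ ∑ j, ch (D.lt p b.1 y j = some z ∧ R j) (pA (bB p b.2) j y) :=
    Finset.sum_nonneg fun j _ => ch_nonneg (pA0 H hb hp j y)
  have n3 : 0 ≤ ∑ j, ch (D.lt p b.1 y j = some z ∧ S j)
      ((1 - rf wr p b (wr p j) y) * pB (bB p b.2) j y) := Finset.sum_nonneg fun j _ =>
    ch_nonneg (mul_nonneg (rf1 H hb hp (wr p j) y) (pB0 H hb hp j y))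
  rw [et_eq H hb hp]
  by_cases hall : ∀ i, D.lt p b.1 y i = some z →
      (1 - rf wr p b (wr p i) y) * pB (bB p b.2) i y ≠ 0 → S i
  · -- all the N excess is in `S`
    refine (min_le_left _ _).trans ?_
    rw [eN_eq H hb hp]
    have h1 : ∑ j, ch (D.lt p b.1 y j = some z)
        ((1 - rf wr p b (wr p j) y) * pB (bB p b.2) j y) ≤
        ∑ j, ch (D.lt p b.1 y j = some z ∧ S j)
        ((1 - rf wr p b (wr p j) y) * pB (bB p b.2) j y) := by
      refine Finset.sum_le_sum fun j _ => ?_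
      by_cases hj : D.lt p b.1 y j = some z
      · by_cases h0 : (1 - rf wr p b (wr p j) y) * pB (bB p b.2) j y = 0
        · rw [h0, ch_on hj]
          exact ch_nonneg le_rfl
        · rw [ch_on hj, ch_on ⟨hj, hall j hj h0⟩]
      · rw [ch_off hj, ch_off fun h => hj h.1]
    linarith
  · push Not at hall
    obtain ⟨i, hi, hi0, hiS⟩ := hall
    refine (min_le_right _ _).trans ?_
    rw [eP_eq H hb hp]
    have hBi : pB (bB p b.2) i y ≠ 0 := fun h => hi0 (by rw [h, mul_zero])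
    have h1 : ∑ j, ch (D.lt p b.1 y j = some z)
        ((1 - ra wr p b (wr p j) y) * pA (bB p b.2) j y) ≤
        ∑ j, ch (D.lt p b.1 y j = some z ∧ R j) (pA (bB p b.2) j y) := by
      refine Finset.sum_le_sum fun j _ => ?_
      have hA := pA0 H hb hp j y
      have hr := ra0 H hb hp (wr p j) y
      have hr1 := ra1 H hb hp (wr p j) y
      by_cases hj : D.lt p b.1 y j = some z
      · by_cases h0 : (1 - ra wr p b (wr p j) y) * pA (bB p b.2) j y = 0
        · rw [h0, ch_on hj]; exact ch_nonneg hA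
        · have hAj : pA (bB p b.2) j y ≠ 0 := fun h => h0 (by rw [h, mul_zero])
          have hne := exc_ne H hb hp h0 hi0
          have hR : R j := by
            rcases hRS j i hj hi hAj hBi hne with h | h
            · exact h
            · exact absurd h hiS
          rw [ch_on hj, ch_on ⟨hj, hR⟩]
          nlinarith
      · rw [ch_off hj, ch_off fun h => hj h.1]
    linarith

/-! ### all the types -/

/-- sum of the cross content -/
lemma sum_cx (y : ℝ) : ∑ z : ζ, ∑ c, cx D wr p b z c y =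
    ∑ j, ch (D.lt p b.1 y j ≠ none) (xw D wr p b y j * pA (bB p b.2) j y) := by
  rw [Finset.sum_congr rfl fun z _ => cx_sum H hb hp z y, Finset.sum_comm]
  exact Finset.sum_congr rfl fun j _ => sum_type' _ _

/-- **cross content, all the types** -/
lemma sum_rho (y : ℝ) : ∑ z, rho D wr p b z y ≤
    3 * ∑ j, ch (D.lt p b.1 y j ≠ none) (xw D wr p b y j * pA (bB p b.2) j y) := by
  have h1 := sum_cx H hb hp y
  have h2 := cross_swap H hb hp y
  have h3 : ∑ z : ζ, ∑ c, ch (mrk D p b z y ∧ c = D.act p b z y) (cx D wr p b z c y) ≤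
      ∑ z : ζ, ∑ c, cx D wr p b z c y := Finset.sum_le_sum fun z _ =>
    Finset.sum_le_sum fun c _ => ch_le (cx0 H hb hp z c y)
  have e4 : ∑ z, rho D wr p b z y = ∑ z : ζ, ∑ c, cx D wr p b z c y +
      ∑ z : ζ, ∑ c, dx D wr p b z c y +
      ∑ z : ζ, ∑ c, ch (mrk D p b z y ∧ c = D.act p b z y) (cx D wr p b z c y) := by
    rw [← Finset.sum_add_distrib, ← Finset.sum_add_distrib]
    refine Finset.sum_congr rfl fun z _ => ?_
    rw [← Finset.sum_add_distrib]
    rfl
  rw [e4]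
  linarith

/-- **matched content of the other classes, all the types** -/
lemma sum_fm (y : ℝ) : ∑ z, fm D wr p b z y ≤
    ∑ j, ch (D.lt p b.1 y j ≠ none) (xw D wr p b y j * pA (bB p b.2) j y) +
    ∑ j, ch (∃ z, D.lt p b.1 y j = some z ∧ mrk D p b z y ∧ wr p j ≠ D.act p b z y ∧
      SB (wr p) (bB p b.2) (wr p j) y ≠ 0) (pA (bB p b.2) j y) := by
  have h1 := sum_cx H hb hp y
  have h2 := cross_swap H hb hp y
  have h3 := Finset.sum_le_sum fun z (_ : z ∈ Finset.univ) => fm_le H hb hp z y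
  rw [Finset.sum_add_distrib, ← Finset.sum_congr rfl fun z _ => dx_sum H hb hp z y, h2, h1] at h3
  refine h3.trans (add_le_add le_rfl (le_of_eq ?_))
  rw [Finset.sum_comm]
  exact Finset.sum_congr rfl fun j _ => sum_type _ _ _

/-- **the mismatch of chosen types** -/
lemma sum_etQ {Q : ζ → Prop} {R S : Λ → Prop} {y : ℝ}
    (hRS : ∀ z j i, Q z → D.lt p b.1 y j = some z → D.lt p b.1 y i = some z →
      pA (bB p b.2) j y ≠ 0 → pB (bB p b.2) i y ≠ 0 → wr p j ≠ wr p i → R j ∨ S i) :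
    ∑ z, ch (Q z) (et (D.h p (D.cP p b) z) (fB1 D wr p b z) (fde D wr p b z) y) ≤
    ∑ j, ch (D.lt p b.1 y j ≠ none) (xw D wr p b y j * pA (bB p b.2) j y) +
    ∑ j, ch (∃ z, D.lt p b.1 y j = some z ∧ Q z ∧ R j) (pA (bB p b.2) j y) +
    ∑ j, ch (∃ z, D.lt p b.1 y j = some z ∧ Q z ∧ S j)
      ((1 - rf wr p b (wr p j) y) * pB (bB p b.2) j y) := by
  have h1 : ∀ z : ζ, ch (Q z)
      (et (D.h p (D.cP p b) z) (fB1 D wr p b z) (fde D wr p b z) y) ≤
      ∑ j, ch (D.lt p b.1 y j = some z) (xw D wr p b y j * pA (bB p b.2) j y) +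
      ∑ j, ch (D.lt p b.1 y j = some z ∧ Q z ∧ R j) (pA (bB p b.2) j y) +
      ∑ j, ch (D.lt p b.1 y j = some z ∧ Q z ∧ S j)
      ((1 - rf wr p b (wr p j) y) * pB (bB p b.2) j y) := by
    intro z
    by_cases hm : Q z
    · rw [ch_on hm]
      refine (et_le H hb hp (z := z) (R := R) (S := S)
        fun j i h1 h2 h3 h4 h5 => hRS z j i hm h1 h2 h3 h4 h5).trans (le_of_eq ?_)
      congr 1
      · congr 1
        exact Finset.sum_congr rfl fun j _ => ch_congr
          ⟨fun h => ⟨h.1, hm, h.2⟩, fun h => ⟨h.1, h.2.2⟩⟩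
      · exact Finset.sum_congr rfl fun j _ => ch_congr
          ⟨fun h => ⟨h.1, hm, h.2⟩, fun h => ⟨h.1, h.2.2⟩⟩
    · rw [ch_off hm]
      refine add_nonneg (add_nonneg ?_ ?_) ?_
      · exact Finset.sum_nonneg fun j _ =>
          ch_nonneg (mul_nonneg (xw0 H hb hp y j) (pA0 H hb hp j y))
      · exact Finset.sum_nonneg fun j _ => ch_nonneg (pA0 H hb hp j y)
      · exact Finset.sum_nonneg fun j _ =>
          ch_nonneg (mul_nonneg (rf1 H hb hp (wr p j) y) (pB0 H hb hp j y))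
  refine (Finset.sum_le_sum fun z _ => h1 z).trans (le_of_eq ?_)
  rw [Finset.sum_add_distrib, Finset.sum_add_distrib]
  congr 1
  · congr 1
    · rw [Finset.sum_comm]
      exact Finset.sum_congr rfl fun j _ => sum_type' _ _
    · rw [Finset.sum_comm]
      exact Finset.sum_congr rfl fun j _ => sum_type _ _ _
  · rw [Finset.sum_comm]
    exact Finset.sum_congr rfl fun j _ => sum_type _ _ _

/-- the lifts of a piece -/
lemma Ep_eg (j : Λ) (y : ℝ) : Ep p (eg (wr p) p (bB p b.2) j) y =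
    1 / (p : ℝ) * ((1 - rf wr p b (wr p j) y) * pB (bB p b.2) j y) := by
  have h := Ep_fib (Nat.pos_of_ne_zero hp) (Prf' H hb hp (wr p j)) (pG (bB p b.2) j) y
  have e : Ep p (eg (wr p) p (bB p b.2) j) y =
      (1 - rf wr p b (wr p j) y) * Ep p (pG (bB p b.2) j) y := h
  rw [e, (lift_pG (H.bok hb hp) j).Ep]
  ring

/-- the sum of the content of a true tie -/
lemma Ep_vT (j : Λ) (y : ℝ) : Ep p (vT p (bB p b.2) j) y =
    (1 - 1 / (p : ℝ)) * pA (bB p b.2) j y + 1 / (p : ℝ) * pB (bB p b.2) j y := by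
  have hp0 : 0 < p := Nat.pos_of_ne_zero hp
  have Kk := H.bok hb hp
  have P1 : PB fun y => pA (bB p b.2) j y / SA (wr p) (bB p b.2) (wr p j) y :=
    TyS16.PB_ratio (Kk.PA j) (PB_SA Kk (wr p j)) fun y => by
      unfold SA sm
      exact Finset.single_le_sum (f := fun j => pA (bB p b.2) j y) (fun i _ => pA0 H hb hp i y)
        (by simp)
  have e1 : Ep p (vT p (bB p b.2) j) y = Ep p (fun x =>
      ((fun y => (1 - 1 / (p : ℝ)) * pA (bB p b.2) j y) (p * x) +
        (fun y => 1 / (p : ℝ) * (ra wr p b (wr p j) y * pA (bB p b.2) j y)) (p * x)) +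
      (pG (bB p b.2) j x - (fun y => pA (bB p b.2) j y / SA (wr p) (bB p b.2) (wr p j) y *
        rf wr p b (wr p j) y) (p * x) * SG (wr p) (bB p b.2) (wr p j) x)) y := by
    unfold Ep
    congr 1
    refine Finset.sum_congr rfl fun i _ => ?_
    rw [vT_eq Kk]
    unfold vF ra rf al bf SA SB SG
    ring
  have e2 : ∀ f g : ℝ → ℝ, Ep p (fun x => f x - g x) y = Ep p f y - Ep p g y := fun f g => by
    unfold Ep
    rw [Finset.sum_sub_distrib, sub_div]
  rw [e1, Ep_add', Ep_add', e2, Ep_cst hp0 ((Kk.PA j).smul (w1 hp)),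
    Ep_cst hp0 (((Pra H hb hp (wr p j)).mul (Kk.PA j)).smul (w0 H hb hp)),
    Ep_fib hp0 (P1.mul (Prf H hb hp (wr p j))), Ep_SG H hb hp, (lift_pG Kk j).Ep]
  have e3 : rf wr p b (wr p j) y * SB (wr p) (bB p b.2) (wr p j) y =
    min (SA (wr p) (bB p b.2) (wr p j) y) (SB (wr p) (bB p b.2) (wr p j) y) := bf_mul Kk _ y
  have e4 : ra wr p b (wr p j) y = min (SA (wr p) (bB p b.2) (wr p j) y)
    (SB (wr p) (bB p b.2) (wr p j) y) / SA (wr p) (bB p b.2) (wr p j) y := rfl
  rw [e4, ← e3]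
  ring

end one

/-! ### the rates of the pieces -/

open Classical in
/-- rate of the P pieces (low point `y`) -/
noncomputable def EP (D : TD μ Λ κ ζ) (wr : ℕ → Λ → κ) (R : ℝ → Λ → Prop) (p : ℕ)
    (b : μ × List (DT Λ κ)) (y : ℝ) (j : Λ) : ℝ :=
  5 * ch (pA (bB p b.2) j y ≠ 0 ∧ D.lt p b.1 y j ≠ none) (xw D wr p b y j) +
  ch (pA (bB p b.2) j y ≠ 0 ∧ ∃ z, D.lt p b.1 y j = some z ∧ mrk D p b z y ∧
    wr p j ≠ D.act p b z y ∧ SB (wr p) (bB p b.2) (wr p j) y ≠ 0) 1 +
  ch (pA (bB p b.2) j y ≠ 0 ∧ ∃ z, D.lt p b.1 y j = some z ∧ ¬ mrk D p b z y ∧ R y j) 1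

/-- rate of the N pieces (point above `x`) -/
noncomputable def EN (D : TD μ Λ κ ζ) (wr : ℕ → Λ → κ) (S : ℝ → Λ → Prop) (p : ℕ)
    (b : μ × List (DT Λ κ)) (x : ℝ) (j : Λ) : ℝ :=
  ch (pG (bB p b.2) j x ≠ 0 ∧ ∃ z, D.lt p b.1 (p * x) j = some z ∧ mrk D p b z (p * x) ∧
    ¬ (D.spc p b z x ∧ wr p j = D.act p b z (p * x))) 1 +
  ch (pG (bB p b.2) j x ≠ 0 ∧ ∃ z, D.lt p b.1 (p * x) j = some z ∧ ¬ mrk D p b z (p * x) ∧
    S (p * x) j) 1

lemma ch_mul (P Q : Prop) (a : ℝ) (h : a ≠ 0 → Q) : ch P a = ch (Q ∧ P) 1 * a := by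
  by_cases hP : P
  · rw [ch_on hP]
    by_cases hQ : Q
    · rw [ch_on ⟨hQ, hP⟩, one_mul]
    · have : a = 0 := by_contra fun h2 => hQ (h h2)
      rw [this, mul_zero]
  · rw [ch_off hP, ch_off fun h => hP h.2, zero_mul]

omit [Fintype ζ] [DecidableEq ζ] [DecidableEq Λ] in
/-- the first term of the rate of a P piece -/
lemma EP_fst (y : ℝ) (j : Λ) : ch (D.lt p b.1 y j ≠ none) (xw D wr p b y j * pA (bB p b.2) j y) =
    ch (pA (bB p b.2) j y ≠ 0 ∧ D.lt p b.1 y j ≠ none) (xw D wr p b y j) *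
      pA (bB p b.2) j y := by
  by_cases h : D.lt p b.1 y j ≠ none
  · rw [ch_on h]
    by_cases h0 : pA (bB p b.2) j y = 0
    · rw [h0, mul_zero, mul_zero]
    · rw [ch_on ⟨h0, h⟩]
  · rw [ch_off h, ch_off fun h' => h h'.2, zero_mul]

section rate
variable (H : TYp wr D Inv) (hb : Inv p b) (hp : p ≠ 0)
include H hb hp

lemma EP0 (R : ℝ → Λ → Prop) (y : ℝ) (j : Λ) : 0 ≤ EP D wr R p b y j := by
  unfold EP
  have := ch_nonneg (P := pA (bB p b.2) j y ≠ 0 ∧ D.lt p b.1 y j ≠ none) (xw0 H hb hp y j)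
  have h2 := ch_nonneg (P := pA (bB p b.2) j y ≠ 0 ∧ ∃ z, D.lt p b.1 y j = some z ∧
    mrk D p b z y ∧ wr p j ≠ D.act p b z y ∧ SB (wr p) (bB p b.2) (wr p j) y ≠ 0)
    (zero_le_one (α := ℝ))
  have h3 := ch_nonneg (P := pA (bB p b.2) j y ≠ 0 ∧ ∃ z, D.lt p b.1 y j = some z ∧
    ¬ mrk D p b z y ∧ R y j) (zero_le_one (α := ℝ))
  linarith

omit H hb hp in
lemma EN0 (S : ℝ → Λ → Prop) (x : ℝ) (j : Λ) : 0 ≤ EN D wr S p b x j :=
  add_nonneg (ch_nonneg zero_le_one) (ch_nonneg zero_le_one)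

lemma EP_per {R : ℝ → Λ → Prop} (hR : ∀ y j, R (y + 1) j = R y j) (j : Λ) (y : ℝ) :
    EP D wr R p b (y + 1) j = EP D wr R p b y j := by
  have Kk := H.bok hb hp
  have e1 := (Kk.PA j).per y
  have e2 := (H.mlt p b.1 j).per y
  have e3 : ∀ z, mrk D p b z (y + 1) = mrk D p b z y := fun z => (mmk H hp z).per y
  have e4 := xw_per H hb hp y j
  have e5 : ∀ z, D.act p b z (y + 1) = D.act p b z y := fun z => (H.mac p b z).per y
  have e6 := (PB_SB Kk (wr p j)).per y
  have e7 := hR y j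
  unfold EP
  simp only [e1, e2, e3, e4, e5, e6, e7]

omit H hb hp in
/-- the P pieces -/
lemma pcP (R : ℝ → Λ → Prop) (y : ℝ) :
    5 * ∑ j, ch (D.lt p b.1 y j ≠ none) (xw D wr p b y j * pA (bB p b.2) j y) +
    ∑ j, ch (∃ z, D.lt p b.1 y j = some z ∧ mrk D p b z y ∧ wr p j ≠ D.act p b z y ∧
      SB (wr p) (bB p b.2) (wr p j) y ≠ 0) (pA (bB p b.2) j y) +
    ∑ j, ch (∃ z, D.lt p b.1 y j = some z ∧ ¬ mrk D p b z y ∧ R y j) (pA (bB p b.2) j y) =
    ∑ j, EP D wr R p b y j * pA (bB p b.2) j y := by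
  have k : ∀ (P : Λ → Prop), ∑ j, ch (P j) (pA (bB p b.2) j y) =
      ∑ j, ch (pA (bB p b.2) j y ≠ 0 ∧ P j) 1 * pA (bB p b.2) j y := fun P =>
    Finset.sum_congr rfl fun j _ => ch_mul _ _ _ fun h => h
  have k2 := k (fun j => ∃ z, D.lt p b.1 y j = some z ∧ mrk D p b z y ∧
    wr p j ≠ D.act p b z y ∧ SB (wr p) (bB p b.2) (wr p j) y ≠ 0)
  have k3 := k (fun j => ∃ z, D.lt p b.1 y j = some z ∧ ¬ mrk D p b z y ∧ R y j)
  rw [Finset.sum_congr rfl fun j _ => EP_fst (D := D) (wr := wr) (p := p) (b := b) y j, k2, k3,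
    Finset.mul_sum, ← Finset.sum_add_distrib, ← Finset.sum_add_distrib]
  refine Finset.sum_congr rfl fun j _ => ?_
  unfold EP
  ring

/-- the N pieces -/
lemma pcN {S : ℝ → Λ → Prop} (hS : ∀ y j, S (y + 1) j = S y j) (y : ℝ) :
    1 / (p : ℝ) * ∑ z, ch (mrk D p b z y) (nuy D wr p b z y) +
    1 / (p : ℝ) * ∑ j, ch (∃ z, D.lt p b.1 y j = some z ∧ ¬ mrk D p b z y ∧ S y j)
      ((1 - rf wr p b (wr p j) y) * pB (bB p b.2) j y) =
    Ep p (fun x => ∑ j, EN D wr S p b x j * eg (wr p) p (bB p b.2) j x) y := by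
  have hp0 : 0 < p := Nat.pos_of_ne_zero hp
  have eN1 : 1 / (p : ℝ) * ∑ z, ch (mrk D p b z y) (nuy D wr p b z y) =
      Ep p (fun x => ∑ j, ch (∃ z, D.lt p b.1 (p * x) j = some z ∧ mrk D p b z (p * x) ∧
        ¬ (D.spc p b z x ∧ wr p j = D.act p b z (p * x))) (eg (wr p) p (bB p b.2) j x)) y := by
    have k1 : 1 / (p : ℝ) * ∑ z, ch (mrk D p b z y) (nuy D wr p b z y) =
        ∑ z : ζ, Ep p (fun x => ch (mrk D p b z (p * x)) (∑ j, ch (D.lt p b.1 (p * x) j = some z ∧
        ¬ (D.spc p b z x ∧ wr p j = D.act p b z (p * x)))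
          (eg (wr p) p (bB p b.2) j x))) y := by
      rw [Finset.mul_sum]
      refine Finset.sum_congr rfl fun z _ => ?_
      rw [Ep_ch hp0 (mmk H hp z).per, ← nuy_eq H hb hp]
      by_cases hm : mrk D p b z y
      · rw [ch_on hm, ch_on hm]
      · rw [ch_off hm, ch_off hm, mul_zero]
    rw [k1, ← DTo407.Ep_sum']
    congr 1
    funext x
    have k2 : ∀ z : ζ, ch (mrk D p b z (p * x)) (∑ j, ch (D.lt p b.1 (p * x) j = some z ∧
        ¬ (D.spc p b z x ∧ wr p j = D.act p b z (p * x)))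
          (eg (wr p) p (bB p b.2) j x)) =
        ∑ j, ch (D.lt p b.1 (p * x) j = some z ∧ mrk D p b z (p * x) ∧
        ¬ (D.spc p b z x ∧ wr p j = D.act p b z (p * x)))
          (eg (wr p) p (bB p b.2) j x) := by
      intro z
      by_cases hm : mrk D p b z (p * x)
      · rw [ch_on hm]
        exact Finset.sum_congr rfl fun j _ => ch_congr
          ⟨fun h => ⟨h.1, hm, h.2⟩, fun h => ⟨h.1, h.2.2⟩⟩
      · rw [ch_off hm]
        exact (Finset.sum_eq_zero fun j _ => ch_off fun h => hm h.2.1).symm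
    rw [Finset.sum_congr rfl fun z _ => k2 z, Finset.sum_comm]
    exact Finset.sum_congr rfl fun j _ => sum_type _ _ _
  have eN2 : 1 / (p : ℝ) * ∑ j, ch (∃ z, D.lt p b.1 y j = some z ∧ ¬ mrk D p b z y ∧ S y j)
      ((1 - rf wr p b (wr p j) y) * pB (bB p b.2) j y) =
      Ep p (fun x => ∑ j, ch (∃ z, D.lt p b.1 (p * x) j = some z ∧
      ¬ mrk D p b z (p * x) ∧ S (p * x) j) (eg (wr p) p (bB p b.2) j x)) y := by
    rw [DTo407.Ep_sum', Finset.mul_sum]
    refine Finset.sum_congr rfl fun j _ => ?_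
    have hper : ∀ y : ℝ, (∃ z, D.lt p b.1 (y + 1) j = some z ∧ ¬ mrk D p b z (y + 1) ∧
        S (y + 1) j) = ∃ z, D.lt p b.1 y j = some z ∧ ¬ mrk D p b z y ∧ S y j := fun y => by
      have e1 := (H.mlt p b.1 j).per y
      have e2 := hS y j
      have e3 : ∀ z, mrk D p b z (y + 1) = mrk D p b z y := fun z => (mmk H hp z).per y
      simp only [e1, e2, e3]
    have h := Ep_ch hp0 (P := fun y => ∃ z, D.lt p b.1 y j = some z ∧ ¬ mrk D p b z y ∧ S y j)
      hper (eg (wr p) p (bB p b.2) j) y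
    rw [h, Ep_eg H hb hp]
    by_cases hm : ∃ z, D.lt p b.1 y j = some z ∧ ¬ mrk D p b z y ∧ S y j
    · rw [ch_on hm, ch_on hm]
    · rw [ch_off hm, ch_off hm, mul_zero]
  rw [eN1, eN2, ← Ep_add']
  congr 1
  funext x
  rw [← Finset.sum_add_distrib]
  refine Finset.sum_congr rfl fun j _ => ?_
  have hq : eg (wr p) p (bB p b.2) j x ≠ 0 → pG (bB p b.2) j x ≠ 0 := fun h h2 =>
    h (by unfold eg; rw [h2, mul_zero])
  rw [ch_mul (∃ z, D.lt p b.1 (p * x) j = some z ∧ mrk D p b z (p * x) ∧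
      ¬ (D.spc p b z x ∧ wr p j = D.act p b z (p * x))) _ _ hq,
    ch_mul (∃ z, D.lt p b.1 (p * x) j = some z ∧ ¬ mrk D p b z (p * x) ∧ S (p * x) j) _ _ hq]
  unfold EN
  ring

/-- a P charge at the low point as a rate of the content above -/
lemma P_rate {E : ℝ → Λ → ℝ} (nE : ∀ y j, 0 ≤ E y j) (perE : ∀ j y, E (y + 1) j = E y j) (y : ℝ) :
    1 / (p : ℝ) * ∑ j, E y j * pA (bB p b.2) j y ≤
      ∑ j, Ep p (fun x => 1 / ((p : ℝ) - 1) * E (p * x) j * vT p (bB p b.2) j x) y := by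
  have hp0 : 0 < p := Nat.pos_of_ne_zero hp
  rw [Finset.mul_sum]
  refine Finset.sum_le_sum fun j _ => ?_
  have hA := pA0 H hb hp j y
  have hB := pB0 H hb hp j y
  have e1 : Ep p (fun x => 1 / ((p : ℝ) - 1) * E (p * x) j *
      vT p (bB p b.2) j x) y = 1 / ((p : ℝ) - 1) * E y j *
      Ep p (vT p (bB p b.2) j) y := by
    unfold Ep
    rw [← mul_div_assoc, Finset.mul_sum]
    congr 1
    refine Finset.sum_congr rfl fun i _ => ?_
    have := fib_per hp0 (P := fun y => E y j) (perE j) y i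
    beta_reduce
    rw [this]
  rw [e1, Ep_vT H hb hp]
  by_cases h1p : p = 1
  · subst h1p
    have h0 : pA (bB 1 b.2) j y = 0 := by
      have := H.no1 hb
      rw [this]; rfl
    rw [h0]
    norm_num
  · have hp2 : (2 : ℝ) ≤ p := by
      have : 2 ≤ p := by omega
      exact_mod_cast this
    have hq : (0 : ℝ) < (p : ℝ) - 1 := by linarith
    have e2 : 1 / ((p : ℝ) - 1) * E y j *
        ((1 - 1 / (p : ℝ)) * pA (bB p b.2) j y + 1 / (p : ℝ) * pB (bB p b.2) j y) =
        1 / (p : ℝ) * (E y j * pA (bB p b.2) j y) +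
        1 / ((p : ℝ) - 1) * E y j * (1 / (p : ℝ) * pB (bB p b.2) j y) := by
      have hp' : (p : ℝ) ≠ 0 := by positivity
      have hq' : (p : ℝ) - 1 ≠ 0 := hq.ne'
      field_simp
    rw [e2]
    have : 0 ≤ 1 / ((p : ℝ) - 1) * E y j * (1 / (p : ℝ) * pB (bB p b.2) j y) := by
      have := nE y j
      positivity
    linarith

/-- charges of the P pieces and of the excess lifts as rates of the content above -/
lemma to_rate {R S : ℝ → Λ → Prop} (hR : ∀ y j, R (y + 1) j = R y j) (y : ℝ) :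
    1 / (p : ℝ) * ∑ j, EP D wr R p b y j * pA (bB p b.2) j y +
      Ep p (fun x => ∑ j, EN D wr S p b x j * eg (wr p) p (bB p b.2) j x) y ≤
    ∑ j, Ep p (fun x => (1 / ((p : ℝ) - 1) * EP D wr R p b (p * x) j + EN D wr S p b x j) *
        vT p (bB p b.2) j x) y := by
  have hp0 : 0 < p := Nat.pos_of_ne_zero hp
  have Kk := H.bok hb hp
  have e3 : Ep p (fun x => ∑ j, EN D wr S p b x j * eg (wr p) p (bB p b.2) j x) y ≤
      ∑ j, Ep p (fun x => EN D wr S p b x j * vT p (bB p b.2) j x) y := by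
    rw [DTo407.Ep_sum']
    refine Finset.sum_le_sum fun j _ => Ep_mono_fib hp0 fun i _ => ?_
    exact mul_le_mul_of_nonneg_left (eg_le_vT Kk hp0 j _) (EN0 S _ j)
  have e4 : ∑ j, Ep p (fun x =>
      (1 / ((p : ℝ) - 1) * EP D wr R p b (p * x) j + EN D wr S p b x j) *
        vT p (bB p b.2) j x) y = ∑ j, Ep p (fun x => 1 / ((p : ℝ) - 1) *
        EP D wr R p b (p * x) j * vT p (bB p b.2) j x) y +
      ∑ j, Ep p (fun x => EN D wr S p b x j * vT p (bB p b.2) j x) y := by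
    rw [← Finset.sum_add_distrib]
    refine Finset.sum_congr rfl fun j _ => ?_
    rw [← Ep_add']
    congr 1
    funext x
    ring
  rw [e4]
  exact add_le_add (P_rate H hb hp (EP0 H hb hp R) (EP_per H hb hp hR) y) e3

/-- **the births of the rows by the pieces** -/
theorem births_pieces {R S : ℝ → Λ → Prop} (hS : ∀ y j, S (y + 1) j = S y j) {y : ℝ}
    (hRS : ∀ z j i, ¬ mrk D p b z y → D.lt p b.1 y j = some z → D.lt p b.1 y i = some z →
      pA (bB p b.2) j y ≠ 0 → pB (bB p b.2) i y ≠ 0 → wr p j ≠ wr p i → R y j ∨ S y i) :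
    Ep p (eA (raw D wr p b)) y ≤ 2 * (1 / (p : ℝ) * ∑ j, EP D wr R p b y j * pA (bB p b.2) j y +
      Ep p (fun x => ∑ j, EN D wr S p b x j * eg (wr p) p (bB p b.2) j x) y) := by
  have hw := w0 H hb hp
  have h1 := Ep_births H hb hp y
  have h2 := sum_rho H hb hp y
  have h3 := sum_fm H hb hp y
  have h4 := sum_etQ H hb hp (Q := fun z => ¬ mrk D p b z y) (R := R y) (S := S y) (y := y) hRS
  -- the events of the types
  have e5 : ∑ z, evt D wr p b z y = ∑ z, ch (mrk D p b z y) (nuy D wr p b z y) +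
      ∑ z, ch (¬ mrk D p b z y)
        (et (D.h p (D.cP p b) z) (fB1 D wr p b z) (fde D wr p b z) y) +
      ∑ z, fm D wr p b z y := by
    rw [← Finset.sum_add_distrib, ← Finset.sum_add_distrib]
    refine Finset.sum_congr rfl fun z _ => ?_
    unfold evt
    by_cases hm : mrk D p b z y
    · rw [cho_on hm, ch_on hm, ch_off (not_not.2 hm), add_zero]
    · rw [cho_off hm, ch_off hm, ch_on hm, zero_add]
  have eP := pcP (D := D) (wr := wr) (p := p) (b := b) R y
  have eN := pcN H hb hp hS y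
  rw [← eN, ← eP]
  have h6 : 2 / (p : ℝ) * ∑ z, (rho D wr p b z y + evt D wr p b z y) =
      2 * (1 / (p : ℝ) * (∑ z, rho D wr p b z y + ∑ z, evt D wr p b z y)) := by
    rw [Finset.sum_add_distrib]; ring
  rw [h6, e5] at h1
  refine h1.trans (mul_le_mul_of_nonneg_left ?_ (by norm_num))
  have h7 := mul_le_mul_of_nonneg_left (add_le_add (add_le_add h2 h3) h4) hw
  linarith

/-- **the births of the rows as rates of the pieces in the ties** -/
theorem births_rate {R S : ℝ → Λ → Prop} (hR : ∀ y j, R (y + 1) j = R y j)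
    (hS : ∀ y j, S (y + 1) j = S y j) {y : ℝ}
    (hRS : ∀ z j i, ¬ mrk D p b z y → D.lt p b.1 y j = some z → D.lt p b.1 y i = some z →
      pA (bB p b.2) j y ≠ 0 → pB (bB p b.2) i y ≠ 0 → wr p j ≠ wr p i → R y j ∨ S y i) :
    14 * Ep p (eA (raw D wr p b)) y ≤ ∑ j, Ep p (fun x =>
      28 * (1 / ((p : ℝ) - 1) * EP D wr R p b (p * x) j + EN D wr S p b x j) *
        vT p (bB p b.2) j x) y := by
  have h1 := births_pieces H hb hp hS hRS
  have h2 := to_rate H hb hp (S := S) hR y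
  have e4 : ∑ j, Ep p (fun x =>
      28 * (1 / ((p : ℝ) - 1) * EP D wr R p b (p * x) j + EN D wr S p b x j) *
        vT p (bB p b.2) j x) y = 28 * ∑ j, Ep p (fun x =>
      (1 / ((p : ℝ) - 1) * EP D wr R p b (p * x) j + EN D wr S p b x j) *
        vT p (bB p b.2) j x) y := by
    rw [Finset.mul_sum]
    refine Finset.sum_congr rfl fun j _ => ?_
    rw [← Ep_smul']
    congr 1
    funext x
    ring
  rw [e4]
  linarith

end rate

end

end Crest.Agent.R4P.DTe407
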