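import Crest.Agent.R4P.TyS_16

/-!
R4 (S0004) with powers, T3 (heights > 1), helper16: **the marked typed row** (`M` kind).

P content `α + κ` (active, kept), N content `b + ν + m` (active, `ν` of inactive classes or off the
special sheet with the lifts `nu`, `m` matched inside impure real classes), share `s` of the special
sheet.  Real lifts `gc = s (b - α)^+ + nu`.  `mkM` : raw data, **`rowM : TRow`**.
-/

set_option autoImplicit false
set_option linter.unusedSectionVars false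
set_option linter.unusedVariables false
open MeasureTheory Filter Set

namespace Crest.Agent.R4P.TyS16

open Crest.Agent.R4.Tour104 Crest.Agent.R4.Tour758 Crest.Agent.R4P.MisR16 Crest.Agent.R4P.TyR16
open Crest.Agent.R4P.TrR343 Crest.Agent.R4P.RXs343 Crest.Agent.R4P.RXm55

/-! ### elementary -/

lemma dd_eq (A B : ℝ) : dd A B = B - min A B := by
  unfold dd
  rcases le_total A B with h | h
  · rw [min_eq_left h, max_eq_left (by linarith)]
  · rw [min_eq_right h, max_eq_right (by linarith)]; ring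

lemma dd_le_B {A B : ℝ} (hA : 0 ≤ A) (hB : 0 ≤ B) : dd A B ≤ B := by
  unfold dd
  exact max_le (by linarith) hB

lemma dd_anti {A A' B : ℝ} (h : A ≤ A') : dd A' B ≤ dd A B := by
  unfold dd
  exact max_le_max (by linarith) le_rfl

/-- truncation decreases the difference -/
lemma dd_tr (A B σ : ℝ) : dd (min A σ) (min B σ) ≤ dd A B := by
  unfold dd
  refine max_le ?_ (le_max_right _ _)
  rcases le_total A B with h | h
  · refine le_trans ?_ (le_max_left _ _)
    rcases le_total B σ with h1 | h1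
    · rw [min_eq_left h1, min_eq_left (h.trans h1)]
    · rw [min_eq_right h1]
      rcases le_total A σ with h2 | h2
      · rw [min_eq_left h2]; linarith
      · rw [min_eq_right h2]; linarith
  · have := min_le_min_right σ h
    exact le_trans (by linarith) (le_max_right _ _)

lemma th_add2 {x y : ℝ} (hx : 0 ≤ x) (hy : 0 ≤ y) : th (x + y) ≤ 3 / 2 * (th x + th y) := by
  have h1 := th_conv (x := 2 * x) (y := 2 * y) (t := 1 / 2) (by linarith) (by linarith)
    (by norm_num) (by norm_num)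
  have e : (1 - 1 / 2) * (2 * x) + 1 / 2 * (2 * y) = x + y := by ring
  rw [e, th_mul (by norm_num : (0 : ℝ) ≤ 2), th_mul (by norm_num : (0 : ℝ) ≤ 2)] at h1
  have h2 : th 2 ≤ 3 := by
    unfold th
    have : Real.sqrt 2 ≤ 3 / 2 := by
      rw [Real.sqrt_le_left (by norm_num)]
      norm_num
    linarith
  have h3 := mul_le_mul_of_nonneg_right h2 (th_nonneg hx)
  have h4 := mul_le_mul_of_nonneg_right h2 (th_nonneg hy)
  linarith

lemma PB_dd {f g : ℝ → ℝ} (hf : PB f) (hg : PB g) : PB fun x => dd (f x) (g x) := by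
  have h := ModeS16.PB_sub hg (PB_min hf hg) fun x => min_le_right _ _
  exact (funext fun x => dd_eq (f x) (g x)) ▸ h

lemma PB_tκ {f g : ℝ → ℝ} (hf : PB f) (hg : PB g) {σ : ℝ} (hσ : 0 ≤ σ) :
    PB fun x => tκ (f x) (g x) σ :=
  ModeS16.PB_sub (PB_minc hσ (hf.add hg)) (PB_minc hσ hf) fun x =>
    min_le_min_right σ (by linarith [hg.nonneg x])

lemma PB_one_sub {a : ℝ → ℝ} (ha : PB a) (h1 : ∀ x, a x ≤ 1) : PB fun x => 1 - a x :=
  ModeS16.PB_sub (PB.const zero_le_one) ha h1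

/-- share of the lifts -/
lemma PB_ratio {f g : ℝ → ℝ} (hf : PB f) (hg : PB g) (h : ∀ x, f x ≤ g x) : PB fun x => f x / g x := by
  refine ⟨hf.meas.div hg.meas, fun x => div_nonneg (hf.nonneg x) (hg.nonneg x), ⟨1, fun x => ?_⟩,
    fun x => by rw [hf.per, hg.per]⟩
  exact div_le_one_of_le₀ (h x) (hg.nonneg x)

lemma lift_le {p : ℕ} (hp : 0 < p) {b g : ℝ → ℝ} (hg : PB g) (h : Lift p b g) (x : ℝ) :
    g x ≤ b (p * x) := by
  have hp' : (p : ℝ) ≠ 0 := by exact_mod_cast hp.ne'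
  have h1 := h (p * x)
  have h2 : g ((p * x + (0 : ℕ)) / p) ≤ ∑ i ∈ Finset.range p, g ((p * x + i) / p) :=
    Finset.single_le_sum (f := fun i : ℕ => g ((p * x + i) / p)) (fun i _ => hg.nonneg _)
      (Finset.mem_range.2 hp)
  rw [h1] at h2
  have e : (p * x + ((0 : ℕ) : ℝ)) / p = x := by field_simp; simp
  rwa [e] at h2

lemma Ep_lift {p : ℕ} {b g : ℝ → ℝ} (h : Lift p b g) (y : ℝ) : Ep p g y = 1 / (p : ℝ) * b y := by
  unfold Ep
  rw [h y]; ring

lemma Ep_add' {p : ℕ} (f g : ℝ → ℝ) (y : ℝ) : Ep p (fun x => f x + g x) y = Ep p f y + Ep p g y := by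
  unfold Ep
  rw [Finset.sum_add_distrib, add_div]

/-- lifts with a factor which is constant on the fibres -/
lemma lift_mul {p : ℕ} (hp : 0 < p) {b g c : ℝ → ℝ} (hc : PB c) (h : Lift p b g) :
    Lift p (fun y => c y * b y) (fun x => c (p * x) * g x) := by
  intro y
  show ∑ i ∈ Finset.range p, c (p * ((y + i) / p)) * g ((y + i) / p) = c y * b y
  rw [← h y, Finset.mul_sum]
  exact Finset.sum_congr rfl fun i _ => by rw [pull_fibre hp hc.per y i]

section M
variable (p : ℕ) (α κ b ν m s nu hm hs gm gs lm lS : ℝ → ℝ)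

/-- truncated lifts of `ν` -/
noncomputable def nS (σ : ℝ) (x : ℝ) : ℝ := tκ (b (p * x)) (ν (p * x)) σ / ν (p * x) * nu x

/-- virtual main part -/
noncomputable def mS (σ : ℝ) (x : ℝ) : ℝ :=
  mnR (1 / (p : ℝ)) (min (α (p * x)) σ) (min (b (p * x)) σ) (tκ (α (p * x)) (κ (p * x)) σ) (s x)

/-- virtual separated part -/
noncomputable def pS (σ : ℝ) (x : ℝ) : ℝ := spR (1 / (p : ℝ)) (tκ (α (p * x)) (κ (p * x)) σ) (s x)

/-- truncated matched content -/
noncomputable def tmS (σ : ℝ) (y : ℝ) : ℝ := tκ (b y + ν y) (m y) σ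

/-- **raw data of the marked typed row** -/
noncomputable def mkM : TRaw where
  D := fun σ =>
    { vm := fun x => min (mS p α κ b s σ x) (hm x)
      vs := fun x => min (pS p α κ s σ x) (hs x)
      gX := fun x => s x * dd (min (α (p * x) + κ (p * x)) σ) (min (b (p * x)) σ)
      bX := fun y => ((1 - 1 / (p : ℝ)) * min (α y + κ y) σ +
        1 / (p : ℝ) * min (b y + ν y + m y) σ) -
        1 / (p : ℝ) * dd (min (α y + κ y) σ) (min (b y) σ)
      gE := fun x => s x * min (tκ (α (p * x)) (κ (p * x)) σ)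
        (dd (min (α (p * x)) σ) (min (b (p * x)) σ)) + nS p b ν nu σ x
      sg := fun x => s x * dd (min (α (p * x)) σ) (min (b (p * x)) σ) + nS p b ν nu σ x
      be := fun y => (1 - 1 / (p : ℝ)) * min (α y + κ y) σ +
        1 / (p : ℝ) * min (min (α y) σ) (min (b y) σ) + 1 / (p : ℝ) * tmS b ν m σ y
      e := fun x => (mS p α κ b s σ x - min (mS p α κ b s σ x) (hm x)) +
        (pS p α κ s σ x - min (pS p α κ s σ x) (hs x)) + nS p b ν nu σ x +
        1 / (p : ℝ) * tmS b ν m σ (p * x) }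
  Wm := fun x => mnR (1 / (p : ℝ)) (α (p * x)) (b (p * x)) (κ (p * x)) (s x) + nu x +
    1 / (p : ℝ) * m (p * x)
  Ws := fun x => spR (1 / (p : ℝ)) (κ (p * x)) (s x)
  gm := gm
  gs := gs
  lm := lm
  lS := lS
  l0 := fun σ x => min (mnR (1 / (p : ℝ)) (α (p * x)) (b (p * x)) (κ (p * x)) (s x)) σ +
    min (nu x) σ + min (1 / (p : ℝ) * m (p * x)) σ -
    min (mnR (1 / (p : ℝ)) (α (p * x)) (b (p * x)) (κ (p * x)) (s x) + nu x +
      1 / (p : ℝ) * m (p * x)) σ
  j0 := fun x => 4 * (mnR (1 / (p : ℝ)) (α (p * x)) (b (p * x)) (κ (p * x)) (s x) * nu x +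
    mnR (1 / (p : ℝ)) (α (p * x)) (b (p * x)) (κ (p * x)) (s x) * (1 / (p : ℝ) * m (p * x)) +
    nu x * (1 / (p : ℝ) * m (p * x)))
  er := fun x => lm x + lS x + nu x + 1 / (p : ℝ) * m (p * x)

variable {p α κ b ν m s nu hm hs gm gs lm lS}

/-- hypotheses of the marked typed row -/
structure HM (p : ℕ) (α κ b ν m s nu hm hs gm gs lm lS : ℝ → ℝ) : Prop where
  hp : 0 < p
  pα : PB α
  pκ : PB κ
  pb : PB b
  pν : PB ν
  pm : PB m
  ps : PB s
  s1 : ∀ x, s x ≤ 1
  sL : Lift p (fun _ => 1) s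
  pnu : PB nu
  nuL : Lift p ν nu
  phm : PB hm
  phs : PB hs
  pgm : PB gm
  pgs : PB gs
  plm : PB lm
  plS : PB lS
  hm_eq : ∀ x, hm x + lm x = (mnR (1 / (p : ℝ)) (α (p * x)) (b (p * x)) (κ (p * x)) (s x) + nu x +
    1 / (p : ℝ) * m (p * x)) + gm x
  hs_eq : ∀ x, hs x + lS x = spR (1 / (p : ℝ)) (κ (p * x)) (s x) + gs x

namespace HM
variable (H : HM p α κ b ν m s nu hm hs gm gs lm lS)
include H

lemma w0 : 0 ≤ 1 / (p : ℝ) := by positivity
lemma w1 : 1 / (p : ℝ) ≤ 1 := (w01 H.hp).2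
lemma s0 (x : ℝ) : 0 ≤ s x := H.ps.nonneg x

lemma PB_mS {σ : ℝ} (hσ : 0 ≤ σ) : PB (mS p α κ b s σ) := by
  have hw := H.w0
  have hw1 : 0 ≤ 1 - 1 / (p : ℝ) := by linarith [H.w1]
  have pA := (PB_minc hσ H.pα).pull p
  have pB' := (PB_minc hσ H.pb).pull p
  have pk := (PB_tκ H.pα H.pκ hσ).pull p
  have h := (((pA.smul hw1).add ((PB_min pA pB').smul hw)).add (H.ps.mul (PB_dd pA pB'))).add
    ((PB_one_sub H.ps H.s1).mul (pk.smul hw1))
  exact h

lemma PB_pS {σ : ℝ} (hσ : 0 ≤ σ) : PB (pS p α κ s σ) := by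
  have hw1 : 0 ≤ 1 - 1 / (p : ℝ) := by linarith [H.w1]
  exact H.ps.mul (((PB_tκ H.pα H.pκ hσ).pull p).smul hw1)

lemma nS_le {σ : ℝ} (hσ : 0 ≤ σ) (x : ℝ) : nS p b ν nu σ x ≤ nu x := by
  have h1 : tκ (b (p * x)) (ν (p * x)) σ / ν (p * x) ≤ 1 :=
    div_le_one_of_le₀ (tκ_le (H.pν.nonneg _) σ) (H.pν.nonneg _)
  have h2 := mul_le_mul_of_nonneg_right h1 (H.pnu.nonneg x)
  unfold nS
  linarith

lemma PB_nS {σ : ℝ} (hσ : 0 ≤ σ) : PB (nS p b ν nu σ) :=
  ((PB_ratio (PB_tκ H.pb H.pν hσ) H.pν fun x => tκ_le (H.pν.nonneg _) σ).pull p).mul H.pnu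

lemma nS_L {σ : ℝ} (hσ : 0 ≤ σ) : Lift p (fun y => tκ (b y) (ν y) σ) (nS p b ν nu σ) := by
  have h := lift_mul H.hp (PB_ratio (PB_tκ H.pb H.pν hσ) H.pν fun x => tκ_le (H.pν.nonneg _) σ)
    H.nuL
  intro y
  have h1 := h y
  refine h1.trans ?_
  show tκ (b y) (ν y) σ / ν y * ν y = tκ (b y) (ν y) σ
  rcases (H.pν.nonneg y).eq_or_lt with h0 | h0
  · rw [← h0, mul_zero]
    unfold tκ; simp
  · field_simp

lemma nS_le_tn {σ : ℝ} (hσ : 0 ≤ σ) (x : ℝ) : nS p b ν nu σ x ≤ tκ (b (p * x)) (ν (p * x)) σ :=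
  lift_le (b := fun y => tκ (b y) (ν y) σ) H.hp (H.PB_nS hσ) (H.nS_L hσ) x

lemma tb_tn {σ : ℝ} (y : ℝ) : min (b y) σ + tκ (b y) (ν y) σ = min (b y + ν y) σ := by
  unfold tκ; ring

lemma PB_tm {σ : ℝ} (hσ : 0 ≤ σ) : PB (tmS b ν m σ) := PB_tκ (H.pb.add H.pν) H.pm hσ

/-- the lifts of a share -/
lemma s_L {f : ℝ → ℝ} (hf : PB f) : Lift p f (fun x => s x * f (p * x)) := by
  have h := lift_mul H.hp hf H.sL
  intro y
  have h1 := h y
  simp only [mul_one] at h1
  rw [← h1]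
  exact Finset.sum_congr rfl fun i _ => mul_comm _ _

/-- the virtual main part is below the truncation of the ideal one -/
lemma mS_le {σ : ℝ} (x : ℝ) : mS p α κ b s σ x ≤
    min (mnR (1 / (p : ℝ)) (α (p * x)) (b (p * x)) (κ (p * x)) (s x)) σ :=
  kept_tr_mn H.w0 H.w1 (H.pκ.nonneg _) (H.s0 x) (H.s1 x) σ

lemma pS_le {σ : ℝ} (hσ : 0 ≤ σ) (x : ℝ) : pS p α κ s σ x ≤
    min (spR (1 / (p : ℝ)) (κ (p * x)) (s x)) σ :=
  kept_tr_sp H.w0 H.w1 (H.pα.nonneg _) (H.pκ.nonneg _) (H.s0 x) (H.s1 x) hσ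

/-- the virtual total -/
lemma vtot {σ : ℝ} (x : ℝ) : mS p α κ b s σ x + pS p α κ s σ x =
    (1 - 1 / (p : ℝ)) * min (α (p * x) + κ (p * x)) σ +
      1 / (p : ℝ) * min (min (α (p * x)) σ) (min (b (p * x)) σ) +
      s x * dd (min (α (p * x)) σ) (min (b (p * x)) σ) := by
  unfold mS pS
  rw [kept_sum]
  unfold rV tκ
  ring

lemma PB_ideal : PB fun x => mnR (1 / (p : ℝ)) (α (p * x)) (b (p * x)) (κ (p * x)) (s x) := by
  have hw := H.w0
  have hw1 : 0 ≤ 1 - 1 / (p : ℝ) := by linarith [H.w1]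
  have pA := H.pα.pull p
  have pB' := H.pb.pull p
  have pk := H.pκ.pull p
  exact (((pA.smul hw1).add ((PB_min pA pB').smul hw)).add (H.ps.mul (PB_dd pA pB'))).add
    ((PB_one_sub H.ps H.s1).mul (pk.smul hw1))

lemma PB_idealS : PB fun x => spR (1 / (p : ℝ)) (κ (p * x)) (s x) := by
  have hw1 : 0 ≤ 1 - 1 / (p : ℝ) := by linarith [H.w1]
  exact H.ps.mul ((H.pκ.pull p).smul hw1)

/-- **the row at a scale** -/
theorem tr {σ : ℝ} (hσ : 0 < σ) : TR p σ (fun y => α y + κ y) (fun y => b y + ν y + m y) hm hs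
    (fun y => (1 - 1 / (p : ℝ)) * (α y + κ y) + 1 / (p : ℝ) * min (α y) (b y) + 1 / (p : ℝ) * m y)
    (fun x => s x * dd (α (p * x)) (b (p * x)) + nu x)
    (mkM p α κ b ν m s nu hm hs gm gs lm lS).Wm (mkM p α κ b ν m s nu hm hs gm gs lm lS).Ws
    ((mkM p α κ b ν m s nu hm hs gm gs lm lS).l0 σ)
    ((mkM p α κ b ν m s nu hm hs gm gs lm lS).D σ) := by
  have hw := H.w0
  have hw1 := H.w1
  have hw1' : 0 ≤ 1 - 1 / (p : ℝ) := by linarith
  have hσ0 := hσ.le
  have pA := PB_minc hσ0 H.pα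
  have pB' := PB_minc hσ0 H.pb
  have pk := PB_tκ H.pα H.pκ hσ0
  have pAk := PB_minc hσ0 (H.pα.add H.pκ)
  have pbb := PB_minc hσ0 ((H.pb.add H.pν).add H.pm)
  have ptm := H.PB_tm hσ0
  have pn := H.PB_nS hσ0
  have pm' := H.PB_mS hσ0
  have pp' := H.PB_pS hσ0
  have ptn := PB_tκ H.pb H.pν hσ0
  -- the N content
  have eN : ∀ y, min (b y + ν y + m y) σ = min (b y) σ + tκ (b y) (ν y) σ + tmS b ν m σ y :=
    fun y => by unfold tκ tmS tκ; ring
  have eA : ∀ y, min (α y) σ + tκ (α y) (κ y) σ = min (α y + κ y) σ := fun y => by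
    unfold tκ; ring
  have hkd : ∀ y, dd (min (α y + κ y) σ) (min (b y) σ) ≤ min (b y) σ := fun y =>
    dd_le_B (pAk.nonneg y) (pB'.nonneg y)
  have hdb : ∀ y, dd (min (α y) σ) (min (b y) σ) ≤ min (b y) σ := fun y =>
    dd_le_B (pA.nonneg y) (pB'.nonneg y)
  refine
    { pvm := PB_min pm' H.phm
      pvs := PB_min pp' H.phs
      pgX := H.ps.mul ((PB_dd pAk pB').pull p)
      pbX := ModeS16.PB_sub ((pAk.smul hw1').add (pbb.smul hw)) ((PB_dd pAk pB').smul hw) fun y => ?_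
      pgE := (H.ps.mul (PB_min (pk.pull p) ((PB_dd pA pB').pull p))).add pn
      psg := (H.ps.mul ((PB_dd pA pB').pull p)).add pn
      pbe := ((pAk.smul hw1').add ((PB_min pA pB').smul hw)).add (ptm.smul hw)
      pe := (((ModeS16.PB_sub pm' (PB_min pm' H.phm) fun x => min_le_left _ _).add
        (ModeS16.PB_sub pp' (PB_min pp' H.phs) fun x => min_le_left _ _)).add pn).add
        ((ptm.pull p).smul hw)
      vm_le := fun x => ?_
      vs_le := fun x => ?_
      tot := fun x => ?_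
      mean := fun y => ?_
      be_le := fun y => ?_
      sgc := fun x => ?_
      sg2 := fun x => ?_
      sgX := fun x => ?_
      row := fun y => ?_
      mnX := fun x => ?_
      gE1 := fun x => ?_
      gXc := fun x => ?_
      en := fun h2 y => ?_
      U_le := fun x => ?_ }
  · -- bX ≥ 0
    have h1 := mul_le_mul_of_nonneg_left (hkd y) hw
    have h2 : min (b y) σ ≤ min (b y + ν y + m y) σ :=
      min_le_min_right σ (by linarith [H.pν.nonneg y, H.pm.nonneg y])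
    have h3 := mul_le_mul_of_nonneg_left h2 hw
    have h4 := mul_nonneg hw1' (pAk.nonneg y)
    linarith
  · -- vm
    refine le_min (min_le_right _ _) ((min_le_left _ _).trans ?_)
    exact (H.mS_le x).trans (min_le_right _ _)
  · refine le_min (min_le_right _ _) ((min_le_left _ _).trans ?_)
    exact (H.pS_le hσ0 x).trans (min_le_right _ _)
  · -- tot
    have h := H.vtot (σ := σ) x
    show min (mS p α κ b s σ x) (hm x) + min (pS p α κ s σ x) (hs x) +
      ((mS p α κ b s σ x - min (mS p α κ b s σ x) (hm x)) +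
        (pS p α κ s σ x - min (pS p α κ s σ x) (hs x)) + nS p b ν nu σ x +
        1 / (p : ℝ) * tmS b ν m σ (p * x)) = ((1 - 1 / (p : ℝ)) * min (α (p * x) + κ (p * x)) σ +
        1 / (p : ℝ) * min (min (α (p * x)) σ) (min (b (p * x)) σ) +
        1 / (p : ℝ) * tmS b ν m σ (p * x)) +
        (s x * dd (min (α (p * x)) σ) (min (b (p * x)) σ) + nS p b ν nu σ x)
    linarith
  · -- mean
    show ((1 - 1 / (p : ℝ)) * min (α y + κ y) σ +
        1 / (p : ℝ) * min (min (α y) σ) (min (b y) σ) + 1 / (p : ℝ) * tmS b ν m σ y) +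
      Ep p (fun x => s x * dd (min (α (p * x)) σ) (min (b (p * x)) σ) + nS p b ν nu σ x) y = _
    rw [Ep_add', Ep_lift (H.nS_L hσ0),
      Ep_lift (H.s_L (f := fun y => dd (min (α y) σ) (min (b y) σ)) (PB_dd pA pB')), eN y,
      dd_eq (min (α y) σ)]
    ring
  · -- be_le
    have h1 := mul_le_mul_of_nonneg_left (min_le_left (α y + κ y) σ) hw1'
    have h2 : min (min (α y) σ) (min (b y) σ) ≤ min (α y) (b y) :=
      min_le_min (min_le_left _ _) (min_le_left _ _)
    have h3 := mul_le_mul_of_nonneg_left h2 hw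
    have h4 := mul_le_mul_of_nonneg_left
      (tκ_le (A := b y + ν y) (H.pm.nonneg y) σ) hw
    show (1 - 1 / (p : ℝ)) * min (α y + κ y) σ +
        1 / (p : ℝ) * min (min (α y) σ) (min (b y) σ) + 1 / (p : ℝ) * tκ (b y + ν y) (m y) σ ≤ _
    linarith
  · -- sgc
    have h1 := mul_le_mul_of_nonneg_left (dd_tr (α (p * x)) (b (p * x)) σ) (H.s0 x)
    exact add_le_add h1 (H.nS_le hσ0 x)
  · -- sg2
    have h1 := mul_le_mul (H.s1 x) (hdb (p * x)) (dd_nonneg _ _) zero_le_one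
    have h2 := H.nS_le_tn hσ0 x
    have h3 := H.tb_tn (σ := σ) (p * x)
    have h4 := min_le_right (b (p * x) + ν (p * x)) σ
    show s x * dd (min (α (p * x)) σ) (min (b (p * x)) σ) + nS p b ν nu σ x ≤ 2 * σ
    linarith
  · -- sgX
    have h := kept_lift (A := min (α (p * x)) σ) (B := min (b (p * x)) σ)
      (tκ_nonneg (A := α (p * x)) (H.pκ.nonneg (p * x)) σ)
    rw [eA (p * x)] at h
    show s x * dd (min (α (p * x)) σ) (min (b (p * x)) σ) + nS p b ν nu σ x ≤
      s x * dd (min (α (p * x) + κ (p * x)) σ) (min (b (p * x)) σ) +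
      (s x * min (tκ (α (p * x)) (κ (p * x)) σ)
        (dd (min (α (p * x)) σ) (min (b (p * x)) σ)) + nS p b ν nu σ x)
    have h' := congrArg (fun t => s x * t) h
    simp only [mul_add] at h'
    linarith
  · -- row
    refine ⟨fun i => s ((y + (i : ℕ)) / p), dd (min (α y + κ y) σ) (min (b y) σ),
      fun i => ⟨H.s0 _, H.s1 _⟩, ?_, dd_nonneg _ _, ?_, fun i => ?_⟩
    · have h := H.sL y
      rw [← Finset.mul_sum, ← Finset.sum_range (fun i => s ((y + (i : ℕ)) / p)), h, mul_one]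
    · unfold dd
      refine max_le_max (sub_le_sub_right ?_ _) le_rfl
      exact min_le_min_right σ (by linarith [H.pν.nonneg y, H.pm.nonneg y])
    · show ((1 - 1 / (p : ℝ)) * min (α y + κ y) σ +
        1 / (p : ℝ) * min (b y + ν y + m y) σ) -
        1 / (p : ℝ) * dd (min (α y + κ y) σ) (min (b y) σ) + s ((y + (i : ℕ)) / p) *
        dd (min (α (p * ((y + (i : ℕ)) / p)) + κ (p * ((y + (i : ℕ)) / p))) σ)
          (min (b (p * ((y + (i : ℕ)) / p))) σ) = _
      rw [pull_fibre H.hp H.pα.per y i, pull_fibre H.hp H.pκ.per y i, pull_fibre H.hp H.pb.per y i]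
      ring
  · -- mnX
    have h := kept_dom (w := 1 / (p : ℝ)) (A := min (α (p * x)) σ) (B := min (b (p * x)) σ)
      (κ := tκ (α (p * x)) (κ (p * x)) σ) (s := s x) hw hw1
      (tκ_nonneg (H.pκ.nonneg (p * x)) σ) (H.s0 x) (H.s1 x)
    rw [eA (p * x)] at h
    refine (min_le_left _ _).trans (h.trans ?_)
    have h2 : min (b (p * x)) σ ≤ min (b (p * x) + ν (p * x) + m (p * x)) σ :=
      min_le_min_right σ (by linarith [H.pν.nonneg (p * x), H.pm.nonneg (p * x)])
    have h3 := mul_le_mul_of_nonneg_left h2 hw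
    unfold exR
    show _ ≤ ((1 - 1 / (p : ℝ)) * min (α (p * x) + κ (p * x)) σ +
        1 / (p : ℝ) * min (b (p * x) + ν (p * x) + m (p * x)) σ) -
        1 / (p : ℝ) * dd (min (α (p * x) + κ (p * x)) σ) (min (b (p * x)) σ) + s x *
        dd (min (α (p * x) + κ (p * x)) σ) (min (b (p * x)) σ)
    linarith
  · -- gE1
    have h0 : min (tκ (α (p * x)) (κ (p * x)) σ)
        (dd (min (α (p * x)) σ) (min (b (p * x)) σ)) ≤ min (b (p * x)) σ :=
      (min_le_right _ _).trans (hdb (p * x))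
    have h00 : 0 ≤ min (tκ (α (p * x)) (κ (p * x)) σ)
        (dd (min (α (p * x)) σ) (min (b (p * x)) σ)) := le_min (pk.nonneg _) (dd_nonneg _ _)
    have h1 := mul_le_mul (H.s1 x) h0 h00 zero_le_one
    have h2 := H.nS_le_tn hσ0 x
    have h3 := H.tb_tn (σ := σ) (p * x)
    have h4 := min_le_right (b (p * x) + ν (p * x)) σ
    show s x * min (tκ (α (p * x)) (κ (p * x)) σ)
        (dd (min (α (p * x)) σ) (min (b (p * x)) σ)) + nS p b ν nu σ x ≤ σ
    linarith
  · -- gXc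
    have h1 : dd (min (α (p * x) + κ (p * x)) σ) (min (b (p * x)) σ) ≤
        dd (α (p * x)) (b (p * x)) :=
      (dd_anti (min_le_min_right σ (by linarith [H.pκ.nonneg (p * x)]))).trans
        (dd_tr (α (p * x)) (b (p * x)) σ)
    have h2 := mul_le_mul_of_nonneg_left h1 (H.s0 x)
    have h3 := H.pnu.nonneg x
    show s x * dd (min (α (p * x) + κ (p * x)) σ) (min (b (p * x)) σ) ≤
      s x * dd (α (p * x)) (b (p * x)) + nu x
    linarith
  · -- energy
    have u0 : ∀ _i : Fin p, (0:ℝ) ≤ 1 / (p : ℝ) := fun _ => hw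
    have hp' : (p : ℝ) ≠ 0 := by exact_mod_cast H.hp.ne'
    have u1 : ∑ _i : Fin p, 1 / (p : ℝ) = 1 := by
      rw [Finset.sum_const, Finset.card_univ, Fintype.card_fin, nsmul_eq_mul]
      field_simp
    have hsu : ∑ i : Fin p, 1 / (p : ℝ) * s ((y + (i : ℕ)) / p) = 1 / (p : ℝ) := by
      have h := H.sL y
      rw [← Finset.mul_sum, ← Finset.sum_range (fun i => s ((y + (i : ℕ)) / p)), h, mul_one]
    have hw2 : 1 / (p : ℝ) ≤ 1 / 2 := by
      have : (2 : ℝ) ≤ p := by exact_mod_cast h2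
      exact one_div_le_one_div_of_le (by norm_num) this
    have hK := pk.nonneg y
    have key := kept_en (u := fun _ : Fin p => 1 / (p : ℝ)) (s := fun i => s ((y + (i : ℕ)) / p))
      (w := 1 / (p : ℝ)) (A := min (α y) σ) (B := min (b y) σ) (κ := tκ (α y) (κ y) σ) u0 u1
      (fun i => ⟨H.s0 _, H.s1 _⟩) hsu hw hw2 (pA.nonneg y) (pB'.nonneg y) hK
    rw [eA y] at key
    have tn0 := ptn.nonneg y
    -- the lifts of `ν`
    have hn : ∑ i : Fin p, 1 / (p : ℝ) * th (nS p b ν nu σ ((y + (i : ℕ)) / p)) ≤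
        1 / (p : ℝ) * th (tκ (b y) (ν y) σ) := by
      rw [← Finset.mul_sum]
      refine mul_le_mul_of_nonneg_left ?_ hw
      have h := H.nS_L hσ0 y
      rw [Finset.sum_range (fun i => nS p b ν nu σ ((y + (i : ℕ)) / p))] at h
      have h3 : ∀ i : Fin p, th (nS p b ν nu σ ((y + (i : ℕ)) / p)) ≤
          nS p b ν nu σ ((y + (i : ℕ)) / p) * Real.sqrt (tκ (b y) (ν y) σ) := fun i => by
        have h4 : nS p b ν nu σ ((y + (i : ℕ)) / p) ≤ tκ (b y) (ν y) σ := by
          have h5 := H.nS_le_tn hσ0 ((y + (i : ℕ)) / p)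
          rwa [pull_fibre H.hp H.pb.per y i, pull_fibre H.hp H.pν.per y i] at h5
        exact mul_le_mul_of_nonneg_left (Real.sqrt_le_sqrt h4) (pn.nonneg _)
      refine (Finset.sum_le_sum fun i _ => h3 i).trans (le_of_eq ?_)
      rw [← Finset.sum_mul, h]
      rfl
    have hb : th (min (b y) σ) + th (tκ (b y) (ν y) σ) ≤ th (min (b y + ν y + m y) σ) := by
      have t1 := th_super (pB'.nonneg y) tn0
      have t2 := th_mono (x := min (b y) σ + tκ (b y) (ν y) σ) (y := min (b y + ν y + m y) σ)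
        (add_nonneg (pB'.nonneg y) tn0) (by rw [eN y]; linarith [ptm.nonneg y])
      exact t1.trans t2
    have hb' := mul_le_mul_of_nonneg_left hb hw
    have hterm : ∀ i : Fin p, 1 / (p : ℝ) * (th (min (mS p α κ b s σ ((y + (i : ℕ)) / p))
        (hm ((y + (i : ℕ)) / p))) + 5 / 4 * th (min (pS p α κ s σ ((y + (i : ℕ)) / p))
        (hs ((y + (i : ℕ)) / p))) + 1 / 48 * th (s ((y + (i : ℕ)) / p) *
          min (tκ (α (p * ((y + (i : ℕ)) / p))) (κ (p * ((y + (i : ℕ)) / p))) σ)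
        (dd (min (α (p * ((y + (i : ℕ)) / p))) σ) (min (b (p * ((y + (i : ℕ)) / p))) σ)) +
          nS p b ν nu σ ((y + (i : ℕ)) / p))) ≤
        1 / (p : ℝ) * (th (mnR (1 / (p : ℝ)) (min (α y) σ) (min (b y) σ) (tκ (α y) (κ y) σ)
          (s ((y + (i : ℕ)) / p))) +
          5 / 4 * th (spR (1 / (p : ℝ)) (tκ (α y) (κ y) σ) (s ((y + (i : ℕ)) / p))) +
          1 / 12 * th (s ((y + (i : ℕ)) / p) * min (tκ (α y) (κ y) σ)
            (dd (min (α y) σ) (min (b y) σ)))) +
        1 / 32 * (1 / (p : ℝ) * th (nS p b ν nu σ ((y + (i : ℕ)) / p))) := by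
      intro i
      have e1 : mS p α κ b s σ ((y + (i : ℕ)) / p) = mnR (1 / (p : ℝ)) (min (α y) σ)
          (min (b y) σ) (tκ (α y) (κ y) σ) (s ((y + (i : ℕ)) / p)) := by
        unfold mS
        rw [pull_fibre H.hp H.pα.per y i, pull_fibre H.hp H.pκ.per y i,
          pull_fibre H.hp H.pb.per y i]
      have e2 : pS p α κ s σ ((y + (i : ℕ)) / p) = spR (1 / (p : ℝ)) (tκ (α y) (κ y) σ)
          (s ((y + (i : ℕ)) / p)) := by
        unfold pS
        rw [pull_fibre H.hp H.pα.per y i, pull_fibre H.hp H.pκ.per y i]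
      rw [pull_fibre H.hp H.pα.per y i, pull_fibre H.hp H.pκ.per y i,
          pull_fibre H.hp H.pb.per y i, e1, e2]
      have a1 := th_mono (y := mnR (1 / (p : ℝ)) (min (α y) σ)
          (min (b y) σ) (tκ (α y) (κ y) σ) (s ((y + (i : ℕ)) / p)))
        (le_min (by rw [← e1]; exact pm'.nonneg _) (H.phm.nonneg ((y + (i : ℕ)) / p)))
        (min_le_left _ _)
      have a2 := th_mono (y := spR (1 / (p : ℝ)) (tκ (α y) (κ y) σ)
          (s ((y + (i : ℕ)) / p)))
        (le_min (by rw [← e2]; exact pp'.nonneg _) (H.phs.nonneg ((y + (i : ℕ)) / p)))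
        (min_le_left _ _)
      have a0 : 0 ≤ s ((y + (i : ℕ)) / p) * min (tκ (α y) (κ y) σ)
            (dd (min (α y) σ) (min (b y) σ)) := mul_nonneg (H.s0 _) (le_min hK (dd_nonneg _ _))
      have a3 := th_add2 a0 (pn.nonneg ((y + (i : ℕ)) / p))
      have a4 := th_nonneg a0
      have a5 : th (min (mnR (1 / (p : ℝ)) (min (α y) σ) (min (b y) σ) (tκ (α y) (κ y) σ)
          (s ((y + (i : ℕ)) / p))) (hm ((y + (i : ℕ)) / p))) +
          5 / 4 * th (min (spR (1 / (p : ℝ)) (tκ (α y) (κ y) σ) (s ((y + (i : ℕ)) / p)))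
            (hs ((y + (i : ℕ)) / p))) + 1 / 48 * th (s ((y + (i : ℕ)) / p) *
            min (tκ (α y) (κ y) σ) (dd (min (α y) σ) (min (b y) σ)) +
            nS p b ν nu σ ((y + (i : ℕ)) / p)) ≤
          (th (mnR (1 / (p : ℝ)) (min (α y) σ) (min (b y) σ) (tκ (α y) (κ y) σ)
          (s ((y + (i : ℕ)) / p))) +
          5 / 4 * th (spR (1 / (p : ℝ)) (tκ (α y) (κ y) σ) (s ((y + (i : ℕ)) / p))) +
          1 / 12 * th (s ((y + (i : ℕ)) / p) * min (tκ (α y) (κ y) σ)
            (dd (min (α y) σ) (min (b y) σ)))) +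
          1 / 32 * th (nS p b ν nu σ ((y + (i : ℕ)) / p)) := by linarith
      have a6 := mul_le_mul_of_nonneg_left a5 hw
      refine a6.trans (le_of_eq ?_)
      ring
    refine (Finset.sum_le_sum fun i _ => hterm i).trans ?_
    rw [Finset.sum_add_distrib, ← Finset.mul_sum (f := fun i : Fin p =>
      1 / (p : ℝ) * th (nS p b ν nu σ ((y + (i : ℕ)) / p)))]
    have hn0 : 0 ≤ 1 / (p : ℝ) * th (tκ (b y) (ν y) σ) := mul_nonneg hw (th_nonneg tn0)
    linarith
  · -- U_le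
    have h1 := H.mS_le (σ := σ) x
    have h2 := H.pS_le hσ0 x
    have h3 := H.vtot (σ := σ) x
    have h4 : nS p b ν nu σ x ≤ min (nu x) σ :=
      le_min (H.nS_le hσ0 x) ((H.nS_le_tn hσ0 x).trans (by
        have := H.tb_tn (σ := σ) (p * x)
        have := min_le_right (b (p * x) + ν (p * x)) σ
        have := pB'.nonneg (p * x)
        linarith))
    have h5 : 1 / (p : ℝ) * tmS b ν m σ (p * x) ≤ min (1 / (p : ℝ) * m (p * x)) σ := by
      refine le_min (mul_le_mul_of_nonneg_left (tκ_le (H.pm.nonneg _) σ) hw) ?_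
      have a1 : tmS b ν m σ (p * x) ≤ σ := by
        have := eN (p * x)
        have := min_le_right (b (p * x) + ν (p * x) + m (p * x)) σ
        have := pB'.nonneg (p * x)
        have := ptn.nonneg (p * x)
        linarith
      have a2 := mul_le_mul hw1 a1 (ptm.nonneg (p * x)) zero_le_one
      linarith
    show ((1 - 1 / (p : ℝ)) * min (α (p * x) + κ (p * x)) σ +
        1 / (p : ℝ) * min (min (α (p * x)) σ) (min (b (p * x)) σ) +
        1 / (p : ℝ) * tmS b ν m σ (p * x)) +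
        (s x * dd (min (α (p * x)) σ) (min (b (p * x)) σ) + nS p b ν nu σ x) ≤
      min (mnR (1 / (p : ℝ)) (α (p * x)) (b (p * x)) (κ (p * x)) (s x) + nu x +
        1 / (p : ℝ) * m (p * x)) σ + min (spR (1 / (p : ℝ)) (κ (p * x)) (s x)) σ +
      (min (mnR (1 / (p : ℝ)) (α (p * x)) (b (p * x)) (κ (p * x)) (s x)) σ +
        min (nu x) σ + min (1 / (p : ℝ) * m (p * x)) σ -
        min (mnR (1 / (p : ℝ)) (α (p * x)) (b (p * x)) (κ (p * x)) (s x) + nu x +
          1 / (p : ℝ) * m (p * x)) σ)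
    linarith

/-- **the marked typed row** -/
theorem rowM : TRow p (fun y => α y + κ y) (fun y => b y + ν y + m y) hm hs
    (fun y => (1 - 1 / (p : ℝ)) * (α y + κ y) + 1 / (p : ℝ) * min (α y) (b y) + 1 / (p : ℝ) * m y)
    (fun x => s x * dd (α (p * x)) (b (p * x)) + nu x)
    (mkM p α κ b ν m s nu hm hs gm gs lm lS) := by
  have hw := H.w0
  have hw1 := H.w1
  have hw1' : 0 ≤ 1 - 1 / (p : ℝ) := by linarith
  have pI := H.PB_ideal
  have pm' := (H.pm.pull p).smul hw
  refine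
    { pWm := (pI.add H.pnu).add pm'
      pWs := H.PB_idealS
      pgm := H.pgm
      pgs := H.pgs
      plm := H.plm
      plS := H.plS
      pj0 := (((pI.mul H.pnu).add (pI.mul pm')).add (H.pnu.mul pm')).smul (by norm_num)
      per := ((H.plm.add H.plS).add H.pnu).add pm'
      phm := H.phm
      phs := H.phs
      pbt := (((H.pα.add H.pκ).smul hw1').add ((PB_min H.pα H.pb).smul hw)).add (H.pm.smul hw)
      pgc := (H.ps.mul ((PB_dd H.pα H.pb).pull p)).add H.pnu
      W_eq := fun x => ?_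
      hm_eq := H.hm_eq
      hs_eq := H.hs_eq
      tr := fun hσ => H.tr hσ
      l0n := fun {σ} hσ x => ?_
      l0J := fun n x => ?_
      e_le := fun {σ} hσ x => ?_ }
  · have h := kept_sum (1 / (p : ℝ)) (α (p * x)) (b (p * x)) (κ (p * x)) (s x)
    show mnR (1 / (p : ℝ)) (α (p * x)) (b (p * x)) (κ (p * x)) (s x) + nu x +
      1 / (p : ℝ) * m (p * x) + spR (1 / (p : ℝ)) (κ (p * x)) (s x) = _
    unfold rV at h
    linarith
  · show 0 ≤ min (mnR (1 / (p : ℝ)) (α (p * x)) (b (p * x)) (κ (p * x)) (s x)) σ +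
      min (nu x) σ + min (1 / (p : ℝ) * m (p * x)) σ -
      min (mnR (1 / (p : ℝ)) (α (p * x)) (b (p * x)) (κ (p * x)) (s x) + nu x +
      1 / (p : ℝ) * m (p * x)) σ
    rw [tl3]
    exact add_nonneg (tl_nonneg hσ.le (pI.nonneg x) (H.pnu.nonneg x))
      (tl_nonneg hσ.le (add_nonneg (pI.nonneg x) (H.pnu.nonneg x)) (pm'.nonneg x))
  · exact dy3 (pI.nonneg x) (H.pnu.nonneg x) (pm'.nonneg x) n
  · have h1 : mS p α κ b s σ x - min (mS p α κ b s σ x) (hm x) ≤ lm x := by
      have a1 := (H.mS_le (σ := σ) x).trans (min_le_left _ _)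
      have a2 := H.hm_eq x
      have a3 := H.pgm.nonneg x
      have a4 := H.pnu.nonneg x
      have a5 := pm'.nonneg x
      have a6 := H.plm.nonneg x
      rcases le_total (mS p α κ b s σ x) (hm x) with h | h
      · rw [min_eq_left h]; linarith
      · rw [min_eq_right h]; linarith
    have h2 : pS p α κ s σ x - min (pS p α κ s σ x) (hs x) ≤ lS x := by
      have a1 := (H.pS_le hσ.le x).trans (min_le_left _ _)
      have a2 := H.hs_eq x
      have a3 := H.pgs.nonneg x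
      have a6 := H.plS.nonneg x
      rcases le_total (pS p α κ s σ x) (hs x) with h | h
      · rw [min_eq_left h]; linarith
      · rw [min_eq_right h]; linarith
    have h3 := H.nS_le hσ.le x
    have h4 := mul_le_mul_of_nonneg_left
      (tκ_le (A := b (p * x) + ν (p * x)) (H.pm.nonneg (p * x)) σ) hw
    show (mS p α κ b s σ x - min (mS p α κ b s σ x) (hm x)) +
        (pS p α κ s σ x - min (pS p α κ s σ x) (hs x)) + nS p b ν nu σ x +
        1 / (p : ℝ) * tκ (b (p * x) + ν (p * x)) (m (p * x)) σ ≤ lm x + lS x + nu x +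
      1 / (p : ℝ) * m (p * x)
    linarith

end HM
end M

end Crest.Agent.R4P.TyS16
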