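import Crest.Agent.R4P.PrE_45
import Crest.Agent.R4P.JnH_5
import Crest.Agent.R4P.TyM_16

/-!
R4 (S0004) with powers, T3, helper45: **the pairs of items of decorated trees** as an instance of
`PrE45.QP`.

* **`row_vF`**, **`row_K`** : `Ep (v_i v_j) ≤ (1-w) P_i P_j + w N_i N_j + w (A_i B_j + B_i A_j)` for
  the contents of a bundle of ties and pulls (`jv`), `A, B` = P and N content of the tie;
* `LB.qp` : the instance over list bundles;
* `pn K t` : P against N energy of a tree (kernel `K q` of pieces at a tie of the column `q`), `PNs` of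
  a bundle; `pn_sv` : value of the charges of the P against N pairs;
* **`crn_sv`** : the value `Vc = Psi / 2 + PNs` of the creation (kernels of pieces), at one tree
  `leU + dC + pn`.
-/

set_option autoImplicit false
set_option linter.unusedSectionVars false
set_option linter.unusedVariables false
open MeasureTheory Filter Set

namespace Crest.Agent.R4P.PrD45

open Crest.Agent.R4.Tour104 Crest.Agent.R4.Tour758 Crest.Agent.R4.Avg758 Crest.Agent.R4.Clos758
open Crest.Agent.R4.ClosL758 Crest.Agent.R4.ClosG758 Crest.Agent.R4.ClosR758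
open Crest.Agent.R4P.ClosR442 Crest.Agent.R4P.Grp36
open Crest.Agent.R4P.Xfer36 Crest.Agent.R4P.TopC36 Crest.Agent.R4P.PN36
open Crest.Agent.R4P.GMer27 Crest.Agent.R4P.GCol27 Crest.Agent.R4P.GWa343 Crest.Agent.R4P.GWb343
open Crest.Agent.R4P.GWc343 Crest.Agent.R4P.GWd343 Crest.Agent.R4P.GWe343 Crest.Agent.R4P.GWf343
open Crest.Agent.R4P.MSd343 Crest.Agent.R4P.Bp407 Crest.Agent.R4P.VR407
open Crest.Agent.R4P.DTp26 (jv jv_nil jv_cons jv_append PB_jv sum_jv)
open Crest.Agent.R4P.Pay45 Crest.Agent.R4P.PayR45 Crest.Agent.R4P.PVd45 Crest.Agent.R4P.PVe45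
open Crest.Agent.R4P.PrE45 Crest.Agent.R4P.JnE5
open Crest.Agent.R4P.JnF5 (SV)
open Crest.Agent.R4P.GSK55 (Pr)
open Crest.Agent.R4P.LogL51 (isLf)
open Crest.Agent.R4P.Walk560 (DT)

/-! ### the row of a pair -/

section row
variable {Λ κ : Type} [Fintype Λ] [DecidableEq Λ] [Fintype κ] [DecidableEq κ]

omit [Fintype Λ] [DecidableEq Λ] [Fintype κ] [DecidableEq κ] in
lemma Ep_smul' {p : ℕ} (c : ℝ) (f : ℝ → ℝ) (y : ℝ) : Ep p (fun x => c * f x) y = c * Ep p f y := by
  unfold Ep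
  rw [← Finset.mul_sum, mul_div_assoc]

/-- the factor of the P content -/
noncomputable def qf (p : ℕ) (kd : Λ → κ) (a b g : Λ → ℝ → ℝ) (c : κ) (x : ℝ) : ℝ :=
  (1 - 1 / (p : ℝ)) + 1 / (p : ℝ) * alf (sm kd a c (p * x)) (sm kd b c (p * x)) -
    bef (sm kd a c (p * x)) (sm kd b c (p * x)) / sm kd a c (p * x) * sm kd g c x

lemma vF_eq (p : ℕ) (kd : Λ → κ) (a b g : Λ → ℝ → ℝ) (j : Λ) (x : ℝ) :
    vF p kd a b g j x = qf p kd a b g (kd j) x * a j (p * x) + g j x := by
  unfold vF qf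
  ring

/-- fine data of a tie -/
structure TD (p : ℕ) (a b g : Λ → ℝ → ℝ) : Prop where
  hp : 0 < p
  pa : ∀ j, PB (a j)
  pb : ∀ j, PB (b j)
  pg : ∀ j, PB (g j)
  lg : ∀ j, Lift p (b j) (g j)

variable {p : ℕ} {kd : Λ → κ} {a b g : Λ → ℝ → ℝ} (H : TD p a b g)
include H

lemma TD.w0 : (0:ℝ) ≤ 1 / p ∧ (0:ℝ) ≤ 1 - 1 / p := w_facts H.hp.ne'

lemma TD.sa (kd : Λ → κ) (c : κ) : PB (sm kd a c) := PB.sum _ fun j _ => H.pa j
lemma TD.sb (kd : Λ → κ) (c : κ) : PB (sm kd b c) := PB.sum _ fun j _ => H.pb j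
lemma TD.sg (kd : Λ → κ) (c : κ) : PB (sm kd g c) := PB.sum _ fun j _ => H.pg j
lemma TD.sl (kd : Λ → κ) (c : κ) : Lift p (sm kd b c) (sm kd g c) := lift_sum _ fun j _ => H.lg j

lemma TD.g_le (j : Λ) (x : ℝ) : g j x ≤ b j (p * x) :=
  TyS16.lift_le H.hp (H.pg j) (H.lg j) x

lemma TD.qf01 (kd : Λ → κ) (c : κ) (x : ℝ) :
    0 ≤ qf p kd a b g c x ∧ qf p kd a b g c x ≤ 1 := by
  obtain ⟨w0, w1⟩ := H.w0
  have A0 := (H.sa kd c).nonneg (p * x)
  have B0 := (H.sb kd c).nonneg (p * x)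
  have g0 := (H.sg kd c).nonneg x
  have gl := TyS16.lift_le H.hp (H.sg kd c) (H.sl kd c) x
  set A := sm kd a c (p * x) with eA
  set B := sm kd b c (p * x) with eB
  have h1 : 0 ≤ bef A B / A := div_nonneg (bef_nonneg A0 B0) A0
  have h2 : bef A B / A * sm kd g c x ≤ alf A B := by
    have h3 : bef A B / A * sm kd g c x ≤ bef A B / A * B := mul_le_mul_of_nonneg_left gl h1
    have h4 : bef A B / A * B = alf A B := by
      rw [div_mul_eq_mul_div, bef_mul A0 B0]
      rfl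
    linarith
  have h5 : 0 ≤ bef A B / A * sm kd g c x := mul_nonneg h1 g0
  have h6 := alf_le_one (B := B) A0
  have h7 := alf_nonneg A0 B0
  have h8 : 0 ≤ (1 - 1 / (p : ℝ)) * (1 - alf A B) := mul_nonneg w1 (by linarith)
  have h9 : 1 / (p : ℝ) * alf A B ≤ 1 / (p : ℝ) := by
    calc 1 / (p : ℝ) * alf A B ≤ 1 / (p : ℝ) * 1 := mul_le_mul_of_nonneg_left h6 w0
      _ = 1 / (p : ℝ) := mul_one _
  unfold qf
  constructor
  · nlinarith
  · linarith

lemma TD.pt {y : ℝ} {f : ℝ → ℝ} (hf : PB f) (l : ℕ) : f (p * ((y + (l : ℕ)) / p)) = f y := by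
  have hp' : (p : ℝ) ≠ 0 := by exact_mod_cast H.hp.ne'
  have e : (p : ℝ) * ((y + (l : ℕ)) / p) = y + (l : ℕ) := by field_simp
  rw [e, hf.per_nat]

lemma TD.Ep_qf (kd : Λ → κ) (c : κ) (y : ℝ) : Ep p (qf p kd a b g c) y = 1 - 1 / (p : ℝ) := by
  have hp' : (p : ℝ) ≠ 0 := by exact_mod_cast H.hp.ne'
  have A0 := (H.sa kd c).nonneg y
  have B0 := (H.sb kd c).nonneg y
  have e1 : Ep p (qf p kd a b g c) y = Ep p (fun x => ((1 - 1 / (p : ℝ)) +
      1 / (p : ℝ) * alf (sm kd a c y) (sm kd b c y)) +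
      (-(bef (sm kd a c y) (sm kd b c y) / sm kd a c y)) * sm kd g c x) y := by
    unfold Ep
    congr 1
    refine Finset.sum_congr rfl fun l _ => ?_
    show qf p kd a b g c ((y + (l : ℕ)) / p) = _
    unfold qf
    rw [H.pt (H.sa kd c), H.pt (H.sb kd c)]
    ring
  have e2 : ∀ k : ℝ, Ep p (fun _ => k) y = k := by
    intro k
    unfold Ep
    rw [Finset.sum_const, Finset.card_range, nsmul_eq_mul]
    field_simp
  have e3 : bef (sm kd a c y) (sm kd b c y) / sm kd a c y * (1 / (p : ℝ) * sm kd b c y) =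
      1 / (p : ℝ) * alf (sm kd a c y) (sm kd b c y) := by
    have h4 : bef (sm kd a c y) (sm kd b c y) / sm kd a c y * sm kd b c y =
        alf (sm kd a c y) (sm kd b c y) := by
      rw [div_mul_eq_mul_div, bef_mul A0 B0]
      rfl
    rw [← h4]
    ring
  rw [e1, TyS16.Ep_add', e2, Ep_smul', TyS16.Ep_lift (H.sl kd c)]
  linarith

/-- mean of the content of an item -/
lemma TD.Ep_v (kd : Λ → κ) (j : Λ) (y : ℝ) : Ep p (vF p kd a b g j) y =
    (1 - 1 / (p : ℝ)) * a j y + 1 / (p : ℝ) * b j y := by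
  have e1 : Ep p (vF p kd a b g j) y = Ep p (fun x => a j y * qf p kd a b g (kd j) x + g j x) y := by
    unfold Ep
    congr 1
    refine Finset.sum_congr rfl fun l _ => ?_
    rw [vF_eq, H.pt (H.pa j)]
    ring
  rw [e1, TyS16.Ep_add', Ep_smul', H.Ep_qf, TyS16.Ep_lift (H.lg j)]
  ring

/-- **the row of a pair, at a tie** -/
theorem row_vF (kd : Λ → κ) (i j : Λ) (y : ℝ) :
    Ep p (fun x => vF p kd a b g i x * vF p kd a b g j x) y ≤
      (1 - 1 / (p : ℝ)) * (a i y * a j y) + 1 / (p : ℝ) * (b i y * b j y) +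
        1 / (p : ℝ) * (a i y * b j y + b i y * a j y) := by
  have hp' : (0 : ℝ) < p := by exact_mod_cast H.hp
  have ai := (H.pa i).nonneg y
  have aj := (H.pa j).nonneg y
  have bi := (H.pb i).nonneg y
  have e0 : Ep p (fun x => a i y * a j y * qf p kd a b g (kd i) x + (a i y * g j x +
      (a j y * g i x + b i y * g j x))) y =
      (1 - 1 / (p : ℝ)) * (a i y * a j y) + 1 / (p : ℝ) * (b i y * b j y) +
        1 / (p : ℝ) * (a i y * b j y + b i y * a j y) := by
    rw [TyS16.Ep_add', TyS16.Ep_add', TyS16.Ep_add', Ep_smul', Ep_smul', Ep_smul', Ep_smul',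
      H.Ep_qf, TyS16.Ep_lift (H.lg j), TyS16.Ep_lift (H.lg i)]
    ring
  rw [← e0]
  unfold Ep
  refine div_le_div_of_nonneg_right (Finset.sum_le_sum fun l _ => ?_) hp'.le
  set x : ℝ := (y + (l : ℕ)) / p with hx
  have ei : a i (p * x) = a i y := H.pt (H.pa i) l
  have ej : a j (p * x) = a j y := H.pt (H.pa j) l
  have eb : b i (p * x) = b i y := H.pt (H.pb i) l
  have qi := H.qf01 kd (kd i) x
  have qj := H.qf01 kd (kd j) x
  have gi := (H.pg i).nonneg x
  have gj := (H.pg j).nonneg x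
  have gli := H.g_le i x
  rw [eb] at gli
  show vF p kd a b g i x * vF p kd a b g j x ≤ a i y * a j y * qf p kd a b g (kd i) x +
    (a i y * g j x + (a j y * g i x + b i y * g j x))
  rw [vF_eq, vF_eq, ei, ej]
  set q := qf p kd a b g (kd i) x
  set q' := qf p kd a b g (kd j) x
  have m1 : q * q' * (a i y * a j y) ≤ q * (a i y * a j y) := by
    have : q * q' ≤ q := by nlinarith [qi.1, qj.2]
    exact mul_le_mul_of_nonneg_right this (mul_nonneg ai aj)
  have m2 : q * (a i y * g j x) ≤ 1 * (a i y * g j x) :=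
    mul_le_mul_of_nonneg_right qi.2 (mul_nonneg ai gj)
  have m3 : q' * (a j y * g i x) ≤ 1 * (a j y * g i x) :=
    mul_le_mul_of_nonneg_right qj.2 (mul_nonneg aj gi)
  have m4 : g i x * g j x ≤ b i y * g j x := mul_le_mul_of_nonneg_right gli gj
  have e : (q * a i y + g i x) * (q' * a j y + g j x) = q * q' * (a i y * a j y) +
    q * (a i y * g j x) + q' * (a j y * g i x) + g i x * g j x := by ring
  rw [e]
  linarith

end row

section bun
variable {Λ κ : Type} [Fintype Λ] [DecidableEq Λ] [Fintype κ] [DecidableEq κ]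
  {p : ℕ} {kd : Λ → κ} {K : List (DT Λ κ)}

lemma td (h : KOk kd p K) (hp : 0 < p) : TD p (pA K) (pB K) (pG K) :=
  ⟨hp, h.PA, h.PBb, PB_pG K, lift_pG h⟩

/-- **the row of a pair** of a bundle of ties and pulls -/
theorem row_K (h : KOk kd p K) (hp : 0 < p) (i j : Λ) (y : ℝ) :
    Ep p (fun x => jv K i x * jv K j x) y ≤
      (1 - 1 / (p : ℝ)) * (jv (K.map chP) i y * jv (K.map chP) j y) +
      1 / (p : ℝ) * (jv (K.map chN) i y * jv (K.map chN) j y) +
      1 / (p : ℝ) * (pA K i y * pB K j y + pB K i y * pA K j y) := by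
  have H := td h hp
  have hQ : ∀ j, PB (pQ K j) := h.PQ
  set v := vF p kd (pA K) (pB K) (pG K) with hv
  have e1 : Ep p (fun x => jv K i x * jv K j x) y = Ep p (fun x => v i x * v j x +
      (pQ K i y * v j x + (pQ K j y * v i x + pQ K i y * pQ K j y * 1))) y := by
    unfold Ep
    congr 1
    refine Finset.sum_congr rfl fun l _ => ?_
    show jv K i ((y + (l : ℕ)) / p) * jv K j ((y + (l : ℕ)) / p) = _
    rw [(jv_K h i _).1, (jv_K h j _).1, H.pt (hQ i), H.pt (hQ j)]
    ring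
  have e2 : Ep p (fun _ => (1:ℝ)) y = 1 := by
    have hp' : (p : ℝ) ≠ 0 := by exact_mod_cast hp.ne'
    unfold Ep
    rw [Finset.sum_const, Finset.card_range, nsmul_eq_mul]
    field_simp
  have h1 := row_vF H kd i j y
  rw [e1, TyS16.Ep_add', TyS16.Ep_add', TyS16.Ep_add', Ep_smul', Ep_smul', Ep_smul', e2,
    H.Ep_v, H.Ep_v, jv_chP h, jv_chP h, jv_chN h, jv_chN h]
  linarith

end bun

/-! ### bundles over lists -/

section lst
variable {Λ κ : Type} [Fintype Λ] [DecidableEq Λ] [Fintype κ] [DecidableEq κ] {β : Type}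
  {B : BM β} {lst : β → List (DT Λ κ)} {Inv : ℕ → List (DT Λ κ) → Prop} {kd : ℕ → Λ → κ}

/-- **pairs of items over list bundles** -/
noncomputable def LB.qp (L : LB B lst Inv) (H : DI Inv)
    (hK : ∀ {p b}, B.ok p b → p ≠ 0 → KOk (kd p) p (bB p (lst b))) : QP (L.pv H) where
  vL := fun p b => jv (bL p (lst b))
  tA := fun p b => pA (bB p (lst b))
  tB := fun p b => pB (bB p (lst b))
  pvL := fun {p b} hb _ j => PB_jv ((H.pb (L.inv hb)).bL p).self j
  ptA := fun hb hp j => (hK hb hp).PA j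
  ptB := fun hb hp j => (hK hb hp).PBb j
  split := fun {p b} hb hp j x => by
    have h1 := jv_split3 p (lst b) j x
    have h2 := L.R hb hp
    show jv (lst b) j x ≤ jv (bL p (lst b)) j x + jv (bB p (lst b)) j x + jv (lst (B.rN p b)) j x
    rw [h2]
    exact h1.le
  row := fun {p b} hb hp i j y => by
    have hp0 : p ≠ 0 := by omega
    have h1 := L.P hb hp0
    have h2 := L.N hb hp0
    have h3 := row_K (hK hb hp0) (Nat.pos_of_ne_zero hp0) i j y
    rw [← h1, ← h2] at h3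
    exact h3
  no1 := fun {b} hb j x => by
    show jv (bB 1 (lst b)) j x = 0
    rw [H.no1 (L.inv hb)]
    rfl
  no1N := fun {b} hb j x => by
    show jv (lst (B.cN 1 b)) j x = 0
    rw [L.N hb one_ne_zero, H.no1 (L.inv hb)]
    rfl

/-- the projection to lists -/
lemma LB.Pr (L : LB B lst Inv) (H : DI Inv) : GSK55.Pr B lst where
  eP := L.P
  eN := L.N
  eR := L.R
  okP := L.okP
  okN := L.okN
  okR := L.okR
  wok := fun hb hp => H.wok (L.inv hb) hp
  no1 := fun hb => H.no1 (L.inv hb)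

end lst

/-! ### the value of the creation -/

section val
variable {Λ κ : Type} [Fintype Λ] [DecidableEq Λ] [Fintype κ] [DecidableEq κ] (K' : ℕ → Λ → Λ → ℝ)

/-- **P against N energy** of a tree (kernel of pieces at the column of the tie) -/
noncomputable def pn : DT Λ κ → ℝ
  | .leaf _ _ => 0
  | .br q w _ t₁ t₀ _ _ _ => (1 - w) * pn t₁ + w * pn t₀ + w * (2 * bil (K' q) t₁.g.val t₀.g.val)
  | .add _ _ t₁ t₀ => pn t₁ + pn t₀
  | .up _ _ t => pn t

/-- P against N energy of a bundle -/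
noncomputable def PNs (L : List (DT Λ κ)) : ℝ := (L.map (pn K')).sum

variable {K'}

lemma PNs_nil : PNs K' ([] : List (DT Λ κ)) = 0 := rfl

lemma PNs_cons (t : DT Λ κ) (L : List (DT Λ κ)) : PNs K' (t :: L) = pn K' t + PNs K' L := by
  simp [PNs]

lemma PNs_append (L K : List (DT Λ κ)) : PNs K' (L ++ K) = PNs K' L + PNs K' K := by
  simp [PNs]

lemma PNs_rs (p : ℕ) (t : DT Λ κ) : PNs K' (rs p t) = pn K' t := by
  induction t with
  | leaf r f => simp [rs, PNs]
  | br q w r t₁ t₀ v B G => simp [rs, PNs]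
  | add q r t₁ t₀ ih₁ ih₀ =>
    unfold rs
    split_ifs with h
    · rw [PNs_append, ih₁, ih₀]
      rfl
    · simp [PNs]
  | up q Sp t ih =>
    unfold rs
    split_ifs with h
    · exact ih
    · simp [PNs]

lemma PNs_flat (p : ℕ) (L : List (DT Λ κ)) : PNs K' (L.flatMap (rs p)) = PNs K' L := by
  induction L with
  | nil => rfl
  | cons t L ih => rw [List.flatMap_cons, PNs_append, ih, PNs_cons, PNs_rs]

/-- a resolved bundle -/
lemma PNs_split (p : ℕ) (L : List (DT Λ κ)) :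
    PNs K' L = PNs K' (bB p L) + PNs K' (bN p L) := by
  rw [← PNs_flat p L]
  unfold PNs
  rw [sum_filter_map (fun t => isB p t) (pn K')]
  have e1 : (L.flatMap (rs p)).filter (fun t => isB p t) = bB p L := rfl
  have e2 : (L.flatMap (rs p)).filter (fun t => !isB p t) = bR p L := rfl
  rw [e1, e2, sum_filter_map (fun t => isLf t) (pn K') (bR p L)]
  have e3 : (bR p L).filter (fun t => isLf t) = bL p L := rfl
  have e4 : (bR p L).filter (fun t => !isLf t) = bN p L := rfl
  rw [e3, e4]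
  have e5 : ((bL p L).map (pn K')).sum = 0 := by
    refine List.sum_eq_zero fun y hy => ?_
    obtain ⟨t, ht, rfl⟩ := List.mem_map.1 hy
    obtain ⟨r, f, rfl⟩ := isLf_eq (List.mem_filter.1 ht).2
    rfl
  rw [e5]
  ring

variable {p : ℕ} {kd : Λ → κ} {K : List (DT Λ κ)}

lemma bil_z1 {κ' : Λ → Λ → ℝ} {g : Λ → ℝ → ℝ} : bil κ' (fun _ _ => 0) g = 0 := bil_zero_left

/-- a node of a bundle -/
lemma pn_node (h : KOk kd p K) (hp : 0 < p) {t : DT Λ κ} (ht : t ∈ K) :
    pn K' t = (1 - 1 / (p : ℝ)) * pn K' (chP t) + 1 / (p : ℝ) * pn K' (chN t) +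
      1 / (p : ℝ) * (2 * bil (K' p) (nA t) (nB t)) := by
  have hp' : (p : ℝ) ≠ 0 := by exact_mod_cast hp.ne'
  obtain ⟨w, r, t₁, t₀, v, B, G, e⟩ := isB_eq (h.bk.ok t ht).2
  have hv := h.vr t ht
  subst e
  have e5 : chN (DT.br p w r t₁ t₀ v B G) = if w = 0 then t₁ else t₀ := rfl
  have e6 : chP (DT.br p w r t₁ t₀ v B G) = t₁ := rfl
  have e7 : pn K' (DT.br p w r t₁ t₀ v B G) = (1 - w) * pn K' t₁ + w * pn K' t₀ +
    w * (2 * bil (K' p) t₁.g.val t₀.g.val) := rfl
  rw [e5, e6, e7]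
  rcases hv with ⟨hw, -, -⟩ | ⟨hw, -, -⟩
  · have hw0 : w ≠ 0 := by rw [hw]; positivity
    have eA : nA (DT.br p w r t₁ t₀ v B G) = t₁.g.val := by
      funext j y; unfold nA; simp only [if_neg hw0]
    have eB : nB (DT.br p w r t₁ t₀ v B G) = t₀.g.val := by
      funext j y; unfold nB; simp only [if_neg hw0]
    rw [if_neg hw0, eA, eB, hw]
  · have eA : nA (DT.br p w r t₁ t₀ v B G) = fun _ _ => 0 := by
      funext j y; unfold nA; simp only [if_pos hw]
    rw [if_pos hw, eA, bil_z1, hw]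
    ring

/-- **the column** -/
lemma PNs_col (h : KOk kd p K) (hp : 0 < p) : PNs K' K = (1 - 1 / (p : ℝ)) * PNs K' (K.map chP) +
    1 / (p : ℝ) * PNs K' (K.map chN) + 1 / (p : ℝ) * (2 * bil (K' p) (pA K) (pB K)) := by
  induction K with
  | nil =>
    have e : pA ([] : List (DT Λ κ)) = fun _ _ => 0 := rfl
    rw [e, bil_z1]
    simp [PNs]
  | cons t K ih =>
    have ih' := ih h.tail
    have h1 := pn_node (K' := K') h hp (List.mem_cons_self (a := t) (l := K))
    rw [List.map_cons, List.map_cons, PNs_cons, PNs_cons, PNs_cons, h1, ih']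
    rcases node h (List.mem_cons_self (a := t) (l := K)) with ⟨hw, -, g1, g2, g3, g4, g5, g6⟩ |
      ⟨hw, -, -, h1, h2, h3, h4, h5⟩
    · have hl : (K.filter fun t => decide (wT t ≠ 0)).length = 0 := by
        have := h.bk.one
        rw [List.filter_cons_of_pos (by simpa using hw), List.length_cons] at this
        omega
      obtain ⟨i1, i2, i3, i4, i5⟩ := no_tie h.tail hl
      have e1 : pA (t :: K) = nA t := by
        funext j y
        have e : pA (t :: K) j y = nA t j y + pA K j y := ls_cons _ _ _ _ _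
        rw [e, i1, add_zero]
      have e2 : pB (t :: K) = nB t := by
        funext j y
        have e : pB (t :: K) j y = nB t j y + pB K j y := ls_cons _ _ _ _ _
        rw [e, i2, add_zero]
      rw [e1, e2, i1, bil_z1]
      ring
    · have e1 : pA (t :: K) = pA K := by
        funext j y
        have e : pA (t :: K) j y = nA t j y + pA K j y := ls_cons _ _ _ _ _
        rw [e, h1, zero_add]
      have e2 : pB (t :: K) = pB K := by
        funext j y
        have e : pB (t :: K) j y = nB t j y + pB K j y := ls_cons _ _ _ _ _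
        rw [e, h2, zero_add]
      rw [e1, e2, h1, bil_z1]
      ring

end val

section sv
variable {Λ κ : Type} [Fintype Λ] [DecidableEq Λ] [Fintype κ] [DecidableEq κ] {β : Type}
  {B : BM β} {lst : β → List (DT Λ κ)} {Inv : ℕ → List (DT Λ κ) → Prop} {kd : ℕ → Λ → κ}
  {κ' : Λ → Λ → ℝ}

/-- double sum of integrals of products -/
lemma bil_I (f g : Λ → ℝ → ℝ) : ∑ i, ∑ j, κ' i j * I (fun x => f i x * g j x) = bil κ' f g := rfl

lemma bil_I' (hκ : Ker κ') (f g : Λ → ℝ → ℝ) :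
    ∑ i, ∑ j, κ' i j * I (fun x => g i x * f j x) = bil κ' f g := by
  rw [bil_I, bil_symm hκ]

lemma I3 {f g h : ℝ → ℝ} (hf : PB f) (hg : PB g) (hh : PB h) :
    I (fun x => f x + g x + h x) = I f + I g + I h := by
  rw [I_add (hf.add hg).integrableOn hh.integrableOn, I_add hf.integrableOn hg.integrableOn]

/-- **local creation** -/
lemma crn_eq (L : LB B lst Inv) (H : DI Inv)
    (hK : ∀ {p b}, B.ok p b → p ≠ 0 → KOk (kd p) p (bB p (lst b))) (hκ : Ker κ') {p : ℕ} {b : β}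
    (hb : B.ok p b) (hp : p ≠ 0) : (LB.qp L H hK).crn κ' p b =
      jl (fun _ => κ') JnH5.idk p (lst b) / 2 +
        1 / (p : ℝ) * (2 * bil κ' (pA (bB p (lst b))) (pB (bB p (lst b)))) := by
  set Ls := lst b with hLs
  have hA := H.pb (L.inv hb)
  rw [← hLs] at hA
  have l : ∀ i, PB (jv (bL p Ls) i) := fun i => PB_jv (hA.bL p).self i
  have m : ∀ i, PB (jv (bB p Ls) i) := fun i => PB_jv (hA.bB p).self i
  have r : ∀ i, PB (jv (bN p Ls) i) := fun i => PB_jv (hA.bN p).self i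
  have A : ∀ i, PB (pA (bB p Ls) i) := fun i => (hK hb hp).PA i
  have Bb : ∀ i, PB (pB (bB p Ls) i) := fun i => (hK hb hp).PBb i
  have e1 : ∀ i j, I ((LB.qp L H hK).cx p b i j) =
      I (fun x => jv (bL p Ls) i x * jv (bL p Ls) j x) +
      (I (fun x => jv (bL p Ls) i x * jv (bB p Ls) j x) +
        I (fun x => jv (bB p Ls) i x * jv (bL p Ls) j x)) +
      (I (fun x => jv (bL p Ls) i x * jv (bN p Ls) j x) +
        I (fun x => jv (bN p Ls) i x * jv (bL p Ls) j x)) +
      (I (fun x => jv (bB p Ls) i x * jv (bN p Ls) j x) +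
        I (fun x => jv (bN p Ls) i x * jv (bB p Ls) j x)) := by
    intro i j
    have e : (LB.qp L H hK).cx p b i j = fun x => jv (bL p Ls) i x * jv (bL p Ls) j x +
        (jv (bL p Ls) i x * jv (bB p Ls) j x + jv (bB p Ls) i x * jv (bL p Ls) j x) +
        (jv (bL p Ls) i x * jv (bN p Ls) j x + jv (bN p Ls) i x * jv (bL p Ls) j x) +
        (jv (bB p Ls) i x * jv (bN p Ls) j x + jv (bN p Ls) i x * jv (bB p Ls) j x) := by
      funext x
      have eR : (L.pv H).v (B.rN p b) = jv (bN p Ls) := by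
        show jv (lst (B.rN p b)) = _
        rw [L.R hb hp]
      show crs (jv (bL p Ls) i x) (jv (bB p Ls) i x) ((L.pv H).v (B.rN p b) i x)
        (jv (bL p Ls) j x) (jv (bB p Ls) j x) ((L.pv H).v (B.rN p b) j x) = _
      rw [eR]
      rfl
    rw [e, I_add ((((l i).mul (l j)).add (((l i).mul (m j)).add ((m i).mul (l j)))).add
      (((l i).mul (r j)).add ((r i).mul (l j)))).integrableOn
      (((m i).mul (r j)).add ((r i).mul (m j))).integrableOn,
      I_add (((l i).mul (l j)).add (((l i).mul (m j)).add ((m i).mul (l j)))).integrableOn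
      (((l i).mul (r j)).add ((r i).mul (l j))).integrableOn,
      I_add ((l i).mul (l j)).integrableOn (((l i).mul (m j)).add ((m i).mul (l j))).integrableOn,
      I_add ((l i).mul (m j)).integrableOn ((m i).mul (l j)).integrableOn,
      I_add ((l i).mul (r j)).integrableOn ((r i).mul (l j)).integrableOn,
      I_add ((m i).mul (r j)).integrableOn ((r i).mul (m j)).integrableOn]
  have e2 : ∀ i j, I ((LB.qp L H hK).ct p b i j) =
      I (fun x => pA (bB p Ls) i x * pB (bB p Ls) j x) +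
      I (fun x => pB (bB p Ls) i x * pA (bB p Ls) j x) := by
    intro i j
    rw [← I_add ((A i).mul (Bb j)).integrableOn ((Bb i).mul (A j)).integrableOn]
    rfl
  have e3 : (LB.qp L H hK).crn κ' p b =
      ∑ i, ∑ j, κ' i j * I (fun x => jv (bL p Ls) i x * jv (bL p Ls) j x) +
      (∑ i, ∑ j, κ' i j * I (fun x => jv (bL p Ls) i x * jv (bB p Ls) j x) +
        ∑ i, ∑ j, κ' i j * I (fun x => jv (bB p Ls) i x * jv (bL p Ls) j x)) +
      (∑ i, ∑ j, κ' i j * I (fun x => jv (bL p Ls) i x * jv (bN p Ls) j x) +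
        ∑ i, ∑ j, κ' i j * I (fun x => jv (bN p Ls) i x * jv (bL p Ls) j x)) +
      (∑ i, ∑ j, κ' i j * I (fun x => jv (bB p Ls) i x * jv (bN p Ls) j x) +
        ∑ i, ∑ j, κ' i j * I (fun x => jv (bN p Ls) i x * jv (bB p Ls) j x)) +
      1 / (p : ℝ) * (∑ i, ∑ j, κ' i j * I (fun x => pA (bB p Ls) i x * pB (bB p Ls) j x) +
        ∑ i, ∑ j, κ' i j * I (fun x => pB (bB p Ls) i x * pA (bB p Ls) j x)) := by
    rw [mul_add, ← sum2_mul, ← sum2_mul, ← sum2_add, ← sum2_add, ← sum2_add, ← sum2_add,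
      ← sum2_add, ← sum2_add, ← sum2_add, ← sum2_add]
    unfold QP.crn
    refine Finset.sum_congr rfl fun i _ => Finset.sum_congr rfl fun j _ => ?_
    rw [e1, e2]
    ring
  have e6 : ∀ M : List (DT Λ κ), bc (JnH5.idk p) M = jv M := fun M => JnH5.bc_id M
  have e7 : jl (fun _ => κ') JnH5.idk p Ls =
      4 * (bil κ' (jv (bL p Ls)) (jv (bB p Ls)) + bil κ' (jv (bL p Ls)) (jv (bN p Ls)) +
        bil κ' (jv (bB p Ls)) (jv (bN p Ls))) + 2 * bil κ' (jv (bL p Ls)) (jv (bL p Ls)) := by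
    unfold jl
    rw [e6, e6, e6]
  rw [e3, bil_I, bil_I, bil_I' hκ (jv (bL p Ls)) (jv (bB p Ls)), bil_I,
    bil_I' hκ (jv (bL p Ls)) (jv (bN p Ls)), bil_I, bil_I' hκ (jv (bB p Ls)) (jv (bN p Ls)),
    bil_I, bil_I' hκ (pA (bB p Ls)) (pB (bB p Ls)), e7]
  ring

/-- the value of the creation -/
noncomputable def Vc (κ' : Λ → Λ → ℝ) (p : ℕ) (L : List (DT Λ κ)) : ℝ :=
  Psi (fun _ => κ') JnH5.idk p L / 2 + PNs (fun _ => κ') L

/-- **the value of the creation is superharmonic** -/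
theorem crn_sv (L : LB B lst Inv) (H : DI Inv)
    (hK : ∀ {p b}, B.ok p b → p ≠ 0 → KOk (kd p) p (bB p (lst b)))
    (tk : ∀ {p b}, B.ok p b → p ≠ 0 → TOk p (bB p (lst b)))
    (len : ∀ {p b}, B.ok p b → p ≠ 0 → (bN p (lst b)).length ≤ 1) (hκ : Ker κ') :
    SV B ((LB.qp L H hK).crn κ') (fun p b => Vc κ' p (lst b)) (fun b => siz (lst b)) where
  okP := L.okP
  okN := L.okN
  okR := L.okR
  v2 := fun {p b} hb h2 => by
    have hp : p ≠ 0 := by omega
    have hpp : 0 < p := by omega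
    have h1 := Psi_step (K := fun _ => κ') (wr := JnH5.idk) hpp (fun _ => hκ) (H.pb (L.inv hb))
      (tk hb hp) (len hb hp)
    have h3 := PNs_split (K' := fun _ => κ') p (lst b)
    have h4 := PNs_col (K' := fun _ => κ') (hK hb hp) hpp
    have h5 := crn_eq L H hK hκ hb hp
    show (LB.qp L H hK).crn κ' p b + ((1 - 1 / (p : ℝ)) * Vc κ' p (lst (B.cP p b)) +
      1 / (p : ℝ) * Vc κ' p (lst (B.cN p b))) + Vc κ' (p - 1) (lst (B.rN p b)) ≤ Vc κ' p (lst b)
    rw [h5, L.P hb hp, L.N hb hp, L.R hb hp]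
    unfold Vc
    linarith
  v1 := fun {b} hb => by
    have h1 := Psi_step (K := fun _ => κ') (wr := JnH5.idk) one_pos (fun _ => hκ)
      (H.pb (L.inv hb)) (tk hb one_ne_zero) (len hb one_ne_zero)
    have h3 := PNs_split (K' := fun _ => κ') 1 (lst b)
    have h5 := crn_eq L H hK hκ hb one_ne_zero
    have h6 := H.no1 (L.inv hb)
    show (LB.qp L H hK).crn κ' 1 b + Vc κ' 1 (lst (B.cP 1 b)) + Vc κ' 0 (lst (B.rN 1 b)) ≤
      Vc κ' 1 (lst b)
    have e0 : bil κ' (pA ([] : List (DT Λ κ))) (pB ([] : List (DT Λ κ))) = 0 := bil_z1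
    have e1 : Vc κ' 1 ([] : List (DT Λ κ)) = 0 := by
      unfold Vc
      rw [JnH5.Psi_nil, PNs_nil]
      norm_num
    have e2 : Psi (fun _ => κ') JnH5.idk 1 ([] : List (DT Λ κ)) = 0 := JnH5.Psi_nil 1
    rw [h6, List.map_nil, List.map_nil, e2] at h1
    rw [h6, PNs_nil] at h3
    rw [h5, L.P hb one_ne_zero, L.R hb one_ne_zero, h6, List.map_nil, e1, e0]
    unfold Vc
    have e3 : (1 - 1 : ℕ) = 0 := rfl
    rw [e3] at h1
    norm_num at h1 ⊢
    linarith
  sP := fun {p b} hb hp => by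
    rw [L.P hb hp]
    exact siz_ch fun t ht => (size_ch ((tk hb hp).isb t ht)).1
  sN := fun {p b} hb hp => by
    rw [L.N hb hp]
    exact siz_ch fun t ht => (size_ch ((tk hb hp).isb t ht)).2
  sR := fun {p b} hb hp => by
    rw [L.R hb hp]
    exact siz_bN p _

/-- **the value of one tree** : leaf energies, cross energies at the `add` nodes, P against N energies
at the ties -/
lemma Vc_single (p : ℕ) (t : DT Λ κ) : Vc κ' p [t] =
    leU (fun _ => κ') JnH5.idk p t + dC (fun _ => κ') JnH5.idk t + pn (fun _ => κ') t := by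
  unfold Vc
  rw [Psi_single, PNs_cons, PNs_nil]
  ring

/-- **charges of the P against N pairs** : kernels of the columns -/
theorem pn_sv {K' : ℕ → Λ → Λ → ℝ} (L : LB B lst Inv) (H : DI Inv)
    (hK : ∀ {p b}, B.ok p b → p ≠ 0 → KOk (kd p) p (bB p (lst b)))
    (tk : ∀ {p b}, B.ok p b → p ≠ 0 → TOk p (bB p (lst b))) :
    SV B (fun p b => 1 / (p : ℝ) * (2 * bil (K' p) (pA (bB p (lst b))) (pB (bB p (lst b)))))
      (fun _ b => PNs K' (lst b)) (fun b => siz (lst b)) where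
  okP := L.okP
  okN := L.okN
  okR := L.okR
  v2 := fun {p b} hb h2 => by
    have hp : p ≠ 0 := by omega
    have h3 := PNs_split (K' := K') p (lst b)
    have h4 := PNs_col (K' := K') (hK hb hp) (by omega)
    show 1 / (p : ℝ) * (2 * bil (K' p) (pA (bB p (lst b))) (pB (bB p (lst b)))) +
      ((1 - 1 / (p : ℝ)) * PNs K' (lst (B.cP p b)) + 1 / (p : ℝ) * PNs K' (lst (B.cN p b))) +
      PNs K' (lst (B.rN p b)) ≤ PNs K' (lst b)
    rw [L.P hb hp, L.N hb hp, L.R hb hp]
    linarith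
  v1 := fun {b} hb => by
    have h3 := PNs_split (K' := K') 1 (lst b)
    have h6 := H.no1 (L.inv hb)
    show 1 / ((1 : ℕ) : ℝ) * (2 * bil (K' 1) (pA (bB 1 (lst b))) (pB (bB 1 (lst b)))) +
      PNs K' (lst (B.cP 1 b)) + PNs K' (lst (B.rN 1 b)) ≤ PNs K' (lst b)
    have e0 : bil (K' 1) (pA ([] : List (DT Λ κ))) (pB ([] : List (DT Λ κ))) = 0 := bil_z1
    rw [h6, PNs_nil] at h3
    rw [L.P hb one_ne_zero, L.R hb one_ne_zero, h6, List.map_nil, e0, PNs_nil]
    linarith
  sP := fun {p b} hb hp => by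
    rw [L.P hb hp]
    exact siz_ch fun t ht => (size_ch ((tk hb hp).isb t ht)).1
  sN := fun {p b} hb hp => by
    rw [L.N hb hp]
    exact siz_ch fun t ht => (size_ch ((tk hb hp).isb t ht)).2
  sR := fun {p b} hb hp => by
    rw [L.R hb hp]
    exact siz_bN p _

/-- values of the base: only leaves -/
lemma Vc_base {p : ℕ} {L : List (DT Λ κ)} (h : ∀ t ∈ L, isLf t = true) :
    Vc κ' p L = ∑ i, ∑ j, κ' i j * I (fun x => jv L i x * jv L j x) := by
  have e1 : (L.map (ph (fun _ => κ') JnH5.idk p)).sum = 0 := by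
    refine List.sum_eq_zero fun y hy => ?_
    obtain ⟨t, ht, rfl⟩ := List.mem_map.1 hy
    exact ph_leaf (h t ht)
  have e2 : PNs (fun _ => κ') L = 0 := by
    refine List.sum_eq_zero fun y hy => ?_
    obtain ⟨t, ht, rfl⟩ := List.mem_map.1 hy
    obtain ⟨r, f, rfl⟩ := isLf_eq (h t ht)
    rfl
  have e6 : bc (JnH5.idk p) L = jv L := JnH5.bc_id L
  unfold Vc Psi E2
  rw [e1, e2, e6, bil_I]
  ring

end sv

end Crest.Agent.R4P.PrD45
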