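import Crest.Agent.R4P.BthT_48
import Crest.Agent.R4P.DTe_407
import Crest.Agent.R4P.PrD_45

/-!
R4 (S0004) with powers, T3, helper48: **births of the unmarked typed rows, second order**.

Typed trees `rxm H` without special sheets (`spc = False`).
* `Mb Ma` cross contents of a type (matched with the other types of the same real class), `eU` mismatch; `El` located part
  (lifts of the missing pieces), `Es` spread part of the births: **`E2_unm`** : `E2 = El + Es`.
* `rowsU H Sp` : located births on the sheets `Sp` and spread births in the `L²` form, the rest linear;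
  **`fib`** : the fibre data (`BthT_48.Fib`).
* `PNd` : **energy density of the P against N pairs** of the tie (same low type and different real
  classes, or same real class and different low types); **`sum_n_le`** : `∑_z n1 + n2 ≤ (2 + 6 m₀) PNd`.
* **`I_xU`** : the second order part of the births by `PNd` and by the energies of the children.
-/

set_option autoImplicit false
set_option linter.unusedSectionVars false
set_option linter.unusedVariables false
open MeasureTheory Filter Set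

namespace Crest.Agent.R4P.BthU48

open Crest.Agent.R4.Tour104 Crest.Agent.R4.Tour758 Crest.Agent.R4.Clos758 Crest.Agent.R4.ClosL758
open Crest.Agent.R4P.Grp36 Crest.Agent.R4P.GWa343 Crest.Agent.R4P.GWb343
open Crest.Agent.R4P.GWc343 hiding SB
open Crest.Agent.R4P.GWd343 Crest.Agent.R4P.GCol27 Crest.Agent.R4P.TrR343
open Crest.Agent.R4P.DTp26 Crest.Agent.R4P.VR407 Crest.Agent.R4P.Bp407 Crest.Agent.R4P.MSd343
open Crest.Agent.R4P.DTm407 Crest.Agent.R4P.DTn407 Crest.Agent.R4P.DTn407.TD'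
open Crest.Agent.R4P.DTo407 Crest.Agent.R4P.DTo407.TD'
open Crest.Agent.R4P.TyS16 (TRaw TRow GMU mkMU cho cho_on cho_off PB_cho z0 asm hPP jA eA Fam frP
  et sh HU Ep_mono_fib Ep_fib Ep_cst Ep_smul' Ep_add' jz gm_eq gs_eq)
open Crest.Agent.R4P.TyR16 (mnR spR rV dd)
open Crest.Agent.R4P.Walk560 (DT)
open Crest.Agent.R4P.RXm55 Crest.Agent.R4P.MSm25
open Crest.Agent.R4P.BthR48 Crest.Agent.R4P.BthS48 Crest.Agent.R4P.BthT48

section
variable {μ Λ κ ζ : Type} [Fintype Λ] [DecidableEq Λ] [Fintype κ] [DecidableEq κ]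
  [Fintype ζ] [DecidableEq ζ]
variable {wr : ℕ → Λ → κ} {D : TD μ Λ κ ζ} {Inv : ℕ → μ × List (DT Λ κ) → Prop} {p : ℕ}
  {b : μ × List (DT Λ κ)}

/-! ### definitions -/

section defs
variable (D : TD μ Λ κ ζ) (wr : ℕ → Λ → κ) (p : ℕ) (b : μ × List (DT Λ κ))

/-- N content of a type matched with the other types of the real classes -/
noncomputable def Mb (z : ζ) (y : ℝ) : ℝ := ∑ c, dx D wr p b z c y
/-- P content of a type matched with the other types of the real classes -/
noncomputable def Ma (z : ζ) (y : ℝ) : ℝ := ∑ c, cx D wr p b z c y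
/-- cross lifts -/
noncomputable def Lg (z : ζ) (x : ℝ) : ℝ := ∑ c, gl D wr p b z c x
/-- mismatch -/
noncomputable def eU (z : ζ) (y : ℝ) : ℝ :=
  et (D.h p (D.cP p b) z) (fB1 D wr p b z) (fde D wr p b z) y
/-- **located births** -/
noncomputable def El (z : ζ) (x : ℝ) : ℝ :=
  sh p (fde D wr p b z) (D.gc wr p b z) x * eU D wr p b z (p * x) + Lg D wr p b z x
/-- **spread births** -/
noncomputable def Es (z : ζ) (x : ℝ) : ℝ :=
  1 / (p : ℝ) * (Mb D wr p b z (p * x) + Ma D wr p b z (p * x))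
/-- all the lifts of a type -/
noncomputable def Gl (z : ζ) (x : ℝ) : ℝ := ∑ c, rG D wr p b z c x
/-- all the N content of a type -/
noncomputable def Bl (z : ζ) (y : ℝ) : ℝ := ∑ c, rB D wr p b z c y

end defs

/-! ### general facts -/

lemma cho_unm {P : ℝ → Prop} (h : ∀ x, ¬ P x) (f g : ℝ → ℝ) : cho P f g = g :=
  funext fun x => cho_off (h x)

lemma sq_lift {p : ℕ} (hp : 0 < p) {f g : ℝ → ℝ} (h : Lift p f g) (g0 : ∀ x, 0 ≤ g x) (y : ℝ) :
    Ep p (fun x => g x ^ 2) y ≤ 1 / (p : ℝ) * f y ^ 2 := by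
  have hp' : (0:ℝ) < p := by exact_mod_cast hp
  unfold Ep
  rw [div_le_iff₀ hp']
  have e : 1 / (p : ℝ) * f y ^ 2 * p = f y ^ 2 := by field_simp
  rw [e, ← h y]
  set S := ∑ i ∈ Finset.range p, g ((y + i) / p) with hS
  have h1 : ∀ i ∈ Finset.range p, g ((y + i) / p) ^ 2 ≤ g ((y + i) / p) * S := fun i hi => by
    rw [sq]
    exact mul_le_mul_of_nonneg_left (Finset.single_le_sum (f := fun i : ℕ => g ((y + i) / p))
      (fun i _ => g0 _) hi) (g0 _)
  refine (Finset.sum_le_sum h1).trans (le_of_eq ?_)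
  rw [← Finset.sum_mul, ← hS, sq]

lemma lift_of_Ep {p : ℕ} (hp : 0 < p) {f g : ℝ → ℝ} (h : ∀ y, Ep p g y = 1 / (p : ℝ) * f y) :
    Lift p f g := by
  intro y
  have hp' : (0:ℝ) < p := by exact_mod_cast hp
  have h1 := h y
  unfold Ep at h1
  rw [div_eq_iff hp'.ne'] at h1
  rw [h1]
  field_simp

section unm
variable (H : TYp wr D Inv) (hb : Inv p b) (hp : p ≠ 0)
include H hb hp

lemma PMb (z : ζ) : PB (Mb D wr p b z) := PB.sum _ fun c _ => Pdx H hb hp z c
lemma PMa (z : ζ) : PB (Ma D wr p b z) := PB.sum _ fun c _ => Pcx H hb hp z c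
lemma PLg (z : ζ) : PB (Lg D wr p b z) := PB.sum _ fun c _ => Pgl H hb hp z c
lemma PeU (z : ζ) : PB (eU D wr p b z) := by
  have G := gmu H hb hp z
  exact ModeS16.PB_sub (Pfde H hb hp z) (TyS16.PB_dd G.pa (PfB1 H hb hp z))
      fun y => sub_nonneg.1 (et_nonneg H hb hp y)
lemma PEs (z : ζ) : PB (Es D wr p b z) :=
  (((PMb H hb hp z).add (PMa H hb hp z)).pull p).smul (w0 H hb hp)
omit hb hp in
lemma PGl (z : ζ) : PB (Gl D wr p b z) := PB.sum _ fun c _ => PrG H z c
lemma PBl (z : ζ) : PB (Bl D wr p b z) := PB.sum _ fun c _ => PrB H hb hp z c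

/-- lifts of (type, class) -/
lemma lift_rG (z : ζ) (c : κ) : Lift p (rB D wr p b z c) (rG D wr p b z c) :=
  lift_of_Ep (Nat.pos_of_ne_zero hp) fun y => Ep_rG H hb hp z c y

lemma lift_Gl (z : ζ) : Lift p (Bl D wr p b z) (Gl D wr p b z) := by
  intro y
  unfold Gl Bl
  rw [Finset.sum_comm]
  exact Finset.sum_congr rfl fun c _ => lift_rG H hb hp z c y

lemma lift_Lg (z : ζ) : Lift p (Mb D wr p b z) (Lg D wr p b z) := by
  intro y
  unfold Lg Mb
  rw [Finset.sum_comm]
  exact Finset.sum_congr rfl fun c _ =>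
    lift_of_Ep (Nat.pos_of_ne_zero hp) (fun y => Ep_gl H hb hp z c y) y

section hu
variable (hU : ∀ z x, ¬ D.spc p b z x)
include hU

omit H hb in
lemma unm_mrk (z : ζ) (y : ℝ) : ¬ mrk D p b z y := fun ⟨_, _, h⟩ => hU z _ h

/-- **the unmarked row** -/
lemma huU (z : ζ) : HU p (D.h p (D.cP p b) z) (fB1 D wr p b z) (fm D wr p b z) (fde D wr p b z)
    (D.gc wr p b z) (hm D wr p b z) (hs D wr p b z) (gm D wr p b z) (gs D wr p b z)
    (lm D wr p b z) (lS D wr p b z) := by
  have h := (gmu H hb hp z).HU'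
  have e1 : ∀ x, ¬ mrk D p b z x := unm_mrk hp hU z
  have e2 : ∀ x : ℝ, ¬ mrk D p b z (p * x) := fun x => e1 _
  simp only [cho_unm e1, cho_unm e2] at h
  exact h

lemma PEl (z : ζ) : PB (El D wr p b z) := by
  have h := huU H hb hp hU z
  exact (h.PB_sh.mul ((PeU H hb hp z).pull p)).add (PLg H hb hp z)

/-- **the located births of the unmarked row** -/
theorem E0_unm (z : ζ) (x : ℝ) :
    E0D D wr p b z x + gm D wr p b z x = El D wr p b z x + Es D wr p b z x := by
  have h1 : E0D D wr p b z x = _ := E0G_off (unm_mrk hp hU z (p * x))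
  have h2 : fm D wr p b z (p * x) = Mb D wr p b z (p * x) := by
    rw [fm_off (unm_mrk hp hU z (p * x))]
    rfl
  have h3 : gm D wr p b z x = Lg D wr p b z x + 1 / (p : ℝ) * Ma D wr p b z (p * x) := by
    unfold gm Lg Ma
    rw [Finset.mul_sum, ← Finset.sum_add_distrib]
    refine Finset.sum_congr rfl fun c _ => ?_
    rw [ch_on (P := ¬ (D.spc p b z x ∧ c ≠ D.act p b z (p * x))) (fun h => hU z x h.1),
      ch_off (P := D.spc p b z x ∧ c = D.act p b z (p * x)) (fun h => hU z x h.1)]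
    ring
  rw [h1, h2, h3]
  unfold El Es eU
  ring

lemma gs_unm (z : ζ) (x : ℝ) : gs D wr p b z x = 0 := by
  unfold gs
  refine Finset.sum_eq_zero fun c _ => ?_
  rw [ch_off fun h => hU z x h.1]

/-! ### fibre means -/

lemma Ep_El (z : ζ) (y : ℝ) : Ep p (fun x => El D wr p b z x ^ 2) y ≤
    1 / (p : ℝ) * (2 * eU D wr p b z y ^ 2 + 2 * Mb D wr p b z y ^ 2) := by
  have hp0 : 0 < p := Nat.pos_of_ne_zero hp
  have hp' : (0:ℝ) < p := by exact_mod_cast hp0
  have h := huU H hb hp hU z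
  have q1 : Lift p (eU D wr p b z) fun x => sh p (fde D wr p b z) (D.gc wr p b z) x *
      eU D wr p b z (p * x) := h.s_L (PeU H hb hp z)
  have a1 := sq_lift hp0 q1 (fun x => mul_nonneg (h.sh0 x) ((PeU H hb hp z).nonneg _)) y
  have a2 := sq_lift hp0 (lift_Lg H hb hp z) (fun x => (PLg H hb hp z).nonneg x) y
  have a3 : Ep p (fun x => El D wr p b z x ^ 2) y ≤
      2 * Ep p (fun x => (sh p (fde D wr p b z) (D.gc wr p b z) x * eU D wr p b z (p * x)) ^ 2) y +
      2 * Ep p (fun x => Lg D wr p b z x ^ 2) y := by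
    unfold Ep
    rw [mul_div, mul_div, ← add_div, Finset.mul_sum, Finset.mul_sum, ← Finset.sum_add_distrib]
    refine div_le_div_of_nonneg_right (Finset.sum_le_sum fun i _ => ?_) hp'.le
    unfold El
    nlinarith [sq_nonneg (sh p (fde D wr p b z) (D.gc wr p b z) ((y + (i:ℕ)) / p) *
      eU D wr p b z (p * ((y + (i:ℕ)) / p)) - Lg D wr p b z ((y + (i:ℕ)) / p))]
  linarith

end hu

lemma Ep_Es (z : ζ) (y : ℝ) : Ep p (fun x => Es D wr p b z x ^ 2) y ≤
    (1 / (p : ℝ)) ^ 2 * (Mb D wr p b z y + Ma D wr p b z y) ^ 2 := by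
  have hp0 : 0 < p := Nat.pos_of_ne_zero hp
  have hp' : (0:ℝ) < p := by exact_mod_cast hp0
  unfold Ep Es
  have e : ∀ i ∈ Finset.range p, (1 / (p : ℝ) * (Mb D wr p b z (p * ((y + (i:ℕ)) / p)) +
      Ma D wr p b z (p * ((y + (i:ℕ)) / p)))) ^ 2 =
      (1 / (p : ℝ) * (Mb D wr p b z y + Ma D wr p b z y)) ^ 2 := fun i _ => by
    rw [fib_per hp0 (P := fun y => Mb D wr p b z y) (fun x => (PMb H hb hp z).per x) y i,
      fib_per hp0 (P := fun y => Ma D wr p b z y) (fun x => (PMa H hb hp z).per x) y i]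
  rw [Finset.sum_congr rfl e, Finset.sum_const, Finset.card_range, nsmul_eq_mul]
  refine le_of_eq ?_
  field_simp

/-- content of a piece of a tie -/
lemma vT_le' (j : Λ) (x : ℝ) : vT p (bB p b.2) j x ≤
    pA (bB p b.2) j (p * x) + pG (bB p b.2) j x := by
  have Kk := H.bok hb hp
  have hp0 : 0 < p := Nat.pos_of_ne_zero hp
  rw [vT_eq Kk, PrD45.vF_eq]
  have h1 := (PrD45.TD.qf01 (PrD45.td Kk hp0) (wr p) (wr p j) x).2
  have h2 := (Kk.PA j).nonneg (p * x)
  nlinarith

lemma rW_le (z : ζ) (c : κ) (x : ℝ) : rW D wr p b z c x ≤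
    rA D wr p b z c (p * x) + rG D wr p b z c x := by
  unfold rW rA rG
  rw [cz_eq, cz_eq, cz_eq, ← Finset.sum_add_distrib]
  refine Finset.sum_le_sum fun j _ => ?_
  split_ifs with h
  · exact vT_le' H hb hp j x
  · simp

/-- **content above of an unmarked type** -/
lemma hP_le (hU : ∀ z x, ¬ D.spc p b z x) (z : ζ) (x : ℝ) : D.hP wr p b z x ≤
    D.h p (D.cP p b) z (p * x) + Gl D wr p b z x := by
  have e0 : ∀ z, hs D wr p b z x = 0 := fun z => by
    unfold hs
    exact Finset.sum_eq_zero fun c _ => ch_off fun h => hU z x h.1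
  rw [← hPP_eq H hb hp]
  unfold hPP
  rw [e0, add_zero, a_eq H hb hp]
  unfold hm Gl
  have h1 : ∑ c, ch (¬ (D.spc p b z x ∧ c ≠ D.act p b z (p * x))) (rW D wr p b z c x) ≤
      ∑ c, (rA D wr p b z c (p * x) + rG D wr p b z c x) := by
    refine Finset.sum_le_sum fun c _ => ?_
    rw [ch_on fun h => hU z x h.1]
    exact rW_le H hb hp z c x
  rw [Finset.sum_add_distrib] at h1
  linarith

end unm

/-! ### rows and fibre data -/

section inst
variable (H : TYp wr D Inv)
  (hU : ∀ {p b}, Inv p b → p ≠ 0 → ∀ z x, ¬ D.spc p b z x)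
  (Sp : ℕ → μ × List (DT Λ κ) → ζ → ℝ → Prop)
  (hSp : ∀ {p b}, Inv p b → p ≠ 0 → ∀ z, MP (Sp p b z))

/-- **rows: births on the sheets `Sp` and spread births in the `L²` form** -/
noncomputable def rowsU : RowsL (rxm H) where
  raw := raw D wr
  τ := fun p b => frP (H.frF p b.1) (H.inj p b.1)
  hm := fun p b => hm D wr p b
  hs := fun p b => hs D wr p b
  E0 := E0D D wr
  E2m := fun p b z x => ch (Sp p b z x) (El D wr p b z x) + Es D wr p b z x
  E2s := fun _ _ _ _ => 0
  fam := fun hb hp => ⟨_, _, _, _, _, fam H hb hp⟩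
  rl := fun hb hp σ hσ z => RL_GMU (gmu H hb hp z) hσ
  vm_eq := fun hb hp σ hσ z x => rfl
  vs_eq := fun hb hp σ hσ z x => rfl
  e_eq := fun hb hp σ hσ x => rfl
  hP_eq := fun {p b} hb hp z x => (hPP_eq H hb hp z x).symm
  jB_le := fun hb hp x => le_rfl
  pE0 := fun hb hp z => PB_E0G (gmu H hb hp z)
  pEm := fun hb hp z => (PB_ch (hSp hb hp z) (PEl H hb hp (hU hb hp) z)).add (PEs H hb hp z)
  pEs := fun hb hp z => PB.const le_rfl
  Em := fun {p b} hb hp z x => by
    have h : (raw D wr p b z).gm x = gm D wr p b z x := gm_eq x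
    rw [h, E0_unm H hb hp (hU hb hp)]
    have h1 := (PEl H hb hp (hU hb hp) z).nonneg x
    have h2 : ch (Sp p b z x) (El D wr p b z x) ≤ El D wr p b z x := DTe407.ch_le h1
    linarith
  Es := fun {p b} hb hp z x => by
    have h : (raw D wr p b z).gs x = gs D wr p b z x := gs_eq x
    rw [h, gs_unm H hb hp (hU hb hp)]

/-- **the linear rest** : located births outside of `Sp` -/
lemma e1_eq {p : ℕ} {b : μ × List (DT Λ κ)} (hb : Inv p b) (hp : p ≠ 0) (x : ℝ) :
    (rowsU H hU Sp hSp).e1 p b x = ∑ z, ch (¬ Sp p b z x) (El D wr p b z x) := by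
  show ∑ z, ((E0D D wr p b z x + (raw D wr p b z).gm x - (ch (Sp p b z x) (El D wr p b z x) +
    Es D wr p b z x)) + ((raw D wr p b z).gs x - 0)) = _
  refine Finset.sum_congr rfl fun z _ => ?_
  have e3 : (raw D wr p b z).gm x = gm D wr p b z x := gm_eq x
  have e4 : (raw D wr p b z).gs x = gs D wr p b z x := gs_eq x
  have e5 := E0_unm H hb hp (hU hb hp) z x
  have e6 := ch_add_not (Sp p b z x) (El D wr p b z x)
  rw [e3, e4, gs_unm H hb hp (hU hb hp)]
  linarith

/-- **the fibre data** -/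
noncomputable def fib : Fib (rxm H) where
  E₁ := fun p b z x => ch (Sp p b z x) (El D wr p b z x)
  E₂ := fun p b z => Es D wr p b z
  a := fun p b z => D.h p (D.cP p b) z
  G := fun p b z => Gl D wr p b z
  n1 := fun p b z y => 2 * eU D wr p b z y ^ 2 + 2 * Mb D wr p b z y ^ 2
  n2 := fun p b z y => (Mb D wr p b z y + Ma D wr p b z y) ^ 2
  bb := fun p b z y => Bl D wr p b z y ^ 2
  pE1 := fun hb hp z => PB_ch (hSp hb hp z) (PEl H hb hp (hU hb hp) z)
  pE2 := fun hb hp z => PEs H hb hp z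
  pa := fun hb hp z => (gmu H hb hp z).pa
  pG := fun hb hp z => PGl H z
  pn1 := fun hb hp z => ((Fib.PB_sq (PeU H hb hp z)).smul (by norm_num)).add
    ((Fib.PB_sq (PMb H hb hp z)).smul (by norm_num))
  pn2 := fun hb hp z => Fib.PB_sq ((PMb H hb hp z).add (PMa H hb hp z))
  pbb := fun hb hp z => Fib.PB_sq (PBl H hb hp z)
  e1 := fun {p b} hb hp z y => by
    refine le_trans ?_ (Ep_El H hb hp (hU hb hp) z y)
    unfold Ep
    refine div_le_div_of_nonneg_right (Finset.sum_le_sum fun i _ => ?_) (Nat.cast_nonneg p)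
    have h1 := (PEl H hb hp (hU hb hp) z).nonneg ((y + (i:ℕ)) / p)
    exact pow_le_pow_left₀ (ch_nonneg h1) (DTe407.ch_le h1) 2
  e2 := fun hb hp z y => Ep_Es H hb hp z y
  hP := fun hb hp z x => hP_le H hb hp (hU hb hp) z x
  eG := fun {p b} hb hp z y => sq_lift (Nat.pos_of_ne_zero hp) (lift_Gl H hb hp z)
    (fun x => (PGl H z).nonneg x) y

/-- **the rates and the second order part of the births of the typed trees** -/
noncomputable def lprU {D' : RGx (rb H)} {θ : ℕ → ℝ} {τ : ℕ → ζ → ℝ} (hθ : ∀ p, 0 < θ p)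
    (hτ : ∀ p z, 0 < τ p z) : LPr D' (rowsU H hU Sp hSp) :=
  (fib H hU Sp hSp).lpr hθ hτ fun {p b} hb hp z x => by
    show ch (Sp p b z x) (El D wr p b z x) + Es D wr p b z x + 0 ≤ _
    rw [add_zero]
    exact le_rfl

end inst

end

end Crest.Agent.R4P.BthU48
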