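import Crest.Agent.R4P.DTe_407
import Crest.Agent.R4P.BthS_48

/-!
R4 (S0004) with powers, T3, helper407: **the located births of the typed trees in piece form**
(for helper48's `L²` form of the births, `BthS_48`).

* `EU z x` : the mismatch of the unmarked type `z`, located at the excess lifts of the type;
  `EU_le_gc`, `EU_le_hP`, `Ep_EU`;
* **`EU_supp`** : `EU z x ≠ 0` → a P piece `j` at `p x` and an excess lift of a missing piece `i` at `x`,
  both of the low type `z`, of different real classes (or the class of `j` has a missing piece of another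
  low type);
* **`rowsT H T hT : RowsL (rxm H)`** : only the births `EU` of the types with `T p b z (p x)` are located;
  the linear rest `e1` : **`e1_pieces`, `e1_rate`** (as `births_pieces`, `births_rate` of `DTe_407`, pairs
  only for the types without `T`);
* `loc_pieces` : the mean of the located births is at most `1/p` P content (weights per type).
-/

set_option autoImplicit false
set_option linter.unusedSectionVars false
set_option linter.unusedVariables false
open MeasureTheory Filter Set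

namespace Crest.Agent.R4P.DTs407

open Crest.Agent.R4.Tour104 Crest.Agent.R4.Tour758 Crest.Agent.R4.Clos758 Crest.Agent.R4.ClosL758
open Crest.Agent.R4P.Grp36 Crest.Agent.R4P.GWa343 Crest.Agent.R4P.GWb343
open Crest.Agent.R4P.GWc343 hiding SB
open Crest.Agent.R4P.GWd343 Crest.Agent.R4P.GMer27 Crest.Agent.R4P.GCol27 Crest.Agent.R4P.TrR343
open Crest.Agent.R4P.DTp26 Crest.Agent.R4P.VR407 Crest.Agent.R4P.Bp407 Crest.Agent.R4P.MSd343
open Crest.Agent.R4P.DTm407 Crest.Agent.R4P.DTn407 Crest.Agent.R4P.DTn407.TD'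
open Crest.Agent.R4P.DTo407 Crest.Agent.R4P.DTo407.TD' Crest.Agent.R4P.DTe407
open Crest.Agent.R4P.TyS16 (TRaw TRow GMU mkMU cho cho_on cho_off PB_cho z0 asm hPP jA eA Fam frP
  et sh Ep_mono_fib Ep_fib Ep_cst Ep_smul' Ep_add' jz Ep_lift pull_meas pull_per fib_iff)
open Crest.Agent.R4P.TyS16 (gm_eq gs_eq)
open Crest.Agent.R4P.TyR16 (mnR spR rV dd)
open Crest.Agent.R4P.BthS48 Crest.Agent.R4P.BthR48
open Crest.Agent.R4P.Walk560 (DT)

section
variable {μ Λ κ ζ : Type} [Fintype Λ] [DecidableEq Λ] [Fintype κ] [DecidableEq κ]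
  [Fintype ζ] [DecidableEq ζ]
variable {wr : ℕ → Λ → κ} {D : TD μ Λ κ ζ} {Inv : ℕ → μ × List (DT Λ κ) → Prop} {p : ℕ}
  {b : μ × List (DT Λ κ)}

/-- the mismatch of the low type `z` -/
noncomputable def etz (D : TD μ Λ κ ζ) (wr : ℕ → Λ → κ) (p : ℕ) (b : μ × List (DT Λ κ)) (z : ζ)
    (y : ℝ) : ℝ := et (D.h p (D.cP p b) z) (fB1 D wr p b z) (fde D wr p b z) y

/-- **located births** : the mismatch of the unmarked type `z` in the shares of the excess lifts -/
noncomputable def EU (D : TD μ Λ κ ζ) (wr : ℕ → Λ → κ) (p : ℕ) (b : μ × List (DT Λ κ)) (z : ζ)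
    (x : ℝ) : ℝ :=
  ch (¬ mrk D p b z (p * x)) (sh p (fde D wr p b z) (D.gc wr p b z) x * etz D wr p b z (p * x))

section ev
variable (H : TYp wr D Inv) (hb : Inv p b) (hp : p ≠ 0)
include H hb hp

lemma PEU (z : ζ) : PB (EU D wr p b z) := by
  have G := gmu H hb hp z
  have h : EU D wr p b z = cho (fun x => mrk D p b z (p * x)) z0
      (fun x => sh p (cho (mrk D p b z) z0 (fde D wr p b z))
        (cho (fun x => mrk D p b z (p * x)) z0 (D.gc wr p b z)) x *
        et (cho (mrk D p b z) z0 (D.h p (D.cP p b) z)) (cho (mrk D p b z) z0 (fB1 D wr p b z))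
          (cho (mrk D p b z) z0 (fde D wr p b z)) (p * x)) := by
    funext x
    unfold EU etz
    by_cases h : mrk D p b z (p * x)
    · rw [ch_off (not_not.2 h)]
      simp only [cho, h, if_true, z0]
    · rw [ch_on h]
      simp only [sh, et, cho, h, if_false]
  rw [h]
  refine PB_cho (pull_meas (p := p) G.hP) (pull_per (p := p) G.hper) (PB.const le_rfl) ?_
  exact G.HU'.PB_sh.mul (G.HU'.PB_et.pull p)

lemma EU0 (z : ζ) (x : ℝ) : 0 ≤ EU D wr p b z x := (PEU H hb hp z).nonneg x

lemma Ep_EU (z : ζ) (y : ℝ) :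
    Ep p (EU D wr p b z) y = ch (¬ mrk D p b z y) (1 / (p : ℝ) * etz D wr p b z y) := by
  have G := gmu H hb hp z
  have hf := fib_iff G.hp G.hper y
  by_cases h : mrk D p b z y
  · rw [ch_off (not_not.2 h)]
    unfold Ep
    rw [Finset.sum_eq_zero fun i _ => ?_, zero_div]
    have hi : mrk D p b z (p * ((y + (i : ℕ)) / p)) := (hf i).2 h
    exact ch_off (not_not.2 hi)
  · rw [ch_on h]
    have h1 := Ep_lift (G.HU'.s_L G.HU'.PB_et) y
    have h2 : et (cho (mrk D p b z) z0 (D.h p (D.cP p b) z)) (cho (mrk D p b z) z0 (fB1 D wr p b z))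
          (cho (mrk D p b z) z0 (fde D wr p b z)) y = etz D wr p b z y := by
      simp only [etz, et, cho, h, if_false]
    rw [h2] at h1
    rw [← h1]
    unfold Ep
    congr 1
    refine Finset.sum_congr rfl fun i _ => ?_
    have hi : ¬ mrk D p b z (p * ((y + (i : ℕ)) / p)) := fun h' => h ((hf i).1 h')
    unfold EU
    rw [ch_on hi]
    simp only [sh, et, etz, cho, hi, if_false]

/-- the located births are in the excess lifts -/
lemma EU_le_gc (z : ζ) (x : ℝ) : EU D wr p b z x ≤ D.gc wr p b z x := by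
  have G := gmu H hb hp z
  unfold EU
  by_cases h : mrk D p b z (p * x)
  · rw [ch_off (not_not.2 h)]
    exact G.pgc.nonneg x
  · rw [ch_on h]
    have h1 := G.HU'.sh_mul x
    have h2 := G.HU'.sh0 x
    have e1 : sh p (cho (mrk D p b z) z0 (fde D wr p b z))
        (cho (fun x => mrk D p b z (p * x)) z0 (D.gc wr p b z)) x =
        sh p (fde D wr p b z) (D.gc wr p b z) x := by
      simp only [sh, cho, h, if_false]
    have e2 : cho (fun x => mrk D p b z (p * x)) z0 (D.gc wr p b z) x = D.gc wr p b z x := by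
      simp only [cho, h, if_false]
    have e3 : cho (mrk D p b z) z0 (fde D wr p b z) (p * x) = fde D wr p b z (p * x) := by
      simp only [cho, h, if_false]
    rw [e1, e2, e3] at h1
    rw [e1] at h2
    rw [← h1]
    refine mul_le_mul_of_nonneg_left ?_ h2
    unfold etz et dd
    have := le_max_right (fB1 D wr p b z (p * x) - D.h p (D.cP p b) z (p * x)) 0
    linarith

/-- excess lifts by the pieces -/
lemma gc_eq (z : ζ) (x : ℝ) : D.gc wr p b z x =
    ∑ j, ch (D.lt p b.1 (p * x) j = some z) (eg (wr p) p (bB p b.2) j x) := by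
  unfold TD.gc
  rw [hz_eq]
  refine Finset.sum_congr rfl fun j _ => ?_
  by_cases h : D.lt p b.1 (p * x) j = some z
  · rw [if_pos h, ch_on h]
  · rw [if_neg h, ch_off h]

/-- **support of the located births** -/
theorem EU_supp {z : ζ} {x : ℝ} (h : EU D wr p b z x ≠ 0) : ¬ mrk D p b z (p * x) ∧
    ∃ j i, D.lt p b.1 (p * x) j = some z ∧ D.lt p b.1 (p * x) i = some z ∧
      pA (bB p b.2) j (p * x) ≠ 0 ∧ eg (wr p) p (bB p b.2) i x ≠ 0 ∧
      (wr p j ≠ wr p i ∨ ∃ i', wr p i' = wr p j ∧ pB (bB p b.2) i' (p * x) ≠ 0 ∧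
        D.lt p b.1 (p * x) i' ≠ D.lt p b.1 (p * x) j) := by
  have Kk := H.bok hb hp
  have hm : ¬ mrk D p b z (p * x) := fun hm => h (ch_off (not_not.2 hm))
  refine ⟨hm, ?_⟩
  have h1 : sh p (fde D wr p b z) (D.gc wr p b z) x * etz D wr p b z (p * x) ≠ 0 := by
    have e : EU D wr p b z x =
      sh p (fde D wr p b z) (D.gc wr p b z) x * etz D wr p b z (p * x) := ch_on hm
    rwa [← e]
  have h2 : etz D wr p b z (p * x) ≠ 0 := fun h => h1 (by rw [h, mul_zero])
  have h3 : D.gc wr p b z x ≠ 0 := by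
    intro h4
    have := EU_le_gc H hb hp z x
    rw [h4] at this
    exact h (le_antisymm this (EU0 H hb hp z x))
  -- the missing piece
  rw [gc_eq H hb hp] at h3
  obtain ⟨i, -, hi⟩ := Finset.exists_ne_zero_of_sum_ne_zero h3
  have hiz : D.lt p b.1 (p * x) i = some z := by
    by_contra hn
    exact hi (ch_off hn)
  rw [ch_on hiz] at hi
  have hf : 1 - rf wr p b (wr p i) (p * x) ≠ 0 := by
    intro h5
    apply hi
    show (1 - bf (wr p) (bB p b.2) (wr p i) (p * x)) * pG (bB p b.2) i x = 0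
    have : (1 : ℝ) - bf (wr p) (bB p b.2) (wr p i) (p * x) = 0 := h5
    rw [this, zero_mul]
  have hi0 : (1 - rf wr p b (wr p i) (p * x)) * pB (bB p b.2) i (p * x) ≠ 0 := by
    refine mul_ne_zero hf (pG_supp Kk (Nat.pos_of_ne_zero hp) (x := x) (j := i) fun h9 => hi ?_)
    unfold eg
    rw [h9, mul_zero]
  by_contra hn
  push Not at hn
  apply h2
  refine le_antisymm ?_ (et_nonneg H hb hp _)
  unfold etz
  rw [et_eq H hb hp]
  refine (min_le_right _ _).trans (le_of_eq ?_)
  rw [eP_eq H hb hp]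
  have k1 : ∑ j, ch (D.lt p b.1 (p * x) j = some z) (xw D wr p b (p * x) j *
      pA (bB p b.2) j (p * x)) = 0 := by
    refine Finset.sum_eq_zero fun j _ => ?_
    by_cases hj : D.lt p b.1 (p * x) j = some z
    · rw [ch_on hj]
      by_cases hA : pA (bB p b.2) j (p * x) = 0
      · rw [hA, mul_zero]
      · have h5 := (hn j i hj hiz hA hi).2
        have h6 := xw_le H hb hp (p * x) j
        rw [ch_off fun h7 => by
          obtain ⟨i', h8, h9, h10⟩ := h7
          exact h10 (h5 i' h8 h9)] at h6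
        rw [le_antisymm h6 (xw0 H hb hp _ _), zero_mul]
    · exact ch_off hj
  have k2 : ∑ j, ch (D.lt p b.1 (p * x) j = some z) ((1 - ra wr p b (wr p j) (p * x)) *
      pA (bB p b.2) j (p * x)) = 0 := by
    refine Finset.sum_eq_zero fun j _ => ?_
    by_cases hj : D.lt p b.1 (p * x) j = some z
    · rw [ch_on hj]
      by_contra h0
      have hA : pA (bB p b.2) j (p * x) ≠ 0 := fun h => h0 (by rw [h, mul_zero])
      exact exc_ne H hb hp h0 hi0 (hn j i hj hiz hA hi).1
    · exact ch_off hj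
  rw [k1, k2, add_zero]

/-- the located births are in the content of the type by the classes of the rows -/
lemma EU_le_hP (z : ζ) (x : ℝ) : EU D wr p b z x ≤ D.hP wr p b z x := by
  have Kk := H.bok hb hp
  have hp0 : 0 < p := Nat.pos_of_ne_zero hp
  have hv := fun j => (PB_vT Kk hp0 j).nonneg x
  have hq : 0 ≤ hz (fun x => D.lt p b.1 (p * x)) (TD.pQx p (bB p b.2)) (some z) x := by
    rw [hz_eq]
    refine Finset.sum_nonneg fun j _ => ?_
    split_ifs
    · exact ((Kk.PQ j).pull p).nonneg x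
    · exact le_rfl
  have hh : 0 ≤ hz (D.pt wr p b) (vT p (bB p b.2)) (some z) x := by
    rw [hz_eq]
    refine Finset.sum_nonneg fun j _ => ?_
    split_ifs
    · exact hv j
    · exact le_rfl
  by_cases hm : mrk D p b z (p * x)
  · have e : EU D wr p b z x = 0 := ch_off (not_not.2 hm)
    rw [e]
    unfold TD.hP
    exact add_nonneg hh hq
  · refine (EU_le_gc H hb hp z x).trans ?_
    have h1 : D.gc wr p b z x ≤ hz (D.pt wr p b) (vT p (bB p b.2)) (some z) x := by
      rw [gc_eq H hb hp, hz_eq]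
      refine Finset.sum_le_sum fun j _ => ?_
      by_cases hj : D.lt p b.1 (p * x) j = some z
      · have hpt : D.pt wr p b x j = some z := by
          have hS : ¬ D.spc p b z x := fun h => hm (spc_mrk hp h)
          unfold TD.pt TD.pm
          rw [hj]
          simp [hS]
        rw [ch_on hj, if_pos hpt]
        exact eg_le_vT Kk hp0 j x
      · rw [ch_off hj]
        split_ifs
        · exact hv j
        · exact le_rfl
    unfold TD.hP
    linarith

end ev

/-! ### the rows with located births of chosen types -/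

/-- **the rows with located births** : only the mismatch of the types with `T` is located -/
noncomputable def rowsT (H : TYp wr D Inv) (T : ℕ → μ × List (DT Λ κ) → ζ → ℝ → Prop)
    (hT : ∀ {p b}, Inv p b → p ≠ 0 → ∀ z, MP (T p b z)) : RowsL (rxm H) where
  raw := raw D wr
  τ := fun p b => frP (H.frF p b.1) (H.inj p b.1)
  hm := fun p b => hm D wr p b
  hs := fun p b => hs D wr p b
  E0 := E0D D wr
  E2m := fun p b z x => ch (T p b z (p * x)) (EU D wr p b z x)
  E2s := fun p b z => fun _ => 0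
  fam := fun hb hp => ⟨_, _, _, _, _, fam H hb hp⟩
  rl := fun hb hp σ hσ z => RL_GMU (gmu H hb hp z) hσ
  vm_eq := fun hb hp σ hσ z x => rfl
  vs_eq := fun hb hp σ hσ z x => rfl
  e_eq := fun hb hp σ hσ x => rfl
  hP_eq := fun {p b} hb hp z x => (hPP_eq H hb hp z x).symm
  jB_le := fun hb hp x => le_rfl
  pE0 := fun hb hp z => PB_E0G (gmu H hb hp z)
  pEm := fun {p b} hb hp z => PB_ch ((hT hb hp z).pull p) (PEU H hb hp z)
  pEs := fun hb hp z => PB.const le_rfl
  Em := fun {p b} hb hp z x => by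
    have G := gmu H hb hp z
    have hg : (raw D wr p b z).gm x = gm D wr p b z x := gm_eq x
    have h0 : 0 ≤ gm D wr p b z x := (Pgm H hb hp z).nonneg x
    have hm0 : 0 ≤ 1 / (p : ℝ) * fm D wr p b z (p * x) :=
      mul_nonneg (w0 H hb hp) ((Pfm H hb hp z).nonneg _)
    have hE := EU0 H hb hp z x
    rw [hg]
    refine (ch_le hE).trans ?_
    by_cases h : mrk D p b z (p * x)
    · have h2 : E0D D wr p b z x = _ := E0G_on h
      rw [h2]
      have e : EU D wr p b z x = 0 := ch_off (not_not.2 h)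
      rw [e]
      have := G.pnu.nonneg x
      linarith
    · have h2 : E0D D wr p b z x = _ := E0G_off h
      rw [h2]
      have e : EU D wr p b z x = sh p (fde D wr p b z) (D.gc wr p b z) x *
        etz D wr p b z (p * x) := ch_on h
      rw [e]
      unfold etz
      linarith
  Es := fun {p b} hb hp z x => by
    have h : (raw D wr p b z).gs x = gs D wr p b z x := gs_eq x
    rw [h]
    exact (Pgs H hb hp z).nonneg x

section rest
variable (H : TYp wr D Inv) (T : ℕ → μ × List (DT Λ κ) → ζ → ℝ → Prop)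
    (hT : ∀ {p b}, Inv p b → p ≠ 0 → ∀ z, MP (T p b z))
include H

lemma E2_T (z : ζ) (x : ℝ) :
    (rowsT H T hT).E2 p b z x = ch (T p b z (p * x)) (EU D wr p b z x) := by
  show ch (T p b z (p * x)) (EU D wr p b z x) + 0 = _
  rw [add_zero]

variable (hb : Inv p b) (hp : p ≠ 0)
include hb hp

/-- the linear rest of a type -/
lemma e1_eq (x : ℝ) : (rowsT H T hT).e1 p b x = ∑ z,
    (((ch (mrk D p b z (p * x)) (fNu D wr p b z x) +
      ch (¬ T p b z (p * x)) (EU D wr p b z x)) + 1 / (p : ℝ) * fm D wr p b z (p * x)) +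
      (gm D wr p b z x + gs D wr p b z x)) := by
  have e1 : (rowsT H T hT).e1 p b x = ∑ z, ((E0D D wr p b z x + (raw D wr p b z).gm x -
      ch (T p b z (p * x)) (EU D wr p b z x)) + ((raw D wr p b z).gs x - 0)) := rfl
  rw [e1]
  refine Finset.sum_congr rfl fun z _ => ?_
  have hg : (raw D wr p b z).gm x = gm D wr p b z x := gm_eq x
  have hs : (raw D wr p b z).gs x = gs D wr p b z x := gs_eq x
  rw [hg, hs]
  by_cases h : mrk D p b z (p * x)
  · have h2 : E0D D wr p b z x = _ := E0G_on h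
    have e : EU D wr p b z x = 0 := ch_off (not_not.2 h)
    have e0 : ∀ P : Prop, ch P (0:ℝ) = 0 := fun P => by
      by_cases hP : P
      · rw [ch_on hP]
      · rw [ch_off hP]
    rw [h2, e, e0, e0, ch_on h]
    ring
  · have h2 : E0D D wr p b z x = _ := E0G_off h
    have e : EU D wr p b z x = sh p (fde D wr p b z) (D.gc wr p b z) x *
        et (D.h p (D.cP p b) z) (fB1 D wr p b z) (fde D wr p b z) (p * x) := ch_on h
    rw [h2, ← e, ch_off h]
    by_cases ht : T p b z (p * x)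
    · rw [ch_on ht, ch_off (not_not.2 ht)]; ring
    · rw [ch_off ht, ch_on ht]; ring

/-- mean of the separated gains, without the mismatch -/
lemma Ep_gs' (z : ζ) (y : ℝ) : Ep p (gs D wr p b z) y ≤ 1 / (p : ℝ) * (rho D wr p b z y +
    ch (mrk D p b z y) (nuy D wr p b z y + fm D wr p b z y)) := by
  by_cases h : mrk D p b z y
  · rw [ch_on h]
    have h1 := Ep_gs H hb hp z y
    unfold evt at h1
    rw [cho_on h] at h1
    exact h1
  · rw [ch_off h, add_zero]
    have hr := (Prho H hb hp z).nonneg y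
    have e : Ep p (gs D wr p b z) y = 0 := by
      unfold Ep
      rw [Finset.sum_eq_zero fun i hi => ?_, zero_div]
      have hS : ¬ D.spc p b z ((y + (i : ℕ)) / p) := fun h' => h ⟨i, hi, h'⟩
      unfold gs
      refine Finset.sum_eq_zero fun c _ => ?_
      exact ch_off fun h' => hS h'.1
    rw [e]
    exact mul_nonneg (w0 H hb hp) hr

/-- **mean of the linear rest** -/
lemma Ep_e1 (y : ℝ) : Ep p ((rowsT H T hT).e1 p b) y ≤ 2 / (p : ℝ) * ∑ z,
    (rho D wr p b z y + (ch (mrk D p b z y) (nuy D wr p b z y) +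
      ch (¬ mrk D p b z y ∧ ¬ T p b z y) (etz D wr p b z y) + fm D wr p b z y)) := by
  have hp0 : 0 < p := Nat.pos_of_ne_zero hp
  have hw := w0 H hb hp
  have e1 : Ep p ((rowsT H T hT).e1 p b) y = ∑ z,
      (((ch (mrk D p b z y) (1 / (p : ℝ) * nuy D wr p b z y) +
        ch (¬ T p b z y) (ch (¬ mrk D p b z y) (1 / (p : ℝ) * etz D wr p b z y))) +
        1 / (p : ℝ) * fm D wr p b z y) + (Ep p (gm D wr p b z) y + Ep p (gs D wr p b z) y)) := by
    have h1 : (rowsT H T hT).e1 p b = fun x => ∑ z,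
      (((ch (mrk D p b z (p * x)) (fNu D wr p b z x) +
      ch (¬ T p b z (p * x)) (EU D wr p b z x)) + 1 / (p : ℝ) * fm D wr p b z (p * x)) +
      (gm D wr p b z x + gs D wr p b z x)) := funext fun x => e1_eq H T hT hb hp x
    rw [h1, DTo407.Ep_sum']
    refine Finset.sum_congr rfl fun z _ => ?_
    rw [Ep_add', Ep_add', Ep_add', Ep_add', Ep_nu H hb hp]
    have k1 : Ep p (fun x => ch (¬ T p b z (p * x)) (EU D wr p b z x)) y =
        ch (¬ T p b z y) (ch (¬ mrk D p b z y) (1 / (p : ℝ) * etz D wr p b z y)) := by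
      rw [← Ep_EU H hb hp]
      exact Ep_ch hp0 (P := fun y => ¬ T p b z y)
        (fun y => by
          have := (hT hb hp z).per y
          simp only [this]) (EU D wr p b z) y
    have k2 : Ep p (fun x => 1 / (p : ℝ) * fm D wr p b z (p * x)) y =
        1 / (p : ℝ) * fm D wr p b z y := by
      rw [Ep_smul', Ep_cst hp0 (Pfm H hb hp z)]
    rw [k1, k2]
  rw [e1, Finset.mul_sum]
  refine Finset.sum_le_sum fun z _ => ?_
  have g1 := Ep_gm H hb hp z y
  have g2 := Ep_gs' H hb hp z y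
  have n1 := (Pfm H hb hp z).nonneg y
  have n2 := (Prho H hb hp z).nonneg y
  have n3 : 0 ≤ etz D wr p b z y := et_nonneg H hb hp y
  have e2 : ch (¬ T p b z y) (ch (¬ mrk D p b z y) (1 / (p : ℝ) * etz D wr p b z y)) =
      1 / (p : ℝ) * ch (¬ mrk D p b z y ∧ ¬ T p b z y) (etz D wr p b z y) := by
    rw [ch_and]
    by_cases h : ¬ mrk D p b z y ∧ ¬ T p b z y
    · rw [ch_on h, ch_on (And.comm.1 h)]
    · rw [ch_off h, ch_off fun h' => h (And.comm.1 h'), mul_zero]
  have n4 : 0 ≤ ch (¬ mrk D p b z y ∧ ¬ T p b z y) (etz D wr p b z y) := ch_nonneg n3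
  rw [e2]
  have m4 := mul_nonneg hw n4
  have m2 := mul_nonneg hw n2
  have m1 := mul_nonneg hw n1
  have e3 : 2 / (p : ℝ) * (rho D wr p b z y + (ch (mrk D p b z y) (nuy D wr p b z y) +
      ch (¬ mrk D p b z y ∧ ¬ T p b z y) (etz D wr p b z y) + fm D wr p b z y)) =
      2 * (1 / (p : ℝ) * rho D wr p b z y) +
      2 * (1 / (p : ℝ) * ch (mrk D p b z y) (nuy D wr p b z y)) +
      2 * (1 / (p : ℝ) * ch (¬ mrk D p b z y ∧ ¬ T p b z y) (etz D wr p b z y)) +
      2 * (1 / (p : ℝ) * fm D wr p b z y) := by ring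
  rw [e3]
  by_cases h : mrk D p b z y
  · rw [ch_on h] at g2 ⊢
    rw [ch_on h]
    rw [mul_add, mul_add] at g2
    linarith
  · rw [ch_off h] at g2 ⊢
    rw [ch_off h]
    rw [add_zero] at g2
    linarith

end rest

/-! ### the linear rest by the pieces -/

section pieces
variable (H : TYp wr D Inv) (hb : Inv p b) (hp : p ≠ 0)
include H hb hp

variable (T : ℕ → μ × List (DT Λ κ) → ζ → ℝ → Prop)
    (hT : ∀ {p b}, Inv p b → p ≠ 0 → ∀ z, MP (T p b z))

/-- the P resp. N pieces with a predicate, of types which are not located -/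
def nl (T : ℕ → μ × List (DT Λ κ) → ζ → ℝ → Prop) (D : TD μ Λ κ ζ) (p : ℕ)
    (b : μ × List (DT Λ κ)) (R : ℝ → Λ → Prop) (y : ℝ) (j : Λ) : Prop :=
  ∃ z, D.lt p b.1 y j = some z ∧ ¬ T p b z y ∧ R y j

/-- **the linear rest of the births by the pieces** -/
theorem e1_pieces {R S : ℝ → Λ → Prop} (hS : ∀ y j, S (y + 1) j = S y j) {y : ℝ}
    (hRS : ∀ z j i, ¬ mrk D p b z y → ¬ T p b z y → D.lt p b.1 y j = some z →
      D.lt p b.1 y i = some z → pA (bB p b.2) j y ≠ 0 → pB (bB p b.2) i y ≠ 0 →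
      wr p j ≠ wr p i → R y j ∨ S y i) :
    Ep p ((rowsT H T hT).e1 p b) y ≤
      2 * (1 / (p : ℝ) * ∑ j, EP D wr (nl T D p b R) p b y j * pA (bB p b.2) j y +
      Ep p (fun x => ∑ j, EN D wr (nl T D p b S) p b x j * eg (wr p) p (bB p b.2) j x) y) := by
  have hw := w0 H hb hp
  have h1 := Ep_e1 H T hT hb hp y
  have h2 := sum_rho H hb hp y
  have h3 := sum_fm H hb hp y
  have h4 := sum_etQ H hb hp (Q := fun z => ¬ mrk D p b z y ∧ ¬ T p b z y) (R := R y) (S := S y)
    (y := y) fun z j i h => hRS z j i h.1 h.2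
  have hS' : ∀ y j, nl T D p b S (y + 1) j = nl T D p b S y j := fun y j => by
    have e1 := (H.mlt p b.1 j).per y
    have e2 : ∀ z, T p b z (y + 1) = T p b z y := fun z => (hT hb hp z).per y
    unfold nl
    simp only [e1, e2, hS]
  simp only [← show ∀ z, etz D wr p b z y = et (D.h p (D.cP p b) z) (fB1 D wr p b z)
    (fde D wr p b z) y from fun z => rfl] at h4
  have e5 := pcP (D := D) (wr := wr) (p := p) (b := b) (nl T D p b R) y
  have e6 := pcN H hb hp hS' y
  have k1 : ∑ j, ch (∃ z, D.lt p b.1 y j = some z ∧ (¬ mrk D p b z y ∧ ¬ T p b z y) ∧ R y j)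
      (pA (bB p b.2) j y) =
      ∑ j, ch (∃ z, D.lt p b.1 y j = some z ∧ ¬ mrk D p b z y ∧ nl T D p b R y j)
      (pA (bB p b.2) j y) := by
    refine Finset.sum_congr rfl fun j _ => ch_congr ⟨?_, ?_⟩
    · rintro ⟨z, h1, ⟨h2, h3⟩, h4⟩
      exact ⟨z, h1, h2, z, h1, h3, h4⟩
    · rintro ⟨z, h1, h2, z', h3, h4, h5⟩
      rw [h1] at h3
      cases h3
      exact ⟨z, h1, ⟨h2, h4⟩, h5⟩
  have k2 : ∑ j, ch (∃ z, D.lt p b.1 y j = some z ∧ (¬ mrk D p b z y ∧ ¬ T p b z y) ∧ S y j)
      ((1 - rf wr p b (wr p j) y) * pB (bB p b.2) j y) =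
      ∑ j, ch (∃ z, D.lt p b.1 y j = some z ∧ ¬ mrk D p b z y ∧ nl T D p b S y j)
      ((1 - rf wr p b (wr p j) y) * pB (bB p b.2) j y) := by
    refine Finset.sum_congr rfl fun j _ => ch_congr ⟨?_, ?_⟩
    · rintro ⟨z, h1, ⟨h2, h3⟩, h4⟩
      exact ⟨z, h1, h2, z, h1, h3, h4⟩
    · rintro ⟨z, h1, h2, z', h3, h4, h5⟩
      rw [h1] at h3
      cases h3
      exact ⟨z, h1, ⟨h2, h4⟩, h5⟩
  rw [k1, k2] at h4
  rw [← e5, ← e6]
  have h6 : 2 / (p : ℝ) * ∑ z, (rho D wr p b z y + (ch (mrk D p b z y) (nuy D wr p b z y) +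
      ch (¬ mrk D p b z y ∧ ¬ T p b z y) (etz D wr p b z y) + fm D wr p b z y)) =
      2 * (1 / (p : ℝ) * ((∑ z, rho D wr p b z y + ∑ z, fm D wr p b z y +
        ∑ z, ch (¬ mrk D p b z y ∧ ¬ T p b z y) (etz D wr p b z y)) +
        ∑ z, ch (mrk D p b z y) (nuy D wr p b z y))) := by
    rw [← Finset.sum_add_distrib, ← Finset.sum_add_distrib, ← Finset.sum_add_distrib,
      Finset.mul_sum, Finset.mul_sum, Finset.mul_sum]
    exact Finset.sum_congr rfl fun z _ => by ring
  rw [h6] at h1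
  refine h1.trans (mul_le_mul_of_nonneg_left ?_ (by norm_num))
  have h7 := mul_le_mul_of_nonneg_left (add_le_add (add_le_add h2 h3) h4) hw
  linarith

/-- **the linear rest of the births as rates** -/
theorem e1_rate {R S : ℝ → Λ → Prop} (hR : ∀ y j, R (y + 1) j = R y j)
    (hS : ∀ y j, S (y + 1) j = S y j) {y : ℝ}
    (hRS : ∀ z j i, ¬ mrk D p b z y → ¬ T p b z y → D.lt p b.1 y j = some z →
      D.lt p b.1 y i = some z → pA (bB p b.2) j y ≠ 0 → pB (bB p b.2) i y ≠ 0 →
      wr p j ≠ wr p i → R y j ∨ S y i) :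
    14 * Ep p ((rowsT H T hT).e1 p b) y ≤ ∑ j, Ep p (fun x =>
      28 * (1 / ((p : ℝ) - 1) * EP D wr (nl T D p b R) p b (p * x) j +
        EN D wr (nl T D p b S) p b x j) * vT p (bB p b.2) j x) y := by
  have hR' : ∀ y j, nl T D p b R (y + 1) j = nl T D p b R y j := fun y j => by
    have e1 := (H.mlt p b.1 j).per y
    have e2 : ∀ z, T p b z (y + 1) = T p b z y := fun z => (hT hb hp z).per y
    unfold nl
    simp only [e1, e2, hR]
  have h1 := e1_pieces H hb hp T hT hS hRS
  have h2 := to_rate H hb hp (S := nl T D p b S) hR' y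
  have e4 : ∑ j, Ep p (fun x => 28 * (1 / ((p : ℝ) - 1) * EP D wr (nl T D p b R) p b (p * x) j +
      EN D wr (nl T D p b S) p b x j) * vT p (bB p b.2) j x) y =
      28 * ∑ j, Ep p (fun x => (1 / ((p : ℝ) - 1) * EP D wr (nl T D p b R) p b (p * x) j +
      EN D wr (nl T D p b S) p b x j) * vT p (bB p b.2) j x) y := by
    rw [Finset.mul_sum]
    refine Finset.sum_congr rfl fun j _ => ?_
    rw [← Ep_smul']
    congr 1
    funext x
    ring
  rw [e4]
  linarith

/-! ### the located births by the pieces -/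

/-- weight of a P piece: of the located types, cross share and a missing mate of another real class -/
noncomputable def wL (D : TD μ Λ κ ζ) (wr : ℕ → Λ → κ) (T : ℕ → μ × List (DT Λ κ) → ζ → ℝ → Prop)
    (p : ℕ) (b : μ × List (DT Λ κ)) (C : ζ → ℝ → ℝ) (y : ℝ) (j : Λ) : ℝ :=
  ∑ z, ch (D.lt p b.1 y j = some z ∧ T p b z y ∧ ¬ mrk D p b z y) (C z y *
    (xw D wr p b y j + ch (∃ i, D.lt p b.1 y i = some z ∧ pB (bB p b.2) i y ≠ 0 ∧
      wr p j ≠ wr p i) 1))

/-- **the mean of the located births, P pieces** -/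
theorem loc_P {C : ζ → ℝ → ℝ} (hC : ∀ z, PB (C z)) (y : ℝ) :
    Ep p (fun x => ∑ z, C z (p * x) * (rowsT H T hT).E2 p b z x) y ≤
      1 / (p : ℝ) * ∑ j, wL D wr T p b C y j * pA (bB p b.2) j y := by
  have hp0 : 0 < p := Nat.pos_of_ne_zero hp
  have hw := w0 H hb hp
  have e1 : Ep p (fun x => ∑ z, C z (p * x) * (rowsT H T hT).E2 p b z x) y =
      ∑ z, C z y * (1 / (p : ℝ) * ch (T p b z y ∧ ¬ mrk D p b z y) (etz D wr p b z y)) := by
    rw [DTo407.Ep_sum']
    refine Finset.sum_congr rfl fun z _ => ?_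
    have e2 : (rowsT H T hT).E2 p b z = fun x => ch (T p b z (p * x)) (EU D wr p b z x) :=
      funext fun x => E2_T H T hT z x
    rw [Ep_fib hp0 (hC z), e2, Ep_ch hp0 (P := fun y => T p b z y)
        (fun y => (hT hb hp z).per y) (EU D wr p b z) y, Ep_EU H hb hp, ch_and]
    by_cases h : T p b z y ∧ ¬ mrk D p b z y
    · rw [ch_on h, ch_on h]
    · rw [ch_off h, ch_off h, mul_zero, mul_zero, mul_zero]
  rw [e1]
  have e3 : ∀ z, ch (T p b z y ∧ ¬ mrk D p b z y) (etz D wr p b z y) ≤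
      ∑ j, ch (D.lt p b.1 y j = some z ∧ T p b z y ∧ ¬ mrk D p b z y)
        ((xw D wr p b y j + ch (∃ i, D.lt p b.1 y i = some z ∧ pB (bB p b.2) i y ≠ 0 ∧
      wr p j ≠ wr p i) 1) * pA (bB p b.2) j y) := by
    intro z
    by_cases h : T p b z y ∧ ¬ mrk D p b z y
    · rw [ch_on h]
      have h1 := et_le H hb hp (z := z) (y := y)
        (R := fun j => ∃ i, D.lt p b.1 y i = some z ∧ pB (bB p b.2) i y ≠ 0 ∧ wr p j ≠ wr p i)
        (S := fun _ => False) fun j i h1 h2 h3 h4 h5 => Or.inl ⟨i, h2, h4, h5⟩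
      refine h1.trans ?_
      have h0 : ∑ j, ch (D.lt p b.1 y j = some z ∧ False)
          ((1 - rf wr p b (wr p j) y) * pB (bB p b.2) j y) = 0 :=
        Finset.sum_eq_zero fun j _ => ch_off fun h' => h'.2
      rw [h0, add_zero, ← Finset.sum_add_distrib]
      refine Finset.sum_le_sum fun j _ => ?_
      by_cases hj : D.lt p b.1 y j = some z
      · rw [ch_on hj, ch_on (P := D.lt p b.1 y j = some z ∧ T p b z y ∧ ¬ mrk D p b z y) ⟨hj, h⟩,
          add_mul]
        refine add_le_add le_rfl (le_of_eq ?_)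
        by_cases h2 : ∃ i, D.lt p b.1 y i = some z ∧ pB (bB p b.2) i y ≠ 0 ∧ wr p j ≠ wr p i
        · rw [ch_on ⟨hj, h2⟩, ch_on h2, one_mul]
        · rw [ch_off fun h' => h2 h'.2, ch_off h2, zero_mul]
      · rw [ch_off hj, ch_off fun h' => hj h'.1, ch_off fun h' => hj h'.1, add_zero]
    · rw [ch_off h]
      exact Finset.sum_nonneg fun j _ => ch_nonneg (mul_nonneg (add_nonneg (xw0 H hb hp y j)
        (ch_nonneg zero_le_one)) (pA0 H hb hp j y))
  have e4 : ∑ z, C z y * (1 / (p : ℝ) * ch (T p b z y ∧ ¬ mrk D p b z y) (etz D wr p b z y)) ≤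
      ∑ z, 1 / (p : ℝ) * ∑ j, ch (D.lt p b.1 y j = some z ∧ T p b z y ∧ ¬ mrk D p b z y)
        (C z y * (xw D wr p b y j + ch (∃ i, D.lt p b.1 y i = some z ∧
          pB (bB p b.2) i y ≠ 0 ∧ wr p j ≠ wr p i) 1)) * pA (bB p b.2) j y := by
    refine Finset.sum_le_sum fun z _ => ?_
    have h1 := mul_le_mul_of_nonneg_left (mul_le_mul_of_nonneg_left (e3 z) hw) ((hC z).nonneg y)
    refine h1.trans (le_of_eq ?_)
    rw [← mul_assoc, mul_comm (C z y), mul_assoc, Finset.mul_sum]
    congr 1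
    refine Finset.sum_congr rfl fun j _ => ?_
    by_cases h : D.lt p b.1 y j = some z ∧ T p b z y ∧ ¬ mrk D p b z y
    · rw [ch_on h, ch_on h]; ring
    · rw [ch_off h, ch_off h, mul_zero, zero_mul]
  refine e4.trans (le_of_eq ?_)
  rw [← Finset.mul_sum, Finset.sum_comm]
  congr 1
  refine Finset.sum_congr rfl fun j _ => ?_
  unfold wL
  rw [Finset.sum_mul]

/-- **the mean of the located births as rates of the content above** -/
theorem loc_rate {C : ζ → ℝ → ℝ} (hC : ∀ z, PB (C z)) (y : ℝ) :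
    Ep p (fun x => ∑ z, C z (p * x) * (rowsT H T hT).E2 p b z x) y ≤
      ∑ j, Ep p (fun x => 1 / ((p : ℝ) - 1) * wL D wr T p b C (p * x) j *
        vT p (bB p b.2) j x) y := by
  have Kk := H.bok hb hp
  refine (loc_P H hb hp T hT hC y).trans (P_rate H hb hp (E := wL D wr T p b C) ?_ ?_ y)
  · exact fun y j => Finset.sum_nonneg fun z _ => ch_nonneg (mul_nonneg ((hC z).nonneg y)
      (add_nonneg (xw0 H hb hp y j) (ch_nonneg zero_le_one)))
  · intro j y
    have e2 := fun i => (H.mlt p b.1 i).per y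
    have e3 : ∀ z, mrk D p b z (y + 1) = mrk D p b z y := fun z => (mmk H hp z).per y
    have e4 := xw_per H hb hp y j
    have e5 : ∀ z, T p b z (y + 1) = T p b z y := fun z => (hT hb hp z).per y
    have e6 := fun i => (Kk.PBb i).per y
    have e7 := fun z => (hC z).per y
    unfold wL
    simp only [e2, e3, e4, e5, e6, e7]

/-- **the located births at a point, missing pieces** -/
theorem loc_N {c : ζ → ℝ} (hc : ∀ z, 0 ≤ c z) (x : ℝ) :
    ∑ z, c z * (rowsT H T hT).E2 p b z x ≤
      ∑ i, (∑ z, ch (D.lt p b.1 (p * x) i = some z ∧ T p b z (p * x) ∧ ¬ mrk D p b z (p * x))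
        (c z)) * eg (wr p) p (bB p b.2) i x := by
  have Kk := H.bok hb hp
  have hp0 : 0 < p := Nat.pos_of_ne_zero hp
  have he := fun i => (PB_eg Kk i).nonneg x
  have e1 : ∀ z, c z * (rowsT H T hT).E2 p b z x ≤ ∑ i, ch (D.lt p b.1 (p * x) i = some z ∧
      T p b z (p * x) ∧ ¬ mrk D p b z (p * x)) (c z) * eg (wr p) p (bB p b.2) i x := by
    intro z
    rw [E2_T]
    by_cases h : T p b z (p * x) ∧ ¬ mrk D p b z (p * x)
    · rw [ch_on h.1]
      have h1 := mul_le_mul_of_nonneg_left (EU_le_gc H hb hp z x) (hc z)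
      refine h1.trans (le_of_eq ?_)
      rw [gc_eq H hb hp, Finset.mul_sum]
      refine Finset.sum_congr rfl fun i _ => ?_
      by_cases hi : D.lt p b.1 (p * x) i = some z
      · rw [ch_on hi, ch_on ⟨hi, h⟩]
      · rw [ch_off hi, ch_off fun h' => hi h'.1, mul_zero, zero_mul]
    · have h0 : ch (T p b z (p * x)) (EU D wr p b z x) = 0 := by
        by_cases ht : T p b z (p * x)
        · rw [ch_on ht]
          exact ch_off fun hm => h ⟨ht, hm⟩
        · exact ch_off ht
      rw [h0, mul_zero]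
      exact Finset.sum_nonneg fun i _ => mul_nonneg (ch_nonneg (hc z)) (he i)
  refine (Finset.sum_le_sum fun z _ => e1 z).trans (le_of_eq ?_)
  rw [Finset.sum_comm]
  refine Finset.sum_congr rfl fun i _ => ?_
  rw [Finset.sum_mul]

end pieces

end

end Crest.Agent.R4P.DTs407
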