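import Crest.Agent.R4P.BthU_48
import Crest.Agent.R4P.DTs_407

/-!
R4 (S0004) with powers, T3, helper48: **births of the unmarked typed rows, pair by pair**.

For a relation `T y j i` between the P pieces `j` and the N pieces `i` (second order pairs) and a set
`Lo y i` of N pieces (located births of second order):
* `cr P`, `crG P` : amount of the cross plan on the pairs of `P`, and its lifts; `ecr P` : energy;
  `mm P`, `emm P` : the same for the unmatched contents of one type;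
* `kT`, `etT`, `EtT` : the part of the mismatch which is of second order;
* **`rowsW`** : rows with the second order births `crG + EtT + spread`; **`e1_W`** : the linear rest is
  `≤ 4/p (∑_j [R j] A_j + ∑_i [S i] B_i)` for all `R`, `S` which meet every pair which is not in `T`;
* **`sum_nW`** : `∑_z n1 + n2 ≤ 4 PN1 + 10 m₀ PN2` (energies of the pairs of `T`), `fibW`, **`I_xW`**.
-/

set_option autoImplicit false
set_option linter.unusedSectionVars false
set_option linter.unusedVariables false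
open MeasureTheory Filter Set

namespace Crest.Agent.R4P.BthW48

open Crest.Agent.R4.Tour104 Crest.Agent.R4.Tour758 Crest.Agent.R4.Clos758 Crest.Agent.R4.ClosL758
open Crest.Agent.R4P.Grp36 Crest.Agent.R4P.GWa343 Crest.Agent.R4P.GWb343
open Crest.Agent.R4P.GWc343 hiding SB
open Crest.Agent.R4P.GWd343 Crest.Agent.R4P.GCol27 Crest.Agent.R4P.TrR343
open Crest.Agent.R4P.DTp26 Crest.Agent.R4P.VR407 Crest.Agent.R4P.Bp407 Crest.Agent.R4P.MSd343
open Crest.Agent.R4P.DTm407 Crest.Agent.R4P.DTn407 Crest.Agent.R4P.DTn407.TD'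
open Crest.Agent.R4P.DTo407 Crest.Agent.R4P.DTo407.TD'
open Crest.Agent.R4P.DTe407 hiding ch_mul
open Crest.Agent.R4P.DTs407
open Crest.Agent.R4P.TyS16 (TRaw TRow GMU mkMU cho cho_on cho_off PB_cho z0 asm hPP jA eA Fam frP
  et sh HU Ep_mono_fib Ep_fib Ep_cst Ep_smul' Ep_add' jz gm_eq gs_eq)
open Crest.Agent.R4P.TyR16 (mnR spR rV dd)
open Crest.Agent.R4P.Walk560 (DT)
open Crest.Agent.R4P.RXm55 Crest.Agent.R4P.MSm25 Crest.Agent.R4P.RSys343
open Crest.Agent.R4P.BthR48 Crest.Agent.R4P.BthS48 Crest.Agent.R4P.BthT48 Crest.Agent.R4P.BthU48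
open Crest.Agent.R4P.GMer27 (M M_mono M_add M_smul M_nonneg)

section
variable {μ Λ κ ζ : Type} [Fintype Λ] [DecidableEq Λ] [Fintype κ] [DecidableEq κ]
  [Fintype ζ] [DecidableEq ζ]
variable {wr : ℕ → Λ → κ} {D : TD μ Λ κ ζ} {Inv : ℕ → μ × List (DT Λ κ) → Prop} {p : ℕ}
  {b : μ × List (DT Λ κ)}

/-! ### definitions -/

section defs
variable (D : TD μ Λ κ ζ) (wr : ℕ → Λ → κ) (p : ℕ) (b : μ × List (DT Λ κ))

/-- P side of the plan -/
noncomputable def fA (j : Λ) (y : ℝ) : ℝ :=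
  rf wr p b (wr p j) y * (pA (bB p b.2) j y / SA (wr p) (bB p b.2) (wr p j) y)

/-- cross pair: one real class, different low types -/
def XX (y : ℝ) (j i : Λ) : Prop := wr p i = wr p j ∧ D.lt p b.1 y i ≠ D.lt p b.1 y j

/-- amount of the plan on the cross pairs of `P` -/
noncomputable def cr (P : ℝ → Λ → Λ → Prop) (y : ℝ) : ℝ :=
  ∑ j, ∑ i, ch (XX D wr p b y j i ∧ P y j i) (fA wr p b j y * pB (bB p b.2) i y)

/-- the lifts -/
noncomputable def crG (P : ℝ → Λ → Λ → Prop) (x : ℝ) : ℝ :=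
  ∑ j, ∑ i, ch (XX D wr p b (p * x) j i ∧ P (p * x) j i)
    (fA wr p b j (p * x) * pG (bB p b.2) i x)

/-- energy of the cross pairs of `P` -/
noncomputable def ecr (P : ℝ → Λ → Λ → Prop) (y : ℝ) : ℝ :=
  ∑ j, ∑ i, ch (XX D wr p b y j i ∧ P y j i) (pA (bB p b.2) j y * pB (bB p b.2) i y)

/-- unmatched P and N content of a piece -/
noncomputable def uA (j : Λ) (y : ℝ) : ℝ := (1 - ra wr p b (wr p j) y) * pA (bB p b.2) j y
noncomputable def uB (i : Λ) (y : ℝ) : ℝ := (1 - rf wr p b (wr p i) y) * pB (bB p b.2) i y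

/-- unmatched pairs of one type -/
noncomputable def mm (P : ℝ → Λ → Λ → Prop) (z : ζ) (y : ℝ) : ℝ :=
  ∑ j, ∑ i, ch (D.lt p b.1 y j = some z ∧ D.lt p b.1 y i = some z ∧ P y j i)
    (uA wr p b j y * uB wr p b i y)

/-- energy of the pairs of one type and different real classes -/
noncomputable def emm (P : ℝ → Λ → Λ → Prop) (z : ζ) (y : ℝ) : ℝ :=
  ∑ j, ∑ i, ch (D.lt p b.1 y j = some z ∧ D.lt p b.1 y i = some z ∧ wr p j ≠ wr p i ∧ P y j i)
    (pA (bB p b.2) j y * pB (bB p b.2) i y)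

/-- excess of the P content of a type -/
noncomputable def eX (z : ζ) (y : ℝ) : ℝ := ∑ c, rA D wr p b z c y - ∑ c, mx D wr p b z c y
/-- normalization of the mismatch -/
noncomputable def nX (z : ζ) (y : ℝ) : ℝ := max (eX D wr p b z y) (fde D wr p b z y)

variable (T : ℝ → Λ → Λ → Prop) (Lo : ℝ → Λ → Prop)

/-- P content of the type, cross pairs of `T` -/
noncomputable def MaT (z : ζ) (y : ℝ) : ℝ := cr D wr p b (fun y j i => D.lt p b.1 y j = some z ∧ T y j i) y
/-- N content of the type, cross pairs of `T` -/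
noncomputable def MbT (z : ζ) (y : ℝ) : ℝ := cr D wr p b (fun y j i => D.lt p b.1 y i = some z ∧ T y j i) y
noncomputable def LgT (z : ζ) (x : ℝ) : ℝ := crG D wr p b (fun y j i => D.lt p b.1 y i = some z ∧ T y j i) x

/-- second order share of the excess of an N piece -/
noncomputable def kT (z : ζ) (i : Λ) (y : ℝ) : ℝ :=
  (∑ j, ch (D.lt p b.1 y j = some z ∧ T y j i) (uA wr p b j y) +
    ch (Lo y i) (MaT D wr p b T z y)) / nX D wr p b z y
/-- second order part of the mismatch -/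
noncomputable def etT (z : ζ) (y : ℝ) : ℝ :=
  ∑ i, ch (D.lt p b.1 y i = some z) (kT D wr p b T Lo z i y * uB wr p b i y)
noncomputable def EtT (z : ζ) (x : ℝ) : ℝ :=
  ∑ i, ch (D.lt p b.1 (p * x) i = some z)
    (kT D wr p b T Lo z i (p * x) * eg (wr p) p (bB p b.2) i x)

/-- located births of second order -/
noncomputable def ElT (z : ζ) (x : ℝ) : ℝ := EtT D wr p b T Lo z x + LgT D wr p b T z x
/-- spread births of second order -/
noncomputable def EsT (z : ζ) (x : ℝ) : ℝ :=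
  1 / (p : ℝ) * (MbT D wr p b T z (p * x) + MaT D wr p b T z (p * x))

end defs

/-! ### double sums -/

/-- double sum on a relation -/
noncomputable def dbl (f : Λ → Λ → ℝ) (P : Λ → Λ → Prop) : ℝ := ∑ j, ∑ i, ch (P j i) (f j i)

omit [DecidableEq Λ] in
lemma dbl_mono {f : Λ → Λ → ℝ} {P Q : Λ → Λ → Prop} (f0 : ∀ j i, 0 ≤ f j i)
    (h : ∀ j i, f j i ≠ 0 → P j i → Q j i) : dbl f P ≤ dbl f Q := by
  refine Finset.sum_le_sum fun j _ => Finset.sum_le_sum fun i _ => ?_
  by_cases hP : P j i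
  · by_cases h0 : f j i = 0
    · rw [ch_on hP, h0]; exact ch_nonneg le_rfl
    · rw [ch_on hP, ch_on (h j i h0 hP)]
  · rw [ch_off hP]; exact ch_nonneg (f0 j i)

omit [DecidableEq Λ] in
lemma dbl_nonneg {f : Λ → Λ → ℝ} {P : Λ → Λ → Prop} (f0 : ∀ j i, 0 ≤ f j i) : 0 ≤ dbl f P :=
  Finset.sum_nonneg fun j _ => Finset.sum_nonneg fun i _ => ch_nonneg (f0 j i)

omit [DecidableEq Λ] in
lemma dbl_le {f g : Λ → Λ → ℝ} {P Q : Λ → Λ → Prop} (g0 : ∀ j i, 0 ≤ g j i)
    (h : ∀ j i, f j i ≠ 0 → P j i → Q j i ∧ f j i ≤ g j i) : dbl f P ≤ dbl g Q := by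
  refine Finset.sum_le_sum fun j _ => Finset.sum_le_sum fun i _ => ?_
  by_cases hP : P j i
  · by_cases h0 : f j i = 0
    · rw [ch_on hP, h0]; exact ch_nonneg (g0 j i)
    · have h1 := h j i h0 hP
      rw [ch_on hP, ch_on h1.1]
      exact h1.2
  · rw [ch_off hP]; exact ch_nonneg (g0 j i)

omit [DecidableEq Λ] in
lemma dbl_or {f : Λ → Λ → ℝ} {P Q R : Λ → Λ → Prop} (f0 : ∀ j i, 0 ≤ f j i)
    (h : ∀ j i, f j i ≠ 0 → P j i → Q j i ∨ R j i) : dbl f P ≤ dbl f Q + dbl f R := by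
  unfold dbl
  rw [← Finset.sum_add_distrib]
  refine Finset.sum_le_sum fun j _ => ?_
  rw [← Finset.sum_add_distrib]
  refine Finset.sum_le_sum fun i _ => ?_
  have n1 := ch_nonneg (P := Q j i) (f0 j i)
  have n2 := ch_nonneg (P := R j i) (f0 j i)
  by_cases hP : P j i
  · by_cases h0 : f j i = 0
    · rw [ch_on hP, h0]
      exact add_nonneg (ch_nonneg le_rfl) (ch_nonneg le_rfl)
    · rw [ch_on hP]
      rcases h j i h0 hP with h1 | h1
      · rw [ch_on h1]; linarith
      · rw [ch_on (P := R j i) h1]; linarith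
  · rw [ch_off hP]; linarith

omit [DecidableEq Λ] in
/-- a selector with at most one value -/
lemma dbl_sel {ω : Type*} [Fintype ω] {f : Λ → Λ → ℝ} {s : ω → Λ → Λ → Prop} {P : Λ → Λ → Prop}
    (f0 : ∀ j i, 0 ≤ f j i) (hs : ∀ w w' j i, s w j i → s w' j i → w = w') :
    ∑ w, dbl f (fun j i => s w j i ∧ P j i) ≤ dbl f P := by
  classical
  unfold dbl
  rw [Finset.sum_comm]
  refine Finset.sum_le_sum fun j _ => ?_
  rw [Finset.sum_comm]
  refine Finset.sum_le_sum fun i _ => ?_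
  by_cases hP : P j i
  · rw [ch_on hP]
    by_cases he : ∃ w, s w j i
    · obtain ⟨w, hw⟩ := he
      rw [Finset.sum_eq_single w]
      · rw [ch_on ⟨hw, hP⟩]
      · intro w' _ hne
        exact ch_off fun h => hne (hs _ _ j i h.1 hw)
      · intro h; exact absurd (Finset.mem_univ _) h
    · push Not at he
      rw [Finset.sum_eq_zero fun w _ => ch_off fun h => he w h.1]
      exact f0 j i
  · rw [Finset.sum_eq_zero fun w _ => ch_off fun h => hP h.2, ch_off hP]

omit [DecidableEq Λ] in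
/-- a total selector -/
lemma dbl_cls {ω : Type*} [Fintype ω] (k : Λ → Λ → ω) (f : Λ → Λ → ℝ) (P : Λ → Λ → Prop) :
    dbl f P = ∑ w, dbl f (fun j i => k j i = w ∧ P j i) := by
  classical
  unfold dbl
  symm
  rw [Finset.sum_comm]
  refine Finset.sum_congr rfl fun j _ => ?_
  rw [Finset.sum_comm]
  refine Finset.sum_congr rfl fun i _ => ?_
  rw [Finset.sum_eq_single (k j i)]
  · exact ch_congr ⟨fun h => h.2, fun h => ⟨rfl, h⟩⟩
  · intro w' _ hne
    exact ch_off fun h => hne h.1.symm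
  · intro h; exact absurd (Finset.mem_univ _) h

lemma sq_sum_le {ι : Type*} [DecidableEq ι] (s t : Finset ι) (f : ι → ℝ) {m : ℝ}
    (ht : ∀ i ∈ s, f i ≠ 0 → i ∈ t) (hm : (t.card : ℝ) ≤ m) :
    (∑ i ∈ s, f i) ^ 2 ≤ m * ∑ i ∈ s, f i ^ 2 := by
  classical
  have e1 : ∑ i ∈ s, f i = ∑ i ∈ s ∩ t, f i := by
    symm
    refine Finset.sum_subset Finset.inter_subset_left fun i hi hn => ?_
    by_contra h0
    exact hn (Finset.mem_inter.2 ⟨hi, ht i hi h0⟩)
  have e2 : ∑ i ∈ s ∩ t, f i ^ 2 ≤ ∑ i ∈ s, f i ^ 2 :=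
    Finset.sum_le_sum_of_subset_of_nonneg Finset.inter_subset_left fun i _ _ => sq_nonneg _
  have e3 := sq_sum_le_card_mul_sum_sq (s := s ∩ t) (f := f)
  have e4 : (((s ∩ t).card : ℕ) : ℝ) ≤ m :=
    le_trans (by exact_mod_cast Finset.card_le_card Finset.inter_subset_right) hm
  have e5 : 0 ≤ ∑ i ∈ s ∩ t, f i ^ 2 := Finset.sum_nonneg fun i _ => sq_nonneg _
  have e6 : 0 ≤ m := le_trans (Nat.cast_nonneg _) e4
  rw [e1]
  calc (∑ i ∈ s ∩ t, f i) ^ 2 ≤ ((s ∩ t).card : ℝ) * ∑ i ∈ s ∩ t, f i ^ 2 := e3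
    _ ≤ m * ∑ i ∈ s ∩ t, f i ^ 2 := mul_le_mul_of_nonneg_right e4 e5
    _ ≤ m * ∑ i ∈ s, f i ^ 2 := mul_le_mul_of_nonneg_left e2 e6

/-! ### monotonicity and sums -/

lemma ch_mono2 {P Q : Prop} {a : ℝ} (ha : 0 ≤ a) (h : P → Q) : ch P a ≤ ch Q a := DTe407.ch_imp h ha

section ev
variable (H : TYp wr D Inv) (hb : Inv p b) (hp : p ≠ 0)
include H hb hp

lemma PfA (j : Λ) : PB (fA wr p b j) :=
  (Prf H hb hp (wr p j)).mul (TyS16.PB_ratio ((H.bok hb hp).PA j) (PB_SA (H.bok hb hp) (wr p j))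
    fun y => by
      unfold SA sm
      exact Finset.single_le_sum (f := fun j => pA (bB p b.2) j y)
        (fun i _ => DTe407.pA0 H hb hp i y) (by simp))

lemma fA0 (j : Λ) (y : ℝ) : 0 ≤ fA wr p b j y := (PfA H hb hp j).nonneg y

lemma pG0 (j : Λ) (x : ℝ) : 0 ≤ pG (bB p b.2) j x := (PB_pG _ j).nonneg x

lemma pA_le (j : Λ) (y : ℝ) : pA (bB p b.2) j y ≤ SA (wr p) (bB p b.2) (wr p j) y := by
  unfold SA sm
  exact Finset.single_le_sum (f := fun j => pA (bB p b.2) j y)
    (fun i _ => DTe407.pA0 H hb hp i y) (by simp)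
lemma pB_le (j : Λ) (y : ℝ) : pB (bB p b.2) j y ≤ SB (wr p) (bB p b.2) (wr p j) y := by
  unfold SB sm
  exact Finset.single_le_sum (f := fun j => pB (bB p b.2) j y)
    (fun i _ => DTe407.pB0 H hb hp i y) (by simp)

lemma uA0 (j : Λ) (y : ℝ) : 0 ≤ uA wr p b j y :=
  mul_nonneg (sub_nonneg.2 (ra1 H hb hp _ y)) (DTe407.pA0 H hb hp j y)
lemma uB0 (j : Λ) (y : ℝ) : 0 ≤ uB wr p b j y :=
  mul_nonneg (rf1 H hb hp _ y) (DTe407.pB0 H hb hp j y)
lemma uA_le (j : Λ) (y : ℝ) : uA wr p b j y ≤ pA (bB p b.2) j y := by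
  have h1 := ra0 (wr := wr) H hb hp (wr p j) y
  have h2 := DTe407.pA0 H hb hp j y
  unfold uA
  nlinarith
lemma uB_le (j : Λ) (y : ℝ) : uB wr p b j y ≤ pB (bB p b.2) j y := by
  have h1 := rf0 (wr := wr) H hb hp (wr p j) y
  have h2 := DTe407.pB0 H hb hp j y
  unfold uB
  nlinarith

lemma PuA (j : Λ) : PB (uA wr p b j) :=
  (ModeS16.PB_sub (PB.const zero_le_one) (Pra H hb hp (wr p j)) fun y => ra1 H hb hp _ y).mul
    ((H.bok hb hp).PA j)
lemma PuB (j : Λ) : PB (uB wr p b j) := (Prf' H hb hp (wr p j)).mul ((H.bok hb hp).PBb j)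

lemma MXX (j i : Λ) : MP fun y => XX D wr p b y j i := by
  have h := (H.mlt p b.1 i).prod (H.mlt p b.1 j)
  exact h.map fun q => wr p i = wr p j ∧ q.1 ≠ q.2

omit hb hp in
lemma Mlt (z : ζ) (j : Λ) : MP fun y => D.lt p b.1 y j = some z := (H.mlt p b.1 j).map fun q => q = some z

lemma cr_nonneg (P : ℝ → Λ → Λ → Prop) (y : ℝ) : 0 ≤ cr D wr p b P y :=
  Finset.sum_nonneg fun j _ => Finset.sum_nonneg fun i _ =>
    ch_nonneg (mul_nonneg (fA0 H hb hp j y) (DTe407.pB0 H hb hp i y))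

lemma cr_mono {P Q : ℝ → Λ → Λ → Prop} {y : ℝ} (h : ∀ j i, XX D wr p b y j i →
    pA (bB p b.2) j y ≠ 0 → pB (bB p b.2) i y ≠ 0 → P y j i → Q y j i) :
    cr D wr p b P y ≤ cr D wr p b Q y := by
  refine Finset.sum_le_sum fun j _ => Finset.sum_le_sum fun i _ => ?_
  have n0 : 0 ≤ fA wr p b j y * pB (bB p b.2) i y :=
    mul_nonneg (fA0 H hb hp j y) (DTe407.pB0 H hb hp i y)
  by_cases h1 : XX D wr p b y j i ∧ P y j i
  · by_cases hA : pA (bB p b.2) j y = 0
    · have : fA wr p b j y = 0 := by unfold fA; rw [hA, zero_div, mul_zero]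
      rw [this, zero_mul]
      exact (ch_nonneg le_rfl).trans' (by rw [ch_on h1])
    · by_cases hB : pB (bB p b.2) i y = 0
      · rw [hB, mul_zero]
        exact (ch_nonneg le_rfl).trans' (by rw [ch_on h1])
      · rw [ch_on h1, ch_on ⟨h1.1, h j i h1.1 hA hB h1.2⟩]
  · rw [ch_off h1]
    exact ch_nonneg n0

omit H hb hp in
lemma cr_split (P Q : ℝ → Λ → Λ → Prop) (y : ℝ) : cr D wr p b P y =
    cr D wr p b (fun y j i => P y j i ∧ Q y j i) y +
      cr D wr p b (fun y j i => P y j i ∧ ¬ Q y j i) y := by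
  unfold cr
  rw [← Finset.sum_add_distrib]
  refine Finset.sum_congr rfl fun j _ => ?_
  rw [← Finset.sum_add_distrib]
  refine Finset.sum_congr rfl fun i _ => ?_
  by_cases h1 : XX D wr p b y j i ∧ P y j i
  · by_cases h2 : Q y j i
    · rw [ch_on h1, ch_on ⟨h1.1, h1.2, h2⟩, ch_off fun h => h.2.2 h2, add_zero]
    · rw [ch_on h1, ch_off (P := XX D wr p b y j i ∧ P y j i ∧ Q y j i) fun h => h2 h.2.2,
        ch_on ⟨h1.1, h1.2, h2⟩, zero_add]
  · rw [ch_off h1, ch_off fun h => h1 ⟨h.1, h.2.1⟩, ch_off fun h => h1 ⟨h.1, h.2.1⟩, add_zero]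

omit H hb hp in
lemma crG_split (P Q : ℝ → Λ → Λ → Prop) (x : ℝ) : crG D wr p b P x =
    crG D wr p b (fun y j i => P y j i ∧ Q y j i) x +
      crG D wr p b (fun y j i => P y j i ∧ ¬ Q y j i) x := by
  unfold crG
  rw [← Finset.sum_add_distrib]
  refine Finset.sum_congr rfl fun j _ => ?_
  rw [← Finset.sum_add_distrib]
  refine Finset.sum_congr rfl fun i _ => ?_
  by_cases h1 : XX D wr p b (p * x) j i ∧ P (p * x) j i
  · by_cases h2 : Q (p * x) j i
    · rw [ch_on h1, ch_on ⟨h1.1, h1.2, h2⟩, ch_off fun h => h.2.2 h2, add_zero]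
    · rw [ch_on h1, ch_off (P := XX D wr p b (p * x) j i ∧ P (p * x) j i ∧ Q (p * x) j i)
          fun h => h2 h.2.2,
        ch_on ⟨h1.1, h1.2, h2⟩, zero_add]
  · rw [ch_off h1, ch_off fun h => h1 ⟨h.1, h.2.1⟩, ch_off fun h => h1 ⟨h.1, h.2.1⟩, add_zero]

lemma crG_nonneg (P : ℝ → Λ → Λ → Prop) (x : ℝ) : 0 ≤ crG D wr p b P x :=
  Finset.sum_nonneg fun j _ => Finset.sum_nonneg fun i _ =>
    ch_nonneg (mul_nonneg (fA0 H hb hp j _) (pG0 H hb hp i x))

lemma Pcr {P : ℝ → Λ → Λ → Prop} (hP : ∀ j i, MP fun y => P y j i) : PB (cr D wr p b P) :=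
  PB.sum _ fun j _ => PB.sum _ fun i _ => PB_ch (((MXX H hb hp j i).prod (hP j i)).map
    fun q => q.1 ∧ q.2) ((PfA H hb hp j).mul ((H.bok hb hp).PBb i))

lemma PcrG {P : ℝ → Λ → Λ → Prop} (hP : ∀ j i, MP fun y => P y j i) : PB (crG D wr p b P) :=
  PB.sum _ fun j _ => PB.sum _ fun i _ => PB_ch ((((MXX H hb hp j i).prod (hP j i)).map
    fun q => q.1 ∧ q.2).pull p) (((PfA H hb hp j).pull p).mul (PB_pG _ i))

lemma lift_crG {P : ℝ → Λ → Λ → Prop} (hP : ∀ j i, MP fun y => P y j i) :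
    Lift p (cr D wr p b P) (crG D wr p b P) := by
  have hp0 : 0 < p := Nat.pos_of_ne_zero hp
  intro y
  unfold crG cr
  rw [Finset.sum_comm]
  refine Finset.sum_congr rfl fun j _ => ?_
  rw [Finset.sum_comm]
  refine Finset.sum_congr rfl fun i _ => ?_
  have e1 : ∀ k ∈ Finset.range p, ch (XX D wr p b (p * ((y + (k:ℕ)) / p)) j i ∧
      P (p * ((y + (k:ℕ)) / p)) j i) (fA wr p b j (p * ((y + (k:ℕ)) / p)) *
      pG (bB p b.2) i ((y + (k:ℕ)) / p)) = ch (XX D wr p b y j i ∧ P y j i)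
        (fA wr p b j y * pG (bB p b.2) i ((y + (k:ℕ)) / p)) := fun k _ => by
    rw [fib_per hp0 (P := fun y => XX D wr p b y j i) (MXX H hb hp j i).per y k,
      fib_per hp0 (P := fun y => P y j i) (hP j i).per y k,
      fib_per hp0 (P := fun y => fA wr p b j y) (PfA H hb hp j).per y k]
  rw [Finset.sum_congr rfl e1]
  have e2 := (lift_pG (H.bok hb hp) i) y
  by_cases h : XX D wr p b y j i ∧ P y j i
  · simp only [ch_on h]
    rw [← Finset.mul_sum, e2]
  · simp only [ch_off h]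
    exact Finset.sum_const_zero

/-! ### the cross contents by pairs -/

/-- share of an N piece, by pairs -/
lemma yw_mul (y : ℝ) (i : Λ) (a : ℝ) : yw D wr p b y i * a =
    ∑ j, ch (XX D wr p b y j i) (fA wr p b j y * a) := by
  unfold yw
  rw [Finset.sum_mul, Finset.sum_mul]
  refine Finset.sum_congr rfl fun j _ => ?_
  by_cases h : XX D wr p b y j i
  · rw [ch_on h, ch_on ⟨h.1.symm, fun e => h.2 e.symm⟩]
    unfold fA
    rw [h.1]
    ring
  · rw [ch_off h, ch_off fun h' => h ⟨h'.1.symm, fun e => h'.2 e.symm⟩]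
    ring

/-- share of a P piece, by pairs -/
lemma xw_mul (y : ℝ) (j : Λ) : xw D wr p b y j * pA (bB p b.2) j y =
    ∑ i, ch (XX D wr p b y j i) (fA wr p b j y * pB (bB p b.2) i y) := by
  unfold xw
  rw [Finset.sum_mul, Finset.sum_mul]
  refine Finset.sum_congr rfl fun i _ => ?_
  by_cases h : XX D wr p b y j i
  · rw [ch_on h, ch_on ⟨h.1, h.2⟩]
    unfold fA
    ring
  · rw [ch_off (P := wr p i = wr p j ∧ D.lt p b.1 y i ≠ D.lt p b.1 y j) h, ch_off h]
    ring

lemma Mb_cr (z : ζ) (y : ℝ) :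
    Mb D wr p b z y = cr D wr p b (fun y j i => D.lt p b.1 y i = some z) y := by
  unfold Mb cr
  rw [dx_sum H hb hp, Finset.sum_comm]
  refine Finset.sum_congr rfl fun i _ => ?_
  by_cases h : D.lt p b.1 y i = some z
  · rw [ch_on h, yw_mul H hb hp]
    exact Finset.sum_congr rfl fun j _ => ch_congr ⟨fun k => ⟨k, h⟩, fun k => k.1⟩
  · rw [ch_off h]
    exact (Finset.sum_eq_zero fun j _ => ch_off fun k => h k.2).symm

lemma Ma_cr (z : ζ) (y : ℝ) :
    Ma D wr p b z y = cr D wr p b (fun y j i => D.lt p b.1 y j = some z) y := by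
  unfold Ma cr
  rw [cx_sum H hb hp]
  refine Finset.sum_congr rfl fun j _ => ?_
  by_cases h : D.lt p b.1 y j = some z
  · rw [ch_on h, xw_mul H hb hp]
    exact Finset.sum_congr rfl fun j _ => ch_congr ⟨fun k => ⟨k, h⟩, fun k => k.1⟩
  · rw [ch_off h]
    exact (Finset.sum_eq_zero fun j _ => ch_off fun k => h k.2).symm

lemma Lg_crG (z : ζ) (x : ℝ) :
    Lg D wr p b z x = crG D wr p b (fun y j i => D.lt p b.1 y i = some z) x := by
  have e1 := sum_w (wr p) (fun x => D.lt p b.1 (p * x)) (pG (bB p b.2)) (fun _ => True)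
    (fun c => rf wr p b c (p * x) * (1 - ri D wr p b z c (p * x))) (some z) x
  have e2 : Lg D wr p b z x = ∑ c, ch True (rf wr p b c (p * x) * (1 - ri D wr p b z c (p * x)) *
        cz (wr p) (fun x => D.lt p b.1 (p * x)) (pG (bB p b.2)) c (some z) x) := by
    refine Finset.sum_congr rfl fun c _ => ?_
    rw [ch_on trivial]
    rfl
  rw [e2, e1]
  unfold crG
  rw [Finset.sum_comm]
  refine Finset.sum_congr rfl fun i _ => ?_
  by_cases h : D.lt p b.1 (p * x) i = some z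
  · rw [ch_on ⟨h, trivial⟩]
    have e3 : SA (wr p) (bB p b.2) (wr p i) (p * x) - rA D wr p b z (wr p i) (p * x) =
        ∑ j, ch (wr p j = wr p i ∧ D.lt p b.1 (p * x) j ≠ D.lt p b.1 (p * x) i)
          (pA (bB p b.2) j (p * x)) := by
      have h1 := sum_cls (wr p) (D.lt p b.1) (pA (bB p b.2)) (wr p i) z (p * x)
      rw [h]
      exact h1
    have e4 : rf wr p b (wr p i) (p * x) * (1 - ri D wr p b z (wr p i) (p * x)) =
        yw D wr p b (p * x) i := by
      unfold yw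
      rw [← e3, sub_mul, SA_fs H hb hp]
      unfold ri
      ring
    rw [e4, yw_mul H hb hp]
    exact Finset.sum_congr rfl fun j _ => ch_congr ⟨fun k => ⟨k, h⟩, fun k => k.1⟩
  · rw [ch_off fun h' => h h'.1]
    exact (Finset.sum_eq_zero fun j _ => ch_off fun k => h k.2).symm


/-! ### the mismatch -/

lemma PeX (z : ζ) : PB (eX D wr p b z) := by
  refine ModeS16.PB_sub (PB.sum _ fun c _ => PrA H hb hp z c) (PB.sum _ fun c _ => Pmx H hb hp z c)
    fun y => Finset.sum_le_sum fun c _ => ?_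
  have h1 := (mx_le H hb hp z c y).1
  have h2 := cx0 H hb hp z c y
  linarith

lemma eX_eq (z : ζ) (y : ℝ) : eX D wr p b z y = Ma D wr p b z y +
    ∑ j, ch (D.lt p b.1 y j = some z) (uA wr p b j y) := by
  unfold eX Ma uA
  rw [eP_eq H hb hp, cx_sum H hb hp]

lemma fde_eq (z : ζ) (y : ℝ) : fde D wr p b z y =
    ∑ i, ch (D.lt p b.1 y i = some z) (uB wr p b i y) := eN_eq H hb hp z y

lemma eX0 (z : ζ) (y : ℝ) : 0 ≤ eX D wr p b z y := (PeX H hb hp z).nonneg y
lemma fde0 (z : ζ) (y : ℝ) : 0 ≤ fde D wr p b z y := (Pfde H hb hp z).nonneg y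
lemma nX0 (z : ζ) (y : ℝ) : 0 ≤ nX D wr p b z y := (eX0 H hb hp z y).trans (le_max_left _ _)

lemma PnX (z : ζ) : PB (nX D wr p b z) := by
  have h1 := PeX H hb hp z
  have h2 := Pfde H hb hp z
  obtain ⟨C1, hC1⟩ := h1.bdd
  obtain ⟨C2, hC2⟩ := h2.bdd
  refine ⟨h1.meas.max h2.meas, fun y => nX0 H hb hp z y, ⟨max C1 C2, fun y => ?_⟩, fun y => ?_⟩
  · exact max_le_max (hC1 y) (hC2 y)
  · unfold nX
    rw [h1.per, h2.per]

lemma eU_mul (z : ζ) (y : ℝ) : eU D wr p b z y * nX D wr p b z y =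
    eX D wr p b z y * fde D wr p b z y := by
  unfold eU nX
  rw [et_eq H hb hp]
  show min (fde D wr p b z y) (eX D wr p b z y) * max (eX D wr p b z y) (fde D wr p b z y) = _
  rcases le_total (fde D wr p b z y) (eX D wr p b z y) with h | h
  · rw [min_eq_left h, max_eq_left h]; ring
  · rw [min_eq_right h, max_eq_right h]

section split
variable {T : ℝ → Λ → Λ → Prop} {Lo : ℝ → Λ → Prop}

lemma MaT_le (z : ζ) (y : ℝ) : MaT D wr p b T z y ≤ Ma D wr p b z y := by
  rw [Ma_cr H hb hp]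
  exact cr_mono H hb hp fun j i _ _ _ h => h.1
lemma MbT_le (z : ζ) (y : ℝ) : MbT D wr p b T z y ≤ Mb D wr p b z y := by
  rw [Mb_cr H hb hp]
  exact cr_mono H hb hp fun j i _ _ _ h => h.1
lemma MaT0 (z : ζ) (y : ℝ) : 0 ≤ MaT D wr p b T z y := cr_nonneg H hb hp _ y
lemma MbT0 (z : ζ) (y : ℝ) : 0 ≤ MbT D wr p b T z y := cr_nonneg H hb hp _ y
lemma LgT_le (z : ζ) (x : ℝ) : LgT D wr p b T z x ≤ Lg D wr p b z x := by
  rw [Lg_crG H hb hp, crG_split (fun y j i => D.lt p b.1 y i = some z) T]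
  exact le_add_of_nonneg_right (crG_nonneg H hb hp _ x)

/-- numerator of `kT` -/
lemma num_le (z : ζ) (i : Λ) (y : ℝ) : ∑ j, ch (D.lt p b.1 y j = some z ∧ T y j i) (uA wr p b j y) +
    ch (Lo y i) (MaT D wr p b T z y) ≤ eX D wr p b z y := by
  rw [eX_eq H hb hp, add_comm]
  refine add_le_add ((DTe407.ch_le (MaT0 H hb hp z y)).trans (MaT_le H hb hp z y)) ?_
  exact Finset.sum_le_sum fun j _ => ch_mono2 (uA0 H hb hp j y) fun h => h.1

lemma num0 (z : ζ) (i : Λ) (y : ℝ) :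
    0 ≤ ∑ j, ch (D.lt p b.1 y j = some z ∧ T y j i) (uA wr p b j y) +
    ch (Lo y i) (MaT D wr p b T z y) :=
  add_nonneg (Finset.sum_nonneg fun j _ => ch_nonneg (uA0 H hb hp j y))
    (ch_nonneg (MaT0 H hb hp z y))

lemma kT0 (z : ζ) (i : Λ) (y : ℝ) : 0 ≤ kT D wr p b T Lo z i y :=
  div_nonneg (num0 H hb hp z i y) (nX0 H hb hp z y)

lemma kT_le (z : ζ) (i : Λ) (y : ℝ) :
    kT D wr p b T Lo z i y ≤ eX D wr p b z y / nX D wr p b z y :=
  div_le_div_of_nonneg_right (num_le H hb hp z i y) (nX0 H hb hp z y)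

section mp
variable (hT : ∀ j i, MP fun y => T y j i) (hL : ∀ i, MP fun y => Lo y i)
include hT

lemma MTz (z : ζ) (j i : Λ) : MP fun y => D.lt p b.1 y j = some z ∧ T y j i :=
  ((Mlt H z j).prod (hT j i)).map fun q => q.1 ∧ q.2
lemma MTz' (z : ζ) (j i : Λ) : MP fun y => D.lt p b.1 y i = some z ∧ T y j i :=
  ((Mlt H z i).prod (hT j i)).map fun q => q.1 ∧ q.2

lemma PMaT (z : ζ) : PB (MaT D wr p b T z) := Pcr H hb hp fun j i => MTz H hb hp hT z j i
lemma PMbT (z : ζ) : PB (MbT D wr p b T z) := Pcr H hb hp fun j i => MTz' H hb hp hT z j i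
lemma PLgT (z : ζ) : PB (LgT D wr p b T z) := PcrG H hb hp fun j i => MTz' H hb hp hT z j i
lemma lift_LgT (z : ζ) : Lift p (MbT D wr p b T z) (LgT D wr p b T z) :=
  lift_crG H hb hp fun j i => MTz' H hb hp hT z j i

include hL

lemma Pnum (z : ζ) (i : Λ) : PB fun y => ∑ j, ch (D.lt p b.1 y j = some z ∧ T y j i)
    (uA wr p b j y) + ch (Lo y i) (MaT D wr p b T z y) :=
  (PB.sum _ fun j _ => PB_ch (MTz H hb hp hT z j i) (PuA H hb hp j)).add
    (PB_ch (hL i) (PMaT H hb hp hT z))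

lemma PkT (z : ζ) (i : Λ) : PB (kT D wr p b T Lo z i) :=
  TyS16.PB_ratio (Pnum H hb hp hT hL z i) (PnX H hb hp z)
    fun y => (num_le H hb hp z i y).trans (le_max_left _ _)

lemma PetT (z : ζ) : PB (etT D wr p b T Lo z) :=
  PB.sum _ fun i _ => PB_ch (Mlt H z i) ((PkT H hb hp hT hL z i).mul (PuB H hb hp i))

lemma PEtT (z : ζ) : PB (EtT D wr p b T Lo z) :=
  PB.sum _ fun i _ => PB_ch ((Mlt H z i).pull p)
    (((PkT H hb hp hT hL z i).pull p).mul (PB_eg (H.bok hb hp) i))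

lemma lift_EtT (z : ζ) : Lift p (etT D wr p b T Lo z) (EtT D wr p b T Lo z) := by
  have hp0 : 0 < p := Nat.pos_of_ne_zero hp
  intro y
  unfold EtT etT
  rw [Finset.sum_comm]
  refine Finset.sum_congr rfl fun i _ => ?_
  have e1 : ∀ k ∈ Finset.range p, ch (D.lt p b.1 (p * ((y + (k:ℕ)) / p)) i = some z)
      (kT D wr p b T Lo z i (p * ((y + (k:ℕ)) / p)) * eg (wr p) p (bB p b.2) i ((y + (k:ℕ)) / p)) =
      ch (D.lt p b.1 y i = some z) (kT D wr p b T Lo z i y * ((1 - rf wr p b (wr p i) y) *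
        pG (bB p b.2) i ((y + (k:ℕ)) / p))) := fun k _ => by
    rw [fib_per hp0 (P := fun y => D.lt p b.1 y i = some z) (Mlt H z i).per y k,
      fib_per hp0 (P := fun y => kT D wr p b T Lo z i y) (PkT H hb hp hT hL z i).per y k]
    unfold eg
    rw [fib_per hp0 (P := fun y => bf (wr p) (bB p b.2) (wr p i) y)
      (Prf (wr := wr) H hb hp (wr p i)).per y k]
    rfl
  rw [Finset.sum_congr rfl e1]
  have e2 := (lift_pG (H.bok hb hp) i) y
  by_cases h : D.lt p b.1 y i = some z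
  · simp only [ch_on h]
    rw [← Finset.mul_sum, ← Finset.mul_sum, e2]
    rfl
  · simp only [ch_off h]
    exact Finset.sum_const_zero

lemma PElT (z : ζ) : PB (ElT D wr p b T Lo z) :=
  (PEtT H hb hp hT hL z).add (PLgT H hb hp hT z)

lemma lift_ElT (z : ζ) : Lift p (fun y => etT D wr p b T Lo z y + MbT D wr p b T z y)
    (ElT D wr p b T Lo z) := by
  intro y
  have h1 := lift_EtT H hb hp hT hL z y
  have h2 := lift_LgT H hb hp hT z y
  unfold ElT
  rw [Finset.sum_add_distrib, h1, h2]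

omit hL in
lemma PEsT (z : ζ) : PB (EsT D wr p b T z) :=
  (((PMbT H hb hp hT z).add (PMaT H hb hp hT z)).pull p).smul (w0 H hb hp)

end mp

/-- **the located mismatch by the pieces** -/
lemma sh_eU (hU : ∀ z x, ¬ D.spc p b z x) (z : ζ) (x : ℝ) :
    sh p (fde D wr p b z) (D.gc wr p b z) x * eU D wr p b z (p * x) =
    ∑ i, ch (D.lt p b.1 (p * x) i = some z) (eX D wr p b z (p * x) / nX D wr p b z (p * x) *
      eg (wr p) p (bB p b.2) i x) := by
  have h := huU H hb hp hU z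
  have hg : ∑ i, ch (D.lt p b.1 (p * x) i = some z) (eX D wr p b z (p * x) /
      nX D wr p b z (p * x) * eg (wr p) p (bB p b.2) i x) =
      eX D wr p b z (p * x) / nX D wr p b z (p * x) * D.gc wr p b z x := by
    rw [gc_eq H hb hp, Finset.mul_sum]
    refine Finset.sum_congr rfl fun i _ => ?_
    by_cases hi : D.lt p b.1 (p * x) i = some z
    · rw [ch_on hi, ch_on hi]
    · rw [ch_off hi, ch_off hi, mul_zero]
  rw [hg, ← h.sh_mul x]
  have e1 := eU_mul H hb hp z (p * x)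
  have nU : 0 ≤ eU D wr p b z (p * x) := (PeU H hb hp z).nonneg _
  by_cases h0 : nX D wr p b z (p * x) = 0
  · have h2 : fde D wr p b z (p * x) = 0 :=
      le_antisymm (h0 ▸ le_max_right _ _) (fde0 H hb hp z _)
    have h3 : eU D wr p b z (p * x) = 0 := by
      refine le_antisymm ?_ nU
      have h4 : eU D wr p b z (p * x) ≤ fde D wr p b z (p * x) := by
        unfold eU
        rw [et_eq H hb hp]
        exact min_le_left _ _
      rw [h2] at h4
      exact h4
    rw [h2, h3]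
    ring
  · have e2 : eU D wr p b z (p * x) = eX D wr p b z (p * x) * fde D wr p b z (p * x) /
        nX D wr p b z (p * x) := by
      rw [← e1]; field_simp
    rw [e2]
    ring

lemma EtT_le (hU : ∀ z x, ¬ D.spc p b z x) (z : ζ) (x : ℝ) : EtT D wr p b T Lo z x ≤
    sh p (fde D wr p b z) (D.gc wr p b z) x * eU D wr p b z (p * x) := by
  rw [sh_eU H hb hp hU]
  refine Finset.sum_le_sum fun i _ => DTe407.ch_mono ?_
  exact mul_le_mul_of_nonneg_right (kT_le H hb hp z i _) ((PB_eg (H.bok hb hp) i).nonneg x)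

lemma ElT_le (hU : ∀ z x, ¬ D.spc p b z x) (z : ζ) (x : ℝ) :
    ElT D wr p b T Lo z x ≤ El D wr p b z x :=
  add_le_add (EtT_le H hb hp hU z x) (LgT_le H hb hp z x)

lemma EsT_le (z : ζ) (x : ℝ) : EsT D wr p b T z x ≤ Es D wr p b z x :=
  mul_le_mul_of_nonneg_left (add_le_add (MbT_le H hb hp z _) (MaT_le H hb hp z _)) (w0 H hb hp)


/-! ### energies -/

lemma fpB0 (y : ℝ) (j i : Λ) : 0 ≤ fA wr p b j y * pB (bB p b.2) i y :=
  mul_nonneg (fA0 H hb hp j y) (DTe407.pB0 H hb hp i y)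
lemma pAB0 (y : ℝ) (j i : Λ) : 0 ≤ pA (bB p b.2) j y * pB (bB p b.2) i y :=
  mul_nonneg (DTe407.pA0 H hb hp j y) (DTe407.pB0 H hb hp i y)

lemma ecr_nonneg (P : ℝ → Λ → Λ → Prop) (y : ℝ) : 0 ≤ ecr D wr p b P y :=
  dbl_nonneg (pAB0 H hb hp y)
lemma emm_nonneg (P : ℝ → Λ → Λ → Prop) (z : ζ) (y : ℝ) : 0 ≤ emm D wr p b P z y :=
  dbl_nonneg (pAB0 H hb hp y)

/-- **one class**: square of the plan by the energy -/
lemma cls_sq {P : ℝ → Λ → Λ → Prop} {c : κ} {y : ℝ} (hP : ∀ j i, P y j i → wr p j = c) :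
    cr D wr p b P y ^ 2 ≤ ecr D wr p b P y := by
  set φ := rf wr p b c y / SA (wr p) (bB p b.2) c y with hφ
  have φ0 : 0 ≤ φ := fs0 H hb hp c y
  have e1 : cr D wr p b P y = φ * ecr D wr p b P y := by
    unfold cr ecr
    rw [Finset.mul_sum]
    refine Finset.sum_congr rfl fun j _ => ?_
    rw [Finset.mul_sum]
    refine Finset.sum_congr rfl fun i _ => ?_
    by_cases h : XX D wr p b y j i ∧ P y j i
    · rw [ch_on h, ch_on h, hφ, ← hP j i h.2]
      unfold fA
      ring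
    · rw [ch_off h, ch_off h, mul_zero]
  have n0 := ecr_nonneg H hb hp P y
  have e2 : ecr D wr p b P y ≤ SA (wr p) (bB p b.2) c y * SB (wr p) (bB p b.2) c y := by
    unfold ecr SA SB
    rw [sm_eq, sm_eq, Finset.sum_mul_sum]
    refine Finset.sum_le_sum fun j _ => Finset.sum_le_sum fun i _ => ?_
    have hA := DTe407.pA0 H hb hp j y
    have hB := DTe407.pB0 H hb hp i y
    by_cases h : XX D wr p b y j i ∧ P y j i
    · have h1 := hP j i h.2
      rw [ch_on h, if_pos h1, if_pos (h.1.1.trans h1)]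
    · rw [ch_off h]
      refine mul_nonneg ?_ ?_
      · split_ifs
        · exact hA
        · exact le_rfl
      · split_ifs
        · exact hB
        · exact le_rfl
  have e3 : SB (wr p) (bB p b.2) c y * φ ≤ 1 := SB_fs H hb hp c y
  have e4 : SA (wr p) (bB p b.2) c y * φ ≤ 1 := (SA_fs H hb hp c y).le.trans (rfle1 H hb hp c y)
  have a0 := SA0' (wr := wr) H hb hp c y
  have b0 := SB0' (wr := wr) H hb hp c y
  rw [e1]
  have e5 : φ ^ 2 * ecr D wr p b P y ≤ 1 := by
    have h1 : φ ^ 2 * ecr D wr p b P y ≤ φ ^ 2 * (SA (wr p) (bB p b.2) c y *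
      SB (wr p) (bB p b.2) c y) := mul_le_mul_of_nonneg_left e2 (sq_nonneg _)
    have h2 : φ ^ 2 * (SA (wr p) (bB p b.2) c y * SB (wr p) (bB p b.2) c y) =
      (SA (wr p) (bB p b.2) c y * φ) * (SB (wr p) (bB p b.2) c y * φ) := by ring
    rw [h2] at h1
    exact h1.trans (mul_le_one₀ e4 (mul_nonneg b0 φ0) e3)
  calc (φ * ecr D wr p b P y) ^ 2 = φ ^ 2 * ecr D wr p b P y * ecr D wr p b P y := by ring
    _ ≤ 1 * ecr D wr p b P y := mul_le_mul_of_nonneg_right e5 n0
    _ = _ := one_mul _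

open Classical in
/-- the real classes with cross pairs of `T` which meet a type -/
noncomputable def CzT (D : TD μ Λ κ ζ) (wr : ℕ → Λ → κ) (p : ℕ) (b : μ × List (DT Λ κ))
    (T : ℝ → Λ → Λ → Prop) (z : ζ) (y : ℝ) : Finset κ :=
  Finset.univ.filter fun c => ∃ j i, XX D wr p b y j i ∧ T y j i ∧ wr p j = c ∧
    (D.lt p b.1 y j = some z ∨ D.lt p b.1 y i = some z) ∧ pA (bB p b.2) j y ≠ 0 ∧
    pB (bB p b.2) i y ≠ 0

section sq
variable {T : ℝ → Λ → Λ → Prop} {Lo : ℝ → Λ → Prop}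

lemma cr_ne {P : ℝ → Λ → Λ → Prop} {y : ℝ} (h : cr D wr p b P y ≠ 0) :
    ∃ j i, XX D wr p b y j i ∧ P y j i ∧ pA (bB p b.2) j y ≠ 0 ∧ pB (bB p b.2) i y ≠ 0 := by
  by_contra hn
  push Not at hn
  apply h
  unfold cr
  refine Finset.sum_eq_zero fun j _ => Finset.sum_eq_zero fun i _ => ?_
  by_cases h1 : XX D wr p b y j i ∧ P y j i
  · rw [ch_on h1]
    by_cases hA : pA (bB p b.2) j y = 0
    · unfold fA
      rw [hA, zero_div, mul_zero, zero_mul]
    · rw [hn j i h1.1 h1.2 hA, mul_zero]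
  · exact ch_off h1

/-- squares of sums over the classes -/
lemma sum_sq_T {P : ζ → ℝ → Λ → Λ → Prop} {y m₀ : ℝ} (m0 : 0 ≤ m₀)
    (hP : ∀ z j i, P z y j i → (D.lt p b.1 y j = some z ∨ D.lt p b.1 y i = some z) ∧ T y j i)
    (hs : ∀ z z' j i, P z y j i → P z' y j i → z = z')
    (hm : ∀ z, ((CzT D wr p b T z y).card : ℝ) ≤ m₀) :
    ∑ z, cr D wr p b (P z) y ^ 2 ≤ m₀ * ecr D wr p b T y := by
  classical
  have h1 : ∀ z, cr D wr p b (P z) y ^ 2 ≤
      m₀ * ∑ c, ecr D wr p b (fun y j i => wr p j = c ∧ P z y j i) y := by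
    intro z
    have e1 : cr D wr p b (P z) y = ∑ c, cr D wr p b (fun y j i => wr p j = c ∧ P z y j i) y := by
      have h := dbl_cls (fun j i => wr p j) (fun j i => fA wr p b j y * pB (bB p b.2) i y)
        (fun j i => XX D wr p b y j i ∧ P z y j i)
      refine h.trans (Finset.sum_congr rfl fun c _ => ?_)
      unfold dbl cr
      refine Finset.sum_congr rfl fun j _ => Finset.sum_congr rfl fun i _ => ch_congr ?_
      tauto
    rw [e1]
    refine (sq_sum_le Finset.univ (CzT D wr p b T z y) _ (fun c _ hc => ?_) (hm z)).trans ?_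
    · obtain ⟨j, i, hX, ⟨hc1, hPz⟩, hA, hB⟩ := cr_ne H hb hp hc
      exact Finset.mem_filter.2 ⟨Finset.mem_univ _, j, i, hX, (hP z j i hPz).2, hc1,
        (hP z j i hPz).1, hA, hB⟩
    · refine mul_le_mul_of_nonneg_left (Finset.sum_le_sum fun c _ => ?_) m0
      exact cls_sq H hb hp fun j i h => h.1
  refine (Finset.sum_le_sum fun z _ => h1 z).trans ?_
  rw [← Finset.mul_sum]
  refine mul_le_mul_of_nonneg_left ?_ m0
  have h2 : ∀ z, ∑ c, ecr D wr p b (fun y j i => wr p j = c ∧ P z y j i) y =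
      ecr D wr p b (P z) y := by
    intro z
    have h := dbl_cls (fun j i => wr p j) (fun j i => pA (bB p b.2) j y * pB (bB p b.2) i y)
      (fun j i => XX D wr p b y j i ∧ P z y j i)
    refine Eq.trans (Finset.sum_congr rfl fun c _ => ?_) h.symm
    unfold dbl ecr
    refine Finset.sum_congr rfl fun j _ => Finset.sum_congr rfl fun i _ => ch_congr ?_
    tauto
  rw [Finset.sum_congr rfl fun z _ => h2 z]
  have h3 := dbl_sel (f := fun j i => pA (bB p b.2) j y * pB (bB p b.2) i y)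
    (s := fun z j i => P z y j i) (P := fun j i => XX D wr p b y j i ∧ T y j i)
    (pAB0 H hb hp y) (fun z z' j i => hs z z' j i)
  refine le_trans (le_of_eq (Finset.sum_congr rfl fun z _ => ?_)) h3
  unfold dbl ecr
  refine Finset.sum_congr rfl fun j _ => Finset.sum_congr rfl fun i _ => ch_congr ?_
  constructor
  · rintro ⟨h4, h5⟩
    exact ⟨h5, h4, (hP z j i h5).2⟩
  · rintro ⟨h4, h5, -⟩
    exact ⟨h5, h4⟩

theorem sum_MaT {y m₀ : ℝ} (m0 : 0 ≤ m₀) (hm : ∀ z, ((CzT D wr p b T z y).card : ℝ) ≤ m₀) :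
    ∑ z, MaT D wr p b T z y ^ 2 ≤ m₀ * ecr D wr p b T y :=
  sum_sq_T H hb hp (P := fun z y j i => D.lt p b.1 y j = some z ∧ T y j i) m0
    (fun z j i h => ⟨Or.inl h.1, h.2⟩) (fun z z' j i h h' => Option.some.inj (h.1.symm.trans h'.1)) hm

theorem sum_MbT {y m₀ : ℝ} (m0 : 0 ≤ m₀) (hm : ∀ z, ((CzT D wr p b T z y).card : ℝ) ≤ m₀) :
    ∑ z, MbT D wr p b T z y ^ 2 ≤ m₀ * ecr D wr p b T y :=
  sum_sq_T H hb hp (P := fun z y j i => D.lt p b.1 y i = some z ∧ T y j i) m0
    (fun z j i h => ⟨Or.inr h.1, h.2⟩) (fun z z' j i h h' => Option.some.inj (h.1.symm.trans h'.1)) hm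

/-- the second order mismatch as a quotient -/
lemma etT_eq (z : ζ) (y : ℝ) : etT D wr p b T Lo z y = (mm D wr p b T z y +
    MaT D wr p b T z y * ∑ i, ch (D.lt p b.1 y i = some z ∧ Lo y i) (uB wr p b i y)) /
      nX D wr p b z y := by
  have e1 : mm D wr p b T z y = ∑ i, ch (D.lt p b.1 y i = some z)
      ((∑ j, ch (D.lt p b.1 y j = some z ∧ T y j i) (uA wr p b j y)) * uB wr p b i y) := by
    unfold mm
    rw [Finset.sum_comm]
    refine Finset.sum_congr rfl fun i _ => ?_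
    by_cases h : D.lt p b.1 y i = some z
    · rw [ch_on h, Finset.sum_mul]
      refine Finset.sum_congr rfl fun j _ => ?_
      by_cases h2 : D.lt p b.1 y j = some z ∧ T y j i
      · rw [ch_on ⟨h2.1, h, h2.2⟩, ch_on h2]
      · rw [ch_off (fun h3 => h2 ⟨h3.1, h3.2.2⟩), ch_off h2, zero_mul]
    · rw [ch_off h]
      exact Finset.sum_eq_zero fun j _ => ch_off fun h2 => h h2.2.1
  rw [e1, Finset.mul_sum, ← Finset.sum_add_distrib, Finset.sum_div]
  unfold etT kT
  refine Finset.sum_congr rfl fun i _ => ?_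
  by_cases h : D.lt p b.1 y i = some z
  · rw [ch_on h, ch_on h]
    by_cases h2 : Lo y i
    · rw [ch_on h2, ch_on ⟨h, h2⟩]; ring
    · rw [ch_off h2, ch_off (fun h3 => h2 h3.2)]; ring
  · rw [ch_off h, ch_off h, ch_off (fun h3 => h h3.1)]; ring

lemma mm_nonneg (z : ζ) (y : ℝ) : 0 ≤ mm D wr p b T z y :=
  dbl_nonneg fun j i => mul_nonneg (uA0 H hb hp j y) (uB0 H hb hp i y)

/-- unmatched pairs live in different real classes -/
lemma mm_le (z : ζ) (y : ℝ) : mm D wr p b T z y ≤ emm D wr p b T z y := by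
  refine dbl_le (pAB0 H hb hp y) fun j i h0 h => ?_
  have h1 : uA wr p b j y ≠ 0 := fun h => h0 (by rw [h, zero_mul])
  have h2 : uB wr p b i y ≠ 0 := fun h => h0 (by rw [h, mul_zero])
  exact ⟨⟨h.1, h.2.1, exc_ne H hb hp h1 h2, h.2.2⟩, mul_le_mul (uA_le H hb hp j y)
    (uB_le H hb hp i y) (uB0 H hb hp i y) (DTe407.pA0 H hb hp j y)⟩

lemma mm_le2 (z : ζ) (y : ℝ) : mm D wr p b T z y ≤ eX D wr p b z y * fde D wr p b z y := by
  rw [eX_eq H hb hp, fde_eq H hb hp]
  have h1 : mm D wr p b T z y ≤ (∑ j, ch (D.lt p b.1 y j = some z) (uA wr p b j y)) *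
      ∑ i, ch (D.lt p b.1 y i = some z) (uB wr p b i y) := by
    rw [Finset.sum_mul_sum]
    refine Finset.sum_le_sum fun j _ => Finset.sum_le_sum fun i _ => ?_
    have hA := uA0 H hb hp j y
    have hB := uB0 H hb hp i y
    by_cases h : D.lt p b.1 y j = some z ∧ D.lt p b.1 y i = some z ∧ T y j i
    · rw [ch_on h, ch_on h.1, ch_on (P := D.lt p b.1 y i = some z) h.2.1]
    · rw [ch_off h]
      exact mul_nonneg (ch_nonneg hA) (ch_nonneg hB)
  have h2 : 0 ≤ Ma D wr p b z y := (PMa H hb hp z).nonneg y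
  have h3 : 0 ≤ ∑ i, ch (D.lt p b.1 y i = some z) (uB wr p b i y) :=
    Finset.sum_nonneg fun i _ => ch_nonneg (uB0 H hb hp i y)
  have h4 := mul_nonneg h2 h3
  rw [add_mul]
  linarith

/-- **the square of the second order mismatch** -/
lemma etT_sq (z : ζ) (y : ℝ) : etT D wr p b T Lo z y ^ 2 ≤
    2 * emm D wr p b T z y + 2 * MaT D wr p b T z y ^ 2 := by
  rw [etT_eq H hb hp]
  have n0 := nX0 H hb hp z y
  set W1 := mm D wr p b T z y with hW1
  set V := ∑ i, ch (D.lt p b.1 y i = some z ∧ Lo y i) (uB wr p b i y) with hV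
  set A := MaT D wr p b T z y with hA
  have W0 : 0 ≤ W1 := mm_nonneg H hb hp z y
  have A0 : 0 ≤ A := MaT0 H hb hp z y
  have V0 : 0 ≤ V := Finset.sum_nonneg fun i _ => ch_nonneg (uB0 H hb hp i y)
  have V1 : V ≤ nX D wr p b z y := by
    refine le_trans ?_ (le_max_right _ _)
    rw [fde_eq H hb hp]
    exact Finset.sum_le_sum fun i _ => ch_mono2 (uB0 H hb hp i y) fun h => h.1
  have W2 : W1 ≤ nX D wr p b z y ^ 2 := by
    refine (mm_le2 H hb hp z y).trans ?_
    rw [sq]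
    exact mul_le_mul (le_max_left _ _) (le_max_right _ _) (fde0 H hb hp z y) n0
  have W3 := mm_le H hb hp (T := T) z y
  have em0 := emm_nonneg H hb hp T z y
  rcases n0.eq_or_lt with h0 | h0
  · rw [← h0, div_zero, zero_pow two_ne_zero]
    have := sq_nonneg A
    linarith
  · have hn2 : 0 < nX D wr p b z y ^ 2 := by positivity
    rw [div_pow, div_le_iff₀ hn2]
    have k1 : W1 ^ 2 ≤ W1 * nX D wr p b z y ^ 2 := by
      rw [sq]; exact mul_le_mul_of_nonneg_left W2 W0
    have k2 : (A * V) ^ 2 ≤ A ^ 2 * nX D wr p b z y ^ 2 := by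
      rw [mul_pow]
      exact mul_le_mul_of_nonneg_left (pow_le_pow_left₀ V0 V1 2) (sq_nonneg _)
    have k3 : W1 * nX D wr p b z y ^ 2 ≤ emm D wr p b T z y * nX D wr p b z y ^ 2 :=
      mul_le_mul_of_nonneg_right W3 hn2.le
    nlinarith [sq_nonneg (W1 - A * V)]

/-- **the bounds of the fibre means by the pair energies** -/
theorem sum_nW {y m₀ : ℝ} (m0 : 0 ≤ m₀) (hm : ∀ z, ((CzT D wr p b T z y).card : ℝ) ≤ m₀) :
    ∑ z, ((2 * etT D wr p b T Lo z y ^ 2 + 2 * MbT D wr p b T z y ^ 2) +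
      (MbT D wr p b T z y + MaT D wr p b T z y) ^ 2) ≤
      4 * ∑ z, emm D wr p b T z y + 10 * m₀ * ecr D wr p b T y := by
  have h1 := sum_MaT H hb hp m0 hm
  have h2 := sum_MbT H hb hp m0 hm
  have h3 : ∑ z, ((2 * etT D wr p b T Lo z y ^ 2 + 2 * MbT D wr p b T z y ^ 2) +
      (MbT D wr p b T z y + MaT D wr p b T z y) ^ 2) ≤
      ∑ z, (4 * emm D wr p b T z y + 6 * MaT D wr p b T z y ^ 2 +
        4 * MbT D wr p b T z y ^ 2) :=
    Finset.sum_le_sum fun z _ => by
      have h4 := etT_sq H hb hp (T := T) (Lo := Lo) z y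
      nlinarith [sq_nonneg (MbT D wr p b T z y - MaT D wr p b T z y)]
  have e4 : ∑ z, (4 * emm D wr p b T z y + 6 * MaT D wr p b T z y ^ 2 +
        4 * MbT D wr p b T z y ^ 2) = 4 * ∑ z, emm D wr p b T z y +
      6 * ∑ z, MaT D wr p b T z y ^ 2 + 4 * ∑ z, MbT D wr p b T z y ^ 2 := by
    rw [Finset.mul_sum, Finset.mul_sum, Finset.mul_sum, ← Finset.sum_add_distrib,
      ← Finset.sum_add_distrib]
  rw [e4] at h3
  linarith

/-- the pairs of one type -/
lemma sum_emm (y : ℝ) : ∑ z, emm D wr p b T z y ≤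
    dbl (fun j i => pA (bB p b.2) j y * pB (bB p b.2) i y) (fun j i =>
      D.lt p b.1 y j = D.lt p b.1 y i ∧ wr p j ≠ wr p i ∧ T y j i) := by
  have h := dbl_sel (f := fun j i => pA (bB p b.2) j y * pB (bB p b.2) i y)
    (s := fun (z : ζ) j i => D.lt p b.1 y j = some z)
    (P := fun j i => D.lt p b.1 y j = D.lt p b.1 y i ∧ wr p j ≠ wr p i ∧ T y j i)
    (pAB0 H hb hp y) (fun z z' j i h h' => Option.some.inj (h.symm.trans h'))
  refine le_trans (le_of_eq (Finset.sum_congr rfl fun z _ => ?_)) h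
  unfold dbl emm
  refine Finset.sum_congr rfl fun j _ => Finset.sum_congr rfl fun i _ => ch_congr ?_
  constructor
  · rintro ⟨h1, h2, h3⟩
    exact ⟨h1, h1.trans h2.symm, h3⟩
  · rintro ⟨h1, h2, h3⟩
    exact ⟨h1, h2.symm.trans h1, h3⟩


/-! ### the linear rest -/

/-- **the rest of the mismatch** -/
lemma eU_sub {R S : Λ → Prop} {z : ζ} {y : ℝ}
    (hRS : ∀ j i, D.lt p b.1 y j = some z → D.lt p b.1 y i = some z → pA (bB p b.2) j y ≠ 0 →
      pB (bB p b.2) i y ≠ 0 → wr p j ≠ wr p i → ¬ T y j i → R j ∨ S i)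
    (hLS : MaT D wr p b T z y ≠ 0 → ∀ i, D.lt p b.1 y i = some z → pB (bB p b.2) i y ≠ 0 →
      ¬ Lo y i → S i) :
    eU D wr p b z y ≤ etT D wr p b T Lo z y + (Ma D wr p b z y - MaT D wr p b T z y) +
      ∑ j, ch (D.lt p b.1 y j = some z ∧ R j) (uA wr p b j y) +
      ∑ i, ch (D.lt p b.1 y i = some z ∧ S i) (uB wr p b i y) := by
  have n0 := nX0 H hb hp z y
  set N := nX D wr p b z y with hN
  set A := MaT D wr p b T z y with hA
  set RR := ∑ j, ch (D.lt p b.1 y j = some z ∧ R j) (uA wr p b j y) with hRR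
  set SS := ∑ i, ch (D.lt p b.1 y i = some z ∧ S i) (uB wr p b i y) with hSS
  have A0 : 0 ≤ A := MaT0 H hb hp z y
  have A1 : A ≤ Ma D wr p b z y := MaT_le H hb hp z y
  have RR0 : 0 ≤ RR := Finset.sum_nonneg fun j _ => ch_nonneg (uA0 H hb hp j y)
  have SS0 : 0 ≤ SS := Finset.sum_nonneg fun j _ => ch_nonneg (uB0 H hb hp j y)
  have X0 := eX0 H hb hp z y
  have F0 := fde0 H hb hp z y
  have nU : 0 ≤ eU D wr p b z y := (PeU H hb hp z).nonneg y
  have et0 : 0 ≤ etT D wr p b T Lo z y :=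
    Finset.sum_nonneg fun i _ => ch_nonneg (mul_nonneg (kT0 H hb hp z i y) (uB0 H hb hp i y))
  rcases n0.eq_or_lt with h0 | h0
  · have h2 : fde D wr p b z y = 0 := le_antisymm (h0 ▸ le_max_right _ _) F0
    have h3 : eU D wr p b z y ≤ 0 := by
      unfold eU
      rw [et_eq H hb hp, h2]
      exact min_le_left _ _
    linarith
  -- multiply by the normalization
  have e1 := eU_mul H hb hp z y
  have e2 : etT D wr p b T Lo z y * N = ∑ i, ch (D.lt p b.1 y i = some z)
      ((∑ j, ch (D.lt p b.1 y j = some z ∧ T y j i) (uA wr p b j y) + ch (Lo y i) A) *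
        uB wr p b i y) := by
    unfold etT kT
    rw [Finset.sum_mul]
    refine Finset.sum_congr rfl fun i _ => ?_
    by_cases h : D.lt p b.1 y i = some z
    · rw [ch_on h, ch_on h, ← hN, ← hA]
      have := h0.ne'
      field_simp
    · rw [ch_off h, ch_off h, zero_mul]
  have e3 : eX D wr p b z y * fde D wr p b z y = ∑ i, ch (D.lt p b.1 y i = some z)
      (eX D wr p b z y * uB wr p b i y) := by
    rw [fde_eq H hb hp, Finset.mul_sum]
    refine Finset.sum_congr rfl fun i _ => ?_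
    by_cases h : D.lt p b.1 y i = some z
    · rw [ch_on h, ch_on h]
    · rw [ch_off h, ch_off h, mul_zero]
  have key : ∀ i, ch (D.lt p b.1 y i = some z) (eX D wr p b z y * uB wr p b i y) ≤
      ch (D.lt p b.1 y i = some z)
      ((∑ j, ch (D.lt p b.1 y j = some z ∧ T y j i) (uA wr p b j y) + ch (Lo y i) A) *
        uB wr p b i y) + ch (D.lt p b.1 y i = some z) (((Ma D wr p b z y - A) + RR) *
        uB wr p b i y) + eX D wr p b z y * ch (D.lt p b.1 y i = some z ∧ S i)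
        (uB wr p b i y) := by
    intro i
    have uB' := uB0 (wr := wr) H hb hp i y
    by_cases h : D.lt p b.1 y i = some z
    · rw [ch_on h, ch_on h, ch_on h]
      have n1 : 0 ≤ ∑ j, ch (D.lt p b.1 y j = some z ∧ T y j i) (uA wr p b j y) + ch (Lo y i) A :=
        num0 H hb hp (T := T) (Lo := Lo) z i y
      by_cases hS : S i
      · rw [ch_on (P := D.lt p b.1 y i = some z ∧ S i) ⟨h, hS⟩]
        have m1 := mul_nonneg n1 uB'
        have m2 := mul_nonneg (add_nonneg (sub_nonneg.2 A1) RR0) uB'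
        linarith
      · rw [ch_off (P := D.lt p b.1 y i = some z ∧ S i) (fun h' => hS h'.2), mul_zero, add_zero]
        by_cases hu : uB wr p b i y = 0
        · rw [hu]; simp
        have hB : pB (bB p b.2) i y ≠ 0 := fun h' => hu (by unfold uB; rw [h', mul_zero])
        rw [← add_mul]
        refine mul_le_mul_of_nonneg_right ?_ uB'
        rw [eX_eq H hb hp]
        have hLA : ch (Lo y i) A = A := by
          by_cases hl : Lo y i
          · exact ch_on hl
          · rw [ch_off hl]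
            by_contra hne
            exact hS (hLS (fun h' => hne h'.symm) i h hB hl)
        rw [hLA]
        have hsum : ∑ j, ch (D.lt p b.1 y j = some z) (uA wr p b j y) ≤
            ∑ j, ch (D.lt p b.1 y j = some z ∧ T y j i) (uA wr p b j y) + RR := by
          rw [hRR, ← Finset.sum_add_distrib]
          refine Finset.sum_le_sum fun j _ => ?_
          have uA' := uA0 (wr := wr) H hb hp j y
          have m1 := ch_nonneg (P := D.lt p b.1 y j = some z ∧ T y j i) uA'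
          have m2 := ch_nonneg (P := D.lt p b.1 y j = some z ∧ R j) uA'
          by_cases hj : D.lt p b.1 y j = some z
          · by_cases hu2 : uA wr p b j y = 0
            · rw [hu2, ch_on hj]
              exact add_nonneg (ch_nonneg le_rfl) (ch_nonneg le_rfl)
            · by_cases hTT : T y j i
              · rw [ch_on hj, ch_on ⟨hj, hTT⟩]
                linarith
              · have hA' : pA (bB p b.2) j y ≠ 0 :=
                  fun h' => hu2 (by unfold uA; rw [h', mul_zero])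
                have hne := exc_ne H hb hp hu2 hu
                have hR : R j := by
                  rcases hRS j i hj h hA' hB hne hTT with h' | h'
                  · exact h'
                  · exact absurd h' hS
                rw [ch_on hj, ch_on (P := D.lt p b.1 y j = some z ∧ R j) ⟨hj, hR⟩]
                linarith
          · rw [ch_off hj]
            linarith
        linarith
    · rw [ch_off h, ch_off h, ch_off h, ch_off (P := D.lt p b.1 y i = some z ∧ S i)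
        (fun h' => h h'.1)]
      simp
  have e4 : eU D wr p b z y * N ≤ (etT D wr p b T Lo z y + (Ma D wr p b z y - A) + RR + SS) * N := by
    rw [e1, e3]
    refine (Finset.sum_le_sum fun i _ => key i).trans ?_
    rw [Finset.sum_add_distrib, Finset.sum_add_distrib, ← e2, ← Finset.mul_sum, ← hSS]
    have e5 : ∑ i, ch (D.lt p b.1 y i = some z) (((Ma D wr p b z y - A) + RR) *
        uB wr p b i y) = ((Ma D wr p b z y - A) + RR) * fde D wr p b z y := by
      rw [fde_eq H hb hp, Finset.mul_sum]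
      refine Finset.sum_congr rfl fun i _ => ?_
      by_cases h : D.lt p b.1 y i = some z
      · rw [ch_on h, ch_on h]
      · rw [ch_off h, ch_off h, mul_zero]
    rw [e5]
    have k1 : ((Ma D wr p b z y - A) + RR) * fde D wr p b z y ≤
        ((Ma D wr p b z y - A) + RR) * N :=
      mul_le_mul_of_nonneg_left (le_max_right _ _) (add_nonneg (sub_nonneg.2 A1) RR0)
    have k2 : eX D wr p b z y * SS ≤ N * SS :=
      mul_le_mul_of_nonneg_right (le_max_left _ _) SS0
    nlinarith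
  exact le_of_mul_le_mul_right e4 h0

/-- cross pairs which are not of second order -/
lemma sum_MaN (y : ℝ) : ∑ z, (Ma D wr p b z y - MaT D wr p b T z y) ≤
    cr D wr p b (fun y j i => ¬ T y j i) y := by
  have h := dbl_sel (f := fun j i => fA wr p b j y * pB (bB p b.2) i y)
    (s := fun (z : ζ) j i => D.lt p b.1 y j = some z)
    (P := fun j i => XX D wr p b y j i ∧ ¬ T y j i)
    (fpB0 H hb hp y) (fun z z' j i h h' => Option.some.inj (h.symm.trans h'))
  refine le_trans (le_of_eq (Finset.sum_congr rfl fun z _ => ?_)) h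
  have e := cr_split (D := D) (wr := wr) (p := p) (b := b)
    (fun y j i => D.lt p b.1 y j = some z) T y
  rw [Ma_cr H hb hp, e]
  unfold MaT
  rw [add_sub_cancel_left]
  unfold dbl cr
  refine Finset.sum_congr rfl fun j _ => Finset.sum_congr rfl fun i _ => ch_congr ?_
  tauto

lemma sum_MbN (y : ℝ) : ∑ z, (Mb D wr p b z y - MbT D wr p b T z y) ≤
    cr D wr p b (fun y j i => ¬ T y j i) y := by
  have h := dbl_sel (f := fun j i => fA wr p b j y * pB (bB p b.2) i y)
    (s := fun (z : ζ) j i => D.lt p b.1 y i = some z)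
    (P := fun j i => XX D wr p b y j i ∧ ¬ T y j i)
    (fpB0 H hb hp y) (fun z z' j i h h' => Option.some.inj (h.symm.trans h'))
  refine le_trans (le_of_eq (Finset.sum_congr rfl fun z _ => ?_)) h
  have e := cr_split (D := D) (wr := wr) (p := p) (b := b)
    (fun y j i => D.lt p b.1 y i = some z) T y
  rw [Mb_cr H hb hp, e]
  unfold MbT
  rw [add_sub_cancel_left]
  unfold dbl cr
  refine Finset.sum_congr rfl fun j _ => Finset.sum_congr rfl fun i _ => ch_congr ?_
  tauto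

/-- the plan on the pairs which meet `R` or `S` -/
lemma cr_RS {R S : Λ → Prop} {y : ℝ} (hRS : ∀ j i, XX D wr p b y j i → pA (bB p b.2) j y ≠ 0 →
      pB (bB p b.2) i y ≠ 0 → ¬ T y j i → R j ∨ S i) :
    cr D wr p b (fun y j i => ¬ T y j i) y ≤
      ∑ j, ch (R j) (pA (bB p b.2) j y) + ∑ i, ch (S i) (pB (bB p b.2) i y) := by
  have h := dbl_or (f := fun j i => fA wr p b j y * pB (bB p b.2) i y)
    (P := fun j i => XX D wr p b y j i ∧ ¬ T y j i)
    (Q := fun j i => XX D wr p b y j i ∧ R j) (R := fun j i => XX D wr p b y j i ∧ S i)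
    (fpB0 H hb hp y) (fun j i h0 h1 => by
      have hB : pB (bB p b.2) i y ≠ 0 := fun h' => h0 (by simp only [h', mul_zero])
      have hA : pA (bB p b.2) j y ≠ 0 := fun h' => h0 (by
        simp only [fA, h', zero_div, mul_zero, zero_mul])
      rcases hRS j i h1.1 hA hB h1.2 with h2 | h2
      · exact Or.inl ⟨h1.1, h2⟩
      · exact Or.inr ⟨h1.1, h2⟩)
  refine h.trans (add_le_add ?_ ?_)
  · refine Finset.sum_le_sum fun j _ => ?_
    by_cases hR : R j
    · rw [ch_on hR]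
      have e : ∑ i, ch (XX D wr p b y j i ∧ R j) (fA wr p b j y * pB (bB p b.2) i y) =
          xw D wr p b y j * pA (bB p b.2) j y := by
        rw [xw_mul H hb hp]
        exact Finset.sum_congr rfl fun i _ => ch_congr ⟨fun h => h.1, fun h => ⟨h, hR⟩⟩
      rw [e]
      exact mul_le_of_le_one_left (DTe407.pA0 H hb hp j y) (xw1 H hb hp y j)
    · rw [ch_off hR]
      exact (Finset.sum_eq_zero fun i _ => ch_off fun h => hR h.2).le
  · unfold dbl
    rw [Finset.sum_comm]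
    refine Finset.sum_le_sum fun i _ => ?_
    by_cases hS : S i
    · rw [ch_on hS]
      have e : ∑ j, ch (XX D wr p b y j i ∧ S i) (fA wr p b j y * pB (bB p b.2) i y) =
          yw D wr p b y i * pB (bB p b.2) i y := by
        rw [yw_mul H hb hp]
        exact Finset.sum_congr rfl fun i _ => ch_congr ⟨fun h => h.1, fun h => ⟨h, hS⟩⟩
      rw [e]
      exact mul_le_of_le_one_left (DTe407.pB0 H hb hp i y)
        ((yw1 H hb hp y i).trans (rfle1 H hb hp _ y))
    · rw [ch_off hS]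
      exact (Finset.sum_eq_zero fun i _ => ch_off fun h => hS h.2).le

/-- the linear amounts of a type, summed over the types -/
lemma sum_sel1 (R : Λ → Prop) (f : Λ → ℝ) (f0 : ∀ j, 0 ≤ f j) (y : ℝ) :
    ∑ z, ∑ j, ch (D.lt p b.1 y j = some z ∧ R j) (f j) ≤ ∑ j, ch (R j) (f j) := by
  rw [Finset.sum_comm]
  refine Finset.sum_le_sum fun j _ => ?_
  rw [sum_type]
  exact ch_mono2 (f0 j) fun ⟨_, _, h⟩ => h

/-- **the linear rest of all the births** (low point) -/
theorem rest_le {R S : Λ → Prop} {y : ℝ}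
    (hX : ∀ j i, XX D wr p b y j i → pA (bB p b.2) j y ≠ 0 →
      pB (bB p b.2) i y ≠ 0 → ¬ T y j i → R j ∨ S i)
    (hN : ∀ j i, D.lt p b.1 y j = D.lt p b.1 y i → D.lt p b.1 y j ≠ none →
      pA (bB p b.2) j y ≠ 0 → pB (bB p b.2) i y ≠ 0 → wr p j ≠ wr p i → ¬ T y j i → R j ∨ S i)
    (hLS : ∀ j k i, XX D wr p b y j k → T y j k → pA (bB p b.2) j y ≠ 0 →
      pB (bB p b.2) k y ≠ 0 → D.lt p b.1 y i = D.lt p b.1 y j → D.lt p b.1 y j ≠ none →
      pB (bB p b.2) i y ≠ 0 → ¬ Lo y i → S i) :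
    ∑ z, ((eU D wr p b z y - etT D wr p b T Lo z y) +
      2 * (Mb D wr p b z y - MbT D wr p b T z y) + (Ma D wr p b z y - MaT D wr p b T z y)) ≤
      5 * (∑ j, ch (R j) (pA (bB p b.2) j y) + ∑ i, ch (S i) (pB (bB p b.2) i y)) := by
  have h1 := cr_RS H hb hp hX
  have h2 := sum_MaN H hb hp (T := T) y
  have h3 := sum_MbN H hb hp (T := T) y
  have h4 : ∀ z, eU D wr p b z y - etT D wr p b T Lo z y ≤
      (Ma D wr p b z y - MaT D wr p b T z y) +
      ∑ j, ch (D.lt p b.1 y j = some z ∧ R j) (uA wr p b j y) +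
      ∑ i, ch (D.lt p b.1 y i = some z ∧ S i) (uB wr p b i y) := by
    intro z
    have h := eU_sub H hb hp (T := T) (Lo := Lo) (R := R) (S := S) (z := z) (y := y)
      (fun j i hj hi hA hB hne hTT => hN j i (hj.trans hi.symm) (by rw [hj]; simp) hA hB hne hTT)
      (fun hne i hi hB hl => by
        obtain ⟨j, k, hX', ⟨hj, hTT⟩, hA, hB'⟩ := cr_ne H hb hp hne
        exact hLS j k i hX' hTT hA hB' (hi.trans hj.symm) (by rw [hj]; simp) hB hl)
    linarith
  have h5 := sum_sel1 H hb hp R (fun j => uA wr p b j y) (fun j => uA0 H hb hp j y) y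
  have h6 := sum_sel1 H hb hp S (fun j => uB wr p b j y) (fun j => uB0 H hb hp j y) y
  have h7 : ∑ j, ch (R j) (uA wr p b j y) ≤ ∑ j, ch (R j) (pA (bB p b.2) j y) :=
    Finset.sum_le_sum fun j _ => DTe407.ch_mono (uA_le H hb hp j y)
  have h8 : ∑ j, ch (S j) (uB wr p b j y) ≤ ∑ j, ch (S j) (pB (bB p b.2) j y) :=
    Finset.sum_le_sum fun j _ => DTe407.ch_mono (uB_le H hb hp j y)
  have h9 := Finset.sum_le_sum fun z (_ : z ∈ Finset.univ) => h4 z
  rw [Finset.sum_add_distrib, Finset.sum_add_distrib] at h9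
  rw [Finset.sum_add_distrib, Finset.sum_add_distrib, ← Finset.mul_sum]
  linarith

end sq

end split

end ev

/-! ### rows -/

section inst
variable (H : TYp wr D Inv)
  (hU : ∀ {p b}, Inv p b → p ≠ 0 → ∀ z x, ¬ D.spc p b z x)
  (T : ℕ → μ × List (DT Λ κ) → ℝ → Λ → Λ → Prop) (Lo : ℕ → μ × List (DT Λ κ) → ℝ → Λ → Prop)
  (hT : ∀ {p b}, Inv p b → p ≠ 0 → ∀ j i, MP fun y => T p b y j i)
  (hL : ∀ {p b}, Inv p b → p ≠ 0 → ∀ i, MP fun y => Lo p b y i)

/-- **rows: the births of the pairs of `T` in the `L²` form** -/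
noncomputable def rowsW : RowsL (rxm H) where
  raw := raw D wr
  τ := fun p b => frP (H.frF p b.1) (H.inj p b.1)
  hm := fun p b => hm D wr p b
  hs := fun p b => hs D wr p b
  E0 := E0D D wr
  E2m := fun p b z x => ElT D wr p b (T p b) (Lo p b) z x + EsT D wr p b (T p b) z x
  E2s := fun _ _ _ _ => 0
  fam := fun hb hp => ⟨_, _, _, _, _, fam H hb hp⟩
  rl := fun hb hp σ hσ z => RL_GMU (gmu H hb hp z) hσ
  vm_eq := fun hb hp σ hσ z x => rfl
  vs_eq := fun hb hp σ hσ z x => rfl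
  e_eq := fun hb hp σ hσ x => rfl
  hP_eq := fun {p b} hb hp z x => (hPP_eq H hb hp z x).symm
  jB_le := fun hb hp x => le_rfl
  pE0 := fun hb hp z => PB_E0G (gmu H hb hp z)
  pEm := fun hb hp z => (PElT H hb hp (hT hb hp) (hL hb hp) z).add (PEsT H hb hp (hT hb hp) z)
  pEs := fun hb hp z => PB.const le_rfl
  Em := fun {p b} hb hp z x => by
    have h : (raw D wr p b z).gm x = gm D wr p b z x := gm_eq x
    rw [h, E0_unm H hb hp (hU hb hp)]
    exact add_le_add (ElT_le H hb hp (hU hb hp) z x) (EsT_le H hb hp z x)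
  Es := fun {p b} hb hp z x => by
    have h : (raw D wr p b z).gs x = gs D wr p b z x := gs_eq x
    rw [h, gs_unm H hb hp (hU hb hp)]

/-- **the linear rest** -/
lemma e1_eqW {p : ℕ} {b : μ × List (DT Λ κ)} (hb : Inv p b) (hp : p ≠ 0) (x : ℝ) :
    (rowsW H hU T Lo hT hL).e1 p b x = ∑ z, ((El D wr p b z x - ElT D wr p b (T p b) (Lo p b) z x) +
      (Es D wr p b z x - EsT D wr p b (T p b) z x)) := by
  show ∑ z, ((E0D D wr p b z x + (raw D wr p b z).gm x -
    (ElT D wr p b (T p b) (Lo p b) z x + EsT D wr p b (T p b) z x)) +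
    ((raw D wr p b z).gs x - 0)) = _
  refine Finset.sum_congr rfl fun z _ => ?_
  have e3 : (raw D wr p b z).gm x = gm D wr p b z x := gm_eq x
  have e4 : (raw D wr p b z).gs x = gs D wr p b z x := gs_eq x
  have e5 := E0_unm H hb hp (hU hb hp) z x
  rw [e3, e4, gs_unm H hb hp (hU hb hp)]
  linarith

lemma Ep_sub (p : ℕ) (f g : ℝ → ℝ) (y : ℝ) :
    Ep p (fun x => f x - g x) y = Ep p f y - Ep p g y := by
  unfold Ep
  rw [Finset.sum_sub_distrib, sub_div]

lemma Ep_of_lift {p : ℕ} (hp : 0 < p) {f g : ℝ → ℝ} (h : Lift p f g) (y : ℝ) :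
    Ep p g y = 1 / (p : ℝ) * f y := by
  unfold Ep
  rw [h y]
  ring

/-- **the fibre mean of the linear rest** -/
theorem Ep_e1W {p : ℕ} {b : μ × List (DT Λ κ)} (hb : Inv p b) (hp : p ≠ 0) (y : ℝ) :
    Ep p ((rowsW H hU T Lo hT hL).e1 p b) y = 1 / (p : ℝ) * ∑ z,
      ((eU D wr p b z y - etT D wr p b (T p b) (Lo p b) z y) +
      2 * (Mb D wr p b z y - MbT D wr p b (T p b) z y) +
      (Ma D wr p b z y - MaT D wr p b (T p b) z y)) := by
  have hp0 : 0 < p := Nat.pos_of_ne_zero hp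
  have mT : ∀ j i, MP fun y => T p b y j i := hT hb hp
  have mL : ∀ i, MP fun y => Lo p b y i := hL hb hp
  have e0 : (rowsW H hU T Lo hT hL).e1 p b = fun x => ∑ z,
      ((El D wr p b z x - ElT D wr p b (T p b) (Lo p b) z x) +
      (Es D wr p b z x - EsT D wr p b (T p b) z x)) :=
    funext fun x => e1_eqW H hU T Lo hT hL hb hp x
  rw [e0, DTo407.Ep_sum', Finset.mul_sum]
  refine Finset.sum_congr rfl fun z _ => ?_
  have hEl : Lift p (fun y => eU D wr p b z y + Mb D wr p b z y) (El D wr p b z) := by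
    intro y
    have h1 := (huU H hb hp (hU hb hp) z).s_L (PeU H hb hp z) y
    have h2 := lift_Lg H hb hp z y
    unfold El
    rw [Finset.sum_add_distrib, h1, h2]
  have k1 := Ep_of_lift hp0 hEl y
  have k2 := Ep_of_lift hp0 (lift_ElT H hb hp mT mL z) y
  have k3 : Ep p (Es D wr p b z) y = 1 / (p : ℝ) * (Mb D wr p b z y + Ma D wr p b z y) := by
    have h := Ep_cst hp0 (((PMb H hb hp z).add (PMa H hb hp z)).smul (w0 H hb hp)) y
    exact h
  have k4 : Ep p (EsT D wr p b (T p b) z) y =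
      1 / (p : ℝ) * (MbT D wr p b (T p b) z y + MaT D wr p b (T p b) z y) := by
    have h := Ep_cst hp0 (((PMbT H hb hp mT z).add (PMaT H hb hp mT z)).smul (w0 H hb hp)) y
    exact h
  rw [Ep_add', Ep_sub, Ep_sub, k1, k2, k3, k4]
  ring

/-- **the linear rest by the pieces** : `R` and `S` meet every pair which is not of second order -/
theorem e1_pcW {p : ℕ} {b : μ × List (DT Λ κ)} (hb : Inv p b) (hp : p ≠ 0) {R S : Λ → Prop} {y : ℝ}
    (hX : ∀ j i, XX D wr p b y j i → pA (bB p b.2) j y ≠ 0 →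
      pB (bB p b.2) i y ≠ 0 → ¬ T p b y j i → R j ∨ S i)
    (hN : ∀ j i, D.lt p b.1 y j = D.lt p b.1 y i → D.lt p b.1 y j ≠ none →
      pA (bB p b.2) j y ≠ 0 → pB (bB p b.2) i y ≠ 0 → wr p j ≠ wr p i → ¬ T p b y j i → R j ∨ S i)
    (hLS : ∀ j k i, XX D wr p b y j k → T p b y j k → pA (bB p b.2) j y ≠ 0 →
      pB (bB p b.2) k y ≠ 0 → D.lt p b.1 y i = D.lt p b.1 y j → D.lt p b.1 y j ≠ none →
      pB (bB p b.2) i y ≠ 0 → ¬ Lo p b y i → S i) :
    Ep p ((rowsW H hU T Lo hT hL).e1 p b) y ≤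
      5 * (1 / (p : ℝ) * ∑ j, ch (R j) 1 * pA (bB p b.2) j y +
        1 / (p : ℝ) * ∑ i, ch (S i) (pB (bB p b.2) i y)) := by
  rw [Ep_e1W H hU T Lo hT hL hb hp]
  have h := rest_le H hb hp (T := T p b) (Lo := Lo p b) hX hN hLS
  have h2 := mul_le_mul_of_nonneg_left h (w0 H hb hp)
  refine h2.trans (le_of_eq ?_)
  have e : ∑ j, ch (R j) (pA (bB p b.2) j y) = ∑ j, ch (R j) 1 * pA (bB p b.2) j y := by
    refine Finset.sum_congr rfl fun j _ => ?_
    by_cases hR : R j
    · rw [ch_on hR, ch_on hR, one_mul]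
    · rw [ch_off hR, ch_off hR, zero_mul]
  rw [e]
  ring

include H in
lemma pG_le_vT {p : ℕ} {b : μ × List (DT Λ κ)} (hb : Inv p b) (hp : p ≠ 0) {i : Λ} {x : ℝ}
    (h : pA (bB p b.2) i (p * x) = 0) : pG (bB p b.2) i x = vT p (bB p b.2) i x := by
  rw [vT_eq (H.bok hb hp), PrD45.vF_eq, h, mul_zero, zero_add]

/-- **the linear rest as rates of the pieces in the ties** -/
theorem e1_rateW {p : ℕ} {b : μ × List (DT Λ κ)} (hb : Inv p b) (hp : p ≠ 0)
    {R S : ℝ → Λ → Prop} (hR : ∀ y j, R (y + 1) j = R y j) (hS : ∀ y j, S (y + 1) j = S y j)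
    {y : ℝ} (hX : ∀ j i, XX D wr p b y j i → pA (bB p b.2) j y ≠ 0 →
      pB (bB p b.2) i y ≠ 0 → ¬ T p b y j i → R y j ∨ S y i)
    (hN : ∀ j i, D.lt p b.1 y j = D.lt p b.1 y i → D.lt p b.1 y j ≠ none →
      pA (bB p b.2) j y ≠ 0 → pB (bB p b.2) i y ≠ 0 → wr p j ≠ wr p i → ¬ T p b y j i →
      R y j ∨ S y i)
    (hLS : ∀ j k i, XX D wr p b y j k → T p b y j k → pA (bB p b.2) j y ≠ 0 →
      pB (bB p b.2) k y ≠ 0 → D.lt p b.1 y i = D.lt p b.1 y j → D.lt p b.1 y j ≠ none →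
      pB (bB p b.2) i y ≠ 0 → ¬ Lo p b y i → S y i)
    (hex : ∀ i, pB (bB p b.2) i y ≠ 0 → S y i → pA (bB p b.2) i y = 0) :
    14 * Ep p ((rowsW H hU T Lo hT hL).e1 p b) y ≤ ∑ j, Ep p (fun x =>
      70 * (1 / ((p : ℝ) - 1) * ch (pA (bB p b.2) j (p * x) ≠ 0 ∧ R (p * x) j) 1 +
        ch (pG (bB p b.2) j x ≠ 0 ∧ S (p * x) j) 1) * vT p (bB p b.2) j x) y := by
  have hp0 : 0 < p := Nat.pos_of_ne_zero hp
  have Kk := H.bok hb hp
  have h1 := e1_pcW H hU T Lo hT hL hb hp hX hN hLS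
  have q0 : ∀ (j : Λ), ch (R y j) 1 * pA (bB p b.2) j y =
      ch (pA (bB p b.2) j y ≠ 0 ∧ R y j) 1 * pA (bB p b.2) j y := fun j => by
    by_cases h0 : pA (bB p b.2) j y = 0
    · rw [h0, mul_zero, mul_zero]
    · by_cases hR' : R y j
      · rw [ch_on hR', ch_on ⟨h0, hR'⟩]
      · rw [ch_off hR', ch_off fun h => hR' h.2]
  rw [Finset.sum_congr rfl fun j _ => q0 j] at h1
  have h2 := P_rate H hb hp (E := fun y j => ch (pA (bB p b.2) j y ≠ 0 ∧ R y j) 1)
    (fun y j => ch_nonneg zero_le_one) (fun j y => by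
      have e1 := (Kk.PA j).per y
      have e2 := hR y j
      simp only [e1, e2]) y
  have h3 : 1 / (p : ℝ) * ∑ i, ch (S y i) (pB (bB p b.2) i y) ≤
      ∑ j, Ep p (fun x => ch (pG (bB p b.2) j x ≠ 0 ∧ S (p * x) j) 1 *
        vT p (bB p b.2) j x) y := by
    rw [Finset.mul_sum]
    refine Finset.sum_le_sum fun i _ => ?_
    have e1 : 1 / (p : ℝ) * ch (S y i) (pB (bB p b.2) i y) =
        Ep p (fun x => ch (S (p * x) i) (pG (bB p b.2) i x)) y := by
      have h := DTo407.Ep_ch hp0 (P := fun y => S y i) (fun y => hS y i) (pG (bB p b.2) i) y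
      rw [h, (lift_pG Kk i).Ep]
      by_cases hs : S y i
      · rw [ch_on hs, ch_on hs]; ring
      · rw [ch_off hs, ch_off hs, mul_zero]
    rw [e1]
    refine Ep_mono_fib hp0 fun k hk => ?_
    set x := (y + (k:ℕ)) / p with hx
    have g0 := (PB_pG (bB p b.2) i).nonneg x
    have ePx : ∀ {α : Type} {P : ℝ → α}, (∀ x, P (x + 1) = P x) → P (p * x) = P y :=
      fun {α P} h => fib_per hp0 h y k
    by_cases hs : S (p * x) i
    · by_cases hg : pG (bB p b.2) i x = 0
      · rw [ch_on hs, hg]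
        exact mul_nonneg (ch_nonneg zero_le_one) ((PB_vT Kk hp0 i).nonneg x)
      · rw [ch_on hs, ch_on ⟨hg, hs⟩, one_mul]
        have hs' : S y i := (ePx (P := fun y => S y i) (fun y => hS y i)) ▸ hs
        have hB : pB (bB p b.2) i y ≠ 0 := by
          intro h0
          have h4 := TyS16.lift_le hp0 (PB_pG (bB p b.2) i) (lift_pG Kk i) x
          rw [ePx (P := pB (bB p b.2) i) (Kk.PBb i).per, h0] at h4
          exact hg (le_antisymm h4 g0)
        have hA : pA (bB p b.2) i (p * x) = 0 := by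
          rw [ePx (P := pA (bB p b.2) i) (Kk.PA i).per]
          exact hex i hB hs'
        exact (pG_le_vT H hb hp hA).le
    · rw [ch_off hs]
      exact mul_nonneg (ch_nonneg zero_le_one) ((PB_vT Kk hp0 i).nonneg x)
  have e4 : ∑ j, Ep p (fun x =>
      70 * (1 / ((p : ℝ) - 1) * ch (pA (bB p b.2) j (p * x) ≠ 0 ∧ R (p * x) j) 1 +
        ch (pG (bB p b.2) j x ≠ 0 ∧ S (p * x) j) 1) * vT p (bB p b.2) j x) y =
      70 * (∑ j, Ep p (fun x => 1 / ((p : ℝ) - 1) *
        ch (pA (bB p b.2) j (p * x) ≠ 0 ∧ R (p * x) j) 1 * vT p (bB p b.2) j x) y +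
      ∑ j, Ep p (fun x => ch (pG (bB p b.2) j x ≠ 0 ∧ S (p * x) j) 1 *
        vT p (bB p b.2) j x) y) := by
    rw [← Finset.sum_add_distrib, Finset.mul_sum]
    refine Finset.sum_congr rfl fun j _ => ?_
    rw [← Ep_add', ← Ep_smul']
    congr 1
    funext x
    ring
  rw [e4]
  linarith

/-! ### fibre data -/

/-- **the fibre data of the second order births** -/
noncomputable def fibW : Fib (rxm H) where
  E₁ := fun p b z => ElT D wr p b (T p b) (Lo p b) z
  E₂ := fun p b z => EsT D wr p b (T p b) z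
  a := fun p b z => D.h p (D.cP p b) z
  G := fun p b z => Gl D wr p b z
  n1 := fun p b z y => 2 * etT D wr p b (T p b) (Lo p b) z y ^ 2 + 2 * MbT D wr p b (T p b) z y ^ 2
  n2 := fun p b z y => (MbT D wr p b (T p b) z y + MaT D wr p b (T p b) z y) ^ 2
  bb := fun p b z y => Bl D wr p b z y ^ 2
  pE1 := fun hb hp z => PElT H hb hp (hT hb hp) (hL hb hp) z
  pE2 := fun hb hp z => PEsT H hb hp (hT hb hp) z
  pa := fun hb hp z => (gmu H hb hp z).pa
  pG := fun hb hp z => PGl H z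
  pn1 := fun hb hp z => ((Fib.PB_sq (PetT H hb hp (hT hb hp) (hL hb hp) z)).smul
    (by norm_num)).add ((Fib.PB_sq (PMbT H hb hp (hT hb hp) z)).smul (by norm_num))
  pn2 := fun hb hp z => Fib.PB_sq ((PMbT H hb hp (hT hb hp) z).add (PMaT H hb hp (hT hb hp) z))
  pbb := fun hb hp z => Fib.PB_sq (PBl H hb hp z)
  e1 := fun {p b} hb hp z y => by
    have hp0 : 0 < p := Nat.pos_of_ne_zero hp
    have h1 := sq_lift hp0 (lift_ElT H hb hp (hT hb hp) (hL hb hp) z)
      (fun x => (PElT H hb hp (hT hb hp) (hL hb hp) z).nonneg x) y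
    refine h1.trans (mul_le_mul_of_nonneg_left ?_ (w0 H hb hp))
    nlinarith [sq_nonneg (etT D wr p b (T p b) (Lo p b) z y - MbT D wr p b (T p b) z y)]
  e2 := fun {p b} hb hp z y => by
    have hp0 : 0 < p := Nat.pos_of_ne_zero hp
    have h := Ep_cst hp0 (Fib.PB_sq (((PMbT H hb hp (hT hb hp) z).add
      (PMaT H hb hp (hT hb hp) z)).smul (w0 H hb hp))) y
    have e : (1 / (p : ℝ)) ^ 2 * (MbT D wr p b (T p b) z y + MaT D wr p b (T p b) z y) ^ 2 =
      (1 / (p : ℝ) * (MbT D wr p b (T p b) z y + MaT D wr p b (T p b) z y)) ^ 2 := by ring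
    rw [e]
    exact h.le
  hP := fun hb hp z x => hP_le H hb hp (hU hb hp) z x
  eG := fun {p b} hb hp z y => sq_lift (Nat.pos_of_ne_zero hp) (lift_Gl H hb hp z)
    (fun x => (PGl H z).nonneg x) y

/-- **the rates and the second order part of the births** -/
noncomputable def lprW {D' : RGx (rb H)} {θ : ℕ → ℝ} {τ : ℕ → ζ → ℝ} (hθ : ∀ p, 0 < θ p)
    (hτ : ∀ p z, 0 < τ p z) : LPr D' (rowsW H hU T Lo hT hL) :=
  (fibW H hU T Lo hT hL).lpr hθ hτ fun {p b} hb hp z x => by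
    show ElT D wr p b (T p b) (Lo p b) z x + EsT D wr p b (T p b) z x + 0 ≤ _
    rw [add_zero]
    exact le_rfl

include H in
/-- **support of the located births of second order** -/
lemma ElT_ne {p : ℕ} {b : μ × List (DT Λ κ)} (hb : Inv p b) (hp : p ≠ 0) {z : ζ} {x : ℝ}
    (h : ElT D wr p b (T p b) (Lo p b) z x ≠ 0) : ∃ j i, D.lt p b.1 (p * x) i = some z ∧
      pG (bB p b.2) i x ≠ 0 ∧ pA (bB p b.2) j (p * x) ≠ 0 ∧
      ((T p b (p * x) j i ∧ (XX D wr p b (p * x) j i ∨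
        (D.lt p b.1 (p * x) j = some z ∧ wr p j ≠ wr p i))) ∨
      (Lo p b (p * x) i ∧ D.lt p b.1 (p * x) j = some z ∧ ∃ k, XX D wr p b (p * x) j k ∧
        T p b (p * x) j k ∧ pB (bB p b.2) k (p * x) ≠ 0)) := by
  by_contra hn
  push Not at hn
  apply h
  unfold ElT
  have e1 : LgT D wr p b (T p b) z x = 0 := by
    refine Finset.sum_eq_zero fun j _ => Finset.sum_eq_zero fun i _ => ?_
    by_cases hc : XX D wr p b (p * x) j i ∧ D.lt p b.1 (p * x) i = some z ∧ T p b (p * x) j i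
    · rw [ch_on hc]
      by_cases hg : pG (bB p b.2) i x = 0
      · rw [hg, mul_zero]
      · by_cases hA : pA (bB p b.2) j (p * x) = 0
        · unfold fA
          rw [hA, zero_div, mul_zero, zero_mul]
        · exact absurd hc.1 ((hn j i hc.2.1 hg hA).1 hc.2.2).1
    · exact ch_off hc
  have e2 : EtT D wr p b (T p b) (Lo p b) z x = 0 := by
    refine Finset.sum_eq_zero fun i _ => ?_
    by_cases hi : D.lt p b.1 (p * x) i = some z
    · rw [ch_on hi]
      by_cases hg : eg (wr p) p (bB p b.2) i x = 0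
      · rw [hg, mul_zero]
      · have hG : pG (bB p b.2) i x ≠ 0 := fun h' => hg (by unfold eg; rw [h', mul_zero])
        have k0 : kT D wr p b (T p b) (Lo p b) z i (p * x) = 0 := by
          have n1 : ∑ j, ch (D.lt p b.1 (p * x) j = some z ∧ T p b (p * x) j i)
              (uA wr p b j (p * x)) = 0 := by
            refine Finset.sum_eq_zero fun j _ => ?_
            by_cases hc : D.lt p b.1 (p * x) j = some z ∧ T p b (p * x) j i
            · rw [ch_on hc]
              by_contra hu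
              have hA : pA (bB p b.2) j (p * x) ≠ 0 := fun h' => hu (by
                unfold uA; rw [h', mul_zero])
              have huB : uB wr p b i (p * x) ≠ 0 := by
                intro h0
                apply hg
                have h5 := TyS16.lift_le (Nat.pos_of_ne_zero hp) (PB_pG (bB p b.2) i)
                  (lift_pG (H.bok hb hp) i) x
                have h6 : pB (bB p b.2) i (p * x) ≠ 0 := fun h7 =>
                  hG (le_antisymm (h5.trans h7.le) ((PB_pG (bB p b.2) i).nonneg x))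
                have h8 : 1 - rf wr p b (wr p i) (p * x) = 0 := by
                  unfold uB at h0
                  exact (mul_eq_zero.1 h0).resolve_right h6
                show (1 - rf wr p b (wr p i) (p * x)) * pG (bB p b.2) i x = 0
                rw [h8, zero_mul]
              exact (exc_ne H hb hp hu huB) (((hn j i hi hG hA).1 hc.2).2 hc.1)
            · exact ch_off hc
          have n2 : ch (Lo p b (p * x) i) (MaT D wr p b (T p b) z (p * x)) = 0 := by
            by_cases hl : Lo p b (p * x) i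
            · rw [ch_on hl]
              by_contra hM
              obtain ⟨j, k, hX, ⟨hj, hTT⟩, hA, hB⟩ := cr_ne H hb hp hM
              exact hB ((hn j i hi hG hA).2 hl hj k hX hTT)
            · exact ch_off hl
          unfold kT
          rw [n1, n2, add_zero, zero_div]
        rw [k0, zero_mul]
    · exact ch_off hi
  rw [e1, e2, add_zero]

lemma sumM {ι J : Type*} [Fintype ι] [Fintype J] (c : J → ℝ) (f : ι → J → ℝ) :
    ∑ z, M c (f z) = M c fun j => ∑ z, f z j := by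
  unfold M
  rw [Finset.sum_comm]
  exact Finset.sum_congr rfl fun j _ => (Finset.mul_sum _ _ _).symm

include H in
lemma Pecr {p : ℕ} {b : μ × List (DT Λ κ)} (hb : Inv p b) (hp : p ≠ 0) {P : ℝ → Λ → Λ → Prop}
    (hP : ∀ j i, MP fun y => P y j i) : PB (ecr D wr p b P) :=
  PB.sum _ fun j _ => PB.sum _ fun i _ => PB_ch (((MXX H hb hp j i).prod (hP j i)).map
    fun q => q.1 ∧ q.2) (((H.bok hb hp).PA j).mul ((H.bok hb hp).PBb i))

include H in
lemma Pemm {p : ℕ} {b : μ × List (DT Λ κ)} (hb : Inv p b) (hp : p ≠ 0) {P : ℝ → Λ → Λ → Prop}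
    (hP : ∀ j i, MP fun y => P y j i) (z : ζ) : PB (emm D wr p b P z) :=
  PB.sum _ fun j _ => PB.sum _ fun i _ => PB_ch ((((Mlt H z j).prod (Mlt H z i)).prod
    (hP j i)).map fun q => q.1.1 ∧ q.1.2 ∧ wr p j ≠ wr p i ∧ q.2)
      (((H.bok hb hp).PA j).mul ((H.bok hb hp).PBb i))

/-- **pair energy of the second order births** -/
noncomputable def PW (D : TD μ Λ κ ζ) (wr : ℕ → Λ → κ)
    (T : ℕ → μ × List (DT Λ κ) → ℝ → Λ → Λ → Prop) (m₀ : ℝ) (p : ℕ) (b : μ × List (DT Λ κ))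
    (y : ℝ) : ℝ := 4 * ∑ z, emm D wr p b (T p b) z y + 10 * m₀ * ecr D wr p b (T p b) y

include H in
/-- the pair energy by a static relation of the pieces -/
theorem PW_le {p : ℕ} {b : μ × List (DT Λ κ)} (hb : Inv p b) (hp : p ≠ 0) {m₀ : ℝ} (m0 : 0 ≤ m₀)
    {Rel : Λ → Λ → Prop} {y : ℝ} (h : ∀ j i, T p b y j i → pA (bB p b.2) j y ≠ 0 →
      pB (bB p b.2) i y ≠ 0 → (XX D wr p b y j i ∨
        (D.lt p b.1 y j = D.lt p b.1 y i ∧ wr p j ≠ wr p i)) → Rel j i) :
    PW D wr T m₀ p b y ≤ (4 + 10 * m₀) *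
      dbl (fun j i => pA (bB p b.2) j y * pB (bB p b.2) i y) Rel := by
  have h1 := sum_emm H hb hp (T := T p b) y
  have h2 : dbl (fun j i => pA (bB p b.2) j y * pB (bB p b.2) i y) (fun j i =>
      D.lt p b.1 y j = D.lt p b.1 y i ∧ wr p j ≠ wr p i ∧ T p b y j i) ≤
      dbl (fun j i => pA (bB p b.2) j y * pB (bB p b.2) i y) Rel :=
    dbl_mono (pAB0 H hb hp y) fun j i h0 h3 => h j i h3.2.2
      (fun h' => h0 (by simp only [h', zero_mul])) (fun h' => h0 (by simp only [h', mul_zero]))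
      (Or.inr ⟨h3.1, h3.2.1⟩)
  have h4 : ecr D wr p b (T p b) y ≤
      dbl (fun j i => pA (bB p b.2) j y * pB (bB p b.2) i y) Rel :=
    dbl_mono (pAB0 H hb hp y) fun j i h0 h3 => h j i h3.2
      (fun h' => h0 (by simp only [h', zero_mul])) (fun h' => h0 (by simp only [h', mul_zero]))
      (Or.inl h3.1)
  have h5 := mul_le_mul_of_nonneg_left h4 m0
  unfold PW
  linarith

open Classical in
/-- **the second order part of the births**: `τ p z = (N₀ + 1) t` -/
theorem I_xW {θ : ℕ → ℝ} {t N₀ m₀ : ℕ → ℝ} (hθ : ∀ p, 0 < θ p) (ht : ∀ p, 0 < t p)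
    (hN0 : ∀ p, 0 ≤ N₀ p) (hm0 : ∀ p, 0 ≤ m₀ p) {p : ℕ} {s : Gs (μ × List (DT Λ κ))}
    (hs : (rxm H).gok p s) (hp : p ≠ 0)
    (hN : ∀ z y, (((Finset.range p).filter fun i : ℕ =>
      (fibW H hU T Lo hT hL).Zs p s z ((y + i) / p)).card : ℝ) ≤ N₀ p)
    (hm : ∀ j z y, ((CzT D wr p (s.L j) (T p (s.L j)) z y).card : ℝ) ≤ m₀ p) :
    I ((fibW H hU T Lo hT hL).x2 θ (fun p _ => (N₀ p + 1) * t p) p s) ≤ 4 / (θ p * p) *
      ((N₀ p + 1) * t p * (M s.c fun j => I (PW D wr T (m₀ p) p (s.L j))) +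
        2 / t p * (M s.c fun j => I fun y => ∑ z, D.h p (D.cP p (s.L j)) z y ^ 2) +
        4 / t p * M s.c fun j => I fun y => ∑ z, Bl D wr p (s.L j) z y ^ 2) := by
  have c0 := hs.1.c0
  have hn1 : 0 < N₀ p + 1 := by linarith [hN0 p]
  have htp := ht p
  have h := (fibW H hU T Lo hT hL).I_x2 (θ := θ) (τ := fun p _ => (N₀ p + 1) * t p) hs hp (hθ p)
    (fun z => mul_pos hn1 htp) (Nz := fun _ => N₀ p) hN
  refine h.trans ?_
  have hp' : (0:ℝ) < p := by exact_mod_cast Nat.pos_of_ne_zero hp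
  have hθp := hθ p
  refine mul_le_mul_of_nonneg_left ?_ (by positivity)
  rw [Finset.sum_add_distrib, Finset.sum_add_distrib, ← Finset.mul_sum, ← Finset.mul_sum,
    ← Finset.mul_sum, sumM, sumM, sumM]
  -- the sums over the types
  have f1 : (M s.c fun j => ∑ z, (I ((fibW H hU T Lo hT hL).n1 p (s.L j) z) +
      I ((fibW H hU T Lo hT hL).n2 p (s.L j) z))) ≤ M s.c fun j => I (PW D wr T (m₀ p) p (s.L j)) := by
    refine M_mono c0 fun j => ?_
    have hb := hs.2 j
    have q1 : ∀ z, PB ((fibW H hU T Lo hT hL).n1 p (s.L j) z) := fun z =>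
      (fibW H hU T Lo hT hL).pn1 hb hp z
    have q2 : ∀ z, PB ((fibW H hU T Lo hT hL).n2 p (s.L j) z) := fun z =>
      (fibW H hU T Lo hT hL).pn2 hb hp z
    have e1 : ∑ z, (I ((fibW H hU T Lo hT hL).n1 p (s.L j) z) +
        I ((fibW H hU T Lo hT hL).n2 p (s.L j) z)) =
        I fun y => ∑ z, ((fibW H hU T Lo hT hL).n1 p (s.L j) z y +
          (fibW H hU T Lo hT hL).n2 p (s.L j) z y) := by
      rw [I_sum _ fun z _ => ((q1 z).add (q2 z)).integrableOn]
      exact Finset.sum_congr rfl fun z _ => (I_add (q1 z).integrableOn (q2 z).integrableOn).symm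
    rw [e1]
    have q3 : PB (PW D wr T (m₀ p) p (s.L j)) :=
      ((PB.sum _ fun z _ => Pemm H hb hp (fun j' i => hT hb hp j' i) z).smul (by norm_num)).add
        ((Pecr H hb hp fun j' i => hT hb hp j' i).smul (by linarith [hm0 p]))
    refine I_mono (PB.sum _ fun z _ => (q1 z).add (q2 z)).integrableOn
      q3.integrableOn fun y => ?_
    exact sum_nW H hb hp (hm0 p) fun z => hm j z y
  have f2 : (M s.c fun j => ∑ z, I fun y => (fibW H hU T Lo hT hL).a p (s.L j) z y ^ 2) =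
      M s.c fun j => I fun y => ∑ z, D.h p (D.cP p (s.L j)) z y ^ 2 := by
    congr 1
    funext j
    exact (I_sum (f := fun z y => D.h p (D.cP p (s.L j)) z y ^ 2) _ fun z _ =>
      (Fib.PB_sq ((fibW H hU T Lo hT hL).pa (hs.2 j) hp z)).integrableOn).symm
  have f3 : (M s.c fun j => ∑ z, I ((fibW H hU T Lo hT hL).bb p (s.L j) z)) =
      M s.c fun j => I fun y => ∑ z, Bl D wr p (s.L j) z y ^ 2 := by
    congr 1
    funext j
    exact (I_sum (f := fun z y => Bl D wr p (s.L j) z y ^ 2) _ fun z _ =>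
      ((fibW H hU T Lo hT hL).pbb (hs.2 j) hp z).integrableOn).symm
  rw [f2, f3]
  set A := M s.c fun j => I fun y => ∑ z, D.h p (D.cP p (s.L j)) z y ^ 2 with hA
  set B := M s.c fun j => I fun y => ∑ z, Bl D wr p (s.L j) z y ^ 2 with hB
  have B0 : 0 ≤ B := M_nonneg c0 fun j => I_nonneg fun y => Finset.sum_nonneg fun z _ => sq_nonneg _
  have g1 := mul_le_mul_of_nonneg_left f1 (mul_pos hn1 htp).le
  have g2 : 2 * (N₀ p + 1) / ((N₀ p + 1) * t p) * A = 2 / t p * A := by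
    field_simp
  have g3 : 4 / ((N₀ p + 1) * t p) * B ≤ 4 / t p * B := by
    refine mul_le_mul_of_nonneg_right ?_ B0
    refine div_le_div_of_nonneg_left (by norm_num) htp ?_
    have := hN0 p
    nlinarith
  rw [g2]
  linarith

end inst

end

end Crest.Agent.R4P.BthW48
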