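import Crest.Agent.R4P.BthW_48

/-!
R4 (S0004) with powers, T3, helper48: **births of second order, own-height price**.

The price `17 √σ M[g √(f + g)]` of helper49 (`PMs49.PM7_own`) sees only the height of the own member.
With the share `E / sE` of a birth on its fibre (`sE` = sum of the births on the fibre):
* `own_key` : `17 √(σ m) g ≤ 8 θ σ g + 5/θ (τ E sE + h² (E/sE) / τ)`;
* **`PrE_own`** : the price property with constant rate `8 θ`;
* `sE`, `xO`, **`lprO`** : rates and second order parts for EVERY `RowsL` (no sheets, no other members);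
* **`Ep_share`** : `Σ` over the fibre of `h² E/sE` is at most `2 a² [sE ≠ 0] + 2 B²`;
* **`Ep_xO`**, **`I_xO`** (rows `rowsW`) : `I xO ≤ 10/(θ p) (τ M I PW + 1/τ M I (Σ_z [..] a_z² + Σ_z B_z²))`.
-/

set_option autoImplicit false
set_option linter.unusedSectionVars false
set_option linter.unusedVariables false
open MeasureTheory Filter Set

namespace Crest.Agent.R4P.BthX48

open Crest.Agent.R4.Tour104 Crest.Agent.R4.Clos758
open Crest.Agent.R4P.GMer27 Crest.Agent.R4P.GCol27 Crest.Agent.R4P.RSys343 Crest.Agent.R4P.TrR343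
open Crest.Agent.R4P.RXs343 Crest.Agent.R4P.RXm55 Crest.Agent.R4P.RXm55.RXm
open Crest.Agent.R4P.MSi343 (su su_add two_pos')
open Crest.Agent.R4P.ModeP940 Crest.Agent.R4P.MisR16 Crest.Agent.R4P.Mism16
open Crest.Agent.R4P.PMs49 Crest.Agent.R4P.PMc49 Crest.Agent.R4P.MSm25
open Crest.Agent.R4P.RGf25 Crest.Agent.R4P.Pay349 Crest.Agent.R4P.DTp26
open Crest.Agent.R4P.BthR48 Crest.Agent.R4P.BthS48

/-! ### the scalar inequality -/

lemma own_key {σ θ τ g h E s : ℝ} (hσ : 0 < σ) (hθ : 0 < θ) (hτ : 0 < τ) (g0 : 0 ≤ g)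
    (gE : g ≤ E) (h0 : 0 ≤ h) (Es : E ≤ s) :
    17 * (Real.sqrt σ * (g * Real.sqrt (min h σ))) ≤
      8 * θ * σ * g + 5 / θ * (τ * (E * s) + h ^ 2 * (E / s) / τ) := by
  set m := min h σ with hm
  have m0 : 0 ≤ m := le_min h0 hσ.le
  have mh : m ≤ h := min_le_left _ _
  have E0 : 0 ≤ E := g0.trans gE
  have s0 : 0 ≤ s := E0.trans Es
  have h1 : Real.sqrt σ * Real.sqrt m = Real.sqrt (σ * m) := (Real.sqrt_mul hσ.le m).symm
  have h2 := sqrt_price (σ := σ) (H := m) (ε := 8 * θ / 17) hσ.le m0 (by positivity)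
  have h3 : 17 * (Real.sqrt σ * (g * Real.sqrt m)) = 17 * g * Real.sqrt (σ * m) := by
    rw [← h1]; ring
  rw [h3]
  have h4 : 17 * g * Real.sqrt (σ * m) ≤ 17 * g * (8 * θ / 17 * σ + m / (4 * (8 * θ / 17))) :=
    mul_le_mul_of_nonneg_left h2 (by positivity)
  have h5 : 17 * g * (8 * θ / 17 * σ + m / (4 * (8 * θ / 17))) =
      8 * θ * σ * g + 289 / (32 * θ) * (g * m) := by
    field_simp
    ring
  rw [h5] at h4
  have h6 : g * m ≤ E * h := mul_le_mul gE mh m0 E0
  -- the share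
  have h7 : 2 * (E * h) ≤ τ * (E * s) + h ^ 2 * (E / s) / τ := by
    by_cases hs : s = 0
    · have : E = 0 := le_antisymm (Es.trans hs.le) E0
      rw [this]; simp
    · have s1 : 0 < s := lt_of_le_of_ne s0 (Ne.symm hs)
      have e : τ * (E * s) + h ^ 2 * (E / s) / τ - 2 * (E * h) = E / (s * τ) * (τ * s - h) ^ 2 := by
        field_simp
        ring
      have : 0 ≤ E / (s * τ) * (τ * s - h) ^ 2 := by positivity
      linarith
  have h8 : 0 ≤ τ * (E * s) + h ^ 2 * (E / s) / τ := by positivity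
  have h9 : 289 / (32 * θ) * (g * m) ≤ 5 / θ * (τ * (E * s) + h ^ 2 * (E / s) / τ) := by
    have e1 : 289 / (32 * θ) * (g * m) = 1 / θ * (289 / 32 * (g * m)) := by field_simp
    have e2 : 5 / θ * (τ * (E * s) + h ^ 2 * (E / s) / τ) =
        1 / θ * (5 * (τ * (E * s) + h ^ 2 * (E / s) / τ)) := by field_simp
    rw [e1, e2]
    refine mul_le_mul_of_nonneg_left ?_ (by positivity)
    have := mul_nonneg g0 m0
    linarith
  linarith

/-! ### the price -/

section grp
variable {β δ : Type} [Fintype δ] [DecidableEq δ]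

/-- **the price of the births, own heights** -/
theorem PrE_own {s : Gs β} {E c h sE : β → δ → ℝ → ℝ} {X x θ τ : ℝ}
    (H : TC s.c s.W) (hθ : 0 < θ) (hτ : 0 < τ) (h0 : ∀ j z, 0 ≤ h (s.L j) z x)
    (hs : ∀ j z, E (s.L j) z x ≤ sE (s.L j) z x) (hc : ∀ j z, 8 * θ ≤ c (s.L j) z x)
    (hX : ∑ z, M s.c (fun j => 5 / θ * (τ * (E (s.L j) z x * sE (s.L j) z x) +
      h (s.L j) z x ^ 2 * (E (s.L j) z x / sE (s.L j) z x) / τ)) ≤ X) :
    PrE s E c h X x := by
  intro σ hσ g g0 gE gh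
  have k := PM7_own H hσ (f := fun z j => min (h (s.L j) z x) σ - g (s.L j) z x)
    (g := fun z j => g (s.L j) z x) (fun z j => sub_nonneg.2 (gh j z)) (fun z j => g0 j z)
  have e1 : (fun (z : δ) (j : s.J) => (min (h (s.L j) z x) σ - g (s.L j) z x) + g (s.L j) z x) =
      fun z j => min (h (s.L j) z x) σ := funext fun z => funext fun j => by ring
  have e2 : (fun (z : δ) (j : s.J) => g (s.L j) z x *
      Real.sqrt ((min (h (s.L j) z x) σ - g (s.L j) z x) + g (s.L j) z x)) =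
      fun z j => g (s.L j) z x * Real.sqrt (min (h (s.L j) z x) σ) :=
    funext fun z => funext fun j => by rw [sub_add_cancel]
  rw [e1, e2] at k
  refine k.trans (add_le_add le_rfl ?_)
  -- member by member
  have a1 : 17 * (Real.sqrt σ * SS s.c (fun z j => g (s.L j) z x *
      Real.sqrt (min (h (s.L j) z x) σ))) = ∑ z, M s.c fun j => 17 * (Real.sqrt σ *
        (g (s.L j) z x * Real.sqrt (min (h (s.L j) z x) σ))) := by
    unfold SS
    rw [Finset.mul_sum, Finset.mul_sum]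
    refine Finset.sum_congr rfl fun z _ => ?_
    rw [M_smul, M_smul]
  rw [a1]
  have a2 : ∀ z, (M s.c fun j => 17 * (Real.sqrt σ *
      (g (s.L j) z x * Real.sqrt (min (h (s.L j) z x) σ)))) ≤
      (M s.c fun j => σ * (c (s.L j) z x * E (s.L j) z x)) +
      M s.c fun j => 5 / θ * (τ * (E (s.L j) z x * sE (s.L j) z x) +
        h (s.L j) z x ^ 2 * (E (s.L j) z x / sE (s.L j) z x) / τ) := fun z => by
    rw [← M_add]
    refine M_mono H.c0 fun j => ?_
    have b1 := own_key hσ hθ hτ (g0 j z) (gE j z) (h0 j z) (hs j z)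
    have b2 : 8 * θ * σ * g (s.L j) z x ≤ σ * (c (s.L j) z x * E (s.L j) z x) := by
      have b3 : 8 * θ * g (s.L j) z x ≤ c (s.L j) z x * E (s.L j) z x :=
        mul_le_mul (hc j z) (gE j z) (g0 j z) (le_trans (by positivity) (hc j z))
      have b4 := mul_le_mul_of_nonneg_left b3 hσ.le
      calc _ = σ * (8 * θ * g (s.L j) z x) := by ring
        _ ≤ _ := b4
    linarith
  refine (Finset.sum_le_sum fun z _ => a2 z).trans ?_
  rw [Finset.sum_add_distrib]
  refine add_le_add (le_of_eq ?_) hX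
  -- the linear part
  unfold su
  rw [← M_smul]
  have e3 : (fun j : s.J => σ * ∑ z, c (s.L j) z x * E (s.L j) z x) =
      fun j => ∑ z, σ * (c (s.L j) z x * E (s.L j) z x) :=
    funext fun j => Finset.mul_sum _ _ _
  rw [e3]
  unfold M
  rw [Finset.sum_comm]
  exact Finset.sum_congr rfl fun j _ => (Finset.mul_sum _ _ _).symm

end grp

/-! ### the fibre -/

section fib

/-- **fibre mean of the heights with the shares of the births** -/
theorem Ep_share {p : ℕ} (hp : 0 < p) {E s h a G B : ℝ → ℝ} (pE : PB E) (ps : PB s) (pa : PB a)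
    (pG : PB G) (ph : PB h) (lE : Lift p s E) (lG : Lift p B G)
    (hh : ∀ x, h x ≤ a (p * x) + G x) (y : ℝ) :
    Ep p (fun x => h x ^ 2 * (E x / s (p * x))) y ≤
      1 / (p : ℝ) * (2 * DTn407.ch (s y ≠ 0) (a y ^ 2) + 2 * B y ^ 2) := by
  have hp' : (0:ℝ) < p := by exact_mod_cast hp
  unfold Ep
  rw [div_le_iff₀ hp']
  have e0 : 1 / (p : ℝ) * (2 * DTn407.ch (s y ≠ 0) (a y ^ 2) + 2 * B y ^ 2) * p =
      2 * DTn407.ch (s y ≠ 0) (a y ^ 2) + 2 * B y ^ 2 := by field_simp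
  rw [e0]
  have es : ∀ k : ℕ, s (p * ((y + (k:ℕ)) / p)) = s y := fun k =>
    DTo407.fib_per hp (P := s) ps.per y k
  have ea : ∀ k : ℕ, a (p * ((y + (k:ℕ)) / p)) = a y := fun k =>
    DTo407.fib_per hp (P := a) pa.per y k
  by_cases h0 : s y = 0
  · have hz : ∀ k ∈ Finset.range p, h ((y + (k:ℕ)) / p) ^ 2 *
        (E ((y + (k:ℕ)) / p) / s (p * ((y + (k:ℕ)) / p))) = 0 := fun k _ => by
      rw [es k, h0, div_zero, mul_zero]
    rw [Finset.sum_eq_zero hz]
    have := DTn407.ch_nonneg (P := s y ≠ 0) (sq_nonneg (a y))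
    positivity
  · rw [DTn407.ch_on h0]
    have s0 : 0 < s y := lt_of_le_of_ne (ps.nonneg y) (Ne.symm h0)
    have h1 : ∀ k ∈ Finset.range p, h ((y + (k:ℕ)) / p) ^ 2 *
        (E ((y + (k:ℕ)) / p) / s (p * ((y + (k:ℕ)) / p))) ≤
        2 * a y ^ 2 * (E ((y + (k:ℕ)) / p) / s y) + 2 * G ((y + (k:ℕ)) / p) ^ 2 := fun k hk => by
      rw [es k]
      set x := (y + (k:ℕ)) / (p:ℝ) with hx
      have b1 : h x ≤ a y + G x := by
        have := hh x
        rwa [show a (p * x) = a y from ea k] at this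
      have b2 := ph.nonneg x
      have b3 := pG.nonneg x
      have b4 := pa.nonneg y
      have b5 : h x ^ 2 ≤ 2 * a y ^ 2 + 2 * G x ^ 2 := by
        have := pow_le_pow_left₀ b2 b1 2
        nlinarith [sq_nonneg (a y - G x)]
      have b6 : 0 ≤ E x / s y := div_nonneg (pE.nonneg x) s0.le
      have b7 : E x / s y ≤ 1 := by
        rw [div_le_one s0]
        have := TyS16.lift_le hp pE lE x
        rwa [show s (p * x) = s y from es k] at this
      have b8 := mul_le_mul_of_nonneg_right b5 b6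
      have b9 : 2 * G x ^ 2 * (E x / s y) ≤ 2 * G x ^ 2 :=
        mul_le_of_le_one_right (by positivity) b7
      calc h x ^ 2 * (E x / s y) ≤ (2 * a y ^ 2 + 2 * G x ^ 2) * (E x / s y) := b8
        _ = 2 * a y ^ 2 * (E x / s y) + 2 * G x ^ 2 * (E x / s y) := by ring
        _ ≤ _ := by linarith
    refine (Finset.sum_le_sum h1).trans ?_
    rw [Finset.sum_add_distrib, ← Finset.mul_sum, ← Finset.mul_sum, ← Finset.sum_div, lE y,
      div_self h0, mul_one]
    have h2 : ∑ k ∈ Finset.range p, G ((y + (k:ℕ)) / p) ^ 2 ≤ B y ^ 2 := by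
      have h3 := BthU48.sq_lift hp lG (fun x => pG.nonneg x) y
      unfold Ep at h3
      rw [div_le_iff₀ hp'] at h3
      refine h3.trans (le_of_eq ?_)
      field_simp
    linarith

/-- the first part -/
lemma Ep_self {p : ℕ} (hp : 0 < p) {E s : ℝ → ℝ} (ps : PB s) (lE : Lift p s E) (y : ℝ) :
    Ep p (fun x => E x * s (p * x)) y = 1 / (p : ℝ) * s y ^ 2 := by
  unfold Ep
  have es : ∀ k : ℕ, s (p * ((y + (k:ℕ)) / p)) = s y := fun k =>
    DTo407.fib_per hp (P := s) ps.per y k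
  have e1 : ∑ k ∈ Finset.range p, E ((y + (k:ℕ)) / p) * s (p * ((y + (k:ℕ)) / p)) =
      s y * s y := by
    rw [Finset.sum_congr rfl fun k _ => by rw [es k], ← Finset.sum_mul, lE y]
  rw [e1]
  ring

end fib

/-! ### the group data -/

section lpr
variable {β δ : Type} [Fintype δ] [DecidableEq δ] {R : RXm β δ} {U : RBm R}

/-- **the births of a type on a fibre** -/
noncomputable def sE (Q : RowsL R) (p : ℕ) (b : β) (z : δ) (y : ℝ) : ℝ :=
  p * Ep p (Q.E2 p b z) y

variable (Q : RowsL R) {p : ℕ} {b : β}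

lemma PsE (hb : R.ok p b) (hp : p ≠ 0) (z : δ) : PB (sE Q p b z) :=
  ((Q.pE2 hb hp z).Ep (Nat.pos_of_ne_zero hp)).smul (Nat.cast_nonneg p)

lemma lift_sE (hp : p ≠ 0) (z : δ) : Lift p (sE Q p b z) (Q.E2 p b z) := fun y => by
  have hp' : (p : ℝ) ≠ 0 := by exact_mod_cast hp
  unfold sE Ep
  field_simp

lemma E2_le (hb : R.ok p b) (hp : p ≠ 0) (z : δ) (x : ℝ) : Q.E2 p b z x ≤ sE Q p b z (p * x) :=
  TyS16.lift_le (Nat.pos_of_ne_zero hp) (Q.pE2 hb hp z) (lift_sE Q hp z) x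

/-- second order part of a member and a type -/
noncomputable def xo (θ τ : ℕ → ℝ) (p : ℕ) (b : β) (z : δ) (x : ℝ) : ℝ :=
  5 / θ p * (τ p * (Q.E2 p b z x * sE Q p b z (p * x)) +
    R.hP p b z x ^ 2 * (Q.E2 p b z x / sE Q p b z (p * x)) / τ p)

/-- **the second order part of the births, own heights** -/
noncomputable def xO (θ τ : ℕ → ℝ) (p : ℕ) (s : Gs β) (x : ℝ) : ℝ :=
  ∑ z, M s.c fun j => xo Q θ τ p (s.L j) z x

lemma Pxo {θ τ : ℕ → ℝ} (hb : R.ok p b) (hp : p ≠ 0) (hθ : 0 < θ p) (hτ : 0 < τ p) (z : δ) :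
    PB (xo Q θ τ p b z) := by
  have h1 := (Q.pE2 hb hp z).mul ((PsE Q hb hp z).pull p)
  have h2 := TyS16.PB_ratio (Q.pE2 hb hp z) ((PsE Q hb hp z).pull p) fun x => E2_le Q hb hp z x
  have h3 := (BthT48.Fib.PB_sq (R.pP hb hp z)).mul h2
  have h4 := ((h1.smul hτ.le).add (h3.smul (one_div_nonneg.2 hτ.le))).smul
    (show (0:ℝ) ≤ 5 / θ p by positivity)
  have e : xo Q θ τ p b z = fun x => 5 / θ p * (τ p * (Q.E2 p b z x * sE Q p b z (p * x)) +
      1 / τ p * (R.hP p b z x ^ 2 * (Q.E2 p b z x / sE Q p b z (p * x)))) := by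
    funext x
    unfold xo
    ring
  rw [e]
  exact h4

/-- **rates `8 θ` and own-height second order parts, for every located birth data** -/
noncomputable def lprO {D : RGx U} {θ τ : ℕ → ℝ} (hθ : ∀ p, 0 < θ p)
    (hτ : ∀ p, 0 < τ p) : LPr D Q where
  cE := fun p _ _ _ => 8 * θ p
  pcE := fun {p b} _ _ _ => PB.const (mul_nonneg (by norm_num) (hθ p).le)
  xE := fun p s x => xO Q θ τ p s x
  pxE := fun {p s} hs hp => PB.sum _ fun z _ => GCol27.PB_M (D.gk hs).1.c0
    (f := fun x j => xo Q θ τ p (s.L j) z x) fun j => Pxo Q ((D.gk hs).2 j) hp (hθ p) (hτ p) z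
  hE := fun {p s} hs hp x => by
    have g := D.gk hs
    exact PrE_own (sE := fun b z x => sE Q p b z (p * x)) g.1 (hθ p) (hτ p)
      (fun j z => (R.pP (g.2 j) hp z).nonneg x) (fun j z => E2_le Q (g.2 j) hp z x)
      (fun _ _ => le_rfl) le_rfl

end lpr

end Crest.Agent.R4P.BthX48
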