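import Mathlib

/-!
R4 (S0004), helper10: **counting the overlaps of a present piece with the missing pieces of the ties**
(counting half of Lemma B of helper9, docs 1374).

`θ` = target of a node, `u, v` = cofactors, `D` = common radius, `n` = tie.  The two pieces overlap
only if `(n u - v) θ` is within `D` of an integer (`Near`).  `Exact` : the overlap is exact with
respect to a rational of denominator at most `K u`.

* `cnt` : a set of integers `n` in `(N, 2N]` with a non-exact overlap has at most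
  `N / K + 36 D (K u) N + 4` elements;
* `cnt_sum` : `∑ 1/n` over a dyadic block.
-/

set_option autoImplicit false

namespace Crest.Agent.R4P.CntB10

open Finset

/-- overlap condition -/
def Near (θ D : ℝ) (u v n : ℕ) : Prop := ∃ m : ℤ, |((n : ℝ) * u - v) * θ - m| ≤ D

/-- exact overlap: a rational `ρ` of denominator `≤ K u` with `(n u - v) ρ ∈ ℤ` and
`|(n u - v)(θ - ρ)| ≤ D`, `u |θ - ρ| ≤ 2 D` -/
def Exact (θ D : ℝ) (u v K n : ℕ) : Prop :=
  ∃ ρ : ℚ, ρ.den ≤ K * u ∧ (∃ m : ℤ, ((n : ℝ) * u - v) * ρ = m) ∧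
    |((n : ℝ) * u - v) * (θ - ρ)| ≤ D ∧ u * |θ - ρ| ≤ 2 * D

/-- spread of a set of integers -/
lemma card_spread {S : Finset ℕ} {e L : ℝ} (he : 0 < e)
    (h : ∀ n ∈ S, ∀ n' ∈ S, ((n : ℝ) - n') * e ≤ L) : S.card ≤ ⌊L / e⌋₊ + 1 := by
  rcases S.eq_empty_or_nonempty with rfl | hne
  · simp
  obtain ⟨a, ha, hmin⟩ := S.exists_min_image id hne
  have hsub : S ⊆ Finset.Icc a (a + ⌊L / e⌋₊) := by
    intro n hn
    rw [Finset.mem_Icc]
    refine ⟨hmin n hn, ?_⟩
    have h1 := h n hn a ha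
    have h2 : (n : ℝ) - a ≤ L / e := by rwa [le_div_iff₀ he]
    have h3 : a ≤ n := hmin n hn
    have h4 : ((n - a : ℕ) : ℝ) ≤ L / e := by rwa [Nat.cast_sub h3]
    have h5 := Nat.le_floor h4
    omega
  have := Finset.card_le_card hsub
  rw [Nat.card_Icc] at this
  omega

/-- gaps larger than `K` -/
lemma card_gap {S : Finset ℕ} {K N : ℕ} (hK : 0 < K) (hS : ∀ n ∈ S, N < n ∧ n ≤ 2 * N)
    (h : ∀ n ∈ S, ∀ n' ∈ S, n < n' → K < n' - n) : (S.card : ℝ) ≤ N / K + 1 := by
  have hinj : Set.InjOn (fun n => (n - N - 1) / K) (S : Set ℕ) := by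
    intro n hn n' hn' he
    simp only at he
    by_contra hne
    have key : ∀ a ∈ S, ∀ b ∈ S, a < b → (a - N - 1) / K ≠ (b - N - 1) / K := by
      intro a ha b hb hab heq
      have g := h a ha b hb hab
      have ha1 := hS a ha
      have h1 : b - N - 1 = (a - N - 1) + (b - a) := by omega
      have h2 : (a - N - 1) / K + 1 ≤ (b - N - 1) / K := by
        rw [h1]
        calc (a - N - 1) / K + 1 = ((a - N - 1) + K) / K := by
              rw [Nat.add_div_right _ hK]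
          _ ≤ ((a - N - 1) + (b - a)) / K := Nat.div_le_div_right (by omega)
      omega
    rcases Nat.lt_or_gt_of_ne hne with h1 | h1
    · exact key n hn n' hn' h1 he
    · exact key n' hn' n hn h1 he.symm
  have hsub : S.image (fun n => (n - N - 1) / K) ⊆ Finset.range ((N - 1) / K + 1) := by
    intro x hx
    obtain ⟨n, hn, rfl⟩ := Finset.mem_image.1 hx
    rw [Finset.mem_range]
    have := hS n hn
    have : (n - N - 1) / K ≤ (N - 1) / K := Nat.div_le_div_right (by omega)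
    omega
  have h1 : S.card ≤ (N - 1) / K + 1 := by
    rw [← Finset.card_image_of_injOn hinj]
    exact (Finset.card_le_card hsub).trans (by rw [Finset.card_range])
  have h2 : (((N - 1) / K : ℕ) : ℝ) ≤ N / K := by
    refine Nat.cast_div_le.trans ?_
    have hK' : (0 : ℝ) < K := by exact_mod_cast hK
    refine div_le_div_of_nonneg_right ?_ hK'.le
    exact_mod_cast Nat.sub_le N 1
  have h3 : (S.card : ℝ) ≤ (((N - 1) / K : ℕ) : ℝ) + 1 := by exact_mod_cast h1
  linarith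

/-- the number of integers of an interval -/
lemma card_int {J : Finset ℤ} {a L : ℝ} (hL : 0 ≤ L) (h : ∀ j ∈ J, a ≤ (j : ℝ) ∧ (j : ℝ) ≤ a + L) :
    (J.card : ℝ) ≤ L + 1 := by
  have hsub : J ⊆ Finset.Icc ⌈a⌉ ⌊a + L⌋ := by
    intro j hj
    rw [Finset.mem_Icc]
    exact ⟨Int.ceil_le.2 (h j hj).1, Int.le_floor.2 (h j hj).2⟩
  have h1 := Finset.card_le_card hsub
  rw [Int.card_Icc] at h1
  have h2 : ((⌊a + L⌋ + 1 - ⌈a⌉).toNat : ℝ) ≤ L + 1 := by
    have h3 : (⌊a + L⌋ : ℝ) ≤ a + L := Int.floor_le _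
    have h4 : a ≤ (⌈a⌉ : ℝ) := Int.le_ceil _
    rcases le_total 0 (⌊a + L⌋ + 1 - ⌈a⌉) with h5 | h5
    · have h6 : (((⌊a + L⌋ + 1 - ⌈a⌉).toNat : ℤ) : ℝ) = ((⌊a + L⌋ + 1 - ⌈a⌉ : ℤ) : ℝ) := by
        rw [Int.toNat_of_nonneg h5]
      have h7 : ((⌊a + L⌋ + 1 - ⌈a⌉).toNat : ℝ) = ((⌊a + L⌋ + 1 - ⌈a⌉ : ℤ) : ℝ) := by
        rw [← h6, Int.cast_natCast]
      rw [h7]
      push_cast
      linarith
    · rw [Int.toNat_of_nonpos h5]
      simp
      linarith
  have h3 : (J.card : ℝ) ≤ ((⌊a + L⌋ + 1 - ⌈a⌉).toNat : ℝ) := by exact_mod_cast h1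
  linarith

/-- one rational: the non-exact elements -/
lemma cnt_rho {θ D : ℝ} {u v N : ℕ} (hu : 0 < u) (hN : 0 < N) (hv : v ≤ N * u)
    (hD : 0 ≤ D) (S : Finset ℕ) (hS : ∀ n ∈ S, N < n ∧ n ≤ 2 * N)
    (hnear : ∀ n ∈ S, Near θ D u v n) (ρ : ℚ) (hρ : u * |θ - ρ| ≤ 2 * D)
    (hex : ∀ n ∈ S, ¬ ((∃ m : ℤ, ((n : ℝ) * u - v) * ρ = m) ∧
      |((n : ℝ) * u - v) * (θ - ρ)| ≤ D)) :
    (S.card : ℝ) ≤ 36 * D * ρ.den * N + 3 := by
  have hN' : (0 : ℝ) < N := by exact_mod_cast hN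
  have hu' : (0 : ℝ) < u := by exact_mod_cast hu
  have hv' : (v : ℝ) ≤ N * u := by exact_mod_cast hv
  have hv0 : (0 : ℝ) ≤ v := Nat.cast_nonneg v
  set k : ℝ := (ρ.den : ℝ) with hk
  have hk1 : 1 ≤ k := by rw [hk]; exact_mod_cast ρ.den_pos
  have hk0 : 0 < k := by linarith
  have hcard : (S.card : ℝ) ≤ N := by
    have hsub : S ⊆ Finset.Ioc N (2 * N) := fun n hn => Finset.mem_Ioc.2 (hS n hn)
    have := Finset.card_le_card hsub
    rw [Nat.card_Ioc] at this
    have h2 : S.card ≤ N := by omega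
    exact_mod_cast h2
  by_cases hbig : 1 ≤ 36 * D * k
  · have : (N : ℝ) ≤ 36 * D * k * N := le_mul_of_one_le_left hN'.le hbig
    linarith
  push Not at hbig
  rcases S.eq_empty_or_nonempty with rfl | ⟨n₀, hn₀⟩
  · simp only [Finset.card_empty, Nat.cast_zero]
    positivity
  set ε : ℝ := θ - ρ with hε
  -- the integer `j_n = k (m - (n u - v) ρ)`
  have hkρ : k * ρ = (ρ.num : ℝ) := by
    rw [hk]
    have := Rat.mul_den_eq_num ρ
    have h2 : ((ρ * ρ.den : ℚ) : ℝ) = ((ρ.num : ℚ) : ℝ) := by rw [this]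
    push_cast at h2
    linarith
  have hj : ∀ n ∈ S, ∃ j : ℤ, |k * (((n : ℝ) * u - v) * ε) - j| ≤ k * D := by
    intro n hn
    obtain ⟨m, hm⟩ := hnear n hn
    refine ⟨m * ρ.den - ((n : ℤ) * u - v) * ρ.num, ?_⟩
    have e1 : k * (((n : ℝ) * u - v) * ε) -
        ((m * ρ.den - ((n : ℤ) * u - v) * ρ.num : ℤ) : ℝ) =
        k * (((n : ℝ) * u - v) * θ - m) := by
      push_cast
      rw [← hkρ, ← hk, hε]
      ring
    rw [e1, abs_mul, abs_of_pos hk0]
    exact mul_le_mul_of_nonneg_left hm hk0.le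
  have hpos : ∀ n ∈ S, 0 ≤ (n : ℝ) * u - v ∧ (n : ℝ) * u - v ≤ 2 * N * u := by
    intro n hn
    obtain ⟨h1, h2⟩ := hS n hn
    have h1' : (N : ℝ) ≤ n := by exact_mod_cast h1.le
    have h2' : (n : ℝ) ≤ 2 * N := by exact_mod_cast h2
    constructor
    · have : (N : ℝ) * u ≤ n * u := mul_le_mul_of_nonneg_right h1' hu'.le
      linarith
    · have : (n : ℝ) * u ≤ 2 * N * u := mul_le_mul_of_nonneg_right h2' hu'.le
      linarith
  -- all the elements are far from exactness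
  have hfar : ∀ n ∈ S, 1 / 2 ≤ k * |((n : ℝ) * u - v) * ε| := by
    intro n hn
    by_contra hc
    push Not at hc
    obtain ⟨m, hm⟩ := hnear n hn
    have hi : ((m * ρ.den - ((n : ℤ) * u - v) * ρ.num : ℤ) : ℝ) =
        k * (((n : ℝ) * u - v) * ε) - k * (((n : ℝ) * u - v) * θ - m) := by
      push_cast
      rw [← hkρ, ← hk, hε]
      ring
    have h0 : |((m * ρ.den - ((n : ℤ) * u - v) * ρ.num : ℤ) : ℝ)| < 1 := by
      rw [hi]
      refine lt_of_le_of_lt (abs_sub _ _) ?_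
      rw [abs_mul, abs_mul k, abs_of_pos hk0]
      have h3 : k * |((n : ℝ) * u - v) * θ - m| ≤ k * D := mul_le_mul_of_nonneg_left hm hk0.le
      have h4 : k * D < 1 / 36 := by linarith
      linarith
    have h5 : (m * ρ.den - ((n : ℤ) * u - v) * ρ.num : ℤ) = 0 := by
      have : |(m * ρ.den - ((n : ℤ) * u - v) * ρ.num : ℤ)| < 1 := by exact_mod_cast h0
      exact Int.abs_lt_one_iff.1 this
    have h6 : ((n : ℝ) * u - v) * ρ = m := by
      have h7 : ((m * ρ.den - ((n : ℤ) * u - v) * ρ.num : ℤ) : ℝ) = 0 := by rw [h5]; simp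
      push_cast at h7
      rw [← hk, ← hkρ] at h7
      have h8 : k * (((n : ℝ) * u - v) * ρ - m) = 0 := by linarith
      rcases mul_eq_zero.1 h8 with h9 | h9
      · linarith
      · linarith
    refine hex n hn ⟨⟨m, h6⟩, ?_⟩
    have h7 : ((n : ℝ) * u - v) * ε = ((n : ℝ) * u - v) * θ - m := by
      rw [hε, mul_sub, h6]
    rw [h7]; exact hm
  have hε0 : 0 < |ε| := by
    by_contra hc
    have h0 : |ε| = 0 := le_antisymm (not_lt.1 hc) (abs_nonneg _)
    have h1 := hfar n₀ hn₀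
    rw [abs_mul, h0, mul_zero, mul_zero] at h1
    linarith
  set e : ℝ := u * |ε| with he
  have he0 : 0 < e := mul_pos hu' hε0
  have he2 : e ≤ 2 * D := hρ
  have hNe : 1 ≤ 4 * k * N * e := by
    have h1 := hfar n₀ hn₀
    rw [abs_mul, abs_of_nonneg (hpos n₀ hn₀).1] at h1
    have h2 : ((n₀ : ℝ) * u - v) * |ε| ≤ 2 * N * u * |ε| :=
      mul_le_mul_of_nonneg_right (hpos n₀ hn₀).2 hε0.le
    have h3 : k * (((n₀ : ℝ) * u - v) * |ε|) ≤ k * (2 * N * u * |ε|) :=
      mul_le_mul_of_nonneg_left h2 hk0.le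
    have h4 : k * (2 * N * u * |ε|) = 2 * k * N * e := by rw [he]; ring
    linarith
  choose! j hjj using hj
  -- fibres of `j`
  have hfib : ∀ a ∈ S.image j, (S.filter fun n => j n = a).card ≤ ⌊2 * D / e⌋₊ + 1 := by
    intro a _
    apply card_spread he0
    intro n hn n' hn'
    obtain ⟨hn1, hn2⟩ := Finset.mem_filter.1 hn
    obtain ⟨hn1', hn2'⟩ := Finset.mem_filter.1 hn'
    have g1 := hjj n hn1
    have g2 := hjj n' hn1'
    rw [hn2] at g1
    rw [hn2'] at g2
    have g3 : |k * (((n : ℝ) - n') * u * ε)| ≤ 2 * (k * D) := by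
      have e1 : k * (((n : ℝ) - n') * u * ε) =
          (k * (((n : ℝ) * u - v) * ε) - a) - (k * (((n' : ℝ) * u - v) * ε) - a) := by ring
      rw [e1]
      exact (abs_sub _ _).trans (by linarith)
    rw [abs_mul, abs_of_pos hk0] at g3
    have g4 : |((n : ℝ) - n') * u * ε| ≤ 2 * D := by
      have : k * |((n : ℝ) - n') * u * ε| ≤ k * (2 * D) := by linarith
      exact le_of_mul_le_mul_left this hk0
    have g5 : |((n : ℝ) - n') * u * ε| = |(n : ℝ) - n'| * e := by
      rw [abs_mul, abs_mul, abs_of_pos hu', he]; ring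
    rw [g5] at g4
    exact (mul_le_mul_of_nonneg_right (le_abs_self _) he0.le).trans g4
  have hmul := Finset.card_le_mul_card_image S (⌊2 * D / e⌋₊ + 1) hfib
  -- the number of values of `j`
  have hJ : ((S.image j).card : ℝ) ≤ (2 * k * N * e + 2 * (k * D)) + 1 := by
    rcases le_total 0 ε with hs | hs
    · refine card_int (a := -(k * D)) (by positivity) ?_
      intro a ha
      obtain ⟨n, hn, rfl⟩ := Finset.mem_image.1 ha
      have g := abs_le.1 (hjj n hn)
      have p := hpos n hn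
      have h1 : 0 ≤ k * (((n : ℝ) * u - v) * ε) := mul_nonneg hk0.le (mul_nonneg p.1 hs)
      have h2 : k * (((n : ℝ) * u - v) * ε) ≤ 2 * k * N * e := by
        have h3 : ((n : ℝ) * u - v) * ε ≤ 2 * N * u * ε := mul_le_mul_of_nonneg_right p.2 hs
        have h4 := mul_le_mul_of_nonneg_left h3 hk0.le
        have h5 : k * (2 * N * u * ε) = 2 * k * N * e := by rw [he, abs_of_nonneg hs]; ring
        linarith
      constructor <;> linarith
    · refine card_int (a := -(2 * k * N * e + k * D)) (by positivity) ?_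
      intro a ha
      obtain ⟨n, hn, rfl⟩ := Finset.mem_image.1 ha
      have g := abs_le.1 (hjj n hn)
      have p := hpos n hn
      have h1 : k * (((n : ℝ) * u - v) * ε) ≤ 0 :=
        mul_nonpos_of_nonneg_of_nonpos hk0.le (mul_nonpos_of_nonneg_of_nonpos p.1 hs)
      have h2 : -(2 * k * N * e) ≤ k * (((n : ℝ) * u - v) * ε) := by
        have h3 : ((n : ℝ) * u - v) * (-ε) ≤ 2 * N * u * (-ε) :=
          mul_le_mul_of_nonneg_right p.2 (by linarith)
        have h4 := mul_le_mul_of_nonneg_left h3 hk0.le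
        have h5 : k * (2 * N * u * (-ε)) = 2 * k * N * e := by
          rw [he, abs_of_nonpos hs]; ring
        linarith
      constructor <;> linarith
  have hfl : ((⌊2 * D / e⌋₊ + 1 : ℕ) : ℝ) ≤ 2 * D / e + 1 := by
    push_cast
    have := Nat.floor_le (show 0 ≤ 2 * D / e by positivity)
    linarith
  have hmul' : (S.card : ℝ) ≤ (2 * D / e + 1) * ((2 * k * N * e + 2 * (k * D)) + 1) := by
    have h1 : (S.card : ℝ) ≤ ((⌊2 * D / e⌋₊ + 1 : ℕ) : ℝ) * ((S.image j).card : ℝ) := by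
      exact_mod_cast hmul
    refine h1.trans (mul_le_mul hfl hJ (by positivity) (by positivity))
  -- sizes
  have hinv : 2 * D / e ≤ 8 * D * k * N := by
    rw [div_le_iff₀ he0]
    have : 2 * D * 1 ≤ 2 * D * (4 * k * N * e) := mul_le_mul_of_nonneg_left hNe (by positivity)
    linarith
  have t1 : 2 * D / e * (2 * k * N * e) = 4 * D * k * N := by
    field_simp
    ring
  have t2 : 2 * D / e * (2 * (k * D) + 1) ≤ 8 * D * k * N * (2 * (1 / 36) + 1) := by
    refine mul_le_mul hinv ?_ (by positivity) (by positivity)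
    linarith
  have t3 : 2 * k * N * e ≤ 4 * D * k * N := by
    have : 2 * k * N * e ≤ 2 * k * N * (2 * D) := mul_le_mul_of_nonneg_left he2 (by positivity)
    linarith
  have t4 : 0 ≤ D * k * N := by positivity
  have e5 : (2 * D / e + 1) * ((2 * k * N * e + 2 * (k * D)) + 1) =
      2 * D / e * (2 * k * N * e) + 2 * D / e * (2 * (k * D) + 1) + 2 * k * N * e +
        2 * (k * D) + 1 := by ring
  rw [e5, t1] at hmul'
  nlinarith

/-- **counting the non-exact overlaps** -/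
theorem cnt {θ D : ℝ} {u v K N : ℕ} (hu : 0 < u) (hK : 0 < K) (hN : 0 < N) (hv : v ≤ N * u)
    (hD : 0 ≤ D) (S : Finset ℕ) (hS : ∀ n ∈ S, N < n ∧ n ≤ 2 * N)
    (hnear : ∀ n ∈ S, Near θ D u v n) (hex : ∀ n ∈ S, ¬ Exact θ D u v K n) :
    (S.card : ℝ) ≤ N / K + 36 * D * (K * u) * N + 4 := by
  have hN' : (0 : ℝ) < N := by exact_mod_cast hN
  have hu' : (0 : ℝ) < u := by exact_mod_cast hu
  have hK' : (0 : ℝ) < K := by exact_mod_cast hK
  by_cases hA : ∀ n ∈ S, ∀ n' ∈ S, n < n' → K < n' - n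
  · have h1 := card_gap hK hS hA
    have h2 : 0 ≤ 36 * D * (K * u) * N := by positivity
    linarith
  push Not at hA
  obtain ⟨n, hn, n', hn', hlt, hd⟩ := hA
  set d := n' - n with hdd
  have hd0 : 0 < d := by omega
  have hdr : (0 : ℝ) < d := by exact_mod_cast hd0
  have hd1 : (1 : ℝ) ≤ d := by exact_mod_cast hd0
  have hdc : (d : ℝ) = n' - n := by rw [hdd, Nat.cast_sub hlt.le]
  obtain ⟨m, hm⟩ := hnear n hn
  obtain ⟨m', hm'⟩ := hnear n' hn'
  set a : ℤ := m' - m with ha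
  have h1 : |d * u * θ - a| ≤ 2 * D := by
    have e1 : d * u * θ - a = (((n' : ℝ) * u - v) * θ - m') - (((n : ℝ) * u - v) * θ - m) := by
      rw [ha, hdc]; push_cast; ring
    rw [e1]
    exact (abs_sub _ _).trans (by linarith)
  set ρ : ℚ := (a : ℚ) / ((d * u : ℕ) : ℚ) with hρ
  have hρr : (ρ : ℝ) = a / (d * u) := by
    rw [hρ]; push_cast; rfl
  have hden : ρ.den ≤ K * u := by
    have h2 : (ρ.den : ℤ) ∣ ((d * u : ℕ) : ℤ) := by
      rw [hρ]
      have := Rat.den_dvd a ((d * u : ℕ) : ℤ)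
      simpa [Rat.divInt_eq_div] using this
    have h3 : ρ.den ∣ d * u := by exact_mod_cast h2
    exact (Nat.le_of_dvd (by positivity) h3).trans (Nat.mul_le_mul_right u hd)
  have hε : u * |θ - ρ| ≤ 2 * D := by
    have h2 : d * u * |θ - ρ| ≤ 2 * D := by
      have e2 : d * u * |θ - ρ| = |d * u * θ - a| := by
        have h3 : (0 : ℝ) < d * u := by positivity
        calc d * u * |θ - ρ| = |((d : ℝ) * u)| * |θ - ρ| := by rw [abs_of_pos h3]
          _ = |((d : ℝ) * u) * (θ - ρ)| := (abs_mul _ _).symm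
          _ = |d * u * θ - a| := by
              congr 1
              rw [mul_sub, hρr]
              field_simp
      rw [e2]; exact h1
    have h4 : u * |θ - ρ| ≤ d * (u * |θ - ρ|) := le_mul_of_one_le_left (by positivity) hd1
    linarith
  have hR := cnt_rho hu hN hv hD S hS hnear ρ hε
    (fun n hn hc => hex n hn ⟨ρ, hden, hc.1, hc.2, hε⟩)
  have hden' : (ρ.den : ℝ) ≤ K * u := by exact_mod_cast hden
  have h5 : 36 * D * ρ.den * N ≤ 36 * D * (K * u) * N := by
    have : 36 * D * ρ.den ≤ 36 * D * (K * u) := mul_le_mul_of_nonneg_left hden' (by positivity)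
    exact mul_le_mul_of_nonneg_right this hN'.le
  have h6 : (0 : ℝ) ≤ N / K := by positivity
  linarith

/-- **dyadic block** -/
theorem cnt_sum {θ D : ℝ} {u v K N : ℕ} (hu : 0 < u) (hK : 0 < K) (hN : 0 < N) (hv : v ≤ N * u)
    (hD : 0 ≤ D) (S : Finset ℕ) (hS : ∀ n ∈ S, N < n ∧ n ≤ 2 * N)
    (hnear : ∀ n ∈ S, Near θ D u v n) (hex : ∀ n ∈ S, ¬ Exact θ D u v K n) :
    ∑ n ∈ S, 1 / (n : ℝ) ≤ 1 / K + 36 * D * (K * u) + 4 / N := by
  have hN' : (0 : ℝ) < N := by exact_mod_cast hN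
  have h := cnt hu hK hN hv hD S hS hnear hex
  have h1 : ∑ n ∈ S, 1 / (n : ℝ) ≤ S.card * (1 / N) := by
    rw [← nsmul_eq_mul]
    refine Finset.sum_le_card_nsmul S _ _ fun n hn => ?_
    refine one_div_le_one_div_of_le hN' ?_
    exact_mod_cast (hS n hn).1.le
  refine h1.trans ?_
  have h2 : (S.card : ℝ) * (1 / N) ≤ (N / K + 36 * D * (K * u) * N + 4) * (1 / N) :=
    mul_le_mul_of_nonneg_right h (by positivity)
  refine h2.trans (le_of_eq ?_)
  field_simp

end Crest.Agent.R4P.CntB10
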