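import Crest.Agent.R4P.StG_6

/-!
R4 (S0004) with powers, C1, helper6: **flagged typings** (helper845's OmF, helper407's form).

`F : ℕ → Finset ℕ → Prop` (column, processed missing ties): the piece of the item `q` is outside the game at
the column `p` iff `F p (Mhi c p q)`, `Mhi c p q` = missing ties of `q` strictly above `p` (the same at
all C-steps of the column). `FMon F` : hereditary downwards.

* `flg`, `flg_pm` (the list of the node may be used instead), `flg_dn`; `Ent F c p q` : unflagged at `p`,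
  flagged at `p - 1`; `Ent.unique`.
* `tpF`, **`TDf`** (typing data), **`TDf_typ`** (all type fields in a context), **`typF : TYp ..`**.
* rest: `tpF_dn` (nobody comes back), **`rest_tpF`**, `rest_sameF`, **`rest_caseF`**; ties: `tie_tpF`,
  `tie_sameF`; pairs: `sep_restF`, `sep_tieF`; pieces of one tie have one flag: `tie_flg`.
-/

set_option autoImplicit false
set_option linter.unusedSectionVars false
set_option linter.unusedVariables false
open MeasureTheory Filter Set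

namespace Crest.Agent.R4P.StJ6

open Crest.Agent.R4P.Cnt588 Crest.Agent.R4P.Item758 Crest.Agent.R4P.W363
open Crest.Agent.R4P.Data758
open Crest.Agent.R4P.Bld532 (NS All NodeOk Bk)
open Crest.Agent.R4P.WalkIT579 (tp isL)
open Crest.Agent.R4P.StratN36 (ex)
open Crest.Agent.R4P.Step588 Crest.Agent.R4P.RseSt23
open Crest.Agent.R4P.DTp26 Crest.Agent.R4P.DTm407
open Crest.Agent.R4P.TYI47 Crest.Agent.R4P.TYJ47 Crest.Agent.R4P.TYK47
open Crest.Agent.R4P.TYP9 Crest.Agent.R4P.RsT47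
open Crest.Agent.R4P.StM246 Crest.Agent.R4P.StE6 Crest.Agent.R4P.StF6
open Crest.Agent.R4P.StG6
open Crest.Agent.R4P.StB21 (bt TH LvF)

/-! ### flags -/

section flag
open Crest.Agent.R4P.Walk560 (DT)
variable {c : Cf} {F : ℕ → Finset ℕ → Prop} {n p q q' : ℕ} {R : Rule c}

/-- hereditary downwards (helper845: only the prefix `M' ∩ (p, ∞) = M` is asked, so that flags may look at
the order of the missing ties) -/
def FMon (F : ℕ → Finset ℕ → Prop) : Prop :=
  ∀ {p : ℕ} {M M' : Finset ℕ}, M'.filter (p < ·) = M → F p M → F (p - 1) M'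

/-- the flag of an item at a column -/
def flg (F : ℕ → Finset ℕ → Prop) (c : Cf) (p q : ℕ) : Prop := F p (Mhi c p q)

/-- the list of a node, strictly above the column -/
lemma pm_hi (m : Me) : (pm c.t p m q).filter (p < ·) = Mhi c p q := by
  ext s
  simp only [pm, prm, Finset.mem_filter]
  constructor
  · rintro ⟨⟨h1, -⟩, h3⟩
    exact ⟨h1, h3⟩
  · rintro ⟨h1, h2⟩
    exact ⟨⟨h1, Or.inl h2⟩, h2⟩

lemma flg_pm (m : Me) : F p ((pm c.t p m q).filter (p < ·)) ↔ flg F c p q := by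
  unfold flg
  rw [pm_hi]

lemma flg_congr (h : Mhi c p q = Mhi c p q') : flg F c p q ↔ flg F c p q' := by
  unfold flg
  rw [h]

lemma Mhi_sub_dn : Mhi c p q ⊆ Mhi c (p - 1) q := fun s hs => by
  obtain ⟨h1, h2⟩ := Finset.mem_filter.1 hs
  exact Finset.mem_filter.2 ⟨h1, by omega⟩

lemma Mhi_flt_dn : (Mhi c (p - 1) q).filter (p < ·) = Mhi c p q := by
  ext r
  simp only [Mhi, Finset.mem_filter]
  constructor
  · rintro ⟨⟨h8, -⟩, h9⟩
    exact ⟨h8, h9⟩
  · rintro ⟨h8, h9⟩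
    exact ⟨⟨h8, by omega⟩, h9⟩

theorem flg_dn (hF : FMon F) (h : flg F c p q) : flg F c (p - 1) q := hF Mhi_flt_dn h

theorem flg_le (hF : FMon F) {p' : ℕ} (hp : p' ≤ p) (h : flg F c p q) : flg F c p' q := by
  obtain ⟨d, rfl⟩ := Nat.exists_eq_add_of_le hp
  clear hp
  induction d with
  | zero => exact h
  | succ d ih =>
    exact ih (flg_dn hF h)

/-- the flag appears between `p` and `p - 1` -/
def Ent (F : ℕ → Finset ℕ → Prop) (c : Cf) (p q : ℕ) : Prop :=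
  ¬ flg F c p q ∧ flg F c (p - 1) q

/-- **once per item** -/
theorem Ent.unique (hF : FMon F) {p' : ℕ} (h : Ent F c p q) (h' : Ent F c p' q) : p = p' := by
  rcases lt_trichotomy p p' with h1 | h1 | h1
  · exact absurd (flg_le hF (by omega) h'.2) h.1
  · exact h1
  · exact absurd (flg_le hF (by omega) h.2) h'.1

open Classical in
/-- **flagged types** -/
noncomputable def tpF (R : Rule c) (F : ℕ → Finset ℕ → Prop) (n p : ℕ) (m : Me) (x : ℝ)
    (j : c.Lam) : Option (Ty (Nix c n) R.K) :=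
  if flg F c p j.1.1 then none else R.tp n p m x j

lemma tpF_flg {m : Me} {x : ℝ} {j : c.Lam} (h : flg F c p j.1.1) : tpF R F n p m x j = none :=
  if_pos h

lemma tpF_not {m : Me} {x : ℝ} {j : c.Lam} (h : ¬ flg F c p j.1.1) :
    tpF R F n p m x j = R.tp n p m x j := if_neg h

lemma tpF_none {m : Me} {x : ℝ} {j : c.Lam} : tpF R F n p m x j = none ↔ flg F c p j.1.1 := by
  constructor
  · intro h
    by_contra h1
    rw [tpF_not h1] at h
    exact absurd h (by simp [Rule.tp])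
  · exact tpF_flg

lemma tpF_some {m : Me} {x : ℝ} {j : c.Lam} {z : Ty (Nix c n) R.K} :
    tpF R F n p m x j = some z ↔ ¬ flg F c p j.1.1 ∧ R.tp n p m x j = some z := by
  by_cases h : flg F c p j.1.1
  · rw [tpF_flg h]; simp [h]
  · rw [tpF_not h]; simp [h]

/-- nobody comes back: inside at `p - 1`, then inside at `p` -/
lemma tpF_dn (hF : FMon F) {m m' : Me} {x x' : ℝ} {j : c.Lam}
    (h : tpF R F n (p - 1) m x j ≠ none) : tpF R F n p m' x' j ≠ none := fun h1 =>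
  h (tpF_none.2 (flg_dn hF (tpF_none.1 h1)))

/-- **typing data of a rule with flags** -/
noncomputable def TDf {κ : Type} (R : Rule c) (F : ℕ → Finset ℕ → Prop) (n : ℕ)
    (spc : ℕ → Me × List (DT c.Lam κ) → Ty (Nix c n) R.K → ℝ → Prop)
    (act : ℕ → Me × List (DT c.Lam κ) → Ty (Nix c n) R.K → ℝ → κ) :
    TD Me c.Lam κ (Ty (Nix c n) R.K) where
  tu := tuM
  tp := tpF R F n
  spc := spc
  act := act
  fr := fun _ _ z => (z.1, z.2.1, true)
  F := fun _ _ z => z.2.2 = true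

lemma MP_tpF (m : Me) (j : c.Lam) : MP fun x => tpF R F n p m x j := by
  by_cases h : flg F c p j.1.1
  · have e : (fun x : ℝ => tpF R F n p m x j) = fun _ => none := funext fun x => tpF_flg h
    rw [e]
    exact MP.const none
  · have e : (fun x : ℝ => tpF R F n p m x j) = fun x => R.tp n p m x j :=
      funext fun x => tpF_not h
    rw [e]
    exact Rule.MP_tp (R := R) n p m j

/-! #### the types below -/

/-- **the type below**, rest: not flagged at `p - 1` -/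
theorem rest_tpF (hF : FMon F) {g : ℕ → ℕ} (hd : c.wp.dep (p - 1) ≤ c.wp.dep p) (hp : p ≤ n)
    {m : Me} {x : ℝ} {j : c.Lam} (hm : pm c.t (p - 1) m j.1.1 = pm c.t p m j.1.1)
    (hg : R.tg p (pm c.t p m j.1.1) m.2 x j ≤ R.K) (h : ¬ SEG R g p (pm c.t p m j.1.1) m.2 x j)
    (he : ¬ Ent F c p j.1.1) :
    tpF R F n (p - 1) m x j = (tpF R F n p m x j).map (rG c (Nix c n) R.K p g) := by
  by_cases h1 : flg F c p j.1.1
  · rw [tpF_flg h1, tpF_flg (flg_dn hF h1)]; rfl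
  · have h2 : ¬ flg F c (p - 1) j.1.1 := fun h2 => he ⟨h1, h2⟩
    rw [tpF_not h1, tpF_not h2]
    exact rest_tpG hd hp hm hg h

/-- **the type below a tie** -/
theorem tie_tpF {g : ℕ → ℕ} {m : Me} {x : ℝ} {j : c.Lam}
    (hix : ∀ s, ixp c p s (pm c.t p (tuM p m) j.1.1) (tuM p m).2 (p * x) j =
      ixp c p s (pm c.t p m j.1.1) m.2 x j)
    (hg : R.tg p (pm c.t p m j.1.1) m.2 x j ≤ R.K)
    (h : ¬ MEG R g p (pm c.t p m j.1.1) (pm c.t p (tuM p m) j.1.1) m.2 x (p * x) j) :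
    tpF R F n p (tuM p m) (p * x) j = (tpF R F n p m x j).map (rT (Nix c n) R.K g) := by
  by_cases h1 : flg F c p j.1.1
  · rw [tpF_flg h1, tpF_flg h1]; rfl
  · rw [tpF_not h1, tpF_not h1]
    exact tie_tpG hix hg h

/-- **separated pairs of the rest**, flags -/
theorem sep_restF (hF : FMon F) {g : ℕ → ℕ} (hd : c.wp.dep (p - 1) ≤ c.wp.dep p) (hp : p ≤ n)
    {m m' : Me} {x x' : ℝ} {j j' : c.Lam} (hm : pm c.t (p - 1) m j.1.1 = pm c.t p m j.1.1)
    (hm' : pm c.t (p - 1) m' j'.1.1 = pm c.t p m' j'.1.1)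
    (hg : R.tg p (pm c.t p m j.1.1) m.2 x j ≤ R.K) (hg' : R.tg p (pm c.t p m' j'.1.1) m'.2 x' j' ≤ R.K)
    (h : tpF R F n p m x j = tpF R F n p m' x' j')
    (h' : tpF R F n (p - 1) m x j ≠ tpF R F n (p - 1) m' x' j') :
    (SEG R g p (pm c.t p m j.1.1) m.2 x j ∨ Ent F c p j.1.1) ∨
      SEG R g p (pm c.t p m' j'.1.1) m'.2 x' j' ∨ Ent F c p j'.1.1 := by
  by_contra hc
  push Not at hc
  exact h' (by rw [rest_tpF hF hd hp hm hg hc.1.1 hc.1.2, rest_tpF hF hd hp hm' hg' hc.2.1 hc.2.2, h])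

/-- **separated pairs of the ties**, flags -/
theorem sep_tieF {g : ℕ → ℕ} {m m' : Me} {x x' : ℝ} {j j' : c.Lam}
    (hix : ∀ s, ixp c p s (pm c.t p (tuM p m) j.1.1) (tuM p m).2 (p * x) j =
      ixp c p s (pm c.t p m j.1.1) m.2 x j)
    (hix' : ∀ s, ixp c p s (pm c.t p (tuM p m') j'.1.1) (tuM p m').2 (p * x') j' =
      ixp c p s (pm c.t p m' j'.1.1) m'.2 x' j')
    (hg : R.tg p (pm c.t p m j.1.1) m.2 x j ≤ R.K) (hg' : R.tg p (pm c.t p m' j'.1.1) m'.2 x' j' ≤ R.K)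
    (h : tpF R F n p m x j = tpF R F n p m' x' j')
    (h' : tpF R F n p (tuM p m) (p * x) j ≠ tpF R F n p (tuM p m') (p * x') j') :
    MEG R g p (pm c.t p m j.1.1) (pm c.t p (tuM p m) j.1.1) m.2 x (p * x) j ∨
      MEG R g p (pm c.t p m' j'.1.1) (pm c.t p (tuM p m') j'.1.1) m'.2 x' (p * x') j' := by
  by_contra hc
  push Not at hc
  exact h' (by rw [tie_tpF hix hg hc.1, tie_tpF hix' hg' hc.2, h])

end flag

/-! ### contexts -/

section ctx
open Crest.Agent.R4P.Skel189 Crest.Agent.R4P.Frame758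
open Crest.Agent.R4.Soft104 Crest.Agent.R4.Fam464
open Crest.Agent.R4P.StratX36 Crest.Agent.R4P.TopX36
open Crest.Agent.R4P.GWa343 Crest.Agent.R4P.GWb343 Crest.Agent.R4P.GWc343 Crest.Agent.R4P.GWf343
open Crest.Agent.R4P.GWg343 (FX ctx_BI)
open Crest.Agent.R4P.TrR343 Crest.Agent.R4P.Bp407
open Crest.Agent.R4P.Walk560 (DT WrN)
open Crest.Agent.R4P.GCol27 (wT)

variable {N : Skel189.Num} {γ : ℝ} {p0 P₀ : ℕ} {X : Ctx N γ p0 P₀} {Q : NS → IT → Prop}
  {C : ℝ} {p : ℕ} {b : Me × List (DT X.c.Lam (LbX X))} {F : ℕ → Finset ℕ → Prop}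

/-- P or N content of a bundle sits in the tie -/
lemma tie_mem {Λ κ : Type} [Fintype Λ] [DecidableEq Λ] [Fintype κ] [DecidableEq κ]
    {K : List (DT Λ κ)} {j : Λ} {y : ℝ} (h : pA K j y ≠ 0 ∨ pB K j y ≠ 0) :
    ∃ t ∈ K, wT t ≠ 0 ∧ (nA t j y ≠ 0 ∨ nB t j y ≠ 0) := by
  have key : ∀ t : DT Λ κ, (nA t j y ≠ 0 ∨ nB t j y ≠ 0) → wT t ≠ 0 := by
    intro t ht
    cases t with
    | br q w r t₁ t₀ v B G =>
      intro hw
      have hw' : w = 0 := hw
      rcases ht with h | h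
      · exact h (if_pos hw')
      · exact h (if_pos hw')
    | leaf r f => rcases ht with h | h <;> exact absurd rfl h
    | add q r t₁ t₀ => rcases ht with h | h <;> exact absurd rfl h
    | up q Sp t => rcases ht with h | h <;> exact absurd rfl h
  rcases h with h | h
  · obtain ⟨t, ht, h1⟩ := ls_mem h
    exact ⟨t, ht, key t (Or.inl h1), Or.inl h1⟩
  · obtain ⟨t, ht, h1⟩ := ls_mem h
    exact ⟨t, ht, key t (Or.inr h1), Or.inr h1⟩

/-- **the P and N pieces of the tie of a bundle are items of one node** -/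
theorem tie_one (hQ : ∀ u τ, Q u τ → NDt X.par (w X.ψ) X.c.t u τ) (h : InvM X Q C p b)
    (hp : p ≠ 0) {j j' : X.c.Lam} {y y' : ℝ}
    (hj : pA (bB p b.2) j y ≠ 0 ∨ pB (bB p b.2) j y ≠ 0)
    (hj' : pA (bB p b.2) j' y' ≠ 0 ∨ pB (bB p b.2) j' y' ≠ 0) :
    ∃ s Sp t₁ t₀, RtX X Q p b.1 s (.br p Sp t₁ t₀) ∧ j.1.1 ∈ (IT.br p Sp t₁ t₀).items ∧
      j'.1.1 ∈ (IT.br p Sp t₁ t₀).items := by
  have H := carX (X := X) hQ
  obtain ⟨t, ht, hw, h1⟩ := tie_mem hj
  obtain ⟨t', ht', hw', h1'⟩ := tie_mem hj'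
  have e : t' = t := by
    have k := h.bi.one
    have m1 : t ∈ (GWa343.bB p b.2).filter (fun t => decide (wT t ≠ 0)) :=
      List.mem_filter.2 ⟨ht, decide_eq_true hw⟩
    have m2 : t' ∈ (GWa343.bB p b.2).filter (fun t => decide (wT t ≠ 0)) :=
      List.mem_filter.2 ⟨ht', decide_eq_true hw'⟩
    revert k m1 m2
    generalize (GWa343.bB p b.2).filter (fun t => decide (wT t ≠ 0)) = l
    intro k m1 m2
    match l, k, m1, m2 with
    | [a], _, m1, m2 =>
      rw [List.mem_singleton.1 m1, List.mem_singleton.1 m2]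
    | [], _, m1, _ => simp at m1
    | a :: a' :: l, k, _, _ => simp at k
  subst e
  rcases bB_cases H h.mi ht with ⟨s, Sp, t₁, t₀, hs, e⟩ | ⟨s, t₁, hs, e⟩
  · have hw2 : (1 / (p : ℝ)) ≠ 0 := one_div_ne_zero (by exact_mod_cast hp)
    have key : ∀ {i : X.c.Lam} {z : ℝ}, (nA t' i z ≠ 0 ∨ nB t' i z ≠ 0) →
        i.1.1 ∈ (IT.br p Sp t₁ t₀).items := by
      intro i z hi
      rw [e] at hi
      obtain ⟨hP, hN⟩ := H.br hs
      rcases hi with hi | hi
      · have h2 : (if 1 / (p : ℝ) = 0 then (0 : ℝ) else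
            ((X.c.D.par X.Y).toDT X.c.sp s.B (s.A * p) t₁).g.val i z) ≠ 0 := hi
        rw [if_neg hw2] at h2
        exact Finset.mem_union_left _ (ctx_supp (hQ _ _ hP.1.rm.all.self) h2).1
      · have h2 : (if 1 / (p : ℝ) = 0 then (0 : ℝ) else
            ((X.c.D.par X.Y).toDT X.c.sp (s.B * p) s.A t₀).g.val i z) ≠ 0 := hi
        rw [if_neg hw2] at h2
        exact Finset.mem_union_right _ (ctx_supp (hQ _ _ hN.1.rm.all.self) h2).1
    exact ⟨s, Sp, t₁, t₀, hs, key h1, key h1'⟩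
  · exfalso
    rw [e] at hw
    exact hw rfl

/-- **one missing list above the tie** -/
theorem tie_Mhi (hQ : ∀ u τ, Q u τ → NDt X.par (w X.ψ) X.c.t u τ) (h : InvM X Q C p b)
    (hp : p ≠ 0) {j j' : X.c.Lam} {y y' : ℝ}
    (hj : pA (bB p b.2) j y ≠ 0 ∨ pB (bB p b.2) j y ≠ 0)
    (hj' : pA (bB p b.2) j' y' ≠ 0 ∨ pB (bB p b.2) j' y' ≠ 0) :
    Mhi X.c p j.1.1 = Mhi X.c p j'.1.1 := by
  obtain ⟨s, Sp, t₁, t₀, hs, h1, h2⟩ := tie_one hQ h hp hj hj'
  have hl : ¬ isL (IT.br p Sp t₁ t₀) := fun h => h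
  have e1 := hs.1.hi hQ hl rfl h1
  have e2 := hs.1.hi hQ hl rfl h2
  have e3 : s.B.primeFactors = pm X.c.t p b.1 j.1.1 := hs.1.rm.pf hQ X.tOk h1
  have e4 : s.B.primeFactors = pm X.c.t p b.1 j'.1.1 := hs.1.rm.pf hQ X.tOk h2
  show (X.c.t.mt j.1.1).filter (p < ·) = (X.c.t.mt j'.1.1).filter (p < ·)
  rw [← e1, ← e2, ← e3, ← e4]

/-- **one flag** -/
theorem tie_flg (hQ : ∀ u τ, Q u τ → NDt X.par (w X.ψ) X.c.t u τ) (h : InvM X Q C p b)
    (hp : p ≠ 0) {j j' : X.c.Lam} {y y' : ℝ}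
    (hj : pA (bB p b.2) j y ≠ 0 ∨ pB (bB p b.2) j y ≠ 0)
    (hj' : pA (bB p b.2) j' y' ≠ 0 ∨ pB (bB p b.2) j' y' ≠ 0) :
    flg F X.c p j.1.1 ↔ flg F X.c p j'.1.1 := flg_congr (tie_Mhi hQ h hp hj hj')

variable {R : Rule X.c} {spc : ℕ → Me × List (DT X.c.Lam (LbX X)) →
    Ty (Nix X.c (Skel189.top X.S)) R.K → ℝ → Prop}
  {act : ℕ → Me × List (DT X.c.Lam (LbX X)) → Ty (Nix X.c (Skel189.top X.S)) R.K → ℝ → LbX X}

/-- the flagged typing data in a context -/
noncomputable abbrev TXF (X : Ctx N γ p0 P₀) (R : Rule X.c) (F : ℕ → Finset ℕ → Prop)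
    (spc : ℕ → Me × List (DT X.c.Lam (LbX X)) → Ty (Nix X.c (Skel189.top X.S)) R.K → ℝ → Prop)
    (act : ℕ → Me × List (DT X.c.Lam (LbX X)) → Ty (Nix X.c (Skel189.top X.S)) R.K → ℝ → LbX X) :
    TD Me X.c.Lam (LbX X) (Ty (Nix X.c (Skel189.top X.S)) R.K) :=
  TDf R F (Skel189.top X.S) spc act

/-- **all type fields of a flagged typing** -/
theorem TDf_typ (hQ : ∀ u τ, Q u τ → NDt X.par (w X.ψ) X.c.t u τ)
    (msp : ∀ p m z, MP (spc p m z)) (mac : ∀ p m z, MP (act p m z))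
    (one : ∀ p m z y (i i' : ℕ), i < p → i' < p → spc p m z ((y + i) / p) →
      spc p m z ((y + i') / p) → i = i') :
    TYf (rhoX X) (TXF X R F spc act) (InvM X Q C) where
  mtp := fun p m j => MP_tpF m j
  msp := msp
  mac := mac
  one := one
  inj := (TDr_typ (R := R) msp mac one (rhoX X) (InvM X Q C)).inj
  frF := fun _ _ _ _ => rfl
  low := fun {p b} _ _ y j z _ h hF => by
    have h1 := Rule.tp_flag (R := R) (n := Skel189.top X.S) (tpF_some.1 h).2
    have h2 : z.2.2 = true := hF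
    rw [h1] at h2
    exact Bool.false_ne_true h2
  out1 := fun {p b} _ _ x j _ => by
    show tpF R F _ p b.1 x j = none ↔ tpF R F _ p (tuM p b.1) (p * x) j = none
    rw [tpF_none, tpF_none]
  out2 := fun {p b} hb hp y j j' _ h1 h2 => by
    show tpF R F _ p (tuM p b.1) y j = none ↔ tpF R F _ p (tuM p b.1) y j' = none
    rw [tpF_none, tpF_none]
    exact tie_flg hQ hb hp h1 h2

/-- **the properties of a flagged typing** -/
noncomputable def typF (hQ : ∀ u τ, Q u τ → NDt X.par (w X.ψ) X.c.t u τ)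
    (msp : ∀ p m z, MP (spc p m z)) (mac : ∀ p m z, MP (act p m z))
    (one : ∀ p m z y (i i' : ℕ), i < p → i' < p → spc p m z ((y + i) / p) →
      spc p m z ((y + i') / p) → i = i') :
    TYp (rhoX X) (TXF X R F spc act) (InvM X Q C) :=
  (TDf_typ hQ msp mac one).typ (mokX hQ _)

/-- the same without flags -/
noncomputable def typR (hQ : ∀ u τ, Q u τ → NDt X.par (w X.ψ) X.c.t u τ)
    (msp : ∀ p m z, MP (spc p m z)) (mac : ∀ p m z, MP (act p m z))
    (one : ∀ p m z y (i i' : ℕ), i < p → i' < p → spc p m z ((y + i) / p) →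
      spc p m z ((y + i') / p) → i = i') :
    TYp (rhoX X) (TX X R spc act) (InvM X Q C) :=
  (TDr_typ msp mac one (rhoX X) (InvM X Q C)).typ (mokX hQ _)

variable {g : ℕ → ℕ}

/-- **(REST)** without event the type at `p - 1` is the image of the type at `p` -/
theorem rest_sameF (hF : FMon F) (hQ : ∀ u τ, Q u τ → NDt X.par (w X.ψ) X.c.t u τ)
    (h : InvM X Q C p b) (hp : p ≠ 0) (hd : X.c.wp.dep (p - 1) ≤ X.c.wp.dep p) {j : X.c.Lam}
    {x : ℝ} (hj : jv (bN p b.2) j x ≠ 0) (hg : ∀ M T, R.tg p M T x j ≤ R.K)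
    (hS : ¬ SEG R g p (pm X.c.t p b.1 j.1.1) b.1.2 x j) (he : ¬ Ent F X.c p j.1.1) :
    tpF R F (Skel189.top X.S) (p - 1) b.1 x j =
      (tpF R F (Skel189.top X.S) p b.1 x j).map
        (rG X.c (Nix X.c (Skel189.top X.S)) R.K p g) := by
  obtain ⟨h1, h2⟩ := rest_pmX hQ h hp hj
  exact rest_tpF hF hd h2 h1 (hg _ _) hS he

/-- **the cases of the rest**, a piece inside the game above -/
theorem rest_caseF (hF : FMon F) (hQ : ∀ u τ, Q u τ → NDt X.par (w X.ψ) X.c.t u τ)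
    (h : InvM X Q C p b) (hp : p ≠ 0) (hd : X.c.wp.dep (p - 1) ≤ X.c.wp.dep p) {j : X.c.Lam}
    {x : ℝ} (hj : jv (bN p b.2) j x ≠ 0) (hg : ∀ M T, R.tg p M T x j ≤ R.K)
    {z : Ty (Nix X.c (Skel189.top X.S)) R.K}
    (hk : tpF R F (Skel189.top X.S) p b.1 x j = some z) :
    (Ent F X.c p j.1.1 ∧ tpF R F (Skel189.top X.S) (p - 1) b.1 x j = none) ∨
      (¬ flg F X.c (p - 1) j.1.1 ∧ (SEG R g p (pm X.c.t p b.1 j.1.1) b.1.2 x j ∨
        tpF R F (Skel189.top X.S) (p - 1) b.1 x j =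
          some (rG X.c (Nix X.c (Skel189.top X.S)) R.K p g z))) := by
  by_cases he : flg F X.c (p - 1) j.1.1
  · exact Or.inl ⟨⟨(tpF_some.1 hk).1, he⟩, tpF_flg he⟩
  · refine Or.inr ⟨he, ?_⟩
    by_cases hS : SEG R g p (pm X.c.t p b.1 j.1.1) b.1.2 x j
    · exact Or.inl hS
    · right
      rw [rest_sameF hF hQ h hp hd hj hg hS fun h => he h.2, hk]
      rfl

/-- **(TIE)** without event the low type is the image of the type above -/
theorem tie_sameF {j : X.c.Lam} {x : ℝ} {m : Me} (h : TieP X p m j x)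
    (hg : ∀ M T, R.tg p M T x j ≤ R.K)
    (hM : ¬ MEG R g p (pm X.c.t p m j.1.1) (pm X.c.t p (tuM p m) j.1.1) m.2 x (p * x) j) :
    tpF R F (Skel189.top X.S) p (tuM p m) (p * x) j =
      (tpF R F (Skel189.top X.S) p m x j).map (rT (Nix X.c (Skel189.top X.S)) R.K g) :=
  tie_tpF h.ix (hg _ _) hM

end ctx

end Crest.Agent.R4P.StJ6
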