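import Crest.Agent.R4P.CrZ_41
import Crest.Agent.R4P.StJ_6

/-!
R4 (S0004) with powers, helper47: **F4 (helper845): the credit of the flag entry** "the piece leaves the game
at this rest" (`StJ6.Ent F c p q`, once per item).

* `sum_ind_one`, `sum_ind_card` : a family of events which happens at most once (at most `K` times).
* **`EntV F c κ`** : the events (`E' n j z = Ent F c n j`), price `κ` at the static column; `EntV_sum`
  (total `≤ κ` per piece and point of the arc), hence by `Evs.cr`, `Evs.rho_le` of `CrZ_41` the credits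
  `Cr (L.pv H)` with `ρ ≤ κ`: **`EntV_rho`**, `EntV_e` (the charge at the rest), `EntV_r` (nothing at the ties).
-/

set_option autoImplicit false
set_option linter.unusedSectionVars false
set_option linter.unusedVariables false
open MeasureTheory Filter Set

namespace Crest.Agent.R4P.CrF47

open Crest.Agent.R4.Tour104 Crest.Agent.R4.Clos758
open Crest.Agent.R4P.Cnt588 Crest.Agent.R4P.Item758 Crest.Agent.R4P.W363
open Crest.Agent.R4P.Data758
open Crest.Agent.R4P.Bld532 (NS All NodeOk Bk dv nd)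
open Crest.Agent.R4P.StratN36 (ex)
open Crest.Agent.R4P.Step588 Crest.Agent.R4P.RseSt23
open Crest.Agent.R4P.DTp26 Crest.Agent.R4P.DTm407
open Crest.Agent.R4P.TYI47 Crest.Agent.R4P.TYJ47 Crest.Agent.R4P.TYK47
open Crest.Agent.R4P.TYP9 Crest.Agent.R4P.RsT47
open Crest.Agent.R4P.Walk560 (DT WrN)
open Crest.Agent.R4P.Skel189 Crest.Agent.R4P.Frame758
open Crest.Agent.R4.Soft104 Crest.Agent.R4.Fam464
open Crest.Agent.R4P.StratX36 Crest.Agent.R4P.TopX36
open Crest.Agent.R4P.Grp36 Crest.Agent.R4P.Bp407 Crest.Agent.R4P.VR407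
open Crest.Agent.R4P.PayR45 (BM PV)
open Crest.Agent.R4P.PVe45 (Cr LB)
open Crest.Agent.R4P.PVd45 (DI)
open Crest.Agent.R4P.CrZ41 Crest.Agent.R4P.StJ6

/-- an event which happens at most once -/
lemma sum_ind_one {P : ℕ → Prop} (h : ∀ a b, P a → P b → a = b) (s : Finset ℕ) :
    ∑ n ∈ s, ind (P n) ≤ 1 := by
  classical
  by_cases hex : ∃ a ∈ s, P a
  · obtain ⟨a, ha, hPa⟩ := hex
    rw [Finset.sum_eq_single_of_mem a ha fun b _ hb => ind_off fun hPb => hb (h b a hPb hPa)]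
    exact ind_le _
  · refine (Finset.sum_nonpos fun n hn => ?_).trans zero_le_one
    rw [ind_off fun hP => hex ⟨n, hn, hP⟩]

/-- an event which happens at most `K` times -/
lemma sum_ind_card {P : ℕ → Prop} {K : ℕ} (s : Finset ℕ)
    (h : ∀ t : Finset ℕ, t ⊆ s → (∀ n ∈ t, P n) → t.card ≤ K) : ∑ n ∈ s, ind (P n) ≤ K := by
  classical
  have e : ∑ n ∈ s, ind (P n) = ∑ n ∈ s.filter P, (1 : ℝ) := by
    rw [Finset.sum_filter]
    refine Finset.sum_congr rfl fun n _ => ?_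
    by_cases hn : P n
    · rw [if_pos hn, ind_on hn]
    · rw [if_neg hn, ind_off hn]
  rw [e, Finset.sum_const, nsmul_eq_mul, mul_one]
  exact_mod_cast h _ (Finset.filter_subset _ _) fun n hn => (Finset.mem_filter.1 hn).2

/-- **the events "the piece leaves the game at the rest"** with the price `κ` -/
noncomputable def EntV (F : ℕ → Finset ℕ → Prop) (c : Cf) (κ : ℝ) (hκ : 0 ≤ κ) : Evs c.Lam where
  E := fun _ _ _ => False
  E' := fun n j _ => Ent F c n j.1.1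
  mE := fun _ _ => MeasurableSet.const _
  mE' := fun _ _ => MeasurableSet.const _
  c := fun _ => 0
  c' := fun _ => κ
  c0 := fun _ => le_rfl
  c0' := fun _ => hκ

section ev
variable {F : ℕ → Finset ℕ → Prop} {c : Cf} {κ : ℝ} {hκ : 0 ≤ κ}

lemma EntV_f (n : ℕ) (j : c.Lam) (z : ℝ) : (EntV F c κ hκ).f n j z = κ * ind (Ent F c n j.1.1) := by
  unfold Evs.f EntV
  simp only [mul_zero, zero_mul, zero_add]

/-- **once per piece** -/
theorem EntV_sum (hF : FMon F) (s : Finset ℕ) (j : c.Lam) (z : ℝ) :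
    ∑ n ∈ s, (EntV F c κ hκ).f n j z ≤ κ := by
  rw [Finset.sum_congr rfl fun n _ => EntV_f n j z, ← Finset.mul_sum]
  have h := sum_ind_one (P := fun n => Ent F c n j.1.1) (fun a b h1 h2 => Ent.unique hF h1 h2) s
  calc κ * ∑ n ∈ s, ind (Ent F c n j.1.1) ≤ κ * 1 := mul_le_mul_of_nonneg_left h hκ
    _ = κ := mul_one κ

end ev

/-! ### the credits -/

section cred
variable {N : Skel189.Num} {γ : ℝ} {p0 P₀ : ℕ} {X : Ctx N γ p0 P₀} {Q : NS → IT → Prop} {C : ℝ}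
  {B : BM (Me × List (DT X.c.Lam (LbX X)))} {Inv' : ℕ → List (DT X.c.Lam (LbX X)) → Prop}
  {F : ℕ → Finset ℕ → Prop} {κ : ℝ} {hκ : 0 ≤ κ}

/-- **the credit of the flag entry is at most `κ`** -/
theorem EntV_rho (hF : FMon F)
    (hQ : ∀ u τ, Q u τ → NDt X.par (w X.ψ) X.c.t u τ) (hd1 : X.c.d1 * Kc X.S ≤ 1) {p : ℕ}
    {b : Me × List (DT X.c.Lam (LbX X))} (h : InvM X Q C p b) {j : X.c.Lam} {x : ℝ}
    (hj : jv b.2 j x ≠ 0) :
    (EntV F X.c κ hκ).G p (rem p b.1 j.1.1) j (zb X.c p b.1 x j) ≤ κ :=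
  Evs.rho_le (EntV F X.c κ hκ) (P := p) (fun j z _ _ => EntV_sum hF _ j z) hQ hd1 h le_rfl hj

/-- **the charge at the rest** of the credits `Evs.cr` -/
theorem EntV_e (L : LB B Prod.snd Inv') (H : DI Inv')
    (hQ : ∀ u τ, Q u τ → NDt X.par (w X.ψ) X.c.t u τ) (hd1 : X.c.d1 * Kc X.S ≤ 1)
    (hI : ∀ {p b}, B.ok p b → InvM X Q C p b)
    (mP : ∀ {p b}, B.ok p b → p ≠ 0 → (B.cP p b).1 = tuM p b.1)
    (mN : ∀ {p b}, B.ok p b → p ≠ 0 → (B.cN p b).1 = tuM p b.1)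
    (mR : ∀ {p b}, B.ok p b → p ≠ 0 → (B.rN p b).1 = b.1) (p : ℕ)
    (b : Me × List (DT X.c.Lam (LbX X))) (j : X.c.Lam) (x : ℝ) :
    ((EntV F X.c κ hκ).cr L H hQ hd1 hI mP mN mR).e p b j x = κ * ind (Ent F X.c p j.1.1) := rfl

/-- nothing is charged at the ties -/
theorem EntV_r (L : LB B Prod.snd Inv') (H : DI Inv')
    (hQ : ∀ u τ, Q u τ → NDt X.par (w X.ψ) X.c.t u τ) (hd1 : X.c.d1 * Kc X.S ≤ 1)
    (hI : ∀ {p b}, B.ok p b → InvM X Q C p b)
    (mP : ∀ {p b}, B.ok p b → p ≠ 0 → (B.cP p b).1 = tuM p b.1)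
    (mN : ∀ {p b}, B.ok p b → p ≠ 0 → (B.cN p b).1 = tuM p b.1)
    (mR : ∀ {p b}, B.ok p b → p ≠ 0 → (B.rN p b).1 = b.1) (p : ℕ)
    (b : Me × List (DT X.c.Lam (LbX X))) (j : X.c.Lam) (x : ℝ) :
    ((EntV F X.c κ hκ).cr L H hQ hd1 hI mP mN mR).r p b j x = 0 := by
  classical
  show (if TT p b.1 j.1.1 then (0 : ℝ) * ind False else 0) = 0
  split_ifs
  · exact zero_mul _
  · rfl

end cred

end Crest.Agent.R4P.CrF47
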