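import Crest.Agent.R4P.MSd_343

/-!
R4 (S0004) with powers, T3, helper407: **the real classes of decorated trees as a row system**.

* `RD wr Inv` : bundles of trees whose tie classes at the column `p` are `wr p` (NO nestedness of the
  real classes between columns is required).
* `RD.rx : RX (List (DT Λ κ)) κ` : contents of the REAL classes.
* `RD.fl p L c c' x` : content of the rest of real class `c` at the column `p` and `c'` at the column
  `p - 1` (flow of the class change), `fl_out`, `fl_in`.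
-/

set_option autoImplicit false
set_option linter.unusedSectionVars false
set_option linter.unusedVariables false
open MeasureTheory Filter Set

namespace Crest.Agent.R4P.DTr407

open Crest.Agent.R4.Tour104 Crest.Agent.R4.Tour758 Crest.Agent.R4.Avg758 Crest.Agent.R4.Clos758
open Crest.Agent.R4.ClosL758 Crest.Agent.R4.ClosG758 Crest.Agent.R4.ClosR758
open Crest.Agent.R4P.ClosR442 Crest.Agent.R4P.Grp36
open Crest.Agent.R4P.Xfer36 Crest.Agent.R4P.TopC36 Crest.Agent.R4P.PN36
open Crest.Agent.R4P.GMer27 Crest.Agent.R4P.GCol27 Crest.Agent.R4P.GWa343 Crest.Agent.R4P.GWb343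
open Crest.Agent.R4P.GWc343 Crest.Agent.R4P.GWd343 Crest.Agent.R4P.GWe343 Crest.Agent.R4P.GWf343
open Crest.Agent.R4P.RSys343 Crest.Agent.R4P.TrR343 Crest.Agent.R4P.RXs343
open Crest.Agent.R4P.RXj343 Crest.Agent.R4P.MSi343 Crest.Agent.R4P.MSd343
open Crest.Agent.R4P.Walk560 (DT)

section comp
variable {Λ κ : Type} [Fintype Λ] [DecidableEq Λ] [Fintype κ] [DecidableEq κ]
  {δ δ' : Type} [Fintype δ] [DecidableEq δ] [Fintype δ'] [DecidableEq δ']

/-- coarser classes of a bundle -/
lemma bc_comp (k : Λ → δ) (r : δ → δ') (L : List (DT Λ κ)) (z : δ') (x : ℝ) :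
    bc (fun j => r (k j)) L z x = ∑ w ∈ Finset.univ.filter (fun w => r w = z), bc k L w x := by
  induction L with
  | nil => simp
  | cons t L ih =>
    simp only [bc_cons, ih, Finset.sum_add_distrib]
    congr 1
    unfold GWb343.cf sm
    rw [← Finset.sum_biUnion]
    · refine Finset.sum_congr ?_ fun _ _ => rfl
      ext j
      simp
    · intro a _ b _ hab
      refine Finset.disjoint_left.2 fun j ha hb => hab ?_
      rw [← (Finset.mem_filter.1 ha).2, ← (Finset.mem_filter.1 hb).2]

/-- classes of pairs, first component -/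
lemma bc_fst (k : Λ → δ) (k' : Λ → δ') (L : List (DT Λ κ)) (z : δ) (x : ℝ) :
    ∑ z', bc (fun j => (k j, k' j)) L (z, z') x = bc k L z x := by
  have h := bc_comp (fun j => (k j, k' j)) Prod.fst L z x
  rw [show (fun j => Prod.fst (k j, k' j)) = k from rfl] at h
  rw [h, Finset.sum_filter, Fintype.sum_prod_type, Finset.sum_comm]
  refine Finset.sum_congr rfl fun z' _ => ?_
  simp

/-- classes of pairs, second component -/
lemma bc_snd (k : Λ → δ) (k' : Λ → δ') (L : List (DT Λ κ)) (z' : δ') (x : ℝ) :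
    ∑ z, bc (fun j => (k j, k' j)) L (z, z') x = bc k' L z' x := by
  have h := bc_comp (fun j => (k j, k' j)) Prod.snd L z' x
  rw [show (fun j => Prod.snd (k j, k' j)) = k' from rfl] at h
  rw [h, Finset.sum_filter, Fintype.sum_prod_type]
  refine Finset.sum_congr rfl fun z _ => ?_
  simp

end comp

section rd
variable {Λ κ : Type} [Fintype Λ] [DecidableEq Λ] [Fintype κ] [DecidableEq κ]

/-- **bundles of decorated trees with the tie classes `wr`** -/
structure RD (wr : ℕ → Λ → κ) (Inv : ℕ → List (DT Λ κ) → Prop) where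
  pb : ∀ {p L}, Inv p L → PBA L
  bok : ∀ {p L}, Inv p L → p ≠ 0 → BOk (wr p) p (bB p L)
  toP : ∀ {p L}, Inv p L → p ≠ 0 → Inv p ((bB p L).map chP)
  toN : ∀ {p L}, Inv p L → p ≠ 0 → Inv p ((bB p L).map chN)
  toR : ∀ {p L}, Inv p L → p ≠ 0 → Inv (p - 1) (bN p L)
  no1 : ∀ {L}, Inv 1 L → bB 1 L = []
  /-- a uniform bound -/
  B0 : ℝ
  bd : ∀ {p L}, Inv p L → ∀ x, bt L x ≤ B0

variable {wr : ℕ → Λ → κ} {Inv : ℕ → List (DT Λ κ) → Prop}

/-- **the row system of the real classes** -/
noncomputable def RD.rx (H : RD wr Inv) : RX (List (DT Λ κ)) κ where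
  cP := fun p L => (bB p L).map chP
  cN := fun p L => (bB p L).map chN
  rN := fun p L => bN p L
  ok := Inv
  okP := H.toP
  okN := H.toN
  okR := H.toR
  h := fun p L c => bc (wr p) L c
  hL := fun p L c => bc (wr p) (bL p L) c
  hN := fun p L c => bc (wr p) (bN p L) c
  Bc := fun p L c => bb (bB p L) c
  gc := fun p L c => gb (bB p L) c
  ph := fun ht c => PB_bc (H.pb ht).self _
  pL := fun {p L} ht _ c => PB_bc ((H.pb ht).bL p).self _
  pN := fun {p L} ht _ c => PB_bc ((H.pb ht).bN p).self _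
  sp := fun {p L} ht hp c x => by
    rw [bc_split3 (wr p) p L c x, bc_dec (H.bok ht hp) c x]
  row := fun {p L} ht hp c => ER_bundle (Nat.pos_of_ne_zero hp) (H.bok ht hp) ((H.pb ht).chP p).self
        ((H.pb ht).chN p).self c
  no1 := fun {L} ht c x => by
    have h := H.no1 ht
    constructor
    · show bc (wr 1) ((bB 1 L).map chP) c x = 0
      rw [h]; rfl
    · show bc (wr 1) ((bB 1 L).map chN) c x = 0
      rw [h]; rfl

/-- flow of the class change `p → p - 1` in the rest -/
noncomputable def RD.fl (H : RD wr Inv) (p : ℕ) (L : List (DT Λ κ)) (c c' : κ) (x : ℝ) : ℝ :=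
  bc (fun j => (wr p j, wr (p - 1) j)) (bN p L) (c, c') x

lemma RD.pf (H : RD wr Inv) {p : ℕ} {L : List (DT Λ κ)} (ht : Inv p L) (c c' : κ) :
    PB (H.fl p L c c') := PB_bc ((H.pb ht).bN p).self _

lemma RD.fl_out (H : RD wr Inv) (p : ℕ) (L : List (DT Λ κ)) (c : κ) (x : ℝ) :
    ∑ c', H.fl p L c c' x = H.rx.hN p L c x := bc_fst _ _ _ _ _

lemma RD.fl_in (H : RD wr Inv) (p : ℕ) (L : List (DT Λ κ)) (c' : κ) (x : ℝ) :
    ∑ c, H.fl p L c c' x = H.rx.h (p - 1) (H.rx.rN p L) c' x := bc_snd _ _ _ _ _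

end rd

end Crest.Agent.R4P.DTr407
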