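import Crest.Agent.R4P.PMs_49
import Crest.Agent.R4P.RXj_343

/-!
R4 (S0004) with powers, helper49: **`PM7` for periodic functions, and the joins at a scale**.

* `PB_th`, `PB_TT`, `PB_PM7` : measurability / periodicity of the potential of PB contents.
* `joins7` : three forms of the join of three families (`RXj343.joins` for `PM7`), for arbitrary
  families `hL hB hN`; `join_le` : `SS` of the parts.
* `join2`, `PM7_min_mono`, `lamJ7` : truncated contents.
-/

set_option autoImplicit false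
set_option linter.unusedVariables false
set_option linter.unusedSectionVars false

open MeasureTheory Filter Set

namespace Crest.Agent.R4P.PMj49

open Crest.Agent.R4.Tour104 Crest.Agent.R4.Clos758
open Crest.Agent.R4P.GMer27 Crest.Agent.R4P.GCol27 Crest.Agent.R4P.ModeP940 Crest.Agent.R4P.MisR16
open Crest.Agent.R4P.Mism16 Crest.Agent.R4P.RXs343 Crest.Agent.R4P.PMs49

variable {J ζ : Type*} [Fintype J] [Fintype ζ] {c : J → ℝ} {W : Set (J → ℝ)} {σ : ℝ}

/-! ### PB -/

lemma PB_th {f : ℝ → ℝ} (hf : PB f) : PB fun x => th (f x) := by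
  have hs : PB fun x => Real.sqrt (f x) := by
    obtain ⟨b, hb⟩ := hf.bdd
    exact ⟨hf.meas.sqrt, fun x => Real.sqrt_nonneg _, ⟨Real.sqrt b, fun x => Real.sqrt_le_sqrt (hb x)⟩,
      fun x => by rw [hf.per x]⟩
  exact hf.mul hs

lemma PB_TT (c0 : ∀ j, 0 ≤ c j) {f : ζ → J → ℝ → ℝ} (hf : ∀ z j, PB (f z j)) :
    PB fun x => TT c fun z j => f z j x :=
  PB.sum _ fun z _ => PB_M c0 (f := fun x j => th (f z j x)) fun j => PB_th (hf z j)

lemma PB_div {f : ℝ → ℝ} (hf : PB f) (hσ : 0 < σ) : PB fun x => f x / σ := by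
  have := hf.smul (c := 1 / σ) (by positivity)
  have e : (fun x => f x / σ) = fun x => 1 / σ * f x := funext fun x => by ring
  rw [e]; exact this

/-- the potential of a family -/
lemma PB_PN (H : TC c W) {f : ℝ → J → ℝ} (hf : ∀ j, PB fun x => f x j)
    (h1 : ∀ x j, f x j ≤ 1) : PB fun x => GMd35.PD c (f x) := by
  have hm : Measurable f := measurable_pi_lambda _ fun j => (hf j).meas
  refine ⟨ModeK49.measurable_PD hm, fun x => GMd35.PD_nonneg H.c0 H.c1 fun j => (hf j).nonneg x,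
    ⟨14, fun x => ?_⟩, fun x => ?_⟩
  · have h := GMd35.PD_le32 H.c0 (h := f x) (fun j => (hf j).nonneg x)
    have h2 : M c (fun j => th (f x j)) ≤ M c (fun _ => (1 : ℝ)) :=
      M_mono H.c0 fun j => (th_le ((hf j).nonneg x) (h1 x j)).trans (h1 x j)
    rw [M_const H.c1] at h2
    linarith
  · have : f (x + 1) = f x := by
      funext j
      exact (hf j).per x
    rw [this]

lemma PB_PMs (H : TC c W) (hσ : 0 < σ) {f : ζ → J → ℝ → ℝ} (hf : ∀ z j, PB (f z j))
    (h1 : ∀ z j x, f z j x ≤ σ) : PB fun x => PMs σ c W fun z j => f z j x := by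
  have k1 : PB fun x => ModeK49.PK c W fun z j => f z j x / σ :=
    PB.sum _ fun z _ => PB_PN H (f := fun x j => f z j x / σ) (fun j => PB_div (hf z j) hσ)
      fun x j => (div_le_one hσ).2 (h1 z j x)
  have k2 : PB fun x => TT c fun z j => f z j x / σ := PB_TT H.c0 fun z j => PB_div (hf z j) hσ
  exact (k1.add (k2.smul (c := 56) (by norm_num))).smul (sq_nonneg σ)

lemma PB_PM7 (H : TC c W) (hσ : 0 < σ) {f : ζ → J → ℝ → ℝ} (hf : ∀ z j, PB (f z j))
    (h1 : ∀ z j x, f z j x ≤ σ) : PB fun x => PM7 σ c W fun z j => f z j x :=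
  PB_div (PB_PMs H hσ hf h1) (by norm_num)

/-! ### joins -/

/-- the second part of a truncated sum -/
lemma t2nd {a b : ℝ} (hσ : 0 ≤ σ) (ha : 0 ≤ a) (hb : 0 ≤ b) :
    0 ≤ min (a + b) σ - min a σ ∧ min (a + b) σ - min a σ ≤ min b σ := by
  have h1 := tl_nonneg hσ ha hb
  unfold tl at h1
  have h2 : min a σ ≤ min (a + b) σ := min_le_min_right _ (by linarith)
  constructor <;> linarith

/-- **the joins at a scale**, three forms, arbitrary families -/
theorem joins7 (H : TC c W) (hσ : 0 < σ) {hL hB hN h : ζ → J → ℝ} (nL : ∀ z j, 0 ≤ hL z j)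
    (nB : ∀ z j, 0 ≤ hB z j) (nN : ∀ z j, 0 ≤ hN z j)
    (hs : ∀ z j, h z j = hL z j + hB z j + hN z j) :
    PM7 σ c W (fun z j => min (h z j) σ) ≤ PM7 σ c W (fun z j => min (hB z j) σ) +
      PM7 σ c W (fun z j => min (hN z j) σ) +
      14 * (σ * min (SS c fun z j => min (hB z j) σ) (SS c fun z j => min (hN z j) σ)) +
      14 * (σ * SS c fun z j => min (hL z j) σ) ∧
    PM7 σ c W (fun z j => min (h z j) σ) ≤ PM7 σ c W (fun z j => min (hB z j) σ) +
      14 * (σ * ((SS c fun z j => min (hN z j) σ) + SS c fun z j => min (hL z j) σ)) ∧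
    PM7 σ c W (fun z j => min (h z j) σ) ≤ PM7 σ c W (fun z j => min (hN z j) σ) +
      14 * (σ * ((SS c fun z j => min (hB z j) σ) + SS c fun z j => min (hL z j) σ)) := by
  set fB : ζ → J → ℝ := fun z j => min (hB z j) σ with hfB
  set fN : ζ → J → ℝ := fun z j => min (hB z j + hN z j) σ - min (hB z j) σ with hfN
  set fL : ζ → J → ℝ := fun z j =>
    min (hB z j + hN z j + hL z j) σ - min (hB z j + hN z j) σ with hfL
  set gN : ζ → J → ℝ := fun z j => min (hN z j) σ with hgN
  set gB : ζ → J → ℝ := fun z j => min (hN z j + hB z j) σ - min (hN z j) σ with hgB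
  set gL : ζ → J → ℝ := fun z j => min (hL z j) σ with hgL
  have b1 : ∀ z j, 0 ≤ fB z j := fun z j => le_min (nB z j) hσ.le
  have b2 : ∀ z j, 0 ≤ fN z j ∧ fN z j ≤ gN z j := fun z j => t2nd hσ.le (nB z j) (nN z j)
  have b3 : ∀ z j, 0 ≤ fL z j ∧ fL z j ≤ gL z j := fun z j =>
    t2nd hσ.le (add_nonneg (nB z j) (nN z j)) (nL z j)
  have b4 : ∀ z j, 0 ≤ gB z j ∧ gB z j ≤ fB z j := fun z j => t2nd hσ.le (nN z j) (nB z j)
  have b5 : ∀ z j, 0 ≤ gN z j := fun z j => le_min (nN z j) hσ.le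
  have sfN : SS c fN ≤ SS c gN :=
    Finset.sum_le_sum fun z _ => M_mono H.c0 fun j => (b2 z j).2
  have sfL : SS c fL ≤ SS c gL :=
    Finset.sum_le_sum fun z _ => M_mono H.c0 fun j => (b3 z j).2
  have sgB : SS c gB ≤ SS c fB :=
    Finset.sum_le_sum fun z _ => M_mono H.c0 fun j => (b4 z j).2
  have s1 : ∀ z j, fB z j + fN z j ≤ σ := fun z j => by
    have : fB z j + fN z j = min (hB z j + hN z j) σ := by rw [hfB, hfN]; ring
    rw [this]; exact min_le_right _ _
  have s2 : ∀ z j, (fB z j + fN z j) + fL z j ≤ σ := fun z j => by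
    have : (fB z j + fN z j) + fL z j = min (hB z j + hN z j + hL z j) σ := by
      rw [hfB, hfN, hfL]; ring
    rw [this]; exact min_le_right _ _
  have s3 : ∀ z j, gN z j + gB z j ≤ σ := fun z j => by
    have : gN z j + gB z j = min (hN z j + hB z j) σ := by rw [hgN, hgB]; ring
    rw [this]; exact min_le_right _ _
  have pN : PM7 σ c W fN ≤ PM7 σ c W gN :=
    PM7_mono H hσ (fun z j => (b2 z j).1) (fun z j => (b2 z j).2) fun z j => min_le_right _ _
  have e0 : PM7 σ c W (fun z j => min (h z j) σ) =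
      PM7 σ c W fun z j => (fB z j + fN z j) + fL z j := by
    refine PM7_congr fun z j => ?_
    rw [hs z j]
    have e2 : hL z j + hB z j + hN z j = hB z j + hN z j + hL z j := by ring
    rw [e2, hfB, hfN, hfL]
    ring
  have e1 : PM7 σ c W (fun z j => fB z j + fN z j) = PM7 σ c W fun z j => gN z j + gB z j := by
    refine PM7_congr fun z j => ?_
    rw [hfB, hfN, hgN, hgB]
    have : hN z j + hB z j = hB z j + hN z j := add_comm _ _
    simp only [this]
    ring
  have d1 := PM7_drop H hσ (f := fun z j => fB z j + fN z j) (g := fL)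
    (fun z j => add_nonneg (b1 z j) (b2 z j).1) (fun z j => (b3 z j).1) s2
  have d2 := PM7_join H hσ (f := fB) (g := fN) b1 (fun z j => (b2 z j).1) s1
  have d3 := PM7_drop H hσ (f := fB) (g := fN) b1 (fun z j => (b2 z j).1) s1
  have d4 := PM7_drop H hσ (f := gN) (g := gB) b5 (fun z j => (b4 z j).1) s3
  rw [← e1] at d4
  have m1 : min (SS c fB) (SS c fN) ≤ min (SS c fB) (SS c gN) := min_le_min le_rfl sfN
  have k1 := mul_le_mul_of_nonneg_left m1 hσ.le
  have k2 := mul_le_mul_of_nonneg_left sfN hσ.le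
  have k3 := mul_le_mul_of_nonneg_left sfL hσ.le
  have k4 := mul_le_mul_of_nonneg_left sgB hσ.le
  rw [e0]
  refine ⟨by linarith, by linarith, by linarith⟩

/-- **the join of two families, truncated** : three forms -/
theorem join2 (H : TC c W) (hσ : 0 < σ) {f g : ζ → J → ℝ} (nf : ∀ z j, 0 ≤ f z j)
    (ng : ∀ z j, 0 ≤ g z j) :
    PM7 σ c W (fun z j => min (f z j + g z j) σ) ≤ PM7 σ c W (fun z j => min (f z j) σ) +
      PM7 σ c W (fun z j => min (g z j) σ) +
      14 * (σ * min (SS c fun z j => min (f z j) σ) (SS c fun z j => min (g z j) σ)) ∧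
    PM7 σ c W (fun z j => min (f z j + g z j) σ) ≤ PM7 σ c W (fun z j => min (f z j) σ) +
      14 * (σ * SS c fun z j => min (g z j) σ) ∧
    PM7 σ c W (fun z j => min (f z j + g z j) σ) ≤ PM7 σ c W (fun z j => min (g z j) σ) +
      14 * (σ * SS c fun z j => min (f z j) σ) := by
  have h := joins7 H hσ (hL := fun (_ : ζ) (_ : J) => (0 : ℝ)) (hB := f) (hN := g)
    (h := fun z j => f z j + g z j) (fun _ _ => le_rfl) nf ng fun z j => by ring
  have e : (SS c fun (_ : ζ) (_ : J) => min (0 : ℝ) σ) = 0 := by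
    unfold SS
    refine Finset.sum_eq_zero fun z _ => ?_
    have : (fun _ : J => min (0 : ℝ) σ) = fun _ => 0 := funext fun _ => min_eq_left hσ.le
    rw [this]
    simp [M]
  rw [e, mul_zero, mul_zero, add_zero, add_zero, add_zero] at h
  exact h

/-- truncation of a monotone family -/
lemma PM7_min_mono (H : TC c W) (hσ : 0 < σ) {f g : ζ → J → ℝ} (nf : ∀ z j, 0 ≤ f z j)
    (h : ∀ z j, f z j ≤ g z j) :
    PM7 σ c W (fun z j => min (f z j) σ) ≤ PM7 σ c W (fun z j => min (g z j) σ) :=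
  PM7_mono H hσ (fun z j => le_min (nf z j) hσ.le) (fun z j => min_le_min_right _ (h z j))
    fun z j => min_le_right _ _

/-- **losses of the truncations at all the scales** : `Σ 2^l (…) ≤ 4 (ab + ac + bc)` -/
theorem lamJ7 (c0 : ∀ j, 0 ≤ c j) {hL hB hN h : ζ → J → ℝ} (nL : ∀ z j, 0 ≤ hL z j)
    (nB : ∀ z j, 0 ≤ hB z j) (nN : ∀ z j, 0 ≤ hN z j)
    (hs : ∀ z j, h z j = hL z j + hB z j + hN z j) (n : ℕ) :
    ∑ l ∈ Finset.range n, (2 : ℝ) ^ l * ((SS c fun z j => min (hB z j) (2 ^ l)) +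
      (SS c fun z j => min (hN z j) (2 ^ l)) + (SS c fun z j => min (hL z j) (2 ^ l)) -
      SS c fun z j => min (h z j) (2 ^ l)) ≤
    SS c fun z j => 4 * (hL z j * hB z j + hL z j * hN z j + hB z j * hN z j) := by
  have e1 : ∀ l : ℕ, (2 : ℝ) ^ l * ((SS c fun z j => min (hB z j) (2 ^ l)) +
      (SS c fun z j => min (hN z j) (2 ^ l)) + (SS c fun z j => min (hL z j) (2 ^ l)) -
      SS c fun z j => min (h z j) (2 ^ l)) = ∑ z, ∑ j, c j * ((2 : ℝ) ^ l *
        (min (hL z j) (2 ^ l) + min (hB z j) (2 ^ l) + min (hN z j) (2 ^ l) -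
          min (hL z j + hB z j + hN z j) (2 ^ l))) := by
    intro l
    unfold SS M
    simp only [← Finset.sum_add_distrib, ← Finset.sum_sub_distrib, Finset.mul_sum]
    refine Finset.sum_congr rfl fun z _ => Finset.sum_congr rfl fun j _ => ?_
    rw [← hs z j]
    ring
  rw [Finset.sum_congr rfl fun l _ => e1 l, Finset.sum_comm]
  unfold SS M
  refine Finset.sum_le_sum fun z _ => ?_
  rw [Finset.sum_comm]
  refine Finset.sum_le_sum fun j _ => ?_
  rw [← Finset.mul_sum]
  exact mul_le_mul_of_nonneg_left (dy3 (nL z j) (nB z j) (nN z j) n) (c0 j)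

end Crest.Agent.R4P.PMj49
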