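import Crest.Agent.R4P.RXm_55
import Crest.Agent.R4P.PMj_49

/-!
R4 (S0004) with powers, T3 (heights > 1), helper55: **row systems with separated contents**, potentials,
joins and the column (continuation of `RXm_55`).
-/

set_option autoImplicit false
set_option linter.unusedSectionVars false
set_option linter.unusedVariables false
open MeasureTheory Filter Set

namespace Crest.Agent.R4P.RXm55

open Crest.Agent.R4.Tour104 Crest.Agent.R4.Clos758
open Crest.Agent.R4P.GMer27 Crest.Agent.R4P.GCol27 Crest.Agent.R4P.RSys343 Crest.Agent.R4P.TrR343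
open Crest.Agent.R4P.RXs343 Crest.Agent.R4P.MisR16 Crest.Agent.R4P.Mism16 Crest.Agent.R4P.PMs49
open Crest.Agent.R4P.PMj49 (PB_PM7 joins7 lamJ7)
open Crest.Agent.R4P.ModeP940 (PP SS SS_nonneg SS_add)
open Crest.Agent.R4P.RXj343.RX (sm2 q2)
open Crest.Agent.R4P.MSi343 (su)

section rx
variable {β δ : Type} [Fintype δ] {R : RXm β δ} {p : ℕ} {s : Gs β} {σ : ℝ}

namespace RXm

section pots
variable (hσ : 0 < σ)
include hσ

lemma PB_pot (H : TC s.c s.W) {f : β → δ → ℝ → ℝ} (hf : ∀ j z, PB (f (s.L j) z))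
    (h1 : ∀ j z x, f (s.L j) z x ≤ σ) : PB (pot σ s f) :=
  PB_PM7 H hσ (f := fun z j => f (s.L j) z) (fun z j => hf j z) fun z j x => h1 j z x

theorem PB_Pt (hs : R.gok p s) : PB (R.Pt σ p s) :=
  PB_pot hσ hs.1 (fun j z => PB_hk hσ hs j z) fun j z x => min_le_right _ _
theorem PB_PtB (hs : R.gok p s) (hp : p ≠ 0) : PB (R.PtB σ p s) :=
  PB_pot hσ hs.1 (fun j z => PB_hBk hσ hs hp j z) fun j z x => min_le_right _ _
theorem PB_PtP (hs : R.gok p s) (hp : p ≠ 0) : PB (R.PtP σ p s) :=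
  PB_pot hσ hs.1 (fun j z => PB_hPk hσ hs hp j z) fun j z x => min_le_right _ _
theorem PB_PtR (hs : R.gok p s) (hp : p ≠ 0) : PB (R.PtR σ p s) :=
  PB_pot hσ hs.1 (fun j z => PB_hNk hσ hs hp j z) fun j z x => min_le_right _ _
theorem PB_PR (hs : R.gok p s) (hp : p ≠ 0) : PB (R.PR σ p s) :=
  (PB_pot hσ hs.1 (fun j z => PB_vk hσ hs hp j z) fun j z x => v_le hσ hs hp j z x).add
    (((PB_e0 hσ hs hp).smul hσ.le).smul (by norm_num))

theorem born (hs : R.gok p s) (x : ℝ) : R.Pt σ p s x ≤ 14 * (σ * R.A σ p s x) :=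
  PM7_born hs.1 hσ (fun z j => (PB_hk hσ hs j z).nonneg x) fun z j => min_le_right _ _

theorem bR (hs : R.gok p s) (hp : p ≠ 0) (x : ℝ) :
    R.PR σ p s x ≤ 14 * (σ * R.vt σ p s x) := by
  have h1 : pot σ s (R.vk σ p) x ≤ 14 * (σ * sm2 s (R.vk σ p) x) :=
    PM7_born hs.1 hσ (fun z j => (PB_vk hσ hs hp j z).nonneg x) fun z j => v_le hσ hs hp j z x
  have h2 := v_tot hσ hs hp x
  unfold PR
  rw [← h2]
  linarith

/-- the potential of the ties, by the classes of the rows -/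
theorem PB1 (hs : R.gok p s) (hp : p ≠ 0) (x : ℝ) :
    R.PtP σ p s x ≤ R.PR σ p s x + 14 * (σ * (R.AP σ p s x - R.vt σ p s x)) := by
  have hle : ∀ j z, R.vk σ p (s.L j) z x ≤ R.hPk σ p (s.L j) z x := fun j z =>
    (so hσ hs hp j).le z x
  have h := PM7_drop hs.1 hσ (f := fun z j => R.vk σ p (s.L j) z x)
    (g := fun z j => R.hPk σ p (s.L j) z x - R.vk σ p (s.L j) z x)
    (fun z j => (PB_vk hσ hs hp j z).nonneg x) (fun z j => sub_nonneg.2 (hle j z)) fun z j => by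
      have e : R.vk σ p (s.L j) z x + (R.hPk σ p (s.L j) z x - R.vk σ p (s.L j) z x) =
        R.hPk σ p (s.L j) z x := by ring
      rw [e]
      exact min_le_right _ _
  have e : R.PtP σ p s x = PM7 σ s.c s.W fun z j =>
      R.vk σ p (s.L j) z x + (R.hPk σ p (s.L j) z x - R.vk σ p (s.L j) z x) :=
    PM7_congr fun z j => by ring
  have e2 : SS s.c (fun z j => R.hPk σ p (s.L j) z x - R.vk σ p (s.L j) z x) =
      R.AP σ p s x - sm2 s (R.vk σ p) x := by
    unfold AP sm2 SS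
    rw [← Finset.sum_sub_distrib]
    exact Finset.sum_congr rfl fun z _ => M_sub _ _
  have h2 := v_tot hσ hs hp x
  have h4 : R.AP σ p s x - sm2 s (R.vk σ p) x =
      (R.AP σ p s x - R.vt σ p s x) + R.e0 σ p s x := by linarith
  rw [e2, h4] at h
  rw [e]
  unfold PR
  show _ ≤ PM7 σ s.c s.W (fun z j => R.vk σ p (s.L j) z x) + _ + _
  linarith

theorem PB2 (hs : R.gok p s) (hp : p ≠ 0) (x : ℝ) :
    R.PtB σ p s x ≤ 14 * (σ * R.AB σ p s x) :=
  PM7_born hs.1 hσ (fun z j => (PB_hBk hσ hs hp j z).nonneg x) fun z j => min_le_right _ _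

/-! joins -/

theorem lam (hs : R.gok p s) (hp : p ≠ 0) (x : ℝ) :
    R.A σ p s x ≤ R.AB σ p s x + R.AR σ p s x + R.AL σ p s x := by
  unfold A AB AR AL
  rw [← sm2_add, ← sm2_add]
  refine sm2_mono hs.1 fun j z => ?_
  show min (R.h p (s.L j) z x) σ ≤ min (R.hB p (s.L j) z x) σ + min (R.hN p (s.L j) z x) σ +
    min (R.hL p (s.L j) z x) σ
  rw [R.sp (hs.2 j) hp z x]
  have h1 := (R.pL (hs.2 j) hp z).nonneg x
  have h2 := (R.pB (hs.2 j) hp z).nonneg x
  have h3 := (R.pN (hs.2 j) hp z).nonneg x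
  have t1 := tl_nonneg hσ.le h2 h3
  have t2 := tl_nonneg hσ.le (add_nonneg h2 h3) h1
  have e := tl3 σ (R.hB p (s.L j) z x) (R.hN p (s.L j) z x) (R.hL p (s.L j) z x)
  have e2 : R.hL p (s.L j) z x + R.hB p (s.L j) z x + R.hN p (s.L j) z x =
    R.hB p (s.L j) z x + R.hN p (s.L j) z x + R.hL p (s.L j) z x := by ring
  rw [e2]
  linarith

end pots

/-- **the losses at all scales** -/
theorem lamJ (hs : R.gok p s) (hp : p ≠ 0) (n : ℕ) (x : ℝ) :
    ∑ l ∈ Finset.range n, (2 : ℝ) ^ l * (R.AB (2 ^ l) p s x + R.AR (2 ^ l) p s x +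
      R.AL (2 ^ l) p s x - R.A (2 ^ l) p s x) ≤ R.jn p s x :=
  lamJ7 hs.1.c0 (hL := fun z j => R.hL p (s.L j) z x) (hB := fun z j => R.hB p (s.L j) z x)
    (hN := fun z j => R.hN p (s.L j) z x) (h := fun z j => R.h p (s.L j) z x)
    (fun z j => (R.pL (hs.2 j) hp z).nonneg x) (fun z j => (R.pB (hs.2 j) hp z).nonneg x)
    (fun z j => (R.pN (hs.2 j) hp z).nonneg x) (fun z j => R.sp (hs.2 j) hp z x) n

theorem PB_jn (hs : R.gok p s) (hp : p ≠ 0) : PB (R.jn p s) := by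
  refine PB_sm2 hs.1 fun j z => ?_
  have h1 := R.pL (hs.2 j) hp z
  have h2 := R.pB (hs.2 j) hp z
  have h3 := R.pN (hs.2 j) hp z
  exact (((h1.mul h2).add (h1.mul h3)).add (h2.mul h3)).smul (by norm_num)

/-- **the budget of the losses inside the rows** -/
theorem lsJ' (hs : R.gok p s) (hp : p ≠ 0) (n : ℕ) (x : ℝ) :
    ∑ l ∈ Finset.range n, (2 : ℝ) ^ l * R.ls (2 ^ l) p s x ≤ R.jb0 p s x := by
  have e : ∑ l ∈ Finset.range n, (2 : ℝ) ^ l * R.ls (2 ^ l) p s x =
      M s.c fun j => ∑ l ∈ Finset.range n, (2 : ℝ) ^ l * (R.sd (2 ^ l) p (s.L j)).ls x := by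
    unfold ls su M
    simp only [Finset.mul_sum]
    rw [Finset.sum_comm]
    exact Finset.sum_congr rfl fun j _ => Finset.sum_congr rfl fun l _ => by ring
  rw [e]
  exact M_mono hs.1.c0 fun j => R.lsJ (hs.2 j) hp n x

section jo
variable (hσ : 0 < σ)
include hσ

/-- **the joins at a scale**, three forms -/
theorem joins (hs : R.gok p s) (hp : p ≠ 0) (x : ℝ) :
    R.Pt σ p s x ≤ R.PtB σ p s x + R.PtR σ p s x +
      14 * (σ * min (R.AB σ p s x) (R.AR σ p s x)) + 14 * (σ * R.AL σ p s x) ∧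
    R.Pt σ p s x ≤ R.PtB σ p s x + 14 * (σ * (R.AR σ p s x + R.AL σ p s x)) ∧
    R.Pt σ p s x ≤ R.PtR σ p s x + 14 * (σ * (R.AB σ p s x + R.AL σ p s x)) :=
  joins7 hs.1 hσ (hL := fun z j => R.hL p (s.L j) z x) (hB := fun z j => R.hB p (s.L j) z x)
    (hN := fun z j => R.hN p (s.L j) z x) (h := fun z j => R.h p (s.L j) z x)
    (fun z j => (R.pL (hs.2 j) hp z).nonneg x) (fun z j => (R.pB (hs.2 j) hp z).nonneg x)
    (fun z j => (R.pN (hs.2 j) hp z).nonneg x) fun z j => R.sp (hs.2 j) hp z x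

/-! the column -/

lemma PB_gXM (hs : R.gok p s) (hp : p ≠ 0) (z : δ) :
    PB fun x => M s.c fun j => (R.sd σ p (s.L j)).gX z x :=
  PB_M hs.1.c0 (f := fun x j => (R.sd σ p (s.L j)).gX z x) fun j => (so hσ hs hp j).pgX z

theorem col (hs : R.gok p s) (hp : p ≠ 0) (hg : R.grp p s) (y : ℝ) :
    Ep p (fun x => R.cS σ p s x + R.PR σ p s x) y ≤
      R.Pt σ p (R.C p s) y + Ep p (R.ex σ p s) y := by
  obtain ⟨F, hτ⟩ := hg
  have hp0 : 0 < p := Nat.pos_of_ne_zero hp
  have hp' : (0 : ℝ) < p := by exact_mod_cast hp0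
  have hC := gok_C hs hp
  have pE : ∀ z, PB (Ep p fun x => M s.c fun j => (R.sd σ p (s.L j)).gX z x) := fun z =>
    (PB_gXM hσ hs hp z).Ep hp0
  have hx : ∀ i : ℕ, (p:ℝ) * ((y + i) / p) = y + i := fun i => by field_simp
  have eE : ∀ f : ℝ → ℝ, Ep p f y = ∑ i : Fin p, (1 / (p:ℝ)) * f ((y + (i:ℕ)) / p) := by
    intro f
    unfold Ep
    rw [Finset.sum_range, Finset.sum_div]
    exact Finset.sum_congr rfl fun i _ => by ring
  have u1 : ∑ _i : Fin p, 1 / (p : ℝ) = 1 := by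
    rw [Finset.sum_const, Finset.card_univ, Fintype.card_fin, nsmul_eq_mul]
    field_simp
  -- the error
  have e2 : Ep p (R.ex σ p s) y =
      1 / 7 * ∑ z, (Ep p (fun x => M s.c fun j => (R.sd σ p (s.L j)).gX z x) y) ^ 2 +
        Ep p (fun x => 14 * (σ * R.e0 σ p s x)) y := by
    rw [eE (R.ex σ p s), eE (fun x => 14 * (σ * R.e0 σ p s x))]
    have e3 : ∀ i : Fin p, (1 / (p:ℝ)) * R.ex σ p s ((y + (i:ℕ)) / p) =
        (1 / (p:ℝ)) * (1 / 7 * ∑ z, (Ep p (fun x => M s.c fun j =>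
          (R.sd σ p (s.L j)).gX z x) y) ^ 2) +
        1 / (p : ℝ) * (14 * (σ * R.e0 σ p s ((y + (i:ℕ)) / p))) := by
      intro i
      unfold ex
      rw [Finset.sum_congr rfl fun z _ => by rw [hx i, (pE z).per_nat]]
      ring
    rw [Finset.sum_congr rfl fun i _ => e3 i, Finset.sum_add_distrib, ← Finset.sum_mul, u1, one_mul]
  have eAdd : Ep p (fun x => R.cS σ p s x + R.PR σ p s x) y =
      Ep p (fun x => R.cS σ p s x + pot σ s (R.vk σ p) x) y +
        Ep p (fun x => 14 * (σ * R.e0 σ p s x)) y := by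
    rw [eE, eE, eE, ← Finset.sum_add_distrib]
    refine Finset.sum_congr rfl fun i _ => ?_
    unfold PR
    ring
  rw [eAdd, e2]
  suffices hmain : Ep p (fun x => R.cS σ p s x + pot σ s (R.vk σ p) x) y ≤
      R.Pt σ p (R.C p s) y +
        1 / 7 * ∑ z, (Ep p (fun x => M s.c fun j => (R.sd σ p (s.L j)).gX z x) y) ^ 2 by
    linarith
  by_cases h2 : 2 ≤ p
  · rw [C_pos R h2] at hC ⊢
    have hh0 : ∀ (z : δ) (x : s.J × Bool),
        0 ≤ R.hk σ p (if x.2 = true then R.cP p (s.L x.1) else R.cN p (s.L x.1)) z y :=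
      fun z x => (PB_minc hσ.le (R.ph (hC.2 x) z)).nonneg y
    have hCol : ∀ z, Col (1 - 1 / (p : ℝ))
        (fun x : s.J × Bool =>
          R.hk σ p (if x.2 = true then R.cP p (s.L x.1) else R.cN p (s.L x.1)) z y)
        (fun _ : Fin p => 1 / (p : ℝ)) (fun i j => (R.sd σ p (s.L j)).bX z y +
          (R.sd σ p (s.L j)).gX z ((y + (i : ℕ)) / p)) := by
      intro z
      refine ⟨fun i => by positivity, u1, fun j => ?_⟩
      obtain ⟨a, Δ, h1, h2, h3, h4, h5⟩ := (so hσ hs hp j).row z y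
      refine ⟨a, Δ, h1, by rw [h2]; ring, h3, by simpa [hk] using h4, fun i => ?_⟩
      rw [h5 i]
      unfold av hk
      simp
      ring
    have bXper : ∀ (j : s.J) (z : δ) (i : Fin p),
        (R.sd σ p (s.L j)).bX z ((p:ℝ) * ((y + (i:ℕ)) / p)) = (R.sd σ p (s.L j)).bX z y :=
      fun j z i => by rw [hx i, ((so hσ hs hp j).pbX z).per_nat]
    have key := PM7_col hs.1 (RS.q_bd h2) hσ
      (h := fun z (x : s.J × Bool) =>
        R.hk σ p (if x.2 = true then R.cP p (s.L x.1) else R.cN p (s.L x.1)) z y)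
      (X := fun (i : Fin p) z j => (R.sd σ p (s.L j)).bX z y +
          (R.sd σ p (s.L j)).gX z ((y + (i : ℕ)) / p))
      (mn := fun (i : Fin p) z j => (R.sd σ p (s.L j)).vm z ((y + (i : ℕ)) / p))
      (sp := fun (i : Fin p) z j => (R.sd σ p (s.L j)).vs z ((y + (i : ℕ)) / p))
      (e := fun (i : Fin p) z j => 0)
      (Y := fun (i : Fin p) z j => R.vk σ p (s.L j) z ((y + (i : ℕ)) / p))
      (gE := fun (i : Fin p) z j => (R.sd σ p (s.L j)).gE z ((y + (i : ℕ)) / p))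
      hh0 (fun z x => min_le_right _ _) (u := fun _ : Fin p => 1 / (p : ℝ))
      (fun _ => by positivity) u1 hCol
      (g := fun i z => M s.c fun j => (R.sd σ p (s.L j)).gX z ((y + (i : ℕ)) / p))
      (β := fun z => M s.c fun j => (R.sd σ p (s.L j)).bX z y)
      (fun i z => M_add _ _)
      (fun i z j => by unfold vk; ring)
      (fun i z j => ((so hσ hs hp j).pvm z).nonneg _)
      (fun i z j => ((so hσ hs hp j).pvs z).nonneg _) (fun i z j => le_rfl)
      (fun i z j => by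
        have := (so hσ hs hp j).mnX z ((y + (i : ℕ)) / p)
        rwa [bXper j z i] at this)
      (fun i z => by
        by_cases hF : F z
        · exact Or.inl fun j => R.sF (hs.2 j) hp (hτ j) hσ z hF _
        · exact Or.inr fun j => R.sN (hs.2 j) hp (hτ j) hσ z hF _)
      (fun i z j => v_le hσ hs hp j z _)
      (fun i z j => ((so hσ hs hp j).pgE z).nonneg _)
      (fun i z j => (so hσ hs hp j).gE1 z _)
      (fun j => by
        refine ((so hσ hs hp j).en h2 y).trans (le_of_eq ?_)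
        refine Finset.sum_congr rfl fun z _ => ?_
        simp [av, hk]
        ring)
    have e0 : 14 * (σ * ∑ _i : Fin p, 1 / (p:ℝ) * SS s.c (fun (z : δ) (j : s.J) => (0:ℝ))) = 0 := by
      have : SS s.c (fun (z : δ) (j : s.J) => (0:ℝ)) = 0 := by
        unfold SS
        refine Finset.sum_eq_zero fun z _ => ?_
        simp [M]
      rw [this]
      simp
    rw [e0, add_zero] at key
    have e6 : ∑ z, (∑ i : Fin p, 1 / (p : ℝ) *
        (M s.c fun j => (R.sd σ p (s.L j)).gX z ((y + (i : ℕ)) / p))) ^ 2 =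
        ∑ z, (Ep p (fun x => M s.c fun j => (R.sd σ p (s.L j)).gX z x) y) ^ 2 :=
      Finset.sum_congr rfl fun z _ => by
        rw [eE (fun x => M s.c fun j => (R.sd σ p (s.L j)).gX z x)]
    rw [e6] at key
    have e1 : Ep p (fun x => R.cS σ p s x + pot σ s (R.vk σ p) x) y ≤
        ∑ i : Fin p, 1 / (p : ℝ) * ((∑ z, (M s.c fun j =>
          (R.sd σ p (s.L j)).gX z ((y + (i : ℕ)) / p)) ^ 2) / 8 +
          (∑ z, (M s.c fun j => (R.sd σ p (s.L j)).gE z ((y + (i : ℕ)) / p)) ^ 2) / 6 +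
          PM7 σ s.c s.W fun z j => R.vk σ p (s.L j) z ((y + (i : ℕ)) / p)) := by
      rw [eE]
      refine Finset.sum_le_sum fun i _ => ?_
      refine mul_le_mul_of_nonneg_left ?_ (by positivity)
      refine add_le_add ?_ le_rfl
      unfold cS q2
      rw [Finset.mul_sum, Finset.sum_div, Finset.sum_div, ← Finset.sum_add_distrib]
      refine Finset.sum_le_sum fun z _ => ?_
      set x := (y + ((i : ℕ) : ℝ)) / p
      have h5 : M s.c (fun j => R.sgk σ p (s.L j) z x) ≤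
          M s.c (fun j => (R.sd σ p (s.L j)).gX z x) + M s.c fun j => (R.sd σ p (s.L j)).gE z x := by
        rw [← M_add]
        exact M_mono hs.1.c0 fun j => (so hσ hs hp j).sgX z x
      have h6 : 0 ≤ M s.c (fun j => R.sgk σ p (s.L j) z x) :=
        M_nonneg hs.1.c0 fun j => ((so hσ hs hp j).psg z).nonneg x
      set a := M s.c (fun j => (R.sd σ p (s.L j)).gX z x)
      set b := M s.c (fun j => (R.sd σ p (s.L j)).gE z x)
      have h7 := pow_le_pow_left₀ h6 h5 2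
      nlinarith [sq_nonneg (3 * a - 4 * b)]
    have e8 : 0 ≤ ∑ z, (Ep p (fun x => M s.c fun j => (R.sd σ p (s.L j)).gX z x) y) ^ 2 :=
      Finset.sum_nonneg fun z _ => sq_nonneg _
    have e7 : R.Pt σ p ⟨s.J × Bool, inferInstance, cT (1 - 1 / (p : ℝ)) s.c,
        WT (1 - 1 / (p : ℝ)) s.W, fun x => if x.2 then R.cP p (s.L x.1) else R.cN p (s.L x.1)⟩ y =
        PM7 σ (cT (1 - 1 / (p : ℝ)) s.c) (WT (1 - 1 / (p : ℝ)) s.W) (fun z (x : s.J × Bool) =>
        R.hk σ p (if x.2 = true then R.cP p (s.L x.1) else R.cN p (s.L x.1)) z y) := rfl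
    rw [e7]
    linarith
  · -- p = 1 : nothing
    have hp1 : p = 1 := by omega
    subst hp1
    have hh : ∀ (j : s.J) z y', R.hk σ 1 (R.cP 1 (s.L j)) z y' = 0 ∧
        R.hk σ 1 (R.cN 1 (s.L j)) z y' = 0 := by
      intro j z y'
      have h := R.no1 (hs.2 j) z y'
      exact ⟨by unfold hk; rw [h.1, min_eq_left hσ.le], by unfold hk; rw [h.2, min_eq_left hσ.le]⟩
    have hG : ∀ (j : s.J) x, (R.sd σ 1 (s.L j)).be x = 0 ∧ (R.sd σ 1 (s.L j)).G x = 0 := by
      intro j x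
      have S := so hσ hs hp j
      have h1 := S.mean x
      have e : Ep 1 (R.sd σ 1 (s.L j)).G x = (R.sd σ 1 (s.L j)).G x := by
        unfold Ep
        simp
      have e3 : ∑ z, ((1 - 1 / ((1:ℕ) : ℝ)) * min (R.h 1 (R.cP 1 (s.L j)) z x) σ +
          1 / ((1:ℕ) : ℝ) * min (R.h 1 (R.cN 1 (s.L j)) z x) σ) = 0 := by
        refine Finset.sum_eq_zero fun z _ => ?_
        have := (hh j z x).1
        have := (hh j z x).2
        unfold hk at *
        rw [‹min (R.h 1 (R.cP 1 (s.L j)) z x) σ = 0›, ‹min (R.h 1 (R.cN 1 (s.L j)) z x) σ = 0›]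
        ring
      rw [e, e3] at h1
      have h2 := S.pbe.nonneg x
      have h3 := S.pG.nonneg x
      exact ⟨by linarith, by linarith⟩
    have hv0 : ∀ (j : s.J) z x, R.vk σ 1 (s.L j) z x = 0 ∧ (R.sd σ 1 (s.L j)).sg z x = 0 := by
      intro j z x
      have S := so hσ hs hp j
      have h1 := S.tot x
      rw [(hG j _).1, (hG j _).2, add_zero] at h1
      have h2 := S.pe.nonneg x
      have h3 : ∀ z, 0 ≤ (R.sd σ 1 (s.L j)).vm z x + (R.sd σ 1 (s.L j)).vs z x := fun z =>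
        add_nonneg ((S.pvm z).nonneg x) ((S.pvs z).nonneg x)
      have h4 : ∑ z, ((R.sd σ 1 (s.L j)).vm z x + (R.sd σ 1 (s.L j)).vs z x) = 0 :=
        le_antisymm (by linarith) (Finset.sum_nonneg fun z _ => h3 z)
      have h5 := (Finset.sum_eq_zero_iff_of_nonneg fun z _ => h3 z).1 h4 z (Finset.mem_univ z)
      have h6 := S.sgG x
      rw [(hG j x).2] at h6
      have h7 : ∀ z, 0 ≤ (R.sd σ 1 (s.L j)).sg z x := fun z => (S.psg z).nonneg x
      have h8 : ∑ z, (R.sd σ 1 (s.L j)).sg z x = 0 :=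
        le_antisymm h6 (Finset.sum_nonneg fun z _ => h7 z)
      exact ⟨h5, (Finset.sum_eq_zero_iff_of_nonneg fun z _ => h7 z).1 h8 z (Finset.mem_univ z)⟩
    have e1 : ∀ x, R.cS σ 1 s x + pot σ s (R.vk σ 1) x ≤ 0 := by
      intro x
      have h1 : R.cS σ 1 s x = 0 := by
        unfold cS q2 sgk
        have : ∑ z, M s.c (fun j => (R.sd σ 1 (s.L j)).sg z x) ^ 2 = 0 := by
          refine Finset.sum_eq_zero fun z _ => ?_
          simp only [(hv0 _ z x).2]
          rw [M_const hs.1.c1]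
          norm_num
        rw [this]; ring
      have h2 : pot σ s (R.vk σ 1) x ≤ 14 * (σ * sm2 s (R.vk σ 1) x) :=
        PM7_born hs.1 hσ (fun z j => (PB_vk hσ hs hp j z).nonneg x) fun z j => v_le hσ hs hp j z x
      have h3 : sm2 s (R.vk σ 1) x = 0 := by
        unfold sm2 SS
        refine Finset.sum_eq_zero fun z _ => ?_
        simp only [(hv0 _ z x).1]
        rw [M_const hs.1.c1]
      rw [h3] at h2
      rw [h1]
      linarith
    have e9 : Ep 1 (fun x => R.cS σ 1 s x + pot σ s (R.vk σ 1) x) y ≤ 0 := by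
      unfold Ep
      refine div_nonpos_of_nonpos_of_nonneg (Finset.sum_nonpos fun i _ => e1 _) (by norm_num)
    have q1 := (PB_Pt hσ hC).nonneg y
    have q2 : 0 ≤ 1 / 7 * ∑ z, (Ep 1 (fun x => M s.c fun j =>
        (R.sd σ 1 (s.L j)).gX z x) y) ^ 2 :=
      mul_nonneg (by norm_num) (Finset.sum_nonneg fun z _ => sq_nonneg _)
    linarith

theorem PB_ex (hs : R.gok p s) (hp : p ≠ 0) : PB (R.ex σ p s) := by
  have hp0 : 0 < p := Nat.pos_of_ne_zero hp
  refine (PB.smul (PB.sum _ fun z _ => PBsq ?_) (by norm_num)).add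
    (((PB_e0 hσ hs hp).smul hσ.le).smul (by norm_num))
  exact ((PB_gXM hσ hs hp z).Ep hp0).pull p

/-- the column error is second order plus the births -/
theorem ex_le (hs : R.gok p s) (hp : p ≠ 0) (y : ℝ) :
    Ep p (R.ex σ p s) y ≤ 1 / 7 * (Ep p (R.GT p s) y) ^ 2 +
      14 * (σ * Ep p (R.e0 σ p s) y) := by
  have hp0 : 0 < p := Nat.pos_of_ne_zero hp
  have hp' : (0 : ℝ) < p := by exact_mod_cast hp0
  have pM := PB_gXM hσ hs hp
  have pE : ∀ z, PB (Ep p fun x => M s.c fun j => (R.sd σ p (s.L j)).gX z x) :=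
    fun z => (pM z).Ep hp0
  have e1 : Ep p (R.ex σ p s) y =
      1 / 7 * ∑ z, (Ep p (fun x => M s.c fun j => (R.sd σ p (s.L j)).gX z x) y) ^ 2 +
        14 * (σ * Ep p (R.e0 σ p s) y) := by
    unfold Ep
    have e5 : ∀ i ∈ Finset.range p, R.ex σ p s ((y + (i : ℝ)) / p) =
        1 / 7 * ∑ z, Ep p (fun x => M s.c fun j => (R.sd σ p (s.L j)).gX z x) y ^ 2 +
          14 * (σ * R.e0 σ p s ((y + (i : ℝ)) / p)) := fun i _ => by
      unfold ex
      have hx : (p:ℝ) * ((y + i) / p) = y + i := by field_simp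
      rw [Finset.sum_congr rfl fun z _ => by rw [hx, (pE z).per_nat]]
    rw [Finset.sum_congr rfl e5, Finset.sum_add_distrib, Finset.sum_const, Finset.card_range,
      nsmul_eq_mul, ← Finset.mul_sum, ← Finset.mul_sum]
    unfold Ep
    field_simp
  rw [e1]
  refine add_le_add (mul_le_mul_of_nonneg_left ?_ (by norm_num)) le_rfl
  refine (PN36.sum_sq_le _ _ fun z _ => (pE z).nonneg y).trans ?_
  refine pow_le_pow_left₀ (Finset.sum_nonneg fun z _ => (pE z).nonneg y) ?_ 2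
  have e3 : ∑ z, Ep p (fun x => M s.c fun j => (R.sd σ p (s.L j)).gX z x) y =
      Ep p (fun x => ∑ z, M s.c fun j => (R.sd σ p (s.L j)).gX z x) y := by
    rw [Crest.Agent.R4P.Grp36.Ep_sum']
  rw [e3]
  unfold Ep
  refine div_le_div_of_nonneg_right (Finset.sum_le_sum fun i _ => ?_) hp'.le
  show ∑ z, M s.c (fun j => (R.sd σ p (s.L j)).gX z ((y + (i : ℝ)) / p)) ≤
    M s.c fun j => R.gT p (s.L j) ((y + (i : ℝ)) / p)
  rw [← M_sum]
  exact M_mono hs.1.c0 fun j => (so hσ hs hp j).gXT _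

end jo

end RXm

end rx

end Crest.Agent.R4P.RXm55
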