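import Crest.Agent.R4P.Bp_407
import Crest.Agent.R4P.DTr_407
import Crest.Agent.R4P.RXn_55

/-!
R4 (S0004) with powers, T3, helper407: **the DT level of the marked game**, part 1: typing data, contents.

* `TD μ Λ κ ζ` : typing data: memory `μ` (`tu` = update at a tie), types of the pieces `tp p m x j`
  (`none` = outside the game), special points, active classes, fresh classes.
* `TYp wr D Inv` : the properties used by the game.
* bundles `b = (m, L)`; contents `cP cN rN h hL hN hB hP`; piece level `cz` (real class, type),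
  `cz_jv` : the explicit form of the contents above a tie;
* `sp`, `sum_hP`, `PB_*`, totals `bT gT`, `dT mT`, outside contents `u uL uN bU gU`, `us um`.
-/

set_option autoImplicit false
set_option linter.unusedSectionVars false
set_option linter.unusedVariables false
open MeasureTheory Filter Set

namespace Crest.Agent.R4P.DTm407

open Crest.Agent.R4.Tour104 Crest.Agent.R4.Tour758 Crest.Agent.R4.Clos758 Crest.Agent.R4.ClosL758
open Crest.Agent.R4P.Grp36 Crest.Agent.R4P.GWa343 Crest.Agent.R4P.GWb343 Crest.Agent.R4P.GWc343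
open Crest.Agent.R4P.GWd343 Crest.Agent.R4P.GMer27 Crest.Agent.R4P.GCol27 Crest.Agent.R4P.TrR343
open Crest.Agent.R4P.DTp26 Crest.Agent.R4P.VR407 Crest.Agent.R4P.Bp407 Crest.Agent.R4P.MSd343
open Crest.Agent.R4P.Walk560 (DT)

/-! ### contents of pairs (real class, type) -/

section cz
variable {Λ κ ω : Type} [Fintype Λ] [DecidableEq Λ] [Fintype κ] [DecidableEq κ]
  [Fintype ω] [DecidableEq ω]

/-- content of the real class `c` and of the type `z` -/
noncomputable def cz (kd : Λ → κ) (o : ℝ → Λ → ω) (f : Λ → ℝ → ℝ) (c : κ) (z : ω) (x : ℝ) : ℝ :=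
  hz (fun x j => (kd j, o x j)) f (c, z) x

lemma cz_eq (kd : Λ → κ) (o : ℝ → Λ → ω) (f : Λ → ℝ → ℝ) (c : κ) (z : ω) (x : ℝ) :
    cz kd o f c z x = ∑ j, if kd j = c ∧ o x j = z then f j x else 0 := by
  classical
  unfold cz
  rw [hz_eq]
  refine Finset.sum_congr rfl fun j _ => ?_
  simp only [Prod.mk.injEq]

lemma sm_eq (kd : Λ → κ) (f : Λ → ℝ → ℝ) (c : κ) (x : ℝ) :
    sm kd f c x = ∑ j, if kd j = c then f j x else 0 := by
  unfold sm
  rw [← Finset.sum_filter]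

lemma sum_cz (kd : Λ → κ) (o : ℝ → Λ → ω) (f : Λ → ℝ → ℝ) (c : κ) (x : ℝ) :
    ∑ z, cz kd o f c z x = sm kd f c x := by
  simp only [cz_eq]
  rw [Finset.sum_comm, sm_eq]
  refine Finset.sum_congr rfl fun j _ => ?_
  by_cases h : kd j = c
  · simp [h]
  · simp [h]

lemma sum_cz' (kd : Λ → κ) (o : ℝ → Λ → ω) (f : Λ → ℝ → ℝ) (z : ω) (x : ℝ) :
    ∑ c, cz kd o f c z x = hz o f z x := by
  classical
  simp only [cz_eq]
  rw [Finset.sum_comm, hz_eq]
  refine Finset.sum_congr rfl fun j _ => ?_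
  by_cases h : o x j = z
  · simp [h]
  · simp [h]

lemma PB_cz {kd : Λ → κ} {o : ℝ → Λ → ω} {f : Λ → ℝ → ℝ} (ho : ∀ j, MP fun x => o x j)
    (hf : ∀ j, PB (f j)) (c : κ) (z : ω) : PB (cz kd o f c z) :=
  PB_hz (fun j => (MP.const (kd j)).prod (ho j)) hf (c, z)

lemma cz_nonneg {kd : Λ → κ} {o : ℝ → Λ → ω} {f : Λ → ℝ → ℝ} {x : ℝ} (hf : ∀ j, 0 ≤ f j x)
    (c : κ) (z : ω) : 0 ≤ cz kd o f c z x := hz_nonneg hf (c, z)

lemma cz_le_sm {kd : Λ → κ} {o : ℝ → Λ → ω} {f : Λ → ℝ → ℝ} {x : ℝ} (hf : ∀ j, 0 ≤ f j x)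
    (c : κ) (z : ω) : cz kd o f c z x ≤ sm kd f c x := by
  rw [← sum_cz kd o f c x]
  exact Finset.single_le_sum (f := fun z => cz kd o f c z x) (fun z _ => cz_nonneg hf c z)
    (Finset.mem_univ z)

lemma sm_nonneg {kd : Λ → κ} {f : Λ → ℝ → ℝ} {x : ℝ} (hf : ∀ j, 0 ≤ f j x) (c : κ) :
    0 ≤ sm kd f c x := Finset.sum_nonneg fun j _ => hf j

/-- the value at the point only -/
lemma cz_congr {kd : Λ → κ} {o o' : ℝ → Λ → ω} {f f' : Λ → ℝ → ℝ} {c : κ} {z : ω} {x x' : ℝ}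
    (ho : ∀ j, o x j = o' x' j) (hf : ∀ j, f j x = f' j x') :
    cz kd o f c z x = cz kd o' f' c z x' := by
  rw [cz_eq, cz_eq]
  exact Finset.sum_congr rfl fun j _ => by rw [ho, hf]

/-- the lifts of the contents -/
lemma Ep_cz {p : ℕ} (kd : Λ → κ) (o : ℝ → Λ → ω) {b g : Λ → ℝ → ℝ} (h : ∀ j, Lift p (b j) (g j))
    (hp : 0 < p) (ho : ∀ j, MP fun x => o x j) (c : κ) (z : ω) (y : ℝ) :
    Ep p (cz kd (fun x => o (p * x)) g c z) y = 1 / (p : ℝ) * cz kd o b c z y := by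
  have hp' : (p : ℝ) ≠ 0 := by exact_mod_cast hp.ne'
  unfold Ep
  have e : ∀ i ∈ Finset.range p, cz kd (fun x => o (p * x)) g c z ((y + (i : ℝ)) / p) =
      ∑ j, if kd j = c ∧ o y j = z then g j ((y + (i : ℝ)) / p) else 0 := by
    intro i _
    rw [cz_eq]
    refine Finset.sum_congr rfl fun j _ => ?_
    have e1 : (p : ℝ) * ((y + (i : ℝ)) / p) = y + i := by field_simp
    rw [e1, (ho j).per_nat]
  rw [Finset.sum_congr rfl e, Finset.sum_comm, cz_eq, Finset.mul_sum, Finset.sum_div]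
  refine Finset.sum_congr rfl fun j _ => ?_
  split_ifs with hj
  · rw [h j y]; ring
  · simp

/-! ### the explicit form -/

variable {kd : Λ → κ} {p : ℕ} {K : List (DT Λ κ)}

/-- class totals -/
noncomputable def SA (kd : Λ → κ) (K : List (DT Λ κ)) (c : κ) (y : ℝ) : ℝ := sm kd (pA K) c y
noncomputable def SB (kd : Λ → κ) (K : List (DT Λ κ)) (c : κ) (y : ℝ) : ℝ := sm kd (pB K) c y
noncomputable def SG (kd : Λ → κ) (K : List (DT Λ κ)) (c : κ) (x : ℝ) : ℝ := sm kd (pG K) c x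
/-- matched fractions of the class `c` at `y` -/
noncomputable def al (kd : Λ → κ) (K : List (DT Λ κ)) (c : κ) (y : ℝ) : ℝ :=
  alf (SA kd K c y) (SB kd K c y)
noncomputable def bf (kd : Λ → κ) (K : List (DT Λ κ)) (c : κ) (y : ℝ) : ℝ :=
  bef (SA kd K c y) (SB kd K c y)

lemma PB_SA (h : KOk kd p K) (c : κ) : PB (SA kd K c) := PB_sm h.PA kd c
lemma PB_SB (h : KOk kd p K) (c : κ) : PB (SB kd K c) := PB_sm h.PBb kd c
lemma PB_SG (K : List (DT Λ κ)) (c : κ) : PB (SG kd K c) := PB_sm (PB_pG K) kd c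

lemma SA0 (h : KOk kd p K) (c : κ) (y : ℝ) : 0 ≤ SA kd K c y := (PB_SA h c).nonneg y
lemma SB0 (h : KOk kd p K) (c : κ) (y : ℝ) : 0 ≤ SB kd K c y := (PB_SB h c).nonneg y
lemma SG0 (K : List (DT Λ κ)) (c : κ) (y : ℝ) : 0 ≤ SG kd K c y := (PB_SG K c).nonneg y

lemma al_mul (h : KOk kd p K) (c : κ) (y : ℝ) :
    al kd K c y * SA kd K c y = min (SA kd K c y) (SB kd K c y) := alf_mul (SA0 h c y) (SB0 h c y)
lemma bf_mul (h : KOk kd p K) (c : κ) (y : ℝ) :
    bf kd K c y * SB kd K c y = min (SA kd K c y) (SB kd K c y) := bef_mul (SA0 h c y) (SB0 h c y)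
lemma al0 (h : KOk kd p K) (c : κ) (y : ℝ) : 0 ≤ al kd K c y := alf_nonneg (SA0 h c y) (SB0 h c y)
lemma bf0 (h : KOk kd p K) (c : κ) (y : ℝ) : 0 ≤ bf kd K c y := bef_nonneg (SA0 h c y) (SB0 h c y)
lemma al1 (h : KOk kd p K) (c : κ) (y : ℝ) : al kd K c y ≤ 1 := alf_le_one (SA0 h c y)
lemma bf1 (h : KOk kd p K) (c : κ) (y : ℝ) : bf kd K c y ≤ 1 := bef_le_one (SB0 h c y)

lemma bf_of_A (h : KOk kd p K) {c : κ} {y : ℝ} (hA : SA kd K c y = 0) : bf kd K c y = 0 := by
  unfold bf bef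
  rw [hA, min_eq_left (SB0 h c y), zero_div]
lemma al_of_A {c : κ} {y : ℝ} (hA : SA kd K c y = 0) : al kd K c y = 0 := by
  unfold al alf
  rw [hA, div_zero]
lemma bf_of_B {c : κ} {y : ℝ} (hB : SB kd K c y = 0) : bf kd K c y = 0 := by
  unfold bf bef
  rw [hB, div_zero]
lemma al_of_B (h : KOk kd p K) {c : κ} {y : ℝ} (hB : SB kd K c y = 0) : al kd K c y = 0 := by
  unfold al alf
  rw [hB, min_eq_right (SA0 h c y), zero_div]

lemma PB_al (h : KOk kd p K) (c : κ) : PB (al kd K c) := by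
  refine ⟨((PB_SA h c).meas.min (PB_SB h c).meas).div (PB_SA h c).meas, fun y => al0 h c y,
    ⟨1, fun y => al1 h c y⟩, fun y => ?_⟩
  unfold al
  rw [(PB_SA h c).per, (PB_SB h c).per]

lemma PB_bf (h : KOk kd p K) (c : κ) : PB (bf kd K c) := by
  refine ⟨((PB_SA h c).meas.min (PB_SB h c).meas).div (PB_SB h c).meas, fun y => bf0 h c y,
    ⟨1, fun y => bf1 h c y⟩, fun y => ?_⟩
  unfold bf
  rw [(PB_SA h c).per, (PB_SB h c).per]

lemma PB_th (h : KOk kd p K) (c : κ) : PB fun y => 1 - bf kd K c y := by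
  refine ⟨measurable_const.sub (PB_bf h c).meas, fun y => sub_nonneg.2 (bf1 h c y),
    ⟨1, fun y => by linarith [bf0 h c y]⟩, fun y => ?_⟩
  show 1 - bf kd K c (y + 1) = 1 - bf kd K c y
  rw [(PB_bf h c).per]

/-- the lifts of a class are below the content -/
lemma SG_le (h : KOk kd p K) (hp : 0 < p) (c : κ) (x : ℝ) : SG kd K c x ≤ SB kd K c (p * x) := by
  unfold SG SB sm
  refine Finset.sum_le_sum fun j _ => ?_
  exact lift_le hp (PB_pG K j).nonneg (lift_pG h j) x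

/-- **the explicit form** : class `c`, type `z` -/
theorem cz_jv {ω : Type} [Fintype ω] [DecidableEq ω] (h : KOk kd p K) (o : ℝ → Λ → ω) (c : κ)
    (z : ω) (x : ℝ) : cz kd (fun x => o (p * x)) (jv K) c z x =
      (1 - 1 / (p : ℝ)) * cz kd o (pA K) c z (p * x) +
      1 / (p : ℝ) * (al kd K c (p * x) * cz kd o (pA K) c z (p * x)) +
      cz kd o (pQ K) c z (p * x) + cz kd (fun x => o (p * x)) (pG K) c z x -
      cz kd o (pA K) c z (p * x) / SA kd K c (p * x) * bf kd K c (p * x) * SG kd K c x := by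
  simp only [cz_eq]
  rw [Finset.mul_sum, Finset.mul_sum, Finset.mul_sum, Finset.sum_div, Finset.sum_mul,
    Finset.sum_mul, ← Finset.sum_add_distrib, ← Finset.sum_add_distrib, ← Finset.sum_add_distrib,
    ← Finset.sum_sub_distrib]
  refine Finset.sum_congr rfl fun j _ => ?_
  by_cases hj : kd j = c ∧ o (p * x) j = z
  · simp only [if_pos hj]
    obtain ⟨h1, -⟩ := hj
    subst h1
    rw [(jv_K h j x).1]
    unfold vF al bf SA SB SG
    ring
  · simp only [if_neg hj]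
    ring

/-- excess lift of a piece -/
noncomputable def eg (kd : Λ → κ) (p : ℕ) (K : List (DT Λ κ)) (j : Λ) (x : ℝ) : ℝ :=
  (1 - bf kd K (kd j) (p * x)) * pG K j x

lemma PB_eg (h : KOk kd p K) (j : Λ) : PB (eg kd p K j) :=
  ((PB_th h (kd j)).pull p).mul (PB_pG K j)

lemma cz_eg {ω : Type} [Fintype ω] [DecidableEq ω] (o : ℝ → Λ → ω) (c : κ) (z : ω) (x : ℝ) :
    cz kd o (eg kd p K) c z x = (1 - bf kd K c (p * x)) * cz kd o (pG K) c z x := by
  rw [cz_eq, cz_eq, Finset.mul_sum]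
  refine Finset.sum_congr rfl fun j _ => ?_
  by_cases hj : kd j = c ∧ o x j = z
  · rw [if_pos hj, if_pos hj, ← hj.1]; rfl
  · rw [if_neg hj, if_neg hj]; ring

lemma sm_eg [Nonempty Λ] (h : KOk kd p K) (c : κ) (x : ℝ) : sm kd (eg kd p K) c x = gb K c x := by
  obtain ⟨j⟩ := ‹Nonempty Λ›
  have e : gb K c x = (1 - bf kd K c (p * x)) * sm kd (pG K) c x := (jv_K (K := K) h j x).2 c
  rw [e, sm_eq, sm_eq, Finset.mul_sum]
  refine Finset.sum_congr rfl fun j _ => ?_
  by_cases hj : kd j = c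
  · rw [if_pos hj, if_pos hj, ← hj]; rfl
  · rw [if_neg hj, if_neg hj]; ring

/-- content of the true tie -/
noncomputable def vT (p : ℕ) (K : List (DT Λ κ)) (j : Λ) (x : ℝ) : ℝ := jv K j x - pQ K j (p * x)

lemma vT_eq (h : KOk kd p K) (j : Λ) (x : ℝ) :
    vT p K j x = vF p kd (pA K) (pB K) (pG K) j x := by
  unfold vT
  rw [(jv_K h j x).1]
  ring

/-- **the excess lifts are below the contents** -/
lemma eg_le_vT (h : KOk kd p K) (hp : 0 < p) (j : Λ) (x : ℝ) : eg kd p K j x ≤ vT p K j x := by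
  have hp' : (1 : ℝ) ≤ p := by exact_mod_cast hp
  have w1 : 1 / (p : ℝ) ≤ 1 := by rw [div_le_one (by linarith)]; exact hp'
  have w0 : 0 ≤ 1 / (p : ℝ) := by positivity
  rw [vT_eq h]
  set y : ℝ := p * x with hy
  have hA := SA0 h (kd j) y
  have hB := SB0 h (kd j) y
  have ha : 0 ≤ pA K j y := (h.PA j).nonneg y
  have hg : 0 ≤ pG K j x := (PB_pG K j).nonneg x
  have hQ : 0 ≤ pQ K j y := (h.PQ j).nonneg y
  have b0 := bf0 h (kd j) y
  have b1 := bf1 h (kd j) y
  have a0 := al0 h (kd j) y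
  have a1 := al1 h (kd j) y
  have hS := SG_le h hp (kd j) x
  have hS0 := SG0 (kd := kd) K (kd j) x
  have e : vF p kd (pA K) (pB K) (pG K) j x = (1 - 1 / (p : ℝ)) * pA K j y +
      1 / (p : ℝ) * (al kd K (kd j) y * pA K j y) + pG K j x -
      pA K j y / SA kd K (kd j) y * bf kd K (kd j) y * SG kd K (kd j) x := rfl
  have e2 : eg kd p K j x = (1 - bf kd K (kd j) y) * pG K j x := rfl
  rw [e, e2]
  -- the removed part is below the matched part
  have key : pA K j y / SA kd K (kd j) y * bf kd K (kd j) y * SG kd K (kd j) x ≤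
      al kd K (kd j) y * pA K j y := by
    rcases hA.eq_or_lt with h0 | h0
    · rw [← h0, div_zero, zero_mul, zero_mul]
      exact mul_nonneg a0 ha
    · have k1 : bf kd K (kd j) y * SG kd K (kd j) x ≤ al kd K (kd j) y * SA kd K (kd j) y := by
        rw [al_mul h, ← bf_mul h]
        exact mul_le_mul_of_nonneg_left hS b0
      calc pA K j y / SA kd K (kd j) y * bf kd K (kd j) y * SG kd K (kd j) x
          = pA K j y / SA kd K (kd j) y * (bf kd K (kd j) y * SG kd K (kd j) x) := by ring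
        _ ≤ pA K j y / SA kd K (kd j) y * (al kd K (kd j) y * SA kd K (kd j) y) :=
            mul_le_mul_of_nonneg_left k1 (div_nonneg ha hA)
        _ = al kd K (kd j) y * pA K j y := by field_simp
  have k2 : (1 - 1 / (p : ℝ)) * (al kd K (kd j) y * pA K j y) ≤
      (1 - 1 / (p : ℝ)) * pA K j y :=
    mul_le_mul_of_nonneg_left (by nlinarith) (by linarith)
  have k3 : 0 ≤ bf kd K (kd j) y * pG K j x := mul_nonneg b0 hg
  nlinarith

lemma vT_nonneg (h : KOk kd p K) (hp : 0 < p) (j : Λ) (x : ℝ) : 0 ≤ vT p K j x :=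
  ((PB_eg h j).nonneg x).trans (eg_le_vT h hp j x)

lemma PBL_of (h : KOk kd p K) : PBL K := fun t ht => (h.pb t ht).self

lemma PB_vT (h : KOk kd p K) (hp : 0 < p) (j : Λ) : PB (vT p K j) :=
  ModeS16.PB_sub (PB_jv (PBL_of h) j) ((h.PQ j).pull p) fun x => sub_nonneg.1 (vT_nonneg h hp j x)

lemma vT_le (h : KOk kd p K) (j : Λ) (x : ℝ) : vT p K j x ≤ jv K j x := by
  have := (h.PQ j).nonneg (p * x)
  unfold vT
  linarith

lemma eg_le (h : KOk kd p K) (hp : 0 < p) (j : Λ) (x : ℝ) : eg kd p K j x ≤ jv K j x :=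
  (eg_le_vT h hp j x).trans (vT_le h j x)

/-- **the explicit form** of the true tie : class `c`, type `z` -/
theorem cz_vT {ω : Type} [Fintype ω] [DecidableEq ω] (h : KOk kd p K) (o : ℝ → Λ → ω) (c : κ)
    (z : ω) (x : ℝ) : cz kd (fun x => o (p * x)) (vT p K) c z x =
      (1 - 1 / (p : ℝ)) * cz kd o (pA K) c z (p * x) +
      1 / (p : ℝ) * (al kd K c (p * x) * cz kd o (pA K) c z (p * x)) +
      cz kd (fun x => o (p * x)) (pG K) c z x -
      cz kd o (pA K) c z (p * x) / SA kd K c (p * x) * bf kd K c (p * x) * SG kd K c x := by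
  have e1 : cz kd (fun x => o (p * x)) (vT p K) c z x =
      cz kd (fun x => o (p * x)) (jv K) c z x - cz kd o (pQ K) c z (p * x) := by
    rw [cz_eq, cz_eq, cz_eq, ← Finset.sum_sub_distrib]
    refine Finset.sum_congr rfl fun j _ => ?_
    by_cases hj : kd j = c ∧ o (p * x) j = z
    · simp only [if_pos hj]; rfl
    · simp only [if_neg hj]; ring
  rw [e1, cz_jv h]
  ring

end cz

/-! ### typing data -/

/-- **typing data** : memories, types of the pieces, special points, fresh classes -/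
structure TD (μ Λ κ ζ : Type) where
  /-- update of the memory at a tie -/
  tu : ℕ → μ → μ
  /-- types of the pieces (`none` = outside the game) -/
  tp : ℕ → μ → ℝ → Λ → Option ζ
  /-- special points of the low type `z` -/
  spc : ℕ → μ × List (DT Λ κ) → ζ → ℝ → Prop
  /-- active real class -/
  act : ℕ → μ × List (DT Λ κ) → ζ → ℝ → κ
  /-- the fresh class -/
  fr : ℕ → μ → ζ → ζ
  /-- fresh classes -/
  F : ℕ → μ → ζ → Prop

section td
variable {μ Λ κ ζ : Type} [Fintype Λ] [DecidableEq Λ] [Fintype κ] [DecidableEq κ]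
  [Fintype ζ] [DecidableEq ζ]

namespace TD
variable (D : TD μ Λ κ ζ) (wr : ℕ → Λ → κ)

/-- low types: types of the children of a tie -/
def lt (p : ℕ) (m : μ) (y : ℝ) (j : Λ) : Option ζ := D.tp p (D.tu p m) y j

open Classical in
/-- the prescribed class of a piece of the real class `c` and of the low type `o` -/
noncomputable def pm (p : ℕ) (b : μ × List (DT Λ κ)) (x : ℝ) (a : κ × Option ζ) : Option ζ :=
  a.2.map fun z => if D.spc p b z x ∧ a.1 ≠ D.act p b z (p * x) then D.fr p b.1 z else z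

/-- prescribed types -/
noncomputable def pt (p : ℕ) (b : μ × List (DT Λ κ)) (x : ℝ) (j : Λ) : Option ζ :=
  D.pm p b x (wr p j, D.lt p b.1 (p * x) j)

/-- the tie and pulls -/
abbrev K (p : ℕ) (b : μ × List (DT Λ κ)) : List (DT Λ κ) := bB p b.2

noncomputable def cP (p : ℕ) (b : μ × List (DT Λ κ)) : μ × List (DT Λ κ) := (D.tu p b.1, (bB p b.2).map chP)
noncomputable def cN (p : ℕ) (b : μ × List (DT Λ κ)) : μ × List (DT Λ κ) := (D.tu p b.1, (bB p b.2).map chN)
def rN (_D : TD μ Λ κ ζ) (p : ℕ) (b : μ × List (DT Λ κ)) : μ × List (DT Λ κ) := (b.1, bN p b.2)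

noncomputable def h (p : ℕ) (b : μ × List (DT Λ κ)) (z : ζ) : ℝ → ℝ :=
  bcp (D.tp p b.1) b.2 (some z)
noncomputable def hL (p : ℕ) (b : μ × List (DT Λ κ)) (z : ζ) : ℝ → ℝ :=
  bcp (D.tp p b.1) (bL p b.2) (some z)
noncomputable def hB (p : ℕ) (b : μ × List (DT Λ κ)) (z : ζ) : ℝ → ℝ :=
  bcp (D.tp p b.1) (bB p b.2) (some z)
noncomputable def hN (p : ℕ) (b : μ × List (DT Λ κ)) (z : ζ) : ℝ → ℝ :=
  bcp (D.tp p b.1) (bN p b.2) (some z)
/-- content of the pulls at the point above -/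
noncomputable def pQx (p : ℕ) (K : List (DT Λ κ)) (j : Λ) (x : ℝ) : ℝ := pQ K j (p * x)
/-- content by the prescribed classes: ties by `pt`, pulls by the low types -/
noncomputable def hP (p : ℕ) (b : μ × List (DT Λ κ)) (z : ζ) (x : ℝ) : ℝ :=
  hz (D.pt wr p b) (vT p (bB p b.2)) (some z) x +
    hz (fun x => D.lt p b.1 (p * x)) (pQx p (bB p b.2)) (some z) x
/-- real lifts by the low types -/
noncomputable def gc (p : ℕ) (b : μ × List (DT Λ κ)) (z : ζ) : ℝ → ℝ :=
  hz (fun x => D.lt p b.1 (p * x)) (eg (wr p) p (bB p b.2)) (some z)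
/-- real lifts by the classes of the point -/
noncomputable def gB (p : ℕ) (b : μ × List (DT Λ κ)) (z : ζ) : ℝ → ℝ :=
  hz (D.tp p b.1) (eg (wr p) p (bB p b.2)) (some z)

/-- content outside the game -/
noncomputable def u (p : ℕ) (b : μ × List (DT Λ κ)) : ℝ → ℝ := bcp (D.tp p b.1) b.2 none
noncomputable def uL (p : ℕ) (b : μ × List (DT Λ κ)) : ℝ → ℝ := bcp (D.tp p b.1) (bL p b.2) none
noncomputable def uN (p : ℕ) (b : μ × List (DT Λ κ)) : ℝ → ℝ := bcp (D.tp p b.1) (bN p b.2) none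

/-- constant part of the low content of (class, type) -/
noncomputable def cB (p : ℕ) (b : μ × List (DT Λ κ)) (c : κ) (o : Option ζ) (y : ℝ) : ℝ :=
  (1 - 1 / (p : ℝ)) * cz (wr p) (D.lt p b.1) (pA (bB p b.2)) c o y +
    1 / (p : ℝ) * (bf (wr p) (bB p b.2) c y * cz (wr p) (D.lt p b.1) (pB (bB p b.2)) c o y) +
    cz (wr p) (D.lt p b.1) (pQ (bB p b.2)) c o y
/-- lift part -/
noncomputable def cG (p : ℕ) (b : μ × List (DT Λ κ)) (c : κ) (o : Option ζ) (x : ℝ) : ℝ :=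
  cz (wr p) (fun x => D.lt p b.1 (p * x)) (eg (wr p) p (bB p b.2)) c o x

noncomputable def bT (p : ℕ) (b : μ × List (DT Λ κ)) (y : ℝ) : ℝ :=
  ∑ c, ∑ z : ζ, D.cB wr p b c (some z) y
noncomputable def gT (p : ℕ) (b : μ × List (DT Λ κ)) (x : ℝ) : ℝ :=
  ∑ c, ∑ z : ζ, D.cG wr p b c (some z) x
noncomputable def bU (p : ℕ) (b : μ × List (DT Λ κ)) (y : ℝ) : ℝ := ∑ c, D.cB wr p b c none y
noncomputable def gU (p : ℕ) (b : μ × List (DT Λ κ)) (x : ℝ) : ℝ := ∑ c, D.cG wr p b c none x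

end TD

/-- **the properties of the typing data** -/
structure TYp (wr : ℕ → Λ → κ) (D : TD μ Λ κ ζ) (Inv : ℕ → μ × List (DT Λ κ) → Prop) where
  pb : ∀ {p b}, Inv p b → PBA b.2
  bok : ∀ {p b}, Inv p b → p ≠ 0 → KOk (wr p) p (bB p b.2)
  toP : ∀ {p b}, Inv p b → p ≠ 0 → Inv p (D.cP p b)
  toN : ∀ {p b}, Inv p b → p ≠ 0 → Inv p (D.cN p b)
  toR : ∀ {p b}, Inv p b → p ≠ 0 → Inv (p - 1) (D.rN p b)
  no1 : ∀ {b : μ × List (DT Λ κ)}, Inv 1 b → bB 1 b.2 = []
  /-- a uniform bound -/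
  B0 : ℝ
  bd : ∀ {p b}, Inv p b → ∀ x, bt b.2 x ≤ B0
  mtp : ∀ p m j, MP fun x => D.tp p m x j
  msp : ∀ p b z, MP (D.spc p b z)
  mac : ∀ p b z, MP (D.act p b z)
  /-- at most one special sheet -/
  one : ∀ p b z y (i i' : ℕ), i < p → i' < p → D.spc p b z ((y + i) / p) →
    D.spc p b z ((y + i') / p) → i = i'
  inj : ∀ p m z z', ¬ D.F p m z → ¬ D.F p m z' → D.fr p m z = D.fr p m z' → z = z'
  frF : ∀ p m z, ¬ D.F p m z → D.F p m (D.fr p m z)
  /-- low types are not fresh -/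
  low : ∀ {p b}, Inv p b → p ≠ 0 → ∀ y j z, (pA (bB p b.2) j y ≠ 0 ∨ pB (bB p b.2) j y ≠ 0 ∨
    pQ (bB p b.2) j y ≠ 0) → D.lt p b.1 y j = some z → ¬ D.F p b.1 z
  /-- a piece of a tie is outside the game above and below -/
  out1 : ∀ {p b}, Inv p b → p ≠ 0 → ∀ x j, jv (bB p b.2) j x ≠ 0 →
    (D.tp p b.1 x j = none ↔ D.lt p b.1 (p * x) j = none)
  /-- the pieces of one real class are all outside or all inside -/
  out2 : ∀ {p b}, Inv p b → p ≠ 0 → ∀ y j j', wr p j = wr p j' →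
    (pA (bB p b.2) j y ≠ 0 ∨ pB (bB p b.2) j y ≠ 0) →
    (pA (bB p b.2) j' y ≠ 0 ∨ pB (bB p b.2) j' y ≠ 0) →
    (D.lt p b.1 y j = none ↔ D.lt p b.1 y j' = none)

/-! ### measurability -/

section mp
variable {wr : ℕ → Λ → κ} {D : TD μ Λ κ ζ} {Inv : ℕ → μ × List (DT Λ κ) → Prop}

lemma TYp.mlt (H : TYp wr D Inv) (p : ℕ) (m : μ) (j : Λ) : MP fun y => D.lt p m y j :=
  H.mtp p (D.tu p m) j

lemma TYp.mltp (H : TYp wr D Inv) (p : ℕ) (m : μ) (j : Λ) : MP fun x => D.lt p m (p * x) j :=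
  (H.mlt p m j).pull p

lemma TYp.mpm (H : TYp wr D Inv) (p : ℕ) (b : μ × List (DT Λ κ)) {a : ℝ → κ × Option ζ}
    (ha : MP a) : MP fun x => D.pm p b x (a x) := by
  classical
  have h1 : MP fun x => (fun z => D.spc p b z x) := MP.pi fun z => H.msp p b z
  have h2 : MP fun x : ℝ => (fun z => D.act p b z (p * x)) := MP.pi fun z => (H.mac p b z).pull p
  have c1 : Countable (ζ → Prop) := by
    have : Finite (ζ → Prop) := inferInstance
    infer_instance
  have c2 : Countable (ζ → κ) := by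
    have : Finite (ζ → κ) := inferInstance
    infer_instance
  exact ((h1.prod h2).prod ha).map fun q => q.2.2.map fun z =>
    if q.1.1 z ∧ q.2.1 ≠ q.1.2 z then D.fr p b.1 z else z

lemma TYp.mpt (H : TYp wr D Inv) (p : ℕ) (b : μ × List (DT Λ κ)) (j : Λ) :
    MP fun x => D.pt wr p b x j :=
  H.mpm p b ((MP.const (wr p j)).prod (H.mltp p b.1 j))

end mp

/-! ### supports -/

section supp
variable {kd : Λ → κ} {p : ℕ} {K : List (DT Λ κ)}

lemma pG_supp (h : KOk kd p K) (hp : 0 < p) {j : Λ} {x : ℝ} (hj : pG K j x ≠ 0) :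
    pB K j (p * x) ≠ 0 := by
  intro h0
  have h1 := lift_le hp (PB_pG K j).nonneg (lift_pG h j) x
  have h2 := (PB_pG K j).nonneg x
  exact hj (le_antisymm (h1.trans h0.le) h2)

lemma sm_congr0 {kd : Λ → κ} {f : Λ → ℝ → ℝ} {x : ℝ} {j : Λ} (hf : ∀ j, 0 ≤ f j x)
    (h : sm kd f (kd j) x = 0) : f j x = 0 := by
  have h1 : f j x ≤ sm kd f (kd j) x := by
    unfold sm
    exact Finset.single_le_sum (f := fun j => f j x) (fun i _ => hf i) (by simp)
  exact le_antisymm (h1.trans h.le) (hf j)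

lemma jv_supp (h : KOk kd p K) (hp : 0 < p) {j : Λ} {x : ℝ} (hj : jv K j x ≠ 0) :
    pA K j (p * x) ≠ 0 ∨ pB K j (p * x) ≠ 0 ∨ pQ K j (p * x) ≠ 0 := by
  by_contra hn
  push Not at hn
  obtain ⟨h1, h2, h3⟩ := hn
  apply hj
  have hg : pG K j x = 0 := by
    by_contra h4
    exact pG_supp h hp h4 h2
  rw [(jv_K h j x).1]
  unfold vF
  rw [h1, h3, hg]
  ring

end supp

/-! ### the totals -/

section tot
variable {wr : ℕ → Λ → κ} {D : TD μ Λ κ ζ} {Inv : ℕ → μ × List (DT Λ κ) → Prop} {p : ℕ}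
  {b : μ × List (DT Λ κ)}

lemma hz_split {V : Λ → ℝ → ℝ} (τ : ℝ → Λ → Option ζ) (x : ℝ) :
    ∑ z, hz τ V (some z) x + hz τ V none x = ∑ j, V j x := by
  rw [← sum_hz τ V x, Fintype.sum_option]
  ring

lemma bcp_split_opt (τ : ℝ → Λ → Option ζ) (L : List (DT Λ κ)) (x : ℝ) :
    ∑ z, bcp τ L (some z) x + bcp τ L none x = bt L x := by
  rw [← sum_bcp τ L x, Fintype.sum_option]
  ring

/-- contents of the children P -/
lemma h_cP (H : TYp wr D Inv) (hb : Inv p b) (hp : p ≠ 0) (z : ζ) (y : ℝ) :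
    D.h p (D.cP p b) z y = hz (D.lt p b.1) (pA (bB p b.2)) (some z) y +
      hz (D.lt p b.1) (pQ (bB p b.2)) (some z) y := by
  show bcp (D.tp p (D.tu p b.1)) ((bB p b.2).map chP) (some z) y = _
  rw [bcp_eq, ← hz_add]
  exact hz_congr (fun j => jv_chP (H.bok hb hp) j y) (fun _ _ => rfl) _

lemma h_cN (H : TYp wr D Inv) (hb : Inv p b) (hp : p ≠ 0) (z : ζ) (y : ℝ) :
    D.h p (D.cN p b) z y = hz (D.lt p b.1) (pB (bB p b.2)) (some z) y +
      hz (D.lt p b.1) (pQ (bB p b.2)) (some z) y := by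
  show bcp (D.tp p (D.tu p b.1)) ((bB p b.2).map chN) (some z) y = _
  rw [bcp_eq, ← hz_add]
  exact hz_congr (fun j => jv_chN (H.bok hb hp) j y) (fun _ _ => rfl) _

lemma u_cP (H : TYp wr D Inv) (hb : Inv p b) (hp : p ≠ 0) (y : ℝ) :
    D.u p (D.cP p b) y = hz (D.lt p b.1) (pA (bB p b.2)) none y +
      hz (D.lt p b.1) (pQ (bB p b.2)) none y := by
  show bcp (D.tp p (D.tu p b.1)) ((bB p b.2).map chP) none y = _
  rw [bcp_eq, ← hz_add]
  exact hz_congr (fun j => jv_chP (H.bok hb hp) j y) (fun _ _ => rfl) _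

lemma u_cN (H : TYp wr D Inv) (hb : Inv p b) (hp : p ≠ 0) (y : ℝ) :
    D.u p (D.cN p b) y = hz (D.lt p b.1) (pB (bB p b.2)) none y +
      hz (D.lt p b.1) (pQ (bB p b.2)) none y := by
  show bcp (D.tp p (D.tu p b.1)) ((bB p b.2).map chN) none y = _
  rw [bcp_eq, ← hz_add]
  exact hz_congr (fun j => jv_chN (H.bok hb hp) j y) (fun _ _ => rfl) _

/-- the mean of (class, type) -/
lemma mean_cz (H : TYp wr D Inv) (hb : Inv p b) (hp : p ≠ 0) (c : κ) (o : Option ζ) (y : ℝ) :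
    D.cB wr p b c o y + Ep p (D.cG wr p b c o) y =
      (1 - 1 / (p : ℝ)) * (cz (wr p) (D.lt p b.1) (pA (bB p b.2)) c o y +
        cz (wr p) (D.lt p b.1) (pQ (bB p b.2)) c o y) +
      1 / (p : ℝ) * (cz (wr p) (D.lt p b.1) (pB (bB p b.2)) c o y +
        cz (wr p) (D.lt p b.1) (pQ (bB p b.2)) c o y) := by
  have hp0 : 0 < p := Nat.pos_of_ne_zero hp
  have hp' : (p : ℝ) ≠ 0 := by exact_mod_cast hp
  have K := H.bok hb hp
  have e1 : Ep p (D.cG wr p b c o) y = (1 - bf (wr p) (bB p b.2) c y) *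
      Ep p (cz (wr p) (fun x => D.lt p b.1 (p * x)) (pG (bB p b.2)) c o) y := by
    unfold Ep TD.cG
    rw [← mul_div_assoc, Finset.mul_sum]
    congr 1
    refine Finset.sum_congr rfl fun i _ => ?_
    rw [cz_eg]
    congr 2
    have e : (p : ℝ) * ((y + (i : ℝ)) / p) = y + i := by field_simp
    rw [e, (PB_bf K c).per_nat]
  rw [e1, Ep_cz (wr p) (D.lt p b.1) (lift_pG K) hp0 (H.mlt p b.1)]
  unfold TD.cB
  ring

/-- **the column identity of the game** -/
theorem mT (H : TYp wr D Inv) (hb : Inv p b) (hp : p ≠ 0) (y : ℝ) :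
    D.bT wr p b y + Ep p (D.gT wr p b) y =
      ∑ z, ((1 - 1 / (p : ℝ)) * D.h p (D.cP p b) z y + 1 / (p : ℝ) * D.h p (D.cN p b) z y) := by
  have e1 : Ep p (D.gT wr p b) y = ∑ c, ∑ z : ζ, Ep p (D.cG wr p b c (some z)) y := by
    unfold Ep TD.gT
    rw [Finset.sum_comm, Finset.sum_div]
    refine Finset.sum_congr rfl fun c _ => ?_
    rw [Finset.sum_comm, Finset.sum_div]
  rw [e1]
  unfold TD.bT
  rw [← Finset.sum_add_distrib]
  have e2 : ∀ c, ∑ z : ζ, D.cB wr p b c (some z) y + ∑ z : ζ, Ep p (D.cG wr p b c (some z)) y =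
      ∑ z : ζ, ((1 - 1 / (p : ℝ)) * (cz (wr p) (D.lt p b.1) (pA (bB p b.2)) c (some z) y +
        cz (wr p) (D.lt p b.1) (pQ (bB p b.2)) c (some z) y) +
      1 / (p : ℝ) * (cz (wr p) (D.lt p b.1) (pB (bB p b.2)) c (some z) y +
        cz (wr p) (D.lt p b.1) (pQ (bB p b.2)) c (some z) y)) := fun c => by
    rw [← Finset.sum_add_distrib]
    exact Finset.sum_congr rfl fun z _ => mean_cz H hb hp c (some z) y
  rw [Finset.sum_congr rfl fun c _ => e2 c, Finset.sum_comm]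
  refine Finset.sum_congr rfl fun z _ => ?_
  rw [h_cP H hb hp, h_cN H hb hp, Finset.sum_add_distrib, ← Finset.mul_sum, ← Finset.mul_sum,
    Finset.sum_add_distrib, Finset.sum_add_distrib, sum_cz', sum_cz', sum_cz']

/-- the mean of the content outside -/
theorem um (H : TYp wr D Inv) (hb : Inv p b) (hp : p ≠ 0) (y : ℝ) :
    D.bU wr p b y + Ep p (D.gU wr p b) y =
      (1 - 1 / (p : ℝ)) * D.u p (D.cP p b) y + 1 / (p : ℝ) * D.u p (D.cN p b) y := by
  have e1 : Ep p (D.gU wr p b) y = ∑ c, Ep p (D.cG wr p b c none) y := by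
    unfold Ep TD.gU
    rw [Finset.sum_comm, Finset.sum_div]
  rw [e1]
  unfold TD.bU
  rw [← Finset.sum_add_distrib, Finset.sum_congr rfl fun c _ => mean_cz H hb hp c none y,
    u_cP H hb hp, u_cN H hb hp, Finset.sum_add_distrib, ← Finset.mul_sum, ← Finset.mul_sum,
    Finset.sum_add_distrib, Finset.sum_add_distrib, sum_cz', sum_cz', sum_cz']

/-- a real class is outside or inside -/
lemma out_dich (H : TYp wr D Inv) (hb : Inv p b) (hp : p ≠ 0) (c : κ) (y : ℝ) :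
    (cz (wr p) (D.lt p b.1) (pA (bB p b.2)) c none y = 0 ∧
      cz (wr p) (D.lt p b.1) (pB (bB p b.2)) c none y = 0) ∨
    ∀ z, cz (wr p) (D.lt p b.1) (pA (bB p b.2)) c (some z) y = 0 ∧
      cz (wr p) (D.lt p b.1) (pB (bB p b.2)) c (some z) y = 0 := by
  by_cases h : ∃ j, wr p j = c ∧ (pA (bB p b.2) j y ≠ 0 ∨ pB (bB p b.2) j y ≠ 0) ∧
      D.lt p b.1 y j = none
  · obtain ⟨j, h1, h2, h3⟩ := h
    have key : ∀ z j', wr p j' = c ∧ D.lt p b.1 y j' = some z →
        pA (bB p b.2) j' y = 0 ∧ pB (bB p b.2) j' y = 0 := by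
      intro z j' hj
      by_contra hn
      have h4 : pA (bB p b.2) j' y ≠ 0 ∨ pB (bB p b.2) j' y ≠ 0 := by
        by_contra h5
        push Not at h5
        exact hn h5
      have h6 := (H.out2 hb hp y j j' (h1.trans hj.1.symm) h2 h4).1 h3
      rw [hj.2] at h6
      exact absurd h6 (by simp)
    refine Or.inr fun z => ⟨?_, ?_⟩
    · rw [cz_eq]
      refine Finset.sum_eq_zero fun j' _ => ?_
      split_ifs with hj
      · exact (key z j' hj).1
      · rfl
    · rw [cz_eq]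
      refine Finset.sum_eq_zero fun j' _ => ?_
      split_ifs with hj
      · exact (key z j' hj).2
      · rfl
  · push Not at h
    refine Or.inl ⟨?_, ?_⟩
    · rw [cz_eq]
      refine Finset.sum_eq_zero fun j' _ => ?_
      split_ifs with hj
      · by_contra h0
        exact h j' hj.1 (Or.inl h0) hj.2
      · rfl
    · rw [cz_eq]
      refine Finset.sum_eq_zero fun j' _ => ?_
      split_ifs with hj
      · by_contra h0
        exact h j' hj.1 (Or.inr h0) hj.2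
      · rfl

/-- the lifts of a (class, type) without N content -/
lemma czG_zero (H : TYp wr D Inv) (hb : Inv p b) (hp : p ≠ 0) {c : κ} {o : Option ζ} {x : ℝ}
    (h : cz (wr p) (D.lt p b.1) (pB (bB p b.2)) c o (p * x) = 0) :
    cz (wr p) (fun x => D.lt p b.1 (p * x)) (pG (bB p b.2)) c o x = 0 := by
  have hp0 : 0 < p := Nat.pos_of_ne_zero hp
  have K := H.bok hb hp
  refine le_antisymm ?_ (cz_nonneg (fun j => (PB_pG _ j).nonneg x) c o)
  rw [← h, cz_eq, cz_eq]
  refine Finset.sum_le_sum fun j _ => ?_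
  split_ifs with hj
  · exact lift_le hp0 (PB_pG _ j).nonneg (lift_pG K j) x
  · exact le_rfl

/-- the algebra of a class which is whole or empty -/
lemma alg {K : List (DT Λ κ)} {kd : Λ → κ} (h : KOk kd p K) {c : κ} {x XA XB XG : ℝ}
    (hX : (XA = 0 ∧ XB = 0 ∧ XG = 0) ∨
      (XA = SA kd K c (p * x) ∧ XB = SB kd K c (p * x) ∧ XG = SG kd K c x)) :
    1 / (p : ℝ) * (al kd K c (p * x) * XA) + XG -
      XA / SA kd K c (p * x) * bf kd K c (p * x) * SG kd K c x =
    1 / (p : ℝ) * (bf kd K c (p * x) * XB) + (1 - bf kd K c (p * x)) * XG := by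
  rcases hX with ⟨h1, h2, h3⟩ | ⟨h1, h2, h3⟩
  · rw [h1, h2, h3]; ring
  · rw [h1, h2, h3, al_mul h, bf_mul h]
    by_cases h0 : SA kd K c (p * x) = 0
    · rw [bf_of_A h h0, h0]; ring
    · rw [div_self h0]; ring

/-- the content outside, per class -/
lemma czjv_none (H : TYp wr D Inv) (hb : Inv p b) (hp : p ≠ 0) (c : κ) (x : ℝ) :
    cz (wr p) (fun x => D.lt p b.1 (p * x)) (jv (bB p b.2)) c none x =
      D.cB wr p b c none (p * x) + D.cG wr p b c none x := by
  have K := H.bok hb hp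
  have e1 := cz_jv K (D.lt p b.1) c none x
  have e2 : D.cG wr p b c none x = (1 - bf (wr p) (bB p b.2) c (p * x)) *
    cz (wr p) (fun x => D.lt p b.1 (p * x)) (pG (bB p b.2)) c none x := cz_eg _ _ _ _
  have key : (cz (wr p) (D.lt p b.1) (pA (bB p b.2)) c none (p * x) = 0 ∧
      cz (wr p) (D.lt p b.1) (pB (bB p b.2)) c none (p * x) = 0 ∧
      cz (wr p) (fun x => D.lt p b.1 (p * x)) (pG (bB p b.2)) c none x = 0) ∨
      (cz (wr p) (D.lt p b.1) (pA (bB p b.2)) c none (p * x) = SA (wr p) (bB p b.2) c (p * x) ∧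
      cz (wr p) (D.lt p b.1) (pB (bB p b.2)) c none (p * x) = SB (wr p) (bB p b.2) c (p * x) ∧
      cz (wr p) (fun x => D.lt p b.1 (p * x)) (pG (bB p b.2)) c none x =
        SG (wr p) (bB p b.2) c x) := by
    rcases out_dich H hb hp c (p * x) with h | h
    · exact Or.inl ⟨h.1, h.2, czG_zero H hb hp h.2⟩
    · refine Or.inr ⟨?_, ?_, ?_⟩
      · unfold SA
        rw [← sum_cz (wr p) (D.lt p b.1), Fintype.sum_option,
          Finset.sum_eq_zero fun z _ => (h z).1, add_zero]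
      · unfold SB
        rw [← sum_cz (wr p) (D.lt p b.1), Fintype.sum_option,
          Finset.sum_eq_zero fun z _ => (h z).2, add_zero]
      · unfold SG
        rw [← sum_cz (wr p) (fun x => D.lt p b.1 (p * x)), Fintype.sum_option,
          Finset.sum_eq_zero fun z _ => czG_zero H hb hp (h z).2, add_zero]
  have e3 := alg K key
  rw [e1, e2]
  unfold TD.cB
  linarith

/-- the content inside, per class -/
lemma czjv_some (H : TYp wr D Inv) (hb : Inv p b) (hp : p ≠ 0) (c : κ) (x : ℝ) :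
    ∑ z, cz (wr p) (fun x => D.lt p b.1 (p * x)) (jv (bB p b.2)) c (some z) x =
      ∑ z : ζ, D.cB wr p b c (some z) (p * x) + ∑ z : ζ, D.cG wr p b c (some z) x := by
  have K := H.bok hb hp
  have e1 : ∑ z, cz (wr p) (fun x => D.lt p b.1 (p * x)) (jv (bB p b.2)) c (some z) x =
      (1 - 1 / (p : ℝ)) * ∑ z : ζ, cz (wr p) (D.lt p b.1) (pA (bB p b.2)) c (some z) (p * x) +
      1 / (p : ℝ) * (al (wr p) (bB p b.2) c (p * x) *
        ∑ z : ζ, cz (wr p) (D.lt p b.1) (pA (bB p b.2)) c (some z) (p * x)) +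
      ∑ z : ζ, cz (wr p) (D.lt p b.1) (pQ (bB p b.2)) c (some z) (p * x) +
      ∑ z : ζ, cz (wr p) (fun x => D.lt p b.1 (p * x)) (pG (bB p b.2)) c (some z) x -
      (∑ z : ζ, cz (wr p) (D.lt p b.1) (pA (bB p b.2)) c (some z) (p * x)) /
        SA (wr p) (bB p b.2) c (p * x) * bf (wr p) (bB p b.2) c (p * x) *
        SG (wr p) (bB p b.2) c x := by
    rw [Finset.sum_congr rfl fun z _ => cz_jv K (D.lt p b.1) c (some z) x]
    rw [Finset.sum_sub_distrib, Finset.sum_add_distrib, Finset.sum_add_distrib,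
      Finset.sum_add_distrib, ← Finset.mul_sum, ← Finset.mul_sum, ← Finset.mul_sum,
      ← Finset.sum_mul, ← Finset.sum_mul, ← Finset.sum_div]
  have e2 : ∑ z : ζ, D.cG wr p b c (some z) x = (1 - bf (wr p) (bB p b.2) c (p * x)) *
      ∑ z : ζ, cz (wr p) (fun x => D.lt p b.1 (p * x)) (pG (bB p b.2)) c (some z) x := by
    rw [Finset.mul_sum]
    exact Finset.sum_congr rfl fun z _ => cz_eg _ _ _ _
  have e4 : ∑ z : ζ, D.cB wr p b c (some z) (p * x) =
      (1 - 1 / (p : ℝ)) * ∑ z : ζ, cz (wr p) (D.lt p b.1) (pA (bB p b.2)) c (some z) (p * x) +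
      1 / (p : ℝ) * (bf (wr p) (bB p b.2) c (p * x) *
        ∑ z : ζ, cz (wr p) (D.lt p b.1) (pB (bB p b.2)) c (some z) (p * x)) +
      ∑ z : ζ, cz (wr p) (D.lt p b.1) (pQ (bB p b.2)) c (some z) (p * x) := by
    unfold TD.cB
    rw [Finset.sum_add_distrib, Finset.sum_add_distrib, ← Finset.mul_sum, ← Finset.mul_sum,
      ← Finset.mul_sum]
  have key : (∑ z : ζ, cz (wr p) (D.lt p b.1) (pA (bB p b.2)) c (some z) (p * x) = 0 ∧
      ∑ z : ζ, cz (wr p) (D.lt p b.1) (pB (bB p b.2)) c (some z) (p * x) = 0 ∧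
      ∑ z : ζ, cz (wr p) (fun x => D.lt p b.1 (p * x)) (pG (bB p b.2)) c (some z) x = 0) ∨
      (∑ z : ζ, cz (wr p) (D.lt p b.1) (pA (bB p b.2)) c (some z) (p * x) =
        SA (wr p) (bB p b.2) c (p * x) ∧
      ∑ z : ζ, cz (wr p) (D.lt p b.1) (pB (bB p b.2)) c (some z) (p * x) =
        SB (wr p) (bB p b.2) c (p * x) ∧
      ∑ z : ζ, cz (wr p) (fun x => D.lt p b.1 (p * x)) (pG (bB p b.2)) c (some z) x =
        SG (wr p) (bB p b.2) c x) := by
    rcases out_dich H hb hp c (p * x) with h | h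
    · refine Or.inr ⟨?_, ?_, ?_⟩
      · unfold SA
        rw [← sum_cz (wr p) (D.lt p b.1), Fintype.sum_option, h.1, zero_add]
      · unfold SB
        rw [← sum_cz (wr p) (D.lt p b.1), Fintype.sum_option, h.2, zero_add]
      · unfold SG
        rw [← sum_cz (wr p) (fun x => D.lt p b.1 (p * x)), Fintype.sum_option,
          czG_zero H hb hp h.2, zero_add]
    · exact Or.inl ⟨Finset.sum_eq_zero fun z _ => (h z).1, Finset.sum_eq_zero fun z _ => (h z).2,
        Finset.sum_eq_zero fun z _ => czG_zero H hb hp (h z).2⟩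
  have e3 := alg K key
  rw [e1, e2, e4]
  linarith

/-- inside above = inside below -/
lemma hz_none_tie (H : TYp wr D Inv) (hb : Inv p b) (hp : p ≠ 0) (x : ℝ) :
    hz (D.tp p b.1) (jv (bB p b.2)) none x =
      hz (fun x => D.lt p b.1 (p * x)) (jv (bB p b.2)) none x := by
  classical
  rw [hz_eq, hz_eq]
  refine Finset.sum_congr rfl fun j _ => ?_
  by_cases h0 : jv (bB p b.2) j x = 0
  · rw [h0]; simp
  · have h1 := H.out1 hb hp x j h0
    by_cases h2 : D.tp p b.1 x j = none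
    · rw [if_pos h2, if_pos (h1.1 h2)]
    · rw [if_neg h2, if_neg (fun h3 => h2 (h1.2 h3))]

lemma pt_none (p : ℕ) (b : μ × List (DT Λ κ)) (x : ℝ) (j : Λ) :
    D.pt wr p b x j = none ↔ D.lt p b.1 (p * x) j = none := by
  unfold TD.pt TD.pm
  simp

lemma hz_none_pt (p : ℕ) (b : μ × List (DT Λ κ)) (V : Λ → ℝ → ℝ) (x : ℝ) :
    hz (D.pt wr p b) V none x = hz (fun x => D.lt p b.1 (p * x)) V none x := by
  classical
  rw [hz_eq, hz_eq]
  refine Finset.sum_congr rfl fun j _ => ?_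
  by_cases h2 : D.lt p b.1 (p * x) j = none
  · rw [if_pos h2, if_pos ((pt_none p b x j).2 h2)]
  · rw [if_neg h2, if_neg fun h3 => h2 ((pt_none p b x j).1 h3)]

/-- the total of the prescribed classes -/
lemma sum_hP (p : ℕ) (b : μ × List (DT Λ κ)) (x : ℝ) :
    ∑ z, D.hP wr p b z x + hz (fun x => D.lt p b.1 (p * x)) (jv (bB p b.2)) none x =
      bt (bB p b.2) x := by
  have e2 := hz_split (V := vT p (bB p b.2)) (D.pt wr p b) x
  have e3 := hz_split (V := TD.pQx p (bB p b.2)) (fun x => D.lt p b.1 (p * x)) x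
  rw [hz_none_pt] at e2
  have e4 : ∑ j, vT p (bB p b.2) j x + ∑ j, TD.pQx p (bB p b.2) j x = bt (bB p b.2) x := by
    rw [← Finset.sum_add_distrib, ← sum_jv]
    refine Finset.sum_congr rfl fun j _ => ?_
    unfold vT TD.pQx
    ring
  have e5 : hz (fun x => D.lt p b.1 (p * x)) (vT p (bB p b.2)) none x +
      hz (fun x => D.lt p b.1 (p * x)) (TD.pQx p (bB p b.2)) none x =
      hz (fun x => D.lt p b.1 (p * x)) (jv (bB p b.2)) none x := by
    rw [← hz_add]
    refine hz_congr (fun j => ?_) (fun _ _ => rfl) _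
    unfold vT TD.pQx
    ring
  unfold TD.hP
  rw [Finset.sum_add_distrib]
  linarith

/-- **the same total by the prescribed classes and by the classes of the point** -/
theorem hPB (H : TYp wr D Inv) (hb : Inv p b) (hp : p ≠ 0) (x : ℝ) :
    ∑ z, D.hB p b z x = ∑ z, D.hP wr p b z x := by
  have e1 : ∑ z, D.hB p b z x + bcp (D.tp p b.1) (bB p b.2) none x = bt (bB p b.2) x :=
    bcp_split_opt _ _ _
  have e2 := sum_hP (wr := wr) (D := D) p b x
  rw [bcp_eq, hz_none_tie H hb hp] at e1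
  linarith

/-- **the content of the ties** -/
theorem dT (H : TYp wr D Inv) (hb : Inv p b) (hp : p ≠ 0) (x : ℝ) :
    ∑ z, D.hP wr p b z x = D.bT wr p b (p * x) + D.gT wr p b x := by
  have e2 := sum_hP (wr := wr) (D := D) p b x
  have e3 := hz_split (V := jv (bB p b.2)) (fun x => D.lt p b.1 (p * x)) x
  rw [sum_jv] at e3
  have e4 : ∑ z, hz (fun x => D.lt p b.1 (p * x)) (jv (bB p b.2)) (some z) x =
      ∑ c, ∑ z, cz (wr p) (fun x => D.lt p b.1 (p * x)) (jv (bB p b.2)) c (some z) x := by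
    rw [Finset.sum_comm]
    exact Finset.sum_congr rfl fun z _ => (sum_cz' _ _ _ _ _).symm
  have e5 : ∑ z, D.hP wr p b z x =
      ∑ z, hz (fun x => D.lt p b.1 (p * x)) (jv (bB p b.2)) (some z) x := by linarith
  rw [e5, e4, Finset.sum_congr rfl fun c _ => czjv_some H hb hp c x, Finset.sum_add_distrib]
  rfl

/-- **the three parts of the content outside** -/
theorem us (H : TYp wr D Inv) (hb : Inv p b) (hp : p ≠ 0) (x : ℝ) :
    D.u p b x = D.uL p b x + (D.bU wr p b (p * x) + D.gU wr p b x) + D.uN p b x := by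
  have e1 : D.u p b x = D.uL p b x + bcp (D.tp p b.1) (bB p b.2) none x + D.uN p b x :=
    bcp_split3 _ p b.2 none x
  rw [e1, bcp_eq, hz_none_tie H hb hp, ← sum_cz' (wr p),
    Finset.sum_congr rfl fun c _ => czjv_none H hb hp c x, Finset.sum_add_distrib]
  rfl

theorem sp (p : ℕ) (b : μ × List (DT Λ κ)) (z : ζ) (x : ℝ) :
    D.h p b z x = D.hL p b z x + D.hB p b z x + D.hN p b z x := bcp_split3 _ p b.2 _ x

theorem gBh (H : TYp wr D Inv) (hb : Inv p b) (hp : p ≠ 0) (z : ζ) (x : ℝ) :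
    D.gB wr p b z x ≤ D.hB p b z x := by
  show hz _ _ _ _ ≤ bcp _ _ _ _
  rw [bcp_eq]
  exact hz_mono (fun j => eg_le (H.bok hb hp) (Nat.pos_of_ne_zero hp) j x) _

end tot

end td

end Crest.Agent.R4P.DTm407
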