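import Crest.Agent.R4P.Bp_407
import Crest.Agent.R4P.MSm_25

/-!
R4 (S0004) with powers, T3, helper479 (PLAN v1, D1): **the cost of the group walk = real costs of the
typed game + pairs of one index class with different types**.

* `gp kd p K j x = (1 - bef_c(p x)) pG K j x` : lifts of the pieces of a bundle of ties and pulls;
  `sum_gp` : their class sums are the class lifts `gb`.
* a *row class* is `(i, u, v)` : index `i`, type of the row `u : Option ζ`, type of the point `v`;
  `Fc` : group lifts of the row classes.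
* `rco` : sum of the squares of the classes with both types in the game; `eco` : all the other pairs of
  one index class; **`loc_eq`** : `Σ_i (Σ_{c ∈ i} GmG c)² = rco + eco`.
* `rcost` : `rco` is a family of real costs (`MSm25.RCost`) of any group data whose lifts are above the
  lifts of the pieces by types; `PB_rco`, `PB_eco`.
* `eco_pairs` : `eco` is the sum over the PAIRS OF PIECES of one index class which are not typed alike,
  if the types are common to the members.
-/

set_option autoImplicit false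
set_option linter.unusedSectionVars false
set_option linter.unusedVariables false
open MeasureTheory Filter Set

namespace Crest.Agent.R4P.E3D479

open Crest.Agent.R4.Tour104 Crest.Agent.R4.Tour758 Crest.Agent.R4.Avg758 Crest.Agent.R4.Clos758
open Crest.Agent.R4.ClosL758 Crest.Agent.R4.ClosG758 Crest.Agent.R4.ClosR758
open Crest.Agent.R4P.ClosR442 Crest.Agent.R4P.Grp36
open Crest.Agent.R4P.Xfer36 Crest.Agent.R4P.TopC36 Crest.Agent.R4P.PN36
open Crest.Agent.R4P.GMer27 Crest.Agent.R4P.GCol27 Crest.Agent.R4P.GWa343 Crest.Agent.R4P.GWb343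
open Crest.Agent.R4P.GWc343 Crest.Agent.R4P.GWd343 Crest.Agent.R4P.TrR343 Crest.Agent.R4P.DTp26
open Crest.Agent.R4P.RSys343 Crest.Agent.R4P.RXm55 Crest.Agent.R4P.MSm25
open Crest.Agent.R4P.VR407 Crest.Agent.R4P.Bp407
open Crest.Agent.R4P.RXj343.RX (sm2 q2)
open Crest.Agent.R4P.MSi343 (su)
open Crest.Agent.R4P.Walk560 (DT)

/-! ### algebra of a finite family -/

section alg
variable {ι T : Type} [Fintype ι] [Fintype T] [DecidableEq T]

open Classical in
/-- good classes: the squares -/
noncomputable def rA (good : T → Prop) (m : ι → T → ℝ) : ℝ :=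
  ∑ i, ∑ u, if good u then m i u ^ 2 else 0

open Classical in
/-- all the other pairs -/
noncomputable def eA (good : T → Prop) (m : ι → T → ℝ) : ℝ :=
  ∑ i, ∑ u, ∑ v, if u = v ∧ good u then 0 else m i u * m i v

lemma sq_split (good : T → Prop) (m : ι → T → ℝ) :
    ∑ i, (∑ u, m i u) ^ 2 = rA good m + eA good m := by
  classical
  unfold rA eA
  rw [← Finset.sum_add_distrib]
  refine Finset.sum_congr rfl fun i _ => ?_
  rw [sq, Finset.sum_mul_sum, ← Finset.sum_add_distrib]
  refine Finset.sum_congr rfl fun u _ => ?_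
  have e1 : (if good u then m i u ^ 2 else 0) = ∑ v, if u = v ∧ good u then m i u * m i v else 0 := by
    by_cases hg : good u
    · simp only [hg, and_true, if_true]
      rw [Finset.sum_ite_eq]
      simp [sq]
    · simp [hg]
  rw [e1, ← Finset.sum_add_distrib]
  refine Finset.sum_congr rfl fun v _ => ?_
  split_ifs <;> simp

lemma rA_nonneg (good : T → Prop) (m : ι → T → ℝ) : 0 ≤ rA good m := by
  classical
  exact Finset.sum_nonneg fun i _ => Finset.sum_nonneg fun u _ => by split_ifs <;> positivity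

lemma eA_nonneg (good : T → Prop) {m : ι → T → ℝ} (h : ∀ i u, 0 ≤ m i u) : 0 ≤ eA good m := by
  classical
  refine Finset.sum_nonneg fun i _ => Finset.sum_nonneg fun u _ => Finset.sum_nonneg fun v _ => ?_
  split_ifs
  · exact le_rfl
  · exact mul_nonneg (h i u) (h i v)

/-- **the good classes against coarser classes** -/
lemma rA_le {δ : Type} [Fintype δ] [DecidableEq δ] (good : T → Prop) {m : ι → T → ℝ}
    (h : ∀ i u, 0 ≤ m i u) (r : T → Option δ) (hr : ∀ u, good u → r u ≠ none) {g : δ → ℝ}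
    (hg : ∀ z, ∑ i, ∑ u ∈ Finset.univ.filter (fun u => r u = some z), m i u ≤ g z) :
    rA good m ≤ ∑ z, g z ^ 2 := by
  classical
  have h1 : rA good m ≤ ∑ z, ∑ i, ∑ u ∈ Finset.univ.filter (fun u => r u = some z), m i u ^ 2 := by
    unfold rA
    have e0 : ∑ z, ∑ i, ∑ u ∈ Finset.univ.filter (fun u => r u = some z), m i u ^ 2 =
        ∑ i, ∑ z, ∑ u ∈ Finset.univ.filter (fun u => r u = some z), m i u ^ 2 := Finset.sum_comm
    rw [e0]
    refine Finset.sum_le_sum fun i _ => ?_
    have e : ∑ z, ∑ u ∈ Finset.univ.filter (fun u => r u = some z), m i u ^ 2 =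
        ∑ u, ∑ z, if r u = some z then m i u ^ 2 else 0 := by
      rw [Finset.sum_comm]
      exact Finset.sum_congr rfl fun z _ => Finset.sum_filter _ _
    rw [e]
    refine Finset.sum_le_sum fun u _ => ?_
    split_ifs with hu
    · obtain ⟨z, hz⟩ := Option.ne_none_iff_exists'.1 (hr u hu)
      have h5 : ∀ z' ∈ (Finset.univ : Finset δ), 0 ≤ (if r u = some z' then m i u ^ 2 else 0) :=
        fun z' _ => by split_ifs <;> positivity
      have h6 := Finset.single_le_sum h5 (Finset.mem_univ z)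
      rw [if_pos hz] at h6
      exact h6
    · exact Finset.sum_nonneg fun z _ => by split_ifs <;> positivity
  refine h1.trans (Finset.sum_le_sum fun z _ => ?_)
  have h2 : ∑ i, ∑ u ∈ Finset.univ.filter (fun u => r u = some z), m i u ^ 2 ≤
      (∑ i, ∑ u ∈ Finset.univ.filter (fun u => r u = some z), m i u) ^ 2 := by
    have h3 : ∀ i, ∑ u ∈ Finset.univ.filter (fun u => r u = some z), m i u ^ 2 ≤
        (∑ u ∈ Finset.univ.filter (fun u => r u = some z), m i u) ^ 2 := fun i =>
      sum_sq_le _ _ fun u _ => h i u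
    refine (Finset.sum_le_sum fun i _ => h3 i).trans ?_
    exact sum_sq_le _ _ fun i _ => Finset.sum_nonneg fun u _ => h i u
  refine h2.trans (pow_le_pow_left₀ ?_ (hg z) 2)
  exact Finset.sum_nonneg fun i _ => Finset.sum_nonneg fun u _ => h i u

end alg

/-! ### the lifts of the pieces -/

lemma PB_one_bef {A B : ℝ → ℝ} (hA : PB A) (hB : PB B) : PB fun x => 1 - bef (A x) (B x) := by
  refine ⟨?_, fun x => ?_, ⟨1, fun x => ?_⟩, fun x => ?_⟩
  · exact measurable_const.sub ((hA.meas.min hB.meas).div hB.meas)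
  · have := bef_le_one (A := A x) (B := B x) (hB.nonneg x)
    linarith
  · have := bef_nonneg (A := A x) (B := B x) (hA.nonneg x) (hB.nonneg x)
    show 1 - bef (A x) (B x) ≤ 1
    linarith
  · show 1 - bef (A (x + 1)) (B (x + 1)) = 1 - bef (A x) (B x)
    rw [hA.per, hB.per]

section gp
variable {Λ κ : Type} [Fintype Λ] [DecidableEq Λ] [Fintype κ] [DecidableEq κ]

/-- **lifts of the pieces** of a bundle of ties and pulls -/
noncomputable def gp (kd : Λ → κ) (p : ℕ) (K : List (DT Λ κ)) (j : Λ) (x : ℝ) : ℝ :=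
  (1 - bef (sm kd (pA K) (kd j) (p * x)) (sm kd (pB K) (kd j) (p * x))) * pG K j x

variable {kd : Λ → κ} {p : ℕ} {K : List (DT Λ κ)}

lemma PB_gp (h : KOk kd p K) (j : Λ) : PB (gp kd p K j) := by
  have h1 := PB_one_bef (PB_sm (fun j => h.PA j) kd (kd j)) (PB_sm (fun j => h.PBb j) kd (kd j))
  exact (h1.pull p).mul (PB_pG K j)

/-- the class sums of the lifts of the pieces are the class lifts -/
lemma sum_gp (h : KOk kd p K) (j₀ : Λ) (c : κ) (x : ℝ) :
    ∑ j ∈ Finset.univ.filter (fun j => kd j = c), gp kd p K j x = gb K c x := by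
  have h1 := (jv_K h j₀ x).2 c
  rw [h1]
  have e : ∀ j ∈ Finset.univ.filter (fun j => kd j = c), gp kd p K j x =
      (1 - bef (sm kd (pA K) c (p * x)) (sm kd (pB K) c (p * x))) * pG K j x := by
    intro j hj
    have hj' : kd j = c := (Finset.mem_filter.1 hj).2
    unfold gp
    rw [hj']
  rw [Finset.sum_congr rfl e, ← Finset.mul_sum]
  rfl

end gp

/-! ### the group -/

section grp
variable {Λ κ : Type} [Fintype Λ] [DecidableEq Λ] [Fintype κ] [DecidableEq κ]
  {ι ζ : Type} [Fintype ι] [DecidableEq ι] [Fintype ζ] [DecidableEq ζ] {β : Type}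

/-- **typed lifts** over bundles `β` : projection to the lists of trees, types of the row and of the
point -/
structure TL (β Λ κ ι ζ : Type) where
  /-- the list of trees -/
  pr : β → List (DT Λ κ)
  /-- real classes -/
  wr : ℕ → Λ → κ
  /-- index -/
  ix : κ → ι
  /-- type of the row -/
  ta : ℕ → β → ℝ → Λ → Option ζ
  /-- type of the point -/
  tb : ℕ → β → ℝ → Λ → Option ζ

namespace TL
variable (Y : TL β Λ κ ι ζ)

/-- the row class of a piece -/
def tau (p : ℕ) (b : β) (x : ℝ) (j : Λ) : ι × (Option ζ × Option ζ) :=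
  (Y.ix (Y.wr p j), Y.ta p b x j, Y.tb p b x j)

/-- lifts of the pieces of the ties and pulls of a bundle -/
noncomputable def gl (p : ℕ) (b : β) (j : Λ) (x : ℝ) : ℝ := gp (Y.wr p) p (bB p (Y.pr b)) j x

/-- lifts of the row classes -/
noncomputable def Fc (p : ℕ) (b : β) (t : ι × (Option ζ × Option ζ)) (x : ℝ) : ℝ :=
  hz (Y.tau p b) (Y.gl p b) t x

/-- both types are in the game -/
def good (u : Option ζ × Option ζ) : Prop := u.1 ≠ none ∧ u.2 ≠ none

/-- group lifts of the row classes -/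
noncomputable def mc (p : ℕ) (s : Gs β) (x : ℝ) (i : ι) (u : Option ζ × Option ζ) : ℝ :=
  M s.c fun j => Y.Fc p (s.L j) (i, u) x

/-- **real costs of the game** -/
noncomputable def rco (p : ℕ) (s : Gs β) (x : ℝ) : ℝ := rA good (Y.mc p s x)

/-- **the other pairs** of one index class -/
noncomputable def eco (p : ℕ) (s : Gs β) (x : ℝ) : ℝ := eA good (Y.mc p s x)

/-- fine bundles -/
structure Ok (p : ℕ) (b : β) : Prop where
  kok : KOk (Y.wr p) p (bB p (Y.pr b))
  ma : ∀ j, MP fun x => Y.ta p b x j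
  mb : ∀ j, MP fun x => Y.tb p b x j

variable {Y} {p : ℕ} {b : β} {s : Gs β}

lemma Ok.tau (h : Y.Ok p b) (j : Λ) : MP fun x => Y.tau p b x j :=
  (MP.const (Y.ix (Y.wr p j))).prod ((h.ma j).prod (h.mb j))

lemma PB_gl (h : Y.Ok p b) (j : Λ) : PB (Y.gl p b j) := PB_gp h.kok j

lemma PB_Fc (h : Y.Ok p b) (t : ι × (Option ζ × Option ζ)) : PB (Y.Fc p b t) :=
  PB_hz h.tau (PB_gl h) t

lemma PB_mc (c0 : ∀ j, 0 ≤ s.c j) (h : ∀ j, Y.Ok p (s.L j)) (i : ι) (u : Option ζ × Option ζ) :
    PB fun x => Y.mc p s x i u := PB_M c0 (f := fun x j => Y.Fc p (s.L j) (i, u) x)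
      fun j => PB_Fc (h j) (i, u)

lemma PB_rco (c0 : ∀ j, 0 ≤ s.c j) (h : ∀ j, Y.Ok p (s.L j)) : PB (Y.rco p s) := by
  classical
  refine PB.sum _ fun i _ => PB.sum _ fun u _ => ?_
  by_cases hu : good u
  · simp only [if_pos hu]
    exact PBsq (PB_mc c0 h i u)
  · simp only [if_neg hu]
    exact PB.const le_rfl

lemma PB_eco (c0 : ∀ j, 0 ≤ s.c j) (h : ∀ j, Y.Ok p (s.L j)) : PB (Y.eco p s) := by
  classical
  refine PB.sum _ fun i _ => PB.sum _ fun u _ => PB.sum _ fun v _ => ?_
  by_cases hu : u = v ∧ good u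
  · simp only [if_pos hu]
    exact PB.const le_rfl
  · simp only [if_neg hu]
    exact (PB_mc c0 h i u).mul (PB_mc c0 h i v)

lemma Fc_eq (t : ι × (Option ζ × Option ζ)) (x : ℝ) :
    Y.Fc p b t x = ∑ j, if Y.tau p b x j = t then Y.gl p b j x else 0 := by
  unfold Fc
  rw [hz_eq]
  refine Finset.sum_congr rfl fun j _ => ?_
  by_cases h : Y.tau p b x j = t
  · rw [if_pos h, if_pos h]
  · rw [if_neg h, if_neg h]

/-- the class lifts of a bundle by index -/
lemma sum_Fc (h : Y.Ok p b) (j₀ : Λ) (i : ι) (x : ℝ) :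
    ∑ u, Y.Fc p b (i, u) x = ∑ c ∈ Finset.univ.filter (fun c => Y.ix c = i),
      gb (bB p (Y.pr b)) c x := by
  classical
  have e1 : ∑ c ∈ Finset.univ.filter (fun c => Y.ix c = i), gb (bB p (Y.pr b)) c x =
      ∑ j, if Y.ix (Y.wr p j) = i then Y.gl p b j x else 0 := by
    rw [← Finset.sum_filter]
    rw [← Finset.sum_fiberwise_of_maps_to (s := Finset.univ.filter fun j => Y.ix (Y.wr p j) = i)
      (t := Finset.univ.filter fun c => Y.ix c = i) (g := Y.wr p) (fun j hj => by
        simp only [Finset.mem_filter, Finset.mem_univ, true_and] at hj ⊢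
        exact hj)]
    refine Finset.sum_congr rfl fun c hc => ?_
    have hc' : Y.ix c = i := (Finset.mem_filter.1 hc).2
    rw [← sum_gp h.kok j₀ c x]
    refine Finset.sum_congr ?_ fun _ _ => rfl
    ext j
    simp only [Finset.mem_filter, Finset.mem_univ, true_and]
    constructor
    · intro hj
      exact ⟨by rw [hj]; exact hc', hj⟩
    · exact fun hj => hj.2
  rw [e1]
  have e2 : ∀ u, Y.Fc p b (i, u) x =
      ∑ j, if Y.tau p b x j = (i, u) then Y.gl p b j x else 0 := fun u => Fc_eq _ _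
  simp only [e2]
  rw [Finset.sum_comm]
  refine Finset.sum_congr rfl fun j _ => ?_
  by_cases hj : Y.ix (Y.wr p j) = i
  · rw [if_pos hj]
    have e3 : ∀ u : Option ζ × Option ζ, (Y.tau p b x j = (i, u)) ↔
        ((Y.ta p b x j, Y.tb p b x j) = u) := by
      intro u
      unfold tau
      rw [hj]
      constructor
      · intro hh; exact (Prod.ext_iff.1 hh).2
      · intro hh; rw [← hh]
    simp only [e3]
    rw [Finset.sum_ite_eq]
    simp
  · rw [if_neg hj]
    refine Finset.sum_eq_zero fun u _ => if_neg ?_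
    intro hh
    exact hj (Prod.ext_iff.1 hh).1

/-- the group state of the lists -/
def lst (Y : TL β Λ κ ι ζ) (s : Gs β) : GWc343.St Λ κ :=
  ⟨s.J, s.fJ, s.c, s.W, fun j => Y.pr (s.L j)⟩

lemma GmG_lst (c : κ) (x : ℝ) : GmG (gBs p (Y.lst s)) c x =
    M s.c fun j => gb (bB p (Y.pr (s.L j))) c x := by
  rw [GmG_ev]
  unfold gBs
  rw [ev_fl]
  rfl

/-- **THE SPLITTING** of the local term of the group walk -/
theorem loc_eq (h : ∀ j, Y.Ok p (s.L j)) (j₀ : Λ) (x : ℝ) :
    ∑ i, ixF Y.ix (GmG (gBs p (Y.lst s))) i x ^ 2 = Y.rco p s x + Y.eco p s x := by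
  unfold rco eco
  rw [← sq_split]
  refine Finset.sum_congr rfl fun i _ => ?_
  congr 1
  unfold ixF mc
  simp only [GmG_lst]
  rw [← M_sum, ← M_sum]
  congr 1
  funext j
  exact (sum_Fc (h j) j₀ i x).symm

/-- lifts of the pieces by one map into the types -/
lemma sum_types (r : Option ζ × Option ζ → Option ζ) (z : ζ) (x : ℝ) :
    ∑ i, ∑ u ∈ Finset.univ.filter (fun u => r u = some z), Y.Fc p b (i, u) x =
      hz (fun x j => r (Y.ta p b x j, Y.tb p b x j)) (Y.gl p b) (some z) x := by
  classical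
  have e2 : ∀ i u, Y.Fc p b (i, u) x =
      ∑ j, if Y.tau p b x j = (i, u) then Y.gl p b j x else 0 := fun i u => Fc_eq _ _
  simp only [e2, Finset.sum_filter]
  rw [hz_eq]
  have e3 : ∀ i, (∑ u, if r u = some z then (∑ j, if Y.tau p b x j = (i, u) then Y.gl p b j x
      else 0) else 0) = ∑ j, ∑ u, if r u = some z ∧ Y.tau p b x j = (i, u) then Y.gl p b j x
      else 0 := by
    intro i
    rw [Finset.sum_comm]
    refine Finset.sum_congr rfl fun u _ => ?_
    by_cases hu : r u = some z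
    · simp [hu]
    · simp [hu]
  simp only [e3]
  rw [Finset.sum_comm]
  refine Finset.sum_congr rfl fun j _ => ?_
  have e4 : ∀ i u, (r u = some z ∧ Y.tau p b x j = (i, u)) ↔
      (i = Y.ix (Y.wr p j) ∧ u = (Y.ta p b x j, Y.tb p b x j) ∧
        r (Y.ta p b x j, Y.tb p b x j) = some z) := by
    intro i u
    unfold tau
    constructor
    · rintro ⟨h1, h2⟩
      obtain ⟨h3, h4⟩ := Prod.ext_iff.1 h2
      exact ⟨h3.symm, h4.symm, by
        show r ((Y.ta p b x j, Y.tb p b x j)) = some z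
        have h5 : (Y.ta p b x j, Y.tb p b x j) = u := h4
        rw [h5]; exact h1⟩
    · rintro ⟨h1, h2, h3⟩
      rw [h2]
      exact ⟨h3, by rw [h1]⟩
  simp only [e4]
  by_cases hz' : r (Y.ta p b x j, Y.tb p b x j) = some z
  · rw [if_pos hz']
    rw [Finset.sum_eq_single (Y.ix (Y.wr p j))]
    · rw [Finset.sum_eq_single (Y.ta p b x j, Y.tb p b x j)]
      · rw [if_pos ⟨rfl, rfl, hz'⟩]
      · intro u _ hu
        rw [if_neg fun hh => hu hh.2.1]
      · intro hh; exact absurd (Finset.mem_univ _) hh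
    · intro i _ hi
      refine Finset.sum_eq_zero fun u _ => if_neg fun hh => hi hh.1
    · intro hh; exact absurd (Finset.mem_univ _) hh
  · rw [if_neg hz']
    refine Finset.sum_eq_zero fun i _ => Finset.sum_eq_zero fun u _ => if_neg fun hh => hz' hh.2.2

lemma mc_nonneg (c0 : ∀ j, 0 ≤ s.c j) (h : ∀ j, Y.Ok p (s.L j)) (x : ℝ) (i : ι)
    (u : Option ζ × Option ζ) : 0 ≤ Y.mc p s x i u := (PB_mc c0 h i u).nonneg x

/-- the real costs against lifts of coarser classes -/
lemma rco_le (c0 : ∀ j, 0 ≤ s.c j) (h : ∀ j, Y.Ok p (s.L j)) (x : ℝ)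
    (r : Option ζ × Option ζ → Option ζ) (hr : ∀ u, good u → r u ≠ none)
    {g : β → ζ → ℝ → ℝ} (hg : ∀ j z, hz (fun x k => r (Y.ta p (s.L j) x k, Y.tb p (s.L j) x k))
      (Y.gl p (s.L j)) (some z) x ≤ g (s.L j) z x) : Y.rco p s x ≤ q2 s g x := by
  unfold rco q2
  refine rA_le good (mc_nonneg c0 h x) r hr fun z => ?_
  have e : ∑ i, ∑ u ∈ Finset.univ.filter (fun u => r u = some z), Y.mc p s x i u =
      M s.c fun j => ∑ i, ∑ u ∈ Finset.univ.filter (fun u => r u = some z),
        Y.Fc p (s.L j) (i, u) x := by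
    unfold mc
    rw [M_sum]
    refine Finset.sum_congr rfl fun i _ => ?_
    rw [M_sum]
  rw [e]
  refine M_mono c0 fun j => ?_
  rw [sum_types]
  exact hg j z

/-- **real costs of the game** : `rco` for any group data whose lifts are above the lifts of the
pieces by types -/
theorem rcost {R : RXm β ζ} {U : RBm R} (D : RGx U) (hY : ∀ {p b}, R.ok p b → p ≠ 0 → Y.Ok p b)
    (ha : ∀ {p b}, R.ok p b → p ≠ 0 → ∀ z x,
      hz (Y.ta p b) (Y.gl p b) (some z) x ≤ R.gc p b z x)
    (hb : ∀ {p b}, R.ok p b → p ≠ 0 → ∀ z x,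
      hz (Y.tb p b) (Y.gl p b) (some z) x ≤ R.gB p b z x) : RCost D Y.rco where
  prc := fun hs hp => PB_rco (D.gk hs).1.c0 fun j => hY ((D.gk hs).2 j) hp
  leP := fun {p s} hs hp x => rco_le (D.gk hs).1.c0 (fun j => hY ((D.gk hs).2 j) hp) x
    (fun u => u.1) (fun u hu => hu.1) (g := R.gc p) fun j z => ha ((D.gk hs).2 j) hp z x
  leB := fun {p s} hs hp x => rco_le (D.gk hs).1.c0 (fun j => hY ((D.gk hs).2 j) hp) x
    (fun u => u.2) (fun u hu => hu.2) (g := R.gB p) fun j z => hb ((D.gk hs).2 j) hp z x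

/-! ### pairs of pieces -/

/-- group lift of a piece -/
noncomputable def GP (Y : TL β Λ κ ι ζ) (p : ℕ) (s : Gs β) (j : Λ) (x : ℝ) : ℝ :=
  M s.c fun m => Y.gl p (s.L m) j x

lemma PB_GP (c0 : ∀ j, 0 ≤ s.c j) (h : ∀ j, Y.Ok p (s.L j)) (j : Λ) : PB (Y.GP p s j) :=
  PB_M c0 (f := fun x m => Y.gl p (s.L m) j x) fun m => PB_gl (h m) j

/-- two pieces typed alike -/
def alike (A B : ℝ → Λ → Option ζ) (x : ℝ) (j j' : Λ) : Prop :=
  A x j = A x j' ∧ B x j = B x j' ∧ A x j ≠ none ∧ B x j ≠ none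

lemma mc_common {A B : ℝ → Λ → Option ζ} (hA : ∀ m, Y.ta p (s.L m) = A)
    (hB : ∀ m, Y.tb p (s.L m) = B) (x : ℝ) (i : ι) (u : Option ζ × Option ζ) :
    Y.mc p s x i u = ∑ j, if Y.ix (Y.wr p j) = i ∧ (A x j, B x j) = u then Y.GP p s j x else 0 := by
  unfold mc
  simp only [Fc_eq]
  rw [M_sum]
  refine Finset.sum_congr rfl fun j _ => ?_
  have e : ∀ m, (Y.tau p (s.L m) x j = (i, u)) ↔ (Y.ix (Y.wr p j) = i ∧ (A x j, B x j) = u) := by
    intro m
    unfold tau
    rw [hA m, hB m]
    exact Prod.mk.injEq _ _ _ _ ▸ Iff.rfl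
  simp only [e]
  by_cases h : Y.ix (Y.wr p j) = i ∧ (A x j, B x j) = u
  · simp only [if_pos h]
    rfl
  · simp only [if_neg h]
    simp [M]

open Classical in
/-- **the other pairs are the pairs of pieces of one index class which are not typed alike** -/
theorem eco_pairs {A B : ℝ → Λ → Option ζ} (hA : ∀ m, Y.ta p (s.L m) = A)
    (hB : ∀ m, Y.tb p (s.L m) = B) (x : ℝ) :
    Y.eco p s x = ∑ j, ∑ j', if Y.ix (Y.wr p j) = Y.ix (Y.wr p j') ∧ ¬ alike A B x j j' then
      Y.GP p s j x * Y.GP p s j' x else 0 := by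
  have h0 := sq_split (good (ζ := ζ)) (Y.mc p s x)
  have e1 : Y.eco p s x = ∑ i, (∑ u, Y.mc p s x i u) ^ 2 - rA good (Y.mc p s x) := by
    unfold eco
    rw [h0]; ring
  have e2 : ∀ i, ∑ u, Y.mc p s x i u = ∑ j, if Y.ix (Y.wr p j) = i then Y.GP p s j x else 0 := by
    intro i
    simp only [mc_common hA hB]
    rw [Finset.sum_comm]
    refine Finset.sum_congr rfl fun j _ => ?_
    by_cases h : Y.ix (Y.wr p j) = i
    · simp only [h, true_and, if_true]
      rw [Finset.sum_ite_eq]
      simp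
    · simp [h]
  have e3 : ∑ i, (∑ u, Y.mc p s x i u) ^ 2 =
      ∑ j, ∑ j', if Y.ix (Y.wr p j) = Y.ix (Y.wr p j') then Y.GP p s j x * Y.GP p s j' x else 0 := by
    simp only [e2, sq, Finset.sum_mul_sum]
    rw [Finset.sum_comm]
    refine Finset.sum_congr rfl fun j _ => ?_
    rw [Finset.sum_comm]
    refine Finset.sum_congr rfl fun j' _ => ?_
    have e5 : ∀ i, ((if Y.ix (Y.wr p j) = i then Y.GP p s j x else 0) *
        if Y.ix (Y.wr p j') = i then Y.GP p s j' x else 0) =
        if Y.ix (Y.wr p j) = i then (if Y.ix (Y.wr p j) = Y.ix (Y.wr p j') then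
          Y.GP p s j x * Y.GP p s j' x else 0) else 0 := by
      intro i
      by_cases h1 : Y.ix (Y.wr p j) = i
      · subst h1
        by_cases h2 : Y.ix (Y.wr p j') = Y.ix (Y.wr p j)
        · simp [h2]
        · have h3 : ¬ Y.ix (Y.wr p j) = Y.ix (Y.wr p j') := fun h => h2 h.symm
          simp [h2, h3]
      · simp [h1]
    simp only [e5]
    rw [Finset.sum_ite_eq]
    simp
  have e4 : rA good (Y.mc p s x) = ∑ j, ∑ j', if Y.ix (Y.wr p j) = Y.ix (Y.wr p j') ∧
      alike A B x j j' then Y.GP p s j x * Y.GP p s j' x else 0 := by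
    unfold rA
    have e5 : ∀ i u, (if good u then Y.mc p s x i u ^ 2 else 0) = ∑ j, ∑ j',
        if Y.ix (Y.wr p j) = i ∧ (A x j, B x j) = u then
          (if Y.ix (Y.wr p j) = Y.ix (Y.wr p j') ∧ alike A B x j j' then
            Y.GP p s j x * Y.GP p s j' x else 0) else 0 := by
      intro i u
      by_cases hg : good u
      · rw [if_pos hg, sq, mc_common hA hB, Finset.sum_mul_sum]
        refine Finset.sum_congr rfl fun j _ => Finset.sum_congr rfl fun j' _ => ?_
        by_cases h1 : Y.ix (Y.wr p j) = i ∧ (A x j, B x j) = u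
        · by_cases h2 : Y.ix (Y.wr p j') = i ∧ (A x j', B x j') = u
          · have h3 : Y.ix (Y.wr p j) = Y.ix (Y.wr p j') ∧ alike A B x j j' := by
              refine ⟨h1.1.trans h2.1.symm, ?_⟩
              have h4 : (A x j, B x j) = (A x j', B x j') := h1.2.trans h2.2.symm
              obtain ⟨h5, h6⟩ := Prod.ext_iff.1 h4
              have h7 : u.1 = A x j := by rw [← h1.2]
              have h8 : u.2 = B x j := by rw [← h1.2]
              exact ⟨h5, h6, by rw [← h7]; exact hg.1, by rw [← h8]; exact hg.2⟩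
            rw [if_pos h1, if_pos h2, if_pos h1, if_pos h3]
          · have h3 : ¬ (Y.ix (Y.wr p j) = Y.ix (Y.wr p j') ∧ alike A B x j j') := by
              rintro ⟨h4, h5, h6, -, -⟩
              exact h2 ⟨h4.symm.trans h1.1, by rw [← h5, ← h6]; exact h1.2⟩
            rw [if_pos h1, if_neg h2, if_pos h1, if_neg h3, mul_zero]
        · rw [if_neg h1, if_neg h1, zero_mul]
      · rw [if_neg hg]
        symm
        refine Finset.sum_eq_zero fun j _ => Finset.sum_eq_zero fun j' _ => ?_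
        by_cases h1 : Y.ix (Y.wr p j) = i ∧ (A x j, B x j) = u
        · rw [if_pos h1]
          refine if_neg ?_
          rintro ⟨-, -, -, h5, h6⟩
          refine hg ⟨?_, ?_⟩
          · rw [← h1.2]; exact h5
          · rw [← h1.2]; exact h6
        · rw [if_neg h1]
    simp only [e5]
    have e6 : ∀ i, (∑ u, ∑ j, ∑ j', if Y.ix (Y.wr p j) = i ∧ (A x j, B x j) = u then
          (if Y.ix (Y.wr p j) = Y.ix (Y.wr p j') ∧ alike A B x j j' then
            Y.GP p s j x * Y.GP p s j' x else 0) else 0) =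
        ∑ j, ∑ j', if Y.ix (Y.wr p j) = i then
          (if Y.ix (Y.wr p j) = Y.ix (Y.wr p j') ∧ alike A B x j j' then
            Y.GP p s j x * Y.GP p s j' x else 0) else 0 := by
      intro i
      rw [Finset.sum_comm]
      refine Finset.sum_congr rfl fun j _ => ?_
      rw [Finset.sum_comm]
      refine Finset.sum_congr rfl fun j' _ => ?_
      by_cases h : Y.ix (Y.wr p j) = i
      · simp only [h, true_and, if_true]
        rw [Finset.sum_ite_eq]
        simp
      · simp [h]
    simp only [e6]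
    rw [Finset.sum_comm]
    refine Finset.sum_congr rfl fun j _ => ?_
    rw [Finset.sum_comm]
    refine Finset.sum_congr rfl fun j' _ => ?_
    rw [Finset.sum_ite_eq]
    simp
  rw [e1, e3, e4, ← Finset.sum_sub_distrib]
  refine Finset.sum_congr rfl fun j _ => ?_
  rw [← Finset.sum_sub_distrib]
  refine Finset.sum_congr rfl fun j' _ => ?_
  by_cases h1 : Y.ix (Y.wr p j) = Y.ix (Y.wr p j')
  · by_cases h2 : alike A B x j j'
    · rw [if_pos h1, if_pos ⟨h1, h2⟩, if_neg (fun h => h.2 h2), sub_self]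
    · rw [if_pos h1, if_neg (fun h => h2 h.2), if_pos ⟨h1, h2⟩, sub_zero]
  · rw [if_neg h1, if_neg (fun h => h1 h.1), if_neg (fun h => h1 h.1), sub_self]

end TL

end grp

end Crest.Agent.R4P.E3D479
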