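import Crest.Agent.R4P.E3D_479
import Crest.Agent.R4P.DTm_407
import Crest.Agent.R4P.GSK_55
import Crest.Agent.R4P.TopX_36

/-!
R4 (S0004) with powers, T3, helper479 (PLAN v1, D1): **the local link over `DTm_407`**.

* `tl D wr ix` : the typed lifts (`E3D479.TL`) of the typing data `D` : row types = LOW types
  `x ↦ D.lt p m (p x)`, point types `D.tp`, lifts `eg`; `tl_ok`.
* `rcost_DT` : `rco` are real costs (`RCost`) of any group data with `gc = D.gc`, `gB = D.gB`.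
* `gT_link` : **the local term of the group walk of a context** `gT X p (gBs ..) = I rco + I eco`
  (the field `loc` of `GTopW50.NData` with `c = 1`).
* `Cm` : common memory of the members, closed under the walk.
* `psm Rl` : pair sums of group lifts; `eco_le` : `eco ≤ psm` (same index, different or no low types) +
  `psm` (same index and low type, different point types).
-/

set_option autoImplicit false
set_option linter.unusedSectionVars false
set_option linter.unusedVariables false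
open MeasureTheory Filter Set

namespace Crest.Agent.R4P.E3E479

open Crest.Agent.R4.Tour104 Crest.Agent.R4.Tour758 Crest.Agent.R4.Avg758 Crest.Agent.R4.Clos758
open Crest.Agent.R4.ClosL758 Crest.Agent.R4.ClosG758 Crest.Agent.R4.ClosR758
open Crest.Agent.R4P.ClosR442 Crest.Agent.R4P.Grp36
open Crest.Agent.R4P.Xfer36 Crest.Agent.R4P.TopC36 Crest.Agent.R4P.PN36
open Crest.Agent.R4P.GMer27 Crest.Agent.R4P.GCol27 Crest.Agent.R4P.GWa343 Crest.Agent.R4P.GWb343
open Crest.Agent.R4P.GWc343 Crest.Agent.R4P.GWd343 Crest.Agent.R4P.TrR343 Crest.Agent.R4P.DTp26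
open Crest.Agent.R4P.RSys343 Crest.Agent.R4P.RXm55 Crest.Agent.R4P.MSm25
open Crest.Agent.R4P.VR407 Crest.Agent.R4P.Bp407 Crest.Agent.R4P.DTm407
open Crest.Agent.R4P.GSK55 (stp gk Pr Kw one)
open Crest.Agent.R4P.PayR45 (BM)
open Crest.Agent.R4P.E3D479
open Crest.Agent.R4P.RXj343.RX (sm2 q2)
open Crest.Agent.R4P.MSi343 (su)
open Crest.Agent.R4P.Walk560 (DT)

section td
variable {μ Λ κ ζ ι : Type} [Fintype Λ] [DecidableEq Λ] [Fintype κ] [DecidableEq κ]
  [Fintype ζ] [DecidableEq ζ] [Fintype ι] [DecidableEq ι]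

/-- the typed lifts of typing data -/
noncomputable def tl (D : TD μ Λ κ ζ) (wr : ℕ → Λ → κ) (ix : κ → ι) :
    TL (μ × List (DT Λ κ)) Λ κ ι ζ where
  pr := Prod.snd
  wr := wr
  ix := ix
  ta := fun p b x => D.lt p b.1 (p * x)
  tb := fun p b => D.tp p b.1

variable {D : TD μ Λ κ ζ} {wr : ℕ → Λ → κ} {ix : κ → ι}
  {Inv : ℕ → μ × List (DT Λ κ) → Prop} {p : ℕ} {b : μ × List (DT Λ κ)}
  {s : Gs (μ × List (DT Λ κ))}

lemma gl_eq (p : ℕ) (b : μ × List (DT Λ κ)) :
    (tl D wr ix).gl p b = eg (wr p) p (bB p b.2) := rfl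

lemma tl_ok (H : TYp wr D Inv) (hb : Inv p b) (hp : p ≠ 0) : (tl D wr ix).Ok p b where
  kok := H.bok hb hp
  ma := H.mltp p b.1
  mb := H.mtp p b.1

/-- **`rco` are real costs** -/
theorem rcost_DT (H : TYp wr D Inv) {R : RXm (μ × List (DT Λ κ)) ζ} {U : RBm R} (G : RGx U)
    (hR : ∀ {p b}, R.ok p b → Inv p b)
    (hgc : ∀ {p b}, R.ok p b → p ≠ 0 → ∀ z x, D.gc wr p b z x ≤ R.gc p b z x)
    (hgB : ∀ {p b}, R.ok p b → p ≠ 0 → ∀ z x, D.gB wr p b z x ≤ R.gB p b z x) :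
    RCost G (tl D wr ix).rco :=
  TL.rcost G (fun h hp => tl_ok H (hR h) hp) (fun h hp z x => hgc h hp z x)
    (fun h hp z x => hgB h hp z x)

lemma lst_eq (s : Gs (μ × List (DT Λ κ))) : (tl D wr ix).lst s = stp Prod.snd s := rfl

/-- **the local link**, any index map -/
theorem link (H : TYp wr D Inv) (c0 : ∀ j, 0 ≤ s.c j) (h : ∀ j, Inv p (s.L j)) (hp : p ≠ 0)
    (j₀ : Λ) : I (fun x => ∑ i, ixF ix (GmG (gBs p (stp Prod.snd s))) i x ^ 2) =
      I ((tl D wr ix).rco p s) + I ((tl D wr ix).eco p s) := by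
  have hY : ∀ j, (tl D wr ix).Ok p (s.L j) := fun j => tl_ok H (h j) hp
  rw [← I_add (TL.PB_rco c0 hY).integrableOn (TL.PB_eco c0 hY).integrableOn]
  congr 1
  funext x
  rw [← lst_eq (D := D) (wr := wr) (ix := ix)]
  exact TL.loc_eq hY j₀ x

/-! ### common memory -/

/-- the memory is common to the members -/
def Cm (m : μ) (s : Gs (μ × List (DT Λ κ))) : Prop := ∀ j, (s.L j).1 = m

lemma Cm_one (b : μ × List (DT Λ κ)) : Cm b.1 (one b) := fun _ => rfl

lemma Cm_C {M : BM (μ × List (DT Λ κ))} (hP : ∀ p b, M.cP p b = D.cP p b)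
    (hN : ∀ p b, M.cN p b = D.cN p b) {m : μ} (h : Cm m s) : Cm (D.tu p m) (M.C p s) := by
  by_cases h2 : 2 ≤ p
  · rw [GSK55.BC_pos M h2]
    intro x
    show (if x.2 = true then M.cP p (s.L x.1) else M.cN p (s.L x.1)).1 = D.tu p m
    split_ifs
    · rw [hP]
      show D.tu p (s.L x.1).1 = _
      rw [h]
    · rw [hN]
      show D.tu p (s.L x.1).1 = _
      rw [h]
  · rw [GSK55.BC_neg M h2]
    intro j
    show (M.cP p (s.L j)).1 = _
    rw [hP]
    show D.tu p (s.L j).1 = _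
    rw [h]

lemma Cm_N {M : BM (μ × List (DT Λ κ))} (hR : ∀ p b, M.rN p b = D.rN p b) {m : μ}
    (h : Cm m s) : Cm m (M.N p s) := by
  intro j
  show (M.rN p (s.L j)).1 = _
  rw [hR]
  exact h j

/-! ### pair sums -/

open Classical in
/-- **pair sums** of the group lifts of the pieces -/
noncomputable def psm (Y : TL (μ × List (DT Λ κ)) Λ κ ι ζ) (Rl : ℝ → Λ → Λ → Prop) (p : ℕ)
    (s : Gs (μ × List (DT Λ κ))) (x : ℝ) : ℝ :=
  ∑ j, ∑ j', if Rl x j j' then Y.GP p s j x * Y.GP p s j' x else 0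

/-- (B) same index, low types different or outside of the game -/
def rB (D : TD μ Λ κ ζ) (wr : ℕ → Λ → κ) (ix : κ → ι) (p : ℕ) (m : μ) (x : ℝ) (j j' : Λ) : Prop :=
  ix (wr p j) = ix (wr p j') ∧
    (D.lt p m (p * x) j ≠ D.lt p m (p * x) j' ∨ D.lt p m (p * x) j = none)

/-- (C) same index and low type, different point types -/
def rC (D : TD μ Λ κ ζ) (wr : ℕ → Λ → κ) (ix : κ → ι) (p : ℕ) (m : μ) (x : ℝ) (j j' : Λ) : Prop :=
  ix (wr p j) = ix (wr p j') ∧ D.lt p m (p * x) j = D.lt p m (p * x) j' ∧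
    D.lt p m (p * x) j ≠ none ∧ D.tp p m x j ≠ D.tp p m x j'

lemma GP_ne {j : Λ} {x : ℝ} (h : (tl D wr ix).GP p s j x ≠ 0) :
    ∃ k, eg (wr p) p (bB p (s.L k).2) j x ≠ 0 := by
  by_contra hn
  push Not at hn
  apply h
  show M s.c (fun k => eg (wr p) p (bB p (s.L k).2) j x) = 0
  simp only [hn]
  simp [M]

/-- on the support of the lifts the point type is `none` iff the low type is `none` -/
lemma out_GP (H : TYp wr D Inv) (h : ∀ j, Inv p (s.L j)) (hp : p ≠ 0) {m : μ} (hm : Cm m s) {j : Λ}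
    {x : ℝ} (hj : (tl D wr ix).GP p s j x ≠ 0) :
    (D.tp p m x j = none ↔ D.lt p m (p * x) j = none) := by
  obtain ⟨k, hk⟩ := GP_ne hj
  have h1 : jv (bB p (s.L k).2) j x ≠ 0 := by
    intro h0
    have h2 := eg_le (H.bok (h k) hp) (Nat.pos_of_ne_zero hp) j x
    have h3 := (PB_eg (H.bok (h k) hp) j).nonneg x
    rw [h0] at h2
    exact hk (le_antisymm h2 h3)
  have h4 := H.out1 (h k) hp x j h1
  rw [hm k] at h4
  exact h4

lemma ite_le2 {P A B : Prop} [Decidable P] [Decidable A] [Decidable B] {v : ℝ}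
    (hv : 0 ≤ v) (h : P → v = 0 ∨ A ∨ B) :
    (if P then v else 0) ≤ (if A then v else 0) + (if B then v else 0) := by
  have n1 : ∀ (Q : Prop) [Decidable Q], 0 ≤ (if Q then v else 0) := fun Q _ => by
    by_cases hQ : Q
    · rw [if_pos hQ]; exact hv
    · rw [if_neg hQ]
  by_cases hP : P
  · rw [if_pos hP]
    rcases h hP with h1 | h1 | h1
    · rw [h1]; simp
    · rw [if_pos h1]; linarith [n1 B]
    · rw [if_pos h1]; linarith [n1 A]
  · rw [if_neg hP]
    linarith [n1 A, n1 B]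

/-- **the other pairs, by kinds** -/
theorem eco_le (H : TYp wr D Inv) (c0 : ∀ j, 0 ≤ s.c j) (h : ∀ j, Inv p (s.L j)) (hp : p ≠ 0)
    {m : μ} (hm : Cm m s) (x : ℝ) : (tl D wr ix).eco p s x ≤
      psm (tl D wr ix) (rB D wr ix p m) p s x + psm (tl D wr ix) (rC D wr ix p m) p s x := by
  classical
  have hA : ∀ k, (tl D wr ix).ta p (s.L k) = fun x => D.lt p m (p * x) := fun k => by
    show (fun x : ℝ => D.lt p (s.L k).1 (p * x)) = _
    rw [hm k]
  have hB : ∀ k, (tl D wr ix).tb p (s.L k) = D.tp p m := fun k => by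
    show D.tp p (s.L k).1 = _
    rw [hm k]
  have h0 : ∀ j, 0 ≤ (tl D wr ix).GP p s j x := fun j =>
    (TL.PB_GP c0 (fun k => tl_ok H (h k) hp) j).nonneg x
  rw [TL.eco_pairs hA hB]
  unfold psm
  rw [← Finset.sum_add_distrib]
  refine Finset.sum_le_sum fun j _ => ?_
  rw [← Finset.sum_add_distrib]
  refine Finset.sum_le_sum fun j' _ => ?_
  have n0 : 0 ≤ (tl D wr ix).GP p s j x * (tl D wr ix).GP p s j' x := mul_nonneg (h0 j) (h0 j')
  refine ite_le2 n0 ?_
  rintro ⟨h1, h2⟩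
  by_cases hz : (tl D wr ix).GP p s j x * (tl D wr ix).GP p s j' x = 0
  · exact Or.inl hz
  refine Or.inr ?_
  have hj : (tl D wr ix).GP p s j x ≠ 0 := fun h3 => hz (by rw [h3, zero_mul])
  have o1 := out_GP H h hp hm hj
  by_cases hl : D.lt p m (p * x) j = D.lt p m (p * x) j'
  swap
  · exact Or.inl ⟨h1, Or.inl hl⟩
  by_cases hn : D.lt p m (p * x) j = none
  · exact Or.inl ⟨h1, Or.inr hn⟩
  refine Or.inr ⟨h1, hl, hn, fun ht => h2 ⟨hl, ht, hn, fun h3 => hn (o1.1 h3)⟩⟩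

end td

/-! ### a context -/

section ctx
open Crest.Agent.R4.Fam464 Crest.Agent.R4P.Cnt588 Crest.Agent.R4P.Item758
open Crest.Agent.R4P.Data758 Crest.Agent.R4P.Skel189
open Crest.Agent.R4P.TopX36

variable {N : Skel189.Num} {γ : ℝ} {p0 P₀ : ℕ} {μ ζ : Type} [Fintype ζ] [DecidableEq ζ]

/-- **the local link of a context** : the field `loc` of `GTopW50.NData` -/
theorem gT_link (X : Ctx N γ p0 P₀) (j₀ : X.c.Lam) {D : TD μ X.c.Lam (LbX X) ζ}
    {wr : ℕ → X.c.Lam → LbX X} {Inv : ℕ → μ × List (DT X.c.Lam (LbX X)) → Prop}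
    (H : TYp wr D Inv) {p : ℕ} {s : Gs (μ × List (DT X.c.Lam (LbX X)))} (c0 : ∀ j, 0 ≤ s.c j)
    (h : ∀ j, Inv p (s.L j)) (hp : p ≠ 0) : gT X p (gBs p (stp Prod.snd s)) =
      I ((tl D wr (ixL (X := X))).rco p s) + I ((tl D wr (ixL (X := X))).eco p s) :=
  link H c0 h hp j₀

end ctx

end Crest.Agent.R4P.E3E479
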