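import Crest.Agent.R4P.E3P_479

/-!
R4 (S0004) with powers, T3, helper493 (PLAN v1, C4 = E3b): **pairs of different groups cost nothing**.

The types of one index class are distributed over a constant number `n` of groups (own label / asleep / U
cell ...); by Cauchy-Schwarz over the groups the local term of the group walk is at most
`n * (real costs of the typed game) + n * (pairs of one index class and ONE GROUP with different types)`.

* `gq` : map of (column, index, types) to the groups; `ecoG` : pairs of one group, not typed alike;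
* **`TL.loc_le`**, **`linkG`**, **`gT_linkG`** : `gT X p (gBs ..) ≤ n * I rco + n * I ecoG`
  (= the field `loc` of `GTopW50.NData` with `c = n`, `er = n * I ecoG`).
* `ecoG_pairs`, **`ecoG_le`** : `ecoG` by pairs of pieces, by kinds (B), (C) as in `E3E_479`.
-/

set_option autoImplicit false
set_option linter.unusedSectionVars false
set_option linter.unusedVariables false
open MeasureTheory Filter Set

namespace Crest.Agent.R4P.E3G493

open Crest.Agent.R4.Tour104 Crest.Agent.R4.Tour758 Crest.Agent.R4.Avg758 Crest.Agent.R4.Clos758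
open Crest.Agent.R4.ClosL758 Crest.Agent.R4.ClosG758 Crest.Agent.R4.ClosR758
open Crest.Agent.R4P.ClosR442 Crest.Agent.R4P.Grp36
open Crest.Agent.R4P.Xfer36 Crest.Agent.R4P.TopC36 Crest.Agent.R4P.PN36
open Crest.Agent.R4P.GMer27 Crest.Agent.R4P.GCol27 Crest.Agent.R4P.GWa343 Crest.Agent.R4P.GWb343
open Crest.Agent.R4P.GWc343 Crest.Agent.R4P.GWd343 Crest.Agent.R4P.TrR343 Crest.Agent.R4P.DTp26
open Crest.Agent.R4P.RSys343 Crest.Agent.R4P.RXm55 Crest.Agent.R4P.MSm25
open Crest.Agent.R4P.VR407 Crest.Agent.R4P.Bp407 Crest.Agent.R4P.DTm407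
open Crest.Agent.R4P.GSK55 (stp gk Pr Kw one)
open Crest.Agent.R4P.E3D479 Crest.Agent.R4P.E3E479
open Crest.Agent.R4P.RXj343.RX (sm2 q2)
open Crest.Agent.R4P.MSi343 (su)
open Crest.Agent.R4P.Walk560 (DT)

/-! ### algebra -/

section alg
variable {ι T : Type} [Fintype ι] [Fintype T] [DecidableEq T] {n : ℕ}

/-- Cauchy-Schwarz over the groups -/
lemma grp_sq (gr : T → Fin n) (f : T → ℝ) :
    (∑ u, f u) ^ 2 ≤ n * ∑ u, ∑ v, if gr u = gr v then f u * f v else 0 := by
  classical
  have e1 : ∑ u, f u = ∑ g, ∑ u, if gr u = g then f u else 0 := by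
    rw [Finset.sum_comm]
    refine Finset.sum_congr rfl fun u _ => ?_
    rw [Finset.sum_ite_eq]
    simp
  have e2 : ∑ g, (∑ u, if gr u = g then f u else 0) ^ 2 =
      ∑ u, ∑ v, if gr u = gr v then f u * f v else 0 := by
    simp only [sq, Finset.sum_mul_sum]
    rw [Finset.sum_comm]
    refine Finset.sum_congr rfl fun u _ => ?_
    rw [Finset.sum_comm]
    refine Finset.sum_congr rfl fun v _ => ?_
    have e3 : ∀ g, ((if gr u = g then f u else 0) * if gr v = g then f v else 0) =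
        if gr u = g then (if gr u = gr v then f u * f v else 0) else 0 := by
      intro g
      by_cases h1 : gr u = g
      · subst h1
        by_cases h2 : gr u = gr v
        · rw [if_pos rfl, if_pos h2.symm, if_pos rfl, if_pos h2]
        · rw [if_pos rfl, if_neg fun h => h2 h.symm, if_pos rfl, if_neg h2, mul_zero]
      · rw [if_neg h1, if_neg h1, zero_mul]
    simp only [e3]
    rw [Finset.sum_ite_eq]
    simp
  have h := sq_sum_le_card_mul_sum_sq (s := (Finset.univ : Finset (Fin n)))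
    (f := fun g => ∑ u, if gr u = g then f u else 0)
  rw [Finset.card_univ, Fintype.card_fin, e2, ← e1] at h
  exact h

open Classical in
/-- pairs of one group which are not good squares -/
noncomputable def eG (good : T → Prop) (gr : ι → T → Fin n) (m : ι → T → ℝ) : ℝ :=
  ∑ i, ∑ u, ∑ v, if gr i u = gr i v ∧ ¬ (u = v ∧ good u) then m i u * m i v else 0

lemma sq_split_le (good : T → Prop) (gr : ι → T → Fin n) (m : ι → T → ℝ) :
    ∑ i, (∑ u, m i u) ^ 2 ≤ n * (rA good m + eG good gr m) := by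
  classical
  unfold rA eG
  rw [← Finset.sum_add_distrib, Finset.mul_sum]
  refine Finset.sum_le_sum fun i _ => ?_
  refine (grp_sq (gr i) (m i)).trans (le_of_eq ?_)
  congr 1
  rw [← Finset.sum_add_distrib]
  refine Finset.sum_congr rfl fun u _ => ?_
  have e1 : (if good u then m i u ^ 2 else 0) = ∑ v, if u = v ∧ good u then m i u * m i v else 0 := by
    by_cases hg : good u
    · simp only [hg, and_true, if_true]
      rw [Finset.sum_ite_eq]
      simp [sq]
    · simp [hg]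
  rw [e1, ← Finset.sum_add_distrib]
  refine Finset.sum_congr rfl fun v _ => ?_
  by_cases h1 : u = v ∧ good u
  · have h2 : gr i u = gr i v := by rw [h1.1]
    rw [if_pos h2, if_pos h1, if_neg fun h => h.2 h1, add_zero]
  · by_cases h2 : gr i u = gr i v
    · rw [if_pos h2, if_neg h1, if_pos ⟨h2, h1⟩, zero_add]
    · rw [if_neg h2, if_neg h1, if_neg fun h => h2 h.1, zero_add]

lemma eG_nonneg (good : T → Prop) (gr : ι → T → Fin n) {m : ι → T → ℝ} (h : ∀ i u, 0 ≤ m i u) :
    0 ≤ eG good gr m := by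
  classical
  refine Finset.sum_nonneg fun i _ => Finset.sum_nonneg fun u _ => Finset.sum_nonneg fun v _ => ?_
  split_ifs
  · exact mul_nonneg (h i u) (h i v)
  · exact le_rfl

/-- pairs of one group are among all the pairs -/
lemma eG_le (good : T → Prop) (gr : ι → T → Fin n) {m : ι → T → ℝ} (h : ∀ i u, 0 ≤ m i u) :
    eG good gr m ≤ eA good m := by
  classical
  refine Finset.sum_le_sum fun i _ => Finset.sum_le_sum fun u _ => Finset.sum_le_sum fun v _ => ?_
  by_cases h1 : u = v ∧ good u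
  · rw [if_pos h1, if_neg fun h => h.2 h1]
  · rw [if_neg h1]
    split_ifs
    · exact le_rfl
    · exact mul_nonneg (h i u) (h i v)

end alg

/-! ### the group -/

section grp
variable {Λ κ : Type} [Fintype Λ] [DecidableEq Λ] [Fintype κ] [DecidableEq κ]
  {ι ζ : Type} [Fintype ι] [DecidableEq ι] [Fintype ζ] [DecidableEq ζ] {β : Type} {n : ℕ}
  {Y : TL β Λ κ ι ζ} {p : ℕ} {s : Gs β}

/-- **pairs of one index class and one group** -/
noncomputable def ecoG (Y : TL β Λ κ ι ζ) (gr : ℕ → ι → Option ζ × Option ζ → Fin n) (p : ℕ) (s : Gs β)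
    (x : ℝ) : ℝ := eG TL.good (gr p) (Y.mc p s x)

lemma PB_ecoG (gr : ℕ → ι → Option ζ × Option ζ → Fin n) (c0 : ∀ j, 0 ≤ s.c j)
    (h : ∀ j, Y.Ok p (s.L j)) : PB (ecoG Y gr p s) := by
  classical
  refine PB.sum _ fun i _ => PB.sum _ fun u _ => PB.sum _ fun v _ => ?_
  by_cases hu : gr p i u = gr p i v ∧ ¬ (u = v ∧ TL.good u)
  · simp only [if_pos hu]
    exact (TL.PB_mc c0 h i u).mul (TL.PB_mc c0 h i v)
  · simp only [if_neg hu]
    exact PB.const le_rfl

/-- **THE LOCAL TERM** : real costs and the pairs of one group -/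
theorem loc_le (gr : ℕ → ι → Option ζ × Option ζ → Fin n) (h : ∀ j, Y.Ok p (s.L j)) (j₀ : Λ) (x : ℝ) :
    ∑ i, ixF Y.ix (GmG (gBs p (Y.lst s))) i x ^ 2 ≤ n * (Y.rco p s x + ecoG Y gr p s x) := by
  refine le_trans (le_of_eq ?_) (sq_split_le TL.good (gr p) (Y.mc p s x))
  refine Finset.sum_congr rfl fun i _ => ?_
  congr 1
  unfold ixF TL.mc
  simp only [TL.GmG_lst]
  rw [← M_sum, ← M_sum]
  congr 1
  funext j
  exact (TL.sum_Fc (h j) j₀ i x).symm

open Classical in
/-- **the pairs of one group are the pairs of pieces of one index class and one group which are not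
typed alike** -/
theorem ecoG_pairs (gr : ℕ → ι → Option ζ × Option ζ → Fin n) {A B : ℝ → Λ → Option ζ}
    (hA : ∀ m, Y.ta p (s.L m) = A) (hB : ∀ m, Y.tb p (s.L m) = B) (x : ℝ) :
    ecoG Y gr p s x = ∑ j, ∑ j', if Y.ix (Y.wr p j) = Y.ix (Y.wr p j') ∧
      gr p (Y.ix (Y.wr p j)) (A x j, B x j) = gr p (Y.ix (Y.wr p j)) (A x j', B x j') ∧
      ¬ TL.alike A B x j j' then Y.GP p s j x * Y.GP p s j' x else 0 := by
  unfold ecoG eG
  -- the class sums by pieces
  have e1 : ∀ i u v, (if gr p i u = gr p i v ∧ ¬ (u = v ∧ TL.good u) then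
      Y.mc p s x i u * Y.mc p s x i v else 0) = ∑ j, ∑ j',
      if (A x j, B x j) = u ∧ (A x j', B x j') = v ∧ Y.ix (Y.wr p j) = i then
        (if Y.ix (Y.wr p j) = Y.ix (Y.wr p j') ∧
          gr p (Y.ix (Y.wr p j)) (A x j, B x j) = gr p (Y.ix (Y.wr p j)) (A x j', B x j') ∧
          ¬ TL.alike A B x j j' then Y.GP p s j x * Y.GP p s j' x else 0) else 0 := by
    intro i u v
    by_cases hg : gr p i u = gr p i v ∧ ¬ (u = v ∧ TL.good u)
    · rw [if_pos hg, TL.mc_common hA hB, TL.mc_common hA hB, Finset.sum_mul_sum]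
      refine Finset.sum_congr rfl fun j _ => Finset.sum_congr rfl fun j' _ => ?_
      by_cases h1 : Y.ix (Y.wr p j) = i ∧ (A x j, B x j) = u
      · by_cases h2 : Y.ix (Y.wr p j') = i ∧ (A x j', B x j') = v
        · rw [if_pos h1, if_pos h2, if_pos ⟨h1.2, h2.2, h1.1⟩, if_pos]
          refine ⟨h1.1.trans h2.1.symm, ?_, ?_⟩
          · rw [h1.1, h1.2, h2.2]
            exact hg.1
          · rintro ⟨h3, h4, h5, h6⟩
            refine hg.2 ⟨?_, ?_, ?_⟩
            · rw [← h1.2, ← h2.2, h3, h4]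
            · rw [← h1.2]; exact h5
            · rw [← h1.2]; exact h6
        · rw [if_pos h1, if_neg h2, mul_zero]
          symm
          by_cases h3 : (A x j, B x j) = u ∧ (A x j', B x j') = v ∧ Y.ix (Y.wr p j) = i
          · rw [if_pos h3]
            refine if_neg ?_
            rintro ⟨h4, -, -⟩
            exact h2 ⟨h4.symm.trans h3.2.2, h3.2.1⟩
          · rw [if_neg h3]
      · rw [if_neg h1, zero_mul]
        symm
        exact if_neg fun h3 => h1 ⟨h3.2.2, h3.1⟩
    · rw [if_neg hg]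
      symm
      refine Finset.sum_eq_zero fun j _ => Finset.sum_eq_zero fun j' _ => ?_
      by_cases h3 : (A x j, B x j) = u ∧ (A x j', B x j') = v ∧ Y.ix (Y.wr p j) = i
      · rw [if_pos h3]
        refine if_neg ?_
        rintro ⟨h4, h5, h6⟩
        rw [h3.1, h3.2.1, h3.2.2] at h5
        refine hg ⟨h5, ?_⟩
        rintro ⟨h7, h8, h9⟩
        have h10 : (A x j, B x j) = (A x j', B x j') := by rw [h3.1, h3.2.1, h7]
        obtain ⟨h11, h12⟩ := Prod.ext_iff.1 h10
        refine h6 ⟨h11, h12, ?_, ?_⟩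
        · have : u.1 = A x j := by rw [← h3.1]
          rw [← this]; exact h8
        · have : u.2 = B x j := by rw [← h3.1]
          rw [← this]; exact h9
      · rw [if_neg h3]
  simp only [e1]
  -- exchange the sums
  have e2 : ∀ (F : ι → (Option ζ × Option ζ) → (Option ζ × Option ζ) → Λ → Λ → ℝ),
      ∑ i, ∑ u, ∑ v, ∑ j, ∑ j', F i u v j j' = ∑ j, ∑ j', ∑ i, ∑ u, ∑ v, F i u v j j' := by
    intro F
    calc ∑ i, ∑ u, ∑ v, ∑ j, ∑ j', F i u v j j' = ∑ i, ∑ u, ∑ j, ∑ v, ∑ j', F i u v j j' :=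
          Finset.sum_congr rfl fun i _ => Finset.sum_congr rfl fun u _ => Finset.sum_comm
      _ = ∑ i, ∑ j, ∑ u, ∑ v, ∑ j', F i u v j j' :=
          Finset.sum_congr rfl fun i _ => Finset.sum_comm
      _ = ∑ j, ∑ i, ∑ u, ∑ v, ∑ j', F i u v j j' := Finset.sum_comm
      _ = ∑ j, ∑ i, ∑ u, ∑ j', ∑ v, F i u v j j' :=
          Finset.sum_congr rfl fun j _ => Finset.sum_congr rfl fun i _ =>
            Finset.sum_congr rfl fun u _ => Finset.sum_comm
      _ = ∑ j, ∑ i, ∑ j', ∑ u, ∑ v, F i u v j j' :=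
          Finset.sum_congr rfl fun j _ => Finset.sum_congr rfl fun i _ => Finset.sum_comm
      _ = ∑ j, ∑ j', ∑ i, ∑ u, ∑ v, F i u v j j' :=
          Finset.sum_congr rfl fun j _ => Finset.sum_comm
  rw [e2]
  refine Finset.sum_congr rfl fun j _ => Finset.sum_congr rfl fun j' _ => ?_
  rw [Finset.sum_eq_single (Y.ix (Y.wr p j))]
  · rw [Finset.sum_eq_single (A x j, B x j)]
    · rw [Finset.sum_eq_single (A x j', B x j')]
      · rw [if_pos ⟨rfl, rfl, rfl⟩]
      · intro v _ hv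
        exact if_neg fun hh => hv hh.2.1.symm
      · intro hh; exact absurd (Finset.mem_univ _) hh
    · intro u _ hu
      exact Finset.sum_eq_zero fun v _ => if_neg fun hh => hu hh.1.symm
    · intro hh; exact absurd (Finset.mem_univ _) hh
  · intro i _ hi
    exact Finset.sum_eq_zero fun u _ => Finset.sum_eq_zero fun v _ => if_neg fun hh => hi hh.2.2.symm
  · intro hh; exact absurd (Finset.mem_univ _) hh

end grp

/-! ### over typing data -/

section td
variable {μ Λ κ ζ ι : Type} [Fintype Λ] [DecidableEq Λ] [Fintype κ] [DecidableEq κ]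
  [Fintype ζ] [DecidableEq ζ] [Fintype ι] [DecidableEq ι] {n : ℕ}
variable {D : TD μ Λ κ ζ} {wr : ℕ → Λ → κ} {ix : κ → ι}
  {Inv : ℕ → μ × List (DT Λ κ) → Prop} {p : ℕ} {b : μ × List (DT Λ κ)}
  {s : Gs (μ × List (DT Λ κ))}

/-- **the local link with groups**, any index map -/
theorem linkG (gr : ℕ → ι → Option ζ × Option ζ → Fin n) (H : TYp wr D Inv) (c0 : ∀ j, 0 ≤ s.c j)
    (h : ∀ j, Inv p (s.L j)) (hp : p ≠ 0) (j₀ : Λ) :
    I (fun x => ∑ i, ixF ix (GmG (gBs p (stp Prod.snd s))) i x ^ 2) ≤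
      n * I ((tl D wr ix).rco p s) + n * I (ecoG (tl D wr ix) gr p s) := by
  have hY : ∀ j, (tl D wr ix).Ok p (s.L j) := fun j => tl_ok H (h j) hp
  have pr1 := TL.PB_rco c0 hY
  have pr2 := PB_ecoG gr c0 hY
  rw [← mul_add, ← I_add pr1.integrableOn pr2.integrableOn, ← I_smul]
  have pr3 : PB fun x => (n : ℝ) * ((tl D wr ix).rco p s x + ecoG (tl D wr ix) gr p s x) :=
    (pr1.add pr2).smul (Nat.cast_nonneg n)
  refine I_mono ?_ pr3.integrableOn fun x => ?_
  · have e : (fun x => ∑ i, ixF ix (GmG (gBs p (stp Prod.snd s))) i x ^ 2) =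
        fun x => (tl D wr ix).rco p s x + (tl D wr ix).eco p s x := by
      funext x
      rw [← lst_eq (D := D) (wr := wr) (ix := ix)]
      exact TL.loc_eq hY j₀ x
    rw [e]
    exact (pr1.add (TL.PB_eco c0 hY)).integrableOn
  · rw [← lst_eq (D := D) (wr := wr) (ix := ix)]
    exact loc_le gr hY j₀ x

/-- the group of a piece: by its index class, its low type and its point type -/
def gq (D : TD μ Λ κ ζ) (wr : ℕ → Λ → κ) (ix : κ → ι) (gr : ℕ → ι → Option ζ × Option ζ → Fin n) (p : ℕ)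
    (m : μ) (x : ℝ) (j : Λ) : Fin n := gr p (ix (wr p j)) (D.lt p m (p * x) j, D.tp p m x j)

/-- (B) same index, same group, low types different or outside of the game -/
def rBG (D : TD μ Λ κ ζ) (wr : ℕ → Λ → κ) (ix : κ → ι) (gr : ℕ → ι → Option ζ × Option ζ → Fin n)
    (p : ℕ) (m : μ) (x : ℝ) (j j' : Λ) : Prop :=
  rB D wr ix p m x j j' ∧ gq D wr ix gr p m x j = gq D wr ix gr p m x j'

/-- (C) same index, group and low type, different point types -/
def rCG (D : TD μ Λ κ ζ) (wr : ℕ → Λ → κ) (ix : κ → ι) (gr : ℕ → ι → Option ζ × Option ζ → Fin n)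
    (p : ℕ) (m : μ) (x : ℝ) (j j' : Λ) : Prop :=
  rC D wr ix p m x j j' ∧ gq D wr ix gr p m x j = gq D wr ix gr p m x j'

/-- **the pairs of one group, by kinds** -/
theorem ecoG_le (gr : ℕ → ι → Option ζ × Option ζ → Fin n) (H : TYp wr D Inv) (c0 : ∀ j, 0 ≤ s.c j)
    (h : ∀ j, Inv p (s.L j)) (hp : p ≠ 0) {m : μ} (hm : Cm m s) (x : ℝ) :
    ecoG (tl D wr ix) gr p s x ≤ psm (tl D wr ix) (rBG D wr ix gr p m) p s x +
      psm (tl D wr ix) (rCG D wr ix gr p m) p s x := by
  classical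
  have hA : ∀ k, (tl D wr ix).ta p (s.L k) = fun x => D.lt p m (p * x) := fun k => by
    show (fun x : ℝ => D.lt p (s.L k).1 (p * x)) = _
    rw [hm k]
  have hB : ∀ k, (tl D wr ix).tb p (s.L k) = D.tp p m := fun k => by
    show D.tp p (s.L k).1 = _
    rw [hm k]
  have h0 : ∀ j, 0 ≤ (tl D wr ix).GP p s j x := fun j =>
    (TL.PB_GP c0 (fun k => tl_ok H (h k) hp) j).nonneg x
  rw [ecoG_pairs gr hA hB]
  unfold psm
  rw [← Finset.sum_add_distrib]
  refine Finset.sum_le_sum fun j _ => ?_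
  rw [← Finset.sum_add_distrib]
  refine Finset.sum_le_sum fun j' _ => ?_
  have n0 : 0 ≤ (tl D wr ix).GP p s j x * (tl D wr ix).GP p s j' x := mul_nonneg (h0 j) (h0 j')
  refine ite_le2 n0 ?_
  rintro ⟨h1, h1', h2⟩
  have hg : gq D wr ix gr p m x j = gq D wr ix gr p m x j' := by
    show gr p (ix (wr p j)) _ = gr p (ix (wr p j')) _
    have h1'' : ix (wr p j) = ix (wr p j') := h1
    rw [← h1'']
    exact h1'
  by_cases hz : (tl D wr ix).GP p s j x * (tl D wr ix).GP p s j' x = 0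
  · exact Or.inl hz
  refine Or.inr ?_
  have hj : (tl D wr ix).GP p s j x ≠ 0 := fun h3 => hz (by rw [h3, zero_mul])
  have o1 := out_GP H h hp hm hj
  by_cases hl : D.lt p m (p * x) j = D.lt p m (p * x) j'
  swap
  · exact Or.inl ⟨⟨h1, Or.inl hl⟩, hg⟩
  by_cases hn : D.lt p m (p * x) j = none
  · exact Or.inl ⟨⟨h1, Or.inr hn⟩, hg⟩
  refine Or.inr ⟨⟨h1, hl, hn, fun ht => h2 ⟨hl, ht, hn, fun h3 => hn (o1.1 h3)⟩⟩, hg⟩

/-- the pair sums are monotone -/
lemma psm_mono {Y : TL (μ × List (DT Λ κ)) Λ κ ι ζ} {x : ℝ} (h0 : ∀ j, 0 ≤ Y.GP p s j x)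
    {R1 R2 : ℝ → Λ → Λ → Prop}
    (h : ∀ j j', Y.GP p s j x ≠ 0 → Y.GP p s j' x ≠ 0 → R1 x j j' → R2 x j j') :
    psm Y R1 p s x ≤ psm Y R2 p s x := by
  classical
  unfold psm
  refine Finset.sum_le_sum fun j _ => Finset.sum_le_sum fun j' _ => ?_
  by_cases hz : Y.GP p s j x * Y.GP p s j' x = 0
  · rw [hz]
    simp
  have h1 : Y.GP p s j x ≠ 0 := fun hh => hz (by rw [hh, zero_mul])
  have h2 : Y.GP p s j' x ≠ 0 := fun hh => hz (by rw [hh, mul_zero])
  by_cases hr : R1 x j j'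
  · rw [if_pos hr, if_pos (h j j' h1 h2 hr)]
  · rw [if_neg hr]
    split_ifs
    · exact mul_nonneg (h0 j) (h0 j')
    · exact le_rfl

/-- splitting of a pair sum -/
lemma psm_or {Y : TL (μ × List (DT Λ κ)) Λ κ ι ζ} {x : ℝ} (h0 : ∀ j, 0 ≤ Y.GP p s j x)
    (R1 R2 : ℝ → Λ → Λ → Prop) :
    psm Y (fun x j j' => R1 x j j' ∨ R2 x j j') p s x ≤ psm Y R1 p s x + psm Y R2 p s x := by
  classical
  unfold psm
  rw [← Finset.sum_add_distrib]
  refine Finset.sum_le_sum fun j _ => ?_
  rw [← Finset.sum_add_distrib]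
  refine Finset.sum_le_sum fun j' _ => ?_
  have n0 : 0 ≤ Y.GP p s j x * Y.GP p s j' x := mul_nonneg (h0 j) (h0 j')
  by_cases h1 : R1 x j j'
  · rw [if_pos h1, if_pos (Or.inl h1)]
    split_ifs <;> linarith
  · by_cases h2 : R2 x j j'
    · rw [if_neg h1, if_pos h2, if_pos (Or.inr h2), zero_add]
    · rw [if_neg h1, if_neg h2, if_neg fun h => h.elim h1 h2, add_zero]

end td

/-! ### a context -/

section ctx
open Crest.Agent.R4.Fam464 Crest.Agent.R4P.Cnt588 Crest.Agent.R4P.Item758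
open Crest.Agent.R4P.Data758 Crest.Agent.R4P.Skel189
open Crest.Agent.R4P.TopX36

variable {N : Skel189.Num} {γ : ℝ} {p0 P₀ : ℕ} {μ ζ : Type} [Fintype ζ] [DecidableEq ζ] {n : ℕ}

/-- **the local link of a context with groups** : the field `loc` of `GTopW50.NData` with `c = n` -/
theorem gT_linkG (X : Ctx N γ p0 P₀) (j₀ : X.c.Lam) {D : TD μ X.c.Lam (LbX X) ζ}
    {wr : ℕ → X.c.Lam → LbX X} {Inv : ℕ → μ × List (DT X.c.Lam (LbX X)) → Prop}
    (gr : ℕ → _ → Option ζ × Option ζ → Fin n)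
    (H : TYp wr D Inv) {p : ℕ} {s : Gs (μ × List (DT X.c.Lam (LbX X)))} (c0 : ∀ j, 0 ≤ s.c j)
    (h : ∀ j, Inv p (s.L j)) (hp : p ≠ 0) : gT X p (gBs p (stp Prod.snd s)) ≤
      n * I ((tl D wr (ixL (X := X))).rco p s) +
      n * I (ecoG (tl D wr (ixL (X := X))) gr p s) :=
  linkG gr H c0 h hp j₀

end ctx

end Crest.Agent.R4P.E3G493
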