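import Crest.Agent.R4P.E3L_479

/-!
R4 (S0004) with powers, T3, helper479 (PLAN v1, D1): **the jumps of E3, by pairs of bundles and pieces**.

* `nrl` : two pieces of two bundles which are related below and not above; `pe` : pair energy of two
  bundles, `peB` (ties and pulls), `peN` (rest); **`I_QJ`** : `I (QJ ..) = Σ_{k,k'} c_k c_k' pe`.
* **`Kw_jmp`** : if every two bundles of a state satisfy `peB ≤ I yc(b) + I yc(b')`,
  `peN ≤ I yx(b) + I yx(b')` for a charge `Z` (plus an error `Er`), then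
  `Kw (I jmp) ≤ 2 I (Z root) + Kw Er`.
* `Kw_jmpT` : the same with `peB, peN` below (charge) x (total) + (total) x (charge): rate `J` and the
  energy `4 J I T²`.
-/

set_option autoImplicit false
set_option linter.unusedSectionVars false
set_option linter.unusedVariables false
open MeasureTheory Filter Set

namespace Crest.Agent.R4P.E3J479

open Crest.Agent.R4.Tour104 Crest.Agent.R4.Tour758 Crest.Agent.R4.Avg758 Crest.Agent.R4.Clos758
open Crest.Agent.R4.ClosL758 Crest.Agent.R4.ClosG758 Crest.Agent.R4.ClosR758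
open Crest.Agent.R4P.ClosR442 Crest.Agent.R4P.Grp36
open Crest.Agent.R4P.Xfer36 Crest.Agent.R4P.TopC36 Crest.Agent.R4P.PN36
open Crest.Agent.R4P.GMer27 Crest.Agent.R4P.GCol27 Crest.Agent.R4P.GWa343 Crest.Agent.R4P.GWb343
open Crest.Agent.R4P.GWc343 Crest.Agent.R4P.GWd343 Crest.Agent.R4P.TrR343 Crest.Agent.R4P.DTp26
open Crest.Agent.R4P.RSys343 Crest.Agent.R4P.RXm55 Crest.Agent.R4P.MSm25 Crest.Agent.R4P.MSd343
open Crest.Agent.R4P.VR407 Crest.Agent.R4P.Bp407 Crest.Agent.R4P.DTm407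
open Crest.Agent.R4P.GSK55 (stp gk Pr Kw Kw_succ Kw_z one one_TC one_su BC_pos BC_neg)
open Crest.Agent.R4P.PayR45
open Crest.Agent.R4P.E3D479 Crest.Agent.R4P.E3E479 Crest.Agent.R4P.E3P479 Crest.Agent.R4P.E3T479
open Crest.Agent.R4P.E3S479
open Crest.Agent.R4P.MSi343 (su)
open Crest.Agent.R4P.Walk560 (DT)

/-! ### pairs of pieces -/

section pr
variable {Λ φ : Type} [Fintype Λ] [DecidableEq Λ] [Fintype φ] [DecidableEq φ]

/-- related below (typing `o'`), not related above (typing `o`) -/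
def nrl (Q : φ → φ → Prop) (o o' : ℝ → Λ → φ) (q q' : ℝ → Λ → φ) (x : ℝ) (j i : Λ) : Prop :=
  Q (o' x j) (q' x i) ∧ ¬ Q (o x j) (q x i)

open Classical in
/-- pair energy density of two typed contents -/
noncomputable def ped (Q : φ → φ → Prop) (o o' q q' : ℝ → Λ → φ) (V W : Λ → ℝ → ℝ) (x : ℝ) : ℝ :=
  ∑ j, ∑ i, if nrl Q o o' q q' x j i then V j x * W i x else 0

lemma MP_nrl {Q : φ → φ → Prop} {o o' q q' : ℝ → Λ → φ} (ho : ∀ j, MP fun x => o x j)
    (ho' : ∀ j, MP fun x => o' x j) (hq : ∀ j, MP fun x => q x j) (hq' : ∀ j, MP fun x => q' x j)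
    (j i : Λ) : MP fun x => nrl Q o o' q q' x j i :=
  (((ho' j).prod (hq' i)).prod ((ho j).prod (hq i))).map fun u => Q u.1.1 u.1.2 ∧ ¬ Q u.2.1 u.2.2

lemma PB_ped {Q : φ → φ → Prop} {o o' q q' : ℝ → Λ → φ} (ho : ∀ j, MP fun x => o x j)
    (ho' : ∀ j, MP fun x => o' x j) (hq : ∀ j, MP fun x => q x j) (hq' : ∀ j, MP fun x => q' x j)
    {V W : Λ → ℝ → ℝ} (hV : ∀ j, PB (V j)) (hW : ∀ j, PB (W j)) : PB (ped Q o o' q q' V W) := by
  classical
  refine PB.sum _ fun j _ => PB.sum _ fun i _ => ?_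
  have m := (MP_nrl (Q := Q) ho ho' hq hq' j i).prop
  exact ModeG51.PB_ite m.1 m.2 ((hV j).mul (hW i)) (PB.const le_rfl)

open Classical in
/-- the families as sums over the pieces -/
lemma ped_eq (Q : φ → φ → Prop) (o o' q q' : ℝ → Λ → φ) (V W : Λ → ℝ → ℝ) (x : ℝ) :
    (∑ u : φ × φ, ∑ v : φ × φ, if Q u.2 v.2 ∧ ¬ Q u.1 v.1 then
      hz (fun x j => (o x j, o' x j)) V u x * hz (fun x j => (q x j, q' x j)) W v x else 0) =
      ped Q o o' q q' V W x := by
  have e1 : ∀ u v : φ × φ, (if Q u.2 v.2 ∧ ¬ Q u.1 v.1 then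
      hz (fun x j => (o x j, o' x j)) V u x * hz (fun x j => (q x j, q' x j)) W v x else 0) =
      ∑ j, ∑ i, if (o x j, o' x j) = u ∧ (q x i, q' x i) = v then
        (if nrl Q o o' q q' x j i then V j x * W i x else 0) else 0 := by
    intro u v
    rw [hz_eq, hz_eq, Finset.sum_mul_sum]
    by_cases h : Q u.2 v.2 ∧ ¬ Q u.1 v.1
    · rw [if_pos h]
      refine Finset.sum_congr rfl fun j _ => Finset.sum_congr rfl fun i _ => ?_
      by_cases h1 : (o x j, o' x j) = u
      · by_cases h2 : (q x i, q' x i) = v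
        · rw [if_pos h1, if_pos h2, if_pos ⟨h1, h2⟩, if_pos]
          subst h1; subst h2; exact h
        · rw [if_neg h2, mul_zero]
          symm
          exact if_neg fun hh => h2 hh.2
      · rw [if_neg h1, zero_mul]
        symm
        exact if_neg fun hh => h1 hh.1
    · rw [if_neg h]
      symm
      refine Finset.sum_eq_zero fun j _ => Finset.sum_eq_zero fun i _ => ?_
      by_cases h1 : (o x j, o' x j) = u ∧ (q x i, q' x i) = v
      · rw [if_pos h1]
        refine if_neg fun hh => h ?_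
        obtain ⟨h2, h3⟩ := h1
        subst h2; subst h3; exact hh
      · rw [if_neg h1]
  have e5 : ∀ (F : Λ → Λ → ℝ), ∑ u : φ × φ, ∑ v : φ × φ, ∑ j, ∑ i,
      (if (o x j, o' x j) = u ∧ (q x i, q' x i) = v then F j i else 0) = ∑ j, ∑ i, F j i := by
    intro F
    calc ∑ u : φ × φ, ∑ v : φ × φ, ∑ j, ∑ i, (if (o x j, o' x j) = u ∧ (q x i, q' x i) = v
          then F j i else 0)
        = ∑ u : φ × φ, ∑ j, ∑ v : φ × φ, ∑ i, (if (o x j, o' x j) = u ∧ (q x i, q' x i) = v
          then F j i else 0) := Finset.sum_congr rfl fun a _ => Finset.sum_comm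
      _ = ∑ j, ∑ u : φ × φ, ∑ v : φ × φ, ∑ i, (if (o x j, o' x j) = u ∧ (q x i, q' x i) = v
          then F j i else 0) := Finset.sum_comm
      _ = ∑ j, ∑ u : φ × φ, ∑ i, ∑ v : φ × φ, (if (o x j, o' x j) = u ∧ (q x i, q' x i) = v
          then F j i else 0) :=
          Finset.sum_congr rfl fun j _ => Finset.sum_congr rfl fun a _ => Finset.sum_comm
      _ = ∑ j, ∑ i, ∑ u : φ × φ, ∑ v : φ × φ, (if (o x j, o' x j) = u ∧ (q x i, q' x i) = v
          then F j i else 0) := Finset.sum_congr rfl fun j _ => Finset.sum_comm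
      _ = ∑ j, ∑ i, F j i := by
          refine Finset.sum_congr rfl fun j _ => Finset.sum_congr rfl fun i _ => ?_
          rw [Finset.sum_eq_single (o x j, o' x j)]
          · rw [Finset.sum_eq_single (q x i, q' x i)]
            · rw [if_pos ⟨rfl, rfl⟩]
            · intro b _ hb
              exact if_neg fun hh => hb hh.2.symm
            · intro hn; exact absurd (Finset.mem_univ _) hn
          · intro a _ ha
            exact Finset.sum_eq_zero fun b _ => if_neg fun hh => ha hh.1.symm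
          · intro hn; exact absurd (Finset.mem_univ _) hn
  calc _ = ∑ u : φ × φ, ∑ v : φ × φ, ∑ j, ∑ i, (if (o x j, o' x j) = u ∧ (q x i, q' x i) = v then
        (if nrl Q o o' q q' x j i then V j x * W i x else 0) else 0) :=
        Finset.sum_congr rfl fun u _ => Finset.sum_congr rfl fun v _ => e1 u v
    _ = _ := e5 _

end pr

/-! ### pairs of bundles -/

section grp
variable {μ Λ κ φ : Type} [Fintype Λ] [DecidableEq Λ] [Fintype κ] [DecidableEq κ]
  [Fintype φ] [DecidableEq φ]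
variable {B : BM (μ × List (DT Λ κ))} {wr : ℕ → Λ → κ} {tu : ℕ → μ → μ}
  {fm : ℕ → μ → ℝ → Λ → φ} {p : ℕ} {s : Gs (μ × List (DT Λ κ))} {b : μ × List (DT Λ κ)}

/-- **pair energy density of two bundles, ties and pulls**: related at the low point, not above -/
noncomputable def peB (Q : φ → φ → Prop) (tu : ℕ → μ → μ) (fm : ℕ → μ → ℝ → Λ → φ) (p : ℕ)
    (b b' : μ × List (DT Λ κ)) : ℝ → ℝ :=
  ped Q (fm p b.1) (fun x => oL tu fm p b (p * x)) (fm p b'.1) (fun x => oL tu fm p b' (p * x))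
    (jv (bB p b.2)) (jv (bB p b'.2))

/-- **pair energy density of two bundles, rest**: related at the next column, not at this one -/
noncomputable def peN (Q : φ → φ → Prop) (fm : ℕ → μ → ℝ → Λ → φ) (p : ℕ)
    (b b' : μ × List (DT Λ κ)) : ℝ → ℝ :=
  ped Q (fm p b.1) (fm (p - 1) b.1) (fm p b'.1) (fm (p - 1) b'.1)
    (jv (bN p b.2)) (jv (bN p b'.2))

lemma QJ_M {Q : φ → φ → Prop} (o o' : (μ × List (DT Λ κ)) → ℝ → Λ → φ)
    (V : (μ × List (DT Λ κ)) → Λ → ℝ → ℝ) (x : ℝ) :
    QJ Q (fun u => su s fun b => hz (fun x j => (o b x j, o' b x j)) (V b) u) x =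
      ∑ k, ∑ k', s.c k * s.c k' * ped Q (o (s.L k)) (o' (s.L k)) (o (s.L k')) (o' (s.L k'))
        (V (s.L k)) (V (s.L k')) x := by
  classical
  have e0 : ∀ k k', s.c k * s.c k' * ped Q (o (s.L k)) (o' (s.L k)) (o (s.L k')) (o' (s.L k'))
        (V (s.L k)) (V (s.L k')) x = ∑ u : φ × φ, ∑ v : φ × φ, s.c k * s.c k' *
        (if Q u.2 v.2 ∧ ¬ Q u.1 v.1 then hz (fun x j => (o (s.L k) x j, o' (s.L k) x j))
          (V (s.L k)) u x * hz (fun x j => (o (s.L k') x j, o' (s.L k') x j)) (V (s.L k')) v x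
          else 0) := by
    intro k k'
    rw [← ped_eq, Finset.mul_sum]
    refine Finset.sum_congr rfl fun u _ => ?_
    rw [Finset.mul_sum]
  simp only [e0]
  have e4 : ∀ (F : s.J → s.J → φ × φ → φ × φ → ℝ), ∑ k, ∑ k', ∑ u, ∑ v, F k k' u v =
      ∑ u, ∑ v, ∑ k, ∑ k', F k k' u v := by
    intro F
    calc ∑ k, ∑ k', ∑ u, ∑ v, F k k' u v = ∑ k, ∑ u, ∑ k', ∑ v, F k k' u v :=
          Finset.sum_congr rfl fun j _ => Finset.sum_comm
      _ = ∑ u, ∑ k, ∑ k', ∑ v, F k k' u v := Finset.sum_comm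
      _ = ∑ u, ∑ k, ∑ v, ∑ k', F k k' u v :=
          Finset.sum_congr rfl fun j _ => Finset.sum_congr rfl fun j' _ => Finset.sum_comm
      _ = ∑ u, ∑ v, ∑ k, ∑ k', F k k' u v :=
          Finset.sum_congr rfl fun j _ => Finset.sum_comm
  rw [e4]
  unfold QJ
  refine Finset.sum_congr rfl fun u _ => Finset.sum_congr rfl fun v _ => ?_
  by_cases h : Q u.2 v.2 ∧ ¬ Q u.1 v.1
  · simp only [if_pos h]
    unfold su M
    rw [Finset.sum_mul_sum]
    exact Finset.sum_congr rfl fun k _ => Finset.sum_congr rfl fun k' _ => by ring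
  · simp [if_neg h]

/-- the jumps by pairs of bundles -/
lemma jmp_eq (Q : φ → φ → Prop) (x : ℝ) : jmp Q tu fm p s x =
    ∑ k, ∑ k', s.c k * s.c k' * peB Q tu fm p (s.L k) (s.L k') x +
    ∑ k, ∑ k', s.c k * s.c k' * peN Q fm p (s.L k) (s.L k') x := by
  unfold jmp
  congr 1
  · exact QJ_M (fun b => fm p b.1) (fun b x => oL tu fm p b (p * x)) (fun b => jv (bB p b.2)) x
  · exact QJ_M (fun b => fm p b.1) (fun b => fm (p - 1) b.1) (fun b => jv (bN p b.2)) x

lemma PB_peB (H : TM B wr tu fm) {Q : φ → φ → Prop} {b b' : μ × List (DT Λ κ)} (hb : B.ok p b)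
    (hb' : B.ok p b') : PB (peB Q tu fm p b b') :=
  PB_ped (H.mp p _) (fun j => (H.mo b p j).pull p) (H.mp p _) (fun j => (H.mo b' p j).pull p)
    (fun j => PB_jv (H.pbB hb) j) (fun j => PB_jv (H.pbB hb') j)

lemma PB_peN (H : TM B wr tu fm) {Q : φ → φ → Prop} {b b' : μ × List (DT Λ κ)} (hb : B.ok p b)
    (hb' : B.ok p b') : PB (peN Q fm p b b') :=
  PB_ped (H.mp p _) (H.mp (p - 1) _) (H.mp p _) (H.mp (p - 1) _)
    (fun j => PB_jv (H.pbN hb) j) (fun j => PB_jv (H.pbN hb') j)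

lemma I_sum2 {ι : Type} [Fintype ι] {f : ι → ι → ℝ → ℝ} (h : ∀ i j, PB (f i j)) :
    I (fun x => ∑ i, ∑ j, f i j x) = ∑ i, ∑ j, I (f i j) := by
  unfold I
  rw [MeasureTheory.integral_finsetSum]
  · refine Finset.sum_congr rfl fun i _ => ?_
    rw [MeasureTheory.integral_finsetSum]
    intro j _
    exact (h i j).integrableOn
  · intro i _
    exact (PB.sum Finset.univ fun j _ => h i j).integrableOn

lemma I_smul' (c : ℝ) (f : ℝ → ℝ) : I (fun x => c * f x) = c * I f := by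
  unfold I
  rw [MeasureTheory.integral_const_mul]

/-- **the integrated jumps** -/
lemma I_jmp (H : TM B wr tu fm) {Q : φ → φ → Prop} (hs : gst B p s) : I (jmp Q tu fm p s) =
    ∑ k, ∑ k', s.c k * s.c k' * (I (peB Q tu fm p (s.L k) (s.L k')) +
      I (peN Q fm p (s.L k) (s.L k'))) := by
  have c0 := hs.1.c0
  have h1 : ∀ k k', PB fun x => s.c k * s.c k' * peB Q tu fm p (s.L k) (s.L k') x := fun k k' =>
    (PB.const (mul_nonneg (c0 k) (c0 k'))).mul (PB_peB H (hs.2 k) (hs.2 k'))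
  have h2 : ∀ k k', PB fun x => s.c k * s.c k' * peN Q fm p (s.L k) (s.L k') x := fun k k' =>
    (PB.const (mul_nonneg (c0 k) (c0 k'))).mul (PB_peN H (hs.2 k) (hs.2 k'))
  have e : jmp Q tu fm p s = fun x =>
      (∑ k, ∑ k', s.c k * s.c k' * peB Q tu fm p (s.L k) (s.L k') x) +
      ∑ k, ∑ k', s.c k * s.c k' * peN Q fm p (s.L k) (s.L k') x := funext fun x => jmp_eq Q x
  rw [e]
  have p1 : PB fun x => ∑ k, ∑ k', s.c k * s.c k' * peB Q tu fm p (s.L k) (s.L k') x :=
    PB.sum _ fun k _ => PB.sum _ fun k' _ => h1 k k'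
  have p2 : PB fun x => ∑ k, ∑ k', s.c k * s.c k' * peN Q fm p (s.L k) (s.L k') x :=
    PB.sum _ fun k _ => PB.sum _ fun k' _ => h2 k k'
  rw [I_add p1.integrableOn p2.integrableOn, I_sum2 h1, I_sum2 h2, ← Finset.sum_add_distrib]
  refine Finset.sum_congr rfl fun k _ => ?_
  rw [← Finset.sum_add_distrib]
  refine Finset.sum_congr rfl fun k' _ => ?_
  rw [I_smul', I_smul']
  ring

/-- sums over the pairs of members -/
lemma sum_pair {J : Type} [Fintype J] {c : J → ℝ} (c0 : ∀ k, 0 ≤ c k) (c1 : ∑ k, c k = 1)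
    {f : J → J → ℝ} {e : J → ℝ} (h : ∀ k k', f k k' ≤ e k + e k') :
    ∑ k, ∑ k', c k * c k' * f k k' ≤ 2 * M c e := by
  have h1 : ∑ k, ∑ k', c k * c k' * f k k' ≤ ∑ k, ∑ k', c k * c k' * (e k + e k') :=
    Finset.sum_le_sum fun k _ => Finset.sum_le_sum fun k' _ =>
      mul_le_mul_of_nonneg_left (h k k') (mul_nonneg (c0 k) (c0 k'))
  refine h1.trans (le_of_eq ?_)
  have e1 : ∀ k, ∑ k', c k * c k' * (e k + e k') = c k * e k + c k * M c e := by
    intro k
    have : ∀ k', c k * c k' * (e k + e k') = c k * e k * c k' + c k * (c k' * e k') := fun k' => by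
      ring
    simp only [this]
    rw [Finset.sum_add_distrib, ← Finset.mul_sum, ← Finset.mul_sum, c1, mul_one]
    rfl
  simp only [e1]
  rw [Finset.sum_add_distrib, ← Finset.sum_mul, c1, one_mul]
  show M c e + M c e = _
  ring

/-- **the jumps are paid by a charge** (and an error) from bounds for the PAIRS OF BUNDLES -/
theorem Kw_jmp (H : TM B wr tu fm) {Q : φ → φ → Prop}
    {ok : ℕ → Gs (μ × List (DT Λ κ)) → Prop} (hg : ∀ {p s}, ok p s → gst B p s)
    (hC : ∀ {p s}, ok p s → p ≠ 0 → ok p (B.C p s))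
    (hN : ∀ {p s}, ok p s → p ≠ 0 → ok (p - 1) (B.N p s))
    (Z : BCh B)
    (h : ∀ {p s}, ok p s → p ≠ 0 → ∀ k k', I (peB Q tu fm p (s.L k) (s.L k')) +
      I (peN Q fm p (s.L k) (s.L k')) ≤ (I (Z.yc p (s.L k)) + I (Z.yx p (s.L k))) +
        (I (Z.yc p (s.L k')) + I (Z.yx p (s.L k'))))
    (n p : ℕ) (s : Gs (μ × List (DT Λ κ))) (hs : ok p s) :
    Kw B (fun p s => I (jmp Q tu fm p s)) n p s ≤ 2 * I (su s (Z.Y p)) := by
  have h1 := Kw_chg H.cl Z n p s (hg hs)
  refine le_trans ?_ (mul_le_mul_of_nonneg_left h1 (by norm_num : (0:ℝ) ≤ 2))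
  rw [← GSK55.Kw_smul]
  refine GSK55.Kw_mono (ok := ok) hC hN (fun {p s} hs hp => ?_) n p s hs
  have g := hg hs
  show I (jmp Q tu fm p s) ≤ 2 * (I (su s (Z.yc p)) + I (su s (Z.yx p)))
  rw [I_jmp H g]
  refine (sum_pair g.1.c0 g.1.c1 (e := fun k => I (Z.yc p (s.L k)) + I (Z.yx p (s.L k)))
    fun k k' => h hs hp k k').trans (le_of_eq ?_)
  congr 1
  rw [M_add]
  have e1 : ∀ f : (μ × List (DT Λ κ)) → ℝ → ℝ, (∀ k, PB (f (s.L k))) →
      M s.c (fun k => I (f (s.L k))) = I (su s f) := by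
    intro f hf
    unfold su M I
    rw [MeasureTheory.integral_finsetSum]
    · refine Finset.sum_congr rfl fun k _ => ?_
      rw [MeasureTheory.integral_const_mul]
    · intro k _
      exact ((PB.const (g.1.c0 k)).mul (hf k)).integrableOn
  rw [e1 _ fun k => Z.pyc (g.2 k) hp, e1 _ fun k => Z.pyx (g.2 k) hp]

/-- **the square lemma**, both kinds of charges -/
theorem Kw_sq2 (hc : Cl B) (Z : BCh B) : ∀ (n p : ℕ) (s : Gs (μ × List (DT Λ κ))), gst B p s →
    Kw B (fun p s => 2 * I (fun y => su s (Z.yc p) y * su (B.C p s) (Z.Y p) y) +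
      2 * I (fun x => su s (Z.yx p) x * su (B.N p s) (Z.Y (p - 1)) x)) n p s ≤
      I (fun x => su s (Z.Y p) x ^ 2) := by
  intro n
  induction n with
  | zero => intro p s hs; exact I_nonneg fun x => sq_nonneg _
  | succ n ih =>
    intro p s hs
    have pY := PB_su' hs.1 fun j => Z.pY (hs.2 j)
    by_cases hp : p = 0
    · subst hp
      rw [Kw_z]
      exact I_nonneg fun x => sq_nonneg _
    rw [Kw_succ _ _ n hp]
    have hp0 : 0 < p := Nat.pos_of_ne_zero hp
    have sC := gst_C hc hs hp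
    have sN := gst_N hc hs hp
    have i1 := ih p _ sC
    have i2 := ih (p - 1) _ sN
    have pYB := PB_su' hs.1 fun j => Z.pYB (hs.2 j) hp
    have pyx := PB_su' hs.1 fun j => Z.pyx (hs.2 j) hp
    have pyc := PB_su' hs.1 fun j => Z.pyc (hs.2 j) hp
    have pC := PB_su' sC.1 fun j => Z.pY (sC.2 j)
    have pN := PB_su' sN.1 fun j => Z.pY (sN.2 j)
    have a1 : 2 * I (fun y => su s (Z.yc p) y * su (B.C p s) (Z.Y p) y) +
        I (fun y => su (B.C p s) (Z.Y p) y ^ 2) ≤ I (fun x => su s (Z.YB p) x ^ 2) := by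
      have q1 : PB fun y => su s (Z.yc p) y * su (B.C p s) (Z.Y p) y := pyc.mul pC
      have q2 := PBsq pC
      have q3 := PBsq pYB
      have q4 : PB fun y => 2 * (su s (Z.yc p) y * su (B.C p s) (Z.Y p) y) :=
        (PB.const (by norm_num : (0:ℝ) ≤ 2)).mul q1
      rw [← I_smul', ← I_Ep hp0 q3.integrableOn, ← I_add q4.integrableOn q2.integrableOn]
      refine I_mono (q4.add q2).integrableOn (q3.Ep hp0).integrableOn fun y => ?_
      have h1 := su_C (B := B) (s := s) hp (Z.Y p) y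
        (fun e j => by have := hs.2 j; subst e; exact (Z.one this y).1)
        (fun e j => by have := hs.2 j; subst e; exact (Z.one this y).2) hs.1.c0
      have h2 : su s (Z.yc p) y + su (B.C p s) (Z.Y p) y ≤ Ep p (su s (Z.YB p)) y := by
        refine (add_le_add le_rfl h1).trans ?_
        rw [Ep_su']
        unfold su
        rw [← M_add]
        exact M_mono hs.1.c0 fun j => Z.mean (hs.2 j) hp y
      have n1 := pyc.nonneg y
      have n2 := pC.nonneg y
      have h3 : (su s (Z.yc p) y + su (B.C p s) (Z.Y p) y) ^ 2 ≤ Ep p (su s (Z.YB p)) y ^ 2 :=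
        pow_le_pow_left₀ (add_nonneg n1 n2) h2 2
      have h4 := Ep_sq_le hp0 (su s (Z.YB p)) y
      show 2 * (su s (Z.yc p) y * su (B.C p s) (Z.Y p) y) + su (B.C p s) (Z.Y p) y ^ 2 ≤
        Ep p (fun x => su s (Z.YB p) x ^ 2) y
      nlinarith
    have a2 : 2 * I (fun x => su s (Z.yx p) x * su (B.N p s) (Z.Y (p - 1)) x) +
        I (fun x => su s (Z.YB p) x ^ 2) + I (fun x => su (B.N p s) (Z.Y (p - 1)) x ^ 2) ≤
        I (fun x => su s (Z.Y p) x ^ 2) := by
      have q3 := PBsq pYB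
      have q5 := PBsq pN
      have q4 : PB fun x => 2 * (su s (Z.yx p) x * su (B.N p s) (Z.Y (p - 1)) x) :=
        (PB.const (by norm_num : (0:ℝ) ≤ 2)).mul (pyx.mul pN)
      rw [← I_smul', ← I_add q4.integrableOn q3.integrableOn,
        ← I_add (q4.add q3).integrableOn q5.integrableOn]
      refine I_mono ((q4.add q3).add q5).integrableOn (PBsq pY).integrableOn fun x => ?_
      have n1 := pYB.nonneg x
      have n2 := pN.nonneg x
      have n3 := pyx.nonneg x
      have h1 : su s (Z.yx p) x + su s (Z.YB p) x + su (B.N p s) (Z.Y (p - 1)) x ≤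
          su s (Z.Y p) x := by
        show su s (Z.yx p) x + su s (Z.YB p) x + M s.c (fun j => Z.Y (p - 1) (B.rN p (s.L j)) x) ≤
          su s (Z.Y p) x
        unfold su
        rw [← M_add, ← M_add]
        exact M_mono hs.1.c0 fun j => Z.spl (hs.2 j) hp x
      show 2 * (su s (Z.yx p) x * su (B.N p s) (Z.Y (p - 1)) x) + su s (Z.YB p) x ^ 2 +
        su (B.N p s) (Z.Y (p - 1)) x ^ 2 ≤ su s (Z.Y p) x ^ 2
      have k1 := pow_le_pow_left₀ (add_nonneg (add_nonneg n3 n1) n2) h1 2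
      nlinarith [mul_nonneg n1 n2, mul_nonneg n3 n1, mul_nonneg n3 n2]
    linarith

/-- **charges of total rate `J` times the group totals**, both kinds -/
theorem Kw_bil2 (H : TM B wr tu fm) (Q : BCh B) {J : ℝ} (hJ : 0 < J)
    {ok : ℕ → Gs (μ × List (DT Λ κ)) → Prop} (hg : ∀ {p s}, ok p s → gst B p s)
    (hC : ∀ {p s}, ok p s → p ≠ 0 → ok p (B.C p s))
    (hN : ∀ {p s}, ok p s → p ≠ 0 → ok (p - 1) (B.N p s))
    (hY : ∀ {p b}, B.ok p b → ∀ x, Q.Y p b x ≤ J * bt b.2 x) (n p : ℕ)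
    (s : Gs (μ × List (DT Λ κ))) (hs : ok p s) :
    Kw B (fun p s => I (fun y => su s (Q.yc p) y * su (B.C p s) (fun b => bt b.2) y) +
      I (fun x => su s (Q.yx p) x * su (B.N p s) (fun b => bt b.2) x)) n p s ≤
      2 * J * I (fun x => su s (fun b => bt b.2) x ^ 2) := by
  set Z : BCh B := PVe45.add Q (PVe45.sm hJ.le (ttc H)) with hZ
  have h1 := Kw_sq2 H.cl Z n p s (hg hs)
  have eY : ∀ p b x, Z.Y p b x = Q.Y p b x + J * bt b.2 x := fun _ _ _ => rfl
  have ec : ∀ p b y, Z.yc p b y = Q.yc p b y + J * 0 := fun _ _ _ => rfl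
  have ex : ∀ p b y, Z.yx p b y = Q.yx p b y + J * 0 := fun _ _ _ => rfl
  -- the root
  have h2 : I (fun x => su s (Z.Y p) x ^ 2) ≤
      (2 * J) ^ 2 * I (fun x => su s (fun b => bt b.2) x ^ 2) := by
    have pT : PB (su s fun b => bt b.2) := PB_su' (hg hs).1 fun j => E3S479.PB_bt (H.pbl ((hg hs).2 j))
    rw [← I_smul']
    have pZ : PB (su s (Z.Y p)) := PB_su' (hg hs).1 fun j => Z.pY ((hg hs).2 j)
    refine I_mono (PBsq pZ).integrableOn
      ((PB.const (sq_nonneg (2 * J))).mul (PBsq pT)).integrableOn fun x => ?_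
    rw [← mul_pow]
    refine pow_le_pow_left₀ (pZ.nonneg x) ?_ 2
    unfold su
    rw [← M_smul]
    refine M_mono (hg hs).1.c0 fun j => ?_
    rw [eY]
    have := hY ((hg hs).2 j) x
    linarith
  have h3 : Kw B (fun p s => 2 * J * (I (fun y => su s (Q.yc p) y *
      su (B.C p s) (fun b => bt b.2) y) +
      I (fun x => su s (Q.yx p) x * su (B.N p s) (fun b => bt b.2) x))) n p s ≤
      Kw B (fun p s => 2 * I (fun y => su s (Z.yc p) y * su (B.C p s) (Z.Y p) y) +
      2 * I (fun x => su s (Z.yx p) x * su (B.N p s) (Z.Y (p - 1)) x)) n p s := by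
    refine GSK55.Kw_mono (ok := ok) hC hN (fun {p s} hs hp => ?_) n p s hs
    have g := hg hs
    have gC := gst_C H.cl g hp
    have gN := gst_N H.cl g hp
    have p1 : PB (su s (Q.yc p)) := PB_su' g.1 fun j => Q.pyc (g.2 j) hp
    have p1x : PB (su s (Q.yx p)) := PB_su' g.1 fun j => Q.pyx (g.2 j) hp
    have p2 : PB (su (B.C p s) fun b => bt b.2) := PB_su' gC.1 fun j => E3S479.PB_bt (H.pbl (gC.2 j))
    have p2x : PB (su (B.N p s) fun b => bt b.2) := PB_su' gN.1 fun j => E3S479.PB_bt (H.pbl (gN.2 j))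
    have p3 : PB (su s (Z.yc p)) := PB_su' g.1 fun j => Z.pyc (g.2 j) hp
    have p3x : PB (su s (Z.yx p)) := PB_su' g.1 fun j => Z.pyx (g.2 j) hp
    have p4 : PB (su (B.C p s) (Z.Y p)) := PB_su' gC.1 fun j => Z.pY (gC.2 j)
    have p4x : PB (su (B.N p s) (Z.Y (p - 1))) := PB_su' gN.1 fun j => Z.pY (gN.2 j)
    have a1 : 2 * J * I (fun y => su s (Q.yc p) y * su (B.C p s) (fun b => bt b.2) y) ≤
        2 * I (fun y => su s (Z.yc p) y * su (B.C p s) (Z.Y p) y) := by
      rw [← I_smul', ← I_smul']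
      refine I_mono ((PB.const (by positivity : 0 ≤ 2 * J)).mul (p1.mul p2)).integrableOn
        ((PB.const (by norm_num : (0:ℝ) ≤ 2)).mul (p3.mul p4)).integrableOn fun y => ?_
      have k1 : su s (Z.yc p) y = su s (Q.yc p) y := by
        unfold su
        congr 1
        funext j
        rw [ec]; ring
      have k2 : J * su (B.C p s) (fun b => bt b.2) y ≤ su (B.C p s) (Z.Y p) y := by
        unfold su
        rw [← M_smul]
        refine M_mono gC.1.c0 fun j => ?_
        rw [eY]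
        have := (Q.pY (gC.2 j)).nonneg y
        linarith
      have k3 := p1.nonneg y
      rw [k1]
      have k4 := mul_le_mul_of_nonneg_left k2 k3
      linarith
    have a2 : 2 * J * I (fun y => su s (Q.yx p) y * su (B.N p s) (fun b => bt b.2) y) ≤
        2 * I (fun y => su s (Z.yx p) y * su (B.N p s) (Z.Y (p - 1)) y) := by
      rw [← I_smul', ← I_smul']
      refine I_mono ((PB.const (by positivity : 0 ≤ 2 * J)).mul (p1x.mul p2x)).integrableOn
        ((PB.const (by norm_num : (0:ℝ) ≤ 2)).mul (p3x.mul p4x)).integrableOn fun y => ?_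
      have k1 : su s (Z.yx p) y = su s (Q.yx p) y := by
        unfold su
        congr 1
        funext j
        rw [ex]; ring
      have k2 : J * su (B.N p s) (fun b => bt b.2) y ≤ su (B.N p s) (Z.Y (p - 1)) y := by
        unfold su
        rw [← M_smul]
        refine M_mono gN.1.c0 fun j => ?_
        rw [eY]
        have := (Q.pY (gN.2 j)).nonneg y
        linarith
      have k3 := p1x.nonneg y
      rw [k1]
      have k4 := mul_le_mul_of_nonneg_left k2 k3
      linarith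
    show 2 * J * (_ + _) ≤ _
    rw [mul_add]
    exact add_le_add a1 a2
  have h4 := h3.trans (h1.trans h2)
  rw [GSK55.Kw_smul] at h4
  have h5 : (2 * J) ^ 2 * I (fun x => su s (fun b => bt b.2) x ^ 2) =
      2 * J * (2 * J * I (fun x => su s (fun b => bt b.2) x ^ 2)) := by ring
  rw [h5] at h4
  exact le_of_mul_le_mul_left h4 (by positivity)

/-- **the jumps are paid by (charge) x (group total)** : `θ`-budget; only ONE piece of the pair has to be
special with a small rate -/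
theorem Kw_jmpT (H : TM B wr tu fm) {Q : φ → φ → Prop}
    {ok : ℕ → Gs (μ × List (DT Λ κ)) → Prop} (hg : ∀ {p s}, ok p s → gst B p s)
    (hC : ∀ {p s}, ok p s → p ≠ 0 → ok p (B.C p s))
    (hN : ∀ {p s}, ok p s → p ≠ 0 → ok (p - 1) (B.N p s))
    (Z : BCh B) {J : ℝ} (hJ : 0 < J) (hY : ∀ {p b}, B.ok p b → ∀ x, Z.Y p b x ≤ J * bt b.2 x)
    (h : ∀ {p s}, ok p s → p ≠ 0 → I (jmp Q tu fm p s) ≤
      I (fun y => su s (Z.yc p) y * su (B.C p s) (fun b => bt b.2) y) +
      I (fun x => su s (Z.yx p) x * su (B.N p s) (fun b => bt b.2) x))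
    (n p : ℕ) (s : Gs (μ × List (DT Λ κ))) (hs : ok p s) :
    Kw B (fun p s => I (jmp Q tu fm p s)) n p s ≤
      2 * J * I (fun x => su s (fun b => bt b.2) x ^ 2) :=
  (GSK55.Kw_mono (ok := ok) hC hN (fun hs hp => h hs hp) n p s hs).trans
    (Kw_bil2 H Z hJ hg hC hN hY n p s hs)

end grp

end Crest.Agent.R4P.E3J479
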