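import Crest.Agent.R4P.E3S_479
import Crest.Agent.R4P.DTn_407

/-!
R4 (S0004) with powers, T3, helper479 (PLAN v1, D1): **the telescoped local link over typed trees**
(`rxm H` of `DTn_407`).

* `fmD` : families of the pieces: (index, type); `QB` : same index, different types or outside; `tmD`.
* `EI_eq` : `Σ_i E_i² = rco + eco`; `psm_eq` : `psm rB = QS QB` (common memory).
* **`gT_le`** : the local term of the group walk of a context `≤ 2 I rco + erf`, i.e. the field `loc` of
  `GTopW50.NData` with `c = 2` and `er = erf ..`, `ec = I (psm rC)`; its walk sum is `E3S479.her_of`.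
* `Phi_one` : the potential of the start bundle.
-/

set_option autoImplicit false
set_option linter.unusedSectionVars false
set_option linter.unusedVariables false
open MeasureTheory Filter Set

namespace Crest.Agent.R4P.E3L479

open Crest.Agent.R4.Tour104 Crest.Agent.R4.Tour758 Crest.Agent.R4.Avg758 Crest.Agent.R4.Clos758
open Crest.Agent.R4.ClosL758 Crest.Agent.R4.ClosG758 Crest.Agent.R4.ClosR758
open Crest.Agent.R4P.ClosR442 Crest.Agent.R4P.Grp36
open Crest.Agent.R4P.Xfer36 Crest.Agent.R4P.TopC36 Crest.Agent.R4P.PN36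
open Crest.Agent.R4P.GMer27 Crest.Agent.R4P.GCol27 Crest.Agent.R4P.GWa343 Crest.Agent.R4P.GWb343
open Crest.Agent.R4P.GWc343 Crest.Agent.R4P.GWd343 Crest.Agent.R4P.TrR343 Crest.Agent.R4P.DTp26
open Crest.Agent.R4P.RSys343 Crest.Agent.R4P.RXm55 Crest.Agent.R4P.MSm25 Crest.Agent.R4P.MSd343
open Crest.Agent.R4P.VR407 Crest.Agent.R4P.Bp407 Crest.Agent.R4P.DTm407
open Crest.Agent.R4P.GSK55 (stp gk Pr Kw Kw_succ Kw_z one one_TC one_su BC_pos BC_neg)
open Crest.Agent.R4P.PayR45
open Crest.Agent.R4P.E3D479 Crest.Agent.R4P.E3E479 Crest.Agent.R4P.E3P479 Crest.Agent.R4P.E3T479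
open Crest.Agent.R4P.E3S479
open Crest.Agent.R4P.MSi343 (su)
open Crest.Agent.R4P.Walk560 (DT)

section td
variable {μ Λ κ ζ ι : Type} [Fintype Λ] [DecidableEq Λ] [Fintype κ] [DecidableEq κ]
  [Fintype ζ] [DecidableEq ζ] [Fintype ι] [DecidableEq ι]

/-- families of the pieces: (index, type) -/
def fmD (D : TD μ Λ κ ζ) (wr : ℕ → Λ → κ) (ix : κ → ι) (p : ℕ) (m : μ) (x : ℝ) (j : Λ) :
    ι × Option ζ := (ix (wr p j), D.tp p m x j)

/-- same index, different types (or outside of the game) -/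
def QB (a b : ι × Option ζ) : Prop := a.1 = b.1 ∧ (a.2 ≠ b.2 ∨ a.2 = none)

lemma QB_ix (a b : ι × Option ζ) (h : QB a b) : a.1 = b.1 := h.1

variable {D : TD μ Λ κ ζ} {wr : ℕ → Λ → κ} {ix : κ → ι}
  {Inv : ℕ → μ × List (DT Λ κ) → Prop} {p : ℕ} {b : μ × List (DT Λ κ)}
  {s : Gs (μ × List (DT Λ κ))}

/-- **the typed trees are an instance** -/
lemma tmD (H : TYp wr D Inv) (ix : κ → ι) :
    TM (bm (DTn407.rxm H)) wr D.tu (fmD D wr ix) where
  cl := ⟨fun h hp => H.toP h hp, fun h hp => H.toN h hp, fun h hp => H.toR h hp⟩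
  eP := fun _ _ => rfl
  eN := fun _ _ => rfl
  eR := fun _ _ => rfl
  kok := fun h hp => H.bok h hp
  pba := fun h => H.pb h
  no1 := fun h => H.no1 h
  mp := fun p m j => (MP.const _).prod (H.mtp p m j)

/-- the group lift of an index by pieces -/
lemma EI_M (H : TYp wr D Inv) (hs : ∀ k, Inv p (s.L k)) (i : ι) (x : ℝ) :
    EI wr D.tu (fmD D wr ix) Prod.fst p s i x =
      M s.c fun k => ∑ j, if ix (wr p j) = i then eg (wr p) p (bB p (s.L k).2) j x else 0 := by
  classical
  unfold EI Eg su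
  rw [← M_sum]
  congr 1
  funext k
  unfold eB
  simp only [hz_eq]
  rw [Finset.sum_comm]
  refine Finset.sum_congr rfl fun j _ => ?_
  by_cases hj : ix (wr p j) = i
  · rw [if_pos hj, Finset.sum_eq_single (oL D.tu (fmD D wr ix) p (s.L k) (p * x) j)]
    · simp
    · intro a _ ha
      exact if_neg fun hh => ha hh.symm
    · intro hn
      exfalso
      apply hn
      rw [Finset.mem_filter]
      exact ⟨Finset.mem_univ _, hj⟩
  · rw [if_neg hj]
    refine Finset.sum_eq_zero fun a ha => if_neg fun hh => hj ?_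
    have h1 := (Finset.mem_filter.1 ha).2
    rw [← hh] at h1
    exact h1

/-- **`Σ_i E_i² = rco + eco`** -/
lemma EI_eq (H : TYp wr D Inv) (hs : ∀ k, Inv p (s.L k)) (hp : p ≠ 0) (x : ℝ) :
    ∑ i, EI wr D.tu (fmD D wr ix) Prod.fst p s i x ^ 2 =
      (tl D wr ix).rco p s x + (tl D wr ix).eco p s x := by
  classical
  unfold TL.rco TL.eco
  rw [← sq_split]
  refine Finset.sum_congr rfl fun i _ => ?_
  congr 1
  rw [EI_M H hs i x]
  unfold TL.mc
  rw [← M_sum]
  congr 1
  funext k
  simp only [TL.Fc_eq]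
  rw [Finset.sum_comm]
  refine Finset.sum_congr rfl fun j _ => ?_
  by_cases hj : ix (wr p j) = i
  · rw [if_pos hj]
    symm
    rw [Finset.sum_eq_single ((tl D wr ix).ta p (s.L k) x j, (tl D wr ix).tb p (s.L k) x j)]
    · rw [if_pos]
      · rfl
      · unfold TL.tau
        show (ix (wr p j), _) = _
        rw [hj]
    · intro u _ hu
      refine if_neg fun hh => hu ?_
      unfold TL.tau at hh
      exact (Prod.ext_iff.1 hh).2.symm
    · intro hn; exact absurd (Finset.mem_univ _) hn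
  · rw [if_neg hj]
    symm
    refine Finset.sum_eq_zero fun u _ => if_neg fun hh => hj ?_
    exact (Prod.ext_iff.1 hh).1

/-- **the pair sum (B) is an energy of related families** -/
lemma psm_eq (H : TYp wr D Inv) {m : μ} (hm : Cm m s) (x : ℝ) :
    psm (tl D wr ix) (rB D wr ix p m) p s x =
      QS QB (Eg wr D.tu (fmD D wr ix) p s) (Eg wr D.tu (fmD D wr ix) p s) x := by
  classical
  -- the low family of a piece
  set f : Λ → ι × Option ζ := fun j => (ix (wr p j), D.lt p m (p * x) j) with hf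
  have e1 : ∀ a, Eg wr D.tu (fmD D wr ix) p s a x =
      ∑ j, if f j = a then (tl D wr ix).GP p s j x else 0 := by
    intro a
    unfold Eg su
    have e2 : ∀ j, (if f j = a then (tl D wr ix).GP p s j x else 0) =
        M s.c fun k => if f j = a then eg (wr p) p (bB p (s.L k).2) j x else 0 := by
      intro j
      by_cases hj : f j = a
      · simp only [if_pos hj]; rfl
      · simp only [if_neg hj]; simp [M]
    rw [Finset.sum_congr rfl fun j _ => e2 j, ← M_sum]
    congr 1
    funext k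
    show eB (wr p) p (bB p (s.L k).2) (oL D.tu (fmD D wr ix) p (s.L k)) a x = _
    unfold eB
    rw [hz_eq]
    refine Finset.sum_congr rfl fun j _ => ?_
    have e3 : oL D.tu (fmD D wr ix) p (s.L k) (p * x) j = f j := by
      show (ix (wr p j), D.tp p (D.tu p (s.L k).1) (p * x) j) = (ix (wr p j), D.lt p m (p * x) j)
      rw [hm k]; rfl
    by_cases hj : f j = a
    · rw [if_pos hj, if_pos (by rw [e3]; exact hj)]
    · rw [if_neg hj, if_neg (by rw [e3]; exact hj)]
  unfold psm QS
  have e4 : ∀ a b, (if QB a b then Eg wr D.tu (fmD D wr ix) p s a x *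
      Eg wr D.tu (fmD D wr ix) p s b x else 0) = ∑ j, ∑ j',
      if f j = a ∧ f j' = b then (if QB (f j) (f j') then (tl D wr ix).GP p s j x *
        (tl D wr ix).GP p s j' x else 0) else 0 := by
    intro a b
    rw [e1, e1, Finset.sum_mul_sum]
    by_cases hab : QB a b
    · rw [if_pos hab]
      refine Finset.sum_congr rfl fun j _ => Finset.sum_congr rfl fun j' _ => ?_
      by_cases h1 : f j = a
      · by_cases h2 : f j' = b
        · rw [if_pos h1, if_pos h2, if_pos ⟨h1, h2⟩, if_pos (by rw [h1, h2]; exact hab)]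
        · rw [if_neg h2, mul_zero]
          symm
          exact if_neg fun hh => h2 hh.2
      · rw [if_neg h1, zero_mul]
        symm
        exact if_neg fun hh => h1 hh.1
    · rw [if_neg hab]
      symm
      refine Finset.sum_eq_zero fun j _ => Finset.sum_eq_zero fun j' _ => ?_
      by_cases h1 : f j = a ∧ f j' = b
      · rw [if_pos h1, if_neg (by rw [h1.1, h1.2]; exact hab)]
      · rw [if_neg h1]
  simp only [e4]
  have e5 : ∀ (F : Λ → Λ → ℝ), ∑ a, ∑ b, ∑ j, ∑ j', (if f j = a ∧ f j' = b then F j j' else 0) =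
      ∑ j, ∑ j', F j j' := by
    intro F
    calc ∑ a, ∑ b, ∑ j, ∑ j', (if f j = a ∧ f j' = b then F j j' else 0)
        = ∑ a, ∑ j, ∑ b, ∑ j', (if f j = a ∧ f j' = b then F j j' else 0) :=
          Finset.sum_congr rfl fun a _ => Finset.sum_comm
      _ = ∑ j, ∑ a, ∑ b, ∑ j', (if f j = a ∧ f j' = b then F j j' else 0) := Finset.sum_comm
      _ = ∑ j, ∑ a, ∑ j', ∑ b, (if f j = a ∧ f j' = b then F j j' else 0) :=
          Finset.sum_congr rfl fun j _ => Finset.sum_congr rfl fun a _ => Finset.sum_comm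
      _ = ∑ j, ∑ j', ∑ a, ∑ b, (if f j = a ∧ f j' = b then F j j' else 0) :=
          Finset.sum_congr rfl fun j _ => Finset.sum_comm
      _ = ∑ j, ∑ j', F j j' := by
          refine Finset.sum_congr rfl fun j _ => Finset.sum_congr rfl fun j' _ => ?_
          rw [Finset.sum_eq_single (f j)]
          · rw [Finset.sum_eq_single (f j')]
            · rw [if_pos ⟨rfl, rfl⟩]
            · intro b _ hb
              exact if_neg fun hh => hb hh.2.symm
            · intro hn; exact absurd (Finset.mem_univ _) hn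
          · intro a _ ha
            exact Finset.sum_eq_zero fun b _ => if_neg fun hh => ha hh.1.symm
          · intro hn; exact absurd (Finset.mem_univ _) hn
  rw [e5]
  refine Finset.sum_congr rfl fun j _ => Finset.sum_congr rfl fun j' _ => ?_
  rfl

/-- **the local link, telescoped** -/
theorem link_le (H : TYp wr D Inv) (hs : gst (bm (DTn407.rxm H)) p s) (hp : p ≠ 0) {m : μ}
    (hm : Cm m s)
    (hv : ∀ y (a b : ι × Option ζ), QB a b → Ep p (Xg wr D.tu (fmD D wr ix) p s a) y *
      Ep p (Xg wr D.tu (fmD D wr ix) p s b) y ≤ 1 / (p : ℝ) *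
      Ep p (fun x => Xg wr D.tu (fmD D wr ix) p s a x * Xg wr D.tu (fmD D wr ix) p s b x) y) :
    I ((tl D wr ix).rco p s) + I ((tl D wr ix).eco p s) ≤ 2 * I ((tl D wr ix).rco p s) +
      erf (bm (DTn407.rxm H)) QB wr D.tu (fmD D wr ix) 1
        (fun p s => I (psm (tl D wr ix) (rC D wr ix p m) p s)) p s := by
  have h : ∀ j, Inv p (s.L j) := hs.2
  have c0 := hs.1.c0
  have hY : ∀ j, (tl D wr ix).Ok p (s.L j) := fun j => tl_ok H (h j) hp
  have pr := TL.PB_rco c0 hY
  have pe := TL.PB_eco c0 hY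
  have T := tmD H ix
  have eL : I (fun x => ∑ i, EI wr D.tu (fmD D wr ix) Prod.fst p s i x ^ 2) =
      I ((tl D wr ix).rco p s) + I ((tl D wr ix).eco p s) := by
    rw [← I_add pr.integrableOn pe.integrableOn]
    congr 1
    funext x
    exact EI_eq H h hp x
  have hL : I (fun x => ∑ i, EI wr D.tu (fmD D wr ix) Prod.fst p s i x ^ 2) ≤
      1 * I ((tl D wr ix).rco p s) + 1 * I (QS QB (Eg wr D.tu (fmD D wr ix) p s)
        (Eg wr D.tu (fmD D wr ix) p s)) + I (psm (tl D wr ix) (rC D wr ix p m) p s) := by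
    rw [eL, one_mul, one_mul, add_assoc]
    refine add_le_add le_rfl ?_
    have pQ := PB_QS (Q := (QB : ι × Option ζ → ι × Option ζ → Prop)) (T.pEg hs hp) (T.pEg hs hp)
    have pC : PB (psm (tl D wr ix) (rC D wr ix p m) p s) := by
      classical
      have pG := fun j => TL.PB_GP c0 hY j
      refine PB.sum _ fun j _ => PB.sum _ fun j' _ => ?_
      have m1 : MP fun x : ℝ => rC D wr ix p m x j j' := by
        have a1 := (H.mltp p m j).prod ((H.mltp p m j').prod ((H.mtp p m j).prod (H.mtp p m j')))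
        exact a1.map fun q => ix (wr p j) = ix (wr p j') ∧ q.1 = q.2.1 ∧ q.1 ≠ none ∧
          q.2.2.1 ≠ q.2.2.2
      exact ModeG51.PB_ite m1.prop.1 m1.prop.2 ((pG j).mul (pG j')) (PB.const le_rfl)
    rw [← I_add pQ.integrableOn pC.integrableOn]
    refine I_mono pe.integrableOn (pQ.add pC).integrableOn fun x => ?_
    show (tl D wr ix).eco p s x ≤ QS QB _ _ x + psm _ _ p s x
    rw [← psm_eq H hm x]
    exact eco_le H c0 h hp hm x
  have h1 := loc_of T (pi := Prod.fst) (ix := ix) (fun _ _ _ _ => rfl) QB_ix hs hp hv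
    (A := I ((tl D wr ix).rco p s)) le_rfl
    (fun p s => I (psm (tl D wr ix) (rC D wr ix p m) p s)) hL
  rw [eL, mul_one] at h1
  exact h1

end td

/-! ### a context -/

section ctx
open Crest.Agent.R4.Fam464 Crest.Agent.R4P.Cnt588 Crest.Agent.R4P.Item758
open Crest.Agent.R4P.Data758 Crest.Agent.R4P.Skel189
open Crest.Agent.R4P.TopX36

variable {N : Skel189.Num} {γ : ℝ} {p0 P₀ : ℕ} {μ ζ : Type} [Fintype ζ] [DecidableEq ζ]

/-- **the field `loc` of `GTopW50.NData`** with `c = 2` -/
theorem gT_le (X : Ctx N γ p0 P₀) (j₀ : X.c.Lam) {D : TD μ X.c.Lam (LbX X) ζ}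
    {wr : ℕ → X.c.Lam → LbX X} {Inv : ℕ → μ × List (DT X.c.Lam (LbX X)) → Prop}
    (H : TYp wr D Inv) {p : ℕ} {s : Gs (μ × List (DT X.c.Lam (LbX X)))}
    (hs : gst (bm (DTn407.rxm H)) p s) (hp : p ≠ 0) {m : μ} (hm : Cm m s)
    (hv : ∀ y (a b : _ × Option ζ), QB a b → Ep p (Xg wr D.tu (fmD D wr (ixL (X := X))) p s a) y *
      Ep p (Xg wr D.tu (fmD D wr (ixL (X := X))) p s b) y ≤ 1 / (p : ℝ) *
      Ep p (fun x => Xg wr D.tu (fmD D wr (ixL (X := X))) p s a x *
        Xg wr D.tu (fmD D wr (ixL (X := X))) p s b x) y) :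
    gT X p (gBs p (stp Prod.snd s)) ≤ 2 * I ((tl D wr (ixL (X := X))).rco p s) +
      erf (bm (DTn407.rxm H)) QB wr D.tu (fmD D wr (ixL (X := X))) 1
        (fun p s => I (psm (tl D wr (ixL (X := X))) (rC D wr (ixL (X := X)) p m) p s)) p s := by
  rw [gT_link X j₀ H hs.1.c0 hs.2 hp]
  exact link_le H hs hp hm hv

end ctx

end Crest.Agent.R4P.E3L479
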