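import Crest.Agent.R4P.E3U_479
import Crest.Agent.R4P.E3L_479
import Crest.Agent.R4P.E3G_493

/-!
R4 (S0004) with powers, T3, helper479 (PLAN v1, D1): **the telescoped local link over typed trees, with the
quadratic impure part** (`E3U479.loc_of2`).

* **`link_le2`**, **`gT_le2`** : the field `loc` of `GTopW50.NData` with `c = 2` and `er = erf2 ..`,
  `ec = pC` (lifts of one index and low type, different
  point types); its walk sum is `E3U479.her_of2`.
* **`link_leG`**, **`gT_leG`** : the same with `n` groups of the families, `gl : index × low type → Fin n`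
  (`E3G_493`): `c = 2 n`, related pairs `QG gl` = `QB` and same group.
-/

set_option autoImplicit false
set_option linter.unusedSectionVars false
set_option linter.unusedVariables false
open MeasureTheory Filter Set

namespace Crest.Agent.R4P.E3M479

open Crest.Agent.R4.Tour104 Crest.Agent.R4.Tour758 Crest.Agent.R4.Avg758 Crest.Agent.R4.Clos758
open Crest.Agent.R4.ClosL758 Crest.Agent.R4.ClosG758 Crest.Agent.R4.ClosR758
open Crest.Agent.R4P.ClosR442 Crest.Agent.R4P.Grp36
open Crest.Agent.R4P.Xfer36 Crest.Agent.R4P.TopC36 Crest.Agent.R4P.PN36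
open Crest.Agent.R4P.GMer27 Crest.Agent.R4P.GCol27 Crest.Agent.R4P.GWa343 Crest.Agent.R4P.GWb343
open Crest.Agent.R4P.GWc343 Crest.Agent.R4P.GWd343 Crest.Agent.R4P.TrR343 Crest.Agent.R4P.DTp26
open Crest.Agent.R4P.RSys343 Crest.Agent.R4P.RXm55 Crest.Agent.R4P.MSm25 Crest.Agent.R4P.MSd343
open Crest.Agent.R4P.VR407 Crest.Agent.R4P.Bp407 Crest.Agent.R4P.DTm407
open Crest.Agent.R4P.GSK55 (stp gk Pr Kw Kw_succ Kw_z one one_TC one_su BC_pos BC_neg)
open Crest.Agent.R4P.PayR45
open Crest.Agent.R4P.E3D479 Crest.Agent.R4P.E3E479 Crest.Agent.R4P.E3P479 Crest.Agent.R4P.E3T479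
open Crest.Agent.R4P.E3S479 Crest.Agent.R4P.E3U479 Crest.Agent.R4P.E3L479
open Crest.Agent.R4P.MSi343 (su)
open Crest.Agent.R4P.Walk560 (DT)

section td
variable {μ Λ κ ζ ι : Type} [Fintype Λ] [DecidableEq Λ] [Fintype κ] [DecidableEq κ]
  [Fintype ζ] [DecidableEq ζ] [Fintype ι] [DecidableEq ι]

variable {D : TD μ Λ κ ζ} {wr : ℕ → Λ → κ} {ix : κ → ι}
  {Inv : ℕ → μ × List (DT Λ κ) → Prop} {p : ℕ} {b : μ × List (DT Λ κ)}
  {s : Gs (μ × List (DT Λ κ))}

/-- (C) same index and low type, different point types -/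
def rCs (D : TD μ Λ κ ζ) (wr : ℕ → Λ → κ) (ix : κ → ι) (p : ℕ)
    (s : Gs (μ × List (DT Λ κ))) (x : ℝ) (j j' : Λ) : Prop :=
  ∃ k : s.J, rC D wr ix p (s.L k).1 x j j'

lemma rCs_iff {m : μ} (hs : TC s.c s.W) (hm : Cm m s) (x : ℝ) (j j' : Λ) :
    rCs D wr ix p s x j j' ↔ rC D wr ix p m x j j' := by
  have hJ : Nonempty s.J := by
    by_contra hn
    rw [not_nonempty_iff] at hn
    have := hs.c1
    simp at this
  constructor
  · rintro ⟨k, hk⟩
    rw [hm k] at hk
    exact hk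
  · intro h
    obtain ⟨k⟩ := hJ
    exact ⟨k, by rw [hm k]; exact h⟩

/-- the energy of the lifts of the pairs (C) -/
noncomputable def pC (D : TD μ Λ κ ζ) (wr : ℕ → Λ → κ) (ix : κ → ι) (p : ℕ)
    (s : Gs (μ × List (DT Λ κ))) : ℝ := I (psm (tl D wr ix) (rCs D wr ix p s) p s)

lemma pC_eq {m : μ} (hs : TC s.c s.W) (hm : Cm m s) :
    pC D wr ix p s = I (psm (tl D wr ix) (rC D wr ix p m) p s) := by
  unfold pC
  congr 1
  have e : rCs D wr ix p s = rC D wr ix p m := by
    funext x j j'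
    exact propext (rCs_iff hs hm x j j')
  rw [e]

/-- **the local link, telescoped** -/
theorem link_le2 (H : TYp wr D Inv) (hs : gst (bm (DTn407.rxm H)) p s) (hp : p ≠ 0) {m : μ}
    (hm : Cm m s)
    (hv : ∀ y (a b : ι × Option ζ), QB a b → Ep p (Xg wr D.tu (fmD D wr ix) p s a) y *
      Ep p (Xg wr D.tu (fmD D wr ix) p s b) y ≤ 1 / (p : ℝ) *
      Ep p (fun x => Xg wr D.tu (fmD D wr ix) p s a x * Xg wr D.tu (fmD D wr ix) p s b x) y) :
    I ((tl D wr ix).rco p s) + I ((tl D wr ix).eco p s) ≤ 2 * I ((tl D wr ix).rco p s) +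
      erf2 (bm (DTn407.rxm H)) QB wr D.tu (fmD D wr ix) ix 1 (pC D wr ix) p s := by
  have h : ∀ j, Inv p (s.L j) := hs.2
  have c0 := hs.1.c0
  have hY : ∀ j, (tl D wr ix).Ok p (s.L j) := fun j => tl_ok H (h j) hp
  have pr := TL.PB_rco c0 hY
  have pe := TL.PB_eco c0 hY
  have T := tmD H ix
  have eL : I (fun x => ∑ i, EI wr D.tu (fmD D wr ix) Prod.fst p s i x ^ 2) =
      I ((tl D wr ix).rco p s) + I ((tl D wr ix).eco p s) := by
    rw [← I_add pr.integrableOn pe.integrableOn]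
    congr 1
    funext x
    exact EI_eq H h hp x
  have hL : I (fun x => ∑ i, EI wr D.tu (fmD D wr ix) Prod.fst p s i x ^ 2) ≤
      1 * I ((tl D wr ix).rco p s) + 1 * I (QS QB (Eg wr D.tu (fmD D wr ix) p s)
        (Eg wr D.tu (fmD D wr ix) p s)) + pC D wr ix p s := by
    rw [eL, one_mul, one_mul, add_assoc, pC_eq hs.1 hm]
    refine add_le_add le_rfl ?_
    have pQ := PB_QS (Q := (QB : ι × Option ζ → ι × Option ζ → Prop)) (T.pEg hs hp) (T.pEg hs hp)
    have pC : PB (psm (tl D wr ix) (rC D wr ix p m) p s) := by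
      classical
      have pG := fun j => TL.PB_GP c0 hY j
      refine PB.sum _ fun j _ => PB.sum _ fun j' _ => ?_
      have m1 : MP fun x : ℝ => rC D wr ix p m x j j' := by
        have a1 := (H.mltp p m j).prod ((H.mltp p m j').prod ((H.mtp p m j).prod (H.mtp p m j')))
        exact a1.map fun q => ix (wr p j) = ix (wr p j') ∧ q.1 = q.2.1 ∧ q.1 ≠ none ∧
          q.2.2.1 ≠ q.2.2.2
      exact ModeG51.PB_ite m1.prop.1 m1.prop.2 ((pG j).mul (pG j')) (PB.const le_rfl)
    rw [← I_add pQ.integrableOn pC.integrableOn]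
    refine I_mono pe.integrableOn (pQ.add pC).integrableOn fun x => ?_
    show (tl D wr ix).eco p s x ≤ QS QB _ _ x + psm _ _ p s x
    rw [← psm_eq H hm x]
    exact eco_le H c0 h hp hm x
  have h1 := loc_of2 T (pi := Prod.fst) (ix := ix) (fun _ _ _ _ => rfl) QB_ix hs hp hv
    (A := I ((tl D wr ix).rco p s)) le_rfl (pC D wr ix) hL
  rw [eL, mul_one] at h1
  exact h1

/-- **pair sums are energies of related families**, any relation -/
lemma psm_eqQ (H : TYp wr D Inv) {m : μ} (hm : Cm m s) (Q : ι × Option ζ → ι × Option ζ → Prop)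
    (x : ℝ) : psm (tl D wr ix) (fun x j j' => Q (ix (wr p j), D.lt p m (p * x) j)
      (ix (wr p j'), D.lt p m (p * x) j')) p s x =
      QS Q (Eg wr D.tu (fmD D wr ix) p s) (Eg wr D.tu (fmD D wr ix) p s) x := by
  classical
  -- the low family of a piece
  set f : Λ → ι × Option ζ := fun j => (ix (wr p j), D.lt p m (p * x) j) with hf
  have e1 : ∀ a, Eg wr D.tu (fmD D wr ix) p s a x =
      ∑ j, if f j = a then (tl D wr ix).GP p s j x else 0 := by
    intro a
    unfold Eg su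
    have e2 : ∀ j, (if f j = a then (tl D wr ix).GP p s j x else 0) =
        M s.c fun k => if f j = a then eg (wr p) p (bB p (s.L k).2) j x else 0 := by
      intro j
      by_cases hj : f j = a
      · simp only [if_pos hj]; rfl
      · simp only [if_neg hj]; simp [M]
    rw [Finset.sum_congr rfl fun j _ => e2 j, ← M_sum]
    congr 1
    funext k
    show eB (wr p) p (bB p (s.L k).2) (oL D.tu (fmD D wr ix) p (s.L k)) a x = _
    unfold eB
    rw [hz_eq]
    refine Finset.sum_congr rfl fun j _ => ?_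
    have e3 : oL D.tu (fmD D wr ix) p (s.L k) (p * x) j = f j := by
      show (ix (wr p j), D.tp p (D.tu p (s.L k).1) (p * x) j) = (ix (wr p j), D.lt p m (p * x) j)
      rw [hm k]; rfl
    by_cases hj : f j = a
    · rw [if_pos hj, if_pos (by rw [e3]; exact hj)]
    · rw [if_neg hj, if_neg (by rw [e3]; exact hj)]
  unfold psm QS
  have e4 : ∀ a b, (if Q a b then Eg wr D.tu (fmD D wr ix) p s a x *
      Eg wr D.tu (fmD D wr ix) p s b x else 0) = ∑ j, ∑ j',
      if f j = a ∧ f j' = b then (if Q (f j) (f j') then (tl D wr ix).GP p s j x *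
        (tl D wr ix).GP p s j' x else 0) else 0 := by
    intro a b
    rw [e1, e1, Finset.sum_mul_sum]
    by_cases hab : Q a b
    · rw [if_pos hab]
      refine Finset.sum_congr rfl fun j _ => Finset.sum_congr rfl fun j' _ => ?_
      by_cases h1 : f j = a
      · by_cases h2 : f j' = b
        · rw [if_pos h1, if_pos h2, if_pos ⟨h1, h2⟩, if_pos (by rw [h1, h2]; exact hab)]
        · rw [if_neg h2, mul_zero]
          symm
          exact if_neg fun hh => h2 hh.2
      · rw [if_neg h1, zero_mul]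
        symm
        exact if_neg fun hh => h1 hh.1
    · rw [if_neg hab]
      symm
      refine Finset.sum_eq_zero fun j _ => Finset.sum_eq_zero fun j' _ => ?_
      by_cases h1 : f j = a ∧ f j' = b
      · rw [if_pos h1, if_neg (by rw [h1.1, h1.2]; exact hab)]
      · rw [if_neg h1]
  simp only [e4]
  have e5 : ∀ (F : Λ → Λ → ℝ), ∑ a, ∑ b, ∑ j, ∑ j', (if f j = a ∧ f j' = b then F j j' else 0) =
      ∑ j, ∑ j', F j j' := by
    intro F
    calc ∑ a, ∑ b, ∑ j, ∑ j', (if f j = a ∧ f j' = b then F j j' else 0)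
        = ∑ a, ∑ j, ∑ b, ∑ j', (if f j = a ∧ f j' = b then F j j' else 0) :=
          Finset.sum_congr rfl fun a _ => Finset.sum_comm
      _ = ∑ j, ∑ a, ∑ b, ∑ j', (if f j = a ∧ f j' = b then F j j' else 0) := Finset.sum_comm
      _ = ∑ j, ∑ a, ∑ j', ∑ b, (if f j = a ∧ f j' = b then F j j' else 0) :=
          Finset.sum_congr rfl fun j _ => Finset.sum_congr rfl fun a _ => Finset.sum_comm
      _ = ∑ j, ∑ j', ∑ a, ∑ b, (if f j = a ∧ f j' = b then F j j' else 0) :=
          Finset.sum_congr rfl fun j _ => Finset.sum_comm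
      _ = ∑ j, ∑ j', F j j' := by
          refine Finset.sum_congr rfl fun j _ => Finset.sum_congr rfl fun j' _ => ?_
          rw [Finset.sum_eq_single (f j)]
          · rw [Finset.sum_eq_single (f j')]
            · rw [if_pos ⟨rfl, rfl⟩]
            · intro b _ hb
              exact if_neg fun hh => hb hh.2.symm
            · intro hn; exact absurd (Finset.mem_univ _) hn
          · intro a _ ha
            exact Finset.sum_eq_zero fun b _ => if_neg fun hh => ha hh.1.symm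
          · intro hn; exact absurd (Finset.mem_univ _) hn
  rw [e5]

/-- same group, same index, different types (or outside of the game) -/
def QG {n : ℕ} (gl : ι × Option ζ → Fin n) (a b : ι × Option ζ) : Prop := QB a b ∧ gl a = gl b

lemma QG_ix {n : ℕ} (gl : ι × Option ζ → Fin n) (a b : ι × Option ζ) (h : QG gl a b) : a.1 = b.1 :=
  h.1.1

/-- **the local link with `n` groups, telescoped** -/
theorem link_leG (H : TYp wr D Inv) (hs : gst (bm (DTn407.rxm H)) p s) (hp : p ≠ 0) {m : μ}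
    (hm : Cm m s) {n : ℕ} (hn : 1 ≤ n) (gl : ι × Option ζ → Fin n) (j₀ : Λ)
    (hv : ∀ y (a b : ι × Option ζ), QG gl a b → Ep p (Xg wr D.tu (fmD D wr ix) p s a) y *
      Ep p (Xg wr D.tu (fmD D wr ix) p s b) y ≤ 1 / (p : ℝ) *
      Ep p (fun x => Xg wr D.tu (fmD D wr ix) p s a x * Xg wr D.tu (fmD D wr ix) p s b x) y) :
    I (fun x => ∑ i, ixF ix (GmG (gBs p (stp Prod.snd s))) i x ^ 2) ≤
      2 * n * I ((tl D wr ix).rco p s) +
      erf2 (bm (DTn407.rxm H)) (QG gl) wr D.tu (fmD D wr ix) ix n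
        (fun p s => n * pC D wr ix p s) p s := by
  classical
  have h : ∀ j, Inv p (s.L j) := hs.2
  have c0 := hs.1.c0
  have hY : ∀ j, (tl D wr ix).Ok p (s.L j) := fun j => tl_ok H (h j) hp
  have pr := TL.PB_rco c0 hY
  have pe := TL.PB_eco c0 hY
  have T := tmD H ix
  have hn' : (1 : ℝ) ≤ n := by exact_mod_cast hn
  -- the left side is the energy of the group lifts
  have eL : I (fun x => ∑ i, EI wr D.tu (fmD D wr ix) Prod.fst p s i x ^ 2) =
      I (fun x => ∑ i, ixF ix (GmG (gBs p (stp Prod.snd s))) i x ^ 2) := by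
    congr 1
    funext x
    rw [EI_eq H h hp x, ← E3E479.lst_eq (D := D) (wr := wr) (ix := ix)]
    exact (TL.loc_eq hY j₀ x).symm
  set gr : ℕ → ι → Option ζ × Option ζ → Fin n := fun _ i u => gl (i, u.1) with hgr
  have l1 := E3G493.linkG gr H c0 h hp j₀ (s := s) (ix := ix)
  have pQ := PB_QS (Q := QG gl) (T.pEg hs hp) (T.pEg hs hp)
  have pC' : PB (psm (tl D wr ix) (rC D wr ix p m) p s) := by
    have pG := fun j => TL.PB_GP c0 hY j
    refine PB.sum _ fun j _ => PB.sum _ fun j' _ => ?_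
    have m1 : MP fun x : ℝ => rC D wr ix p m x j j' := by
      have a1 := (H.mltp p m j).prod ((H.mltp p m j').prod ((H.mtp p m j).prod (H.mtp p m j')))
      exact a1.map fun q => ix (wr p j) = ix (wr p j') ∧ q.1 = q.2.1 ∧ q.1 ≠ none ∧
        q.2.2.1 ≠ q.2.2.2
    exact ModeG51.PB_ite m1.prop.1 m1.prop.2 ((pG j).mul (pG j')) (PB.const le_rfl)
  have l2 : I (E3G493.ecoG (tl D wr ix) gr p s) ≤
      I (QS (QG gl) (Eg wr D.tu (fmD D wr ix) p s) (Eg wr D.tu (fmD D wr ix) p s)) +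
        pC D wr ix p s := by
    rw [pC_eq hs.1 hm]
    rw [← I_add pQ.integrableOn pC'.integrableOn]
    refine I_mono (E3G493.PB_ecoG gr c0 hY).integrableOn (pQ.add pC').integrableOn fun x => ?_
    have h0 : ∀ j, 0 ≤ (tl D wr ix).GP p s j x := fun j => (TL.PB_GP c0 hY j).nonneg x
    refine (E3G493.ecoG_le gr H c0 h hp hm x).trans (add_le_add ?_ ?_)
    · rw [← psm_eqQ H hm (QG gl) x]
      refine E3G493.psm_mono h0 fun j j' _ _ hr => ?_
      exact ⟨hr.1, hr.2⟩
    · exact E3G493.psm_mono h0 fun j j' _ _ hr => hr.1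
  have hL : I (fun x => ∑ i, EI wr D.tu (fmD D wr ix) Prod.fst p s i x ^ 2) ≤
      n * I ((tl D wr ix).rco p s) + n * I (QS (QG gl) (Eg wr D.tu (fmD D wr ix) p s)
        (Eg wr D.tu (fmD D wr ix) p s)) + n * pC D wr ix p s := by
    rw [eL]
    have := mul_le_mul_of_nonneg_left l2 (by linarith : (0:ℝ) ≤ n)
    linarith
  have h1 := loc_of2 T (pi := Prod.fst) (ix := ix) (fun _ _ _ _ => rfl) (QG_ix gl) hs hp hv
    (A := I ((tl D wr ix).rco p s)) hn' (fun p s => n * pC D wr ix p s) hL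
  rw [eL] at h1
  exact h1

end td

/-! ### a context -/

section ctx
open Crest.Agent.R4.Fam464 Crest.Agent.R4P.Cnt588 Crest.Agent.R4P.Item758
open Crest.Agent.R4P.Data758 Crest.Agent.R4P.Skel189
open Crest.Agent.R4P.TopX36

variable {N : Skel189.Num} {γ : ℝ} {p0 P₀ : ℕ} {μ ζ : Type} [Fintype ζ] [DecidableEq ζ]

/-- **the field `loc` of `GTopW50.NData`** with `c = 2` -/
theorem gT_le2 (X : Ctx N γ p0 P₀) (j₀ : X.c.Lam) {D : TD μ X.c.Lam (LbX X) ζ}
    {wr : ℕ → X.c.Lam → LbX X} {Inv : ℕ → μ × List (DT X.c.Lam (LbX X)) → Prop}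
    (H : TYp wr D Inv) {p : ℕ} {s : Gs (μ × List (DT X.c.Lam (LbX X)))}
    (hs : gst (bm (DTn407.rxm H)) p s) (hp : p ≠ 0) {m : μ} (hm : Cm m s)
    (hv : ∀ y (a b : _ × Option ζ), QB a b → Ep p (Xg wr D.tu (fmD D wr (ixL (X := X))) p s a) y *
      Ep p (Xg wr D.tu (fmD D wr (ixL (X := X))) p s b) y ≤ 1 / (p : ℝ) *
      Ep p (fun x => Xg wr D.tu (fmD D wr (ixL (X := X))) p s a x *
        Xg wr D.tu (fmD D wr (ixL (X := X))) p s b x) y) :
    gT X p (gBs p (stp Prod.snd s)) ≤ 2 * I ((tl D wr (ixL (X := X))).rco p s) +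
      erf2 (bm (DTn407.rxm H)) QB wr D.tu (fmD D wr (ixL (X := X))) (ixL (X := X)) 1
        (pC D wr (ixL (X := X))) p s := by
  rw [gT_link X j₀ H hs.1.c0 hs.2 hp]
  exact link_le2 H hs hp hm hv

/-- **the field `loc` of `GTopW50.NData`** with `n` groups, `c = 2 n` -/
theorem gT_leG (X : Ctx N γ p0 P₀) (j₀ : X.c.Lam) {D : TD μ X.c.Lam (LbX X) ζ}
    {wr : ℕ → X.c.Lam → LbX X} {Inv : ℕ → μ × List (DT X.c.Lam (LbX X)) → Prop}
    (H : TYp wr D Inv) {p : ℕ} {s : Gs (μ × List (DT X.c.Lam (LbX X)))}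
    (hs : gst (bm (DTn407.rxm H)) p s) (hp : p ≠ 0) {m : μ} (hm : Cm m s) {n : ℕ} (hn : 1 ≤ n)
    (gl : _ × Option ζ → Fin n)
    (hv : ∀ y (a b : _ × Option ζ), QG gl a b →
      Ep p (Xg wr D.tu (fmD D wr (ixL (X := X))) p s a) y *
      Ep p (Xg wr D.tu (fmD D wr (ixL (X := X))) p s b) y ≤ 1 / (p : ℝ) *
      Ep p (fun x => Xg wr D.tu (fmD D wr (ixL (X := X))) p s a x *
        Xg wr D.tu (fmD D wr (ixL (X := X))) p s b x) y) :
    gT X p (gBs p (stp Prod.snd s)) ≤ 2 * n * I ((tl D wr (ixL (X := X))).rco p s) +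
      erf2 (bm (DTn407.rxm H)) (QG gl) wr D.tu (fmD D wr (ixL (X := X))) (ixL (X := X)) n
        (fun p s => n * pC D wr (ixL (X := X)) p s) p s :=
  link_leG H hs hp hm hn gl j₀ hv

end ctx

end Crest.Agent.R4P.E3M479
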