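import Crest.Agent.R4P.E3E_479
import Crest.Agent.R4P.PVe_45

/-!
R4 (S0004) with powers, T3, helper479 (PLAN v1, D1): **payment of the pair sums (E3)**.

* `Kw_chg` : plain charges (no scales): the walk sum of `I yc + I yx` is at most `I Y` at the root;
  `Kw_le_chg` : the same for local terms below the charges on a closed set of states.
* `psm_le_rate` : a pair sum is at most `Σ_j β_j GP_j` if the related partners of every piece `j` at the
  point have total group lift `≤ β_j`.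
* `I_GP` : `I (Σ_j β_j GP_j) = I (su s (Ep p (Σ_j β_j gl_j)))`, `Ep_eg` : `Ep p eg_j ≤ (1/p) pB_j`.
* `psm_share` : member pairs: if the members related to a member at the point have total weight `≤ β`,
  the pair sum over different members is at most `β M[Σ_i (index class lifts)²]`.
-/

set_option autoImplicit false
set_option linter.unusedSectionVars false
set_option linter.unusedVariables false
open MeasureTheory Filter Set

namespace Crest.Agent.R4P.E3P479

open Crest.Agent.R4.Tour104 Crest.Agent.R4.Tour758 Crest.Agent.R4.Avg758 Crest.Agent.R4.Clos758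
open Crest.Agent.R4.ClosL758 Crest.Agent.R4.ClosG758 Crest.Agent.R4.ClosR758
open Crest.Agent.R4P.ClosR442 Crest.Agent.R4P.Grp36
open Crest.Agent.R4P.Xfer36 Crest.Agent.R4P.TopC36 Crest.Agent.R4P.PN36
open Crest.Agent.R4P.GMer27 Crest.Agent.R4P.GCol27 Crest.Agent.R4P.GWa343 Crest.Agent.R4P.GWb343
open Crest.Agent.R4P.GWc343 Crest.Agent.R4P.GWd343 Crest.Agent.R4P.TrR343 Crest.Agent.R4P.DTp26
open Crest.Agent.R4P.RSys343 Crest.Agent.R4P.RXm55 Crest.Agent.R4P.MSm25
open Crest.Agent.R4P.VR407 Crest.Agent.R4P.Bp407 Crest.Agent.R4P.DTm407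
open Crest.Agent.R4P.GSK55 (stp gk Pr Kw Kw_succ Kw_z one one_TC one_su BC_pos BC_neg)
open Crest.Agent.R4P.PayR45
open Crest.Agent.R4P.E3D479 Crest.Agent.R4P.E3E479
open Crest.Agent.R4P.RXj343.RX (sm2 q2)
open Crest.Agent.R4P.MSi343 (su)
open Crest.Agent.R4P.Walk560 (DT)

/-! ### plain charges -/

section chg
variable {β : Type} {B : BM β}

/-- closed bundle maps -/
structure Cl (B : BM β) : Prop where
  P : ∀ {p b}, B.ok p b → p ≠ 0 → B.ok p (B.cP p b)
  N : ∀ {p b}, B.ok p b → p ≠ 0 → B.ok p (B.cN p b)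
  R : ∀ {p b}, B.ok p b → p ≠ 0 → B.ok (p - 1) (B.rN p b)

/-- fine group states -/
def gst (B : BM β) (p : ℕ) (s : Gs β) : Prop := TC s.c s.W ∧ ∀ j, B.ok p (s.L j)

lemma gst_C (hc : Cl B) {p : ℕ} {s : Gs β} (hs : gst B p s) (hp : p ≠ 0) : gst B p (B.C p s) := by
  by_cases h : 2 ≤ p
  · rw [BC_pos B h]
    refine ⟨hs.1.tie (RS.q_bd h), fun x => ?_⟩
    show B.ok p (if x.2 = true then B.cP p (s.L x.1) else B.cN p (s.L x.1))
    split_ifs
    · exact hc.P (hs.2 x.1) hp
    · exact hc.N (hs.2 x.1) hp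
  · rw [BC_neg B h]
    exact ⟨hs.1, fun j => hc.P (hs.2 j) hp⟩

lemma gst_N (hc : Cl B) {p : ℕ} {s : Gs β} (hs : gst B p s) (hp : p ≠ 0) :
    gst B (p - 1) (B.N p s) := ⟨hs.1, fun j => hc.R (hs.2 j) hp⟩

/-- **plain charges** : the walk sum of the charges is at most the root future charge -/
theorem Kw_chg (hc : Cl B) (Q : BCh B) : ∀ (n p : ℕ) (s : Gs β), gst B p s →
    Kw B (fun p s => I (su s (Q.yc p)) + I (su s (Q.yx p))) n p s ≤ I (su s (Q.Y p)) := by
  intro n
  induction n with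
  | zero => intro p s hs; exact I_nonneg fun x => (PB_su' hs.1 fun j => Q.pY (hs.2 j)).nonneg x
  | succ n ih =>
    intro p s hs
    have pY := PB_su' hs.1 fun j => Q.pY (hs.2 j)
    by_cases hp : p = 0
    · subst hp
      rw [Kw_z]
      exact I_nonneg fun x => pY.nonneg x
    rw [Kw_succ _ _ n hp]
    have hp0 : 0 < p := Nat.pos_of_ne_zero hp
    have sC := gst_C hc hs hp
    have sN := gst_N hc hs hp
    have i1 := ih p _ sC
    have i2 := ih (p - 1) _ sN
    have pYB := PB_su' hs.1 fun j => Q.pYB (hs.2 j) hp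
    have pyx := PB_su' hs.1 fun j => Q.pyx (hs.2 j) hp
    have pyc := PB_su' hs.1 fun j => Q.pyc (hs.2 j) hp
    have pC := PB_su' sC.1 fun j => Q.pY (sC.2 j)
    have pN := PB_su' sN.1 fun j => Q.pY (sN.2 j)
    have a1 : I (su s (Q.yc p)) + I (su (B.C p s) (Q.Y p)) ≤ I (su s (Q.YB p)) := by
      rw [← I_Ep hp0 pYB.integrableOn, ← I_add pyc.integrableOn pC.integrableOn]
      refine I_mono (pyc.add pC).integrableOn (pYB.Ep hp0).integrableOn fun y => ?_
      have h1 := su_C (B := B) (s := s) hp (Q.Y p) y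
        (fun e j => by have := hs.2 j; subst e; exact (Q.one this y).1)
        (fun e j => by have := hs.2 j; subst e; exact (Q.one this y).2) hs.1.c0
      show su s (Q.yc p) y + su (B.C p s) (Q.Y p) y ≤ Ep p (su s (Q.YB p)) y
      refine (add_le_add le_rfl h1).trans ?_
      rw [Ep_su']
      unfold su
      rw [← M_add]
      exact M_mono hs.1.c0 fun j => Q.mean (hs.2 j) hp y
    have a2 : I (su s (Q.yx p)) + I (su s (Q.YB p)) + I (su (B.N p s) (Q.Y (p - 1))) ≤
        I (su s (Q.Y p)) := by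
      rw [← I_add pyx.integrableOn pYB.integrableOn,
        ← I_add (pyx.add pYB).integrableOn pN.integrableOn]
      refine I_mono ((pyx.add pYB).add pN).integrableOn pY.integrableOn fun x => ?_
      show su s (Q.yx p) x + su s (Q.YB p) x + M s.c (fun j => Q.Y (p - 1) (B.rN p (s.L j)) x) ≤
        su s (Q.Y p) x
      unfold su
      rw [← M_add, ← M_add]
      exact M_mono hs.1.c0 fun j => Q.spl (hs.2 j) hp x
    linarith

/-- **local terms below the charges** on a closed set of states -/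
theorem Kw_le_chg (hc : Cl B) (Q : BCh B) {ok : ℕ → Gs β → Prop} {f : ℕ → Gs β → ℝ}
    (hg : ∀ {p s}, ok p s → gst B p s)
    (hC : ∀ {p s}, ok p s → p ≠ 0 → ok p (B.C p s))
    (hN : ∀ {p s}, ok p s → p ≠ 0 → ok (p - 1) (B.N p s))
    (h : ∀ {p s}, ok p s → p ≠ 0 → f p s ≤ I (su s (Q.yc p)) + I (su s (Q.yx p)))
    (n p : ℕ) (s : Gs β) (hs : ok p s) : Kw B f n p s ≤ I (su s (Q.Y p)) :=
  (GSK55.Kw_mono (ok := ok) hC hN h n p s hs).trans (Kw_chg hc Q n p s (hg hs))

/-- charges of total rate `J` -/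
theorem Kw_le_J (hc : Cl B) (Q : BCh B) {ok : ℕ → Gs β → Prop} {f : ℕ → Gs β → ℝ}
    (hg : ∀ {p s}, ok p s → gst B p s)
    (hC : ∀ {p s}, ok p s → p ≠ 0 → ok p (B.C p s))
    (hN : ∀ {p s}, ok p s → p ≠ 0 → ok (p - 1) (B.N p s))
    (h : ∀ {p s}, ok p s → p ≠ 0 → f p s ≤ I (su s (Q.yc p)) + I (su s (Q.yx p)))
    {J : ℝ} {tt : β → ℝ → ℝ} (n p : ℕ) (b₀ : β) (hs : ok p (one b₀)) (pt : PB (tt b₀))
    (hJ : ∀ x, Q.Y p b₀ x ≤ J * tt b₀ x) : Kw B f n p (one b₀) ≤ J * I (tt b₀) := by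
  refine (Kw_le_chg hc Q hg hC hN h n p _ hs).trans ?_
  have e : su (one b₀) (Q.Y p) = Q.Y p b₀ := funext fun x => one_su b₀ (Q.Y p) x
  rw [e, ← I_smul]
  have pY : PB (Q.Y p b₀) := Q.pY ((hg hs).2 ())
  obtain ⟨A, hA⟩ := pt.bdd
  refine I_mono pY.integrableOn ?_ hJ
  exact (pt.integrableOn).const_mul J

end chg

/-! ### pair sums -/

section pair
variable {μ Λ κ ζ ι : Type} [Fintype Λ] [DecidableEq Λ] [Fintype κ] [DecidableEq κ]
  [Fintype ζ] [DecidableEq ζ] [Fintype ι] [DecidableEq ι]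
  {Y : TL (μ × List (DT Λ κ)) Λ κ ι ζ} {p : ℕ} {s : Gs (μ × List (DT Λ κ))}

open Classical in
/-- **a pair sum is a rate** -/
lemma psm_le_rate {Rl : ℝ → Λ → Λ → Prop} {x : ℝ} (h0 : ∀ j, 0 ≤ Y.GP p s j x) {r : Λ → ℝ}
    (hr : ∀ j, Y.GP p s j x ≠ 0 → ∑ j', (if Rl x j j' then Y.GP p s j' x else 0) ≤ r j) :
    psm Y Rl p s x ≤ ∑ j, r j * Y.GP p s j x := by
  unfold psm
  refine Finset.sum_le_sum fun j _ => ?_
  by_cases hj : Y.GP p s j x = 0
  · rw [hj]
    simp
  · have e : ∑ j', (if Rl x j j' then Y.GP p s j x * Y.GP p s j' x else 0) =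
        (∑ j', if Rl x j j' then Y.GP p s j' x else 0) * Y.GP p s j x := by
      rw [Finset.sum_mul]
      refine Finset.sum_congr rfl fun j' _ => ?_
      split_ifs
      · ring
      · ring
    have e2 : ∑ j', (if Rl x j j' then Y.GP p s j x * Y.GP p s j' x else 0) ≤
        r j * Y.GP p s j x := by
      rw [e]
      exact mul_le_mul_of_nonneg_right (hr j hj) (h0 j)
    refine le_trans (le_of_eq ?_) e2
    exact Finset.sum_congr rfl fun j' _ => by congr

/-- the integral of the rates of the group lifts -/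
lemma I_GP (hp : 0 < p) (H : TC s.c s.W) (h : ∀ j, Y.Ok p (s.L j)) {r : Λ → ℝ}
    (hr : ∀ j, 0 ≤ r j) : I (fun x => ∑ j, r j * Y.GP p s j x) =
      I (su s fun b y => Ep p (fun x => ∑ j, r j * Y.gl p b j x) y) := by
  have pb : ∀ k, PB fun x => ∑ j, r j * Y.gl p (s.L k) j x := fun k =>
    PB.sum _ fun j _ => (TL.PB_gl (h k) j).smul (hr j)
  have e1 : (fun x => ∑ j, r j * Y.GP p s j x) =
      su s fun b x => ∑ j, r j * Y.gl p b j x := by
    funext x
    unfold TL.GP su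
    rw [M_sum]
    refine Finset.sum_congr rfl fun j _ => ?_
    rw [M_smul]
  have e2 : (su s fun b y => Ep p (fun x => ∑ j, r j * Y.gl p b j x) y) =
      Ep p (su s fun b x => ∑ j, r j * Y.gl p b j x) := by
    funext y
    rw [Ep_su']
    rfl
  rw [e1, e2, I_Ep hp (PB_su' (f := fun b x => ∑ j, r j * Y.gl p b j x) H pb).integrableOn]

/-- the mean of the lifts of a piece is below its N content -/
lemma Ep_eg {kd : Λ → κ} {K : List (DT Λ κ)} (h : KOk kd p K) (j : Λ) (y : ℝ) :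
    Ep p (eg kd p K j) y ≤ 1 / (p : ℝ) * pB K j y := by
  have h1 : Ep p (eg kd p K j) y ≤ Ep p (pG K j) y := by
    unfold Ep
    refine div_le_div_of_nonneg_right (Finset.sum_le_sum fun i _ => ?_) (Nat.cast_nonneg p)
    show (1 - bf kd K (kd j) (p * ((y + (i : ℝ)) / p))) * pG K j ((y + (i : ℝ)) / p) ≤ _
    have h2 := bf0 h (kd j) (p * ((y + (i : ℝ)) / p))
    have h3 := (PB_pG K j).nonneg ((y + (i : ℝ)) / p)
    nlinarith
  refine h1.trans (le_of_eq ?_)
  have h2 := lift_pG h j y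
  unfold Ep
  rw [h2]
  ring

/-! ### member pairs -/

open Classical in
/-- lifts of an index class of a member -/
noncomputable def ic (Y : TL (μ × List (DT Λ κ)) Λ κ ι ζ) (p : ℕ) (b : μ × List (DT Λ κ)) (i : ι)
    (x : ℝ) : ℝ := ∑ j, if Y.ix (Y.wr p j) = i then Y.gl p b j x else 0

/-- two members are related at the point in the index class `i` -/
def mrel (Y : TL (μ × List (DT Λ κ)) Λ κ ι ζ) (Rl : ℝ → Λ → Λ → Prop) (p : ℕ)
    (b b' : μ × List (DT Λ κ)) (i : ι) (x : ℝ) : Prop :=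
  ∃ j j', Y.gl p b j x ≠ 0 ∧ Y.gl p b' j' x ≠ 0 ∧ Rl x j j' ∧ Y.ix (Y.wr p j) = i ∧
    Y.ix (Y.wr p j') = i

open Classical in
/-- **the pair sum in terms of members** -/
lemma psm_members {Rl : ℝ → Λ → Λ → Prop} {x : ℝ} (c0 : ∀ k, 0 ≤ s.c k)
    (h : ∀ k, Y.Ok p (s.L k)) (hI : ∀ j j', Rl x j j' → Y.ix (Y.wr p j) = Y.ix (Y.wr p j')) :
    psm Y Rl p s x ≤ ∑ k, ∑ k', s.c k * s.c k' *
      ∑ i, if mrel Y Rl p (s.L k) (s.L k') i x then ic Y p (s.L k) i x * ic Y p (s.L k') i x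
        else 0 := by
  have g0 : ∀ k j, 0 ≤ Y.gl p (s.L k) j x := fun k j => (TL.PB_gl (h k) j).nonneg x
  have e1 : psm Y Rl p s x = ∑ k, ∑ k', s.c k * s.c k' *
      ∑ j, ∑ j', if Rl x j j' then Y.gl p (s.L k) j x * Y.gl p (s.L k') j' x else 0 := by
    unfold psm TL.GP M
    have e2 : ∀ j j', (if Rl x j j' then (∑ k, s.c k * Y.gl p (s.L k) j x) *
        (∑ k, s.c k * Y.gl p (s.L k) j' x) else 0) = ∑ k, ∑ k', s.c k * s.c k' *
        (if Rl x j j' then Y.gl p (s.L k) j x * Y.gl p (s.L k') j' x else 0) := by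
      intro j j'
      by_cases hR : Rl x j j'
      · simp only [if_pos hR]
        rw [Finset.sum_mul_sum]
        exact Finset.sum_congr rfl fun k _ => Finset.sum_congr rfl fun k' _ => by ring
      · simp [if_neg hR]
    simp only [e2]
    have e3 : ∀ k k', s.c k * s.c k' * ∑ j, ∑ j', (if Rl x j j' then
        Y.gl p (s.L k) j x * Y.gl p (s.L k') j' x else 0) = ∑ j, ∑ j', s.c k * s.c k' *
        (if Rl x j j' then Y.gl p (s.L k) j x * Y.gl p (s.L k') j' x else 0) := by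
      intro k k'
      rw [Finset.mul_sum]
      exact Finset.sum_congr rfl fun j _ => Finset.mul_sum _ _ _
    simp only [e3]
    -- exchange the sums
    have e4 : ∀ (F : Λ → Λ → s.J → s.J → ℝ), ∑ j, ∑ j', ∑ k, ∑ k', F j j' k k' =
        ∑ k, ∑ k', ∑ j, ∑ j', F j j' k k' := by
      intro F
      calc ∑ j, ∑ j', ∑ k, ∑ k', F j j' k k' = ∑ j, ∑ k, ∑ j', ∑ k', F j j' k k' :=
            Finset.sum_congr rfl fun j _ => Finset.sum_comm
        _ = ∑ k, ∑ j, ∑ j', ∑ k', F j j' k k' := Finset.sum_comm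
        _ = ∑ k, ∑ j, ∑ k', ∑ j', F j j' k k' :=
            Finset.sum_congr rfl fun k _ => Finset.sum_congr rfl fun j _ => Finset.sum_comm
        _ = ∑ k, ∑ k', ∑ j, ∑ j', F j j' k k' :=
            Finset.sum_congr rfl fun k _ => Finset.sum_comm
    exact e4 _
  rw [e1]
  refine Finset.sum_le_sum fun k _ => Finset.sum_le_sum fun k' _ => ?_
  refine mul_le_mul_of_nonneg_left ?_ (mul_nonneg (c0 k) (c0 k'))
  -- one pair of members
  have e5 : ∀ i, (if mrel Y Rl p (s.L k) (s.L k') i x then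
      ic Y p (s.L k) i x * ic Y p (s.L k') i x else 0) = ∑ j, ∑ j',
      if mrel Y Rl p (s.L k) (s.L k') i x ∧ Y.ix (Y.wr p j) = i ∧ Y.ix (Y.wr p j') = i then
        Y.gl p (s.L k) j x * Y.gl p (s.L k') j' x else 0 := by
    intro i
    by_cases hm : mrel Y Rl p (s.L k) (s.L k') i x
    · rw [if_pos hm]
      unfold ic
      rw [Finset.sum_mul_sum]
      refine Finset.sum_congr rfl fun j _ => Finset.sum_congr rfl fun j' _ => ?_
      by_cases h1 : Y.ix (Y.wr p j) = i
      · by_cases h2 : Y.ix (Y.wr p j') = i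
        · rw [if_pos h1, if_pos h2, if_pos ⟨hm, h1, h2⟩]
        · rw [if_pos h1, if_neg h2, if_neg fun hh => h2 hh.2.2, mul_zero]
      · rw [if_neg h1, zero_mul]
        symm
        exact if_neg fun hh => h1 hh.2.1
    · rw [if_neg hm]
      symm
      exact Finset.sum_eq_zero fun j _ => Finset.sum_eq_zero fun j' _ =>
        if_neg fun hh => hm hh.1
  simp only [e5]
  have e6 : ∑ i, ∑ j, ∑ j', (if mrel Y Rl p (s.L k) (s.L k') i x ∧ Y.ix (Y.wr p j) = i ∧
      Y.ix (Y.wr p j') = i then Y.gl p (s.L k) j x * Y.gl p (s.L k') j' x else 0) =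
      ∑ j, ∑ j', ∑ i, (if mrel Y Rl p (s.L k) (s.L k') i x ∧ Y.ix (Y.wr p j) = i ∧
      Y.ix (Y.wr p j') = i then Y.gl p (s.L k) j x * Y.gl p (s.L k') j' x else 0) := by
    rw [Finset.sum_comm]
    exact Finset.sum_congr rfl fun j _ => Finset.sum_comm
  rw [e6]
  refine Finset.sum_le_sum fun j _ => Finset.sum_le_sum fun j' _ => ?_
  have n0 : ∀ i, 0 ≤ (if mrel Y Rl p (s.L k) (s.L k') i x ∧ Y.ix (Y.wr p j) = i ∧
      Y.ix (Y.wr p j') = i then Y.gl p (s.L k) j x * Y.gl p (s.L k') j' x else 0) := fun i => by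
    split_ifs
    · exact mul_nonneg (g0 k j) (g0 k' j')
    · exact le_rfl
  by_cases hR : Rl x j j'
  · rw [if_pos hR]
    by_cases hz : Y.gl p (s.L k) j x * Y.gl p (s.L k') j' x = 0
    · rw [hz]
      exact Finset.sum_nonneg fun i _ => by
        have := n0 i
        rw [hz] at this
        exact this
    · have h1 : Y.gl p (s.L k) j x ≠ 0 := fun hh => hz (by rw [hh, zero_mul])
      have h2 : Y.gl p (s.L k') j' x ≠ 0 := fun hh => hz (by rw [hh, mul_zero])
      have hm : mrel Y Rl p (s.L k) (s.L k') (Y.ix (Y.wr p j)) x :=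
        ⟨j, j', h1, h2, hR, rfl, (hI j j' hR).symm⟩
      have h3 := Finset.single_le_sum (fun i _ => n0 i) (Finset.mem_univ (Y.ix (Y.wr p j)))
      rw [if_pos ⟨hm, rfl, (hI j j' hR).symm⟩] at h3
      exact h3
  · rw [if_neg hR]
    exact Finset.sum_nonneg fun i _ => n0 i

open Classical in
/-- **shares** : the members related to a member have total weight `≤ r` -/
theorem psm_share {Rl : ℝ → Λ → Λ → Prop} {x : ℝ} (c0 : ∀ k, 0 ≤ s.c k)
    (h : ∀ k, Y.Ok p (s.L k)) (hI : ∀ j j', Rl x j j' → Y.ix (Y.wr p j) = Y.ix (Y.wr p j'))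
    (hS : ∀ j j', Rl x j j' → Rl x j' j) {r : ℝ}
    (hr : ∀ k i, ic Y p (s.L k) i x ≠ 0 → ∑ k', (if mrel Y Rl p (s.L k) (s.L k') i x then s.c k'
      else 0) ≤ r) :
    psm Y Rl p s x ≤ r * M s.c fun k => ∑ i, ic Y p (s.L k) i x ^ 2 := by
  refine (psm_members c0 h hI).trans ?_
  have sym : ∀ k k' i, mrel Y Rl p (s.L k) (s.L k') i x ↔ mrel Y Rl p (s.L k') (s.L k) i x := by
    intro k k' i
    constructor
    · rintro ⟨j, j', h1, h2, h3, h4, h5⟩
      exact ⟨j', j, h2, h1, hS _ _ h3, h5, h4⟩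
    · rintro ⟨j, j', h1, h2, h3, h4, h5⟩
      exact ⟨j', j, h2, h1, hS _ _ h3, h5, h4⟩
  -- AM-GM
  have a1 : ∀ k k', s.c k * s.c k' * (∑ i, if mrel Y Rl p (s.L k) (s.L k') i x then
      ic Y p (s.L k) i x * ic Y p (s.L k') i x else 0) ≤
      (∑ i, if mrel Y Rl p (s.L k) (s.L k') i x then
        s.c k * s.c k' * (ic Y p (s.L k) i x ^ 2) / 2 else 0) +
      ∑ i, if mrel Y Rl p (s.L k') (s.L k) i x then
        s.c k' * s.c k * (ic Y p (s.L k') i x ^ 2) / 2 else 0 := by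
    intro k k'
    rw [Finset.mul_sum, ← Finset.sum_add_distrib]
    refine Finset.sum_le_sum fun i _ => ?_
    by_cases hm : mrel Y Rl p (s.L k) (s.L k') i x
    · rw [if_pos hm, if_pos hm, if_pos ((sym k k' i).1 hm)]
      have hc := mul_nonneg (c0 k) (c0 k')
      nlinarith [mul_nonneg hc (sq_nonneg (ic Y p (s.L k) i x - ic Y p (s.L k') i x))]
    · rw [if_neg hm, if_neg hm, if_neg fun hh => hm ((sym k k' i).2 hh)]
      simp
  have a2 : ∑ k, ∑ k', (∑ i, if mrel Y Rl p (s.L k) (s.L k') i x then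
        s.c k * s.c k' * (ic Y p (s.L k) i x ^ 2) / 2 else 0) ≤
      r / 2 * M s.c fun k => ∑ i, ic Y p (s.L k) i x ^ 2 := by
    unfold M
    rw [Finset.mul_sum]
    refine Finset.sum_le_sum fun k _ => ?_
    rw [Finset.sum_comm, Finset.mul_sum, Finset.mul_sum]
    refine Finset.sum_le_sum fun i _ => ?_
    by_cases hz : ic Y p (s.L k) i x = 0
    · rw [hz]
      simp
    · have e : ∑ k', (if mrel Y Rl p (s.L k) (s.L k') i x then
          s.c k * s.c k' * (ic Y p (s.L k) i x ^ 2) / 2 else 0) =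
          (∑ k', if mrel Y Rl p (s.L k) (s.L k') i x then s.c k' else 0) *
            (s.c k * ic Y p (s.L k) i x ^ 2 / 2) := by
        rw [Finset.sum_mul]
        refine Finset.sum_congr rfl fun k' _ => ?_
        split_ifs
        · ring
        · ring
      rw [e]
      have h1 := mul_le_mul_of_nonneg_right (hr k i hz)
        (show 0 ≤ s.c k * ic Y p (s.L k) i x ^ 2 / 2 by
          have := c0 k
          positivity)
      refine h1.trans (le_of_eq ?_)
      ring
  have a3 : ∑ k, ∑ k', (∑ i, if mrel Y Rl p (s.L k') (s.L k) i x then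
        s.c k' * s.c k * (ic Y p (s.L k') i x ^ 2) / 2 else 0) ≤
      r / 2 * M s.c fun k => ∑ i, ic Y p (s.L k) i x ^ 2 := by
    rw [Finset.sum_comm]
    exact a2
  calc _ ≤ ∑ k, ∑ k', ((∑ i, if mrel Y Rl p (s.L k) (s.L k') i x then
        s.c k * s.c k' * (ic Y p (s.L k) i x ^ 2) / 2 else 0) +
      ∑ i, if mrel Y Rl p (s.L k') (s.L k) i x then
        s.c k' * s.c k * (ic Y p (s.L k') i x ^ 2) / 2 else 0) :=
        Finset.sum_le_sum fun k _ => Finset.sum_le_sum fun k' _ => a1 k k'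
    _ = _ + _ := by
        rw [← Finset.sum_add_distrib]
        exact Finset.sum_congr rfl fun k _ => Finset.sum_add_distrib
    _ ≤ r / 2 * (M s.c fun k => ∑ i, ic Y p (s.L k) i x ^ 2) +
      r / 2 * (M s.c fun k => ∑ i, ic Y p (s.L k) i x ^ 2) := add_le_add a2 a3
    _ = _ := by ring

end pair

end Crest.Agent.R4P.E3P479
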