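import Crest.Agent.R4P.E3T_479

/-!
R4 (S0004) with powers, T3, helper479 (PLAN v1, D1): **the square lemma; the impure part of E3**.

* `Kw_sq` : for every plain charge `Z` : `Kw (2 I (yc * Z_C)) ≤ I (Z_root²)`.
* `ttc` : the totals as a charge; **`Kw_bil`** : a charge of total rate `J` TIMES THE GROUP TOTAL of the
  children costs at most `2 J I (T²)`.
* `yc`, `mnf` : cross amounts of the real classes (P piece against N piece of another family, `mnf_pieces`);
  **`imq_le`** : `I imq ≤ (6 + 2 l) I (1/p mn T_C) + (1/l) I (Σ_i E_i²)`.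
* **`loc_of`**, **`her_of`** : the local link and the walk sum of its errors in the form of
  `GTopW50.NData` (fields `loc`, `her`).
-/

set_option autoImplicit false
set_option linter.unusedSectionVars false
set_option linter.unusedVariables false
open MeasureTheory Filter Set

namespace Crest.Agent.R4P.E3S479

open Crest.Agent.R4.Tour104 Crest.Agent.R4.Tour758 Crest.Agent.R4.Avg758 Crest.Agent.R4.Clos758
open Crest.Agent.R4.ClosL758 Crest.Agent.R4.ClosG758 Crest.Agent.R4.ClosR758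
open Crest.Agent.R4P.ClosR442 Crest.Agent.R4P.Grp36
open Crest.Agent.R4P.Xfer36 Crest.Agent.R4P.TopC36 Crest.Agent.R4P.PN36
open Crest.Agent.R4P.GMer27 Crest.Agent.R4P.GCol27 Crest.Agent.R4P.GWa343 Crest.Agent.R4P.GWb343
open Crest.Agent.R4P.GWc343 Crest.Agent.R4P.GWd343 Crest.Agent.R4P.TrR343 Crest.Agent.R4P.DTp26
open Crest.Agent.R4P.RSys343 Crest.Agent.R4P.RXm55 Crest.Agent.R4P.MSm25 Crest.Agent.R4P.MSd343
open Crest.Agent.R4P.VR407 Crest.Agent.R4P.Bp407 Crest.Agent.R4P.DTm407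
open Crest.Agent.R4P.GSK55 (stp gk Pr Kw Kw_succ Kw_z one one_TC one_su BC_pos BC_neg)
open Crest.Agent.R4P.PayR45
open Crest.Agent.R4P.E3D479 Crest.Agent.R4P.E3E479 Crest.Agent.R4P.E3P479 Crest.Agent.R4P.E3T479
open Crest.Agent.R4P.MSi343 (su)
open Crest.Agent.R4P.Walk560 (DT)

/-! ### the square lemma -/

section sq
variable {β : Type} {B : BM β}

/-- Jensen on a fibre -/
lemma Ep_sq_le {p : ℕ} (hp : 0 < p) (f : ℝ → ℝ) (y : ℝ) :
    Ep p f y ^ 2 ≤ Ep p (fun x => f x ^ 2) y := by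
  have hp' : (0 : ℝ) < p := by exact_mod_cast hp
  unfold Ep
  rw [div_pow, div_le_div_iff₀ (by positivity) hp']
  have h := sq_sum_le_card_mul_sum_sq (s := Finset.range p) (f := fun i : ℕ => f ((y + (i : ℝ)) / p))
  rw [Finset.card_range] at h
  have h2 := mul_le_mul_of_nonneg_right h hp'.le
  calc (∑ i ∈ Finset.range p, f ((y + (i : ℝ)) / p)) ^ 2 * p ≤
      p * (∑ i ∈ Finset.range p, f ((y + (i : ℝ)) / p) ^ 2) * p := h2
    _ = (∑ i ∈ Finset.range p, f ((y + (i : ℝ)) / p) ^ 2) * (p : ℝ) ^ 2 := by ring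

/-- **the square lemma** -/
theorem Kw_sq (hc : Cl B) (Z : BCh B) : ∀ (n p : ℕ) (s : Gs β), gst B p s →
    Kw B (fun p s => 2 * I (fun y => su s (Z.yc p) y * su (B.C p s) (Z.Y p) y)) n p s ≤
      I (fun x => su s (Z.Y p) x ^ 2) := by
  intro n
  induction n with
  | zero => intro p s hs; exact I_nonneg fun x => sq_nonneg _
  | succ n ih =>
    intro p s hs
    have pY := PB_su' hs.1 fun j => Z.pY (hs.2 j)
    by_cases hp : p = 0
    · subst hp
      rw [Kw_z]
      exact I_nonneg fun x => sq_nonneg _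
    rw [Kw_succ _ _ n hp]
    have hp0 : 0 < p := Nat.pos_of_ne_zero hp
    have sC := gst_C hc hs hp
    have sN := gst_N hc hs hp
    have i1 := ih p _ sC
    have i2 := ih (p - 1) _ sN
    have pYB := PB_su' hs.1 fun j => Z.pYB (hs.2 j) hp
    have pyx := PB_su' hs.1 fun j => Z.pyx (hs.2 j) hp
    have pyc := PB_su' hs.1 fun j => Z.pyc (hs.2 j) hp
    have pC := PB_su' sC.1 fun j => Z.pY (sC.2 j)
    have pN := PB_su' sN.1 fun j => Z.pY (sN.2 j)
    have a1 : 2 * I (fun y => su s (Z.yc p) y * su (B.C p s) (Z.Y p) y) +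
        I (fun y => su (B.C p s) (Z.Y p) y ^ 2) ≤ I (fun x => su s (Z.YB p) x ^ 2) := by
      have q1 : PB fun y => su s (Z.yc p) y * su (B.C p s) (Z.Y p) y := pyc.mul pC
      have q2 := PBsq pC
      have q3 := PBsq pYB
      have e1 : 2 * I (fun y => su s (Z.yc p) y * su (B.C p s) (Z.Y p) y) =
          I (fun y => 2 * (su s (Z.yc p) y * su (B.C p s) (Z.Y p) y)) := by
        unfold I
        rw [MeasureTheory.integral_const_mul]
      have q4 : PB fun y => 2 * (su s (Z.yc p) y * su (B.C p s) (Z.Y p) y) :=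
        (PB.const (by norm_num : (0:ℝ) ≤ 2)).mul q1
      rw [e1, ← I_Ep hp0 q3.integrableOn, ← I_add q4.integrableOn q2.integrableOn]
      refine I_mono (q4.add q2).integrableOn (q3.Ep hp0).integrableOn fun y => ?_
      have h1 := su_C (B := B) (s := s) hp (Z.Y p) y
        (fun e j => by have := hs.2 j; subst e; exact (Z.one this y).1)
        (fun e j => by have := hs.2 j; subst e; exact (Z.one this y).2) hs.1.c0
      have h2 : su s (Z.yc p) y + su (B.C p s) (Z.Y p) y ≤ Ep p (su s (Z.YB p)) y := by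
        refine (add_le_add le_rfl h1).trans ?_
        rw [Ep_su']
        unfold su
        rw [← M_add]
        exact M_mono hs.1.c0 fun j => Z.mean (hs.2 j) hp y
      have n1 := pyc.nonneg y
      have n2 := pC.nonneg y
      have h3 : (su s (Z.yc p) y + su (B.C p s) (Z.Y p) y) ^ 2 ≤ Ep p (su s (Z.YB p)) y ^ 2 :=
        pow_le_pow_left₀ (add_nonneg n1 n2) h2 2
      have h4 := Ep_sq_le hp0 (su s (Z.YB p)) y
      show 2 * (su s (Z.yc p) y * su (B.C p s) (Z.Y p) y) + su (B.C p s) (Z.Y p) y ^ 2 ≤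
        Ep p (fun x => su s (Z.YB p) x ^ 2) y
      nlinarith
    have a2 : I (fun x => su s (Z.YB p) x ^ 2) + I (fun x => su (B.N p s) (Z.Y (p - 1)) x ^ 2) ≤
        I (fun x => su s (Z.Y p) x ^ 2) := by
      have q3 := PBsq pYB
      have q5 := PBsq pN
      rw [← I_add q3.integrableOn q5.integrableOn]
      refine I_mono (q3.add q5).integrableOn (PBsq pY).integrableOn fun x => ?_
      have n1 := pYB.nonneg x
      have n2 := pN.nonneg x
      have n3 := pyx.nonneg x
      have h1 : su s (Z.yx p) x + su s (Z.YB p) x + su (B.N p s) (Z.Y (p - 1)) x ≤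
          su s (Z.Y p) x := by
        show su s (Z.yx p) x + su s (Z.YB p) x + M s.c (fun j => Z.Y (p - 1) (B.rN p (s.L j)) x) ≤
          su s (Z.Y p) x
        unfold su
        rw [← M_add, ← M_add]
        exact M_mono hs.1.c0 fun j => Z.spl (hs.2 j) hp x
      show su s (Z.YB p) x ^ 2 + su (B.N p s) (Z.Y (p - 1)) x ^ 2 ≤ su s (Z.Y p) x ^ 2
      nlinarith [mul_nonneg n1 n2]
    linarith

end sq

/-! ### the totals -/

section tt
variable {μ Λ κ φ : Type} [Fintype Λ] [DecidableEq Λ] [Fintype κ] [DecidableEq κ]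
  [Fintype φ] [DecidableEq φ]
variable {B : BM (μ × List (DT Λ κ))} {wr : ℕ → Λ → κ} {tu : ℕ → μ → μ}
  {fm : ℕ → μ → ℝ → Λ → φ} {p : ℕ} {s : Gs (μ × List (DT Λ κ))} {b : μ × List (DT Λ κ)}

lemma PB_bt {L : List (DT Λ κ)} (h : PBL L) : PB (bt L) := by
  have e : bt L = fun x => ∑ j, jv L j x := funext fun x => (sum_jv L x).symm
  rw [e]
  exact PB.sum _ fun j _ => PB_jv h j

/-- **the totals are a charge** -/
noncomputable def ttc (H : TM B wr tu fm) : BCh B where
  Y := fun _ b => bt b.2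
  YB := fun p b => bt (bB p b.2)
  yx := fun _ _ _ => 0
  yc := fun _ _ _ => 0
  pY := fun hb => PB_bt (H.pbl hb)
  pYB := fun hb _ => PB_bt (H.pbB hb)
  pyx := fun _ _ => PB.const le_rfl
  pyc := fun _ _ => PB.const le_rfl
  spl := fun {p b} hb hp x => by
    rw [H.eR hb hp]
    show 0 + bt (bB p b.2) x + bt (bN p b.2) x ≤ bt b.2 x
    rw [← sum_jv, ← sum_jv, ← sum_jv, zero_add, ← Finset.sum_add_distrib]
    refine Finset.sum_le_sum fun j _ => ?_
    have h1 := PVd45.jv_split3 p b.2 j x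
    have h2 : 0 ≤ jv (bL p b.2) j x := (PB_jv ((H.pba hb).bL p).self j).nonneg x
    linarith
  mean := fun {p b} hb hp y => by
    have hp0 : 0 < p := Nat.pos_of_ne_zero hp
    rw [H.eP hb hp, H.eN hb hp]
    have e : bt (bB p b.2) = fun x => ∑ j, jv (bB p b.2) j x := funext fun x => (sum_jv _ x).symm
    show 0 + ((1 - 1 / (p : ℝ)) * bt ((bB p b.2).map chP) y +
      1 / (p : ℝ) * bt ((bB p b.2).map chN) y) ≤ Ep p (bt (bB p b.2)) y
    rw [e, PayR45.Ep_sum', ← sum_jv, ← sum_jv, zero_add, Finset.mul_sum, Finset.mul_sum,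
      ← Finset.sum_add_distrib]
    exact (Finset.sum_congr rfl fun j _ => (mean_jv (H.kok hb hp) hp0 j y).symm).le
  one := fun {b} hb y => by
    have h := H.no1 hb
    rw [H.eP hb one_ne_zero, H.eN hb one_ne_zero, h]
    constructor
    · show bt ([] : List (DT Λ κ)) y = 0
      rw [← sum_jv]; simp
    · show 0 ≤ bt ([] : List (DT Λ κ)) y
      rw [← sum_jv]; simp

/-- **a charge of total rate `J` times the group total** -/
theorem Kw_bil (H : TM B wr tu fm) (Q : BCh B) {J : ℝ} (hJ : 0 < J)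
    {ok : ℕ → Gs (μ × List (DT Λ κ)) → Prop} (hg : ∀ {p s}, ok p s → gst B p s)
    (hC : ∀ {p s}, ok p s → p ≠ 0 → ok p (B.C p s))
    (hN : ∀ {p s}, ok p s → p ≠ 0 → ok (p - 1) (B.N p s))
    (hY : ∀ {p b}, B.ok p b → ∀ x, Q.Y p b x ≤ J * bt b.2 x) (n p : ℕ)
    (s : Gs (μ × List (DT Λ κ))) (hs : ok p s) :
    Kw B (fun p s => I (fun y => su s (Q.yc p) y * su (B.C p s) (fun b => bt b.2) y)) n p s ≤
      2 * J * I (fun x => su s (fun b => bt b.2) x ^ 2) := by
  set Z : BCh B := PVe45.add Q (PVe45.sm hJ.le (ttc H)) with hZ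
  have h1 := Kw_sq H.cl Z n p s (hg hs)
  have eY : ∀ p b x, Z.Y p b x = Q.Y p b x + J * bt b.2 x := fun _ _ _ => rfl
  have ec : ∀ p b y, Z.yc p b y = Q.yc p b y + J * 0 := fun _ _ _ => rfl
  -- the root
  have h2 : I (fun x => su s (Z.Y p) x ^ 2) ≤
      (2 * J) ^ 2 * I (fun x => su s (fun b => bt b.2) x ^ 2) := by
    have pT : PB (su s fun b => bt b.2) := PB_su' (hg hs).1 fun j => PB_bt (H.pbl ((hg hs).2 j))
    have e1 : (2 * J) ^ 2 * I (fun x => su s (fun b => bt b.2) x ^ 2) =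
        I (fun x => (2 * J) ^ 2 * su s (fun b => bt b.2) x ^ 2) := by
      unfold I
      rw [MeasureTheory.integral_const_mul]
    rw [e1]
    have pZ : PB (su s (Z.Y p)) := PB_su' (hg hs).1 fun j => Z.pY ((hg hs).2 j)
    refine I_mono (PBsq pZ).integrableOn
      ((PB.const (sq_nonneg (2 * J))).mul (PBsq pT)).integrableOn fun x => ?_
    rw [← mul_pow]
    refine pow_le_pow_left₀ (pZ.nonneg x) ?_ 2
    unfold su
    rw [← M_smul]
    refine M_mono (hg hs).1.c0 fun j => ?_
    rw [eY]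
    have := hY ((hg hs).2 j) x
    linarith
  have h3 : Kw B (fun p s => 2 * J * I (fun y => su s (Q.yc p) y *
      su (B.C p s) (fun b => bt b.2) y)) n p s ≤
      Kw B (fun p s => 2 * I (fun y => su s (Z.yc p) y * su (B.C p s) (Z.Y p) y)) n p s := by
    refine GSK55.Kw_mono (ok := ok) hC hN (fun {p s} hs hp => ?_) n p s hs
    have g := hg hs
    have gC := gst_C H.cl g hp
    have p1 : PB (su s (Q.yc p)) := PB_su' g.1 fun j => Q.pyc (g.2 j) hp
    have p2 : PB (su (B.C p s) fun b => bt b.2) := PB_su' gC.1 fun j => PB_bt (H.pbl (gC.2 j))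
    have p3 : PB (su s (Z.yc p)) := PB_su' g.1 fun j => Z.pyc (g.2 j) hp
    have p4 : PB (su (B.C p s) (Z.Y p)) := PB_su' gC.1 fun j => Z.pY (gC.2 j)
    have e1 : 2 * J * I (fun y => su s (Q.yc p) y * su (B.C p s) (fun b => bt b.2) y) =
        I (fun y => 2 * J * (su s (Q.yc p) y * su (B.C p s) (fun b => bt b.2) y)) := by
      unfold I
      rw [MeasureTheory.integral_const_mul]
    have e2 : 2 * I (fun y => su s (Z.yc p) y * su (B.C p s) (Z.Y p) y) =
        I (fun y => 2 * (su s (Z.yc p) y * su (B.C p s) (Z.Y p) y)) := by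
      unfold I
      rw [MeasureTheory.integral_const_mul]
    rw [e1, e2]
    refine I_mono ((PB.const (by positivity : 0 ≤ 2 * J)).mul (p1.mul p2)).integrableOn
      ((PB.const (by norm_num : (0:ℝ) ≤ 2)).mul (p3.mul p4)).integrableOn fun y => ?_
    have k1 : su s (Z.yc p) y = su s (Q.yc p) y := by
      unfold su
      congr 1
      funext j
      rw [ec]; ring
    have k2 : J * su (B.C p s) (fun b => bt b.2) y ≤ su (B.C p s) (Z.Y p) y := by
      unfold su
      rw [← M_smul]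
      refine M_mono gC.1.c0 fun j => ?_
      rw [eY]
      have := (Q.pY (gC.2 j)).nonneg y
      linarith
    have k3 := p1.nonneg y
    rw [k1]
    have k4 := mul_le_mul_of_nonneg_left k2 k3
    linarith
  have h4 := h3.trans (h1.trans h2)
  rw [GSK55.Kw_smul] at h4
  have h5 : (2 * J) ^ 2 * I (fun x => su s (fun b => bt b.2) x ^ 2) =
      2 * J * (2 * J * I (fun x => su s (fun b => bt b.2) x ^ 2)) := by ring
  rw [h5] at h4
  exact le_of_mul_le_mul_left h4 (by positivity)

end tt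

/-! ### impure real classes of a bundle -/

section imp
variable {Λ κ φ ι : Type} [Fintype Λ] [DecidableEq Λ] [Fintype κ] [DecidableEq κ]
  [Fintype φ] [DecidableEq φ] [Fintype ι] [DecidableEq ι]

variable {kd : Λ → κ} {p : ℕ} {K : List (DT Λ κ)} {o : ℝ → Λ → φ} {pi : φ → ι} {ix : κ → ι}

/-- **cross lifts of a real class** : the lifts of one family matched by the P content of the others -/
noncomputable def xc (kd : Λ → κ) (p : ℕ) (K : List (DT Λ κ)) (o : ℝ → Λ → φ) (c : κ) (x : ℝ) : ℝ :=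
  bf kd K c (p * x) * ∑ a, cz kd o (pA K) c a (p * x) / SA kd K c (p * x) *
    (SG kd K c x - cz kd (fun x => o (p * x)) (pG K) c a x)

/-- **cross amount of a real class** at the low point -/
noncomputable def yc (kd : Λ → κ) (K : List (DT Λ κ)) (o : ℝ → Λ → φ) (c : κ) (y : ℝ) : ℝ :=
  bf kd K c y * ∑ a, cz kd o (pA K) c a y / SA kd K c y *
    (DTm407.SB kd K c y - cz kd o (pB K) c a y)

/-- cross lifts of the index `i` -/
noncomputable def di (kd : Λ → κ) (p : ℕ) (K : List (DT Λ κ)) (o : ℝ → Λ → φ) (ix : κ → ι) (i : ι)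
    (x : ℝ) : ℝ := ∑ c, if ix c = i then xc kd p K o c x else 0

/-- cross amount of the index `i` -/
noncomputable def mni (kd : Λ → κ) (K : List (DT Λ κ)) (o : ℝ → Λ → φ) (ix : κ → ι) (i : ι)
    (y : ℝ) : ℝ := ∑ c, if ix c = i then yc kd K o c y else 0

/-- **cross amount of a bundle** -/
noncomputable def mnf (kd : Λ → κ) (K : List (DT Λ κ)) (o : ℝ → Λ → φ) (y : ℝ) : ℝ :=
  ∑ c, yc kd K o c y

lemma sum_mni (y : ℝ) : ∑ i, mni kd K o ix i y = mnf kd K o y := by
  unfold mni mnf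
  rw [Finset.sum_comm]
  exact Finset.sum_congr rfl fun c _ => by simp

lemma czB_le (h : KOk kd p K) (c : κ) (a : φ) (y : ℝ) :
    cz kd o (pB K) c a y ≤ DTm407.SB kd K c y :=
  cz_le_sm (fun j => (h.PBb j).nonneg y) c a

lemma xc_nonneg (h : KOk kd p K) (c : κ) (x : ℝ) : 0 ≤ xc kd p K o c x :=
  mul_nonneg (bf0 h c _) (Finset.sum_nonneg fun a _ =>
    mul_nonneg (frac_nonneg h c a _) (sub_nonneg.2 (czG_le c a x)))

lemma yc_nonneg (h : KOk kd p K) (c : κ) (y : ℝ) : 0 ≤ yc kd K o c y :=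
  mul_nonneg (bf0 h c _) (Finset.sum_nonneg fun a _ =>
    mul_nonneg (frac_nonneg h c a _) (sub_nonneg.2 (czB_le h c a y)))

/-- a sum over the other families -/
lemma sub_cz (kd : Λ → κ) (u : ℝ → Λ → φ) (f : Λ → ℝ → ℝ) (c : κ) (a : φ) (x : ℝ) :
    sm kd f c x - cz kd u f c a x = ∑ j, if kd j = c ∧ u x j ≠ a then f j x else 0 := by
  rw [sm_eq, cz_eq, ← Finset.sum_sub_distrib]
  refine Finset.sum_congr rfl fun j _ => ?_
  by_cases h1 : kd j = c
  · by_cases h2 : u x j = a
    · simp [h1, h2]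
    · simp [h1, h2]
  · simp [h1]

/-- the cross lifts are below the cross amount -/
lemma xc_le (h : KOk kd p K) (hp : 0 < p) (c : κ) (x : ℝ) :
    xc kd p K o c x ≤ yc kd K o c (p * x) := by
  unfold xc yc
  refine mul_le_mul_of_nonneg_left (Finset.sum_le_sum fun a _ => ?_) (bf0 h c _)
  refine mul_le_mul_of_nonneg_left ?_ (frac_nonneg h c a _)
  unfold SG DTm407.SB
  rw [sub_cz, sub_cz]
  refine Finset.sum_le_sum fun j _ => ?_
  split_ifs
  · exact lift_le hp (PB_pG K j).nonneg (lift_pG h j) x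
  · exact le_rfl

/-- the cross amount is below the P content -/
lemma yc_le (h : KOk kd p K) (c : κ) (y : ℝ) : yc kd K o c y ≤ SA kd K c y := by
  unfold yc
  have h1 : ∑ a, cz kd o (pA K) c a y / SA kd K c y *
      (DTm407.SB kd K c y - cz kd o (pB K) c a y) ≤
      ∑ a, cz kd o (pA K) c a y / SA kd K c y * DTm407.SB kd K c y :=
    Finset.sum_le_sum fun a _ => mul_le_mul_of_nonneg_left (by
      have : 0 ≤ cz kd o (pB K) c a y := cz_nonneg (fun j => (h.PBb j).nonneg y) c a
      linarith) (frac_nonneg h c a _)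
  rw [← Finset.sum_mul, ← Finset.sum_div, sum_cz] at h1
  have h2 : sm kd (pA K) c y / SA kd K c y * DTm407.SB kd K c y ≤ DTm407.SB kd K c y :=
    (mul_le_mul_of_nonneg_right (div_self_le_one _) (SB0 h c y)).trans (one_mul _).le
  refine (mul_le_mul_of_nonneg_left (h1.trans h2) (bf0 h c y)).trans ?_
  rw [bf_mul h]
  exact min_le_left _ _

/-- a family with the index of the class -/
lemma cz_index {f : Λ → ℝ → ℝ} {u : ℝ → Λ → φ} (hix : ∀ x j, pi (u x j) = ix (kd j)) {c : κ} {a : φ}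
    (h : pi a ≠ ix c) (x : ℝ) : cz kd u f c a x = 0 := by
  rw [cz_eq]
  refine Finset.sum_eq_zero fun j _ => if_neg ?_
  rintro ⟨h1, h2⟩
  apply h
  rw [← h2, hix, h1]

/-- the dips of the families of one index -/
lemma sum_dB (h : KOk kd p K) (hix : ∀ x j, pi (o x j) = ix (kd j)) (i : ι) (x : ℝ) :
    ∑ a ∈ Finset.univ.filter (fun a => pi a = i), dB kd p K o a x ≤ di kd p K o ix i x := by
  unfold dB di
  rw [Finset.sum_comm]
  refine Finset.sum_le_sum fun c _ => ?_
  have hb := bf0 h c (p * x)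
  have n : ∀ a, 0 ≤ bf kd K c (p * x) * (cz kd o (pA K) c a (p * x) / SA kd K c (p * x)) *
        (SG kd K c x - cz kd (fun x => o (p * x)) (pG K) c a x) := fun a =>
    mul_nonneg (mul_nonneg hb (frac_nonneg h c a _)) (sub_nonneg.2 (czG_le c a x))
  by_cases hc : ix c = i
  · rw [if_pos hc]
    refine (Finset.sum_le_sum_of_subset_of_nonneg (Finset.filter_subset _ _)
      fun a _ _ => n a).trans (le_of_eq ?_)
    unfold xc
    rw [Finset.mul_sum]
    exact Finset.sum_congr rfl fun a _ => mul_assoc _ _ _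
  · rw [if_neg hc]
    refine Finset.sum_nonpos fun a ha => ?_
    have ha' : pi a = i := (Finset.mem_filter.1 ha).2
    have h4 : cz kd o (pA K) c a (p * x) = 0 :=
      cz_index hix (fun h5 => hc (by rw [← h5, ha'])) _
    simp [h4]

/-- the gains of the families of one index -/
lemma sum_uB (h : KOk kd p K) (hix : ∀ x j, pi (o x j) = ix (kd j)) (i : ι) (x : ℝ) :
    ∑ a ∈ Finset.univ.filter (fun a => pi a = i), uB kd p K o a x ≤ di kd p K o ix i x := by
  unfold uB di
  rw [Finset.sum_comm]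
  refine Finset.sum_le_sum fun c _ => ?_
  have hb := bf0 h c (p * x)
  have n : ∀ a, 0 ≤ bf kd K c (p * x) * cz kd (fun x => o (p * x)) (pG K) c a x *
        (1 - cz kd o (pA K) c a (p * x) / SA kd K c (p * x)) := fun a =>
    mul_nonneg (mul_nonneg hb (cz_nonneg (fun j => (PB_pG K j).nonneg x) c a))
      (sub_nonneg.2 (frac_le_one h c a _))
  by_cases hc : ix c = i
  · rw [if_pos hc]
    refine (Finset.sum_le_sum_of_subset_of_nonneg (Finset.filter_subset _ _)
      fun a _ _ => n a).trans (le_of_eq ?_)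
    unfold xc
    by_cases hA : SA kd K c (p * x) = 0
    · rw [bf_of_A h hA]; simp
    have e1 : ∑ a, cz kd o (pA K) c a (p * x) / SA kd K c (p * x) = 1 := by
      rw [← Finset.sum_div, sum_cz]
      exact div_self hA
    have e2 : ∑ a, cz kd (fun x => o (p * x)) (pG K) c a x = SG kd K c x := sum_cz _ _ _ _ _
    have e3 : ∀ a, bf kd K c (p * x) * cz kd (fun x => o (p * x)) (pG K) c a x *
        (1 - cz kd o (pA K) c a (p * x) / SA kd K c (p * x)) = bf kd K c (p * x) *
        (cz kd (fun x => o (p * x)) (pG K) c a x - cz kd o (pA K) c a (p * x) /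
          SA kd K c (p * x) * cz kd (fun x => o (p * x)) (pG K) c a x) := fun a => by ring
    have e4 : ∀ a, cz kd o (pA K) c a (p * x) / SA kd K c (p * x) *
        (SG kd K c x - cz kd (fun x => o (p * x)) (pG K) c a x) =
        cz kd o (pA K) c a (p * x) / SA kd K c (p * x) * SG kd K c x -
        cz kd o (pA K) c a (p * x) / SA kd K c (p * x) *
          cz kd (fun x => o (p * x)) (pG K) c a x := fun a => by ring
    simp only [e3, e4]
    rw [← Finset.mul_sum, Finset.sum_sub_distrib, Finset.sum_sub_distrib, ← Finset.sum_mul, e1, e2]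
    ring
  · rw [if_neg hc]
    refine Finset.sum_nonpos fun a ha => ?_
    have ha' : pi a = i := (Finset.mem_filter.1 ha).2
    have h4 : cz kd (fun x => o (p * x)) (pG K) c a x = 0 :=
      cz_index (u := fun x => o (p * x)) (fun x j => hix _ j) (fun h5 => hc (by rw [← h5, ha'])) _
    simp [h4]

/-- the cross lifts are below the cross amount -/
lemma di_le (h : KOk kd p K) (hp : 0 < p) (i : ι) (x : ℝ) :
    di kd p K o ix i x ≤ mni kd K o ix i (p * x) := by
  unfold di mni
  refine Finset.sum_le_sum fun c _ => ?_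
  split_ifs
  · exact xc_le h hp c x
  · exact le_rfl

lemma di_nonneg (h : KOk kd p K) (i : ι) (x : ℝ) : 0 ≤ di kd p K o ix i x := by
  refine Finset.sum_nonneg fun c _ => ?_
  split_ifs
  · exact xc_nonneg h c x
  · exact le_rfl

lemma mni_nonneg (h : KOk kd p K) (i : ι) (y : ℝ) : 0 ≤ mni kd K o ix i y := by
  refine Finset.sum_nonneg fun c _ => ?_
  split_ifs
  · exact yc_nonneg h c y
  · exact le_rfl

lemma Ep_SG (h : KOk kd p K) (c : κ) (y : ℝ) :
    Ep p (SG kd K c) y = 1 / (p : ℝ) * DTm407.SB kd K c y := by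
  have e5 : SG kd K c = fun x => ∑ i, if kd i = c then pG K i x else 0 :=
    funext fun x => sm_eq _ _ _ _
  rw [e5, PayR45.Ep_sum']
  unfold DTm407.SB
  rw [sm_eq, Finset.mul_sum]
  refine Finset.sum_congr rfl fun i _ => ?_
  by_cases hi : kd i = c
  · simp only [if_pos hi]
    unfold Ep
    rw [lift_pG h i y]; ring
  · simp only [if_neg hi]
    unfold Ep; simp

lemma yc_per (h : KOk kd p K) (ho : ∀ j, MP fun y => o y j) (c : κ) (y : ℝ) (n : ℕ) :
    yc kd K o c (y + n) = yc kd K o c y := by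
  unfold yc
  rw [(PB_bf h c).per_nat, (PB_SB h c).per_nat]
  congr 1
  refine Finset.sum_congr rfl fun a _ => ?_
  rw [(PB_SA h c).per_nat, (PB_cz ho (fun j => h.PA j) c a).per_nat,
    (PB_cz ho (fun j => h.PBb j) c a).per_nat]

lemma Ep_xc (h : KOk kd p K) (hp : 0 < p) (ho : ∀ j, MP fun y => o y j) (c : κ) (y : ℝ) :
    Ep p (xc kd p K o c) y = 1 / (p : ℝ) * yc kd K o c y := by
  have e1 : ∀ k : ℕ, (p : ℝ) * ((y + (k : ℝ)) / p) = y + k := fun k => by
    have : (p : ℝ) ≠ 0 := by exact_mod_cast hp.ne'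
    field_simp
  have e2 : Ep p (xc kd p K o c) y = bf kd K c y * ∑ a, cz kd o (pA K) c a y / SA kd K c y *
      (Ep p (SG kd K c) y - Ep p (cz kd (fun x => o (p * x)) (pG K) c a) y) := by
    unfold Ep
    have e3 : ∀ k ∈ Finset.range p, xc kd p K o c ((y + (k : ℝ)) / p) =
        bf kd K c y * ∑ a, cz kd o (pA K) c a y / SA kd K c y *
        (SG kd K c ((y + (k : ℝ)) / p) -
          cz kd (fun x => o (p * x)) (pG K) c a ((y + (k : ℝ)) / p)) := by
      intro k _
      unfold xc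
      rw [e1, (PB_bf h c).per_nat]
      congr 1
      refine Finset.sum_congr rfl fun a _ => ?_
      rw [(PB_SA h c).per_nat, (PB_cz ho (fun j => h.PA j) c a).per_nat]
    rw [Finset.sum_congr rfl e3, ← Finset.mul_sum, Finset.sum_comm, mul_div_assoc, Finset.sum_div]
    congr 1
    refine Finset.sum_congr rfl fun a _ => ?_
    rw [← Finset.mul_sum, Finset.sum_sub_distrib, mul_div_assoc, sub_div]
  rw [e2, Ep_SG h]
  unfold yc
  have e4 : ∀ a, Ep p (cz kd (fun x => o (p * x)) (pG K) c a) y =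
      1 / (p : ℝ) * cz kd o (pB K) c a y := fun a => Ep_cz kd o (lift_pG h) hp ho c a y
  simp only [e4]
  rw [Finset.mul_sum, Finset.mul_sum, Finset.mul_sum]
  exact Finset.sum_congr rfl fun a _ => by ring

lemma Ep_di (h : KOk kd p K) (hp : 0 < p) (ho : ∀ j, MP fun y => o y j) (i : ι) (y : ℝ) :
    Ep p (di kd p K o ix i) y = 1 / (p : ℝ) * mni kd K o ix i y := by
  have e : di kd p K o ix i = fun x => ∑ c, if ix c = i then xc kd p K o c x else 0 := rfl
  rw [e, PayR45.Ep_sum']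
  unfold mni
  rw [Finset.mul_sum]
  refine Finset.sum_congr rfl fun c _ => ?_
  by_cases hc : ix c = i
  · simp only [if_pos hc]
    exact Ep_xc h hp ho c y
  · simp only [if_neg hc]
    unfold Ep; simp

/-- the cross amount of an index is below its P content -/
lemma mni_le (h : KOk kd p K) (i : ι) (y : ℝ) : mni kd K o ix i y ≤
    ∑ j, if ix (kd j) = i then pA K j y else 0 := by
  have h1 : mni kd K o ix i y ≤ ∑ c, if ix c = i then SA kd K c y else 0 := by
    unfold mni
    refine Finset.sum_le_sum fun c _ => ?_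
    by_cases hc : ix c = i
    · rw [if_pos hc, if_pos hc]
      exact yc_le h c y
    · rw [if_neg hc, if_neg hc]
  refine h1.trans (le_of_eq ?_)
  have e : ∀ c, (if ix c = i then SA kd K c y else 0) =
      ∑ j, if kd j = c then (if ix (kd j) = i then pA K j y else 0) else 0 := by
    intro c
    by_cases hc : ix c = i
    · rw [if_pos hc]
      unfold SA
      rw [sm_eq]
      refine Finset.sum_congr rfl fun j _ => ?_
      by_cases hj : kd j = c
      · rw [if_pos hj, if_pos hj, hj, if_pos hc]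
      · rw [if_neg hj, if_neg hj]
    · rw [if_neg hc]
      symm
      refine Finset.sum_eq_zero fun j _ => ?_
      by_cases hj : kd j = c
      · rw [if_pos hj, hj, if_neg hc]
      · rw [if_neg hj]
  rw [Finset.sum_congr rfl fun c _ => e c, Finset.sum_comm]
  refine Finset.sum_congr rfl fun j _ => ?_
  simp

/-- **the cross amount in piece form** : P piece `j`, N piece `i` of one real class and different
families, weight `1 / max (SA) (SB)` -/
lemma mnf_pieces (h : KOk kd p K) (y : ℝ) : mnf kd K o y =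
    ∑ j, ∑ i, if kd j = kd i ∧ o y j ≠ o y i then
      bf kd K (kd j) y / SA kd K (kd j) y * (pA K j y * pB K i y) else 0 := by
  have e1 : ∀ c, yc kd K o c y = ∑ j, ∑ i, if kd j = c ∧ (kd j = kd i ∧ o y j ≠ o y i) then
      bf kd K (kd j) y / SA kd K (kd j) y * (pA K j y * pB K i y) else 0 := by
    intro c
    unfold yc
    have e2 : ∀ a, cz kd o (pA K) c a y / SA kd K c y *
        (DTm407.SB kd K c y - cz kd o (pB K) c a y) = ∑ j, ∑ i,
        if o y j = a then (if kd j = c ∧ (kd j = kd i ∧ o y j ≠ o y i) then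
          1 / SA kd K c y * (pA K j y * pB K i y) else 0) else 0 := by
      intro a
      unfold DTm407.SB
      rw [sub_cz, cz_eq, div_mul_eq_mul_div, Finset.sum_mul_sum, Finset.sum_div]
      refine Finset.sum_congr rfl fun j _ => ?_
      rw [Finset.sum_div]
      refine Finset.sum_congr rfl fun i _ => ?_
      by_cases h1 : kd j = c
      · by_cases h2 : o y j = a
        · by_cases h3 : kd i = c
          · by_cases h4 : o y i = a
            · simp [h1, h2, h3, h4]
            · have h5 : ¬ a = o y i := fun hh => h4 hh.symm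
              simp [h1, h2, h3, h4, h5]
              ring
          · have h5 : ¬ c = kd i := fun hh => h3 hh.symm
            simp [h1, h2, h3, h5]
        · simp [h1, h2]
      · simp [h1]
    simp only [e2]
    rw [Finset.sum_comm, Finset.mul_sum]
    refine Finset.sum_congr rfl fun j _ => ?_
    rw [Finset.sum_comm, Finset.mul_sum]
    refine Finset.sum_congr rfl fun i _ => ?_
    rw [Finset.sum_ite_eq]
    simp only [Finset.mem_univ, if_true]
    by_cases h1 : kd j = c ∧ (kd j = kd i ∧ o y j ≠ o y i)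
    · rw [if_pos h1, if_pos h1, h1.1]
      ring
    · rw [if_neg h1, if_neg h1, mul_zero]
  unfold mnf
  simp only [e1]
  rw [Finset.sum_comm]
  refine Finset.sum_congr rfl fun j _ => ?_
  rw [Finset.sum_comm]
  refine Finset.sum_congr rfl fun i _ => ?_
  rw [Finset.sum_eq_single (kd j)]
  · simp
  · intro c _ hc
    exact if_neg fun hh => hc hh.1.symm
  · intro hn; exact absurd (Finset.mem_univ _) hn

/-- constant part of an index -/
noncomputable def cI (kd : Λ → κ) (p : ℕ) (K : List (DT Λ κ)) (o : ℝ → Λ → φ) (pi : φ → ι) (i : ι)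
    (y : ℝ) : ℝ := ∑ a ∈ Finset.univ.filter (fun a => pi a = i), cB kd p K o a y

lemma sum_fi_hz (hix : ∀ x j, pi (o x j) = ix (kd j)) (f : Λ → ℝ → ℝ) (i : ι) (y : ℝ) :
    ∑ a ∈ Finset.univ.filter (fun a => pi a = i), hz o f a y =
      ∑ j, if ix (kd j) = i then f j y else 0 := by
  classical
  simp only [hz_eq]
  rw [Finset.sum_comm]
  refine Finset.sum_congr rfl fun j _ => ?_
  by_cases hj : ix (kd j) = i
  · rw [if_pos hj, Finset.sum_eq_single (o y j)]
    · simp
    · intro a _ ha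
      exact if_neg fun hh => ha hh.symm
    · intro hn
      exact absurd (Finset.mem_filter.2 ⟨Finset.mem_univ _, by rw [hix, hj]⟩) hn
  · rw [if_neg hj]
    refine Finset.sum_eq_zero fun a ha => if_neg fun hh => hj ?_
    rw [← hix y j, hh]
    exact (Finset.mem_filter.1 ha).2

lemma w_facts (hp : 0 < p) : (0:ℝ) ≤ 1 / p ∧ (0:ℝ) ≤ 1 - 1 / p := by
  have hp1 : (1 : ℝ) ≤ p := by exact_mod_cast hp
  refine ⟨by positivity, ?_⟩
  have : (1:ℝ) / p ≤ 1 := by rw [div_le_one (by linarith)]; exact hp1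
  linarith

lemma cI_ge (h : KOk kd p K) (hp : 0 < p) (hix : ∀ x j, pi (o x j) = ix (kd j)) (i : ι) (y : ℝ) :
    (1 - 1 / (p : ℝ)) * (∑ j, if ix (kd j) = i then pA K j y else 0) ≤ cI kd p K o pi i y := by
  obtain ⟨w0, w1⟩ := w_facts (p := p) hp
  rw [← sum_fi_hz (pi := pi) hix (pA K) i y, Finset.mul_sum]
  refine Finset.sum_le_sum fun a _ => ?_
  unfold cB
  have h1 : 0 ≤ ∑ c, al kd K c y * cz kd o (pA K) c a y := Finset.sum_nonneg fun c _ =>
    mul_nonneg (al0 h c y) (cz_nonneg (fun j => (h.PA j).nonneg y) c a)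
  have h2 : 0 ≤ hz o (pQ K) a y := hz_nonneg (fun j => (h.PQ j).nonneg y) a
  have h3 := mul_nonneg w0 h1
  linarith

lemma cI_le (h : KOk kd p K) (hp : 0 < p) (i : ι) (y : ℝ) :
    cI kd p K o pi i y ≤ (1 - 1 / (p : ℝ)) * bt (K.map chP) y + 1 / (p : ℝ) * bt (K.map chN) y := by
  obtain ⟨w0, w1⟩ := w_facts (p := p) hp
  have n1 : ∀ a, 0 ≤ cB kd p K o a y := fun a => by
    unfold cB
    have h1 : 0 ≤ ∑ c, al kd K c y * cz kd o (pA K) c a y := Finset.sum_nonneg fun c _ =>
      mul_nonneg (al0 h c y) (cz_nonneg (fun j => (h.PA j).nonneg y) c a)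
    have h2 : 0 ≤ hz o (pQ K) a y := hz_nonneg (fun j => (h.PQ j).nonneg y) a
    have h3 : 0 ≤ hz o (pA K) a y := hz_nonneg (fun j => (h.PA j).nonneg y) a
    have := mul_nonneg w0 h1
    have := mul_nonneg w1 h3
    linarith
  have h1 : cI kd p K o pi i y ≤ ∑ a, cB kd p K o a y :=
    Finset.sum_le_sum_of_subset_of_nonneg (Finset.filter_subset _ _) fun a _ _ => n1 a
  refine h1.trans ?_
  unfold cB
  rw [Finset.sum_add_distrib, Finset.sum_add_distrib, ← Finset.mul_sum, ← Finset.mul_sum,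
    sum_hz, sum_hz, Finset.sum_comm]
  have e1 : ∀ c, ∑ a, al kd K c y * cz kd o (pA K) c a y ≤ sm kd (pB K) c y := fun c => by
    rw [← Finset.mul_sum, sum_cz]
    have := al_mul h c y
    show al kd K c y * SA kd K c y ≤ DTm407.SB kd K c y
    rw [this]; exact min_le_right _ _
  have e2 : ∑ c, ∑ a, al kd K c y * cz kd o (pA K) c a y ≤ ∑ j, pB K j y := by
    refine (Finset.sum_le_sum fun c _ => e1 c).trans (le_of_eq ?_)
    simp only [sm_eq]
    rw [Finset.sum_comm]
    exact Finset.sum_congr rfl fun j _ => by simp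
  have e3 : bt (K.map chP) y = ∑ j, pA K j y + ∑ j, pQ K j y := by
    rw [← sum_jv, ← Finset.sum_add_distrib]
    exact Finset.sum_congr rfl fun j _ => jv_chP h j y
  have e4 : bt (K.map chN) y = ∑ j, pB K j y + ∑ j, pQ K j y := by
    rw [← sum_jv, ← Finset.sum_add_distrib]
    exact Finset.sum_congr rfl fun j _ => jv_chN h j y
  rw [e3, e4]
  have := mul_le_mul_of_nonneg_left e2 w0
  linarith

end imp

/-! ### the impure part of a group -/

section grp
variable {μ Λ κ φ ι : Type} [Fintype Λ] [DecidableEq Λ] [Fintype κ] [DecidableEq κ]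
  [Fintype φ] [DecidableEq φ] [Fintype ι] [DecidableEq ι]
variable {B : BM (μ × List (DT Λ κ))} {wr : ℕ → Λ → κ} {tu : ℕ → μ → μ}
  {fm : ℕ → μ → ℝ → Λ → φ} {p : ℕ} {s : Gs (μ × List (DT Λ κ))} {b : μ × List (DT Λ κ)}
  {pi : φ → ι} {ix : κ → ι}

/-- related families have one index -/
lemma QS_index {Q : φ → φ → Prop} (hQ : ∀ a b, Q a b → pi a = pi b) {f g : φ → ℝ → ℝ} {x : ℝ}
    (hf : ∀ a, 0 ≤ f a x) (hg : ∀ a, 0 ≤ g a x) : QS Q f g x ≤
      ∑ i, (∑ a ∈ Finset.univ.filter (fun a => pi a = i), f a x) *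
        ∑ a ∈ Finset.univ.filter (fun a => pi a = i), g a x := by
  classical
  have e : ∀ i, (∑ a ∈ Finset.univ.filter (fun a => pi a = i), f a x) *
      (∑ a ∈ Finset.univ.filter (fun a => pi a = i), g a x) =
      ∑ a, ∑ b, if pi a = i ∧ pi b = i then f a x * g b x else 0 := by
    intro i
    rw [Finset.sum_mul_sum, Finset.sum_filter]
    refine Finset.sum_congr rfl fun a _ => ?_
    rw [Finset.sum_filter]
    by_cases ha : pi a = i
    · rw [if_pos ha]
      refine Finset.sum_congr rfl fun b _ => ?_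
      by_cases hb : pi b = i
      · rw [if_pos hb, if_pos ⟨ha, hb⟩]
      · rw [if_neg hb, if_neg fun hh => hb hh.2]
    · rw [if_neg ha]
      exact (Finset.sum_eq_zero fun b _ => if_neg fun hh => ha hh.1).symm
  rw [Finset.sum_congr rfl fun i _ => e i, Finset.sum_comm]
  unfold QS
  refine Finset.sum_le_sum fun a _ => ?_
  rw [Finset.sum_comm]
  refine Finset.sum_le_sum fun b _ => ?_
  have n := mul_nonneg (hf a) (hg b)
  by_cases h : Q a b
  · rw [if_pos h]
    have h1 := hQ a b h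
    have h2 : ∀ i ∈ (Finset.univ : Finset ι), 0 ≤ (if pi a = i ∧ pi b = i then f a x * g b x else 0) :=
      fun i _ => by split_ifs; exact n; exact le_rfl
    have h3 := Finset.single_le_sum h2 (Finset.mem_univ (pi a))
    rw [if_pos ⟨rfl, h1.symm⟩] at h3
    exact h3
  · rw [if_neg h]
    exact Finset.sum_nonneg fun i _ => by split_ifs; exact n; exact le_rfl

/-- group lifts of an index -/
noncomputable def EI (wr : ℕ → Λ → κ) (tu : ℕ → μ → μ) (fm : ℕ → μ → ℝ → Λ → φ) (pi : φ → ι) (p : ℕ)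
    (s : Gs (μ × List (DT Λ κ))) (i : ι) (x : ℝ) : ℝ :=
  ∑ a ∈ Finset.univ.filter (fun a => pi a = i), Eg wr tu fm p s a x

/-- group cross lifts of an index -/
noncomputable def dI (wr : ℕ → Λ → κ) (tu : ℕ → μ → μ) (fm : ℕ → μ → ℝ → Λ → φ) (ix : κ → ι) (p : ℕ)
    (s : Gs (μ × List (DT Λ κ))) (i : ι) : ℝ → ℝ :=
  su s fun b => di (wr p) p (bB p b.2) (oL tu fm p b) ix i

/-- group constant part of an index -/
noncomputable def CI (wr : ℕ → Λ → κ) (tu : ℕ → μ → μ) (fm : ℕ → μ → ℝ → Λ → φ) (pi : φ → ι) (p : ℕ)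
    (s : Gs (μ × List (DT Λ κ))) (i : ι) : ℝ → ℝ :=
  su s fun b => cI (wr p) p (bB p b.2) (oL tu fm p b) pi i

/-- **cross amount of a bundle** -/
noncomputable def mnb (wr : ℕ → Λ → κ) (tu : ℕ → μ → μ) (fm : ℕ → μ → ℝ → Λ → φ) (p : ℕ)
    (b : μ × List (DT Λ κ)) : ℝ → ℝ := mnf (wr p) (bB p b.2) (oL tu fm p b)

lemma su_filter (s : Gs (μ × List (DT Λ κ))) (f : φ → (μ × List (DT Λ κ)) → ℝ → ℝ) (i : ι) (x : ℝ) :
    ∑ a ∈ Finset.univ.filter (fun a => pi a = i), su s (f a) x =
      su s (fun b x => ∑ a ∈ Finset.univ.filter (fun a => pi a = i), f a b x) x := by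
  unfold su
  rw [M_sum]

/-- the impure part at one point -/
lemma imq_pt (H : TM B wr tu fm) (hix : ∀ p m x j, pi (fm p m x j) = ix (wr p j))
    {Q : φ → φ → Prop} (hQ : ∀ a b, Q a b → pi a = pi b) (hs : gst B p s) (hp : p ≠ 0)
    {l : ℝ} (hl : 0 < l) (x : ℝ) : imq Q wr tu fm p s x ≤
      ∑ i, (2 * (dI wr tu fm ix p s i x * CI wr tu fm pi p s i (p * x)) +
        (2 + l) * dI wr tu fm ix p s i x ^ 2 + 1 / l * EI wr tu fm pi p s i x ^ 2) := by
  have hp0 : 0 < p := Nat.pos_of_ne_zero hp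
  have c0 := hs.1.c0
  have nF : ∀ a x, 0 ≤ Bg tu fm p s a x := fun a => (H.pBg hs hp a).nonneg
  have nD : ∀ a x, 0 ≤ Dg wr tu fm p s a x := fun a => (H.pDg hs hp a).nonneg
  have nE : ∀ a x, 0 ≤ Eg wr tu fm p s a x := fun a => (H.pEg hs hp a).nonneg
  have k1 := QS_index (x := x) (f := Dg wr tu fm p s)
    (g := fun a x => Bg tu fm p s a x + Dg wr tu fm p s a x) hQ (fun a => nD a x)
    (fun a => add_nonneg (nF a x) (nD a x))
  have k2 := QS_index (x := x) (f := fun a x => Bg tu fm p s a x + Dg wr tu fm p s a x)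
    (g := Dg wr tu fm p s) hQ (fun a => add_nonneg (nF a x) (nD a x)) (fun a => nD a x)
  have hD : ∀ i, ∑ a ∈ Finset.univ.filter (fun a => pi a = i), Dg wr tu fm p s a x ≤
      dI wr tu fm ix p s i x := fun i => by
    unfold Dg dI
    rw [su_filter (pi := pi) s (fun a b => dB (wr p) p (bB p b.2) (oL tu fm p b) a) i x]
    exact M_mono c0 fun j => sum_dB (H.kok (hs.2 j) hp) (fun x j => hix _ _ _ _) i x
  have hG : ∀ i, ∑ a ∈ Finset.univ.filter (fun a => pi a = i), (Bg tu fm p s a x +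
      Dg wr tu fm p s a x) ≤ CI wr tu fm pi p s i (p * x) + EI wr tu fm pi p s i x +
      dI wr tu fm ix p s i x := fun i => by
    have e1 : ∀ a, Bg tu fm p s a x + Dg wr tu fm p s a x =
        su s (fun b x => cB (wr p) p (bB p b.2) (oL tu fm p b) a (p * x) +
          (eB (wr p) p (bB p b.2) (oL tu fm p b) a x +
            uB (wr p) p (bB p b.2) (oL tu fm p b) a x)) x := fun a => by
      unfold Bg Dg su
      rw [← M_add]
      congr 1
      funext j
      exact dec (H.kok (hs.2 j) hp) _ a x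
    have e2 : EI wr tu fm pi p s i x = su s (fun b x => ∑ a ∈ Finset.univ.filter
        (fun a => pi a = i), eB (wr p) p (bB p b.2) (oL tu fm p b) a x) x := by
      unfold EI Eg
      rw [su_filter (pi := pi) s (fun a b => eB (wr p) p (bB p b.2) (oL tu fm p b) a) i x]
    rw [Finset.sum_congr rfl fun a _ => e1 a, su_filter (pi := pi) s (fun a b x =>
      cB (wr p) p (bB p b.2) (oL tu fm p b) a (p * x) +
          (eB (wr p) p (bB p b.2) (oL tu fm p b) a x +
            uB (wr p) p (bB p b.2) (oL tu fm p b) a x)) i x, e2]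
    unfold CI dI su
    rw [← M_add, ← M_add]
    refine M_mono c0 fun j => ?_
    simp only []
    rw [Finset.sum_add_distrib, Finset.sum_add_distrib]
    have h1 := sum_uB (o := oL tu fm p (s.L j)) (H.kok (hs.2 j) hp)
      (pi := pi) (ix := ix) (fun x j => hix _ _ _ _) i x
    unfold cI
    linarith
  have nd : ∀ i, 0 ≤ dI wr tu fm ix p s i x := fun i =>
    M_nonneg c0 fun j => di_nonneg (H.kok (hs.2 j) hp) i x
  have nDi : ∀ i, 0 ≤ ∑ a ∈ Finset.univ.filter (fun a => pi a = i), Dg wr tu fm p s a x := fun i =>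
    Finset.sum_nonneg fun a _ => nD a x
  have nGi : ∀ i, 0 ≤ ∑ a ∈ Finset.univ.filter (fun a => pi a = i), (Bg tu fm p s a x +
      Dg wr tu fm p s a x) := fun i =>
    Finset.sum_nonneg fun a _ => add_nonneg (nF a x) (nD a x)
  have e0 : imq Q wr tu fm p s x =
    QS Q (Dg wr tu fm p s) (fun a x => Bg tu fm p s a x + Dg wr tu fm p s a x) x +
      QS Q (fun a x => Bg tu fm p s a x + Dg wr tu fm p s a x) (Dg wr tu fm p s) x := rfl
  rw [e0]
  refine (add_le_add k1 k2).trans ?_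
  rw [← Finset.sum_add_distrib]
  refine Finset.sum_le_sum fun i _ => ?_
  have h1 := mul_le_mul (hD i) (hG i) (nGi i) (nd i)
  have h2 : 2 * (dI wr tu fm ix p s i x * EI wr tu fm pi p s i x) ≤
      l * dI wr tu fm ix p s i x ^ 2 + 1 / l * EI wr tu fm pi p s i x ^ 2 := by
    set d := dI wr tu fm ix p s i x
    set e := EI wr tu fm pi p s i x
    have h3 : 0 ≤ (l * d - e) ^ 2 / l := div_nonneg (sq_nonneg _) hl.le
    have h4 : (l * d - e) ^ 2 / l = l * d ^ 2 + 1 / l * e ^ 2 - 2 * (d * e) := by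
      field_simp; ring
    linarith
  nlinarith

/-- **the impure part** -/
theorem imq_le (H : TM B wr tu fm) (hix : ∀ p m x j, pi (fm p m x j) = ix (wr p j))
    {Q : φ → φ → Prop} (hQ : ∀ a b, Q a b → pi a = pi b) (hs : gst B p s) (hp : p ≠ 0)
    {l : ℝ} (hl : 0 < l) (y : ℝ) : Ep p (imq Q wr tu fm p s) y ≤
      (6 + 2 * l) * (su s (fun b y => 1 / (p : ℝ) * mnb wr tu fm p b y) y *
        su (B.C p s) (fun b => bt b.2) y) +
      1 / l * Ep p (fun x => ∑ i, EI wr tu fm pi p s i x ^ 2) y := by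
  classical
  have hp0 : 0 < p := Nat.pos_of_ne_zero hp
  have hp' : (0 : ℝ) < p := by exact_mod_cast hp0
  have c0 := hs.1.c0
  have sC := gst_C H.cl hs hp
  -- everything vanishes at the column 1
  by_cases h2 : 2 ≤ p
  swap
  · have hp1 : p = 1 := by omega
    subst hp1
    have z : ∀ a x, Dg wr tu fm 1 s a x = 0 := by
      intro a x
      have e1 : ∀ j, dB (wr 1) 1 (bB 1 (s.L j).2) (oL tu fm 1 (s.L j)) a x = 0 := by
        intro j
        rw [H.no1 (hs.2 j)]
        unfold dB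
        refine Finset.sum_eq_zero fun c _ => ?_
        have e2 : ∀ c x, SG (wr 1) ([] : List (DT Λ κ)) c x = 0 := fun c x => by
          unfold SG
          rw [sm_eq]
          exact Finset.sum_eq_zero fun j _ => by
            have : pG ([] : List (DT Λ κ)) j x = 0 := rfl
            simp [this]
        have e3 : cz (wr 1) (fun x => oL tu fm 1 (s.L j) ((1 : ℕ) * x)) (pG ([] : List (DT Λ κ)))
            c a x = 0 := by
          rw [cz_eq]
          exact Finset.sum_eq_zero fun j _ => by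
            have : pG ([] : List (DT Λ κ)) j x = 0 := rfl
            simp [this]
        rw [e2, e3]; ring
      unfold Dg su
      simp only [e1]
      simp [M]
    have e0 : imq Q wr tu fm 1 s = fun _ => 0 := by
      funext x
      unfold imq QS
      simp [z]
    rw [e0]
    have e1 : Ep 1 (fun _ : ℝ => (0:ℝ)) y = 0 := by unfold Ep; simp
    rw [e1]
    have n1 : 0 ≤ su s (fun b y => 1 / ((1 : ℕ) : ℝ) * mnb wr tu fm 1 b y) y :=
      M_nonneg c0 fun j => by
        refine mul_nonneg (by positivity) ?_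
        exact Finset.sum_nonneg fun c _ => yc_nonneg (H.kok (hs.2 j) hp) c y
    have n2 : 0 ≤ su (B.C 1 s) (fun b => bt b.2) y :=
      M_nonneg sC.1.c0 fun j => (PB_bt (H.pbl (sC.2 j))).nonneg y
    have n3 : 0 ≤ Ep 1 (fun x => ∑ i, EI wr tu fm pi 1 s i x ^ 2) y := by
      unfold Ep
      exact div_nonneg (Finset.sum_nonneg fun k _ => Finset.sum_nonneg fun i _ => sq_nonneg _)
        (by norm_num)
    have := mul_nonneg n1 n2
    have h5 : 0 ≤ (6 + 2 * l) * (su s (fun b y => 1 / ((1 : ℕ) : ℝ) * mnb wr tu fm 1 b y) y *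
        su (B.C 1 s) (fun b => bt b.2) y) := by positivity
    have h6 : 0 ≤ 1 / l * Ep 1 (fun x => ∑ i, EI wr tu fm pi 1 s i x ^ 2) y := by positivity
    linarith
  have hp2 : (2 : ℝ) ≤ p := by exact_mod_cast h2
  have w0 : (0:ℝ) ≤ 1 / p := by positivity
  have w2 : (1:ℝ) / p ≤ 1 / 2 := one_div_le_one_div_of_le (by norm_num) hp2
  -- abbreviations
  set m : (ℝ → ℝ) → ℝ := fun f => Ep p f y with hm
  have madd : ∀ f g : ℝ → ℝ, m (fun x => f x + g x) = m f + m g := fun f g => by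
    simp only [hm, Ep]; rw [Finset.sum_add_distrib, add_div]
  have mono : ∀ f g : ℝ → ℝ, (∀ i < p, f ((y + i) / p) ≤ g ((y + i) / p)) → m f ≤ m g :=
    fun f g hfg => by
      simp only [hm, Ep]
      exact div_le_div_of_nonneg_right (Finset.sum_le_sum fun i hi =>
        hfg i (Finset.mem_range.1 hi)) hp'.le
  have msm : ∀ (a : ℝ) (f : ℝ → ℝ), m (fun x => a * f x) = a * m f := fun a f => by
    simp only [hm, Ep]; rw [← Finset.mul_sum, mul_div_assoc]
  have e1 : ∀ i : ℕ, (p : ℝ) * ((y + (i : ℝ)) / p) = y + i := fun i => by field_simp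
  -- group quantities at the low point
  set mn : ι → ℝ := fun i => M s.c fun j => mni (wr p) (bB p (s.L j).2) (oL tu fm p (s.L j)) ix i y
    with hmn
  have mn0 : ∀ i, 0 ≤ mn i := fun i => M_nonneg c0 fun j => mni_nonneg (H.kok (hs.2 j) hp) i y
  set Cy : ι → ℝ := fun i => CI wr tu fm pi p s i y with hCy
  have dper : ∀ i, ∀ k < p, dI wr tu fm ix p s i ((y + k) / p) ≤ mn i := by
    intro i k _
    refine M_mono c0 fun j => ?_
    refine (di_le (H.kok (hs.2 j) hp) hp0 i _).trans (le_of_eq ?_)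
    rw [e1]
    unfold mni
    refine Finset.sum_congr rfl fun c _ => ?_
    rw [yc_per (H.kok (hs.2 j) hp) (H.mo (s.L j) p) c y k]
  have cper : ∀ i, ∀ k : ℕ, CI wr tu fm pi p s i (p * ((y + k) / p)) = Cy i := by
    intro i k
    rw [e1]
    show M s.c _ = M s.c _
    congr 1
    funext j
    show cI _ _ _ _ _ _ _ = cI _ _ _ _ _ _ _
    unfold cI
    refine Finset.sum_congr rfl fun a _ => ?_
    exact (PB_cB (H.kok (hs.2 j) hp) hp0 (H.mo (s.L j) p) a).per_nat k y
  have d0 : ∀ i x, 0 ≤ dI wr tu fm ix p s i x := fun i x =>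
    M_nonneg c0 fun j => di_nonneg (H.kok (hs.2 j) hp) i x
  have md : ∀ i, m (dI wr tu fm ix p s i) = 1 / (p : ℝ) * mn i := by
    intro i
    show Ep p (su s fun b => di (wr p) p (bB p b.2) (oL tu fm p b) ix i) y = _
    rw [Ep_su', hmn]
    simp only []
    rw [← M_smul]
    congr 1
    funext j
    exact Ep_di (H.kok (hs.2 j) hp) hp0 (H.mo (s.L j) p) i y
  have mdd : ∀ i, m (fun x => dI wr tu fm ix p s i x ^ 2) ≤ mn i * (1 / (p : ℝ) * mn i) := by
    intro i
    rw [← md, ← msm]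
    refine mono _ _ fun k hk => ?_
    rw [sq]
    exact mul_le_mul_of_nonneg_right (dper i k hk) (d0 i _)
  have mdC : ∀ i, m (fun x => dI wr tu fm ix p s i x * CI wr tu fm pi p s i (p * x)) =
      Cy i * (1 / (p : ℝ) * mn i) := by
    intro i
    rw [← md, ← msm]
    refine le_antisymm (mono _ _ fun k hk => ?_) (mono _ _ fun k hk => ?_)
    · rw [cper]; exact (mul_comm _ _).le
    · rw [cper]; exact (mul_comm _ _).le
  -- `mn ≤ 2 C`
  have mn2 : ∀ i, mn i ≤ 2 * Cy i := by
    intro i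
    rw [hmn, hCy]
    simp only []
    unfold CI su
    rw [← M_smul]
    refine M_mono c0 fun j => ?_
    have k1 := mni_le (o := oL tu fm p (s.L j)) (ix := ix) (H.kok (hs.2 j) hp) i y
    have k2 := cI_ge (pi := pi) (ix := ix) (H.kok (hs.2 j) hp) hp0 (o := oL tu fm p (s.L j))
      (fun x j => hix _ _ _ _) i y
    have k3 : 0 ≤ ∑ j', if ix (wr p j') = i then pA (bB p (s.L j).2) j' y else 0 :=
      Finset.sum_nonneg fun j' _ => by
        split_ifs
        · exact ((H.kok (hs.2 j) hp).PA j').nonneg y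
        · exact le_rfl
    nlinarith
  -- `C ≤ T_C`
  set T : ℝ := su (B.C p s) (fun b => bt b.2) y with hT
  have CT : ∀ i, Cy i ≤ T := by
    intro i
    have k1 : T = M s.c fun j => (1 - 1 / (p : ℝ)) * bt (B.cP p (s.L j)).2 y +
        1 / (p : ℝ) * bt (B.cN p (s.L j)).2 y := by
      rw [hT, BC_pos B h2]
      show M (cT (1 - 1 / (p : ℝ)) s.c) (fun x : s.J × Bool =>
        bt (if x.2 = true then B.cP p (s.L x.1) else B.cN p (s.L x.1)).2 y) = _
      rw [M_cT]
      congr 1
      funext j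
      unfold av
      simp
      ring
    rw [k1, hCy]
    simp only []
    refine M_mono c0 fun j => ?_
    rw [H.eP (hs.2 j) hp, H.eN (hs.2 j) hp]
    exact cI_le (H.kok (hs.2 j) hp) hp0 i y
  have T0 : 0 ≤ T := M_nonneg sC.1.c0 fun j => (PB_bt (H.pbl (sC.2 j))).nonneg y
  -- the sum over the indices
  have hsum : su s (fun b y => 1 / (p : ℝ) * mnb wr tu fm p b y) y = ∑ i, 1 / (p : ℝ) * mn i := by
    rw [← Finset.mul_sum, hmn]
    simp only []
    rw [← M_sum, ← M_smul]
    unfold su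
    congr 1
    funext j
    show 1 / (p : ℝ) * mnf _ _ _ y = _
    rw [← sum_mni (ix := ix)]
  have st1 : m (imq Q wr tu fm p s) ≤ ∑ i, (2 * (Cy i * (1 / (p : ℝ) * mn i)) +
      (2 + l) * (mn i * (1 / (p : ℝ) * mn i))) +
      1 / l * m (fun x => ∑ i, EI wr tu fm pi p s i x ^ 2) := by
    have k1 : m (imq Q wr tu fm p s) ≤ m (fun x => ∑ i, (2 * (dI wr tu fm ix p s i x *
        CI wr tu fm pi p s i (p * x)) + (2 + l) * dI wr tu fm ix p s i x ^ 2 +
        1 / l * EI wr tu fm pi p s i x ^ 2)) :=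
      mono _ _ fun k _ => imq_pt H hix hQ hs hp hl _
    refine k1.trans ?_
    have k2 : m (fun x => ∑ i, (2 * (dI wr tu fm ix p s i x *
        CI wr tu fm pi p s i (p * x)) + (2 + l) * dI wr tu fm ix p s i x ^ 2 +
        1 / l * EI wr tu fm pi p s i x ^ 2)) = ∑ i, (2 * m (fun x => dI wr tu fm ix p s i x *
        CI wr tu fm pi p s i (p * x)) + (2 + l) * m (fun x => dI wr tu fm ix p s i x ^ 2) +
        1 / l * m (fun x => EI wr tu fm pi p s i x ^ 2)) := by
      show Ep p _ y = _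
      rw [PayR45.Ep_sum']
      refine Finset.sum_congr rfl fun i _ => ?_
      rw [← msm, ← msm, ← msm, ← madd, ← madd]
    have k3 : m (fun x => ∑ i, EI wr tu fm pi p s i x ^ 2) =
        ∑ i, m (fun x => EI wr tu fm pi p s i x ^ 2) := PayR45.Ep_sum' _ _ _ _
    rw [k2, k3, Finset.mul_sum, ← Finset.sum_add_distrib]
    refine Finset.sum_le_sum fun i _ => ?_
    rw [mdC]
    have := mul_le_mul_of_nonneg_left (mdd i) (by linarith : 0 ≤ 2 + l)
    linarith
  refine st1.trans (add_le_add ?_ le_rfl)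
  rw [hsum, Finset.sum_mul, Finset.mul_sum]
  refine Finset.sum_le_sum fun i _ => ?_
  have a1 : 0 ≤ 1 / (p : ℝ) * mn i := mul_nonneg w0 (mn0 i)
  have a2 := mul_le_mul_of_nonneg_left (CT i) a1
  have a3 := mul_le_mul_of_nonneg_left ((mn2 i).trans (mul_le_mul_of_nonneg_left (CT i)
    (by norm_num : (0:ℝ) ≤ 2))) a1
  have a4 := mul_le_mul_of_nonneg_left a3 (by linarith : 0 ≤ 2 + l)
  nlinarith

/-- **the impure part, integrated** -/
theorem I_imq_le (H : TM B wr tu fm) (hix : ∀ p m x j, pi (fm p m x j) = ix (wr p j))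
    {Q : φ → φ → Prop} (hQ : ∀ a b, Q a b → pi a = pi b) (hs : gst B p s) (hp : p ≠ 0)
    (hm : PB (su s fun b y => 1 / (p : ℝ) * mnb wr tu fm p b y))
    {l : ℝ} (hl : 0 < l) : I (imq Q wr tu fm p s) ≤
      (6 + 2 * l) * I (fun y => su s (fun b y => 1 / (p : ℝ) * mnb wr tu fm p b y) y *
        su (B.C p s) (fun b => bt b.2) y) +
      1 / l * I (fun x => ∑ i, EI wr tu fm pi p s i x ^ 2) := by
  have hp0 : 0 < p := Nat.pos_of_ne_zero hp
  have sC := gst_C H.cl hs hp
  have pI : PB (imq Q wr tu fm p s) :=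
    (PB_QS (H.pDg hs hp) fun a => (H.pBg hs hp a).add (H.pDg hs hp a)).add
      (PB_QS (fun a => (H.pBg hs hp a).add (H.pDg hs hp a)) (H.pDg hs hp))
  have pE : PB fun x => ∑ i, EI wr tu fm pi p s i x ^ 2 := PB.sum _ fun i _ =>
    PBsq (PB.sum _ fun a _ => H.pEg hs hp a)
  have pT : PB (su (B.C p s) fun b => bt b.2) := PB_su' sC.1 fun j => PB_bt (H.pbl (sC.2 j))
  have p1 := hm.mul pT
  have e1 : (6 + 2 * l) * I (fun y => su s (fun b y => 1 / (p : ℝ) * mnb wr tu fm p b y) y *
        su (B.C p s) (fun b => bt b.2) y) = I (fun y => (6 + 2 * l) *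
        (su s (fun b y => 1 / (p : ℝ) * mnb wr tu fm p b y) y *
        su (B.C p s) (fun b => bt b.2) y)) := by
    unfold I
    rw [MeasureTheory.integral_const_mul]
  have e2 : 1 / l * I (fun x => ∑ i, EI wr tu fm pi p s i x ^ 2) =
      I (fun y => 1 / l * Ep p (fun x => ∑ i, EI wr tu fm pi p s i x ^ 2) y) := by
    rw [← I_Ep hp0 pE.integrableOn]
    unfold I
    rw [MeasureTheory.integral_const_mul]
  have q1 : PB fun y => (6 + 2 * l) * (su s (fun b y => 1 / (p : ℝ) * mnb wr tu fm p b y) y *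
        su (B.C p s) (fun b => bt b.2) y) := (PB.const (by linarith : 0 ≤ 6 + 2 * l)).mul p1
  have q2 : PB fun y => 1 / l * Ep p (fun x => ∑ i, EI wr tu fm pi p s i x ^ 2) y :=
    (PB.const (by positivity : 0 ≤ 1 / l)).mul (pE.Ep hp0)
  rw [e1, e2, ← I_Ep hp0 pI.integrableOn, ← I_add q1.integrableOn q2.integrableOn]
  exact I_mono (pI.Ep hp0).integrableOn (q1.add q2).integrableOn
    fun y => imq_le H hix hQ hs hp hl y

lemma PB_mnb (H : TM B wr tu fm) (hb : B.ok p b) (hp : p ≠ 0) : PB (mnb wr tu fm p b) := by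
  have h := H.kok hb hp
  refine PB.sum _ fun c _ => (PB_bf h c).mul (PB.sum _ fun a _ => ?_)
  exact (PB_frac h (H.mo b p) c a).mul
    (PB_sub' (PB_SB h c) (PB_cz (H.mo b p) (fun j => h.PBb j) c a) fun y => czB_le h c a y)

lemma PB_smn (H : TM B wr tu fm) (hs : gst B p s) (hp : p ≠ 0) :
    PB (su s fun b y => 1 / (p : ℝ) * mnb wr tu fm p b y) :=
  PB_su' (f := fun b y => 1 / (p : ℝ) * mnb wr tu fm p b y) hs.1 fun j =>
    (PB.const (by positivity)).mul (PB_mnb H (hs.2 j) hp)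

/-- the difference of the potential along a step -/
noncomputable def dPhi (B : BM (μ × List (DT Λ κ))) (Q : φ → φ → Prop) (fm : ℕ → μ → ℝ → Λ → φ)
    (p : ℕ) (s : Gs (μ × List (DT Λ κ))) : ℝ :=
  Phi Q fm p s - Phi Q fm p (B.C p s) - Phi Q fm (p - 1) (B.N p s)

lemma Phi_nonneg (H : TM B wr tu fm) {Q : φ → φ → Prop} (hs : gst B p s) : 0 ≤ Phi Q fm p s :=
  I_nonneg fun x => QS_nonneg (fun a => (H.pFg hs a).nonneg x) fun a => (H.pFg hs a).nonneg x

/-- **the sum of the differences** -/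
lemma Kw_dPhi (H : TM B wr tu fm) {Q : φ → φ → Prop} : ∀ (n p : ℕ) (s : Gs (μ × List (DT Λ κ))),
    gst B p s → Kw B (dPhi B Q fm) n p s ≤ Phi Q fm p s := by
  intro n
  induction n with
  | zero => intro p s hs; exact Phi_nonneg H hs
  | succ n ih =>
    intro p s hs
    by_cases hp : p = 0
    · subst hp
      rw [Kw_z]
      exact Phi_nonneg H hs
    rw [Kw_succ _ _ n hp]
    have h1 := ih p _ (gst_C H.cl hs hp)
    have h2 := ih (p - 1) _ (gst_N H.cl hs hp)
    unfold dPhi at h1 h2 ⊢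
    linarith

/-- **the errors of the local link** -/
noncomputable def erf (B : BM (μ × List (DT Λ κ))) (Q : φ → φ → Prop) (wr : ℕ → Λ → κ)
    (tu : ℕ → μ → μ) (fm : ℕ → μ → ℝ → Λ → φ) (m0 : ℝ) (ec : ℕ → Gs (μ × List (DT Λ κ)) → ℝ)
    (p : ℕ) (s : Gs (μ × List (DT Λ κ))) : ℝ :=
  4 * m0 * (dPhi B Q fm p s + I (jmp Q tu fm p s)) + 4 * m0 * (6 + 8 * m0) *
    I (fun y => su s (fun b y => 1 / (p : ℝ) * mnb wr tu fm p b y) y *
      su (B.C p s) (fun b => bt b.2) y) + 2 * ec p s

/-- **THE LOCAL LINK** : `L` = real cost of the group of ties (`I (Σ_i E_i²)`), `A` = costs of the game -/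
theorem loc_of (H : TM B wr tu fm) (hix : ∀ p m x j, pi (fm p m x j) = ix (wr p j))
    {Q : φ → φ → Prop} (hQ : ∀ a b, Q a b → pi a = pi b) (hs : gst B p s) (hp : p ≠ 0)
    (hv : ∀ y a b, Q a b → Ep p (Xg wr tu fm p s a) y * Ep p (Xg wr tu fm p s b) y ≤
      1 / (p : ℝ) * Ep p (fun x => Xg wr tu fm p s a x * Xg wr tu fm p s b x) y)
    {m0 A : ℝ} (hm0 : 1 ≤ m0) (ec : ℕ → Gs (μ × List (DT Λ κ)) → ℝ)
    (hL : I (fun x => ∑ i, EI wr tu fm pi p s i x ^ 2) ≤
      m0 * A + m0 * I (QS Q (Eg wr tu fm p s) (Eg wr tu fm p s)) + ec p s) :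
    I (fun x => ∑ i, EI wr tu fm pi p s i x ^ 2) ≤ 2 * m0 * A + erf B Q wr tu fm m0 ec p s := by
  have hp0 : 0 < p := Nat.pos_of_ne_zero hp
  have h1 := H.step (Q := Q) hs hp hv
  have h2 := I_imq_le H hix hQ hs hp (PB_smn H hs hp) (l := 4 * m0) (by linarith)
  set L := I (fun x => ∑ i, EI wr tu fm pi p s i x ^ 2) with hLdef
  set E := I (QS Q (Eg wr tu fm p s) (Eg wr tu fm p s)) with hE
  set T := I (fun y => su s (fun b y => 1 / (p : ℝ) * mnb wr tu fm p b y) y *
      su (B.C p s) (fun b => bt b.2) y) with hT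
  have nE : 0 ≤ E := I_nonneg fun x =>
    QS_nonneg (fun a => (H.pEg hs hp a).nonneg x) fun a => (H.pEg hs hp a).nonneg x
  -- `E ≤ 2 (dPhi + jmp + imq)`
  have h3 : E ≤ 2 * (dPhi B Q fm p s + I (jmp Q tu fm p s) + I (imq Q wr tu fm p s)) := by
    unfold dPhi
    by_cases h2 : 2 ≤ p
    · have hp2 : (2 : ℝ) ≤ p := by exact_mod_cast h2
      have w2 : (1:ℝ) / p ≤ 1 / 2 := one_div_le_one_div_of_le (by norm_num) hp2
      nlinarith
    · have hp1 : p = 1 := by omega
      subst hp1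
      have e : ∀ a x, Eg wr tu fm 1 s a x = 0 := by
        intro a x
        have e1 : ∀ j, eB (wr 1) 1 (bB 1 (s.L j).2) (oL tu fm 1 (s.L j)) a x = 0 := by
          intro j
          rw [H.no1 (hs.2 j)]
          unfold eB
          rw [hz_eq]
          refine Finset.sum_eq_zero fun c _ => ?_
          have e2 : eg (wr 1) 1 ([] : List (DT Λ κ)) c x = 0 := by
            unfold eg
            have : pG ([] : List (DT Λ κ)) c x = 0 := rfl
            rw [this, mul_zero]
          rw [e2]; simp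
        unfold Eg su
        simp only [e1]
        simp [M]
      have e3 : QS Q (Eg wr tu fm 1 s) (Eg wr tu fm 1 s) = fun _ => 0 := by
        funext x
        unfold QS
        simp [e]
      have e4 : E = 0 := by
        rw [hE, e3]
        unfold I
        simp
      rw [e4] at h1 ⊢
      simp only [mul_zero, zero_add] at h1
      linarith
  have h4 : 1 / (4 * m0) * L = L / (4 * m0) := by ring
  rw [h4] at h2
  have h5 : 2 * m0 * (L / (4 * m0)) = L / 2 := by field_simp; ring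
  unfold erf
  rw [← hT]
  have h6 := mul_le_mul_of_nonneg_left h3 (by linarith : 0 ≤ m0)
  have h7 := mul_le_mul_of_nonneg_left h2 (by linarith : 0 ≤ 2 * m0)
  have h8 : 2 * m0 * ((6 + 2 * (4 * m0)) * T + L / (4 * m0)) =
      2 * m0 * ((6 + 8 * m0) * T) + L / 2 := by
    rw [mul_add, h5]; ring
  rw [h8] at h7
  nlinarith

/-- **THE WALK SUM OF THE ERRORS** -/
theorem her_of (H : TM B wr tu fm) {Q : φ → φ → Prop}
    {ok : ℕ → Gs (μ × List (DT Λ κ)) → Prop} (hg : ∀ {p s}, ok p s → gst B p s)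
    (hC : ∀ {p s}, ok p s → p ≠ 0 → ok p (B.C p s))
    (hN : ∀ {p s}, ok p s → p ≠ 0 → ok (p - 1) (B.N p s))
    {m0 : ℝ} (hm0 : 1 ≤ m0) (ec : ℕ → Gs (μ × List (DT Λ κ)) → ℝ)
    (Qi : BCh B) {J : ℝ} (hJ : 0 < J) (hY : ∀ {p b}, B.ok p b → ∀ x, Qi.Y p b x ≤ J * bt b.2 x)
    (hmn : ∀ {p b}, B.ok p b → p ≠ 0 → ∀ y, 1 / (p : ℝ) * mnb wr tu fm p b y ≤ Qi.yc p b y)
    (n p : ℕ) (s : Gs (μ × List (DT Λ κ))) (hs : ok p s) :
    Kw B (erf B Q wr tu fm m0 ec) n p s ≤
      4 * m0 * (Phi Q fm p s + Kw B (fun p s => I (jmp Q tu fm p s)) n p s) +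
      8 * m0 * (6 + 8 * m0) * J * I (fun x => su s (fun b => bt b.2) x ^ 2) +
      2 * Kw B ec n p s := by
  have e0 : erf B Q wr tu fm m0 ec = fun p s =>
      (4 * m0 * (dPhi B Q fm p s + I (jmp Q tu fm p s)) + 4 * m0 * (6 + 8 * m0) *
    I (fun y => su s (fun b y => 1 / (p : ℝ) * mnb wr tu fm p b y) y *
      su (B.C p s) (fun b => bt b.2) y)) + 2 * ec p s := rfl
  rw [e0, GSK55.Kw_add, GSK55.Kw_smul, GSK55.Kw_add, GSK55.Kw_smul, GSK55.Kw_smul, GSK55.Kw_add]
  have h1 := Kw_dPhi H (Q := Q) n p s (hg hs)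
  have h2 := Kw_bil H Qi hJ hg hC hN hY n p s hs
  have h3 : Kw B (fun p s => I (fun y => su s (fun b y => 1 / (p : ℝ) * mnb wr tu fm p b y) y *
      su (B.C p s) (fun b => bt b.2) y)) n p s ≤
      Kw B (fun p s => I (fun y => su s (Qi.yc p) y * su (B.C p s) (fun b => bt b.2) y)) n p s := by
    refine GSK55.Kw_mono (ok := ok) hC hN (fun {p s} hs hp => ?_) n p s hs
    have g := hg hs
    have gC := gst_C H.cl g hp
    have p1 : PB (su s (Qi.yc p)) := PB_su' g.1 fun j => Qi.pyc (g.2 j) hp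
    have p2 : PB (su (B.C p s) fun b => bt b.2) := PB_su' gC.1 fun j => PB_bt (H.pbl (gC.2 j))
    refine I_mono ((PB_smn H g hp).mul p2).integrableOn (p1.mul p2).integrableOn fun y => ?_
    exact mul_le_mul_of_nonneg_right (M_mono g.1.c0 fun j => hmn (g.2 j) hp y) (p2.nonneg y)
  have k1 := mul_le_mul_of_nonneg_left h1 (by linarith : 0 ≤ 4 * m0)
  have k2 := mul_le_mul_of_nonneg_left (h3.trans h2)
    (mul_nonneg (by linarith : 0 ≤ 4 * m0) (by linarith : 0 ≤ 6 + 8 * m0))
  nlinarith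

end grp

end Crest.Agent.R4P.E3S479
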