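import Crest.Agent.R4P.E3P_479

/-!
R4 (S0004) with powers, T3, helper479 (PLAN v1, D1): **E3 telescopes** (docs 1701 (1), helper603).

* `Ep_pair` : one fibre: `Ep (E E') + Ep F Ep F' ≤ Ep (F F') + Ep X Ep X' + Ep (D (F' + D') + (F + D) D')`
  for `F + D = c + X` on the fibre (`c` constant, `E ≤ X`); `Ep_one_sheet` : `Ep X Ep X' = (1/p) Ep (X X')`.
* `QS Q f g x = Σ_{Q a b} f a x g b x` : energies of related families; `QS_retype` : change of the
  typing of the pieces: the new related pairs are paid by the pair energy `QJ`.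
* families of one bundle of ties and pulls: `fB` (contents by the low families), `eB` (excess lifts),
  `dB`, `uB` (dips and gains of the impure real classes), `cB` (constant part) :
  `fB + dB = cB + (eB + uB)` (`dec`), `mean_fB`.
* **`step`** and **`Kw_tele`** : the walk sum of the energies of the excess lifts of related families is at
  most `2 Φ(root) + 2 Kw (jumps) + 2 Kw (impure part)`.
-/

set_option autoImplicit false
set_option linter.unusedSectionVars false
set_option linter.unusedVariables false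
open MeasureTheory Filter Set

namespace Crest.Agent.R4P.E3T479

open Crest.Agent.R4.Tour104 Crest.Agent.R4.Tour758 Crest.Agent.R4.Avg758 Crest.Agent.R4.Clos758
open Crest.Agent.R4.ClosL758 Crest.Agent.R4.ClosG758 Crest.Agent.R4.ClosR758
open Crest.Agent.R4P.ClosR442 Crest.Agent.R4P.Grp36
open Crest.Agent.R4P.Xfer36 Crest.Agent.R4P.TopC36 Crest.Agent.R4P.PN36
open Crest.Agent.R4P.GMer27 Crest.Agent.R4P.GCol27 Crest.Agent.R4P.GWa343 Crest.Agent.R4P.GWb343
open Crest.Agent.R4P.GWc343 Crest.Agent.R4P.GWd343 Crest.Agent.R4P.TrR343 Crest.Agent.R4P.DTp26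
open Crest.Agent.R4P.RSys343 Crest.Agent.R4P.RXm55 Crest.Agent.R4P.MSm25 Crest.Agent.R4P.MSd343
open Crest.Agent.R4P.VR407 Crest.Agent.R4P.Bp407 Crest.Agent.R4P.DTm407
open Crest.Agent.R4P.GSK55 (stp gk Pr Kw Kw_succ Kw_z one one_TC one_su BC_pos BC_neg)
open Crest.Agent.R4P.PayR45
open Crest.Agent.R4P.E3D479 Crest.Agent.R4P.E3E479 Crest.Agent.R4P.E3P479
open Crest.Agent.R4P.MSi343 (su)
open Crest.Agent.R4P.Walk560 (DT)

/-! ### one fibre -/

section fib

/-- **one fibre, one pair** -/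
lemma Ep_pair {p : ℕ} (hp : 0 < p) {y c c' : ℝ} {F D X E F' D' X' E' : ℝ → ℝ}
    (h : ∀ i < p, F ((y + i) / p) + D ((y + i) / p) = c + X ((y + i) / p))
    (h' : ∀ i < p, F' ((y + i) / p) + D' ((y + i) / p) = c' + X' ((y + i) / p))
    (hc : 0 ≤ c) (hc' : 0 ≤ c') (hF : ∀ x, 0 ≤ F x) (hF' : ∀ x, 0 ≤ F' x) (hD : ∀ x, 0 ≤ D x)
    (hD' : ∀ x, 0 ≤ D' x) (hE : ∀ x, 0 ≤ E x) (hE' : ∀ x, 0 ≤ E' x) (hX : ∀ x, E x ≤ X x)
    (hX' : ∀ x, E' x ≤ X' x) :
    Ep p (fun x => E x * E' x) y + Ep p F y * Ep p F' y ≤ Ep p (fun x => F x * F' x) y +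
      Ep p X y * Ep p X' y + (Ep p (fun x => D x * (F' x + D' x)) y +
      Ep p (fun x => (F x + D x) * D' x) y) := by
  have hp' : (0 : ℝ) < p := by exact_mod_cast hp
  set m : (ℝ → ℝ) → ℝ := fun f => Ep p f y with hm
  have madd : ∀ f g : ℝ → ℝ, m (fun x => f x + g x) = m f + m g := fun f g => by
    simp only [hm, Ep]; rw [Finset.sum_add_distrib, add_div]
  have mono : ∀ f g : ℝ → ℝ, (∀ i < p, f ((y + i) / p) ≤ g ((y + i) / p)) → m f ≤ m g :=
    fun f g hfg => by
      simp only [hm, Ep]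
      exact div_le_div_of_nonneg_right (Finset.sum_le_sum fun i hi =>
        hfg i (Finset.mem_range.1 hi)) hp'.le
  have mcongr : ∀ f g : ℝ → ℝ, (∀ i < p, f ((y + i) / p) = g ((y + i) / p)) → m f = m g :=
    fun f g hfg => le_antisymm (mono _ _ fun i hi => (hfg i hi).le)
      (mono _ _ fun i hi => (hfg i hi).ge)
  have mc : ∀ a : ℝ, m (fun _ => a) = a := fun a => by
    simp only [hm, Ep, Finset.sum_const, Finset.card_range, nsmul_eq_mul]
    field_simp
  have msm : ∀ (a : ℝ) (f : ℝ → ℝ), m (fun x => a * f x) = a * m f := fun a f => by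
    simp only [hm, Ep]; rw [← Finset.mul_sum, mul_div_assoc]
  have mn : ∀ f : ℝ → ℝ, (∀ x, 0 ≤ f x) → 0 ≤ m f := fun f hf => by
    have := mono (fun _ => 0) f fun i _ => hf _
    rwa [mc] at this
  -- means of G = F + D
  have eG : m (fun x => F x + D x) = c + m X := by
    rw [mcongr _ (fun x => (fun _ => c) x + X x) fun i hi => h i hi, madd, mc]
  have eG' : m (fun x => F' x + D' x) = c' + m X' := by
    rw [mcongr _ (fun x => (fun _ => c') x + X' x) fun i hi => h' i hi, madd, mc]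
  have eGG : m (fun x => (F x + D x) * (F' x + D' x)) =
      c * c' + c * m X' + c' * m X + m (fun x => X x * X' x) := by
    rw [mcongr _ (fun x => (fun x => (fun x => (fun _ => c * c') x + (fun x => c * X' x) x) x +
      (fun x => c' * X x) x) x + (fun x => X x * X' x) x) fun i hi => by
        simp only []
        rw [h i hi, h' i hi]; ring]
    rw [madd, madd, madd, mc, msm, msm]
  have eS : m (fun x => (F x + D x) * (F' x + D' x)) ≤ m (fun x => F x * F' x) +
      (m (fun x => D x * (F' x + D' x)) + m (fun x => (F x + D x) * D' x)) := by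
    rw [← madd, ← madd]
    refine mono _ _ fun i _ => ?_
    have := mul_nonneg (hD ((y + i) / p)) (hD' ((y + i) / p))
    nlinarith
  have eF : m F ≤ c + m X := by
    rw [← eG, madd]
    linarith [mn D hD]
  have eF' : m F' ≤ c' + m X' := by
    rw [← eG', madd]
    linarith [mn D' hD']
  have eFF : m F * m F' ≤ (c + m X) * (c' + m X') :=
    mul_le_mul eF eF' (mn F' hF') ((mn F hF).trans eF)
  have eE : m (fun x => E x * E' x) ≤ m (fun x => X x * X' x) := by
    refine mono _ _ fun i _ => ?_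
    exact mul_le_mul (hX _) (hX' _) (hE' _) ((hE _).trans (hX _))
  show m (fun x => E x * E' x) + m F * m F' ≤ m (fun x => F x * F' x) + m X * m X' +
    (m (fun x => D x * (F' x + D' x)) + m (fun x => (F x + D x) * D' x))
  nlinarith

/-- **lifts on one sheet** -/
lemma Ep_one_sheet {p : ℕ} {y : ℝ} {X X' : ℝ → ℝ}
    (h : ∀ i < p, ∀ i' < p, i ≠ i' → X ((y + i) / p) * X' ((y + i') / p) = 0) :
    Ep p X y * Ep p X' y = 1 / (p : ℝ) * Ep p (fun x => X x * X' x) y := by
  unfold Ep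
  have e : (∑ i ∈ Finset.range p, X ((y + (i : ℝ)) / p)) *
      (∑ i ∈ Finset.range p, X' ((y + (i : ℝ)) / p)) =
      ∑ i ∈ Finset.range p, X ((y + (i : ℝ)) / p) * X' ((y + (i : ℝ)) / p) := by
    rw [Finset.sum_mul_sum]
    refine Finset.sum_congr rfl fun i hi => ?_
    rw [Finset.sum_eq_single i]
    · intro i' hi' hne
      exact h i (Finset.mem_range.1 hi) i' (Finset.mem_range.1 hi') hne.symm
    · intro hn; exact absurd hi hn
  rw [div_mul_div_comm, e]
  by_cases hp : (p : ℝ) = 0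
  · simp [hp]
  · field_simp

end fib

/-! ### energies of related families -/

section qs
variable {φ : Type} [Fintype φ] [DecidableEq φ]

open Classical in
/-- energy of the related families -/
noncomputable def QS (Q : φ → φ → Prop) (f g : φ → ℝ → ℝ) (x : ℝ) : ℝ :=
  ∑ a, ∑ b, if Q a b then f a x * g b x else 0

lemma QS_mono {Q : φ → φ → Prop} {f g f' g' : φ → ℝ → ℝ} {x : ℝ} (hf : ∀ a, 0 ≤ f a x)
    (hg : ∀ a, 0 ≤ g a x) (h : ∀ a, f a x ≤ f' a x) (h' : ∀ a, g a x ≤ g' a x) :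
    QS Q f g x ≤ QS Q f' g' x := by
  classical
  refine Finset.sum_le_sum fun a _ => Finset.sum_le_sum fun b _ => ?_
  split_ifs
  · exact mul_le_mul (h a) (h' b) (hg b) ((hf a).trans (h a))
  · exact le_rfl

lemma QS_nonneg {Q : φ → φ → Prop} {f g : φ → ℝ → ℝ} {x : ℝ} (hf : ∀ a, 0 ≤ f a x)
    (hg : ∀ a, 0 ≤ g a x) : 0 ≤ QS Q f g x := by
  classical
  refine Finset.sum_nonneg fun a _ => Finset.sum_nonneg fun b _ => ?_
  split_ifs
  · exact mul_nonneg (hf a) (hg b)
  · exact le_rfl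

/-- superadditivity -/
lemma QS_add {Q : φ → φ → Prop} {f g h : φ → ℝ → ℝ} {x : ℝ} (hf : ∀ a, 0 ≤ f a x)
    (hg : ∀ a, 0 ≤ g a x) (hh : ∀ a, f a x + g a x ≤ h a x) :
    QS Q f f x + QS Q g g x ≤ QS Q h h x := by
  classical
  unfold QS
  rw [← Finset.sum_add_distrib]
  refine Finset.sum_le_sum fun a _ => ?_
  rw [← Finset.sum_add_distrib]
  refine Finset.sum_le_sum fun b _ => ?_
  split_ifs
  · have h1 := mul_le_mul (hh a) (hh b) (add_nonneg (hf b) (hg b))
      ((add_nonneg (hf a) (hg a)).trans (hh a))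
    have h2 := mul_nonneg (hf a) (hg b)
    have h3 := mul_nonneg (hg a) (hf b)
    nlinarith
  · simp

lemma PB_QS {Q : φ → φ → Prop} {f g : φ → ℝ → ℝ} (hf : ∀ a, PB (f a)) (hg : ∀ a, PB (g a)) :
    PB (QS Q f g) := by
  classical
  refine PB.sum _ fun a _ => PB.sum _ fun b _ => ?_
  by_cases h : Q a b
  · simp only [if_pos h]; exact (hf a).mul (hg b)
  · simp only [if_neg h]; exact PB.const le_rfl

lemma Ep_QS (Q : φ → φ → Prop) (f g : φ → ℝ → ℝ) (p : ℕ) (y : ℝ) : Ep p (QS Q f g) y =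
    by classical exact ∑ a, ∑ b, if Q a b then Ep p (fun x => f a x * g b x) y else 0 := by
  classical
  have e : QS Q f g = fun x => ∑ a, ∑ b, if Q a b then f a x * g b x else 0 := rfl
  rw [e, PayR45.Ep_sum']
  refine Finset.sum_congr rfl fun a _ => ?_
  rw [PayR45.Ep_sum']
  refine Finset.sum_congr rfl fun b _ => ?_
  by_cases h : Q a b
  · simp only [if_pos h]
  · simp only [if_neg h]
    unfold Ep; simp

open Classical in
/-- **energy of the new related pairs** : families `(old, new)` -/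
noncomputable def QJ (Q : φ → φ → Prop) (f : φ × φ → ℝ → ℝ) (x : ℝ) : ℝ :=
  ∑ u, ∑ v, if Q u.2 v.2 ∧ ¬ Q u.1 v.1 then f u x * f v x else 0

lemma PB_QJ {Q : φ → φ → Prop} {f : φ × φ → ℝ → ℝ} (hf : ∀ u, PB (f u)) : PB (QJ Q f) := by
  classical
  refine PB.sum _ fun u _ => PB.sum _ fun v _ => ?_
  by_cases h : Q u.2 v.2 ∧ ¬ Q u.1 v.1
  · simp only [if_pos h]; exact (hf u).mul (hf v)
  · simp only [if_neg h]; exact PB.const le_rfl

/-- **change of the families** -/
lemma QS_retype {Q : φ → φ → Prop} {f : φ × φ → ℝ → ℝ} {x : ℝ} (hf : ∀ u, 0 ≤ f u x) :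
    QS Q (fun b x => ∑ a, f (a, b) x) (fun b x => ∑ a, f (a, b) x) x ≤
      QS Q (fun a x => ∑ b, f (a, b) x) (fun a x => ∑ b, f (a, b) x) x + QJ Q f x := by
  classical
  have e1 : QS Q (fun b x => ∑ a, f (a, b) x) (fun b x => ∑ a, f (a, b) x) x =
      ∑ u : φ × φ, ∑ v : φ × φ, if Q u.2 v.2 then f u x * f v x else 0 := by
    unfold QS
    rw [Fintype.sum_prod_type_right (f := fun u : φ × φ => ∑ v : φ × φ,
      if Q u.2 v.2 then f u x * f v x else 0)]
    refine Finset.sum_congr rfl fun b _ => ?_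
    have e2 : ∀ a, (∑ v : φ × φ, if Q (a, b).2 v.2 then f (a, b) x * f v x else 0) =
        ∑ b', ∑ a', if Q b b' then f (a, b) x * f (a', b') x else 0 := fun a =>
      Fintype.sum_prod_type_right (f := fun v : φ × φ => if Q b v.2 then f (a, b) x * f v x else 0)
    simp only [e2]
    rw [Finset.sum_comm]
    refine Finset.sum_congr rfl fun b' _ => ?_
    by_cases h : Q b b'
    · simp only [if_pos h]
      rw [Finset.sum_mul_sum]
    · simp [h]
  have e1' : QS Q (fun a x => ∑ b, f (a, b) x) (fun a x => ∑ b, f (a, b) x) x =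
      ∑ u : φ × φ, ∑ v : φ × φ, if Q u.1 v.1 then f u x * f v x else 0 := by
    unfold QS
    rw [Fintype.sum_prod_type (f := fun u : φ × φ => ∑ v : φ × φ,
      if Q u.1 v.1 then f u x * f v x else 0)]
    refine Finset.sum_congr rfl fun a _ => ?_
    have e2 : ∀ b, (∑ v : φ × φ, if Q (a, b).1 v.1 then f (a, b) x * f v x else 0) =
        ∑ a', ∑ b', if Q a a' then f (a, b) x * f (a', b') x else 0 := fun b =>
      Fintype.sum_prod_type (f := fun v : φ × φ => if Q a v.1 then f (a, b) x * f v x else 0)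
    simp only [e2]
    rw [Finset.sum_comm]
    refine Finset.sum_congr rfl fun a' _ => ?_
    by_cases h : Q a a'
    · simp only [if_pos h]
      rw [Finset.sum_mul_sum]
    · simp [h]
  rw [e1, e1']
  unfold QJ
  rw [← Finset.sum_add_distrib]
  refine Finset.sum_le_sum fun u _ => ?_
  rw [← Finset.sum_add_distrib]
  refine Finset.sum_le_sum fun v _ => ?_
  have n := mul_nonneg (hf u) (hf v)
  by_cases h2 : Q u.2 v.2
  · by_cases h1 : Q u.1 v.1
    · simp [h1, h2]
    · simp [h1, h2]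
  · by_cases h1 : Q u.1 v.1
    · simp only [h1, h2, if_true, if_false, false_and, add_zero]; exact n
    · simp [h1, h2]

end qs

/-! ### families of one bundle of ties and pulls -/

section fam
variable {Λ κ φ : Type} [Fintype Λ] [DecidableEq Λ] [Fintype κ] [DecidableEq κ]
  [Fintype φ] [DecidableEq φ]

/-- contents of the low families above the ties and pulls -/
noncomputable def fB (p : ℕ) (K : List (DT Λ κ)) (o : ℝ → Λ → φ) (a : φ) (x : ℝ) : ℝ :=
  hz (fun x => o (p * x)) (jv K) a x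
/-- excess lifts of the low families -/
noncomputable def eB (kd : Λ → κ) (p : ℕ) (K : List (DT Λ κ)) (o : ℝ → Λ → φ) (a : φ) (x : ℝ) : ℝ :=
  hz (fun x => o (p * x)) (eg kd p K) a x
/-- dips of the impure real classes -/
noncomputable def dB (kd : Λ → κ) (p : ℕ) (K : List (DT Λ κ)) (o : ℝ → Λ → φ) (a : φ) (x : ℝ) : ℝ :=
  ∑ c, bf kd K c (p * x) * (cz kd o (pA K) c a (p * x) / SA kd K c (p * x)) *
    (SG kd K c x - cz kd (fun x => o (p * x)) (pG K) c a x)
/-- gains of the impure real classes -/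
noncomputable def uB (kd : Λ → κ) (p : ℕ) (K : List (DT Λ κ)) (o : ℝ → Λ → φ) (a : φ) (x : ℝ) : ℝ :=
  ∑ c, bf kd K c (p * x) * cz kd (fun x => o (p * x)) (pG K) c a x *
    (1 - cz kd o (pA K) c a (p * x) / SA kd K c (p * x))
/-- constant part -/
noncomputable def cB (kd : Λ → κ) (p : ℕ) (K : List (DT Λ κ)) (o : ℝ → Λ → φ) (a : φ) (y : ℝ) : ℝ :=
  (1 - 1 / (p : ℝ)) * hz o (pA K) a y +
    1 / (p : ℝ) * ∑ c, al kd K c y * cz kd o (pA K) c a y + hz o (pQ K) a y

variable {kd : Λ → κ} {p : ℕ} {K : List (DT Λ κ)} {o : ℝ → Λ → φ}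

/-- **the decomposition** -/
lemma dec (h : KOk kd p K) (o : ℝ → Λ → φ) (a : φ) (x : ℝ) :
    fB p K o a x + dB kd p K o a x = cB kd p K o a (p * x) + (eB kd p K o a x + uB kd p K o a x) := by
  unfold fB dB cB eB uB
  rw [← sum_cz' kd (fun x => o (p * x)) (jv K) a x, ← sum_cz' kd (fun x => o (p * x)) (eg kd p K) a x,
    ← sum_cz' kd o (pA K) a (p * x), ← sum_cz' kd o (pQ K) a (p * x)]
  rw [Finset.mul_sum, Finset.mul_sum, ← Finset.sum_add_distrib, ← Finset.sum_add_distrib,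
    ← Finset.sum_add_distrib, ← Finset.sum_add_distrib, ← Finset.sum_add_distrib]
  refine Finset.sum_congr rfl fun c _ => ?_
  rw [cz_jv h o c a x, cz_eg (kd := kd) (p := p) (K := K) (fun x => o (p * x)) c a x]
  ring

lemma frac_nonneg (h : KOk kd p K) (c : κ) (a : φ) (y : ℝ) :
    0 ≤ cz kd o (pA K) c a y / SA kd K c y :=
  div_nonneg (cz_nonneg (fun j => (h.PA j).nonneg y) c a) (SA0 h c y)

lemma frac_le_one (h : KOk kd p K) (c : κ) (a : φ) (y : ℝ) :
    cz kd o (pA K) c a y / SA kd K c y ≤ 1 :=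
  div_le_one_of_le₀ (cz_le_sm (fun j => (h.PA j).nonneg y) c a) (SA0 h c y)

lemma PB_frac (h : KOk kd p K) (ho : ∀ j, MP fun y => o y j) (c : κ) (a : φ) :
    PB fun y => cz kd o (pA K) c a y / SA kd K c y := by
  refine ⟨(PB_cz ho (fun j => h.PA j) c a).meas.div (PB_SA h c).meas, fun y => frac_nonneg h c a y,
    ⟨1, fun y => frac_le_one h c a y⟩, fun y => ?_⟩
  show cz kd o (pA K) c a (y + 1) / SA kd K c (y + 1) = _
  rw [(PB_cz ho (fun j => h.PA j) c a).per, (PB_SA h c).per]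

lemma PB_sub' {f g : ℝ → ℝ} (hf : PB f) (hg : PB g) (h : ∀ x, g x ≤ f x) :
    PB fun x => f x - g x := ModeS16.PB_sub hf hg h

lemma PB_one_sub {f : ℝ → ℝ} (hf : PB f) (h : ∀ x, f x ≤ 1) : PB fun x => 1 - f x :=
  PB_sub' (PB.const zero_le_one) hf h

lemma czG_le (c : κ) (a : φ) (x : ℝ) :
    cz kd (fun x => o (p * x)) (pG K) c a x ≤ SG kd K c x :=
  cz_le_sm (fun j => (PB_pG K j).nonneg x) c a

lemma PB_fB (h : KOk kd p K) (hb : PBL K) (ho : ∀ j, MP fun y => o y j) (a : φ) :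
    PB (fB p K o a) := PB_hz (fun j => (ho j).pull p) (fun j => PB_jv hb j) a

lemma PB_eB (h : KOk kd p K) (ho : ∀ j, MP fun y => o y j) (a : φ) : PB (eB kd p K o a) :=
  PB_hz (fun j => (ho j).pull p) (fun j => PB_eg h j) a

lemma PB_czG (ho : ∀ j, MP fun y => o y j) (c : κ) (a : φ) :
    PB (cz kd (fun x => o (p * x)) (pG K) c a) :=
  PB_cz (fun j => (ho j).pull p) (fun j => PB_pG K j) c a

lemma PB_dB (h : KOk kd p K) (ho : ∀ j, MP fun y => o y j) (a : φ) : PB (dB kd p K o a) := by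
  refine PB.sum _ fun c _ => ?_
  exact (((PB_bf h c).pull p).mul ((PB_frac h ho c a).pull p)).mul
    (PB_sub' (PB_SG K c) (PB_czG ho c a) fun x => czG_le c a x)

lemma PB_uB (h : KOk kd p K) (ho : ∀ j, MP fun y => o y j) (a : φ) : PB (uB kd p K o a) := by
  refine PB.sum _ fun c _ => ?_
  exact (((PB_bf h c).pull p).mul (PB_czG ho c a)).mul
    (PB_one_sub ((PB_frac h ho c a).pull p) fun x => frac_le_one h c a _)

lemma PB_cB (h : KOk kd p K) (hp : 0 < p) (ho : ∀ j, MP fun y => o y j) (a : φ) :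
    PB (cB kd p K o a) := by
  have hp1 : (1 : ℝ) ≤ p := by exact_mod_cast hp
  have w0 : (0:ℝ) ≤ 1 / p := by positivity
  have w1 : (0:ℝ) ≤ 1 - 1 / p := by
    have : (1:ℝ) / p ≤ 1 := by rw [div_le_one (by linarith)]; exact hp1
    linarith
  have h1 : PB fun y => (1 - 1 / (p : ℝ)) * hz o (pA K) a y :=
    (PB.const w1).mul (PB_hz ho (fun j => h.PA j) a)
  have h2 : PB fun y => ∑ c, al kd K c y * cz kd o (pA K) c a y :=
    PB.sum _ fun c _ => (PB_al h c).mul (PB_cz ho (fun j => h.PA j) c a)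
  have h3 : PB fun y => 1 / (p : ℝ) * ∑ c, al kd K c y * cz kd o (pA K) c a y :=
    (PB.const w0).mul h2
  exact (h1.add h3).add (PB_hz ho (fun j => h.PQ j) a)

/-- **the mean of a piece over the fibre** -/
lemma mean_jv (h : KOk kd p K) (hp : 0 < p) (j : Λ) (y : ℝ) :
    Ep p (jv K j) y = (1 - 1 / (p : ℝ)) * jv (K.map chP) j y +
      1 / (p : ℝ) * jv (K.map chN) j y := by
  have hp' : (p : ℝ) ≠ 0 := by exact_mod_cast hp.ne'
  rw [jv_chP h, jv_chN h]
  have e0 : ∀ i ∈ Finset.range p, jv K j ((y + (i : ℝ)) / p) =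
      ((1 - 1 / (p : ℝ)) * pA K j y + 1 / (p : ℝ) * (al kd K (kd j) y * pA K j y) + pQ K j y) +
        pG K j ((y + (i : ℝ)) / p) - pA K j y / SA kd K (kd j) y * bf kd K (kd j) y *
        SG kd K (kd j) ((y + (i : ℝ)) / p) := by
    intro i _
    have e1 : (p : ℝ) * ((y + (i : ℝ)) / p) = y + i := by field_simp
    rw [(jv_K h j _).1]
    unfold vF
    rw [e1, (h.PA j).per_nat, (h.PQ j).per_nat, (PB_sm (fun j => h.PA j) kd (kd j)).per_nat,
      (PB_sm (fun j => h.PBb j) kd (kd j)).per_nat]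
    unfold al bf SA DTm407.SB SG
    ring
  have e2 : Ep p (jv K j) y = ((1 - 1 / (p : ℝ)) * pA K j y +
      1 / (p : ℝ) * (al kd K (kd j) y * pA K j y) + pQ K j y) + Ep p (pG K j) y -
      pA K j y / SA kd K (kd j) y * bf kd K (kd j) y * Ep p (SG kd K (kd j)) y := by
    unfold Ep
    rw [Finset.sum_congr rfl e0, Finset.sum_sub_distrib, Finset.sum_add_distrib,
      Finset.sum_const, Finset.card_range, nsmul_eq_mul, ← Finset.mul_sum]
    field_simp
  have e9 : ∀ i, Ep p (pG K i) y = 1 / (p : ℝ) * pB K i y := fun i => by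
    unfold Ep
    rw [lift_pG h i y]; ring
  have e3 := e9 j
  have e4 : Ep p (SG kd K (kd j)) y = 1 / (p : ℝ) * DTm407.SB kd K (kd j) y := by
    have e5 : SG kd K (kd j) = fun x => ∑ i, if kd i = kd j then pG K i x else 0 :=
      funext fun x => sm_eq _ _ _ _
    rw [e5, PayR45.Ep_sum']
    unfold DTm407.SB
    rw [sm_eq, Finset.mul_sum]
    refine Finset.sum_congr rfl fun i _ => ?_
    by_cases hi : kd i = kd j
    · simp only [if_pos hi]
      exact e9 i
    · simp only [if_neg hi]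
      unfold Ep; simp
  rw [e2, e3, e4]
  have e6 := al_mul h (kd j) y
  have e7 := bf_mul h (kd j) y
  by_cases h0 : SA kd K (kd j) y = 0
  · have hA : pA K j y = 0 := sm_congr0 (fun j => (h.PA j).nonneg y) h0
    rw [hA]; ring
  · have e8 : pA K j y / SA kd K (kd j) y * bf kd K (kd j) y * (1 / (p : ℝ) * DTm407.SB kd K (kd j) y) =
        pA K j y / SA kd K (kd j) y * (1 / (p : ℝ)) * (al kd K (kd j) y * SA kd K (kd j) y) := by
      rw [e6, ← e7]; ring
    rw [e8]
    field_simp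
    ring

/-- **the mean of a family over the fibre** -/
lemma mean_fB (h : KOk kd p K) (hp : 0 < p) (ho : ∀ j, MP fun y => o y j) (a : φ) (y : ℝ) :
    Ep p (fB p K o a) y = (1 - 1 / (p : ℝ)) * hz o (jv (K.map chP)) a y +
      1 / (p : ℝ) * hz o (jv (K.map chN)) a y := by
  have hp' : (p : ℝ) ≠ 0 := by exact_mod_cast hp.ne'
  have e1 : Ep p (fB p K o a) y = hz o (fun j _ => Ep p (jv K j) y) a y := by
    have e2 := Ep_hz (p := p) (τ := fun x => o (p * x)) (V := jv K) (y := y) (k := o y)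
      (fun i _ c _ => by
        have e1 : (p : ℝ) * ((y + (i : ℝ)) / p) = y + i := by field_simp
        show o (p * ((y + (i : ℝ)) / p)) c = o y c
        rw [e1, (ho c).per_nat]) a
    exact e2
  rw [e1, ← hz_smul, ← hz_smul, ← hz_add]
  exact hz_congr (fun j => mean_jv h hp j y) (fun _ _ => rfl) _

end fam

/-! ### the group states -/

section grp
variable {μ Λ κ φ : Type} [Fintype Λ] [DecidableEq Λ] [Fintype κ] [DecidableEq κ]
  [Fintype φ] [DecidableEq φ]

/-- bundle maps with memories, and families `fm` of the pieces (column, memory, point) -/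
structure TM (B : BM (μ × List (DT Λ κ))) (wr : ℕ → Λ → κ) (tu : ℕ → μ → μ)
    (fm : ℕ → μ → ℝ → Λ → φ) : Prop where
  cl : Cl B
  eP : ∀ {p b}, B.ok p b → p ≠ 0 → B.cP p b = (tu p b.1, (bB p b.2).map chP)
  eN : ∀ {p b}, B.ok p b → p ≠ 0 → B.cN p b = (tu p b.1, (bB p b.2).map chN)
  eR : ∀ {p b}, B.ok p b → p ≠ 0 → B.rN p b = (b.1, bN p b.2)
  kok : ∀ {p b}, B.ok p b → p ≠ 0 → KOk (wr p) p (bB p b.2)
  pba : ∀ {p b}, B.ok p b → PBA b.2
  no1 : ∀ {b : μ × List (DT Λ κ)}, B.ok 1 b → bB 1 b.2 = []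
  mp : ∀ p m j, MP fun x => fm p m x j

variable {B : BM (μ × List (DT Λ κ))} {wr : ℕ → Λ → κ} {tu : ℕ → μ → μ}
  {fm : ℕ → μ → ℝ → Λ → φ} {p : ℕ} {s : Gs (μ × List (DT Λ κ))} {b : μ × List (DT Λ κ)}

/-- contents of the families of a bundle -/
noncomputable def vf (fm : ℕ → μ → ℝ → Λ → φ) (p : ℕ) (b : μ × List (DT Λ κ)) (a : φ) : ℝ → ℝ :=
  hz (fm p b.1) (jv b.2) a

/-- low families -/
def oL (tu : ℕ → μ → μ) (fm : ℕ → μ → ℝ → Λ → φ) (p : ℕ) (b : μ × List (DT Λ κ)) : ℝ → Λ → φ :=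
  fm p (tu p b.1)

/-- group contents of the families -/
noncomputable def Fg (fm : ℕ → μ → ℝ → Λ → φ) (p : ℕ) (s : Gs (μ × List (DT Λ κ))) (a : φ) : ℝ → ℝ :=
  su s fun b => vf fm p b a
/-- group excess lifts of the low families -/
noncomputable def Eg (wr : ℕ → Λ → κ) (tu : ℕ → μ → μ) (fm : ℕ → μ → ℝ → Λ → φ) (p : ℕ)
    (s : Gs (μ × List (DT Λ κ))) (a : φ) : ℝ → ℝ :=
  su s fun b => eB (wr p) p (bB p b.2) (oL tu fm p b) a
/-- group contents of the ties and pulls by the low families -/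
noncomputable def Bg (tu : ℕ → μ → μ) (fm : ℕ → μ → ℝ → Λ → φ) (p : ℕ)
    (s : Gs (μ × List (DT Λ κ))) (a : φ) : ℝ → ℝ :=
  su s fun b => fB p (bB p b.2) (oL tu fm p b) a
/-- group dips -/
noncomputable def Dg (wr : ℕ → Λ → κ) (tu : ℕ → μ → μ) (fm : ℕ → μ → ℝ → Λ → φ) (p : ℕ)
    (s : Gs (μ × List (DT Λ κ))) (a : φ) : ℝ → ℝ :=
  su s fun b => dB (wr p) p (bB p b.2) (oL tu fm p b) a
/-- group lifts with the gains -/
noncomputable def Xg (wr : ℕ → Λ → κ) (tu : ℕ → μ → μ) (fm : ℕ → μ → ℝ → Λ → φ) (p : ℕ)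
    (s : Gs (μ × List (DT Λ κ))) (a : φ) : ℝ → ℝ :=
  su s fun b x => eB (wr p) p (bB p b.2) (oL tu fm p b) a x + uB (wr p) p (bB p b.2) (oL tu fm p b) a x

/-- **the potential** -/
noncomputable def Phi (Q : φ → φ → Prop) (fm : ℕ → μ → ℝ → Λ → φ) (p : ℕ)
    (s : Gs (μ × List (DT Λ κ))) : ℝ := I (QS Q (Fg fm p s) (Fg fm p s))

/-- contents by pairs (family at the point, low family) of the ties and pulls -/
noncomputable def BB (tu : ℕ → μ → μ) (fm : ℕ → μ → ℝ → Λ → φ) (p : ℕ)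
    (s : Gs (μ × List (DT Λ κ))) (u : φ × φ) : ℝ → ℝ :=
  su s fun b => hz (fun x j => (fm p b.1 x j, oL tu fm p b (p * x) j)) (jv (bB p b.2)) u
/-- contents by pairs (family, family at the next column) of the rest -/
noncomputable def NN (fm : ℕ → μ → ℝ → Λ → φ) (p : ℕ)
    (s : Gs (μ × List (DT Λ κ))) (u : φ × φ) : ℝ → ℝ :=
  su s fun b => hz (fun x j => (fm p b.1 x j, fm (p - 1) b.1 x j)) (jv (bN p b.2)) u

/-- **jumps**: energy of the pairs which are related below and not above -/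
noncomputable def jmp (Q : φ → φ → Prop) (tu : ℕ → μ → μ) (fm : ℕ → μ → ℝ → Λ → φ) (p : ℕ)
    (s : Gs (μ × List (DT Λ κ))) (x : ℝ) : ℝ := QJ Q (BB tu fm p s) x + QJ Q (NN fm p s) x

/-- **impure part** -/
noncomputable def imq (Q : φ → φ → Prop) (wr : ℕ → Λ → κ) (tu : ℕ → μ → μ)
    (fm : ℕ → μ → ℝ → Λ → φ) (p : ℕ) (s : Gs (μ × List (DT Λ κ))) (x : ℝ) : ℝ :=
  QS Q (Dg wr tu fm p s) (fun a x => Bg tu fm p s a x + Dg wr tu fm p s a x) x +
    QS Q (fun a x => Bg tu fm p s a x + Dg wr tu fm p s a x) (Dg wr tu fm p s) x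

variable (H : TM B wr tu fm)

include H

lemma TM.mo (b : μ × List (DT Λ κ)) (p : ℕ) (j : Λ) : MP fun y => oL tu fm p b y j :=
  H.mp p (tu p b.1) j

lemma TM.pbl (hb : B.ok p b) : PBL b.2 := fun t ht => (H.pba hb t ht).self

lemma TM.pbB (hb : B.ok p b) : PBL (bB p b.2) := ((H.pba hb).bB p).self

lemma TM.pbN (hb : B.ok p b) : PBL (bN p b.2) := ((H.pba hb).bN p).self

lemma TM.pFg (hs : gst B p s) (a : φ) : PB (Fg fm p s a) :=
  PB_su' hs.1 fun j => PB_hz (H.mp p _) (fun i => PB_jv (H.pbl (hs.2 j)) i) a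

lemma TM.pEg (hs : gst B p s) (hp : p ≠ 0) (a : φ) : PB (Eg wr tu fm p s a) :=
  PB_su' (f := fun b => eB (wr p) p (bB p b.2) (oL tu fm p b) a) hs.1
    fun j => PB_eB (H.kok (hs.2 j) hp) (H.mo _ p) a

lemma TM.pBg (hs : gst B p s) (hp : p ≠ 0) (a : φ) : PB (Bg tu fm p s a) :=
  PB_su' (f := fun b => fB p (bB p b.2) (oL tu fm p b) a) hs.1
    fun j => PB_fB (H.kok (hs.2 j) hp) (H.pbB (hs.2 j)) (H.mo _ p) a

lemma TM.pDg (hs : gst B p s) (hp : p ≠ 0) (a : φ) : PB (Dg wr tu fm p s a) :=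
  PB_su' (f := fun b => dB (wr p) p (bB p b.2) (oL tu fm p b) a) hs.1
    fun j => PB_dB (H.kok (hs.2 j) hp) (H.mo _ p) a

lemma TM.pXg (hs : gst B p s) (hp : p ≠ 0) (a : φ) : PB (Xg wr tu fm p s a) :=
  PB_su' (f := fun b x => eB (wr p) p (bB p b.2) (oL tu fm p b) a x +
    uB (wr p) p (bB p b.2) (oL tu fm p b) a x) hs.1
    fun j => (PB_eB (H.kok (hs.2 j) hp) (H.mo _ p) a).add (PB_uB (H.kok (hs.2 j) hp) (H.mo _ p) a)

lemma TM.pBB (hs : gst B p s) (u : φ × φ) : PB (BB tu fm p s u) :=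
  PB_su' (f := fun b => hz (fun x j => (fm p b.1 x j, oL tu fm p b (p * x) j)) (jv (bB p b.2)) u)
    hs.1 fun j => PB_hz (fun i => (H.mp p _ i).prod ((H.mo _ p i).pull p))
      (fun i => PB_jv (H.pbB (hs.2 j)) i) u

lemma TM.pNN (hs : gst B p s) (u : φ × φ) : PB (NN fm p s u) :=
  PB_su' (f := fun b => hz (fun x j => (fm p b.1 x j, fm (p - 1) b.1 x j)) (jv (bN p b.2)) u)
    hs.1 fun j => PB_hz (fun i => (H.mp p _ i).prod (H.mp (p - 1) _ i))
      (fun i => PB_jv (H.pbN (hs.2 j)) i) u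

/-- the children state -/
lemma TM.Fg_C (hs : gst B p s) (hp : p ≠ 0) (a : φ) (y : ℝ) :
    Fg fm p (B.C p s) a y ≤ Ep p (Bg tu fm p s a) y := by
  have hp0 : 0 < p := Nat.pos_of_ne_zero hp
  have h1 : p = 1 → ∀ j, vf fm p (B.cP p (s.L j)) a y = 0 := by
    intro e j
    have hb := hs.2 j
    have e1 := H.eP hb hp
    subst e
    have e2 := H.no1 hb
    rw [e1, e2]
    show hz _ (jv []) a y = 0
    rw [hz_eq]
    exact Finset.sum_eq_zero fun c _ => by simp
  have h1' : p = 1 → ∀ j, 0 ≤ vf fm p (B.cN p (s.L j)) a y := by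
    intro _ j
    have := H.cl.N (hs.2 j) hp
    exact hz_nonneg (fun c => (PB_jv (H.pbl this) c).nonneg y) a
  refine (su_C (B := B) (s := s) hp (fun b => vf fm p b a) y h1 h1' hs.1.c0).trans (le_of_eq ?_)
  unfold Bg
  rw [Ep_su']
  congr 1
  funext j
  have hb := hs.2 j
  rw [mean_fB (H.kok hb hp) hp0 (H.mo _ p), H.eP hb hp, H.eN hb hp]
  rfl

/-- **one step at a tie** -/
theorem TM.tie {Q : φ → φ → Prop} (hs : gst B p s) (hp : p ≠ 0) (y : ℝ)
    (hv : ∀ a b, Q a b → Ep p (Xg wr tu fm p s a) y * Ep p (Xg wr tu fm p s b) y ≤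
      1 / (p : ℝ) * Ep p (fun x => Xg wr tu fm p s a x * Xg wr tu fm p s b x) y) :
    (1 - 1 / (p : ℝ)) * Ep p (QS Q (Eg wr tu fm p s) (Eg wr tu fm p s)) y +
      QS Q (Fg fm p (B.C p s)) (Fg fm p (B.C p s)) y ≤
      Ep p (QS Q (Bg tu fm p s) (Bg tu fm p s)) y + Ep p (imq Q wr tu fm p s) y := by
  classical
  have hp0 : 0 < p := Nat.pos_of_ne_zero hp
  have hp1 : (1 : ℝ) ≤ p := by exact_mod_cast hp0
  have w1 : (0:ℝ) ≤ 1 - 1 / p := by
    have : (1:ℝ) / p ≤ 1 := by rw [div_le_one (by linarith)]; exact hp1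
    linarith
  have c0 := hs.1.c0
  have nF : ∀ a x, 0 ≤ Bg tu fm p s a x := fun a => (H.pBg hs hp a).nonneg
  have nD : ∀ a x, 0 ≤ Dg wr tu fm p s a x := fun a => (H.pDg hs hp a).nonneg
  have nX : ∀ a x, 0 ≤ Xg wr tu fm p s a x := fun a => (H.pXg hs hp a).nonneg
  have nE : ∀ a x, 0 ≤ Eg wr tu fm p s a x := fun a => (H.pEg hs hp a).nonneg
  have hEX : ∀ a x, Eg wr tu fm p s a x ≤ Xg wr tu fm p s a x := fun a x =>
    M_mono c0 fun j => by
      have := (PB_uB (H.kok (hs.2 j) hp) (H.mo (s.L j) p) a).nonneg x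
      show eB (wr p) p (bB p (s.L j).2) (oL tu fm p (s.L j)) a x ≤
        eB (wr p) p (bB p (s.L j).2) (oL tu fm p (s.L j)) a x +
        uB (wr p) p (bB p (s.L j).2) (oL tu fm p (s.L j)) a x
      linarith
  -- the constant parts
  have hdec : ∀ a, ∀ i < p, Bg tu fm p s a ((y + i) / p) + Dg wr tu fm p s a ((y + i) / p) =
      (M s.c fun j => cB (wr p) p (bB p (s.L j).2) (oL tu fm p (s.L j)) a y) +
        Xg wr tu fm p s a ((y + i) / p) := by
    intro a i _
    have e1 : (p : ℝ) * ((y + (i : ℝ)) / p) = y + i := by field_simp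
    unfold Bg Dg Xg su
    rw [← M_add, ← M_add]
    congr 1
    funext j
    have e2 := dec (H.kok (hs.2 j) hp) (oL tu fm p (s.L j)) a ((y + (i : ℝ)) / p)
    rw [e1, (PB_cB (H.kok (hs.2 j) hp) hp0 (H.mo (s.L j) p) a).per_nat] at e2
    exact e2
  have hc : ∀ a, 0 ≤ M s.c fun j => cB (wr p) p (bB p (s.L j).2) (oL tu fm p (s.L j)) a y := fun a =>
    M_nonneg c0 fun j => (PB_cB (H.kok (hs.2 j) hp) hp0 (H.mo (s.L j) p) a).nonneg y
  -- one pair
  have pair : ∀ a b, Q a b → (1 - 1 / (p : ℝ)) * Ep p (fun x => Eg wr tu fm p s a x *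
      Eg wr tu fm p s b x) y + Fg fm p (B.C p s) a y * Fg fm p (B.C p s) b y ≤
      Ep p (fun x => Bg tu fm p s a x * Bg tu fm p s b x) y +
      (Ep p (fun x => Dg wr tu fm p s a x * (Bg tu fm p s b x + Dg wr tu fm p s b x)) y +
      Ep p (fun x => (Bg tu fm p s a x + Dg wr tu fm p s a x) * Dg wr tu fm p s b x) y) := by
    intro a b hQ
    have h1 := Ep_pair hp0 (hdec a) (hdec b) (hc a) (hc b) (nF a) (nF b) (nD a) (nD b)
      (nX a) (nX b) (fun x => le_rfl) (fun x => le_rfl)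
    have h2 := hv a b hQ
    have h3 : Ep p (fun x => Eg wr tu fm p s a x * Eg wr tu fm p s b x) y ≤
        Ep p (fun x => Xg wr tu fm p s a x * Xg wr tu fm p s b x) y := by
      unfold Ep
      refine div_le_div_of_nonneg_right (Finset.sum_le_sum fun i _ => ?_) (by positivity)
      exact mul_le_mul (hEX a _) (hEX b _) (nE b _) (nX a _)
    have h4 : Fg fm p (B.C p s) a y * Fg fm p (B.C p s) b y ≤
        Ep p (Bg tu fm p s a) y * Ep p (Bg tu fm p s b) y := by
      have hsC := gst_C H.cl hs hp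
      exact mul_le_mul (H.Fg_C hs hp a y) (H.Fg_C hs hp b y) ((H.pFg hsC b).nonneg y)
        (((H.pFg hsC a).nonneg y).trans (H.Fg_C hs hp a y))
    have h5 := mul_le_mul_of_nonneg_left h3 w1
    nlinarith
  have e0 : Ep p (imq Q wr tu fm p s) y =
      Ep p (QS Q (Dg wr tu fm p s) (fun a x => Bg tu fm p s a x + Dg wr tu fm p s a x)) y +
      Ep p (QS Q (fun a x => Bg tu fm p s a x + Dg wr tu fm p s a x) (Dg wr tu fm p s)) y := by
    unfold imq Ep
    rw [Finset.sum_add_distrib, add_div]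
  rw [e0, Ep_QS, Ep_QS, Ep_QS, Ep_QS]
  unfold QS
  rw [Finset.mul_sum, ← Finset.sum_add_distrib, ← Finset.sum_add_distrib,
    ← Finset.sum_add_distrib]
  refine Finset.sum_le_sum fun a _ => ?_
  rw [Finset.mul_sum, ← Finset.sum_add_distrib, ← Finset.sum_add_distrib,
    ← Finset.sum_add_distrib]
  refine Finset.sum_le_sum fun b _ => ?_
  by_cases hQ : Q a b
  · simp only [if_pos hQ]
    exact pair a b hQ
  · simp [hQ]

/-- **one step** -/
theorem TM.step {Q : φ → φ → Prop} (hs : gst B p s) (hp : p ≠ 0)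
    (hv : ∀ y a b, Q a b → Ep p (Xg wr tu fm p s a) y * Ep p (Xg wr tu fm p s b) y ≤
      1 / (p : ℝ) * Ep p (fun x => Xg wr tu fm p s a x * Xg wr tu fm p s b x) y) :
    (1 - 1 / (p : ℝ)) * I (QS Q (Eg wr tu fm p s) (Eg wr tu fm p s)) + Phi Q fm p (B.C p s) +
      Phi Q fm (p - 1) (B.N p s) ≤
      Phi Q fm p s + I (jmp Q tu fm p s) + I (imq Q wr tu fm p s) := by
  have hp0 : 0 < p := Nat.pos_of_ne_zero hp
  have hp1 : (1 : ℝ) ≤ p := by exact_mod_cast hp0
  have w1 : (0:ℝ) ≤ 1 - 1 / p := by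
    have : (1:ℝ) / p ≤ 1 := by rw [div_le_one (by linarith)]; exact hp1
    linarith
  have sC := gst_C H.cl hs hp
  have sN := gst_N H.cl hs hp
  have pE := PB_QS (Q := Q) (H.pEg hs hp) (H.pEg hs hp)
  have pC := PB_QS (Q := Q) (H.pFg sC) (H.pFg sC)
  have pB' := PB_QS (Q := Q) (H.pBg hs hp) (H.pBg hs hp)
  have pF := PB_QS (Q := Q) (H.pFg hs) (H.pFg hs)
  have pN := PB_QS (Q := Q) (H.pFg sN) (H.pFg sN)
  have pI : PB (imq Q wr tu fm p s) :=
    (PB_QS (H.pDg hs hp) fun a => (H.pBg hs hp a).add (H.pDg hs hp a)).add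
      (PB_QS (fun a => (H.pBg hs hp a).add (H.pDg hs hp a)) (H.pDg hs hp))
  have pJ : PB (jmp Q tu fm p s) := (PB_QJ (H.pBB hs)).add (PB_QJ (H.pNN hs))
  -- the ties
  have a1 : (1 - 1 / (p : ℝ)) * I (QS Q (Eg wr tu fm p s) (Eg wr tu fm p s)) +
      Phi Q fm p (B.C p s) ≤ I (QS Q (Bg tu fm p s) (Bg tu fm p s)) + I (imq Q wr tu fm p s) := by
    rw [← I_Ep hp0 pE.integrableOn, ← I_Ep hp0 pB'.integrableOn, ← I_Ep hp0 pI.integrableOn]
    unfold Phi
    have e1 : (1 - 1 / (p : ℝ)) * I (fun x => Ep p (QS Q (Eg wr tu fm p s) (Eg wr tu fm p s)) x) =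
        I (fun x => (1 - 1 / (p : ℝ)) * Ep p (QS Q (Eg wr tu fm p s) (Eg wr tu fm p s)) x) := by
      unfold I
      rw [MeasureTheory.integral_const_mul]
    have e2 : (1 - 1 / (p : ℝ)) * I (Ep p (QS Q (Eg wr tu fm p s) (Eg wr tu fm p s))) =
        I (fun x => (1 - 1 / (p : ℝ)) * Ep p (QS Q (Eg wr tu fm p s) (Eg wr tu fm p s)) x) := e1
    rw [e2]
    have pE1 : PB fun x => (1 - 1 / (p : ℝ)) * Ep p (QS Q (Eg wr tu fm p s) (Eg wr tu fm p s)) x :=
      (PB.const w1).mul (pE.Ep hp0)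
    rw [← I_add pE1.integrableOn pC.integrableOn,
      ← I_add (pB'.Ep hp0).integrableOn (pI.Ep hp0).integrableOn]
    exact I_mono (pE1.add pC).integrableOn ((pB'.Ep hp0).add (pI.Ep hp0)).integrableOn
      fun y => H.tie hs hp y (hv y)
  -- the contents
  have a2 : I (QS Q (Bg tu fm p s) (Bg tu fm p s)) + Phi Q fm (p - 1) (B.N p s) ≤
      Phi Q fm p s + I (jmp Q tu fm p s) := by
    unfold Phi
    rw [← I_add pB'.integrableOn pN.integrableOn, ← I_add pF.integrableOn pJ.integrableOn]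
    refine I_mono (pB'.add pN).integrableOn (pF.add pJ).integrableOn fun x => ?_
    have nBB : ∀ u, 0 ≤ BB tu fm p s u x := fun u => (H.pBB hs u).nonneg x
    have nNN : ∀ u, 0 ≤ NN fm p s u x := fun u => (H.pNN hs u).nonneg x
    have r1 := QS_retype (Q := Q) nBB
    have r2 := QS_retype (Q := Q) nNN
    -- sums over the pairs of families
    have sm2 : ∀ (o o' : ℝ → Λ → φ) (V : Λ → ℝ → ℝ) (b : φ), ∑ a, hz (fun x j => (o x j, o' x j)) V
        (a, b) x = hz o' V b x := by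
      intro o o' V b
      classical
      simp only [hz_eq]
      rw [Finset.sum_comm]
      refine Finset.sum_congr rfl fun j _ => ?_
      by_cases hj : o' x j = b
      · simp [hj]
      · simp [hj]
    have sm1 : ∀ (o o' : ℝ → Λ → φ) (V : Λ → ℝ → ℝ) (a : φ), ∑ b, hz (fun x j => (o x j, o' x j)) V
        (a, b) x = hz o V a x := by
      intro o o' V a
      classical
      simp only [hz_eq]
      rw [Finset.sum_comm]
      refine Finset.sum_congr rfl fun j _ => ?_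
      by_cases hj : o x j = a
      · simp [hj]
      · simp [hj]
    have eB1 : ∀ b, ∑ a, BB tu fm p s (a, b) x = Bg tu fm p s b x := fun b => by
      unfold BB Bg su
      rw [← M_sum]
      congr 1
      funext j
      exact sm2 _ _ _ b
    have eN1 : ∀ b, ∑ a, NN fm p s (a, b) x = Fg fm (p - 1) (B.N p s) b x := fun b => by
      unfold NN Fg su
      rw [← M_sum]
      congr 1
      funext j
      show _ = vf fm (p - 1) (B.rN p (s.L j)) b x
      rw [H.eR (hs.2 j) hp]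
      exact sm2 _ _ _ b
    have k1 : QS Q (Bg tu fm p s) (Bg tu fm p s) x =
        QS Q (fun b x => ∑ a, BB tu fm p s (a, b) x) (fun b x => ∑ a, BB tu fm p s (a, b) x) x := by
      unfold QS
      simp only [eB1]
    have k2 : QS Q (Fg fm (p - 1) (B.N p s)) (Fg fm (p - 1) (B.N p s)) x =
        QS Q (fun b x => ∑ a, NN fm p s (a, b) x) (fun b x => ∑ a, NN fm p s (a, b) x) x := by
      unfold QS
      simp only [eN1]
    have nf : ∀ a, 0 ≤ ∑ b, BB tu fm p s (a, b) x := fun a => Finset.sum_nonneg fun b _ => nBB _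
    have ng : ∀ a, 0 ≤ ∑ b, NN fm p s (a, b) x := fun a => Finset.sum_nonneg fun b _ => nNN _
    have k3 := QS_add (Q := Q) (f := fun a x => ∑ b, BB tu fm p s (a, b) x)
      (g := fun a x => ∑ b, NN fm p s (a, b) x) (h := Fg fm p s) nf ng fun a => by
        unfold BB NN Fg su
        rw [← M_sum, ← M_sum, ← M_add]
        refine M_mono hs.1.c0 fun j => ?_
        rw [sm1, sm1]
        show _ ≤ hz (fm p (s.L j).1) (jv (s.L j).2) a x
        rw [← hz_add]
        refine hz_mono (fun i => ?_) a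
        have h1 := PVd45.jv_split3 p (s.L j).2 i x
        have h2 : 0 ≤ jv (bL p (s.L j).2) i x :=
          (PB_jv ((H.pba (hs.2 j)).bL p).self i).nonneg x
        linarith
    show QS Q (Bg tu fm p s) (Bg tu fm p s) x +
      QS Q (Fg fm (p - 1) (B.N p s)) (Fg fm (p - 1) (B.N p s)) x ≤
      QS Q (Fg fm p s) (Fg fm p s) x + (QJ Q (BB tu fm p s) x + QJ Q (NN fm p s) x)
    rw [k1, k2]
    linarith
  linarith

/-- **the walk sum telescopes** : energies of the excess lifts of related families -/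
theorem TM.Kw_tele {Q : φ → φ → Prop} {ok : ℕ → Gs (μ × List (DT Λ κ)) → Prop}
    (hg : ∀ {p s}, ok p s → gst B p s) (hC : ∀ {p s}, ok p s → p ≠ 0 → ok p (B.C p s))
    (hN : ∀ {p s}, ok p s → p ≠ 0 → ok (p - 1) (B.N p s))
    (hv : ∀ {p s}, ok p s → p ≠ 0 → ∀ y a b, Q a b →
      Ep p (Xg wr tu fm p s a) y * Ep p (Xg wr tu fm p s b) y ≤
      1 / (p : ℝ) * Ep p (fun x => Xg wr tu fm p s a x * Xg wr tu fm p s b x) y) :
    ∀ (n p : ℕ) (s : Gs (μ × List (DT Λ κ))), ok p s →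
    Kw B (fun p s => (1 - 1 / (p : ℝ)) * I (QS Q (Eg wr tu fm p s) (Eg wr tu fm p s))) n p s ≤
      Phi Q fm p s + Kw B (fun p s => I (jmp Q tu fm p s) + I (imq Q wr tu fm p s)) n p s := by
  intro n
  induction n with
  | zero =>
    intro p s hs
    show (0 : ℝ) ≤ Phi Q fm p s + 0
    rw [add_zero]
    exact I_nonneg fun x => QS_nonneg (fun a => (H.pFg (hg hs) a).nonneg x)
      fun a => (H.pFg (hg hs) a).nonneg x
  | succ n ih =>
    intro p s hs
    by_cases hp : p = 0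
    · subst hp
      rw [Kw_z, Kw_z, add_zero]
      exact I_nonneg fun x => QS_nonneg (fun a => (H.pFg (hg hs) a).nonneg x)
        fun a => (H.pFg (hg hs) a).nonneg x
    rw [Kw_succ _ _ n hp, Kw_succ _ _ n hp]
    have h1 := ih p _ (hC hs hp)
    have h2 := ih (p - 1) _ (hN hs hp)
    have h3 := H.step (Q := Q) (hg hs) hp (hv hs hp)
    linarith

/-- **the walk sum telescopes**, without the factor `1 - 1/p` -/
theorem TM.Kw_tele2 {Q : φ → φ → Prop} {ok : ℕ → Gs (μ × List (DT Λ κ)) → Prop}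
    (hg : ∀ {p s}, ok p s → gst B p s) (hC : ∀ {p s}, ok p s → p ≠ 0 → ok p (B.C p s))
    (hN : ∀ {p s}, ok p s → p ≠ 0 → ok (p - 1) (B.N p s))
    (hv : ∀ {p s}, ok p s → p ≠ 0 → ∀ y a b, Q a b →
      Ep p (Xg wr tu fm p s a) y * Ep p (Xg wr tu fm p s b) y ≤
      1 / (p : ℝ) * Ep p (fun x => Xg wr tu fm p s a x * Xg wr tu fm p s b x) y)
    (n p : ℕ) (s : Gs (μ × List (DT Λ κ))) (hs : ok p s) :
    Kw B (fun p s => I (QS Q (Eg wr tu fm p s) (Eg wr tu fm p s))) n p s ≤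
      2 * (Phi Q fm p s + Kw B (fun p s => I (jmp Q tu fm p s) + I (imq Q wr tu fm p s)) n p s) := by
  have h1 := H.Kw_tele (Q := Q) hg hC hN hv n p s hs
  refine le_trans ?_ (mul_le_mul_of_nonneg_left h1 (by norm_num : (0:ℝ) ≤ 2))
  rw [← GSK55.Kw_smul]
  refine GSK55.Kw_mono (ok := ok) hC hN (fun {p s} hs hp => ?_) n p s hs
  by_cases h2 : 2 ≤ p
  · have hp2 : (2 : ℝ) ≤ p := by exact_mod_cast h2
    have w2 : (1:ℝ) / p ≤ 1 / 2 := one_div_le_one_div_of_le (by norm_num) hp2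
    have h3 : 0 ≤ I (QS Q (Eg wr tu fm p s) (Eg wr tu fm p s)) := I_nonneg fun x =>
      QS_nonneg (fun a => (H.pEg (hg hs) hp a).nonneg x) fun a => (H.pEg (hg hs) hp a).nonneg x
    nlinarith
  · have hp1 : p = 1 := by omega
    subst hp1
    have e : ∀ a x, Eg wr tu fm 1 s a x = 0 := by
      intro a x
      have e1 : ∀ j, eB (wr 1) 1 (bB 1 (s.L j).2) (oL tu fm 1 (s.L j)) a x = 0 := by
        intro j
        rw [H.no1 ((hg hs).2 j)]
        unfold eB
        rw [hz_eq]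
        refine Finset.sum_eq_zero fun c _ => ?_
        have e2 : eg (wr 1) 1 ([] : List (DT Λ κ)) c x = 0 := by
          unfold eg
          have : pG ([] : List (DT Λ κ)) c x = 0 := rfl
          rw [this, mul_zero]
        rw [e2]; simp
      unfold Eg su
      simp only [e1]
      simp [M]
    have e3 : QS Q (Eg wr tu fm 1 s) (Eg wr tu fm 1 s) = fun _ => 0 := by
      funext x
      unfold QS
      simp [e]
    rw [e3]
    unfold I
    simp

/-- lifts on one sheet: the hypothesis `hv` -/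
lemma TM.hv_of_sheet (hs : gst B p s) (hp : p ≠ 0) {a b : φ} {y : ℝ}
    (h : ∀ k k' j j' i i', i < p → i' < p → oL tu fm p (s.L k) y j = a →
      oL tu fm p (s.L k') y j' = b → pG (bB p (s.L k).2) j ((y + (i : ℕ)) / p) ≠ 0 →
      pG (bB p (s.L k').2) j' ((y + (i' : ℕ)) / p) ≠ 0 → i = i') :
    Ep p (Xg wr tu fm p s a) y * Ep p (Xg wr tu fm p s b) y ≤
      1 / (p : ℝ) * Ep p (fun x => Xg wr tu fm p s a x * Xg wr tu fm p s b x) y := by
  have hp' : (p : ℝ) ≠ 0 := by exact_mod_cast hp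
  refine (Ep_one_sheet fun i hi i' hi' hne => ?_).le
  by_contra h0
  have key : ∀ (a : φ) (i : ℕ), Xg wr tu fm p s a ((y + i) / p) ≠ 0 →
      ∃ k j, oL tu fm p (s.L k) y j = a ∧ pG (bB p (s.L k).2) j ((y + i) / p) ≠ 0 := by
    intro a i ha
    by_contra hn
    push Not at hn
    apply ha
    unfold Xg su
    have e1 : (p : ℝ) * ((y + (i : ℝ)) / p) = y + i := by field_simp
    have z1 : ∀ k, eB (wr p) p (bB p (s.L k).2) (oL tu fm p (s.L k)) a ((y + i) / p) +
        uB (wr p) p (bB p (s.L k).2) (oL tu fm p (s.L k)) a ((y + i) / p) = 0 := by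
      intro k
      have ek : ∀ j, oL tu fm p (s.L k) (p * ((y + i) / p)) j = a →
          pG (bB p (s.L k).2) j ((y + i) / p) = 0 := by
        intro j hj
        rw [e1, (H.mo (s.L k) p j).per_nat] at hj
        exact hn k j hj
      have z2 : eB (wr p) p (bB p (s.L k).2) (oL tu fm p (s.L k)) a ((y + i) / p) = 0 := by
        unfold eB
        rw [hz_eq]
        refine Finset.sum_eq_zero fun j _ => ?_
        by_cases hj : oL tu fm p (s.L k) (p * ((y + i) / p)) j = a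
        · rw [if_pos hj]
          unfold eg
          rw [ek j hj, mul_zero]
        · rw [if_neg hj]
      have z3 : uB (wr p) p (bB p (s.L k).2) (oL tu fm p (s.L k)) a ((y + i) / p) = 0 := by
        unfold uB
        refine Finset.sum_eq_zero fun c _ => ?_
        have z4 : cz (wr p) (fun x => oL tu fm p (s.L k) (p * x)) (pG (bB p (s.L k).2)) c a
            ((y + i) / p) = 0 := by
          rw [cz_eq]
          refine Finset.sum_eq_zero fun j _ => ?_
          by_cases hj : wr p j = c ∧ oL tu fm p (s.L k) (p * ((y + i) / p)) j = a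
          · rw [if_pos hj, ek j hj.2]
          · rw [if_neg hj]
        rw [z4]; ring
      rw [z2, z3, add_zero]
    simp only [z1]
    simp [M]
  obtain ⟨k, j, h1, h2⟩ := key a i (left_ne_zero_of_mul h0)
  obtain ⟨k', j', h3, h4⟩ := key b i' (right_ne_zero_of_mul h0)
  exact hne (h k k' j j' i i' hi hi' h1 h3 h2 h4)

end grp

end Crest.Agent.R4P.E3T479
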