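import Crest.Agent.R4P.E3S_479

/-!
R4 (S0004) with powers, T3, helper479 (PLAN v1, D1): **E3 telescopes, the impure part is quadratic**.

On one fibre `F = c + X - D` (`c` constant) the constant parts cancel exactly:
`Ep (X X') + Ep F Ep F' ≤ Ep (F F') + Ep X Ep X' + (Ep (D X') + Ep (X D') + Ep D Ep D')` (`Ep_pair2`),
so a dip is only paid against the LIFTS of the related families (on the special sheets), never against
the constant contents (pulls, ordinary sheets).

* `ir` : the impure part; **`TM.tie2`**, **`TM.step2`**.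
* **`I_ir_le`** : `I ir ≤ (3 + l) dq + (1/l) I (Σ_i E_i²)`, `dq = I (Σ_i d_i²)`, `d_i` = group cross lifts of
  the real index `i`.
* `erf2`, **`loc_of2`** (same statement as `E3S479.loc_of`), `Kw_erf2`.
* cross pairs with a predicate `S` (P piece `j`, N piece `i`, same real class, different low families):
  lifts `xS`, amounts `yS`, energies `eS`; `xc_split`; **`yS_sq`** : `yS² ≤ eS = Σ_{pairs} A_j B_i`;
  **`mniS_sq`** (at most `n0` active classes of an index).
* **`dq_split`**, **`dqS_lin`** : `dqS ≤ 2 I (su (1/p mnS) * su (C) bt)`; **`dqS_sq`** : `dqS ≤ I (su mnq)`,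
  `mnq = (1/p) Σ_i mnS_i²` (second order: in-member pair energies, no group totals).
* **`her_of2`** : the walk sum of the errors.
-/

set_option autoImplicit false
set_option linter.unusedSectionVars false
set_option linter.unusedVariables false
open MeasureTheory Filter Set

namespace Crest.Agent.R4P.E3U479

open Crest.Agent.R4.Tour104 Crest.Agent.R4.Tour758 Crest.Agent.R4.Avg758 Crest.Agent.R4.Clos758
open Crest.Agent.R4.ClosL758 Crest.Agent.R4.ClosG758 Crest.Agent.R4.ClosR758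
open Crest.Agent.R4P.ClosR442 Crest.Agent.R4P.Grp36
open Crest.Agent.R4P.Xfer36 Crest.Agent.R4P.TopC36 Crest.Agent.R4P.PN36
open Crest.Agent.R4P.GMer27 Crest.Agent.R4P.GCol27 Crest.Agent.R4P.GWa343 Crest.Agent.R4P.GWb343
open Crest.Agent.R4P.GWc343 Crest.Agent.R4P.GWd343 Crest.Agent.R4P.TrR343 Crest.Agent.R4P.DTp26
open Crest.Agent.R4P.RSys343 Crest.Agent.R4P.RXm55 Crest.Agent.R4P.MSm25 Crest.Agent.R4P.MSd343
open Crest.Agent.R4P.VR407 Crest.Agent.R4P.Bp407 Crest.Agent.R4P.DTm407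
open Crest.Agent.R4P.GSK55 (stp gk Pr Kw Kw_succ Kw_z one one_TC one_su BC_pos BC_neg)
open Crest.Agent.R4P.PayR45
open Crest.Agent.R4P.E3D479 Crest.Agent.R4P.E3E479 Crest.Agent.R4P.E3P479 Crest.Agent.R4P.E3T479
open Crest.Agent.R4P.E3S479
open Crest.Agent.R4P.MSi343 (su)
open Crest.Agent.R4P.Walk560 (DT)

/-! ### one fibre -/

section fib

/-- **one fibre, one pair** : the constant parts cancel -/
lemma Ep_pair2 {p : ℕ} (hp : 0 < p) {y c c' : ℝ} {F D X F' D' X' : ℝ → ℝ}
    (h : ∀ i < p, F ((y + i) / p) + D ((y + i) / p) = c + X ((y + i) / p))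
    (h' : ∀ i < p, F' ((y + i) / p) + D' ((y + i) / p) = c' + X' ((y + i) / p))
    (hD : ∀ x, 0 ≤ D x) (hD' : ∀ x, 0 ≤ D' x) (hX : ∀ x, 0 ≤ X x) (hX' : ∀ x, 0 ≤ X' x) :
    Ep p (fun x => X x * X' x) y + Ep p F y * Ep p F' y ≤ Ep p (fun x => F x * F' x) y +
      Ep p X y * Ep p X' y + (Ep p (fun x => D x * X' x) y + Ep p (fun x => X x * D' x) y +
      Ep p D y * Ep p D' y) := by
  have hp' : (0 : ℝ) < p := by exact_mod_cast hp
  set m : (ℝ → ℝ) → ℝ := fun f => Ep p f y with hm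
  have madd : ∀ f g : ℝ → ℝ, m (fun x => f x + g x) = m f + m g := fun f g => by
    simp only [hm, Ep]; rw [Finset.sum_add_distrib, add_div]
  have mono : ∀ f g : ℝ → ℝ, (∀ i < p, f ((y + i) / p) ≤ g ((y + i) / p)) → m f ≤ m g :=
    fun f g hfg => by
      simp only [hm, Ep]
      exact div_le_div_of_nonneg_right (Finset.sum_le_sum fun i hi =>
        hfg i (Finset.mem_range.1 hi)) hp'.le
  have mcongr : ∀ f g : ℝ → ℝ, (∀ i < p, f ((y + i) / p) = g ((y + i) / p)) → m f = m g :=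
    fun f g hfg => le_antisymm (mono _ _ fun i hi => (hfg i hi).le)
      (mono _ _ fun i hi => (hfg i hi).ge)
  have mc : ∀ a : ℝ, m (fun _ => a) = a := fun a => by
    simp only [hm, Ep, Finset.sum_const, Finset.card_range, nsmul_eq_mul]
    field_simp
  have msm : ∀ (a : ℝ) (f : ℝ → ℝ), m (fun x => a * f x) = a * m f := fun a f => by
    simp only [hm, Ep]; rw [← Finset.mul_sum, mul_div_assoc]
  have mn : ∀ f : ℝ → ℝ, (∀ x, 0 ≤ f x) → 0 ≤ m f := fun f hf => by
    have := mono (fun _ => 0) f fun i _ => hf _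
    rwa [mc] at this
  have eF : m F + m D = c + m X := by
    rw [← madd, mcongr _ (fun x => (fun _ => c) x + X x) fun i hi => h i hi, madd, mc]
  have eF' : m F' + m D' = c' + m X' := by
    rw [← madd, mcongr _ (fun x => (fun _ => c') x + X' x) fun i hi => h' i hi, madd, mc]
  -- `F F' + X D' + D X' + c D' + c' D = c c' + c X' + c' X + X X' + D D'`
  have eS : m (fun x => F x * F' x) + m (fun x => X x * D' x) + m (fun x => D x * X' x) +
      c * m D' + c' * m D = c * c' + c * m X' + c' * m X + m (fun x => X x * X' x) +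
      m (fun x => D x * D' x) := by
    rw [← msm c D', ← msm c' D, ← msm c X', ← msm c' X, ← mc (c * c'), ← madd, ← madd, ← madd,
      ← madd, ← madd, ← madd, ← madd, ← madd]
    refine mcongr _ _ fun i hi => ?_
    have a1 := h i hi
    have a2 := h' i hi
    have a3 : F ((y + i) / p) = c + X ((y + i) / p) - D ((y + i) / p) := by linarith
    have a4 : F' ((y + i) / p) = c' + X' ((y + i) / p) - D' ((y + i) / p) := by linarith
    rw [a3, a4]
    ring
  have n1 := mul_nonneg (mn X hX) (mn D' hD')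
  have n2 := mul_nonneg (mn D hD) (mn X' hX')
  have n3 := mn (fun x => D x * D' x) fun x => mul_nonneg (hD x) (hD' x)
  show m (fun x => X x * X' x) + m F * m F' ≤ m (fun x => F x * F' x) + m X * m X' +
    (m (fun x => D x * X' x) + m (fun x => X x * D' x) + m D * m D')
  have eF1 : m F = c + m X - m D := by linarith
  have eF2 : m F' = c' + m X' - m D' := by linarith
  rw [eF1, eF2]
  nlinarith

end fib

section grp
variable {μ Λ κ φ ι : Type} [Fintype Λ] [DecidableEq Λ] [Fintype κ] [DecidableEq κ]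
  [Fintype φ] [DecidableEq φ] [Fintype ι] [DecidableEq ι]
variable {B : BM (μ × List (DT Λ κ))} {wr : ℕ → Λ → κ} {tu : ℕ → μ → μ}
  {fm : ℕ → μ → ℝ → Λ → φ} {p : ℕ} {s : Gs (μ × List (DT Λ κ))} {b : μ × List (DT Λ κ)}
  {pi : φ → ι} {ix : κ → ι}

/-- **impure part** : dips against the lifts of the related families -/
noncomputable def ir (Q : φ → φ → Prop) (wr : ℕ → Λ → κ) (tu : ℕ → μ → μ)
    (fm : ℕ → μ → ℝ → Λ → φ) (p : ℕ) (s : Gs (μ × List (DT Λ κ))) (y : ℝ) : ℝ :=
  Ep p (QS Q (Dg wr tu fm p s) (Xg wr tu fm p s)) y +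
    Ep p (QS Q (Xg wr tu fm p s) (Dg wr tu fm p s)) y +
    QS Q (fun a => Ep p (Dg wr tu fm p s a)) (fun a => Ep p (Dg wr tu fm p s a)) y

variable (H : TM B wr tu fm)

include H

lemma PB_ir {Q : φ → φ → Prop} (hs : gst B p s) (hp : p ≠ 0) : PB (ir Q wr tu fm p s) := by
  have hp0 : 0 < p := Nat.pos_of_ne_zero hp
  exact (((PB_QS (H.pDg hs hp) (H.pXg hs hp)).Ep hp0).add
    ((PB_QS (H.pXg hs hp) (H.pDg hs hp)).Ep hp0)).add
    (PB_QS (fun a => (H.pDg hs hp a).Ep hp0) fun a => (H.pDg hs hp a).Ep hp0)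

/-- **one step at a tie** -/
theorem TM.tie2 {Q : φ → φ → Prop} (hs : gst B p s) (hp : p ≠ 0) (y : ℝ)
    (hv : ∀ a b, Q a b → Ep p (Xg wr tu fm p s a) y * Ep p (Xg wr tu fm p s b) y ≤
      1 / (p : ℝ) * Ep p (fun x => Xg wr tu fm p s a x * Xg wr tu fm p s b x) y) :
    (1 - 1 / (p : ℝ)) * Ep p (QS Q (Eg wr tu fm p s) (Eg wr tu fm p s)) y +
      QS Q (Fg fm p (B.C p s)) (Fg fm p (B.C p s)) y ≤
      Ep p (QS Q (Bg tu fm p s) (Bg tu fm p s)) y + ir Q wr tu fm p s y := by
  classical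
  have hp0 : 0 < p := Nat.pos_of_ne_zero hp
  have hp1 : (1 : ℝ) ≤ p := by exact_mod_cast hp0
  have w1 : (0:ℝ) ≤ 1 - 1 / p := by
    have : (1:ℝ) / p ≤ 1 := by rw [div_le_one (by linarith)]; exact hp1
    linarith
  have c0 := hs.1.c0
  have nD : ∀ a x, 0 ≤ Dg wr tu fm p s a x := fun a => (H.pDg hs hp a).nonneg
  have nX : ∀ a x, 0 ≤ Xg wr tu fm p s a x := fun a => (H.pXg hs hp a).nonneg
  have nE : ∀ a x, 0 ≤ Eg wr tu fm p s a x := fun a => (H.pEg hs hp a).nonneg
  have hEX : ∀ a x, Eg wr tu fm p s a x ≤ Xg wr tu fm p s a x := fun a x =>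
    M_mono c0 fun j => by
      have := (PB_uB (H.kok (hs.2 j) hp) (H.mo (s.L j) p) a).nonneg x
      show eB (wr p) p (bB p (s.L j).2) (oL tu fm p (s.L j)) a x ≤
        eB (wr p) p (bB p (s.L j).2) (oL tu fm p (s.L j)) a x +
        uB (wr p) p (bB p (s.L j).2) (oL tu fm p (s.L j)) a x
      linarith
  -- the constant parts
  have hdec : ∀ a, ∀ i < p, Bg tu fm p s a ((y + i) / p) + Dg wr tu fm p s a ((y + i) / p) =
      (M s.c fun j => cB (wr p) p (bB p (s.L j).2) (oL tu fm p (s.L j)) a y) +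
        Xg wr tu fm p s a ((y + i) / p) := by
    intro a i _
    have e1 : (p : ℝ) * ((y + (i : ℝ)) / p) = y + i := by field_simp
    unfold Bg Dg Xg su
    rw [← M_add, ← M_add]
    congr 1
    funext j
    have e2 := dec (H.kok (hs.2 j) hp) (oL tu fm p (s.L j)) a ((y + (i : ℝ)) / p)
    rw [e1, (PB_cB (H.kok (hs.2 j) hp) hp0 (H.mo (s.L j) p) a).per_nat] at e2
    exact e2
  -- one pair
  have pair : ∀ a b, Q a b → (1 - 1 / (p : ℝ)) * Ep p (fun x => Eg wr tu fm p s a x *
      Eg wr tu fm p s b x) y + Fg fm p (B.C p s) a y * Fg fm p (B.C p s) b y ≤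
      Ep p (fun x => Bg tu fm p s a x * Bg tu fm p s b x) y +
      (Ep p (fun x => Dg wr tu fm p s a x * Xg wr tu fm p s b x) y +
      Ep p (fun x => Xg wr tu fm p s a x * Dg wr tu fm p s b x) y +
      Ep p (Dg wr tu fm p s a) y * Ep p (Dg wr tu fm p s b) y) := by
    intro a b hQ
    have h1 := Ep_pair2 hp0 (hdec a) (hdec b) (nD a) (nD b) (nX a) (nX b)
    have h2 := hv a b hQ
    have h3 : Ep p (fun x => Eg wr tu fm p s a x * Eg wr tu fm p s b x) y ≤
        Ep p (fun x => Xg wr tu fm p s a x * Xg wr tu fm p s b x) y := by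
      unfold Ep
      refine div_le_div_of_nonneg_right (Finset.sum_le_sum fun i _ => ?_) (by positivity)
      exact mul_le_mul (hEX a _) (hEX b _) (nE b _) (nX a _)
    have h4 : Fg fm p (B.C p s) a y * Fg fm p (B.C p s) b y ≤
        Ep p (Bg tu fm p s a) y * Ep p (Bg tu fm p s b) y := by
      have hsC := gst_C H.cl hs hp
      exact mul_le_mul (H.Fg_C hs hp a y) (H.Fg_C hs hp b y) ((H.pFg hsC b).nonneg y)
        (((H.pFg hsC a).nonneg y).trans (H.Fg_C hs hp a y))
    have h5 := mul_le_mul_of_nonneg_left h3 w1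
    nlinarith
  unfold ir
  rw [Ep_QS, Ep_QS, Ep_QS, Ep_QS]
  unfold QS
  rw [Finset.mul_sum, ← Finset.sum_add_distrib, ← Finset.sum_add_distrib,
    ← Finset.sum_add_distrib, ← Finset.sum_add_distrib]
  refine Finset.sum_le_sum fun a _ => ?_
  rw [Finset.mul_sum, ← Finset.sum_add_distrib, ← Finset.sum_add_distrib,
    ← Finset.sum_add_distrib, ← Finset.sum_add_distrib]
  refine Finset.sum_le_sum fun b _ => ?_
  by_cases hQ : Q a b
  · simp only [if_pos hQ]
    have := pair a b hQ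
    linarith
  · simp [hQ]

/-- **one step** -/
theorem TM.step2 {Q : φ → φ → Prop} (hs : gst B p s) (hp : p ≠ 0)
    (hv : ∀ y a b, Q a b → Ep p (Xg wr tu fm p s a) y * Ep p (Xg wr tu fm p s b) y ≤
      1 / (p : ℝ) * Ep p (fun x => Xg wr tu fm p s a x * Xg wr tu fm p s b x) y) :
    (1 - 1 / (p : ℝ)) * I (QS Q (Eg wr tu fm p s) (Eg wr tu fm p s)) + Phi Q fm p (B.C p s) +
      Phi Q fm (p - 1) (B.N p s) ≤
      Phi Q fm p s + I (jmp Q tu fm p s) + I (ir Q wr tu fm p s) := by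
  have hp0 : 0 < p := Nat.pos_of_ne_zero hp
  have hp1 : (1 : ℝ) ≤ p := by exact_mod_cast hp0
  have w1 : (0:ℝ) ≤ 1 - 1 / p := by
    have : (1:ℝ) / p ≤ 1 := by rw [div_le_one (by linarith)]; exact hp1
    linarith
  have sC := gst_C H.cl hs hp
  have sN := gst_N H.cl hs hp
  have pE := PB_QS (Q := Q) (H.pEg hs hp) (H.pEg hs hp)
  have pC := PB_QS (Q := Q) (H.pFg sC) (H.pFg sC)
  have pB' := PB_QS (Q := Q) (H.pBg hs hp) (H.pBg hs hp)
  have pF := PB_QS (Q := Q) (H.pFg hs) (H.pFg hs)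
  have pN := PB_QS (Q := Q) (H.pFg sN) (H.pFg sN)
  have pI : PB (ir Q wr tu fm p s) := PB_ir H hs hp
  have pJ : PB (jmp Q tu fm p s) := (PB_QJ (H.pBB hs)).add (PB_QJ (H.pNN hs))
  -- the ties
  have a1 : (1 - 1 / (p : ℝ)) * I (QS Q (Eg wr tu fm p s) (Eg wr tu fm p s)) +
      Phi Q fm p (B.C p s) ≤ I (QS Q (Bg tu fm p s) (Bg tu fm p s)) + I (ir Q wr tu fm p s) := by
    rw [← I_Ep hp0 pE.integrableOn, ← I_Ep hp0 pB'.integrableOn]
    unfold Phi
    have e2 : (1 - 1 / (p : ℝ)) * I (Ep p (QS Q (Eg wr tu fm p s) (Eg wr tu fm p s))) =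
        I (fun x => (1 - 1 / (p : ℝ)) * Ep p (QS Q (Eg wr tu fm p s) (Eg wr tu fm p s)) x) := by
      unfold I
      rw [MeasureTheory.integral_const_mul]
    rw [e2]
    have pE1 : PB fun x => (1 - 1 / (p : ℝ)) * Ep p (QS Q (Eg wr tu fm p s) (Eg wr tu fm p s)) x :=
      (PB.const w1).mul (pE.Ep hp0)
    rw [← I_add pE1.integrableOn pC.integrableOn,
      ← I_add (pB'.Ep hp0).integrableOn pI.integrableOn]
    exact I_mono (pE1.add pC).integrableOn ((pB'.Ep hp0).add pI).integrableOn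
      fun y => TM.tie2 H hs hp y (hv y)
  -- the contents
  have a2 : I (QS Q (Bg tu fm p s) (Bg tu fm p s)) + Phi Q fm (p - 1) (B.N p s) ≤
      Phi Q fm p s + I (jmp Q tu fm p s) := by
    unfold Phi
    rw [← I_add pB'.integrableOn pN.integrableOn, ← I_add pF.integrableOn pJ.integrableOn]
    refine I_mono (pB'.add pN).integrableOn (pF.add pJ).integrableOn fun x => ?_
    have nBB : ∀ u, 0 ≤ BB tu fm p s u x := fun u => (H.pBB hs u).nonneg x
    have nNN : ∀ u, 0 ≤ NN fm p s u x := fun u => (H.pNN hs u).nonneg x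
    have r1 := QS_retype (Q := Q) nBB
    have r2 := QS_retype (Q := Q) nNN
    -- sums over the pairs of families
    have sm2 : ∀ (o o' : ℝ → Λ → φ) (V : Λ → ℝ → ℝ) (b : φ), ∑ a, hz (fun x j => (o x j, o' x j)) V
        (a, b) x = hz o' V b x := by
      intro o o' V b
      classical
      simp only [hz_eq]
      rw [Finset.sum_comm]
      refine Finset.sum_congr rfl fun j _ => ?_
      by_cases hj : o' x j = b
      · simp [hj]
      · simp [hj]
    have sm1 : ∀ (o o' : ℝ → Λ → φ) (V : Λ → ℝ → ℝ) (a : φ), ∑ b, hz (fun x j => (o x j, o' x j)) V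
        (a, b) x = hz o V a x := by
      intro o o' V a
      classical
      simp only [hz_eq]
      rw [Finset.sum_comm]
      refine Finset.sum_congr rfl fun j _ => ?_
      by_cases hj : o x j = a
      · simp [hj]
      · simp [hj]
    have eB1 : ∀ b, ∑ a, BB tu fm p s (a, b) x = Bg tu fm p s b x := fun b => by
      unfold BB Bg su
      rw [← M_sum]
      congr 1
      funext j
      exact sm2 _ _ _ b
    have eN1 : ∀ b, ∑ a, NN fm p s (a, b) x = Fg fm (p - 1) (B.N p s) b x := fun b => by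
      unfold NN Fg su
      rw [← M_sum]
      congr 1
      funext j
      show _ = vf fm (p - 1) (B.rN p (s.L j)) b x
      rw [H.eR (hs.2 j) hp]
      exact sm2 _ _ _ b
    have k1 : QS Q (Bg tu fm p s) (Bg tu fm p s) x =
        QS Q (fun b x => ∑ a, BB tu fm p s (a, b) x) (fun b x => ∑ a, BB tu fm p s (a, b) x) x := by
      unfold QS
      simp only [eB1]
    have k2 : QS Q (Fg fm (p - 1) (B.N p s)) (Fg fm (p - 1) (B.N p s)) x =
        QS Q (fun b x => ∑ a, NN fm p s (a, b) x) (fun b x => ∑ a, NN fm p s (a, b) x) x := by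
      unfold QS
      simp only [eN1]
    have nf : ∀ a, 0 ≤ ∑ b, BB tu fm p s (a, b) x := fun a => Finset.sum_nonneg fun b _ => nBB _
    have ng : ∀ a, 0 ≤ ∑ b, NN fm p s (a, b) x := fun a => Finset.sum_nonneg fun b _ => nNN _
    have k3 := QS_add (Q := Q) (f := fun a x => ∑ b, BB tu fm p s (a, b) x)
      (g := fun a x => ∑ b, NN fm p s (a, b) x) (h := Fg fm p s) nf ng fun a => by
        unfold BB NN Fg su
        rw [← M_sum, ← M_sum, ← M_add]
        refine M_mono hs.1.c0 fun j => ?_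
        rw [sm1, sm1]
        show _ ≤ hz (fm p (s.L j).1) (jv (s.L j).2) a x
        rw [← hz_add]
        refine hz_mono (fun i => ?_) a
        have h1 := PVd45.jv_split3 p (s.L j).2 i x
        have h2 : 0 ≤ jv (bL p (s.L j).2) i x :=
          (PB_jv ((H.pba (hs.2 j)).bL p).self i).nonneg x
        linarith
    show QS Q (Bg tu fm p s) (Bg tu fm p s) x +
      QS Q (Fg fm (p - 1) (B.N p s)) (Fg fm (p - 1) (B.N p s)) x ≤
      QS Q (Fg fm p s) (Fg fm p s) x + (QJ Q (BB tu fm p s) x + QJ Q (NN fm p s) x)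
    rw [k1, k2]
    linarith
  linarith

/-- dips of the families of an index -/
lemma sum_Dg (hix : ∀ p m x j, pi (fm p m x j) = ix (wr p j)) (hs : gst B p s) (hp : p ≠ 0)
    (i : ι) (x : ℝ) : ∑ a ∈ Finset.univ.filter (fun a => pi a = i), Dg wr tu fm p s a x ≤
      dI wr tu fm ix p s i x := by
  unfold Dg dI
  rw [su_filter (pi := pi) s (fun a b => dB (wr p) p (bB p b.2) (oL tu fm p b) a) i x]
  exact M_mono hs.1.c0 fun j => sum_dB (H.kok (hs.2 j) hp) (fun x j => hix _ _ _ _) i x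

/-- lifts of the families of an index -/
lemma sum_Xg (hix : ∀ p m x j, pi (fm p m x j) = ix (wr p j)) (hs : gst B p s) (hp : p ≠ 0)
    (i : ι) (x : ℝ) : ∑ a ∈ Finset.univ.filter (fun a => pi a = i), Xg wr tu fm p s a x ≤
      EI wr tu fm pi p s i x + dI wr tu fm ix p s i x := by
  have e2 : EI wr tu fm pi p s i x = su s (fun b x => ∑ a ∈ Finset.univ.filter
      (fun a => pi a = i), eB (wr p) p (bB p b.2) (oL tu fm p b) a x) x := by
    unfold EI Eg
    rw [su_filter (pi := pi) s (fun a b => eB (wr p) p (bB p b.2) (oL tu fm p b) a) i x]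
  unfold Xg
  rw [su_filter (pi := pi) s (fun a b x => eB (wr p) p (bB p b.2) (oL tu fm p b) a x +
    uB (wr p) p (bB p b.2) (oL tu fm p b) a x) i x, e2]
  unfold dI su
  rw [← M_add]
  refine M_mono hs.1.c0 fun j => ?_
  simp only []
  rw [Finset.sum_add_distrib]
  have h1 := sum_uB (o := oL tu fm p (s.L j)) (H.kok (hs.2 j) hp)
    (pi := pi) (ix := ix) (fun x j => hix _ _ _ _) i x
  linarith

lemma dI_nonneg (hs : gst B p s) (hp : p ≠ 0) (i : ι) (x : ℝ) : 0 ≤ dI wr tu fm ix p s i x :=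
  M_nonneg hs.1.c0 fun j => di_nonneg (H.kok (hs.2 j) hp) i x

lemma PB_dI (hs : gst B p s) (hp : p ≠ 0) (i : ι) : PB (dI wr tu fm ix p s i) := by
  refine PB_su' (f := fun b => di (wr p) p (bB p b.2) (oL tu fm p b) ix i) hs.1 fun j => ?_
  have h := H.kok (hs.2 j) hp
  unfold di
  refine PB.sum _ fun c _ => ?_
  by_cases hc : ix c = i
  · simp only [if_pos hc]
    unfold xc
    refine ((PB_bf h c).pull p).mul (PB.sum _ fun a _ => ?_)
    exact ((PB_frac h (H.mo (s.L j) p) c a).pull p).mul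
      (PB_sub' (PB_SG _ c) (PB_czG (H.mo (s.L j) p) c a) fun x => czG_le c a x)
  · simp only [if_neg hc]
    exact PB.const le_rfl

/-- **energy of the group cross lifts** -/
noncomputable def dq (wr : ℕ → Λ → κ) (tu : ℕ → μ → μ) (fm : ℕ → μ → ℝ → Λ → φ) (ix : κ → ι) (p : ℕ)
    (s : Gs (μ × List (DT Λ κ))) : ℝ := I fun x => ∑ i, dI wr tu fm ix p s i x ^ 2

/-- **the impure part** -/
theorem ir_le (hix : ∀ p m x j, pi (fm p m x j) = ix (wr p j))
    {Q : φ → φ → Prop} (hQ : ∀ a b, Q a b → pi a = pi b) (hs : gst B p s) (hp : p ≠ 0)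
    {l : ℝ} (hl : 0 < l) (y : ℝ) : ir Q wr tu fm p s y ≤
      (3 + l) * Ep p (fun x => ∑ i, dI wr tu fm ix p s i x ^ 2) y +
      1 / l * Ep p (fun x => ∑ i, EI wr tu fm pi p s i x ^ 2) y := by
  classical
  have hp0 : 0 < p := Nat.pos_of_ne_zero hp
  have hp' : (0 : ℝ) < p := by exact_mod_cast hp0
  have c0 := hs.1.c0
  have nD : ∀ a x, 0 ≤ Dg wr tu fm p s a x := fun a => (H.pDg hs hp a).nonneg
  have nX : ∀ a x, 0 ≤ Xg wr tu fm p s a x := fun a => (H.pXg hs hp a).nonneg
  have nd : ∀ i x, 0 ≤ dI wr tu fm ix p s i x := fun i x => dI_nonneg H hs hp i x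
  set m : (ℝ → ℝ) → ℝ := fun f => Ep p f y with hm
  have madd : ∀ f g : ℝ → ℝ, m (fun x => f x + g x) = m f + m g := fun f g => by
    simp only [hm, Ep]; rw [Finset.sum_add_distrib, add_div]
  have mono : ∀ f g : ℝ → ℝ, (∀ x, f x ≤ g x) → m f ≤ m g := fun f g hfg => by
    simp only [hm, Ep]
    exact div_le_div_of_nonneg_right (Finset.sum_le_sum fun i _ => hfg _) hp'.le
  have msm : ∀ (a : ℝ) (f : ℝ → ℝ), m (fun x => a * f x) = a * m f := fun a f => by
    simp only [hm, Ep]; rw [← Finset.mul_sum, mul_div_assoc]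
  have mn : ∀ f : ℝ → ℝ, (∀ x, 0 ≤ f x) → 0 ≤ m f := fun f hf => by
    simp only [hm, Ep]
    exact div_nonneg (Finset.sum_nonneg fun i _ => hf _) hp'.le
  -- dips against lifts
  have a1 : ∀ x, QS Q (Dg wr tu fm p s) (Xg wr tu fm p s) x ≤
      ∑ i, dI wr tu fm ix p s i x * (EI wr tu fm pi p s i x + dI wr tu fm ix p s i x) := by
    intro x
    refine (QS_index hQ (fun a => nD a x) fun a => nX a x).trans
      (Finset.sum_le_sum fun i _ => ?_)
    exact mul_le_mul (sum_Dg H hix hs hp i x) (sum_Xg H hix hs hp i x)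
      (Finset.sum_nonneg fun a _ => nX a x) (nd i x)
  have a2 : ∀ x, QS Q (Xg wr tu fm p s) (Dg wr tu fm p s) x ≤
      ∑ i, dI wr tu fm ix p s i x * (EI wr tu fm pi p s i x + dI wr tu fm ix p s i x) := by
    intro x
    refine (QS_index hQ (fun a => nX a x) fun a => nD a x).trans
      (Finset.sum_le_sum fun i _ => ?_)
    rw [mul_comm]
    exact mul_le_mul (sum_Dg H hix hs hp i x) (sum_Xg H hix hs hp i x)
      (Finset.sum_nonneg fun a _ => nX a x) (nd i x)
  have a3 : QS Q (fun a => Ep p (Dg wr tu fm p s a)) (fun a => Ep p (Dg wr tu fm p s a)) y ≤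
      m (fun x => ∑ i, dI wr tu fm ix p s i x ^ 2) := by
    refine (QS_index hQ (fun a => mn _ (nD a)) fun a => mn _ (nD a)).trans ?_
    have e : m (fun x => ∑ i, dI wr tu fm ix p s i x ^ 2) =
        ∑ i, m (fun x => dI wr tu fm ix p s i x ^ 2) := PayR45.Ep_sum' _ _ _ _
    rw [e]
    refine Finset.sum_le_sum fun i _ => ?_
    have h1 : ∑ a ∈ Finset.univ.filter (fun a => pi a = i), Ep p (Dg wr tu fm p s a) y ≤
        m (dI wr tu fm ix p s i) := by
      have e1 : ∑ a ∈ Finset.univ.filter (fun a => pi a = i), Ep p (Dg wr tu fm p s a) y =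
          m (fun x => ∑ a ∈ Finset.univ.filter (fun a => pi a = i), Dg wr tu fm p s a x) := by
        simp only [hm, Ep]
        rw [Finset.sum_comm, Finset.sum_div]
      rw [e1]
      exact mono _ _ fun x => sum_Dg H hix hs hp i x
    have h0 : 0 ≤ ∑ a ∈ Finset.univ.filter (fun a => pi a = i), Ep p (Dg wr tu fm p s a) y :=
      Finset.sum_nonneg fun a _ => mn _ (nD a)
    rw [← sq]
    exact (pow_le_pow_left₀ h0 h1 2).trans (Ep_sq_le hp0 _ y)
  -- the lifts
  have a4 : ∀ x, (∑ i, dI wr tu fm ix p s i x * (EI wr tu fm pi p s i x +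
      dI wr tu fm ix p s i x)) + ∑ i, dI wr tu fm ix p s i x * (EI wr tu fm pi p s i x +
      dI wr tu fm ix p s i x) ≤ (2 + l) * (∑ i, dI wr tu fm ix p s i x ^ 2) +
      1 / l * ∑ i, EI wr tu fm pi p s i x ^ 2 := by
    intro x
    rw [← Finset.sum_add_distrib, Finset.mul_sum, Finset.mul_sum, ← Finset.sum_add_distrib]
    refine Finset.sum_le_sum fun i _ => ?_
    set d := dI wr tu fm ix p s i x
    set e := EI wr tu fm pi p s i x
    have h3 : 0 ≤ (l * d - e) ^ 2 / l := div_nonneg (sq_nonneg _) hl.le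
    have h4 : (l * d - e) ^ 2 / l = l * d ^ 2 + 1 / l * e ^ 2 - 2 * (d * e) := by
      field_simp; ring
    nlinarith
  have a5 : m (QS Q (Dg wr tu fm p s) (Xg wr tu fm p s)) +
      m (QS Q (Xg wr tu fm p s) (Dg wr tu fm p s)) ≤
      (2 + l) * m (fun x => ∑ i, dI wr tu fm ix p s i x ^ 2) +
      1 / l * m (fun x => ∑ i, EI wr tu fm pi p s i x ^ 2) := by
    rw [← madd, ← msm, ← msm, ← madd]
    exact mono _ _ fun x => (add_le_add (a1 x) (a2 x)).trans (a4 x)
  show m (QS Q (Dg wr tu fm p s) (Xg wr tu fm p s)) + m (QS Q (Xg wr tu fm p s) (Dg wr tu fm p s)) +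
    QS Q (fun a => Ep p (Dg wr tu fm p s a)) (fun a => Ep p (Dg wr tu fm p s a)) y ≤
    (3 + l) * m (fun x => ∑ i, dI wr tu fm ix p s i x ^ 2) +
      1 / l * m (fun x => ∑ i, EI wr tu fm pi p s i x ^ 2)
  linarith

/-- **the impure part, integrated** -/
theorem I_ir_le (hix : ∀ p m x j, pi (fm p m x j) = ix (wr p j))
    {Q : φ → φ → Prop} (hQ : ∀ a b, Q a b → pi a = pi b) (hs : gst B p s) (hp : p ≠ 0)
    {l : ℝ} (hl : 0 < l) : I (ir Q wr tu fm p s) ≤
      (3 + l) * dq wr tu fm ix p s + 1 / l * I (fun x => ∑ i, EI wr tu fm pi p s i x ^ 2) := by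
  have hp0 : 0 < p := Nat.pos_of_ne_zero hp
  have pE : PB fun x => ∑ i, EI wr tu fm pi p s i x ^ 2 := PB.sum _ fun i _ =>
    PBsq (PB.sum _ fun a _ => H.pEg hs hp a)
  have pd : PB fun x => ∑ i, dI wr tu fm ix p s i x ^ 2 := PB.sum _ fun i _ => PBsq (PB_dI H hs hp i)
  have e1 : (3 + l) * dq wr tu fm ix p s = I (fun y => (3 + l) *
      Ep p (fun x => ∑ i, dI wr tu fm ix p s i x ^ 2) y) := by
    unfold dq
    rw [← I_Ep hp0 pd.integrableOn]
    unfold I
    rw [MeasureTheory.integral_const_mul]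
  have e2 : 1 / l * I (fun x => ∑ i, EI wr tu fm pi p s i x ^ 2) =
      I (fun y => 1 / l * Ep p (fun x => ∑ i, EI wr tu fm pi p s i x ^ 2) y) := by
    rw [← I_Ep hp0 pE.integrableOn]
    unfold I
    rw [MeasureTheory.integral_const_mul]
  have q1 : PB fun y => (3 + l) * Ep p (fun x => ∑ i, dI wr tu fm ix p s i x ^ 2) y :=
    (PB.const (by linarith : 0 ≤ 3 + l)).mul (pd.Ep hp0)
  have q2 : PB fun y => 1 / l * Ep p (fun x => ∑ i, EI wr tu fm pi p s i x ^ 2) y :=
    (PB.const (by positivity : 0 ≤ 1 / l)).mul (pE.Ep hp0)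
  rw [e1, e2, ← I_add q1.integrableOn q2.integrableOn]
  exact I_mono (PB_ir H hs hp).integrableOn (q1.add q2).integrableOn
    fun y => ir_le H hix hQ hs hp hl y

omit H in
/-- **the errors of the local link** -/
noncomputable def erf2 (B : BM (μ × List (DT Λ κ))) (Q : φ → φ → Prop) (wr : ℕ → Λ → κ)
    (tu : ℕ → μ → μ) (fm : ℕ → μ → ℝ → Λ → φ) (ix : κ → ι) (m0 : ℝ)
    (ec : ℕ → Gs (μ × List (DT Λ κ)) → ℝ) (p : ℕ) (s : Gs (μ × List (DT Λ κ))) : ℝ :=
  4 * m0 * (dPhi B Q fm p s + I (jmp Q tu fm p s)) + 4 * m0 * (3 + 4 * m0) *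
    dq wr tu fm ix p s + 2 * ec p s

/-- **THE LOCAL LINK** : `L` = real cost of the group of ties (`I (Σ_i E_i²)`), `A` = costs of the game -/
theorem loc_of2 (hix : ∀ p m x j, pi (fm p m x j) = ix (wr p j))
    {Q : φ → φ → Prop} (hQ : ∀ a b, Q a b → pi a = pi b) (hs : gst B p s) (hp : p ≠ 0)
    (hv : ∀ y a b, Q a b → Ep p (Xg wr tu fm p s a) y * Ep p (Xg wr tu fm p s b) y ≤
      1 / (p : ℝ) * Ep p (fun x => Xg wr tu fm p s a x * Xg wr tu fm p s b x) y)
    {m0 A : ℝ} (hm0 : 1 ≤ m0) (ec : ℕ → Gs (μ × List (DT Λ κ)) → ℝ)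
    (hL : I (fun x => ∑ i, EI wr tu fm pi p s i x ^ 2) ≤
      m0 * A + m0 * I (QS Q (Eg wr tu fm p s) (Eg wr tu fm p s)) + ec p s) :
    I (fun x => ∑ i, EI wr tu fm pi p s i x ^ 2) ≤ 2 * m0 * A + erf2 B Q wr tu fm ix m0 ec p s := by
  have hp0 : 0 < p := Nat.pos_of_ne_zero hp
  have h1 := TM.step2 H (Q := Q) hs hp hv
  have h2 := I_ir_le H hix hQ hs hp (l := 4 * m0) (by linarith)
  set L := I (fun x => ∑ i, EI wr tu fm pi p s i x ^ 2) with hLdef
  set E := I (QS Q (Eg wr tu fm p s) (Eg wr tu fm p s)) with hE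
  set T := dq wr tu fm ix p s with hT
  have nE : 0 ≤ E := I_nonneg fun x =>
    QS_nonneg (fun a => (H.pEg hs hp a).nonneg x) fun a => (H.pEg hs hp a).nonneg x
  -- `E ≤ 2 (dPhi + jmp + ir)`
  have h3 : E ≤ 2 * (dPhi B Q fm p s + I (jmp Q tu fm p s) + I (ir Q wr tu fm p s)) := by
    unfold dPhi
    by_cases h2 : 2 ≤ p
    · have hp2 : (2 : ℝ) ≤ p := by exact_mod_cast h2
      have w2 : (1:ℝ) / p ≤ 1 / 2 := one_div_le_one_div_of_le (by norm_num) hp2
      nlinarith
    · have hp1 : p = 1 := by omega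
      subst hp1
      have e : ∀ a x, Eg wr tu fm 1 s a x = 0 := by
        intro a x
        have e1 : ∀ j, eB (wr 1) 1 (bB 1 (s.L j).2) (oL tu fm 1 (s.L j)) a x = 0 := by
          intro j
          rw [H.no1 (hs.2 j)]
          unfold eB
          rw [hz_eq]
          refine Finset.sum_eq_zero fun c _ => ?_
          have e2 : eg (wr 1) 1 ([] : List (DT Λ κ)) c x = 0 := by
            unfold eg
            have : pG ([] : List (DT Λ κ)) c x = 0 := rfl
            rw [this, mul_zero]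
          rw [e2]; simp
        unfold Eg su
        simp only [e1]
        simp [M]
      have e3 : QS Q (Eg wr tu fm 1 s) (Eg wr tu fm 1 s) = fun _ => 0 := by
        funext x
        unfold QS
        simp [e]
      have e4 : E = 0 := by
        rw [hE, e3]
        unfold I
        simp
      rw [e4] at h1 ⊢
      simp only [mul_zero, zero_add] at h1
      linarith
  have h4 : 1 / (4 * m0) * L = L / (4 * m0) := by ring
  rw [h4] at h2
  have h5 : 2 * m0 * (L / (4 * m0)) = L / 2 := by field_simp; ring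
  unfold erf2
  rw [← hT]
  have h6 := mul_le_mul_of_nonneg_left h3 (by linarith : 0 ≤ m0)
  have h7 := mul_le_mul_of_nonneg_left h2 (by linarith : 0 ≤ 2 * m0)
  have h8 : 2 * m0 * ((3 + 4 * m0) * T + L / (4 * m0)) =
      2 * m0 * ((3 + 4 * m0) * T) + L / 2 := by
    rw [mul_add, h5]
  rw [h8] at h7
  nlinarith

/-- **THE WALK SUM OF THE ERRORS** -/
theorem Kw_erf2 {Q : φ → φ → Prop} {m0 : ℝ} (hm0 : 1 ≤ m0)
    (ec : ℕ → Gs (μ × List (DT Λ κ)) → ℝ) (n p : ℕ) (s : Gs (μ × List (DT Λ κ)))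
    (hs : gst B p s) :
    Kw B (erf2 B Q wr tu fm ix m0 ec) n p s ≤
      4 * m0 * (Phi Q fm p s + Kw B (fun p s => I (jmp Q tu fm p s)) n p s) +
      4 * m0 * (3 + 4 * m0) * Kw B (dq wr tu fm ix) n p s + 2 * Kw B ec n p s := by
  have e0 : erf2 B Q wr tu fm ix m0 ec = fun p s =>
      (4 * m0 * (dPhi B Q fm p s + I (jmp Q tu fm p s)) + 4 * m0 * (3 + 4 * m0) *
    dq wr tu fm ix p s) + 2 * ec p s := rfl
  rw [e0, GSK55.Kw_add, GSK55.Kw_smul, GSK55.Kw_add, GSK55.Kw_smul, GSK55.Kw_smul, GSK55.Kw_add]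
  have h1 := Kw_dPhi H (Q := Q) n p s hs
  have k1 := mul_le_mul_of_nonneg_left h1 (by linarith : 0 ≤ 4 * m0)
  nlinarith

end grp

/-! ### cross pairs with a predicate -/

section imp
variable {Λ κ φ ι : Type} [Fintype Λ] [DecidableEq Λ] [Fintype κ] [DecidableEq κ]
  [Fintype φ] [DecidableEq φ] [Fintype ι] [DecidableEq ι]

variable {kd : Λ → κ} {p : ℕ} {K : List (DT Λ κ)} {o : ℝ → Λ → φ} {ix : κ → ι}
  {S : ℝ → Λ → Λ → Prop}

open Classical in
/-- cross lifts of the real class `c` of the pairs in `S` (P piece `j`, N piece `i`) -/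
noncomputable def xS (kd : Λ → κ) (p : ℕ) (K : List (DT Λ κ)) (o : ℝ → Λ → φ)
    (S : ℝ → Λ → Λ → Prop) (c : κ) (x : ℝ) : ℝ :=
  ∑ j, ∑ i, if kd j = c ∧ kd i = c ∧ o (p * x) j ≠ o (p * x) i ∧ S (p * x) j i then
    bf kd K c (p * x) * (pA K j (p * x) / SA kd K c (p * x)) * pG K i x else 0

open Classical in
/-- cross amount of the real class `c` of the pairs in `S` -/
noncomputable def yS (kd : Λ → κ) (K : List (DT Λ κ)) (o : ℝ → Λ → φ)
    (S : ℝ → Λ → Λ → Prop) (c : κ) (y : ℝ) : ℝ :=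
  ∑ j, ∑ i, if kd j = c ∧ kd i = c ∧ o y j ≠ o y i ∧ S y j i then
    bf kd K c y * (pA K j y / SA kd K c y) * pB K i y else 0

open Classical in
/-- pair energy of the real class `c` of the cross pairs in `S` -/
noncomputable def eS (kd : Λ → κ) (K : List (DT Λ κ)) (o : ℝ → Λ → φ)
    (S : ℝ → Λ → Λ → Prop) (c : κ) (y : ℝ) : ℝ :=
  ∑ j, ∑ i, if kd j = c ∧ kd i = c ∧ o y j ≠ o y i ∧ S y j i then pA K j y * pB K i y else 0

/-- cross lifts of the index `i` of the pairs in `S` -/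
noncomputable def diS (kd : Λ → κ) (p : ℕ) (K : List (DT Λ κ)) (o : ℝ → Λ → φ)
    (S : ℝ → Λ → Λ → Prop) (ix : κ → ι) (i : ι)
    (x : ℝ) : ℝ := ∑ c, if ix c = i then xS kd p K o S c x else 0

/-- cross amount of the index `i` of the pairs in `S` -/
noncomputable def mniS (kd : Λ → κ) (K : List (DT Λ κ)) (o : ℝ → Λ → φ)
    (S : ℝ → Λ → Λ → Prop) (ix : κ → ι) (i : ι)
    (y : ℝ) : ℝ := ∑ c, if ix c = i then yS kd K o S c y else 0

/-- cross amount of the pairs in `S` -/
noncomputable def mnfS (kd : Λ → κ) (K : List (DT Λ κ)) (o : ℝ → Λ → φ)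
    (S : ℝ → Λ → Λ → Prop) (y : ℝ) : ℝ := ∑ c, yS kd K o S c y

lemma sum_mniS (y : ℝ) : ∑ i, mniS kd K o S ix i y = mnfS kd K o S y := by
  unfold mniS mnfS
  rw [Finset.sum_comm]
  exact Finset.sum_congr rfl fun c _ => by simp

lemma xS_nonneg (h : KOk kd p K) (c : κ) (x : ℝ) : 0 ≤ xS kd p K o S c x := by
  refine Finset.sum_nonneg fun j _ => Finset.sum_nonneg fun i _ => ?_
  split_ifs
  · exact mul_nonneg (mul_nonneg (bf0 h c _) (div_nonneg ((h.PA j).nonneg _) (SA0 h c _)))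
      ((PB_pG K i).nonneg x)
  · exact le_rfl

lemma yS_nonneg (h : KOk kd p K) (c : κ) (y : ℝ) : 0 ≤ yS kd K o S c y := by
  refine Finset.sum_nonneg fun j _ => Finset.sum_nonneg fun i _ => ?_
  split_ifs
  · exact mul_nonneg (mul_nonneg (bf0 h c _) (div_nonneg ((h.PA j).nonneg _) (SA0 h c _)))
      ((h.PBb i).nonneg y)
  · exact le_rfl

lemma eS_nonneg (h : KOk kd p K) (c : κ) (y : ℝ) : 0 ≤ eS kd K o S c y := by
  refine Finset.sum_nonneg fun j _ => Finset.sum_nonneg fun i _ => ?_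
  split_ifs
  · exact mul_nonneg ((h.PA j).nonneg _) ((h.PBb i).nonneg y)
  · exact le_rfl

/-- the cross lifts of the pairs in `S` are below the cross amounts -/
lemma xS_le (h : KOk kd p K) (hp : 0 < p) (c : κ) (x : ℝ) :
    xS kd p K o S c x ≤ yS kd K o S c (p * x) := by
  refine Finset.sum_le_sum fun j _ => Finset.sum_le_sum fun i _ => ?_
  split_ifs
  · exact mul_le_mul_of_nonneg_left (lift_le hp (PB_pG K i).nonneg (lift_pG h i) x)
      (mul_nonneg (bf0 h c _) (div_nonneg ((h.PA j).nonneg _) (SA0 h c _)))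
  · exact le_rfl

/-- **the split** -/
lemma xc_split (h : KOk kd p K) (c : κ) (x : ℝ) :
    xc kd p K o c x = xS kd p K o S c x + xS kd p K o (fun y j i => ¬ S y j i) c x := by
  classical
  have e1 : xc kd p K o c x = ∑ j, ∑ i, if kd j = c ∧ kd i = c ∧ o (p * x) j ≠ o (p * x) i then
      bf kd K c (p * x) * (pA K j (p * x) / SA kd K c (p * x)) * pG K i x else 0 := by
    unfold xc
    have e2 : ∀ a, cz kd o (pA K) c a (p * x) / SA kd K c (p * x) *
        (SG kd K c x - cz kd (fun x => o (p * x)) (pG K) c a x) = ∑ j, ∑ i,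
        if o (p * x) j = a then (if kd j = c ∧ kd i = c ∧ o (p * x) j ≠ o (p * x) i then
          pA K j (p * x) / SA kd K c (p * x) * pG K i x else 0) else 0 := by
      intro a
      have e3 : SG kd K c x - cz kd (fun x => o (p * x)) (pG K) c a x =
          ∑ i, if kd i = c ∧ o (p * x) i ≠ a then pG K i x else 0 :=
        sub_cz kd (fun x => o (p * x)) (pG K) c a x
      rw [e3, cz_eq, div_mul_eq_mul_div, Finset.sum_mul_sum, Finset.sum_div]
      refine Finset.sum_congr rfl fun j _ => ?_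
      rw [Finset.sum_div]
      refine Finset.sum_congr rfl fun i _ => ?_
      by_cases h1 : kd j = c
      · by_cases h2 : o (p * x) j = a
        · by_cases h3 : kd i = c
          · by_cases h4 : o (p * x) i = a
            · simp [h1, h2, h3, h4]
            · have h5 : ¬ a = o (p * x) i := fun hh => h4 hh.symm
              simp [h1, h2, h3, h4, h5]
              ring
          · simp [h1, h2, h3]
        · simp [h1, h2]
      · simp [h1]
    simp only [e2]
    rw [Finset.sum_comm, Finset.mul_sum]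
    refine Finset.sum_congr rfl fun j _ => ?_
    rw [Finset.sum_comm, Finset.mul_sum]
    refine Finset.sum_congr rfl fun i _ => ?_
    rw [Finset.sum_ite_eq]
    simp only [Finset.mem_univ, if_true]
    by_cases h1 : kd j = c ∧ kd i = c ∧ o (p * x) j ≠ o (p * x) i
    · rw [if_pos h1, if_pos h1]
      ring
    · rw [if_neg h1, if_neg h1, mul_zero]
  rw [e1]
  unfold xS
  rw [← Finset.sum_add_distrib]
  refine Finset.sum_congr rfl fun j _ => ?_
  rw [← Finset.sum_add_distrib]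
  refine Finset.sum_congr rfl fun i _ => ?_
  by_cases h1 : kd j = c ∧ kd i = c ∧ o (p * x) j ≠ o (p * x) i
  · by_cases h2 : S (p * x) j i
    · rw [if_pos h1, if_pos ⟨h1.1, h1.2.1, h1.2.2, h2⟩, if_neg fun hh => hh.2.2.2 h2, add_zero]
    · rw [if_pos h1, if_neg fun hh => h2 hh.2.2.2, if_pos ⟨h1.1, h1.2.1, h1.2.2, h2⟩, zero_add]
  · rw [if_neg h1, if_neg fun hh => h1 ⟨hh.1, hh.2.1, hh.2.2.1⟩,
      if_neg fun hh => h1 ⟨hh.1, hh.2.1, hh.2.2.1⟩, add_zero]

lemma di_split (h : KOk kd p K) (i : ι) (x : ℝ) : di kd p K o ix i x =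
    diS kd p K o S ix i x + diS kd p K o (fun y j i => ¬ S y j i) ix i x := by
  unfold di diS
  rw [← Finset.sum_add_distrib]
  refine Finset.sum_congr rfl fun c _ => ?_
  by_cases hc : ix c = i
  · rw [if_pos hc, if_pos hc, if_pos hc, xc_split h]
  · rw [if_neg hc, if_neg hc, if_neg hc, add_zero]

/-- the cross amount of the pairs in `S` is below the whole cross amount -/
lemma yS_le_yc (h : KOk kd p K) (c : κ) (y : ℝ) : yS kd K o S c y ≤ yc kd K o c y := by
  classical
  have e1 : yc kd K o c y = ∑ j, ∑ i, if kd j = c ∧ kd i = c ∧ o y j ≠ o y i then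
      bf kd K c y * (pA K j y / SA kd K c y) * pB K i y else 0 := by
    unfold yc
    have e2 : ∀ a, cz kd o (pA K) c a y / SA kd K c y *
        (DTm407.SB kd K c y - cz kd o (pB K) c a y) = ∑ j, ∑ i,
        if o y j = a then (if kd j = c ∧ kd i = c ∧ o y j ≠ o y i then
          pA K j y / SA kd K c y * pB K i y else 0) else 0 := by
      intro a
      unfold DTm407.SB
      rw [sub_cz, cz_eq, div_mul_eq_mul_div, Finset.sum_mul_sum, Finset.sum_div]
      refine Finset.sum_congr rfl fun j _ => ?_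
      rw [Finset.sum_div]
      refine Finset.sum_congr rfl fun i _ => ?_
      by_cases h1 : kd j = c
      · by_cases h2 : o y j = a
        · by_cases h3 : kd i = c
          · by_cases h4 : o y i = a
            · simp [h1, h2, h3, h4]
            · have h5 : ¬ a = o y i := fun hh => h4 hh.symm
              simp [h1, h2, h3, h4, h5]
              ring
          · simp [h1, h2, h3]
        · simp [h1, h2]
      · simp [h1]
    simp only [e2]
    rw [Finset.sum_comm, Finset.mul_sum]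
    refine Finset.sum_congr rfl fun j _ => ?_
    rw [Finset.sum_comm, Finset.mul_sum]
    refine Finset.sum_congr rfl fun i _ => ?_
    rw [Finset.sum_ite_eq]
    simp only [Finset.mem_univ, if_true]
    by_cases h1 : kd j = c ∧ kd i = c ∧ o y j ≠ o y i
    · rw [if_pos h1, if_pos h1]
      ring
    · rw [if_neg h1, if_neg h1, mul_zero]
  rw [e1]
  refine Finset.sum_le_sum fun j _ => Finset.sum_le_sum fun i _ => ?_
  have n : 0 ≤ bf kd K c y * (pA K j y / SA kd K c y) * pB K i y :=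
    mul_nonneg (mul_nonneg (bf0 h c _) (div_nonneg ((h.PA j).nonneg _) (SA0 h c _)))
      ((h.PBb i).nonneg y)
  by_cases h1 : kd j = c ∧ kd i = c ∧ o y j ≠ o y i ∧ S y j i
  · rw [if_pos h1, if_pos ⟨h1.1, h1.2.1, h1.2.2.1⟩]
  · rw [if_neg h1]
    split_ifs
    · exact n
    · exact le_rfl

lemma mniS_le (h : KOk kd p K) (i : ι) (y : ℝ) : mniS kd K o S ix i y ≤ mni kd K o ix i y := by
  unfold mniS mni
  refine Finset.sum_le_sum fun c _ => ?_
  split_ifs
  · exact yS_le_yc h c y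
  · exact le_rfl

/-- **the square of a cross amount is below the pair energy** -/
lemma yS_sq (h : KOk kd p K) (c : κ) (y : ℝ) : yS kd K o S c y ^ 2 ≤ eS kd K o S c y := by
  classical
  have hA := SA0 h c y
  have hB := SB0 h c y
  have e0 := eS_nonneg (o := o) (S := S) h c y
  -- `yS = (bf / SA) eS`
  have e1 : yS kd K o S c y = bf kd K c y / SA kd K c y * eS kd K o S c y := by
    unfold yS eS
    rw [Finset.mul_sum]
    refine Finset.sum_congr rfl fun j _ => ?_
    rw [Finset.mul_sum]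
    refine Finset.sum_congr rfl fun i _ => ?_
    split_ifs
    · ring
    · ring
  -- `eS ≤ SA SB`
  have e2 : eS kd K o S c y ≤ SA kd K c y * DTm407.SB kd K c y := by
    unfold eS SA DTm407.SB
    rw [sm_eq, sm_eq, Finset.sum_mul_sum]
    refine Finset.sum_le_sum fun j _ => Finset.sum_le_sum fun i _ => ?_
    by_cases h1 : kd j = c ∧ kd i = c ∧ o y j ≠ o y i ∧ S y j i
    · rw [if_pos h1, if_pos h1.1, if_pos h1.2.1]
    · rw [if_neg h1]
      refine mul_nonneg ?_ ?_
      · split_ifs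
        · exact (h.PA j).nonneg _
        · exact le_rfl
      · split_ifs
        · exact (h.PBb i).nonneg _
        · exact le_rfl
  have hb := bf0 h c y
  have hb1 := bf1 h c y
  have hbm := bf_mul h c y
  by_cases h0 : SA kd K c y = 0
  · rw [e1, h0, div_zero, zero_mul]
    simpa using e0
  have hA' : 0 < SA kd K c y := lt_of_le_of_ne hA (Ne.symm h0)
  have q0 : 0 ≤ bf kd K c y / SA kd K c y := div_nonneg hb hA
  -- `(bf / SA)² eS ≤ 1`
  have k1 : (bf kd K c y / SA kd K c y) * (bf kd K c y / SA kd K c y) *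
      (SA kd K c y * DTm407.SB kd K c y) ≤ 1 := by
    have k2 : (bf kd K c y / SA kd K c y) * (bf kd K c y / SA kd K c y) *
        (SA kd K c y * DTm407.SB kd K c y) =
        bf kd K c y * (bf kd K c y * DTm407.SB kd K c y) / SA kd K c y := by
      field_simp
    rw [k2, div_le_one hA', hbm]
    have k3 : min (SA kd K c y) (DTm407.SB kd K c y) ≤ SA kd K c y := min_le_left _ _
    have k4 : 0 ≤ min (SA kd K c y) (DTm407.SB kd K c y) := le_min hA hB
    nlinarith
  have k5 : (bf kd K c y / SA kd K c y) * (bf kd K c y / SA kd K c y) * eS kd K o S c y ≤ 1 :=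
    (mul_le_mul_of_nonneg_left e2 (mul_nonneg q0 q0)).trans k1
  rw [e1]
  calc (bf kd K c y / SA kd K c y * eS kd K o S c y) ^ 2 =
      (bf kd K c y / SA kd K c y) * (bf kd K c y / SA kd K c y) * eS kd K o S c y *
        eS kd K o S c y := by ring
    _ ≤ 1 * eS kd K o S c y := mul_le_mul_of_nonneg_right k5 e0
    _ = eS kd K o S c y := one_mul _

/-- **the squares of the cross amounts of the indices**, at most `n0` active classes of an index -/
lemma mniS_sq (h : KOk kd p K) (y : ℝ) {n0 : ℕ}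
    (hn : ∀ i, (Finset.univ.filter fun c => ix c = i ∧ yS kd K o S c y ≠ 0).card ≤ n0) :
    ∑ i, mniS kd K o S ix i y ^ 2 ≤ n0 * ∑ c, eS kd K o S c y := by
  classical
  have e1 : ∑ c, eS kd K o S c y = ∑ i, ∑ c, if ix c = i then eS kd K o S c y else 0 := by
    rw [Finset.sum_comm]
    exact Finset.sum_congr rfl fun c _ => by simp
  rw [e1, Finset.mul_sum]
  refine Finset.sum_le_sum fun i _ => ?_
  set A := Finset.univ.filter fun c => ix c = i ∧ yS kd K o S c y ≠ 0 with hA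
  have e2 : mniS kd K o S ix i y = ∑ c ∈ A, yS kd K o S c y := by
    unfold mniS
    rw [hA, Finset.sum_filter]
    refine Finset.sum_congr rfl fun c _ => ?_
    by_cases h1 : ix c = i
    · by_cases h2 : yS kd K o S c y = 0
      · simp [h1, h2]
      · simp [h1, h2]
    · simp [h1]
  have e3 : ∑ c ∈ A, yS kd K o S c y ^ 2 ≤ ∑ c, if ix c = i then eS kd K o S c y else 0 := by
    have k : ∀ c, 0 ≤ (if ix c = i then eS kd K o S c y else 0) := fun c => by
      split_ifs
      · exact eS_nonneg h c y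
      · exact le_rfl
    refine le_trans ?_ (Finset.sum_le_sum_of_subset_of_nonneg (Finset.filter_subset
      (fun c => ix c = i ∧ yS kd K o S c y ≠ 0) _) fun c _ _ => k c)
    refine Finset.sum_le_sum fun c hc => ?_
    rw [if_pos (Finset.mem_filter.1 hc).2.1]
    exact yS_sq h c y
  rw [e2]
  have h4 := sq_sum_le_card_mul_sum_sq (s := A) (f := fun c => yS kd K o S c y)
  have h5 : (A.card : ℝ) ≤ n0 := by exact_mod_cast hn i
  have h6 : 0 ≤ ∑ c ∈ A, yS kd K o S c y ^ 2 := Finset.sum_nonneg fun c _ => sq_nonneg _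
  calc (∑ c ∈ A, yS kd K o S c y) ^ 2 ≤ (A.card : ℝ) * ∑ c ∈ A, yS kd K o S c y ^ 2 := h4
    _ ≤ n0 * ∑ c ∈ A, yS kd K o S c y ^ 2 := mul_le_mul_of_nonneg_right h5 h6
    _ ≤ n0 * ∑ c, if ix c = i then eS kd K o S c y else 0 :=
        mul_le_mul_of_nonneg_left e3 (Nat.cast_nonneg _)

/-! measurability -/

lemma MP_S (ho : ∀ j, MP fun y => o y j) (hS : ∀ j i, MP fun y => S y j i) (c : κ) (j i : Λ) :
    MP fun y => kd j = c ∧ kd i = c ∧ o y j ≠ o y i ∧ S y j i :=
  ((ho j).prod ((ho i).prod (hS j i))).map fun q => kd j = c ∧ kd i = c ∧ q.1 ≠ q.2.1 ∧ q.2.2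

lemma PB_fr (h : KOk kd p K) {c : κ} {j : Λ} (hj : kd j = c) :
    PB fun y => bf kd K c y * (pA K j y / SA kd K c y) := by
  refine (PB_bf h c).mul ⟨(h.PA j).meas.div (PB_SA h c).meas, fun y =>
    div_nonneg ((h.PA j).nonneg y) (SA0 h c y), ⟨1, fun y => div_le_one_of_le₀ ?_ (SA0 h c y)⟩,
    fun y => ?_⟩
  · unfold SA
    rw [sm_eq]
    have := Finset.single_le_sum (f := fun j => if kd j = c then pA K j y else 0)
      (fun j _ => by
        show (0:ℝ) ≤ if kd j = c then pA K j y else 0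
        split_ifs
        · exact (h.PA j).nonneg y
        · exact le_rfl) (Finset.mem_univ j)
    simp only [if_pos hj] at this
    exact this
  · show pA K j (y + 1) / SA kd K c (y + 1) = _
    rw [(h.PA j).per, (PB_SA h c).per]

lemma PB_xS (h : KOk kd p K) (ho : ∀ j, MP fun y => o y j) (hS : ∀ j i, MP fun y => S y j i)
    (c : κ) : PB (xS kd p K o S c) := by
  classical
  refine PB.sum _ fun j _ => PB.sum _ fun i _ => ?_
  by_cases hj : kd j = c
  · have m := ((MP_S (kd := kd) ho hS c j i).pull p).prop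
    exact ModeG51.PB_ite m.1 m.2 (((PB_fr h hj).pull p).mul (PB_pG K i)) (PB.const le_rfl)
  · have e : (fun x => if kd j = c ∧ kd i = c ∧ o (p * x) j ≠ o (p * x) i ∧ S (p * x) j i then
        bf kd K c (p * x) * (pA K j (p * x) / SA kd K c (p * x)) * pG K i x else 0) =
        fun _ => (0:ℝ) := funext fun x => if_neg fun hh => hj hh.1
    rw [e]
    exact PB.const le_rfl

lemma PB_yS (h : KOk kd p K) (ho : ∀ j, MP fun y => o y j) (hS : ∀ j i, MP fun y => S y j i)
    (c : κ) : PB (yS kd K o S c) := by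
  classical
  refine PB.sum _ fun j _ => PB.sum _ fun i _ => ?_
  by_cases hj : kd j = c
  · have m := (MP_S (kd := kd) ho hS c j i).prop
    exact ModeG51.PB_ite m.1 m.2 ((PB_fr h hj).mul (h.PBb i)) (PB.const le_rfl)
  · have e : (fun y => if kd j = c ∧ kd i = c ∧ o y j ≠ o y i ∧ S y j i then
        bf kd K c y * (pA K j y / SA kd K c y) * pB K i y else 0) =
        fun _ => (0:ℝ) := funext fun x => if_neg fun hh => hj hh.1
    rw [e]
    exact PB.const le_rfl

lemma PB_eS (h : KOk kd p K) (ho : ∀ j, MP fun y => o y j) (hS : ∀ j i, MP fun y => S y j i)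
    (c : κ) : PB (eS kd K o S c) := by
  classical
  refine PB.sum _ fun j _ => PB.sum _ fun i _ => ?_
  have m := (MP_S (kd := kd) ho hS c j i).prop
  exact ModeG51.PB_ite m.1 m.2 ((h.PA j).mul (h.PBb i)) (PB.const le_rfl)

/-- **the mean of the cross lifts** -/
lemma Ep_xS (h : KOk kd p K) (hp : 0 < p) (ho : ∀ j, MP fun y => o y j)
    (hS : ∀ j i, MP fun y => S y j i) (c : κ) (y : ℝ) :
    Ep p (xS kd p K o S c) y = 1 / (p : ℝ) * yS kd K o S c y := by
  classical
  have e1 : ∀ k : ℕ, (p : ℝ) * ((y + (k : ℝ)) / p) = y + k := fun k => by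
    have : (p : ℝ) ≠ 0 := by exact_mod_cast hp.ne'
    field_simp
  have e : xS kd p K o S c = fun x => ∑ j, ∑ i, if kd j = c ∧ kd i = c ∧
    o (p * x) j ≠ o (p * x) i ∧ S (p * x) j i then
    bf kd K c (p * x) * (pA K j (p * x) / SA kd K c (p * x)) * pG K i x else 0 := rfl
  rw [e, PayR45.Ep_sum']
  unfold yS
  rw [Finset.mul_sum]
  refine Finset.sum_congr rfl fun j _ => ?_
  rw [PayR45.Ep_sum', Finset.mul_sum]
  refine Finset.sum_congr rfl fun i _ => ?_
  have hG : Ep p (pG K i) y = 1 / (p : ℝ) * pB K i y := by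
    unfold Ep
    rw [lift_pG h i y]; ring
  have m := MP_S (kd := kd) ho hS c j i
  by_cases hc : kd j = c ∧ kd i = c ∧ o y j ≠ o y i ∧ S y j i
  · rw [if_pos hc]
    have e2 : Ep p (fun x => if kd j = c ∧ kd i = c ∧ o (p * x) j ≠ o (p * x) i ∧ S (p * x) j i then
        bf kd K c (p * x) * (pA K j (p * x) / SA kd K c (p * x)) * pG K i x else 0) y =
        bf kd K c y * (pA K j y / SA kd K c y) * Ep p (pG K i) y := by
      unfold Ep
      rw [← mul_div_assoc, Finset.mul_sum]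
      congr 1
      refine Finset.sum_congr rfl fun k _ => ?_
      have m1 := m.per_nat k y
      beta_reduce
      rw [e1, (PB_bf h c).per_nat, (h.PA j).per_nat, (PB_SA h c).per_nat, if_pos (by rw [m1]; exact hc)]
    rw [e2, hG]
    ring
  · rw [if_neg hc, mul_zero]
    unfold Ep
    rw [Finset.sum_eq_zero, zero_div]
    intro k _
    have m1 := m.per_nat k y
    beta_reduce
    rw [e1, if_neg (by rw [m1]; exact hc)]

lemma PB_diS (h : KOk kd p K) (ho : ∀ j, MP fun y => o y j) (hS : ∀ j i, MP fun y => S y j i)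
    (i : ι) : PB (diS kd p K o S ix i) := by
  refine PB.sum _ fun c _ => ?_
  by_cases hc : ix c = i
  · simp only [if_pos hc]
    exact PB_xS h ho hS c
  · simp only [if_neg hc]
    exact PB.const le_rfl

lemma PB_mniS (h : KOk kd p K) (ho : ∀ j, MP fun y => o y j) (hS : ∀ j i, MP fun y => S y j i)
    (i : ι) : PB (mniS kd K o S ix i) := by
  refine PB.sum _ fun c _ => ?_
  by_cases hc : ix c = i
  · simp only [if_pos hc]
    exact PB_yS h ho hS c
  · simp only [if_neg hc]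
    exact PB.const le_rfl

lemma Ep_diS (h : KOk kd p K) (hp : 0 < p) (ho : ∀ j, MP fun y => o y j)
    (hS : ∀ j i, MP fun y => S y j i) (i : ι) (y : ℝ) :
    Ep p (diS kd p K o S ix i) y = 1 / (p : ℝ) * mniS kd K o S ix i y := by
  have e : diS kd p K o S ix i = fun x => ∑ c, if ix c = i then xS kd p K o S c x else 0 := rfl
  rw [e, PayR45.Ep_sum']
  unfold mniS
  rw [Finset.mul_sum]
  refine Finset.sum_congr rfl fun c _ => ?_
  by_cases hc : ix c = i
  · simp only [if_pos hc]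
    exact Ep_xS h hp ho hS c y
  · simp only [if_neg hc]
    unfold Ep; simp

lemma diS_le (h : KOk kd p K) (hp : 0 < p) (i : ι) (x : ℝ) :
    diS kd p K o S ix i x ≤ mniS kd K o S ix i (p * x) := by
  unfold diS mniS
  refine Finset.sum_le_sum fun c _ => ?_
  split_ifs
  · exact xS_le h hp c x
  · exact le_rfl

lemma diS_nonneg (h : KOk kd p K) (i : ι) (x : ℝ) : 0 ≤ diS kd p K o S ix i x := by
  refine Finset.sum_nonneg fun c _ => ?_
  split_ifs
  · exact xS_nonneg h c x
  · exact le_rfl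

lemma mniS_nonneg (h : KOk kd p K) (i : ι) (y : ℝ) : 0 ≤ mniS kd K o S ix i y := by
  refine Finset.sum_nonneg fun c _ => ?_
  split_ifs
  · exact yS_nonneg h c y
  · exact le_rfl

/-- **the energy of the cross lifts of an index on a fibre** -/
lemma Ep_diS_sq (h : KOk kd p K) (hp : 0 < p) (ho : ∀ j, MP fun y => o y j)
    (hS : ∀ j i, MP fun y => S y j i) (i : ι) (y : ℝ) :
    Ep p (fun x => diS kd p K o S ix i x ^ 2) y ≤ 1 / (p : ℝ) * mniS kd K o S ix i y ^ 2 := by
  have hp' : (0 : ℝ) < p := by exact_mod_cast hp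
  have e1 : ∀ k : ℕ, (p : ℝ) * ((y + (k : ℝ)) / p) = y + k := fun k => by field_simp
  have h1 : Ep p (fun x => diS kd p K o S ix i x ^ 2) y ≤
      mniS kd K o S ix i y * Ep p (diS kd p K o S ix i) y := by
    unfold Ep
    rw [← mul_div_assoc, Finset.mul_sum]
    refine div_le_div_of_nonneg_right (Finset.sum_le_sum fun k _ => ?_) hp'.le
    have h2 := diS_le (o := o) (S := S) (ix := ix) h hp i ((y + (k : ℝ)) / p)
    rw [e1, (PB_mniS h ho hS i).per_nat] at h2
    beta_reduce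
    rw [sq]
    exact mul_le_mul_of_nonneg_right h2 (diS_nonneg h i _)
  refine h1.trans (le_of_eq ?_)
  rw [Ep_diS h hp ho hS]
  ring

end imp

/-! ### the group: linear part and second order part -/

section grp
variable {μ Λ κ φ ι : Type} [Fintype Λ] [DecidableEq Λ] [Fintype κ] [DecidableEq κ]
  [Fintype φ] [DecidableEq φ] [Fintype ι] [DecidableEq ι]
variable {B : BM (μ × List (DT Λ κ))} {wr : ℕ → Λ → κ} {tu : ℕ → μ → μ}
  {fm : ℕ → μ → ℝ → Λ → φ} {p : ℕ} {s : Gs (μ × List (DT Λ κ))} {b : μ × List (DT Λ κ)}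
  {pi : φ → ι} {ix : κ → ι}

/-- predicates of the pairs of a bundle at the low point -/
abbrev SP (μ Λ κ : Type) : Type := ℕ → μ × List (DT Λ κ) → ℝ → Λ → Λ → Prop

/-- the complement -/
def SP.not (S : SP μ Λ κ) : SP μ Λ κ := fun p b y j i => ¬ S p b y j i

lemma SP.not_mp {S : SP μ Λ κ} (hS : ∀ p b j i, MP fun y => S p b y j i) (p : ℕ)
    (b : μ × List (DT Λ κ)) (j i : Λ) : MP fun y => S.not p b y j i :=
  (hS p b j i).map fun q => ¬ q

/-- group cross lifts of the pairs in `S` -/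
noncomputable def dS (wr : ℕ → Λ → κ) (tu : ℕ → μ → μ) (fm : ℕ → μ → ℝ → Λ → φ) (S : SP μ Λ κ)
    (ix : κ → ι) (p : ℕ) (s : Gs (μ × List (DT Λ κ))) (i : ι) : ℝ → ℝ :=
  su s fun b => diS (wr p) p (bB p b.2) (oL tu fm p b) (S p b) ix i

/-- **cross amount of the pairs in `S`** of a bundle -/
noncomputable def mnS (wr : ℕ → Λ → κ) (tu : ℕ → μ → μ) (fm : ℕ → μ → ℝ → Λ → φ) (S : SP μ Λ κ)
    (p : ℕ) (b : μ × List (DT Λ κ)) : ℝ → ℝ := mnfS (wr p) (bB p b.2) (oL tu fm p b) (S p b)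

/-- **squares of the cross amounts of the indices** of a bundle -/
noncomputable def mnq (wr : ℕ → Λ → κ) (tu : ℕ → μ → μ) (fm : ℕ → μ → ℝ → Λ → φ) (S : SP μ Λ κ)
    (ix : κ → ι) (p : ℕ) (b : μ × List (DT Λ κ)) (y : ℝ) : ℝ :=
  1 / (p : ℝ) * ∑ i, mniS (wr p) (bB p b.2) (oL tu fm p b) (S p b) ix i y ^ 2

/-- energy of the group cross lifts of the pairs in `S` -/
noncomputable def dqS (wr : ℕ → Λ → κ) (tu : ℕ → μ → μ) (fm : ℕ → μ → ℝ → Λ → φ) (S : SP μ Λ κ)
    (ix : κ → ι) (p : ℕ) (s : Gs (μ × List (DT Λ κ))) : ℝ :=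
  I fun x => ∑ i, dS wr tu fm S ix p s i x ^ 2

variable (H : TM B wr tu fm)

include H

lemma PB_dS {S : SP μ Λ κ} (hS : ∀ p b j i, MP fun y => S p b y j i) (hs : gst B p s)
    (hp : p ≠ 0) (i : ι) : PB (dS wr tu fm S ix p s i) :=
  PB_su' (f := fun b => diS (wr p) p (bB p b.2) (oL tu fm p b) (S p b) ix i) hs.1
    fun j => PB_diS (H.kok (hs.2 j) hp) (H.mo (s.L j) p) (hS p (s.L j)) i

lemma PB_mnS {S : SP μ Λ κ} (hS : ∀ p b j i, MP fun y => S p b y j i) (hb : B.ok p b)
    (hp : p ≠ 0) : PB (mnS wr tu fm S p b) :=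
  PB.sum _ fun c _ => PB_yS (H.kok hb hp) (H.mo b p) (hS p b) c

lemma PB_mnq {S : SP μ Λ κ} (hS : ∀ p b j i, MP fun y => S p b y j i) (hb : B.ok p b)
    (hp : p ≠ 0) : PB (mnq wr tu fm S ix p b) :=
  (PB.const (by positivity)).mul (PB.sum _ fun i _ =>
    PBsq (PB_mniS (H.kok hb hp) (H.mo b p) (hS p b) i))

/-- **the split of the energy** -/
theorem dq_split {S : SP μ Λ κ} (hS : ∀ p b j i, MP fun y => S p b y j i) (hs : gst B p s)
    (hp : p ≠ 0) : dq wr tu fm ix p s ≤
      2 * dqS wr tu fm S ix p s + 2 * dqS wr tu fm S.not ix p s := by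
  have p1 : PB fun x => ∑ i, dS wr tu fm S ix p s i x ^ 2 :=
    PB.sum _ fun i _ => PBsq (PB_dS H hS hs hp i)
  have p2 : PB fun x => ∑ i, dS wr tu fm S.not ix p s i x ^ 2 :=
    PB.sum _ fun i _ => PBsq (PB_dS H (SP.not_mp hS) hs hp i)
  have p0 : PB fun x => ∑ i, dI wr tu fm ix p s i x ^ 2 :=
    PB.sum _ fun i _ => PBsq (PB_dI H hs hp i)
  have e : 2 * dqS wr tu fm S ix p s + 2 * dqS wr tu fm S.not ix p s =
      I (fun x => 2 * (∑ i, dS wr tu fm S ix p s i x ^ 2) +
        2 * ∑ i, dS wr tu fm S.not ix p s i x ^ 2) := by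
    unfold dqS
    rw [I_add (p1.smul (by norm_num : (0:ℝ) ≤ 2)).integrableOn
      (p2.smul (by norm_num : (0:ℝ) ≤ 2)).integrableOn]
    unfold I
    rw [MeasureTheory.integral_const_mul, MeasureTheory.integral_const_mul]
  rw [e]
  refine I_mono p0.integrableOn ((p1.smul (by norm_num : (0:ℝ) ≤ 2)).add
    (p2.smul (by norm_num : (0:ℝ) ≤ 2))).integrableOn fun x => ?_
  rw [Finset.mul_sum, Finset.mul_sum, ← Finset.sum_add_distrib]
  refine Finset.sum_le_sum fun i _ => ?_
  have e1 : dI wr tu fm ix p s i x = dS wr tu fm S ix p s i x + dS wr tu fm S.not ix p s i x := by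
    unfold dI dS su
    rw [← M_add]
    congr 1
    funext j
    exact di_split (H.kok (hs.2 j) hp) i x
  rw [e1]
  nlinarith [sq_nonneg (dS wr tu fm S ix p s i x - dS wr tu fm S.not ix p s i x)]

/-- the energy vanishes at the column 1 -/
lemma dS_one {S : SP μ Λ κ} {s : Gs (μ × List (DT Λ κ))} (hs : gst B 1 s) (i : ι) (x : ℝ) :
    dS wr tu fm S ix 1 s i x = 0 := by
  unfold dS su
  have e : ∀ j, diS (wr 1) 1 (bB 1 (s.L j).2) (oL tu fm 1 (s.L j)) (S 1 (s.L j)) ix i x = 0 := by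
    intro j
    rw [H.no1 (hs.2 j)]
    unfold diS
    refine Finset.sum_eq_zero fun c _ => ?_
    split_ifs
    · unfold xS
      refine Finset.sum_eq_zero fun j _ => Finset.sum_eq_zero fun i _ => ?_
      have : pG ([] : List (DT Λ κ)) i x = 0 := rfl
      split_ifs
      · rw [this, mul_zero]
      · rfl
    · rfl
  simp only [e]
  simp [M]

/-- **second order part** -/
theorem dqS_sq {S : SP μ Λ κ} (hS : ∀ p b j i, MP fun y => S p b y j i) (hs : gst B p s)
    (hp : p ≠ 0) : dqS wr tu fm S ix p s ≤ I (su s (mnq wr tu fm S ix p)) := by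
  have hp0 : 0 < p := Nat.pos_of_ne_zero hp
  have hp' : (0 : ℝ) < p := by exact_mod_cast hp0
  have p1 : PB fun x => ∑ i, dS wr tu fm S ix p s i x ^ 2 :=
    PB.sum _ fun i _ => PBsq (PB_dS H hS hs hp i)
  have p2 : PB (su s (mnq wr tu fm S ix p)) :=
    PB_su' (f := mnq wr tu fm S ix p) hs.1 fun j => PB_mnq H hS (hs.2 j) hp
  unfold dqS
  rw [← I_Ep hp0 p1.integrableOn]
  refine I_mono (p1.Ep hp0).integrableOn p2.integrableOn fun y => ?_
  have e1 : Ep p (fun x => ∑ i, dS wr tu fm S ix p s i x ^ 2) y =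
      ∑ i, Ep p (fun x => dS wr tu fm S ix p s i x ^ 2) y := PayR45.Ep_sum' _ _ _ _
  have e2 : su s (mnq wr tu fm S ix p) y = ∑ i, M s.c fun j => 1 / (p : ℝ) *
      mniS (wr p) (bB p (s.L j).2) (oL tu fm p (s.L j)) (S p (s.L j)) ix i y ^ 2 := by
    unfold su mnq
    rw [← M_sum]
    congr 1
    funext j
    rw [Finset.mul_sum]
  rw [e1, e2]
  refine Finset.sum_le_sum fun i _ => ?_
  have h1 : Ep p (fun x => dS wr tu fm S ix p s i x ^ 2) y ≤
      Ep p (su s fun b x => diS (wr p) p (bB p b.2) (oL tu fm p b) (S p b) ix i x ^ 2) y := by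
    unfold Ep
    refine div_le_div_of_nonneg_right (Finset.sum_le_sum fun k _ => ?_) hp'.le
    exact Mism16.M_sq hs.1 _
  refine h1.trans ?_
  rw [Ep_su']
  exact M_mono hs.1.c0 fun j =>
    Ep_diS_sq (H.kok (hs.2 j) hp) hp0 (H.mo (s.L j) p) (hS p (s.L j)) i y

/-- the cross amounts of the group are below the content of the children -/
lemma mn_le_T (h2 : 2 ≤ p) (hs : gst B p s) (hix : ∀ p m x j, pi (fm p m x j) = ix (wr p j))
    (i : ι) (y : ℝ) : M s.c (fun j => mni (wr p) (bB p (s.L j).2) (oL tu fm p (s.L j)) ix i y) ≤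
      2 * su (B.C p s) (fun b => bt b.2) y := by
  have hp : p ≠ 0 := by omega
  have hp0 : 0 < p := by omega
  have c0 := hs.1.c0
  have hp2 : (2 : ℝ) ≤ p := by exact_mod_cast h2
  have w2 : (1:ℝ) / p ≤ 1 / 2 := one_div_le_one_div_of_le (by norm_num) hp2
  have k0 : su (B.C p s) (fun b => bt b.2) y = M s.c fun j =>
      (1 - 1 / (p : ℝ)) * bt (B.cP p (s.L j)).2 y + 1 / (p : ℝ) * bt (B.cN p (s.L j)).2 y := by
    rw [BC_pos B h2]
    show M (cT (1 - 1 / (p : ℝ)) s.c) (fun x : s.J × Bool =>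
      bt (if x.2 = true then B.cP p (s.L x.1) else B.cN p (s.L x.1)).2 y) = _
    rw [M_cT]
    congr 1
    funext j
    unfold av
    simp
    ring
  rw [k0, ← M_smul]
  refine M_mono c0 fun j => ?_
  have k1 := mni_le (o := oL tu fm p (s.L j)) (ix := ix) (H.kok (hs.2 j) hp) i y
  have k2 := cI_ge (pi := pi) (ix := ix) (H.kok (hs.2 j) hp) hp0 (o := oL tu fm p (s.L j))
    (fun x j => hix _ _ _ _) i y
  have k3 : 0 ≤ ∑ j', if ix (wr p j') = i then pA (bB p (s.L j).2) j' y else 0 :=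
    Finset.sum_nonneg fun j' _ => by
      split_ifs
      · exact ((H.kok (hs.2 j) hp).PA j').nonneg y
      · exact le_rfl
  have k4 := cI_le (pi := pi) (o := oL tu fm p (s.L j)) (H.kok (hs.2 j) hp) hp0 i y
  rw [H.eP (hs.2 j) hp, H.eN (hs.2 j) hp]
  show _ ≤ 2 * ((1 - 1 / (p : ℝ)) * bt ((bB p (s.L j).2).map chP) y +
    1 / (p : ℝ) * bt ((bB p (s.L j).2).map chN) y)
  nlinarith

/-- **linear part** -/
theorem dqS_lin {S : SP μ Λ κ} (hS : ∀ p b j i, MP fun y => S p b y j i)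
    (hix : ∀ p m x j, pi (fm p m x j) = ix (wr p j)) (hs : gst B p s)
    (hp : p ≠ 0) : dqS wr tu fm S ix p s ≤
      2 * I (fun y => su s (fun b y => 1 / (p : ℝ) * mnS wr tu fm S p b y) y *
        su (B.C p s) (fun b => bt b.2) y) := by
  have hp0 : 0 < p := Nat.pos_of_ne_zero hp
  have hp' : (0 : ℝ) < p := by exact_mod_cast hp0
  have c0 := hs.1.c0
  have sC := gst_C H.cl hs hp
  have p1 : PB fun x => ∑ i, dS wr tu fm S ix p s i x ^ 2 :=
    PB.sum _ fun i _ => PBsq (PB_dS H hS hs hp i)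
  have p2 : PB (su s (fun b y => 1 / (p : ℝ) * mnS wr tu fm S p b y)) :=
    PB_su' (f := fun b y => 1 / (p : ℝ) * mnS wr tu fm S p b y) hs.1
      fun j => (PB.const (by positivity)).mul (PB_mnS H hS (hs.2 j) hp)
  have p3 : PB (su (B.C p s) fun b => bt b.2) := PB_su' sC.1 fun j => E3S479.PB_bt (H.pbl (sC.2 j))
  have e0 : 2 * I (fun y => su s (fun b y => 1 / (p : ℝ) * mnS wr tu fm S p b y) y *
        su (B.C p s) (fun b => bt b.2) y) = I (fun y => 2 *
        (su s (fun b y => 1 / (p : ℝ) * mnS wr tu fm S p b y) y *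
        su (B.C p s) (fun b => bt b.2) y)) := by
    unfold I
    rw [MeasureTheory.integral_const_mul]
  rw [e0]
  unfold dqS
  rw [← I_Ep hp0 p1.integrableOn]
  refine I_mono (p1.Ep hp0).integrableOn
    ((p2.mul p3).smul (by norm_num : (0:ℝ) ≤ 2)).integrableOn fun y => ?_
  by_cases h2 : 2 ≤ p
  swap
  · have hp1 : p = 1 := by omega
    subst hp1
    have e1 : (fun x => ∑ i, dS wr tu fm S ix 1 s i x ^ 2) = fun _ => (0:ℝ) := by
      funext x
      exact Finset.sum_eq_zero fun i _ => by rw [dS_one H hs]; ring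
    rw [e1]
    have e2 : Ep 1 (fun _ : ℝ => (0:ℝ)) y = 0 := by unfold Ep; simp
    rw [e2]
    exact mul_nonneg (by norm_num) (mul_nonneg (p2.nonneg y) (p3.nonneg y))
  set T : ℝ := su (B.C p s) (fun b => bt b.2) y with hT
  have T0 : 0 ≤ T := p3.nonneg y
  have e1 : Ep p (fun x => ∑ i, dS wr tu fm S ix p s i x ^ 2) y =
      ∑ i, Ep p (fun x => dS wr tu fm S ix p s i x ^ 2) y := PayR45.Ep_sum' _ _ _ _
  have e2 : su s (fun b y => 1 / (p : ℝ) * mnS wr tu fm S p b y) y = ∑ i, M s.c fun j =>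
      1 / (p : ℝ) * mniS (wr p) (bB p (s.L j).2) (oL tu fm p (s.L j)) (S p (s.L j)) ix i y := by
    unfold su mnS
    rw [← M_sum]
    congr 1
    funext j
    rw [← Finset.mul_sum, sum_mniS]
  rw [e1, e2, Finset.sum_mul, Finset.mul_sum]
  refine Finset.sum_le_sum fun i _ => ?_
  -- one index
  set mn : ℝ := M s.c fun j => mniS (wr p) (bB p (s.L j).2) (oL tu fm p (s.L j)) (S p (s.L j)) ix i y
    with hmn
  have mn0 : 0 ≤ mn := M_nonneg c0 fun j => mniS_nonneg (H.kok (hs.2 j) hp) i y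
  have k1 : mn ≤ 2 * T := (M_mono c0 fun j => mniS_le (H.kok (hs.2 j) hp) i y).trans
    (mn_le_T H h2 hs hix i y)
  have k2 : ∀ k < p, dS wr tu fm S ix p s i ((y + (k : ℕ)) / p) ≤ mn := by
    intro k _
    refine M_mono c0 fun j => ?_
    refine (diS_le (H.kok (hs.2 j) hp) hp0 i _).trans (le_of_eq ?_)
    have e3 : (p : ℝ) * ((y + (k : ℝ)) / p) = y + k := by field_simp
    rw [e3]
    exact (PB_mniS (H.kok (hs.2 j) hp) (H.mo (s.L j) p) (hS p (s.L j)) i).per_nat k y
  have k3 : Ep p (dS wr tu fm S ix p s i) y = 1 / (p : ℝ) * mn := by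
    show Ep p (su s fun b => diS (wr p) p (bB p b.2) (oL tu fm p b) (S p b) ix i) y = _
    rw [Ep_su', hmn, ← M_smul]
    congr 1
    funext j
    exact Ep_diS (H.kok (hs.2 j) hp) hp0 (H.mo (s.L j) p) (hS p (s.L j)) i y
  have k4 : Ep p (fun x => dS wr tu fm S ix p s i x ^ 2) y ≤ mn * Ep p (dS wr tu fm S ix p s i) y := by
    unfold Ep
    rw [← mul_div_assoc, Finset.mul_sum]
    refine div_le_div_of_nonneg_right (Finset.sum_le_sum fun k hk => ?_) hp'.le
    beta_reduce
    rw [sq]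
    exact mul_le_mul_of_nonneg_right (k2 k (Finset.mem_range.1 hk))
      ((PB_dS H hS hs hp i).nonneg _)
  rw [k3] at k4
  have e4 : (M s.c fun j => 1 / (p : ℝ) * mniS (wr p) (bB p (s.L j).2) (oL tu fm p (s.L j))
      (S p (s.L j)) ix i y) = 1 / (p : ℝ) * mn := by rw [M_smul]
  rw [e4]
  have k5 : 0 ≤ 1 / (p : ℝ) * mn := mul_nonneg (by positivity) mn0
  have k6 := mul_le_mul_of_nonneg_right k1 k5
  linarith

/-- **THE WALK SUM OF THE ERRORS** : linear part with a charge `Qi` of total rate `J`, second order part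
= walk sum of the squares of the cross amounts -/
theorem her_of2 (hix : ∀ p m x j, pi (fm p m x j) = ix (wr p j)) {Q : φ → φ → Prop}
    {ok : ℕ → Gs (μ × List (DT Λ κ)) → Prop} (hg : ∀ {p s}, ok p s → gst B p s)
    (hC : ∀ {p s}, ok p s → p ≠ 0 → ok p (B.C p s))
    (hN : ∀ {p s}, ok p s → p ≠ 0 → ok (p - 1) (B.N p s))
    {m0 : ℝ} (hm0 : 1 ≤ m0) (ec : ℕ → Gs (μ × List (DT Λ κ)) → ℝ)
    {S : SP μ Λ κ} (hS : ∀ p b j i, MP fun y => S p b y j i)
    (Qi : BCh B) {J : ℝ} (hJ : 0 < J) (hY : ∀ {p b}, B.ok p b → ∀ x, Qi.Y p b x ≤ J * bt b.2 x)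
    (hmn : ∀ {p b}, B.ok p b → p ≠ 0 → ∀ y, 1 / (p : ℝ) * mnS wr tu fm S p b y ≤ Qi.yc p b y)
    (n p : ℕ) (s : Gs (μ × List (DT Λ κ))) (hs : ok p s) :
    Kw B (erf2 B Q wr tu fm ix m0 ec) n p s ≤
      4 * m0 * (Phi Q fm p s + Kw B (fun p s => I (jmp Q tu fm p s)) n p s) +
      8 * m0 * (3 + 4 * m0) * (4 * J * I (fun x => su s (fun b => bt b.2) x ^ 2) +
        Kw B (fun p s => I (su s (mnq wr tu fm S.not ix p))) n p s) +
      2 * Kw B ec n p s := by
  have h1 := Kw_erf2 H (Q := Q) (ix := ix) hm0 ec n p s (hg hs)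
  have h2 := Kw_bil H Qi hJ hg hC hN hY n p s hs
  have h3 : Kw B (dq wr tu fm ix) n p s ≤ Kw B (fun p s => 4 *
      I (fun y => su s (Qi.yc p) y * su (B.C p s) (fun b => bt b.2) y) +
      2 * I (su s (mnq wr tu fm S.not ix p))) n p s := by
    refine GSK55.Kw_mono (ok := ok) hC hN (fun {p s} hs hp => ?_) n p s hs
    have g := hg hs
    have gC := gst_C H.cl g hp
    have a1 := dq_split H (ix := ix) hS g hp
    have a2 := dqS_lin H hS hix g hp
    have a3 := dqS_sq H (ix := ix) (SP.not_mp hS) g hp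
    have p0 : PB (su s (fun b y => 1 / (p : ℝ) * mnS wr tu fm S p b y)) :=
      PB_su' (f := fun b y => 1 / (p : ℝ) * mnS wr tu fm S p b y) g.1
        fun j => (PB.const (by positivity)).mul (PB_mnS H hS (g.2 j) hp)
    have p1 : PB (su s (Qi.yc p)) := PB_su' g.1 fun j => Qi.pyc (g.2 j) hp
    have p2 : PB (su (B.C p s) fun b => bt b.2) := PB_su' gC.1 fun j => E3S479.PB_bt (H.pbl (gC.2 j))
    have a4 : I (fun y => su s (fun b y => 1 / (p : ℝ) * mnS wr tu fm S p b y) y *
        su (B.C p s) (fun b => bt b.2) y) ≤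
        I (fun y => su s (Qi.yc p) y * su (B.C p s) (fun b => bt b.2) y) := by
      refine I_mono (p0.mul p2).integrableOn (p1.mul p2).integrableOn fun y => ?_
      exact mul_le_mul_of_nonneg_right (M_mono g.1.c0 fun j => hmn (g.2 j) hp y) (p2.nonneg y)
    linarith
  rw [GSK55.Kw_add, GSK55.Kw_smul, GSK55.Kw_smul] at h3
  have k1 := mul_le_mul_of_nonneg_left h3
    (mul_nonneg (by linarith : 0 ≤ 4 * m0) (by linarith : 0 ≤ 3 + 4 * m0))
  have k2 := mul_le_mul_of_nonneg_left h2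
    (mul_nonneg (by linarith : 0 ≤ 16 * m0) (by linarith : 0 ≤ 3 + 4 * m0))
  nlinarith

end grp

end Crest.Agent.R4P.E3U479
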