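import Crest.Agent.R4P.E3M_479
import Crest.Agent.R4P.E3J_479

/-!
R4 (S0004) with powers, T3, helper479 (PLAN v1, D1): **the telescope of E3 for PIECES**.

* `qe R V W x = Σ_{R x j i} V_j W_i` : energy density of the related pairs of pieces of two bundles.
* `cov_N`, `cov_P` : one fibre: two N pieces `Ep (v v') ≥ Ep (eg eg')`, two P or pull pieces
  `Ep (v v') ≥ m m' - p⁻² A A'`; **`tie_pair`**.
* `PR` : relations of pieces (column, memory, point); `upR`, `loR`, `dnR`; the jumps `jN` (rest), `jB`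
  (ties and pulls, same side), `jM` (one N piece, one P or pull piece), `jE` (`p⁻²` energies).
* `Pp R p s = Σ c c' I (qe R v v')`; **`step`**, **`Kw_tel`** : the walk sum of the energies of the excess
  lifts of the pairs related above or below the tie is at most `Pp(root) + Kw (jumps)`.
-/

set_option autoImplicit false
set_option linter.unusedSectionVars false
set_option linter.unusedVariables false
open MeasureTheory Filter Set

namespace Crest.Agent.R4P.E3V479

open Crest.Agent.R4.Tour104 Crest.Agent.R4.Tour758 Crest.Agent.R4.Avg758 Crest.Agent.R4.Clos758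
open Crest.Agent.R4.ClosL758 Crest.Agent.R4.ClosG758 Crest.Agent.R4.ClosR758
open Crest.Agent.R4P.ClosR442 Crest.Agent.R4P.Grp36
open Crest.Agent.R4P.Xfer36 Crest.Agent.R4P.TopC36 Crest.Agent.R4P.PN36
open Crest.Agent.R4P.GMer27 Crest.Agent.R4P.GCol27 Crest.Agent.R4P.GWa343 Crest.Agent.R4P.GWb343
open Crest.Agent.R4P.GWc343 Crest.Agent.R4P.GWd343 Crest.Agent.R4P.TrR343 Crest.Agent.R4P.DTp26
open Crest.Agent.R4P.RSys343 Crest.Agent.R4P.RXm55 Crest.Agent.R4P.MSm25
open Crest.Agent.R4P.VR407 Crest.Agent.R4P.Bp407 Crest.Agent.R4P.DTm407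
open Crest.Agent.R4P.GSK55 (stp gk Pr Kw Kw_succ Kw_z one one_TC one_su BC_pos BC_neg)
open Crest.Agent.R4P.PayR45
open Crest.Agent.R4P.E3D479 Crest.Agent.R4P.E3E479 Crest.Agent.R4P.E3P479 Crest.Agent.R4P.E3T479
open Crest.Agent.R4P.E3S479 Crest.Agent.R4P.E3J479
open Crest.Agent.R4P.MSi343 (su)
open Crest.Agent.R4P.Walk560 (DT)

/-! ### energies of related pieces -/

section qe
variable {Λ : Type} [Fintype Λ]

open Classical in
/-- energy density of the related pairs -/
noncomputable def qe (R : ℝ → Λ → Λ → Prop) (V W : Λ → ℝ → ℝ) (x : ℝ) : ℝ :=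
  ∑ j, ∑ i, if R x j i then V j x * W i x else 0

variable {R S : ℝ → Λ → Λ → Prop} {V W V' W' : Λ → ℝ → ℝ} {x : ℝ}

lemma PB_qe (hR : ∀ j i, MP fun x => R x j i) (hV : ∀ j, PB (V j)) (hW : ∀ j, PB (W j)) :
    PB (qe R V W) := by
  classical
  refine PB.sum _ fun j _ => PB.sum _ fun i _ => ?_
  exact ModeG51.PB_ite (hR j i).prop.1 (hR j i).prop.2 ((hV j).mul (hW i)) (PB.const le_rfl)

lemma qe_nonneg (hV : ∀ j, 0 ≤ V j x) (hW : ∀ j, 0 ≤ W j x) : 0 ≤ qe R V W x := by
  classical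
  refine Finset.sum_nonneg fun j _ => Finset.sum_nonneg fun i _ => ?_
  split_ifs
  · exact mul_nonneg (hV j) (hW i)
  · exact le_rfl

/-- larger relation on the support, larger contents -/
lemma qe_mono (hV : ∀ j, 0 ≤ V j x) (hW : ∀ j, 0 ≤ W j x) (h1 : ∀ j, V j x ≤ V' j x)
    (h2 : ∀ j, W j x ≤ W' j x)
    (h : ∀ j i, V j x ≠ 0 → W i x ≠ 0 → R x j i → S x j i) : qe R V W x ≤ qe S V' W' x := by
  classical
  refine Finset.sum_le_sum fun j _ => Finset.sum_le_sum fun i _ => ?_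
  have n1 := mul_le_mul (h1 j) (h2 i) (hW i) ((hV j).trans (h1 j))
  have n2 := mul_nonneg (hV j) (hW i)
  by_cases hj : V j x = 0
  · have e : (if R x j i then V j x * W i x else 0) = 0 := by rw [hj]; simp
    rw [e]
    split_ifs
    · exact n2.trans n1
    · exact le_rfl
  by_cases hi : W i x = 0
  · have e : (if R x j i then V j x * W i x else 0) = 0 := by rw [hi]; simp
    rw [e]
    split_ifs
    · exact n2.trans n1
    · exact le_rfl
  by_cases hr : R x j i
  · rw [if_pos hr, if_pos (h j i hj hi hr)]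
    exact n1
  · rw [if_neg hr]
    split_ifs
    · exact n2.trans n1
    · exact le_rfl

/-- two relations which cover the relation -/
lemma qe_cover {S' : ℝ → Λ → Λ → Prop} (hV : ∀ j, 0 ≤ V j x) (hW : ∀ j, 0 ≤ W j x)
    (h : ∀ j i, V j x ≠ 0 → W i x ≠ 0 → R x j i → S x j i ∨ S' x j i) :
    qe R V W x ≤ qe S V W x + qe S' V W x := by
  classical
  unfold qe
  rw [← Finset.sum_add_distrib]
  refine Finset.sum_le_sum fun j _ => ?_
  rw [← Finset.sum_add_distrib]
  refine Finset.sum_le_sum fun i _ => ?_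
  have n2 := mul_nonneg (hV j) (hW i)
  by_cases hj : V j x = 0
  · rw [hj]; simp
  by_cases hi : W i x = 0
  · rw [hi]; simp
  by_cases hr : R x j i
  · rw [if_pos hr]
    rcases h j i hj hi hr with h1 | h1
    · rw [if_pos h1]
      split_ifs <;> linarith
    · rw [if_pos h1]
      split_ifs <;> linarith
  · rw [if_neg hr]
    split_ifs <;> linarith

/-- two disjoint relations below a relation -/
lemma qe_disj {S' : ℝ → Λ → Λ → Prop} (hV : ∀ j, 0 ≤ V j x) (hW : ∀ j, 0 ≤ W j x)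
    (h1 : ∀ j i, S x j i → R x j i) (h2 : ∀ j i, S' x j i → R x j i)
    (h : ∀ j i, S x j i → ¬ S' x j i) :
    qe S V W x + qe S' V W x ≤ qe R V W x := by
  classical
  unfold qe
  rw [← Finset.sum_add_distrib]
  refine Finset.sum_le_sum fun j _ => ?_
  rw [← Finset.sum_add_distrib]
  refine Finset.sum_le_sum fun i _ => ?_
  have n2 := mul_nonneg (hV j) (hW i)
  by_cases a : S x j i
  · rw [if_pos a, if_neg (h j i a), if_pos (h1 j i a), add_zero]
  · rw [if_neg a, zero_add]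
    by_cases b : S' x j i
    · rw [if_pos b, if_pos (h2 j i b)]
    · rw [if_neg b]
      split_ifs <;> linarith

/-- superadditivity in the contents -/
lemma qe_add (hV : ∀ j, 0 ≤ V j x) (hV' : ∀ j, 0 ≤ V' j x) (hW : ∀ j, 0 ≤ W j x)
    (hW' : ∀ j, 0 ≤ W' j x) {A B : Λ → ℝ → ℝ} (hA : ∀ j, V j x + V' j x ≤ A j x)
    (hB : ∀ j, W j x + W' j x ≤ B j x) : qe R V W x + qe R V' W' x ≤ qe R A B x := by
  classical
  unfold qe
  rw [← Finset.sum_add_distrib]
  refine Finset.sum_le_sum fun j _ => ?_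
  rw [← Finset.sum_add_distrib]
  refine Finset.sum_le_sum fun i _ => ?_
  split_ifs
  · have h1 := mul_le_mul (hA j) (hB i) (add_nonneg (hW i) (hW' i))
      ((add_nonneg (hV j) (hV' j)).trans (hA j))
    have h2 := mul_nonneg (hV j) (hW' i)
    have h3 := mul_nonneg (hV' j) (hW i)
    nlinarith
  · simp

/-- bilinear in the contents -/
lemma qe_lin (a b a' b' : ℝ) :
    qe R (fun j x => a * V j x + b * V' j x) (fun j x => a' * W j x + b' * W' j x) x =
      a * a' * qe R V W x + a * b' * qe R V W' x + b * a' * qe R V' W x +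
        b * b' * qe R V' W' x := by
  classical
  unfold qe
  simp only [Finset.mul_sum]
  rw [← Finset.sum_add_distrib, ← Finset.sum_add_distrib, ← Finset.sum_add_distrib]
  refine Finset.sum_congr rfl fun j _ => ?_
  rw [← Finset.sum_add_distrib, ← Finset.sum_add_distrib, ← Finset.sum_add_distrib]
  refine Finset.sum_congr rfl fun i _ => ?_
  split_ifs <;> ring

lemma qe_smul (a : ℝ) : qe R (fun j x => a * V j x) (fun j x => a * W j x) x =
    a ^ 2 * qe R V W x := by
  classical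
  unfold qe
  simp only [Finset.mul_sum]
  refine Finset.sum_congr rfl fun j _ => Finset.sum_congr rfl fun i _ => ?_
  split_ifs <;> ring

/-- the mean over the fibre: the relation is constant on the fibre -/
lemma Ep_qe {p : ℕ} (hp : 0 < p) (hR : ∀ j i, MP fun y => R y j i) (y : ℝ) :
    Ep p (qe (fun x j i => R (p * x) j i) V W) y =
      by classical exact ∑ j, ∑ i, if R y j i then Ep p (fun x => V j x * W i x) y else 0 := by
  classical
  have hp' : (p : ℝ) ≠ 0 := by exact_mod_cast hp.ne'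
  have e : qe (fun x j i => R (p * x) j i) V W = fun x => ∑ j, ∑ i,
      if R (p * x) j i then V j x * W i x else 0 := rfl
  rw [e, PayR45.Ep_sum']
  refine Finset.sum_congr rfl fun j _ => ?_
  rw [PayR45.Ep_sum']
  refine Finset.sum_congr rfl fun i _ => ?_
  have key : ∀ k : ℕ, (R (p * ((y + (k : ℝ)) / p)) j i) = R y j i := by
    intro k
    have e1 : (p : ℝ) * ((y + (k : ℝ)) / p) = y + k := by field_simp
    rw [e1]
    exact (hR j i).per_nat k y
  unfold Ep
  by_cases h : R y j i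
  · rw [if_pos h]
    congr 1
    refine Finset.sum_congr rfl fun k _ => ?_
    have h' : R (p * ((y + (k : ℝ)) / p)) j i := by rw [key k]; exact h
    exact if_pos h'
  · rw [if_neg h]
    have : ∀ k ∈ Finset.range p, (if R (p * ((y + (k : ℝ)) / p)) j i then
        V j ((y + (k : ℝ)) / p) * W i ((y + (k : ℝ)) / p) else 0) = 0 := fun k _ => by
      have h' : ¬ R (p * ((y + (k : ℝ)) / p)) j i := by rw [key k]; exact h
      exact if_neg h'
    rw [Finset.sum_eq_zero this, zero_div]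

end qe

/-! ### one fibre -/

section fib
variable {Λ κ : Type} [Fintype Λ] [DecidableEq Λ] [Fintype κ] [DecidableEq κ]
variable {kd : Λ → κ} {p : ℕ} {K K' : List (DT Λ κ)}

/-- mean content of the children -/
noncomputable def mm (p : ℕ) (K : List (DT Λ κ)) (j : Λ) (y : ℝ) : ℝ :=
  (1 - 1 / (p : ℝ)) * jv (K.map chP) j y + 1 / (p : ℝ) * jv (K.map chN) j y

/-- the matched dip of a P piece -/
noncomputable def dj (kd : Λ → κ) (p : ℕ) (K : List (DT Λ κ)) (j : Λ) (x : ℝ) : ℝ :=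
  pA K j (p * x) / SA kd K (kd j) (p * x) * bf kd K (kd j) (p * x) * SG kd K (kd j) x

/-- the mean of the dip -/
noncomputable def aj (kd : Λ → κ) (p : ℕ) (K : List (DT Λ κ)) (j : Λ) (y : ℝ) : ℝ :=
  1 / (p : ℝ) * (al kd K (kd j) y * pA K j y)

lemma pt_eq {p : ℕ} (hp : 0 < p) (y : ℝ) (i : ℕ) : (p : ℝ) * ((y + (i : ℝ)) / p) = y + i := by
  have : (p : ℝ) ≠ 0 := by exact_mod_cast hp.ne'
  field_simp

/-- no N content: no lifts on the fibre -/
lemma pG_zero (h : KOk kd p K) (hp : 0 < p) {j : Λ} {y : ℝ} (hB : pB K j y = 0) :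
    ∀ i < p, pG K j ((y + (i : ℝ)) / p) = 0 := by
  have h1 := lift_pG h j y
  rw [hB] at h1
  intro i hi
  have h2 : ∑ i ∈ Finset.range p, pG K j ((y + (i : ℝ)) / p) = 0 := h1
  rw [Finset.sum_eq_zero_iff_of_nonneg fun i _ => (PB_pG K j).nonneg _] at h2
  exact h2 i (Finset.mem_range.2 hi)

/-- content of a P or pull piece on the fibre -/
lemma jv_P (h : KOk kd p K) (hp : 0 < p) {j : Λ} {y : ℝ} (hB : pB K j y = 0) :
    ∀ i < p, jv K j ((y + (i : ℝ)) / p) = mm p K j y + aj kd p K j y -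
      dj kd p K j ((y + (i : ℝ)) / p) := by
  intro i hi
  have e1 := pt_eq hp y i
  have hG := pG_zero h hp hB i hi
  rw [(jv_K h j _).1]
  unfold vF mm dj aj
  rw [jv_chP h, jv_chN h, hB, hG, e1, (h.PA j).per_nat, (h.PQ j).per_nat,
    (PB_sm (fun j => h.PA j) kd (kd j)).per_nat, (PB_sm (fun j => h.PBb j) kd (kd j)).per_nat]
  have e2 : SA kd K (kd j) (y + (i : ℝ)) = SA kd K (kd j) y := (PB_SA h (kd j)).per_nat i y
  have e3 : bf kd K (kd j) (y + (i : ℝ)) = bf kd K (kd j) y := (PB_bf h (kd j)).per_nat i y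
  rw [e2, e3]
  unfold al bf SA DTm407.SB SG
  ring

/-- content of an N piece on the fibre -/
lemma jv_N (h : KOk kd p K) (hp : 0 < p) {j : Λ} {y : ℝ} (hA : pA K j y = 0) (hQ : pQ K j y = 0) :
    ∀ i < p, jv K j ((y + (i : ℝ)) / p) = pG K j ((y + (i : ℝ)) / p) := by
  intro i hi
  have e1 := pt_eq hp y i
  rw [(jv_K h j _).1]
  unfold vF
  rw [e1, (h.PA j).per_nat, (h.PQ j).per_nat, hA, hQ]
  ring

lemma dj_nonneg (h : KOk kd p K) (j : Λ) (x : ℝ) : 0 ≤ dj kd p K j x :=
  mul_nonneg (mul_nonneg (div_nonneg ((h.PA j).nonneg _) (SA0 h _ _)) (bf0 h _ _)) (SG0 K _ _)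

/-- the mean of the dips -/
lemma mean_dj (h : KOk kd p K) (hp : 0 < p) (j : Λ) (y : ℝ) :
    Ep p (dj kd p K j) y = aj kd p K j y := by
  have hp' : (p : ℝ) ≠ 0 := by exact_mod_cast hp.ne'
  have e0 : Ep p (dj kd p K j) y = pA K j y / SA kd K (kd j) y * bf kd K (kd j) y *
      Ep p (SG kd K (kd j)) y := by
    unfold Ep
    rw [mul_div_assoc', Finset.mul_sum]
    congr 1
    refine Finset.sum_congr rfl fun i _ => ?_
    unfold dj
    have e2 : SA kd K (kd j) (y + (i : ℝ)) = SA kd K (kd j) y := (PB_SA h (kd j)).per_nat i y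
    have e3 : bf kd K (kd j) (y + (i : ℝ)) = bf kd K (kd j) y := (PB_bf h (kd j)).per_nat i y
    rw [pt_eq hp y i, (h.PA j).per_nat, e2, e3]
  have e9 : ∀ i, Ep p (pG K i) y = 1 / (p : ℝ) * pB K i y := fun i => by
    unfold Ep
    rw [lift_pG h i y]; ring
  have e4 : Ep p (SG kd K (kd j)) y = 1 / (p : ℝ) * DTm407.SB kd K (kd j) y := by
    have e5 : SG kd K (kd j) = fun x => ∑ i, if kd i = kd j then pG K i x else 0 :=
      funext fun x => sm_eq _ _ _ _
    rw [e5, PayR45.Ep_sum']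
    unfold DTm407.SB
    rw [sm_eq, Finset.mul_sum]
    refine Finset.sum_congr rfl fun i _ => ?_
    by_cases hi : kd i = kd j
    · simp only [if_pos hi]
      exact e9 i
    · simp only [if_neg hi]
      unfold Ep; simp
  rw [e0, e4]
  unfold aj
  have e6 := al_mul h (kd j) y
  have e7 := bf_mul h (kd j) y
  by_cases h0 : SA kd K (kd j) y = 0
  · have hA : pA K j y = 0 := sm_congr0 (fun j => (h.PA j).nonneg y) h0
    rw [hA]; ring
  · have e8 : pA K j y / SA kd K (kd j) y * bf kd K (kd j) y * (1 / (p : ℝ) * DTm407.SB kd K (kd j) y) =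
        pA K j y / SA kd K (kd j) y * (1 / (p : ℝ)) * (al kd K (kd j) y * SA kd K (kd j) y) := by
      rw [e6, ← e7]; ring
    rw [e8]
    field_simp

lemma aj_nonneg (h : KOk kd p K) (j : Λ) (y : ℝ) : 0 ≤ aj kd p K j y :=
  mul_nonneg (by positivity) (mul_nonneg (al0 h _ _) ((h.PA j).nonneg y))

lemma aj_le (h : KOk kd p K) (j : Λ) (y : ℝ) : aj kd p K j y ≤ 1 / (p : ℝ) * pA K j y := by
  unfold aj
  have h1 := al1 h (kd j) y
  have h2 := (h.PA j).nonneg y
  have h3 : al kd K (kd j) y * pA K j y ≤ pA K j y := by nlinarith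
  exact mul_le_mul_of_nonneg_left h3 (by positivity)

/-- **two P or pull pieces** -/
lemma cov_P (h : KOk kd p K) (h' : KOk kd p K') (hp : 0 < p) {j i : Λ} {y : ℝ}
    (hB : pB K j y = 0) (hB' : pB K' i y = 0) :
    mm p K j y * mm p K' i y ≤ Ep p (fun x => jv K j x * jv K' i x) y +
      1 / (p : ℝ) ^ 2 * (pA K j y * pA K' i y) := by
  have hp' : (0 : ℝ) < p := by exact_mod_cast hp
  set m := mm p K j y
  set m' := mm p K' i y
  set a := aj kd p K j y with ha
  set a' := aj kd p K' i y with ha'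
  have d1 := mean_dj h hp j y
  have d2 := mean_dj h' hp i y
  have e1 : Ep p (fun x => jv K j x * jv K' i x) y =
      (m + a) * (m' + a') - (m + a) * Ep p (dj kd p K' i) y - (m' + a') * Ep p (dj kd p K j) y +
        Ep p (fun x => dj kd p K j x * dj kd p K' i x) y := by
    unfold Ep
    have e2 : ∀ k ∈ Finset.range p, jv K j ((y + (k : ℝ)) / p) * jv K' i ((y + (k : ℝ)) / p) =
        (m + a) * (m' + a') - (m + a) * dj kd p K' i ((y + (k : ℝ)) / p) -
        (m' + a') * dj kd p K j ((y + (k : ℝ)) / p) +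
        dj kd p K j ((y + (k : ℝ)) / p) * dj kd p K' i ((y + (k : ℝ)) / p) := by
      intro k hk
      rw [jv_P h hp hB k (Finset.mem_range.1 hk), jv_P h' hp hB' k (Finset.mem_range.1 hk)]
      ring
    rw [Finset.sum_congr rfl e2, Finset.sum_add_distrib, Finset.sum_sub_distrib,
      Finset.sum_sub_distrib, Finset.sum_const, Finset.card_range, nsmul_eq_mul,
      ← Finset.mul_sum, ← Finset.mul_sum]
    field_simp
  have n1 : 0 ≤ Ep p (fun x => dj kd p K j x * dj kd p K' i x) y :=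
    div_nonneg (Finset.sum_nonneg fun k _ => mul_nonneg (dj_nonneg h j _) (dj_nonneg h' i _))
      hp'.le
  rw [e1, d1, d2]
  have a1 := aj_le h j y
  have a2 := aj_le h' i y
  have a3 := aj_nonneg h j y
  have a4 := aj_nonneg h' i y
  have a5 : a * a' ≤ (1 / (p : ℝ) * pA K j y) * (1 / (p : ℝ) * pA K' i y) :=
    mul_le_mul a1 a2 a4 (a3.trans a1)
  have a6 : (1 / (p : ℝ) * pA K j y) * (1 / (p : ℝ) * pA K' i y) =
      1 / (p : ℝ) ^ 2 * (pA K j y * pA K' i y) := by field_simp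
  rw [a6] at a5
  nlinarith

/-- **two N pieces** -/
lemma cov_N (h : KOk kd p K) (h' : KOk kd p K') (hp : 0 < p) {j i : Λ} {y : ℝ}
    (hA : pA K j y = 0) (hQ : pQ K j y = 0) (hA' : pA K' i y = 0) (hQ' : pQ K' i y = 0) :
    Ep p (fun x => eg kd p K j x * eg kd p K' i x) y ≤
      Ep p (fun x => jv K j x * jv K' i x) y := by
  unfold Ep
  refine div_le_div_of_nonneg_right (Finset.sum_le_sum fun k hk => ?_) (Nat.cast_nonneg p)
  exact mul_le_mul (eg_le h hp j _) (eg_le h' hp i _) ((PB_eg h' i).nonneg _)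
    (((PB_eg h j).nonneg _).trans (eg_le h hp j _))

/-- **the side of the pieces** : N pieces have no P and no pull content, the others have no N content -/
def Sd (K : List (DT Λ κ)) (st : Λ → Prop) : Prop :=
  ∀ j y, (st j → pA K j y = 0 ∧ pQ K j y = 0) ∧ (¬ st j → pB K j y = 0)

lemma PB_mm (h : KOk kd p K) (hp : 0 < p) (j : Λ) : PB (mm p K j) := by
  have hp1 : (1 : ℝ) ≤ p := by exact_mod_cast hp
  have w1 : (0:ℝ) ≤ 1 - 1 / p := by
    have : (1:ℝ) / p ≤ 1 := by rw [div_le_one (by linarith)]; exact hp1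
    linarith
  have e : mm p K j = fun y => (1 - 1 / (p : ℝ)) * (pA K j y + pQ K j y) +
      1 / (p : ℝ) * (pB K j y + pQ K j y) := by
    funext y
    unfold mm
    rw [jv_chP h, jv_chN h]
  rw [e]
  exact ((PB.const w1).mul ((h.PA j).add (h.PQ j))).add
    ((PB.const (by positivity : (0:ℝ) ≤ 1 / p)).mul ((h.PBb j).add (h.PQ j)))

/-- no lifts for the pieces which are not N -/
lemma eg_N (h : KOk kd p K) (hp : 0 < p) {st : Λ → Prop} (hs : Sd K st) {j : Λ} {x : ℝ}
    (hj : eg kd p K j x ≠ 0) : st j := by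
  by_contra hn
  have h1 := (hs j (p * x)).2 hn
  apply hj
  unfold eg
  have h2 : pG K j x = 0 := by
    by_contra h3
    exact pG_supp h hp h3 h1
  rw [h2, mul_zero]

/-- **the tie for a pair of bundles** -/
theorem tie_pair (h : KOk kd p K) (h' : KOk kd p K') (hp : 0 < p) {R : ℝ → Λ → Λ → Prop}
    (hR : ∀ j i, MP fun y => R y j i) {st : Λ → Prop} (hs : Sd K st) (hs' : Sd K' st) (y : ℝ) :
    qe R (mm p K) (mm p K') y + Ep p (qe (fun x j i => R (p * x) j i) (eg kd p K) (eg kd p K')) y ≤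
      Ep p (qe (fun x j i => R (p * x) j i ∧ (st j ↔ st i)) (jv K) (jv K')) y +
      (qe (fun y j i => R y j i ∧ ¬ (st j ↔ st i)) (mm p K) (mm p K') y +
        (qe (fun y j i => R y j i ∧ st j ∧ st i) (mm p K) (mm p K') y +
          1 / (p : ℝ) ^ 2 * qe (fun y j i => R y j i ∧ ¬ st j ∧ ¬ st i) (pA K) (pA K') y)) := by
  classical
  have hR2 : ∀ j i, MP fun y => (R y j i ∧ (st j ↔ st i)) := fun j i =>
    (hR j i).map fun q => q ∧ (st j ↔ st i)
  rw [Ep_qe hp hR, Ep_qe (R := fun y j i => R y j i ∧ (st j ↔ st i)) hp hR2]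
  unfold qe
  rw [Finset.mul_sum, ← Finset.sum_add_distrib, ← Finset.sum_add_distrib, ← Finset.sum_add_distrib,
    ← Finset.sum_add_distrib]
  refine Finset.sum_le_sum fun j _ => ?_
  rw [Finset.mul_sum, ← Finset.sum_add_distrib, ← Finset.sum_add_distrib, ← Finset.sum_add_distrib,
    ← Finset.sum_add_distrib]
  refine Finset.sum_le_sum fun i _ => ?_
  have n0 := mul_nonneg ((PB_mm h hp j).nonneg y) ((PB_mm h' hp i).nonneg y)
  by_cases r : R y j i
  · by_cases a : st j
    · by_cases b : st i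
      · have hj := (hs j y).1 a
        have hi := (hs' i y).1 b
        have k1 := cov_N h h' hp hj.1 hj.2 hi.1 hi.2
        simp only [r, a, b, true_and, and_self, iff_self, not_true_eq_false, if_true, if_false,
          mul_zero]
        linarith
      · have e : Ep p (fun x => eg kd p K j x * eg kd p K' i x) y = 0 := by
          unfold Ep
          rw [Finset.sum_eq_zero, zero_div]
          intro k _
          have : eg kd p K' i ((y + (k : ℝ)) / p) = 0 := by
            by_contra h3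
            exact b (eg_N h' hp hs' h3)
          show eg kd p K j ((y + (k : ℝ)) / p) * eg kd p K' i ((y + (k : ℝ)) / p) = 0
          rw [this, mul_zero]
        simp only [r, a, b, iff_false, not_true_eq_false, and_false, if_false, if_true, e,
          not_false_eq_true, and_self, mul_zero, and_true]
        linarith
    · by_cases b : st i
      · have e : Ep p (fun x => eg kd p K j x * eg kd p K' i x) y = 0 := by
          unfold Ep
          rw [Finset.sum_eq_zero, zero_div]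
          intro k _
          have : eg kd p K j ((y + (k : ℝ)) / p) = 0 := by
            by_contra h3
            exact a (eg_N h hp hs h3)
          show eg kd p K j ((y + (k : ℝ)) / p) * eg kd p K' i ((y + (k : ℝ)) / p) = 0
          rw [this, zero_mul]
        simp only [r, a, b, false_iff, not_true_eq_false, and_false, if_false, if_true, e,
          not_false_eq_true, and_self, mul_zero, and_true]
        linarith
      · have hj := (hs j y).2 a
        have hi := (hs' i y).2 b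
        have k1 := cov_P h h' hp hj hi
        have e : Ep p (fun x => eg kd p K j x * eg kd p K' i x) y = 0 := by
          unfold Ep
          rw [Finset.sum_eq_zero, zero_div]
          intro k _
          have : eg kd p K j ((y + (k : ℝ)) / p) = 0 := by
            by_contra h3
            exact a (eg_N h hp hs h3)
          show eg kd p K j ((y + (k : ℝ)) / p) * eg kd p K' i ((y + (k : ℝ)) / p) = 0
          rw [this, zero_mul]
        simp only [r, a, b, iff_self, not_true_eq_false, and_false, if_false, if_true, e,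
          not_false_eq_true, and_self]
        linarith
  · simp [r]

end fib

/-! ### pairs of bundles -/

section grp
variable {μ Λ κ : Type} [Fintype Λ] [DecidableEq Λ] [Fintype κ] [DecidableEq κ]

/-- bundle maps with memories (no families) -/
abbrev TB (B : BM (μ × List (DT Λ κ))) (wr : ℕ → Λ → κ) (tu : ℕ → μ → μ) : Prop :=
  TM B wr tu (fun (_ : ℕ) (_ : μ) (_ : ℝ) (_ : Λ) => ())

/-- relations of pieces (column, memory, point) -/
abbrev PR (μ Λ : Type) : Type := ℕ → μ → ℝ → Λ → Λ → Prop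

variable {B : BM (μ × List (DT Λ κ))} {wr : ℕ → Λ → κ} {tu : ℕ → μ → μ}
  {R : PR μ Λ} {sd : ℕ → μ → Λ → Prop} {p : ℕ} {s : Gs (μ × List (DT Λ κ))}
  {b b' : μ × List (DT Λ κ)}

/-- pair potential -/
noncomputable def Pe (R : PR μ Λ) (p : ℕ) (b b' : μ × List (DT Λ κ)) : ℝ :=
  I (qe (R p b.1) (jv b.2) (jv b'.2))

/-- newly related pairs, rest -/
noncomputable def jN (R : PR μ Λ) (p : ℕ) (b b' : μ × List (DT Λ κ)) : ℝ → ℝ :=
  qe (fun x j i => R (p - 1) b.1 x j i ∧ ¬ R p b.1 x j i) (jv (bN p b.2)) (jv (bN p b'.2))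

/-- newly related pairs of a side, ties and pulls -/
noncomputable def jB (R : PR μ Λ) (tu : ℕ → μ → μ) (sd : ℕ → μ → Λ → Prop) (p : ℕ)
    (b b' : μ × List (DT Λ κ)) : ℝ → ℝ :=
  qe (fun x j i => (R p (tu p b.1) (p * x) j i ∧ (sd p b.1 j ↔ sd p b.1 i)) ∧ ¬ R p b.1 x j i)
    (jv (bB p b.2)) (jv (bB p b'.2))

/-- related pairs below the tie, two sides -/
noncomputable def jM (R : PR μ Λ) (tu : ℕ → μ → μ) (sd : ℕ → μ → Λ → Prop) (p : ℕ)
    (b b' : μ × List (DT Λ κ)) : ℝ → ℝ :=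
  qe (fun y j i => R p (tu p b.1) y j i ∧ ¬ (sd p b.1 j ↔ sd p b.1 i))
    (mm p (bB p b.2)) (mm p (bB p b'.2))

/-- the `p⁻²` terms -/
noncomputable def jE (R : PR μ Λ) (tu : ℕ → μ → μ) (sd : ℕ → μ → Λ → Prop) (p : ℕ)
    (b b' : μ × List (DT Λ κ)) (y : ℝ) : ℝ :=
  qe (fun y j i => R p (tu p b.1) y j i ∧ sd p b.1 j ∧ sd p b.1 i)
    (mm p (bB p b.2)) (mm p (bB p b'.2)) y +
  1 / (p : ℝ) ^ 2 * qe (fun y j i => R p (tu p b.1) y j i ∧ ¬ sd p b.1 j ∧ ¬ sd p b.1 i)
    (pA (bB p b.2)) (pA (bB p b'.2)) y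

/-- **the jumps of a pair of bundles** -/
noncomputable def Jp (R : PR μ Λ) (tu : ℕ → μ → μ) (sd : ℕ → μ → Λ → Prop) (p : ℕ)
    (b b' : μ × List (DT Λ κ)) : ℝ :=
  I (jN R p b b') + I (jB R tu sd p b b') + I (jM R tu sd p b b') + I (jE R tu sd p b b')

/-- related above or below the tie -/
def oR (R : PR μ Λ) (tu : ℕ → μ → μ) (p : ℕ) (m : μ) (x : ℝ) (j i : Λ) : Prop :=
  R p m x j i ∨ R p (tu p m) (p * x) j i

/-- **the paid energies of a pair of bundles** -/
noncomputable def eo (R : PR μ Λ) (wr : ℕ → Λ → κ) (tu : ℕ → μ → μ) (p : ℕ)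
    (b b' : μ × List (DT Λ κ)) : ℝ → ℝ :=
  qe (oR R tu p b.1) (eg (wr p) p (bB p b.2)) (eg (wr p) p (bB p b'.2))

section pair
variable (H : TB B wr tu) (hR : ∀ p m j i, MP fun x => R p m x j i)
  (hsd : ∀ {p b}, B.ok p b → p ≠ 0 → Sd (bB p b.2) (sd p b.1))
include H hR

lemma mpR_lo (p : ℕ) (m : μ) (j i : Λ) : MP fun x : ℝ => R p (tu p m) (p * x) j i :=
  (hR p (tu p m) j i).pull p

lemma PB_jb (hb : B.ok p b) (j : Λ) : PB (jv b.2 j) := PB_jv (H.pbl hb) j

lemma mpjN (j i : Λ) : MP fun x => (R (p - 1) b.1 x j i ∧ ¬ R p b.1 x j i) :=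
  ((hR (p - 1) b.1 j i).prod (hR p b.1 j i)).map fun q => q.1 ∧ ¬ q.2

lemma PB_jN (hb : B.ok p b) (hb' : B.ok p b') : PB (jN R p b b') :=
  PB_qe (fun j i => mpjN H hR j i) (fun j => PB_jv (H.pbN hb) j) fun j => PB_jv (H.pbN hb') j

lemma mpjB (j i : Λ) : MP fun x : ℝ => ((R p (tu p b.1) (p * x) j i ∧
    (sd p b.1 j ↔ sd p b.1 i)) ∧ ¬ R p b.1 x j i) :=
  ((mpR_lo H hR p b.1 j i).prod (hR p b.1 j i)).map fun q =>
    (q.1 ∧ (sd p b.1 j ↔ sd p b.1 i)) ∧ ¬ q.2

lemma PB_jB (hb : B.ok p b) (hb' : B.ok p b') : PB (jB R tu sd p b b') :=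
  PB_qe (fun j i => mpjB H hR j i) (fun j => PB_jv (H.pbB hb) j) fun j => PB_jv (H.pbB hb') j

lemma PB_jM (hb : B.ok p b) (hb' : B.ok p b') (hp : p ≠ 0) : PB (jM R tu sd p b b') :=
  PB_qe (fun j i => (hR p (tu p b.1) j i).map fun q => q ∧ ¬ (sd p b.1 j ↔ sd p b.1 i))
    (fun j => PB_mm (H.kok hb hp) (Nat.pos_of_ne_zero hp) j)
    fun j => PB_mm (H.kok hb' hp) (Nat.pos_of_ne_zero hp) j

lemma PB_jE (hb : B.ok p b) (hb' : B.ok p b') (hp : p ≠ 0) : PB (jE R tu sd p b b') := by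
  refine PB.add (PB_qe (fun j i => (hR p (tu p b.1) j i).map fun q => q ∧ sd p b.1 j ∧ sd p b.1 i)
    (fun j => PB_mm (H.kok hb hp) (Nat.pos_of_ne_zero hp) j)
    fun j => PB_mm (H.kok hb' hp) (Nat.pos_of_ne_zero hp) j) ?_
  refine (PB.const (by positivity : (0:ℝ) ≤ 1 / (p : ℝ) ^ 2)).mul (PB_qe
    (fun j i => (hR p (tu p b.1) j i).map fun q => q ∧ ¬ sd p b.1 j ∧ ¬ sd p b.1 i)
    (fun j => (H.kok hb hp).PA j) fun j => (H.kok hb' hp).PA j)

lemma mpoR (p : ℕ) (m : μ) (j i : Λ) : MP fun x => oR R tu p m x j i :=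
  ((hR p m j i).prod (mpR_lo H hR p m j i)).map fun q => q.1 ∨ q.2

lemma PB_eo (hb : B.ok p b) (hb' : B.ok p b') (hp : p ≠ 0) : PB (eo R wr tu p b b') :=
  PB_qe (fun j i => mpoR H hR p b.1 j i) (fun j => PB_eg (H.kok hb hp) j)
    fun j => PB_eg (H.kok hb' hp) j

lemma PB_Pe (hb : B.ok p b) (hb' : B.ok p b') : PB (qe (R p b.1) (jv b.2) (jv b'.2)) :=
  PB_qe (fun j i => hR p b.1 j i) (fun j => PB_jv (H.pbl hb) j) fun j => PB_jv (H.pbl hb') j

/-- **the rest** -/
lemma rest_pair (hb : B.ok p b) (hb' : B.ok p b') (hp : p ≠ 0) :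
    Pe R (p - 1) (B.rN p b) (B.rN p b') ≤
      I (qe (R p b.1) (jv (bN p b.2)) (jv (bN p b'.2))) + I (jN R p b b') := by
  have pb := H.pbN hb
  have pb' := H.pbN hb'
  unfold Pe
  rw [H.eR hb hp, H.eR hb' hp]
  have p1 : PB (qe (R p b.1) (jv (bN p b.2)) (jv (bN p b'.2))) :=
    PB_qe (fun j i => hR p b.1 j i) (fun j => PB_jv pb j) fun j => PB_jv pb' j
  have p0 : PB (qe (R (p - 1) b.1) (jv (bN p b.2)) (jv (bN p b'.2))) :=
    PB_qe (fun j i => hR (p - 1) b.1 j i) (fun j => PB_jv pb j) fun j => PB_jv pb' j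
  have p2 := PB_jN H hR hb hb'
  rw [← I_add p1.integrableOn p2.integrableOn]
  refine I_mono p0.integrableOn (p1.add p2).integrableOn fun x => ?_
  refine qe_cover (fun j => (PB_jv pb j).nonneg x) (fun j => (PB_jv pb' j).nonneg x)
    fun j i _ _ h => ?_
  by_cases hr : R p b.1 x j i
  · exact Or.inl hr
  · exact Or.inr ⟨h, hr⟩

include hsd in
/-- **ties and pulls** -/
lemma tie_pairI (hb : B.ok p b) (hb' : B.ok p b') (hp : p ≠ 0) (hm : b'.1 = b.1) :
    I (qe (R p (tu p b.1)) (mm p (bB p b.2)) (mm p (bB p b'.2))) + I (eo R wr tu p b b') ≤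
      I (qe (R p b.1) (jv (bB p b.2)) (jv (bB p b'.2))) + I (jB R tu sd p b b') +
        I (jM R tu sd p b b') + I (jE R tu sd p b b') := by
  have hp0 : 0 < p := Nat.pos_of_ne_zero hp
  have pb := H.pbB hb
  have pb' := H.pbB hb'
  have k := H.kok hb hp
  have k' := H.kok hb' hp
  have s1 := hsd hb hp
  have s2 := hsd hb' hp
  rw [hm] at s2
  have lo := fun j i => hR p (tu p b.1) j i
  -- the paid energies: related above and not below, related below
  set eL := qe (fun x j i => R p (tu p b.1) (p * x) j i) (eg (wr p) p (bB p b.2))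
    (eg (wr p) p (bB p b'.2)) with heL
  set eU := qe (fun x j i => R p b.1 x j i ∧ ¬ R p (tu p b.1) (p * x) j i)
    (eg (wr p) p (bB p b.2)) (eg (wr p) p (bB p b'.2)) with heU
  have pL : PB eL := PB_qe (fun j i => mpR_lo H hR p b.1 j i) (fun j => PB_eg k j)
    fun j => PB_eg k' j
  have mU : ∀ j i, MP fun x : ℝ => (R p b.1 x j i ∧ ¬ R p (tu p b.1) (p * x) j i) := fun j i =>
    ((hR p b.1 j i).prod (mpR_lo H hR p b.1 j i)).map fun q => q.1 ∧ ¬ q.2
  have pU : PB eU := PB_qe mU (fun j => PB_eg k j) fun j => PB_eg k' j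
  have b1 : I (eo R wr tu p b b') ≤ I eL + I eU := by
    rw [← I_add pL.integrableOn pU.integrableOn]
    refine I_mono (PB_eo H hR hb hb' hp).integrableOn (pL.add pU).integrableOn fun x => ?_
    refine qe_cover (fun j => (PB_eg k j).nonneg x) (fun j => (PB_eg k' j).nonneg x)
      fun j i _ _ h => ?_
    by_cases h2 : R p (tu p b.1) (p * x) j i
    · exact Or.inl h2
    · exact Or.inr ⟨h.resolve_right h2, h2⟩
  -- the same side
  set qS := qe (fun x j i => R p (tu p b.1) (p * x) j i ∧ (sd p b.1 j ↔ sd p b.1 i))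
    (jv (bB p b.2)) (jv (bB p b'.2)) with hqS
  have mS : ∀ j i, MP fun x : ℝ => (R p (tu p b.1) (p * x) j i ∧
      (sd p b.1 j ↔ sd p b.1 i)) := fun j i =>
    (mpR_lo H hR p b.1 j i).map fun q => q ∧ (sd p b.1 j ↔ sd p b.1 i)
  have pS : PB qS := PB_qe mS (fun j => PB_jv pb j) fun j => PB_jv pb' j
  set qU := qe (R p b.1) (jv (bB p b.2)) (jv (bB p b'.2)) with hqU
  have pqU : PB qU := PB_qe (fun j i => hR p b.1 j i) (fun j => PB_jv pb j) fun j => PB_jv pb' j
  have pJB := PB_jB (sd := sd) H hR hb hb'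
  have b2 : I qS + I eU ≤ I qU + I (jB R tu sd p b b') := by
    rw [← I_add pS.integrableOn pU.integrableOn, ← I_add pqU.integrableOn pJB.integrableOn]
    refine I_mono (pS.add pU).integrableOn (pqU.add pJB).integrableOn fun x => ?_
    have v0 := fun j => (PB_jv pb j).nonneg x
    have v0' := fun j => (PB_jv pb' j).nonneg x
    have c1 : qS x ≤ qe (fun x j i => R p b.1 x j i ∧ R p (tu p b.1) (p * x) j i)
        (jv (bB p b.2)) (jv (bB p b'.2)) x + jB R tu sd p b b' x := by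
      refine qe_cover v0 v0' fun j i _ _ h => ?_
      by_cases h2 : R p b.1 x j i
      · exact Or.inl ⟨h2, h.1⟩
      · exact Or.inr ⟨h, h2⟩
    have c2 : eU x ≤ qe (fun x j i => R p b.1 x j i ∧ ¬ R p (tu p b.1) (p * x) j i)
        (jv (bB p b.2)) (jv (bB p b'.2)) x :=
      qe_mono (fun j => (PB_eg k j).nonneg x) (fun j => (PB_eg k' j).nonneg x)
        (fun j => eg_le k hp0 j x) (fun j => eg_le k' hp0 j x) fun _ _ _ _ h => h
    have c3 : qe (fun x j i => R p b.1 x j i ∧ R p (tu p b.1) (p * x) j i)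
        (jv (bB p b.2)) (jv (bB p b'.2)) x +
        qe (fun x j i => R p b.1 x j i ∧ ¬ R p (tu p b.1) (p * x) j i)
        (jv (bB p b.2)) (jv (bB p b'.2)) x ≤ qU x :=
      qe_disj v0 v0' (fun _ _ h => h.1) (fun _ _ h => h.1) fun _ _ h h2 => h2.2 h.2
    show qS x + eU x ≤ qU x + jB R tu sd p b b' x
    linarith
  -- the fibres
  have pM := PB_jM (sd := sd) H hR hb hb' hp
  have pE := PB_jE (sd := sd) H hR hb hb' hp
  have pm : PB (qe (R p (tu p b.1)) (mm p (bB p b.2)) (mm p (bB p b'.2))) :=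
    PB_qe lo (fun j => PB_mm k hp0 j) fun j => PB_mm k' hp0 j
  have b3 : I (qe (R p (tu p b.1)) (mm p (bB p b.2)) (mm p (bB p b'.2))) + I eL ≤
      I qS + (I (jM R tu sd p b b') + I (jE R tu sd p b b')) := by
    rw [← I_Ep hp0 pL.integrableOn, ← I_Ep hp0 pS.integrableOn,
      ← I_add pm.integrableOn (pL.Ep hp0).integrableOn,
      ← I_add pM.integrableOn pE.integrableOn,
      ← I_add (pS.Ep hp0).integrableOn (pM.add pE).integrableOn]
    exact I_mono (pm.add (pL.Ep hp0)).integrableOn ((pS.Ep hp0).add (pM.add pE)).integrableOn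
      fun y => tie_pair k k' hp0 lo s1 s2 y
  linarith

include hsd in
/-- **the step for a pair of bundles** -/
theorem pair_step (hb : B.ok p b) (hb' : B.ok p b') (hp : p ≠ 0) (hm : b'.1 = b.1) :
    I (eo R wr tu p b b') + I (qe (R p (tu p b.1)) (mm p (bB p b.2)) (mm p (bB p b'.2))) +
      Pe R (p - 1) (B.rN p b) (B.rN p b') ≤ Pe R p b b' + Jp R tu sd p b b' := by
  have h1 := rest_pair H hR hb hb' hp
  have h2 := tie_pairI H hR hsd hb hb' hp hm
  have pb := H.pbB hb
  have pb' := H.pbB hb'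
  have pn := H.pbN hb
  have pn' := H.pbN hb'
  have q1 : PB (qe (R p b.1) (jv (bB p b.2)) (jv (bB p b'.2))) :=
    PB_qe (fun j i => hR p b.1 j i) (fun j => PB_jv pb j) fun j => PB_jv pb' j
  have q2 : PB (qe (R p b.1) (jv (bN p b.2)) (jv (bN p b'.2))) :=
    PB_qe (fun j i => hR p b.1 j i) (fun j => PB_jv pn j) fun j => PB_jv pn' j
  have h3 : I (qe (R p b.1) (jv (bB p b.2)) (jv (bB p b'.2))) +
      I (qe (R p b.1) (jv (bN p b.2)) (jv (bN p b'.2))) ≤ Pe R p b b' := by
    unfold Pe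
    rw [← I_add q1.integrableOn q2.integrableOn]
    refine I_mono (q1.add q2).integrableOn (PB_Pe H hR hb hb').integrableOn fun x => ?_
    refine qe_add (fun j => (PB_jv pb j).nonneg x) (fun j => (PB_jv pn j).nonneg x)
      (fun j => (PB_jv pb' j).nonneg x) (fun j => (PB_jv pn' j).nonneg x) (fun j => ?_)
      fun j => ?_
    · have h1 := PVd45.jv_split3 p b.2 j x
      have h2 : 0 ≤ jv (bL p b.2) j x := (PB_jv ((H.pba hb).bL p).self j).nonneg x
      linarith
    · have h1 := PVd45.jv_split3 p b'.2 j x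
      have h2 : 0 ≤ jv (bL p b'.2) j x := (PB_jv ((H.pba hb').bL p).self j).nonneg x
      linarith
  unfold Jp
  linarith

end pair

/-! ### groups -/

/-- **the pair potential of a group** -/
noncomputable def Pp (R : PR μ Λ) (p : ℕ) (s : Gs (μ × List (DT Λ κ))) : ℝ :=
  ∑ k, ∑ k', s.c k * s.c k' * Pe R p (s.L k) (s.L k')

/-- **the jumps of a group** -/
noncomputable def Jg (R : PR μ Λ) (tu : ℕ → μ → μ) (sd : ℕ → μ → Λ → Prop) (p : ℕ)
    (s : Gs (μ × List (DT Λ κ))) : ℝ :=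
  ∑ k, ∑ k', s.c k * s.c k' * Jp R tu sd p (s.L k) (s.L k')

/-- **the paid energies of a group** -/
noncomputable def Eo (R : PR μ Λ) (wr : ℕ → Λ → κ) (tu : ℕ → μ → μ) (p : ℕ)
    (s : Gs (μ × List (DT Λ κ))) : ℝ :=
  ∑ k, ∑ k', s.c k * s.c k' * I (eo R wr tu p (s.L k) (s.L k'))

/-- the mean contents by the children -/
lemma I_mm {K K' : List (DT Λ κ)} {p : ℕ} (hp : 0 < p) {R' : ℝ → Λ → Λ → Prop}
    (hR : ∀ j i, MP fun x => R' x j i) (hP : PBL (K.map chP)) (hN : PBL (K.map chN))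
    (hP' : PBL (K'.map chP)) (hN' : PBL (K'.map chN)) :
    I (qe R' (mm p K) (mm p K')) =
      (1 - 1 / (p : ℝ)) * (1 - 1 / (p : ℝ)) * I (qe R' (jv (K.map chP)) (jv (K'.map chP))) +
      (1 - 1 / (p : ℝ)) * (1 / (p : ℝ)) * I (qe R' (jv (K.map chP)) (jv (K'.map chN))) +
      1 / (p : ℝ) * (1 - 1 / (p : ℝ)) * I (qe R' (jv (K.map chN)) (jv (K'.map chP))) +
      1 / (p : ℝ) * (1 / (p : ℝ)) * I (qe R' (jv (K.map chN)) (jv (K'.map chN))) := by
  have hp1 : (1 : ℝ) ≤ p := by exact_mod_cast hp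
  have w0 : (0:ℝ) ≤ 1 / p := by positivity
  have w1 : (0:ℝ) ≤ 1 - 1 / p := by
    have : (1:ℝ) / p ≤ 1 := by rw [div_le_one (by linarith)]; exact hp1
    linarith
  have e : qe R' (mm p K) (mm p K') = fun x =>
      ((1 - 1 / (p : ℝ)) * (1 - 1 / (p : ℝ)) * qe R' (jv (K.map chP)) (jv (K'.map chP)) x +
      (1 - 1 / (p : ℝ)) * (1 / (p : ℝ)) * qe R' (jv (K.map chP)) (jv (K'.map chN)) x +
      1 / (p : ℝ) * (1 - 1 / (p : ℝ)) * qe R' (jv (K.map chN)) (jv (K'.map chP)) x) +
      1 / (p : ℝ) * (1 / (p : ℝ)) * qe R' (jv (K.map chN)) (jv (K'.map chN)) x := by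
    funext x
    exact qe_lin (R := R') (V := jv (K.map chP)) (V' := jv (K.map chN)) (W := jv (K'.map chP))
      (W' := jv (K'.map chN)) (x := x) _ _ _ _
  have q : ∀ {A A' : List (DT Λ κ)}, PBL A → PBL A' → PB (qe R' (jv A) (jv A')) := fun ha hb =>
    PB_qe hR (fun j => PB_jv ha j) fun j => PB_jv hb j
  have m : ∀ {a : ℝ} {f : ℝ → ℝ}, 0 ≤ a → PB f → PB fun x => a * f x := fun ha hf =>
    (PB.const ha).mul hf
  have m1 := m (mul_nonneg w1 w1) (q hP hP')
  have m2 := m (mul_nonneg w1 w0) (q hP hN')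
  have m3 := m (mul_nonneg w0 w1) (q hN hP')
  have m4 := m (mul_nonneg w0 w0) (q hN hN')
  rw [e, I_add ((m1.add m2).add m3).integrableOn m4.integrableOn,
    I_add (m1.add m2).integrableOn m3.integrableOn, I_add m1.integrableOn m2.integrableOn,
    I_smul', I_smul', I_smul', I_smul']

/-- the potential of the children -/
lemma Pp_C (H : TB B wr tu) (hR : ∀ p m j i, MP fun x => R p m x j i) (hs : gst B p s)
    (hp : p ≠ 0) : Pp R p (B.C p s) ≤
      ∑ k, ∑ k', s.c k * s.c k' * I (qe (R p (tu p (s.L k).1)) (mm p (bB p (s.L k).2))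
        (mm p (bB p (s.L k').2))) := by
  have hp0 : 0 < p := Nat.pos_of_ne_zero hp
  by_cases h2 : 2 ≤ p
  · rw [BC_pos B h2]
    refine le_of_eq ?_
    unfold Pp
    show ∑ x : s.J × Bool, ∑ x' : s.J × Bool, cT (1 - 1 / (p : ℝ)) s.c x *
      cT (1 - 1 / (p : ℝ)) s.c x' * Pe R p (if x.2 = true then B.cP p (s.L x.1) else
        B.cN p (s.L x.1)) (if x'.2 = true then B.cP p (s.L x'.1) else B.cN p (s.L x'.1)) = _
    rw [Fintype.sum_prod_type]
    refine Finset.sum_congr rfl fun k _ => ?_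
    rw [Fintype.sum_bool, ← Finset.sum_add_distrib, Fintype.sum_prod_type]
    refine Finset.sum_congr rfl fun k' _ => ?_
    rw [Fintype.sum_bool]
    have hb := hs.2 k
    have hb' := hs.2 k'
    have g1 := H.pbl (H.cl.P hb hp)
    have g2 := H.pbl (H.cl.N hb hp)
    have g1' := H.pbl (H.cl.P hb' hp)
    have g2' := H.pbl (H.cl.N hb' hp)
    rw [H.eP hb hp] at g1
    rw [H.eN hb hp] at g2
    rw [H.eP hb' hp] at g1'
    rw [H.eN hb' hp] at g2'
    rw [I_mm hp0 (fun j i => hR p (tu p (s.L k).1) j i) g1 g2 g1' g2']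
    simp only [if_true, Bool.false_eq_true, if_false, cT]
    unfold Pe
    rw [H.eP hb hp, H.eN hb hp, H.eP hb' hp, H.eN hb' hp]
    ring
  · have hp1 : p = 1 := by omega
    subst hp1
    rw [BC_neg B h2]
    have e1 : ∀ k, jv (B.cP 1 (s.L k)).2 = fun _ _ => 0 := by
      intro k
      rw [H.eP (hs.2 k) hp]
      show jv ((bB 1 (s.L k).2).map chP) = _
      rw [H.no1 (hs.2 k)]
      funext j x
      simp [jv]
    have e2 : Pp R 1 ⟨s.J, s.fJ, s.c, s.W, fun j => B.cP 1 (s.L j)⟩ = 0 := by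
      unfold Pp
      refine Finset.sum_eq_zero fun k _ => Finset.sum_eq_zero fun k' _ => ?_
      show s.c k * s.c k' * Pe R 1 (B.cP 1 (s.L k)) (B.cP 1 (s.L k')) = 0
      unfold Pe
      rw [e1 k, e1 k']
      have e3 : qe (R 1 (B.cP 1 (s.L k)).1) (fun (_ : Λ) (_ : ℝ) => (0 : ℝ)) (fun _ _ => 0) =
          fun _ => 0 := by
        funext x
        unfold qe
        simp
      rw [e3]
      have e4 : I (fun _ : ℝ => (0 : ℝ)) = 0 := by unfold I; simp
      rw [e4, mul_zero]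
    rw [e2]
    refine Finset.sum_nonneg fun k _ => Finset.sum_nonneg fun k' _ => ?_
    refine mul_nonneg (mul_nonneg (hs.1.c0 k) (hs.1.c0 k')) (I_nonneg fun x => ?_)
    exact qe_nonneg (fun j => (PB_mm (H.kok (hs.2 k) hp) hp0 j).nonneg x)
      fun j => (PB_mm (H.kok (hs.2 k') hp) hp0 j).nonneg x

variable (H : TB B wr tu) (hR : ∀ p m j i, MP fun x => R p m x j i)
  (hsd : ∀ {p b}, B.ok p b → p ≠ 0 → Sd (bB p b.2) (sd p b.1))
include H hR hsd

/-- **the step of the groups** -/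
theorem step (hs : gst B p s) (hp : p ≠ 0) (hm : ∀ k k', (s.L k').1 = (s.L k).1) :
    Eo R wr tu p s + Pp R p (B.C p s) + Pp R (p - 1) (B.N p s) ≤ Pp R p s + Jg R tu sd p s := by
  have c0 := hs.1.c0
  have h1 := Pp_C H hR hs hp
  have h2 : Eo R wr tu p s + (∑ k, ∑ k', s.c k * s.c k' * I (qe (R p (tu p (s.L k).1))
      (mm p (bB p (s.L k).2)) (mm p (bB p (s.L k').2)))) + Pp R (p - 1) (B.N p s) ≤
      Pp R p s + Jg R tu sd p s := by
    unfold Eo Pp Jg
    show _ + _ + (∑ k : s.J, ∑ k' : s.J, s.c k * s.c k' *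
      Pe R (p - 1) (B.rN p (s.L k)) (B.rN p (s.L k'))) ≤ _
    rw [← Finset.sum_add_distrib, ← Finset.sum_add_distrib, ← Finset.sum_add_distrib]
    refine Finset.sum_le_sum fun k _ => ?_
    rw [← Finset.sum_add_distrib, ← Finset.sum_add_distrib, ← Finset.sum_add_distrib]
    refine Finset.sum_le_sum fun k' _ => ?_
    have h3 := pair_step H hR hsd (hs.2 k) (hs.2 k') hp (hm k k')
    have h4 := mul_le_mul_of_nonneg_left h3 (mul_nonneg (c0 k) (c0 k'))
    linarith
  linarith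

/-- **THE TELESCOPE** -/
theorem Kw_tel {ok : ℕ → Gs (μ × List (DT Λ κ)) → Prop} (hg : ∀ {p s}, ok p s → gst B p s)
    (hC : ∀ {p s}, ok p s → p ≠ 0 → ok p (B.C p s))
    (hN : ∀ {p s}, ok p s → p ≠ 0 → ok (p - 1) (B.N p s))
    (hm : ∀ {p s}, ok p s → ∀ k k', (s.L k').1 = (s.L k).1) :
    ∀ (n p : ℕ) (s : Gs (μ × List (DT Λ κ))), ok p s →
    Kw B (Eo R wr tu) n p s ≤ Pp R p s + Kw B (Jg R tu sd) n p s := by
  intro n
  have nn : ∀ {p s}, ok p s → 0 ≤ Pp R p s := fun {p s} hs => by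
    have g := hg hs
    refine Finset.sum_nonneg fun k _ => Finset.sum_nonneg fun k' _ => ?_
    refine mul_nonneg (mul_nonneg (g.1.c0 k) (g.1.c0 k')) (I_nonneg fun x => ?_)
    exact (PB_Pe H hR (g.2 k) (g.2 k')).nonneg x
  induction n with
  | zero =>
    intro p s hs
    show (0 : ℝ) ≤ Pp R p s + 0
    linarith [nn hs]
  | succ n ih =>
    intro p s hs
    by_cases hp : p = 0
    · subst hp
      rw [Kw_z, Kw_z]
      linarith [nn hs]
    rw [Kw_succ _ _ n hp, Kw_succ _ _ n hp]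
    have i1 := ih p _ (hC hs hp)
    have i2 := ih (p - 1) _ (hN hs hp)
    have h1 := step H hR hsd (hg hs) hp (hm hs)
    linarith

end grp

end Crest.Agent.R4P.E3V479
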