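import Crest.Agent.R4P.E3V_479
import Crest.Agent.R4P.E3G_493

/-!
R4 (S0004) with powers, T3, helper479 (PLAN v1, D1): **the local link of E3 at the level of pieces**.

* `Es W` : energies of the excess lifts of the pairs `W` of a group; `psm_pairs`, `I_psm`.
* `wA` : the lost pairs (same index and group, low types or point types different), `wD` : the lost pairs
  which are related neither above nor below the tie (paid directly).
* **`linkV`** : cost of the group of ties `≤ n rco + erV`, `erV = n (Eo R + Es wD)`; **`gT_leV`** : the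
  field `loc` with `c = n`.
* `Kw_pairs` : pair sums below charges; **`her_V`** : `Kw erV ≤ n (Pp(root) + 2 I (Z root))`.
-/

set_option autoImplicit false
set_option linter.unusedSectionVars false
set_option linter.unusedVariables false
open MeasureTheory Filter Set

namespace Crest.Agent.R4P.E3W479

open Crest.Agent.R4.Tour104 Crest.Agent.R4.Tour758 Crest.Agent.R4.Avg758 Crest.Agent.R4.Clos758
open Crest.Agent.R4.ClosL758 Crest.Agent.R4.ClosG758 Crest.Agent.R4.ClosR758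
open Crest.Agent.R4P.ClosR442 Crest.Agent.R4P.Grp36
open Crest.Agent.R4P.Xfer36 Crest.Agent.R4P.TopC36 Crest.Agent.R4P.PN36
open Crest.Agent.R4P.GMer27 Crest.Agent.R4P.GCol27 Crest.Agent.R4P.GWa343 Crest.Agent.R4P.GWb343
open Crest.Agent.R4P.GWc343 Crest.Agent.R4P.GWd343 Crest.Agent.R4P.TrR343 Crest.Agent.R4P.DTp26
open Crest.Agent.R4P.RSys343 Crest.Agent.R4P.RXm55 Crest.Agent.R4P.MSm25
open Crest.Agent.R4P.VR407 Crest.Agent.R4P.Bp407 Crest.Agent.R4P.DTm407
open Crest.Agent.R4P.GSK55 (stp gk Pr Kw Kw_succ Kw_z one one_TC one_su BC_pos BC_neg)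
open Crest.Agent.R4P.PayR45
open Crest.Agent.R4P.E3D479 Crest.Agent.R4P.E3E479 Crest.Agent.R4P.E3P479 Crest.Agent.R4P.E3T479
open Crest.Agent.R4P.E3S479 Crest.Agent.R4P.E3J479 Crest.Agent.R4P.E3L479 Crest.Agent.R4P.E3V479
open Crest.Agent.R4P.E3G493 (gq rBG rCG ecoG)
open Crest.Agent.R4P.MSi343 (su)
open Crest.Agent.R4P.Walk560 (DT)

/-! ### pair sums and charges -/

section kw
variable {β : Type} {B : BM β}

/-- sum over the pairs of members -/
noncomputable def Ps (f : ℕ → β → β → ℝ) (p : ℕ) (s : Gs β) : ℝ :=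
  ∑ k, ∑ k', s.c k * s.c k' * f p (s.L k) (s.L k')

/-- charge of a bundle -/
noncomputable def ch (Z : BCh B) (p : ℕ) (b : β) : ℝ := I (Z.yc p b) + I (Z.yx p b)

/-- **pair sums below charges** -/
theorem Kw_pairs (hc : Cl B) (Z : BCh B) {ok : ℕ → Gs β → Prop}
    (hg : ∀ {p s}, ok p s → gst B p s)
    (hC : ∀ {p s}, ok p s → p ≠ 0 → ok p (B.C p s))
    (hN : ∀ {p s}, ok p s → p ≠ 0 → ok (p - 1) (B.N p s)) {f : ℕ → β → β → ℝ}
    (h : ∀ {p s}, ok p s → p ≠ 0 → ∀ k k', f p (s.L k) (s.L k') ≤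
      ch Z p (s.L k) + ch Z p (s.L k')) (n p : ℕ) (s : Gs β) (hs : ok p s) :
    Kw B (Ps f) n p s ≤ 2 * I (su s (Z.Y p)) := by
  have h1 := Kw_chg hc Z n p s (hg hs)
  refine le_trans ?_ (mul_le_mul_of_nonneg_left h1 (by norm_num : (0:ℝ) ≤ 2))
  rw [← GSK55.Kw_smul]
  refine GSK55.Kw_mono (ok := ok) hC hN (fun {p s} hs hp => ?_) n p s hs
  have g := hg hs
  show Ps f p s ≤ 2 * (I (su s (Z.yc p)) + I (su s (Z.yx p)))
  refine (sum_pair g.1.c0 g.1.c1 (e := fun k => ch Z p (s.L k))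
    fun k k' => h hs hp k k').trans (le_of_eq ?_)
  congr 1
  unfold ch
  rw [M_add]
  have e1 : ∀ f : β → ℝ → ℝ, (∀ k, PB (f (s.L k))) →
      M s.c (fun k => I (f (s.L k))) = I (su s f) := by
    intro f hf
    unfold su M I
    rw [MeasureTheory.integral_finsetSum]
    · refine Finset.sum_congr rfl fun k _ => ?_
      rw [MeasureTheory.integral_const_mul]
    · intro k _
      exact ((PB.const (g.1.c0 k)).mul (hf k)).integrableOn
  rw [e1 _ fun k => Z.pyc (g.2 k) hp, e1 _ fun k => Z.pyx (g.2 k) hp]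

end kw

/-! ### the link -/

section td
variable {μ Λ κ ζ ι : Type} [Fintype Λ] [DecidableEq Λ] [Fintype κ] [DecidableEq κ]
  [Fintype ζ] [DecidableEq ζ] [Fintype ι] [DecidableEq ι] {n : ℕ}

variable {D : TD μ Λ κ ζ} {wr : ℕ → Λ → κ} {ix : κ → ι}
  {Inv : ℕ → μ × List (DT Λ κ) → Prop} {p : ℕ} {b : μ × List (DT Λ κ)}
  {s : Gs (μ × List (DT Λ κ))} {gr : ℕ → ι → Option ζ × Option ζ → Fin n} {R W : PR μ Λ}

/-- energy of the lifts of the pairs of a relation -/
noncomputable def ee (W : PR μ Λ) (wr : ℕ → Λ → κ) (p : ℕ) (b b' : μ × List (DT Λ κ)) : ℝ :=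
  I (qe (W p b.1) (eg (wr p) p (bB p b.2)) (eg (wr p) p (bB p b'.2)))

/-- the same, group -/
noncomputable def Es (W : PR μ Λ) (wr : ℕ → Λ → κ) : ℕ → Gs (μ × List (DT Λ κ)) → ℝ :=
  Ps (ee W wr)

lemma Eo_eq (tu : ℕ → μ → μ) : Eo R wr tu p s = Es (oR R tu) wr p s := rfl

open Classical in
/-- pair sums by pairs of members -/
lemma psm_pairs {Rl : ℝ → Λ → Λ → Prop} (x : ℝ) :
    psm (tl D wr ix) Rl p s x = ∑ k, ∑ k', s.c k * s.c k' *
      qe Rl (eg (wr p) p (bB p (s.L k).2)) (eg (wr p) p (bB p (s.L k').2)) x := by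
  set g : s.J → Λ → ℝ := fun k j => eg (wr p) p (bB p (s.L k).2) j x with hg
  have e0 : ∀ j, (tl D wr ix).GP p s j x = ∑ k, s.c k * g k j := fun j => rfl
  unfold psm qe
  have e2 : ∀ j j', (if Rl x j j' then (tl D wr ix).GP p s j x * (tl D wr ix).GP p s j' x else 0) =
      ∑ k, ∑ k', s.c k * s.c k' * (if Rl x j j' then g k j * g k' j' else 0) := by
    intro j j'
    rw [e0, e0]
    by_cases hR : Rl x j j'
    · simp only [if_pos hR]
      rw [Finset.sum_mul_sum]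
      exact Finset.sum_congr rfl fun k _ => Finset.sum_congr rfl fun k' _ => by ring
    · simp [if_neg hR]
  have e3 : ∀ k k', s.c k * s.c k' * ∑ j, ∑ j', (if Rl x j j' then g k j * g k' j' else 0) =
      ∑ j, ∑ j', s.c k * s.c k' * (if Rl x j j' then g k j * g k' j' else 0) := by
    intro k k'
    rw [Finset.mul_sum]
    exact Finset.sum_congr rfl fun j _ => Finset.mul_sum _ _ _
  have e4 : ∀ (F : Λ → Λ → s.J → s.J → ℝ), ∑ j, ∑ j', ∑ k, ∑ k', F j j' k k' =
      ∑ k, ∑ k', ∑ j, ∑ j', F j j' k k' := by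
    intro F
    calc ∑ j, ∑ j', ∑ k, ∑ k', F j j' k k' = ∑ j, ∑ k, ∑ j', ∑ k', F j j' k k' :=
          Finset.sum_congr rfl fun j _ => Finset.sum_comm
      _ = ∑ k, ∑ j, ∑ j', ∑ k', F j j' k k' := Finset.sum_comm
      _ = ∑ k, ∑ j, ∑ k', ∑ j', F j j' k k' :=
          Finset.sum_congr rfl fun k _ => Finset.sum_congr rfl fun j _ => Finset.sum_comm
      _ = ∑ k, ∑ k', ∑ j, ∑ j', F j j' k k' :=
          Finset.sum_congr rfl fun k _ => Finset.sum_comm
  calc _ = ∑ j, ∑ j', ∑ k, ∑ k', s.c k * s.c k' * (if Rl x j j' then g k j * g k' j' else 0) :=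
        Finset.sum_congr rfl fun j _ => Finset.sum_congr rfl fun j' _ => by
          rw [← e2 j j']
    _ = ∑ k, ∑ k', ∑ j, ∑ j', s.c k * s.c k' * (if Rl x j j' then g k j * g k' j' else 0) := e4 _
    _ = ∑ k, ∑ k', s.c k * s.c k' * ∑ j, ∑ j', (if Rl x j j' then g k j * g k' j' else 0) :=
        Finset.sum_congr rfl fun k _ => Finset.sum_congr rfl fun k' _ => (e3 k k').symm
    _ = _ := Finset.sum_congr rfl fun k _ => Finset.sum_congr rfl fun k' _ => by
          congr 1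

lemma PB_ee (H : TYp wr D Inv) (hs : gst (bm (DTn407.rxm H)) p s) (hp : p ≠ 0)
    {Rl : ℝ → Λ → Λ → Prop} (mR : ∀ j i, MP fun x => Rl x j i) (k k' : s.J) :
    PB (qe Rl (eg (wr p) p (bB p (s.L k).2)) (eg (wr p) p (bB p (s.L k').2))) :=
  PB_qe mR (fun j => PB_eg (H.bok (hs.2 k) hp) j) fun j => PB_eg (H.bok (hs.2 k') hp) j

lemma I_psm (H : TYp wr D Inv) (hs : gst (bm (DTn407.rxm H)) p s) (hp : p ≠ 0) {m : μ}
    (hm : Cm m s) (mW : ∀ j i, MP fun x => W p m x j i) :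
    I (psm (tl D wr ix) (W p m) p s) = Es W wr p s := by
  have c0 := hs.1.c0
  have e : psm (tl D wr ix) (W p m) p s = fun x => ∑ k, ∑ k', s.c k * s.c k' *
      qe (W p m) (eg (wr p) p (bB p (s.L k).2)) (eg (wr p) p (bB p (s.L k').2)) x :=
    funext fun x => psm_pairs x
  have pb := fun k k' => PB_ee (wr := wr) H hs hp (Rl := W p m) mW k k'
  rw [e, I_sum2 fun k k' => (PB.const (mul_nonneg (c0 k) (c0 k'))).mul (pb k k')]
  unfold Es Ps ee
  refine Finset.sum_congr rfl fun k _ => Finset.sum_congr rfl fun k' _ => ?_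
  rw [I_smul', hm k]

/-- **the lost pairs** : same index and group, low types or point types different -/
def wA (D : TD μ Λ κ ζ) (wr : ℕ → Λ → κ) (ix : κ → ι) (gr : ℕ → ι → Option ζ × Option ζ → Fin n) :
    PR μ Λ := fun p m x j j' => rBG D wr ix gr p m x j j' ∨ rCG D wr ix gr p m x j j'

/-- **the lost pairs which are related neither above nor below the tie** -/
def wD (D : TD μ Λ κ ζ) (wr : ℕ → Λ → κ) (ix : κ → ι) (gr : ℕ → ι → Option ζ × Option ζ → Fin n)
    (R : PR μ Λ) : PR μ Λ := fun p m x j j' => wA D wr ix gr p m x j j' ∧ ¬ oR R D.tu p m x j j'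

lemma mp_wA (H : TYp wr D Inv) (gr : ℕ → ι → Option ζ × Option ζ → Fin n) (p : ℕ) (m : μ)
    (j j' : Λ) : MP fun x => wA D wr ix gr p m x j j' := by
  have a1 := (H.mltp p m j).prod ((H.mltp p m j').prod ((H.mtp p m j).prod (H.mtp p m j')))
  exact a1.map fun q =>
    ((ix (wr p j) = ix (wr p j') ∧ (q.1 ≠ q.2.1 ∨ q.1 = none)) ∧
      gr p (ix (wr p j)) (q.1, q.2.2.1) = gr p (ix (wr p j')) (q.2.1, q.2.2.2)) ∨
    ((ix (wr p j) = ix (wr p j') ∧ q.1 = q.2.1 ∧ q.1 ≠ none ∧ q.2.2.1 ≠ q.2.2.2) ∧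
      gr p (ix (wr p j)) (q.1, q.2.2.1) = gr p (ix (wr p j')) (q.2.1, q.2.2.2))

lemma mp_oR (H : TYp wr D Inv) (mR : ∀ p m j i, MP fun x => R p m x j i) (p : ℕ) (m : μ)
    (j i : Λ) : MP fun x => oR R D.tu p m x j i :=
  ((mR p m j i).prod ((mR p (D.tu p m) j i).pull p)).map fun q => q.1 ∨ q.2

lemma mp_wD (H : TYp wr D Inv) (mR : ∀ p m j i, MP fun x => R p m x j i)
    (gr : ℕ → ι → Option ζ × Option ζ → Fin n) (p : ℕ) (m : μ) (j j' : Λ) :
    MP fun x => wD D wr ix gr R p m x j j' :=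
  ((mp_wA H gr p m j j').prod (mp_oR H mR p m j j')).map fun q => q.1 ∧ ¬ q.2

/-- the typed trees are an instance -/
lemma tbD (H : TYp wr D Inv) : TB (bm (DTn407.rxm H)) wr D.tu where
  cl := ⟨fun h hp => H.toP h hp, fun h hp => H.toN h hp, fun h hp => H.toR h hp⟩
  eP := fun _ _ => rfl
  eN := fun _ _ => rfl
  eR := fun _ _ => rfl
  kok := fun h hp => H.bok h hp
  pba := fun h => H.pb h
  no1 := fun h => H.no1 h
  mp := fun p m j => MP.const _

/-- **the errors of the local link** -/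
noncomputable def erV (D : TD μ Λ κ ζ) (wr : ℕ → Λ → κ) (ix : κ → ι)
    (gr : ℕ → ι → Option ζ × Option ζ → Fin n) (R : PR μ Λ) (p : ℕ)
    (s : Gs (μ × List (DT Λ κ))) : ℝ :=
  n * (Eo R wr D.tu p s + Es (wD D wr ix gr R) wr p s)

/-- **THE LOCAL LINK** -/
theorem linkV (H : TYp wr D Inv) (hs : gst (bm (DTn407.rxm H)) p s) (hp : p ≠ 0) {m : μ}
    (hm : Cm m s) (gr : ℕ → ι → Option ζ × Option ζ → Fin n) (j₀ : Λ)
    (mR : ∀ p m j i, MP fun x => R p m x j i) :
    I (fun x => ∑ i, ixF ix (GmG (gBs p (stp Prod.snd s))) i x ^ 2) ≤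
      n * I ((tl D wr ix).rco p s) + erV D wr ix gr R p s := by
  classical
  have h : ∀ j, Inv p (s.L j) := hs.2
  have c0 := hs.1.c0
  have l1 := E3G493.linkG gr H c0 h hp j₀ (s := s) (ix := ix)
  have hY : ∀ j, (tl D wr ix).Ok p (s.L j) := fun j => tl_ok H (h j) hp
  have h0 : ∀ x j, 0 ≤ (tl D wr ix).GP p s j x := fun x j => (TL.PB_GP c0 hY j).nonneg x
  have pA' : PB (psm (tl D wr ix) (wA D wr ix gr p m) p s) := by
    have pG := fun j => TL.PB_GP c0 hY j
    refine PB.sum _ fun j _ => PB.sum _ fun j' _ => ?_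
    exact ModeG51.PB_ite (mp_wA H gr p m j j').prop.1 (mp_wA H gr p m j j').prop.2
      ((pG j).mul (pG j')) (PB.const le_rfl)
  -- the lost pairs
  have l2 : I (ecoG (tl D wr ix) gr p s) ≤ I (psm (tl D wr ix) (wA D wr ix gr p m) p s) := by
    refine I_mono (E3G493.PB_ecoG gr c0 hY).integrableOn pA'.integrableOn fun x => ?_
    refine (E3G493.ecoG_le gr H c0 h hp hm x).trans ?_
    unfold psm
    rw [← Finset.sum_add_distrib]
    refine Finset.sum_le_sum fun j _ => ?_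
    rw [← Finset.sum_add_distrib]
    refine Finset.sum_le_sum fun j' _ => ?_
    have n0 := mul_nonneg (h0 x j) (h0 x j')
    by_cases a : rBG D wr ix gr p m x j j'
    · have b : ¬ rCG D wr ix gr p m x j j' := fun hb => by
        rcases a.1.2 with h1 | h1
        · exact h1 hb.1.2.1
        · exact hb.1.2.2.1 h1
      rw [if_pos a, if_neg b, if_pos (show wA D wr ix gr p m x j j' from Or.inl a), add_zero]
    · rw [if_neg a, zero_add]
      by_cases b : rCG D wr ix gr p m x j j'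
      · rw [if_pos b, if_pos (show wA D wr ix gr p m x j j' from Or.inr b)]
      · rw [if_neg b]
        split_ifs <;> linarith
  rw [I_psm H hs hp hm (mp_wA H gr p m)] at l2
  -- related or not
  have l3 : Es (wA D wr ix gr) wr p s ≤ Eo R wr D.tu p s + Es (wD D wr ix gr R) wr p s := by
    rw [Eo_eq]
    unfold Es Ps
    rw [← Finset.sum_add_distrib]
    refine Finset.sum_le_sum fun k _ => ?_
    rw [← Finset.sum_add_distrib]
    refine Finset.sum_le_sum fun k' _ => ?_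
    rw [← mul_add]
    refine mul_le_mul_of_nonneg_left ?_ (mul_nonneg (c0 k) (c0 k'))
    unfold ee
    have p1 := PB_ee (wr := wr) H hs hp (Rl := oR R D.tu p (s.L k).1) (mp_oR H mR p (s.L k).1) k k'
    have p2 := PB_ee (wr := wr) H hs hp (Rl := wD D wr ix gr R p (s.L k).1)
      (mp_wD H mR gr p (s.L k).1) k k'
    have p3 := PB_ee (wr := wr) H hs hp (Rl := wA D wr ix gr p (s.L k).1)
      (mp_wA H gr p (s.L k).1) k k'
    rw [← I_add p1.integrableOn p2.integrableOn]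
    refine I_mono p3.integrableOn (p1.add p2).integrableOn fun x => ?_
    refine qe_cover (fun j => (PB_eg (H.bok (h k) hp) j).nonneg x)
      (fun j => (PB_eg (H.bok (h k') hp) j).nonneg x) fun j i _ _ hr => ?_
    by_cases ho : oR R D.tu p (s.L k).1 x j i
    · exact Or.inl ho
    · exact Or.inr ⟨hr, ho⟩
  unfold erV
  have n0 : (0:ℝ) ≤ n := Nat.cast_nonneg n
  have := mul_le_mul_of_nonneg_left (l2.trans l3) n0
  linarith

/-- **THE WALK SUM OF THE ERRORS** : the pair potential of the root and the charges of the jumps and of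
the direct pairs -/
theorem her_V (H : TYp wr D Inv) (mR : ∀ p m j i, MP fun x => R p m x j i)
    {sd : ℕ → μ → Λ → Prop} (hsd : ∀ {p b}, Inv p b → p ≠ 0 → Sd (bB p b.2) (sd p b.1))
    {ok : ℕ → Gs (μ × List (DT Λ κ)) → Prop}
    (hg : ∀ {p s}, ok p s → gst (bm (DTn407.rxm H)) p s)
    (hC : ∀ {p s}, ok p s → p ≠ 0 → ok p ((bm (DTn407.rxm H)).C p s))
    (hN : ∀ {p s}, ok p s → p ≠ 0 → ok (p - 1) ((bm (DTn407.rxm H)).N p s))
    (hm : ∀ {p s}, ok p s → ∃ m, Cm m s) (Z : BCh (bm (DTn407.rxm H)))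
    (h : ∀ {p s}, ok p s → p ≠ 0 → ∀ k k', Jp R D.tu sd p (s.L k) (s.L k') +
      ee (wD D wr ix gr R) wr p (s.L k) (s.L k') ≤ ch Z p (s.L k) + ch Z p (s.L k'))
    (N p : ℕ) (s : Gs (μ × List (DT Λ κ))) (hs : ok p s) :
    Kw (bm (DTn407.rxm H)) (erV D wr ix gr R) N p s ≤
      n * (Pp R p s + 2 * I (su s (Z.Y p))) := by
  have T := tbD (wr := wr) H
  have hm' : ∀ {p s}, ok p s → ∀ k k', (s.L k').1 = (s.L k).1 := fun {p s} hs k k' => by
    obtain ⟨m, hm⟩ := hm hs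
    rw [hm k, hm k']
  have h1 := Kw_tel (R := R) (sd := sd) T mR (fun hb hp => hsd hb hp) hg hC hN hm' N p s hs
  have h2 := Kw_pairs (B := bm (DTn407.rxm H)) T.cl Z hg hC hN
    (f := fun p b b' => Jp R D.tu sd p b b' + ee (wD D wr ix gr R) wr p b b') h N p s hs
  have e1 : Kw (bm (DTn407.rxm H)) (erV D wr ix gr R) N p s =
      n * (Kw (bm (DTn407.rxm H)) (Eo R wr D.tu) N p s +
        Kw (bm (DTn407.rxm H)) (Es (wD D wr ix gr R) wr) N p s) := by
    have e0 : erV D wr ix gr R = fun p s => n * (Eo R wr D.tu p s +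
      Es (wD D wr ix gr R) wr p s) := rfl
    rw [e0, GSK55.Kw_smul]
    congr 1
    exact GSK55.Kw_add _ _ _ _ _
  have e2 : Kw (bm (DTn407.rxm H)) (Ps fun p b b' => Jp R D.tu sd p b b' +
      ee (wD D wr ix gr R) wr p b b') N p s = Kw (bm (DTn407.rxm H)) (Jg R D.tu sd) N p s +
        Kw (bm (DTn407.rxm H)) (Es (wD D wr ix gr R) wr) N p s := by
    rw [← GSK55.Kw_add]
    congr 1
    funext p s
    unfold Ps Jg Es Ps
    rw [← Finset.sum_add_distrib]
    refine Finset.sum_congr rfl fun k _ => ?_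
    rw [← Finset.sum_add_distrib]
    refine Finset.sum_congr rfl fun k' _ => ?_
    ring
  rw [e1]
  rw [e2] at h2
  have n0 : (0:ℝ) ≤ n := Nat.cast_nonneg n
  refine mul_le_mul_of_nonneg_left ?_ n0
  linarith

end td

/-! ### a context -/

section ctx
open Crest.Agent.R4.Fam464 Crest.Agent.R4P.Cnt588 Crest.Agent.R4P.Item758
open Crest.Agent.R4P.Data758 Crest.Agent.R4P.Skel189
open Crest.Agent.R4P.TopX36

variable {N : Skel189.Num} {γ : ℝ} {p0 P₀ : ℕ} {μ ζ : Type} [Fintype ζ] [DecidableEq ζ] {n : ℕ}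

/-- **the field `loc`** with `c = n`, `er = erV` -/
theorem gT_leV (X : Ctx N γ p0 P₀) (j₀ : X.c.Lam) {D : TD μ X.c.Lam (LbX X) ζ}
    {wr : ℕ → X.c.Lam → LbX X} {Inv : ℕ → μ × List (DT X.c.Lam (LbX X)) → Prop}
    (H : TYp wr D Inv) {p : ℕ} {s : Gs (μ × List (DT X.c.Lam (LbX X)))}
    (hs : gst (bm (DTn407.rxm H)) p s) (hp : p ≠ 0) {m : μ} (hm : Cm m s)
    (gr : ℕ → _ → Option ζ × Option ζ → Fin n) {R : PR μ X.c.Lam}
    (mR : ∀ p m j i, MP fun x => R p m x j i) :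
    gT X p (gBs p (stp Prod.snd s)) ≤ n * I ((tl D wr (ixL (X := X))).rco p s) +
      erV D wr (ixL (X := X)) gr R p s :=
  linkV H hs hp hm gr j₀ mR

end ctx

end Crest.Agent.R4P.E3W479
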