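import Crest.Agent.R4P.ResM_48

/-!
R4 (S0004) with powers, helper48: **the in-member residue lemma, two labels** (`κ` = label of the
present piece, `μ` = label of the missing piece, `(n u) μ - v κ ∈ ℤ`).

* `Bad2`, `small_uniq` : at most one small tie per pair of labels;
* `pair_rate` : large ties, fixed pair;
* `rate2_one` : fixed pair, `≤ 1 / N0 + C k^(-1/3)`;
* `dy` : a dyadic sum;
* `rate2_sum` : all the pairs of the path of a piece.
-/

set_option autoImplicit false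
set_option linter.unusedSectionVars false
set_option linter.unusedVariables false

namespace Crest.Agent.R4P.ResM48

open Crest.Agent.R4P.BTs18

/-- the tie `n` is bad for the labels `κ` (present), `μ` (missing) and the cofactors `≤ U` -/
def Bad2 (κ μ : ℚ) (U n : ℕ) : Prop :=
  ∃ u v : ℕ, 1 ≤ u ∧ u ≤ U ∧ 1 ≤ v ∧ v ≤ U ∧ ∃ m : ℤ, ((n * u : ℕ) : ℚ) * μ - v * κ = m

lemma Bad2.mono {κ μ : ℚ} {U V n : ℕ} (h : Bad2 κ μ U n) (hUV : U ≤ V) : Bad2 κ μ V n := by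
  obtain ⟨u, v, h1, h2, h3, h4, h5⟩ := h
  exact ⟨u, v, h1, h2.trans hUV, h3, h4.trans hUV, h5⟩

/-- one label: `Bad2` from `Bad` -/
lemma Bad2.of_bad {κ : ℚ} {U n : ℕ} (h : Bad κ.den U n) : Bad2 κ κ U n := by
  obtain ⟨u, v, h1, h2, h3, h4, h5, c, hc⟩ := h
  refine ⟨u, v, h1, h2, h3, h4, c * κ.num, ?_⟩
  have h6 : ((n * u : ℕ) : ℚ) - v = (κ.den : ℚ) * c := by
    push_cast
    exact_mod_cast hc
  have h7 : κ * (κ.den : ℚ) = κ.num := Rat.mul_den_eq_num κ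
  rw [← sub_mul, h6]
  push_cast
  rw [← h7]
  ring

/-- two ties of one pair of labels -/
lemma pair_dvd {κ μ : ℚ} {n n' u u' v v' : ℕ} {m m' : ℤ}
    (h : ((n * u : ℕ) : ℚ) * μ - v * κ = m) (h' : ((n' * u' : ℕ) : ℚ) * μ - v' * κ = m') :
    (μ.den : ℤ) ∣ (n * u * v' : ℕ) - (n' * u' * v : ℕ) := by
  refine den_dvd_of_mul (κ := μ) (m := v' * m - v * m') ?_
  push_cast at h h' ⊢
  linear_combination (v' : ℚ) * h - (v : ℚ) * h'

/-- **at most one small tie per pair of labels** -/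
theorem small_uniq {κ μ : ℚ} {n n' U U' : ℕ} (hn : n.Prime) (hn' : n'.Prime) (hk : 2 ≤ μ.den)
    (h : Bad2 κ μ U n) (h' : Bad2 κ μ U' n') (hU : U < n) (hU' : U' < n')
    (q : U ^ 24 ≤ μ.den) (q' : U' ^ 24 ≤ μ.den) (s : n ^ 2 ≤ μ.den) (s' : n' ^ 2 ≤ μ.den) :
    n = n' := by
  obtain ⟨u, v, a1, a2, a3, a4, m, a5⟩ := h
  obtain ⟨u', v', b1, b2, b3, b4, m', b5⟩ := h'
  have key : ∀ x y z A B C : ℕ, x ^ 2 ≤ μ.den → A ^ 24 ≤ μ.den → B ^ 24 ≤ μ.den → y ≤ A → z ≤ B →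
      x * y * z < μ.den := by
    intro x y z A B C hx hA hB hy hz
    by_contra hc
    push Not at hc
    have h1 : μ.den ^ 24 ≤ (x * y * z) ^ 24 := Nat.pow_le_pow_left hc 24
    have h2 : (x * y * z) ^ 24 ≤ μ.den ^ 14 := by
      calc (x * y * z) ^ 24 = (x ^ 2) ^ 12 * y ^ 24 * z ^ 24 := by ring
        _ ≤ μ.den ^ 12 * μ.den * μ.den := by
            refine Nat.mul_le_mul (Nat.mul_le_mul (Nat.pow_le_pow_left hx 12) ?_) ?_
            · exact (Nat.pow_le_pow_left hy 24).trans hA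
            · exact (Nat.pow_le_pow_left hz 24).trans hB
        _ = μ.den ^ 14 := by ring
    have h3 : μ.den ^ 14 < μ.den ^ 24 := Nat.pow_lt_pow_right (by omega) (by norm_num)
    omega
  have e1 := key n u v' U U' 0 s q q' a2 b4
  have e2 := key n' u' v U' U 0 s' q' q b2 a4
  have h1 := pair_dvd a5 b5
  have h2 : n * u * v' = n' * u' * v := by
    have h3 : ((n * u * v' : ℕ) : ℤ) - (n' * u' * v : ℕ) = 0 := by
      refine Int.eq_zero_of_abs_lt_dvd h1 ?_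
      rw [abs_lt]
      have f1 : ((n * u * v' : ℕ) : ℤ) < μ.den := by exact_mod_cast e1
      have f2 : ((n' * u' * v : ℕ) : ℤ) < μ.den := by exact_mod_cast e2
      have f3 : (0 : ℤ) ≤ ((n * u * v' : ℕ) : ℤ) := by positivity
      have f4 : (0 : ℤ) ≤ ((n' * u' * v : ℕ) : ℤ) := by positivity
      constructor <;> linarith
    have h4 : ((n * u * v' : ℕ) : ℤ) = (n' * u' * v : ℕ) := by linarith
    exact_mod_cast h4
  have nd : ∀ {p x : ℕ}, p.Prime → 1 ≤ x → x < p → ¬ p ∣ x := fun {p x} hp h1 h2 h3 =>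
    absurd (Nat.le_of_dvd (by omega) h3) (by omega)
  rcases lt_trichotomy n n' with hlt | heq | hlt
  · exfalso
    have h3 : n' ∣ n * u * v' := by rw [h2]; exact (Dvd.intro _ rfl).mul_right _
    rcases hn'.dvd_mul.1 h3 with h4 | h4
    · rcases hn'.dvd_mul.1 h4 with h5 | h5
      · exact nd hn' hn.one_lt.le hlt h5
      · exact nd hn' a1 (by omega) h5
    · exact nd hn' b3 (by omega) h4
  · exact heq
  · exfalso
    have h3 : n ∣ n' * u' * v := by rw [← h2]; exact (Dvd.intro _ rfl).mul_right _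
    rcases hn.dvd_mul.1 h3 with h4 | h4
    · rcases hn.dvd_mul.1 h4 with h5 | h5
      · exact nd hn hn'.one_lt.le hlt h5
      · exact nd hn b1 (by omega) h5
    · exact nd hn a3 (by omega) h4

/-- **large ties, fixed pair of labels** -/
theorem pair_rate : ∃ C : ℝ, 0 < C ∧ ∀ (κ μ : ℚ) (U : ℕ) (P Q : ℝ), 9 ≤ P → P ≤ Q →
    ∀ F : Finset ℕ, (∀ n ∈ F, n.Prime ∧ P < n ∧ (n : ℝ) ≤ Q ∧ Bad2 κ μ U n) →
      ∑ n ∈ F, (1 : ℝ) / n ≤ (U : ℝ) ^ 2 * (1 / P + C * U / (μ.den : ℝ) ^ (3 / 4 : ℝ) *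
        (1 + Real.log (Real.log Q / Real.log P))) := by
  classical
  obtain ⟨C, hC, h⟩ := res_all
  refine ⟨C, hC, fun κ μ U P Q h9 hPQ F hF => ?_⟩
  have hP0 : 0 < P := by linarith
  have hlP : 0 < Real.log P := Real.log_pos (by linarith)
  have hk : 1 ≤ μ.den := μ.den_pos
  have hk0 : (0:ℝ) < μ.den := by exact_mod_cast hk
  have hL0 : 0 ≤ Real.log (Real.log Q / Real.log P) := Real.log_nonneg (by
    rw [le_div_iff₀ hlP, one_mul]; exact Real.log_le_log hP0 hPQ)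
  set T := (Finset.Icc 1 U) ×ˢ (Finset.Icc 1 U) with hT
  let R : ℕ × ℕ → ℕ → Prop := fun t n => ∃ m : ℤ, ((n * t.1 : ℕ) : ℚ) * μ - t.2 * κ = m
  have h1 : ∑ p ∈ F, (1:ℝ) / p ≤ ∑ t ∈ T, ∑ p ∈ F.filter (fun p : ℕ => R t p), (1:ℝ) / p := by
    have e : ∀ t ∈ T, ∑ p ∈ F.filter (fun p : ℕ => R t p), (1:ℝ) / p =
        ∑ p ∈ F, if R t p then (1:ℝ) / p else 0 :=
      fun t _ => Finset.sum_filter _ _
    rw [Finset.sum_congr rfl e, Finset.sum_comm]
    refine Finset.sum_le_sum fun p hp => ?_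
    obtain ⟨-, -, -, u, v, a1, a2, a3, a4, a5⟩ := hF p hp
    have ht : (u, v) ∈ T := by
      rw [hT, Finset.mem_product, Finset.mem_Icc, Finset.mem_Icc]
      exact ⟨⟨a1, a2⟩, a3, a4⟩
    have h2 := Finset.single_le_sum (f := fun t : ℕ × ℕ => if R t p then (1:ℝ) / p else 0)
      (fun t _ => by positivity) ht
    have h3 : R (u, v) p := a5
    simp only [h3, if_true] at h2
    exact h2
  refine h1.trans ?_
  have h2 : ∀ t ∈ T, ∑ p ∈ F.filter (fun p : ℕ => R t p), (1:ℝ) / p ≤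
      1 / P + C * U / (μ.den:ℝ) ^ (3 / 4 : ℝ) * (1 + Real.log (Real.log Q / Real.log P)) := by
    intro t ht
    rw [hT, Finset.mem_product, Finset.mem_Icc, Finset.mem_Icc] at ht
    rcases Finset.eq_empty_or_nonempty (F.filter (fun p : ℕ => R t p)) with he | ⟨n₀, hn₀⟩
    · rw [he, Finset.sum_empty]
      positivity
    obtain ⟨-, m₀, hm₀⟩ := Finset.mem_filter.1 hn₀
    have h3 := h μ.den (n₀ * t.1) t.1 hk ht.1.1 P Q h9 hPQ (F.filter (fun p : ℕ => R t p))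
      fun p hp => by
        obtain ⟨hpF, m, hm⟩ := Finset.mem_filter.1 hp
        refine ⟨(hF p hpF).1, (hF p hpF).2.1, (hF p hpF).2.2.1, ?_⟩
        refine den_dvd_of_mul (κ := μ) (m := m - m₀) ?_
        push_cast at hm hm₀ ⊢
        linear_combination hm - hm₀
    have h4 : C * (t.1 : ℝ) / (μ.den:ℝ) ^ (3 / 4 : ℝ) ≤ C * U / (μ.den:ℝ) ^ (3 / 4 : ℝ) := by
      refine div_le_div_of_nonneg_right ?_ (by positivity)
      have : (t.1 : ℝ) ≤ U := by exact_mod_cast ht.1.2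
      exact mul_le_mul_of_nonneg_left this hC.le
    have h5 : 0 ≤ 1 + Real.log (Real.log Q / Real.log P) := by linarith
    have h6 := mul_le_mul_of_nonneg_right h4 h5
    linarith
  refine (Finset.sum_le_card_nsmul T _ _ h2).trans (le_of_eq ?_)
  rw [nsmul_eq_mul, hT, Finset.card_product, Nat.card_Icc, Nat.add_sub_cancel]
  push_cast
  ring

/-- **fixed pair of labels** -/
theorem rate2_one : ∃ C : ℝ, 0 < C ∧ ∀ (κ μ : ℚ) (N0 : ℕ), 1 ≤ N0 → 81 ≤ μ.den → ∀ F : Finset ℕ,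
    (∀ n ∈ F, N0 ≤ n ∧ n.Prime ∧ Real.log n ≤ μ.den ∧
      ∃ U : ℕ, U ^ 24 ≤ μ.den ∧ U < n ∧ Bad2 κ μ U n) →
      ∑ n ∈ F.filter (fun n => ¬ n ^ 2 ≤ μ.den), (1 : ℝ) / n ≤ C * (μ.den : ℝ) ^ (-(1 / 3) : ℝ) ∧
      (∀ n ∈ F, ∀ n' ∈ F, n ^ 2 ≤ μ.den → n' ^ 2 ≤ μ.den → n = n') := by
  classical
  obtain ⟨C, hC, h⟩ := pair_rate
  refine ⟨1 + C * 25, by positivity, fun κ μ N0 hN0 hk F hF => ⟨?_, ?_⟩⟩
  swap
  · intro n hn n' hn' s s'
    obtain ⟨-, a1, a2, U, a3, a4, a5⟩ := hF n hn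
    obtain ⟨-, b1, b2, U', b3, b4, b5⟩ := hF n' hn'
    exact small_uniq a1 b1 (by omega) a5 b5 a4 b4 a3 b3 s s'
  set k : ℕ := μ.den with hkdef
  have hk0 : (0 : ℝ) < k := by
    have : 0 < k := by omega
    exact_mod_cast this
  have hk1 : (1 : ℝ) ≤ k := by
    have : 1 ≤ k := by omega
    exact_mod_cast this
  have hk81 : (81 : ℝ) ≤ k := by exact_mod_cast hk
  set U : ℕ := Nat.nthRoot 24 k with hU
  have hU1 : U ^ 24 ≤ k := Nat.pow_nthRoot_le (Or.inl (by norm_num))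
  have hU2 : ∀ V : ℕ, V ^ 24 ≤ k → V ≤ U := fun V hV => (Nat.le_nthRoot_iff (by norm_num)).2 hV
  have hUr : (U : ℝ) ≤ (k : ℝ) ^ (1 / 24 : ℝ) := by
    have h1 : (U : ℝ) ^ 24 ≤ k := by exact_mod_cast hU1
    have h2 : ((U : ℝ) ^ 24) ^ (1 / 24 : ℝ) ≤ (k : ℝ) ^ (1 / 24 : ℝ) :=
      Real.rpow_le_rpow (by positivity) h1 (by norm_num)
    rwa [← Real.rpow_natCast, ← Real.rpow_mul (by positivity), show ((24 : ℕ) : ℝ) * (1 / 24) = 1 by
      norm_num, Real.rpow_one] at h2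
  set P : ℝ := Real.sqrt k with hP
  have hP9 : 9 ≤ P := Real.le_sqrt_of_sq_le (by norm_num; linarith)
  have hPk : P ≤ k := by
    rw [hP, Real.sqrt_le_iff]
    exact ⟨hk0.le, by nlinarith⟩
  have hPQ : P ≤ Real.exp k := hPk.trans (by linarith [Real.add_one_le_exp (k : ℝ)])
  have h1 := h κ μ U P (Real.exp k) hP9 hPQ (F.filter fun n => ¬ n ^ 2 ≤ k) fun n hn => by
    obtain ⟨hnF, hn2⟩ := Finset.mem_filter.1 hn
    obtain ⟨a0, a1, a2, V, a3, a4, a5⟩ := hF n hnF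
    refine ⟨a1, ?_, ?_, a5.mono (hU2 V a3)⟩
    · rw [hP, Real.sqrt_lt' (by exact_mod_cast a1.pos)]
      exact_mod_cast (not_le.1 hn2)
    · have hn0 : (0 : ℝ) < n := by exact_mod_cast a1.pos
      calc (n : ℝ) = Real.exp (Real.log n) := (Real.exp_log hn0).symm
        _ ≤ Real.exp k := Real.exp_le_exp.2 a2
  refine h1.trans ?_
  rw [Real.log_exp]
  have hlP : 1 ≤ Real.log P := by
    rw [Real.le_log_iff_exp_le (by linarith)]
    have := Real.exp_one_lt_d9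
    linarith
  have hl : Real.log (k / Real.log P) ≤ Real.log k :=
    Real.log_le_log (by positivity) (div_le_self hk0.le hlP)
  set t : ℝ := (k : ℝ) ^ (1 / 24 : ℝ) with ht
  have ht0 : 0 < t := by positivity
  have ht1 : (1 : ℝ) ≤ t := Real.one_le_rpow hk1 (by norm_num)
  have h2 : Real.log k ≤ 24 * t := by
    have h3 := Real.log_le_sub_one_of_pos ht0
    rw [ht, Real.log_rpow hk0, ← ht] at h3
    linarith
  have h3 : 1 + Real.log (k / Real.log P) ≤ 25 * t := by linarith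
  have h4 : (U : ℝ) ^ 2 ≤ t ^ 2 := pow_le_pow_left₀ (by positivity) hUr 2
  have hx : ∀ m : ℕ, t ^ m = (k : ℝ) ^ ((m : ℝ) / 24) := by
    intro m
    rw [ht, ← Real.rpow_natCast, ← Real.rpow_mul hk0.le]
    congr 1
    ring
  have h5 : 1 / P = (k : ℝ) ^ (-(1 / 2) : ℝ) := by
    rw [hP, Real.sqrt_eq_rpow, one_div, Real.rpow_neg hk0.le]
  have h6 : t ^ 2 * (1 / P) ≤ (k : ℝ) ^ (-(1 / 3) : ℝ) := by
    rw [h5, hx, ← Real.rpow_add hk0]
    exact Real.rpow_le_rpow_of_exponent_le hk1 (by norm_num)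
  have h7 : t ^ 4 * (1 / (k : ℝ) ^ (3 / 4 : ℝ)) ≤ (k : ℝ) ^ (-(1 / 3) : ℝ) := by
    rw [one_div, ← Real.rpow_neg hk0.le, hx, ← Real.rpow_add hk0]
    exact Real.rpow_le_rpow_of_exponent_le hk1 (by norm_num)
  have hK : (0 : ℝ) < (k : ℝ) ^ (3 / 4 : ℝ) := by positivity
  have h8 : C * U / (k : ℝ) ^ (3 / 4 : ℝ) * (1 + Real.log (k / Real.log P)) ≤
      C * t / (k : ℝ) ^ (3 / 4 : ℝ) * (25 * t) := by
    refine mul_le_mul ?_ h3 ?_ (by positivity)
    · refine div_le_div_of_nonneg_right ?_ hK.le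
      exact mul_le_mul_of_nonneg_left hUr hC.le
    · have : 0 ≤ Real.log (k / Real.log P) := Real.log_nonneg (by
        rw [le_div_iff₀ (by linarith), one_mul]
        have := Real.log_le_sub_one_of_pos (show 0 < P by linarith)
        linarith)
      linarith
  have h9 : 0 ≤ 1 / P + C * t / (k : ℝ) ^ (3 / 4 : ℝ) * (25 * t) := by positivity
  calc (U : ℝ) ^ 2 * (1 / P + C * U / (k : ℝ) ^ (3 / 4 : ℝ) * (1 + Real.log (k / Real.log P)))
      ≤ (U : ℝ) ^ 2 * (1 / P + C * t / (k : ℝ) ^ (3 / 4 : ℝ) * (25 * t)) :=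
        mul_le_mul_of_nonneg_left (by linarith) (by positivity)
    _ ≤ t ^ 2 * (1 / P + C * t / (k : ℝ) ^ (3 / 4 : ℝ) * (25 * t)) :=
        mul_le_mul_of_nonneg_right h4 h9
    _ = t ^ 2 * (1 / P) + C * 25 * (t ^ 4 * (1 / (k : ℝ) ^ (3 / 4 : ℝ))) := by ring
    _ ≤ (k : ℝ) ^ (-(1 / 3) : ℝ) + C * 25 * (k : ℝ) ^ (-(1 / 3) : ℝ) :=
        add_le_add h6 (mul_le_mul_of_nonneg_left h7 (by positivity))
    _ = (1 + C * 25) * (k : ℝ) ^ (-(1 / 3) : ℝ) := by ring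

/-! ### dyadic sums -/

/-- **a dyadic sum**: a set with at most `D x^a` elements of size `≤ x` -/
theorem dy {a b : ℝ} (ha : 0 ≤ a) (hab : a < b) : ∃ C : ℝ, 0 < C ∧ ∀ {ι : Type} (V : Finset ι)
    (f : ι → ℝ) (D N0 : ℝ), 0 ≤ D → 1 ≤ N0 → (∀ i ∈ V, N0 ≤ f i) →
    (∀ x : ℝ, N0 ≤ x → (((V.filter fun i => f i ≤ x).card : ℕ) : ℝ) ≤ D * x ^ a) →
      ∑ i ∈ V, (f i) ^ (-b) ≤ C * D * N0 ^ (a - b) := by
  classical
  set r : ℝ := (2 : ℝ) ^ (a - b) with hr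
  have hr0 : 0 < r := by positivity
  have hr1 : r < 1 := Real.rpow_lt_one_of_one_lt_of_neg (by norm_num) (by linarith)
  refine ⟨2 ^ a * (1 - r)⁻¹, mul_pos (by positivity) (inv_pos.2 (by linarith)), ?_⟩
  intro ι V f D N0 hD hN0 hf hc
  have hN : 0 < N0 := by linarith
  -- the dyadic level
  let J : ι → ℕ := fun i => ⌊Real.logb 2 (f i / N0)⌋₊
  have hJ : ∀ i ∈ V, (2 : ℝ) ^ (J i) * N0 ≤ f i ∧ f i < (2 : ℝ) ^ (J i + 1) * N0 := by
    intro i hi
    have h1 : 1 ≤ f i / N0 := by rw [le_div_iff₀ hN, one_mul]; exact hf i hi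
    have h0 : 0 < f i / N0 := by linarith
    have h2 : 0 ≤ Real.logb 2 (f i / N0) := Real.logb_nonneg (by norm_num) h1
    have h3 := Nat.floor_le h2
    have h4 := Nat.lt_floor_add_one (Real.logb 2 (f i / N0))
    have e : (2 : ℝ) ^ Real.logb 2 (f i / N0) = f i / N0 :=
      Real.rpow_logb (by norm_num) (by norm_num) h0
    constructor
    · rw [← le_div_iff₀ hN, ← e, ← Real.rpow_natCast]
      exact Real.rpow_le_rpow_of_exponent_le (by norm_num) h3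
    · rw [← div_lt_iff₀ hN, ← e, ← Real.rpow_natCast]
      refine Real.rpow_lt_rpow_of_exponent_lt (by norm_num) ?_
      push_cast
      exact h4
  have e : ∑ i ∈ V, (f i) ^ (-b) = ∑ j ∈ V.image J, ∑ i ∈ V.filter (fun i => J i = j),
      (f i) ^ (-b) :=
    (Finset.sum_fiberwise_of_maps_to (fun i hi => Finset.mem_image_of_mem J hi) _).symm
  rw [e]
  have h1 : ∀ j ∈ V.image J, ∑ i ∈ V.filter (fun i => J i = j), (f i) ^ (-b) ≤
      D * 2 ^ a * N0 ^ (a - b) * r ^ j := by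
    intro j _
    have hb : 0 < b := by linarith
    have h2 : ∀ i ∈ V.filter (fun i => J i = j), (f i) ^ (-b) ≤ ((2 : ℝ) ^ j * N0) ^ (-b) := by
      intro i hi
      obtain ⟨hi1, hi2⟩ := Finset.mem_filter.1 hi
      have h3 := (hJ i hi1).1
      rw [hi2] at h3
      exact Real.rpow_le_rpow_of_nonpos (by positivity) h3 (by linarith)
    refine (Finset.sum_le_card_nsmul _ _ _ h2).trans ?_
    rw [nsmul_eq_mul]
    have h3 : (((V.filter fun i => J i = j).card : ℕ) : ℝ) ≤ D * ((2 : ℝ) ^ (j + 1) * N0) ^ a := by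
      refine le_trans ?_ (hc ((2 : ℝ) ^ (j + 1) * N0) ?_)
      · exact Nat.cast_le.2 (Finset.card_le_card (fun i hi => by
          obtain ⟨hi1, hi2⟩ := Finset.mem_filter.1 hi
          have h3 := (hJ i hi1).2
          rw [hi2] at h3
          exact Finset.mem_filter.2 ⟨hi1, h3.le⟩))
      · have : (1 : ℝ) ≤ 2 ^ (j + 1) := one_le_pow₀ (by norm_num)
        nlinarith
    refine (mul_le_mul_of_nonneg_right h3 (by positivity)).trans (le_of_eq ?_)
    have h2j : (0 : ℝ) < 2 ^ j := by positivity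
    have f1 : ((2 : ℝ) ^ (j + 1) * N0) ^ a = 2 ^ a * ((2 : ℝ) ^ j) ^ a * N0 ^ a := by
      rw [Real.mul_rpow (by positivity) hN.le, pow_succ, Real.mul_rpow h2j.le (by norm_num)]
      ring
    have f2 : ((2 : ℝ) ^ j * N0) ^ (-b) = ((2 : ℝ) ^ j) ^ (-b) * N0 ^ (-b) :=
      Real.mul_rpow h2j.le hN.le
    have f3 : r ^ j = ((2 : ℝ) ^ j) ^ a * ((2 : ℝ) ^ j) ^ (-b) := by
      rw [← Real.rpow_add h2j, hr, ← Real.rpow_natCast, ← Real.rpow_mul (by norm_num),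
        ← Real.rpow_natCast, ← Real.rpow_mul (by norm_num)]
      congr 1
      ring
    have f4 : N0 ^ (a - b) = N0 ^ a * N0 ^ (-b) := by
      rw [← Real.rpow_add hN]
      congr 1
    rw [f1, f2, f3, f4]
    ring
  refine (Finset.sum_le_sum h1).trans ?_
  rw [← Finset.mul_sum]
  have h2 : ∑ j ∈ V.image J, r ^ j ≤ (1 - r)⁻¹ := by
    rw [← tsum_geometric_of_lt_one hr0.le hr1]
    exact (summable_geometric_of_lt_one hr0.le hr1).sum_le_tsum _ (fun _ _ => by positivity)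
  calc D * 2 ^ a * N0 ^ (a - b) * ∑ j ∈ V.image J, r ^ j
      ≤ D * 2 ^ a * N0 ^ (a - b) * (1 - r)⁻¹ := mul_le_mul_of_nonneg_left h2 (by positivity)
    _ = 2 ^ a * (1 - r)⁻¹ * D * N0 ^ (a - b) := by ring

/-- **the in-member residue lemma, two labels, uniform per piece, all the eras**: `κ n`, `μ n` = the
labels of the present piece and of the missing piece at the column `n` -/
theorem rate2_sum : ∃ C : ℝ, 0 < C ∧ ∀ (κ μ : ℕ → ℚ) (K0 N0 : ℕ) (D D' : ℝ), 81 ≤ K0 → 1 ≤ N0 →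
    0 ≤ D → 0 ≤ D' → ∀ F : Finset ℕ,
    (∀ n ∈ F, N0 ≤ n ∧ n.Prime ∧ K0 ≤ (μ n).den ∧ Real.log n ≤ (μ n).den ∧
      ∃ U : ℕ, U ^ 24 ≤ (μ n).den ∧ U < n ∧ Bad2 (κ n) (μ n) U n) →
    (∀ x : ℝ, (K0 : ℝ) ≤ x → ((((F.image fun n => (κ n, μ n)).filter
      fun c : ℚ × ℚ => ((c.2.den : ℕ) : ℝ) ≤ x).card : ℕ) : ℝ) ≤ D * x ^ (1 / 12 : ℝ)) →
    (∀ x : ℝ, (N0 : ℝ) ≤ x → (((((F.filter fun n : ℕ => (n : ℝ) ≤ x).image
      fun n : ℕ => (κ n, μ n))).card : ℕ) : ℝ) ≤ D' * x ^ (1 / 2 : ℝ)) →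
    ∑ n ∈ F, (1 : ℝ) / n ≤ C * D * (K0 : ℝ) ^ (-(1 / 4) : ℝ) + C * D' * (N0 : ℝ) ^ (-(1 / 2) : ℝ) := by
  classical
  obtain ⟨C1, hC1, h1⟩ := rate2_one
  obtain ⟨C2, hC2, h2⟩ := dy (a := 1 / 12) (b := 1 / 3) (by norm_num) (by norm_num)
  obtain ⟨C3, hC3, h3⟩ := dy (a := 1 / 2) (b := 1) (by norm_num) (by norm_num)
  refine ⟨C1 * C2 + C3, by positivity, ?_⟩
  intro κ μ K0 N0 D D' hK0 hN0 hD hD' F hF hV hG
  have hK0r : (1 : ℝ) ≤ K0 := by
    have : 1 ≤ K0 := by omega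
    exact_mod_cast this
  have hN0r : (1 : ℝ) ≤ N0 := by exact_mod_cast hN0
  set c : ℕ → ℚ × ℚ := fun n => (κ n, μ n) with hc
  -- the fibres
  have hone : ∀ t ∈ F.image c, ∀ n ∈ F.filter (fun n => c n = t), N0 ≤ n ∧ n.Prime ∧
      Real.log n ≤ t.2.den ∧ ∃ U : ℕ, U ^ 24 ≤ t.2.den ∧ U < n ∧ Bad2 t.1 t.2 U n := by
    intro t _ n hn
    obtain ⟨a1, a2⟩ := Finset.mem_filter.1 hn
    obtain ⟨b1, b2, b3, b4, b5⟩ := hF n a1
    rw [← a2]
    exact ⟨b1, b2, b4, b5⟩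
  have hden : ∀ t ∈ F.image c, K0 ≤ t.2.den := by
    intro t ht
    obtain ⟨n, hn, rfl⟩ := Finset.mem_image.1 ht
    exact (hF n hn).2.2.1
  -- the large ties
  have hlarge : ∑ n ∈ F.filter (fun n => ¬ n ^ 2 ≤ (μ n).den), (1 : ℝ) / n ≤
      C1 * (C2 * D * (K0 : ℝ) ^ (-(1 / 4) : ℝ)) := by
    have e : ∑ n ∈ F.filter (fun n => ¬ n ^ 2 ≤ (μ n).den), (1 : ℝ) / n ≤
        ∑ t ∈ F.image c, ∑ n ∈ (F.filter (fun n => c n = t)).filter (fun n => ¬ n ^ 2 ≤ t.2.den),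
          (1 : ℝ) / n := by
      rw [← Finset.sum_fiberwise_of_maps_to (s := F.filter (fun n => ¬ n ^ 2 ≤ (μ n).den))
        (t := F.image c) (g := c) (fun n hn => Finset.mem_image_of_mem c (Finset.mem_filter.1 hn).1)]
      refine Finset.sum_le_sum fun t _ => ?_
      refine Finset.sum_le_sum_of_subset_of_nonneg (fun n hn => ?_) fun _ _ _ => by positivity
      obtain ⟨a1, a2⟩ := Finset.mem_filter.1 hn
      obtain ⟨a3, a4⟩ := Finset.mem_filter.1 a1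
      refine Finset.mem_filter.2 ⟨Finset.mem_filter.2 ⟨a3, a2⟩, ?_⟩
      rw [← a2]
      exact a4
    refine e.trans ?_
    refine (Finset.sum_le_sum fun t ht => (h1 t.1 t.2 N0 hN0 (hK0.trans (hden t ht))
      (F.filter (fun n => c n = t)) (hone t ht)).1).trans ?_
    rw [← Finset.mul_sum]
    refine mul_le_mul_of_nonneg_left ?_ hC1.le
    have h5 := h2 (F.image c) (fun t : ℚ × ℚ => ((t.2.den : ℕ) : ℝ)) D K0 hD hK0r
      (fun t ht => by exact_mod_cast hden t ht) (fun x hx => hV x hx)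
    rwa [show (1 / 12 : ℝ) - 1 / 3 = -(1 / 4) by norm_num] at h5
  -- the small ties
  have hsmall : ∑ n ∈ F.filter (fun n => n ^ 2 ≤ (μ n).den), (1 : ℝ) / n ≤
      C3 * D' * (N0 : ℝ) ^ (-(1 / 2) : ℝ) := by
    set G := F.filter (fun n => n ^ 2 ≤ (μ n).den) with hGd
    have hinj : ∀ n ∈ G, ∀ n' ∈ G, c n = c n' → n = n' := by
      intro n hn n' hn' he
      obtain ⟨a1, a2⟩ := Finset.mem_filter.1 hn
      obtain ⟨b1, b2⟩ := Finset.mem_filter.1 hn'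
      have ht : c n ∈ F.image c := Finset.mem_image_of_mem c a1
      have h5 := (h1 (c n).1 (c n).2 N0 hN0 (hK0.trans (hden _ ht))
        (F.filter (fun m => c m = c n)) (hone _ ht)).2 n (Finset.mem_filter.2 ⟨a1, rfl⟩) n'
        (Finset.mem_filter.2 ⟨b1, he.symm⟩) a2 (by rw [he]; exact b2)
      exact h5
    have h5 := h3 G (fun n => (n : ℝ)) D' N0 hD' hN0r (fun n hn => by
      exact_mod_cast (hF n (Finset.mem_filter.1 hn).1).1) (fun x hx => by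
        refine le_trans ?_ (hG x hx)
        have h6 : (G.filter fun n : ℕ => (n : ℝ) ≤ x).card =
            ((G.filter fun n : ℕ => (n : ℝ) ≤ x).image c).card :=
          (Finset.card_image_of_injOn (fun n hn n' hn' he => hinj n
            (Finset.mem_filter.1 (Finset.mem_coe.1 hn)).1 n'
            (Finset.mem_filter.1 (Finset.mem_coe.1 hn')).1 he)).symm
        rw [h6]
        exact_mod_cast Finset.card_le_card (Finset.image_subset_image
          (Finset.filter_subset_filter _ (Finset.filter_subset _ _))))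
    rw [show (1 / 2 : ℝ) - 1 = -(1 / 2) by norm_num] at h5
    refine le_trans (le_of_eq (Finset.sum_congr rfl fun n hn => ?_)) h5
    rw [Real.rpow_neg_one, one_div]
  rw [← Finset.sum_filter_add_sum_filter_not F (fun n => n ^ 2 ≤ (μ n).den)]
  have p1 : 0 ≤ D * (K0 : ℝ) ^ (-(1 / 4) : ℝ) := by positivity
  have p2 : 0 ≤ D' * (N0 : ℝ) ^ (-(1 / 2) : ℝ) := by positivity
  nlinarith [mul_nonneg hC3.le p1, mul_nonneg (mul_nonneg hC1.le hC2.le) p2]

end Crest.Agent.R4P.ResM48
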