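import Crest.Agent.R4P.RseNd_23

/-!
R4 (S0004), powers pass, helper28: **numbers with rates** for the pairs of one index and different retained
parts or tags, for a whole dyadic block `[p, 2p)` of columns at once.

* `rtU` : unlabelled pairs, a cofactor `≥ p`, tame from `(2p)²`: `≤ (log p)^(-s) · mass`;
* `schur2`, `ll_total2`, `rtL` : labelled pairs with two label functions;
* `rtT` : tag pairs: `2p`-smooth cofactors, one cofactor `≥ 2^p`.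
-/

set_option autoImplicit false
set_option linter.unusedSectionVars false
set_option linter.unusedVariables false
open Finset

namespace Crest.Agent.R4P.RtN28

open Crest.Agent.R4.HVW560 Crest.Agent.R4.HVWX793
open Crest.Agent.R4.ClsS (eps1)
open Crest.Agent.R4.LF363 (Lab)
open Crest.Agent.R4.InX944
open Crest.Agent.R4.StopAsm709
open Crest.Agent.R4.RseN207 (small log_large exists_scale)
open Crest.Agent.R4.LL207 (cc cc_nonneg cc_symm CX CX_pos Zc Zc_pos Zc_symm row_sum e1 CL_nonneg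
  div_gcd_pos D_ge dvd_of_exact)
open Crest.Agent.R4

/-- polylog times `exp (-(log p)^(4/5)/500)` is below every power of `log p` -/
lemma small_s (c K s : ℝ) {δ : ℝ} (hδ : 0 < δ) : ∃ p₁ : ℕ, ∀ p : ℕ, p₁ ≤ p →
    c * Real.log p ^ K * Real.exp (-(1/500) * Real.log p ^ (4/5:ℝ)) ≤ δ * Real.log p ^ (-s) := by
  obtain ⟨p1, h1⟩ := small c (K + s) hδ
  obtain ⟨p2, h2⟩ := log_large 1
  refine ⟨p1 + p2, fun p hp => ?_⟩
  have hl := h2 p (by omega)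
  have hl0 : 0 < Real.log (p:ℝ) := by linarith
  have h3 := h1 p (by omega)
  have h4 := mul_le_mul_of_nonneg_right h3 (Real.rpow_nonneg hl0.le (-s))
  refine le_trans (le_of_eq ?_) h4
  have e : Real.log (p:ℝ) ^ K = Real.log (p:ℝ) ^ (K + s) * Real.log (p:ℝ) ^ (-s) := by
    rw [← Real.rpow_add hl0]; congr 1; ring
  rw [e]; ring

set_option maxHeartbeats 4000000 in
/-- **unlabelled pairs of one node**, a large cofactor, one block of columns, with a rate -/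
theorem rtU (CL C2 s : ℝ) (hCL : 0 ≤ CL) (hC2 : 0 ≤ C2) :
    ∃ p₁ : ℕ, ∀ p : ℕ, p₁ ≤ p →
    ∀ (η θ : ℝ) (S : Finset ℕ) (E : Finset (ℕ × ℕ)) (R : ℕ → ℝ) (F : ℕ × ℕ → ℝ),
    0 < η → η ≤ Real.exp (-(Real.log p ^ (4/5:ℝ))) → 1 ≤ η * p → E ⊆ S ×ˢ S →
    (∀ w ∈ S, 0 < w ∧ 0 < R w) → (∀ w ∈ S, R w ≤ CL * Real.log p * wt R w) →
    (∀ z : ℝ, ((2 * p : ℕ):ℝ)^2 ≤ z → ∀ w ∈ S, Crest.Agent.R4.ClsB.Tame z 1 w) →
    ∑ w ∈ S, wt R w ≤ Real.log p ^ C2 →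
    (∀ e ∈ E, p ≤ cof e.1 e.2 ∨ p ≤ cof e.2 e.1) →
    (∀ e ∈ E, F e ≤ 2 * ((R e.1 * R e.2) / DP R R e) * (2 * η * DP R R e + 1)) →
    (∀ e ∈ E, 0 < F e → ∃ m m' : ℤ,
      |(m + θ) * (cof e.2 e.1 : ℕ) - (m' + θ) * (cof e.1 e.2 : ℕ)| ≤ η * DP R R e) →
    (∀ w ∈ S, R w * (η * p) ≤ 1 → ∀ ρ, ¬ Lab θ (R w) ρ) →
    ∑ e ∈ E, F e ≤ Real.log p ^ (-s) * ∑ w ∈ S, wt R w := by
  classical
  obtain ⟨C, c0, hC1, hc0, H⟩ := Crest.Agent.R4.InX944.inUU_ret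
  obtain ⟨T0, hT01, H⟩ := H c0 hc0 le_rfl
  have hKH := (KH_pos 1 0 eps1).le
  obtain ⟨pa, hpa⟩ := exists_scale (c1 := c0) (T0 := T0) hc0
  obtain ⟨pb, hpb⟩ := log_large 1
  obtain ⟨p1, hp1⟩ := small_s (6 * CL^2) (2 + C2) s (δ := 1/4) (by positivity)
  obtain ⟨p2, hp2⟩ := small_s (6 * CL^2 * (2 * KH 1 0 eps1 + C) * (2 * 4^(1/c0))^2)
    (2 + 2/c0 + C2) s (δ := 1/4) (by positivity)
  obtain ⟨p3, hp3⟩ := small_s (12 * CL) 1 s (δ := 1/4) (by positivity)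
  refine ⟨pa + pb + p1 + p2 + p3 + 3, fun p hp => ?_⟩
  obtain ⟨n, hn400, hnT, hnX, hnU⟩ := hpa (2 * p) (by omega)
  intro η θ S E R F hη hη1 hηp hES hS hLS hSt hMb hbig hF hrel hU
  have hl1 := hpb p (by omega)
  set ℓ := Real.log (p:ℝ) with hℓ
  have hℓ0 : 0 < ℓ := by linarith
  have hpN : 0 < p := by omega
  have hp0 : (0:ℝ) < p := by exact_mod_cast hpN
  set κ : ℝ := ℓ ^ (-s) with hκd
  have hκ : 0 < κ := Real.rpow_pos_of_pos hℓ0 _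
  set L := CL * ℓ with hL
  have hL0 : 0 ≤ L := by positivity
  set M := ∑ w ∈ S, wt R w with hM
  have hwt : ∀ q ∈ S, 0 ≤ wt R q := fun q hq => by
    unfold wt; exact mul_nonneg (hS q hq).2.le (by positivity)
  have hM0 : 0 ≤ M := Finset.sum_nonneg hwt
  have hMC : ∀ x : ℝ, 0 ≤ x → x ≤ 1 → M^(1+x) ≤ M * ℓ^C2 := by
    intro x hx0 hx1
    rcases hM0.eq_or_lt with h0 | h0
    · rw [← h0, Real.zero_rpow (by linarith)]; simp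
    · rw [Real.rpow_add h0, Real.rpow_one]
      apply mul_le_mul_of_nonneg_left _ hM0
      calc M^x ≤ (ℓ^C2)^x := Real.rpow_le_rpow hM0 hMb hx0
        _ = ℓ^(C2*x) := by rw [← Real.rpow_mul hℓ0.le]
        _ ≤ ℓ^C2 := Real.rpow_le_rpow_of_exponent_le hl1 (by nlinarith)
  set W := Real.exp (-(1/500) * ℓ^(4/5:ℝ)) with hW
  have hW0 : 0 < W := Real.exp_pos _
  have hx45 : 0 ≤ ℓ^(4/5:ℝ) := by positivity
  have hx451 : ℓ^(4/5:ℝ) ≤ ℓ := by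
    calc ℓ^(4/5:ℝ) ≤ ℓ^(1:ℝ) := Real.rpow_le_rpow_of_exponent_le hl1 (by norm_num)
      _ = ℓ := Real.rpow_one _
  have hηW : η ≤ W := hη1.trans (Real.exp_le_exp.2 (by nlinarith))
  have hη_one : η ≤ 1 := by
    refine hη1.trans ?_
    rw [Real.exp_le_one_iff]
    linarith
  have hηe : η^(2*eps1) ≤ W := by
    have he1 : eps1 = 1/1000 := rfl
    calc η^(2*eps1) ≤ (Real.exp (-(ℓ^(4/5:ℝ))))^(2*eps1) :=
          Real.rpow_le_rpow hη.le hη1 (by rw [he1]; norm_num)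
      _ = Real.exp (-(ℓ^(4/5:ℝ)) * (2*eps1)) := by rw [← Real.exp_mul]
      _ = W := by rw [hW, he1]; congr 1; ring
  have hpinv1 : 1/(p:ℝ) ≤ W := by
    have : 1/(p:ℝ) = Real.exp (-ℓ) := by
      rw [Real.exp_neg, hℓ, Real.exp_log hp0, one_div]
    rw [this, hW]
    apply Real.exp_le_exp.2
    nlinarith
  have bG := H (((2 * p : ℕ):ℝ)^2) L η θ n 1 p S E R F hn400 hpN hnT hnX one_pos hη hη_one hηp hES hS
    hLS hSt hbig hF hrel hU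
  -- `log (2p) ≤ 2 log p`
  have hl2p : Real.log ((2 * p : ℕ):ℝ) ≤ 2 * ℓ := by
    have h2 : (2:ℝ) ≤ p := by
      have : 2 ≤ p := by omega
      exact_mod_cast this
    have h5 : ((2 * p : ℕ) : ℝ) ≤ (p : ℝ) ^ 2 := by push_cast; nlinarith
    have h6 : (0 : ℝ) < ((2 * p : ℕ) : ℝ) := by push_cast; linarith
    have h7 := Real.log_le_log h6 h5
    rw [Real.log_pow] at h7
    exact_mod_cast h7
  have hl2p0 : 0 ≤ Real.log ((2 * p : ℕ):ℝ) := Real.log_nonneg (by exact_mod_cast (by omega : 1 ≤ 2 * p))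
  -- term 1
  have t1 : 6 * η * L^2 * M^2 ≤ 1/4 * κ * M := by
    have h := hp1 p (by omega)
    have h2 : M ≤ ℓ^C2 := hMb
    calc 6 * η * L^2 * M^2 = 6 * L^2 * η * M * M := by ring
      _ ≤ 6 * L^2 * W * ℓ^C2 * M := by gcongr
      _ = (6 * CL^2) * (ℓ^(2:ℝ) * ℓ^C2) * W * M := by rw [hL, Real.rpow_two]; ring
      _ = (6 * CL^2) * ℓ^(2 + C2) * W * M := by rw [Real.rpow_add hℓ0]
      _ ≤ 1/4 * κ * M := mul_le_mul_of_nonneg_right h hM0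
  -- term 2
  have hn2 : (n:ℝ) ≤ (2:ℝ)^n := by
    exact_mod_cast (Nat.lt_two_pow_self (n := n)).le
  set T := (2:ℝ)^n with hT
  have hT1 : 1 ≤ T := one_le_pow₀ (by norm_num)
  have hTT : (2:ℝ)^(2*eps1*n) ≤ T := by
    have he1 : eps1 = 1/1000 := rfl
    rw [hT, ← Real.rpow_natCast]
    apply Real.rpow_le_rpow_of_exponent_le (by norm_num)
    rw [he1]
    have : (0:ℝ) ≤ n := Nat.cast_nonneg _
    linarith
  have hTC : T^(-(1/1000):ℝ) ≤ 1 := Real.rpow_le_one_of_one_le_of_nonpos hT1 (by norm_num)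
  have hB : n * (2 * KH 1 0 eps1 * (2:ℝ)^(2*eps1*n)) + C * T^(-(1/1000):ℝ) ≤
      (2 * KH 1 0 eps1 + C) * T^2 := by
    have h1 : n * (2 * KH 1 0 eps1 * (2:ℝ)^(2*eps1*n)) ≤ T * (2 * KH 1 0 eps1 * T) := by
      gcongr
    have h2 : C * T^(-(1/1000):ℝ) ≤ C * T^2 := by
      apply mul_le_mul_of_nonneg_left _ (by linarith)
      nlinarith
    nlinarith
  have hT2 : T^2 ≤ (2 * 4^(1/c0))^2 * ℓ^(2/c0) := by
    have hU2 : T ≤ 2 * (4*ℓ)^(1/c0) := by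
      refine hnU.trans ?_
      refine mul_le_mul_of_nonneg_left ?_ (by norm_num)
      exact Real.rpow_le_rpow (by positivity) (by linarith) (by positivity)
    calc T^2 ≤ (2 * (4*ℓ)^(1/c0))^2 := pow_le_pow_left₀ (by positivity) hU2 2
      _ = (2 * 4^(1/c0))^2 * (ℓ^(1/c0) * ℓ^(1/c0)) := by
          rw [Real.mul_rpow (by norm_num) hℓ0.le]; ring
      _ = _ := by
          rw [← Real.rpow_add hℓ0]
          congr 2
          ring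
  have t2 : 6 * L^2 * (n * (2 * KH 1 0 eps1 * (2:ℝ)^(2*eps1*n)) +
        C * T^(-(1/1000):ℝ)) * (η^(2*eps1) * (M * M)^(1/2+eps1)) ≤ 1/4 * κ * M := by
    have h := hp2 p (by omega)
    have he1 : eps1 = 1/1000 := rfl
    have h1 : (M * M)^(1/2+eps1) ≤ M * ℓ^C2 := by
      have e1 : (M * M)^(1/2+eps1) = M^(1+2*eps1) := by
        rw [← sq, ← Real.rpow_natCast M 2, ← Real.rpow_mul hM0]
        congr 1
        push_cast
        ring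
      rw [e1]
      exact hMC (2*eps1) (by rw [he1]; norm_num) (by rw [he1]; norm_num)
    have h0 : 0 ≤ (M * M)^(1/2+eps1) := by positivity
    have hηp' : 0 ≤ η^(2*eps1) := by positivity
    calc 6 * L^2 * (n * (2 * KH 1 0 eps1 * (2:ℝ)^(2*eps1*n)) +
          C * T^(-(1/1000):ℝ)) * (η^(2*eps1) * (M * M)^(1/2+eps1))
        ≤ 6 * L^2 * ((2 * KH 1 0 eps1 + C) * ((2 * 4^(1/c0))^2 * ℓ^(2/c0))) *
          (W * (M * ℓ^C2)) := by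
          have h2 := hB.trans (mul_le_mul_of_nonneg_left hT2 (by linarith : 0 ≤ 2 * KH 1 0 eps1 + C))
          gcongr
      _ = (6 * CL^2 * (2 * KH 1 0 eps1 + C) * (2 * 4^(1/c0))^2) *
          (ℓ^(2:ℝ) * ℓ^(2/c0) * ℓ^C2) * W * M := by
          rw [hL, Real.rpow_two]; ring
      _ = (6 * CL^2 * (2 * KH 1 0 eps1 + C) * (2 * 4^(1/c0))^2) *
          ℓ^(2 + 2/c0 + C2) * W * M := by
          rw [← Real.rpow_add hℓ0, ← Real.rpow_add hℓ0]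
      _ ≤ 1/4 * κ * M := mul_le_mul_of_nonneg_right h hM0
  -- term 3
  have t3 : 12 * (L / p) * M ≤ 1/4 * κ * M := by
    have h := hp3 p (by omega)
    apply mul_le_mul_of_nonneg_right _ hM0
    calc 12 * (L / p) = 12 * L * (1/p) := by ring
      _ ≤ 12 * L * W := by gcongr
      _ = 12 * CL * ℓ^(1:ℝ) * W := by rw [hL, Real.rpow_one]; ring
      _ ≤ 1/4 * κ := h
  have hκM := mul_nonneg hκ.le hM0
  linarith

/-! ### labels -/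

/-- **Schur test**, two label functions -/
theorem schur2 {Λ : Finset ℚ} {S₁ S₂ : Finset ℕ} {lab₁ lab₂ : ℕ → ℚ} (hlab₁ : ∀ q ∈ S₁, lab₁ q ∈ Λ)
    (hlab₂ : ∀ q ∈ S₂, lab₂ q ∈ Λ)
    {m : ℕ → ℝ} (hm₁ : ∀ q ∈ S₁, 0 ≤ m q) (hm₂ : ∀ q ∈ S₂, 0 ≤ m q) {E : Finset (ℕ × ℕ)}
    (hE : E ⊆ S₁ ×ˢ S₂) {F : ℕ × ℕ → ℝ}
    {P K Q ε T : ℝ} (hK : 0 ≤ K) (hε : 0 < ε) (hT0 : 0 ≤ T) (hQ0 : 0 ≤ Q)
    (hT₁ : ∑ q ∈ S₁, m q ≤ T) (hT₂ : ∑ q ∈ S₂, m q ≤ T)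
    (h : ∀ ρ ∈ Λ, ∀ σ ∈ Λ, ∑ e ∈ E.filter (fun e => lab₁ e.1 = ρ ∧ lab₂ e.2 = σ), F e ≤
      K * cc P ρ σ * ((∑ q ∈ S₁.filter (fun q => lab₁ q = ρ), m q) *
        ∑ q ∈ S₂.filter (fun q => lab₂ q = σ), m q)^(1/2+ε))
    (hQ : ∀ ρ ∈ Λ, ∑ σ ∈ Λ, cc P ρ σ ≤ Q) :
    ∑ e ∈ E, F e ≤ K * Q * T^(1+2*ε) := by
  classical
  set M : ℚ → ℝ := fun ρ => ∑ q ∈ S₁.filter (fun q => lab₁ q = ρ), m q with hM
  set M' : ℚ → ℝ := fun ρ => ∑ q ∈ S₂.filter (fun q => lab₂ q = ρ), m q with hM'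
  have hM0 : ∀ ρ, 0 ≤ M ρ := fun ρ => Finset.sum_nonneg fun q hq => hm₁ q (Finset.mem_filter.1 hq).1
  have hM0' : ∀ ρ, 0 ≤ M' ρ := fun ρ => Finset.sum_nonneg fun q hq => hm₂ q (Finset.mem_filter.1 hq).1
  have hMs : ∑ ρ ∈ Λ, M ρ ≤ T := (Finset.sum_fiberwise_of_maps_to hlab₁ m).le.trans hT₁
  have hMs' : ∑ ρ ∈ Λ, M' ρ ≤ T := (Finset.sum_fiberwise_of_maps_to hlab₂ m).le.trans hT₂
  have hMT : ∀ ρ ∈ Λ, M ρ ≤ T := by
    intro ρ hρ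
    exact (Finset.single_le_sum (f := M) (fun σ _ => hM0 σ) hρ).trans hMs
  have hMT' : ∀ ρ ∈ Λ, M' ρ ≤ T := by
    intro ρ hρ
    exact (Finset.single_le_sum (f := M') (fun σ _ => hM0' σ) hρ).trans hMs'
  -- split
  have e1 : ∑ e ∈ E, F e = ∑ x ∈ Λ ×ˢ Λ,
      ∑ e ∈ E.filter (fun e => lab₁ e.1 = x.1 ∧ lab₂ e.2 = x.2), F e := by
    have := Finset.sum_fiberwise_of_maps_to (s := E) (t := Λ ×ˢ Λ)
      (g := fun e : ℕ × ℕ => (lab₁ e.1, lab₂ e.2)) (fun e he => by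
        have h1 := Finset.mem_product.1 (hE he)
        exact Finset.mem_product.2 ⟨hlab₁ _ h1.1, hlab₂ _ h1.2⟩) F
    rw [← this]
    apply Finset.sum_congr rfl
    intro x _
    apply Finset.sum_congr _ fun _ _ => rfl
    ext e
    simp only [Finset.mem_filter, Prod.ext_iff]
  have e2 : ∀ ρ ∈ Λ, ∀ σ ∈ Λ, (M ρ * M' σ)^(1/2+ε) ≤ T^(2*ε) * ((M ρ + M' σ)/2) := by
    intro ρ hρ σ hσ
    have h1 : (M ρ * M' σ)^(1/2+ε) = (M ρ * M' σ)^(1/2:ℝ) * (M ρ * M' σ)^ε :=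
      Real.rpow_add_of_nonneg (mul_nonneg (hM0 _) (hM0' _)) (by norm_num) hε.le
    have h2 : (M ρ * M' σ)^(1/2:ℝ) ≤ (M ρ + M' σ)/2 := by
      rw [← Real.sqrt_eq_rpow]
      apply Real.sqrt_le_iff.2
      have a := hM0 ρ
      have b := hM0' σ
      constructor
      · positivity
      · nlinarith [sq_nonneg (M ρ - M' σ)]
    have h3 : (M ρ * M' σ)^ε ≤ T^(2*ε) := by
      have h4 : T^(2*ε) = (T*T)^ε := by
        rw [Real.mul_rpow hT0 hT0, ← Real.rpow_add_of_nonneg hT0 hε.le hε.le]; congr 1; ring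
      rw [h4]
      exact Real.rpow_le_rpow (mul_nonneg (hM0 _) (hM0' _))
        (mul_le_mul (hMT ρ hρ) (hMT' σ hσ) (hM0' _) hT0) hε.le
    rw [h1, mul_comm]
    exact mul_le_mul h3 h2 (Real.rpow_nonneg (mul_nonneg (hM0 _) (hM0' _)) _)
      (Real.rpow_nonneg hT0 _)
  have hT2 : 0 ≤ T^(2*ε) := Real.rpow_nonneg hT0 _
  rw [e1, Finset.sum_product]
  have s1 : ∑ ρ ∈ Λ, ∑ σ ∈ Λ, cc P ρ σ * M ρ ≤ Q * T := by
    calc ∑ ρ ∈ Λ, ∑ σ ∈ Λ, cc P ρ σ * M ρ = ∑ ρ ∈ Λ, (∑ σ ∈ Λ, cc P ρ σ) * M ρ := by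
          apply Finset.sum_congr rfl; intro ρ _; rw [Finset.sum_mul]
      _ ≤ ∑ ρ ∈ Λ, Q * M ρ := Finset.sum_le_sum fun ρ hρ =>
          mul_le_mul_of_nonneg_right (hQ ρ hρ) (hM0 ρ)
      _ = Q * ∑ ρ ∈ Λ, M ρ := by rw [← Finset.mul_sum]
      _ ≤ Q * T := mul_le_mul_of_nonneg_left hMs hQ0
  have s2 : ∑ ρ ∈ Λ, ∑ σ ∈ Λ, cc P ρ σ * M' σ ≤ Q * T := by
    rw [Finset.sum_comm]
    calc ∑ σ ∈ Λ, ∑ ρ ∈ Λ, cc P ρ σ * M' σ = ∑ σ ∈ Λ, (∑ ρ ∈ Λ, cc P σ ρ) * M' σ := by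
          apply Finset.sum_congr rfl; intro σ _
          rw [Finset.sum_mul]
          apply Finset.sum_congr rfl; intro ρ _
          rw [cc_symm]
      _ ≤ ∑ σ ∈ Λ, Q * M' σ := Finset.sum_le_sum fun σ hσ =>
          mul_le_mul_of_nonneg_right (hQ σ hσ) (hM0' σ)
      _ = Q * ∑ σ ∈ Λ, M' σ := by rw [← Finset.mul_sum]
      _ ≤ Q * T := mul_le_mul_of_nonneg_left hMs' hQ0
  calc ∑ ρ ∈ Λ, ∑ σ ∈ Λ, ∑ e ∈ E.filter (fun e => lab₁ e.1 = ρ ∧ lab₂ e.2 = σ), F e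
      ≤ ∑ ρ ∈ Λ, ∑ σ ∈ Λ, K * cc P ρ σ * (T^(2*ε) * ((M ρ + M' σ)/2)) := by
        apply Finset.sum_le_sum; intro ρ hρ
        apply Finset.sum_le_sum; intro σ hσ
        refine (h ρ hρ σ hσ).trans ?_
        exact mul_le_mul_of_nonneg_left (e2 ρ hρ σ hσ) (mul_nonneg hK (cc_nonneg _ _ _))
    _ = K * T^(2*ε) * ((∑ ρ ∈ Λ, ∑ σ ∈ Λ, cc P ρ σ * M ρ + ∑ ρ ∈ Λ, ∑ σ ∈ Λ, cc P ρ σ * M' σ)/2) := by
        rw [← Finset.sum_add_distrib, Finset.sum_div, Finset.mul_sum]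
        apply Finset.sum_congr rfl; intro ρ _
        rw [← Finset.sum_add_distrib, Finset.sum_div, Finset.mul_sum]
        apply Finset.sum_congr rfl; intro σ _
        ring
    _ ≤ K * T^(2*ε) * ((Q * T + Q * T)/2) := by
        apply mul_le_mul_of_nonneg_left _ (mul_nonneg hK hT2)
        linarith
    _ = K * Q * (T * T^(2*ε)) := by ring
    _ = K * Q * T^(1+2*ε) := by
        congr 1
        rw [Real.rpow_add_of_nonneg hT0 (by norm_num) (by linarith), Real.rpow_one]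

/-- **LL**, two label functions -/
theorem ll_total2 {θ P K T : ℝ} (hP : 1 ≤ P) (hK : 0 ≤ K) (hT0 : 0 ≤ T) {S₁ S₂ : Finset ℕ}
    {R : ℕ → ℝ}
    {lab₁ lab₂ : ℕ → ℚ} {Λf : Finset ℚ} (hS₁ : ∀ q ∈ S₁, 0 < q ∧ 0 < R q)
    (hS₂ : ∀ q ∈ S₂, 0 < q ∧ 0 < R q)
    (hT₁ : ∑ q ∈ S₁, wt R q ≤ T) (hT₂ : ∑ q ∈ S₂, wt R q ≤ T)
    (hlab₁ : ∀ q ∈ S₁, Lab θ (R q) (lab₁ q) ∨ (lab₁ q ∈ Λf ∧ P⁻¹ ≤ R q))
    (hlab₂ : ∀ q ∈ S₂, Lab θ (R q) (lab₂ q) ∨ (lab₂ q ∈ Λf ∧ P⁻¹ ≤ R q))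
    {E : Finset (ℕ × ℕ)} (hE : E ⊆ S₁ ×ˢ S₂) {F : ℕ × ℕ → ℝ}
    (hF : ∀ e ∈ E, F e ≤ K * ((wt R e.1 * wt R e.2) / LLpair207.Dp R R e))
    (hex : ∀ e ∈ E, 0 < F e → lab₁ e.1 ≠ lab₂ e.2 ∧ P ≤ (Zc (lab₁ e.1) (lab₂ e.2) : ℝ) ∧
      ∃ n m : ℤ, ((n:ℝ) + lab₁ e.1) * (cof e.2 e.1 : ℕ) = (m + lab₂ e.2) * (cof e.1 e.2 : ℕ)) :
    ∑ e ∈ E, F e ≤ (10^5 * LL207.CL e1) * K * ((CX + Λf.card) * P^(-(1/6) : ℝ)) *
      T^(1+2*e1) := by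
  classical
  have he1 : 0 < e1 := by unfold e1; norm_num
  have hP0 : 0 < P := by linarith
  -- only the positive pairs
  have hred : ∑ e ∈ E, F e ≤ ∑ e ∈ E.filter (fun e => 0 < F e), F e := by
    rw [← Finset.sum_filter_add_sum_filter_not E (fun e => 0 < F e)]
    have : ∑ e ∈ E.filter (fun e => ¬ 0 < F e), F e ≤ 0 :=
      Finset.sum_nonpos fun e he => not_lt.1 (Finset.mem_filter.1 he).2
    linarith
  refine hred.trans ?_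
  set E' := E.filter (fun e => 0 < F e) with hE'
  have hE'S : E' ⊆ S₁ ×ˢ S₂ := (Finset.filter_subset _ _).trans hE
  set Λ := S₁.image lab₁ ∪ S₂.image lab₂ with hΛ
  have hCL := CL_nonneg he1
  -- one valid radius for every label
  have hch : ∀ ρ : ℚ, ∃ b : ℝ, ρ ∈ Λ → (Lab θ b ρ ∨ ρ ∈ Λf) := by
    intro ρ
    by_cases hρ : ρ ∈ Λ
    · rcases Finset.mem_union.1 hρ with h | h
      · obtain ⟨q, hq, rfl⟩ := Finset.mem_image.1 h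
        exact ⟨R q, fun _ => (hlab₁ q hq).imp id And.left⟩
      · obtain ⟨q, hq, rfl⟩ := Finset.mem_image.1 h
        exact ⟨R q, fun _ => (hlab₂ q hq).imp id And.left⟩
    · exact ⟨0, fun h => absurd h hρ⟩
  choose b hb using hch
  have hrow : ∀ ρ ∈ Λ, ∑ σ ∈ Λ, cc P ρ σ ≤ (CX + Λf.card) * P^(-(1/6) : ℝ) := fun ρ _ =>
    row_sum hP (θ := θ) (a := b) (fun σ hσ => hb σ hσ) ρ
  have hCX := CX_pos
  refine (schur2 (Λ := Λ) (S₁ := S₁) (S₂ := S₂) (lab₁ := lab₁) (lab₂ := lab₂)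
    (fun q hq => Finset.mem_union_left _ (Finset.mem_image_of_mem lab₁ hq))
    (fun q hq => Finset.mem_union_right _ (Finset.mem_image_of_mem lab₂ hq))
    (m := wt R) (fun q hq => wt_nonneg (hS₁ q hq).2.le) (fun q hq => wt_nonneg (hS₂ q hq).2.le)
    hE'S (F := F) (P := P) (T := T)
    (K := (10^5 * LL207.CL e1) * K) (Q := (CX + Λf.card) * P^(-(1/6) : ℝ)) (ε := e1)
    (by positivity) he1 hT0 (by positivity) hT₁ hT₂ ?_ hrow)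
  intro ρ _ σ _
  set Eρ := E'.filter (fun e => lab₁ e.1 = ρ ∧ lab₂ e.2 = σ) with hEρ
  have hmem : ∀ e ∈ Eρ, e ∈ E ∧ 0 < F e ∧ lab₁ e.1 = ρ ∧ lab₂ e.2 = σ := by
    intro e he
    obtain ⟨h1, h2⟩ := Finset.mem_filter.1 he
    obtain ⟨h3, h4⟩ := Finset.mem_filter.1 h1
    exact ⟨h3, h4, h2⟩
  have hnn : 0 ≤ ((∑ q ∈ S₁.filter (fun q => lab₁ q = ρ), wt R q) *
      ∑ q ∈ S₂.filter (fun q => lab₂ q = σ), wt R q)^(1/2+e1) := by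
    apply Real.rpow_nonneg
    exact mul_nonneg (Finset.sum_nonneg fun q hq => wt_nonneg (hS₁ q (Finset.mem_filter.1 hq).1).2.le)
      (Finset.sum_nonneg fun q hq => wt_nonneg (hS₂ q (Finset.mem_filter.1 hq).1).2.le)
  rcases Eρ.eq_empty_or_nonempty with h0 | ⟨e₀, he₀⟩
  · rw [h0, Finset.sum_empty]
    have := cc_nonneg P ρ σ
    positivity
  obtain ⟨g1, g2, g3, g4⟩ := hmem e₀ he₀
  have hPZ : P ≤ (Zc ρ σ : ℝ) := by
    have := (hex e₀ g1 g2).2.1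
    rwa [g3, g4] at this
  have hcc : cc P ρ σ = ((Zc ρ σ : ℕ) : ℝ)^(-(1/3) : ℝ) := if_pos hPZ
  rw [hcc]
  have hZ1 : (1:ℝ) ≤ (Zc ρ σ : ℕ) := by exact_mod_cast Zc_pos ρ σ
  obtain ⟨p1, p2⟩ := div_gcd_pos ρ σ
  have hZe : (σ.den / Nat.gcd ρ.den σ.den) * (ρ.den / Nat.gcd ρ.den σ.den) = Zc ρ σ := by
    unfold LL207.Zc; ring
  have key := LLG24.ll_label (V := S₁.filter (fun q => lab₁ q = ρ))
    (W := S₂.filter (fun q => lab₂ q = σ))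
    (R := R) (R' := R) (fun v hv => hS₁ v (Finset.mem_filter.1 hv).1)
    (fun v hv => hS₂ v (Finset.mem_filter.1 hv).1) p2 p1 hK (F := F) (E := Eρ)
    (by
      intro e he
      obtain ⟨h1, _, h3, h4⟩ := hmem e he
      have h5 := Finset.mem_product.1 (hE h1)
      exact Finset.mem_product.2 ⟨Finset.mem_filter.2 ⟨h5.1, h3⟩, Finset.mem_filter.2 ⟨h5.2, h4⟩⟩)
    (by
      intro e he
      obtain ⟨h1, h2, h3, h4⟩ := hmem e he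
      obtain ⟨_, _, n, m, h5⟩ := hex e h1 h2
      rw [h3, h4] at h5
      exact dvd_of_exact ρ σ h5)
    (by
      intro e he
      obtain ⟨h1, h2, h3, h4⟩ := hmem e he
      obtain ⟨hne, _, _⟩ := hex e h1 h2
      have m5 := Finset.mem_product.1 (hE h1)
      have r1 := (hS₁ _ m5.1).2
      have r2 := (hS₂ _ m5.2).2
      have c1 : (1:ℝ) ≤ (cof e.1 e.2 : ℕ) := by exact_mod_cast cof_pos (hS₁ _ m5.1).1
      have c2 : (1:ℝ) ≤ (cof e.2 e.1 : ℕ) := by exact_mod_cast cof_pos (hS₂ _ m5.2).1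
      have d1 : R e.1 ≤ LLpair207.Dp R R e := by
        refine le_trans ?_ (le_max_right _ _)
        nlinarith
      have d2 : R e.2 ≤ LLpair207.Dp R R e := by
        refine le_trans ?_ (le_max_left _ _)
        nlinarith
      rw [hZe]
      have fat : P⁻¹ ≤ LLpair207.Dp R R e →
          1 ≤ 1024 * (LLpair207.Dp R R e)^4 * ((Zc ρ σ : ℕ) : ℝ)^10 := by
        intro hd
        have hZ0 : (0:ℝ) < (Zc ρ σ : ℕ) := by linarith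
        have t1 : 1 ≤ LLpair207.Dp R R e * (Zc ρ σ : ℕ) := by
          calc (1:ℝ) = P⁻¹ * P := (inv_mul_cancel₀ hP0.ne').symm
            _ ≤ LLpair207.Dp R R e * (Zc ρ σ : ℕ) := mul_le_mul hd hPZ hP0.le (by linarith)
        have t2 : 1 ≤ (LLpair207.Dp R R e * (Zc ρ σ : ℕ))^4 := one_le_pow₀ t1
        have t3 : (1:ℝ) ≤ ((Zc ρ σ : ℕ) : ℝ)^6 := one_le_pow₀ hZ1
        calc (1:ℝ) ≤ 1024 * ((LLpair207.Dp R R e * (Zc ρ σ : ℕ))^4 * ((Zc ρ σ : ℕ) : ℝ)^6) := by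
              nlinarith
          _ = _ := by ring
      rcases hlab₁ _ m5.1 with hl1 | hl1
      · rcases hlab₂ _ m5.2 with hl2 | hl2
        · have := D_ge hl1 hl2 hne d1 d2
          rwa [h3, h4] at this
        · exact fat (hl2.2.trans d2)
      · exact fat (hl1.2.trans d1))
    (fun e he => hF e (hmem e he).1)
  rw [hZe] at key
  refine key.trans (le_of_eq ?_)
  ring

set_option maxHeartbeats 4000000 in
/-- **labelled pairs of one node**, two label functions, with a rate -/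
theorem rtL (CL C2 s : ℝ) (hCL : 0 ≤ CL) (hC2 : 0 ≤ C2) :
    ∃ p₁ : ℕ, ∀ p : ℕ, p₁ ≤ p →
    ∀ (θ T : ℝ) (S₁ S₂ : Finset ℕ) (E : Finset (ℕ × ℕ)) (R : ℕ → ℝ) (lab₁ lab₂ : ℕ → ℚ)
      (Λf : Finset ℚ) (F : ℕ × ℕ → ℝ),
    ((Λf.card : ℕ) : ℝ) ≤ Real.log p → E ⊆ S₁ ×ˢ S₂ →
    (∀ w ∈ S₁, 0 < w ∧ 0 < R w) → (∀ w ∈ S₂, 0 < w ∧ 0 < R w) →
    (∀ w ∈ S₁, R w ≤ CL * Real.log p * wt R w) → (∀ w ∈ S₂, R w ≤ CL * Real.log p * wt R w) →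
    ∑ w ∈ S₁, wt R w ≤ T → ∑ w ∈ S₂, wt R w ≤ T → T ≤ Real.log p ^ C2 →
    (∀ q ∈ S₁, Lab θ (R q) (lab₁ q) ∨ (lab₁ q ∈ Λf ∧ (p:ℝ)⁻¹ ≤ R q)) →
    (∀ q ∈ S₂, Lab θ (R q) (lab₂ q) ∨ (lab₂ q ∈ Λf ∧ (p:ℝ)⁻¹ ≤ R q)) →
    (∀ e ∈ E, F e ≤ 2 * ((R e.1 * R e.2) / DP R R e)) →
    (∀ e ∈ E, 0 < F e → lab₁ e.1 ≠ lab₂ e.2 ∧ (p:ℝ) ≤ (LL207.Zc (lab₁ e.1) (lab₂ e.2) : ℝ) ∧
      ∃ m m' : ℤ, ((m:ℝ) + lab₁ e.1) * (cof e.2 e.1 : ℕ) = (m' + lab₂ e.2) * (cof e.1 e.2 : ℕ)) →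
    ∑ e ∈ E, F e ≤ Real.log p ^ (-s) * T := by
  classical
  have hCX := LL207.CX_pos
  have hLe := LL207.CL_nonneg (ε := LL207.e1) (by unfold LL207.e1; norm_num)
  obtain ⟨pb, hpb⟩ := log_large 1
  obtain ⟨p4, hp4⟩ := small_s (10^5 * LL207.CL LL207.e1 * (2 * CL^2) * (LL207.CX + 1)) (3 + C2) s
    (δ := 1) (by positivity)
  refine ⟨pb + p4 + 3, fun p hp => ?_⟩
  intro θ M S₁ S₂ E R lab₁ lab₂ Λf F hΛ hES hS₁ hS₂ hLS₁ hLS₂ hM₁ hM₂ hMb hlab₁ hlab₂ hF hex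
  have hl1 := hpb p (by omega)
  set ℓ := Real.log (p:ℝ) with hℓ
  have hℓ0 : 0 < ℓ := by linarith
  have hpN : 0 < p := by omega
  have hp0 : (0:ℝ) < p := by exact_mod_cast hpN
  have hp1R : (1:ℝ) ≤ p := by exact_mod_cast hpN
  set L := CL * ℓ with hL
  have hL0 : 0 ≤ L := by positivity
  have hM0 : 0 ≤ M := le_trans (Finset.sum_nonneg fun q hq => wt_nonneg (hS₁ q hq).2.le) hM₁
  have hmem : ∀ e ∈ E, e.1 ∈ S₁ ∧ e.2 ∈ S₂ := fun e he => Finset.mem_product.1 (hES he)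
  have hMC : ∀ x : ℝ, 0 ≤ x → x ≤ 1 → M^(1+x) ≤ M * ℓ^C2 := by
    intro x hx0 hx1
    rcases hM0.eq_or_lt with h0 | h0
    · rw [← h0, Real.zero_rpow (by linarith)]; simp
    · rw [Real.rpow_add h0, Real.rpow_one]
      apply mul_le_mul_of_nonneg_left _ hM0
      calc M^x ≤ (ℓ^C2)^x := Real.rpow_le_rpow hM0 hMb hx0
        _ = ℓ^(C2*x) := by rw [← Real.rpow_mul hℓ0.le]
        _ ≤ ℓ^C2 := Real.rpow_le_rpow_of_exponent_le hl1 (by nlinarith)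
  set W := Real.exp (-(1/500) * ℓ^(4/5:ℝ)) with hW
  have hW0 : 0 < W := Real.exp_pos _
  have hx45 : 0 ≤ ℓ^(4/5:ℝ) := by positivity
  have hx451 : ℓ^(4/5:ℝ) ≤ ℓ := by
    calc ℓ^(4/5:ℝ) ≤ ℓ^(1:ℝ) := Real.rpow_le_rpow_of_exponent_le hl1 (by norm_num)
      _ = ℓ := Real.rpow_one _
  have hpinv : (p:ℝ)^(-(1/6):ℝ) ≤ W := by
    rw [Real.rpow_def_of_pos hp0, hW]
    apply Real.exp_le_exp.2
    show ℓ * -(1/6) ≤ _
    nlinarith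
  have bF := ll_total2 (θ := θ) (P := p) (K := 2 * L^2) (T := M) hp1R (by positivity) hM0
    (S₁ := S₁) (S₂ := S₂)
    (R := R) (lab₁ := lab₁) (lab₂ := lab₂) (Λf := Λf) hS₁ hS₂ hM₁ hM₂ hlab₁ hlab₂ (E := E) hES
    (F := F)
    (fun e he => by
      have hh := hmem e he
      have hR := (hS₁ _ hh.1).2
      have hR' := (hS₂ _ hh.2).2
      have hD := DP_pos (R := R) (R' := R) (hS₂ _ hh.2).1 hR
      have eD : LLpair207.Dp R R e = DP R R e := by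
        unfold LLpair207.Dp DP
        exact max_comm _ _
      rw [eD]
      have hRR : R e.1 * R e.2 ≤ L^2 * (wt R e.1 * wt R e.2) := by
        have f1 := hLS₁ _ hh.1
        have f2 := hLS₂ _ hh.2
        have f5 : 0 ≤ L * wt R e.1 := hR.le.trans f1
        calc R e.1 * R e.2 ≤ (L * wt R e.1) * (L * wt R e.2) := mul_le_mul f1 f2 hR'.le f5
          _ = _ := by ring
      calc F e ≤ 2 * ((R e.1 * R e.2) / DP R R e) := hF e he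
        _ ≤ 2 * ((L^2 * (wt R e.1 * wt R e.2)) / DP R R e) := by gcongr
        _ = 2 * L^2 * (wt R e.1 * wt R e.2 / DP R R e) := by ring)
    hex
  refine bF.trans ?_
  have h := hp4 p (by omega)
  have he1 : LL207.e1 = 1/1000 := rfl
  have h1 : M^(1+2*LL207.e1) ≤ M * ℓ^C2 :=
    hMC (2*LL207.e1) (by rw [he1]; norm_num) (by rw [he1]; norm_num)
  have h2 : LL207.CX + Λf.card ≤ (LL207.CX + 1) * ℓ := by
    have : ((Λf.card : ℕ) : ℝ) ≤ ℓ := hΛ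
    nlinarith
  have h3 : 0 ≤ M^(1+2*LL207.e1) := by positivity
  calc (10^5 * LL207.CL LL207.e1) * (2 * L^2) * ((LL207.CX + Λf.card) * (p:ℝ)^(-(1/6) : ℝ)) *
      M^(1+2*LL207.e1)
      ≤ (10^5 * LL207.CL LL207.e1) * (2 * L^2) * (((LL207.CX + 1) * ℓ) * W) * (M * ℓ^C2) := by
        gcongr
    _ = (10^5 * LL207.CL LL207.e1 * (2 * CL^2) * (LL207.CX + 1)) * (ℓ^(3:ℝ) * ℓ^C2) * W * M := by
        rw [hL]
        have : ℓ^(3:ℝ) = ℓ^3 := by exact_mod_cast Real.rpow_natCast ℓ 3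
        rw [this]; ring
    _ = (10^5 * LL207.CL LL207.e1 * (2 * CL^2) * (LL207.CX + 1)) * ℓ^(3 + C2) * W * M := by
        rw [← Real.rpow_add hℓ0]
    _ ≤ 1 * ℓ^(-s) * M := mul_le_mul_of_nonneg_right h hM0
    _ = ℓ^(-s) * M := by rw [one_mul]

/-! ### tags -/

open Filter Topology in
/-- numbers -/
theorem numT (CL s : ℝ) (hCL : 0 ≤ CL) : ∃ p₁ : ℕ, ∀ p : ℕ, p₁ ≤ p →
    2 * ((2:ℝ)^p)^(-(1/4):ℝ) * Real.exp (28 * ((2 * p : ℕ):ℝ)^(3/4:ℝ)) * (CL * Real.log p) ≤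
      Real.log p ^ (-s) := by
  have hl2 : (0:ℝ) < Real.log 2 := Real.log_pos (by norm_num)
  set b : ℝ := Real.log 2 / 8 with hb
  have hb0 : 0 < b := by positivity
  have h4 : ∀ᶠ x : ℝ in atTop, 56 / b ≤ x ^ (1/4:ℝ) :=
    (tendsto_rpow_atTop (by norm_num : (0:ℝ) < 1/4)).eventually_ge_atTop _
  have h5 : ∀ᶠ x : ℝ in atTop, Real.log x ≤ b * x := by
    have e1 := (Real.isLittleO_log_id_atTop).bound hb0
    filter_upwards [e1, eventually_ge_atTop (1:ℝ)] with x hx h1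
    have h0 : 0 ≤ Real.log x := Real.log_nonneg h1
    rw [Real.norm_of_nonneg h0] at hx
    simp only [id] at hx
    rwa [Real.norm_of_nonneg (by linarith : (0:ℝ) ≤ x)] at hx
  have h6 : ∀ᶠ n : ℕ in atTop, 56 / b ≤ (n:ℝ) ^ (1/4:ℝ) ∧ Real.log n ≤ b * n :=
    tendsto_natCast_atTop_atTop.eventually (h4.and h5)
  obtain ⟨p₁, hp₁⟩ := eventually_atTop.1 h6
  obtain ⟨p2, hp2⟩ := small_s (2 * CL) 1 s (δ := 1) one_pos
  obtain ⟨p3, hp3⟩ := log_large 1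
  refine ⟨p₁ + p2 + p3 + 1, fun p hp => ?_⟩
  obtain ⟨hbb, hc⟩ := hp₁ p (by omega)
  have hs := hp2 p (by omega)
  have hl1 := hp3 p (by omega)
  set ℓ := Real.log (p:ℝ) with hℓ
  have hp0 : (0:ℝ) < p := by exact_mod_cast (by omega : 0 < p)
  have e1 : ((2:ℝ)^p)^(-(1/4):ℝ) = Real.exp (-(2 * b) * p) := by
    rw [← Real.rpow_natCast, ← Real.rpow_mul (by norm_num), Real.rpow_def_of_pos (by norm_num)]
    congr 1; rw [hb]; ring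
  have e2 : 28 * ((2 * p : ℕ):ℝ)^(3/4:ℝ) ≤ b * p := by
    have h0 : ((2 * p : ℕ):ℝ)^(3/4:ℝ) ≤ 2 * (p:ℝ)^(3/4:ℝ) := by
      push_cast
      rw [Real.mul_rpow (by norm_num) hp0.le]
      refine mul_le_mul_of_nonneg_right ?_ (by positivity)
      calc (2:ℝ)^(3/4:ℝ) ≤ (2:ℝ)^(1:ℝ) :=
            Real.rpow_le_rpow_of_exponent_le (by norm_num) (by norm_num)
        _ = 2 := Real.rpow_one _
    have : (p:ℝ) = (p:ℝ)^(3/4:ℝ) * (p:ℝ)^(1/4:ℝ) := by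
      rw [← Real.rpow_add hp0]; norm_num
    have h7 : 56 ≤ b * (p:ℝ)^(1/4:ℝ) := by
      rw [div_le_iff₀ hb0] at hbb; linarith
    calc 28 * ((2 * p : ℕ):ℝ)^(3/4:ℝ) ≤ 28 * (2 * (p:ℝ)^(3/4:ℝ)) := by linarith
      _ = 56 * (p:ℝ)^(3/4:ℝ) := by ring
      _ ≤ (b * (p:ℝ)^(1/4:ℝ)) * (p:ℝ)^(3/4:ℝ) :=
          mul_le_mul_of_nonneg_right h7 (by positivity)
      _ = b * ((p:ℝ)^(3/4:ℝ) * (p:ℝ)^(1/4:ℝ)) := by ring
      _ = b * p := by rw [← this]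
  have hx451 : ℓ^(4/5:ℝ) ≤ ℓ := by
    calc ℓ^(4/5:ℝ) ≤ ℓ^(1:ℝ) := Real.rpow_le_rpow_of_exponent_le hl1 (by norm_num)
      _ = ℓ := Real.rpow_one _
  have hx45 : 0 ≤ ℓ^(4/5:ℝ) := by positivity
  have e3 : ((2:ℝ)^p)^(-(1/4):ℝ) * Real.exp (28 * ((2 * p : ℕ):ℝ)^(3/4:ℝ)) ≤
      Real.exp (-(1/500) * ℓ^(4/5:ℝ)) := by
    rw [e1, ← Real.exp_add]
    apply Real.exp_le_exp.2
    nlinarith
  have hCl : 0 ≤ CL * ℓ := mul_nonneg hCL (by linarith)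
  calc 2 * ((2:ℝ)^p)^(-(1/4):ℝ) * Real.exp (28 * ((2 * p : ℕ):ℝ)^(3/4:ℝ)) * (CL * ℓ)
      = 2 * (((2:ℝ)^p)^(-(1/4):ℝ) * Real.exp (28 * ((2 * p : ℕ):ℝ)^(3/4:ℝ))) * (CL * ℓ) := by ring
    _ ≤ 2 * Real.exp (-(1/500) * ℓ^(4/5:ℝ)) * (CL * ℓ) := by
        refine mul_le_mul_of_nonneg_right ?_ hCl
        linarith
    _ = 2 * CL * ℓ^(1:ℝ) * Real.exp (-(1/500) * ℓ^(4/5:ℝ)) := by rw [Real.rpow_one]; ring
    _ ≤ 1 * ℓ^(-s) := hs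
    _ = ℓ^(-s) := one_mul _

/-- **tag pairs**: exact item pairs, `2p`-smooth cofactors, one cofactor at least `2^p`, with a rate -/
theorem rtT (CL s : ℝ) (hCL : 0 ≤ CL) : ∃ p₁ : ℕ, ∀ p : ℕ, p₁ ≤ p →
    ∀ (S : Finset ℕ) (E : Finset (ℕ × ℕ)) (R : ℕ → ℝ) (F : ℕ × ℕ → ℝ), E ⊆ S ×ˢ S →
    (∀ w ∈ S, 0 < w ∧ 0 < R w) → (∀ w ∈ S, R w ≤ CL * Real.log p * wt R w) →
    (∀ e ∈ E, ∀ l : ℕ, l.Prime → (l ∣ cof e.1 e.2 ∨ l ∣ cof e.2 e.1) → l ≤ 2 * p) →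
    (∀ e ∈ E, 2^p ≤ cof e.1 e.2 ∨ 2^p ≤ cof e.2 e.1) →
    (∀ e ∈ E, F e ≤ 2 * ((R e.1 * R e.2) / DP R R e)) →
    ∑ e ∈ E, F e ≤ Real.log p ^ (-s) * ∑ w ∈ S, wt R w := by
  obtain ⟨p₁, hp₁⟩ := numT CL s hCL
  refine ⟨p₁, fun p hp S E R F hE hS hL hsm hbig hF => ?_⟩
  have hnum := hp₁ p hp
  have h1 := TagE24.tag_gen (2 * p) (Y := (2:ℝ)^p) (η := 0) (by positivity) le_rfl (F := F) hE hS
    (fun e he => ⟨fun l hl h => hsm e he l hl (Or.inl h), fun l hl h => hsm e he l hl (Or.inr h)⟩)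
    (fun e he => by
      rcases hbig e he with h | h
      · left; exact_mod_cast h
      · right; exact_mod_cast h)
    (fun e he => by simpa using hF e he)
  have hwt0 : 0 ≤ ∑ w ∈ S, wt R w := Finset.sum_nonneg fun w hw => by
    have := (hS w hw).2.le
    unfold wt
    positivity
  have h2 : ∑ w ∈ S, R w ≤ CL * Real.log p * ∑ w ∈ S, wt R w := by
    rw [Finset.mul_sum]
    exact Finset.sum_le_sum hL
  have h3 : 0 ≤ 2 * (((2:ℝ)^p)^(-(1/4):ℝ) * Real.exp (28 * ((2 * p : ℕ):ℝ)^(3/4:ℝ))) := by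
    positivity
  calc ∑ e ∈ E, F e ≤ 2 * (((2:ℝ)^p)^(-(1/4):ℝ) * Real.exp (28 * ((2 * p : ℕ):ℝ)^(3/4:ℝ))) *
        ∑ w ∈ S, R w := by
        simpa using h1
    _ ≤ 2 * (((2:ℝ)^p)^(-(1/4):ℝ) * Real.exp (28 * ((2 * p : ℕ):ℝ)^(3/4:ℝ))) *
        (CL * Real.log p * ∑ w ∈ S, wt R w) := mul_le_mul_of_nonneg_left h2 h3
    _ = (2 * ((2:ℝ)^p)^(-(1/4):ℝ) * Real.exp (28 * ((2 * p : ℕ):ℝ)^(3/4:ℝ)) *
        (CL * Real.log p)) * ∑ w ∈ S, wt R w := by ring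
    _ ≤ Real.log p ^ (-s) * ∑ w ∈ S, wt R w := mul_le_mul_of_nonneg_right hnum hwt0

/-! ### item coordinates -/

section tr
open Crest.Agent.R4P.RseNd23

/-- **unlabelled pairs**, item coordinates -/
theorem rtU' (CL C2 s : ℝ) (hCL : 0 ≤ CL) (hC2 : 0 ≤ C2) :
    ∃ p₁ : ℕ, ∀ p : ℕ, p₁ ≤ p →
    ∀ (A : ℕ) (η θ : ℝ) (T : Finset ℕ) (E : Finset (ℕ × ℕ)) (R : ℕ → ℝ) (F : ℕ × ℕ → ℝ),
    (∀ q ∈ T, A ∣ q) →
    0 < η → η ≤ Real.exp (-(Real.log p ^ (4/5:ℝ))) → 1 ≤ η * p → E ⊆ T ×ˢ T →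
    (∀ q ∈ T, 0 < q / A ∧ 0 < R q) → (∀ q ∈ T, R q ≤ CL * Real.log p * wA A R q) →
    (∀ z : ℝ, ((2 * p : ℕ):ℝ)^2 ≤ z → ∀ q ∈ T, Crest.Agent.R4.ClsB.Tame z 1 (q / A)) →
    ∑ q ∈ T, wA A R q ≤ Real.log p ^ C2 →
    (∀ e ∈ E, p ≤ cof (e.1 / A) (e.2 / A) ∨ p ≤ cof (e.2 / A) (e.1 / A)) →
    (∀ e ∈ E, F e ≤ 2 * ((R e.1 * R e.2) / DA A R e) * (2 * (η * DA A R e) + 1)) →
    (∀ e ∈ E, 0 < F e → ∃ m m' : ℤ,
      |(m + θ) * (cof (e.2 / A) (e.1 / A) : ℕ) - (m' + θ) * (cof (e.1 / A) (e.2 / A) : ℕ)| ≤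
        η * DA A R e) →
    (∀ q ∈ T, R q * (η * p) ≤ 1 → ∀ ρ, ¬ Lab θ (R q) ρ) →
    ∑ e ∈ E, F e ≤ Real.log p ^ (-s) * ∑ q ∈ T, wA A R q := by
  obtain ⟨p₁, H⟩ := rtU CL C2 s hCL hC2
  refine ⟨p₁, fun p hp A η θ T E R F hA hη hη1 hηp hE hT hL htm hM hbig hF hrel hlab => ?_⟩
  have key := H p hp η θ (T.image (· / A)) (E.image fun e => (e.1 / A, e.2 / A))
    (fun v => R (A * v)) (fun e => F (A * e.1, A * e.2)) hη hη1 hηp (sub_tr hE)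
    (fun v hv => by
      obtain ⟨q, hq, rfl⟩ := Finset.mem_image.1 hv
      have h1 := hT q hq
      exact ⟨h1.1, by rw [Nat.mul_div_cancel' (hA q hq)]; exact h1.2⟩)
    (fun v hv => by
      obtain ⟨q, hq, rfl⟩ := Finset.mem_image.1 hv
      have h1 := hL q hq
      rw [wt_tr A R (hA q hq)]
      exact (R_tr A R (hA q hq)).le.trans h1)
    (fun z hz v hv => by
      obtain ⟨q, hq, rfl⟩ := Finset.mem_image.1 hv
      exact htm z hz q hq)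
    (by
      rw [sum_tr1 hA]
      exact le_trans (le_of_eq (Finset.sum_congr rfl fun q hq => wt_tr A R (hA q hq))) hM)
    (fun x hx => by
      obtain ⟨e, he, rfl⟩ := Finset.mem_image.1 hx
      exact hbig e he)
    (fun x hx => by
      obtain ⟨e, he, rfl⟩ := Finset.mem_image.1 hx
      obtain ⟨a1, a2⟩ := Finset.mem_product.1 (hE he)
      have d1 := hA _ a1
      have d2 := hA _ a2
      have h1 := hF e he
      rw [DP_eq A R d1 d2]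
      simp only [Nat.mul_div_cancel' d1, Nat.mul_div_cancel' d2]
      refine h1.trans (le_of_eq ?_)
      ring)
    (fun x hx h0 => by
      obtain ⟨e, he, rfl⟩ := Finset.mem_image.1 hx
      obtain ⟨a1, a2⟩ := Finset.mem_product.1 (hE he)
      have d1 := hA _ a1
      have d2 := hA _ a2
      rw [DP_eq A R d1 d2]
      simp only [Nat.mul_div_cancel' d1, Nat.mul_div_cancel' d2] at h0
      exact hrel e he h0)
    (fun v hv => by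
      obtain ⟨q, hq, rfl⟩ := Finset.mem_image.1 hv
      have h1 := hlab q hq
      simp only [Nat.mul_div_cancel' (hA q hq)]
      exact h1)
  rw [sum_tr2 hA hE, sum_tr1 hA] at key
  have e1 : ∑ e ∈ E, F e = ∑ e ∈ E, F (A * (e.1 / A), A * (e.2 / A)) := by
    refine Finset.sum_congr rfl fun e he => ?_
    obtain ⟨a1, a2⟩ := Finset.mem_product.1 (hE he)
    rw [Nat.mul_div_cancel' (hA _ a1), Nat.mul_div_cancel' (hA _ a2)]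
  rw [e1]
  refine key.trans (le_of_eq ?_)
  congr 1
  exact Finset.sum_congr rfl fun q hq => wt_tr A R (hA q hq)

lemma sub_tr2 {A : ℕ} {T₁ T₂ : Finset ℕ} {E : Finset (ℕ × ℕ)} (hE : E ⊆ T₁ ×ˢ T₂) :
    E.image (fun e => (e.1 / A, e.2 / A)) ⊆ T₁.image (· / A) ×ˢ T₂.image (· / A) := by
  intro x hx
  obtain ⟨e, he, rfl⟩ := Finset.mem_image.1 hx
  obtain ⟨a1, a2⟩ := Finset.mem_product.1 (hE he)
  exact Finset.mem_product.2 ⟨Finset.mem_image_of_mem _ a1, Finset.mem_image_of_mem _ a2⟩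

lemma sum_tr3 {A : ℕ} {T₁ T₂ : Finset ℕ} (hT₁ : ∀ q ∈ T₁, A ∣ q) (hT₂ : ∀ q ∈ T₂, A ∣ q)
    {E : Finset (ℕ × ℕ)} (hE : E ⊆ T₁ ×ˢ T₂) (g : ℕ × ℕ → ℝ) :
    ∑ e ∈ E.image (fun e => (e.1 / A, e.2 / A)), g e = ∑ e ∈ E, g (e.1 / A, e.2 / A) := by
  refine Finset.sum_image fun e he f hf h => ?_
  have h1 : e.1 / A = f.1 / A := congrArg Prod.fst h
  have h2 : e.2 / A = f.2 / A := congrArg Prod.snd h
  obtain ⟨a1, a2⟩ := Finset.mem_product.1 (hE he)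
  obtain ⟨b1, b2⟩ := Finset.mem_product.1 (hE hf)
  apply Prod.ext
  · rw [← Nat.mul_div_cancel' (hT₁ _ a1), ← Nat.mul_div_cancel' (hT₁ _ b1), h1]
  · rw [← Nat.mul_div_cancel' (hT₂ _ a2), ← Nat.mul_div_cancel' (hT₂ _ b2), h2]

/-- **labelled pairs**, two label functions, item coordinates -/
theorem rtL' (CL C2 s : ℝ) (hCL : 0 ≤ CL) (hC2 : 0 ≤ C2) :
    ∃ p₁ : ℕ, ∀ p : ℕ, p₁ ≤ p →
    ∀ (A : ℕ) (θ M : ℝ) (T₁ T₂ : Finset ℕ) (E : Finset (ℕ × ℕ)) (R : ℕ → ℝ) (lab₁ lab₂ : ℕ → ℚ)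
      (Λf : Finset ℚ) (F : ℕ × ℕ → ℝ),
    (∀ q ∈ T₁, A ∣ q) → (∀ q ∈ T₂, A ∣ q) →
    ((Λf.card : ℕ) : ℝ) ≤ Real.log p → E ⊆ T₁ ×ˢ T₂ →
    (∀ q ∈ T₁, 0 < q / A ∧ 0 < R q) → (∀ q ∈ T₂, 0 < q / A ∧ 0 < R q) →
    (∀ q ∈ T₁, R q ≤ CL * Real.log p * wA A R q) → (∀ q ∈ T₂, R q ≤ CL * Real.log p * wA A R q) →
    ∑ q ∈ T₁, wA A R q ≤ M → ∑ q ∈ T₂, wA A R q ≤ M → M ≤ Real.log p ^ C2 →
    (∀ q ∈ T₁, Lab θ (R q) (lab₁ q) ∨ (lab₁ q ∈ Λf ∧ (p:ℝ)⁻¹ ≤ R q)) →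
    (∀ q ∈ T₂, Lab θ (R q) (lab₂ q) ∨ (lab₂ q ∈ Λf ∧ (p:ℝ)⁻¹ ≤ R q)) →
    (∀ e ∈ E, F e ≤ 2 * ((R e.1 * R e.2) / DA A R e)) →
    (∀ e ∈ E, 0 < F e → lab₁ e.1 ≠ lab₂ e.2 ∧ (p:ℝ) ≤ (LL207.Zc (lab₁ e.1) (lab₂ e.2) : ℝ) ∧
      ∃ m m' : ℤ, ((m:ℝ) + lab₁ e.1) * (cof (e.2 / A) (e.1 / A) : ℕ) =
        (m' + lab₂ e.2) * (cof (e.1 / A) (e.2 / A) : ℕ)) →
    ∑ e ∈ E, F e ≤ Real.log p ^ (-s) * M := by
  obtain ⟨p₁, H⟩ := rtL CL C2 s hCL hC2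
  refine ⟨p₁, fun p hp A θ M T₁ T₂ E R lab₁ lab₂ Λf F hA₁ hA₂ hΛ hE hT₁ hT₂ hL₁ hL₂ hM₁ hM₂ hM
    hlab₁ hlab₂ hF hex => ?_⟩
  have key := H p hp θ M (T₁.image (· / A)) (T₂.image (· / A))
    (E.image fun e => (e.1 / A, e.2 / A))
    (fun v => R (A * v)) (fun v => lab₁ (A * v)) (fun v => lab₂ (A * v)) Λf
    (fun e => F (A * e.1, A * e.2)) hΛ (sub_tr2 hE)
    (fun v hv => by
      obtain ⟨q, hq, rfl⟩ := Finset.mem_image.1 hv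
      have h1 := hT₁ q hq
      exact ⟨h1.1, by rw [Nat.mul_div_cancel' (hA₁ q hq)]; exact h1.2⟩)
    (fun v hv => by
      obtain ⟨q, hq, rfl⟩ := Finset.mem_image.1 hv
      have h1 := hT₂ q hq
      exact ⟨h1.1, by rw [Nat.mul_div_cancel' (hA₂ q hq)]; exact h1.2⟩)
    (fun v hv => by
      obtain ⟨q, hq, rfl⟩ := Finset.mem_image.1 hv
      have h1 := hL₁ q hq
      rw [wt_tr A R (hA₁ q hq)]
      exact (R_tr A R (hA₁ q hq)).le.trans h1)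
    (fun v hv => by
      obtain ⟨q, hq, rfl⟩ := Finset.mem_image.1 hv
      have h1 := hL₂ q hq
      rw [wt_tr A R (hA₂ q hq)]
      exact (R_tr A R (hA₂ q hq)).le.trans h1)
    (by
      rw [sum_tr1 hA₁]
      exact le_trans (le_of_eq (Finset.sum_congr rfl fun q hq => wt_tr A R (hA₁ q hq))) hM₁)
    (by
      rw [sum_tr1 hA₂]
      exact le_trans (le_of_eq (Finset.sum_congr rfl fun q hq => wt_tr A R (hA₂ q hq))) hM₂)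
    hM
    (fun v hv => by
      obtain ⟨q, hq, rfl⟩ := Finset.mem_image.1 hv
      simp only [Nat.mul_div_cancel' (hA₁ q hq)]
      exact hlab₁ q hq)
    (fun v hv => by
      obtain ⟨q, hq, rfl⟩ := Finset.mem_image.1 hv
      simp only [Nat.mul_div_cancel' (hA₂ q hq)]
      exact hlab₂ q hq)
    (fun x hx => by
      obtain ⟨e, he, rfl⟩ := Finset.mem_image.1 hx
      obtain ⟨a1, a2⟩ := Finset.mem_product.1 (hE he)
      have d1 := hA₁ _ a1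
      have d2 := hA₂ _ a2
      have h1 := hF e he
      rw [DP_eq A R d1 d2]
      simp only [Nat.mul_div_cancel' d1, Nat.mul_div_cancel' d2]
      exact h1)
    (fun x hx h0 => by
      obtain ⟨e, he, rfl⟩ := Finset.mem_image.1 hx
      obtain ⟨a1, a2⟩ := Finset.mem_product.1 (hE he)
      have d1 := hA₁ _ a1
      have d2 := hA₂ _ a2
      simp only [Nat.mul_div_cancel' d1, Nat.mul_div_cancel' d2] at h0 ⊢
      exact hex e he h0)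
  rw [sum_tr3 hA₁ hA₂ hE] at key
  have e1 : ∑ e ∈ E, F e = ∑ e ∈ E, F (A * (e.1 / A), A * (e.2 / A)) := by
    refine Finset.sum_congr rfl fun e he => ?_
    obtain ⟨a1, a2⟩ := Finset.mem_product.1 (hE he)
    rw [Nat.mul_div_cancel' (hA₁ _ a1), Nat.mul_div_cancel' (hA₂ _ a2)]
  rw [e1]
  exact key

/-- **tag pairs**, item coordinates -/
theorem rtT' (CL s : ℝ) (hCL : 0 ≤ CL) : ∃ p₁ : ℕ, ∀ p : ℕ, p₁ ≤ p →
    ∀ (A : ℕ) (T : Finset ℕ) (E : Finset (ℕ × ℕ)) (R : ℕ → ℝ) (F : ℕ × ℕ → ℝ),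
    (∀ q ∈ T, A ∣ q) → E ⊆ T ×ˢ T →
    (∀ q ∈ T, 0 < q / A ∧ 0 < R q) → (∀ q ∈ T, R q ≤ CL * Real.log p * wA A R q) →
    (∀ e ∈ E, ∀ l : ℕ, l.Prime → (l ∣ cof (e.1 / A) (e.2 / A) ∨ l ∣ cof (e.2 / A) (e.1 / A)) →
      l ≤ 2 * p) →
    (∀ e ∈ E, 2^p ≤ cof (e.1 / A) (e.2 / A) ∨ 2^p ≤ cof (e.2 / A) (e.1 / A)) →
    (∀ e ∈ E, F e ≤ 2 * ((R e.1 * R e.2) / DA A R e)) →
    ∑ e ∈ E, F e ≤ Real.log p ^ (-s) * ∑ q ∈ T, wA A R q := by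
  obtain ⟨p₁, H⟩ := rtT CL s hCL
  refine ⟨p₁, fun p hp A T E R F hA hE hT hL hsm hbig hF => ?_⟩
  have key := H p hp (T.image (· / A)) (E.image fun e => (e.1 / A, e.2 / A))
    (fun v => R (A * v)) (fun e => F (A * e.1, A * e.2)) (sub_tr hE)
    (fun v hv => by
      obtain ⟨q, hq, rfl⟩ := Finset.mem_image.1 hv
      have h1 := hT q hq
      exact ⟨h1.1, by rw [Nat.mul_div_cancel' (hA q hq)]; exact h1.2⟩)
    (fun v hv => by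
      obtain ⟨q, hq, rfl⟩ := Finset.mem_image.1 hv
      have h1 := hL q hq
      rw [wt_tr A R (hA q hq)]
      exact (R_tr A R (hA q hq)).le.trans h1)
    (fun x hx l hl hd => by
      obtain ⟨e, he, rfl⟩ := Finset.mem_image.1 hx
      exact hsm e he l hl hd)
    (fun x hx => by
      obtain ⟨e, he, rfl⟩ := Finset.mem_image.1 hx
      exact hbig e he)
    (fun x hx => by
      obtain ⟨e, he, rfl⟩ := Finset.mem_image.1 hx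
      obtain ⟨a1, a2⟩ := Finset.mem_product.1 (hE he)
      have d1 := hA _ a1
      have d2 := hA _ a2
      have h1 := hF e he
      rw [DP_eq A R d1 d2]
      simp only [Nat.mul_div_cancel' d1, Nat.mul_div_cancel' d2]
      exact h1)
  rw [sum_tr2 hA hE, sum_tr1 hA] at key
  have e1 : ∑ e ∈ E, F e = ∑ e ∈ E, F (A * (e.1 / A), A * (e.2 / A)) := by
    refine Finset.sum_congr rfl fun e he => ?_
    obtain ⟨a1, a2⟩ := Finset.mem_product.1 (hE he)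
    rw [Nat.mul_div_cancel' (hA _ a1), Nat.mul_div_cancel' (hA _ a2)]
  rw [e1]
  refine key.trans (le_of_eq ?_)
  congr 1
  exact Finset.sum_congr rfl fun q hq => wt_tr A R (hA q hq)

end tr

end Crest.Agent.R4P.RtN28
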