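import Crest.Agent.R4P.RseC2_23
import Crest.Agent.R4P.RtN_28

/-!
R4 (S0004), powers pass, helper28: **P|N pairs of one index and different retained parts or tags,
one P-chain, one block of columns**.

* `PNr` : pairs of pieces of `RS` separated by a tie (one present, the other missing);
* `FF` : energy of a pair of items at the tie of the P-chain which separates it (columns `≥ P`);
* `FF_spec` : the node of a positive value;
* `chain` : `∑_e FF e ≤ (log P)^(-s) · mass` for every node with column in `[P, 2P)`.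
-/

set_option autoImplicit false
set_option linter.unusedSectionVars false
set_option linter.unusedVariables false

open MeasureTheory Filter

namespace Crest.Agent.R4P.RtC28

open Crest.Agent.R4P.Cnt588 Crest.Agent.R4P.Item758 Crest.Agent.R4P.W363
open Crest.Agent.R4P.Data758 Crest.Agent.R4P.OmSt532 Crest.Agent.R4P.OmData532
open Crest.Agent.R4P.LfDat734 Crest.Agent.R4P.WPex189
open Crest.Agent.R4P.Bld532 (NS All NodeOk Bk)
open Crest.Agent.R4P.Step588 (NDt ND1 ctx_NDt uq_lt)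
open Crest.Agent.R4P.WalkIT579 (tp isL nodeOk_hi top_of_nodeOk)
open Crest.Agent.R4P.Skel189 Crest.Agent.R4P.RseSt23 Crest.Agent.R4P.RseNd23
open Crest.Agent.R4.LF363 (Lab)
open Crest.Agent.R4.HVW560 (cof)
open Crest.Agent.R4.AvgItem710 (Dp mul_cof mul_cof' cof_pos cof_coprime exists_of_I_ne)
open Crest.Agent.R4P.AvgItem710
open Crest.Agent.R4.ClosL758 Crest.Agent.R4.ClosR758 Crest.Agent.R4.Tour104 Crest.Agent.R4.Fam464
open Crest.Agent.R4.Tour758 Crest.Agent.R4.Avg758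
open Crest.Agent.R4P.Frame758
open Crest.Agent.R4.Soft104 (w)
open Crest.Agent.R4

/-! ### item pairs -/

section gen
variable {Λ κ : Type*} [DecidableEq Λ]

lemma Q_eq_sum (D : Par Λ κ) (R : Finset (Λ × Λ)) (φ ψ : Λ → ℝ → ℝ) {E : Finset (ℕ × ℕ)}
    (hE : D.PE R φ ψ ⊆ E) : Q R φ ψ = ∑ e ∈ E, D.iF R φ ψ e := by
  classical
  rw [D.Q_eq]
  refine Finset.sum_subset hE fun e he hn => ?_
  unfold Par.iF
  refine Finset.sum_eq_zero fun x hx => ?_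
  by_contra h0
  obtain ⟨h1, h2⟩ := Finset.mem_filter.1 hx
  exact hn (Par.mem_PE.2 ⟨x.1, x.2, h1, h0, congrArg Prod.fst h2, congrArg Prod.snd h2⟩)

lemma PE_mono {D : Par Λ κ} {R R' : Finset (Λ × Λ)} (h : R ⊆ R') {φ ψ : Λ → ℝ → ℝ} :
    D.PE R φ ψ ⊆ D.PE R' φ ψ := by
  intro e he
  obtain ⟨j, j', h1, h2, h3, h4⟩ := Par.mem_PE.1 he
  exact Par.mem_PE.2 ⟨j, j', h h1, h2, h3, h4⟩

lemma iF_mono {D : Par Λ κ} {R R' : Finset (Λ × Λ)} (h : R ⊆ R') {φ ψ : Λ → ℝ → ℝ}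
    (h1 : ∀ j y, 0 ≤ φ j y) (h2 : ∀ j y, 0 ≤ ψ j y) (e : ℕ × ℕ) :
    D.iF R φ ψ e ≤ D.iF R' φ ψ e := by
  classical
  unfold Par.iF
  exact Finset.sum_le_sum_of_subset_of_nonneg (Finset.filter_subset_filter _ h)
    fun x _ _ => I_nonneg fun y => mul_nonneg (h1 _ y) (h2 _ y)

lemma iF_ne {D : Par Λ κ} {R : Finset (Λ × Λ)} {φ ψ : Λ → ℝ → ℝ} {e : ℕ × ℕ}
    (h : D.iF R φ ψ e ≠ 0) : e ∈ D.PE R φ ψ := by
  classical
  unfold Par.iF at h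
  obtain ⟨x, hx, h0⟩ := Finset.exists_ne_zero_of_sum_ne_zero h
  obtain ⟨h1, h2⟩ := Finset.mem_filter.1 hx
  exact Par.mem_PE.2 ⟨x.1, x.2, h1, h0, congrArg Prod.fst h2, congrArg Prod.snd h2⟩

end gen

/-! ### a tie: from the circle of the children to the circle of the node -/

section conv
variable {p w₁ w' : ℕ}

lemma conv_int (hp : p.Prime) (hn : ¬ p ∣ w') (a' : ℤ) : ∃ i a3 : ℤ, (p:ℤ) * a3 = a' + w' * i := by
  have hc : Nat.Coprime p w' := (Nat.Prime.coprime_iff_not_dvd hp).2 hn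
  have hb := Nat.gcd_eq_gcd_ab p w'
  rw [hc.gcd_eq_one] at hb
  push_cast at hb
  refine ⟨-(Nat.gcdB p w' * a'), Nat.gcdA p w' * a', ?_⟩
  have : (p:ℤ) * (Nat.gcdA p w' * a') = a' * ((p:ℤ) * Nat.gcdA p w') := by ring
  rw [this]
  have h2 : (p:ℤ) * Nat.gcdA p w' = 1 - w' * Nat.gcdB p w' := by linarith
  rw [h2]; ring

lemma gcd_eq (hp : p.Prime) (hn : ¬ p ∣ w') : Nat.gcd (p * w₁) w' = Nat.gcd w₁ w' := by
  have hc : Nat.Coprime p w' := (Nat.Prime.coprime_iff_not_dvd hp).2 hn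
  exact hc.gcd_mul_left_cancel w₁

lemma cof1 (hp : p.Prime) (hn : ¬ p ∣ w') : cof (p * w₁) w' = p * cof w₁ w' := by
  unfold Crest.Agent.R4.HVW560.cof
  rw [gcd_eq hp hn, Nat.mul_div_assoc _ (Nat.gcd_dvd_left _ _)]

lemma cof2 (hp : p.Prime) (hn : ¬ p ∣ w') : cof w' (p * w₁) = cof w' w₁ := by
  unfold Crest.Agent.R4.HVW560.cof
  rw [Nat.gcd_comm w' (p * w₁), gcd_eq hp hn, Nat.gcd_comm w₁ w']

lemma w_cof (w w' : ℕ) : w * cof w' w = w' * cof w w' := by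
  unfold Crest.Agent.R4.HVW560.cof
  rw [Nat.gcd_comm w' w]
  have h1 := Nat.mul_div_assoc w (Nat.gcd_dvd_right w w')
  have h2 := Nat.mul_div_assoc w' (Nat.gcd_dvd_left w w')
  rw [← h1, ← h2, mul_comm]

/-- the relation on the two circles -/
lemma conv_rel (hp : p.Prime) (hn : ¬ p ∣ w') {a a' i a3 : ℤ} (h : (p:ℤ) * a3 = a' + w' * i)
    (C C' : ℝ) :
    (((a + w₁ * i : ℤ) : ℝ) + C) * (cof w' (p * w₁) : ℕ) - ((a3:ℝ) + C') * (cof (p * w₁) w' : ℕ) =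
      ((a:ℝ) + C) * (cof w' w₁ : ℕ) - (a' + p * C') * (cof w₁ w' : ℕ) := by
  rw [cof2 hp hn, cof1 hp hn]
  have h1 : ((p:ℝ)) * a3 = a' + w' * i := by exact_mod_cast h
  have h2 : (w₁:ℝ) * (cof w' w₁ : ℕ) = w' * (cof w₁ w' : ℕ) := by exact_mod_cast w_cof w₁ w'
  push_cast
  linear_combination (-(cof w₁ w' : ℝ)) * h1 + (i:ℝ) * h2

end conv

section ctx
variable {N : Skel189.Num} {γ : ℝ} {p0 P₀ : ℕ}

/-- pairs of pieces of one index, different retained parts or tags, separated by a tie: the first is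
present, the second is missing -/
noncomputable def PNr (X : Ctx N γ p0 P₀) (Y : Finset (ℕ × ℕ × Finset ℕ)) (p : ℕ) (t₁ t₀ : IT) :
    Finset (X.c.Lam × X.c.Lam) :=
  (RS X Y p).filter fun x => x.1.1.1 ∈ t₁.items ∧ x.2.1.1 ∈ t₀.items

/-- values of the pieces at the child where the tie is present -/
noncomputable abbrev UP (X : Ctx N γ p0 P₀) (Y : Finset (ℕ × ℕ × Finset ℕ)) (u : NS) (p : ℕ)
    (t₁ : IT) (A : Finset X.c.Lam) : X.c.Lam → ℝ → ℝ :=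
  rv A fun j => ((X.c.D.par Y).toFT u.B (u.A * p) t₁).U 1 j

/-- values of the pieces at the child where the tie is missing -/
noncomputable abbrev UN (X : Ctx N γ p0 P₀) (Y : Finset (ℕ × ℕ × Finset ℕ)) (u : NS) (p : ℕ)
    (t₀ : IT) (A : Finset X.c.Lam) : X.c.Lam → ℝ → ℝ :=
  rv A fun j => ((X.c.D.par Y).toFT (u.B * p) u.A t₀).U 1 j

/-- energy of the separated pairs at a tie, one pair of items -/
noncomputable def pF (X : Ctx N γ p0 P₀) (Y : Finset (ℕ × ℕ × Finset ℕ)) (A : Finset X.c.Lam)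
    (u : NS) (p : ℕ) (t₁ t₀ : IT) (e : ℕ × ℕ) : ℝ :=
  1 / (p : ℝ) * (X.c.D.par Y).iF (PNr X Y p t₁ t₀) (UP X Y u p t₁ A) (UN X Y u p t₀ A) e

/-- **energy of the separated pairs at a tie** (weight `1/p`, circle of the children) -/
noncomputable def PNe (X : Ctx N γ p0 P₀) (Y : Finset (ℕ × ℕ × Finset ℕ)) (A : Finset X.c.Lam)
    (u : NS) (p : ℕ) (t₁ t₀ : IT) : ℝ :=
  1 / (p : ℝ) * Q (PNr X Y p t₁ t₀) (UP X Y u p t₁ A) (UN X Y u p t₀ A)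

variable {X : Ctx N γ p0 P₀} {Y : Finset (ℕ × ℕ × Finset ℕ)} {A : Finset X.c.Lam} {P : ℕ}
  {u : NS} {p : ℕ} {Sp : Finset ℕ} {t₁ t₀ : IT}

/-- facts of a tie node -/
structure TF (X : Ctx N γ p0 P₀) (u : NS) (p : ℕ) (t₁ t₀ : IT) : Prop where
  pr : p.Prime
  ds : Disjoint t₁.items t₀.items
  f1 : Fit u.B (u.A * p) t₁
  f0 : Fit (u.B * p) u.A t₀
  b0 : 0 < u.B
  a0 : 0 < u.A
  w1 : ∀ Y, (X.c.D.par Y).Wts (u.A * p) t₁
  w0 : ∀ Y, (X.c.D.par Y).Wts u.A t₀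
  d1 : ∀ q ∈ t₁.items, 0 < q ∧ u.A * p ∣ q
  d0 : ∀ q ∈ t₀.items, 0 < q ∧ u.A ∣ q ∧ ¬ p ∣ q / u.A

lemma tF (h : NDt X.par (w X.ψ) X.c.t u (.br p Sp t₁ t₀)) : TF X u p t₁ t₀ := by
  have hf := h.fit
  obtain ⟨hp, hpb, hd, hf1, hf0⟩ := hf
  obtain ⟨n1, n2, n3, n4, n5, n6, n7, -⟩ := h.self.node
  refine ⟨hp, hd, hf1, hf0, h.B_pos, h.A_pos, fun Y => (node_wts h Y).br₁ hd,
    fun Y => (node_wts h Y).br₀, fun q hq => ?_, fun q hq => ?_⟩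
  · have hq' : q ∈ (IT.br p Sp t₁ t₀).items := Finset.mem_union_left _ hq
    have h1 : p ∣ q / u.A := by
      rw [n6, Bld532.mem_dv] at hq
      exact hq.2
    have h2 := h.bk.dvd q hq'
    have h3 : 0 < q := h.pos q (h.self.sub hq')
    refine ⟨h3, ?_⟩
    obtain ⟨k, hk⟩ := h1
    refine ⟨k, ?_⟩
    rw [mul_assoc, ← hk, Nat.mul_div_cancel' h2]
  · have hq' : q ∈ (IT.br p Sp t₁ t₀).items := Finset.mem_union_right _ hq
    have h1 : ¬ p ∣ q / u.A := by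
      rw [n7, Bld532.mem_nd] at hq
      exact hq.2
    exact ⟨h.pos q (h.self.sub hq'), h.bk.dvd q hq', h1⟩

lemma TF.div1 (F : TF X u p t₁ t₀) {q : ℕ} (hq : q ∈ t₁.items) : q / u.A = p * (q / (u.A * p)) :=
  div_step (F.d1 q hq).1 (F.d1 q hq).2

lemma TF.UP_nonneg (F : TF X u p t₁ t₀) (j : X.c.Lam) (y : ℝ) : 0 ≤ UP X Y u p t₁ A j y := by
  have := (PB_rv (fun j => FT.pb F.b0 ((X.c.D.par Y).toFT_Adm _ _ _ F.b0 F.f1 (F.w1 Y))
    (one_dvd _) j) A j).nonneg y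
  exact this

lemma TF.PB_UP (F : TF X u p t₁ t₀) (j : X.c.Lam) : PB (UP X Y u p t₁ A j) :=
  PB_rv (fun j => FT.pb F.b0 ((X.c.D.par Y).toFT_Adm _ _ _ F.b0 F.f1 (F.w1 Y)) (one_dvd _) j) A j

lemma TF.PB_UN (F : TF X u p t₁ t₀) (j : X.c.Lam) : PB (UN X Y u p t₀ A j) :=
  PB_rv (fun j => FT.pb (Nat.mul_pos F.b0 F.pr.pos) ((X.c.D.par Y).toFT_Adm _ _ _
    (Nat.mul_pos F.b0 F.pr.pos) F.f0 (F.w0 Y)) (one_dvd _) j) A j

lemma TF.UN_nonneg (F : TF X u p t₁ t₀) (j : X.c.Lam) (y : ℝ) : 0 ≤ UN X Y u p t₀ A j y :=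
  (F.PB_UN j).nonneg y

/-- **conversion of a common point** of two windows of the children -/
theorem TF.conv (F : TF X u p t₁ t₀) {q q' : ℕ} (hq : q ∈ t₁.items) (hq' : q' ∈ t₀.items)
    {al be al' be' : ℝ} {x : ℝ} {a a' : ℤ}
    (l1 : (u.B : ℝ) / (1 : ℕ) * al ≤ ((q / (u.A * p) : ℕ) : ℝ) * x - (u.B : ℝ) / (1 : ℕ) * X.c.γ - a)
    (l2 : ((q / (u.A * p) : ℕ) : ℝ) * x - (u.B : ℝ) / (1 : ℕ) * X.c.γ - a < (u.B : ℝ) / (1 : ℕ) * be)
    (l3 : ((u.B * p : ℕ) : ℝ) / (1 : ℕ) * al' ≤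
      ((q' / u.A : ℕ) : ℝ) * x - ((u.B * p : ℕ) : ℝ) / (1 : ℕ) * X.c.γ - a')
    (l4 : ((q' / u.A : ℕ) : ℝ) * x - ((u.B * p : ℕ) : ℝ) / (1 : ℕ) * X.c.γ - a' <
      ((u.B * p : ℕ) : ℝ) / (1 : ℕ) * be') :
    ∃ (y : ℝ) (i a3 : ℤ), (p:ℤ) * a3 = a' + (q' / u.A : ℕ) * i ∧
      (u.B : ℝ) / (1 : ℕ) * al ≤ ((q / u.A : ℕ) : ℝ) * y - (u.B : ℝ) / (1 : ℕ) * X.c.γ -
        ((a + (q / (u.A * p) : ℕ) * i : ℤ) : ℝ) ∧
      ((q / u.A : ℕ) : ℝ) * y - (u.B : ℝ) / (1 : ℕ) * X.c.γ -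
        ((a + (q / (u.A * p) : ℕ) * i : ℤ) : ℝ) < (u.B : ℝ) / (1 : ℕ) * be ∧
      (u.B : ℝ) / (1 : ℕ) * al' ≤ ((q' / u.A : ℕ) : ℝ) * y - (u.B : ℝ) / (1 : ℕ) * X.c.γ - a3 ∧
      ((q' / u.A : ℕ) : ℝ) * y - (u.B : ℝ) / (1 : ℕ) * X.c.γ - a3 < (u.B : ℝ) / (1 : ℕ) * be' := by
  obtain ⟨i, a3, h3⟩ := conv_int F.pr (F.d0 q' hq').2.2 a'
  have hp0 : (0:ℝ) < p := by exact_mod_cast F.pr.pos
  refine ⟨(x + i) / p, i, a3, h3, ?_⟩
  rw [F.div1 hq]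
  set W : ℕ := q / (u.A * p) with hW
  set W' : ℕ := q' / u.A with hW'
  have h3' : (p:ℝ) * a3 = a' + W' * i := by exact_mod_cast h3
  have e1 : ((p * W : ℕ) : ℝ) * ((x + i) / p) - (u.B : ℝ) / (1 : ℕ) * X.c.γ -
      ((a + (W : ℕ) * i : ℤ) : ℝ) = (W:ℝ) * x - (u.B : ℝ) / (1 : ℕ) * X.c.γ - a := by
    push_cast
    field_simp
    ring
  have e2 : (W' : ℝ) * ((x + i) / p) - (u.B : ℝ) / (1 : ℕ) * X.c.γ - a3 =
      ((W' : ℝ) * x - ((u.B * p : ℕ) : ℝ) / (1 : ℕ) * X.c.γ - a') / p := by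
    push_cast
    rw [eq_div_iff hp0.ne']
    field_simp
    linear_combination -h3'
  have e3 : ∀ c : ℝ, ((u.B * p : ℕ) : ℝ) / (1 : ℕ) * c = ((u.B : ℝ) / (1 : ℕ) * c) * p := fun c => by
    push_cast; ring
  rw [e1, e2]
  rw [e3 al'] at l3
  rw [e3 be'] at l4
  refine ⟨l1, l2, ?_, ?_⟩
  · rw [le_div_iff₀ hp0]; exact l3
  · rw [div_lt_iff₀ hp0]; exact l4

lemma mem_PNr {x : X.c.Lam × X.c.Lam} : x ∈ PNr X Y p t₁ t₀ ↔ x ∈ RS X Y p ∧
    x.1.1.1 ∈ t₁.items ∧ x.2.1.1 ∈ t₀.items := by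
  unfold PNr
  rw [Finset.mem_filter]

lemma PNr_sub : PNr X Y p t₁ t₀ ⊆ RS X Y p := Finset.filter_subset _ _

/-- **a pair of items with a nonzero separated pair of pieces**, on the circle of the node -/
theorem link (h : NDt X.par (w X.ψ) X.c.t u (.br p Sp t₁ t₀)) {e : ℕ × ℕ}
    (he : e ∈ (X.c.D.par Y).PE (PNr X Y p t₁ t₀) (UP X Y u p t₁ A) (UN X Y u p t₀ A)) :
    ∃ j j' : X.c.Lam, j ∈ A ∧ j' ∈ A ∧ e = (j.1.1, j'.1.1) ∧ j.1.1 ∈ t₁.items ∧ j'.1.1 ∈ t₀.items ∧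
      (X.c.world p j.1).1 = (X.c.world p j'.1).1 ∧
      (ret X.c.t p j.1.1 ≠ ret X.c.t p j'.1.1 ∨ X.c.tg p j.1.1 ≠ X.c.tg p j'.1.1) ∧
      ∃ (y : ℝ) (a a' : ℤ),
        X.c.om j.1.1 (X.c.bp j.1.1 j.1.2) ((mp (.br p Sp t₁ t₀) j.1.1 : ℕ) * a) ≠ 0 ∧
        X.c.om j'.1.1 (X.c.bp j'.1.1 j'.1.2) ((mp (.br p Sp t₁ t₀) j'.1.1 : ℕ) * a') ≠ 0 ∧
        (u.B : ℝ) / (1 : ℕ) * X.c.bp j.1.1 j.1.2 ≤
          ((j.1.1 / u.A : ℕ) : ℝ) * y - (u.B : ℝ) / (1 : ℕ) * X.c.γ - a ∧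
        ((j.1.1 / u.A : ℕ) : ℝ) * y - (u.B : ℝ) / (1 : ℕ) * X.c.γ - a <
          (u.B : ℝ) / (1 : ℕ) * X.c.bp j.1.1 (j.1.2 + 1) ∧
        (u.B : ℝ) / (1 : ℕ) * X.c.bp j'.1.1 j'.1.2 ≤
          ((j'.1.1 / u.A : ℕ) : ℝ) * y - (u.B : ℝ) / (1 : ℕ) * X.c.γ - a' ∧
        ((j'.1.1 / u.A : ℕ) : ℝ) * y - (u.B : ℝ) / (1 : ℕ) * X.c.γ - a' <
          (u.B : ℝ) / (1 : ℕ) * X.c.bp j'.1.1 (j'.1.2 + 1) := by
  have F := tF h
  obtain ⟨j, j', hR, hI, e1, e2⟩ := Par.mem_PE.1 he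
  obtain ⟨x, y1, y2⟩ := exists_of_I_ne hI
  have hA : j ∈ A := by
    by_contra hc
    exact y1 (congrFun (rv_of_not_mem
      (f := fun j => ((X.c.D.par Y).toFT u.B (u.A * p) t₁).U 1 j) hc) x)
  have hA' : j' ∈ A := by
    by_contra hc
    exact y2 (congrFun (rv_of_not_mem
      (f := fun j => ((X.c.D.par Y).toFT (u.B * p) u.A t₀).U 1 j) hc) x)
  have y1' : ((X.c.D.par Y).toFT u.B (u.A * p) t₁).U 1 j x ≠ 0 := by
    have e := congrFun (rv_of_mem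
      (f := fun j => ((X.c.D.par Y).toFT u.B (u.A * p) t₁).U 1 j) hA) x
    intro h0
    exact y1 (e.trans h0)
  have y2' : ((X.c.D.par Y).toFT (u.B * p) u.A t₀).U 1 j' x ≠ 0 := by
    have e := congrFun (rv_of_mem
      (f := fun j => ((X.c.D.par Y).toFT (u.B * p) u.A t₀).U 1 j) hA') x
    intro h0
    exact y2 (e.trans h0)
  obtain ⟨m1, a, o1, l1, l2⟩ := Par.supp _ F.b0 F.f1 (F.w1 Y) (one_dvd _) y1'
  obtain ⟨m2, a', o2, l3, l4⟩ := Par.supp _ (Nat.mul_pos F.b0 F.pr.pos) F.f0 (F.w0 Y) (one_dvd _) y2'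
  have m1' : j.1.1 ∈ t₁.items := m1
  have m2' : j'.1.1 ∈ t₀.items := m2
  obtain ⟨y, i, a3, h3, k1, k2, k3, k4⟩ := F.conv m1' m2' l1 l2 l3 l4
  rw [mem_PNr, mem_RS] at hR
  refine ⟨j, j', hA, hA', Prod.ext e1.symm e2.symm, m1', m2', hR.1.1, hR.1.2, y, _, _, ?_, ?_,
    k1, k2, k3, k4⟩
  · -- the weight of the present piece
    rw [one_mul] at o1
    have hn0 : j.1.1 ∉ t₀.items := fun h0 => Finset.disjoint_left.1 F.ds m1' h0
    have em : mp (.br p Sp t₁ t₀) j.1.1 = mp t₁ j.1.1 := by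
      show (if _ then _ else _) = _
      rw [if_neg hn0]
    rw [em]
    have hw := F.w1 Y j m1
    have hd : ((X.c.D.par Y).it j / (u.A * p * pp t₁ ((X.c.D.par Y).it j))) ∣
        ((X.c.D.par Y).it j / (u.A * p)) := by
      refine div_dvd_div' ?_ (pp_dvd F.f1 _ m1)
      exact (F.f1.item _ m1).1
    obtain ⟨v, hv⟩ := hd
    have hv' : j.1.1 / (u.A * p) = (j.1.1 / (u.A * p * pp t₁ j.1.1)) * v := hv
    have key := hw.add_mul (((mp t₁ j.1.1 : ℕ) : ℤ) * a) ((mp t₁ j.1.1 : ℕ) * v * i)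
    have e4 : (((mp t₁ j.1.1 : ℕ) : ℤ) * (a + (j.1.1 / (u.A * p) : ℕ) * i)) =
        ((mp t₁ j.1.1 : ℕ) : ℤ) * a + ((j.1.1 / (u.A * p * pp t₁ j.1.1) : ℕ) : ℤ) *
          ((mp t₁ j.1.1 : ℕ) * v * i) := by
      rw [hv']; push_cast; ring
    rw [e4]
    intro h0
    exact o1 (key.symm.trans h0)
  · -- the weight of the missing piece
    rw [one_mul] at o2
    have em : mp (.br p Sp t₁ t₀) j'.1.1 = p * mp t₀ j'.1.1 := by
      show (if _ then _ else _) = _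
      rw [if_pos m2']
    rw [em]
    have hw := F.w0 Y j' m2
    have hd : ((X.c.D.par Y).it j' / (u.A * pp t₀ ((X.c.D.par Y).it j'))) ∣
        ((X.c.D.par Y).it j' / u.A) := by
      refine div_dvd_div' ?_ (pp_dvd F.f0 _ m2)
      exact (F.f0.item _ m2).1
    obtain ⟨v, hv⟩ := hd
    have hv' : j'.1.1 / u.A = (j'.1.1 / (u.A * pp t₀ j'.1.1)) * v := hv
    have key := hw.add_mul (((mp t₀ j'.1.1 : ℕ) : ℤ) * a') ((mp t₀ j'.1.1 : ℕ) * v * i)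
    have e4 : (((p * mp t₀ j'.1.1 : ℕ) : ℤ) * a3) =
        ((mp t₀ j'.1.1 : ℕ) : ℤ) * a' + ((j'.1.1 / (u.A * pp t₀ j'.1.1) : ℕ) : ℤ) *
          ((mp t₀ j'.1.1 : ℕ) * v * i) := by
      have e5 : (((p * mp t₀ j'.1.1 : ℕ) : ℤ) * a3) = ((mp t₀ j'.1.1 : ℕ) : ℤ) * ((p:ℤ) * a3) := by
        push_cast; ring
      rw [e5, h3, hv']; push_cast; ring
    rw [e4]
    intro h0
    exact o2 (key.symm.trans h0)

/-- **energy of a separated pair of items**, from a relation on the circle of the node -/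
theorem pF_le (h : NDt X.par (w X.ψ) X.c.t u (.br p Sp t₁ t₀)) {e : ℕ × ℕ}
    (h1 : e.1 ∈ t₁.items) (h2 : e.2 ∈ t₀.items) {C C' δ : ℝ} (hδ : 0 ≤ δ)
    (hrel : ∀ x ∈ PNr X Y p t₁ t₀, x.1 ∈ A → x.2 ∈ A → x.1.1.1 = e.1 → x.2.1.1 = e.2 →
      ∀ (y : ℝ) (a a' : ℤ),
      (u.B : ℝ) / (1 : ℕ) * X.c.bp x.1.1.1 x.1.1.2 ≤
        ((e.1 / u.A : ℕ) : ℝ) * y - (u.B : ℝ) / (1 : ℕ) * X.c.γ - a →
      ((e.1 / u.A : ℕ) : ℝ) * y - (u.B : ℝ) / (1 : ℕ) * X.c.γ - a <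
        (u.B : ℝ) / (1 : ℕ) * X.c.bp x.1.1.1 (x.1.1.2 + 1) →
      (u.B : ℝ) / (1 : ℕ) * X.c.bp x.2.1.1 x.2.1.2 ≤
        ((e.2 / u.A : ℕ) : ℝ) * y - (u.B : ℝ) / (1 : ℕ) * X.c.γ - a' →
      ((e.2 / u.A : ℕ) : ℝ) * y - (u.B : ℝ) / (1 : ℕ) * X.c.γ - a' <
        (u.B : ℝ) / (1 : ℕ) * X.c.bp x.2.1.1 (x.2.1.2 + 1) →
      |((a:ℝ) + C) * (cof (e.2 / u.A) (e.1 / u.A) : ℕ) -
        (a' + C') * (cof (e.1 / u.A) (e.2 / u.A) : ℕ)| ≤ δ) :
    pF X Y A u p t₁ t₀ e ≤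
      2 * ((RB X u e.1 * RB X u e.2) / DA u.A (RB X u) e) * (2 * δ + 1) := by
  have F := tF h
  have hp0 : (0:ℝ) < p := by exact_mod_cast F.pr.pos
  have key := PairR23.iF_rel_le (D := X.c.D.par Y) (ρ := X.c.rr) (b := u.B) (pr := u.A * p) (c := 1)
    (b' := u.B * p) (pr' := u.A) (c' := 1) (t := t₁) (t' := t₀) (A := A) (A' := A)
    (X.ok.rad Y) F.b0
    (Nat.mul_pos F.b0 F.pr.pos) F.f1 F.f0 (F.w1 Y) (F.w0 Y) (one_dvd _) (one_dvd _)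
    (PNr X Y p t₁ t₀) e h1 h2 (C := C) (C' := p * C') (δ := δ) hδ
    (fun x hx a1 a2 i1 i2 y a a' l1 l2 l3 l4 => by
      obtain ⟨y', i, a3, h3, k1, k2, k3, k4⟩ := F.conv h1 h2 l1 l2 l3 l4
      have r := hrel x hx a1 a2 i1 i2 y' _ _ k1 k2 k3 k4
      rw [F.div1 h1, conv_rel F.pr (F.d0 _ h2).2.2 h3 C C'] at r
      exact r)
  unfold pF
  have eD : Dp (e.1 / (u.A * p)) (e.2 / u.A) ((u.B : ℝ) / (1 : ℕ) * X.c.rr e.1)
      (((u.B * p : ℕ) : ℝ) / (1 : ℕ) * X.c.rr e.2) = DA u.A (RB X u) e := by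
    unfold DA Crest.Agent.R4.AvgItem710.Dp
    rw [F.div1 h1, cof1 F.pr (F.d0 _ h2).2.2, cof2 F.pr (F.d0 _ h2).2.2]
    push_cast
    congr 1
    · rw [div_one]
    · rw [div_one]; ring
  rw [eD] at key
  have hpm := mul_le_mul_of_nonneg_left key (by positivity : (0:ℝ) ≤ 1 / (p:ℝ))
  refine hpm.trans (le_of_eq ?_)
  show 1 / (p:ℝ) * (2 * ((u.B : ℝ) / (1 : ℕ) * X.c.rr e.1 *
    (((u.B * p : ℕ) : ℝ) / (1 : ℕ) * X.c.rr e.2) / DA u.A (RB X u) e) * (2 * δ + 1)) =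
    2 * ((((u.B : ℝ) * X.c.rr e.1) * ((u.B : ℝ) * X.c.rr e.2)) / DA u.A (RB X u) e) * (2 * δ + 1)
  push_cast
  field_simp

/-- **energy of an unlabelled separated pair** -/
theorem pF_none (h : NDt X.par (w X.ψ) X.c.t u (.br p Sp t₁ t₀)) (hp : p ≤ top X.S)
    (hlam : X.c.lam p = 0) {e : ℕ × ℕ}
    (h1 : e.1 ∈ t₁.items) (h2 : e.2 ∈ t₀.items) {η : ℝ} (hη : etaL X.c.wp p ≤ η)
    (hs : X.c.st p e.1 = none) (hs' : X.c.st p e.2 = none) :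
    pF X Y A u p t₁ t₀ e ≤
      2 * ((RB X u e.1 * RB X u e.2) / DA u.A (RB X u) e) * (2 * (η * DA u.A (RB X u) e) + 1) := by
  have hrr : ∀ q, 0 < X.c.rr q := (X.ok.rad Y).pos
  have hB' : (0 : ℝ) < u.B := by exact_mod_cast h.B_pos
  have hDA : 0 ≤ DA u.A (RB X u) e := by
    unfold DA Crest.Agent.R4.AvgItem710.Dp
    refine le_max_of_le_left ?_
    have := (hrr e.1).le
    positivity
  have hη0 : 0 ≤ η := (etaL_pos _ _).le.trans hη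
  refine pF_le h h1 h2 (C := u.B * X.c.γ) (C' := u.B * X.c.γ) (δ := η * DA u.A (RB X u) e)
    (mul_nonneg hη0 hDA) fun x hx _ _ i1 i2 y a a' l1 l2 l3 l4 => ?_
  have hx' := (mem_PNr.1 hx).1
  rw [mem_RS] at hx'
  have g1 : x.1.1.1 ∈ (IT.br p Sp t₁ t₀).items := Finset.mem_union_left _ (by rw [i1]; exact h1)
  have g2 : x.2.1.1 ∈ (IT.br p Sp t₁ t₀).items := Finset.mem_union_right _ (by rw [i2]; exact h2)
  rw [← i1] at l1 l2 hs
  rw [← i2] at l3 l4 hs'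
  have k := rel_none h hp hlam hx'.1 g1 g2 hs hs' l1 l2 l3 l4
  rw [i1, i2] at k
  exact k.trans (mul_le_mul_of_nonneg_right hη hDA)

/-- **energy of a labelled separated pair** -/
theorem pF_some (h : NDt X.par (w X.ψ) X.c.t u (.br p Sp t₁ t₀)) (hp : p ≤ top X.S)
    (hlam : X.c.lam p = 0) {e : ℕ × ℕ}
    (h1 : e.1 ∈ t₁.items) (h2 : e.2 ∈ t₀.items) {σ σ' : ℚ}
    (hs : X.c.st p e.1 = some σ) (hs' : X.c.st p e.2 = some σ') :
    pF X Y A u p t₁ t₀ e ≤ 2 * ((RB X u e.1 * RB X u e.2) / DA u.A (RB X u) e) := by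
  have key := pF_le (Y := Y) (A := A) h h1 h2 (C := ((u.B * σ : ℚ) : ℝ))
    (C' := ((u.B * σ' : ℚ) : ℝ)) (δ := 0) le_rfl
    fun x hx _ _ i1 i2 y a a' l1 l2 l3 l4 => by
      have hx' := (mem_PNr.1 hx).1
      rw [mem_RS] at hx'
      have g1 : x.1.1.1 ∈ (IT.br p Sp t₁ t₀).items := Finset.mem_union_left _ (by rw [i1]; exact h1)
      have g2 : x.2.1.1 ∈ (IT.br p Sp t₁ t₀).items := Finset.mem_union_right _ (by rw [i2]; exact h2)
      rw [← i1] at l1 l2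
      rw [← i2] at l3 l4
      have hs1 : X.c.st p x.1.1.1 = some σ := by rw [i1]; exact hs
      have hs2 : X.c.st p x.2.1.1 = some σ' := by rw [i2]; exact hs'
      have k := (rel_some h hp hlam hx'.1 g1 g2 hs1 hs2 l1 l2 l3 l4).2
      rw [i1, i2] at k
      rw [k, sub_self, abs_zero]
  rw [mul_zero, zero_add, mul_one] at key
  exact key

/-! ### the P-chain of a node -/

/-- energy of a pair of items at the tie of the P-chain which separates it, columns `≥ P` -/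
noncomputable def FF (X : Ctx N γ p0 P₀) (Y : Finset (ℕ × ℕ × Finset ℕ)) (A : Finset X.c.Lam)
    (P : ℕ) : NS → IT → ℕ × ℕ → ℝ
  | _, .leaf _, _ => 0
  | u, .br p _ t₁ t₀, e => (if P ≤ p then pF X Y A u p t₁ t₀ e else 0) +
      FF X Y A P ⟨p, u.c / (1 - 1 / (p : ℝ)), u.A * p, u.B⟩ t₁ e
  | u, .add b t₁ t₀, e => FF X Y A P ⟨b + 1, u.c, u.A, u.B⟩ t₁ e +
      FF X Y A P ⟨b + 1, u.c, u.A, u.B⟩ t₀ e
  | u, .up b _ t, e => FF X Y A P ⟨b, u.c, u.A, u.B⟩ t e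
  | u, .pl b t, e => FF X Y A P ⟨b + 1, u.c, u.A * b, u.B⟩ t e
  | u, .far b t₁ t₀, e => FF X Y A P ⟨b + 1, u.c, u.A, u.B⟩ t₁ e +
      FF X Y A P ⟨b + 1, u.c, u.A, u.B⟩ t₀ e

/-- **energy of the ties of the P-chain** of a node, columns `≥ P` -/
noncomputable def HH (X : Ctx N γ p0 P₀) (Y : Finset (ℕ × ℕ × Finset ℕ)) (A : Finset X.c.Lam)
    (P : ℕ) : NS → IT → ℝ
  | _, .leaf _ => 0
  | u, .br p _ t₁ t₀ => (if P ≤ p then PNe X Y A u p t₁ t₀ else 0) +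
      HH X Y A P ⟨p, u.c / (1 - 1 / (p : ℝ)), u.A * p, u.B⟩ t₁
  | u, .add b t₁ t₀ => HH X Y A P ⟨b + 1, u.c, u.A, u.B⟩ t₁ +
      HH X Y A P ⟨b + 1, u.c, u.A, u.B⟩ t₀
  | u, .up b _ t => HH X Y A P ⟨b, u.c, u.A, u.B⟩ t
  | u, .pl b t => HH X Y A P ⟨b + 1, u.c, u.A * b, u.B⟩ t
  | u, .far b t₁ t₀ => HH X Y A P ⟨b + 1, u.c, u.A, u.B⟩ t₁ +
      HH X Y A P ⟨b + 1, u.c, u.A, u.B⟩ t₀

lemma pF_ne {e : ℕ × ℕ} (h : pF X Y A u p t₁ t₀ e ≠ 0) :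
    e.1 ∈ t₁.items ∧ e.2 ∈ t₀.items ∧
      e ∈ (X.c.D.par Y).PE (PNr X Y p t₁ t₀) (UP X Y u p t₁ A) (UN X Y u p t₀ A) := by
  have h1 : (X.c.D.par Y).iF (PNr X Y p t₁ t₀) (UP X Y u p t₁ A) (UN X Y u p t₀ A) e ≠ 0 :=
    right_ne_zero_of_mul h
  have h2 := iF_ne h1
  obtain ⟨j, j', h3, h4, h5, h6⟩ := Par.mem_PE.1 h2
  rw [mem_PNr] at h3
  have h5' : j.1.1 = e.1 := h5
  have h6' : j'.1.1 = e.2 := h6
  exact ⟨h5' ▸ h3.2.1, h6' ▸ h3.2.2, h2⟩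

lemma pF_nonneg (F : TF X u p t₁ t₀) (e : ℕ × ℕ) : 0 ≤ pF X Y A u p t₁ t₀ e := by
  unfold pF
  refine mul_nonneg (by positivity) (Par.iF_nonneg _ _ (fun j y => F.UP_nonneg j y)
    (fun j y => F.UN_nonneg j y) e)

/-- support of `FF` -/
lemma FF_supp : ∀ (τ : IT) (u : NS) (e : ℕ × ℕ), FF X Y A P u τ e ≠ 0 →
    e.1 ∈ τ.items ∧ e.2 ∈ τ.items := by
  intro τ
  induction τ with
  | leaf S => intro u e h; exact absurd rfl h
  | br p Sp t₁ t₀ ih₁ ih₀ =>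
    intro u e h
    by_cases h1 : FF X Y A P ⟨p, u.c / (1 - 1 / (p : ℝ)), u.A * p, u.B⟩ t₁ e = 0
    · have h2 : (if P ≤ p then pF X Y A u p t₁ t₀ e else 0) ≠ 0 := by
        intro h3
        apply h
        show (if P ≤ p then pF X Y A u p t₁ t₀ e else 0) + _ = 0
        rw [h3, h1, add_zero]
      split_ifs at h2 with h3
      · obtain ⟨g1, g2, -⟩ := pF_ne h2
        exact ⟨Finset.mem_union_left _ g1, Finset.mem_union_right _ g2⟩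
      · exact absurd rfl h2
    · obtain ⟨g1, g2⟩ := ih₁ _ e h1
      exact ⟨Finset.mem_union_left _ g1, Finset.mem_union_left _ g2⟩
  | add b t₁ t₀ ih₁ ih₀ =>
    intro u e h
    by_cases h1 : FF X Y A P ⟨b + 1, u.c, u.A, u.B⟩ t₁ e = 0
    · have h2 : FF X Y A P ⟨b + 1, u.c, u.A, u.B⟩ t₀ e ≠ 0 := by
        intro h3
        apply h
        show FF X Y A P ⟨b + 1, u.c, u.A, u.B⟩ t₁ e + FF X Y A P ⟨b + 1, u.c, u.A, u.B⟩ t₀ e = 0
        rw [h3, h1, add_zero]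
      obtain ⟨g1, g2⟩ := ih₀ _ e h2
      exact ⟨Finset.mem_union_right _ g1, Finset.mem_union_right _ g2⟩
    · obtain ⟨g1, g2⟩ := ih₁ _ e h1
      exact ⟨Finset.mem_union_left _ g1, Finset.mem_union_left _ g2⟩
  | up b Sp t ih => intro u e h; exact ih _ e h
  | pl b t ih => intro u e h; exact ih _ e h
  | far b t₁ t₀ ih₁ ih₀ =>
    intro u e h
    by_cases h1 : FF X Y A P ⟨b + 1, u.c, u.A, u.B⟩ t₁ e = 0
    · have h2 : FF X Y A P ⟨b + 1, u.c, u.A, u.B⟩ t₀ e ≠ 0 := by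
        intro h3
        apply h
        show FF X Y A P ⟨b + 1, u.c, u.A, u.B⟩ t₁ e + FF X Y A P ⟨b + 1, u.c, u.A, u.B⟩ t₀ e = 0
        rw [h3, h1, add_zero]
      obtain ⟨g1, g2⟩ := ih₀ _ e h2
      exact ⟨Finset.mem_union_right _ g1, Finset.mem_union_right _ g2⟩
    · obtain ⟨g1, g2⟩ := ih₁ _ e h1
      exact ⟨Finset.mem_union_left _ g1, Finset.mem_union_left _ g2⟩

/-- the node of a value of `FF` -/
structure SN (X : Ctx N γ p0 P₀) (Y : Finset (ℕ × ℕ × Finset ℕ)) (A : Finset X.c.Lam) (P : ℕ)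
    (u : NS) (τ : IT) (e : ℕ × ℕ) (u' : NS) (p : ℕ) (Sp : Finset ℕ) (t₁ t₀ : IT) : Prop where
  nf : NF X u' (.br p Sp t₁ t₀)
  hB : u'.B = u.B
  hP : P ≤ p
  htp : p ≤ WalkIT579.tp τ
  sub : (IT.br p Sp t₁ t₀).items ⊆ τ.items
  e1 : e.1 ∈ t₁.items
  e2 : e.2 ∈ t₀.items
  pe : e ∈ (X.c.D.par Y).PE (PNr X Y p t₁ t₀) (UP X Y u' p t₁ A) (UN X Y u' p t₀ A)
  eq : FF X Y A P u τ e = pF X Y A u' p t₁ t₀ e

lemma tp_le {n : ℕ} {τ : IT} (hO : τ.Ok n) {S : ℕ} (hS : 0 < n) : tp τ < n := by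
  cases τ with
  | leaf S => exact hS
  | br p Sp t₁ t₀ => exact hO.2.1
  | add b t₁ t₀ => exact hO.2.1
  | up b Sp t => exact hO.2.1
  | pl b t => exact hO.2.1
  | far b t₁ t₀ => exact hO.2.1

/-- **the node of a value of `FF`** -/
theorem FF_spec : ∀ (τ : IT) (u : NS), All (NF X) u τ → ∀ e : ℕ × ℕ, FF X Y A P u τ e ≠ 0 →
    ∃ (u' : NS) (p : ℕ) (Sp : Finset ℕ) (t₁ t₀ : IT), SN X Y A P u τ e u' p Sp t₁ t₀ := by
  intro τ
  induction τ with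
  | leaf S => intro u h e h0; exact absurd rfl h0
  | br p Sp t₁ t₀ ih₁ ih₀ =>
    intro u h e h0
    have hO := h.1.nd.self.ok
    have F := tF h.1.nd
    by_cases h1 : FF X Y A P ⟨p, u.c / (1 - 1 / (p : ℝ)), u.A * p, u.B⟩ t₁ e = 0
    · have h2 : (if P ≤ p then pF X Y A u p t₁ t₀ e else 0) ≠ 0 := by
        intro h3
        apply h0
        show (if P ≤ p then pF X Y A u p t₁ t₀ e else 0) + _ = 0
        rw [h3, h1, add_zero]
      split_ifs at h2 with h3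
      · obtain ⟨g1, g2, g3⟩ := pF_ne h2
        refine ⟨u, p, Sp, t₁, t₀, h.1, rfl, h3, le_rfl, Finset.Subset.refl _, g1, g2, g3, ?_⟩
        show (if P ≤ p then pF X Y A u p t₁ t₀ e else 0) + _ = _
        rw [if_pos h3, h1, add_zero]
      · exact absurd rfl h2
    · obtain ⟨u', p', Sp', s₁, s₀, S⟩ := ih₁ _ h.2.1 e h1
      obtain ⟨m1, m2⟩ := FF_supp t₁ _ e h1
      refine ⟨u', p', Sp', s₁, s₀, S.nf, S.hB, S.hP, ?_, ?_, S.e1, S.e2, S.pe, ?_⟩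
      · have := tp_le hO.2.2.2.2.1 (S := 0) F.pr.pos
        exact S.htp.trans this.le
      · exact S.sub.trans (Finset.subset_union_left)
      · have h3 : (if P ≤ p then pF X Y A u p t₁ t₀ e else 0) = 0 := by
          split_ifs with h4
          · by_contra h5
            obtain ⟨-, g2, -⟩ := pF_ne h5
            exact Finset.disjoint_left.1 F.ds m2 g2
          · rfl
        show (if P ≤ p then pF X Y A u p t₁ t₀ e else 0) + _ = _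
        rw [h3, zero_add]
        exact S.eq
  | add b t₁ t₀ ih₁ ih₀ =>
    intro u h e h0
    have hO := h.1.nd.self.ok
    have hds : Disjoint t₁.items t₀.items := hO.2.2.1
    by_cases h1 : FF X Y A P ⟨b + 1, u.c, u.A, u.B⟩ t₁ e = 0
    · have h2 : FF X Y A P ⟨b + 1, u.c, u.A, u.B⟩ t₀ e ≠ 0 := by
        intro h3
        apply h0
        show FF X Y A P ⟨b + 1, u.c, u.A, u.B⟩ t₁ e + FF X Y A P ⟨b + 1, u.c, u.A, u.B⟩ t₀ e = 0
        rw [h3, h1, add_zero]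
      obtain ⟨u', p', Sp', s₁, s₀, S⟩ := ih₀ _ h.2.2 e h2
      refine ⟨u', p', Sp', s₁, s₀, S.nf, S.hB, S.hP, ?_, S.sub.trans (Finset.subset_union_right),
        S.e1, S.e2, S.pe, ?_⟩
      · have := tp_le hO.2.2.2.2 (S := 0) (Nat.succ_pos b)
        exact S.htp.trans (Nat.lt_succ_iff.1 this)
      · show FF X Y A P ⟨b + 1, u.c, u.A, u.B⟩ t₁ e + FF X Y A P ⟨b + 1, u.c, u.A, u.B⟩ t₀ e = _
        rw [h1, zero_add]
        exact S.eq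
    · obtain ⟨u', p', Sp', s₁, s₀, S⟩ := ih₁ _ h.2.1 e h1
      obtain ⟨m1, m2⟩ := FF_supp t₁ _ e h1
      refine ⟨u', p', Sp', s₁, s₀, S.nf, S.hB, S.hP, ?_, S.sub.trans (Finset.subset_union_left),
        S.e1, S.e2, S.pe, ?_⟩
      · have := tp_le hO.2.2.2.1 (S := 0) (Nat.succ_pos b)
        exact S.htp.trans (Nat.lt_succ_iff.1 this)
      · have h3 : FF X Y A P ⟨b + 1, u.c, u.A, u.B⟩ t₀ e = 0 := by
          by_contra h5
          obtain ⟨g1, -⟩ := FF_supp t₀ _ e h5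
          exact Finset.disjoint_left.1 hds m1 g1
        show FF X Y A P ⟨b + 1, u.c, u.A, u.B⟩ t₁ e + FF X Y A P ⟨b + 1, u.c, u.A, u.B⟩ t₀ e = _
        rw [h3, add_zero]
        exact S.eq
  | up b Sp t ih =>
    intro u h e h0
    have hO := h.1.nd.self.ok
    obtain ⟨u', p', Sp', s₁, s₀, S⟩ := ih _ h.2 e h0
    refine ⟨u', p', Sp', s₁, s₀, S.nf, S.hB, S.hP, ?_, S.sub, S.e1, S.e2, S.pe, S.eq⟩
    have := tp_le hO.2.2.2 (S := 0) hO.1.pos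
    exact S.htp.trans this.le
  | pl b t ih =>
    intro u h e h0
    have hO := h.1.nd.self.ok
    obtain ⟨u', p', Sp', s₁, s₀, S⟩ := ih _ h.2 e h0
    refine ⟨u', p', Sp', s₁, s₀, S.nf, S.hB, S.hP, ?_, S.sub, S.e1, S.e2, S.pe, S.eq⟩
    have := tp_le hO.2.2 (S := 0) (Nat.succ_pos b)
    exact S.htp.trans (Nat.lt_succ_iff.1 this)
  | far b t₁ t₀ ih₁ ih₀ =>
    intro u h e h0
    have hO := h.1.nd.self.ok
    have hds : Disjoint t₁.items t₀.items := hO.2.2.1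
    by_cases h1 : FF X Y A P ⟨b + 1, u.c, u.A, u.B⟩ t₁ e = 0
    · have h2 : FF X Y A P ⟨b + 1, u.c, u.A, u.B⟩ t₀ e ≠ 0 := by
        intro h3
        apply h0
        show FF X Y A P ⟨b + 1, u.c, u.A, u.B⟩ t₁ e + FF X Y A P ⟨b + 1, u.c, u.A, u.B⟩ t₀ e = 0
        rw [h3, h1, add_zero]
      obtain ⟨u', p', Sp', s₁, s₀, S⟩ := ih₀ _ h.2.2 e h2
      refine ⟨u', p', Sp', s₁, s₀, S.nf, S.hB, S.hP, ?_, S.sub.trans (Finset.subset_union_right),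
        S.e1, S.e2, S.pe, ?_⟩
      · have := tp_le hO.2.2.2.2 (S := 0) (Nat.succ_pos b)
        exact S.htp.trans (Nat.lt_succ_iff.1 this)
      · show FF X Y A P ⟨b + 1, u.c, u.A, u.B⟩ t₁ e + FF X Y A P ⟨b + 1, u.c, u.A, u.B⟩ t₀ e = _
        rw [h1, zero_add]
        exact S.eq
    · obtain ⟨u', p', Sp', s₁, s₀, S⟩ := ih₁ _ h.2.1 e h1
      obtain ⟨m1, m2⟩ := FF_supp t₁ _ e h1
      refine ⟨u', p', Sp', s₁, s₀, S.nf, S.hB, S.hP, ?_, S.sub.trans (Finset.subset_union_left),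
        S.e1, S.e2, S.pe, ?_⟩
      · have := tp_le hO.2.2.2.1 (S := 0) (Nat.succ_pos b)
        exact S.htp.trans (Nat.lt_succ_iff.1 this)
      · have h3 : FF X Y A P ⟨b + 1, u.c, u.A, u.B⟩ t₀ e = 0 := by
          by_contra h5
          obtain ⟨g1, -⟩ := FF_supp t₀ _ e h5
          exact Finset.disjoint_left.1 hds m1 g1
        show FF X Y A P ⟨b + 1, u.c, u.A, u.B⟩ t₁ e + FF X Y A P ⟨b + 1, u.c, u.A, u.B⟩ t₀ e = _
        rw [h3, add_zero]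
        exact S.eq

/-- **the energy of the P-chain is the sum over the pairs of items** -/
theorem HH_eq : ∀ (τ : IT) (u : NS) (E : Finset (ℕ × ℕ)), τ.items ×ˢ τ.items ⊆ E →
    HH X Y A P u τ = ∑ e ∈ E, FF X Y A P u τ e := by
  intro τ
  induction τ with
  | leaf S => intro u E hE; exact (Finset.sum_const_zero).symm
  | br p Sp t₁ t₀ ih₁ ih₀ =>
    intro u E hE
    have hE1 : t₁.items ×ˢ t₁.items ⊆ E := (Finset.product_subset_product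
      Finset.subset_union_left Finset.subset_union_left).trans hE
    show (if P ≤ p then PNe X Y A u p t₁ t₀ else 0) + HH X Y A P _ t₁ =
      ∑ e ∈ E, ((if P ≤ p then pF X Y A u p t₁ t₀ e else 0) + FF X Y A P _ t₁ e)
    rw [Finset.sum_add_distrib, ih₁ _ E hE1]
    congr 1
    split_ifs with h
    · unfold PNe pF
      rw [← Finset.mul_sum]
      congr 1
      refine Q_eq_sum _ _ _ _ fun e he => ?_
      obtain ⟨j, j', h3, h4, h5, h6⟩ := Par.mem_PE.1 he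
      rw [mem_PNr] at h3
      have h5' : j.1.1 = e.1 := h5
      have h6' : j'.1.1 = e.2 := h6
      exact hE (Finset.mem_product.2 ⟨Finset.mem_union_left _ (h5' ▸ h3.2.1),
        Finset.mem_union_right _ (h6' ▸ h3.2.2)⟩)
    · rw [Finset.sum_const_zero]
  | add b t₁ t₀ ih₁ ih₀ =>
    intro u E hE
    have hE1 : t₁.items ×ˢ t₁.items ⊆ E := (Finset.product_subset_product
      Finset.subset_union_left Finset.subset_union_left).trans hE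
    have hE0 : t₀.items ×ˢ t₀.items ⊆ E := (Finset.product_subset_product
      Finset.subset_union_right Finset.subset_union_right).trans hE
    show HH X Y A P _ t₁ + HH X Y A P _ t₀ = ∑ e ∈ E, (FF X Y A P _ t₁ e + FF X Y A P _ t₀ e)
    rw [Finset.sum_add_distrib, ih₁ _ E hE1, ih₀ _ E hE0]
  | up b Sp t ih => intro u E hE; exact ih _ E hE
  | pl b t ih => intro u E hE; exact ih _ E hE
  | far b t₁ t₀ ih₁ ih₀ =>
    intro u E hE
    have hE1 : t₁.items ×ˢ t₁.items ⊆ E := (Finset.product_subset_product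
      Finset.subset_union_left Finset.subset_union_left).trans hE
    have hE0 : t₀.items ×ˢ t₀.items ⊆ E := (Finset.product_subset_product
      Finset.subset_union_right Finset.subset_union_right).trans hE
    show HH X Y A P _ t₁ + HH X Y A P _ t₀ = ∑ e ∈ E, (FF X Y A P _ t₁ e + FF X Y A P _ t₀ e)
    rw [Finset.sum_add_distrib, ih₁ _ E hE1, ih₀ _ E hE0]

end ctx

/-! ### the labels of a chain -/

/-- **labels of one stage, all the columns of a block**: the label of the stage, or one common label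
for the fat items -/
theorem lab_chain {thr : ℕ → ℝ} {γ : ℝ} {B : ℕ} (hsq : Squarefree B) {K θ₀ : ℝ} {P : ℕ} (hP : 0 < P)
    (hs : ∀ s ∈ LB B, s.Prime ∧ P < s) (hK : ∀ s ∈ LB B, K ≤ s * thr s) (hθ : 0 < θ₀)
    (hK4 : 32 * K ^ 4 < (P:ℝ) ^ 2 * θ₀ ^ 2) :
    ∃ Λf : Finset ℚ, Λf.card ≤ 1 ∧ ∀ (p' : ℕ) (r : ℝ) (σ : ℚ), θ₀ ≤ thr p' → (B:ℝ) * r ≤ K →
      sta thr γ r (LB B) p' = some σ →
      lab0 γ r B = some σ ∨ (((B:ℚ) * σ) ∈ Λf ∧ thr p' < B * r) := by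
  classical
  have hprod := LB_prod hsq
  have hB0 : 0 < B := Nat.pos_of_ne_zero hsq.ne_zero
  cases hL : LB B with
  | nil =>
    refine ⟨∅, by simp, fun p' r σ _ _ h => Or.inl ?_⟩
    have hB1 : B = 1 := by rw [← hprod, hL]; rfl
    rw [hB1]
    exact h
  | cons s L' =>
    obtain ⟨hsp, hPs⟩ := hs s (by rw [hL]; exact List.mem_cons_self)
    have hBs : s * L'.prod = B := by rw [← hprod, hL, List.prod_cons]
    have hL0 : 0 < L'.prod := by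
      rcases Nat.eq_zero_or_pos L'.prod with h0 | h0
      · rw [h0, mul_zero] at hBs; omega
      · exact h0
    have hKs := hK s (by rw [hL]; exact List.mem_cons_self)
    have hs0 : (0:ℝ) < s := by exact_mod_cast hsp.pos
    have hb0 : (0:ℝ) < L'.prod := by exact_mod_cast hL0
    have hP0 : (0:ℝ) < P := by exact_mod_cast hP
    have hPsR : (P:ℝ) ≤ s := by exact_mod_cast hPs.le
    have hc : (B : ℝ) = (s:ℝ) * (L'.prod : ℕ) := by rw [← hBs, Nat.cast_mul]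
    -- the two cases
    have key : ∀ (p' : ℕ) (r : ℝ) (σ : ℚ), (B:ℝ) * r ≤ K → sta thr γ r (s :: L') p' = some σ →
        lab0 γ r B = some σ ∨
        (thr p' < B * r ∧ Lab ((L'.prod : ℕ) * γ) ((L'.prod : ℕ) * r) ((L'.prod : ℕ) * σ)) := by
      intro p' r σ hKq hσ
      unfold Crest.Agent.R4.W363.sta at hσ
      split_ifs at hσ with hth
      · left
        rwa [hBs] at hσ
      · right
        rw [hBs] at hth
        refine ⟨not_le.1 hth, ?_⟩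
        have hthin : (L'.prod : ℝ) * r ≤ thr s := by
          have h1 := hKq.trans hKs
          rw [hc, mul_assoc] at h1
          exact le_of_mul_le_mul_left h1 hs0
        rw [sta_thin hthin] at hσ
        exact lab0_spec hL0 hσ
    by_cases hex : ∃ (p' : ℕ) (r : ℝ) (σ : ℚ), θ₀ ≤ thr p' ∧ (B:ℝ) * r ≤ K ∧
        (thr p' < B * r ∧ Lab ((L'.prod : ℕ) * γ) ((L'.prod : ℕ) * r) ((L'.prod : ℕ) * σ))
    · obtain ⟨p₀, r₀, σ₀, hθ₀, hK₀, hf₀, hL₀⟩ := hex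
      refine ⟨{(B:ℚ) * σ₀}, by simp, fun p' r σ hθ' hKq hσ => ?_⟩
      rcases key p' r σ hKq hσ with h1 | ⟨hf, hLb⟩
      · exact Or.inl h1
      · right
        refine ⟨?_, hf⟩
        rw [Finset.mem_singleton]
        have f1 : θ₀ / s ≤ (L'.prod : ℕ) * r := by
          rw [div_le_iff₀ hs0]
          have := hθ'.trans hf.le
          rw [hc] at this; nlinarith
        have f2 : θ₀ / s ≤ (L'.prod : ℕ) * r₀ := by
          rw [div_le_iff₀ hs0]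
          have := hθ₀.trans hf₀.le
          rw [hc] at this; nlinarith
        have f3 : ((L'.prod : ℕ):ℝ) * r ≤ K / s := by
          rw [le_div_iff₀ hs0]; rw [hc] at hKq; nlinarith
        have f4 : ((L'.prod : ℕ):ℝ) * r₀ ≤ K / s := by
          rw [le_div_iff₀ hs0]; rw [hc] at hK₀; nlinarith
        have f5 : 32 * (K / s) ^ 4 < (θ₀ / s) ^ 2 := by
          rw [div_pow, div_pow, mul_div_assoc', div_lt_div_iff₀ (by positivity) (by positivity)]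
          have g1 : (P : ℝ) ^ 2 ≤ s ^ 2 := pow_le_pow_left₀ hP0.le hPsR 2
          have g2 : (P : ℝ) ^ 2 * θ₀ ^ 2 ≤ s ^ 2 * θ₀ ^ 2 :=
            mul_le_mul_of_nonneg_right g1 (sq_nonneg _)
          have g3 : 32 * K ^ 4 < s ^ 2 * θ₀ ^ 2 := hK4.trans_le g2
          calc 32 * K ^ 4 * (s:ℝ) ^ 2 < (s ^ 2 * θ₀ ^ 2) * s ^ 2 :=
                mul_lt_mul_of_pos_right g3 (by positivity)
            _ = θ₀ ^ 2 * (s:ℝ) ^ 4 := by ring
        have he := lab_unique_of hLb hL₀ (div_pos hθ hs0) f1 f2 f3 f4 f5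
        have hb0q : ((L'.prod : ℕ) : ℚ) ≠ 0 := by exact_mod_cast hL0.ne'
        have : σ = σ₀ := mul_left_cancel₀ hb0q he
        rw [this]
    · refine ⟨∅, by simp, fun p' r σ hθ' hKq hσ => ?_⟩
      rcases key p' r σ hKq hσ with h1 | h1
      · exact Or.inl h1
      · exact absurd ⟨p', r, σ, hθ', hKq, h1⟩ hex

/-! ### numbers -/

lemma num_P (c : ℝ) : ∃ p₁ : ℕ, ∀ P : ℕ, p₁ ≤ P → 16 ≤ P ∧ 5 ≤ Real.log P ∧
    Real.exp (Real.log P ^ (4/5:ℝ)) ≤ (P:ℝ) ^ (1/4:ℝ) ∧ 64 * ((2 * Real.log P) ^ c) ^ 4 < P ∧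
    (2 * Real.log P) ^ c ≤ (P:ℝ) ^ (1/2:ℝ) := by
  have e1 := ((isLittleO_log_rpow_rpow_atTop (4 * c) (show (0:ℝ) < 1 by norm_num)).bound
    (show (0:ℝ) < 1/(128 * (2:ℝ)^(4*c)) by positivity))
  have e2 := ((isLittleO_log_rpow_rpow_atTop c (show (0:ℝ) < 1/2 by norm_num)).bound
    (show (0:ℝ) < 1/(2:ℝ)^c by positivity))
  obtain ⟨x₀, hx⟩ := eventually_atTop.1 (e1.and e2)
  refine ⟨⌈x₀⌉₊ + ⌈Real.exp 1024⌉₊ + 16, fun p hp => ?_⟩
  have hpx : x₀ ≤ p := (Nat.le_ceil x₀).trans (by exact_mod_cast (by omega : ⌈x₀⌉₊ ≤ p))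
  have hpe : Real.exp 1024 ≤ p :=
    (Nat.le_ceil _).trans (by exact_mod_cast (by omega : ⌈Real.exp 1024⌉₊ ≤ p))
  have hp0 : (0:ℝ) < p := (Real.exp_pos _).trans_le hpe
  have hL : (1024:ℝ) ≤ Real.log p := by rwa [Real.le_log_iff_exp_le hp0]
  have hL0 : 0 < Real.log p := by linarith
  obtain ⟨g1, g2⟩ := hx p hpx
  rw [Real.norm_of_nonneg (Real.rpow_nonneg hL0.le _),
    Real.norm_of_nonneg (Real.rpow_nonneg hp0.le _)] at g1 g2
  have hm : (2 * Real.log p) ^ c = (2:ℝ)^c * Real.log p ^ c :=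
    Real.mul_rpow (by norm_num) hL0.le
  refine ⟨by omega, by linarith, ?_, ?_, ?_⟩
  · rw [Real.rpow_def_of_pos hp0]
    refine Real.exp_le_exp.2 ?_
    have h1 : Real.log p ^ (4/5:ℝ) = Real.log p * Real.log p ^ (-(1/5):ℝ) := by
      conv_rhs => rw [← Real.rpow_one (Real.log (p:ℝ)), ← Real.rpow_mul hL0.le,
        ← Real.rpow_add hL0]
      norm_num
    rw [h1]
    refine mul_le_mul_of_nonneg_left ?_ hL0.le
    have h2 : Real.log p ^ (-(1/5):ℝ) ≤ (1024:ℝ) ^ (-(1/5):ℝ) :=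
      Real.rpow_le_rpow_of_nonpos (by norm_num) hL (by norm_num)
    refine h2.trans (le_of_eq ?_)
    rw [show (1024:ℝ) = 4 ^ (5:ℝ) by norm_num, ← Real.rpow_mul (by norm_num)]
    norm_num
  · rw [hm, mul_pow]
    have h4 : (Real.log p ^ c) ^ 4 = Real.log p ^ (4 * c) := by
      rw [← Real.rpow_natCast, ← Real.rpow_mul hL0.le]
      congr 1
      push_cast; ring
    have h5 : ((2:ℝ) ^ c) ^ 4 = (2:ℝ) ^ (4 * c) := by
      rw [← Real.rpow_natCast, ← Real.rpow_mul (by norm_num)]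
      congr 1
      push_cast; ring
    rw [Real.rpow_one] at g1
    rw [h4, h5]
    have h6 : (0:ℝ) < (2:ℝ)^(4*c) := by positivity
    calc 64 * ((2:ℝ)^(4*c) * Real.log p ^ (4*c))
        ≤ 64 * ((2:ℝ)^(4*c) * (1/(128 * (2:ℝ)^(4*c)) * p)) := by gcongr
      _ = p / 2 := by field_simp; norm_num
      _ < p := by linarith
  · rw [hm]
    have h6 : (0:ℝ) < (2:ℝ)^c := by positivity
    calc (2:ℝ)^c * Real.log p ^ c ≤ (2:ℝ)^c * (1/(2:ℝ)^c * (p:ℝ)^(1/2:ℝ)) := by gcongr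
      _ = (p:ℝ)^(1/2:ℝ) := by field_simp

lemma num_c (c : ℝ) (hc : 0 ≤ c) : ∃ p₁ : ℕ, ∀ P : ℕ, p₁ ≤ P →
    (2 * Real.log P) ^ c ≤ Real.log P ^ (c + 1) := by
  obtain ⟨p₁, h⟩ := Crest.Agent.R4.RseN207.log_large ((2:ℝ)^c + 1)
  refine ⟨p₁, fun P hP => ?_⟩
  have h1 := h P hP
  have h2 : (0:ℝ) ≤ (2:ℝ)^c := by positivity
  have h0 : 0 < Real.log (P:ℝ) := by linarith
  rw [Real.mul_rpow (by norm_num) h0.le, Real.rpow_add h0, Real.rpow_one, mul_comm]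
  exact mul_le_mul_of_nonneg_left (by linarith) (Real.rpow_nonneg h0.le _)

lemma log_two_mul {P p' : ℕ} (h : 2 ≤ P) (hp : p' < 2 * P) (h0 : 0 < p') :
    Real.log p' ≤ 2 * Real.log P := by
  have h2 : (2:ℝ) ≤ P := by exact_mod_cast h
  have h3 : (p' : ℝ) ≤ 2 * P := by exact_mod_cast hp.le
  have h5 : (p' : ℝ) ≤ (P : ℝ) ^ 2 := by nlinarith
  have h6 : (0 : ℝ) < (p' : ℝ) := by exact_mod_cast h0
  have h7 := Real.log_le_log h6 h5
  rw [Real.log_pow] at h7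
  exact_mod_cast h7

end Crest.Agent.R4P.RtC28
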