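import Crest.Agent.R4P.StM_6

/-!
R4 (S0004) with powers, [B8], helper6: **state machine of a piece**, part 2: the game label of the items of
a configuration (`Cf` level) and of the nodes of the walk tree.

* `not_own'`, `asleep_ten` : the causes of a death with the size `R > 1/10` (fat pieces can be large).
* `gls c p q` : the game label of the item `q` at the column `p`.
* `st_cases`  : the real state = own-radius label, or kept, or (births not anticipated) `none`.
* `ne_cases`  : when the game label differs from the real state.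
* `static_exact` : **same stage, lower column**: the game label changes only from a kept dense label `κ`:
  (DEN) `k^5 R > 1`, at `P*_k` (dense at `p`, sparse at `p'`), or
  (ACC) `k^5 R ≤ 1`, at the crossing `thr p < R ≤ thr p'`, `κ` dead by accuracy, the new game label is
  the own-radius label (or none).
* `miss_exact` : own missing tie.
* node versions `node_static`, `node_miss`, leaf version `lf_cases`.
-/

set_option autoImplicit false
set_option linter.unusedSectionVars false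
set_option linter.unusedVariables false

namespace Crest.Agent.R4P.StN6

open Crest.Agent.R4P.Cnt588 Crest.Agent.R4P.Item758 Crest.Agent.R4P.W363
open Crest.Agent.R4P.Data758 Crest.Agent.R4P.OmSt532 Crest.Agent.R4P.OmData532
open Crest.Agent.R4P.LfDat734 Crest.Agent.R4P.WPex189
open Crest.Agent.R4P.Bld532 (NS All NodeOk Bk)
open Crest.Agent.R4P.Step588 (NDt ND1 ctx_NDt uq_lt)
open Crest.Agent.R4P.WalkIT579 (tp isL nodeOk_hi top_of_nodeOk)
open Crest.Agent.R4P.Skel189 Crest.Agent.R4P.RseSt23 Crest.Agent.R4P.StB21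
open Crest.Agent.R4P.Link758 (Bl)
open Crest.Agent.R4.Soft104 (w)
open Crest.Agent.R4.LF363 (Lab)
open Crest.Agent.R4P.StCh24 (TL Bl_cons fat_some fat_none nil_st TL_node)
open Crest.Agent.R4P.StM6

/-! ### pure complements -/

section pure
variable {γ ψ t t' : ℝ} {b s : ℕ} {σ τ ρ κ : ℚ} {L : List ℕ} {st st' : Option ℚ}

/-- not the own label: dead by the size, the denominator or by accuracy -/
lemma not_own' (hb : 0 < b) (h0 : 0 < ψ) (h : lab0 γ ψ b ≠ some τ) :
    1 / 10 < b * ψ ∨ 1 < d5 b τ * (b * ψ) ∨ ¬ acc γ ψ b τ := by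
  rcases lt_or_ge (1 / 10) ((b : ℝ) * ψ) with h1 | h1
  · exact Or.inl h1
  · exact Or.inr (not_own hb h0 h1 h)

/-- an asleep label: `10 k^5 R > 1` (any size) -/
lemma asleep_ten (hL : 0 < L.prod) (h0 : 0 < ψ) (h : own γ ψ L ≠ some τ) (ha : acc γ ψ L.prod τ) :
    1 < 10 * (d5 L.prod τ * (L.prod * ψ)) := by
  have hL' : (0 : ℝ) < L.prod := by exact_mod_cast hL
  have hR : 0 < (L.prod : ℝ) * ψ := by positivity
  rcases not_own' hL h0 h with h1 | h1 | h1
  · have := mul_le_mul_of_nonneg_right (one_le_d5 L.prod τ) hR.le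
    linarith
  · linarith
  · exact absurd ha h1

/-- the sparse label is the own-radius label, or the piece is asleep, or (real U) `none` -/
lemma sla_cases (γ ψ : ℝ) (L : List ℕ) (hL : 0 < L.prod) :
    (∃ ρ, own γ ψ L = some ρ ∧ sla γ ψ L = some ρ) ∨
      (∃ ρ, own γ ψ L = none ∧ sl γ ψ L = some ρ ∧ acc γ ψ L.prod ρ ∧ sla γ ψ L = some ρ) ∨
      (own γ ψ L = none ∧ sla γ ψ L = none) := by
  cases h : own γ ψ L with
  | some ρ => exact Or.inl ⟨ρ, rfl, sla_of_own hL h⟩
  | none =>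
    cases h1 : sla γ ψ L with
    | some ρ => exact Or.inr (Or.inl ⟨ρ, rfl, (sla_some.1 h1).1, (sla_some.1 h1).2, rfl⟩)
    | none => exact Or.inr (Or.inr ⟨rfl, rfl⟩)

/-- the sparse label is an own-radius label of the present or of an earlier stage: it is accurate -/
lemma sla_acc (h : sla γ ψ L = some τ) : acc γ ψ L.prod τ := (sla_some.1 h).2

/-- the game label of a kept sparse label whose accuracy is dead -/
lemma sla_kept (hs : 0 < s) (hL : 0 < L.prod) (h : own γ ψ L = some κ) :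
    (∃ ρ, own γ ψ (s :: L) = some ρ ∧ sla γ ψ (s :: L) = some ρ) ∨
      (own γ ψ (s :: L) = none ∧ acc γ ψ (s * L.prod) κ ∧ sla γ ψ (s :: L) = some κ) ∨
      (own γ ψ (s :: L) = none ∧ ¬ acc γ ψ (s * L.prod) κ ∧ sla γ ψ (s :: L) = none) := by
  have hsL : 0 < (s :: L).prod := by rw [List.prod_cons]; exact Nat.mul_pos hs hL
  cases h1 : own γ ψ (s :: L) with
  | some ρ => exact Or.inl ⟨ρ, rfl, sla_of_own hsL h1⟩
  | none =>
    have e := sl_of_none h1
    rw [sl_of_own h] at e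
    by_cases ha : acc γ ψ (s * L.prod) κ
    · exact Or.inr (Or.inl ⟨rfl, ha, sla_some.2 ⟨e, by rw [List.prod_cons]; exact ha⟩⟩)
    · refine Or.inr (Or.inr ⟨rfl, ha, sla_none.2 fun τ h2 h3 => ?_⟩)
      rw [e] at h2
      rw [← Option.some.inj h2, List.prod_cons] at h3
      exact ha h3

end pure

section cf
variable {c : Cf} {n p p' q s : ℕ} {κ ρ : ℚ} {L : List ℕ}

/-- the list of the missing ties of the item `q` above the column `p`, most recent first -/
noncomputable abbrev Lq (c : Cf) (p q : ℕ) : List ℕ := lst (c.t.mt q) p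

lemma Lq_prod (c : Cf) (p q : ℕ) : (Lq c p q).prod = Bl c p q := rfl

lemma Lq_prime (hO : c.t.Ok n) (h : s ∈ Lq c p q) : s.Prime :=
  (BldF542.mt_lt c.t n hO q s (Crest.Agent.R4.W363.mem_lst.1 h).1).1

lemma Lq_pos (hO : c.t.Ok n) : 0 < (Lq c p q).prod :=
  List.prod_pos fun s hs => (Lq_prime hO hs).pos

lemma Bl_pos (hO : c.t.Ok n) : 0 < Bl c p q := Lq_pos hO

/-- **the game label** of the item `q` at the column `p` -/
noncomputable def gls (c : Cf) (p q : ℕ) : Option ℚ :=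
  gl (c.st p q) (c.wp.thr p) c.γ (c.r q) (Lq c p q)

/-- the own-radius label at the column `p` -/
noncomputable abbrev ows (c : Cf) (p q : ℕ) : Option ℚ := own c.γ (c.r q) (Lq c p q)

/-- the sparse label at the column `p` -/
noncomputable abbrev sls (c : Cf) (p q : ℕ) : Option ℚ := sla c.γ (c.r q) (Lq c p q)

/-- the label `κ` is dense at the column `p`: `k^5 thr p ≤ 1` -/
abbrev dns (c : Cf) (p q : ℕ) (κ : ℚ) : Prop := dense (c.wp.thr p) (Bl c p q) κ

/-- **the real states**: the own-radius label; or fat and the label of the previous stage is kept;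
or fat, no label to keep and births are not anticipated -/
theorem st_cases (hl : c.lam p = 0) (hT : TL c p q) :
    c.st p q = ows c p q ∨
      (c.wp.thr p < (Bl c p q : ℝ) * c.r q ∧ ∃ s L, Lq c p q = s :: L ∧
        ((∃ κ, own c.γ (c.r q) L = some κ ∧ c.st p q = some κ) ∨
          (own c.γ (c.r q) L = none ∧ ¬ bt c p q ∧ c.st p q = none))) := by
  cases hL : Lq c p q with
  | nil =>
    left
    rw [nil_st hl hL]
    show _ = lab0 c.γ (c.r q) (Lq c p q).prod
    rw [hL, List.prod_nil]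
  | cons s L =>
    rcases lt_or_ge (c.wp.thr p) ((Bl c p q : ℝ) * c.r q) with hf | hf
    · cases hk : lab0 c.γ (c.r q) L.prod with
      | some κ => exact Or.inr ⟨hf, s, L, rfl, Or.inl ⟨κ, hk, fat_some hl hL (hT s L hL) hf hk⟩⟩
      | none =>
        obtain ⟨h1, h2⟩ := fat_none hL (hT s L hL) hf hk
        by_cases hb : bt c p q
        · left
          rw [h1 hb]
          rfl
        · exact Or.inr ⟨hf, s, L, rfl, Or.inr ⟨hk, hb, h2 hb⟩⟩
    · left
      rw [thin hl hf]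
      rfl

/-- thin: the real state is the own-radius label -/
lemma st_thin (hl : c.lam p = 0) (h : (Bl c p q : ℝ) * c.r q ≤ c.wp.thr p) :
    c.st p q = ows c p q := thin hl h

/-- thin: the game label is the sparse label -/
theorem gls_thin (hO : c.t.Ok n) (hl : c.lam p = 0) (h : (Bl c p q : ℝ) * c.r q ≤ c.wp.thr p) :
    gls c p q = sls c p q := gl_own (Lq_pos hO) (st_thin hl h)

/-- a real own-radius label: the game label is the sparse label -/
theorem gls_own (hO : c.t.Ok n) (h : c.st p q = ows c p q) : gls c p q = sls c p q :=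
  gl_own (Lq_pos hO) h

/-- a real label which is the own-radius label is the game label -/
theorem gls_own_some (hO : c.t.Ok n) (h : c.st p q = ows c p q) (h1 : c.st p q = some κ) :
    gls c p q = some κ := gl_own_some (Lq_pos hO) h h1

lemma gls_dense (h : c.st p q = some κ) (hd : dns c p q κ) : gls c p q = some κ :=
  gl_dense h hd

lemma gls_sparse (h : ∀ κ, c.st p q = some κ → ¬ dns c p q κ) : gls c p q = sls c p q :=
  gl_sparse h

lemma gls_none (h : c.st p q = none) : gls c p q = sls c p q :=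
  gls_sparse fun κ h1 => absurd (h.symm.trans h1) (by simp)

/-- **a game label is a dense real label or an accurate sticky label** -/
lemma gls_some (h : gls c p q = some κ) :
    (c.st p q = some κ ∧ dns c p q κ) ∨
      (sl c.γ (c.r q) (Lq c p q) = some κ ∧ acc c.γ (c.r q) (Bl c p q) κ) := gl_some h

/-- **when the game label is not the real state**: a kept sparse label with dead denominator, replaced
by the own-radius label or (accuracy death) by `none`; or no real label, and the game label is the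
own-radius label (birth not anticipated, fat) or an asleep label -/
theorem ne_cases (hO : c.t.Ok n) (hl : c.lam p = 0) (hT : TL c p q) (h0 : 0 < c.r q)
    (h : gls c p q ≠ c.st p q) :
    (∃ s L κ, Lq c p q = s :: L ∧ c.wp.thr p < (Bl c p q : ℝ) * c.r q ∧
        own c.γ (c.r q) L = some κ ∧ c.st p q = some κ ∧ ¬ dns c p q κ ∧
        1 < d5 (Bl c p q) κ * ((Bl c p q : ℝ) * c.r q) ∧ gls c p q = ows c p q ∧
        (c.wp.thr p < (Bl c p q : ℝ) * c.r q) ∧
        (ows c p q = none → ¬ acc c.γ (c.r q) (Bl c p q) κ)) ∨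
      (c.st p q = none ∧ gls c p q = sls c p q ∧ ∃ ρ, gls c p q = some ρ ∧
        ((ows c p q = some ρ ∧ ¬ bt c p q ∧ c.wp.thr p < (Bl c p q : ℝ) * c.r q) ∨
          (ows c p q = none ∧ sl c.γ (c.r q) (Lq c p q) = some ρ ∧
            acc c.γ (c.r q) (Bl c p q) ρ ∧
            1 < 10 * (d5 (Bl c p q) ρ * ((Bl c p q : ℝ) * c.r q))))) := by
  have hLp : 0 < (Lq c p q).prod := Lq_pos hO
  obtain ⟨h1, h2⟩ := gl_ne h
  change gls c p q = sls c p q at h2
  rcases Option.eq_none_or_eq_some (c.st p q) with hst | ⟨κ, hst⟩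
  · right
    refine ⟨hst, h2, ?_⟩
    rcases sla_cases c.γ (c.r q) (Lq c p q) hLp with ⟨ρ, k1, k2⟩ | ⟨ρ, k1, k2, k3, k4⟩ | ⟨k1, k2⟩
    · refine ⟨ρ, by rw [h2]; exact k2, Or.inl ⟨k1, ?_⟩⟩
      rcases st_cases hl hT with h4 | ⟨hf, s, L, hL, ⟨κ', h5, h6⟩ | ⟨-, h6, -⟩⟩
      · exfalso
        rw [hst] at h4
        exact absurd (h4.trans k1) (by simp)
      · rw [hst] at h6
        exact absurd h6 (by simp)
      · exact ⟨h6, hf⟩
    · refine ⟨ρ, by rw [h2]; exact k4, Or.inr ⟨k1, k2, k3, ?_⟩⟩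
      exact asleep_ten hLp h0 (by rw [k1]; simp) k3
    · exfalso
      exact h (by rw [h2, hst]; exact k2)
  · left
    have h3 : ¬ dns c p q κ := h1 κ hst
    rcases st_cases hl hT with h4 | ⟨hf, s, L, hL, ⟨κ', h5, h6⟩ | ⟨-, -, h6⟩⟩
    · exfalso
      refine h ?_
      rw [gls_own_some hO h4 hst, hst]
    · have e : κ' = κ := Option.some.inj (by rw [← h6, hst])
      subst e
      have hs : 0 < s := (Lq_prime (c := c) (p := p) (q := q) hO (by rw [hL]; simp)).pos
      have hLL : 0 < L.prod := by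
        rw [hL, List.prod_cons] at hLp
        exact Nat.pos_of_mul_pos_left hLp
      have hdead := kept_dead (γ := c.γ) (ψ := c.r q) hLp hf h3
      have hB : Bl c p q = s * L.prod := Bl_cons hL
      have key := sla_kept (γ := c.γ) (ψ := c.r q) hs hLL h5
      rw [← hL] at key
      refine ⟨s, L, κ', hL, hf, h5, hst, h3, hdead.1, ?_, hf, ?_⟩
      · rcases key with ⟨ρ, k1, k2⟩ | ⟨k1, k2, k3⟩ | ⟨k1, k2, k3⟩
        · rw [h2]; exact k2.trans k1.symm
        · exfalso
          exact h (by rw [h2, hst]; exact k3)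
        · rw [h2]; exact k3.trans k1.symm
      · intro k0
        rcases key with ⟨ρ, k1, k2⟩ | ⟨k1, k2, k3⟩ | ⟨k1, k2, k3⟩
        · exact absurd (k0.symm.trans k1) (by simp)
        · exfalso
          exact h (by rw [h2, hst]; exact k3)
        · rw [hB]; exact k2
    · rw [hst] at h6
      exact absurd h6 (by simp)

/-! ### same stage, lower column -/

lemma Lq_same (hp : p' ≤ p) (hm : ∀ l ∈ c.t.mt q, p' < l → p < l) : Lq c p' q = Lq c p q :=
  IxRange34.lst_congr hp hm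

lemma Bl_same (hp : p' ≤ p) (hm : ∀ l ∈ c.t.mt q, p' < l → p < l) : Bl c p' q = Bl c p q := by
  unfold Bl; rw [IxRange34.lst_congr hp hm]

/-- the real state at a lower column of the same stage: the same, or the own-radius label -/
lemma st_same (hO : c.t.Ok n) (hl : c.lam p = 0) (hl' : c.lam p' = 0) (hp : p' ≤ p)
    (hm : ∀ l ∈ c.t.mt q, p' < l → p < l) (hthr : c.wp.thr p ≤ c.wp.thr p')
    (hL' : c.wp.thr p' ≤ c.wpL.thr (c.lv q)) (hT : TL c p q) :
    c.st p' q = c.st p q ∨ (c.st p' q = ows c p q ∧ c.wp.thr p < (Bl c p q : ℝ) * c.r q ∧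
      (Bl c p q : ℝ) * c.r q ≤ c.wp.thr p') := by
  by_cases h : c.st p' q = c.st p q
  · exact Or.inl h
  · obtain ⟨s, L, κ, -, h2, h3, h4, -⟩ := StCh24.same_change hO hl hl' hp hm hthr hL' hT h
    exact Or.inr ⟨h4, h2, h3⟩

/-- **same stage, lower column**: the changes of the game label -/
theorem static_exact (hO : c.t.Ok n) (hl : c.lam p = 0) (hl' : c.lam p' = 0) (hp : p' ≤ p)
    (hm : ∀ l ∈ c.t.mt q, p' < l → p < l) (hthr : c.wp.thr p ≤ c.wp.thr p')
    (hL' : c.wp.thr p' ≤ c.wpL.thr (c.lv q)) (hT : TL c p q) (h0 : 0 < c.r q)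
    (h10 : c.wp.thr p' ≤ 1 / 10) (hne : gls c p' q ≠ gls c p q) :
    ∃ s L κ, Lq c p q = s :: L ∧ c.wp.thr p < (Bl c p q : ℝ) * c.r q ∧ c.st p q = some κ ∧
      own c.γ (c.r q) L = some κ ∧ ows c p q ≠ some κ ∧ dns c p q κ ∧ gls c p q = some κ ∧
      gls c p' q = sls c p q ∧
      ((1 < d5 (Bl c p q) κ * ((Bl c p q : ℝ) * c.r q) ∧ ¬ dense (c.wp.thr p') (Bl c p q) κ) ∨
        (d5 (Bl c p q) κ * ((Bl c p q : ℝ) * c.r q) ≤ 1 ∧
          (Bl c p q : ℝ) * c.r q ≤ c.wp.thr p' ∧ c.st p' q = ows c p q ∧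
          ¬ acc c.γ (c.r q) (Bl c p q) κ ∧ gls c p' q = ows c p q)) := by
  have hLp : 0 < (Lq c p q).prod := Lq_pos hO
  have hE := Lq_same hp hm
  have hEB := Bl_same hp hm
  have hsame := st_same hO hl hl' hp hm hthr hL' hT
  have hgE : gls c p' q = gl (c.st p' q) (c.wp.thr p') c.γ (c.r q) (Lq c p q) := by
    unfold gls; rw [hE]
  have hne' := hne
  rw [hgE] at hne'
  obtain ⟨κ, h1, h2, h3, h4, h5, h6⟩ := static_cases (st := c.st p q) hLp
    (by rcases hsame with h | h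
        · exact Or.inl h
        · exact Or.inr h.1) hne' hthr
  have h5' : gls c p' q = sls c p q := by rw [hgE]; exact h5
  have h4' : gls c p q = some κ := h4
  -- kept
  rcases st_cases hl hT with k | ⟨hf, s, L, hL, ⟨κ', k1, k2⟩ | ⟨-, -, k2⟩⟩
  · exact absurd (by rw [← h1, k]) h3
  swap
  · rw [h1] at k2; exact absurd k2 (by simp)
  have e : κ' = κ := Option.some.inj (by rw [← k2, h1])
  subst e
  refine ⟨s, L, κ', hL, hf, h1, k1, h3, h2, h4, h5', ?_⟩
  have hs : 0 < s := (Lq_prime (c := c) (p := p) (q := q) hO (by rw [hL]; simp)).pos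
  have hLL : 0 < L.prod := by
    rw [hL, List.prod_cons] at hLp
    exact Nat.pos_of_mul_pos_left hLp
  have hB : Bl c p q = s * L.prod := Bl_cons hL
  rcases lt_or_ge 1 (d5 (Bl c p q) κ' * ((Bl c p q : ℝ) * c.r q)) with hd | hd
  · left
    refine ⟨hd, fun hc => ?_⟩
    rcases lt_or_ge (c.wp.thr p') ((Bl c p q : ℝ) * c.r q) with hf' | hf'
    · have e1 : c.st p' q = some κ' := by
        rcases hsame with h | ⟨-, -, h⟩
        · rw [h, h1]
        · exact absurd h (not_le.2 hf')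
      exact hne (by rw [h4', hgE]; exact gl_dense e1 hc)
    · unfold dense at hc
      have := mul_le_mul_of_nonneg_left hf' (d5_pos (Bl c p q) κ').le
      linarith
  · right
    have hthin : (Bl c p q : ℝ) * c.r q ≤ c.wp.thr p' := by
      by_contra hc
      push Not at hc
      have e1 : c.st p' q = some κ' := by
        rcases hsame with h | ⟨-, -, h⟩
        · rw [h, h1]
        · exact absurd h (not_le.2 hc)
      refine hne ?_
      rw [h4', hgE]
      refine gl_dense e1 ?_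
      unfold dense
      exact (mul_le_mul_of_nonneg_left hc.le (d5_pos _ _).le).trans hd
    have hst' : c.st p' q = ows c p q := by
      have := st_thin (p := p') hl' (by rw [hEB]; exact hthin)
      rw [this]; unfold ows; rw [hE]
    have hacc : ¬ acc c.γ (c.r q) (Bl c p q) κ' := by
      rcases not_own' hLp h0 h3 with g | g | g
      · exact absurd (hthin.trans h10) (not_le.2 g)
      · exact absurd hd (not_le.2 g)
      · exact g
    refine ⟨hd, hthin, hst', hacc, ?_⟩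
    rw [h5']
    have key := sla_kept (γ := c.γ) (ψ := c.r q) hs hLL k1
    rw [← hL] at key
    rcases key with ⟨ρ, g1, g2⟩ | ⟨g1, g2, g3⟩ | ⟨g1, g2, g3⟩
    · show sla c.γ (c.r q) (Lq c p q) = own c.γ (c.r q) (Lq c p q)
      rw [g1, g2]
    · exact absurd (by rw [hB]; exact g2) hacc
    · show sla c.γ (c.r q) (Lq c p q) = own c.γ (c.r q) (Lq c p q)
      rw [g1, g3]

/-! ### own missing tie -/

/-- **own missing tie** at the column `p` (thin there): the real states -/
theorem miss_st2 (hl : c.lam p = 0) (hl' : c.lam p' = 0)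
    (hL : lst (c.t.mt q) p' = p :: lst (c.t.mt q) p)
    (hthin : (Bl c p q : ℝ) * c.r q ≤ c.wp.thr p) :
    c.st p q = ows c p q ∧ (c.st p' q = c.st p q ∨ c.st p' q = ows c p' q) := by
  refine ⟨st_thin hl hthin, ?_⟩
  by_cases h : c.st p' q = c.st p q
  · exact Or.inl h
  · right
    obtain ⟨-, h2, -⟩ := StCh24.miss_change hl hl' hL hthin h
    rw [h2]
    show _ = lab0 c.γ (c.r q) (lst (c.t.mt q) p').prod
    rw [hL, List.prod_cons]
    rfl

/-- **own missing tie** at the column `p`: the changes of the game label: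
* a birth from no label;
* an accurate label `τ` is replaced by the own-radius label `ρ` of the new stage;
* the label `τ` dies by accuracy, the new one is the own-radius label or `none` -/
theorem miss_exact (hO : c.t.Ok n) (hl : c.lam p = 0) (hl' : c.lam p' = 0)
    (hL : lst (c.t.mt q) p' = p :: lst (c.t.mt q) p)
    (hthin : (Bl c p q : ℝ) * c.r q ≤ c.wp.thr p) (hne : gls c p' q ≠ gls c p q) :
    (gls c p q = none ∧ ∃ ρ, ows c p' q = some ρ ∧ gls c p' q = some ρ) ∨
      (∃ τ ρ, gls c p q = some τ ∧ ows c p' q = some ρ ∧ gls c p' q = some ρ ∧ ρ ≠ τ ∧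
        acc c.γ (c.r q) (Bl c p' q) τ ∧
        1 ≤ 32 * ((Bl c p' q : ℝ) * c.r q) ^ 4 * (d5 (Bl c p' q) ρ * d5 (Bl c p' q) τ) ∧
        1 ≤ 32 * ((Bl c p' q : ℝ) * c.r q) ^ 3 * d5 (Bl c p' q) τ ∧
        1 < d5 (Bl c p' q) τ * ((Bl c p' q : ℝ) * c.r q)) ∨
      (∃ τ, gls c p q = some τ ∧ ¬ acc c.γ (c.r q) (Bl c p' q) τ ∧ gls c p' q = ows c p' q) := by
  have hLp : 0 < (Lq c p q).prod := Lq_pos hO
  have hLp' : 0 < (Lq c p' q).prod := Lq_pos hO
  have hE : Lq c p' q = p :: Lq c p q := hL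
  have hp : 0 < p := by
    rw [hE, List.prod_cons] at hLp'
    exact Nat.pos_of_mul_pos_right hLp'
  obtain ⟨h1, h2⟩ := miss_st2 hl hl' hL hthin
  have hgE : gls c p' q = gl (c.st p' q) (c.wp.thr p') c.γ (c.r q) (p :: Lq c p q) := by
    unfold gls; rw [hE]
  have hoE : ows c p' q = own c.γ (c.r q) (p :: Lq c p q) := by
    unfold ows; rw [hE]
  have hB : Bl c p' q = p * (Lq c p q).prod := Bl_cons hL
  have key := miss_cases (γ := c.γ) (ψ := c.r q) (t := c.wp.thr p) (t' := c.wp.thr p') hp hLp h1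
    (st' := c.st p' q) (by
      rcases h2 with h | h
      · exact Or.inr (Or.inl h)
      · exact Or.inl (by rw [h, hoE]))
  rw [← hgE, ← hoE] at key
  have g0 : gls c p q = gl (c.st p q) (c.wp.thr p) c.γ (c.r q) (Lq c p q) := rfl
  rw [← g0] at key
  rcases key with k | ⟨ρ, k1, k2⟩ | ⟨k1, k2, τ, k3, k4⟩
  · exact absurd k hne
  · rcases Option.eq_none_or_eq_some (gls c p q) with h3 | ⟨τ, h3⟩
    · exact Or.inl ⟨h3, ρ, k1, k2⟩
    · right
      by_cases ha : acc c.γ (c.r q) (Bl c p' q) τ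
      · left
        have hne' : τ ≠ ρ := fun e => hne (by rw [k2, h3, e])
        have k1' : lab0 c.γ (c.r q) (Bl c p' q) = some ρ := k1
        obtain ⟨g1, g2, g3⟩ := birth_ineq (Bl_pos hO) k1' hne' ha
        exact ⟨τ, ρ, h3, k1, k2, hne'.symm, ha, g1, g2, g3⟩
      · right
        exact ⟨τ, h3, ha, by rw [k2, k1]⟩
  · right; right
    refine ⟨τ, k3, by rw [hB]; exact k4, by rw [k2, k1]⟩

/-! ### the leaf -/

/-- the list of all the missing ties of an item, at its leaf -/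
noncomputable abbrev LqL (c : Cf) (q : ℕ) : List ℕ := lst (c.t.mt q) (c.lv q)

/-- the game label at the leaf -/
noncomputable def glsL (c : Cf) (q : ℕ) : Option ℚ :=
  gl (lfst c q) (c.wpL.thr (c.lv q)) c.γ (c.r q) (LqL c q)

/-- **the real states at the leaf**: the own-radius label, or fat and the previous stage -/
theorem lf_cases (hT : ∀ s L, LqL c q = s :: L → (L.prod : ℝ) * c.r q ≤ c.wpL.thr s) :
    lfst c q = own c.γ (c.r q) (LqL c q) ∨
      (c.wpL.thr (c.lv q) < ((LqL c q).prod : ℝ) * c.r q ∧ ∃ s L, LqL c q = s :: L ∧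
        lfst c q = own c.γ (c.r q) L) := by
  show c.wpL.st c.γ c.r c.t (c.lv q) q = _ ∨ (_ ∧ ∃ s L, _ ∧ c.wpL.st c.γ c.r c.t (c.lv q) q = _)
  unfold WP.st
  show Crest.Agent.R4.W363.sta _ _ _ (LqL c q) _ = _ ∨
    (_ ∧ ∃ s L, _ ∧ Crest.Agent.R4.W363.sta _ _ _ (LqL c q) _ = _)
  cases hL : LqL c q with
  | nil =>
    left
    show lab0 _ _ _ = lab0 _ _ _
    rw [List.prod_nil]
  | cons s L =>
    rcases lt_or_ge (c.wpL.thr (c.lv q)) (((s :: L).prod : ℝ) * c.r q) with hf | hf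
    · right
      refine ⟨hf, s, L, rfl, ?_⟩
      rw [List.prod_cons] at hf
      unfold Crest.Agent.R4.W363.sta
      rw [if_neg (not_le.2 hf), sta_thin (hT s L hL)]
    · left
      exact sta_thin hf

end cf

/-! ### nodes -/

section node
variable {N : Skel189.Num} {γ : ℝ} {p0 P₀ : ℕ} {X : Ctx N γ p0 P₀} {u u' : NS} {τ τ' : IT}

lemma Lq_node (h : NDt X.par (w X.ψ) X.c.t u τ) (hl : ¬ isL τ) {q : ℕ} (hq : q ∈ τ.items) :
    Lq X.c (tp τ) q = LB u.B := lst_node h X.tOk hl hq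

/-- the own-radius label at a node -/
lemma ows_node (h : NDt X.par (w X.ψ) X.c.t u τ) (hl : ¬ isL τ) {q : ℕ} (hq : q ∈ τ.items) :
    ows X.c (tp τ) q = lab0 X.c.γ (X.c.r q) u.B := by
  unfold ows own
  rw [Lq_node h hl hq, LB_prod h.bk.sfB]

/-- the sparse label at a node -/
lemma sls_node (h : NDt X.par (w X.ψ) X.c.t u τ) (hl : ¬ isL τ) {q : ℕ} (hq : q ∈ τ.items) :
    sls X.c (tp τ) q = sla X.c.γ (X.c.r q) (LB u.B) := by
  unfold sls
  rw [Lq_node h hl hq]

/-- the game label at a node -/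
lemma gls_node (h : NDt X.par (w X.ψ) X.c.t u τ) (hl : ¬ isL τ) {q : ℕ} (hq : q ∈ τ.items) :
    gls X.c (tp τ) q =
      gl (X.c.st (tp τ) q) (X.c.wp.thr (tp τ)) X.c.γ (X.c.r q) (LB u.B) := by
  unfold gls
  rw [Lq_node h hl hq]

/-- **real states at a node** -/
theorem node_st (hT : TH X) (h : NDt X.par (w X.ψ) X.c.t u τ) (hr : Step588.RdOk X u τ)
    (hl : ¬ isL τ) {q : ℕ} (hq : q ∈ τ.items) (hqs : q ∈ X.S') :
    X.c.st (tp τ) q = lab0 X.c.γ (X.c.r q) u.B ∨
      (X.c.wp.thr (tp τ) < (u.B : ℝ) * X.c.r q ∧ ∃ s L, LB u.B = s :: L ∧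
        ((∃ κ, own X.c.γ (X.c.r q) L = some κ ∧ X.c.st (tp τ) q = some κ) ∨
          (own X.c.γ (X.c.r q) L = none ∧ ¬ bt X.c (tp τ) q ∧ X.c.st (tp τ) q = none))) := by
  have k := st_cases (hT.lam _) (TL_node hT h hr hl hq hqs)
  rw [ows_node h hl hq, Lq_node h hl hq, Bl_node h hl hq] at k
  exact k

/-- thin at a node: the game label is the sparse label -/
theorem node_gls_thin (hT : TH X) (h : NDt X.par (w X.ψ) X.c.t u τ) (hl : ¬ isL τ) {q : ℕ}
    (hq : q ∈ τ.items) (hthin : (u.B : ℝ) * X.c.r q ≤ X.c.wp.thr (tp τ)) :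
    gls X.c (tp τ) q = sla X.c.γ (X.c.r q) (LB u.B) := by
  rw [← Bl_node h hl hq] at hthin
  rw [gls_thin X.tOk (hT.lam _) hthin, sls_node h hl hq]

/-- **static edge of a node** (`u'.B = u.B`, any lower column: P tie, no tie, add, far, up): the changes
of the game label -/
theorem node_static (hT : TH X) (h : NDt X.par (w X.ψ) X.c.t u τ) (hr : Step588.RdOk X u τ)
    (h' : NDt X.par (w X.ψ) X.c.t u' τ') (hl : ¬ isL τ) (hl' : ¬ isL τ') {q : ℕ}
    (hq : q ∈ τ.items) (hq' : q ∈ τ'.items) (hqs : q ∈ X.S') (hB : u'.B = u.B)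
    (hp : tp τ' ≤ tp τ) (hlv : p0 ≤ X.c.lv q) (hlv' : X.c.lv q ≤ tp τ')
    (h10 : X.c.wp.thr (tp τ') ≤ 1 / 10) (hne : gls X.c (tp τ') q ≠ gls X.c (tp τ) q) :
    ∃ s L κ, LB u.B = s :: L ∧ X.c.wp.thr (tp τ) < (u.B : ℝ) * X.c.r q ∧
      X.c.st (tp τ) q = some κ ∧ own X.c.γ (X.c.r q) L = some κ ∧
      lab0 X.c.γ (X.c.r q) u.B ≠ some κ ∧ dense (X.c.wp.thr (tp τ)) u.B κ ∧
      gls X.c (tp τ) q = some κ ∧ gls X.c (tp τ') q = sla X.c.γ (X.c.r q) (LB u.B) ∧
      ((1 < d5 u.B κ * ((u.B : ℝ) * X.c.r q) ∧ ¬ dense (X.c.wp.thr (tp τ')) u.B κ) ∨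
        (d5 u.B κ * ((u.B : ℝ) * X.c.r q) ≤ 1 ∧
          (u.B : ℝ) * X.c.r q ≤ X.c.wp.thr (tp τ') ∧
          X.c.st (tp τ') q = lab0 X.c.γ (X.c.r q) u.B ∧
          ¬ acc X.c.γ (X.c.r q) u.B κ ∧ gls X.c (tp τ') q = lab0 X.c.γ (X.c.r q) u.B)) := by
  have k := (nodeOk_hi h'.self.node hl').2.1
  have key := static_exact X.tOk (hT.lam _) (hT.lam _) hp (mt_same h h' hl hl' hq hq' hB)
    (hT.anti _ _ (le_of_lt k) hp) (hT.leL _ _ hlv hlv') (TL_node hT h hr hl hq hqs)
    (X.rpos hqs) h10 hne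
  rw [Lq_node h hl hq, Bl_node h hl hq, ows_node h hl hq, sls_node h hl hq] at key
  unfold dns at key
  rw [Bl_node h hl hq] at key
  exact key

/-- **own missing tie of a node** (`u'.B = u.B * tp τ`): the real states -/
theorem node_miss_st (hT : TH X) (h : NDt X.par (w X.ψ) X.c.t u τ)
    (h' : NDt X.par (w X.ψ) X.c.t u' τ') (hr' : Step588.RdOk X u' τ') (hl : ¬ isL τ)
    (hl' : ¬ isL τ') {q : ℕ} (hq : q ∈ τ.items) (hq' : q ∈ τ'.items) (hqs : q ∈ X.S')
    (hB : u'.B = u.B * tp τ) :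
    X.c.st (tp τ) q = lab0 X.c.γ (X.c.r q) u.B ∧
      (X.c.st (tp τ') q = X.c.st (tp τ) q ∨
        X.c.st (tp τ') q = lab0 X.c.γ (X.c.r q) u'.B) := by
  have h1 := miss_thin hT h hl h' hr' hq' hqs hB
  rw [← Bl_node h hl hq] at h1
  have k := miss_st2 (hT.lam _) (hT.lam _) (lst_miss h h' hl hl' hq hq' hB) h1
  rw [ows_node h hl hq, ows_node h' hl' hq'] at k
  exact k

/-- **own missing tie of a node**: the changes of the game label -/
theorem node_miss (hT : TH X) (h : NDt X.par (w X.ψ) X.c.t u τ)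
    (h' : NDt X.par (w X.ψ) X.c.t u' τ') (hr' : Step588.RdOk X u' τ') (hl : ¬ isL τ)
    (hl' : ¬ isL τ') {q : ℕ} (hq : q ∈ τ.items) (hq' : q ∈ τ'.items) (hqs : q ∈ X.S')
    (hB : u'.B = u.B * tp τ) (hne : gls X.c (tp τ') q ≠ gls X.c (tp τ) q) :
    (gls X.c (tp τ) q = none ∧
        ∃ ρ, lab0 X.c.γ (X.c.r q) u'.B = some ρ ∧ gls X.c (tp τ') q = some ρ) ∨
      (∃ κ ρ, gls X.c (tp τ) q = some κ ∧ lab0 X.c.γ (X.c.r q) u'.B = some ρ ∧
        gls X.c (tp τ') q = some ρ ∧ ρ ≠ κ ∧ acc X.c.γ (X.c.r q) u'.B κ ∧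
        1 ≤ 32 * ((u'.B : ℝ) * X.c.r q) ^ 4 * (d5 u'.B ρ * d5 u'.B κ) ∧
        1 ≤ 32 * ((u'.B : ℝ) * X.c.r q) ^ 3 * d5 u'.B κ ∧
        1 < d5 u'.B κ * ((u'.B : ℝ) * X.c.r q)) ∨
      (∃ κ, gls X.c (tp τ) q = some κ ∧ ¬ acc X.c.γ (X.c.r q) u'.B κ ∧
        gls X.c (tp τ') q = lab0 X.c.γ (X.c.r q) u'.B) := by
  have h1 := miss_thin hT h hl h' hr' hq' hqs hB
  rw [← Bl_node h hl hq] at h1
  have k := miss_exact X.tOk (hT.lam _) (hT.lam _) (lst_miss h h' hl hl' hq hq' hB) h1 hne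
  rw [ows_node h' hl' hq', Bl_node h' hl' hq'] at k
  exact k

/-- **real against game label at a node** -/
theorem node_ne (hT : TH X) (h : NDt X.par (w X.ψ) X.c.t u τ) (hr : Step588.RdOk X u τ)
    (hl : ¬ isL τ) {q : ℕ} (hq : q ∈ τ.items) (hqs : q ∈ X.S')
    (hne : gls X.c (tp τ) q ≠ X.c.st (tp τ) q) :
    (∃ s L κ, LB u.B = s :: L ∧ X.c.wp.thr (tp τ) < (u.B : ℝ) * X.c.r q ∧
        own X.c.γ (X.c.r q) L = some κ ∧ X.c.st (tp τ) q = some κ ∧
        ¬ dense (X.c.wp.thr (tp τ)) u.B κ ∧ 1 < d5 u.B κ * ((u.B : ℝ) * X.c.r q) ∧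
        gls X.c (tp τ) q = lab0 X.c.γ (X.c.r q) u.B ∧
        (X.c.wp.thr (tp τ) < (u.B : ℝ) * X.c.r q) ∧
        (lab0 X.c.γ (X.c.r q) u.B = none → ¬ acc X.c.γ (X.c.r q) u.B κ)) ∨
      (X.c.st (tp τ) q = none ∧ gls X.c (tp τ) q = sla X.c.γ (X.c.r q) (LB u.B) ∧
        ∃ ρ, gls X.c (tp τ) q = some ρ ∧
        ((lab0 X.c.γ (X.c.r q) u.B = some ρ ∧ ¬ bt X.c (tp τ) q ∧
            X.c.wp.thr (tp τ) < (u.B : ℝ) * X.c.r q) ∨
          (lab0 X.c.γ (X.c.r q) u.B = none ∧ sl X.c.γ (X.c.r q) (LB u.B) = some ρ ∧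
            acc X.c.γ (X.c.r q) u.B ρ ∧
            1 < 10 * (d5 u.B ρ * ((u.B : ℝ) * X.c.r q))))) := by
  have k := ne_cases X.tOk (hT.lam _) (TL_node hT h hr hl hq hqs) (X.rpos hqs) hne
  unfold dns at k
  rw [Lq_node h hl hq, Bl_node h hl hq, ows_node h hl hq, sls_node h hl hq] at k
  exact k

end node

end Crest.Agent.R4P.StN6
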