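import Crest.Agent.R4P.RsT_47
import Crest.Agent.R4P.StN_6

/-!
R4 (S0004) with powers, [B8 → C1], helper6: **the events of the types** (over `TYR_9`, `RsT_47`, `StMc_46`,
`StM1_42`).

`q` = item, `b = (ms c (p-1) q).prod` = its missing product when a missing tie `p` is processed,
`R = b r_q`.

* `rest_lo`, `rest_alive` : in the rest the missing tie `p` is processed, the piece is alive.
* labels of the rule: above (rest) `glow c p q`, below `ghi c (p-1) q`; at a tie: `ghi c p q`, `glow c p q`.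
* static column: `DenE` (`P*` of a kept label with dead denominator), `AccE` (accuracy death at the
  crossing), `TagE` (`P*` of a label which stays: the tag appears), `CrsE` (`RVk`: the real label changes,
  the game label does not); **`SE_RV`, `SE_RVk`**, rates `rest_RV`, `rest_RVk`.
* own missing tie: `Kind` of helper42, or the label stays and the tag changes `MTagE`; **`ME_RV`**.
-/

set_option autoImplicit false
set_option linter.unusedSectionVars false
set_option linter.unusedVariables false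
open MeasureTheory Filter Set

namespace Crest.Agent.R4P.StE6

open Crest.Agent.R4P.Cnt588 Crest.Agent.R4P.Item758 Crest.Agent.R4P.W363
open Crest.Agent.R4P.Data758
open Crest.Agent.R4P.Bld532 (NS All NodeOk Bk)
open Crest.Agent.R4P.WalkIT579 (tp isL)
open Crest.Agent.R4P.StratN36 (ex)
open Crest.Agent.R4P.Step588 Crest.Agent.R4P.RseSt23
open Crest.Agent.R4P.DTp26 Crest.Agent.R4P.DTm407
open Crest.Agent.R4P.TYI47 Crest.Agent.R4P.TYJ47 Crest.Agent.R4P.TYK47
open Crest.Agent.R4P.TYP9 Crest.Agent.R4P.RsT47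
open Crest.Agent.R4P.StM6 Crest.Agent.R4P.StM246
open Crest.Agent.R4P.StB21 (bt TH LvF)

/-! ### events, Cf level -/

-- product of the C-steps of a stage
variable {Tc : ℕ}

section cf
variable {c : Cf} {n p q : ℕ} {κ : ℚ}

/-- missing product of the item at the column `p`, the missing tie `p` is processed -/
noncomputable abbrev bl (c : Cf) (p q : ℕ) : ℕ := (ms c (p - 1) q).prod

/-- **the column `P*` of the label `κ`** (missing product `b`): dense at `p`, sparse at `p - 1` -/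
def Pst (c : Cf) (p b : ℕ) (κ : ℚ) : Prop :=
  dense (c.wp.thr p) b κ ∧ ¬ dense (c.wp.thr (p - 1)) b κ

/-- **den event**: the kept label `κ` is dead by its denominator, column `P*_κ` -/
structure DenE (c : Cf) (p q : ℕ) (κ : ℚ) : Prop where
  low : low c p q = some κ
  kept : ∃ s M, ms c (p - 1) q = s :: M ∧ own c.γ (c.r q) M = some κ
  fat : c.wp.thr p < (bl c p q : ℝ) * c.r q
  pst : Pst c p (bl c p q) κ
  dead : 1 < d5 (bl c p q) κ * ((bl c p q : ℝ) * c.r q)
  ne : own c.γ (c.r q) (ms c (p - 1) q) ≠ some κ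
  up : glow c p q = some κ
  down : ghi c (p - 1) q = sla c.γ (c.r q) (ms c (p - 1) q)
  new : (∃ τ, own c.γ (c.r q) (ms c (p - 1) q) = some τ ∧ τ ≠ κ ∧
      sla c.γ (c.r q) (ms c (p - 1) q) = some τ) ∨
    (own c.γ (c.r q) (ms c (p - 1) q) = none ∧ sla c.γ (c.r q) (ms c (p - 1) q) = none ∧
      ¬ acc c.γ (c.r q) (bl c p q) κ)

/-- **accuracy event**: the kept dense label `κ` is dead by accuracy, crossing column -/
structure AccE (c : Cf) (p q : ℕ) (κ : ℚ) : Prop where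
  low : low c p q = some κ
  kept : ∃ s M, ms c (p - 1) q = s :: M ∧ own c.γ (c.r q) M = some κ
  fat : c.wp.thr p < (bl c p q : ℝ) * c.r q
  thin : (bl c p q : ℝ) * c.r q ≤ c.wp.thr (p - 1)
  dns : dense (c.wp.thr p) (bl c p q) κ
  alive : d5 (bl c p q) κ * ((bl c p q : ℝ) * c.r q) ≤ 1
  nacc : ¬ acc c.γ (c.r q) (bl c p q) κ
  up : glow c p q = some κ
  st : c.st (p - 1) q = own c.γ (c.r q) (ms c (p - 1) q)
  down : ghi c (p - 1) q = own c.γ (c.r q) (ms c (p - 1) q)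

/-- **the game label changes at a static column: den event or accuracy event** -/
theorem glow_ev (hO : c.t.Ok n) (hl : c.lam (p - 1) = 0)
    (hthr : c.wp.thr p ≤ c.wp.thr (p - 1)) (hL' : c.wp.thr (p - 1) ≤ c.wpL.thr (c.lv q))
    (h10 : c.wp.thr (p - 1) ≤ 1 / 10) (h0 : 0 < c.r q)
    (hT : TLl c.wp.thr (c.r q) (ms c (p - 1) q)) (hne : ghi c (p - 1) q ≠ glow c p q) :
    (∃ κ, DenE c p q κ) ∨ ∃ κ, AccE c p q κ := by
  obtain ⟨κ, a1, a2, a3, a4, a5, a6, a7, a8, a9⟩ := glow_next hO hl hthr hL' hT hne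
  have hb : 0 < (ms c (p - 1) q).prod := ms_pos hO _ _
  have hd := d5_pos (ms c (p - 1) q).prod κ
  rcases a9 with ⟨g1, g2⟩ | ⟨g1, g2, g3, g4⟩
  · rcases lt_or_ge 1 (d5 (bl c p q) κ * ((bl c p q : ℝ) * c.r q)) with h | h
    · refine Or.inl ⟨κ, a1, a2, a3, ⟨a4, fun h2 => ?_⟩, h, a5, a6, a7, a8⟩
      unfold dense at h2
      have := mul_le_mul_of_nonneg_left g1 hd.le
      exact absurd (h.trans_le this) (not_lt.2 h2)
    · have hacc : ¬ acc c.γ (c.r q) (bl c p q) κ := by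
        rcases not_own hb h0 (g1.trans h10) a5 with k | k
        · exact absurd k (not_lt.2 h)
        · exact k
      refine Or.inr ⟨κ, a1, a2, a3, g1, a4, h, hacc, a6, g2, ?_⟩
      rw [a7]
      rcases a8 with ⟨τ, k1, -, k2⟩ | ⟨k1, k2, -⟩
      · rw [k1, k2]
      · rw [k1, k2]
  · exact Or.inl ⟨κ, a1, a2, a3, ⟨a4, g3⟩, g4, a5, a6, a7, a8⟩

/-! ### tags -/

variable {Z : ℕ → ℝ} {M : Finset ℕ}

/-- a tag which is not `1` has a prime -/
lemma MTag_ne {z : ℝ} (h : MTag c z M q ≠ 1) : ∃ s ∈ c.t.mt q, s ∉ M ∧ z < (s : ℝ) := by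
  classical
  by_contra hc
  push Not at hc
  apply h
  unfold MTag
  refine Finset.prod_eq_one fun s hs => ?_
  obtain ⟨h1, h2, h3⟩ := Finset.mem_filter.1 hs
  exact absurd h3 (not_lt.2 (hc s h1 h2))

/-- the tag of a label at two columns: it changes only if the label passes from dense to sparse -/
lemma tagZ_ne {p' : ℕ} {s : Option ℚ} (hthr : c.wp.thr p ≤ c.wp.thr p')
    (h : tagZ c Z p' s M q ≠ tagZ c Z p s M q) :
    ∃ κ, s = some κ ∧ dense (c.wp.thr p) (Bm M) κ ∧ ¬ dense (c.wp.thr p') (Bm M) κ ∧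
      ∃ l ∈ c.t.mt q, l ∉ M ∧ Z (((Bm M : ℕ) : ℚ) * κ).den < (l : ℝ) := by
  cases s with
  | none => exact absurd (by rw [tagZ_none, tagZ_none]) h
  | some κ =>
    have e : ∀ κ' : ℚ, some κ = some κ' → κ' = κ := fun κ' h => (Option.some.inj h).symm
    by_cases hd : dense (c.wp.thr p) (Bm M) κ
    · have e1 : tagZ c Z p (some κ) M q = 1 := tagZ_dense fun κ' h' => by rw [e κ' h']; exact hd
      by_cases hd' : dense (c.wp.thr p') (Bm M) κ
      · have e2 : tagZ c Z p' (some κ) M q = 1 :=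
          tagZ_dense fun κ' h' => by rw [e κ' h']; exact hd'
        exact absurd (e2.trans e1.symm) h
      · refine ⟨κ, rfl, hd, hd', ?_⟩
        rw [e1, tagZ_sparse rfl hd'] at h
        exact MTag_ne h
    · have hd' : ¬ dense (c.wp.thr p') (Bm M) κ := fun h' => hd (dense_anti h' hthr)
      exact absurd (by rw [tagZ_sparse rfl hd, tagZ_sparse rfl hd']) h

lemma Bm_lo (hp : 0 < p) : Bm ((c.t.mt q).filter (p ≤ ·)) = bl c p q := by
  rw [← Ls_prod, Ls_lo c hp]

lemma Bm_hi : Bm ((c.t.mt q).filter (p < ·)) = (ms c p q).prod := by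
  rw [← Ls_prod, Ls_hi]

/-- **tag event** at the column `P*` of a label which does not change -/
structure TagE (c : Cf) (Z : ℕ → ℝ) (p q : ℕ) (κ : ℚ) : Prop where
  up : glow c p q = some κ
  down : ghi c (p - 1) q = some κ
  pst : Pst c p (bl c p q) κ
  big : ∃ l ∈ c.t.mt q, l < p ∧ Z (((bl c p q : ℕ) : ℚ) * κ).den < (l : ℝ)

/-- **crossing event without a change of the game label** (only for `RVk`): the kept label `κ` is sparse -/
structure CrsE (c : Cf) (p q : ℕ) (κ : ℚ) : Prop where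
  low : low c p q = some κ
  crs : Crs c.wp.thr c.γ (c.r q) (ms c (p - 1) q) p (p - 1) κ
  sps : ¬ dense (c.wp.thr p) (bl c p q) κ
  same : ghi c (p - 1) q = glow c p q

/-- the processed missing ties of the rest -/
noncomputable abbrev Mlo (c : Cf) (p q : ℕ) : Finset ℕ := (c.t.mt q).filter (p ≤ ·)

/-- the processed missing ties above a tie -/
noncomputable abbrev Mhi (c : Cf) (p q : ℕ) : Finset ℕ := (c.t.mt q).filter (p < ·)

lemma Mlo_hi (hp : 0 < p) : Mlo c p q = Mhi c (p - 1) q := filter_le_pred hp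

lemma rs_dn (hp : 0 < p) (hl : c.lam (p - 1) = 0) : rs c (p - 1) (Mlo c p q) q = c.st (p - 1) q := by
  rw [Mlo_hi hp]; exact rs_hi hl

lemma gr_dn (hp : 0 < p) (hl : c.lam (p - 1) = 0) : gr c (p - 1) (Mlo c p q) q = ghi c (p - 1) q := by
  rw [Mlo_hi hp]; exact gr_hi hl

lemma not_mem_lo {l : ℕ} (hl : l ∈ c.t.mt q) (h : l ∉ Mlo c p q) : l < p := by
  by_contra hc
  exact h (Finset.mem_filter.2 ⟨hl, not_lt.1 hc⟩)

/-- **static event of a rule with the game labels** (any tags): the label changes, or only the tag -/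
theorem SE_RC {tg : ℕ → Finset ℕ → ℕ → ℕ} {K : ℕ} {x : ℝ} {j : c.Lam} (hp : 0 < p)
    (hl : c.lam (p - 1) = 0) (h : SE (RC c (gr c) tg K) p (Mlo c p j.1.1) Tc x j) :
    ghi c (p - 1) j.1.1 ≠ glow c p j.1.1 ∨
      (ghi c (p - 1) j.1.1 = glow c p j.1.1 ∧
        tg (p - 1) (Mlo c p j.1.1) j.1.1 ≠ tg p (Mlo c p j.1.1) j.1.1) := by
  have e1 : (RC c (gr c) tg K).lb (p - 1) (Mlo c p j.1.1) x j = ghi c (p - 1) j.1.1 := gr_dn hp hl
  have e2 : (RC c (gr c) tg K).lb p (Mlo c p j.1.1) x j = glow c p j.1.1 := gr_lo hp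
  unfold SE at h
  rw [e1, e2] at h
  by_cases h1 : ghi c (p - 1) j.1.1 = glow c p j.1.1
  · rcases h with h | h
    · exact absurd h1 h
    · exact Or.inr ⟨h1, h⟩
  · exact Or.inl h1

/-- **(SE, `RV`)** the tags of the rule of PLAN v1 at a static column -/
theorem tag_RV {q : ℕ} (hp : 0 < p) (hl : c.lam (p - 1) = 0)
    (hthr : c.wp.thr p ≤ c.wp.thr (p - 1)) (he : ghi c (p - 1) q = glow c p q)
    (h : tagZ c Z (p - 1) (gr c (p - 1) (Mlo c p q) q) (Mlo c p q) q ≠
      tagZ c Z p (gr c p (Mlo c p q) q) (Mlo c p q) q) : ∃ κ, TagE c Z p q κ := by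
  have e1 : gr c (p - 1) (Mlo c p q) q = ghi c (p - 1) q := gr_dn hp hl
  have e2 : gr c p (Mlo c p q) q = glow c p q := gr_lo hp
  rw [e1, e2, he] at h
  obtain ⟨κ, h1, h2, h3, l, h4, h5, h6⟩ := tagZ_ne hthr h
  have eB : Bm (Mlo c p q) = bl c p q := Bm_lo hp
  rw [eB] at h2 h3 h6
  exact ⟨κ, h1, by rw [he, h1], ⟨h2, h3⟩, l, h4, not_mem_lo h4 h5, h6⟩

/-- **(SE, `RV`)** the static events of the rule of PLAN v1 -/
theorem SE_RV' (hO : c.t.Ok n) (hp : 0 < p) (hl : c.lam (p - 1) = 0)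
    (hthr : c.wp.thr p ≤ c.wp.thr (p - 1)) {x : ℝ} {j : c.Lam}
    (hL' : c.wp.thr (p - 1) ≤ c.wpL.thr (c.lv j.1.1)) (h10 : c.wp.thr (p - 1) ≤ 1 / 10)
    (h0 : 0 < c.r j.1.1) (hT : TLl c.wp.thr (c.r j.1.1) (ms c (p - 1) j.1.1))
    (h : SE (RV c Z) p (Mlo c p j.1.1) Tc x j) :
    (∃ κ, DenE c p j.1.1 κ) ∨ (∃ κ, AccE c p j.1.1 κ) ∨ ∃ κ, TagE c Z p j.1.1 κ := by
  rcases SE_RC hp hl h with h1 | ⟨h1, h2⟩
  · rcases glow_ev hO hl hthr hL' h10 h0 hT h1 with h2 | h2
    · exact Or.inl h2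
    · exact Or.inr (Or.inl h2)
  · exact Or.inr (Or.inr (tag_RV hp hl hthr h1 h2))

open Classical in
/-- tags of `RVk` -/
noncomputable def tgk (c : Cf) (Z : ℕ → ℝ) (p : ℕ) (M : Finset ℕ) (q : ℕ) : ℕ :=
  if (∃ κ : ℚ, rs c p M q = some κ ∧ ¬ dense (c.wp.thr p) (Bm M) κ)
    then tagZ c Z p (rs c p M q) M q else tagZ c Z p (gr c p M q) M q

lemma RVk_tg {M : Finset ℕ} {x : ℝ} {j : c.Lam} :
    (RVk c Z).tg p M Tc x j = tgk c Z p M j.1.1 := rfl

/-- **(SE, `RVk`)** the static events of the variant -/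
theorem SE_RVk' (hO : c.t.Ok n) (hp : 0 < p) (hl : c.lam (p - 1) = 0)
    (hthr : c.wp.thr p ≤ c.wp.thr (p - 1)) {x : ℝ} {j : c.Lam}
    (hL' : c.wp.thr (p - 1) ≤ c.wpL.thr (c.lv j.1.1)) (h10 : c.wp.thr (p - 1) ≤ 1 / 10)
    (h0 : 0 < c.r j.1.1) (hT : TLl c.wp.thr (c.r j.1.1) (ms c (p - 1) j.1.1))
    (h : SE (RVk c Z) p (Mlo c p j.1.1) Tc x j) :
    (∃ κ, DenE c p j.1.1 κ) ∨ (∃ κ, AccE c p j.1.1 κ) ∨ (∃ κ, TagE c Z p j.1.1 κ) ∨
      ∃ κ, CrsE c p j.1.1 κ := by
  have hb : 0 < (ms c (p - 1) j.1.1).prod := ms_pos hO _ _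
  rcases SE_RC hp hl h with h1 | ⟨h1, h2⟩
  · rcases glow_ev hO hl hthr hL' h10 h0 hT h1 with h2 | h2
    · exact Or.inl h2
    · exact Or.inr (Or.inl h2)
  · right; right
    change tgk c Z (p - 1) (Mlo c p j.1.1) j.1.1 ≠ tgk c Z p (Mlo c p j.1.1) j.1.1 at h2
    have e1 : gr c (p - 1) (Mlo c p j.1.1) j.1.1 = ghi c (p - 1) j.1.1 := gr_dn hp hl
    have e2 : gr c p (Mlo c p j.1.1) j.1.1 = glow c p j.1.1 := gr_lo hp
    have e3 : rs c (p - 1) (Mlo c p j.1.1) j.1.1 = c.st (p - 1) j.1.1 := rs_dn hp hl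
    have e4 : rs c p (Mlo c p j.1.1) j.1.1 = low c p j.1.1 := rs_lo hp
    have eB : Bm (Mlo c p j.1.1) = bl c p j.1.1 := Bm_lo hp
    by_cases hst : c.st (p - 1) j.1.1 = low c p j.1.1
    · -- the real state does not change
      left
      cases hlw : low c p j.1.1 with
      | none =>
        refine tag_RV hp hl hthr h1 ?_
        unfold tgk at h2
        rw [e3, e4, hst, hlw, if_neg (by simp), if_neg (by simp)] at h2
        exact h2
      | some κ =>
        by_cases hd : dense (c.wp.thr p) (bl c p j.1.1) κ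
        · have g1 : glow c p j.1.1 = some κ := gl_dense hlw hd
          by_cases hd' : dense (c.wp.thr (p - 1)) (bl c p j.1.1) κ
          · exfalso
            refine h2 ?_
            unfold tgk
            rw [e3, e4, hst, hlw, eB, if_neg, if_neg, e1, e2, h1, g1]
            · rw [tagZ_dense, tagZ_dense]
              · rintro κ' h'; rw [← Option.some.inj h', eB]; exact hd
              · rintro κ' h'; rw [← Option.some.inj h', eB]; exact hd'
            · rintro ⟨κ', h', h''⟩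
              rw [← Option.some.inj h'] at h''
              exact h'' hd
            · rintro ⟨κ', h', h''⟩
              rw [← Option.some.inj h'] at h''
              exact h'' hd'
          · refine tag_RV hp hl hthr h1 ?_
            rw [e1, e2, h1, g1]
            unfold tgk at h2
            rw [e3, e4, hst, hlw, eB, if_pos ⟨κ, rfl, hd'⟩, if_neg, e2, g1] at h2
            · exact h2
            · rintro ⟨κ', h', h''⟩
              rw [← Option.some.inj h'] at h''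
              exact h'' hd
        · exfalso
          have hd' : ¬ dense (c.wp.thr (p - 1)) (bl c p j.1.1) κ := fun h' =>
            hd (dense_anti h' hthr)
          refine h2 ?_
          unfold tgk
          rw [e3, e4, hst, hlw, eB, if_pos ⟨κ, rfl, hd'⟩, if_pos ⟨κ, rfl, hd⟩,
            tagZ_sparse rfl (by rw [eB]; exact hd'), tagZ_sparse rfl (by rw [eB]; exact hd)]
    · -- crossing
      obtain ⟨κ, hc⟩ := low_next hO hl hthr hL' hT hst
      have hlw : low c p j.1.1 = some κ := (hc.st (a := bt c (p - 1) j.1.1) hT).1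
      have hs' : c.st (p - 1) j.1.1 = own c.γ (c.r j.1.1) (ms c (p - 1) j.1.1) := by
        rw [Cf_st hl]; exact (hc.st (a := bt c (p - 1) j.1.1) hT).2 _
      by_cases hd : dense (c.wp.thr p) (bl c p j.1.1) κ
      · -- the label stays: asleep
        left
        rcases hc.gl_cross hT hb (hc.thin.trans h10) (bt c (p - 1) j.1.1) (bt c (p - 1) j.1.1) with
          ⟨k1, -⟩ | ⟨-, k1, k2, k3⟩
        · exact absurd hd k1
        · have k1' : glow c p j.1.1 = some κ := k1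
          have k2' : ghi c (p - 1) j.1.1 = sla c.γ (c.r j.1.1) (ms c (p - 1) j.1.1) := by
            unfold ghi
            exact gl_own hb hs'
          rcases k3 with ⟨m1, m2, m3, m4⟩ | m1
          · have k3' : sla c.γ (c.r j.1.1) (ms c (p - 1) j.1.1) = some κ := by
              rw [← k2', h1, k1']
            have hown : own c.γ (c.r j.1.1) (ms c (p - 1) j.1.1) = none := by
              cases ho : own c.γ (c.r j.1.1) (ms c (p - 1) j.1.1) with
              | none => rfl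
              | some τ =>
                exfalso
                have h5 := sla_of_own hb ho
                rw [k3'] at h5
                exact hc.ne (by rw [ho, ← Option.some.inj h5])
            refine tag_RV hp hl hthr h1 ?_
            unfold tgk at h2
            rw [e3, e4, hs', hown, hlw, eB, if_neg (by simp), if_neg] at h2
            · exact h2
            · rintro ⟨κ', h', h''⟩
              rw [← Option.some.inj h'] at h''
              exact h'' hd
          · exfalso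
            have m2 : sla c.γ (c.r j.1.1) (ms c (p - 1) j.1.1) = some κ := by
              rw [← k2', h1, k1']
            exact m1 (sla_some.1 m2).2
      · exact Or.inr ⟨κ, hlw, hc, hd, h1⟩

/-! ### own missing ties -/

/-- the tags above and below an own missing tie `p`: only `p` leaves the tag -/
lemma MTag_lo {z : ℝ} (h : MTag c z (Mlo c p q) q ≠ MTag c z (Mhi c p q) q) : z < (p : ℝ) := by
  classical
  by_contra hc
  apply h
  unfold MTag
  refine Finset.prod_congr (Finset.filter_congr fun s hs => ?_) fun _ _ => rfl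
  unfold Mlo Mhi
  simp only [Finset.mem_filter, hs, true_and, not_lt, not_le]
  constructor
  · rintro ⟨h1, h2⟩
    exact ⟨h1.le, h2⟩
  · rintro ⟨h1, h2⟩
    refine ⟨lt_of_le_of_ne h1 fun e => ?_, h2⟩
    rw [e] at h2
    exact hc h2

/-- **tag event of an own missing tie `p`**: the game label stays; its denominator stays, it is sparse and
the tie is larger than the bound (the tie leaves the tag), or its denominator is divided by `p` -/
structure MTagE (c : Cf) (Z : ℕ → ℝ) (p q : ℕ) (κ : ℚ) : Prop where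
  up : ghi c p q = some κ
  down : glow c p q = some κ
  den : (((((ms c p q).prod : ℕ) : ℚ) * κ).den = (((bl c p q : ℕ) : ℚ) * κ).den ∧
      ¬ dense (c.wp.thr p) (bl c p q) κ ∧ Z (((bl c p q : ℕ) : ℚ) * κ).den < (p : ℝ)) ∨
    ((((ms c p q).prod : ℕ) : ℚ) * κ).den = p * (((bl c p q : ℕ) : ℚ) * κ).den

/-- **event of an own missing tie of a rule with the game labels** (any tags) -/
theorem ME_RC {tg : ℕ → Finset ℕ → ℕ → ℕ} {K : ℕ} {x y : ℝ} {j : c.Lam} (hp : 0 < p)
    (hl : c.lam p = 0) (h : ME (RC c (gr c) tg K) p (Mhi c p j.1.1) (Mlo c p j.1.1) Tc x y j) :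
    glow c p j.1.1 ≠ ghi c p j.1.1 ∨ (glow c p j.1.1 = ghi c p j.1.1 ∧
      tg p (Mlo c p j.1.1) j.1.1 ≠ tg p (Mhi c p j.1.1) j.1.1) := by
  have e1 : (RC c (gr c) tg K).lb p (Mlo c p j.1.1) y j = glow c p j.1.1 := gr_lo hp
  have e2 : (RC c (gr c) tg K).lb p (Mhi c p j.1.1) x j = ghi c p j.1.1 := gr_hi hl
  unfold ME at h
  rw [e1, e2] at h
  by_cases h1 : glow c p j.1.1 = ghi c p j.1.1
  · rcases h with h | h
    · exact absurd h1 h
    · exact Or.inr ⟨h1, h⟩
  · exact Or.inl h1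

/-- **(ME, `RV`)** the tags of the rule of PLAN v1 at an own missing tie, the label stays -/
theorem tagM_RV (hO : c.t.Ok n) (hp : p.Prime) (hm : p ∈ c.t.mt q)
    (hl : c.lam p = 0) (he : glow c p q = ghi c p q)
    (h : tagZ c Z p (gr c p (Mlo c p q) q) (Mlo c p q) q ≠
      tagZ c Z p (gr c p (Mhi c p q) q) (Mhi c p q) q) : ∃ κ, MTagE c Z p q κ := by
  have e1 : gr c p (Mhi c p q) q = ghi c p q := gr_hi hl
  have e2 : gr c p (Mlo c p q) q = glow c p q := gr_lo hp.pos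
  rw [e1, e2, he] at h
  have eB : Bm (Mlo c p q) = bl c p q := Bm_lo hp.pos
  have eB' : Bm (Mhi c p q) = (ms c p q).prod := Bm_hi
  have ec : ms c (p - 1) q = p :: ms c p q := lst_pred_cons hp.pos hm
  have eb : bl c p q = p * (ms c p q).prod := by
    unfold bl
    rw [ec, List.prod_cons]
  rcases Option.eq_none_or_eq_some (ghi c p q) with hg | ⟨κ, hg⟩
  · rw [hg, tagZ_none, tagZ_none] at h
    exact absurd rfl h
  · refine ⟨κ, hg, by rw [he, hg], ?_⟩
    rcases StM042.den_up hp (ms c p q).prod κ with h1 | h1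
    · rw [← eb] at h1
      left
      refine ⟨h1, ?_⟩
      have hds : dense (c.wp.thr p) (Bm (Mhi c p q)) κ ↔ dense (c.wp.thr p) (Bm (Mlo c p q)) κ := by
        rw [eB, eB']
        unfold dense d5
        rw [h1]
      have e : ∀ κ' : ℚ, some κ = some κ' → κ' = κ := fun κ' h => (Option.some.inj h).symm
      by_cases hd : dense (c.wp.thr p) (Bm (Mlo c p q)) κ
      · exfalso
        refine h ?_
        rw [hg, tagZ_dense fun κ' h' => by rw [e κ' h']; exact hd,
          tagZ_dense fun κ' h' => by rw [e κ' h']; exact hds.2 hd]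
      · have hd' : ¬ dense (c.wp.thr p) (Bm (Mhi c p q)) κ := fun h' => hd (hds.1 h')
        rw [hg, tagZ_sparse rfl hd, tagZ_sparse rfl hd', eB, eB', h1] at h
        rw [eB] at hd
        exact ⟨hd, MTag_lo h⟩
    · rw [← eb] at h1
      exact Or.inr h1

/-- **(ME, `RV`)** the events of an own missing tie: a kind of helper42 which is not `same`, or a tag -/
theorem ME_RV' (hO : c.t.Ok n) {x y : ℝ} {j : c.Lam} (hm : p ∈ c.t.mt j.1.1) (hl : c.lam p = 0)
    (hthin : ((ms c p j.1.1).prod : ℝ) * c.r j.1.1 ≤ c.wp.thr p)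
    (h : ME (RV c Z) p (Mhi c p j.1.1) (Mlo c p j.1.1) Tc x y j) :
    (glow c p j.1.1 ≠ ghi c p j.1.1 ∧
        StM142.Kind c.γ (c.r j.1.1) p (ms c p j.1.1) (ghi c p j.1.1) (glow c p j.1.1)) ∨
      ∃ κ, MTagE c Z p j.1.1 κ := by
  have hp := (BldF542.mt_lt c.t n hO j.1.1 p hm).1
  rcases ME_RC hp.pos hl h with h1 | ⟨h1, h2⟩
  · exact Or.inl ⟨h1, glow_kind hO hl hm hthin⟩
  · exact Or.inr (tagM_RV hO hp hm hl h1 h2)

end cf

/-! ### context level -/

section set
variable {P : Bld532.Par} {W : ℕ → ℝ} {t' : IT} {Q : NS → IT → Prop} {p q : ℕ} {m : Me}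

/-- **in the rest the missing tie `p` is processed** -/
theorem rest_lo (hQ : ∀ u τ, Q u τ → NDt P W t' u τ) {n : ℕ} (hO : t'.Ok n) (hp : p ≠ 0)
    {u : NS} {τ : IT} (h : TYP9.Rt t' Q p m u τ) (ht : tp τ < p) (hl : ¬ isL τ)
    (hq : q ∈ τ.items) : pm t' p m q = (t'.mt q).filter (p ≤ ·) :=
  (rest_pm hQ hO hp h ht hl hq).symm.trans (prm_down hp h.rm.pm)

end set

section ctx
open Crest.Agent.R4P.Skel189 Crest.Agent.R4P.Frame758
open Crest.Agent.R4.Soft104 Crest.Agent.R4.Fam464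
open Crest.Agent.R4P.StratX36 Crest.Agent.R4P.TopX36
open Crest.Agent.R4P.GWa343 Crest.Agent.R4P.GWb343 Crest.Agent.R4P.GWc343 Crest.Agent.R4P.GWf343
open Crest.Agent.R4P.GWg343 (FX ctx_BI)
open Crest.Agent.R4P.TrR343
open Crest.Agent.R4P.Walk560 (DT WrN)

variable {N : Skel189.Num} {γ : ℝ} {p0 P₀ : ℕ} {X : Ctx N γ p0 P₀} {Q : NS → IT → Prop}
  {C : ℝ} {p : ℕ} {b : Me × List (DT X.c.Lam (LbX X))} {Z : ℕ → ℝ}

/-- a piece with nonzero content is alive -/
lemma alive_of {u : NS} {τ : IT} (h : NDt X.par (w X.ψ) X.c.t u τ) {j : X.c.Lam} {x : ℝ}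
    (hj : ((X.c.D.par X.Y).toDT X.c.sp u.B u.A τ).g.val j x ≠ 0) : j.1.1 ∈ X.S' := by
  obtain ⟨-, a, h1, -⟩ := ctx_supp h hj
  by_contra hc
  exact h1 (X.om_zero hc _ _)

/-- **a piece of the rest**: alive, levels, processed missing ties -/
structure RestP (X : Ctx N γ p0 P₀) (p : ℕ) (m : Me) (q : ℕ) : Prop where
  pr : 0 < p
  al : q ∈ X.S'
  lv0 : p0 ≤ X.c.lv q
  lv : X.c.lv q < p
  lo : pm X.c.t p m q = Mlo X.c p q

theorem rest_alive (hQ : ∀ u τ, Q u τ → NDt X.par (w X.ψ) X.c.t u τ)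
    (hLv : ∀ u τ, Q u τ → LvF X u τ) (h : InvM X Q C p b) (hp : p ≠ 0) {j : X.c.Lam} {x : ℝ}
    (hj : jv (bN p b.2) j x ≠ 0) : RestP X p b.1 j.1.1 := by
  obtain ⟨u, τ, hs, h1, h2, h3, h4⟩ := rest_node hQ h hp hj
  have k := hLv u τ hs.1.rm.all.self h2 j.1.1 h3
  exact ⟨Nat.pos_of_ne_zero hp, alive_of (hQ _ _ hs.1.rm.all.self) h4, k.1, k.2.trans_lt h1,
    rest_lo hQ X.tOk hp hs.1 h1 h2 h3⟩

section se
variable (hT : TH X) (hR : All (Step588.RdOk X) ⟨Skel189.top X.S, 1, 1, 1⟩ X.c.t)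
  (h10 : X.c.wp.thr (p - 1) ≤ 1 / 10)
include hT hR h10

/-- **(SE, context)** the game label changes: den event or accuracy event -/
theorem ctx_glow_ev {q : ℕ} {m : Me} (h : RestP X p m q)
    (hne : ghi X.c (p - 1) q ≠ glow X.c p q) :
    (∃ κ, DenE X.c p q κ) ∨ ∃ κ, AccE X.c p q κ :=
  glow_ev X.tOk (hT.lam _) (hT.anti _ _ (by have := h.lv0; have := h.lv; omega) (Nat.sub_le p 1))
    (hT.leL _ _ h.lv0 (by have := h.lv; omega)) h10 (X.rpos h.al) (ctx_TLl hT hR h.al _) hne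

/-- **(SE, `RV`, context)** -/
theorem ctx_SE_RV {j : X.c.Lam} {x : ℝ} {m : Me} (h : RestP X p m j.1.1)
    (hS : SE (RV X.c Z) p (pm X.c.t p m j.1.1) Tc x j) :
    (∃ κ, DenE X.c p j.1.1 κ) ∨ (∃ κ, AccE X.c p j.1.1 κ) ∨ ∃ κ, TagE X.c Z p j.1.1 κ := by
  rw [h.lo] at hS
  exact SE_RV' X.tOk h.pr (hT.lam _)
    (hT.anti _ _ (by have := h.lv0; have := h.lv; omega) (Nat.sub_le p 1))
    (hT.leL _ _ h.lv0 (by have := h.lv; omega)) h10 (X.rpos h.al) (ctx_TLl hT hR h.al _) hS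

/-- **(SE, `RVk`, context)** -/
theorem ctx_SE_RVk {j : X.c.Lam} {x : ℝ} {m : Me} (h : RestP X p m j.1.1)
    (hS : SE (RVk X.c Z) p (pm X.c.t p m j.1.1) Tc x j) :
    (∃ κ, DenE X.c p j.1.1 κ) ∨ (∃ κ, AccE X.c p j.1.1 κ) ∨ (∃ κ, TagE X.c Z p j.1.1 κ) ∨
      ∃ κ, CrsE X.c p j.1.1 κ := by
  rw [h.lo] at hS
  exact SE_RVk' X.tOk h.pr (hT.lam _)
    (hT.anti _ _ (by have := h.lv0; have := h.lv; omega) (Nat.sub_le p 1))
    (hT.leL _ _ h.lv0 (by have := h.lv; omega)) h10 (X.rpos h.al) (ctx_TLl hT hR h.al _) hS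

end se

/-! ### ties -/

/-- a piece of a tie or a pull is alive -/
theorem tie_alive (hQ : ∀ u τ, Q u τ → NDt X.par (w X.ψ) X.c.t u τ) (h : InvM X Q C p b)
    {j : X.c.Lam} {x : ℝ} (hj : jv (bB p b.2) j x ≠ 0) : j.1.1 ∈ X.S' := by
  have H := carX (X := X) hQ
  rcases jv_bB_node H h.mi hj with ⟨s, Sp, t₁, t₀, hs, h1⟩ | ⟨s, t₁, hs, h1⟩
  · exact alive_of (hQ _ _ hs.1.rm.all.self) h1
  · exact alive_of (hQ _ _ hs.1.rm.all.self) h1

/-- **(ME, `RV`, context)** the events of the pieces of a tie: only N pieces, a kind which is not `same`,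
or a tag -/
theorem ctx_ME_RV (hT : TH X) (hR : All (Step588.RdOk X) ⟨Skel189.top X.S, 1, 1, 1⟩ X.c.t)
    {j : X.c.Lam} {x y : ℝ} {m : Me} (h : TieP X p m j x) (ha : j.1.1 ∈ X.S')
    (hM : ME (RV X.c Z) p (pm X.c.t p m j.1.1) (pm X.c.t p (tuM p m) j.1.1) Tc x y j) :
    p ∈ X.c.t.mt j.1.1 ∧ ex p j.1.1 = TYJ47.cnt p m.1 ∧
      ((glow X.c p j.1.1 ≠ ghi X.c p j.1.1 ∧ StM142.Kind X.c.γ (X.c.r j.1.1) p (ms X.c p j.1.1)
          (ghi X.c p j.1.1) (glow X.c p j.1.1)) ∨ ∃ κ, MTagE X.c Z p j.1.1 κ) := by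
  rcases h.side with ⟨-, h2⟩ | ⟨h1, h2, h3⟩
  · exact absurd hM (ME_P h2)
  · rw [h1, h.hi] at hM
    exact ⟨h2, h3, ME_RV' X.tOk h2 (hT.lam _) (ctx_thin hT hR ha h2) hM⟩

/-! ### rates -/

section game
open Crest.Agent.R4P.RXm55 Crest.Agent.R4P.RXm55.RXm Crest.Agent.R4P.DTn407
open Crest.Agent.R4P.RGp25 Crest.Agent.R4P.RGd25 Crest.Agent.R4P.Prc49 Crest.Agent.R4P.RXs343
open Crest.Agent.R4P.RSys343 Crest.Agent.R4P.GMer27 Crest.Agent.R4P.GCol27 Crest.Agent.R4P.MSi343
open Crest.Agent.R4P.MSm25 Crest.Agent.R4P.RGf25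

open Classical in
/-- **rate of a static event** -/
noncomputable def rE (c : Cf) (Z : ℕ → ℝ) (p q : ℕ) : ℝ :=
  if (∃ κ, DenE c p q κ) ∨ (∃ κ, AccE c p q κ) ∨ ∃ κ, TagE c Z p q κ then 14 else 0

lemma rE_nonneg (c : Cf) (Z : ℕ → ℝ) (p q : ℕ) : 0 ≤ rE c Z p q := by
  unfold rE
  split_ifs <;> norm_num

open Classical in
/-- the rate is at most the sum of the rates of the three kinds -/
lemma rE_le (c : Cf) (Z : ℕ → ℝ) (p q : ℕ) :
    rE c Z p q ≤ (if ∃ κ, DenE c p q κ then 14 else 0) + (if ∃ κ, AccE c p q κ then 14 else 0) +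
      if ∃ κ, TagE c Z p q κ then 14 else 0 := by
  unfold rE
  by_cases h1 : ∃ κ, DenE c p q κ <;> by_cases h2 : ∃ κ, AccE c p q κ <;>
    by_cases h3 : ∃ κ, TagE c Z p q κ <;> simp only [h1, h2, h3, if_true, if_false, or_true,
      or_false] <;> norm_num

variable {K : Finset ℕ} {spc : ℕ → Me × List (DT X.c.Lam (LbX X)) →
    Ty (Nix X.c (Skel189.top X.S)) (RV X.c Z).K → ℝ → Prop}
  {act : ℕ → Me × List (DT X.c.Lam (LbX X)) → Ty (Nix X.c (Skel189.top X.S)) (RV X.c Z).K →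
    ℝ → LbX X}
  {H : TYp (rhoX X) (TX X (RV X.c Z) spc act) (InvM X Q C)}
  {hNo : NoOut (TX X (RV X.c Z) spc act) (InvM X Q C)} {U : RBm (rxm H)}

end game

end ctx

end Crest.Agent.R4P.StE6
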