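import Crest.Agent.R4P.CrZ_41
import Crest.Agent.R4P.AccF_41
import Crest.Agent.R4P.StE_6
import Crest.Agent.R4P.RtC_28
import Crest.Agent.R4P.ResM2_48

/-!
R4 (S0004) with powers, T3, helper41: **cross pairs of a labelled real class at a tie of a bundle** (C2).

* `one_node` : P content and N content of one bundle at the tie sit in one node `br p`.
* `pm_P`, `pm_N` : processed missing ties of the P and of the N pieces below the tie.
* `tie_pts` : the points of the two pieces (`zb`, circle of the children) on the circle of the node.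
* **`cross_cls`** : P piece `j`, N piece `i` of one labelled real class with a common point, cofactors
  `≤ U` : the low label of `i` is its label, or `AccBad`, or one label is sparse and `Bad2`.
* **`cross_RV`, `cross_RVk`** : the low types are equal, or `AccBad`, or sparse and `Bad2`.
* **`evA`** : the events `AccBad` (cofactors `≤ (log n)^K`) as `CrZ41.Evs`; `evA_le` : their rate.
-/

set_option autoImplicit false
set_option linter.unusedSectionVars false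
set_option linter.unusedVariables false
open MeasureTheory Filter Set

namespace Crest.Agent.R4P.PairX41

open Crest.Agent.R4.Tour104 Crest.Agent.R4.Clos758
open Crest.Agent.R4P.Cnt588 Crest.Agent.R4P.Item758 Crest.Agent.R4P.W363
open Crest.Agent.R4.W363 (off cell cell_eq_iff)
open Crest.Agent.R4P.Data758
open Crest.Agent.R4P.Bld532 (NS All NodeOk Bk dv nd)
open Crest.Agent.R4P.WalkIT579 (tp isL toDT_top toDT_leaf)
open Crest.Agent.R4P.StratN36 (ex)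
open Crest.Agent.R4P.Step588 Crest.Agent.R4P.RseSt23
open Crest.Agent.R4P.DTp26 Crest.Agent.R4P.DTm407
open Crest.Agent.R4P.TYI47 Crest.Agent.R4P.TYJ47 Crest.Agent.R4P.TYK47
open Crest.Agent.R4P.TYP9 Crest.Agent.R4P.RsT47
open Crest.Agent.R4P.StM6 Crest.Agent.R4P.StM246
open Crest.Agent.R4P.StB21 (bt TH LvF)
open Crest.Agent.R4P.Link758 (Bl)
open Crest.Agent.R4P.Walk560 (DT WrN)
open Crest.Agent.R4P.Skel189 Crest.Agent.R4P.Frame758
open Crest.Agent.R4.Soft104 Crest.Agent.R4.Fam464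
open Crest.Agent.R4P.StratX36 Crest.Agent.R4P.TopX36
open Crest.Agent.R4P.GWa343 Crest.Agent.R4P.GWb343 Crest.Agent.R4P.GWc343 Crest.Agent.R4P.GWf343
open Crest.Agent.R4P.TrR343
open Crest.Agent.R4P.Grp36 Crest.Agent.R4P.Bp407 Crest.Agent.R4P.VR407
open Crest.Agent.R4P.GCol27 (wT)
open Crest.Agent.R4P.InN9 (Pt)
open Crest.Agent.R4P.PurA41 Crest.Agent.R4P.PurN41
open Crest.Agent.R4P.AccC41 Crest.Agent.R4P.AccR41 Crest.Agent.R4P.CrZ41
open Crest.Agent.R4P.ResM48 (Bad2 node_rel cong2 tie_dvd_cof)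

/-! ### one tie -/

section list
variable {Λ κ : Type} [Fintype Λ] [DecidableEq Λ] [Fintype κ] [DecidableEq κ]

lemma nA_w {t : DT Λ κ} {j : Λ} {y : ℝ} (h : nA t j y ≠ 0) : wT t ≠ 0 := by
  cases t with
  | br p w r t₁ t₀ v B G =>
    intro hw
    exact h (if_pos hw)
  | _ => exact absurd rfl h

lemma nB_w {t : DT Λ κ} {j : Λ} {y : ℝ} (h : nB t j y ≠ 0) : wT t ≠ 0 := by
  cases t with
  | br p w r t₁ t₀ v B G =>
    intro hw
    exact h (if_pos hw)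
  | _ => exact absurd rfl h

/-- the tie of a bundle is unique -/
lemma one_tie {kd : Λ → κ} {p : ℕ} {K : List (DT Λ κ)} (h : BOk kd p K) {t t' : DT Λ κ}
    (ht : t ∈ K) (ht' : t' ∈ K) (hw : wT t ≠ 0) (hw' : wT t' ≠ 0) : t = t' := by
  have h1 : t ∈ K.filter fun t => decide (wT t ≠ 0) := List.mem_filter.2 ⟨ht, by simpa using hw⟩
  have h2 : t' ∈ K.filter fun t => decide (wT t ≠ 0) := List.mem_filter.2 ⟨ht', by simpa using hw'⟩
  have h3 := h.one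
  generalize K.filter (fun t => decide (wT t ≠ 0)) = L at h1 h2 h3
  match L, h3, h1, h2 with
  | [a], _, h1, h2 => rw [List.mem_singleton.1 h1, List.mem_singleton.1 h2]
  | a :: b :: M, h3, _, _ => simp at h3

end list

section ctx
variable {N : Skel189.Num} {γ : ℝ} {p0 P₀ : ℕ} {X : Ctx N γ p0 P₀} {Q : NS → IT → Prop} {C : ℝ}
  {p : ℕ} {b : Me × List (DT X.c.Lam (LbX X))} {i j : X.c.Lam} {x y : ℝ}

/-- **P content and N content at the tie sit in one node** -/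
theorem one_node (hQ : ∀ u τ, Q u τ → NDt X.par (w X.ψ) X.c.t u τ) (h : InvM X Q C p b)
    (hp : p ≠ 0) {kd : X.c.Lam → LbX X} (hK : BOk kd p (bB p b.2)) {y' : ℝ}
    (hj : pA (bB p b.2) j y ≠ 0) (hi : pB (bB p b.2) i y' ≠ 0) :
    ∃ s Sp t₁ t₀, RtX X Q p b.1 s (.br p Sp t₁ t₀) ∧
      RtX X Q p (tuM p b.1) ⟨p, s.c / (1 - 1 / (p : ℝ)), s.A * p, s.B⟩ t₁ ∧
      RtX X Q p (tuM p b.1) ⟨p, s.c * p, s.A, s.B * p⟩ t₀ ∧
      ((X.c.D.par X.Y).toDT X.c.sp s.B (s.A * p) t₁).g.val j y ≠ 0 ∧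
      ((X.c.D.par X.Y).toDT X.c.sp (s.B * p) s.A t₀).g.val i y' ≠ 0 := by
  have H := carX hQ
  obtain ⟨t, ht, h1⟩ := ls_mem hj
  obtain ⟨t', ht', h2⟩ := ls_mem hi
  have e : t = t' := one_tie hK ht ht' (nA_w h1) (nB_w h2)
  subst e
  rcases bB_cases H h.mi ht with ⟨s, Sp, t₁, t₀, hs, rfl⟩ | ⟨s, t₁, hs, rfl⟩
  · refine ⟨s, Sp, t₁, t₀, hs, (H.br hs).1, (H.br hs).2, ?_, ?_⟩
    · have hw : (1 / (p : ℝ)) ≠ 0 := one_div_ne_zero (by exact_mod_cast hp)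
      have h3 : (if 1 / (p : ℝ) = 0 then 0 else
        ((X.c.D.par X.Y).toDT X.c.sp s.B (s.A * p) t₁).g.val j y) ≠ 0 := h1
      rwa [if_neg hw] at h3
    · have hw : (1 / (p : ℝ)) ≠ 0 := one_div_ne_zero (by exact_mod_cast hp)
      have h3 : (if 1 / (p : ℝ) = 0 then 0 else
        ((X.c.D.par X.Y).toDT X.c.sp (s.B * p) s.A t₀).g.val i y') ≠ 0 := h2
      rwa [if_neg hw] at h3
  · exfalso
    exact nA_w h1 rfl

section sides
variable {s : NS} {Sp : Finset ℕ} {t₁ t₀ : IT} {m : Me} {q : ℕ}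

/-- the processed missing ties of a P piece -/
lemma pm_P (hQ : ∀ u τ, Q u τ → NDt X.par (w X.ψ) X.c.t u τ)
    (hs : RtX X Q p m s (.br p Sp t₁ t₀)) (hq : q ∈ t₁.items) :
    pm X.c.t p (tuM p m) q = (X.c.t.mt q).filter (p < ·) := by
  have hn := hQ _ _ hs.1.rm.all.self
  have hpr : p.Prime := prime_of_br hn.self.node
  have hl : ¬ isL (IT.br p Sp t₁ t₀) := fun h => h
  have hP := ((carX hQ).br hs).1
  have hn1 := hQ _ _ hP.1.rm.all.self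
  have hx := hs.1.rm.exA hl rfl
  have e1 : ex p q ≠ TYJ47.cnt p m.1 := by
    have h5 : ex p (s.A * p) ≤ ex p q :=
      Crest.Agent.R4P.StratN36.ex_le (hn1.bk.pos _ hq) (hn1.bk.dvd _ hq)
    rw [ex_mul hpr hn.bk.Apos, hx] at h5
    omega
  rw [pm_tu, if_neg e1]
  exact hs.1.hi hQ hl rfl (Finset.mem_union_left _ hq)

/-- the processed missing ties of an N piece -/
lemma pm_N (hQ : ∀ u τ, Q u τ → NDt X.par (w X.ψ) X.c.t u τ)
    (hs : RtX X Q p m s (.br p Sp t₁ t₀)) (hq : q ∈ t₀.items) :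
    pm X.c.t p (tuM p m) q = (X.c.t.mt q).filter (p ≤ ·) ∧ p ∈ X.c.t.mt q := by
  have hn := hQ _ _ hs.1.rm.all.self
  have hpr : p.Prime := prime_of_br hn.self.node
  have hl : ¬ isL (IT.br p Sp t₁ t₀) := fun h => h
  have hN := ((carX hQ).br hs).2
  have hn0 := hQ _ _ hN.1.rm.all.self
  have hhi := hs.1.hi hQ hl rfl (Finset.mem_union_right t₁.items hq)
  have e2 := hN.1.rm.pf hQ X.tOk hq
  have hpB : p ∈ (s.B * p).primeFactors :=
    Nat.mem_primeFactors.2 ⟨hpr, Dvd.intro_left _ rfl, hn0.bk.sfB.ne_zero⟩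
  have hpm : p ∈ X.c.t.mt q := by
    have : p ∈ prm X.c.t p (tuM p m).1 q := by rw [← e2]; exact hpB
    exact (Finset.mem_filter.1 this).1
  have e1 : ex p q = TYJ47.cnt p m.1 := by
    by_contra h5
    have e3 : pm X.c.t p (tuM p m) q = pm X.c.t p m q := by
      rw [pm_tu, if_neg h5]
    have h6 : p ∈ pm X.c.t p (tuM p m) q := by
      show p ∈ prm X.c.t p (tuM p m).1 q
      rw [← e2]; exact hpB
    rw [e3, hhi] at h6
    exact absurd (Finset.mem_filter.1 h6).2 (lt_irrefl p)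
  exact ⟨by rw [pm_tu, if_pos e1], hpm⟩

end sides

/-- the point of a node and its radius -/
lemma zb_r (hQ : ∀ u τ, Q u τ → NDt X.par (w X.ψ) X.c.t u τ) (hd1 : X.c.d1 * Kc X.S ≤ 1)
    {m : Me} {u : NS} {τ : IT} (hs : RtX X Q p m u τ)
    (hj : ((X.c.D.par X.Y).toDT X.c.sp u.B u.A τ).g.val j x ≠ 0) :
    j.1.1 ∈ X.S' ∧ |zb X.c p m x j| ≤ X.c.r j.1.1 := by
  have hn := hQ _ _ hs.1.rm.all.self
  obtain ⟨hq, g1, g2, a, ez⟩ := node_zb hQ hd1 hs hj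
  have hv : (X.g u τ).val j x ≠ 0 := by
    have h1 := hj
    rw [(X.c.D.par X.Y).toDT_g] at h1
    exact h1
  obtain ⟨m1, m2, z, a', hP⟩ := InN9.pt_of_ne hn hv
  refine ⟨m2, ?_⟩
  have hB0 : 0 < u.B := hn.B_pos
  have hBr : (0 : ℝ) < u.B := by exact_mod_cast hB0
  have hwl := AddNode7.win_len hd1 hn (j := j) hq
  rw [Nat.cast_one, div_one, ← mul_sub] at hwl
  -- the two points are equal: the window is shorter than 1
  have h1 : (u.B : ℝ) * (z - zb X.c p m x j) = ((a - a' : ℤ) : ℝ) := by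
    push_cast
    rw [mul_sub, hP.hz, ez]
    ring
  have h2 : |z - zb X.c p m x j| < X.c.bp j.1.1 (j.1.2 + 1) - X.c.bp j.1.1 j.1.2 := by
    have k1 : X.c.bp j.1.1 j.1.2 ≤ z := hP.za
    have k2 : z < X.c.bp j.1.1 (j.1.2 + 1) := hP.zb
    rw [abs_lt]
    constructor <;> linarith
  have h3 : |((a - a' : ℤ) : ℝ)| < 1 := by
    rw [← h1, abs_mul, abs_of_pos hBr]
    exact (mul_lt_mul_of_pos_left h2 hBr).trans_le hwl
  have h4 : a - a' = 0 := by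
    have : |a - a'| < 1 := by exact_mod_cast h3
    exact Int.abs_lt_one_iff.1 this
  have h5 : z = zb X.c p m x j := by
    rw [h4] at h1
    have h6 : z - zb X.c p m x j = 0 := by
      have : (u.B : ℝ) * (z - zb X.c p m x j) = 0 := by rw [h1]; simp
      rcases mul_eq_zero.1 this with h | h
      · exact absurd h hBr.ne'
      · exact h
    linarith
  rw [← h5]
  exact hP.zr

/-- **the points of a P piece and of an N piece of a tie on the circle of the node** -/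
theorem tie_pts (hQ : ∀ u τ, Q u τ → NDt X.par (w X.ψ) X.c.t u τ) (hd1 : X.c.d1 * Kc X.S ≤ 1)
    {m : Me} {s : NS} {Sp : Finset ℕ} {t₁ t₀ : IT} (hs : RtX X Q p m s (.br p Sp t₁ t₀))
    (hj : ((X.c.D.par X.Y).toDT X.c.sp s.B (s.A * p) t₁).g.val j y ≠ 0)
    (hi : ((X.c.D.par X.Y).toDT X.c.sp (s.B * p) s.A t₀).g.val i y ≠ 0) :
    j.1.1 ∈ t₁.items ∧ i.1.1 ∈ t₀.items ∧ j.1.1 ∈ X.S' ∧ i.1.1 ∈ X.S' ∧
      ∃ (x : ℝ) (a a' : ℤ), Pt X s j x (zb X.c p (tuM p m) y j) a ∧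
        Pt X s i x (zb X.c p (tuM p m) y i) a' := by
  obtain ⟨hP, hN⟩ := (carX hQ).br hs
  have hn := hQ _ _ hs.1.rm.all.self
  have F := RtC28.tF hn
  obtain ⟨hq, g1, g2, a, ez⟩ := node_zb hQ hd1 hP (j := j) (x := y) hj
  obtain ⟨hq', g1', g2', a', ez'⟩ := node_zb hQ hd1 hN (j := i) (x := y) hi
  obtain ⟨hS, hr⟩ := zb_r hQ hd1 hP (j := j) (x := y) hj
  obtain ⟨hS', hr'⟩ := zb_r hQ hd1 hN (j := i) (x := y) hi
  have hq1 : j.1.1 ∈ t₁.items := hq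
  have hq0 : i.1.1 ∈ t₀.items := hq'
  refine ⟨hq1, hq0, hS, hS', ?_⟩
  have hp0 : (0 : ℝ) < p := by exact_mod_cast F.pr.pos
  obtain ⟨l, a3, h3⟩ := RtC28.conv_int F.pr (F.d0 _ hq0).2.2 a'
  have h3' : (p : ℝ) * a3 = a' + ((i.1.1 / s.A : ℕ) : ℝ) * l := by
    generalize i.1.1 / s.A = W at h3 ⊢
    exact_mod_cast h3
  have ez1 : (s.B : ℝ) * zb X.c p (tuM p m) y j =
    ((j.1.1 / (s.A * p) : ℕ) : ℝ) * y - s.B * X.c.γ - a := ez
  have ez2 : ((s.B * p : ℕ) : ℝ) * zb X.c p (tuM p m) y i =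
    ((i.1.1 / s.A : ℕ) : ℝ) * y - ((s.B * p : ℕ) : ℝ) * X.c.γ - a' := ez'
  refine ⟨(y + l) / p, a + (j.1.1 / (s.A * p) : ℕ) * l, a3, ⟨?_, hr, g1, g2⟩, ⟨?_, hr', g1', g2'⟩⟩
  · rw [ez1, F.div1 hq1]
    generalize j.1.1 / (s.A * p) = W
    have e : ((p * W : ℕ) : ℝ) * ((y + l) / p) = W * (y + l) := by
      push_cast
      field_simp
    rw [e]
    push_cast
    ring
  · generalize zb X.c p (tuM p m) y i = z' at ez2
    generalize i.1.1 / s.A = W at ez2 h3'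
    have e : (p : ℝ) * ((s.B : ℝ) * z') =
        p * ((W : ℝ) * ((y + l) / p) - s.B * X.c.γ - a3) := by
      have e1 : (p : ℝ) * ((s.B : ℝ) * z') = ((s.B * p : ℕ) : ℝ) * z' := by push_cast; ring
      have e2 : (p : ℝ) * ((W : ℝ) * ((y + l) / p) - s.B * X.c.γ - a3) =
          W * (y + l) - p * (s.B * X.c.γ) - p * a3 := by
        field_simp
      rw [e1, ez2, e2, h3']
      push_cast
      ring
    exact mul_left_cancel₀ hp0.ne' e

/-! ### the cross lemma -/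

/-- the low state of an N piece from its list state -/
lemma low_of {q : ℕ} {σ : ℚ} (hp : 0 < p) (hm : p ∈ X.c.t.mt q)
    (h : sta X.c.wp.thr X.c.γ (X.c.r q) (p :: lst (X.c.t.mt q) p) p = some σ) :
    low X.c p q = some σ := by
  unfold low
  have e : ms X.c (p - 1) q = p :: ms X.c p q := lst_pred_cons hp hm
  rw [e]
  exact stl_some h

/-- **a cross pair at a tie**: one node, common point, radii, thin N piece -/
structure XP (X : Ctx N γ p0 P₀) (Q : NS → IT → Prop) (p : ℕ) (m : Me) (j i : X.c.Lam) (y : ℝ)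
    (s : NS) (Sp : Finset ℕ) (t₁ t₀ : IT) : Prop where
  hs : RtX X Q p m s (.br p Sp t₁ t₀)
  nd : NDt X.par (w X.ψ) X.c.t s (.br p Sp t₁ t₀)
  pr : p.Prime
  q1 : j.1.1 ∈ t₁.items
  q0 : i.1.1 ∈ t₀.items
  S1 : j.1.1 ∈ X.S'
  S0 : i.1.1 ∈ X.S'
  cf : ∃ u₁ : ℕ, 0 < u₁ ∧ j.1.1 / Nat.gcd j.1.1 i.1.1 = p * u₁
  cf0 : ¬ p ∣ i.1.1 / Nat.gcd i.1.1 j.1.1
  B1 : (ms X.c p j.1.1).prod = s.B
  B0 : (ms X.c p i.1.1).prod = s.B
  mt : p ∈ X.c.t.mt i.1.1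
  thin : (s.B : ℝ) * X.c.r i.1.1 ≤ X.c.wp.thr p
  pt : ∃ (x : ℝ) (a a' : ℤ), Pt X s j x (zb X.c p (tuM p m) y j) a ∧
    Pt X s i x (zb X.c p (tuM p m) y i) a'
  v1 : ((X.c.D.par X.Y).toDT X.c.sp s.B (s.A * p) t₁).g.val j y ≠ 0
  v0 : ((X.c.D.par X.Y).toDT X.c.sp (s.B * p) s.A t₀).g.val i y ≠ 0

/-- the cofactors of a P item and of an N item -/
lemma cof_tie {s : NS} {Sp : Finset ℕ} {t₁ t₀ : IT}
    (h : NDt X.par (w X.ψ) X.c.t s (.br p Sp t₁ t₀)) {q r : ℕ} (hq : q ∈ t₁.items)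
    (hr : r ∈ t₀.items) : (∃ u₁ : ℕ, 0 < u₁ ∧ q / Nat.gcd q r = p * u₁) ∧
      ¬ p ∣ r / Nat.gcd r q := by
  have F := RtC28.tF h
  obtain ⟨hq0, hq1⟩ := F.d1 q hq
  obtain ⟨hr0, hr1, hr2⟩ := F.d0 r hr
  have hAq : s.A ∣ q := (Dvd.intro p rfl).trans hq1
  have e1 : (q / s.A) / Nat.gcd (q / s.A) (r / s.A) = q / Nat.gcd q r :=
    RseNd23.cof_div F.a0 hAq hr1
  have e2 : (r / s.A) / Nat.gcd (r / s.A) (q / s.A) = r / Nat.gcd r q :=
    RseNd23.cof_div F.a0 hr1 hAq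
  have hw : 0 < q / s.A := Nat.div_pos (Nat.le_of_dvd hq0 hAq) F.a0
  have hw' : 0 < r / s.A := Nat.div_pos (Nat.le_of_dvd hr0 hr1) F.a0
  have hpd : p ∣ q / s.A := by rw [F.div1 hq]; exact Dvd.intro _ rfl
  obtain ⟨u₁, k1, k2⟩ := tie_dvd_cof F.pr hw' hpd hr2
  refine ⟨⟨u₁, k2 hw, by rw [← e1]; exact k1⟩, fun hd => hr2 ?_⟩
  rw [← e2] at hd
  exact hd.trans (Nat.div_dvd_of_dvd (Nat.gcd_dvd_left _ _))

theorem xp (hQ : ∀ u τ, Q u τ → NDt X.par (w X.ψ) X.c.t u τ) (hd1 : X.c.d1 * Kc X.S ≤ 1)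
    (hT : TH X) (hR : All (Step588.RdOk X) ⟨Skel189.top X.S, 1, 1, 1⟩ X.c.t)
    (h : InvM X Q C p b) (hp : p ≠ 0) {kd : X.c.Lam → LbX X} (hK : BOk kd p (bB p b.2))
    (hj : pA (bB p b.2) j y ≠ 0) (hi : pB (bB p b.2) i y ≠ 0) :
    ∃ s Sp t₁ t₀, XP X Q p b.1 j i y s Sp t₁ t₀ := by
  obtain ⟨s, Sp, t₁, t₀, hs, hP, hN, h1, h0⟩ := one_node hQ h hp hK hj hi
  obtain ⟨q1, q0, S1, S0, hpt⟩ := tie_pts hQ hd1 hs h1 h0
  have hn := hQ _ _ hs.1.rm.all.self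
  have hn1 := hQ _ _ hP.1.rm.all.self
  have hl : ¬ isL (IT.br p Sp t₁ t₀) := fun h => h
  have F := RtC28.tF hn
  have e1 : Bl X.c (tp (IT.br p Sp t₁ t₀)) j.1.1 = s.B :=
    StB21.Bl_node hn hl (Finset.mem_union_left _ q1)
  have e0 : Bl X.c (tp (IT.br p Sp t₁ t₀)) i.1.1 = s.B :=
    StB21.Bl_node hn hl (Finset.mem_union_right _ q0)
  have hm := (pm_N hQ hs q0).2
  have hth := ctx_thin hT hR S0 hm
  have e0' : (ms X.c p i.1.1).prod = s.B := e0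
  rw [e0'] at hth
  obtain ⟨c1, c2⟩ := cof_tie hn q1 q0
  exact ⟨s, Sp, t₁, t₀, hs, hn, F.pr, q1, q0, S1, S0, c1, c2, e1, e0, hm, hth, hpt, h1, h0⟩

/-- the world indices of the pieces of one real class -/
lemma cls_ix (h : rhoX X p j = rhoX X p i) :
    (X.c.world p j.1).1 = (X.c.world p i.1).1 := by
  have h1 := (X.c.D.rho_eq X.Y p j i).1 h
  have h2 := (Cf.D_rho _ _ _ _).1 h1
  exact (Prod.ext_iff.1 h2).1

/-- the accuracy event from its data (`AccC41.acc_of` with prime powers) -/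
theorem acc_of2 {s : NS} {Sp : Finset ℕ} {t₁ t₀ : IT} {m : Me} (V : XP X Q p m j i y s Sp t₁ t₀)
    (hix : (X.c.world p j.1).1 = (X.c.world p i.1).1) {σ σ' : ℚ}
    (hs : X.c.st p j.1.1 = some σ) (hs' : X.c.st p i.1.1 = some σ')
    (hown : lab0 X.c.γ (X.c.r i.1.1) s.B = some σ')
    (h32 : 32 * (((p * s.B : ℕ) : ℝ) * X.c.r i.1.1) ≤ 1)
    (hacc : (((p * s.B : ℕ) : ℝ) * X.c.r i.1.1) ^ 4 <
      |((p * s.B : ℕ) : ℝ) * X.c.γ - ((p * s.B : ℕ) : ℝ) * σ'| ^ 5)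
    (hd : ((((s.B : ℚ) * σ').den : ℝ)) ^ 5 * X.c.wp.thr p ≤ 1) {U : ℝ}
    (hU : ((j.1.1 / Nat.gcd j.1.1 i.1.1 : ℕ) : ℝ) ≤ p * U)
    (hV : ((i.1.1 / Nat.gcd i.1.1 j.1.1 : ℕ) : ℝ) ≤ U) :
    AccBad X.c U (zb X.c p (tuM p m) y j) j.1.1 p := by
  obtain ⟨x, a, a', p1, p2⟩ := V.pt
  have hl : ¬ isL (IT.br p Sp t₁ t₀) := fun h => h
  have hW := node_win V.nd V.hs.2 hix (Finset.mem_union_left _ V.q1)
    (Finset.mem_union_right _ V.q0) p1 p2 hs hs' V.pr.pos h32 hacc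
  have hq0 : 0 < j.1.1 := X.sys.pos _ (X.mem_S j)
  have hr0 : 0 < i.1.1 := X.sys.pos _ (X.mem_S i)
  obtain ⟨u₁, e2, e1⟩ := V.cf
  have hB' : (0 : ℝ) < s.B := by exact_mod_cast V.nd.B_pos
  have ht' : (0 : ℝ) < p := by exact_mod_cast V.pr.pos
  have eB : Bl X.c p j.1.1 = s.B := V.B1
  refine ⟨σ, σ', hs, ?_, ?_, ?_, u₁, i.1.1 / Nat.gcd i.1.1 j.1.1, e2, ?_, ?_, hV, ?_⟩
  · rw [eB]
    exact hd
  · rw [eB]
    have hL := (lab0_spec V.nd.B_pos hown).near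
    have e : |(s.B : ℝ) * X.c.γ - ((s.B * σ' : ℚ) : ℝ)| = s.B * |X.c.γ - σ'| := by
      push_cast
      rw [← mul_sub, abs_mul, abs_of_pos hB']
    rw [e] at hL
    have h1 : ((p * s.B : ℕ) : ℝ) * X.c.r i.1.1 ≤ 1 := by
      have : 0 ≤ ((p * s.B : ℕ) : ℝ) * X.c.r i.1.1 :=
        mul_nonneg (Nat.cast_nonneg _) (Cf.r_pos i).le
      linarith
    have h2 : 0 ≤ ((p * s.B : ℕ) : ℝ) * X.c.r i.1.1 :=
      mul_nonneg (Nat.cast_nonneg _) (Cf.r_pos i).le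
    calc ((s.B : ℝ) * |X.c.γ - σ'|) ^ 5 * (p : ℝ) ^ 4 ≤
        ((s.B : ℝ) * X.c.r i.1.1) ^ 4 * (p : ℝ) ^ 4 :=
          mul_le_mul_of_nonneg_right hL (by positivity)
      _ = (((p * s.B : ℕ) : ℝ) * X.c.r i.1.1) ^ 4 := by push_cast; ring
      _ ≤ 1 := pow_le_one₀ h2 h1
  · intro hc
    rw [hc, sub_self, abs_zero, zero_pow (by norm_num)] at hacc
    have : 0 ≤ (((p * s.B : ℕ) : ℝ) * X.c.r i.1.1) ^ 4 := by positivity
    linarith
  · exact Nat.div_pos (Nat.le_of_dvd hr0 (Nat.gcd_dvd_left _ _)) (Nat.gcd_pos_of_pos_left _ hr0)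
  · rw [e1] at hU
    push_cast at hU
    exact le_of_mul_le_mul_left hU ht'
  · rw [e1] at hW
    exact hW

/-- **the label of the N piece below the tie**: kept, or the accuracy event of the P piece, or sparse -/
theorem cross_low {s : NS} {Sp : Finset ℕ} {t₁ t₀ : IT} {m : Me}
    (V : XP X Q p m j i y s Sp t₁ t₀) (hT : TH X) (h32 : X.c.wp.thr p ≤ 1 / 32)
    (hix : (X.c.world p j.1).1 = (X.c.world p i.1).1) {σ σ' : ℚ}
    (hs : X.c.st p j.1.1 = some σ) (hs' : X.c.st p i.1.1 = some σ') {U : ℝ}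
    (hU : ((j.1.1 / Nat.gcd j.1.1 i.1.1 : ℕ) : ℝ) ≤ p * U)
    (hV : ((i.1.1 / Nat.gcd i.1.1 j.1.1 : ℕ) : ℝ) ≤ U) :
    low X.c p i.1.1 = some σ' ∨ AccBad X.c U (zb X.c p (tuM p m) y j) j.1.1 p ∨
      ¬ dense (X.c.wp.thr p) s.B σ' := by
  have hl : ¬ isL (IT.br p Sp t₁ t₀) := fun h => h
  have hr0 : 0 < X.c.r i.1.1 := Cf.r_pos i
  have hown : lab0 X.c.γ (X.c.r i.1.1) s.B = some σ' := by
    rw [← StB21.node_thin hT V.nd hl (Finset.mem_union_right _ V.q0) V.thin]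
    exact hs'
  have hLp : (lst (X.c.t.mt i.1.1) p).prod = s.B := V.B0
  have hs2 : sta X.c.wp.thr X.c.γ (X.c.r i.1.1) (lst (X.c.t.mt i.1.1) p) p = some σ' := by
    rw [sta_thin (by rw [hLp]; exact V.thin), hLp, hown]
  rcases PurN41.low_s (thr := X.c.wp.thr) (p := p) (by rw [hLp]; exact V.nd.B_pos) V.pr.pos hr0
    (by linarith) hs2 with k | ⟨k1, k2⟩
  · exact Or.inl (low_of V.pr.pos V.mt k)
  right
  rw [hLp] at k1 k2
  by_cases hd : ((((s.B : ℚ) * σ').den : ℝ)) ^ 5 * X.c.wp.thr p ≤ 1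
  · left
    exact acc_of2 V hix hs hs' hown (by linarith) (k2.acc k1 hr0.le hd) hd hU hV
  · exact Or.inr hd

/-- the relation of the labels -/
theorem cross_bad {s : NS} {Sp : Finset ℕ} {t₁ t₀ : IT} {m : Me}
    (V : XP X Q p m j i y s Sp t₁ t₀) (hix : (X.c.world p j.1).1 = (X.c.world p i.1).1)
    {σ σ' : ℚ} (hs : X.c.st p j.1.1 = some σ) (hs' : X.c.st p i.1.1 = some σ') {U : ℕ}
    (hU : j.1.1 / Nat.gcd j.1.1 i.1.1 ≤ p * U) (hV : i.1.1 / Nat.gcd i.1.1 j.1.1 ≤ U) :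
    Bad2 ((s.B : ℚ) * σ) ((s.B : ℚ) * σ') U p := by
  obtain ⟨x, a, a', p1, p2⟩ := V.pt
  have hr0 : 0 < i.1.1 := X.sys.pos _ (X.mem_S i)
  obtain ⟨u₁, e2, e1⟩ := V.cf
  have h1 := node_rel V.nd V.hs.2 hix (Finset.mem_union_left _ V.q1)
    (Finset.mem_union_right _ V.q0) p1 p2 hs hs'
  obtain ⟨k, hk⟩ := cong2 (κ := (s.B : ℚ) * σ) (μ := (s.B : ℚ) * σ') h1
  rw [e1] at hk hU
  exact ⟨u₁, i.1.1 / Nat.gcd i.1.1 j.1.1, e2, Nat.le_of_mul_le_mul_left hU V.pr.pos,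
    Nat.div_pos (Nat.le_of_dvd hr0 (Nat.gcd_dvd_left _ _)) (Nat.gcd_pos_of_pos_left _ hr0), hV,
    k, hk⟩

/-! ### the types -/

/-- the index of the type of a P piece with its real label -/
lemma ix_P (hQ : ∀ u τ, Q u τ → NDt X.par (w X.ψ) X.c.t u τ) (hd1 : X.c.d1 * Kc X.S ≤ 1)
    {s : NS} {τ : IT} {m : Me} (hs : RtX X Q p m s τ)
    (hj : ((X.c.D.par X.Y).toDT X.c.sp s.B s.A τ).g.val j y ≠ 0) :
    ixp X.c p (X.c.st p j.1.1) (pm X.c.t p m j.1.1) m.2 y j = (X.c.world p j.1).1 := by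
  have hn := hQ _ _ hs.1.rm.all.self
  obtain ⟨hq, g1, g2, a, ez⟩ := node_zb hQ hd1 hs hj
  have eB := hs.1.B_eq hQ X.tOk hq
  have ew := hs.1.w_eq hQ X.tOk hq
  have hwl := AddNode7.win_len hd1 hn (j := j) hq
  rw [Nat.cast_one, div_one, ← mul_sub] at hwl
  have hBr : (0 : ℝ) < s.B := by exact_mod_cast hn.B_pos
  refine ixp_st X.ok hs.2 (a := a) (z := zb X.c p m y j) (by rw [eB]; exact hn.B_pos)
    (by rw [eB, ew]; exact ez) g1 g2 ?_
  rw [eB]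
  exact lt_of_lt_of_le (mul_lt_mul_of_pos_left (by have := g2; show zb X.c p m y j - X.c.bp j.1.1 j.1.2 < _; linarith) hBr) hwl

section types
variable {s : NS} {Sp : Finset ℕ} {t₁ t₀ : IT} {m : Me}

/-- **equal types**: dense labels, the label of the N piece stays (label rule `gr`, tag `1` on dense
pieces) -/
theorem tp_cross (hQ : ∀ u τ, Q u τ → NDt X.par (w X.ψ) X.c.t u τ) (hd1 : X.c.d1 * Kc X.S ≤ 1)
    (hT : TH X) (V : XP X Q p m j i y s Sp t₁ t₀)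
    (hix : (X.c.world p j.1).1 = (X.c.world p i.1).1) {σ σ' : ℚ}
    (hs : X.c.st p j.1.1 = some σ) (hs' : X.c.st p i.1.1 = some σ')
    (hlow : low X.c p i.1.1 = some σ') (hd : dense (X.c.wp.thr p) s.B σ)
    (hd' : dense (X.c.wp.thr p) s.B σ') (h0 : 0 ≤ X.c.wp.thr p)
    {tg : ℕ → Finset ℕ → ℕ → ℕ} {K : ℕ}
    (htg : ∀ (M : Finset ℕ) (q : ℕ) (κ : ℚ), rs X.c p M q = some κ → gr X.c p M q = some κ →
      dense (X.c.wp.thr p) (Bm M) κ → tg p M q = 1) :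
    (RC X.c (gr X.c) tg K).tp (Skel189.top X.S) p (tuM p m) y j =
      (RC X.c (gr X.c) tg K).tp (Skel189.top X.S) p (tuM p m) y i := by
  have hl : ¬ isL (IT.br p Sp t₁ t₀) := fun h => h
  obtain ⟨hP, hN⟩ := (carX hQ).br V.hs
  have e1 := pm_P hQ V.hs V.q1
  obtain ⟨e0, -⟩ := pm_N hQ V.hs V.q0
  have hp0 : 0 < p := V.pr.pos
  -- P piece
  have r1 : rs X.c p (pm X.c.t p (tuM p m) j.1.1) j.1.1 = some σ := by
    rw [e1, rs_hi (hT.lam p), hs]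
  have b1 : Bm (pm X.c.t p (tuM p m) j.1.1) = s.B := hP.1.B_eq hQ X.tOk V.q1
  have L1 : (Ls (pm X.c.t p (tuM p m) j.1.1)).prod = s.B := by rw [Ls_prod, b1]
  have g1 : gr X.c p (pm X.c.t p (tuM p m) j.1.1) j.1.1 = some σ := by
    unfold gr
    exact gl_dense r1 (by rw [L1]; exact hd)
  -- N piece
  have r0 : rs X.c p (pm X.c.t p (tuM p m) i.1.1) i.1.1 = some σ' := by
    rw [e0, rs_lo hp0, hlow]
  have b0 : Bm (pm X.c.t p (tuM p m) i.1.1) = s.B * p := hN.1.B_eq hQ X.tOk V.q0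
  have L0 : (Ls (pm X.c.t p (tuM p m) i.1.1)).prod = s.B * p := by rw [Ls_prod, b0]
  have hd0 : dense (X.c.wp.thr p) (s.B * p) σ' := by
    rw [mul_comm]
    exact dense_mul h0 hd'
  have g0 : gr X.c p (pm X.c.t p (tuM p m) i.1.1) i.1.1 = some σ' := by
    unfold gr
    exact gl_dense r0 (by rw [L0]; exact hd0)
  have i1 := ix_P hQ hd1 hP (j := j) (y := y) V.v1
  have i0 := ix_P hQ hd1 hN (j := i) (y := y) V.v0
  rw [hs] at i1
  rw [hs'] at i0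
  have a1 : (RC X.c (gr X.c) tg K).it p (pm X.c.t p (tuM p m) j.1.1) (tuM p m).2 y j =
      ((X.c.world p j.1).1, 1) := by
    show (ixp X.c p (gr X.c p _ j.1.1) _ _ y j, tg p _ j.1.1) = _
    rw [g1, htg _ _ _ r1 g1 (by rw [b1]; exact hd), i1]
  have a0 : (RC X.c (gr X.c) tg K).it p (pm X.c.t p (tuM p m) i.1.1) (tuM p m).2 y i =
      ((X.c.world p i.1).1, 1) := by
    show (ixp X.c p (gr X.c p _ i.1.1) _ _ y i, tg p _ i.1.1) = _
    rw [g0, htg _ _ _ r0 g0 (by rw [b0]; exact hd0), i0]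
  unfold Rule.tp
  rw [a1, a0, hix]

/-- the tag of `RV` of a dense piece -/
lemma tg_RV {Z : ℕ → ℝ} {M : Finset ℕ} {q : ℕ} {κ : ℚ} (hg : gr X.c p M q = some κ)
    (hd : dense (X.c.wp.thr p) (Bm M) κ) : tagZ X.c Z p (gr X.c p M q) M q = 1 := by
  refine tagZ_dense fun κ' h => ?_
  rw [hg] at h
  rw [← Option.some.inj h]
  exact hd

/-- **the cross lemma** (`RV`): a cross pair of a labelled real class at a tie, cofactors `≤ U`: the low
types are equal, or the accuracy event of the P piece, or one label is sparse and `Bad2` -/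
theorem cross_RV (hQ : ∀ u τ, Q u τ → NDt X.par (w X.ψ) X.c.t u τ) (hd1 : X.c.d1 * Kc X.S ≤ 1)
    (hT : TH X) (V : XP X Q p m j i y s Sp t₁ t₀) (hpp : p0 ≤ p)
    (h32 : X.c.wp.thr p ≤ 1 / 32) (hix : (X.c.world p j.1).1 = (X.c.world p i.1).1) {σ σ' : ℚ}
    (hs : X.c.st p j.1.1 = some σ) (hs' : X.c.st p i.1.1 = some σ') {U : ℝ}
    (hU : ((j.1.1 / Nat.gcd j.1.1 i.1.1 : ℕ) : ℝ) ≤ p * U)
    (hV : ((i.1.1 / Nat.gcd i.1.1 j.1.1 : ℕ) : ℝ) ≤ U) (Z : ℕ → ℝ) :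
    ((RV X.c Z).tp (Skel189.top X.S) p (tuM p m) y j =
        (RV X.c Z).tp (Skel189.top X.S) p (tuM p m) y i ∧
      (RVk X.c Z).tp (Skel189.top X.S) p (tuM p m) y j =
        (RVk X.c Z).tp (Skel189.top X.S) p (tuM p m) y i) ∨
      AccBad X.c U (zb X.c p (tuM p m) y j) j.1.1 p ∨
      ((¬ dense (X.c.wp.thr p) s.B σ ∨ ¬ dense (X.c.wp.thr p) s.B σ') ∧
        Bad2 ((s.B : ℚ) * σ) ((s.B : ℚ) * σ') ⌊U⌋₊ p) := by
  by_cases hd : dense (X.c.wp.thr p) s.B σ ∧ dense (X.c.wp.thr p) s.B σ'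
  · obtain ⟨hd, hd'⟩ := hd
    rcases cross_low V hT h32 hix hs hs' hU hV with h1 | h1 | h1
    · left
      have h0 : 0 ≤ X.c.wp.thr p := (hT.pos p (by exact_mod_cast hpp)).le
      refine ⟨tp_cross hQ hd1 hT V hix hs hs' h1 hd hd' h0 fun M q κ _ h4 h5 => tg_RV h4 h5,
        tp_cross hQ hd1 hT V hix hs hs' h1 hd hd' h0 fun M q κ h3 h4 h5 => ?_⟩
      rw [if_neg, tg_RV h4 h5]
      rintro ⟨κ', h6, h7⟩
      rw [h3] at h6
      rw [← Option.some.inj h6] at h7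
      exact h7 h5
    · exact Or.inr (Or.inl h1)
    · exact absurd hd' h1
  · right; right
    have hU0 : 0 ≤ U := le_trans (Nat.cast_nonneg _) hV
    refine ⟨by tauto, cross_bad V hix hs hs' ?_ (Nat.le_floor hV)⟩
    obtain ⟨u₁, e2, e1⟩ := V.cf
    rw [e1] at hU ⊢
    push_cast at hU
    have ht' : (0 : ℝ) < p := by exact_mod_cast V.pr.pos
    exact Nat.mul_le_mul_left _ (Nat.le_floor (le_of_mul_le_mul_left hU ht'))

end types

end ctx

/-! ### the accuracy events with their rate -/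

lemma meas_Win (γ : ℝ) (σ μ : ℚ) (x v : ℕ) : MeasurableSet {z : ℝ | Win γ z σ μ x v} := by
  have h1 : Measurable fun z : ℝ => 2 * ((v : ℝ) * |z + (γ - σ)|) :=
    (((measurable_id.add_const _).abs).const_mul _).const_mul _
  exact (measurableSet_le measurable_const h1).inter (measurableSet_le h1 measurable_const)

lemma meas_Ev (γ U t : ℝ) (n B : ℕ) (σ μ : ℚ) : MeasurableSet {z : ℝ | Ev γ z U t n B σ μ} := by
  by_cases h : (((B : ℚ) * μ).den : ℝ) ^ 5 * t ≤ 1 ∧ ((B : ℝ) * |γ - μ|) ^ 5 * (n : ℝ) ^ 4 ≤ 1 ∧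
      γ ≠ μ
  · have e : {z : ℝ | Ev γ z U t n B σ μ} = ⋃ u : ℕ, ⋃ v : ℕ,
        {z : ℝ | (0 < u ∧ 0 < v ∧ (u : ℝ) ≤ U ∧ (v : ℝ) ≤ U) ∧ Win γ z σ μ (n * u) v} := by
      ext z
      simp only [Set.mem_iUnion, Set.mem_ofPred_eq]
      constructor
      · rintro ⟨-, -, -, u, v, h1, h2, h3, h4, h5⟩
        exact ⟨u, v, ⟨h1, h2, h3, h4⟩, h5⟩
      · rintro ⟨u, v, ⟨h1, h2, h3, h4⟩, h5⟩
        exact ⟨h.1, h.2.1, h.2.2, u, v, h1, h2, h3, h4, h5⟩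
    rw [e]
    exact MeasurableSet.iUnion fun u => MeasurableSet.iUnion fun v =>
      (MeasurableSet.const _).inter (meas_Win _ _ _ _ _)
  · have e : {z : ℝ | Ev γ z U t n B σ μ} = ∅ := by
      ext z
      simp only [Set.mem_ofPred_eq, Set.mem_empty_iff_false, iff_false]
      rintro ⟨h1, h2, h3, -⟩
      exact h ⟨h1, h2, h3⟩
    rw [e]
    exact MeasurableSet.empty

lemma meas_AccBad (c : Cf) (U : ℝ) (q n : ℕ) : MeasurableSet {z : ℝ | AccBad c U z q n} := by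
  have e : {z : ℝ | AccBad c U z q n} = ⋃ σ : ℚ, ⋃ μ : ℚ,
      {z : ℝ | c.st n q = some σ ∧ Ev c.γ z U (c.wp.thr n) n (Bl c n q) σ μ} := by
    ext z
    simp only [Set.mem_iUnion, Set.mem_ofPred_eq]
    rfl
  rw [e]
  exact MeasurableSet.iUnion fun σ => MeasurableSet.iUnion fun μ =>
    (MeasurableSet.const _).inter (meas_Ev _ _ _ _ _ _ _)

section ev
variable {N : Skel189.Num} {γ : ℝ} {p0 P₀ : ℕ}

/-- **the accuracy event** of the piece `j` with the point `z` at the tie `n`, cofactors `≤ (log n)^K` -/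
def EA (X : Ctx N γ p0 P₀) (K : ℝ) (n : ℕ) (j : X.c.Lam) (z : ℝ) : Prop :=
  (n.Prime ∧ p0 < n ∧ j.1.1 ∈ X.S') ∧ |z| ≤ X.c.r j.1.1 ∧ AccBad X.c (Real.log n ^ K) z j.1.1 n

/-- **the accuracy events** with the price `A / n` at the true ties -/
noncomputable def evA (X : Ctx N γ p0 P₀) (K : ℝ) {A : ℝ} (hA : 0 ≤ A) : Evs X.c.Lam where
  E := EA X K
  E' := fun _ _ _ => False
  mE := fun n j => (MeasurableSet.const _).inter
    ((measurableSet_le measurable_id.abs measurable_const).inter (meas_AccBad _ _ _ _))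
  mE' := fun _ _ => MeasurableSet.const _
  c := fun n => A / n
  c' := fun _ => 0
  c0 := fun n => div_nonneg hA (Nat.cast_nonneg n)
  c0' := fun _ => le_rfl

/-- **the rate of the accuracy events** -/
theorem evA_le {Ct C₀ K : ℝ} {Sx : ℕ → (ℕ → ℝ) → Finset ℕ → Finset ℕ}
    (hN : ParF5.NumOK N (ParT21.thF Ct) Ct C₀ Sx) (hCt : 0 < Ct) (hK : 0 ≤ K) :
    ∃ (C : ℝ) (p₁ : ℕ), 0 < C ∧ ∀ p0 ≥ p₁, ∀ (γ : ℝ) (P₀ : ℕ) (X : Ctx N γ p0 P₀), TH X →
      All (Step588.RdOk X) ⟨Skel189.top X.S, 1, 1, 1⟩ X.c.t → ∀ (A : ℝ) (hA : 0 ≤ A) (P : ℕ)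
      (j : X.c.Lam) (z : ℝ), ∑ n ∈ Finset.range (P + 1), (evA X K hA).f n j z ≤
        A * (C / Real.sqrt (Real.log p0)) := by
  classical
  obtain ⟨C, p₁, hC, h⟩ := AccF41.acc_rateF_X hN hCt hK
  refine ⟨3 * C, p₁, by positivity, fun p0 h0 γ P₀ X hT hR A hA P j z => ?_⟩
  set F := (Finset.range (P + 1)).filter fun n => EA X K n j z with hF
  have e : ∑ n ∈ Finset.range (P + 1), (evA X K hA).f n j z = 3 * A * ∑ n ∈ F, (1 : ℝ) / n := by
    rw [Finset.mul_sum, hF, Finset.sum_filter]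
    refine Finset.sum_congr rfl fun n _ => ?_
    show 3 * (A / n) * ind (EA X K n j z) + 0 * ind False = _
    by_cases hE : EA X K n j z
    · rw [ind_on hE, if_pos hE]; ring
    · rw [ind_off hE, if_neg hE]; ring
  rw [e]
  have key : ∑ n ∈ F, (1 : ℝ) / n ≤ C / Real.sqrt (Real.log p0) := by
    rcases F.eq_empty_or_nonempty with h1 | ⟨n₀, hn₀⟩
    · rw [h1, Finset.sum_empty]
      positivity
    · have h2 : ∀ n ∈ F, EA X K n j z := fun n hn => (Finset.mem_filter.1 hn).2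
      obtain ⟨⟨-, -, hS⟩, hz, -⟩ := h2 n₀ hn₀
      exact h p0 h0 γ P₀ X hT j.1.1 z F hS hz (fun n hn => ctx_TLl hT hR hS n)
        (fun n hn => ⟨(h2 n hn).1.1, (h2 n hn).1.2.1, (h2 n hn).2.2⟩)
  calc 3 * A * ∑ n ∈ F, (1 : ℝ) / n ≤ 3 * A * (C / Real.sqrt (Real.log p0)) :=
        mul_le_mul_of_nonneg_left key (by positivity)
    _ = A * (3 * C / Real.sqrt (Real.log p0)) := by ring

/-- a large reduced cofactor -/
def BigC (X : Ctx N γ p0 P₀) (K : ℝ) (p : ℕ) (j i : X.c.Lam) : Prop :=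
  ¬ (((j.1.1 / Nat.gcd j.1.1 i.1.1 : ℕ) : ℝ) ≤ p * Real.log p ^ K ∧
    ((i.1.1 / Nat.gcd i.1.1 j.1.1 : ℕ) : ℝ) ≤ Real.log p ^ K)

/-- a sparse cross pair: `Bad2` for the labels on the circle of the node -/
def SpC (X : Ctx N γ p0 P₀) (K : ℝ) (p : ℕ) (j i : X.c.Lam) : Prop :=
  ∃ σ σ' : ℚ, X.c.st p j.1.1 = some σ ∧ X.c.st p i.1.1 = some σ' ∧
    (¬ dense (X.c.wp.thr p) (ms X.c p j.1.1).prod σ ∨
      ¬ dense (X.c.wp.thr p) (ms X.c p j.1.1).prod σ') ∧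
    Bad2 (((ms X.c p j.1.1).prod : ℚ) * σ) (((ms X.c p j.1.1).prod : ℚ) * σ') ⌊Real.log p ^ K⌋₊ p

/-- **CROSS PAIRS OF A REAL CLASS AT A TRUE TIE** (`RV`, `RVk`): P piece `j`, N piece `i` with content at
`y`, same real class, different low types: both unlabelled, or the accuracy event of `j` (uniform rate
`evA_le`), or a sparse pair with small cofactors (`Bad2`), or a large cofactor -/
theorem cross_all {X : Ctx N γ p0 P₀} {Q : NS → IT → Prop} {C : ℝ} {p : ℕ}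
    {b : Me × List (DT X.c.Lam (LbX X))} {i j : X.c.Lam} {y : ℝ}
    (hQ : ∀ u τ, Q u τ → NDt X.par (w X.ψ) X.c.t u τ) (hd1 : X.c.d1 * Kc X.S ≤ 1)
    (hT : TH X) (hR : All (Step588.RdOk X) ⟨Skel189.top X.S, 1, 1, 1⟩ X.c.t)
    (h : InvM X Q C p b) (hp : p ≠ 0) {kd : X.c.Lam → LbX X} (hK : BOk kd p (bB p b.2))
    (h32 : X.c.wp.thr p ≤ 1 / 32)
    (hj : pA (bB p b.2) j y ≠ 0) (hi : pB (bB p b.2) i y ≠ 0) (hc : rhoX X p j = rhoX X p i)
    (K : ℝ) (Z : ℕ → ℝ)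
    (hne : (RV X.c Z).tp (Skel189.top X.S) p (tuM p b.1) y j ≠
        (RV X.c Z).tp (Skel189.top X.S) p (tuM p b.1) y i ∨
      (RVk X.c Z).tp (Skel189.top X.S) p (tuM p b.1) y j ≠
        (RVk X.c Z).tp (Skel189.top X.S) p (tuM p b.1) y i) :
    (X.c.st p j.1.1 = none ∧ X.c.st p i.1.1 = none) ∨
      EA X K p j (zb X.c p (tuM p b.1) y j) ∨ SpC X K p j i ∨ BigC X K p j i := by
  obtain ⟨s, Sp, t₁, t₀, V⟩ := xp hQ hd1 hT hR h hp hK hj hi
  have hix := cls_ix hc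
  have hl : ¬ isL (IT.br p Sp t₁ t₀) := fun h => h
  have hpp : p0 < p := (Crest.Agent.R4P.WalkIT579.nodeOk_hi V.nd.self.node hl).2.1
  have hiso : (X.c.st p j.1.1).isSome = (X.c.st p i.1.1).isSome := (Prod.ext_iff.1 hix).1
  cases hs : X.c.st p j.1.1 with
  | none =>
    left
    refine ⟨rfl, ?_⟩
    rw [hs] at hiso
    cases hs' : X.c.st p i.1.1 with
    | none => rfl
    | some σ' => rw [hs'] at hiso; exact absurd hiso (by simp)
  | some σ =>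
    right
    rw [hs] at hiso
    cases hs' : X.c.st p i.1.1 with
    | none => rw [hs'] at hiso; exact absurd hiso (by simp)
    | some σ' =>
      by_cases hcf : ((j.1.1 / Nat.gcd j.1.1 i.1.1 : ℕ) : ℝ) ≤ p * Real.log p ^ K ∧
          ((i.1.1 / Nat.gcd i.1.1 j.1.1 : ℕ) : ℝ) ≤ Real.log p ^ K
      · rcases cross_RV hQ hd1 hT V hpp.le h32 hix hs hs' hcf.1 hcf.2 Z with h1 | h1 | h1
        · exfalso
          rcases hne with h2 | h2
          · exact h2 h1.1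
          · exact h2 h1.2
        · left
          refine ⟨⟨V.pr, hpp, V.S1⟩, ?_, h1⟩
          obtain ⟨x, a, a', p1, p2⟩ := V.pt
          exact p1.zr
        · right; left
          refine ⟨σ, σ', hs, hs', ?_, ?_⟩
          · rw [V.B1]; exact h1.1
          · rw [V.B1]; exact h1.2
      · exact Or.inr (Or.inr hcf)

end ev

end Crest.Agent.R4P.PairX41
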