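import Crest.Agent.R4P.E3F_479
import Crest.Agent.R4P.PairX_41
import Crest.Agent.R4P.GPair_33

/-!
R4 (S0004) with powers, T3, helper479 (PLAN v1, D1): **the pairs of the telescope E3V in a context, by
nodes**.

* `sdX` : the side of a piece (missing in the ties of the column); **`sd_InvM`** : the field `hsd`.
* `ED` : the exponents of the trees of a bundle are disjoint (invariant of the walk): `ED.toP`, `ED.toN`,
  `ED.toR`, `ED.one`.
-/

set_option autoImplicit false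
set_option linter.unusedSectionVars false
set_option linter.unusedVariables false
open MeasureTheory Filter Set

namespace Crest.Agent.R4P.E3X479

open Crest.Agent.R4.Tour104 Crest.Agent.R4.Tour758 Crest.Agent.R4.Avg758 Crest.Agent.R4.Clos758
open Crest.Agent.R4P.Cnt588 Crest.Agent.R4P.Item758 Crest.Agent.R4P.W363
open Crest.Agent.R4P.Data758
open Crest.Agent.R4P.Bld532 (NS All NodeOk Bk dv nd farS nearS mem_dv mem_nd mem_farS mem_nearS)
open Crest.Agent.R4P.WalkIT579 (tp isL toDT_top toDT_leaf)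
open Crest.Agent.R4P.StratN36 (ex)
open Crest.Agent.R4P.Step588 Crest.Agent.R4P.RseSt23
open Crest.Agent.R4P.DTp26 Crest.Agent.R4P.DTm407
open Crest.Agent.R4P.TYI47 Crest.Agent.R4P.TYJ47 Crest.Agent.R4P.TYK47
open Crest.Agent.R4P.TYP9 Crest.Agent.R4P.RsT47
open Crest.Agent.R4P.Walk560 (DT WrN)
open Crest.Agent.R4P.Skel189 Crest.Agent.R4P.Frame758
open Crest.Agent.R4.Soft104 Crest.Agent.R4.Fam464
open Crest.Agent.R4P.StratX36 hiding mm
open Crest.Agent.R4P.TopX36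
open Crest.Agent.R4P.GWa343 Crest.Agent.R4P.GWb343 Crest.Agent.R4P.GWc343 Crest.Agent.R4P.GWf343
open Crest.Agent.R4P.TrR343 Crest.Agent.R4P.XEx29
open Crest.Agent.R4P.Grp36 Crest.Agent.R4P.Bp407 Crest.Agent.R4P.VR407
open Crest.Agent.R4P.GCol27 (wT)
open Crest.Agent.R4P.PairX41 Crest.Agent.R4P.CrZ41
open Crest.Agent.R4P.E3V479 (Sd mm)

section ctx
variable {N : Skel189.Num} {γ : ℝ} {p0 P₀ : ℕ} {X : Ctx N γ p0 P₀} {Q : NS → IT → Prop} {C : ℝ}
  {p : ℕ} {b : Me × List (DT X.c.Lam (LbX X))} {i j : X.c.Lam} {x y : ℝ}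

/-! ### sides -/

/-- **the side of a piece** : missing in the ties of the column -/
def sdX (X : Ctx N γ p0 P₀) (p : ℕ) (m : Me) (j : X.c.Lam) : Prop :=
  ex p j.1.1 ≤ TYJ47.cnt p m.1

/-- exponent of an N item -/
lemma ex_N (hQ : ∀ u τ, Q u τ → NDt X.par (w X.ψ) X.c.t u τ) {m : Me} {s : NS} {Sp : Finset ℕ}
    {t₁ t₀ : IT} (hs : RtX X Q p m s (.br p Sp t₁ t₀)) {q : ℕ} (hq : q ∈ t₀.items) :
    ex p q = TYJ47.cnt p m.1 := by
  have hn := hQ _ _ hs.1.rm.all.self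
  have hpr : p.Prime := prime_of_br hn.self.node
  have hl : ¬ isL (IT.br p Sp t₁ t₀) := fun h => h
  have hN := ((carX hQ).br hs).2
  have hn0 := hQ _ _ hN.1.rm.all.self
  have hhi := hs.1.hi hQ hl rfl (Finset.mem_union_right t₁.items hq)
  have e2 := hN.1.rm.pf hQ X.tOk hq
  have hpB : p ∈ (s.B * p).primeFactors :=
    Nat.mem_primeFactors.2 ⟨hpr, Dvd.intro_left _ rfl, hn0.bk.sfB.ne_zero⟩
  by_contra h5
  have e3 : pm X.c.t p (tuM p m) q = pm X.c.t p m q := by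
    rw [pm_tu, if_neg h5]
  have h6 : p ∈ pm X.c.t p (tuM p m) q := by
    show p ∈ prm X.c.t p (tuM p m).1 q
    rw [← e2]; exact hpB
  rw [e3, hhi] at h6
  exact absurd (Finset.mem_filter.1 h6).2 (lt_irrefl p)

/-- exponent of a P item -/
lemma ex_P (hQ : ∀ u τ, Q u τ → NDt X.par (w X.ψ) X.c.t u τ) {m : Me} {s : NS} {Sp : Finset ℕ}
    {t₁ t₀ : IT} (hs : RtX X Q p m s (.br p Sp t₁ t₀)) {q : ℕ} (hq : q ∈ t₁.items) :
    TYJ47.cnt p m.1 + 1 ≤ ex p q := by
  have hn := hQ _ _ hs.1.rm.all.self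
  have hpr : p.Prime := prime_of_br hn.self.node
  have hl : ¬ isL (IT.br p Sp t₁ t₀) := fun h => h
  have hP := ((carX hQ).br hs).1
  have hn1 := hQ _ _ hP.1.rm.all.self
  have hx := hs.1.rm.exA hl rfl
  have h5 : ex p (s.A * p) ≤ ex p q :=
    Crest.Agent.R4P.StratN36.ex_le (hn1.bk.pos _ hq) (hn1.bk.dvd _ hq)
  rw [ex_mul hpr hn.bk.Apos, hx] at h5
  exact h5

/-- exponent of a pulled item -/
lemma ex_Q (hQ : ∀ u τ, Q u τ → NDt X.par (w X.ψ) X.c.t u τ) {m : Me} {s : NS} {t₁ : IT}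
    (hs : RtX X Q p m s (.pl p t₁)) {q : ℕ} (hq : q ∈ t₁.items) :
    TYJ47.cnt p m.1 + 1 ≤ ex p q := by
  have hn := hQ _ _ hs.1.rm.all.self
  have hpr : p.Prime := prime_of_pl hn.self.node
  have hl : ¬ isL (IT.pl p t₁) := fun h => h
  have hP := (carX hQ).pl hs
  have hn1 := hQ _ _ hP.1.rm.all.self
  have hx := hs.1.rm.exA hl rfl
  have h5 : ex p (s.A * p) ≤ ex p q :=
    Crest.Agent.R4P.StratN36.ex_le (hn1.bk.pos _ hq) (hn1.bk.dvd _ hq)
  rw [ex_mul hpr hn.bk.Apos, hx] at h5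
  exact h5

lemma pA_ex (hQ : ∀ u τ, Q u τ → NDt X.par (w X.ψ) X.c.t u τ) (h : InvM X Q C p b) (hp : p ≠ 0)
    (hj : pA (bB p b.2) j y ≠ 0) : TYJ47.cnt p b.1.1 + 1 ≤ ex p j.1.1 := by
  obtain ⟨s, Sp, t₁, t₀, hs, h1, h2⟩ := pA_node (carX hQ) hp h.mi hj
  exact ex_P hQ hs (ctx_supp (hQ _ _ h1.1.rm.all.self) h2).1

lemma pQ_ex (hQ : ∀ u τ, Q u τ → NDt X.par (w X.ψ) X.c.t u τ) (h : InvM X Q C p b) (hp : p ≠ 0)
    (hj : pQ (bB p b.2) j y ≠ 0) : TYJ47.cnt p b.1.1 + 1 ≤ ex p j.1.1 := by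
  obtain ⟨s, t₁, hs, h1, h2⟩ := pQ_node (carX hQ) hp h.mi hj
  exact ex_Q hQ hs (ctx_supp (hQ _ _ h1.1.rm.all.self) h2).1

lemma pB_ex (hQ : ∀ u τ, Q u τ → NDt X.par (w X.ψ) X.c.t u τ) (h : InvM X Q C p b) (hp : p ≠ 0)
    (hj : pB (bB p b.2) j y ≠ 0) : ex p j.1.1 = TYJ47.cnt p b.1.1 := by
  obtain ⟨s, Sp, t₁, t₀, hs, h1, h2⟩ := pB_node (carX hQ) hp h.mi hj
  exact ex_N hQ hs (ctx_supp (hQ _ _ h1.1.rm.all.self) h2).1

/-- **the sides** : the field `hsd` of `E3V479.Kw_tel` -/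
theorem sd_InvM (hQ : ∀ u τ, Q u τ → NDt X.par (w X.ψ) X.c.t u τ) (h : InvM X Q C p b)
    (hp : p ≠ 0) : Sd (bB p b.2) (sdX X p b.1) := by
  intro j y
  refine ⟨fun hj => ⟨?_, ?_⟩, fun hj => ?_⟩
  · by_contra h1
    have := pA_ex hQ h hp h1
    unfold sdX at hj
    omega
  · by_contra h1
    have := pQ_ex hQ h hp h1
    unfold sdX at hj
    omega
  · by_contra h1
    have := pB_ex hQ h hp h1
    exact hj this.le

end ctx

/-! ### disjoint exponents -/

section ed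
variable {N : Skel189.Num} {γ : ℝ} {p0 P₀ : ℕ} {X : Ctx N γ p0 P₀} {Q : NS → IT → Prop} {C : ℝ}
  {p : ℕ} {b : Me × List (DT X.c.Lam (LbX X))}

/-- the exponents of two trees are different -/
def DE (X : Ctx N γ p0 P₀) (p : ℕ) (t t' : DT X.c.Lam (LbX X)) : Prop :=
  ∀ j j' x x', t.g.val j x ≠ 0 → t'.g.val j' x' ≠ 0 → ex p j.1.1 ≠ ex p j'.1.1

/-- **the exponents of the trees of a bundle are disjoint** -/
def ED (X : Ctx N γ p0 P₀) (p : ℕ) (L : List (DT X.c.Lam (LbX X))) : Prop := L.Pairwise (DE X p)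

lemma ED.one (t : DT X.c.Lam (LbX X)) : ED X p [t] := List.pairwise_singleton _ _

/-- content of a tree of the resolution -/
lemma rs_ne {t : DT X.c.Lam (LbX X)} (h : t.All fun t => ∀ j, PB (t.g.val j))
    {s : DT X.c.Lam (LbX X)} (hs : s ∈ rs p t) {j : X.c.Lam} {x : ℝ} (hj : s.g.val j x ≠ 0) :
    t.g.val j x ≠ 0 := by
  have h1 := PVd45.jv_rs p t j x
  have h2 : ∀ s' ∈ rs p t, 0 ≤ s'.g.val j x := fun s' hs' => ((rs_all p h s' hs').self j).nonneg x
  have h3 : s.g.val j x ≤ jv (rs p t) j x := by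
    unfold jv
    exact List.single_le_sum (fun a ha => by
      obtain ⟨s', hs', rfl⟩ := List.mem_map.1 ha
      exact h2 s' hs') _ (List.mem_map_of_mem hs)
  rw [h1] at h3
  have h4 := h2 s hs
  have h5 : 0 < s.g.val j x := lt_of_le_of_ne h4 (Ne.symm hj)
  intro h6
  linarith

/-- **the resolution of a node** : items and exponents -/
lemma node_rs (hQ : ∀ u τ, Q u τ → NDt X.par (w X.ψ) X.c.t u τ) {m : Me} :
    ∀ (τ : IT) (u : NS), RtX X Q p m u τ →
    (∀ t ∈ rs p ((X.c.D.par X.Y).toDT X.c.sp u.B u.A τ), ∀ j x, t.g.val j x ≠ 0 →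
      j.1.1 ∈ τ.items) ∧
    (rs p ((X.c.D.par X.Y).toDT X.c.sp u.B u.A τ)).Pairwise (DE X p) := by
  have H := carX hQ
  have single : ∀ (τ : IT) (u : NS), RtX X Q p m u τ →
      ∀ t ∈ [(X.c.D.par X.Y).toDT X.c.sp u.B u.A τ], ∀ j x, t.g.val j x ≠ 0 →
      j.1.1 ∈ τ.items := by
    intro τ u hu t ht j x hj
    rw [List.mem_singleton.1 ht] at hj
    exact (ctx_supp (hQ _ _ hu.1.rm.all.self) hj).1
  intro τ
  induction τ with
  | leaf S => intro u hu; exact ⟨single _ u hu, List.pairwise_singleton _ _⟩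
  | br q Sp t₁ t₀ ih₁ ih₀ => intro u hu; exact ⟨single _ u hu, List.pairwise_singleton _ _⟩
  | pl q t₁ ih => intro u hu; exact ⟨single _ u hu, List.pairwise_singleton _ _⟩
  | add q t₁ t₀ ih₁ ih₀ =>
    intro u hu
    have e : rs p ((X.c.D.par X.Y).toDT X.c.sp u.B u.A (.add q t₁ t₀)) = if q = p then
        rs p ((X.c.D.par X.Y).toDT X.c.sp u.B u.A t₁) ++
          rs p ((X.c.D.par X.Y).toDT X.c.sp u.B u.A t₀) else
        [(X.c.D.par X.Y).toDT X.c.sp u.B u.A (.add q t₁ t₀)] := rfl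
    by_cases hq : q = p
    · rw [e, if_pos hq]
      subst hq
      obtain ⟨h1, h0⟩ := H.add hu
      obtain ⟨a1, a2⟩ := ih₁ ⟨q + 1, u.c, u.A, u.B⟩ h1
      obtain ⟨b1, b2⟩ := ih₀ ⟨q + 1, u.c, u.A, u.B⟩ h0
      refine ⟨fun t ht j x hj => ?_, ?_⟩
      · rcases List.mem_append.1 ht with h | h
        · exact Finset.mem_union_left _ (a1 t h j x hj)
        · exact Finset.mem_union_right _ (b1 t h j x hj)
      · rw [List.pairwise_append]
        refine ⟨a2, b2, fun t ht t' ht' j j' x x' hj hj' => ?_⟩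
        have i1 := a1 t ht j x hj
        have i0 := b1 t' ht' j' x' hj'
        have hn := hQ _ _ hu.1.rm.all.self
        obtain ⟨k1, k2, k3, k4, k5, ⟨J, t', k6, k7, k8, k9, k10⟩, k11⟩ := hn.self.node
        rw [k8] at i1
        rw [k9] at i0
        obtain ⟨i1a, i1b⟩ := mem_dv.1 i1
        obtain ⟨i0a, i0b⟩ := mem_nd.1 i0
        have hp1 := (Crest.Agent.R4P.StratN36.dvd_iff (k := J) k1 (hn.bk.pos _ i1a)
          (hn.bk.dvd _ i1a)).1 i1b
        have hp0 : ¬ _ := fun h => i0b ((Crest.Agent.R4P.StratN36.dvd_iff (k := J) k1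
          (hn.bk.pos _ i0a) (hn.bk.dvd _ i0a)).2 h)
        omega
    · rw [e, if_neg hq]
      exact ⟨single _ u hu, List.pairwise_singleton _ _⟩
  | far q t₁ t₀ ih₁ ih₀ =>
    intro u hu
    have e : rs p ((X.c.D.par X.Y).toDT X.c.sp u.B u.A (.far q t₁ t₀)) = if q = p then
        rs p ((X.c.D.par X.Y).toDT X.c.sp u.B u.A t₁) ++
          rs p ((X.c.D.par X.Y).toDT X.c.sp u.B u.A t₀) else
        [(X.c.D.par X.Y).toDT X.c.sp u.B u.A (.far q t₁ t₀)] := rfl
    by_cases hq : q = p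
    · rw [e, if_pos hq]
      subst hq
      obtain ⟨h1, h0⟩ := H.far hu
      obtain ⟨a1, a2⟩ := ih₁ ⟨q + 1, u.c, u.A, u.B⟩ h1
      obtain ⟨b1, b2⟩ := ih₀ ⟨q + 1, u.c, u.A, u.B⟩ h0
      refine ⟨fun t ht j x hj => ?_, ?_⟩
      · rcases List.mem_append.1 ht with h | h
        · exact Finset.mem_union_left _ (a1 t h j x hj)
        · exact Finset.mem_union_right _ (b1 t h j x hj)
      · rw [List.pairwise_append]
        refine ⟨a2, b2, fun t ht t' ht' j j' x x' hj hj' => ?_⟩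
        have i1 := a1 t ht j x hj
        have i0 := b1 t' ht' j' x' hj'
        have hn := hQ _ _ hu.1.rm.all.self
        obtain ⟨k1, k2, k3, k4, k5, ⟨K, k7, k9, k10⟩, k11⟩ := hn.self.node
        have i1' : j.1.1 ∈ farS q u.A K (t₁.items ∪ t₀.items) := by
          have h2 : j.1.1 ∈ (IT.leaf (farS q u.A K (t₁.items ∪ t₀.items))).items := by
            rw [← k7]; exact i1
          exact h2
        rw [k9] at i0
        obtain ⟨i1a, i1b⟩ := mem_farS.1 i1'
        obtain ⟨i0a, i0b, i0c⟩ := mem_nearS.1 i0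
        have d := fun k => Crest.Agent.R4P.StratN36.dvd_iff (k := k) k1 (hn.bk.pos _ i1a)
          (hn.bk.dvd _ i1a)
        have d' := fun k => Crest.Agent.R4P.StratN36.dvd_iff (k := k) k1 (hn.bk.pos _ i0a)
          (hn.bk.dvd _ i0a)
        rw [d, d] at i1b
        rw [d'] at i0b
        rw [d'] at i0c
        omega
    · rw [e, if_neg hq]
      exact ⟨single _ u hu, List.pairwise_singleton _ _⟩
  | up q Sp t₁ ih =>
    intro u hu
    have e : rs p ((X.c.D.par X.Y).toDT X.c.sp u.B u.A (.up q Sp t₁)) = if q = p then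
        rs p ((X.c.D.par X.Y).toDT X.c.sp u.B u.A t₁) else
        [(X.c.D.par X.Y).toDT X.c.sp u.B u.A (.up q Sp t₁)] := rfl
    by_cases hq : q = p
    · rw [e, if_pos hq]
      subst hq
      exact ih ⟨q, u.c, u.A, u.B⟩ (H.up hu)
    · rw [e, if_neg hq]
      exact ⟨single _ u hu, List.pairwise_singleton _ _⟩

/-- the closed invariant of the lists -/
theorem diX : PVd45.DI (BI (Λ := X.c.Lam) (κ := LbX X) (FV (rhoX X) fun _ => True)) :=
  PVd45.DI.of_BI (fun t h => h.1.1.1) (fun t h => h.1.1.2.1) (fun h => h)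
    (fun h hp => h.toP) (fun h hp => h.toN) (fun h hp => h.toR hp)

/-- the resolution of a bundle -/
lemma ED.flat (hQ : ∀ u τ, Q u τ → NDt X.par (w X.ψ) X.c.t u τ) (h : InvM X Q C p b)
    (he : ED X p b.2) : ED X p (b.2.flatMap (rs p)) := by
  unfold ED
  rw [List.pairwise_flatMap]
  have hpb := diX.pb h.bi
  refine ⟨fun t ht => ?_, ?_⟩
  · obtain ⟨s, τ, hs, e⟩ := h.mi t ht
    subst e
    exact (node_rs hQ τ s hs).2
  · refine he.imp_of_mem fun {a b'} ha hb' hab s hs s' hs' j j' x x' hj hj' => ?_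
    exact hab j j' x x' (rs_ne (hpb a ha) hs hj) (rs_ne (hpb b' hb') hs' hj')

lemma ED.bB (hQ : ∀ u τ, Q u τ → NDt X.par (w X.ψ) X.c.t u τ) (h : InvM X Q C p b)
    (he : ED X p b.2) : ED X p (GWa343.bB p b.2) := (he.flat hQ h).filter _

/-- content of the children -/
lemma ch_ne (h : InvM X Q C p b) (hp : p ≠ 0) {t : DT X.c.Lam (LbX X)} (ht : t ∈ GWa343.bB p b.2)
    {j : X.c.Lam} {y : ℝ} (hj : (chP t).g.val j y ≠ 0 ∨ (chN t).g.val j y ≠ 0) :
    ∃ x, t.g.val j x ≠ 0 := by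
  obtain ⟨h1, h2, h3, h6, h7⟩ := diX.bB_facts h.bi hp t ht
  obtain ⟨w', r, t₁, t₀, v, B, G, e⟩ := isB_eq h2
  subst e
  have h4 : w' = 1 / (p : ℝ) ∨ w' = 0 := h3
  have h5 : Ep p ((DT.br p w' r t₁ t₀ v B G).g.val j) y =
    (1 - w') * t₁.g.val j y + w' * t₀.g.val j y := h1.2.2.2 j y
  have e4 : chP (DT.br p w' r t₁ t₀ v B G) = t₁ := rfl
  have e5 : chN (DT.br p w' r t₁ t₀ v B G) = if w' = 0 then t₁ else t₀ := rfl
  rw [e4, e5] at hj
  have n1 : 0 ≤ t₁.g.val j y := (h7.2.1.self j).nonneg y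
  have n0 : 0 ≤ t₀.g.val j y := (h7.2.2.self j).nonneg y
  have hpr : p.Prime := h6.1
  have hp2 : (2 : ℝ) ≤ p := by exact_mod_cast hpr.two_le
  have hpos : 0 < Ep p ((DT.br p w' r t₁ t₀ v B G).g.val j) y := by
    rw [h5]
    rcases h4 with h8 | h8
    · have hw0 : w' ≠ 0 := by rw [h8]; positivity
      rw [if_neg hw0] at hj
      have hw1 : 0 < 1 - w' := by
        rw [h8]
        have : 1 / (p : ℝ) ≤ 1 / 2 := one_div_le_one_div_of_le (by norm_num) hp2
        linarith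
      have hw2 : 0 < w' := by rw [h8]; positivity
      rcases hj with h9 | h9
      · have := mul_pos hw1 (lt_of_le_of_ne n1 (Ne.symm h9))
        have := mul_nonneg hw2.le n0
        linarith
      · have := mul_pos hw2 (lt_of_le_of_ne n0 (Ne.symm h9))
        have := mul_nonneg hw1.le n1
        linarith
    · rw [if_pos h8] at hj
      have h9 : t₁.g.val j y ≠ 0 := hj.elim id id
      rw [h8]
      have := lt_of_le_of_ne n1 (Ne.symm h9)
      linarith
  by_contra hne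
  push Not at hne
  rw [show Ep p ((DT.br p w' r t₁ t₀ v B G).g.val j) y = 0 from by
    unfold Ep
    rw [Finset.sum_eq_zero, zero_div]
    intro k _
    exact hne _] at hpos
  exact lt_irrefl _ hpos

lemma ED.toP (hQ : ∀ u τ, Q u τ → NDt X.par (w X.ψ) X.c.t u τ) (h : InvM X Q C p b) (hp : p ≠ 0)
    (he : ED X p b.2) : ED X p ((GWa343.bB p b.2).map chP) := by
  unfold ED
  rw [List.pairwise_map]
  refine List.Pairwise.imp_of_mem (fun {a b'} ha hb' hab j j' x x' hj hj' => ?_) (he.bB hQ h)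
  obtain ⟨z, hz⟩ := ch_ne h hp ha (Or.inl hj)
  obtain ⟨z', hz'⟩ := ch_ne h hp hb' (Or.inl hj')
  exact hab j j' z z' hz hz'

lemma ED.toN (hQ : ∀ u τ, Q u τ → NDt X.par (w X.ψ) X.c.t u τ) (h : InvM X Q C p b) (hp : p ≠ 0)
    (he : ED X p b.2) : ED X p ((GWa343.bB p b.2).map chN) := by
  unfold ED
  rw [List.pairwise_map]
  refine List.Pairwise.imp_of_mem (fun {a b'} ha hb' hab j j' x x' hj hj' => ?_) (he.bB hQ h)
  obtain ⟨z, hz⟩ := ch_ne h hp ha (Or.inr hj)
  obtain ⟨z', hz'⟩ := ch_ne h hp hb' (Or.inr hj')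
  exact hab j j' z z' hz hz'

lemma ED.toR (h : InvM X Q C p b) : ED X (p - 1) (GWc343.bN p b.2) :=
  pairwise_of_len h.bi.len

end ed

/-! ### contents by nodes -/

section ls
variable {Λ κ : Type} [Fintype Λ] [DecidableEq Λ] [Fintype κ] [DecidableEq κ]

lemma ls_filter {f : DT Λ κ → Λ → ℝ → ℝ} {j : Λ} {x : ℝ} (g : DT Λ κ → Bool) :
    ∀ {K : List (DT Λ κ)}, (∀ t ∈ K, g t = false → f t j x = 0) →
    ls f K j x = ls f (K.filter g) j x := by
  intro K
  induction K with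
  | nil => intro _; rfl
  | cons t K ih =>
    intro h
    have ih' := ih fun s hs => h s (List.mem_cons_of_mem _ hs)
    cases hg : g t with
    | true => rw [List.filter_cons_of_pos hg, ls_cons, ls_cons, ih']
    | false =>
      rw [List.filter_cons_of_neg (by simp [hg]), ls_cons, h t (by simp) hg, zero_add, ih']

lemma jv_ls (K : List (DT Λ κ)) (j : Λ) (x : ℝ) : jv K j x = ls (fun t j x => t.g.val j x) K j x := rfl

end ls

section nodes
variable {N : Skel189.Num} {γ : ℝ} {p0 P₀ : ℕ} {X : Ctx N γ p0 P₀} {Q : NS → IT → Prop} {C : ℝ}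
  {p : ℕ} {b : Me × List (DT X.c.Lam (LbX X))}

open Crest.Agent.R4P.GPair33 (vN)

lemma val_v {u : NS} {τ : IT} (h : NDt X.par (w X.ψ) X.c.t u τ) (j : X.c.Lam) :
    ((X.c.D.par X.Y).toDT X.c.sp u.B u.A τ).g.val j = vN X (.inl (u, τ)) j :=
  GPair33.val_imN h j

/-- **the rest is one node** -/
theorem rest_one (hQ : ∀ u τ, Q u τ → NDt X.par (w X.ψ) X.c.t u τ) (h : InvM X Q C p b)
    (hp : p ≠ 0) : (∀ j x, jv (GWc343.bN p b.2) j x = 0) ∨
    ∃ u τ, RtX X Q p b.1 u τ ∧ tp τ < p ∧ ¬ isL τ ∧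
      ∀ j x, jv (GWc343.bN p b.2) j x = vN X (.inl (u, τ)) j x := by
  have hlen := h.bi.len
  have hmem := h.mi.bN (carX hQ)
  have h0 := fun t (ht : t ∈ GWc343.bN p b.2) => zero_of_bN ht
  have hcol := h.bi.bN.col
  generalize GWc343.bN p b.2 = L at hlen hmem h0 hcol
  match L, hlen with
  | [], _ => exact Or.inl fun j x => rfl
  | [t], _ =>
    right
    obtain ⟨s, τ, hs, e⟩ := hmem t (by simp)
    have h3 := h0 t (by simp)
    have h4 := (hcol t (by simp)).top_le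
    subst e
    refine ⟨s, τ, hs, ?_, fun hl => ?_, fun j x => ?_⟩
    · have e1 := toDT_top (X.c.D.par X.Y) X.c.sp s.B s.A τ
      have h5 := lt_of_le_of_ne h4 h3.2.1
      rwa [e1] at h5
    · exact h3.2.2 ((toDT_leaf (X.c.D.par X.Y) X.c.sp s.B s.A τ).2 hl)
    · rw [← val_v (hQ _ _ hs.1.rm.all.self) j, DTp26.jv_cons, DTp26.jv_nil, add_zero]

/-- **the tie of a bundle** : its node -/
structure TieN (X : Ctx N γ p0 P₀) (Q : NS → IT → Prop) (p : ℕ) (m : Me)
    (L : List (DT X.c.Lam (LbX X))) (s : NS) (Sp : Finset ℕ) (t₁ t₀ : IT) : Prop where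
  hs : RtX X Q p m s (.br p Sp t₁ t₀)
  A : ∀ j y, pA (bB p L) j y = vN X (.inl (⟨p, s.c / (1 - 1 / (p : ℝ)), s.A * p, s.B⟩, t₁)) j y
  B : ∀ j y, pB (bB p L) j y = vN X (.inl (⟨p, s.c * p, s.A, s.B * p⟩, t₀)) j y
  /-- N pieces -/
  N : ∀ j x, sdX X p m j → jv (bB p L) j x = vN X (.inl (s, .br p Sp t₁ t₀)) j x
  le : ∀ j x, vN X (.inl (s, .br p Sp t₁ t₀)) j x ≤ jv (bB p L) j x

/-- **at most one tie** -/
theorem tie_one (hQ : ∀ u τ, Q u τ → NDt X.par (w X.ψ) X.c.t u τ) (h : InvM X Q C p b)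
    (hp : p ≠ 0) : (∀ j x, pA (bB p b.2) j x = 0 ∧ pB (bB p b.2) j x = 0 ∧
      pG (bB p b.2) j x = 0) ∨ ∃ s Sp t₁ t₀, TieN X Q p b.1 b.2 s Sp t₁ t₀ := by
  have H := carX hQ
  have hlen := h.bi.one
  set f : DT X.c.Lam (LbX X) → Bool := fun t => decide (wT t ≠ 0) with hf
  have hcase : ∀ t ∈ bB p b.2, f t = false → ∀ j x, nA t j x = 0 ∧ nB t j x = 0 ∧
      nG t j x = 0 := by
    intro t ht hft j x
    obtain ⟨w', r, t₁, t₀, v, B, G, e⟩ := isB_eq (isB_of_bB ht)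
    subst e
    have hw : w' = 0 := by
      by_contra h1
      have : f (DT.br p w' r t₁ t₀ v B G) = true := decide_eq_true h1
      rw [this] at hft
      cases hft
    refine ⟨if_pos hw, if_pos hw, ?_⟩
    exact dif_neg fun h1 => h1.1 hw
  have eA : ∀ j x, pA (bB p b.2) j x = ls nA ((bB p b.2).filter f) j x := fun j x =>
    ls_filter f fun t ht hft => (hcase t ht hft j x).1
  have eB : ∀ j x, pB (bB p b.2) j x = ls nB ((bB p b.2).filter f) j x := fun j x =>
    ls_filter f fun t ht hft => (hcase t ht hft j x).2.1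
  have eG : ∀ j x, pG (bB p b.2) j x = ls nG ((bB p b.2).filter f) j x := fun j x =>
    ls_filter f fun t ht hft => (hcase t ht hft j x).2.2
  have hmem : ∀ t ∈ (bB p b.2).filter f, t ∈ bB p b.2 ∧ wT t ≠ 0 := fun t ht =>
    ⟨(List.mem_filter.1 ht).1, of_decide_eq_true (List.mem_filter.1 ht).2⟩
  have eF : ∀ j x, jv ((bB p b.2).filter f) j x ≤ jv (bB p b.2) j x := fun j x =>
    PVd45.jv_filter_le ((diX.pb h.bi).bB p).self f j x
  -- N pieces
  have eN : ∀ j x, sdX X p b.1 j → jv (bB p b.2) j x = jv ((bB p b.2).filter f) j x := by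
    intro j x hj
    rw [jv_ls, jv_ls]
    refine ls_filter f fun t ht hft => ?_
    by_contra hne
    have hne' : t.g.val j x ≠ 0 := hne
    rcases bB_cases H h.mi ht with ⟨s, Sp, t₁, t₀, hs, rfl⟩ | ⟨s, t₁, hs, rfl⟩
    · have : f ((X.c.D.par X.Y).toDT X.c.sp s.B s.A (.br p Sp t₁ t₀)) = true :=
        decide_eq_true (show (1 / (p : ℝ)) ≠ 0 from one_div_ne_zero (by exact_mod_cast hp))
      rw [this] at hft
      cases hft
    · have h1 := (ctx_supp (hQ _ _ hs.1.rm.all.self) hne').1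
      have h2 := ex_Q hQ hs (q := j.1.1) h1
      unfold sdX at hj
      omega
  have hall := hlen
  generalize (bB p b.2).filter f = T at hlen eA eB eG eF eN hmem
  match T, hlen with
  | [], _ =>
    left
    intro j x
    rw [eA, eB, eG]
    exact ⟨rfl, rfl, rfl⟩
  | [t], _ =>
    right
    obtain ⟨h1, h2⟩ := hmem t (by simp)
    rcases bB_cases H h.mi h1 with ⟨s, Sp, t₁, t₀, hs, rfl⟩ | ⟨s, t₁, hs, rfl⟩
    · have hn := hQ _ _ hs.1.rm.all.self
      have hn1 := hQ _ _ (H.br hs).1.1.rm.all.self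
      have hn0 := hQ _ _ (H.br hs).2.1.rm.all.self
      have hw : (1 / (p : ℝ)) ≠ 0 := one_div_ne_zero (by exact_mod_cast hp)
      refine ⟨s, Sp, t₁, t₀, hs, fun j y => ?_, fun j y => ?_, fun j x hj => ?_, fun j x => ?_⟩
      · rw [eA, ls_cons, ls_nil, add_zero]
        show (if 1 / (p : ℝ) = 0 then (0 : ℝ) else
          ((X.c.D.par X.Y).toDT X.c.sp s.B (s.A * p) t₁).g.val j y) = _
        rw [if_neg hw]
        exact congrFun (val_v hn1 j) y
      · rw [eB, ls_cons, ls_nil, add_zero]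
        show (if 1 / (p : ℝ) = 0 then (0 : ℝ) else
          ((X.c.D.par X.Y).toDT X.c.sp (s.B * p) s.A t₀).g.val j y) = _
        rw [if_neg hw]
        exact congrFun (val_v hn0 j) y
      · rw [eN j x hj, DTp26.jv_cons, DTp26.jv_nil, add_zero]
        exact congrFun (val_v hn j) x
      · refine le_trans (le_of_eq ?_) (eF j x)
        rw [DTp26.jv_cons, DTp26.jv_nil, add_zero]
        exact (congrFun (val_v hn j) x).symm
    · exact absurd rfl h2

open Classical in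
/-- **the pieces with one factor `p` left sit in one node below the tie** -/
theorem near_one (hQ : ∀ u τ, Q u τ → NDt X.par (w X.ψ) X.c.t u τ) (h : InvM X Q C p b)
    (he : ED X p b.2) (hp : p ≠ 0) {kd : X.c.Lam → LbX X} (hK : KOk kd p (bB p b.2)) :
    (∀ j y, ex p j.1.1 = TYJ47.cnt p b.1.1 + 1 → mm p (bB p b.2) j y = 0) ∨
    ∃ u τ, RtX X Q p (tuM p b.1) u τ ∧ p ∣ u.A ∧
      ∀ j y, ex p j.1.1 = TYJ47.cnt p b.1.1 + 1 →
        mm p (bB p b.2) j y ≤ vN X (.inl (u, τ)) j y ∧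
        vN X (.inl (u, τ)) j y ≤ 2 * mm p (bB p b.2) j y := by
  have H := carX hQ
  set c := TYJ47.cnt p b.1.1 + 1 with hc
  set f : DT X.c.Lam (LbX X) → Bool := fun t =>
    decide (∃ (j : X.c.Lam) (x : ℝ), ex p j.1.1 = c ∧ t.g.val j x ≠ 0) with hf
  have hlen : ((bB p b.2).filter f).length ≤ 1 := by
    refine len_le_one ((he.bB hQ h).filter _) fun t ht t' ht' hd => ?_
    obtain ⟨j, x, h1, h2⟩ := of_decide_eq_true (List.mem_filter.1 ht).2
    obtain ⟨j', x', h1', h2'⟩ := of_decide_eq_true (List.mem_filter.1 ht').2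
    exact hd j j' x x' h2 h2' (h1.trans h1'.symm)
  -- the other trees
  have hcase : ∀ t ∈ bB p b.2, f t = false → ∀ j y, ex p j.1.1 = c → nA t j y = 0 ∧
      nQ t j y = 0 := by
    intro t ht hft j y hj
    have h0 : ∀ x, t.g.val j x = 0 := by
      intro x
      by_contra h1
      have : f t = true := decide_eq_true ⟨j, x, hj, h1⟩
      rw [this] at hft
      cases hft
    have h1 : (chP t).g.val j y = 0 := by
      by_contra h2
      obtain ⟨x, hx⟩ := ch_ne h hp ht (Or.inl h2)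
      exact hx (h0 x)
    obtain ⟨w', r, t₁, t₀, v, B, G, e⟩ := isB_eq (isB_of_bB ht)
    subst e
    have h3 : t₁.g.val j y = 0 := h1
    constructor
    · show (if w' = 0 then 0 else t₁.g.val j y) = 0
      rw [h3, ite_self]
    · show (if w' = 0 then t₁.g.val j y else 0) = 0
      rw [h3, ite_self]
  have eA : ∀ j y, ex p j.1.1 = c → pA (bB p b.2) j y = ls nA ((bB p b.2).filter f) j y :=
    fun j y hj => ls_filter f fun t ht hft => (hcase t ht hft j y hj).1
  have eQ : ∀ j y, ex p j.1.1 = c → pQ (bB p b.2) j y = ls nQ ((bB p b.2).filter f) j y :=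
    fun j y hj => ls_filter f fun t ht hft => (hcase t ht hft j y hj).2
  have eB : ∀ j y, ex p j.1.1 = c → pB (bB p b.2) j y = 0 := by
    intro j y hj
    by_contra h1
    have := pB_ex hQ h hp h1
    omega
  have em : ∀ j y, ex p j.1.1 = c → mm p (bB p b.2) j y =
      (1 - 1 / (p : ℝ)) * pA (bB p b.2) j y + pQ (bB p b.2) j y := by
    intro j y hj
    unfold mm
    rw [jv_chP hK, jv_chN hK, eB j y hj]
    ring
  have hmem : ∀ t ∈ (bB p b.2).filter f, t ∈ bB p b.2 := fun t ht => (List.mem_filter.1 ht).1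
  generalize (bB p b.2).filter f = T at hlen eA eQ hmem
  match T, hlen with
  | [], _ =>
    left
    intro j y hj
    rw [em j y hj, eA j y hj, eQ j y hj, ls_nil, ls_nil]
    ring
  | [t], _ =>
    right
    have h1 := hmem t (by simp)
    rcases bB_cases H h.mi h1 with ⟨s, Sp, t₁, t₀, hs, rfl⟩ | ⟨s, t₁, hs, rfl⟩
    · have hP := (H.br hs).1
      have hn1 := hQ _ _ hP.1.rm.all.self
      have hpr : p.Prime := prime_of_br (hQ _ _ hs.1.rm.all.self).self.node
      have hp2 : (2 : ℝ) ≤ p := by exact_mod_cast hpr.two_le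
      have hw : (1 / (p : ℝ)) ≠ 0 := one_div_ne_zero (by exact_mod_cast hp)
      refine ⟨_, t₁, hP, Dvd.intro_left _ rfl, fun j y hj => ?_⟩
      have e1 : pA (bB p b.2) j y =
          vN X (.inl (⟨p, s.c / (1 - 1 / (p : ℝ)), s.A * p, s.B⟩, t₁)) j y := by
        rw [eA j y hj, ls_cons, ls_nil, add_zero]
        show (if 1 / (p : ℝ) = 0 then (0 : ℝ) else
          ((X.c.D.par X.Y).toDT X.c.sp s.B (s.A * p) t₁).g.val j y) = _
        rw [if_neg hw]
        exact congrFun (val_v hn1 j) y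
      have e2 : pQ (bB p b.2) j y = 0 := by
        rw [eQ j y hj, ls_cons, ls_nil, add_zero]
        exact if_neg hw
      have hv := (GPair33.PB_vN_inl hn1 j).nonneg y
      rw [em j y hj, e1, e2]
      have h4 : 1 / (p : ℝ) ≤ 1 / 2 := one_div_le_one_div_of_le (by norm_num) hp2
      have h5 : 0 < 1 / (p : ℝ) := by positivity
      generalize vN X (.inl (⟨p, s.c / (1 - 1 / (p : ℝ)), s.A * p, s.B⟩, t₁)) j y = v at hv ⊢
      constructor <;> nlinarith
    · have hP := H.pl hs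
      have hn1 := hQ _ _ hP.1.rm.all.self
      refine ⟨_, t₁, hP, Dvd.intro_left _ rfl, fun j y hj => ?_⟩
      have e1 : pA (bB p b.2) j y = 0 := by
        rw [eA j y hj, ls_cons, ls_nil, add_zero]
        exact if_pos rfl
      have e2 : pQ (bB p b.2) j y = vN X (.inl (⟨p + 1, s.c, s.A * p, s.B⟩, t₁)) j y := by
        rw [eQ j y hj, ls_cons, ls_nil, add_zero]
        show (if (0 : ℝ) = 0 then
          ((X.c.D.par X.Y).toDT X.c.sp s.B (s.A * p) t₁).g.val j y else 0) = _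
        rw [if_pos rfl]
        exact congrFun (val_v hn1 j) y
      have hv := (GPair33.PB_vN_inl hn1 j).nonneg y
      rw [em j y hj, e1, e2]
      generalize vN X (.inl (⟨p + 1, s.c, s.A * p, s.B⟩, t₁)) j y = v at hv ⊢
      constructor <;> linarith

end nodes

end Crest.Agent.R4P.E3X479
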