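import Crest.Agent.R4P.PosP_33

/-!
R4 (S0004) with powers, helper33: **two mates at a tie, logical part** (for every system of own labels:
`lab0` of `World2_363` or the permissive labels `LabP`), the mate may be an N piece (its stage changes) or a
P piece (it stays).

Data of the piece `j` ("me"): `g` label above, `g'` label below, `o` own label at the new stage;
of the mate `i`: `gi`, `gi'`, `oi`, and `si` = the sparse label at the stage below.
`R σ σ'` = one exact centre (new circle), `zo μ` = `μ` is in its threshold zone, `ai κ'` = the label `κ'` is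
accurate for `i` at the new stage, `nr κ` = the accuracy of `κ` is near its threshold.
-/

set_option autoImplicit false
set_option linter.unusedSectionVars false
set_option linter.unusedVariables false

namespace Crest.Agent.R4P.EvA33

variable {R : ℚ → ℚ → Prop} {zo nr ai : ℚ → Prop} {g g' gi gi' o oi si : Option ℚ}

/-- one exact centre or none both -/
def SR (R : ℚ → ℚ → Prop) (s s' : Option ℚ) : Prop :=
  (s = none ∧ s' = none) ∨ ∃ σ σ', s = some σ ∧ s' = some σ' ∧ R σ σ'

/-- the position determinism of the own labels of two pieces at the new stage -/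
structure Mt (R : ℚ → ℚ → Prop) (zo nr ai : ℚ → Prop) (o oi si : Option ℚ) : Prop where
  inj : ∀ {σ κ κ'}, R σ κ' → R κ κ' → σ = κ
  rel : ∀ {μ μ'}, o = some μ → oi = some μ' → R μ μ'
  mate : ∀ {μ}, o = some μ → (∃ μ', oi = some μ' ∧ R μ μ') ∨ zo μ
  dead : ∀ {κ κ'}, R κ κ' → ai κ' → nr κ
  own : ∀ {μ}, oi = some μ → si = some μ
  acc : ∀ {μ}, si = some μ → ai μ

/-- **event: new own label in its zone** -/
def EN (zo : ℚ → Prop) (g g' o : Option ℚ) : Prop := ∃ μ, g' = some μ ∧ g ≠ some μ ∧ o = some μ ∧ zo μ

/-- **event: accuracy death near the threshold** -/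
def EA (nr : ℚ → Prop) (g g' o : Option ℚ) : Prop := ∃ κ, g = some κ ∧ g' = none ∧ o = none ∧ nr κ

/-- the three cases of a label at an own missing tie -/
inductive Ki (g g' o : Option ℚ) : Prop
  | stay : g' = g → Ki g g' o
  | dead (κ : ℚ) : g = some κ → g' = none → o = none → Ki g g' o
  | new (μ : ℚ) : g' = some μ → g ≠ some μ → o = some μ → Ki g g' o

/-- rank: stay, dead, new -/
noncomputable def rk (g g' : Option ℚ) : ℕ := by
  classical
  exact if g' = g then 0 else if g' = none then 1 else 2

lemma rk_stay (h : g' = g) : rk g g' = 0 := by unfold rk; rw [if_pos h]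

lemma rk_pos (h : g' ≠ g) : 1 ≤ rk g g' := by
  unfold rk; rw [if_neg h]; split_ifs <;> omega

lemma rk_dead (h : g' ≠ g) (h' : g' = none) : rk g g' = 1 := by
  unfold rk; rw [if_neg h, if_pos h']

lemma rk_new (h : g' ≠ g) (h' : g' ≠ none) : rk g g' = 2 := by
  unfold rk; rw [if_neg h, if_neg h']

/-- **two mates at a tie**: one exact centre above (or none both), the mate has the smaller rank, and if it
stays its label is its sparse label below: then one exact centre below (or none both), or an event of `j` -/
theorem mates (h : Mt R zo nr ai o oi si) (h0 : SR R g gi) (hj : Ki g g' o) (hi : Ki gi gi' oi)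
    (hst : gi' = gi → si = gi) (hrk : rk gi gi' ≤ rk g g') :
    SR R g' gi' ∨ EN zo g g' o ∨ EA nr g g' o := by
  cases hj with
  | stay hj =>
    have e2 : gi' = gi := by
      by_contra hc
      have := rk_pos hc
      rw [rk_stay hj] at hrk
      omega
    left
    rw [hj, e2]
    exact h0
  | dead κ h1 h2 h3 =>
    have hne : g' ≠ g := by rw [h1, h2]; simp
    rcases h0 with ⟨h0, -⟩ | ⟨σ, σ', h0, h0', hr⟩
    · rw [h0] at h1; exact absurd h1 (by simp)
    have eσ : σ = κ := Option.some.inj (h0.symm.trans h1)
    subst eσ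
    cases hi with
    | stay hi =>
      right; right
      exact ⟨σ, h1, h2, h3, h.dead hr (h.acc (by rw [hst hi, h0']))⟩
    | dead κ' k1 k2 k3 => exact Or.inl (Or.inl ⟨h2, k2⟩)
    | new μ' k1 k2 k3 =>
      exfalso
      have e1 : rk gi gi' = 2 := rk_new (by rw [k1]; exact fun h => k2 h.symm) (by rw [k1]; simp)
      rw [e1, rk_dead hne h2] at hrk
      omega
  | new μ h1 h2 h3 =>
    have hmate : ∀ (hn : ∀ μ', oi = some μ' → ¬ R μ μ'), zo μ := by
      intro hn
      rcases h.mate h3 with ⟨μ', k1, k2⟩ | k1
      · exact absurd k2 (hn μ' k1)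
      · exact k1
    cases hi with
    | stay hi =>
      right; left
      refine ⟨μ, h1, h2, h3, hmate fun μ' k1 k2 => ?_⟩
      have k3 := h.own k1
      rw [hst hi] at k3
      rcases h0 with ⟨-, h0'⟩ | ⟨σ, σ', h0, h0', hr⟩
      · rw [k3] at h0'; exact absurd h0' (by simp)
      · have e : σ' = μ' := Option.some.inj (h0'.symm.trans k3)
        subst e
        exact h2 (by rw [h0, h.inj hr k2])
    | dead κ' k1 k2 k3 =>
      right; left
      exact ⟨μ, h1, h2, h3, hmate fun μ' k4 => by rw [k3] at k4; exact absurd k4 (by simp)⟩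
    | new μ' k1 k2 k3 => exact Or.inl (Or.inr ⟨μ, μ', h1, k1, h.rel h3 k3⟩)

end Crest.Agent.R4P.EvA33
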