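import Crest.Agent.R4P.StCh_24

/-!
R4 (S0004) with powers, PLAN v1 leaf B8, helper42: **the own-radius label of a piece along its list of
missing ties** (pure data `γ`, `ψ`, `L` = missing ties, most recent first; `B = L.prod`).

* `acc B σ` (accurate), `alive B σ` (denominator admissible); `lab0_iff`, `lab0_iff_list`.
* `last L` = the last own-radius label (sticky), `slab L` = `last L` if it is still accurate:
  the labels of (t2)/(t3); `slab_cons`, `last_spec`, `slab_spec`.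
* `asleep_den`, `two_acc`, `new_lt`, `new_size`, `newborn_den`, ... : the exact inequalities.
* `miss_cases` : **own missing tie** (SAME, NEW after a den-death, ASLEEP, ACCURACY DEATH, BIRTH).
* `real_last`, ... : the real state against `last`/`slab`; the static column `P*_k`.
-/

set_option autoImplicit false
set_option linter.unusedSectionVars false
set_option linter.unusedVariables false

namespace Crest.Agent.R4P.StM042

open Crest.Agent.R4P.W363
open Crest.Agent.R4.LF363 (Lab rat_gap lab_unique lab_cube)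

/-- `σ` (root coordinates) is accurate at the stage `B` -/
def acc (γ ψ : ℝ) (B : ℕ) (σ : ℚ) : Prop := |(B : ℝ) * γ - (B : ℝ) * σ| ^ 5 ≤ ((B : ℝ) * ψ) ^ 4

/-- the denominator of `σ` is admissible at the stage `B` -/
def alive (ψ : ℝ) (B : ℕ) (σ : ℚ) : Prop := (((B : ℚ) * σ).den : ℝ) ^ 5 * ((B : ℝ) * ψ) ≤ 1

section arith
variable {γ ψ : ℝ} {B s : ℕ} {σ κ τ : ℚ}

lemma lab0_acc (hB : 0 < B) (h : lab0 γ ψ B = some σ) : acc γ ψ B σ := by
  have h1 := (lab0_spec hB h).near
  push_cast at h1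
  exact h1

lemma lab0_alive (hB : 0 < B) (h : lab0 γ ψ B = some σ) : alive ψ B σ := (lab0_spec hB h).den

lemma lab0_pos (hB : 0 < B) (h : lab0 γ ψ B = some σ) : 0 < ψ := by
  have h1 := (lab0_spec hB h).pos
  have hB' : (0:ℝ) < B := by exact_mod_cast hB
  exact (mul_pos_iff_of_pos_left hB').1 h1

lemma lab0_le (hB : 0 < B) (h : lab0 γ ψ B = some σ) : (B : ℝ) * ψ ≤ 1 / 10 := (lab0_spec hB h).le

/-- **the own-radius label** = the accurate rational with admissible denominator -/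
theorem lab0_iff (hB : 0 < B) (hψ : 0 < ψ) (h10 : (B : ℝ) * ψ ≤ 1 / 10) :
    lab0 γ ψ B = some σ ↔ acc γ ψ B σ ∧ alive ψ B σ := by
  constructor
  · exact fun h => ⟨lab0_acc hB h, lab0_alive hB h⟩
  · rintro ⟨h1, h2⟩
    have hB' : (0:ℝ) < B := by exact_mod_cast hB
    refine StCh24.lab0_of_Lab hB ⟨mul_pos hB' hψ, h10, h2, ?_⟩
    push_cast
    exact h1

/-- accuracy is inherited upwards -/
lemma acc_up (hs : 0 < s) (hB : 0 < B) (h : acc γ ψ (s * B) κ) : acc γ ψ B κ :=
  StCh24.near_anti hs hB h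

/-- denominators going down: `den (s B σ) ∣ den (B σ)` -/
lemma den_down (s B : ℕ) (σ : ℚ) : (((s * B : ℕ) : ℚ) * σ).den ∣ ((B : ℚ) * σ).den := by
  have e : ((s * B : ℕ) : ℚ) * σ = (s : ℚ) * (B * σ) := by push_cast; ring
  rw [e]
  have h := Rat.mul_den_dvd (s : ℚ) (B * σ)
  simpa using h

lemma den_down_le (s B : ℕ) (σ : ℚ) : (((s * B : ℕ) : ℚ) * σ).den ≤ ((B : ℚ) * σ).den :=
  Nat.le_of_dvd (Rat.den_pos _) (den_down s B σ)

/-- **denominators going up across a missing tie `s`**: unchanged or multiplied by `s` -/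
lemma den_up (hs : s.Prime) (B : ℕ) (σ : ℚ) :
    ((B : ℚ) * σ).den = (((s * B : ℕ) : ℚ) * σ).den ∨
      ((B : ℚ) * σ).den = s * (((s * B : ℕ) : ℚ) * σ).den := by
  set x : ℚ := (B : ℚ) * σ with hx
  have e : ((s * B : ℕ) : ℚ) * σ = (s : ℚ) * x := by rw [hx]; push_cast; ring
  rw [e]
  have hs0 : (s : ℚ) ≠ 0 := by exact_mod_cast hs.ne_zero
  have h1 : ((s : ℚ) * x).den ∣ x.den := by simpa using Rat.mul_den_dvd (s : ℚ) x
  have h2 : x.den ∣ ((s : ℚ) * x).den * s := by
    have h3 := Joi943.den_div_dvd ((s : ℚ) * x) s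
    rwa [mul_div_cancel_left₀ _ hs0] at h3
  obtain ⟨m, hm⟩ := h1
  have hd : 0 < ((s : ℚ) * x).den := Rat.den_pos _
  rw [hm] at h2
  have h4 : m ∣ s := Nat.dvd_of_mul_dvd_mul_left hd h2
  rcases (Nat.dvd_prime hs).1 h4 with h5 | h5
  · left; rw [hm, h5, mul_one]
  · right; rw [hm, h5, mul_comm]

/-- a label stays alive upwards unless the denominator is multiplied by `s` -/
lemma alive_up (hs : 0 < s) (hψ : 0 ≤ ψ) (hd : ((B : ℚ) * σ).den = (((s * B : ℕ) : ℚ) * σ).den)
    (h : alive ψ (s * B) σ) : alive ψ B σ := by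
  unfold alive at h ⊢
  rw [hd]
  refine le_trans (mul_le_mul_of_nonneg_left ?_ (by positivity)) h
  have hs1 : (1 : ℝ) ≤ s := by exact_mod_cast hs
  push_cast
  have hB : (0:ℝ) ≤ (B:ℝ) * ψ := mul_nonneg (Nat.cast_nonneg _) hψ
  nlinarith

/-- **a label which is born at the missing tie `s` (going down) has a denominator divisible by `s`
above it** -/
theorem newborn_den (hs : s.Prime) (hB : 0 < B) (h : lab0 γ ψ (s * B) = some τ)
    (hne : lab0 γ ψ B ≠ some τ) :
    ((B : ℚ) * τ).den = s * (((s * B : ℕ) : ℚ) * τ).den := by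
  rcases den_up hs B τ with h1 | h1
  · exfalso
    have hsB : 0 < s * B := Nat.mul_pos hs.pos hB
    have hψ := lab0_pos hsB h
    have h2 := alive_up hs.pos hψ.le h1 (lab0_alive hsB h)
    have h3 := acc_up hs.pos hB (lab0_acc hsB h)
    have h4 := lab0_le hsB h
    refine hne ((lab0_iff hB hψ ?_).2 ⟨h3, h2⟩)
    have hs1 : (1 : ℝ) ≤ s := by exact_mod_cast hs.pos
    push_cast at h4
    have hB' : (0:ℝ) ≤ (B:ℝ) * ψ := mul_nonneg (Nat.cast_nonneg _) hψ.le
    nlinarith
  · exact h1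

/-- **two accurate rationals**: `1 ≤ 2 k k' R^(4/5)` -/
theorem two_acc (hψ : 0 ≤ ψ) (h1 : acc γ ψ B κ) (h2 : acc γ ψ B τ) (hB : 0 < B) (hne : κ ≠ τ) :
    1 ≤ 32 * ((((B : ℚ) * κ).den : ℝ) * (((B : ℚ) * τ).den : ℝ)) ^ 5 * ((B : ℝ) * ψ) ^ 4 := by
  have hB' : (B : ℚ) ≠ 0 := by exact_mod_cast hB.ne'
  have hne' : (B : ℚ) * κ ≠ (B : ℚ) * τ := fun h => hne (mul_left_cancel₀ hB' h)
  have h3 := rat_gap hne'
  set k : ℝ := (((B : ℚ) * κ).den : ℝ) with hk
  set k' : ℝ := (((B : ℚ) * τ).den : ℝ) with hk'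
  have hk0 : 0 < k := by rw [hk]; exact_mod_cast Rat.den_pos _
  have hk0' : 0 < k' := by rw [hk']; exact_mod_cast Rat.den_pos _
  set a : ℝ := |(B : ℝ) * γ - (B : ℝ) * κ| with ha
  set b : ℝ := |(B : ℝ) * γ - (B : ℝ) * τ| with hb
  have h4 : |(((B : ℚ) * κ : ℚ) : ℝ) - (((B : ℚ) * τ : ℚ) : ℝ)| ≤ 2 * max a b := by
    have e : (((B : ℚ) * κ : ℚ) : ℝ) - (((B : ℚ) * τ : ℚ) : ℝ) =
        ((B : ℝ) * γ - (B : ℝ) * τ) - ((B : ℝ) * γ - (B : ℝ) * κ) := by push_cast; ring
    rw [e]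
    have h5 := abs_sub ((B : ℝ) * γ - (B : ℝ) * τ) ((B : ℝ) * γ - (B : ℝ) * κ)
    have h6 := le_max_left a b
    have h7 := le_max_right a b
    rw [← ha, ← hb] at h5
    linarith
  have hm0 : 0 ≤ max a b := le_max_of_le_left (abs_nonneg _)
  have h5 : (max a b) ^ 5 ≤ ((B : ℝ) * ψ) ^ 4 := by
    rcases max_choice a b with h6 | h6
    · rw [h6]; exact h1
    · rw [h6]; exact h2
  calc (1 : ℝ) ≤ (|(((B : ℚ) * κ : ℚ) : ℝ) - (((B : ℚ) * τ : ℚ) : ℝ)| * (k * k')) ^ 5 :=
        one_le_pow₀ h3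
    _ ≤ ((2 * max a b) * (k * k')) ^ 5 := by gcongr
    _ = 32 * (k * k') ^ 5 * (max a b) ^ 5 := by ring
    _ ≤ 32 * (k * k') ^ 5 * ((B : ℝ) * ψ) ^ 4 := by gcongr

/-- **asleep by denominator**: accurate without own-radius label: the denominator is dead -/
theorem asleep_den (hB : 0 < B) (hψ : 0 < ψ) (h10 : (B : ℝ) * ψ ≤ 1 / 10)
    (h : lab0 γ ψ B ≠ some κ) (ha : acc γ ψ B κ) :
    1 < (((B : ℚ) * κ).den : ℝ) ^ 5 * ((B : ℝ) * ψ) := by
  by_contra hc
  exact h ((lab0_iff hB hψ h10).2 ⟨ha, not_lt.1 hc⟩)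

/-- **the new label after a den-death has a smaller denominator**, and both are tied to the radius:
`k'' < k`, `1 ≤ 32 k⁵ R³`, `1 ≤ 32 (k k'')⁵ R⁴` -/
theorem new_size (hB : 0 < B) (h : lab0 γ ψ B = some τ) (ha : acc γ ψ B κ) (hne : κ ≠ τ) :
    ((B : ℚ) * τ).den < ((B : ℚ) * κ).den ∧
      1 < (((B : ℚ) * κ).den : ℝ) ^ 5 * ((B : ℝ) * ψ) ∧
      1 ≤ 32 * ((((B : ℚ) * κ).den : ℝ) * (((B : ℚ) * τ).den : ℝ)) ^ 5 * ((B : ℝ) * ψ) ^ 4 ∧
      1 ≤ 32 * (((B : ℚ) * κ).den : ℝ) ^ 5 * ((B : ℝ) * ψ) ^ 3 := by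
  have hψ := lab0_pos hB h
  have hB' : (0:ℝ) < B := by exact_mod_cast hB
  have hR : 0 < (B : ℝ) * ψ := mul_pos hB' hψ
  have h10 := lab0_le hB h
  have h1 := asleep_den hB hψ h10 (by rw [h]; exact fun e => hne (Option.some.inj e).symm) ha
  have h2 := two_acc hψ.le ha (lab0_acc hB h) hB hne
  have h3 := lab0_alive hB h
  unfold alive at h3
  refine ⟨?_, h1, h2, ?_⟩
  · by_contra hc
    push Not at hc
    have h4 : (((B : ℚ) * κ).den : ℝ) ≤ (((B : ℚ) * τ).den : ℝ) := by exact_mod_cast hc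
    have h5 : (((B : ℚ) * κ).den : ℝ) ^ 5 * ((B : ℝ) * ψ) ≤
        (((B : ℚ) * τ).den : ℝ) ^ 5 * ((B : ℝ) * ψ) := by gcongr
    linarith
  · calc (1 : ℝ) ≤ 32 * ((((B : ℚ) * κ).den : ℝ) * (((B : ℚ) * τ).den : ℝ)) ^ 5 *
          ((B : ℝ) * ψ) ^ 4 := h2
      _ = 32 * (((B : ℚ) * κ).den : ℝ) ^ 5 * ((B : ℝ) * ψ) ^ 3 *
          ((((B : ℚ) * τ).den : ℝ) ^ 5 * ((B : ℝ) * ψ)) := by ring
      _ ≤ 32 * (((B : ℚ) * κ).den : ℝ) ^ 5 * ((B : ℝ) * ψ) ^ 3 * 1 := by gcongr
      _ = _ := mul_one _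

end arith

/-! ### the sticky label -/

open Classical in
/-- the last own-radius label -/
noncomputable def last (γ ψ : ℝ) : List ℕ → Option ℚ
  | [] => lab0 γ ψ 1
  | s :: L => (lab0 γ ψ (s * L.prod)).or (last γ ψ L)

open Classical in
/-- **the sticky label** = the last own-radius label, if it is still accurate -/
noncomputable def slab (γ ψ : ℝ) (L : List ℕ) : Option ℚ :=
  (last γ ψ L).filter fun κ => decide (acc γ ψ L.prod κ)

/-- asleep: a sticky label without own-radius label -/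
def asleep (γ ψ : ℝ) (L : List ℕ) (κ : ℚ) : Prop :=
  slab γ ψ L = some κ ∧ lab0 γ ψ L.prod = none

section sticky
variable {γ ψ : ℝ} {L : List ℕ} {s : ℕ} {σ κ τ : ℚ}

@[simp] lemma last_nil (γ ψ : ℝ) : last γ ψ [] = lab0 γ ψ 1 := rfl

lemma last_cons (γ ψ : ℝ) (s : ℕ) (L : List ℕ) :
    last γ ψ (s :: L) = (lab0 γ ψ (s :: L).prod).or (last γ ψ L) := by
  rw [List.prod_cons]; rfl

lemma last_of_lab0 (h : lab0 γ ψ L.prod = some σ) : last γ ψ L = some σ := by
  cases L with
  | nil => simpa using h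
  | cons s L => rw [last_cons, h]; rfl

lemma last_cons_none (h : lab0 γ ψ (s :: L).prod = none) : last γ ψ (s :: L) = last γ ψ L := by
  rw [last_cons, h]; rfl

/-- **the stage of the last label**: no own-radius label above it in the list -/
theorem last_spec (h : last γ ψ L = some κ) : ∃ L₁ L₂ : List ℕ, L = L₁ ++ L₂ ∧
    lab0 γ ψ L₂.prod = some κ ∧
      ∀ A C : List ℕ, L₁ = A ++ C → C ≠ [] → lab0 γ ψ (C ++ L₂).prod = none := by
  induction L with
  | nil => exact ⟨[], [], rfl, by simpa using h, fun A C e hC => by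
      exact absurd (List.append_eq_nil_iff.1 e.symm).2 hC⟩
  | cons s L ih =>
    cases hl : lab0 γ ψ (s :: L).prod with
    | some σ =>
      rw [last_of_lab0 hl] at h
      exact ⟨[], s :: L, rfl, by rw [hl]; exact h, fun A C e hC => by
        exact absurd (List.append_eq_nil_iff.1 e.symm).2 hC⟩
    | none =>
      rw [last_cons_none hl] at h
      obtain ⟨L₁, L₂, e, h1, h2⟩ := ih h
      refine ⟨s :: L₁, L₂, by rw [e]; rfl, h1, fun A C e2 hC => ?_⟩
      cases A with
      | nil =>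
        rw [List.nil_append] at e2
        rw [← e2, List.cons_append, ← e]
        exact hl
      | cons a A =>
        rw [List.cons_append, List.cons.injEq] at e2
        exact h2 A C e2.2 hC

lemma last_none (h : last γ ψ L = none) : ∀ A C : List ℕ, L = A ++ C → lab0 γ ψ C.prod = none := by
  induction L with
  | nil =>
    intro A C e
    rw [(List.append_eq_nil_iff.1 e.symm).2]
    simpa using h
  | cons s L ih =>
    intro A C e
    cases hl : lab0 γ ψ (s :: L).prod with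
    | some σ => rw [last_of_lab0 hl] at h; exact absurd h (by simp)
    | none =>
      rw [last_cons_none hl] at h
      cases A with
      | nil => rw [List.nil_append] at e; rw [← e]; exact hl
      | cons a A =>
        rw [List.cons_append, List.cons.injEq] at e
        exact ih h A C e.2

lemma slab_iff : slab γ ψ L = some κ ↔ last γ ψ L = some κ ∧ acc γ ψ L.prod κ := by
  unfold slab
  rw [Option.filter_eq_some_iff]
  simp

lemma slab_none_iff : slab γ ψ L = none ↔ ∀ κ, last γ ψ L = some κ → ¬ acc γ ψ L.prod κ := by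
  unfold slab
  rw [Option.filter_eq_none_iff]
  simp

/-- an own-radius label is the sticky label -/
lemma slab_of_lab0 (hL : 0 < L.prod) (h : lab0 γ ψ L.prod = some σ) : slab γ ψ L = some σ :=
  slab_iff.2 ⟨last_of_lab0 h, lab0_acc hL h⟩

/-- accuracy at all the stages above -/
lemma acc_suffix : ∀ (A C : List ℕ), (∀ s ∈ A, 0 < s) → 0 < C.prod →
    acc γ ψ (A ++ C).prod κ → acc γ ψ C.prod κ
  | [], C, _, _, h => h
  | a :: A, C, hA, hC, h => by
    have h0 : 0 < (A ++ C).prod := by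
      rw [List.prod_append]
      exact Nat.mul_pos (List.prod_pos fun s hs => hA s (List.mem_cons_of_mem _ hs)) hC
    refine acc_suffix A C (fun s hs => hA s (List.mem_cons_of_mem _ hs)) hC ?_
    rw [List.cons_append, List.prod_cons] at h
    exact acc_up (hA a List.mem_cons_self) h0 h

/-- **the recursion of the sticky label** at an own missing tie `s` -/
theorem slab_cons (hs : 0 < s) (hL : 0 < L.prod) :
    (∀ τ, lab0 γ ψ (s :: L).prod = some τ → slab γ ψ (s :: L) = some τ) ∧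
    (lab0 γ ψ (s :: L).prod = none → ∀ κ, slab γ ψ (s :: L) = some κ ↔
      slab γ ψ L = some κ ∧ acc γ ψ (s :: L).prod κ) := by
  have hsL : 0 < (s :: L).prod := by rw [List.prod_cons]; exact Nat.mul_pos hs hL
  refine ⟨fun τ h => slab_of_lab0 hsL h, fun h κ => ?_⟩
  rw [slab_iff, last_cons_none h, slab_iff]
  constructor
  · rintro ⟨h1, h2⟩
    refine ⟨⟨h1, ?_⟩, h2⟩
    rw [List.prod_cons] at h2
    exact acc_up hs hL h2
  · rintro ⟨⟨h1, _⟩, h2⟩
    exact ⟨h1, h2⟩

/-- **the stage of the sticky label** -/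
theorem slab_spec (hL : ∀ s ∈ L, 0 < s) (h : slab γ ψ L = some κ) :
    ∃ L₁ L₂ : List ℕ, L = L₁ ++ L₂ ∧ lab0 γ ψ L₂.prod = some κ ∧
      (∀ A C : List ℕ, L₁ = A ++ C → C ≠ [] → lab0 γ ψ (C ++ L₂).prod = none) ∧
      ∀ A C : List ℕ, L₁ = A ++ C → acc γ ψ (C ++ L₂).prod κ := by
  obtain ⟨h1, h2⟩ := slab_iff.1 h
  obtain ⟨L₁, L₂, e, h3, h4⟩ := last_spec h1
  refine ⟨L₁, L₂, e, h3, h4, fun A C e2 => ?_⟩
  rw [e, e2, List.append_assoc] at h2
  have hp : 0 < (C ++ L₂).prod := by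
    refine List.prod_pos fun s hs => hL s ?_
    rw [e, e2, List.append_assoc]
    exact List.mem_append_right _ hs
  exact acc_suffix A (C ++ L₂) (fun s hs => hL s (by
    rw [e, e2, List.append_assoc]; exact List.mem_append_left _ hs)) hp h2

/-- **asleep: dead by denominator** -/
theorem asleep.den (h : asleep γ ψ L κ) (hL : 0 < L.prod) (hψ : 0 < ψ)
    (h10 : (L.prod : ℝ) * ψ ≤ 1 / 10) :
    1 < (((L.prod : ℚ) * κ).den : ℝ) ^ 5 * ((L.prod : ℝ) * ψ) :=
  asleep_den hL hψ h10 (by rw [h.2]; simp) (slab_iff.1 h.1).2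

/-! ### the own missing tie -/

/-- **the changes at an own missing tie** `s` (`L → s :: L`): exactly one of
* SAME: the sticky label stays (alive or asleep);
* NEW: a new own-radius label `τ`, the old sticky label is accurate (dead by denominator);
* NEW': a new own-radius label, the old sticky label has just lost its accuracy;
* OUT: accuracy death without a new label;
* BIRTH: an own-radius label without old sticky label;
* NONE. -/
theorem miss_cases (hs : 0 < s) (hL : 0 < L.prod) :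
    (∃ κ, slab γ ψ L = some κ ∧ slab γ ψ (s :: L) = some κ) ∨
    (∃ κ τ, slab γ ψ L = some κ ∧ lab0 γ ψ (s :: L).prod = some τ ∧ κ ≠ τ ∧
      acc γ ψ (s :: L).prod κ) ∨
    (∃ κ τ, slab γ ψ L = some κ ∧ lab0 γ ψ (s :: L).prod = some τ ∧ κ ≠ τ ∧
      ¬ acc γ ψ (s :: L).prod κ) ∨
    (∃ κ, slab γ ψ L = some κ ∧ lab0 γ ψ (s :: L).prod = none ∧ slab γ ψ (s :: L) = none ∧
      ¬ acc γ ψ (s :: L).prod κ) ∨
    (∃ τ, slab γ ψ L = none ∧ lab0 γ ψ (s :: L).prod = some τ) ∨
    (slab γ ψ L = none ∧ slab γ ψ (s :: L) = none) := by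
  obtain ⟨h1, h2⟩ := slab_cons (γ := γ) (ψ := ψ) hs hL
  cases ho : lab0 γ ψ (s :: L).prod with
  | some τ =>
    cases hk : slab γ ψ L with
    | some κ =>
      by_cases e : κ = τ
      · exact Or.inl ⟨κ, rfl, by rw [h1 τ ho, e]⟩
      · by_cases ha : acc γ ψ (s :: L).prod κ
        · exact Or.inr (Or.inl ⟨κ, τ, rfl, rfl, e, ha⟩)
        · exact Or.inr (Or.inr (Or.inl ⟨κ, τ, rfl, rfl, e, ha⟩))
    | none => exact Or.inr (Or.inr (Or.inr (Or.inr (Or.inl ⟨τ, rfl, rfl⟩))))
  | none =>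
    cases hk : slab γ ψ L with
    | some κ =>
      by_cases ha : acc γ ψ (s :: L).prod κ
      · exact Or.inl ⟨κ, rfl, (h2 ho κ).2 ⟨hk, ha⟩⟩
      · refine Or.inr (Or.inr (Or.inr (Or.inl ⟨κ, rfl, rfl, ?_, ha⟩)))
        cases hn : slab γ ψ (s :: L) with
        | none => rfl
        | some κ' =>
          obtain ⟨k1, k2⟩ := (h2 ho κ').1 hn
          rw [hk] at k1
          rw [Option.some.inj k1] at ha
          exact absurd k2 ha
    | none =>
      refine Or.inr (Or.inr (Or.inr (Or.inr (Or.inr ⟨rfl, ?_⟩))))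
      cases hn : slab γ ψ (s :: L) with
      | none => rfl
      | some κ' =>
        obtain ⟨k1, _⟩ := (h2 ho κ').1 hn
        rw [hk] at k1
        exact absurd k1 (by simp)

/-- a label which is different from the sticky label is not the own-radius label above -/
lemma lab0_ne_of_slab (hL : 0 < L.prod) (hk : ∀ κ, slab γ ψ L = some κ → κ ≠ τ) :
    lab0 γ ψ L.prod ≠ some τ := fun h => hk τ (slab_of_lab0 hL h) rfl

/-- **NEW and BIRTH**: the denominator of the new label is multiplied by `s` above -/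
theorem new_den (hs : s.Prime) (hL : 0 < L.prod) (h : lab0 γ ψ (s :: L).prod = some τ)
    (hk : ∀ κ, slab γ ψ L = some κ → κ ≠ τ) :
    (((L.prod : ℕ) : ℚ) * τ).den = s * ((((s :: L).prod : ℕ) : ℚ) * τ).den := by
  rw [List.prod_cons] at h ⊢
  exact newborn_den hs hL h (lab0_ne_of_slab hL hk)

/-- **NEW**: the sizes -/
theorem new_sizes (hs : 0 < s) (hL : 0 < L.prod) (h : lab0 γ ψ (s :: L).prod = some τ)
    (ha : acc γ ψ (s :: L).prod κ) (hne : κ ≠ τ) :
    ((((s :: L).prod : ℕ) : ℚ) * τ).den < ((((s :: L).prod : ℕ) : ℚ) * κ).den ∧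
      1 < (((((s :: L).prod : ℕ) : ℚ) * κ).den : ℝ) ^ 5 * (((s :: L).prod : ℕ) * ψ) ∧
      1 ≤ 32 * ((((((s :: L).prod : ℕ) : ℚ) * κ).den : ℝ) *
        (((((s :: L).prod : ℕ) : ℚ) * τ).den : ℝ)) ^ 5 * (((s :: L).prod : ℕ) * ψ) ^ 4 ∧
      1 ≤ 32 * (((((s :: L).prod : ℕ) : ℚ) * κ).den : ℝ) ^ 5 * (((s :: L).prod : ℕ) * ψ) ^ 3 :=
  new_size (by rw [List.prod_cons]; exact Nat.mul_pos hs hL) h ha hne

/-- the denominator of the sticky label (in the coordinates of the stage) does not increase, except at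
an accuracy death or a birth -/
theorem slab_den_anti (hs : 0 < s) (hL : 0 < L.prod) (h : slab γ ψ L = some κ)
    (h' : slab γ ψ (s :: L) = some τ) (ha : acc γ ψ (s :: L).prod κ) :
    ((((s :: L).prod : ℕ) : ℚ) * τ).den ≤ (((L.prod : ℕ) : ℚ) * κ).den := by
  have hsL : 0 < (s :: L).prod := by rw [List.prod_cons]; exact Nat.mul_pos hs hL
  have h1 : ((((s :: L).prod : ℕ) : ℚ) * κ).den ≤ (((L.prod : ℕ) : ℚ) * κ).den := by
    rw [List.prod_cons]; exact den_down_le s L.prod κ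
  cases ho : lab0 γ ψ (s :: L).prod with
  | none =>
    have h2 := (((slab_cons (γ := γ) (ψ := ψ) hs hL).2 ho τ).1 h').1
    rw [h] at h2
    rw [← Option.some.inj h2]
    exact h1
  | some τ' =>
    have h2 := (slab_cons (γ := γ) (ψ := ψ) hs hL).1 τ' ho
    rw [h'] at h2
    have e := Option.some.inj h2
    by_cases hne : κ = τ
    · rw [← hne]; exact h1
    · rw [← e] at ho
      exact ((new_sizes hs hL ho ha hne).1.le).trans h1

end sticky

/-! ### the real state and the sticky label -/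

section real
open Crest.Agent.R4P.Cnt588 Crest.Agent.R4P.Data758 Crest.Agent.R4P.StCh24
open Crest.Agent.R4P.Link758 (Bl)

variable {c : Cf} {p q : ℕ} {σ : ℚ}

/-- the missing ties of `q` above the column `p`, most recent first -/
noncomputable abbrev ml (c : Cf) (p q : ℕ) : List ℕ := lst (c.t.mt q) p

lemma ml_prod (c : Cf) (p q : ℕ) : (ml c p q).prod = Bl c p q := rfl

/-- **the real state against the sticky label** (`lam = 0`, thin at the last missing tie):
* the real label is the sticky label (own-radius or asleep), or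
* the item is fat, its real label `σ` is kept from the stage before the last missing tie, and at the
  present stage it has another own-radius label `τ`, or
* the item is fat, its real label is kept, no own-radius label, and `σ` is not accurate any more. -/
theorem real_slab (hO : ∀ s ∈ ml c p q, 0 < s) (hl : c.lam p = 0) (hT : TL c p q)
    (h : c.st p q = some σ) :
    slab c.γ (c.r q) (ml c p q) = some σ ∨
    (∃ s L τ, ml c p q = s :: L ∧ c.wp.thr p < (Bl c p q : ℝ) * c.r q ∧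
      lab0 c.γ (c.r q) L.prod = some σ ∧ lab0 c.γ (c.r q) (s :: L).prod = some τ ∧ τ ≠ σ) ∨
    (∃ s L, ml c p q = s :: L ∧ c.wp.thr p < (Bl c p q : ℝ) * c.r q ∧
      lab0 c.γ (c.r q) L.prod = some σ ∧ lab0 c.γ (c.r q) (s :: L).prod = none ∧
      ¬ acc c.γ (c.r q) (s :: L).prod σ) := by
  have hp : 0 < (ml c p q).prod := List.prod_pos hO
  rcases two hl hT h with h1 | ⟨s, L, h1, h2, h3⟩
  · exact Or.inl (slab_of_lab0 hp h1)
  · have h1' : ml c p q = s :: L := h1
    have hs : 0 < s := hO s (by rw [h1']; exact List.mem_cons_self)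
    have hL : 0 < L.prod := List.prod_pos fun x hx => hO x (by
      rw [h1']; exact List.mem_cons_of_mem _ hx)
    obtain ⟨k1, k2⟩ := slab_cons (γ := c.γ) (ψ := c.r q) hs hL
    cases ho : lab0 c.γ (c.r q) (s :: L).prod with
    | some τ =>
      by_cases e : τ = σ
      · left
        rw [h1', k1 τ ho, e]
      · exact Or.inr (Or.inl ⟨s, L, τ, h1', h2, h3, ho, e⟩)
    | none =>
      by_cases ha : acc c.γ (c.r q) (s :: L).prod σ
      · left
        rw [h1']
        exact (k2 ho σ).2 ⟨slab_of_lab0 hL h3, ha⟩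
      · exact Or.inr (Or.inr ⟨s, L, h1', h2, h3, ho, ha⟩)

/-- thin: the real state is the own-radius label; a real label is the sticky label -/
lemma real_thin (hO : ∀ s ∈ ml c p q, 0 < s) (hl : c.lam p = 0)
    (ht : (Bl c p q : ℝ) * c.r q ≤ c.wp.thr p) (h : c.st p q = some σ) :
    lab0 c.γ (c.r q) (Bl c p q) = some σ ∧ slab c.γ (c.r q) (ml c p q) = some σ := by
  have h1 : lab0 c.γ (c.r q) (Bl c p q) = some σ := by rw [← StB21.thin hl ht, h]
  exact ⟨h1, slab_of_lab0 (List.prod_pos hO) h1⟩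

/-- **dense and thin: alive** -/
lemma alive_of_dense {ψ thr : ℝ} {B : ℕ} (h : (((B : ℚ) * σ).den : ℝ) ^ 5 * thr ≤ 1)
    (ht : (B : ℝ) * ψ ≤ thr) : alive ψ B σ := by
  unfold alive
  exact (mul_le_mul_of_nonneg_left ht (by positivity)).trans h

/-- **sparse and fat: dead** (a fat kept label below `P*_k` is not the own-radius label) -/
lemma dead_of_sparse {ψ thr : ℝ} {B : ℕ} (h : 1 < (((B : ℚ) * σ).den : ℝ) ^ 5 * thr)
    (hf : thr ≤ (B : ℝ) * ψ) : ¬ alive ψ B σ := by
  unfold alive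
  push Not
  exact h.trans_le (mul_le_mul_of_nonneg_left hf (by positivity))

/-- sparse and thin: the real label, if there is one, is the own-radius label; sparse and fat: the
kept label `σ` is dead: another own-radius label, asleep in `σ`, or inaccurate -/
theorem real_sparse (hO : ∀ s ∈ ml c p q, 0 < s) (hl : c.lam p = 0) (hT : TL c p q)
    (hsp : 1 < (((Bl c p q : ℚ) * σ).den : ℝ) ^ 5 * c.wp.thr p)
    (hf : c.wp.thr p < (Bl c p q : ℝ) * c.r q) (h : c.st p q = some σ) :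
    (∃ s L τ, ml c p q = s :: L ∧ lab0 c.γ (c.r q) L.prod = some σ ∧
      lab0 c.γ (c.r q) (s :: L).prod = some τ ∧ τ ≠ σ) ∨
    asleep c.γ (c.r q) (ml c p q) σ ∨
    (∃ s L, ml c p q = s :: L ∧ lab0 c.γ (c.r q) L.prod = some σ ∧
      lab0 c.γ (c.r q) (s :: L).prod = none ∧ ¬ acc c.γ (c.r q) (s :: L).prod σ) := by
  have hp : 0 < (ml c p q).prod := List.prod_pos hO
  have hd := dead_of_sparse hsp hf.le
  rcases real_slab hO hl hT h with h1 | ⟨s, L, τ, h1, -, h2, h3, h4⟩ | ⟨s, L, h1, -, h2, h3, h4⟩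
  · cases ho : lab0 c.γ (c.r q) (ml c p q).prod with
    | none => exact Or.inr (Or.inl ⟨h1, ho⟩)
    | some τ =>
      exfalso
      have h2 := slab_of_lab0 hp ho
      rw [h1] at h2
      rw [← Option.some.inj h2] at ho
      exact hd (lab0_alive hp ho)
  · exact Or.inl ⟨s, L, τ, h1, h2, h3, h4⟩
  · exact Or.inr (Or.inr ⟨s, L, h1, h2, h3, h4⟩)

end real

end Crest.Agent.R4P.StM042
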