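import Crest.Agent.R4P.StM_6
import Crest.Agent.R4P.StM0_42

/-!
R4 (S0004) with powers, PLAN v1 leaf B8, helper42: **the own missing tie of a piece** (state machine,
part 2; definitions of `StM_6`: `own`, `sl`, `acc`, `d5`, `dense`, `sla`, `gl`).

Pure level: `s` = the missing tie, `L` = the missing ties above it, `b = L.prod`.
* `born_den`, `born_d5`, `born_gt` : a label born at `s` (going down) has `s ∣ den (b ρ)`,
  `d5 b ρ = s^5 d5 (s b) ρ`, `1 < d5 b ρ (b ψ)`;
* `acc_win` : accuracy death at `s`: `ψ^4 < s b |γ-κ|^5`, `b |γ-κ|^5 ≤ ψ^4`;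
* `den_win` : den-death at `s`: `1 < d5 (s b) κ (s b ψ) ≤ s`;
* `Kind` : the kinds of changes of the game label, `kind` : exactly these occur (`Step` = the real
  states above and below);
* Cf level `cf_step`, node level `node_step`, `node_kind`, leaves `leaf_step`, `leaf_kind`.
-/

set_option autoImplicit false
set_option linter.unusedSectionVars false
set_option linter.unusedVariables false

namespace Crest.Agent.R4P.StM142

open Crest.Agent.R4P.Cnt588 Crest.Agent.R4P.Item758 Crest.Agent.R4P.W363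
open Crest.Agent.R4P.Data758 Crest.Agent.R4P.OmSt532 Crest.Agent.R4P.OmData532
open Crest.Agent.R4P.LfDat734 Crest.Agent.R4P.WPex189
open Crest.Agent.R4P.Bld532 (NS All NodeOk Bk)
open Crest.Agent.R4P.Step588 (NDt ND1 ctx_NDt uq_lt)
open Crest.Agent.R4P.WalkIT579 (tp isL nodeOk_hi top_of_nodeOk)
open Crest.Agent.R4P.Skel189 Crest.Agent.R4P.RseSt23 Crest.Agent.R4P.StB21
open Crest.Agent.R4P.Link758 (Bl)
open Crest.Agent.R4.Soft104 (w)
open Crest.Agent.R4P.StM6

/-! ### arithmetic of one missing tie -/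

section pure
variable {γ ψ t t' : ℝ} {b s : ℕ} {ρ κ τ : ℚ} {L : List ℕ} {st st' : Option ℚ}

/-- **a label born at the missing tie `s`** -/
theorem born_den (hs : s.Prime) (hb : 0 < b) (h : lab0 γ ψ (s * b) = some ρ)
    (hne : lab0 γ ψ b ≠ some ρ) : ((b : ℚ) * ρ).den = s * (((s * b : ℕ) : ℚ) * ρ).den :=
  StM042.newborn_den hs hb h hne

lemma born_d5 (hs : s.Prime) (hb : 0 < b) (h : lab0 γ ψ (s * b) = some ρ)
    (hne : lab0 γ ψ b ≠ some ρ) : d5 b ρ = (s : ℝ) ^ 5 * d5 (s * b) ρ := by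
  unfold d5
  rw [born_den hs hb h hne]
  push_cast
  ring

/-- a label which is the own-radius label at `s b` and not at `b` was dead at `b` by its
denominator -/
lemma born_gt (hs : 0 < s) (hb : 0 < b) (h : lab0 γ ψ (s * b) = some ρ)
    (hne : lab0 γ ψ b ≠ some ρ) : 1 < d5 b ρ * (b * ψ) := StCh24.death_size hs hb h hne

/-- the window of an accuracy death -/
lemma acc_win (h : acc γ ψ b κ) (h' : ¬ acc γ ψ (s * b) κ) :
    b * |γ - κ| ^ 5 ≤ ψ ^ 4 ∧ ψ ^ 4 < s * (b * |γ - κ| ^ 5) := by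
  refine ⟨h, ?_⟩
  unfold acc at h'
  push Not at h'
  push_cast at h'
  rwa [mul_assoc] at h'

/-- the window of a den-death: `k` = denominator below -/
lemma den_win (hψ : 0 ≤ ψ) (h : d5 b κ * (b * ψ) ≤ 1)
    (h' : 1 < d5 (s * b) κ * ((s * b : ℕ) * ψ)) :
    1 < d5 (s * b) κ * ((s * b : ℕ) * ψ) ∧ d5 (s * b) κ * ((s * b : ℕ) * ψ) ≤ s := by
  refine ⟨h', ?_⟩
  have h1 : d5 (s * b) κ * (b * ψ) ≤ 1 := by
    refine le_trans ?_ h
    have h2 : (0 : ℝ) ≤ b * ψ := by positivity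
    exact mul_le_mul_of_nonneg_right (d5_anti b s κ) h2
  have h3 : d5 (s * b) κ * ((s * b : ℕ) * ψ) = s * (d5 (s * b) κ * (b * ψ)) := by
    push_cast; ring
  rw [h3]
  have hs0 : (0 : ℝ) ≤ s := Nat.cast_nonneg _
  nlinarith

/-! ### the step -/

/-- **the real states above (`st`) and below (`st'`) an own missing tie `s`**; `t = thr` above,
`t' = thr` below. The piece is thin above. -/
structure Step (γ ψ t t' : ℝ) (s : ℕ) (L : List ℕ) (st st' : Option ℚ) : Prop where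
  sp : s.Prime
  pos : 0 < L.prod
  thin : L.prod * ψ ≤ t
  hst : st = own γ ψ L
  cases : ((s * L.prod : ℕ) * ψ ≤ t' ∧ st' = own γ ψ (s :: L)) ∨
    (t' < (s * L.prod : ℕ) * ψ ∧ st' = st ∧ ∃ κ, st = some κ) ∨
    (t' < (s * L.prod : ℕ) * ψ ∧ st = none ∧ (st' = own γ ψ (s :: L) ∨ st' = none))

lemma Step.pos' (h : Step γ ψ t t' s L st st') : 0 < (s :: L).prod := by
  rw [List.prod_cons]; exact Nat.mul_pos h.sp.pos h.pos

lemma Step.opts (h : Step γ ψ t t' s L st st') :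
    st' = own γ ψ (s :: L) ∨ st' = st ∨ st' = none := by
  rcases h.cases with ⟨-, h1⟩ | ⟨-, h1, -⟩ | ⟨-, -, h1 | h1⟩
  · exact Or.inl h1
  · exact Or.inr (Or.inl h1)
  · exact Or.inl h1
  · exact Or.inr (Or.inr h1)

/-- the game label above is the sparse label -/
lemma Step.gl_above (h : Step γ ψ t t' s L st st') : gl st t γ ψ L = sla γ ψ L :=
  gl_own h.pos h.hst

/-- **the kinds of changes** of the game label from `g` (above) to `g'` (below) at the own missing
tie `s` -/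
inductive Kind (γ ψ : ℝ) (s : ℕ) (L : List ℕ) (g g' : Option ℚ) : Prop
  /-- nothing changes -/
  | same : g' = g → Kind γ ψ s L g g'
  /-- a new own-radius label `ρ`; nothing above -/
  | birth (ρ : ℚ) : g = none → g' = some ρ → own γ ψ (s :: L) = some ρ →
      ((L.prod : ℚ) * ρ).den = s * (((s * L.prod : ℕ) : ℚ) * ρ).den →
      1 < d5 L.prod ρ * (L.prod * ψ) → Kind γ ψ s L g g'
  /-- a new own-radius label `ρ`; the old label `κ` is accurate and dead by its denominator -/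
  | new (κ ρ : ℚ) : g = some κ → g' = some ρ → κ ≠ ρ → own γ ψ (s :: L) = some ρ →
      acc γ ψ (s * L.prod) κ →
      ((L.prod : ℚ) * ρ).den = s * (((s * L.prod : ℕ) : ℚ) * ρ).den →
      1 < d5 L.prod ρ * (L.prod * ψ) →
      1 < d5 (s * L.prod) κ * ((s * L.prod : ℕ) * ψ) →
      d5 (s * L.prod) ρ < d5 (s * L.prod) κ →
      1 ≤ 32 * ((s * L.prod : ℕ) * ψ) ^ 4 * (d5 (s * L.prod) ρ * d5 (s * L.prod) κ) →
      1 ≤ 32 * ((s * L.prod : ℕ) * ψ) ^ 3 * d5 (s * L.prod) κ → Kind γ ψ s L g g'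
  /-- accuracy death of `κ`, a new own-radius label `ρ` -/
  | accnew (κ ρ : ℚ) : g = some κ → g' = some ρ → κ ≠ ρ → own γ ψ (s :: L) = some ρ →
      acc γ ψ L.prod κ → ¬ acc γ ψ (s * L.prod) κ →
      ((L.prod : ℚ) * ρ).den = s * (((s * L.prod : ℕ) : ℚ) * ρ).den →
      1 < d5 L.prod ρ * (L.prod * ψ) → Kind γ ψ s L g g'
  /-- accuracy death of `κ` without a new label -/
  | acc (κ : ℚ) : g = some κ → g' = none → own γ ψ (s :: L) = none →
      acc γ ψ L.prod κ → ¬ acc γ ψ (s * L.prod) κ → Kind γ ψ s L g g'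

lemma own_ne_of_sla (hL : 0 < L.prod) (h : sla γ ψ L ≠ some ρ) : lab0 γ ψ L.prod ≠ some ρ :=
  fun h1 => h (sla_of_own hL h1)

/-- **the kinds at an own missing tie** -/
theorem kind (h : Step γ ψ t t' s L st st') :
    Kind γ ψ s L (gl st t γ ψ L) (gl st' t' γ ψ (s :: L)) := by
  have e0 := h.gl_above
  have hs := h.sp
  rcases StM6.miss_cases (t := t) (t' := t') hs.pos h.pos h.hst h.opts with h1 | ⟨ρ, h1, h2⟩ |
      ⟨h1, h2, κ, h3, h4⟩
  · exact Kind.same h1
  · by_cases e : gl st t γ ψ L = some ρ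
    · exact Kind.same (by rw [h2, e])
    · have h1' : lab0 γ ψ (s * L.prod) = some ρ := by
        have := h1; simpa [own, List.prod_cons] using this
      rw [e0] at e
      have hn := own_ne_of_sla h.pos e
      have b1 := born_den hs h.pos h1' hn
      have b2 := born_gt hs.pos h.pos h1' hn
      cases hg : gl st t γ ψ L with
      | none =>
        rw [← hg]
        exact Kind.birth ρ hg h2 h1 b1 b2
      | some κ =>
        rw [← hg]
        have hk : κ ≠ ρ := by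
          rintro rfl
          rw [e0] at hg
          exact e hg
        have ha0 : acc γ ψ L.prod κ := by
          rw [e0] at hg
          exact (sla_some.1 hg).2
        by_cases ha : acc γ ψ (s * L.prod) κ
        · obtain ⟨c1, c2, c3⟩ := birth_ineq (Nat.mul_pos hs.pos h.pos) h1' hk ha
          have c4 : d5 (s * L.prod) ρ < d5 (s * L.prod) κ := by
            obtain ⟨p0, p1, p2, p3⟩ := own_spec (Nat.mul_pos hs.pos h.pos) h1'
            have hR : 0 < ((s * L.prod : ℕ) : ℝ) * ψ := by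
              have : (0 : ℝ) < ((s * L.prod : ℕ) : ℝ) := by
                exact_mod_cast Nat.mul_pos hs.pos h.pos
              positivity
            exact lt_of_mul_lt_mul_right (p2.trans_lt c3) hR.le
          exact Kind.new κ ρ hg h2 hk h1 ha b1 b2 c3 c4 c1 c2
        · exact Kind.accnew κ ρ hg h2 hk h1 ha0 ha b1 b2
  · have ha0 : acc γ ψ L.prod κ := by
      have hg := h3
      rw [e0] at hg
      exact (sla_some.1 hg).2
    exact Kind.acc κ h3 h2 h1 ha0 h4

/-- **the real state at an own missing tie**: unchanged, or (thin below, or births anticipated) the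
own-radius label of the new stage, with the old label dead by its denominator or by accuracy -/
theorem real_change (h : Step γ ψ t t' s L st st') (hψ : 0 < ψ)
    (h10 : (s * L.prod : ℕ) * ψ ≤ 1 / 10) (hne : st' ≠ st) :
    st' = own γ ψ (s :: L) ∧
      (∀ κ, st = some κ → (s * L.prod : ℕ) * ψ ≤ t' ∧
        (1 < d5 (s * L.prod) κ * ((s * L.prod : ℕ) * ψ) ∨ ¬ acc γ ψ (s * L.prod) κ)) ∧
      (∀ ρ, st' = some ρ → 1 < d5 L.prod ρ * (L.prod * ψ) ∧
        ((L.prod : ℚ) * ρ).den = s * (((s * L.prod : ℕ) : ℚ) * ρ).den) := by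
  have hsb : 0 < s * L.prod := Nat.mul_pos h.sp.pos h.pos
  have e : st' = own γ ψ (s :: L) := by
    rcases h.cases with ⟨-, h1⟩ | ⟨-, h1, -⟩ | ⟨-, h0, h1 | h1⟩
    · exact h1
    · exact absurd h1 hne
    · exact h1
    · exact absurd (by rw [h1, h0]) hne
  refine ⟨e, fun κ hk => ?_, fun ρ hρ => ?_⟩
  · have h1 : (s * L.prod : ℕ) * ψ ≤ t' := by
      rcases h.cases with ⟨h1, -⟩ | ⟨-, h1, -⟩ | ⟨-, h0, -⟩
      · exact h1
      · exact absurd h1 hne
      · rw [h0] at hk; exact absurd hk (by simp)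
    refine ⟨h1, not_own hsb hψ h10 fun h2 => hne ?_⟩
    rw [e, hk]
    simpa [own, List.prod_cons] using h2
  · have h1 : lab0 γ ψ (s * L.prod) = some ρ := by
      rw [e] at hρ
      simpa [own, List.prod_cons] using hρ
    have h2 : lab0 γ ψ L.prod ≠ some ρ := fun h3 => hne (by rw [hρ, h.hst, ← h3])
    exact ⟨born_gt h.sp.pos h.pos h1 h2, born_den h.sp h.pos h1 h2⟩

/-- **a thin death by the denominator is sparse below** -/
lemma sparse_of_dead (hthin : (b : ℝ) * ψ ≤ t) (h : 1 < d5 b κ * (b * ψ)) : ¬ dense t b κ := by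
  unfold dense
  push Not
  exact h.trans_le (mul_le_mul_of_nonneg_left hthin (d5_pos _ _).le)

end pure

/-! ### Cf level -/

section cf
variable {c : Cf} {p p' q : ℕ}

/-- **the step at an own missing tie `p`**, Cf level -/
theorem cf_step (hp : p.Prime) (hl : c.lam p = 0) (hl' : c.lam p' = 0)
    (hL : lst (c.t.mt q) p' = p :: lst (c.t.mt q) p) (h0 : 0 < Bl c p q)
    (hthin : (Bl c p q : ℝ) * c.r q ≤ c.wp.thr p) :
    Step c.γ (c.r q) (c.wp.thr p) (c.wp.thr p') p (lst (c.t.mt q) p) (c.st p q) (c.st p' q) := by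
  have e : Bl c p' q = p * (lst (c.t.mt q) p).prod := by
    unfold Bl
    rw [hL, List.prod_cons]
  have eo : own c.γ (c.r q) (p :: lst (c.t.mt q) p) = lab0 c.γ (c.r q) (Bl c p' q) := by
    rw [e]
    unfold own
    rw [List.prod_cons]
  refine ⟨hp, h0, hthin, StB21.thin hl hthin, ?_⟩
  rcases lt_or_ge (c.wp.thr p') ((Bl c p' q : ℝ) * c.r q) with hf | hf
  · cases hk : c.st p q with
    | some κ =>
      refine Or.inr (Or.inl ⟨?_, miss_some hl hl' hL hthin hf hk, κ, rfl⟩)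
      rw [← e]; exact hf
    | none =>
      refine Or.inr (Or.inr ⟨by rw [← e]; exact hf, rfl, ?_⟩)
      by_cases hb : bt c p' q
      · left
        rw [eo]
        exact miss_none_bt hl hL hthin hf hk hb
      · right
        rw [miss_none hl hL hthin hf hk]
        unfold fbA
        rw [if_neg hb]
  · refine Or.inl ⟨by rw [← e]; exact hf, ?_⟩
    rw [eo]
    exact StB21.thin hl' hf

end cf

/-! ### nodes -/

section node
variable {N : Skel189.Num} {γ : ℝ} {p0 P₀ : ℕ} {X : Ctx N γ p0 P₀} {u u' : NS} {τ τ' : IT}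

/-- **the step at an own missing tie, at a node** `(u, τ)` with the missing child `(u', τ')` -/
theorem node_step (hT : TH X) (h : NDt X.par (w X.ψ) X.c.t u τ)
    (h' : NDt X.par (w X.ψ) X.c.t u' τ') (hr' : Step588.RdOk X u' τ') (hl : ¬ isL τ)
    (hl' : ¬ isL τ') {q : ℕ} (hq : q ∈ τ.items) (hq' : q ∈ τ'.items) (hqs : q ∈ X.S')
    (hB : u'.B = u.B * tp τ) :
    Step X.c.γ (X.c.r q) (X.c.wp.thr (tp τ)) (X.c.wp.thr (tp τ')) (tp τ)
      (lst (X.c.t.mt q) (tp τ)) (X.c.st (tp τ) q) (X.c.st (tp τ') q) := by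
  have h1 := miss_thin hT h hl h' hr' hq' hqs hB
  rw [← Bl_node h hl hq] at h1
  have hp := (top_of_nodeOk h.self.node hl).1
  have hB0 : 0 < Bl X.c (tp τ) q := by
    rw [Bl_node h hl hq]
    exact Nat.pos_of_ne_zero h.bk.sfB.ne_zero
  exact cf_step hp (hT.lam _) (hT.lam _) (lst_miss h h' hl hl' hq hq' hB) hB0 h1

/-- the product of the list at a node -/
lemma node_prod (h : NDt X.par (w X.ψ) X.c.t u τ) (hl : ¬ isL τ) {q : ℕ} (hq : q ∈ τ.items) :
    (lst (X.c.t.mt q) (tp τ)).prod = u.B := Bl_node h hl hq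

/-- **the kinds at an own missing tie, at a node** -/
theorem node_kind (hT : TH X) (h : NDt X.par (w X.ψ) X.c.t u τ)
    (h' : NDt X.par (w X.ψ) X.c.t u' τ') (hr' : Step588.RdOk X u' τ') (hl : ¬ isL τ)
    (hl' : ¬ isL τ') {q : ℕ} (hq : q ∈ τ.items) (hq' : q ∈ τ'.items) (hqs : q ∈ X.S')
    (hB : u'.B = u.B * tp τ) :
    Kind X.c.γ (X.c.r q) (tp τ) (lst (X.c.t.mt q) (tp τ))
      (gl (X.c.st (tp τ) q) (X.c.wp.thr (tp τ)) X.c.γ (X.c.r q) (lst (X.c.t.mt q) (tp τ)))
      (gl (X.c.st (tp τ') q) (X.c.wp.thr (tp τ')) X.c.γ (X.c.r q)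
        (lst (X.c.t.mt q) (tp τ'))) := by
  have h1 := kind (node_step hT h h' hr' hl hl' hq hq' hqs hB)
  rwa [lst_miss h h' hl hl' hq hq' hB]

/-! ### leaves -/

/-- **the step at an own missing tie, leaf below** (state of the leaf: `lfst`, threshold of `wpL`) -/
theorem leaf_step {S : Finset ℕ} {G : ℕ} (hT : TH X) (h : NDt X.par (w X.ψ) X.c.t u τ)
    (hl : ¬ isL τ) (hL : LeafF X.par (w X.ψ) X.c.t (top X.S) u' S G)
    (h' : NDt X.par (w X.ψ) X.c.t u' (.leaf S)) (hr' : Step588.RdOk X u' (.leaf S)) {q : ℕ}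
    (hq : q ∈ τ.items) (hq' : q ∈ S) (hqs : q ∈ X.S') (hB : u'.B = u.B * tp τ) :
    Step X.c.γ (X.c.r q) (X.c.wp.thr (tp τ)) (X.c.wpL.thr (X.c.lv q)) (tp τ)
      (lst (X.c.t.mt q) (tp τ)) (X.c.st (tp τ) q) (lfst X.c q) := by
  obtain ⟨h0, h1, h2⟩ := leaf_mt hL hq'
  obtain ⟨k1, k2⟩ := leaf_miss_st hT h hl h' hr' hq hq' hqs hB
  have hp := (top_of_nodeOk h.self.node hl).1
  have eB : (lst (X.c.t.mt q) (tp τ)).prod = u.B := Bl_node h hl hq
  have hB0 : 0 < (lst (X.c.t.mt q) (tp τ)).prod := by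
    rw [eB]
    exact Nat.pos_of_ne_zero h.bk.sfB.ne_zero
  have e : u'.B = tp τ * (lst (X.c.t.mt q) (tp τ)).prod := by rw [eB, hB, mul_comm]
  have eo : own X.c.γ (X.c.r q) (tp τ :: lst (X.c.t.mt q) (tp τ)) = lab0 X.c.γ (X.c.r q) u'.B := by
    rw [e]
    unfold own
    rw [List.prod_cons]
  refine ⟨hp, hB0, by rw [eB]; exact k1, by rw [k2]; unfold own; rw [eB], ?_⟩
  rcases lt_or_ge (X.c.wpL.thr (X.c.lv q)) ((u'.B : ℝ) * X.c.r q) with hf | hf
  · have e1 := leaf_miss_fat hT h hl hL h' hr' hq hq' hqs hB hf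
    cases hk : X.c.st (tp τ) q with
    | some κ =>
      refine Or.inr (Or.inl ⟨by rw [← e]; exact hf, by rw [e1, hk], κ, rfl⟩)
    | none =>
      exact Or.inr (Or.inr ⟨by rw [← e]; exact hf, rfl, Or.inr (by rw [e1, hk])⟩)
  · refine Or.inl ⟨by rw [← e]; exact hf, ?_⟩
    rw [eo]
    exact leaf_th hL hq' hf

/-- **the kinds at an own missing tie, leaf below** -/
theorem leaf_kind {S : Finset ℕ} {G : ℕ} (hT : TH X) (h : NDt X.par (w X.ψ) X.c.t u τ)
    (hl : ¬ isL τ) (hL : LeafF X.par (w X.ψ) X.c.t (top X.S) u' S G)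
    (h' : NDt X.par (w X.ψ) X.c.t u' (.leaf S)) (hr' : Step588.RdOk X u' (.leaf S)) {q : ℕ}
    (hq : q ∈ τ.items) (hq' : q ∈ S) (hqs : q ∈ X.S') (hB : u'.B = u.B * tp τ) :
    Kind X.c.γ (X.c.r q) (tp τ) (lst (X.c.t.mt q) (tp τ))
      (gl (X.c.st (tp τ) q) (X.c.wp.thr (tp τ)) X.c.γ (X.c.r q) (lst (X.c.t.mt q) (tp τ)))
      (gl (lfst X.c q) (X.c.wpL.thr (X.c.lv q)) X.c.γ (X.c.r q)
        (tp τ :: lst (X.c.t.mt q) (tp τ))) :=
  kind (leaf_step hT h hl hL h' hr' hq hq' hqs hB)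

end node

end Crest.Agent.R4P.StM142
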