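import Crest.Agent.R4P.PosD_33
import Crest.Agent.R4P.StM1_42

/-!
R4 (S0004) with powers, helper33: **the mates of a type at an own missing tie** (Err4 (c2), (c4) of
PLAN v1), over `PosD_33` and helper42's `Kind`.

The two mates have one exact centre above the tie (`Rl κ κ'` in the coordinates of the new circle), the
stages below are `s :: L`, `s' :: L'`.

* `new_mate`  : a NEW own label `μ ≠ κ` with a mate which has no new own label is in its threshold zone `Zl`;
* `none_mate` : the same if there is no label above;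
* `new_new`   : two new own labels have one exact centre;
* `dead_mate` : accuracy death with an accurate mate: the accuracy is near its threshold;
* `EM`, `ED`  : the events, **properties of the item and the tie alone**;
* `kind_mate` : in terms of the kinds of helper42: `St` (stays), `De` (accuracy death), `Ne` (new label);
* `target`    : choice of the relabelling `r` of the types at a point: priority STAY > DEAD > NEW, so that
  every payer which is comparable to the reference piece changes its own label.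
-/

set_option autoImplicit false
set_option linter.unusedSectionVars false
set_option linter.unusedVariables false

namespace Crest.Agent.R4P.EvM33

open Crest.Agent.R4.LF363 Crest.Agent.R4.W363
open Crest.Agent.R4P.StM6 Crest.Agent.R4P.PosD33

variable {γ ψ ψ' Z K : ℝ} {B B' : ℕ} {σ σ' κ κ' μ μ' : ℚ} {a a' : ℤ} {x x' : ℕ}
  {s s' : ℕ} {L L' : List ℕ}

/-- the exact relation determines the label -/
lemma Rl.inj (hB : 0 < B) (hx' : 0 < x') (h : Rl B B' a a' x x' σ κ') (h' : Rl B B' a a' x x' κ κ') :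
    σ = κ := by
  unfold Rl at h h'
  have h1 : ((a : ℝ) + ((B * σ : ℚ) : ℝ)) * x' = (a + ((B * κ : ℚ) : ℝ)) * x' := h.trans h'.symm
  have hx0 : (x' : ℝ) ≠ 0 := by exact_mod_cast hx'.ne'
  have h2 := mul_right_cancel₀ hx0 h1
  have h3 : ((B * σ : ℚ) : ℝ) = ((B * κ : ℚ) : ℝ) := by linarith
  have h4 : (B * σ : ℚ) = B * κ := by exact_mod_cast h3
  have hB0 : (B : ℚ) ≠ 0 := by exact_mod_cast hB.ne'
  exact mul_left_cancel₀ hB0 h4

/-- **a new own label with a mate without new own label is in its threshold zone** -/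
theorem new_mate (hG : Geo Z K γ ψ ψ' B B' a a' x x') (hs' : Sm Z K (B' * ψ'))
    (hr : Rl B B' a a' x x' κ κ') (hj : lab0 γ ψ B = some μ) (hne : μ ≠ κ)
    (hi : ∀ μ', lab0 γ ψ' B' = some μ' → μ' = κ') : Zl Z γ ψ B μ := by
  rcases lab_mate hG hs' hj with ⟨μ', h1, h2⟩ | h1
  · exfalso
    have e := hi μ' h1
    rw [e] at h2
    exact hne (Rl.inj hG.B0 hG.cmp.x0' h2 hr)
  · exact h1

/-- the same if there is no label above -/
theorem none_mate (hG : Geo Z K γ ψ ψ' B B' a a' x x') (hs' : Sm Z K (B' * ψ'))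
    (hj : lab0 γ ψ B = some μ) (hi : lab0 γ ψ' B' = none) : Zl Z γ ψ B μ := by
  rcases lab_mate hG hs' hj with ⟨μ', h1, h2⟩ | h1
  · exact absurd (hi.symm.trans h1) (by simp)
  · exact h1

/-- two new own labels have one exact centre -/
theorem new_new (hG : Geo Z K γ ψ ψ' B B' a a' x x') (hs : Sm Z K (B * ψ)) (hs' : Sm Z K (B' * ψ'))
    (hj : lab0 γ ψ B = some μ) (hi : lab0 γ ψ' B' = some μ') : Rl B B' a a' x x' μ μ' :=
  lab_rel hG hs hs' hj hi

/-- the accuracy is near its threshold -/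
def Nr (Z γ ψ : ℝ) (B : ℕ) (κ : ℚ) : Prop := B * |γ - κ| ^ 5 ≤ 32 * Z ^ 9 * ψ ^ 4

/-- **accuracy death with an accurate mate** -/
theorem dead_mate (hG : Geo Z K γ ψ ψ' B B' a a' x x') (hs : Sm Z K (B * ψ))
    (hr : Rl B B' a a' x x' κ κ') (hi : acc γ ψ' B' κ') : Nr Z γ ψ B κ := by
  have hc := hG.cmp
  have hZ := hc.Z1
  have hB : (0 : ℝ) < B := by exact_mod_cast hG.B0
  have hB' : (0 : ℝ) < B' := by exact_mod_cast hG.B0'
  set θ : ℝ := B * γ with hθ
  set θ' : ℝ := B' * γ with hθ'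
  set ρ : ℚ := B * κ with hρ
  set ρ' : ℚ := B' * κ' with hρ'
  have hov := hG.ov
  rw [← hθ, ← hθ'] at hov
  have hr' : ((a : ℝ) + ρ) * x' = (a' + ρ') * x := hr
  have e0 : ∀ (b : ℕ) (τ : ℚ), |(b : ℝ) * γ - ((b * τ : ℚ) : ℝ)| ^ 5 = b ^ 4 * (b * |γ - τ| ^ 5) := by
    intro b τ
    have e0 : (b : ℝ) * γ - ((b * τ : ℚ) : ℝ) = b * (γ - τ) := by push_cast; ring
    rw [e0, abs_mul, Nat.abs_cast]
    ring
  have a1 : |θ' - ρ'| ^ 5 ≤ (B' * ψ') ^ 4 := by
    rw [hθ', hρ', e0, mul_pow]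
    exact mul_le_mul_of_nonneg_left hi (by positivity)
  -- fifth roots
  obtain ⟨t, ht0, ht⟩ := fifth hc.R0.le
  have ht4 : 0 ≤ t ^ 4 := by positivity
  have hx0' : (0 : ℝ) < x' := by exact_mod_cast hc.x0'
  have hx1' : (1 : ℝ) ≤ x' := by exact_mod_cast hc.x0'
  have hK := hG.K0
  have h1 : |θ - ρ| * x' ≤ K * (x' * (B * ψ) + x * (B' * ψ')) + x * |θ' - ρ'| := by
    have e : (θ - ρ) * x' = (((a : ℝ) + θ) * x' - (a' + θ') * x) + (θ' - ρ') * x := by
      linear_combination -hr'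
    have e' : |θ - ρ| * x' = |(θ - ρ) * x'| := by rw [abs_mul, Nat.abs_cast]
    rw [e', e]
    refine (abs_add_le _ _).trans ?_
    rw [abs_mul (θ' - ρ'), Nat.abs_cast, mul_comm |θ' - ρ'|]
    unfold Ov at hov
    linarith
  have h2 : |θ - ρ| ≤ 2 * K * Z ^ 2 * (B * ψ) + Z * |θ' - ρ'| := by
    have hab := abs_nonneg (θ' - ρ')
    have b1 : (x : ℝ) * (B' * ψ') ≤ x' * (Z * (Z * (B * ψ))) := by
      calc (x : ℝ) * (B' * ψ') ≤ Z * (Z * (B * ψ)) := mul_le_mul hc.xZ hc.RZ' hc.R0'.le (by linarith)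
        _ ≤ x' * (Z * (Z * (B * ψ))) := by
            have : 0 ≤ Z * (Z * (B * ψ)) := by have := hc.R0; positivity
            nlinarith
    have b2 : (x : ℝ) * |θ' - ρ'| ≤ x' * (Z * |θ' - ρ'|) := by
      calc (x : ℝ) * |θ' - ρ'| ≤ Z * |θ' - ρ'| := mul_le_mul_of_nonneg_right hc.xZ hab
        _ ≤ x' * (Z * |θ' - ρ'|) := by
            have : 0 ≤ Z * |θ' - ρ'| := by positivity
            nlinarith
    have b3 : (x' : ℝ) * (B * ψ) ≤ x' * (Z ^ 2 * (B * ψ)) := by
      have : B * ψ ≤ Z ^ 2 * (B * ψ) := by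
        have := hc.R0
        nlinarith [one_le_pow₀ hZ (n := 2)]
      exact mul_le_mul_of_nonneg_left this hx0'.le
    have b4 : K * (x' * (B * ψ) + x * (B' * ψ')) ≤ K * (x' * (2 * Z ^ 2 * (B * ψ))) := by
      refine mul_le_mul_of_nonneg_left ?_ hK
      nlinarith
    have b5 : |θ - ρ| * x' ≤ (2 * K * Z ^ 2 * (B * ψ) + Z * |θ' - ρ'|) * x' := by nlinarith
    exact le_of_mul_le_mul_right b5 hx0'
  have c1 : 2 * K * Z ^ 2 * (B * ψ) ≤ t ^ 4 / 2 := by
    have d1 : 4 * K * Z ^ 2 * t ≤ 1 := by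
      refine le_of_pow5 zero_le_one ?_
      rw [one_pow]
      calc (4 * K * Z ^ 2 * t) ^ 5 = (4 * K) ^ 5 * Z ^ 10 * t ^ 5 := by ring
        _ ≤ 1 := by rw [ht]; exact hs.s2
    have d2 : B * ψ = t * t ^ 4 := by rw [← ht]; ring
    rw [d2]
    nlinarith [mul_le_mul_of_nonneg_right d1 ht4]
  -- the error of the mate against the own radius: `|θ' - ρ'| Z ≤ (3/2) Z^(9/5) t^4`
  have c2 : |θ' - ρ'| ^ 5 ≤ Z ^ 4 * (t ^ 4) ^ 5 := by
    calc |θ' - ρ'| ^ 5 ≤ (B' * ψ') ^ 4 := a1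
      _ ≤ (Z * (B * ψ)) ^ 4 := pow_le_pow_left₀ hc.R0'.le hc.RZ' 4
      _ = Z ^ 4 * (t ^ 4) ^ 5 := by rw [mul_pow, ← ht]; ring
  obtain ⟨v, hv0, hv⟩ := fifth (show (0 : ℝ) ≤ Z by linarith)
  have hv1 : 1 ≤ v := by
    by_contra hc'
    push Not at hc'
    have := pow_lt_one₀ hv0 hc' (show (5 : ℕ) ≠ 0 by norm_num)
    linarith
  have c3 : |θ' - ρ'| ≤ v ^ 4 * t ^ 4 := by
    refine le_of_pow5 (by positivity) (c2.trans_eq ?_)
    rw [← hv]; ring
  have c4 : |θ - ρ| ≤ 2 * (v ^ 9 * t ^ 4) := by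
    have d1 : Z * |θ' - ρ'| ≤ v ^ 9 * t ^ 4 := by
      calc Z * |θ' - ρ'| ≤ v ^ 5 * (v ^ 4 * t ^ 4) := by
            rw [hv]; exact mul_le_mul_of_nonneg_left c3 (by linarith)
        _ = v ^ 9 * t ^ 4 := by ring
    have d2 : t ^ 4 ≤ v ^ 9 * t ^ 4 := by
      have : 1 ≤ v ^ 9 := one_le_pow₀ hv1
      nlinarith
    linarith
  have c5 : |θ - ρ| ^ 5 ≤ 32 * Z ^ 9 * (B * ψ) ^ 4 := by
    calc |θ - ρ| ^ 5 ≤ (2 * (v ^ 9 * t ^ 4)) ^ 5 := pow_le_pow_left₀ (abs_nonneg _) c4 5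
      _ = 32 * Z ^ 9 * (B * ψ) ^ 4 := by rw [← ht, ← hv]; ring
  rw [hθ, hρ, e0, mul_pow] at c5
  unfold Nr
  have hB4 : (0 : ℝ) < (B : ℝ) ^ 4 := by positivity
  refine le_of_mul_le_mul_left ?_ hB4
  calc (B : ℝ) ^ 4 * (B * |γ - κ| ^ 5) ≤ 32 * Z ^ 9 * (B ^ 4 * ψ ^ 4) := c5
    _ = (B : ℝ) ^ 4 * (32 * Z ^ 9 * ψ ^ 4) := by ring

/-! ### events of an item at an own missing tie -/

/-- **new label in its zone** : `g` = label above, `g'` = label below -/
def EM (Z γ ψ : ℝ) (s : ℕ) (L : List ℕ) (g g' : Option ℚ) : Prop :=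
  ∃ μ, g' = some μ ∧ g ≠ some μ ∧ own γ ψ (s :: L) = some μ ∧ Zl Z γ ψ (s :: L).prod μ

/-- **accuracy death near the threshold** -/
def ED (Z γ ψ : ℝ) (s : ℕ) (L : List ℕ) (g g' : Option ℚ) : Prop :=
  ∃ κ, g = some κ ∧ g' = none ∧ own γ ψ (s :: L) = none ∧ acc γ ψ L.prod κ ∧
    ¬ acc γ ψ (s :: L).prod κ ∧ Nr Z γ ψ (s :: L).prod κ

/-- the label does not change and it is a sparse label below (so there is no other own label) -/
def St (γ ψ : ℝ) (s : ℕ) (L : List ℕ) (g g' : Option ℚ) : Prop :=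
  g' = g ∧ sla γ ψ (s :: L) = g

/-- accuracy death -/
def De (γ ψ : ℝ) (s : ℕ) (L : List ℕ) (g g' : Option ℚ) : Prop :=
  ∃ κ, g = some κ ∧ g' = none ∧ own γ ψ (s :: L) = none ∧ acc γ ψ L.prod κ ∧
    ¬ acc γ ψ (s :: L).prod κ

/-- new own label -/
def Ne (γ ψ : ℝ) (s : ℕ) (L : List ℕ) (g g' : Option ℚ) : Prop :=
  ∃ μ, g' = some μ ∧ g ≠ some μ ∧ own γ ψ (s :: L) = some μ

/-- rank: stay, dead, new -/
noncomputable def rk (γ ψ : ℝ) (s : ℕ) (L : List ℕ) (g g' : Option ℚ) : ℕ := by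
  classical
  exact if g' = g then 0 else if g' = none then 1 else 2

/-- the kinds of helper42, sorted -/
theorem sorted {g g' : Option ℚ} (h : StM142.Kind γ ψ s L g g') :
    g' = g ∨ De γ ψ s L g g' ∨ Ne γ ψ s L g g' := by
  cases h with
  | same h => exact Or.inl h
  | birth ρ h1 h2 h3 => exact Or.inr (Or.inr ⟨ρ, h2, by rw [h1]; simp, h3⟩)
  | new κ ρ h1 h2 h3 h4 => exact Or.inr (Or.inr ⟨ρ, h2, by rw [h1]; simpa using h3, h4⟩)
  | accnew κ ρ h1 h2 h3 h4 => exact Or.inr (Or.inr ⟨ρ, h2, by rw [h1]; simpa using h3, h4⟩)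
  | acc κ h1 h2 h3 h4 h5 =>
    refine Or.inr (Or.inl ⟨κ, h1, h2, h3, h4, ?_⟩)
    rw [List.prod_cons]; exact h5

lemma own_of_sla {L : List ℕ} (hL : 0 < L.prod) (h : own γ ψ L = some μ) : sla γ ψ L = some μ :=
  sla_of_own' hL h

/-- **two mates at an own missing tie**: `g`, `gi` the labels above (one exact centre or both none),
`g'`, `gi'` the labels below; the mate `i` stays (with a sparse label), dies or gets a new label. -/
theorem kind_mate {g g' gi gi' : Option ℚ}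
    (hG : Geo Z K γ ψ ψ' (s :: L).prod (s' :: L').prod a a' x x')
    (hs : Sm Z K ((s :: L).prod * ψ)) (hs' : Sm Z K ((s' :: L').prod * ψ'))
    (h0 : SRl (s :: L).prod (s' :: L').prod a a' x x' g gi)
    (hj : St γ ψ s L g g' ∨ De γ ψ s L g g' ∨ Ne γ ψ s L g g')
    (hi : St γ ψ' s' L' gi gi' ∨ De γ ψ' s' L' gi gi' ∨ Ne γ ψ' s' L' gi gi')
    (hrk : rk γ ψ' s' L' gi gi' ≤ rk γ ψ s L g g') :
    SRl (s :: L).prod (s' :: L').prod a a' x x' g' gi' ∨ EM Z γ ψ s L g g' ∨ ED Z γ ψ s L g g' := by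
  have hB := hG.B0
  have hB' := hG.B0'
  rcases hj with hj | hj | hj
  · -- `j` stays: rank 0, so `i` stays
    have e1 : rk γ ψ s L g g' = 0 := by unfold rk; rw [if_pos hj.1]
    have e2 : gi' = gi := by
      by_contra hc
      have : 1 ≤ rk γ ψ' s' L' gi gi' := by
        unfold rk
        rw [if_neg hc]
        split_ifs <;> omega
      omega
    left
    rw [hj.1, e2]
    exact h0
  · obtain ⟨κ, h1, h2, h3, h4, h5⟩ := hj
    have e1 : rk γ ψ s L g g' = 1 := by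
      unfold rk; rw [if_neg (by rw [h1, h2]; simp), if_pos h2]
    rcases h0 with ⟨h0, -⟩ | ⟨σ, σ', h0, h0', hr⟩
    · rw [h0] at h1; exact absurd h1 (by simp)
    have eσ : σ = κ := Option.some.inj (h0.symm.trans h1)
    subst eσ
    rcases hi with hi | hi | hi
    · -- the mate stays accurate
      right; right
      have h6 : sla γ ψ' (s' :: L') = some σ' := by rw [hi.2, h0']
      exact ⟨σ, h1, h2, h3, h4, h5, dead_mate hG hs hr (Crest.Agent.R4P.StM6.sla_some.1 h6).2⟩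
    · obtain ⟨κ', k1, k2, -⟩ := hi
      left; left
      exact ⟨h2, k2⟩
    · exfalso
      obtain ⟨μ', k1, k2, k3⟩ := hi
      have : rk γ ψ' s' L' gi gi' = 2 := by
        unfold rk
        rw [if_neg (by rw [k1]; exact fun h => k2 h.symm), if_neg (by rw [k1]; simp)]
      omega
  · obtain ⟨μ, h1, h2, h3⟩ := hj
    rcases hi with hi | hi | hi
    · -- the mate stays
      right; left
      refine ⟨μ, h1, h2, h3, ?_⟩
      rcases h0 with ⟨-, h0'⟩ | ⟨σ, σ', h0, h0', hr⟩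
      · refine none_mate hG hs' h3 ?_
        rcases ho : own γ ψ' (s' :: L') with _ | ν
        · exact ho
        · exfalso
          have := own_of_sla hB' ho
          rw [hi.2, h0'] at this
          exact absurd this (by simp)
      · refine new_mate hG hs' hr h3 (fun e => h2 (by rw [h0, e])) fun ν hν => ?_
        have h5 : sla γ ψ' (s' :: L') = some ν := own_of_sla hB' hν
        rw [hi.2, h0'] at h5
        exact (Option.some.inj h5).symm
    · obtain ⟨κ', k1, k2, k3, -⟩ := hi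
      right; left
      exact ⟨μ, h1, h2, h3, none_mate hG hs' h3 k3⟩
    · obtain ⟨μ', k1, k2, k3⟩ := hi
      left; right
      exact ⟨μ, μ', h1, k1, new_new hG hs hs' h3 k3⟩

/-! ### the target -/

/-- **choice of the relabelling at a point**: `pres` = present pieces, `core` = the pieces which are paid
by the near-centre part, `rank` = priority -/
theorem target {P δ : Type*} (pres core : P → Prop) (old new : P → δ) (rank : P → ℕ) (pay : P → Prop)
    (H : ∀ p q, pres p → pres q → ¬ core p → ¬ core q → old p = old q → rank p ≤ rank q →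
      new p ≠ new q → pay q) :
    ∃ r : δ → δ, ∀ p, pres p → new p ≠ r (old p) → pay p ∨ core p := by
  classical
  have key : ∀ z : δ, ∃ d : δ, ∀ p, pres p → ¬ core p → old p = z → new p ≠ d → pay p := by
    intro z
    by_cases hne : ∃ p, pres p ∧ ¬ core p ∧ old p = z
    · have hS : ∃ n : ℕ, ∃ p, pres p ∧ ¬ core p ∧ old p = z ∧ rank p = n := by
        obtain ⟨p, h1, h2, h3⟩ := hne
        exact ⟨rank p, p, h1, h2, h3, rfl⟩
      obtain ⟨p₀, h1, h2, h3, h4⟩ := Nat.find_spec hS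
      refine ⟨new p₀, fun p g1 g2 g3 g4 => ?_⟩
      refine H p₀ p h1 g1 h2 g2 (h3.trans g3.symm) ?_ (Ne.symm g4)
      rw [h4]
      exact Nat.find_min' hS ⟨p, g1, g2, g3, rfl⟩
    · refine ⟨z, fun p g1 g2 g3 => absurd ⟨p, g1, g2, g3⟩ hne⟩
  choose r hr using key
  refine ⟨r, fun p h1 h2 => ?_⟩
  by_cases hc : core p
  · exact Or.inr hc
  · exact Or.inl (hr (old p) p h1 hc rfl h2)

end Crest.Agent.R4P.EvM33
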