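import Crest.Agent.R4P.LabD_33
import Crest.Agent.R4P.EvA_33
import Crest.Agent.R4P.EvM_33

/-!
R4 (S0004) with powers, helper33: **the permissive labels satisfy the position determinism `EvA33.Mt`**.

* `ZlP`, `NrP` : zones of a permissive label (threshold, accuracy);
* `lab_relP`, `lab_mateP`, `dead_mateP` : as `PosD33.lab_rel`, `lab_mate`, `EvM33.dead_mate`;
* `SmP Z R` : smallness `2^10 Z^11 R < 1` (me), it gives everything for comparable mates;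
* `mtP` : the instance of `Mt`; `ki_of_miss` : `LabD33.miss_cases` in the form `EvA33.Ki`.
-/

set_option autoImplicit false
set_option linter.unusedSectionVars false
set_option linter.unusedVariables false

namespace Crest.Agent.R4P.EvP33

open Crest.Agent.R4.LF363 Crest.Agent.R4.W363
open Crest.Agent.R4P.PosD33 Crest.Agent.R4P.PosP33 Crest.Agent.R4P.EvA33
open Crest.Agent.R4P.LabD33

variable {e : UV} {γ ψ ψ' Z : ℝ} {B B' : ℕ} {σ σ' κ κ' μ μ' : ℚ} {a a' : ℤ} {x x' : ℕ}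
  {s : ℕ} {L L' : List ℕ}

/-- threshold zone of the permissive label `σ` of the stage `B` -/
def ZlP (e : UV) (Z γ ψ : ℝ) (B : ℕ) (σ : ℚ) : Prop :=
  ZnP e Z (B * ψ) |B * γ - ((B * σ : ℚ) : ℝ)| (B * σ : ℚ).den

/-- the accuracy is near its threshold -/
def NrP (e : UV) (Z γ ψ : ℝ) (B : ℕ) (κ : ℚ) : Prop :=
  (B : ℝ) ^ (1 + 4 * e.v) * |γ - κ| ^ 5 ≤ 32 * Z ^ 9 * ψ ^ (4 * (1 - e.v))

/-- smallness -/
def SmP (Z R : ℝ) : Prop := 1024 * Z ^ 11 * R < 1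

lemma SmP.s1 {R R' : ℝ} (h : SmP Z R) (hZ : 1 ≤ Z) (hR : 0 ≤ R) (hR' : 0 ≤ R') (hRR : R' ≤ Z * R) :
    (2 * (1 + (1 : ℝ))) ^ 5 * Z ^ 7 * R' < 1 := by
  unfold SmP at h
  have h1 : Z ^ 7 * R' ≤ Z ^ 11 * R := by
    calc Z ^ 7 * R' ≤ Z ^ 7 * (Z * R) := mul_le_mul_of_nonneg_left hRR (by positivity)
      _ = Z ^ 8 * R := by ring
      _ ≤ Z ^ 11 * R := mul_le_mul_of_nonneg_right (pow_le_pow_right₀ hZ (by norm_num)) hR
  nlinarith

lemma SmP.s2 {R R' : ℝ} (h : SmP Z R) (hZ : 1 ≤ Z) (hR : 0 ≤ R) (hR' : 0 ≤ R') (hRR : R' ≤ Z * R) :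
    (4 * (1 : ℝ)) ^ 5 * Z ^ 10 * R' ≤ 1 := by
  unfold SmP at h
  have h1 : Z ^ 10 * R' ≤ Z ^ 11 * R := by
    calc Z ^ 10 * R' ≤ Z ^ 10 * (Z * R) := mul_le_mul_of_nonneg_left hRR (by positivity)
      _ = Z ^ 11 * R := by ring
  nlinarith

lemma SmP.le1 {R R' : ℝ} (h : SmP Z R) (hZ : 1 ≤ Z) (hR : 0 ≤ R) (hR' : 0 ≤ R') (hRR : R' ≤ Z * R) :
    R' ≤ 1 := by
  have h1 := h.s2 hZ hR hR' hRR
  have h2 : (1 : ℝ) ≤ Z ^ 10 := one_le_pow₀ hZ
  nlinarith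

lemma self_le {R : ℝ} (hZ : 1 ≤ Z) (hR : 0 ≤ R) : R ≤ Z * R := by nlinarith

/-- **own labels of two comparable overlapping pieces have one exact centre** -/
theorem lab_relP (hG : Geo Z 1 γ ψ ψ' B B' a a' x x') (hs : SmP Z (B * ψ))
    (h : lab0P e γ ψ B = some σ) (h' : lab0P e γ ψ' B' = some σ') : Rl B B' a a' x x' σ σ' :=
  exact_of_near (lab0P_spec hG.B0 h) (lab0P_spec hG.B0' h') hG.cmp hG.K0 hG.ov
    (hs.s1 hG.cmp.Z1 hG.cmp.R0.le hG.cmp.R0.le (self_le hG.cmp.Z1 hG.cmp.R0.le))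
    (hs.s1 hG.cmp.Z1 hG.cmp.R0.le hG.cmp.R0'.le hG.cmp.RZ')

/-- **the mate of an own label has an own label of the same exact centre, or the label is in its
threshold zone** -/
theorem lab_mateP (hG : Geo Z 1 γ ψ ψ' B B' a a' x x') (hs : SmP Z (B * ψ))
    (h : lab0P e γ ψ B = some σ) :
    (∃ σ', lab0P e γ ψ' B' = some σ' ∧ Rl B B' a a' x x' σ σ') ∨ ZlP e Z γ ψ B σ := by
  rcases transfer (lab0P_spec hG.B0 h) hG.cmp hG.K0 hG.ov
    (hs.s2 hG.cmp.Z1 hG.cmp.R0.le hG.cmp.R0'.le hG.cmp.RZ') with h1 | h1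
  · left
    have hB : (B' : ℚ) ≠ 0 := by exact_mod_cast hG.B0'.ne'
    refine ⟨mt' (B * σ) a a' x x' / B', ?_, ?_⟩
    · refine lab0P_of hG.B0' ?_
      rw [show ((B' : ℚ) * (mt' (B * σ) a a' x x' / B')) = mt' (B * σ) a a' x x' by
        field_simp]
      exact h1
    · unfold Rl
      rw [show ((B' : ℚ) * (mt' (B * σ) a a' x x' / B')) = mt' (B * σ) a a' x x' by
        field_simp]
      exact mt'_rel hG.cmp.x0
  · exact Or.inr h1

/-- **accuracy death with an accurate mate** -/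
theorem dead_mateP (hG : Geo Z 1 γ ψ ψ' B B' a a' x x') (hs : SmP Z (B * ψ))
    (hr : Rl B B' a a' x x' κ κ') (hi : acc e γ ψ' B' κ') : NrP e Z γ ψ B κ := by
  have hc := hG.cmp
  have hZ := hc.Z1
  have hB : (0 : ℝ) < B := by exact_mod_cast hG.B0
  have hB' : (0 : ℝ) < B' := by exact_mod_cast hG.B0'
  have hψ : 0 ≤ ψ := by
    have := hc.R0
    exact ((mul_pos_iff_of_pos_left hB).1 this).le
  have hψ' : 0 ≤ ψ' := by
    have := hc.R0'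
    exact ((mul_pos_iff_of_pos_left hB').1 this).le
  have hR1 : B * ψ ≤ 1 := hs.le1 hZ hc.R0.le hc.R0.le (self_le hZ hc.R0.le)
  have a1 := (near_iff (e := e) hG.B0' hψ').2 hi
  set θ : ℝ := B * γ with hθ
  set θ' : ℝ := B' * γ with hθ'
  set ρ : ℚ := B * κ with hρ
  set ρ' : ℚ := B' * κ' with hρ'
  have hov := hG.ov
  rw [← hθ, ← hθ'] at hov
  have hr' : ((a : ℝ) + ρ) * x' = (a' + ρ') * x := hr
  -- fifth roots
  obtain ⟨t, ht0, ht⟩ := fifth hc.R0.le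
  obtain ⟨T, hT0, hT⟩ := fifth (Real.rpow_nonneg hc.R0.le (4 * (1 - e.v)))
  have ht4 : 0 ≤ t ^ 4 := by positivity
  have htT : t ^ 4 ≤ T := by
    refine le_of_pow5 hT0 ?_
    rw [hT]
    calc (t ^ 4) ^ 5 = (B * ψ) ^ 4 := by rw [← ht]; ring
      _ ≤ _ := rm_ge hc.R0 hR1
  have hx0' : (0 : ℝ) < x' := by exact_mod_cast hc.x0'
  have hx1' : (1 : ℝ) ≤ x' := by exact_mod_cast hc.x0'
  have hx0 : (0 : ℝ) ≤ x := Nat.cast_nonneg _
  have h1 : |θ - ρ| * x' ≤ 1 * (x' * (B * ψ) + x * (B' * ψ')) + x * |θ' - ρ'| := by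
    have e : (θ - ρ) * x' = (((a : ℝ) + θ) * x' - (a' + θ') * x) + (θ' - ρ') * x := by
      linear_combination -hr'
    have e' : |θ - ρ| * x' = |(θ - ρ) * x'| := by rw [abs_mul, Nat.abs_cast]
    rw [e', e]
    refine (abs_add_le _ _).trans ?_
    rw [abs_mul (θ' - ρ'), Nat.abs_cast, mul_comm |θ' - ρ'|]
    unfold Ov at hov
    linarith
  have h2 : |θ - ρ| ≤ 2 * Z ^ 2 * (B * ψ) + Z * |θ' - ρ'| := by
    have hab := abs_nonneg (θ' - ρ')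
    have b1 : (x : ℝ) * (B' * ψ') ≤ x' * (Z * (Z * (B * ψ))) := by
      calc (x : ℝ) * (B' * ψ') ≤ Z * (Z * (B * ψ)) := mul_le_mul hc.xZ hc.RZ' hc.R0'.le (by linarith)
        _ ≤ x' * (Z * (Z * (B * ψ))) := by
            have : 0 ≤ Z * (Z * (B * ψ)) := by have := hc.R0; positivity
            nlinarith
    have b2 : (x : ℝ) * |θ' - ρ'| ≤ x' * (Z * |θ' - ρ'|) := by
      calc (x : ℝ) * |θ' - ρ'| ≤ Z * |θ' - ρ'| := mul_le_mul_of_nonneg_right hc.xZ hab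
        _ ≤ x' * (Z * |θ' - ρ'|) := by
            have : 0 ≤ Z * |θ' - ρ'| := by positivity
            nlinarith
    have b3 : (x' : ℝ) * (B * ψ) ≤ x' * (Z ^ 2 * (B * ψ)) := by
      have : B * ψ ≤ Z ^ 2 * (B * ψ) := by
        have := hc.R0
        nlinarith [one_le_pow₀ hZ (n := 2)]
      exact mul_le_mul_of_nonneg_left this hx0'.le
    have b5 : |θ - ρ| * x' ≤ (2 * Z ^ 2 * (B * ψ) + Z * |θ' - ρ'|) * x' := by nlinarith
    exact le_of_mul_le_mul_right b5 hx0'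
  have c1 : 2 * Z ^ 2 * (B * ψ) ≤ T / 2 := by
    have d0 := hs.s2 hZ hc.R0.le hc.R0.le (self_le hZ hc.R0.le)
    have d1 : 4 * Z ^ 2 * t ≤ 1 := by
      refine le_of_pow5 zero_le_one ?_
      rw [one_pow]
      calc (4 * Z ^ 2 * t) ^ 5 = (4 * (1 : ℝ)) ^ 5 * Z ^ 10 * t ^ 5 := by ring
        _ ≤ 1 := by rw [ht]; exact d0
    have d2 : B * ψ = t * t ^ 4 := by rw [← ht]; ring
    have d3 : 2 * Z ^ 2 * (B * ψ) ≤ t ^ 4 / 2 := by
      rw [d2]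
      nlinarith [mul_le_mul_of_nonneg_right d1 ht4]
    linarith
  have c2 : |θ' - ρ'| ^ 5 ≤ Z ^ 4 * T ^ 5 := by
    calc |θ' - ρ'| ^ 5 ≤ (B' * ψ') ^ (4 * (1 - e.v)) := a1
      _ ≤ (Z * (B * ψ)) ^ (4 * (1 - e.v)) :=
          Real.rpow_le_rpow hc.R0'.le hc.RZ' (by linarith [e.v1])
      _ ≤ Z ^ 4 * (B * ψ) ^ (4 * (1 - e.v)) := rm_mul hZ hc.R0.le
      _ = Z ^ 4 * T ^ 5 := by rw [hT]
  obtain ⟨v, hv0, hv⟩ := fifth (show (0 : ℝ) ≤ Z by linarith)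
  have hv1 : 1 ≤ v := by
    by_contra hc'
    push Not at hc'
    have := pow_lt_one₀ hv0 hc' (show (5 : ℕ) ≠ 0 by norm_num)
    linarith
  have c3 : |θ' - ρ'| ≤ v ^ 4 * T := by
    refine le_of_pow5 (by positivity) (c2.trans_eq ?_)
    rw [← hv]; ring
  have c4 : |θ - ρ| ≤ 2 * (v ^ 9 * T) := by
    have d1 : Z * |θ' - ρ'| ≤ v ^ 9 * T := by
      calc Z * |θ' - ρ'| ≤ v ^ 5 * (v ^ 4 * T) := by
            rw [hv]; exact mul_le_mul_of_nonneg_left c3 (by linarith)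
        _ = v ^ 9 * T := by ring
    have d2 : T ≤ v ^ 9 * T := by
      have : 1 ≤ v ^ 9 := one_le_pow₀ hv1
      nlinarith
    linarith
  have c5 : |θ - ρ| ^ 5 ≤ 32 * Z ^ 9 * (B * ψ) ^ (4 * (1 - e.v)) := by
    calc |θ - ρ| ^ 5 ≤ (2 * (v ^ 9 * T)) ^ 5 := pow_le_pow_left₀ (abs_nonneg _) c4 5
      _ = 32 * Z ^ 9 * (B * ψ) ^ (4 * (1 - e.v)) := by rw [← hT, ← hv]; ring
  have e0 : |θ - (ρ : ℝ)| ^ 5 =
      (B : ℝ) ^ (4 * (1 - e.v)) * ((B : ℝ) ^ (1 + 4 * e.v) * |γ - κ| ^ 5) := by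
    have e1 : θ - (ρ : ℝ) = B * (γ - κ) := by rw [hθ, hρ]; push_cast; ring
    rw [e1, abs_mul, abs_of_pos hB, mul_pow, ← mul_assoc, ← Real.rpow_add hB]
    congr 1
    rw [← Real.rpow_natCast]
    congr 1
    push_cast; ring
  rw [e0, Real.mul_rpow hB.le hψ] at c5
  unfold NrP
  have hp : (0 : ℝ) < (B : ℝ) ^ (4 * (1 - e.v)) := Real.rpow_pos_of_pos hB _
  refine le_of_mul_le_mul_left ?_ hp
  linarith

/-- **the instance** -/
theorem mtP (hG : Geo Z 1 γ ψ ψ' B B' a a' x x') (hs : SmP Z (B * ψ)) (hL : L'.prod = B') :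
    Mt (Rl B B' a a' x x') (ZlP e Z γ ψ B) (NrP e Z γ ψ B) (acc e γ ψ' B')
      (lab0P e γ ψ B) (lab0P e γ ψ' B') (sla e γ ψ' L') where
  inj := fun h h' => EvM33.Rl.inj hG.B0 hG.cmp.x0' h h'
  rel := fun h h' => lab_relP hG hs h h'
  mate := fun h => lab_mateP hG hs h
  dead := fun h h' => dead_mateP hG hs h h'
  own := fun h => by
    refine sla_of_own (by rw [hL]; exact hG.B0') ?_
    show lab0P e γ ψ' L'.prod = _
    rw [hL]; exact h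
  acc := fun h => by
    have := (sla_some.1 h).2
    rwa [hL] at this

/-- **own missing tie**: the three cases of the permissive game label -/
theorem ki_of_miss {t t' : ℝ} {st st' : Option ℚ} (hs : 0 < s) (hL : 0 < L.prod)
    (hst : st = StM6.own γ ψ L)
    (hst' : st' = StM6.own γ ψ (s :: L) ∨ st' = st ∨ st' = none) :
    Ki (gl e st t γ ψ L) (gl e st' t' γ ψ (s :: L)) (own e γ ψ (s :: L)) := by
  rcases miss_cases (e := e) (t := t) (t' := t') hs hL hst hst' with h | ⟨ρ, h1, h2⟩ |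
    ⟨h1, h2, τ, h3, h4⟩
  · exact Ki.stay h
  · by_cases h3 : gl e st t γ ψ L = some ρ
    · exact Ki.stay (by rw [h2, h3])
    · exact Ki.new ρ h2 h3 h1
  · exact Ki.dead τ h3 h2 h1

end Crest.Agent.R4P.EvP33
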