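import Crest.Agent.R4P.EvT_33
import Crest.Agent.R4P.EvA_33

/-!
R4 (S0004) with powers, helper33: **the pieces of a tie (N, P, pulls) on the new circle** and the pair lemma
for every system of own labels (`EvA33.Mt`), the mate may be a P piece.

* `LL`     : the list of the missing ties of a piece below the tie (`p :: L` for N pieces, `L` for P and pulls);
* `Pc`     : the data of a piece of a tie on the circle `T p`, `pc_of` : every piece of the invariant has them;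
* `Pc.rel`, `Pc.ix` : index and exact centres; `Pc.geo` : the geometry of two comparable pieces;
* `pair`   : one index above, mate of smaller rank ==> one index below or event of the payer or both die.
-/

set_option autoImplicit false
set_option linter.unusedSectionVars false
set_option linter.unusedVariables false
open MeasureTheory Filter Set

namespace Crest.Agent.R4P.EvU33

open Crest.Agent.R4P.Cnt588 Crest.Agent.R4P.Item758 Crest.Agent.R4P.W363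
open Crest.Agent.R4.W363 (off cell cell_eq_iff off_circle grd_close snapped_eq)
open Crest.Agent.R4P.Data758 Crest.Agent.R4P.WPex189
open Crest.Agent.R4P.Bld532 (NS All NodeOk Bk)
open Crest.Agent.R4P.WalkIT579 (tp isL toDT_top toDT_leaf)
open Crest.Agent.R4P.StratN36 (ex)
open Crest.Agent.R4P.Step588 Crest.Agent.R4P.RseSt23
open Crest.Agent.R4P.DTp26 Crest.Agent.R4P.DTm407
open Crest.Agent.R4P.TYI47 Crest.Agent.R4P.TYJ47 Crest.Agent.R4P.TYK47
open Crest.Agent.R4P.TYP9 Crest.Agent.R4P.RsT47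
open Crest.Agent.R4P.Walk560 (DT WrN)
open Crest.Agent.R4P.Skel189 Crest.Agent.R4P.Frame758
open Crest.Agent.R4.Soft104 Crest.Agent.R4.Fam464
open Crest.Agent.R4P.StratX36 Crest.Agent.R4P.TopX36
open Crest.Agent.R4P.GWa343 Crest.Agent.R4P.GWb343 Crest.Agent.R4P.GWc343 Crest.Agent.R4P.GWf343
open Crest.Agent.R4P.TrR343
open Crest.Agent.R4P.StM6 Crest.Agent.R4P.StM246 Crest.Agent.R4P.StE6
open Crest.Agent.R4P.PosD33
open Crest.Agent.R4P.StB21 (TH)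
open Crest.Agent.R4.HVW560 (cof)
open Crest.Agent.R4P.EvT33 (Lbl exact_two ghi_lbl sla_lbl cof_pos)

section ctx
variable {N : Skel189.Num} {γ : ℝ} {p0 P₀ : ℕ} {X : Ctx N γ p0 P₀} {Q : NS → IT → Prop} {C : ℝ}

open Classical in
/-- **the missing ties of a piece below the tie** -/
noncomputable def LL (X : Ctx N γ p0 P₀) (p : ℕ) (m : Me) (q : ℕ) : List ℕ :=
  if ex p q = TYJ47.cnt p m.1 then p :: ms X.c p q else ms X.c p q

/-- **a piece of the tie `p`** on the circle `T p` (`T = m.2`), over the point `x` -/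
structure Pc (X : Ctx N γ p0 P₀) (p : ℕ) (m : Me) (x : ℝ) (j : X.c.Lam) (A B : ℕ) (a : ℤ) (z : ℝ) :
    Prop where
  A0 : 0 < A
  B0 : 0 < B
  eT : A * B = m.2 * p
  dv : A * (j.1.1 / A) = j.1.1
  w0 : 0 < j.1.1 / A
  eB : B = (LL X p m j.1.1).prod
  BK : B ≤ Kc X.S
  al : j.1.1 ∈ X.S'
  hz : (B : ℝ) * z = ((j.1.1 / A : ℕ) : ℝ) * (p * x) - B * X.c.γ - a
  zr : |z| ≤ X.c.r j.1.1
  ixu : ∀ s, ixp X.c p s (pm X.c.t p m j.1.1) m.2 x j = X.c.wp.ix X.c.γ p j.1.1 s z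
  ixl : ∀ s, ixp X.c p s (pm X.c.t p (tuM p m) j.1.1) (m.2 * p) (p * x) j =
    X.c.wp.ix X.c.γ p j.1.1 s z

variable {p : ℕ} {b : Me × List (DT X.c.Lam (LbX X))} {j : X.c.Lam} {x : ℝ}

/-- the data of a piece on the old circle -/
lemma old_data (hQ : ∀ u τ, Q u τ → NDt X.par (w X.ψ) X.c.t u τ) (hd1 : X.c.d1 * Kc X.S ≤ 1)
    {s : NS} {t : IT} (hR : Rt X.c.t Q p b.1 s t) (hn : NDt X.par (w X.ψ) X.c.t s t)
    (hhi : pm X.c.t p b.1 j.1.1 = Mhi X.c p j.1.1) (hq : j.1.1 ∈ t.items) {a : ℤ}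
    (h2 : (s.B : ℝ) * X.c.bp j.1.1 j.1.2 ≤ ((j.1.1 / s.A : ℕ) : ℝ) * x - s.B * X.c.γ - a)
    (h3 : ((j.1.1 / s.A : ℕ) : ℝ) * x - s.B * X.c.γ - a < (s.B : ℝ) * X.c.bp j.1.1 (j.1.2 + 1)) :
    0 < s.B ∧ s.B = (ms X.c p j.1.1).prod ∧ 0 < j.1.1 / s.A ∧ s.A * (j.1.1 / s.A) = j.1.1 ∧
      ∃ z : ℝ, (s.B : ℝ) * z = ((j.1.1 / s.A : ℕ) : ℝ) * x - s.B * X.c.γ - a ∧
        |z| ≤ X.c.r j.1.1 ∧
        ∀ σ, ixp X.c p σ (pm X.c.t p b.1 j.1.1) b.1.2 x j = X.c.wp.ix X.c.γ p j.1.1 σ z := by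
  have hB0 : 0 < s.B := Nat.pos_of_ne_zero hn.bk.sfB.ne_zero
  obtain ⟨z, k1, k2, k3, k4⟩ := Crest.Agent.R4P.DseKid23.pt_kid (u := s) hB0 (j := j)
    (W := j.1.1 / s.A) (y := x) (a := a) (by rw [Nat.cast_one, div_one]; exact h2)
    (by rw [Nat.cast_one, div_one]; exact h3)
  have hBm : Bm (pm X.c.t p b.1 j.1.1) = s.B := hR.B_eq hQ X.tOk hq
  have hwm : wm (pm X.c.t p b.1 j.1.1) b.1.2 j.1.1 = j.1.1 / s.A := hR.w_eq hQ X.tOk hq
  have hBms : s.B = (ms X.c p j.1.1).prod := by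
    rw [← hBm, hhi, Bm_hi]
  refine ⟨hB0, hBms, Nat.div_pos (Nat.le_of_dvd (hn.bk.pos _ hq) (hn.bk.dvd _ hq)) hn.bk.Apos,
    Nat.mul_div_cancel' (hn.bk.dvd _ hq), z, k1, k2, fun σ => ?_⟩
  refine ixp_eq (a := a) (z := z) (by rw [hBm]; exact hB0) (by rw [hBm, hwm]; exact k1) k3 ?_
  rw [hBm]
  have hwl := AddNode7.win_len hd1 hn (j := j) hq
  rw [Nat.cast_one, div_one, ← mul_sub] at hwl
  refine lt_of_lt_of_le (mul_lt_mul_of_pos_left ?_ (by exact_mod_cast hB0)) hwl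
  have h6 : X.c.D.be j = X.c.bp j.1.1 (j.1.2 + 1) := rfl
  have h7 : X.c.D.al j = X.c.bp j.1.1 j.1.2 := rfl
  rw [h6] at k4
  linarith

lemma div_div_p {q A : ℕ} (hA : 0 < A) (hp : 0 < p) (h : A * p ∣ q) : q / A = p * (q / (A * p)) := by
  obtain ⟨k, rfl⟩ := h
  rw [Nat.mul_div_cancel_left k (Nat.mul_pos hA hp), mul_assoc, Nat.mul_div_cancel_left _ hA]

/-- **every piece of the tie has the data** -/
theorem pc_of (hQ : ∀ u τ, Q u τ → NDt X.par (w X.ψ) X.c.t u τ) (hd1 : X.c.d1 * Kc X.S ≤ 1)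
    (h : InvM X Q C p b) (hj : jv (bB p b.2) j x ≠ 0) :
    ∃ A B a z, Pc X p b.1 x j A B a z := by
  have H := carX hQ
  have hT := tie_node hQ hd1 h hj
  -- a P piece or a pull
  have caseP : ∀ (s s' : NS) (t t₁ : IT), p.Prime → Rt X.c.t Q p b.1 s t →
      NDt X.par (w X.ψ) X.c.t s t → NDt X.par (w X.ψ) X.c.t s' t₁ → s'.A = s.A * p →
      j.1.1 ∈ t.items → j.1.1 ∈ t₁.items → ex p j.1.1 ≠ TYJ47.cnt p b.1.1 →
      j.1.1 ∈ X.S' → ∀ a : ℤ,
      (s.B : ℝ) * X.c.bp j.1.1 j.1.2 ≤ ((j.1.1 / s.A : ℕ) : ℝ) * x - s.B * X.c.γ - a →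
      ((j.1.1 / s.A : ℕ) : ℝ) * x - s.B * X.c.γ - a < (s.B : ℝ) * X.c.bp j.1.1 (j.1.2 + 1) →
      ∃ A B a z, Pc X p b.1 x j A B a z := by
    intro s s' t t₁ hp hR hn hn1 hA hq hq1 hex hS a h2 h3
    obtain ⟨hB0, hBms, hw0, hdv, z, k1, k2, k3⟩ := old_data hQ hd1 hR hn hT.hi hq h2 h3
    have hd : s.A * p ∣ j.1.1 := by rw [← hA]; exact hn1.bk.dvd _ hq1
    have e := div_div_p hn.bk.Apos hp.pos hd
    refine ⟨s.A * p, s.B, a, z, Nat.mul_pos hn.bk.Apos hp.pos, hB0, ?_, Nat.mul_div_cancel' hd,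
      Nat.div_pos (Nat.le_of_dvd (hn1.bk.pos _ hq1) hd) (Nat.mul_pos hn.bk.Apos hp.pos), ?_,
      AddNode7.B_le_Kc hn hq, hS, ?_, k2, k3, fun σ => ?_⟩
    · rw [← hR.T]; ring
    · unfold LL; rw [if_neg hex]; exact hBms
    · rw [k1, e]; push_cast; ring
    · rw [← k3 σ, ← hT.ix σ]
      rfl
  rcases jv_bB_node H h.mi hj with ⟨s, Sp, t₁, t₀, hs, h1⟩ | ⟨s, t₁, hs, h1⟩
  · have hn := hQ _ _ hs.1.rm.all.self
    have hp : p.Prime := prime_of_br hn.self.node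
    obtain ⟨hq, a, hom, h2, h3⟩ := ctx_supp hn h1
    have hS : j.1.1 ∈ X.S' := by
      by_contra hc
      exact hom (X.om_zero hc _ _)
    have hl : ¬ isL (IT.br p Sp t₁ t₀) := fun h => h
    obtain ⟨hP, hNn⟩ := H.br hs
    have hx := hs.1.rm.exA hl rfl
    rcases Finset.mem_union.1 hq with hq1 | hq0
    · have hn1 := hQ _ _ hP.1.rm.all.self
      have hex : ex p j.1.1 ≠ TYJ47.cnt p b.1.1 := by
        have h5 : ex p (s.A * p) ≤ ex p j.1.1 :=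
          Crest.Agent.R4P.StratN36.ex_le (hn1.bk.pos _ hq1) (hn1.bk.dvd _ hq1)
        rw [ex_mul hp hn.bk.Apos, hx] at h5
        omega
      exact caseP s _ _ t₁ hp hs.1 hn hn1 rfl hq hq1 hex hS a h2 h3
    · have hn0 := hQ _ _ hNn.1.rm.all.self
      have hex : ex p j.1.1 = TYJ47.cnt p b.1.1 := by
        have e2 := hNn.1.rm.pf hQ X.tOk hq0
        have hpB : p ∈ (s.B * p).primeFactors :=
          Nat.mem_primeFactors.2 ⟨hp, Dvd.intro_left _ rfl, hn0.bk.sfB.ne_zero⟩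
        by_contra h5
        have e3 : pm X.c.t p (tuM p b.1) j.1.1 = pm X.c.t p b.1 j.1.1 := by
          rw [pm_tu, if_neg h5]
        have h6 : p ∈ pm X.c.t p (tuM p b.1) j.1.1 := by
          show p ∈ prm X.c.t p (tuM p b.1).1 j.1.1
          rw [← e2]; exact hpB
        rw [e3, hT.hi] at h6
        exact absurd (Finset.mem_filter.1 h6).2 (lt_irrefl p)
      obtain ⟨hB0, hBms, hw0, hdv, z, k1, k2, k3⟩ := old_data hQ hd1 hs.1 hn hT.hi hq h2 h3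
      refine ⟨s.A, s.B * p, (p : ℤ) * a, z, hn.bk.Apos, Nat.mul_pos hB0 hp.pos, ?_, hdv, hw0, ?_,
        AddNode7.B_le_Kc hn0 hq0, hS, ?_, k2, k3, fun σ => ?_⟩
      · rw [← hs.1.T]; ring
      · unfold LL; rw [if_pos hex, List.prod_cons, ← hBms]; ring
      · push_cast
        linear_combination (p : ℝ) * k1
      · rw [← k3 σ, ← hT.ix σ]
        rfl
  · have hn := hQ _ _ hs.1.rm.all.self
    have hp : p.Prime := prime_of_pl hn.self.node
    obtain ⟨hq, a, hom, h2, h3⟩ := ctx_supp hn h1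
    have hS : j.1.1 ∈ X.S' := by
      by_contra hc
      exact hom (X.om_zero hc _ _)
    have hl : ¬ isL (IT.pl p t₁) := fun h => h
    have hP := H.pl hs
    have hx := hs.1.rm.exA hl rfl
    have hq1 : j.1.1 ∈ t₁.items := hq
    have hn1 := hQ _ _ hP.1.rm.all.self
    have hex : ex p j.1.1 ≠ TYJ47.cnt p b.1.1 := by
      have h5 : ex p (s.A * p) ≤ ex p j.1.1 :=
        Crest.Agent.R4P.StratN36.ex_le (hn1.bk.pos _ hq1) (hn1.bk.dvd _ hq1)
      rw [ex_mul hp hn.bk.Apos, hx] at h5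
      omega
    exact caseP s _ _ t₁ hp hs.1 hn hn1 rfl hq hq1 hex hS a h2 h3

/-! ### two pieces of one circle -/

variable {i : X.c.Lam} {m : Me} {A A' B B' : ℕ} {a a' : ℤ} {z z' : ℝ} {Z : ℝ}

/-- **comparable pieces**: reduced cofactors and own radii, on the new circle -/
structure Cq (X : Ctx N γ p0 P₀) (Z : ℝ) (A A' B B' : ℕ) (j i : X.c.Lam) : Prop where
  xZ : (cof (j.1.1 / A) (i.1.1 / A') : ℝ) ≤ Z
  xZ' : (cof (i.1.1 / A') (j.1.1 / A) : ℝ) ≤ Z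
  RZ : (B : ℝ) * X.c.r j.1.1 ≤ Z * (B' * X.c.r i.1.1)
  RZ' : (B' : ℝ) * X.c.r i.1.1 ≤ Z * (B * X.c.r j.1.1)

lemma Cq.symm (h : Cq X Z A A' B B' j i) : Cq X Z A' A B' B i j := ⟨h.xZ', h.xZ, h.RZ', h.RZ⟩

lemma Pc.R0 (h : Pc X p m x j A B a z) : 0 < (B : ℝ) * X.c.r j.1.1 :=
  mul_pos (by exact_mod_cast h.B0) (X.rpos h.al)

/-- **the geometry of two comparable pieces** -/
theorem Pc.geo (h : Pc X p m x j A B a z) (h' : Pc X p m x i A' B' a' z')
    (hC : Cq X Z A A' B B' j i) :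
    Geo Z 1 X.c.γ (X.c.r j.1.1) (X.c.r i.1.1) B B' a a'
      (cof (j.1.1 / A) (i.1.1 / A')) (cof (i.1.1 / A') (j.1.1 / A)) := by
  refine ⟨h.B0, h'.B0, ⟨cof_pos h.w0, cof_pos h'.w0, hC.xZ, hC.xZ', h.R0, h'.R0, hC.RZ, hC.RZ'⟩,
    zero_le_one, ?_⟩
  exact ov_of_pt (g := (j.1.1 / A).gcd (i.1.1 / A')) (w := j.1.1 / A) (w' := i.1.1 / A')
    (y := p * x) (z := z) (z' := z') (Nat.gcd_pos_of_pos_left _ h.w0)
    (Crest.Agent.R4.AvgItem710.mul_cof).symm (Crest.Agent.R4.AvgItem710.mul_cof').symm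
    h.hz h'.hz h.zr h'.zr

/-- the exact relation on the new circle -/
abbrev RR (X : Ctx N γ p0 P₀) (j i : X.c.Lam) (A A' B B' : ℕ) (a a' : ℤ) (σ σ' : ℚ) : Prop :=
  Rl B B' a a' (cof (j.1.1 / A) (i.1.1 / A')) (cof (i.1.1 / A') (j.1.1 / A)) σ σ'

/-- **one index: one exact centre on the new circle** -/
theorem Pc.rel (h : Pc X p m x j A B a z) (h' : Pc X p m x i A' B' a' z') {σ σ' : ℚ}
    (hσ : Lbl X.c.wp X.c.γ X.c.r X.c.t (Skel189.top X.S) j.1.1 σ)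
    (hσ' : Lbl X.c.wp X.c.γ X.c.r X.c.t (Skel189.top X.S) i.1.1 σ') {p₁ p₂ : ℕ}
    (hix : X.c.wp.ix X.c.γ p₁ j.1.1 (some σ) z = X.c.wp.ix X.c.γ p₂ i.1.1 (some σ') z') :
    RR X j i A A' B B' a a' σ σ' :=
  exact_two X.fine (Cf.mem_S j) (Cf.mem_S i) (X.sys.pos _ (X.mem_S j))
    (X.sys.pos _ (X.mem_S i)) hσ hσ' h.A0 h.B0 h'.A0 h.w0 h'.w0 h.dv.symm h'.dv.symm
    (h.eT.trans h'.eT.symm) (h.BK.trans (Nat.le_mul_of_pos_right _ h'.A0)) h.hz h'.hz h.zr h'.zr hix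

/-- **one exact centre: one index** -/
theorem Pc.ix (h : Pc X p m x j A B a z) (h' : Pc X p m x i A' B' a' z') {σ σ' : ℚ}
    (hr : RR X j i A A' B B' a a' σ σ') {p₁ p₂ : ℕ} :
    X.c.wp.ix X.c.γ p₁ j.1.1 (some σ) z = X.c.wp.ix X.c.γ p₂ i.1.1 (some σ') z' :=
  ix_of_rel X.c.wp h.A0 h'.A0 h.B0 (g := (j.1.1 / A).gcd (i.1.1 / A'))
    (Nat.gcd_pos_of_pos_left _ h.w0) (cof_pos h.w0) (cof_pos h'.w0)
    (Crest.Agent.R4.AvgItem710.mul_cof).symm (Crest.Agent.R4.AvgItem710.mul_cof').symm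
    h.dv.symm h'.dv.symm (h.eT.trans h'.eT.symm) h.hz h'.hz hr

open Crest.Agent.R4P.EvA33

/-- **the pair lemma of a tie**, for every system of own labels `o`, `oi` with the position determinism
`Mt` : labels `g`, `gi` above with one index, `g'`, `gi'` below, the mate `i` has the smaller rank and if it
stays its label is its sparse label `si` below -/
theorem pair (h : Pc X p m x j A B a z) (h' : Pc X p m x i A' B' a' z')
    {zo nr ai : ℚ → Prop} {g g' gi gi' o oi si : Option ℚ}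
    (hM : Mt (RR X j i A A' B B' a a') zo nr ai o oi si)
    (kj : Ki g g' o) (ki : Ki gi gi' oi)
    (lj : ∀ σ, g = some σ → Lbl X.c.wp X.c.γ X.c.r X.c.t (Skel189.top X.S) j.1.1 σ)
    (li : ∀ σ, gi = some σ → Lbl X.c.wp X.c.γ X.c.r X.c.t (Skel189.top X.S) i.1.1 σ)
    {p₁ : ℕ} (hix : X.c.wp.ix X.c.γ p₁ j.1.1 g z = X.c.wp.ix X.c.γ p₁ i.1.1 gi z')
    (hst : gi' = gi → si = gi) (hrk : rk gi gi' ≤ rk g g') :
    X.c.wp.ix X.c.γ p₁ j.1.1 g' z = X.c.wp.ix X.c.γ p₁ i.1.1 gi' z' ∨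
      EN zo g g' o ∨ EA nr g g' o ∨
      (g' = none ∧ gi' = none ∧ g ≠ none ∧ gi ≠ none) := by
  by_cases hgg : g' = g
  · have e2 : gi' = gi := by
      by_contra hc
      have := rk_pos hc
      rw [rk_stay hgg] at hrk
      omega
    left
    rw [hgg, e2]
    exact hix
  have hso := WP.isSome_eq X.c.wp hix
  have h0 : SR (RR X j i A A' B B' a a') g gi := by
    rcases g with _ | σ
    · rcases gi with _ | σ'
      · exact Or.inl ⟨rfl, rfl⟩
      · exact absurd hso (by simp)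
    · rcases gi with _ | σ'
      · exact absurd hso (by simp)
      · exact Or.inr ⟨σ, σ', rfl, rfl, h.rel h' (lj σ rfl) (li σ' rfl) hix⟩
  rcases mates hM h0 kj ki hst hrk with h1 | h1 | h1
  · rcases h1 with ⟨h2, h3⟩ | ⟨μ, μ', h2, h3, h4⟩
    · right; right; right
      have hg : g ≠ none := fun e => hgg (by rw [h2, e])
      refine ⟨h2, h3, hg, fun e => ?_⟩
      rw [e] at hso
      rcases g with _ | σ
      · exact hg rfl
      · exact absurd hso (by simp)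
    · left
      rw [h2, h3]
      exact h.ix h' h4
  · exact Or.inr (Or.inl h1)
  · exact Or.inr (Or.inr (Or.inl h1))

end ctx

end Crest.Agent.R4P.EvU33
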