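import Crest.Agent.R4P.AsB_407
import Crest.Agent.R4P.CrF_47
import Crest.Agent.R4P.BirP_47
import Crest.Agent.R4P.EvP_33
import Crest.Agent.R4P.EvU_33

/-!
R4 (S0004) with powers, helper47 (leaf (f)): **credits of the events**.

* `crA` : sum of two credits, `crZ` : no credits, `crS` : finite sums; charges and remaining credits add.
* `crX` : the credits of a system of events (`CrZ41.Evs`) in a typed game of `AsB_407` (`Gm.Z1`, `Gm.Z2`);
  `crX_r`, `crX_e` the charges; **`avg_Y`** : the field `hJ` of `Fm` for a family of games: if the averaged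
  remaining credit of every piece is at most `J`, then `∑ ω_i Y_i ≤ J bt`.
* the events of the permissive labels at an own missing tie, item form: `EMP` (a new own label in its
  threshold zone), `EDP` (accuracy death near the threshold); `EMP_of_EN`, `EDP_of_EA` : the events of
  `EvA33.mates` / `EvU33.pair` for the game labels; `NewP` (a thin new label), `NewP_unique`.
* `EvM` : the system of events `EMP | EDP`, `cntP`, `EvM_sum`, **`EvM_avg`** : the average over a family of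
  label systems from the averaged number of events of an item.
-/

set_option autoImplicit false
set_option linter.unusedSectionVars false
set_option linter.unusedVariables false
open MeasureTheory Filter Set

namespace Crest.Agent.R4P.EvC47

open Crest.Agent.R4.Tour104 Crest.Agent.R4.Clos758
open Crest.Agent.R4P.Cnt588 Crest.Agent.R4P.Item758 Crest.Agent.R4P.W363
open Crest.Agent.R4P.Data758
open Crest.Agent.R4P.Bld532 (NS All NodeOk Bk dv nd)
open Crest.Agent.R4P.StratN36 (ex)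
open Crest.Agent.R4P.Step588 Crest.Agent.R4P.RseSt23
open Crest.Agent.R4P.DTp26 Crest.Agent.R4P.DTm407
open Crest.Agent.R4P.TYI47 Crest.Agent.R4P.TYJ47 Crest.Agent.R4P.TYK47
open Crest.Agent.R4P.TYP9 Crest.Agent.R4P.RsT47
open Crest.Agent.R4P.Walk560 (DT WrN)
open Crest.Agent.R4P.Skel189 Crest.Agent.R4P.Frame758
open Crest.Agent.R4.Soft104 Crest.Agent.R4.Fam464
open Crest.Agent.R4P.StratX36 Crest.Agent.R4P.TopX36
open Crest.Agent.R4P.Grp36 Crest.Agent.R4P.Bp407 Crest.Agent.R4P.VR407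
open Crest.Agent.R4P.PayR45 (BM PV)
open Crest.Agent.R4P.PVe45 (Cr LB)
open Crest.Agent.R4P.PVd45 (DI)
open Crest.Agent.R4P.GWa343 (bB)
open Crest.Agent.R4P.GWc343 (bN bt)
open Crest.Agent.R4P.CrZ41 Crest.Agent.R4P.StJ6 Crest.Agent.R4P.CrF47

/-! ### algebra of credits -/

section alg
variable {β Λ : Type} [Fintype Λ] {B : BM β} {V : PV B Λ}

/-- no credits -/
noncomputable def crZ (V : PV B Λ) : Cr V where
  ρ := fun _ _ _ _ => 0
  r := fun _ _ _ _ => 0
  e := fun _ _ _ _ => 0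
  pρ := fun _ _ => PB.const le_rfl
  pr := fun _ _ _ => PB.const le_rfl
  pe := fun _ _ _ => PB.const le_rfl
  rest := fun _ _ _ _ _ => by simp
  tie0 := fun _ _ _ _ _ => le_rfl
  tieP := fun _ _ _ _ _ _ => by simp
  tieN := fun _ _ _ _ _ _ => by simp

/-- **sum of credits** -/
noncomputable def crA (Z Z' : Cr V) : Cr V where
  ρ := fun p b j x => Z.ρ p b j x + Z'.ρ p b j x
  r := fun p b j x => Z.r p b j x + Z'.r p b j x
  e := fun p b j x => Z.e p b j x + Z'.e p b j x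
  pρ := fun h j => (Z.pρ h j).add (Z'.pρ h j)
  pr := fun h hp j => (Z.pr h hp j).add (Z'.pr h hp j)
  pe := fun h hp j => (Z.pe h hp j).add (Z'.pe h hp j)
  rest := fun h hp j x hv => by
    have h1 := Z.rest h hp j x hv
    have h2 := Z'.rest h hp j x hv
    linarith
  tie0 := fun h hp j x hv => by
    have h1 := Z.tie0 h hp j x hv
    have h2 := Z'.tie0 h hp j x hv
    linarith
  tieP := fun h hp j x hv hv' => by
    have h1 := Z.tieP h hp j x hv hv'
    have h2 := Z'.tieP h hp j x hv hv'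
    linarith
  tieN := fun h hp j x hv hv' => by
    have h1 := Z.tieN h hp j x hv hv'
    have h2 := Z'.tieN h hp j x hv hv'
    linarith

variable (Z Z' : Cr V)

lemma crA_ρ (p : ℕ) (b : β) (j : Λ) (x : ℝ) :
    (crA Z Z').ρ p b j x = Z.ρ p b j x + Z'.ρ p b j x := rfl
lemma crA_r (p : ℕ) (b : β) (j : Λ) (x : ℝ) :
    (crA Z Z').r p b j x = Z.r p b j x + Z'.r p b j x := rfl
lemma crA_e (p : ℕ) (b : β) (j : Λ) (x : ℝ) :
    (crA Z Z').e p b j x = Z.e p b j x + Z'.e p b j x := rfl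

lemma crA_Y (p : ℕ) (b : β) (x : ℝ) :
    (crA Z Z').bch.Y p b x = Z.bch.Y p b x + Z'.bch.Y p b x := by
  show ∑ j, (Z.ρ p b j x + Z'.ρ p b j x) * V.v b j x =
    ∑ j, Z.ρ p b j x * V.v b j x + ∑ j, Z'.ρ p b j x * V.v b j x
  rw [← Finset.sum_add_distrib]
  exact Finset.sum_congr rfl fun j _ => by ring

/-- finite sums of credits -/
noncomputable def crS {ι : Type} (Z : ι → Cr V) : List ι → Cr V
  | [] => crZ V
  | i :: l => crA (Z i) (crS Z l)

variable {ι : Type} (W : ι → Cr V)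

lemma crS_ρ (l : List ι) (p : ℕ) (b : β) (j : Λ) (x : ℝ) :
    (crS W l).ρ p b j x = (l.map fun i => (W i).ρ p b j x).sum := by
  induction l with
  | nil => rfl
  | cons i l ih => rw [List.map_cons, List.sum_cons, ← ih]; rfl

lemma crS_r (l : List ι) (p : ℕ) (b : β) (j : Λ) (x : ℝ) :
    (crS W l).r p b j x = (l.map fun i => (W i).r p b j x).sum := by
  induction l with
  | nil => rfl
  | cons i l ih => rw [List.map_cons, List.sum_cons, ← ih]; rfl

lemma crS_e (l : List ι) (p : ℕ) (b : β) (j : Λ) (x : ℝ) :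
    (crS W l).e p b j x = (l.map fun i => (W i).e p b j x).sum := by
  induction l with
  | nil => rfl
  | cons i l ih => rw [List.map_cons, List.sum_cons, ← ih]; rfl

end alg

/-! ### the credits of the events in a typed game -/

section game
open Crest.Agent.R4P.AsB407
open Crest.Agent.R4P.RXm55 (RXm)
open Crest.Agent.R4P.DTn407

variable {N : Skel189.Num} {γ : ℝ} {p0 P₀ : ℕ} {X : Ctx N γ p0 P₀} {Q : NS → IT → Prop} {C : ℝ}
  {ζ : Type} [Fintype ζ] [DecidableEq ζ] {D : TD Me X.c.Lam (LbX X) ζ}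

/-- **the credits of a system of events** in a typed game -/
noncomputable def crX (H : TYp (rhoX X) D (InvM X Q C)) (tu : D.tu = tuM)
    (hQ : ∀ u τ, Q u τ → NDt X.par (w X.ψ) X.c.t u τ) (hd1 : X.c.d1 * Kc X.S ≤ 1)
    (V : Evs X.c.Lam) : Cr ((lbX H).pv diX) :=
  V.cr (lbX H) diX hQ hd1 (fun h => h)
    (fun {p b} _ _ => by
      show D.tu p b.1 = tuM p b.1
      rw [tu])
    (fun {p b} _ _ => by
      show D.tu p b.1 = tuM p b.1
      rw [tu])
    (fun _ _ => rfl)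

variable {H : TYp (rhoX X) D (InvM X Q C)} {tu : D.tu = tuM}
  {hQ : ∀ u τ, Q u τ → NDt X.par (w X.ψ) X.c.t u τ} {hd1 : X.c.d1 * Kc X.S ≤ 1}

open Classical in
lemma crX_r (V : Evs X.c.Lam) (p : ℕ) (b : Me × List (DT X.c.Lam (LbX X))) (j : X.c.Lam) (x : ℝ) :
    (crX H tu hQ hd1 V).r p b j x =
      if TT p b.1 j.1.1 then V.c p * ind (V.E p j (zb X.c p b.1 x j)) else 0 := rfl

lemma crX_e (V : Evs X.c.Lam) (p : ℕ) (b : Me × List (DT X.c.Lam (LbX X))) (j : X.c.Lam) (x : ℝ) :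
    (crX H tu hQ hd1 V).e p b j x = V.c' p * ind (V.E' p j (zb X.c p b.1 x j)) := rfl

lemma crX_ρ (V : Evs X.c.Lam) (p : ℕ) (b : Me × List (DT X.c.Lam (LbX X))) (j : X.c.Lam) (x : ℝ) :
    (crX H tu hQ hd1 V).ρ p b j x = V.G p (rem p b.1 j.1.1) j (zb X.c p b.1 x j) := rfl

/-- the charge at a true tie -/
lemma crX_tie {V : Evs X.c.Lam} {p : ℕ} {b : Me × List (DT X.c.Lam (LbX X))} {j : X.c.Lam} {x : ℝ}
    (hb : InvM X Q C p b) (hp : p ≠ 0) (hj : vT p (bB p b.2) j x ≠ 0)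
    (hE : V.E p j (zb X.c p b.1 x j)) : V.c p ≤ (crX H tu hQ hd1 V).r p b j x := by
  rw [crX_r, if_pos (vT_TT hQ hb hp hb.kok hj), ind_on hE, mul_one]

/-- the charge at a rest -/
lemma crX_rest {V : Evs X.c.Lam} {p : ℕ} {b : Me × List (DT X.c.Lam (LbX X))} {j : X.c.Lam} {x : ℝ}
    (hE : V.E' p j (zb X.c p b.1 x j)) : V.c' p ≤ (crX H tu hQ hd1 V).e p b j x := by
  rw [crX_e, ind_on hE, mul_one]

/-- a piece with content is alive -/
lemma alive (hQ : ∀ u τ, Q u τ → NDt X.par (w X.ψ) X.c.t u τ) {p : ℕ}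
    {b : Me × List (DT X.c.Lam (LbX X))} (h : InvM X Q C p b) {j : X.c.Lam} {x : ℝ}
    (hj : jv b.2 j x ≠ 0) : j.1.1 ∈ X.S' := by
  obtain ⟨s, τ, hs, -, h1⟩ := jv_node h.mi hj
  obtain ⟨-, a, hom, -, -⟩ := ctx_supp (hQ _ _ hs.1.rm.all.self) h1
  by_contra hc
  exact hom (X.om_zero hc _ _)

/-- **the averaged remaining credits**: the field `hJ` of `Fm` -/
theorem avg_Y {A : Type} [Fintype A] {ω : A → ℝ} {ζ : A → Type} [∀ i, Fintype (ζ i)]
    [∀ i, DecidableEq (ζ i)] {D : ∀ i, TD Me X.c.Lam (LbX X) (ζ i)}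
    {H : ∀ i, TYp (rhoX X) (D i) (InvM X Q C)} (Z : ∀ i, Cr ((lbX (H i)).pv diX)) {J : ℝ}
    {p : ℕ} {b : Me × List (DT X.c.Lam (LbX X))} (hb : InvM X Q C p b)
    (hρ : ∀ j x, jv b.2 j x ≠ 0 → ∑ i, ω i * (Z i).ρ p b j x ≤ J) (x : ℝ) :
    ∑ i, ω i * (Z i).bch.Y p b x ≤ J * bt b.2 x := by
  have e : ∑ i, ω i * (Z i).bch.Y p b x = ∑ j, (∑ i, ω i * (Z i).ρ p b j x) * jv b.2 j x := by
    have e1 : ∀ i, ω i * (Z i).bch.Y p b x = ∑ j, ω i * (Z i).ρ p b j x * jv b.2 j x := by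
      intro i
      show ω i * ∑ j, (Z i).ρ p b j x * jv b.2 j x = _
      rw [Finset.mul_sum]
      exact Finset.sum_congr rfl fun j _ => by ring
    rw [Finset.sum_congr rfl fun i _ => e1 i, Finset.sum_comm]
    exact Finset.sum_congr rfl fun j _ => by rw [Finset.sum_mul]
  rw [e, ← sum_jv b.2 x, Finset.mul_sum]
  refine Finset.sum_le_sum fun j _ => ?_
  have h0 : 0 ≤ jv b.2 j x := (diX.pv.pv hb.bi j).nonneg x
  by_cases h : jv b.2 j x = 0
  · rw [h, mul_zero, mul_zero]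
  · exact mul_le_mul_of_nonneg_right (hρ j x h) h0

end game

/-! ### the events of the permissive labels at an own missing tie -/

section ev
open Crest.Agent.R4.W363 (lst)
open Crest.Agent.R4P.PosP33 Crest.Agent.R4P.LabD33 Crest.Agent.R4P.EvP33 Crest.Agent.R4P.EvA33
open Crest.Agent.R4P.StG32 Crest.Agent.R4P.GlP32 Crest.Agent.R4P.StM246
open Crest.Agent.R4P.Bir30.BF (Rad)
open Crest.Agent.R4P.BirP47

variable {c : Cf} {e : UV} {Zw : ℝ → ℝ} {p q n s : ℕ}

/-- **event: a new own label in its threshold zone** -/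
def EMP (e : UV) (Zw : ℝ → ℝ) (c : Cf) (q s : ℕ) : Prop :=
  s ∈ c.t.mt q ∧ ∃ μ, own e c.γ (c.r q) (s :: lst (c.t.mt q) s) = some μ ∧
    sla e c.γ (c.r q) (lst (c.t.mt q) s) ≠ some μ ∧
    ZlP e (Zw (Rad c q s)) c.γ (c.r q) (s :: lst (c.t.mt q) s).prod μ

/-- **event: accuracy death near the threshold** -/
def EDP (e : UV) (Zw : ℝ → ℝ) (c : Cf) (q s : ℕ) : Prop :=
  s ∈ c.t.mt q ∧ ∃ κ, sla e c.γ (c.r q) (lst (c.t.mt q) s) = some κ ∧
    own e c.γ (c.r q) (s :: lst (c.t.mt q) s) = none ∧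
    ¬ acc e c.γ (c.r q) (s :: lst (c.t.mt q) s).prod κ ∧
    NrP e (Zw (Rad c q s)) c.γ (c.r q) (s :: lst (c.t.mt q) s).prod κ

/-- the game label above an own missing tie -/
lemma ghi_sla (hO : c.t.Ok n) (hl : c.lam p = 0)
    (hthin : ((ms c p q).prod : ℝ) * c.r q ≤ c.wp.thr p) :
    ghiG c (gC e c) p q = sla e c.γ (c.r q) (lst (c.t.mt q) p) := by
  rw [ghiG_sla (gC_OK e c q) hO hl hthin]
  exact gP_sla e c.γ (c.r q) _

/-- **the zone event of the game labels is the item event** -/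
theorem EMP_of_EN (hO : c.t.Ok n) (hl : c.lam p = 0) (hm : p ∈ c.t.mt q)
    (hthin : ((ms c p q).prod : ℝ) * c.r q ≤ c.wp.thr p)
    (h : EN (ZlP e (Zw (Rad c q p)) c.γ (c.r q) (p :: lst (c.t.mt q) p).prod)
      (ghiG c (gC e c) p q) (glowG c (gC e c) p q)
      (own e c.γ (c.r q) (p :: lst (c.t.mt q) p))) : EMP e Zw c q p := by
  obtain ⟨μ, h1, h2, h3, h4⟩ := h
  refine ⟨hm, μ, h3, ?_, h4⟩
  rw [← ghi_sla hO hl hthin]
  exact h2

/-- **the accuracy event of the game labels is the item event** -/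
theorem EDP_of_EA (hO : c.t.Ok n) (hl : c.lam p = 0) (hm : p ∈ c.t.mt q)
    (hthin : ((ms c p q).prod : ℝ) * c.r q ≤ c.wp.thr p)
    (h : EA (NrP e (Zw (Rad c q p)) c.γ (c.r q) (p :: lst (c.t.mt q) p).prod)
      (ghiG c (gC e c) p q) (glowG c (gC e c) p q)
      (own e c.γ (c.r q) (p :: lst (c.t.mt q) p))) : EDP e Zw c q p := by
  obtain ⟨κ, h1, h2, h3, h4⟩ := h
  refine ⟨hm, κ, ?_, h3, ?_, h4⟩
  · rw [← ghi_sla hO hl hthin]
    exact h1
  · have hk := glowG_kind (gC_OK e c q) hO hl hm hthin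
    rw [h1, h2] at hk
    rcases hk with ⟨k1, -⟩ | ⟨κ', -, k1, -, -⟩ | ⟨ρ, -, k1, -⟩ | ⟨κ', k1, -, -, -, k2⟩
    · exact absurd k1 (by simp)
    · exact absurd k1 (by simp)
    · exact absurd k1 (by simp)
    · have e1 : κ = κ' := Option.some.inj k1
      subst e1
      rw [List.prod_cons]
      exact k2

/-- **a thin new label** -/
def NewP (e : UV) (c : Cf) (q s : ℕ) : Prop :=
  s ∈ c.t.mt q ∧ Rad c q s ≤ c.wp.thr s ∧ ∃ τ,
    sla e c.γ (c.r q) (s :: lst (c.t.mt q) s) = some τ ∧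
    sla e c.γ (c.r q) (lst (c.t.mt q) s) ≠ some τ

/-- **at most once per item** -/
theorem NewP_unique {N : Skel189.Num} {p0 : ℕ} (h : BFP N c p0 q) {s s' : ℕ}
    (h1 : NewP e c q s) (h2 : NewP e c q s') : s = s' := by
  obtain ⟨a1, a2, τ, a3, a4⟩ := h1
  obtain ⟨b1, b2, τ', b3, b4⟩ := h2
  exact (h.sla_unique a1 b1 a2 b2 a3 a4 b3 b4).1

/-! #### systems of events -/

/-- a system of item events at the ties with the price `κ` -/
noncomputable def EvI (c : Cf) (P : ℕ → ℕ → Prop) (κ : ℝ) (hκ : 0 ≤ κ) : Evs c.Lam where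
  E := fun n j _ => P j.1.1 n
  E' := fun _ _ _ => False
  mE := fun _ _ => MeasurableSet.const _
  mE' := fun _ _ => MeasurableSet.const _
  c := fun _ => κ
  c' := fun _ => 0
  c0 := fun _ => hκ
  c0' := fun _ => le_rfl

/-- a system of item events at the rests with the price `κ` -/
noncomputable def EvR (c : Cf) (P : ℕ → ℕ → Prop) (κ : ℝ) (hκ : 0 ≤ κ) : Evs c.Lam where
  E := fun _ _ _ => False
  E' := fun n j _ => P j.1.1 n
  mE := fun _ _ => MeasurableSet.const _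
  mE' := fun _ _ => MeasurableSet.const _
  c := fun _ => 0
  c' := fun _ => κ
  c0 := fun _ => le_rfl
  c0' := fun _ => hκ

variable {P : ℕ → ℕ → Prop} {κ : ℝ} {hκ : 0 ≤ κ}

lemma EvI_f (n : ℕ) (j : c.Lam) (z : ℝ) : (EvI c P κ hκ).f n j z = 3 * κ * ind (P j.1.1 n) := by
  unfold Evs.f EvI
  simp only [zero_mul, add_zero]

lemma EvR_f (n : ℕ) (j : c.Lam) (z : ℝ) : (EvR c P κ hκ).f n j z = κ * ind (P j.1.1 n) := by
  unfold Evs.f EvR
  simp only [mul_zero, zero_mul, zero_add]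

open Classical in
/-- number of the events of an item among the missing ties -/
noncomputable def cnt (c : Cf) (P : ℕ → ℕ → Prop) (q : ℕ) : ℕ := ((c.t.mt q).filter (P q)).card

/-- **the credit of the events of an item** -/
theorem EvI_sum (hP : ∀ q s, P q s → s ∈ c.t.mt q) (r : Finset ℕ) (j : c.Lam) (z : ℝ) :
    ∑ n ∈ r, (EvI c P κ hκ).f n j z ≤ 3 * κ * cnt c P j.1.1 := by
  classical
  rw [Finset.sum_congr rfl fun n _ => EvI_f n j z, ← Finset.mul_sum]
  refine mul_le_mul_of_nonneg_left ?_ (by positivity)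
  refine sum_ind_card r fun t _ ht => ?_
  exact Finset.card_le_card fun n hn => Finset.mem_filter.2 ⟨hP _ _ (ht n hn), ht n hn⟩

/-- **events which happen once per item** (ties) -/
theorem EvI_once (j : c.Lam) (h : ∀ s s', P j.1.1 s → P j.1.1 s' → s = s') (r : Finset ℕ) (z : ℝ) :
    ∑ n ∈ r, (EvI c P κ hκ).f n j z ≤ 3 * κ := by
  rw [Finset.sum_congr rfl fun n _ => EvI_f n j z, ← Finset.mul_sum]
  have := mul_le_mul_of_nonneg_left (sum_ind_one (P := P j.1.1) h r)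
    (show 0 ≤ 3 * κ by positivity)
  linarith

/-- **events which happen once per item** (rests) -/
theorem EvR_once (j : c.Lam) (h : ∀ s s', P j.1.1 s → P j.1.1 s' → s = s') (r : Finset ℕ) (z : ℝ) :
    ∑ n ∈ r, (EvR c P κ hκ).f n j z ≤ κ := by
  rw [Finset.sum_congr rfl fun n _ => EvR_f n j z, ← Finset.mul_sum]
  have := mul_le_mul_of_nonneg_left (sum_ind_one (P := P j.1.1) h r) hκ
  linarith

/-- events of an item at most `K` times (rests) -/
theorem EvR_card (j : c.Lam) {K : ℕ} (r : Finset ℕ)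
    (h : ∀ t : Finset ℕ, t ⊆ r → (∀ n ∈ t, P j.1.1 n) → t.card ≤ K) (z : ℝ) :
    ∑ n ∈ r, (EvR c P κ hκ).f n j z ≤ κ * K := by
  rw [Finset.sum_congr rfl fun n _ => EvR_f n j z, ← Finset.mul_sum]
  exact mul_le_mul_of_nonneg_left (sum_ind_card r h) hκ

/-- the events of the permissive labels -/
def EvPe (e : UV) (Zw : ℝ → ℝ) (c : Cf) (q s : ℕ) : Prop := EMP e Zw c q s ∨ EDP e Zw c q s

lemma EvPe_mem {q s : ℕ} (h : EvPe e Zw c q s) : s ∈ c.t.mt q := by
  rcases h with h | h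
  · exact h.1
  · exact h.1

/-- a zone event is a change of the sticky label -/
theorem EMP.sl_ne {q s : ℕ} (hs : 0 < s) (h : EMP e Zw c q s) :
    sl e c.γ (c.r q) (s :: lst (c.t.mt q) s) ≠ sl e c.γ (c.r q) (lst (c.t.mt q) s) := by
  obtain ⟨hm, μ, h1, h2, -⟩ := h
  intro h3
  have h4 := sl_of_own h1
  rw [h4] at h3
  refine h2 (sla_some.2 ⟨h3.symm, ?_⟩)
  by_cases hb : 0 < (s :: lst (c.t.mt q) s).prod
  · have h5 := (own_spec hb h1).2.2.2
    rw [List.prod_cons] at h5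
    exact acc_anti hs h5
  · exfalso
    have e0 : (s :: lst (c.t.mt q) s).prod = 0 := by omega
    have h6 : lab0P e c.γ (c.r q) 0 = some μ := by
      have : lab0P e c.γ (c.r q) (s :: lst (c.t.mt q) s).prod = some μ := h1
      rwa [e0] at this
    unfold lab0P at h6
    split_ifs at h6 with hex
    obtain ⟨ρ, hρ⟩ := hex
    have := hρ.pos
    simp at this

/-- the two kinds of events -/
lemma cnt_or {P P' P'' : ℕ → ℕ → Prop} (q : ℕ) (h : ∀ s, P'' q s → P q s ∨ P' q s) :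
    cnt c P'' q ≤ cnt c P q + cnt c P' q := by
  classical
  unfold cnt
  refine le_trans (Finset.card_le_card fun s hs => ?_) (Finset.card_union_le _ _)
  obtain ⟨h1, h2⟩ := Finset.mem_filter.1 hs
  refine Finset.mem_union.2 ?_
  rcases h s h2 with h | h
  · exact Or.inl (Finset.mem_filter.2 ⟨h1, h⟩)
  · exact Or.inr (Finset.mem_filter.2 ⟨h1, h⟩)

lemma cnt_mono {P P' : ℕ → ℕ → Prop} {q : ℕ} (h : ∀ s, P q s → P' q s) : cnt c P q ≤ cnt c P' q := by
  classical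
  unfold cnt
  refine Finset.card_le_card fun s hs => ?_
  rw [Finset.mem_filter] at hs ⊢
  exact ⟨hs.1, h s hs.2⟩

end ev

/-! ### the averaged credits -/

section avg
open Crest.Agent.R4P.AsB407
open Crest.Agent.R4P.DTn407
open Crest.Agent.R4P.PosP33

variable {N : Skel189.Num} {γ : ℝ} {p0 P₀ : ℕ} {X : Ctx N γ p0 P₀} {Q : NS → IT → Prop} {C : ℝ}
  {A : Type} [Fintype A] {ω : A → ℝ} {ζ : A → Type} [∀ i, Fintype (ζ i)]
  [∀ i, DecidableEq (ζ i)] {D : ∀ i, TD Me X.c.Lam (LbX X) (ζ i)}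
  {H : ∀ i, TYp (rhoX X) (D i) (InvM X Q C)} {tu : ∀ i, (D i).tu = tuM}
  {hQ : ∀ u τ, Q u τ → NDt X.par (w X.ψ) X.c.t u τ} {hd1 : X.c.d1 * Kc X.S ≤ 1}

/-- **one piece**: the averaged remaining credit of the tie events `P i` of a family of games -/
theorem EvI_avg (hω : ∀ i, 0 ≤ ω i) {P : A → ℕ → ℕ → Prop}
    (hP : ∀ i q s, P i q s → s ∈ X.c.t.mt q) {κ : ℝ} {hκ : 0 ≤ κ} {J : ℝ}
    (hJ : ∀ q ∈ X.S', ∑ i, ω i * (cnt X.c (P i) q : ℝ) ≤ J) {p : ℕ}
    {b : Me × List (DT X.c.Lam (LbX X))} (hb : InvM X Q C p b) {j : X.c.Lam} {x : ℝ}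
    (hj : jv b.2 j x ≠ 0) :
    ∑ i, ω i * (crX (H i) (tu i) hQ hd1 (EvI X.c (P i) κ hκ)).ρ p b j x ≤ 3 * κ * J := by
  have h1 : ∀ i, (crX (H i) (tu i) hQ hd1 (EvI X.c (P i) κ hκ)).ρ p b j x ≤
      3 * κ * cnt X.c (P i) j.1.1 := fun i =>
    ((EvI X.c (P i) κ hκ).G_le (rem_le _ _ _) j _).trans (EvI_sum (hP i) _ j _)
  refine (Finset.sum_le_sum fun i _ => mul_le_mul_of_nonneg_left (h1 i) (hω i)).trans ?_
  have e : ∑ i, ω i * (3 * κ * cnt X.c (P i) j.1.1) =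
      3 * κ * ∑ i, ω i * (cnt X.c (P i) j.1.1 : ℝ) := by
    rw [Finset.mul_sum]
    exact Finset.sum_congr rfl fun i _ => by ring
  rw [e]
  exact mul_le_mul_of_nonneg_left (hJ _ (alive hQ hb hj)) (by positivity)

/-- **the average of a sum of credits** -/
theorem avg_crA (Z Z' : ∀ i, Cr ((lbX (H i)).pv diX)) {J J' : ℝ} {p : ℕ}
    {b : Me × List (DT X.c.Lam (LbX X))} {j : X.c.Lam} {x : ℝ}
    (h : ∑ i, ω i * (Z i).ρ p b j x ≤ J) (h' : ∑ i, ω i * (Z' i).ρ p b j x ≤ J') :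
    ∑ i, ω i * (crA (Z i) (Z' i)).ρ p b j x ≤ J + J' := by
  have e : ∑ i, ω i * (crA (Z i) (Z' i)).ρ p b j x =
      ∑ i, ω i * (Z i).ρ p b j x + ∑ i, ω i * (Z' i).ρ p b j x := by
    rw [← Finset.sum_add_distrib]
    exact Finset.sum_congr rfl fun i _ => by rw [crA_ρ]; ring
  linarith

/-- the average of a uniform bound -/
theorem avg_const (hω : ∀ i, 0 ≤ ω i) (h1 : ∑ i, ω i = 1)
    (Z : ∀ i, Cr ((lbX (H i)).pv diX)) {J : ℝ} {p : ℕ}
    {b : Me × List (DT X.c.Lam (LbX X))} {j : X.c.Lam} {x : ℝ}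
    (h : ∀ i, (Z i).ρ p b j x ≤ J) : ∑ i, ω i * (Z i).ρ p b j x ≤ J := by
  calc ∑ i, ω i * (Z i).ρ p b j x ≤ ∑ i, ω i * J :=
        Finset.sum_le_sum fun i _ => mul_le_mul_of_nonneg_left (h i) (hω i)
    _ = J := by rw [← Finset.sum_mul, h1, one_mul]

/-- **the credits of the label events** of a family of games: average `3 κ J` if the averaged number of
events of every item of the context is at most `J` -/
theorem EvPe_avg (hω : ∀ i, 0 ≤ ω i) {e : A → UV} {Zw : ℝ → ℝ} {κ : ℝ} {hκ : 0 ≤ κ} {J : ℝ}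
    (hJ : ∀ q ∈ X.S', ∑ i, ω i * (cnt X.c (EvPe (e i) Zw X.c) q : ℝ) ≤ J) {p : ℕ}
    {b : Me × List (DT X.c.Lam (LbX X))} (hb : InvM X Q C p b) {j : X.c.Lam} {x : ℝ}
    (hj : jv b.2 j x ≠ 0) :
    ∑ i, ω i * (crX (H i) (tu i) hQ hd1 (EvI X.c (EvPe (e i) Zw X.c) κ hκ)).ρ p b j x ≤
      3 * κ * J :=
  EvI_avg hω (fun i q s h => EvPe_mem h) hJ hb hj

/-- one game, tie events at most once per item -/
theorem EvI_rho {ζ : Type} [Fintype ζ] [DecidableEq ζ] {D : TD Me X.c.Lam (LbX X) ζ}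
    {H : TYp (rhoX X) D (InvM X Q C)} {tu : D.tu = tuM} {P : ℕ → ℕ → Prop} {κ : ℝ} {hκ : 0 ≤ κ}
    (h1 : ∀ q s s', P q s → P q s' → s = s') (p : ℕ) (b : Me × List (DT X.c.Lam (LbX X)))
    (j : X.c.Lam) (x : ℝ) :
    (crX H tu hQ hd1 (EvI X.c P κ hκ)).ρ p b j x ≤ 3 * κ :=
  ((EvI X.c P κ hκ).G_le (rem_le _ _ _) j _).trans (EvI_once j (h1 _) _ _)

/-- one game, rest events at most once per item -/
theorem EvR_rho {ζ : Type} [Fintype ζ] [DecidableEq ζ] {D : TD Me X.c.Lam (LbX X) ζ}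
    {H : TYp (rhoX X) D (InvM X Q C)} {tu : D.tu = tuM} {P : ℕ → ℕ → Prop} {κ : ℝ} {hκ : 0 ≤ κ}
    (h1 : ∀ q s s', P q s → P q s' → s = s') (p : ℕ) (b : Me × List (DT X.c.Lam (LbX X)))
    (j : X.c.Lam) (x : ℝ) :
    (crX H tu hQ hd1 (EvR X.c P κ hκ)).ρ p b j x ≤ κ :=
  ((EvR X.c P κ hκ).G_le (rem_le _ _ _) j _).trans (EvR_once j (h1 _) _ _)

end avg

end Crest.Agent.R4P.EvC47
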