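import Crest.Agent.R4P.InM_9
import Crest.Agent.R4P.StB_21
import Crest.Agent.R4P.DseCd_23

/-!
R4 (S0004), helper9: **overlapping thin pieces of one node of a context have the same index**, node
form of `InM_9`.

* `Pt` : a point of a piece at a node; `pt_of_ne` : a nonzero value gives a point.
* `node_small` : Lemma A at a node; `node_exact` : exact overlaps (tie `n`: `n ∣` cofactor of `j`).
* `node_near` : overlaps are `CntB10.Near`.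
-/

set_option autoImplicit false
set_option linter.unusedSectionVars false
set_option linter.unusedVariables false
open MeasureTheory Filter

namespace Crest.Agent.R4P.InN9

open Crest.Agent.R4.Tour104 Crest.Agent.R4.Tour758 Crest.Agent.R4.Avg758 Crest.Agent.R4.Clos758
open Crest.Agent.R4.ClosL758 Crest.Agent.R4.ClosG758 Crest.Agent.R4.ClosR758
open Crest.Agent.R4.Fam464 Crest.Agent.R4P.Cnt588 Crest.Agent.R4P.Item758
open Crest.Agent.R4.LF363 Crest.Agent.R4P.W363 Crest.Agent.R4P.Data758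
open Crest.Agent.R4.Soft104 (w)
open Crest.Agent.R4P.Bld532 (NS All NodeOk Bk)
open Crest.Agent.R4P.Step588 (NDt)
open Crest.Agent.R4P.WalkIT579 (tp isL)
open Crest.Agent.R4P.Skel189 Crest.Agent.R4P.RseSt23
open Crest.Agent.R4P.RseNd23 (node_wts)
open Crest.Agent.R4P.DseKid23 (pt_kid)
open Crest.Agent.R4P.StB21 Crest.Agent.R4P.CntB10 Crest.Agent.R4P.InM9

variable {N : Skel189.Num} {γ : ℝ} {p0 P₀ : ℕ} {X : Ctx N γ p0 P₀} {u : NS} {τ : IT}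

/-- a point of a piece at a node -/
structure Pt (X : Ctx N γ p0 P₀) (u : NS) (j : X.c.Lam) (y z : ℝ) (a : ℤ) : Prop where
  hz : (u.B : ℝ) * z = ((j.1.1 / u.A : ℕ) : ℝ) * y - u.B * X.c.γ - a
  zr : |z| ≤ X.c.r j.1.1
  za : X.c.D.al j ≤ z
  zb : z < X.c.D.be j

/-- **a nonzero value gives a point** -/
theorem pt_of_ne (h : NDt X.par (w X.ψ) X.c.t u τ) {j : X.c.Lam} {y : ℝ}
    (hv : (X.g u τ).val j y ≠ 0) :
    j.1.1 ∈ τ.items ∧ j.1.1 ∈ X.S' ∧ ∃ (z : ℝ) (a : ℤ), Pt X u j y z a := by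
  have hval := (X.c.D.par X.Y).toG_val h.B_pos h.fit (node_wts h X.Y)
  have hv' : ((X.c.D.par X.Y).toFT u.B u.A τ).U 1 j y ≠ 0 := by
    have e : (X.g u τ).val j y = ((X.c.D.par X.Y).toFT u.B u.A τ).U 1 j y :=
      congrFun (congrFun hval j) y
    rwa [e] at hv
  obtain ⟨m1, a, o1, l1, l2⟩ := Par.supp _ h.B_pos h.fit (node_wts h X.Y) (one_dvd _) hv'
  have o1' : X.c.om j.1.1 (X.c.bp j.1.1 j.1.2) ((1 * mp τ j.1.1 : ℕ) * a) ≠ 0 := o1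
  have l1' : (u.B : ℝ) / (1 : ℕ) * X.c.bp j.1.1 j.1.2 ≤
    ((j.1.1 / u.A : ℕ) : ℝ) * y - (u.B : ℝ) / (1 : ℕ) * X.c.γ - a := l1
  have l2' : ((j.1.1 / u.A : ℕ) : ℝ) * y - (u.B : ℝ) / (1 : ℕ) * X.c.γ - a <
    (u.B : ℝ) / (1 : ℕ) * X.c.bp j.1.1 (j.1.2 + 1) := l2
  obtain ⟨z, q1, q2, q3, q4⟩ := pt_kid h.B_pos l1' l2'
  refine ⟨m1, ?_, z, a, q1, q2, q3, q4⟩
  by_contra hc
  exact o1' (X.om_zero hc _ _)

/-- the indices of the pieces are the indices of their points -/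
lemma world_eq {p : ℕ} (hp : p ≤ top X.S) {j j' : X.c.Lam} {y y' z z' : ℝ} {a a' : ℤ}
    (hj : Pt X u j y z a) (hj' : Pt X u j' y' z' a')
    (h : X.c.wp.ix X.c.γ p j.1.1 (X.c.st p j.1.1) z =
      X.c.wp.ix X.c.γ p j'.1.1 (X.c.st p j'.1.1) z') :
    (X.c.world p j.1).1 = (X.c.world p j'.1).1 := by
  have h1 := X.ok.ix_point hp j hj.za hj.zb
  have h2 := X.ok.ix_point hp j' hj'.za hj'.zb
  show X.c.wp.ix X.c.γ p j.1.1 (X.c.st p j.1.1) (X.c.bp j.1.1 j.1.2) =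
    X.c.wp.ix X.c.γ p j'.1.1 (X.c.st p j'.1.1) (X.c.bp j'.1.1 j'.1.2)
  rw [← h1, ← h2, h]

lemma A_pos (h : NDt X.par (w X.ψ) X.c.t u τ) : 0 < u.A := by
  have := h.bk
  exact Nat.pos_of_ne_zero (by
    intro h0
    have := h.A_pos
    omega)

lemma mul_div (h : NDt X.par (w X.ψ) X.c.t u τ) {q : ℕ} (hq : q ∈ τ.items) :
    q = u.A * (q / u.A) := (Nat.mul_div_cancel' (h.bk.dvd _ hq)).symm

/-- the overlap relation of two pieces with a common point -/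
theorem node_near (h : NDt X.par (w X.ψ) X.c.t u τ) {j j' : X.c.Lam} {y z z' : ℝ} {a a' : ℤ}
    (hj : Pt X u j y z a) (hj' : Pt X u j' y z' a') {g x x' : ℕ}
    (hw : j.1.1 / u.A = g * x) (hw' : j'.1.1 / u.A = g * x') {D : ℝ}
    (hD : (x' : ℝ) * (u.B * X.c.r j.1.1) + x * (u.B * X.c.r j'.1.1) ≤ D) :
    |((x : ℝ) - x') * (u.B * X.c.γ) - ((x' : ℤ) * a - x * a' : ℤ)| ≤ D := by
  have hB' : (0 : ℝ) < u.B := by exact_mod_cast h.B_pos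
  have a1 : |((j.1.1 / u.A : ℕ) : ℝ) * y - u.B * X.c.γ - a| ≤ u.B * X.c.r j.1.1 := by
    rw [← hj.hz, abs_mul, abs_of_pos hB']
    exact mul_le_mul_of_nonneg_left hj.zr hB'.le
  have a2 : |((j'.1.1 / u.A : ℕ) : ℝ) * y - u.B * X.c.γ - a'| ≤ u.B * X.c.r j'.1.1 := by
    rw [← hj'.hz, abs_mul, abs_of_pos hB']
    exact mul_le_mul_of_nonneg_left hj'.zr hB'.le
  exact near_of_overlap hw hw' a1 a2 hD

/-- **Lemma A at a node** -/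
theorem node_small (hT : TH X) (h : NDt X.par (w X.ψ) X.c.t u τ) (hl : ¬ isL τ)
    (hp : tp τ ≤ top X.S)
    {j j' : X.c.Lam} {y : ℝ} (hv : (X.g u τ).val j y ≠ 0) (hv' : (X.g u τ).val j' y ≠ 0)
    (t1 : (u.B : ℝ) * X.c.r j.1.1 ≤ X.c.wp.thr (tp τ))
    (t2 : (u.B : ℝ) * X.c.r j'.1.1 ≤ X.c.wp.thr (tp τ)) {g x x' K : ℕ}
    (hw : j.1.1 / u.A = g * x) (hw' : j'.1.1 / u.A = g * x') (hne : x ≠ x')
    (hxK : x ≤ K) (hxK' : x' ≤ K) {D : ℝ}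
    (hD : (x' : ℝ) * (u.B * X.c.r j.1.1) + x * (u.B * X.c.r j'.1.1) ≤ D) (hD1 : 2 * D < 1)
    (q1 : (u.B : ℝ) * X.c.r j.1.1 ≤ 1 / 10) (r1 : (u.B : ℝ) * X.c.r j'.1.1 ≤ 1 / 10)
    (q2 : (K : ℝ) ^ 5 * (u.B * X.c.r j.1.1) ≤ 1) (r2 : (K : ℝ) ^ 5 * (u.B * X.c.r j'.1.1) ≤ 1)
    (q3 : D ^ 5 ≤ ((u.B : ℝ) * X.c.r j.1.1) ^ 4) (r3 : D ^ 5 ≤ ((u.B : ℝ) * X.c.r j'.1.1) ^ 4) :
    (X.c.world (tp τ) j.1).1 = (X.c.world (tp τ) j'.1).1 := by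
  obtain ⟨m1, s1, z, a, p1⟩ := pt_of_ne h hv
  obtain ⟨m2, s2, z', a', p2⟩ := pt_of_ne h hv'
  have hB' : (0 : ℝ) < u.B := by exact_mod_cast h.B_pos
  have w1 : 0 < j.1.1 / u.A := Nat.pos_of_ne_zero (h.div_ne m1)
  have w2 : 0 < j'.1.1 / u.A := Nat.pos_of_ne_zero (h.div_ne m2)
  have hg : 0 < g := Nat.pos_of_ne_zero fun h0 => by rw [hw, h0, zero_mul] at w1; omega
  have hx : 0 < x := Nat.pos_of_ne_zero fun h0 => by rw [hw, h0, mul_zero] at w1; omega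
  have hx' : 0 < x' := Nat.pos_of_ne_zero fun h0 => by rw [hw', h0, mul_zero] at w2; omega
  have e1 := Bl_node h hl m1
  have e2 := Bl_node h hl m2
  refine world_eq hp p1 p2 ?_
  refine same_ix_small X.c (hT.lam _) (A_pos h) h.B_pos hg hx hx' hw hw' hne hxK hxK'
    (mul_div h m1) (mul_div h m2) e1 e2 t1 t2 hD hD1 (mul_pos hB' (X.rpos s1))
    (mul_pos hB' (X.rpos s2)) q1 r1 q2 r2 q3 r3 p1.hz p2.hz p1.zr p2.zr

/-- **exact overlaps at a node** (`j` present at the tie `n`: cofactor `n u₁`, `j'` missing: cofactor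
`v₁`) -/
theorem node_exact (hT : TH X) (h : NDt X.par (w X.ψ) X.c.t u τ) (hl : ¬ isL τ)
    (hp : tp τ ≤ top X.S)
    {j j' : X.c.Lam} {y : ℝ} (hv : (X.g u τ).val j y ≠ 0) (hv' : (X.g u τ).val j' y ≠ 0)
    (t1 : (u.B : ℝ) * X.c.r j.1.1 ≤ X.c.wp.thr (tp τ))
    (t2 : (u.B : ℝ) * X.c.r j'.1.1 ≤ X.c.wp.thr (tp τ)) {g u₁ v₁ n K : ℕ}
    (hw : j.1.1 / u.A = g * (n * u₁)) (hw' : j'.1.1 / u.A = g * v₁) (hvn : 2 * v₁ ≤ n * u₁) {D : ℝ}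
    (hD : (v₁ : ℝ) * (u.B * X.c.r j.1.1) + (n * u₁ : ℕ) * (u.B * X.c.r j'.1.1) ≤ D)
    (hD1 : 2 * D < 1) (hE : Exact (u.B * X.c.γ) D u₁ v₁ K n)
    (q1 : (u.B : ℝ) * X.c.r j.1.1 ≤ 1 / 10) (r1 : (u.B : ℝ) * X.c.r j'.1.1 ≤ 1 / 10)
    (q2 : ((K * u₁ : ℕ) : ℝ) ^ 5 * (u.B * X.c.r j.1.1) ≤ 1)
    (r2 : ((K * u₁ : ℕ) : ℝ) ^ 5 * (u.B * X.c.r j'.1.1) ≤ 1)
    (q3 : (2 * D) ^ 5 ≤ ((u.B : ℝ) * X.c.r j.1.1) ^ 4 * ((n * u₁ : ℕ) : ℝ) ^ 5)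
    (r3 : (2 * D) ^ 5 ≤ ((u.B : ℝ) * X.c.r j'.1.1) ^ 4 * ((n * u₁ : ℕ) : ℝ) ^ 5) :
    (X.c.world (tp τ) j.1).1 = (X.c.world (tp τ) j'.1).1 := by
  obtain ⟨m1, s1, z, a, p1⟩ := pt_of_ne h hv
  obtain ⟨m2, s2, z', a', p2⟩ := pt_of_ne h hv'
  have hB' : (0 : ℝ) < u.B := by exact_mod_cast h.B_pos
  have w1 : 0 < j.1.1 / u.A := Nat.pos_of_ne_zero (h.div_ne m1)
  have w2 : 0 < j'.1.1 / u.A := Nat.pos_of_ne_zero (h.div_ne m2)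
  have hg : 0 < g := Nat.pos_of_ne_zero fun h0 => by rw [hw, h0, zero_mul] at w1; omega
  have hnu : 0 < n * u₁ := Nat.pos_of_ne_zero fun h0 => by rw [hw, h0, mul_zero] at w1; omega
  have hn : 0 < n := Nat.pos_of_ne_zero fun h0 => by rw [h0, zero_mul] at hnu; omega
  have hu : 0 < u₁ := Nat.pos_of_ne_zero fun h0 => by rw [h0, mul_zero] at hnu; omega
  have hv₁ : 0 < v₁ := Nat.pos_of_ne_zero fun h0 => by rw [hw', h0, mul_zero] at w2; omega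
  have e1 := Bl_node h hl m1
  have e2 := Bl_node h hl m2
  refine world_eq hp p1 p2 ?_
  exact same_ix_exact X.c (hT.lam _) (A_pos h) h.B_pos hg hu hv₁ hn hw hw' hvn
    (mul_div h m1) (mul_div h m2) e1 e2 t1 t2 hD hD1 hE (mul_pos hB' (X.rpos s1))
    (mul_pos hB' (X.rpos s2)) q1 r1 q2 r2 q3 r3 p1.hz p2.hz p1.zr p2.zr

end Crest.Agent.R4P.InN9
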