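import Crest.Agent.R4P.StM2_46
import Crest.Agent.R4P.StM1_42

/-!
R4 (S0004) with powers, [B8], helper46: **state machine of a piece**, part 4: Cf level and context level
(no nodes in the statements).

`ms c p q = lst (mt q) p` : the missing ties above `p`; **low list** at `p` = `ms c (p - 1) q` (a missing
tie `p` of `q` is processed); `low c p q` = real state at the column `p` with the low list.

* `Cf_st`      : `c.st p q = stl (bt p) (ms p) p`;
* `low_eq`     : `p` not missing: `low = st`;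
* `low_cons`, `low_step` : `p` missing: own missing tie (helper42's `Step`, both thresholds `thr p`);
* `low_next`   : from `low c p q` to `c.st (p - 1) q` only a crossing event `Crs`;
* `st_next`    : the same between two columns `p' < p` without a missing tie in `[p', p]`;
* `low_next_gl`: the game label;
* `ctx_TLl`    : alive items are thin at all their missing ties (context level, every column);
* `ctx_ha`, `ctx_low_next`, `ctx_low_gl`, `ctx_low_step`.
-/

set_option autoImplicit false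
set_option linter.unusedSectionVars false
set_option linter.unusedVariables false

namespace Crest.Agent.R4P.StM246

open Crest.Agent.R4P.Cnt588 Crest.Agent.R4P.Item758 Crest.Agent.R4P.W363
open Crest.Agent.R4P.Data758 Crest.Agent.R4P.OmSt532 Crest.Agent.R4P.OmData532
open Crest.Agent.R4P.LfDat734 Crest.Agent.R4P.WPex189
open Crest.Agent.R4P.Bld532 (NS All NodeOk Bk)
open Crest.Agent.R4P.Step588 (NDt ND1 ctx_NDt uq_lt)
open Crest.Agent.R4P.WalkIT579 (tp isL nodeOk_hi top_of_nodeOk)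
open Crest.Agent.R4P.Skel189 Crest.Agent.R4P.RseSt23 Crest.Agent.R4P.StB21
open Crest.Agent.R4P.Link758 (Bl)
open Crest.Agent.R4.Soft104 (w)
open Crest.Agent.R4P.StM6

/-! ### lists of missing ties -/

section lists
variable {B : Finset ℕ} {p s : ℕ} {M : List ℕ}

/-- the tail of the list of the missing ties is the list of its head -/
lemma lst_tail (h : lst B p = s :: M) : M = lst B s ∧ s ∈ B ∧ p < s := by
  have hs : s ∈ lst B p := by rw [h]; exact List.mem_cons_self
  have h1 := Crest.Agent.R4.W363.mem_lst.1 hs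
  refine ⟨?_, h1⟩
  have hpw : (lst B p).Pairwise (· ≤ ·) := by
    unfold Crest.Agent.R4.W363.lst
    exact Finset.pairwise_sort _ _
  have hnd : (lst B p).Nodup := by
    unfold Crest.Agent.R4.W363.lst
    exact Finset.sort_nodup _ _
  rw [h, List.pairwise_cons] at hpw
  rw [h, List.nodup_cons] at hnd
  refine List.Perm.eq_of_pairwise (le := (· ≤ ·)) (fun a b _ _ h1 h2 => le_antisymm h1 h2)
    hpw.2 (by unfold Crest.Agent.R4.W363.lst; exact Finset.pairwise_sort _ _) ?_
  refine (List.perm_ext_iff_of_nodup hnd.2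
    (by unfold Crest.Agent.R4.W363.lst; exact Finset.sort_nodup _ _)).2 fun a => ?_
  constructor
  · intro ha
    have h2 : a ∈ lst B p := by rw [h]; exact List.mem_cons_of_mem _ ha
    refine Crest.Agent.R4.W363.mem_lst.2 ⟨(Crest.Agent.R4.W363.mem_lst.1 h2).1, ?_⟩
    refine lt_of_le_of_ne (hpw.1 a ha) fun e => hnd.1 ?_
    rw [e]; exact ha
  · intro ha
    obtain ⟨h2, h3⟩ := Crest.Agent.R4.W363.mem_lst.1 ha
    have h4 : a ∈ lst B p := Crest.Agent.R4.W363.mem_lst.2 ⟨h2, h1.2.trans h3⟩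
    rw [h] at h4
    rcases List.mem_cons.1 h4 with h5 | h5
    · exact absurd h3 (by rw [h5]; exact lt_irrefl s)
    · exact h5

/-- no missing tie at `p` -/
lemma lst_pred (h : p ∉ B) : lst B (p - 1) = lst B p := by
  rcases Nat.eq_zero_or_pos p with h0 | h0
  · rw [h0]
  · refine IxRange34.lst_congr (Nat.sub_le p 1) fun l hl h1 => ?_
    have h2 : p ≤ l := by omega
    exact lt_of_le_of_ne h2 fun e => h (e ▸ hl)

/-- a missing tie at `p` -/
lemma lst_pred_cons (h0 : 0 < p) (h : p ∈ B) : lst B (p - 1) = p :: lst B p := by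
  unfold Crest.Agent.R4.W363.lst
  have e : B.filter (p - 1 < ·) = insert p (B.filter (p < ·)) := by
    ext l
    simp only [Finset.mem_filter, Finset.mem_insert]
    constructor
    · rintro ⟨h1, h2⟩
      by_cases h3 : l = p
      · exact Or.inl h3
      · exact Or.inr ⟨h1, by omega⟩
    · rintro (h1 | ⟨h1, h2⟩)
      · subst h1
        exact ⟨h, by omega⟩
      · exact ⟨h1, by omega⟩
  rw [e]
  exact Finset.sort_insert (· ≤ ·) (fun b hb => (Finset.mem_filter.1 hb).2.le)
    (fun h' => lt_irrefl p (Finset.mem_filter.1 h').2)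

end lists

section cf
variable {c : Cf} {n p p' q s : ℕ} {κ : ℚ}

/-- **missing ties of `q` above `p`**, most recent first -/
noncomputable abbrev ms (c : Cf) (p q : ℕ) : List ℕ := lst (c.t.mt q) p

/-- the state of a Cf-configuration as a list state -/
theorem Cf_st (hl : c.lam p = 0) :
    c.st p q = stl c.wp.thr c.γ (c.r q) (bt c p q) (ms c p q) p := by
  have e : c.wp.st c.γ c.r c.t p q = sta c.wp.thr c.γ (c.r q) (ms c p q) p := rfl
  cases h : sta c.wp.thr c.γ (c.r q) (ms c p q) p with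
  | some κ => rw [stl_some h]; exact stB_zero_some hl (by rw [e, h])
  | none =>
    have e2 : c.st p q = fbA c.wpL c.γ c.r c.t c.lv p q := stB_of_none (by rw [e, h])
    rw [e2]
    unfold fbA
    by_cases hb : btA c.wpL c.r c.t c.lv p q
    · rw [if_pos hb]; exact (stl_anti (a := bt c p q) hb h).symm
    · rw [if_neg hb]; exact (stl_nanti (a := bt c p q) hb h).symm

/-- **low state**: the real state at the column `p`, the missing tie `p` (if any) is processed -/
noncomputable def low (c : Cf) (p q : ℕ) : Option ℚ :=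
  stl c.wp.thr c.γ (c.r q) (bt c (p - 1) q) (ms c (p - 1) q) p

lemma bt_pred (h : p ∉ c.t.mt q) : bt c (p - 1) q ↔ bt c p q := by
  rcases Nat.eq_zero_or_pos p with h0 | h0
  · rw [h0]
  · refine IxRange34.btA_congr (Nat.sub_le p 1) fun l hl h1 => ?_
    have h2 : p ≤ l := by omega
    exact lt_of_le_of_ne h2 fun e => h (e ▸ hl)

/-- **no missing tie at `p`: the low state is the state** -/
theorem low_eq (hl : c.lam p = 0) (h : p ∉ c.t.mt q) : low c p q = c.st p q := by
  rw [Cf_st hl]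
  unfold low ms
  rw [lst_pred h]
  congr 1
  exact propext (bt_pred h)

/-- positivity of the products -/
lemma ms_pos (hO : c.t.Ok n) (p q : ℕ) : 0 < (ms c p q).prod := by
  refine List.prod_pos fun s hs => ?_
  exact (BldF542.mt_lt c.t n hO q s (Crest.Agent.R4.W363.mem_lst.1 hs).1).1.pos

/-- **own missing tie `p`**: the step from the state to the low state (helper42's `Step`) -/
theorem low_step (hO : c.t.Ok n) (hl : c.lam p = 0) (hm : p ∈ c.t.mt q)
    (hthin : ((ms c p q).prod : ℝ) * c.r q ≤ c.wp.thr p) :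
    StM142.Step c.γ (c.r q) (c.wp.thr p) (c.wp.thr p) p (ms c p q) (c.st p q) (low c p q) := by
  have hp := (BldF542.mt_lt c.t n hO q p hm).1
  have e : ms c (p - 1) q = p :: ms c p q := lst_pred_cons hp.pos hm
  have hT : TLl c.wp.thr (c.r q) (p :: ms c p q) := by
    intro s M h
    obtain ⟨h1, h2⟩ := List.cons.inj h
    subst h1
    rw [← h2]; exact hthin
  have h0 : c.st p q = own c.γ (c.r q) (ms c p q) := StB21.thin hl hthin
  have hpr : ((p :: ms c p q).prod : ℝ) = ((p * (ms c p q).prod : ℕ) : ℝ) := by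
    rw [List.prod_cons]
  refine ⟨hp, ms_pos hO p q, hthin, h0, ?_⟩
  unfold low
  rw [e]
  rcases lt_or_ge (c.wp.thr p) (((p :: ms c p q).prod : ℝ) * c.r q) with hf | hf
  · cases hk : own c.γ (c.r q) (ms c p q) with
    | some κ =>
      refine Or.inr (Or.inl ⟨by rw [← hpr]; exact hf, ?_, κ, by rw [h0, hk]⟩)
      rw [stl_fat_some hT hf hk, h0, hk]
    | none =>
      refine Or.inr (Or.inr ⟨by rw [← hpr]; exact hf, by rw [h0, hk], ?_⟩)
      by_cases hb : bt c (p - 1) q
      · exact Or.inl (stl_fat_none hT hf hk hb)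
      · exact Or.inr (stl_fat_none' hT hf hk hb)
  · exact Or.inl ⟨by rw [← hpr]; exact hf, stl_thin hf⟩

/-- births which are not anticipated: the item is fat at the leaf -/
lemma not_bt (hO : c.t.Ok n) (h : ¬ bt c p q) (hp' : p' ≤ p) :
    c.wpL.thr (c.lv q) < ((ms c p' q).prod : ℝ) * c.r q := by
  unfold bt btA at h
  push Not at h
  obtain ⟨h1, h2⟩ := h
  have e : Bl c p' q = mp c.t q := Bl_all hO fun s hs => lt_of_le_of_lt hp' (h1 s hs)
  have e2 : (ms c p' q).prod = mp c.t q := e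
  rw [e2]
  exact h2

/-- **from the low state of `p` to the state of `p - 1`: only a crossing event** -/
theorem low_next (hO : c.t.Ok n) (hl : c.lam (p - 1) = 0)
    (hthr : c.wp.thr p ≤ c.wp.thr (p - 1)) (hL' : c.wp.thr (p - 1) ≤ c.wpL.thr (c.lv q))
    (hT : TLl c.wp.thr (c.r q) (ms c (p - 1) q)) (hne : c.st (p - 1) q ≠ low c p q) :
    ∃ κ, Crs c.wp.thr c.γ (c.r q) (ms c (p - 1) q) p (p - 1) κ := by
  rw [Cf_st hl] at hne
  exact cross hthr hT (fun h => hL'.trans_lt (not_bt hO h le_rfl)) hne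

/-- **two columns `p' ≤ p` with the same missing ties: only a crossing event** -/
theorem st_next (hO : c.t.Ok n) (hl : c.lam p = 0) (hl' : c.lam p' = 0) (hp : p' ≤ p)
    (hm : ∀ l ∈ c.t.mt q, p' < l → p < l) (hthr : c.wp.thr p ≤ c.wp.thr p')
    (hL' : c.wp.thr p' ≤ c.wpL.thr (c.lv q)) (hT : TLl c.wp.thr (c.r q) (ms c p q))
    (hne : c.st p' q ≠ c.st p q) :
    ∃ κ, Crs c.wp.thr c.γ (c.r q) (ms c p q) p p' κ := by
  have e : ms c p' q = ms c p q := IxRange34.lst_congr hp hm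
  rw [Cf_st hl, Cf_st hl', e] at hne
  refine cross' hthr hT (fun h => ?_) (IxRange34.btA_congr hp hm).symm hne
  rw [← e]
  exact hL'.trans_lt (not_bt hO h hp)

/-- **game label of the low state** -/
noncomputable def glow (c : Cf) (p q : ℕ) : Option ℚ :=
  gl (low c p q) (c.wp.thr p) c.γ (c.r q) (ms c (p - 1) q)

/-- **game label of the state** -/
noncomputable def ghi (c : Cf) (p q : ℕ) : Option ℚ :=
  gl (c.st p q) (c.wp.thr p) c.γ (c.r q) (ms c p q)

lemma glow_eq (hl : c.lam p = 0) (h : p ∉ c.t.mt q) : glow c p q = ghi c p q := by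
  unfold glow ghi ms
  rw [low_eq hl h, lst_pred h]

/-- **game label at an own missing tie `p`** (helper42's kinds) -/
theorem glow_kind (hO : c.t.Ok n) (hl : c.lam p = 0) (hm : p ∈ c.t.mt q)
    (hthin : ((ms c p q).prod : ℝ) * c.r q ≤ c.wp.thr p) :
    StM142.Kind c.γ (c.r q) p (ms c p q) (ghi c p q) (glow c p q) := by
  have h := StM142.kind (low_step hO hl hm hthin)
  have hp := (BldF542.mt_lt c.t n hO q p hm).1
  have e : ms c (p - 1) q = p :: ms c p q := lst_pred_cons hp.pos hm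
  unfold glow ghi
  rw [e]
  exact h

/-- **game label from the low state of `p` to the state of `p - 1`** -/
theorem glow_next (hO : c.t.Ok n) (hl : c.lam (p - 1) = 0)
    (hthr : c.wp.thr p ≤ c.wp.thr (p - 1)) (hL' : c.wp.thr (p - 1) ≤ c.wpL.thr (c.lv q))
    (hT : TLl c.wp.thr (c.r q) (ms c (p - 1) q)) (hne : ghi c (p - 1) q ≠ glow c p q) :
    ∃ κ, low c p q = some κ ∧ (∃ s M, ms c (p - 1) q = s :: M ∧ own c.γ (c.r q) M = some κ) ∧
      c.wp.thr p < ((ms c (p - 1) q).prod : ℝ) * c.r q ∧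
      dense (c.wp.thr p) (ms c (p - 1) q).prod κ ∧ own c.γ (c.r q) (ms c (p - 1) q) ≠ some κ ∧
      glow c p q = some κ ∧ ghi c (p - 1) q = sla c.γ (c.r q) (ms c (p - 1) q) ∧
      ((∃ τ, own c.γ (c.r q) (ms c (p - 1) q) = some τ ∧ τ ≠ κ ∧
          sla c.γ (c.r q) (ms c (p - 1) q) = some τ) ∨
        (own c.γ (c.r q) (ms c (p - 1) q) = none ∧ sla c.γ (c.r q) (ms c (p - 1) q) = none ∧
          ¬ acc c.γ (c.r q) (ms c (p - 1) q).prod κ)) ∧
      (((ms c (p - 1) q).prod * c.r q ≤ c.wp.thr (p - 1) ∧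
          c.st (p - 1) q = own c.γ (c.r q) (ms c (p - 1) q)) ∨
        (c.wp.thr (p - 1) < (ms c (p - 1) q).prod * c.r q ∧ c.st (p - 1) q = some κ ∧
          ¬ dense (c.wp.thr (p - 1)) (ms c (p - 1) q).prod κ ∧
          1 < d5 (ms c (p - 1) q).prod κ * ((ms c (p - 1) q).prod * c.r q))) := by
  unfold glow ghi low at *
  rw [Cf_st hl] at hne ⊢
  exact gl_step hthr hT (ms_pos hO _ _) (fun h => hL'.trans_lt (not_bt hO h le_rfl)) Iff.rfl hne

end cf

/-! ### context level -/

/-- the node of a missing tie -/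
lemma exists_miss {Q : NS → IT → Prop} : ∀ (τ : IT) (u : NS), All Q u τ → ∀ {q s : ℕ},
    q ∈ τ.items → s ∈ τ.mt q → ∃ (u₁ : NS) (Sp : Finset ℕ) (t₁ t₀ : IT), Q u₁ (.br s Sp t₁ t₀) ∧
      Q ⟨s, u₁.c * s, u₁.A, u₁.B * s⟩ t₀ ∧ q ∈ t₀.items := by
  intro τ
  induction τ with
  | leaf S => intro u h q s hq hs; exact absurd hs (Finset.notMem_empty s)
  | br p Sp t₁ t₀ ih₁ ih₀ =>
    intro u h q s hq hs
    by_cases h0 : q ∈ t₀.items
    · rw [IT.mt, if_pos h0] at hs
      rcases Finset.mem_insert.1 hs with e | hs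
      · subst e
        exact ⟨u, Sp, t₁, t₀, h.1, h.2.2.self, h0⟩
      · exact ih₀ _ h.2.2 h0 hs
    · rw [IT.mt, if_neg h0] at hs
      refine ih₁ _ h.2.1 ?_ hs
      rcases Finset.mem_union.1 hq with h1 | h1
      · exact h1
      · exact absurd h1 h0
  | add b t₁ t₀ ih₁ ih₀ =>
    intro u h q s hq hs
    by_cases h0 : q ∈ t₀.items
    · rw [IT.mt, if_pos h0] at hs
      exact ih₀ _ h.2.2 h0 hs
    · rw [IT.mt, if_neg h0] at hs
      refine ih₁ _ h.2.1 ?_ hs
      rcases Finset.mem_union.1 hq with h1 | h1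
      · exact h1
      · exact absurd h1 h0
  | up b Sp t ih =>
    intro u h q s hq hs
    exact ih _ h.2 hq hs
  | pl b t ih =>
    intro u h q s hq hs
    exact ih _ h.2 hq hs
  | far b t₁ t₀ ih₁ ih₀ =>
    intro u h q s hq hs
    by_cases h0 : q ∈ t₀.items
    · rw [IT.mt, if_pos h0] at hs
      exact ih₀ _ h.2.2 h0 hs
    · rw [IT.mt, if_neg h0] at hs
      refine ih₁ _ h.2.1 ?_ hs
      rcases Finset.mem_union.1 hq with h1 | h1
      · exact h1
      · exact absurd h1 h0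

section ctx
variable {N : Skel189.Num} {γ : ℝ} {p0 P₀ : ℕ} {X : Ctx N γ p0 P₀}

/-- **an alive item is thin at every missing tie** -/
theorem ctx_thin (hT : TH X) (hR : All (Step588.RdOk X) ⟨top X.S, 1, 1, 1⟩ X.c.t) {q s : ℕ}
    (hq : q ∈ X.S') (hs : s ∈ X.c.t.mt q) : ((ms X.c s q).prod : ℝ) * X.c.r q ≤ X.c.wp.thr s := by
  have hqs : q ∈ X.c.t.items := by rw [X.items]; exact X.prn.sub hq
  obtain ⟨u, Sp, t₁, t₀, ⟨h, -⟩, ⟨h', hr'⟩, h0⟩ :=
    exists_miss X.c.t _ ((ctx_NDt X).and hR) hqs hs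
  have hl : ¬ isL (IT.br s Sp t₁ t₀) := id
  have h1 := miss_thin hT h hl h' hr' h0 hq rfl
  have h2 := Bl_node h hl (q := q) (Finset.mem_union_right _ h0)
  have e : (ms X.c s q).prod = u.B := h2
  rw [e]
  exact h1

/-- **(TL) at every column** -/
theorem ctx_TLl (hT : TH X) (hR : All (Step588.RdOk X) ⟨top X.S, 1, 1, 1⟩ X.c.t) {q : ℕ}
    (hq : q ∈ X.S') (p : ℕ) : TLl X.c.wp.thr (X.c.r q) (ms X.c p q) := by
  intro s M h
  obtain ⟨h1, h2, -⟩ := lst_tail h
  rw [h1]
  exact ctx_thin hT hR hq h2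

/-- **(B8, context)** from the low state of `p` to the state of `p - 1` only a crossing event -/
theorem ctx_low_next (hT : TH X) (hR : All (Step588.RdOk X) ⟨top X.S, 1, 1, 1⟩ X.c.t) {p q : ℕ}
    (hq : q ∈ X.S') (hlv : p0 ≤ X.c.lv q) (hp : X.c.lv q < p)
    (hne : X.c.st (p - 1) q ≠ low X.c p q) :
    ∃ κ, Crs X.c.wp.thr X.c.γ (X.c.r q) (ms X.c (p - 1) q) p (p - 1) κ :=
  low_next X.tOk (hT.lam _) (hT.anti _ _ (by omega) (Nat.sub_le p 1))
    (hT.leL _ _ hlv (by omega)) (ctx_TLl hT hR hq _) hne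

/-- **(B8, context)** own missing tie `p` -/
theorem ctx_low_step (hT : TH X) (hR : All (Step588.RdOk X) ⟨top X.S, 1, 1, 1⟩ X.c.t) {p q : ℕ}
    (hq : q ∈ X.S') (hm : p ∈ X.c.t.mt q) :
    StM142.Step X.c.γ (X.c.r q) (X.c.wp.thr p) (X.c.wp.thr p) p (ms X.c p q) (X.c.st p q)
      (low X.c p q) :=
  low_step X.tOk (hT.lam _) hm (ctx_thin hT hR hq hm)

/-- **(B8, context)** the kinds of the game label at an own missing tie `p` -/
theorem ctx_glow_kind (hT : TH X) (hR : All (Step588.RdOk X) ⟨top X.S, 1, 1, 1⟩ X.c.t) {p q : ℕ}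
    (hq : q ∈ X.S') (hm : p ∈ X.c.t.mt q) :
    StM142.Kind X.c.γ (X.c.r q) p (ms X.c p q) (ghi X.c p q) (glow X.c p q) :=
  glow_kind X.tOk (hT.lam _) hm (ctx_thin hT hR hq hm)

/-- **(B8, context)** the game label from the low state of `p` to the state of `p - 1` -/
theorem ctx_glow_next (hT : TH X) (hR : All (Step588.RdOk X) ⟨top X.S, 1, 1, 1⟩ X.c.t) {p q : ℕ}
    (hq : q ∈ X.S') (hlv : p0 ≤ X.c.lv q) (hp : X.c.lv q < p)
    (hne : ghi X.c (p - 1) q ≠ glow X.c p q) :
    ∃ κ, low X.c p q = some κ ∧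
      (∃ s M, ms X.c (p - 1) q = s :: M ∧ own X.c.γ (X.c.r q) M = some κ) ∧
      X.c.wp.thr p < ((ms X.c (p - 1) q).prod : ℝ) * X.c.r q ∧
      dense (X.c.wp.thr p) (ms X.c (p - 1) q).prod κ ∧
      own X.c.γ (X.c.r q) (ms X.c (p - 1) q) ≠ some κ ∧
      glow X.c p q = some κ ∧ ghi X.c (p - 1) q = sla X.c.γ (X.c.r q) (ms X.c (p - 1) q) ∧
      ((∃ τ, own X.c.γ (X.c.r q) (ms X.c (p - 1) q) = some τ ∧ τ ≠ κ ∧
          sla X.c.γ (X.c.r q) (ms X.c (p - 1) q) = some τ) ∨
        (own X.c.γ (X.c.r q) (ms X.c (p - 1) q) = none ∧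
          sla X.c.γ (X.c.r q) (ms X.c (p - 1) q) = none ∧
          ¬ acc X.c.γ (X.c.r q) (ms X.c (p - 1) q).prod κ)) ∧
      (((ms X.c (p - 1) q).prod * X.c.r q ≤ X.c.wp.thr (p - 1) ∧
          X.c.st (p - 1) q = own X.c.γ (X.c.r q) (ms X.c (p - 1) q)) ∨
        (X.c.wp.thr (p - 1) < (ms X.c (p - 1) q).prod * X.c.r q ∧ X.c.st (p - 1) q = some κ ∧
          ¬ dense (X.c.wp.thr (p - 1)) (ms X.c (p - 1) q).prod κ ∧
          1 < d5 (ms X.c (p - 1) q).prod κ * ((ms X.c (p - 1) q).prod * X.c.r q))) :=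
  glow_next X.tOk (hT.lam _) (hT.anti _ _ (by omega) (Nat.sub_le p 1))
    (hT.leL _ _ hlv (by omega)) (ctx_TLl hT hR hq _) hne

end ctx

end Crest.Agent.R4P.StM246
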