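import Crest.Agent.R4P.TYK_47
import Crest.Agent.R4P.StMc_46

/-!
R4 (S0004) with powers, T3, helper9: **the typing of the pieces** (C1), parametric form.

* memory `Me = (ℕ × ℕ) × ℕ` : helper47's memory and the product `T` of the columns of the C-steps;
  relation `Rt` (`u.A * u.B = T`), `Rt.car`, `Rt.start`, `Rt.B_eq`, `Rt.A_eq`.
* `zp` : the point of the arc of a piece above a point of the circle (`zp_eq`); `ixp` : index of a piece
  for a state, at a point; `ixp_eq`, `MP_ixp`.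
* `Rule c` : game labels and tags of the pieces, functions of the column, the processed missing ties, the
  point and the piece;  **`TDr`** : typing data of a rule; **`TDr_typ : TYf ..`** (all type fields).
-/

set_option autoImplicit false
set_option linter.unusedSectionVars false
set_option linter.unusedVariables false
open MeasureTheory Filter Set

namespace Crest.Agent.R4P.TYP9

open Crest.Agent.R4P.Cnt588 Crest.Agent.R4P.Item758 Crest.Agent.R4P.W363
open Crest.Agent.R4.W363 (off cell cell_eq_iff)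
open Crest.Agent.R4P.Data758
open Crest.Agent.R4P.Bld532 (NS All NodeOk Bk)
open Crest.Agent.R4P.WalkIT579 (tp isL)
open Crest.Agent.R4P.StratN36 (ex)
open Crest.Agent.R4P.Step588 Crest.Agent.R4P.RseSt23
open Crest.Agent.R4P.DTp26 Crest.Agent.R4P.DTm407
open Crest.Agent.R4P.TYI47 Crest.Agent.R4P.TYJ47
open Crest.Agent.R4P.Walk560 (DT)

/-! ### memory -/

/-- **memory**: (last column, number of C-steps there), product of the columns of the C-steps -/
abbrev Me : Type := (ℕ × ℕ) × ℕ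

/-- update at a C-step -/
def tuM (p : ℕ) (m : Me) : Me := (TYJ47.tu p m.1, m.2 * p)

/-- start memory of a node -/
def mS (u : NS) (τ : IT) : Me := (m0 u τ, u.A * u.B)

section rel
variable {P : Bld532.Par} {W : ℕ → ℝ} {t' : IT} {Q : NS → IT → Prop}

/-- **relation of a node** : helper47's relation, and the product of the C-steps is `u.A u.B` -/
structure Rt (t' : IT) (Q : NS → IT → Prop) (p : ℕ) (m : Me) (u : NS) (τ : IT) : Prop where
  rm : Rm t' Q p m.1 u τ
  T : u.A * u.B = m.2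

theorem Rt.car (hQ : ∀ u τ, Q u τ → NDt P W t' u τ) {n : ℕ} (hO : t'.Ok n) :
    Car tuM (Rt t' Q) where
  add := fun h => ⟨⟨((Rm.car hQ hO).add h.rm).1, h.T⟩, ⟨((Rm.car hQ hO).add h.rm).2, h.T⟩⟩
  far := fun h => ⟨⟨((Rm.car hQ hO).far h.rm).1, h.T⟩, ⟨((Rm.car hQ hO).far h.rm).2, h.T⟩⟩
  up := fun h => ⟨(Rm.car hQ hO).up h.rm, h.T⟩
  br := fun {p m s Sp t₁ t₀} h => by
    refine ⟨⟨((Rm.car hQ hO).br h.rm).1, ?_⟩, ⟨((Rm.car hQ hO).br h.rm).2, ?_⟩⟩
    · show s.A * p * s.B = m.2 * p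
      rw [← h.T]; ring
    · show s.A * (s.B * p) = m.2 * p
      rw [← h.T]; ring
  pl := fun {p m s t} h => ⟨(Rm.car hQ hO).pl h.rm, by
    show s.A * p * s.B = m.2 * p
    rw [← h.T]; ring⟩
  down := fun hp h h1 h2 => ⟨(Rm.car hQ hO).down hp h.rm h1 h2, h.T⟩

theorem Rt.start (hQ : ∀ u τ, Q u τ → NDt P W t' u τ) {n : ℕ} (hO : t'.Ok n) {u : NS} {τ : IT}
    (h : All Q u τ) : Rt t' Q (tp τ) (mS u τ) u τ := ⟨Rm.start hQ hO h, rfl⟩

/-! ### data of an item -/

/-- product of the processed missing ties -/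
def Bm (M : Finset ℕ) : ℕ := ∏ l ∈ M, l

/-- modulus of an item -/
def wm (M : Finset ℕ) (T q : ℕ) : ℕ := q / (T / Bm M)

/-- the processed missing ties of an item (helper47) -/
abbrev pm (t' : IT) (p : ℕ) (m : Me) (q : ℕ) : Finset ℕ := prm t' p m.1 q

theorem Rt.B_eq (hQ : ∀ u τ, Q u τ → NDt P W t' u τ) {n : ℕ} (hO : t'.Ok n) {p : ℕ} {m : Me}
    {u : NS} {τ : IT} (h : Rt t' Q p m u τ) {q : ℕ} (hq : q ∈ τ.items) :
    Bm (pm t' p m q) = u.B := by
  have hn := hQ _ _ h.rm.all.self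
  have e : pm t' p m q = u.B.primeFactors := (h.rm.pf hQ hO hq).symm
  unfold Bm
  rw [e]
  exact Nat.prod_primeFactors_of_squarefree hn.bk.sfB

theorem Rt.A_eq (hQ : ∀ u τ, Q u τ → NDt P W t' u τ) {n : ℕ} (hO : t'.Ok n) {p : ℕ} {m : Me}
    {u : NS} {τ : IT} (h : Rt t' Q p m u τ) {q : ℕ} (hq : q ∈ τ.items) :
    m.2 / Bm (pm t' p m q) = u.A := by
  have hn := hQ _ _ h.rm.all.self
  rw [h.B_eq hQ hO hq, ← h.T]
  exact Nat.mul_div_cancel _ (Nat.pos_of_ne_zero hn.bk.sfB.ne_zero)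

theorem Rt.w_eq (hQ : ∀ u τ, Q u τ → NDt P W t' u τ) {n : ℕ} (hO : t'.Ok n) {p : ℕ} {m : Me}
    {u : NS} {τ : IT} (h : Rt t' Q p m u τ) {q : ℕ} (hq : q ∈ τ.items) :
    wm (pm t' p m q) m.2 q = q / u.A := by
  unfold wm
  rw [h.A_eq hQ hO hq]

end rel

/-! ### the point of the arc -/

/-- the point of the arc (left endpoint `al`, scaled by `B`) above the point `x` of the circle -/
noncomputable def zp (γ al : ℝ) (B w : ℕ) (x : ℝ) : ℝ :=
  al + Int.fract ((w : ℝ) * x - B * γ - B * al) / B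

lemma zp_eq {γ al x z : ℝ} {B w : ℕ} (hB : 0 < B) {a : ℤ} (hz : (B : ℝ) * z = w * x - B * γ - a)
    (h1 : al ≤ z) (h2 : (B : ℝ) * (z - al) < 1) : zp γ al B w x = z := by
  have hB' : (0 : ℝ) < B := by exact_mod_cast hB
  have e : Int.fract ((w : ℝ) * x - B * γ - B * al) = B * (z - al) := by
    rw [Int.fract_eq_iff]
    exact ⟨mul_nonneg hB'.le (sub_nonneg.2 h1), h2, a, by rw [mul_sub, hz]; ring⟩
  unfold zp
  rw [e]
  field_simp
  ring

lemma meas_zp (γ al : ℝ) (B w : ℕ) : Measurable (zp γ al B w) := by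
  unfold zp
  exact measurable_const.add ((measurable_fract.comp
    (((measurable_const.mul measurable_id).sub_const _).sub_const _)).div_const _)

lemma per_zp (γ al : ℝ) (B w : ℕ) (x : ℝ) : zp γ al B w (x + 1) = zp γ al B w x := by
  unfold zp
  have e : (w : ℝ) * (x + 1) - B * γ - B * al = ((w : ℝ) * x - B * γ - B * al) + (w : ℤ) := by
    push_cast; ring
  rw [e, Int.fract_add_intCast]

/-! ### measurability -/

section mp
variable {ι ι' : Type*}

lemma MP.comp' {f : ℝ → ℝ} (hf : Measurable f) (pf : ∀ x, f (x + 1) = f x) {g : ℝ → ι}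
    (hg : ∀ i, MeasurableSet {y | g y = i}) : MP fun x => g (f x) where
  meas := fun i => hf (hg i)
  per := fun x => by rw [pf]

lemma MP.bind [Countable ι] {s : ℝ → ι} (h : MP s) {f : ι → ℝ → ι'} (hf : ∀ i, MP (f i)) :
    MP fun x => f (s x) x where
  meas := fun k => by
    have e : {x | f (s x) x = k} = ⋃ i, {x | s x = i} ∩ {x | f i x = k} := by
      ext x
      simp
    rw [e]
    exact MeasurableSet.iUnion fun i => (h.meas i).inter ((hf i).meas k)
  per := fun x => by rw [h.per, (hf _).per]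

end mp

lemma cell_mono (E : Finset ℝ) : Monotone (cell E) := by
  classical
  intro y y' h
  unfold cell
  refine Finset.card_le_card fun e he => ?_
  rw [Finset.mem_filter] at he ⊢
  exact ⟨he.1, he.2.trans h⟩

lemma meas_cell (E : Finset ℝ) : Measurable (cell E) := (cell_mono E).measurable

lemma cell_le (E : Finset ℝ) (y : ℝ) : cell E y ≤ E.card := by
  classical
  unfold cell
  exact Finset.card_filter_le _ _

/-! ### index of a piece at a point -/

section cf
variable {c : Cf} {n : ℕ}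

/-- **index of the piece `j` with the state `s`** at the column `p`, at the point `x` of the circle of
the stage (`M` = processed missing ties, `T` = product of the C-steps) -/
noncomputable def ixp (c : Cf) (p : ℕ) (s : Option ℚ) (M : Finset ℕ) (T : ℕ) (x : ℝ) (j : c.Lam) :
    Bool × ℕ :=
  c.wp.ix c.γ p j.1.1 s (zp c.γ (c.bp j.1.1 j.1.2) (Bm M) (wm M T j.1.1) x)

/-- the index at a point of the arc -/
lemma ixp_eq {p : ℕ} {s : Option ℚ} {M : Finset ℕ} {T : ℕ} {x : ℝ} {j : c.Lam} {a : ℤ} {z : ℝ}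
    (hB : 0 < Bm M) (hz : (Bm M : ℝ) * z = (wm M T j.1.1 : ℕ) * x - Bm M * c.γ - a)
    (h1 : c.bp j.1.1 j.1.2 ≤ z) (h2 : (Bm M : ℝ) * (z - c.bp j.1.1 j.1.2) < 1) :
    ixp c p s M T x j = c.wp.ix c.γ p j.1.1 s z := by
  unfold ixp
  rw [zp_eq hB hz h1 h2]

/-- **a real state**: the index at a point is the index of the world -/
theorem ixp_st (h : c.Ok n) {p : ℕ} (hp : p ≤ n) {M : Finset ℕ} {T : ℕ} {x : ℝ} {j : c.Lam} {a : ℤ}
    {z : ℝ} (hB : 0 < Bm M) (hz : (Bm M : ℝ) * z = (wm M T j.1.1 : ℕ) * x - Bm M * c.γ - a)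
    (h1 : c.D.al j ≤ z) (h1' : z < c.D.be j) (h2 : (Bm M : ℝ) * (z - c.D.al j) < 1) :
    ixp c p (c.st p j.1.1) M T x j = (c.world p j.1).1 := by
  rw [ixp_eq hB hz h1 h2, h.ix_point hp j h1 h1']
  rfl

/-- a labelled state does not see the column -/
lemma ixp_col {p p' : ℕ} {σ : ℚ} {M : Finset ℕ} {T : ℕ} {x : ℝ} {j : c.Lam} :
    ixp c p (some σ) M T x j = ixp c p' (some σ) M T x j := rfl

lemma ixp_fst {p : ℕ} {s : Option ℚ} {M : Finset ℕ} {T : ℕ} {x : ℝ} {j : c.Lam} :
    (ixp c p s M T x j).1 = s.isSome := rfl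

lemma MP_ixp0 (c : Cf) (p : ℕ) (s : Option ℚ) (M : Finset ℕ) (T : ℕ) (j : c.Lam) :
    MP fun x => ixp c p s M T x j := by
  have h1 : Measurable fun z => cell (c.wp.E p s) (off c.γ (ctr c.γ s) j.1.1 z) := by
    refine (meas_cell _).comp ?_
    unfold off
    exact (measurable_id.add_const _).div_const _
  refine MP.comp' (g := fun z => c.wp.ix c.γ p j.1.1 s z) (meas_zp _ _ _ _) (per_zp _ _ _ _)
    fun i => ?_
  have h2 : Measurable fun z => c.wp.ix c.γ p j.1.1 s z := measurable_const.prodMk h1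
  exact h2 (measurableSet_singleton i)

lemma MP_ixp {p : ℕ} {s : ℝ → Option ℚ} (hs : MP s) (M : Finset ℕ) (T : ℕ) (j : c.Lam) :
    MP fun x => ixp c p (s x) M T x j :=
  MP.bind hs (f := fun s x => ixp c p s M T x j) fun i => MP_ixp0 c p i M T j

/-! ### types -/

/-- the number `k`, cut at `N` -/
def clp (N k : ℕ) : Fin (N + 1) := ⟨min k N, Nat.lt_succ_of_le (min_le_right _ _)⟩

lemma clp_inj {N k k' : ℕ} (h : k ≤ N) (h' : k' ≤ N) (e : clp N k = clp N k') : k = k' := by
  have := congrArg Fin.val e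
  simpa [clp, min_eq_left h, min_eq_left h'] using this

/-- **types**: index, tag, flag (fresh) -/
abbrev Ty (N K : ℕ) : Type := (Bool × Fin (N + 1)) × Fin (K + 1) × Bool

/-- the type with index `i`, tag `g` -/
def mkT (N K : ℕ) (i : Bool × ℕ) (g : ℕ) : Ty N K := ((i.1, clp N i.2), clp K g, false)

lemma mkT_inj {N K : ℕ} {i i' : Bool × ℕ} {g g' : ℕ} (h : i.2 ≤ N) (h' : i'.2 ≤ N) (hg : g ≤ K)
    (hg' : g' ≤ K) : mkT N K i g = mkT N K i' g' ↔ i = i' ∧ g = g' := by
  constructor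
  · intro e
    have e1 := (Prod.ext_iff.1 e).1
    have e2 := (Prod.ext_iff.1 (Prod.ext_iff.1 e).2).1
    exact ⟨Prod.ext (Prod.ext_iff.1 e1).1 (clp_inj h h' (Prod.ext_iff.1 e1).2),
      clp_inj hg hg' e2⟩
  · rintro ⟨rfl, rfl⟩
    rfl

/-- a bound of the cells of the columns `≤ n` -/
noncomputable def Nix (c : Cf) (n : ℕ) : ℕ :=
  (Finset.range (n + 1)).sup (fun p => (c.wp.E p none).card) + (c.wp.E 0 (some 0)).card

lemma ixp_le {p : ℕ} (hp : p ≤ n) (s : Option ℚ) (M : Finset ℕ) (T : ℕ) (x : ℝ) (j : c.Lam) :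
    (ixp c p s M T x j).2 ≤ Nix c n := by
  have h : (ixp c p s M T x j).2 ≤ (c.wp.E p s).card := cell_le _ _
  cases s with
  | none =>
    have h1 := Finset.le_sup (f := fun p => (c.wp.E p none).card)
      (Finset.mem_range.2 (Nat.lt_succ_of_le hp))
    exact (h.trans h1).trans (Nat.le_add_right _ _)
  | some σ => exact h.trans (Nat.le_add_left _ _)

/-- **rule** : game labels and tags of the pieces; `M` = processed missing ties of the item -/
structure Rule (c : Cf) where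
  /-- game label -/
  lb : ℕ → Finset ℕ → ℝ → c.Lam → Option ℚ
  /-- tag (`T` = product of the processed C-steps) -/
  tg : ℕ → Finset ℕ → ℕ → ℝ → c.Lam → ℕ
  mlb : ∀ p M j, MP fun x => lb p M x j
  mtg : ∀ p M T j, MP fun x => tg p M T x j
  /-- bound of the tags -/
  K : ℕ

variable (R : Rule c)

/-- index and tag of a piece: function of the column, the processed missing ties and the point -/
noncomputable def Rule.it (p : ℕ) (M : Finset ℕ) (T : ℕ) (x : ℝ) (j : c.Lam) : (Bool × ℕ) × ℕ :=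
  (ixp c p (R.lb p M x j) M T x j, R.tg p M T x j)

/-- **the type of a piece** -/
noncomputable def Rule.tp (n p : ℕ) (m : Me) (x : ℝ) (j : c.Lam) : Option (Ty (Nix c n) R.K) :=
  some (mkT (Nix c n) R.K (R.it p (pm c.t p m j.1.1) m.2 x j).1
    (R.it p (pm c.t p m j.1.1) m.2 x j).2)

variable {R}

lemma Rule.MP_it (p : ℕ) (M : Finset ℕ) (T : ℕ) (j : c.Lam) : MP fun x => R.it p M T x j :=
  (MP_ixp (R.mlb p M j) M T j).prod (R.mtg p M T j)

lemma Rule.MP_tp (n p : ℕ) (m : Me) (j : c.Lam) : MP fun x => R.tp n p m x j :=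
  (R.MP_it p (pm c.t p m j.1.1) m.2 j).map fun i => some (mkT (Nix c n) R.K i.1 i.2)

/-- **equality of types** -/
lemma Rule.tp_iff {p p' : ℕ} (hp : p ≤ n) (hp' : p' ≤ n) {m m' : Me} {x x' : ℝ} {j j' : c.Lam}
    (hg : R.tg p (pm c.t p m j.1.1) m.2 x j ≤ R.K)
    (hg' : R.tg p' (pm c.t p' m' j'.1.1) m'.2 x' j' ≤ R.K) :
    R.tp n p m x j = R.tp n p' m' x' j' ↔
      R.it p (pm c.t p m j.1.1) m.2 x j = R.it p' (pm c.t p' m' j'.1.1) m'.2 x' j' := by
  unfold Rule.tp
  rw [Option.some.injEq]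
  have key := mkT_inj (K := R.K) (ixp_le hp (R.lb p (pm c.t p m j.1.1) x j) (pm c.t p m j.1.1) m.2 x j)
    (ixp_le hp' (R.lb p' (pm c.t p' m' j'.1.1) x' j') (pm c.t p' m' j'.1.1) m'.2 x' j') hg hg'
  exact key.trans ⟨fun h => Prod.ext h.1 h.2, fun h => Prod.ext_iff.1 h⟩

/-- the flag of a point type -/
lemma Rule.tp_flag {p : ℕ} {m : Me} {x : ℝ} {j : c.Lam} {z : Ty (Nix c n) R.K}
    (h : R.tp n p m x j = some z) : z.2.2 = false := by
  rw [← Option.some.inj h]
  rfl

variable (R)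

/-- **typing data of a rule**, with special points `spc` and active classes `act` -/
noncomputable def TDr {κ : Type} (n : ℕ)
    (spc : ℕ → Me × List (DT c.Lam κ) → Ty (Nix c n) R.K → ℝ → Prop)
    (act : ℕ → Me × List (DT c.Lam κ) → Ty (Nix c n) R.K → ℝ → κ) :
    TD Me c.Lam κ (Ty (Nix c n) R.K) where
  tu := tuM
  tp := R.tp n
  spc := spc
  act := act
  fr := fun _ _ z => (z.1, z.2.1, true)
  F := fun _ _ z => z.2.2 = true

variable {R} {κ : Type} [Fintype κ] [DecidableEq κ]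

/-- **all type fields** -/
theorem TDr_typ {spc : ℕ → Me × List (DT c.Lam κ) → Ty (Nix c n) R.K → ℝ → Prop}
    {act : ℕ → Me × List (DT c.Lam κ) → Ty (Nix c n) R.K → ℝ → κ} (msp : ∀ p m z, MP (spc p m z))
    (mac : ∀ p m z, MP (act p m z))
    (one : ∀ p m z y (i i' : ℕ), i < p → i' < p → spc p m z ((y + i) / p) →
      spc p m z ((y + i') / p) → i = i') (wr : ℕ → c.Lam → κ)
    (Inv : ℕ → Me × List (DT c.Lam κ) → Prop) : TYf wr (TDr R n spc act) Inv where
  mtp := fun p m j => R.MP_tp n p m j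
  msp := msp
  mac := mac
  one := one
  inj := fun p m z z' h h' e => by
    have h1 : z.2.2 = false := by
      cases h2 : z.2.2 with
      | false => rfl
      | true => exact absurd h2 h
    have h1' : z'.2.2 = false := by
      cases h2 : z'.2.2 with
      | false => rfl
      | true => exact absurd h2 h'
    have e1 : z.1 = z'.1 := (Prod.ext_iff.1 e).1
    have e2 : z.2.1 = z'.2.1 := (Prod.ext_iff.1 (Prod.ext_iff.1 e).2).1
    exact Prod.ext e1 (Prod.ext e2 (h1.trans h1'.symm))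
  frF := fun _ _ _ _ => rfl
  low := fun {p b} _ _ y j z _ h hF => by
    have h1 := Rule.tp_flag (R := R) (n := n) h
    have h2 : z.2.2 = true := hF
    rw [h1] at h2
    exact Bool.false_ne_true h2
  out1 := fun _ _ _ _ _ => ⟨fun h => absurd h (by simp [TDr, Rule.tp]),
    fun h => absurd h (by simp [TD.lt, TDr, Rule.tp])⟩
  out2 := fun _ _ _ _ _ _ _ _ => ⟨fun h => absurd h (by simp [TD.lt, TDr, Rule.tp]),
    fun h => absurd h (by simp [TD.lt, TDr, Rule.tp])⟩

end cf

end Crest.Agent.R4P.TYP9
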