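import Crest.Agent.R4P.PosD_33
import Crest.Agent.R4P.InN_9
import Crest.Agent.R4P.TYP_9

/-!
R4 (S0004) with powers, helper33: **position determinism at two nodes of a context** (node form of
`PosD_33`): nodes `u`, `u'` with `u.A u.B = u'.A u'.B` (`u = u'` allowed), pieces `j`, `j'` with a common
point `y`.

* `node_geo`  : the geometry `Geo Z 1 ..` of two comparable pieces;
* `node_rel`  : own labels have one exact centre, `node_ix` : and the same index;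
* `node_mate` : the mate of an own label has an own label with the same index, or the label is in its
  threshold zone `Zl`;
* `ixp_rel`   : indices `TYP9.ixp` of two labels with one exact centre, `ixp_mate`, `ixp_sla`.
-/

set_option autoImplicit false
set_option linter.unusedSectionVars false
set_option linter.unusedVariables false

namespace Crest.Agent.R4P.PosD33

open Crest.Agent.R4.LF363
open Crest.Agent.R4P.Cnt588 Crest.Agent.R4P.Item758 Crest.Agent.R4P.W363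
open Crest.Agent.R4P.Data758 Crest.Agent.R4P.Skel189 Crest.Agent.R4P.RseSt23 Crest.Agent.R4P.WPex189
open Crest.Agent.R4P.Bld532 (NS)
open Crest.Agent.R4P.Step588 (NDt)
open Crest.Agent.R4P.WalkIT579 (tp isL)
open Crest.Agent.R4P.InN9 (Pt pt_of_ne mul_div A_pos)
open Crest.Agent.R4.Soft104 (w)
open Crest.Agent.R4P.StM6

variable {N : Skel189.Num} {γ : ℝ} {p0 P₀ : ℕ} {X : Ctx N γ p0 P₀} {u u' : NS} {τ τ' : IT}
  {j j' : X.c.Lam} {y z z' : ℝ} {a a' : ℤ} {g x x' : ℕ} {Z : ℝ}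

/-- **comparable pieces of two nodes** -/
structure NC (X : Ctx N γ p0 P₀) (Z : ℝ) (u u' : NS) (j j' : X.c.Lam) (g x x' : ℕ) : Prop where
  hg : 0 < g
  hw : j.1.1 / u.A = g * x
  hw' : j'.1.1 / u'.A = g * x'
  xZ : (x : ℝ) ≤ Z
  xZ' : (x' : ℝ) ≤ Z
  RZ : (u.B : ℝ) * X.c.r j.1.1 ≤ Z * (u'.B * X.c.r j'.1.1)
  RZ' : (u'.B : ℝ) * X.c.r j'.1.1 ≤ Z * (u.B * X.c.r j.1.1)

lemma NC.symm (h : NC X Z u u' j j' g x x') : NC X Z u' u j' j g x' x :=
  ⟨h.hg, h.hw', h.hw, h.xZ', h.xZ, h.RZ', h.RZ⟩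

/-- the geometry of two comparable pieces with a common point -/
theorem node_geo (h : NDt X.par (w X.ψ) X.c.t u τ) (h' : NDt X.par (w X.ψ) X.c.t u' τ')
    (m1 : j.1.1 ∈ τ.items) (m2 : j'.1.1 ∈ τ'.items) (s1 : j.1.1 ∈ X.S') (s2 : j'.1.1 ∈ X.S')
    (hC : NC X Z u u' j j' g x x') (p1 : Pt X u j y z a) (p2 : Pt X u' j' y z' a') :
    Geo Z 1 X.c.γ (X.c.r j.1.1) (X.c.r j'.1.1) u.B u'.B a a' x x' := by
  have hB : (0 : ℝ) < u.B := by exact_mod_cast h.B_pos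
  have hB' : (0 : ℝ) < u'.B := by exact_mod_cast h'.B_pos
  have w1 : 0 < j.1.1 / u.A := Nat.pos_of_ne_zero (h.div_ne m1)
  have w2 : 0 < j'.1.1 / u'.A := Nat.pos_of_ne_zero (h'.div_ne m2)
  have hx : 0 < x := Nat.pos_of_ne_zero fun h0 => by
    have := hC.hw; rw [h0, mul_zero] at this; omega
  have hx' : 0 < x' := Nat.pos_of_ne_zero fun h0 => by
    have := hC.hw'; rw [h0, mul_zero] at this; omega
  exact ⟨h.B_pos, h'.B_pos, ⟨hx, hx', hC.xZ, hC.xZ', mul_pos hB (X.rpos s1), mul_pos hB' (X.rpos s2),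
    hC.RZ, hC.RZ'⟩, zero_le_one, ov_of_pt hC.hg hC.hw hC.hw' p1.hz p2.hz p1.zr p2.zr⟩

variable {σ σ' : ℚ}

/-- own labels of two comparable pieces with a common point have one exact centre -/
theorem node_rel (h : NDt X.par (w X.ψ) X.c.t u τ) (h' : NDt X.par (w X.ψ) X.c.t u' τ')
    (m1 : j.1.1 ∈ τ.items) (m2 : j'.1.1 ∈ τ'.items) (s1 : j.1.1 ∈ X.S') (s2 : j'.1.1 ∈ X.S')
    (hC : NC X Z u u' j j' g x x') (p1 : Pt X u j y z a) (p2 : Pt X u' j' y z' a')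
    (hs : Sm Z 1 (u.B * X.c.r j.1.1)) (hs' : Sm Z 1 (u'.B * X.c.r j'.1.1))
    (l1 : lab0 X.c.γ (X.c.r j.1.1) u.B = some σ) (l2 : lab0 X.c.γ (X.c.r j'.1.1) u'.B = some σ') :
    Rl u.B u'.B a a' x x' σ σ' :=
  lab_rel (node_geo h h' m1 m2 s1 s2 hC p1 p2) hs hs' l1 l2

/-- one exact centre ==> one index (two nodes of one circle) -/
theorem node_ix (h : NDt X.par (w X.ψ) X.c.t u τ) (h' : NDt X.par (w X.ψ) X.c.t u' τ')
    (hT : u.A * u.B = u'.A * u'.B) (m1 : j.1.1 ∈ τ.items) (m2 : j'.1.1 ∈ τ'.items)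
    (hC : NC X Z u u' j j' g x x') (p1 : Pt X u j y z a) (p2 : Pt X u' j' y z' a') {p p' : ℕ}
    (hr : Rl u.B u'.B a a' x x' σ σ') :
    X.c.wp.ix X.c.γ p j.1.1 (some σ) z = X.c.wp.ix X.c.γ p' j'.1.1 (some σ') z' := by
  have w1 : 0 < j.1.1 / u.A := Nat.pos_of_ne_zero (h.div_ne m1)
  have w2 : 0 < j'.1.1 / u'.A := Nat.pos_of_ne_zero (h'.div_ne m2)
  have hx : 0 < x := Nat.pos_of_ne_zero fun h0 => by
    have := hC.hw; rw [h0, mul_zero] at this; omega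
  have hx' : 0 < x' := Nat.pos_of_ne_zero fun h0 => by
    have := hC.hw'; rw [h0, mul_zero] at this; omega
  exact ix_of_rel X.c.wp (A_pos h) (A_pos h') h.B_pos hC.hg hx hx' hC.hw hC.hw' (mul_div h m1)
    (mul_div h' m2) hT p1.hz p2.hz hr

/-- **the mate of an own label has an own label with the same index, or the label is in its zone** -/
theorem node_mate (h : NDt X.par (w X.ψ) X.c.t u τ) (h' : NDt X.par (w X.ψ) X.c.t u' τ')
    (hT : u.A * u.B = u'.A * u'.B) (m1 : j.1.1 ∈ τ.items) (m2 : j'.1.1 ∈ τ'.items)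
    (s1 : j.1.1 ∈ X.S') (s2 : j'.1.1 ∈ X.S')
    (hC : NC X Z u u' j j' g x x') (p1 : Pt X u j y z a) (p2 : Pt X u' j' y z' a')
    (hs' : Sm Z 1 (u'.B * X.c.r j'.1.1)) (l1 : lab0 X.c.γ (X.c.r j.1.1) u.B = some σ) {p p' : ℕ} :
    (∃ σ', lab0 X.c.γ (X.c.r j'.1.1) u'.B = some σ' ∧ Rl u.B u'.B a a' x x' σ σ' ∧
      X.c.wp.ix X.c.γ p j.1.1 (some σ) z = X.c.wp.ix X.c.γ p' j'.1.1 (some σ') z') ∨
      Zl Z X.c.γ (X.c.r j.1.1) u.B σ := by
  rcases lab_mate (node_geo h h' m1 m2 s1 s2 hC p1 p2) hs' l1 with ⟨σ', h1, h2⟩ | h1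
  · exact Or.inl ⟨σ', h1, h2, node_ix h h' hT m1 m2 hC p1 p2 h2⟩
  · exact Or.inr h1

/-! ### the indices of `TYP_9` -/

open Crest.Agent.R4P.TYP9 in
/-- **one exact centre ==> one index `ixp`** -/
theorem ixp_rel (h : NDt X.par (w X.ψ) X.c.t u τ) (h' : NDt X.par (w X.ψ) X.c.t u' τ')
    (m1 : j.1.1 ∈ τ.items) (m2 : j'.1.1 ∈ τ'.items)
    (hC : NC X Z u u' j j' g x x') (p1 : Pt X u j y z a) (p2 : Pt X u' j' y z' a') {p p' : ℕ}
    {M M' : Finset ℕ} {T : ℕ} (hT : u.A * u.B = T) (hT' : u'.A * u'.B = T) (hM : Bm M = u.B)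
    (hM' : Bm M' = u'.B) (q1 : (u.B : ℝ) * (z - X.c.D.al j) < 1)
    (q2 : (u'.B : ℝ) * (z' - X.c.D.al j') < 1) (hr : Rl u.B u'.B a a' x x' σ σ') :
    ixp X.c p (some σ) M T y j = ixp X.c p' (some σ') M' T y j' := by
  have e1 : T / u.B = u.A := by
    rw [← hT]; exact Nat.mul_div_cancel _ h.B_pos
  have e2 : T / u'.B = u'.A := by
    rw [← hT']; exact Nat.mul_div_cancel _ h'.B_pos
  have hw1 : wm M T j.1.1 = j.1.1 / u.A := by unfold wm; rw [hM, e1]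
  have hw2 : wm M' T j'.1.1 = j'.1.1 / u'.A := by unfold wm; rw [hM', e2]
  rw [ixp_eq (a := a) (z := z) (by rw [hM]; exact h.B_pos) (by rw [hM, hw1]; exact p1.hz) p1.za
      (by rw [hM]; exact q1),
    ixp_eq (a := a') (z := z') (by rw [hM']; exact h'.B_pos) (by rw [hM', hw2]; exact p2.hz) p2.za
      (by rw [hM']; exact q2)]
  exact node_ix h h' (hT.trans hT'.symm) m1 m2 hC p1 p2 hr

end Crest.Agent.R4P.PosD33
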