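import Crest.Agent.R4P.StE_6

/-!
R4 (S0004) with powers, C1, helper6: **tags of the primes below the column**.

The tag of a piece at the column `p` is `PTag a z p q = ∏ s^(a s q)` over the primes `z < s < p`
(`a` = exponents: `1` on the missing ties, or the exponents of the item, or both). It depends neither on
the processed missing ties nor on the memory, hence it does not change at a tie; in the rest the prime
`p - 1` leaves the tag: the relabelling `rP` (a map of the types), no event.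

* `PTag`, `PTag_pred`, `PTag_le`;  `rP`, `rP_mkT`.
* any rule: `SEP` (static event up to `rP`), **`rest_tpP`, `rest_sameP`, `rest_evP`, `rest_PokP`**.
* **`RP Z a`** : game label, tag iff it is sparse; `SEP_RP` (`DenE`, `AccE`, `TagP`), `ME_RP` (`Kind`, or
  the label stays and its denominator is divided by `p`), rates `rest_RP`.
-/

set_option autoImplicit false
set_option linter.unusedSectionVars false
set_option linter.unusedVariables false
open MeasureTheory Filter Set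

namespace Crest.Agent.R4P.StF6

open Crest.Agent.R4P.Cnt588 Crest.Agent.R4P.Item758 Crest.Agent.R4P.W363
open Crest.Agent.R4P.Data758
open Crest.Agent.R4P.Bld532 (NS All NodeOk Bk)
open Crest.Agent.R4P.WalkIT579 (tp isL)
open Crest.Agent.R4P.StratN36 (ex)
open Crest.Agent.R4P.Step588 Crest.Agent.R4P.RseSt23
open Crest.Agent.R4P.DTp26 Crest.Agent.R4P.DTm407
open Crest.Agent.R4P.TYI47 Crest.Agent.R4P.TYJ47 Crest.Agent.R4P.TYK47
open Crest.Agent.R4P.TYP9 Crest.Agent.R4P.RsT47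
open Crest.Agent.R4P.StM6 Crest.Agent.R4P.StM246 Crest.Agent.R4P.StE6
open Crest.Agent.R4P.StB21 (bt TH LvF)

-- product of the C-steps of a stage
variable {Tc : ℕ}

/-! ### tags -/

section tag
variable {a : ℕ → ℕ → ℕ} {z z' : ℝ} {p q n : ℕ}

open Classical in
/-- **tag** of the item `q` at the column `p` : primes `z < s < p` with the exponents `a s q` -/
noncomputable def PTag (a : ℕ → ℕ → ℕ) (z : ℝ) (p q : ℕ) : ℕ :=
  ∏ s ∈ (Finset.range p).filter (fun s : ℕ => s.Prime ∧ z < (s : ℝ)), s ^ a s q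

lemma PTag_pos : 0 < PTag a z p q := by
  classical
  unfold PTag
  exact Finset.prod_pos fun s hs => pow_pos (Finset.mem_filter.1 hs).2.1.pos _

lemma PTag_not_dvd {l : ℕ} (hl : l.Prime) (h : p ≤ l ∨ (l : ℝ) ≤ z) : ¬ l ∣ PTag a z p q := by
  classical
  intro hd
  unfold PTag at hd
  obtain ⟨s, hs, h1⟩ := hl.prime.exists_mem_finset_dvd hd
  obtain ⟨h2, h3, h4⟩ := Finset.mem_filter.1 hs
  have h5 : l ∣ s := hl.dvd_of_dvd_pow h1
  have h6 : l = s := (Nat.prime_dvd_prime_iff_eq hl h3).1 h5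
  subst h6
  rcases h with h | h
  · exact absurd (Finset.mem_range.1 h2) (not_lt.2 h)
  · exact absurd h4 (not_lt.2 h)

/-- a tag without the prime `l` -/
lemma ordC_of_not {l m : ℕ} (h : ¬ l ∣ m) : ordCompl[l] m = m := by
  rw [Nat.factorization_eq_zero_of_not_dvd h, pow_zero, Nat.div_one]

/-- **the prime `p - 1` leaves the tag** in the rest -/
theorem PTag_pred (hp : 0 < p) : ordCompl[p - 1] (PTag a z p q) = PTag a z (p - 1) q := by
  classical
  have hr : Finset.range p = insert (p - 1) (Finset.range (p - 1)) := by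
    rw [← Finset.range_add_one, Nat.sub_add_cancel hp]
  by_cases h : (p - 1).Prime ∧ z < ((p - 1 : ℕ) : ℝ)
  · have e : PTag a z p q = (p - 1) ^ a (p - 1) q * PTag a z (p - 1) q := by
      unfold PTag
      rw [hr, Finset.filter_insert, if_pos h, Finset.prod_insert]
      simp
    rw [e, Nat.ordCompl_mul, Nat.ordCompl_self_pow h.1, one_mul]
    exact ordC_of_not (PTag_not_dvd h.1 (Or.inl le_rfl))
  · have e : PTag a z p q = PTag a z (p - 1) q := by
      unfold PTag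
      rw [hr, Finset.filter_insert, if_neg h]
    rw [e]
    by_cases h1 : (p - 1).Prime
    · exact ordC_of_not (PTag_not_dvd h1 (Or.inl le_rfl))
    · exact Nat.ordCompl_of_not_prime _ _ h1

/-- a tag which is not `1` has a prime -/
lemma PTag_ne (h : PTag a z p q ≠ 1) : ∃ s : ℕ, s.Prime ∧ s < p ∧ z < (s : ℝ) ∧ 0 < a s q := by
  classical
  by_contra hc
  push Not at hc
  apply h
  unfold PTag
  refine Finset.prod_eq_one fun s hs => ?_
  obtain ⟨h1, h2, h3⟩ := Finset.mem_filter.1 hs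
  have h4 := hc s h2 (Finset.mem_range.1 h1) h3
  rw [Nat.le_zero.1 h4, pow_zero]

/-- **equal tags have the same exponents** -/
lemma PTag_fac {l : ℕ} (hl : l.Prime) (h1 : l < p) (h2 : z < (l : ℝ)) :
    (PTag a z p q).factorization l = a l q := by
  classical
  unfold PTag
  rw [Nat.factorization_prod fun s hs => (pow_pos (Finset.mem_filter.1 hs).2.1.pos _).ne']
  rw [Finset.sum_apply']
  rw [Finset.sum_eq_single l]
  · rw [Nat.Prime.factorization_pow hl]; simp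
  · intro s hs hsl
    obtain ⟨-, h3, -⟩ := Finset.mem_filter.1 hs
    rw [Nat.Prime.factorization_pow h3]
    simp [hsl]
  · intro h
    exact absurd (Finset.mem_filter.2 ⟨Finset.mem_range.2 h1, hl, h2⟩) h

/-- a bound of the tags -/
noncomputable def KP (a : ℕ → ℕ → ℕ) (S : Finset ℕ) (n : ℕ) : ℕ := S.sup fun q => PTag a (-1) n q

lemma PTag_mono (hp : p ≤ n) : PTag a z p q ≤ PTag a (-1) n q := by
  classical
  unfold PTag
  refine Finset.prod_le_prod_of_subset_of_one_le' (fun s hs => ?_) fun s hs _ =>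
    Nat.one_le_iff_ne_zero.2 (pow_pos (Finset.mem_filter.1 hs).2.1.pos _).ne'
  obtain ⟨h1, h2, h3⟩ := Finset.mem_filter.1 hs
  refine Finset.mem_filter.2 ⟨Finset.mem_range.2 ((Finset.mem_range.1 h1).trans_le hp), h2, ?_⟩
  have : (0 : ℝ) ≤ s := Nat.cast_nonneg s
  linarith

lemma PTag_le {S : Finset ℕ} (hq : q ∈ S) (hp : p ≤ n) : PTag a z p q ≤ KP a S n :=
  (PTag_mono hp).trans (Finset.le_sup (f := fun q => PTag a (-1) n q) hq)

lemma one_le_KP {S : Finset ℕ} (hq : q ∈ S) : 1 ≤ KP a S n :=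
  le_trans PTag_pos (Finset.le_sup (f := fun q => PTag a (-1) n q) hq)

end tag

/-! ### the relabelling of the rest -/

section map
variable {c : Cf} {n p : ℕ}

/-- **relabelling of the rest**: coarsening of the cells, the prime `p - 1` leaves the tag -/
noncomputable def rP (c : Cf) (N K p : ℕ) (z : Ty N K) : Ty N K :=
  ((rU c N K p z).1, clp K (ordCompl[p - 1] (z.2.1 : ℕ)), z.2.2)

lemma rU_snd (N K : ℕ) (z : Ty N K) : (rU c N K p z).2 = z.2 := by
  unfold rU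
  split_ifs <;> rfl

lemma rP_mkT (hd : c.wp.dep (p - 1) ≤ c.wp.dep p) (hp : p ≤ n) {K : ℕ} (s : Option ℚ)
    (M : Finset ℕ) (T : ℕ) (x : ℝ) (j : c.Lam) {g : ℕ} (hg : g ≤ K) :
    mkT (Nix c n) K (ixp c (p - 1) s M T x j) (ordCompl[p - 1] g) =
      rP c (Nix c n) K p (mkT (Nix c n) K (ixp c p s M T x j) g) := by
  have h := rU_mkT hd hp K s M T x j g
  have e : ((mkT (Nix c n) K (ixp c p s M T x j) g).2.1 : ℕ) = g := by
    show min g K = g
    exact min_eq_left hg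
  unfold rP
  rw [← h, e]
  rfl

variable {R : Rule c}

/-- **static event** up to the relabelling `rP` -/
def SEP (R : Rule c) (p : ℕ) (M : Finset ℕ) (T : ℕ) (x : ℝ) (j : c.Lam) : Prop :=
  R.lb (p - 1) M x j ≠ R.lb p M x j ∨ R.tg (p - 1) M T x j ≠ ordCompl[p - 1] (R.tg p M T x j)

/-- **the type below** -/
theorem rest_tpP (hd : c.wp.dep (p - 1) ≤ c.wp.dep p) (hp : p ≤ n) {m : Me} {x : ℝ}
    {j : c.Lam} (hm : pm c.t (p - 1) m j.1.1 = pm c.t p m j.1.1)
    (hg : R.tg p (pm c.t p m j.1.1) m.2 x j ≤ R.K) (h : ¬ SEP R p (pm c.t p m j.1.1) m.2 x j) :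
    R.tp n (p - 1) m x j = (R.tp n p m x j).map (rP c (Nix c n) R.K p) := by
  unfold SEP at h
  push Not at h
  obtain ⟨h1, h2⟩ := h
  unfold Rule.tp Rule.it
  rw [hm, h1, h2]
  show some _ = some _
  congr 1
  exact rP_mkT hd hp _ _ _ _ _ hg

end map

/-! ### contexts -/

section ctx
open Crest.Agent.R4P.Skel189 Crest.Agent.R4P.Frame758
open Crest.Agent.R4.Soft104 Crest.Agent.R4.Fam464
open Crest.Agent.R4P.StratX36 Crest.Agent.R4P.TopX36
open Crest.Agent.R4P.GWa343 Crest.Agent.R4P.GWb343 Crest.Agent.R4P.GWc343 Crest.Agent.R4P.GWf343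
open Crest.Agent.R4P.GWg343 (FX ctx_BI)
open Crest.Agent.R4P.TrR343
open Crest.Agent.R4P.Walk560 (DT WrN)

variable {N : Skel189.Num} {γ : ℝ} {p0 P₀ : ℕ} {X : Ctx N γ p0 P₀} {Q : NS → IT → Prop}
  {C : ℝ} {p : ℕ} {b : Me × List (DT X.c.Lam (LbX X))} {Z : ℕ → ℝ}

/-- **(REST)** without static event (up to `rP`) the type at `p - 1` is the image of the type at `p` -/
theorem rest_sameP (hQ : ∀ u τ, Q u τ → NDt X.par (w X.ψ) X.c.t u τ) {R : Rule X.c}
    (h : InvM X Q C p b) (hp : p ≠ 0) (hd : X.c.wp.dep (p - 1) ≤ X.c.wp.dep p) {j : X.c.Lam}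
    {x : ℝ} (hj : jv (bN p b.2) j x ≠ 0) (hg : ∀ M T, R.tg p M T x j ≤ R.K)
    (hS : ¬ SEP R p (pm X.c.t p b.1 j.1.1) b.1.2 x j) :
    R.tp (Skel189.top X.S) (p - 1) b.1 x j =
      (R.tp (Skel189.top X.S) p b.1 x j).map (rP X.c (Nix X.c (Skel189.top X.S)) R.K p) := by
  obtain ⟨h1, h2⟩ := rest_pmX hQ h hp hj
  exact rest_tpP hd h2 h1 (hg _ _) hS

section game
open Crest.Agent.R4P.RXm55 Crest.Agent.R4P.RXm55.RXm Crest.Agent.R4P.DTn407
open Crest.Agent.R4P.RGp25 Crest.Agent.R4P.RGd25 Crest.Agent.R4P.Prc49 Crest.Agent.R4P.RXs343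
open Crest.Agent.R4P.RSys343 Crest.Agent.R4P.GMer27 Crest.Agent.R4P.GCol27 Crest.Agent.R4P.MSi343
open Crest.Agent.R4P.MSm25 Crest.Agent.R4P.RGf25

variable {R : Rule X.c} {spc : ℕ → Me × List (DT X.c.Lam (LbX X)) →
    Ty (Nix X.c (Skel189.top X.S)) R.K → ℝ → Prop}
  {act : ℕ → Me × List (DT X.c.Lam (LbX X)) → Ty (Nix X.c (Skel189.top X.S)) R.K → ℝ → LbX X}
  {H : TYp (rhoX X) (TX X R spc act) (InvM X Q C)} {hNo : NoOut (TX X R spc act) (InvM X Q C)}
  {U : RBm (rxm H)}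

/-- **moved content of the rest: only static events** (relabelling `rP`) -/
theorem rest_evP (hQ : ∀ u τ, Q u τ → NDt X.par (w X.ψ) X.c.t u τ) (h : InvM X Q C p b)
    (hp : p ≠ 0) (hd : X.c.wp.dep (p - 1) ≤ X.c.wp.dep p)
    (hg : p ≤ Skel189.top X.S → ∀ M T x j, R.tg p M T x j ≤ R.K) {i : X.c.Lam × Bool} {x : ℝ}
    {z : Ty (Nix X.c (Skel189.top X.S)) R.K} (hv : (pmd H hNo U).vN p b i x ≠ 0)
    (hk : (pmd H hNo U).kO p b x i = some z)
    (hk' : (pmd H hNo U).kN p b x i ≠ some (rP X.c (Nix X.c (Skel189.top X.S)) R.K p z)) :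
    i.2 = true ∧ jv (bN p b.2) i.1 x ≠ 0 ∧ SEP R p (pm X.c.t p b.1 i.1.1.1) b.1.2 x i.1 := by
  obtain ⟨j, t⟩ := i
  cases t
  · exact absurd rfl hv
  · have hj : jv (bN p b.2) j x ≠ 0 := hv
    refine ⟨rfl, hj, ?_⟩
    by_contra hS
    apply hk'
    have e := rest_sameP hQ (R := R) h hp hd hj
      (fun M T => hg (rest_pmX hQ h hp hj).2 M T x j) hS
    have e2 : R.tp (Skel189.top X.S) p b.1 x j = some z := hk
    show R.tp (Skel189.top X.S) (p - 1) b.1 x j = _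
    rw [e, e2]
    rfl

end game

end ctx

/-! ### the rule -/

section rule
variable {c : Cf} {n p q : ℕ} {Z : ℕ → ℝ} {a : ℕ → ℕ → ℕ} {M : Finset ℕ}

open Classical in
/-- tag of an item with the label `s` : it has a tag iff the label is sparse -/
noncomputable def tagP (c : Cf) (Z : ℕ → ℝ) (a : ℕ → ℕ → ℕ) (p : ℕ) (s : Option ℚ) (M : Finset ℕ)
    (q : ℕ) : ℕ :=
  if h : ∃ κ : ℚ, s = some κ ∧ ¬ dense (c.wp.thr p) (Bm M) κ then
    PTag a (Z (((Bm M : ℕ) : ℚ) * h.choose).den) p q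
  else 1

lemma tagP_sparse {s : Option ℚ} {κ : ℚ} (h : s = some κ) (hd : ¬ dense (c.wp.thr p) (Bm M) κ) :
    tagP c Z a p s M q = PTag a (Z (((Bm M : ℕ) : ℚ) * κ).den) p q := by
  have hex : ∃ κ : ℚ, s = some κ ∧ ¬ dense (c.wp.thr p) (Bm M) κ := ⟨κ, h, hd⟩
  unfold tagP
  rw [dif_pos hex]
  have e : hex.choose = κ := Option.some.inj (hex.choose_spec.1.symm.trans h)
  rw [e]

lemma tagP_dense {s : Option ℚ} (h : ∀ κ : ℚ, s = some κ → dense (c.wp.thr p) (Bm M) κ) :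
    tagP c Z a p s M q = 1 := by
  unfold tagP
  rw [dif_neg]
  rintro ⟨κ, h1, h2⟩
  exact h2 (h κ h1)

lemma tagP_none : tagP c Z a p none M q = 1 := tagP_dense fun κ h => absurd h (by simp)

lemma tagP_le {S : Finset ℕ} (hq : q ∈ S) (hp : p ≤ n) (s : Option ℚ) :
    tagP c Z a p s M q ≤ KP a S n := by
  unfold tagP
  split_ifs
  · exact PTag_le hq hp
  · exact one_le_KP hq

variable (c) in
/-- **the rule**: game label; tag of the primes below the column iff the game label is sparse -/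
noncomputable def RP (Z : ℕ → ℝ) (a : ℕ → ℕ → ℕ) (n : ℕ) : Rule c :=
  RC c (gr c) (fun p M q => tagP c Z a p (gr c p M q) M q) (KP a c.S n)

lemma RP_le {p : ℕ} (hp : p ≤ n) (M : Finset ℕ) (T : ℕ) (x : ℝ) (j : c.Lam) :
    (RP c Z a n).tg p M T x j ≤ (RP c Z a n).K :=
  tagP_le (Cf.mem_S j) hp _

/-- **tag event**: the label stays, it passes from dense to sparse, and the tag is not `1` -/
structure TagP (c : Cf) (Z : ℕ → ℝ) (a : ℕ → ℕ → ℕ) (p q : ℕ) (κ : ℚ) : Prop where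
  up : glow c p q = some κ
  down : ghi c (p - 1) q = some κ
  pst : Pst c p (bl c p q) κ
  big : ∃ l : ℕ, l.Prime ∧ l < p - 1 ∧ Z (((bl c p q : ℕ) : ℚ) * κ).den < (l : ℝ) ∧ 0 < a l q

/-- the tags of the rule at a static column -/
theorem tag_RP (hp : 0 < p) (hl : c.lam (p - 1) = 0) (hthr : c.wp.thr p ≤ c.wp.thr (p - 1))
    (he : ghi c (p - 1) q = glow c p q)
    (h : tagP c Z a (p - 1) (gr c (p - 1) (Mlo c p q) q) (Mlo c p q) q ≠
      ordCompl[p - 1] (tagP c Z a p (gr c p (Mlo c p q) q) (Mlo c p q) q)) :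
    ∃ κ, TagP c Z a p q κ := by
  have e1 : gr c (p - 1) (Mlo c p q) q = ghi c (p - 1) q := gr_dn hp hl
  have e2 : gr c p (Mlo c p q) q = glow c p q := gr_lo hp
  have eB : Bm (Mlo c p q) = bl c p q := Bm_lo hp
  have h1 : ordCompl[p - 1] 1 = 1 := by simp
  rw [e1, e2, he] at h
  rcases Option.eq_none_or_eq_some (glow c p q) with hg | ⟨κ, hg⟩
  · rw [hg, tagP_none, tagP_none, h1] at h
    exact absurd rfl h
  · rw [hg] at h
    have e : ∀ κ' : ℚ, some κ = some κ' → κ' = κ := fun κ' h => (Option.some.inj h).symm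
    by_cases hd : dense (c.wp.thr p) (Bm (Mlo c p q)) κ
    · have f1 : tagP c Z a p (some κ) (Mlo c p q) q = 1 :=
        tagP_dense fun κ' h' => by rw [e κ' h']; exact hd
      rw [f1, h1] at h
      by_cases hd' : dense (c.wp.thr (p - 1)) (Bm (Mlo c p q)) κ
      · exact absurd (tagP_dense fun κ' h' => by rw [e κ' h']; exact hd') h
      · rw [tagP_sparse rfl hd'] at h
        obtain ⟨l, k1, k2, k3, k4⟩ := PTag_ne h
        rw [eB] at hd hd' k3
        exact ⟨κ, hg, by rw [he, hg], ⟨hd, hd'⟩, l, k1, k2, k3, k4⟩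
    · have hd' : ¬ dense (c.wp.thr (p - 1)) (Bm (Mlo c p q)) κ := fun h' => hd (dense_anti h' hthr)
      rw [tagP_sparse rfl hd, tagP_sparse rfl hd', PTag_pred hp] at h
      exact absurd rfl h

/-- **(SEP, `RP`)** the static events of the rule -/
theorem SEP_RP (hO : c.t.Ok n) (hp : 0 < p) (hl : c.lam (p - 1) = 0)
    (hthr : c.wp.thr p ≤ c.wp.thr (p - 1)) {x : ℝ} {j : c.Lam}
    (hL' : c.wp.thr (p - 1) ≤ c.wpL.thr (c.lv j.1.1)) (h10 : c.wp.thr (p - 1) ≤ 1 / 10)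
    (h0 : 0 < c.r j.1.1) (hT : TLl c.wp.thr (c.r j.1.1) (ms c (p - 1) j.1.1)) {n' : ℕ}
    (h : SEP (RP c Z a n') p (Mlo c p j.1.1) Tc x j) :
    (∃ κ, DenE c p j.1.1 κ) ∨ (∃ κ, AccE c p j.1.1 κ) ∨ ∃ κ, TagP c Z a p j.1.1 κ := by
  have e1 : (RP c Z a n').lb (p - 1) (Mlo c p j.1.1) x j = ghi c (p - 1) j.1.1 := gr_dn hp hl
  have e2 : (RP c Z a n').lb p (Mlo c p j.1.1) x j = glow c p j.1.1 := gr_lo hp
  unfold SEP at h
  rw [e1, e2] at h
  by_cases h1 : ghi c (p - 1) j.1.1 = glow c p j.1.1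
  · rcases h with h | h
    · exact absurd h1 h
    · exact Or.inr (Or.inr (tag_RP hp hl hthr h1 h))
  · rcases glow_ev hO hl hthr hL' h10 h0 hT h1 with h2 | h2
    · exact Or.inl h2
    · exact Or.inr (Or.inl h2)

/-- **den drop at an own missing tie `p`**: the game label stays, its denominator is divided by `p` -/
structure DrpE (c : Cf) (p q : ℕ) (κ : ℚ) : Prop where
  up : ghi c p q = some κ
  down : glow c p q = some κ
  den : ((((ms c p q).prod : ℕ) : ℚ) * κ).den = p * (((bl c p q : ℕ) : ℚ) * κ).den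
  sps : ¬ dense (c.wp.thr p) (ms c p q).prod κ ∨ ¬ dense (c.wp.thr p) (bl c p q) κ

/-- **the tag does not change at an own missing tie** unless the denominator is divided by `p` -/
theorem tagM_RP (hO : c.t.Ok n) (hp : p.Prime) (hm : p ∈ c.t.mt q) (hl : c.lam p = 0)
    (he : glow c p q = ghi c p q)
    (h : tagP c Z a p (gr c p (Mlo c p q) q) (Mlo c p q) q ≠
      tagP c Z a p (gr c p (Mhi c p q) q) (Mhi c p q) q) : ∃ κ, DrpE c p q κ := by
  have e1 : gr c p (Mhi c p q) q = ghi c p q := gr_hi hl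
  have e2 : gr c p (Mlo c p q) q = glow c p q := gr_lo hp.pos
  rw [e1, e2, he] at h
  have eB : Bm (Mlo c p q) = bl c p q := Bm_lo hp.pos
  have eB' : Bm (Mhi c p q) = (ms c p q).prod := Bm_hi
  have ec : ms c (p - 1) q = p :: ms c p q := lst_pred_cons hp.pos hm
  have eb : bl c p q = p * (ms c p q).prod := by
    unfold bl
    rw [ec, List.prod_cons]
  rcases Option.eq_none_or_eq_some (ghi c p q) with hg | ⟨κ, hg⟩
  · rw [hg, tagP_none, tagP_none] at h
    exact absurd rfl h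
  · have e : ∀ κ' : ℚ, some κ = some κ' → κ' = κ := fun κ' h => (Option.some.inj h).symm
    rw [hg] at h
    rcases StM042.den_up hp (ms c p q).prod κ with h1 | h1
    · exfalso
      rw [← eb] at h1
      have hds : dense (c.wp.thr p) (Bm (Mhi c p q)) κ ↔ dense (c.wp.thr p) (Bm (Mlo c p q)) κ := by
        rw [eB, eB']
        unfold dense d5
        rw [h1]
      refine h ?_
      by_cases hd : dense (c.wp.thr p) (Bm (Mlo c p q)) κ
      · rw [tagP_dense fun κ' h' => by rw [e κ' h']; exact hd,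
          tagP_dense fun κ' h' => by rw [e κ' h']; exact hds.2 hd]
      · have hd' : ¬ dense (c.wp.thr p) (Bm (Mhi c p q)) κ := fun h' => hd (hds.1 h')
        rw [tagP_sparse rfl hd, tagP_sparse rfl hd', eB, eB', h1]
    · rw [← eb] at h1
      refine ⟨κ, hg, by rw [he, hg], h1, ?_⟩
      by_contra hc
      push Not at hc
      refine h ?_
      rw [tagP_dense fun κ' h' => by rw [e κ' h', eB]; exact hc.2,
        tagP_dense fun κ' h' => by rw [e κ' h', eB']; exact hc.1]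

/-- **(ME, `RP`)** the events of an own missing tie -/
theorem ME_RP (hO : c.t.Ok n) {x y : ℝ} {j : c.Lam} (hm : p ∈ c.t.mt j.1.1) (hl : c.lam p = 0)
    (hthin : ((ms c p j.1.1).prod : ℝ) * c.r j.1.1 ≤ c.wp.thr p) {n' : ℕ}
    (h : ME (RP c Z a n') p (Mhi c p j.1.1) (Mlo c p j.1.1) Tc x y j) :
    (glow c p j.1.1 ≠ ghi c p j.1.1 ∧
        StM142.Kind c.γ (c.r j.1.1) p (ms c p j.1.1) (ghi c p j.1.1) (glow c p j.1.1)) ∨
      ∃ κ, DrpE c p j.1.1 κ := by
  have hp := (BldF542.mt_lt c.t n hO j.1.1 p hm).1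
  have h' : ME (RC c (gr c) (fun p M q => tagP c Z a p (gr c p M q) M q) (KP a c.S n')) p
    (Mhi c p j.1.1) (Mlo c p j.1.1) Tc x y j := h
  rcases ME_RC hp.pos hl h' with h1 | ⟨h1, h2⟩
  · exact Or.inl ⟨h1, glow_kind hO hl hm hthin⟩
  · exact Or.inr (tagM_RP hO hp hm hl h1 h2)

end rule

/-! ### the rule in a context -/

section ctxr
open Crest.Agent.R4P.Skel189 Crest.Agent.R4P.Frame758
open Crest.Agent.R4.Soft104 Crest.Agent.R4.Fam464
open Crest.Agent.R4P.StratX36 Crest.Agent.R4P.TopX36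
open Crest.Agent.R4P.GWa343 Crest.Agent.R4P.GWb343 Crest.Agent.R4P.GWc343 Crest.Agent.R4P.GWf343
open Crest.Agent.R4P.GWg343 (FX ctx_BI)
open Crest.Agent.R4P.TrR343
open Crest.Agent.R4P.Walk560 (DT WrN)

variable {N : Skel189.Num} {γ : ℝ} {p0 P₀ : ℕ} {X : Ctx N γ p0 P₀} {Q : NS → IT → Prop}
  {C : ℝ} {p : ℕ} {b : Me × List (DT X.c.Lam (LbX X))} {Z : ℕ → ℝ} {a : ℕ → ℕ → ℕ}

variable (X) in
/-- **the rule of a context** -/
noncomputable abbrev RPX (Z : ℕ → ℝ) (a : ℕ → ℕ → ℕ) : Rule X.c := RP X.c Z a (Skel189.top X.S)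

/-- **(SEP, context)** -/
theorem ctx_SEP_RP (hT : TH X) (hR : All (Step588.RdOk X) ⟨Skel189.top X.S, 1, 1, 1⟩ X.c.t)
    (h10 : X.c.wp.thr (p - 1) ≤ 1 / 10) {j : X.c.Lam} {x : ℝ} {m : Me} (h : RestP X p m j.1.1)
    (hS : SEP (RPX X Z a) p (pm X.c.t p m j.1.1) Tc x j) :
    (∃ κ, DenE X.c p j.1.1 κ) ∨ (∃ κ, AccE X.c p j.1.1 κ) ∨ ∃ κ, TagP X.c Z a p j.1.1 κ := by
  rw [h.lo] at hS
  exact SEP_RP X.tOk h.pr (hT.lam _)
    (hT.anti _ _ (by have := h.lv0; have := h.lv; omega) (Nat.sub_le p 1))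
    (hT.leL _ _ h.lv0 (by have := h.lv; omega)) h10 (X.rpos h.al) (ctx_TLl hT hR h.al _) hS

/-- **(ME, context)** the events of the pieces of a tie: only N pieces, a label change or a den drop -/
theorem ctx_ME_RP (hT : TH X) (hR : All (Step588.RdOk X) ⟨Skel189.top X.S, 1, 1, 1⟩ X.c.t)
    {j : X.c.Lam} {x y : ℝ} {m : Me} (h : TieP X p m j x) (ha : j.1.1 ∈ X.S')
    (hM : ME (RPX X Z a) p (pm X.c.t p m j.1.1) (pm X.c.t p (tuM p m) j.1.1) Tc x y j) :
    p ∈ X.c.t.mt j.1.1 ∧ ex p j.1.1 = TYJ47.cnt p m.1 ∧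
      ((glow X.c p j.1.1 ≠ ghi X.c p j.1.1 ∧ StM142.Kind X.c.γ (X.c.r j.1.1) p (ms X.c p j.1.1)
          (ghi X.c p j.1.1) (glow X.c p j.1.1)) ∨ ∃ κ, DrpE X.c p j.1.1 κ) := by
  rcases h.side with ⟨-, h2⟩ | ⟨h1, h2, h3⟩
  · exact absurd hM (ME_P h2)
  · rw [h1, h.hi] at hM
    exact ⟨h2, h3, ME_RP X.tOk h2 (hT.lam _) (ctx_thin hT hR ha h2) hM⟩

section game
open Crest.Agent.R4P.RXm55 Crest.Agent.R4P.RXm55.RXm Crest.Agent.R4P.DTn407
open Crest.Agent.R4P.RGp25 Crest.Agent.R4P.RGd25 Crest.Agent.R4P.Prc49 Crest.Agent.R4P.RXs343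
open Crest.Agent.R4P.RSys343 Crest.Agent.R4P.GMer27 Crest.Agent.R4P.GCol27 Crest.Agent.R4P.MSi343
open Crest.Agent.R4P.MSm25 Crest.Agent.R4P.RGf25

open Classical in
/-- **rate of a static event** -/
noncomputable def rEP (c : Cf) (Z : ℕ → ℝ) (a : ℕ → ℕ → ℕ) (p q : ℕ) : ℝ :=
  if (∃ κ, DenE c p q κ) ∨ (∃ κ, AccE c p q κ) ∨ ∃ κ, TagP c Z a p q κ then 14 else 0

lemma rEP_nonneg (c : Cf) (Z : ℕ → ℝ) (a : ℕ → ℕ → ℕ) (p q : ℕ) : 0 ≤ rEP c Z a p q := by
  unfold rEP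
  split_ifs <;> norm_num

open Classical in
/-- **rate of an event of a tie** -/
noncomputable def rMP (c : Cf) (p q : ℕ) : ℝ :=
  if p ∈ c.t.mt q ∧ (glow c p q ≠ ghi c p q ∨ ∃ κ, DrpE c p q κ) then 14 else 0

lemma rMP_nonneg (c : Cf) (p q : ℕ) : 0 ≤ rMP c p q := by
  unfold rMP
  split_ifs <;> norm_num

variable {spc : ℕ → Me × List (DT X.c.Lam (LbX X)) →
    Ty (Nix X.c (Skel189.top X.S)) (RPX X Z a).K → ℝ → Prop}
  {act : ℕ → Me × List (DT X.c.Lam (LbX X)) → Ty (Nix X.c (Skel189.top X.S)) (RPX X Z a).K →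
    ℝ → LbX X}
  {H : TYp (rhoX X) (TX X (RPX X Z a) spc act) (InvM X Q C)}
  {hNo : NoOut (TX X (RPX X Z a) spc act) (InvM X Q C)} {U : RBm (rxm H)}

end game

end ctxr

end Crest.Agent.R4P.StF6
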