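import Crest.Agent.R4P.EvZ_33
import Crest.Agent.R4P.PosN_33
import Crest.Agent.R4P.StF_6
import Crest.Agent.R4P.SameIx_30

/-!
R4 (S0004) with powers, helper33: **two N pieces of one type at a tie** (node form of `EvM_33`, for the
typed bundles of `RsT_47`, in-member or cross-member).

* `exact_two`  : two labels (of any columns) with one index: exact centres on the common circle;
* `Lbl`, `ghi_lbl`, `sla_lbl` : the game labels and the sleeping labels are labels of some column;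
* `NPc`        : **the data of an N piece of a tie**, `np_of` : every N piece of the invariant has them;
* `NPc.rel`    : one index above: `Rl` on the new circle; `NPc.geo` : the geometry;
* `tie_pair`   : two comparable N pieces with one index above, the mate has smaller rank: one index below,
  or `EM` / `ED` of the payer, or both are dead.
-/

set_option autoImplicit false
set_option linter.unusedSectionVars false
set_option linter.unusedVariables false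
open MeasureTheory Filter Set

namespace Crest.Agent.R4P.EvT33

open Crest.Agent.R4P.Cnt588 Crest.Agent.R4P.Item758 Crest.Agent.R4P.W363
open Crest.Agent.R4.W363 (off cell cell_eq_iff off_circle grd_close snapped_eq)
open Crest.Agent.R4P.Data758 Crest.Agent.R4P.WPex189
open Crest.Agent.R4P.Bld532 (NS All NodeOk Bk)
open Crest.Agent.R4P.WalkIT579 (tp isL toDT_top toDT_leaf)
open Crest.Agent.R4P.StratN36 (ex)
open Crest.Agent.R4P.Step588 Crest.Agent.R4P.RseSt23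
open Crest.Agent.R4P.DTp26 Crest.Agent.R4P.DTm407
open Crest.Agent.R4P.TYI47 Crest.Agent.R4P.TYJ47 Crest.Agent.R4P.TYK47
open Crest.Agent.R4P.TYP9 Crest.Agent.R4P.RsT47
open Crest.Agent.R4P.Walk560 (DT WrN)
open Crest.Agent.R4P.Skel189 Crest.Agent.R4P.Frame758
open Crest.Agent.R4.Soft104 Crest.Agent.R4.Fam464
open Crest.Agent.R4P.StratX36 Crest.Agent.R4P.TopX36
open Crest.Agent.R4P.GWa343 Crest.Agent.R4P.GWb343 Crest.Agent.R4P.GWc343 Crest.Agent.R4P.GWf343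
open Crest.Agent.R4P.TrR343
open Crest.Agent.R4P.StM6 Crest.Agent.R4P.StM246 Crest.Agent.R4P.StE6
open Crest.Agent.R4P.PosD33 Crest.Agent.R4P.EvM33
open Crest.Agent.R4P.StB21 (TH)
open Crest.Agent.R4.HVW560 (cof)

/-! ### exact centres of two labels -/

/-- `σ` is a label of the item `q` at some column `≤ n` -/
def Lbl (P : WP) (γ : ℝ) (r : ℕ → ℝ) (t : IT) (n q : ℕ) (σ : ℚ) : Prop :=
  ∃ p ≤ n, LbAt P γ r t p q σ

/-- **same index, two labels of any columns: exact centres on the common circle** -/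
theorem exact_two {wp : WP} {γ : ℝ} {r : ℕ → ℝ} {t : IT} {S : Finset ℕ} {n K : ℕ}
    (h : Fine wp γ r t S n K) {q q' : ℕ} (hq : q ∈ S) (hq' : q' ∈ S)
    (hq0 : 0 < q) (hq0' : 0 < q') {σ σ' : ℚ} (hσ : Lbl wp γ r t n q σ)
    (hσ' : Lbl wp γ r t n q' σ') {A B W A' B' W' : ℕ} (hA : 0 < A) (hB : 0 < B)
    (hA' : 0 < A') (hW : 0 < W) (hW' : 0 < W') (e : q = A * W) (e' : q' = A' * W')
    (hAB : A * B = A' * B') (hBK : B ≤ K * A') {y z z' : ℝ} {a a' : ℤ}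
    (hz : (B:ℝ) * z = W * y - B * γ - a) (hz' : (B':ℝ) * z' = W' * y - B' * γ - a')
    (h1 : |z| ≤ r q) (h2 : |z'| ≤ r q') {p₁ p₂ : ℕ}
    (hix : wp.ix γ p₁ q (some σ) z = wp.ix γ p₂ q' (some σ') z') :
    ((a:ℝ) + ((B * σ : ℚ) : ℝ)) * (cof W' W : ℕ) = (a' + ((B' * σ' : ℚ) : ℝ)) * (cof W W' : ℕ) := by
  obtain ⟨p, hp, hσ⟩ := hσ
  obtain ⟨p', hp', hσ'⟩ := hσ'
  have hWr : (0:ℝ) < W := by exact_mod_cast hW
  have hWr' : (0:ℝ) < W' := by exact_mod_cast hW'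
  have hABp : (0:ℝ) < ((A * B : ℕ) : ℝ) := by exact_mod_cast Nat.mul_pos hA hB
  have h3 : cell (grd wp.δ₀ wp.n₁) (off γ σ q z) = cell (grd wp.δ₀ wp.n₁) (off γ σ' q' z') :=
    congrArg Prod.snd hix
  have h4 := grd_close h.δ0 (h.offB p hp q hq hq0 σ hσ z h1)
    (h.offB p' hp' q' hq' hq0' σ' hσ' z' h2) h3
  have f1 := off_circle (γ := γ) (c := σ) (z := z) hA hW e (B := B)
  have f2 := off_circle (γ := γ) (c := σ') (z := z') hA' hW' e' (B := B')
  rw [hz] at f1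
  rw [hz', ← hAB] at f2
  have g1 : ((A * B : ℕ) : ℝ) * off γ σ q z = y - ((a:ℝ) + ((B * σ : ℚ) : ℝ)) / W := by
    rw [f1]; push_cast; field_simp; ring
  have g2 : ((A * B : ℕ) : ℝ) * off γ σ' q' z' = y - ((a':ℝ) + ((B' * σ' : ℚ) : ℝ)) / W' := by
    rw [f2]; push_cast; field_simp; ring
  have h5 : |((a:ℝ) + ((B * σ : ℚ) : ℝ)) / W - (a' + ((B' * σ' : ℚ) : ℝ)) / W'| <
      ((A * B : ℕ) : ℝ) * wp.δ₀ := by
    have e1 : ((a:ℝ) + ((B * σ : ℚ) : ℝ)) / W - (a' + ((B' * σ' : ℚ) : ℝ)) / W' =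
        -(((A * B : ℕ) : ℝ) * (off γ σ q z - off γ σ' q' z')) := by
      rw [mul_sub, g1, g2]; ring
    rw [e1, abs_neg, abs_mul, abs_of_pos hABp]
    exact mul_lt_mul_of_pos_left h4 hABp
  have h6 := SameIx30.circle2 h hp hp' hq hq' hσ hσ' e e' hBK (B' := B')
  have h7 := snapped_eq (q := W) (r := W') hW hW' (σ := (B : ℚ) * σ) (τ := (B' : ℚ) * σ') (a := a)
    (a' := a') (δ := ((A * B : ℕ) : ℝ) * wp.δ₀) (by
      refine le_trans (le_of_eq ?_) h6
      push_cast; ring) h5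
  rw [div_eq_div_iff hWr.ne' hWr'.ne'] at h7
  have hg : (0:ℝ) < (W.gcd W' : ℕ) := by exact_mod_cast Nat.gcd_pos_of_pos_left _ hW
  have ew : (W:ℝ) = (W.gcd W' : ℕ) * (cof W W' : ℕ) := by
    exact_mod_cast (Crest.Agent.R4.AvgItem710.mul_cof).symm
  have ew' : (W':ℝ) = (W.gcd W' : ℕ) * (cof W' W : ℕ) := by
    exact_mod_cast (Crest.Agent.R4.AvgItem710.mul_cof').symm
  rw [ew, ew'] at h7
  apply mul_left_cancel₀ hg.ne'
  linarith

/-! ### the game labels are labels of some column -/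

/-- a sticky label of the list above `p` is the own label of a list above some `p' ≤ n` -/
lemma sl_col {γ ψ : ℝ} {M : Finset ℕ} {n : ℕ} (hM : ∀ x ∈ M, x ≤ n) {σ : ℚ} :
    ∀ (k p : ℕ), n - p ≤ k → p ≤ n → sl γ ψ (Crest.Agent.R4.W363.lst M p) = some σ →
      ∃ p' ≤ n, lab0 γ ψ (Crest.Agent.R4.W363.lst M p').prod = some σ := by
  intro k
  induction k with
  | zero =>
    intro p hk hp h
    have e : p = n := by omega
    rcases hL : Crest.Agent.R4.W363.lst M p with _ | ⟨s, L⟩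
    · rw [hL] at h
      refine ⟨p, hp, ?_⟩
      rw [hL]
      simpa [sl] using h
    · exfalso
      obtain ⟨-, h2, h3⟩ := lst_tail hL
      have := hM s h2
      omega
  | succ k ih =>
    intro p hk hp h
    rcases hL : Crest.Agent.R4.W363.lst M p with _ | ⟨s, L⟩
    · rw [hL] at h
      refine ⟨p, hp, ?_⟩
      rw [hL]
      simpa [sl] using h
    · obtain ⟨h1, h2, h3⟩ := lst_tail hL
      have hs := hM s h2
      rw [hL, sl_cons] at h
      rcases ho : lab0 γ ψ (s * L.prod) with _ | τ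
      · rw [ho, Option.none_or, h1] at h
        exact ih s (by omega) hs h
      · rw [ho, Option.some_or] at h
        refine ⟨p, hp, ?_⟩
        rw [hL, List.prod_cons, ho, h]

variable {c : Cf} {n p q : ℕ}

lemma sla_lbl (hO : c.t.Ok n) (hp : p ≤ n) {σ : ℚ}
    (h : sla c.γ (c.r q) (ms c p q) = some σ) : Lbl c.wp c.γ c.r c.t n q σ := by
  have h1 := (Crest.Agent.R4P.StM6.sla_some.1 h).1
  obtain ⟨p', h2, h3⟩ := sl_col (fun x hx => (BldF542.mt_lt c.t n hO q x hx).2.le) (n - p) p le_rfl hp h1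
  exact ⟨p', h2, Or.inr h3⟩

lemma ghi_lbl (hO : c.t.Ok n) (hp : p ≤ n) {σ : ℚ} (h : ghi c p q = some σ) :
    Lbl c.wp c.γ c.r c.t n q σ := by
  unfold ghi at h
  rcases gl_cases (c.st p q) (c.wp.thr p) c.γ (c.r q) (ms c p q) with ⟨κ, h1, -, h2⟩ | ⟨-, h2⟩
  · rw [h2] at h
    have e : κ = σ := Option.some.inj h
    subst e
    exact ⟨p, hp, stB_lbAt h1⟩
  · rw [h2] at h
    exact sla_lbl hO hp h

/-! ### N pieces of a tie -/

section ctx
variable {N : Skel189.Num} {γ : ℝ} {p0 P₀ : ℕ} {X : Ctx N γ p0 P₀} {Q : NS → IT → Prop} {C : ℝ}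

/-- **an N piece of the tie `p`** on the circle `T`, at the point `x` -/
structure NPc (X : Ctx N γ p0 P₀) (p T : ℕ) (x : ℝ) (j : X.c.Lam) (A B : ℕ) (a : ℤ) (z : ℝ) :
    Prop where
  A0 : 0 < A
  B0 : 0 < B
  eT : A * B = T
  dv : A * (j.1.1 / A) = j.1.1
  w0 : 0 < j.1.1 / A
  eB : B = (ms X.c p j.1.1).prod
  BK : B ≤ Kc X.S
  al : j.1.1 ∈ X.S'
  mis : p ∈ X.c.t.mt j.1.1
  hz : (B : ℝ) * z = ((j.1.1 / A : ℕ) : ℝ) * x - B * X.c.γ - a
  zr : |z| ≤ X.c.r j.1.1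
  za : X.c.D.al j ≤ z
  zb : z < X.c.D.be j
  arc : ((p * B : ℕ) : ℝ) * (z - X.c.D.al j) < 1
  ixu : ∀ s, ixp X.c p s (Mhi X.c p j.1.1) T x j = X.c.wp.ix X.c.γ p j.1.1 s z
  ixl : ∀ s, ixp X.c p s (Mlo X.c p j.1.1) (T * p) (p * x) j = X.c.wp.ix X.c.γ p j.1.1 s z

variable {p : ℕ} {b : Me × List (DT X.c.Lam (LbX X))} {j : X.c.Lam} {x : ℝ}

/-- **every N piece of the tie has the data** -/
theorem np_of (hQ : ∀ u τ, Q u τ → NDt X.par (w X.ψ) X.c.t u τ) (hd1 : X.c.d1 * Kc X.S ≤ 1)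
    (h : InvM X Q C p b) (hj : jv (bB p b.2) j x ≠ 0) (hN : ex p j.1.1 = TYJ47.cnt p b.1.1)
    (hm : p ∈ X.c.t.mt j.1.1) :
    ∃ A B a z, NPc X p b.1.2 x j A B a z := by
  have H := carX hQ
  have hT := tie_node hQ hd1 h hj
  rcases hT.side with ⟨-, h0⟩ | ⟨hlo, -, -⟩
  · exact absurd hN h0
  rcases jv_bB_node H h.mi hj with ⟨s, Sp, t₁, t₀, hs, h1⟩ | ⟨s, t₁, hs, h1⟩
  · have hn := hQ _ _ hs.1.rm.all.self
    have hp : p.Prime := prime_of_br hn.self.node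
    obtain ⟨hq, a, hom, h2, h3⟩ := ctx_supp hn h1
    have hB0 : 0 < s.B := Nat.pos_of_ne_zero hn.bk.sfB.ne_zero
    obtain ⟨z, k1, k2, k3, k4⟩ := Crest.Agent.R4P.DseKid23.pt_kid (u := s) hB0 (j := j) (W := j.1.1 / s.A)
      (y := x) (a := a) (by rw [Nat.cast_one, div_one]; exact h2)
      (by rw [Nat.cast_one, div_one]; exact h3)
    obtain ⟨hP, hNn⟩ := H.br hs
    -- the item is in the N child
    have hq0 : j.1.1 ∈ t₀.items := by
      rcases Finset.mem_union.1 hq with hq1 | hq0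
      · exfalso
        have hn1 := hQ _ _ hP.1.rm.all.self
        have h5 : ex p (s.A * p) ≤ ex p j.1.1 :=
          Crest.Agent.R4P.StratN36.ex_le (hn1.bk.pos _ hq1) (hn1.bk.dvd _ hq1)
        have hl : ¬ isL (IT.br p Sp t₁ t₀) := fun h => h
        have hx := hs.1.rm.exA hl rfl
        rw [ex_mul hp hn.bk.Apos, hx] at h5
        omega
      · exact hq0
    have hn0 := hQ _ _ hNn.1.rm.all.self
    have hwl := AddNode7.win_len hd1 hn0 (j := j) hq0
    have e4 : ((⟨p, s.c * p, s.A, s.B * p⟩ : NS).B : ℝ) = ((s.B * p : ℕ) : ℝ) := rfl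
    rw [e4, Nat.cast_one, div_one, ← mul_sub] at hwl
    have hBm : Bm (pm X.c.t p b.1 j.1.1) = s.B := hs.1.B_eq hQ X.tOk hq
    have hwm : wm (pm X.c.t p b.1 j.1.1) b.1.2 j.1.1 = j.1.1 / s.A := hs.1.w_eq hQ X.tOk hq
    have hBms : s.B = (ms X.c p j.1.1).prod := by
      rw [← hBm, hT.hi, Bm_hi]
    have hpr : (1 : ℝ) ≤ p := by exact_mod_cast hp.one_lt.le
    have hBr : (0 : ℝ) < s.B := by exact_mod_cast hB0
    have harc : ((p * s.B : ℕ) : ℝ) * (z - X.c.D.al j) < 1 := by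
      have e5 : ((p * s.B : ℕ) : ℝ) = ((s.B * p : ℕ) : ℝ) := by rw [mul_comm]
      rw [e5]
      refine lt_of_lt_of_le (mul_lt_mul_of_pos_left ?_ ?_) hwl
      · have : X.c.D.be j = X.c.bp j.1.1 (j.1.2 + 1) := rfl
        have h7 : X.c.D.al j = X.c.bp j.1.1 j.1.2 := rfl
        rw [this] at k4
        rw [h7]
        linarith
      · have : 0 < s.B * p := Nat.mul_pos hB0 hp.pos
        exact_mod_cast this
    have harc1 : (s.B : ℝ) * (z - X.c.D.al j) < 1 := by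
      refine lt_of_le_of_lt ?_ harc
      refine mul_le_mul_of_nonneg_right ?_ (sub_nonneg.2 k3)
      push_cast
      nlinarith
    have hS : j.1.1 ∈ X.S' := by
      by_contra hc
      exact hom (X.om_zero hc _ _)
    have hK : s.B ≤ Kc X.S := by
      have h1 := X.mp_le (q := j.1.1)
      rw [hn.self.mp _ hq] at h1
      have h2 : 0 < mp (IT.br p Sp t₁ t₀) j.1.1 := by
        rw [BldF542.mp_eq_prod _ s.n hn.self.ok]
        exact Finset.prod_pos fun l hl => (BldF542.mt_lt _ s.n hn.self.ok _ l hl).1.pos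
      exact (Nat.le_mul_of_pos_right _ h2).trans h1
    have hmlo : pm X.c.t p (tuM p b.1) j.1.1 = Mlo X.c p j.1.1 := hlo
    refine ⟨s.A, s.B, a, z, hn.bk.Apos, hB0, hs.1.T, Nat.mul_div_cancel' (hn.bk.dvd _ hq),
      Nat.div_pos (Nat.le_of_dvd (hn.bk.pos _ hq) (hn.bk.dvd _ hq)) hn.bk.Apos, hBms, hK, hS, hm, k1, k2, k3, k4, harc, fun σ => ?_,
      fun σ => ?_⟩
    · have e6 : Mhi X.c p j.1.1 = pm X.c.t p b.1 j.1.1 := hT.hi.symm
      rw [e6]
      exact ixp_eq (a := a) (z := z) (by rw [hBm]; exact hB0) (by rw [hBm, hwm]; exact k1) k3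
        (by rw [hBm]; exact harc1)
    · have h8 := hT.ix σ
      rw [hmlo] at h8
      have e7 : (tuM p b.1).2 = b.1.2 * p := rfl
      rw [e7] at h8
      rw [h8]
      exact ixp_eq (a := a) (z := z) (by rw [hBm]; exact hB0) (by rw [hBm, hwm]; exact k1) k3
        (by rw [hBm]; exact harc1)
  · exfalso
    have hn := hQ _ _ hs.1.rm.all.self
    have hp : p.Prime := prime_of_pl hn.self.node
    obtain ⟨hq, a, -, h2, h3⟩ := ctx_supp hn h1
    have hl : ¬ isL (IT.pl p t₁) := fun h => h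
    have hP := H.pl hs
    have hx := hs.1.rm.exA hl rfl
    have hq1 : j.1.1 ∈ t₁.items := hq
    have hn1 := hQ _ _ hP.1.rm.all.self
    have h5 : ex p (s.A * p) ≤ ex p j.1.1 :=
      Crest.Agent.R4P.StratN36.ex_le (hn1.bk.pos _ hq1) (hn1.bk.dvd _ hq1)
    rw [ex_mul hp hn.bk.Apos, hx] at h5
    omega

/-! ### two N pieces of one circle -/

variable {i : X.c.Lam} {T A A' B B' : ℕ} {a a' : ℤ} {z z' : ℝ} {Z : ℝ}

/-- the missing product below the tie -/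
noncomputable abbrev Bc (X : Ctx N γ p0 P₀) (p : ℕ) (j : X.c.Lam) : ℕ := (p :: ms X.c p j.1.1).prod

/-- the own radius below the tie -/
noncomputable abbrev Rc (X : Ctx N γ p0 P₀) (p : ℕ) (j : X.c.Lam) : ℝ := (Bc X p j : ℝ) * X.c.r j.1.1

/-- **comparable pieces**: reduced cofactors and own radii -/
structure CP (X : Ctx N γ p0 P₀) (p : ℕ) (Z : ℝ) (A A' : ℕ) (j i : X.c.Lam) : Prop where
  xZ : (cof (j.1.1 / A) (i.1.1 / A') : ℝ) ≤ Z
  xZ' : (cof (i.1.1 / A') (j.1.1 / A) : ℝ) ≤ Z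
  RZ : Rc X p j ≤ Z * Rc X p i
  RZ' : Rc X p i ≤ Z * Rc X p j

lemma CP.symm (h : CP X p Z A A' j i) : CP X p Z A' A i j := ⟨h.xZ', h.xZ, h.RZ', h.RZ⟩

lemma NPc.Bc_eq (h : NPc X p T x j A B a z) : Bc X p j = p * B := by
  show (p :: ms X.c p j.1.1).prod = _
  rw [List.prod_cons, ← h.eB]

lemma NPc.ppos (h : NPc X p T x j A B a z) : 0 < p :=
  (BldF542.mt_lt X.c.t _ X.tOk j.1.1 p h.mis).1.pos

lemma NPc.Bc0 (h : NPc X p T x j A B a z) : 0 < Bc X p j := by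
  rw [h.Bc_eq]; exact Nat.mul_pos h.ppos h.B0

lemma NPc.Rc0 (h : NPc X p T x j A B a z) : 0 < Rc X p j :=
  mul_pos (by exact_mod_cast h.Bc0) (X.rpos h.al)

/-- the point on the new circle -/
lemma NPc.hz' (h : NPc X p T x j A B a z) :
    (Bc X p j : ℝ) * z = ((j.1.1 / A : ℕ) : ℝ) * (p * x) - Bc X p j * X.c.γ - ((p * a : ℤ) : ℝ) := by
  rw [h.Bc_eq]
  push_cast
  have := h.hz
  have e : (p : ℝ) * B * z = p * (B * z) := by ring
  rw [e, this]
  ring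

lemma cof_pos {w w' : ℕ} (h : 0 < w) : 0 < cof w w' := by
  have e := Crest.Agent.R4.AvgItem710.mul_cof (w := w) (w' := w')
  exact Nat.pos_of_ne_zero fun h0 => by
    rw [h0, mul_zero] at e
    omega

/-- **the geometry of two comparable N pieces** -/
theorem NPc.geo (h : NPc X p T x j A B a z) (h' : NPc X p T x i A' B' a' z')
    (hC : CP X p Z A A' j i) :
    Geo Z 1 X.c.γ (X.c.r j.1.1) (X.c.r i.1.1) (Bc X p j) (Bc X p i) (p * a) (p * a')
      (cof (j.1.1 / A) (i.1.1 / A')) (cof (i.1.1 / A') (j.1.1 / A)) := by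
  refine ⟨h.Bc0, h'.Bc0, ⟨cof_pos h.w0, cof_pos h'.w0, hC.xZ, hC.xZ', h.Rc0, h'.Rc0, hC.RZ, hC.RZ'⟩,
    zero_le_one, ?_⟩
  refine ov_of_pt (g := (j.1.1 / A).gcd (i.1.1 / A')) (w := j.1.1 / A) (w' := i.1.1 / A')
    (y := p * x) (z := z) (z' := z') (Nat.gcd_pos_of_pos_left _ h.w0)
    (Crest.Agent.R4.AvgItem710.mul_cof).symm (Crest.Agent.R4.AvgItem710.mul_cof').symm
    h.hz' h'.hz' h.zr h'.zr

/-- **one index above: one exact centre on the new circle** -/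
theorem NPc.rel (h : NPc X p T x j A B a z) (h' : NPc X p T x i A' B' a' z') {σ σ' : ℚ}
    (hσ : Lbl X.c.wp X.c.γ X.c.r X.c.t (Skel189.top X.S) j.1.1 σ)
    (hσ' : Lbl X.c.wp X.c.γ X.c.r X.c.t (Skel189.top X.S) i.1.1 σ') {p₁ p₂ : ℕ}
    (hix : X.c.wp.ix X.c.γ p₁ j.1.1 (some σ) z = X.c.wp.ix X.c.γ p₂ i.1.1 (some σ') z') :
    Rl (Bc X p j) (Bc X p i) (p * a) (p * a') (cof (j.1.1 / A) (i.1.1 / A'))
      (cof (i.1.1 / A') (j.1.1 / A)) σ σ' := by
  have h1 := exact_two X.fine (Cf.mem_S j) (Cf.mem_S i) (X.sys.pos _ (X.mem_S j))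
    (X.sys.pos _ (X.mem_S i)) hσ hσ' h.A0 h.B0 h'.A0 h.w0 h'.w0 h.dv.symm h'.dv.symm
    (h.eT.trans h'.eT.symm) (h.BK.trans (Nat.le_mul_of_pos_right _ h'.A0)) h.hz h'.hz h.zr h'.zr hix
  unfold Rl
  rw [h.Bc_eq, h'.Bc_eq]
  push_cast at h1 ⊢
  linear_combination (p : ℝ) * h1

/-- one exact centre: one index -/
theorem NPc.ix (h : NPc X p T x j A B a z) (h' : NPc X p T x i A' B' a' z') {σ σ' : ℚ}
    (hr : Rl (Bc X p j) (Bc X p i) (p * a) (p * a') (cof (j.1.1 / A) (i.1.1 / A'))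
      (cof (i.1.1 / A') (j.1.1 / A)) σ σ') {p₁ p₂ : ℕ} :
    X.c.wp.ix X.c.γ p₁ j.1.1 (some σ) z = X.c.wp.ix X.c.γ p₂ i.1.1 (some σ') z' := by
  refine ix_of_rel X.c.wp h.A0 h'.A0 h.Bc0 (g := (j.1.1 / A).gcd (i.1.1 / A'))
    (Nat.gcd_pos_of_pos_left _ h.w0) (cof_pos h.w0) (cof_pos h'.w0)
    (Crest.Agent.R4.AvgItem710.mul_cof).symm (Crest.Agent.R4.AvgItem710.mul_cof').symm
    h.dv.symm h'.dv.symm ?_ h.hz' h'.hz' hr
  rw [h.Bc_eq, h'.Bc_eq]
  calc A * (p * B) = p * (A * B) := by ring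
    _ = p * (A' * B') := by rw [h.eT, h'.eT]
    _ = A' * (p * B') := by ring

/-- **two comparable N pieces with one index above** (`g`, `gi` labels above, `g'`, `gi'` labels below;
`i` has the smaller rank; if `i` stays then its label is the sparse label below): one index below, or a
payable event of `j`, or both die by accuracy -/
theorem tie_pair (h : NPc X p T x j A B a z) (h' : NPc X p T x i A' B' a' z')
    (hC : CP X p Z A A' j i) (hsm : SmZ Z 1 (Rc X p j)) {g g' gi gi' : Option ℚ}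
    (kj : StM142.Kind X.c.γ (X.c.r j.1.1) p (ms X.c p j.1.1) g g')
    (ki : StM142.Kind X.c.γ (X.c.r i.1.1) p (ms X.c p i.1.1) gi gi')
    (lj : ∀ σ, g = some σ → Lbl X.c.wp X.c.γ X.c.r X.c.t (Skel189.top X.S) j.1.1 σ)
    (li : ∀ σ, gi = some σ → Lbl X.c.wp X.c.γ X.c.r X.c.t (Skel189.top X.S) i.1.1 σ)
    {p₁ : ℕ} (hix : X.c.wp.ix X.c.γ p₁ j.1.1 g z = X.c.wp.ix X.c.γ p₁ i.1.1 gi z')
    (st : gi' = gi → sla X.c.γ (X.c.r i.1.1) (p :: ms X.c p i.1.1) = gi)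
    (hrk : rk X.c.γ (X.c.r i.1.1) p (ms X.c p i.1.1) gi gi' ≤
      rk X.c.γ (X.c.r j.1.1) p (ms X.c p j.1.1) g g') :
    X.c.wp.ix X.c.γ p₁ j.1.1 g' z = X.c.wp.ix X.c.γ p₁ i.1.1 gi' z' ∨
      EM Z X.c.γ (X.c.r j.1.1) p (ms X.c p j.1.1) g g' ∨
      ED Z X.c.γ (X.c.r j.1.1) p (ms X.c p j.1.1) g g' ∨
      (De X.c.γ (X.c.r j.1.1) p (ms X.c p j.1.1) g g' ∧
        De X.c.γ (X.c.r i.1.1) p (ms X.c p i.1.1) gi gi') := by
  have hZ : 1 ≤ Z := (h.geo h' hC).cmp.Z1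
  have hs1 : Sm Z 1 (Rc X p j) := hsm.sm hZ zero_le_one h.Rc0.le h.Rc0.le (by
    have := h.Rc0
    nlinarith)
  have hs2 : Sm Z 1 (Rc X p i) := hsm.sm hZ zero_le_one h.Rc0.le h'.Rc0.le hC.RZ'
  by_cases hgg : g' = g
  · -- `j` stays
    have e1 : rk X.c.γ (X.c.r j.1.1) p (ms X.c p j.1.1) g g' = 0 := by unfold rk; rw [if_pos hgg]
    have e2 : gi' = gi := by
      by_contra hc
      have h2 : 1 ≤ rk X.c.γ (X.c.r i.1.1) p (ms X.c p i.1.1) gi gi' := by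
        unfold rk
        rw [if_neg hc]
        split_ifs <;> omega
      omega
    left
    rw [hgg, e2]
    exact hix
  -- the relation above
  have hso := WP.isSome_eq X.c.wp hix
  have h0 : SRl (Bc X p j) (Bc X p i) (p * a) (p * a') (cof (j.1.1 / A) (i.1.1 / A'))
      (cof (i.1.1 / A') (j.1.1 / A)) g gi := by
    rcases g with _ | σ
    · rcases gi with _ | σ'
      · exact Or.inl ⟨rfl, rfl⟩
      · exact absurd hso (by simp)
    · rcases gi with _ | σ'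
      · exact absurd hso (by simp)
      · exact Or.inr ⟨σ, σ', rfl, rfl, h.rel h' (lj σ rfl) (li σ' rfl) hix⟩
  have hj3 : De X.c.γ (X.c.r j.1.1) p (ms X.c p j.1.1) g g' ∨
      Ne X.c.γ (X.c.r j.1.1) p (ms X.c p j.1.1) g g' := (sorted kj).resolve_left hgg
  have hi3 : St X.c.γ (X.c.r i.1.1) p (ms X.c p i.1.1) gi gi' ∨
      De X.c.γ (X.c.r i.1.1) p (ms X.c p i.1.1) gi gi' ∨
      Ne X.c.γ (X.c.r i.1.1) p (ms X.c p i.1.1) gi gi' := by
    rcases sorted ki with h1 | h1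
    · exact Or.inl ⟨h1, st h1⟩
    · exact Or.inr h1
  rcases kind_mate (h.geo h' hC) hs1 hs2 h0 (Or.inr hj3) hi3 hrk with h1 | h1 | h1
  · rcases h1 with ⟨h2, h3⟩ | ⟨μ, μ', h2, h3, h4⟩
    · right; right; right
      have hjD : De X.c.γ (X.c.r j.1.1) p (ms X.c p j.1.1) g g' := by
        rcases hj3 with h5 | ⟨μ, h5, -⟩
        · exact h5
        · rw [h2] at h5; exact absurd h5 (by simp)
      refine ⟨hjD, ?_⟩
      rcases hi3 with h5 | h5 | ⟨μ, h5, -⟩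
      · exfalso
        have e : gi = none := by rw [← h5.1, h3]
        rw [e] at hso
        rcases g with _ | σ
        · exact hgg h2
        · exact absurd hso (by simp)
      · exact h5
      · rw [h3] at h5; exact absurd h5 (by simp)
    · left
      rw [h2, h3]
      exact h.ix h' h4
  · exact Or.inr (Or.inl h1)
  · exact Or.inr (Or.inr (Or.inl h1))

/-- **the mate stays with a sparse label** (or without label): its label is the sparse label below -/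
lemma stays_sla (hm : p ∈ X.c.t.mt i.1.1) (e : glow X.c p i.1.1 = ghi X.c p i.1.1)
    (hs : ∀ κ, ghi X.c p i.1.1 = some κ → ¬ dense (X.c.wp.thr p) (Bc X p i) κ) :
    sla X.c.γ (X.c.r i.1.1) (p :: ms X.c p i.1.1) = ghi X.c p i.1.1 := by
  have hp := (BldF542.mt_lt X.c.t _ X.tOk i.1.1 p hm).1
  have ec : ms X.c (p - 1) i.1.1 = p :: ms X.c p i.1.1 := lst_pred_cons hp.pos hm
  have e1 : glow X.c p i.1.1 = gl (low X.c p i.1.1) (X.c.wp.thr p) X.c.γ (X.c.r i.1.1)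
      (p :: ms X.c p i.1.1) := by
    unfold glow
    rw [ec]
  rcases gl_cases (low X.c p i.1.1) (X.c.wp.thr p) X.c.γ (X.c.r i.1.1) (p :: ms X.c p i.1.1) with
    ⟨κ, h1, h2, h3⟩ | ⟨-, h3⟩
  · exfalso
    rw [← e1, e] at h3
    exact hs κ h3 h2
  · rw [← e, e1, h3]

/-- **two comparable N pieces of a tie, game labels** -/
theorem tie_pair_g (hT : TH X) (hR : All (Step588.RdOk X) ⟨Skel189.top X.S, 1, 1, 1⟩ X.c.t)
    (h : NPc X p T x j A B a z) (h' : NPc X p T x i A' B' a' z')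
    (hC : CP X p Z A A' j i) (hsm : SmZ Z 1 (Rc X p j))
    (hix : ixp X.c p (ghi X.c p j.1.1) (Mhi X.c p j.1.1) T x j =
      ixp X.c p (ghi X.c p i.1.1) (Mhi X.c p i.1.1) T x i)
    (hs : ∀ κ, ghi X.c p i.1.1 = some κ → ¬ dense (X.c.wp.thr p) (Bc X p i) κ)
    (hrk : rk X.c.γ (X.c.r i.1.1) p (ms X.c p i.1.1) (ghi X.c p i.1.1) (glow X.c p i.1.1) ≤
      rk X.c.γ (X.c.r j.1.1) p (ms X.c p j.1.1) (ghi X.c p j.1.1) (glow X.c p j.1.1)) :
    ixp X.c p (glow X.c p j.1.1) (Mlo X.c p j.1.1) (T * p) (p * x) j =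
        ixp X.c p (glow X.c p i.1.1) (Mlo X.c p i.1.1) (T * p) (p * x) i ∨
      EM Z X.c.γ (X.c.r j.1.1) p (ms X.c p j.1.1) (ghi X.c p j.1.1) (glow X.c p j.1.1) ∨
      ED Z X.c.γ (X.c.r j.1.1) p (ms X.c p j.1.1) (ghi X.c p j.1.1) (glow X.c p j.1.1) ∨
      (De X.c.γ (X.c.r j.1.1) p (ms X.c p j.1.1) (ghi X.c p j.1.1) (glow X.c p j.1.1) ∧
        De X.c.γ (X.c.r i.1.1) p (ms X.c p i.1.1) (ghi X.c p i.1.1) (glow X.c p i.1.1)) := by
  rw [h.ixu, h'.ixu] at hix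
  rw [h.ixl, h'.ixl]
  have hpn : ∀ q : ℕ, p ∈ X.c.t.mt q → p ≤ Skel189.top X.S := fun q hq =>
    (BldF542.mt_lt X.c.t _ X.tOk q p hq).2.le
  exact tie_pair h h' hC hsm (glow_kind X.tOk (hT.lam _) h.mis (ctx_thin hT hR h.al h.mis))
    (glow_kind X.tOk (hT.lam _) h'.mis (ctx_thin hT hR h'.al h'.mis))
    (fun σ hσ => ghi_lbl X.tOk (hpn _ h.mis) hσ) (fun σ hσ => ghi_lbl X.tOk (hpn _ h'.mis) hσ) hix
    (fun e => stays_sla h'.mis e hs) hrk

end ctx

end Crest.Agent.R4P.EvT33
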