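import Crest.Agent.R4P.Zone_11

/-!
R4 (S0004), helper35: **wide windows**: `Zone11.zone_le` for windows `r j ≤ A' 2 ^ (j / 80)` (so the
thresholds `x = log (1/θ)` may be missed by `x ^ (1/80)`, not only by `A log x`); the weight of the
flagged nodes is `≤ C K (1 + A') 2 ^ (- j₀ / 80)`, for any adapted choice of the ties.
-/

set_option autoImplicit false

namespace Crest.Agent.R4P.ZoneW35

open Finset Crest.Agent.R4.Win853 Crest.Agent.Lib.Mertens Crest.Agent.R4P.Zone11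

variable {Θ : List ℕ → ℕ → Finset ℝ} {r : ℕ → ℝ} {j : ℕ}

/-- **one scale, wide windows** -/
theorem zone_scale' {K A' : ℝ} (hK : 0 ≤ K) (hA' : 0 ≤ A') (hj : 1 ≤ j)
    (hcard : ∀ U, ((Θ U j).card : ℝ) ≤ K) (hx : ∀ U, ∀ x ∈ Θ U j, 2 ^ j ≤ x ∧ x ≤ 2 ^ (j + 1))
    (hr0 : 0 ≤ r j) (hrA : r j ≤ A' * (2 : ℝ) ^ ((j : ℝ) / 80)) (hr2 : r j ≤ 2 ^ j / 2) (p : ℕ) :
    V (FZ Θ r j) p [] ≤ C0 * (5 + cD) * (80 / Real.log 2) ^ 2 * K * (1 + A') *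
      ((2 : ℝ) ^ (-(1 / 80) : ℝ)) ^ j := by
  have hj2 : (2 : ℝ) ≤ 2 ^ j := by
    calc (2 : ℝ) = 2 ^ 1 := (pow_one 2).symm
      _ ≤ 2 ^ j := pow_le_pow_right₀ (by norm_num) hj
  have hC := C0_pos
  set c : ℝ := C0 * (1 + r j) * ((2 : ℝ) ^ j) ^ (-(1 / 20) : ℝ) with hcdef
  have hc0 : 0 ≤ c := by positivity
  have hc : ∀ p U, TT Θ r j p [] U ≤ K * c := by
    intro p U
    unfold TT
    have h1 : ∀ x ∈ Θ U j, V (FT (Real.exp (x - r j)) (Real.exp (x + r j))) p [] ≤ c := by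
      intro x hxx
      obtain ⟨h2, h3⟩ := hx U x hxx
      refine (hit_le (hj2.trans h2) hr0 (by linarith) p).trans ?_
      refine mul_le_mul_of_nonneg_left ?_ (by positivity)
      exact Real.rpow_le_rpow_of_nonpos (by positivity) h2 (by norm_num)
    refine (Finset.sum_le_sum h1).trans ?_
    rw [Finset.sum_const, nsmul_eq_mul]
    exact mul_le_mul_of_nonneg_right (hcard U) hc0
  refine (zone_one hc (fun U x h => (hx U x h).2) (by linarith [show (0 : ℝ) < 2 ^ j by positivity])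
    p).trans ?_
  have hD := D_aj_le j
  have hcD := cD_nonneg
  have hsq := sq_le_two_pow j
  have e1 : ((2 : ℝ) ^ j) ^ (-(1 / 20) : ℝ) = (2 : ℝ) ^ (-((j : ℝ) / 20)) := by
    rw [← Real.rpow_natCast, ← Real.rpow_mul two_pos.le]
    congr 1
    ring
  have e2 : ((2 : ℝ) ^ (-(1 / 80) : ℝ)) ^ j = (2 : ℝ) ^ (-((j : ℝ) / 80)) := by
    rw [← Real.rpow_natCast, ← Real.rpow_mul two_pos.le]
    congr 1
    ring
  have e3 : (2 : ℝ) ^ ((j : ℝ) / 40) * ((2 : ℝ) ^ ((j : ℝ) / 80) * (2 : ℝ) ^ (-((j : ℝ) / 20))) =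
      (2 : ℝ) ^ (-((j : ℝ) / 80)) := by
    rw [← Real.rpow_add two_pos, ← Real.rpow_add two_pos]
    congr 1
    ring
  have hjj : (0 : ℝ) ≤ (j : ℝ) + 1 := by positivity
  have hw1 : (1 : ℝ) ≤ (2 : ℝ) ^ ((j : ℝ) / 80) :=
    Real.one_le_rpow (by norm_num) (by positivity)
  have h1 : 1 + r j ≤ (1 + A') * (2 : ℝ) ^ ((j : ℝ) / 80) := by
    nlinarith
  set P : ℝ := (2 : ℝ) ^ (-((j : ℝ) / 20)) with hP
  have hP0 : 0 < P := Real.rpow_pos_of_pos two_pos _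
  set W : ℝ := (2 : ℝ) ^ ((j : ℝ) / 80) with hW
  have hW0 : 0 < W := Real.rpow_pos_of_pos two_pos _
  have hj1 : (j : ℝ) + 1 ≤ (80 / Real.log 2) ^ 2 * (2 : ℝ) ^ ((j : ℝ) / 40) := by
    refine le_trans ?_ hsq
    have : (0 : ℝ) ≤ j := Nat.cast_nonneg j
    nlinarith
  calc K * c * (1 + D (aj j)) ≤ K * c * ((5 + cD) * ((j : ℝ) + 1)) :=
        mul_le_mul_of_nonneg_left hD (by positivity)
    _ = (K * C0 * (5 + cD) * P * ((j : ℝ) + 1)) * (1 + r j) := by rw [hcdef, e1]; ring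
    _ ≤ (K * C0 * (5 + cD) * P * ((j : ℝ) + 1)) * ((1 + A') * W) :=
        mul_le_mul_of_nonneg_left h1 (by positivity)
    _ = (K * C0 * (5 + cD) * (1 + A') * (W * P)) * ((j : ℝ) + 1) := by ring
    _ ≤ (K * C0 * (5 + cD) * (1 + A') * (W * P)) *
        ((80 / Real.log 2) ^ 2 * (2 : ℝ) ^ ((j : ℝ) / 40)) :=
        mul_le_mul_of_nonneg_left hj1 (by positivity)
    _ = C0 * (5 + cD) * (80 / Real.log 2) ^ 2 * K * (1 + A') *
        ((2 : ℝ) ^ ((j : ℝ) / 40) * (W * P)) := by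
        ring
    _ = _ := by rw [e3, e2]

/-- **the flagged nodes are rare**, for any adapted choice of the ties: wide windows -/
theorem zone_le' : ∃ C : ℝ, 0 < C ∧ ∀ (K A' : ℝ), 0 ≤ K → 0 ≤ A' →
    ∀ (Θ : List ℕ → ℕ → Finset ℝ) (r : ℕ → ℝ) (j₀ : ℕ), 1 ≤ j₀ →
    (∀ U j, j₀ ≤ j → ((Θ U j).card : ℝ) ≤ K) →
    (∀ U j, j₀ ≤ j → ∀ x ∈ Θ U j, 2 ^ j ≤ x ∧ x ≤ 2 ^ (j + 1)) →
    (∀ j, j₀ ≤ j → 0 ≤ r j ∧ r j ≤ A' * (2 : ℝ) ^ ((j : ℝ) / 80) ∧ r j ≤ 2 ^ j / 2) → ∀ p : ℕ,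
    V (fun B => ∃ j, j₀ ≤ j ∧ FZ Θ r j B) p [] ≤ C * K * (1 + A') * (2 : ℝ) ^ (-((j₀ : ℝ) / 80)) := by
  have hC := C0_pos
  have hcD := cD_nonneg
  have hl : 0 < Real.log 2 := Real.log_pos one_lt_two
  set q : ℝ := (2 : ℝ) ^ (-(1 / 80) : ℝ) with hq
  have hq0 : 0 < q := Real.rpow_pos_of_pos two_pos _
  have hq1 : q < 1 := Real.rpow_lt_one_of_one_lt_of_neg one_lt_two (by norm_num)
  have hq2 : 0 < 1 - q := by linarith
  set C1 : ℝ := C0 * (5 + cD) * (80 / Real.log 2) ^ 2 with hC1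
  have hC1' : 0 < C1 := by positivity
  refine ⟨C1 / (1 - q), by positivity, fun K A' hK hA' Θ r j₀ hj₀ hcard hx hr p => ?_⟩
  -- finitely many scales
  obtain ⟨j₁, hj₁⟩ : ∃ j₁ : ℕ, ∀ j, j₀ ≤ j → ∀ B : List ℕ, 0 < B.prod → B.prod ≤ p.factorial →
      FZ Θ r j B → j < j₁ := by
    refine ⟨⌈2 * Real.log p.factorial⌉₊ + 1, fun j hj B hB0 hB hF => ?_⟩
    obtain ⟨L, U, rfl, hL, x, hxx, h1, h2⟩ := hF
    rw [List.prod_append] at hB0 hB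
    have hU : 0 < U.prod := Nat.pos_of_mul_pos_left hB0
    have hpr : L.prod ≤ p.factorial := (Nat.le_mul_of_pos_right _ hU).trans hB
    have h3 : Real.exp (x - r j) ≤ (p.factorial : ℝ) := h1.trans (by exact_mod_cast hpr)
    have h4 : x - r j ≤ Real.log p.factorial := by
      rw [Real.le_log_iff_exp_le (by exact_mod_cast Nat.factorial_pos p)]
      exact h3
    have h5 := (hx U j hj x hxx).1
    have h6 := (hr j hj).2.2
    have h7 : (j : ℝ) < 2 ^ j := by exact_mod_cast Nat.lt_two_pow_self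
    have h8 : (j : ℝ) ≤ ⌈2 * Real.log p.factorial⌉₊ := by
      have := Nat.le_ceil (2 * Real.log (p.factorial : ℝ))
      linarith
    have h9 : j ≤ ⌈2 * Real.log p.factorial⌉₊ := by exact_mod_cast h8
    omega
  have s1 : V (fun B => ∃ j, j₀ ≤ j ∧ FZ Θ r j B) p [] ≤
      V (fun B => ∃ j, (j₀ ≤ j ∧ j < j₁) ∧ FZ Θ r j B) p [] := by
    refine V_mono_fac (N := p) ?_ p [] (by simp) (by simp)
    rintro B h0 hB ⟨j, hj, hF⟩
    exact ⟨j, ⟨hj, hj₁ j hj B h0 hB hF⟩, hF⟩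
  have s2 := V_le_sum (F := fun B => ∃ j, (j₀ ≤ j ∧ j < j₁) ∧ FZ Θ r j B) (Finset.Ico j₀ j₁)
    (fun j => FZ Θ r j) (fun B ⟨j, h1, h2⟩ => ⟨j, Finset.mem_Ico.2 h1, h2⟩) p []
  have s3 : ∑ j ∈ Finset.Ico j₀ j₁, V (FZ Θ r j) p [] ≤
      ∑ j ∈ Finset.Ico j₀ j₁, C1 * K * (1 + A') * q ^ j := by
    refine Finset.sum_le_sum fun j hj => ?_
    have hj' := (Finset.mem_Ico.1 hj).1
    exact zone_scale' hK hA' (hj₀.trans hj') (fun U => hcard U j hj') (fun U x h => hx U j hj' x h)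
      (hr j hj').1 (hr j hj').2.1 (hr j hj').2.2 p
  have s4 : ∑ j ∈ Finset.Ico j₀ j₁, q ^ j ≤ q ^ j₀ / (1 - q) :=
    geom_sum_Ico_le_of_lt_one hq0.le hq1
  have e1 : q ^ j₀ = (2 : ℝ) ^ (-((j₀ : ℝ) / 80)) := by
    rw [hq, ← Real.rpow_natCast, ← Real.rpow_mul two_pos.le]
    congr 1
    ring
  refine s1.trans (s2.trans (s3.trans ?_))
  rw [← Finset.mul_sum]
  refine (mul_le_mul_of_nonneg_left s4 (by positivity)).trans (le_of_eq ?_)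
  rw [e1]
  ring

end Crest.Agent.R4P.ZoneW35
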