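import Crest.Agent.R4P.Lad_32
import Crest.Agent.R4P.ZoneW_35

/-!
R4 (S0004) with powers, helper32: **the ladder of a node, wide windows** `W x ^ (1/80)` (`ZoneW_35`):
zones of log-width `(log k) ^ (1/80)` around `k ^ a`, `(1 / e) ^ c` for the ladder of every node.

* `ladder_zone'` : general windows `r j ≤ A' 2 ^ (j / 80)`;
* `FLW A C γ W j₀ B` : `B = L ++ U`, `L ≠ []`, `|log (∏ L) - x| ≤ W x ^ (1/80)` for a number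
  `x ≥ 2 ^ j₀` of the ladder of `(∏ U) γ`;
* `ladder_wide` : `V (FLW A C γ W j₀) p [] ≤ K 2 ^ (- j₀ / 80)`.
-/

set_option autoImplicit false

namespace Crest.Agent.R4P.Lad32

open Finset Crest.Agent.R4.LF363 Crest.Agent.R4P.Zone11 Crest.Agent.R4P.ZoneW35

/-- **one-zone lemma for the ladder**, wide windows -/
theorem ladder_zone' : ∃ K₀ : ℝ, 0 < K₀ ∧ ∀ (A C : Finset ℝ) (γ A' : ℝ), 0 ≤ A' →
    ∀ (r : ℕ → ℝ) (j₀ : ℕ), 1 ≤ j₀ → HiB A C j₀ →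
    (∀ j, j₀ ≤ j → 0 ≤ r j ∧ r j ≤ A' * (2 : ℝ) ^ ((j : ℝ) / 80) ∧ r j ≤ 2 ^ j / 2) → ∀ p : ℕ,
    V (fun B => ∃ j, j₀ ≤ j ∧ FZ (Th A C γ) r j B) p [] ≤
      K₀ * ((A.card : ℝ) + C.card) * (1 + A') * (2 : ℝ) ^ (-((j₀ : ℝ) / 80)) := by
  obtain ⟨K₀, hK₀, h⟩ := zone_le'
  refine ⟨K₀, hK₀, fun A C γ A' hA' r j₀ hj₀ hB hr p => ?_⟩
  refine h ((A.card : ℝ) + C.card) A' (by positivity) hA' (Th A C γ) r j₀ hj₀ ?_ ?_ hr p
  · intro U j hj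
    exact_mod_cast card_tgt (hB.mono hj)
  · intro U j hj x hx
    exact tgt_bd hx

/-- the flag with windows `W x ^ (1/80)` -/
def FLW (A C : Finset ℝ) (γ W : ℝ) (j₀ : ℕ) (B : List ℕ) : Prop :=
  ∃ L U, B = L ++ U ∧ L ≠ [] ∧ ∃ x : ℝ, (2 : ℝ) ^ j₀ ≤ x ∧
    (∃ ρ : ℚ, LS ((U.prod : ℝ) * γ) ρ ∧ ((∃ a ∈ A, x = a * Real.log ρ.den) ∨
      0 < |(U.prod : ℝ) * γ - ρ| ∧ ∃ c ∈ C, x = c * Real.log (1 / |(U.prod : ℝ) * γ - ρ|))) ∧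
    Real.exp (x - W * x ^ (1 / 80 : ℝ)) ≤ (L.prod : ℝ) ∧
    (L.prod : ℝ) ≤ Real.exp (x + W * x ^ (1 / 80 : ℝ))

/-- **one-zone lemma for the ladder, windows `W x ^ (1/80)`** -/
theorem ladder_wide (A C : Finset ℝ) (hA : ∀ a ∈ A, 0 ≤ a) (hC : ∀ c ∈ C, 0 ≤ c) {W : ℝ}
    (hW : 0 ≤ W) : ∃ (K : ℝ) (J : ℕ), 0 < K ∧ ∀ (γ : ℝ) (j₀ : ℕ), J ≤ j₀ → ∀ p : ℕ,
    V (FLW A C γ W j₀) p [] ≤ K * (2 : ℝ) ^ (-((j₀ : ℝ) / 80)) := by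
  obtain ⟨K₀, hK₀, h⟩ := ladder_zone'
  obtain ⟨J₁, hJ₁⟩ := exists_HiB hA hC
  have two0 : (0 : ℝ) < 2 := by norm_num
  -- the radii of the windows
  set r : ℕ → ℝ := fun j => W * (2 : ℝ) ^ (((j : ℝ) + 1) / 80) with hr
  have hr0 : ∀ j, 0 ≤ r j := fun j => mul_nonneg hW (Real.rpow_pos_of_pos two0 _).le
  have hr1 : ∀ j : ℕ, r j ≤ 2 * W * (2 : ℝ) ^ ((j : ℝ) / 80) := by
    intro j
    have e1 : (2 : ℝ) ^ (((j : ℝ) + 1) / 80) = 2 ^ ((j : ℝ) / 80) * 2 ^ (1 / 80 : ℝ) := by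
      rw [← Real.rpow_add two0]
      congr 1
      ring
    have e2 : (2 : ℝ) ^ (1 / 80 : ℝ) ≤ 2 := by
      calc (2 : ℝ) ^ (1 / 80 : ℝ) ≤ 2 ^ (1 : ℝ) :=
            Real.rpow_le_rpow_of_exponent_le (by norm_num) (by norm_num)
        _ = 2 := Real.rpow_one 2
    have h0 : 0 ≤ (2 : ℝ) ^ ((j : ℝ) / 80) := (Real.rpow_pos_of_pos two0 _).le
    show W * (2 : ℝ) ^ (((j : ℝ) + 1) / 80) ≤ _
    rw [e1]
    calc W * ((2 : ℝ) ^ ((j : ℝ) / 80) * 2 ^ (1 / 80 : ℝ))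
        = (W * (2 : ℝ) ^ ((j : ℝ) / 80)) * 2 ^ (1 / 80 : ℝ) := by ring
      _ ≤ (W * (2 : ℝ) ^ ((j : ℝ) / 80)) * 2 := mul_le_mul_of_nonneg_left e2 (by positivity)
      _ = _ := by ring
  obtain ⟨J₂, hJ₂⟩ : ∃ J : ℕ, ∀ j : ℕ, J ≤ j → r j ≤ 2 ^ j / 2 := by
    obtain ⟨m, hm⟩ := exists_nat_gt (W + 1)
    refine ⟨2 * m + 8, fun j hj => ?_⟩
    have h1 : (2 : ℝ) ^ (((j : ℝ) + 1) / 80) ≤ 2 ^ (j / 2 + 2) := by
      rw [← Real.rpow_natCast]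
      refine Real.rpow_le_rpow_of_exponent_le (by norm_num) ?_
      have h3 : (j : ℝ) ≤ 2 * ((j / 2 : ℕ) : ℝ) + 1 := by
        have h4 : j ≤ 2 * (j / 2) + 1 := by omega
        exact_mod_cast h4
      have h0 : (0 : ℝ) ≤ ((j / 2 : ℕ) : ℝ) := Nat.cast_nonneg _
      push_cast
      linarith
    have h3 : W ≤ 2 ^ (j / 2 - 3) := by
      have h4 : (m : ℝ) ≤ 2 ^ m := by exact_mod_cast Nat.lt_two_pow_self.le
      have h5 : (2 : ℝ) ^ m ≤ 2 ^ (j / 2 - 3) := pow_le_pow_right₀ (by norm_num) (by omega)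
      linarith
    show W * (2 : ℝ) ^ (((j : ℝ) + 1) / 80) ≤ _
    calc W * (2 : ℝ) ^ (((j : ℝ) + 1) / 80) ≤ 2 ^ (j / 2 - 3) * 2 ^ (j / 2 + 2) :=
          mul_le_mul h3 h1 (Real.rpow_pos_of_pos two0 _).le (by positivity)
      _ = 2 ^ (j / 2 - 3 + (j / 2 + 2)) := by rw [← pow_add]
      _ ≤ 2 ^ (j - 1) := pow_le_pow_right₀ (by norm_num) (by omega)
      _ = 2 ^ j / 2 := by
          have e : j = (j - 1) + 1 := by omega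
          conv_rhs => rw [e, pow_succ]
          ring
  refine ⟨K₀ * ((A.card : ℝ) + C.card + 1) * (1 + 2 * W), max (max J₁ J₂) 1, by positivity,
    fun γ j₀ hj₀ p => ?_⟩
  have k1 : J₁ ≤ j₀ := by omega
  have k2 : J₂ ≤ j₀ := by omega
  have k3 : 1 ≤ j₀ := by omega
  have hB := hJ₁.mono k1
  have h1 := h A C γ (2 * W) (by positivity) r j₀ k3 hB
    (fun j hj => ⟨hr0 j, hr1 j, hJ₂ j (k2.trans hj)⟩) p
  refine (V_mono ?_ p []).trans (h1.trans ?_)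
  · rintro B ⟨L, U, rfl, hL, x, hx, ⟨ρ, hρ, hor⟩, e1, e2⟩
    have hx1 : 1 ≤ x := le_trans (one_le_pow₀ (by norm_num)) hx
    have hx0 : 0 < x := by linarith
    -- the block of `x`
    obtain ⟨j, hj1, hj2⟩ : ∃ j : ℕ, (2 : ℝ) ^ j ≤ x ∧ x < 2 ^ (j + 1) :=
      exists_nat_pow_near hx1 one_lt_two
    have hj : j₀ ≤ j := by
      by_contra hc
      push Not at hc
      have : (2 : ℝ) ^ (j + 1) ≤ 2 ^ j₀ := pow_le_pow_right₀ (by norm_num) hc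
      linarith
    have hw : W * x ^ (1 / 80 : ℝ) ≤ r j := by
      show _ ≤ W * (2 : ℝ) ^ (((j : ℝ) + 1) / 80)
      refine mul_le_mul_of_nonneg_left ?_ hW
      calc x ^ (1 / 80 : ℝ) ≤ ((2 : ℝ) ^ (j + 1)) ^ (1 / 80 : ℝ) :=
            Real.rpow_le_rpow hx0.le hj2.le (by norm_num)
        _ = (2 : ℝ) ^ (((j : ℝ) + 1) / 80) := by
            rw [← Real.rpow_natCast, ← Real.rpow_mul two0.le]
            congr 1
            push_cast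
            ring
    refine ⟨j, hj, L, U, rfl, hL, x, ?_, ?_, ?_⟩
    · show x ∈ tgt A C ((U.prod : ℝ) * γ) j
      rcases hor with ⟨a, ha, rfl⟩ | ⟨h0, c, hc, rfl⟩
      · exact mem_tgtA (hB.mono hj) ha hρ hj1 hj2.le
      · exact mem_tgtC (hB.mono hj) hc hρ h0 hj1 hj2.le
    · exact le_trans (Real.exp_le_exp.2 (by linarith)) e1
    · exact e2.trans (Real.exp_le_exp.2 (by linarith))
  · have : 0 ≤ (2 : ℝ) ^ (-((j₀ : ℝ) / 80)) := (Real.rpow_pos_of_pos two0 _).le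
    refine mul_le_mul_of_nonneg_right ?_ this
    refine mul_le_mul_of_nonneg_right ?_ (by positivity)
    nlinarith

end Crest.Agent.R4P.Lad32
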