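import Crest.Agent.R4P.EvM_33
import Crest.Agent.R4P.LadW_32
import Crest.Agent.R4P.Bir_30

/-!
R4 (S0004) with powers, helper33: **the zone events of an item are rare** (Err4 (c2), (c4)): a zone of a
new own label at the stage `U`, followed by a fat birth at the stage `L ++ U`, is a flag of `LadW_32`.

* `zone_flag` : own label of `U` in its threshold zone `Zl`, `1 / H' ≤ (∏ L) R ≤ 1` ==> `FLW {5} {5/4} γ 2 j₀ (L ++ U)`;
* `lst_app`   : the list of the missing ties above `a` is an extension of the list above `b > a`;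
* `WdOK`      : the width `Zw R` is small (`10 (1 + log Zw) + A loglog (1/R) ≤ (log 1/R)^(1/80)`);
* `no_fat`    : in an item without flags there is no fat birth after a zone event;
* `em_card`   : **at most two zone events per item**; `ems_card` : with the size event at most three;
* `Zn.mono`, `EM.mono`, `ED.mono`, `SmZ` : the width is monotone;
* `Zw0`, `ev_wd` : the width function `exp ((log 1/R)^(1/200))` is `WdOK` eventually in `p0`.
-/

set_option autoImplicit false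
set_option linter.unusedSectionVars false
set_option linter.unusedVariables false

namespace Crest.Agent.R4P.EvM33

open Crest.Agent.R4.LF363 Crest.Agent.R4.W363
open Crest.Agent.R4P.StM6 Crest.Agent.R4P.PosD33
open Crest.Agent.R4P.Lad32 (FLW LS)

/-- **a zone followed by a fat stage is a flag** -/
theorem zone_flag {γ ψ Z H : ℝ} {U L : List ℕ} {μ : ℚ} {j₀ : ℕ} (hL : L ≠ []) (hLp : 0 < L.prod)
    (hUp : 0 < U.prod) (hU : own γ ψ U = some μ) (hZ1 : 1 ≤ Z) (hz : Zl Z γ ψ U.prod μ)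
    (h1 : (L.prod : ℝ) * (U.prod * ψ) ≤ 1) (hH0 : 0 ≤ H)
    (hH : -H ≤ Real.log ((L.prod : ℝ) * (U.prod * ψ)))
    (hw : 10 * (1 + Real.log Z) + H ≤ (Real.log (1 / (U.prod * ψ))) ^ (1 / 80 : ℝ))
    (hj : 2 * (2 : ℝ) ^ j₀ ≤ Real.log (1 / (U.prod * ψ))) : FLW {5} {5 / 4} γ 2 j₀ (L ++ U) := by
  have hLab := lab0_spec hUp hU
  set R : ℝ := U.prod * ψ with hR
  have hR0 : 0 < R := hLab.pos
  have hP0 : (0 : ℝ) < L.prod := by exact_mod_cast hLp
  set l : ℝ := Real.log (1 / R) with hl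
  have hlR : Real.log R = -l := by rw [hl, one_div, Real.log_inv]; ring
  have hlZ : 0 ≤ Real.log Z := Real.log_nonneg hZ1
  have hlP : Real.log ((L.prod : ℝ) * R) = Real.log L.prod - l := by
    rw [Real.log_mul hP0.ne' hR0.ne', hlR]; ring
  have hP1 : Real.log (L.prod : ℝ) ≤ l := by
    have := Real.log_le_log (mul_pos hP0 hR0) h1
    rw [Real.log_one, hlP] at this
    linarith
  have hP2 : l - H ≤ Real.log (L.prod : ℝ) := by
    rw [hlP] at hH; linarith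
  -- `v = l^(1/80)`
  have hl0 : 0 ≤ l := le_trans (by positivity) hj
  set v : ℝ := l ^ (1 / 80 : ℝ) with hv
  have hv10 : 10 ≤ v := by linarith
  have hvl : v ^ 80 = l := by
    rw [hv, ← Real.rpow_natCast, ← Real.rpow_mul hl0]; norm_num
  have hv4 : 4 * v ≤ l := by
    rw [← hvl]
    have h2 : (10 : ℝ) ^ 79 ≤ v ^ 79 := pow_le_pow_left₀ (by norm_num) hv10 79
    have h3 : v ^ 80 = v * v ^ 79 := by ring
    rw [h3]
    nlinarith
  -- the conclusion from a number `x` close to `l`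
  have key : ∀ x : ℝ, |x - l| + H ≤ v →
      (∃ ρ : ℚ, LS ((U.prod : ℝ) * γ) ρ ∧ ((∃ a ∈ ({5} : Finset ℝ), x = a * Real.log ρ.den) ∨
        0 < |(U.prod : ℝ) * γ - ρ| ∧ ∃ c ∈ ({5 / 4} : Finset ℝ),
          x = c * Real.log (1 / |(U.prod : ℝ) * γ - ρ|))) → FLW {5} {5 / 4} γ 2 j₀ (L ++ U) := by
    intro x hx hρ
    have hx1 := abs_le.1 (show |x - l| ≤ v - H by linarith)
    have hxl : l ≤ 2 * x := by linarith [hx1.1]
    have hx0 : 0 ≤ x := by linarith
    have hxv : v ≤ 2 * x ^ (1 / 80 : ℝ) := by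
      calc v ≤ (2 * x) ^ (1 / 80 : ℝ) := Real.rpow_le_rpow hl0 hxl (by norm_num)
        _ = 2 ^ (1 / 80 : ℝ) * x ^ (1 / 80 : ℝ) := Real.mul_rpow (by norm_num) hx0
        _ ≤ 2 * x ^ (1 / 80 : ℝ) := by
          refine mul_le_mul_of_nonneg_right ?_ (Real.rpow_nonneg hx0 _)
          calc (2 : ℝ) ^ (1 / 80 : ℝ) ≤ 2 ^ (1 : ℝ) :=
                Real.rpow_le_rpow_of_exponent_le (by norm_num) (by norm_num)
            _ = 2 := Real.rpow_one 2
    refine ⟨L, U, rfl, hL, x, ?_, hρ, ?_, ?_⟩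
    · linarith
    · calc Real.exp (x - 2 * x ^ (1 / 80 : ℝ)) ≤ Real.exp (Real.log (L.prod : ℝ)) :=
            Real.exp_le_exp.2 (by linarith [hx1.1, hx1.2])
        _ = L.prod := Real.exp_log hP0
    · calc (L.prod : ℝ) = Real.exp (Real.log (L.prod : ℝ)) := (Real.exp_log hP0).symm
        _ ≤ Real.exp (x + 2 * x ^ (1 / 80 : ℝ)) := Real.exp_le_exp.2 (by linarith [hx1.1, hx1.2])
  have hLS : LS ((U.prod : ℝ) * γ) (U.prod * μ : ℚ) := ⟨R, hLab⟩
  set k : ℕ := ((U.prod : ℚ) * μ).den with hk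
  have hk0 : (0 : ℝ) < k := by
    have : 0 < k := Rat.den_pos _
    exact_mod_cast this
  rcases hz with hz | hz | hz
  · -- size: impossible
    exfalso
    have h2 : Real.log 1 < Real.log (10 * Z * R) := Real.log_lt_log one_pos hz
    have h3 : Real.log (10 * Z * R) = Real.log 10 + Real.log Z - l := by
      rw [Real.log_mul (by positivity) hR0.ne', Real.log_mul (by norm_num) (by linarith), hlR]
      ring
    have h4 : Real.log 10 ≤ 9 := by
      have := Real.log_le_sub_one_of_pos (show (0 : ℝ) < 10 by norm_num)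
      linarith
    rw [Real.log_one, h3] at h2
    linarith
  · -- denominator
    refine key (5 * Real.log k) ?_ ⟨(U.prod * μ : ℚ), hLS, Or.inl ⟨5, Finset.mem_singleton_self _, rfl⟩⟩
    have h2 := hLab.den
    have e1 : Real.log ((k : ℝ) ^ 5 * R) = 5 * Real.log k - l := by
      rw [Real.log_mul (by positivity) hR0.ne', Real.log_pow, hlR]
      push_cast; ring
    have h3 : 5 * Real.log k - l ≤ 0 := by
      rw [← e1]
      exact Real.log_nonpos (by positivity) h2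
    have h4 : Real.log 1 < Real.log (Z ^ 6 * ((k : ℝ) ^ 5 * R)) := Real.log_lt_log one_pos hz
    rw [Real.log_one, Real.log_mul (by positivity) (by positivity), e1, Real.log_pow] at h4
    push_cast at h4
    rw [abs_of_nonpos h3]
    linarith
  · -- accuracy
    set e : ℝ := |(U.prod : ℝ) * γ - ((U.prod * μ : ℚ) : ℝ)| with he
    have he0 : 0 < e := by
      rcases (abs_nonneg ((U.prod : ℝ) * γ - ((U.prod * μ : ℚ) : ℝ))).lt_or_eq with h | h
      · exact h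
      · exfalso
        have he' : e = 0 := h.symm
        rw [he'] at hz
        have h7 : 0 < R ^ 4 := by positivity
        have h8 : R ^ 4 < 32 * Z ^ 9 * 0 ^ 5 := hz
        norm_num at h8
        linarith
    refine key (5 / 4 * Real.log (1 / e)) ?_
      ⟨(U.prod * μ : ℚ), hLS, Or.inr ⟨he0, 5 / 4, Finset.mem_singleton_self _, rfl⟩⟩
    have e1 : Real.log (1 / e) = -Real.log e := by rw [one_div, Real.log_inv]
    have h2 : Real.log (e ^ 5) ≤ Real.log (R ^ 4) := Real.log_le_log (by positivity) hLab.near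
    have h3 : Real.log (R ^ 4) < Real.log (32 * Z ^ 9 * e ^ 5) := Real.log_lt_log (by positivity) hz
    have hZ0 : (0 : ℝ) < Z := by linarith
    rw [Real.log_mul (by positivity) (by positivity), Real.log_mul (by norm_num) (by positivity),
      Real.log_pow, Real.log_pow, Real.log_pow, hlR] at h3
    rw [Real.log_pow, Real.log_pow, hlR] at h2
    push_cast at h2 h3
    have h5 : Real.log 32 ≤ 5 := by
      have : Real.log 32 = 5 * Real.log 2 := by
        rw [show (32 : ℝ) = 2 ^ 5 by norm_num, Real.log_pow]; push_cast; ring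
      have h2 := Real.log_two_lt_d9
      linarith
    have h6 : |5 / 4 * Real.log (1 / e) - l| ≤ 10 * (1 + Real.log Z) := by
      rw [e1, abs_le]
      constructor <;> linarith
    linarith

/-! ### the lists of the stages -/

/-- the list above `a` is an extension of the list above `b` -/
lemma lst_app (M : Finset ℕ) {a b : ℕ} (h : a ≤ b) :
    lst M a = (M.filter (fun x => a < x ∧ x ≤ b)).sort (· ≤ ·) ++ lst M b := by
  classical
  unfold lst
  refine List.Perm.eq_of_pairwise (le := (· ≤ ·)) (fun x y _ _ h1 h2 => le_antisymm h1 h2)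
    (Finset.pairwise_sort _ _) ?_ ?_
  · rw [List.pairwise_append]
    refine ⟨Finset.pairwise_sort _ _, Finset.pairwise_sort _ _, fun x hx y hy => ?_⟩
    rw [Finset.mem_sort, Finset.mem_filter] at hx hy
    omega
  · rw [← Multiset.coe_eq_coe, ← Multiset.coe_add, Finset.sort_eq, Finset.sort_eq, Finset.sort_eq]
    have hd : Disjoint (M.filter (fun x => a < x ∧ x ≤ b)) (M.filter (b < ·)) := by
      rw [Finset.disjoint_left]
      intro x hx hy
      rw [Finset.mem_filter] at hx hy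
      omega
    have e : M.filter (a < ·) = (M.filter (fun x => a < x ∧ x ≤ b)).disjUnion (M.filter (b < ·)) hd := by
      ext x
      rw [Finset.mem_disjUnion, Finset.mem_filter, Finset.mem_filter, Finset.mem_filter]
      constructor
      · rintro ⟨h1, h2⟩
        by_cases h3 : x ≤ b
        · exact Or.inl ⟨h1, h2, h3⟩
        · exact Or.inr ⟨h1, not_le.1 h3⟩
      · rintro (⟨h1, h2, -⟩ | ⟨h1, h2⟩)
        · exact ⟨h1, h2⟩
        · exact ⟨h1, lt_of_le_of_lt h h2⟩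
    rw [e]
    rfl

/-! ### items -/

section items
open Crest.Agent.R4P.Bir30 Crest.Agent.R4P.Data758 Crest.Agent.R4P.PruneAcc17
open Crest.Agent.R4P.Bir30.BF (Rad)

variable {N : Crest.Agent.R4P.Skel189.Num} {c : Cf} {p0 q : ℕ} {Zw : ℝ → ℝ} {j₀ : ℕ}

/-- the stage list below the missing tie `s` -/
noncomputable abbrev Lb (c : Cf) (q s : ℕ) : List ℕ := s :: lst (c.t.mt q) s

lemma Lb_prod (s : ℕ) : (Lb c q s).prod = s * Bab c.t q s := by
  show (s :: lst (c.t.mt q) s).prod = _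
  rw [List.prod_cons, lst_prod_Bab]

lemma Lb_rad (s : ℕ) : ((Lb c q s).prod : ℝ) * c.r q = Rad c q s := by
  rw [Lb_prod]; unfold Rad; push_cast; ring

/-- **the width function is small** -/
structure WdOK (Zw : ℝ → ℝ) (A : ℝ) (p0 j₀ : ℕ) : Prop where
  one : ∀ R, 1 ≤ Zw R
  small : ∀ R : ℝ, 0 < R → R * p0 ≤ 1 →
    10 * (1 + Real.log (Zw R)) + A * Real.log (Real.log (1 / R)) ≤ Real.log (1 / R) ^ (1 / 80 : ℝ)
  hj : 2 * (2 : ℝ) ^ j₀ ≤ Real.log p0
  three : 3 ≤ p0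
  hA : 0 ≤ A

/-- **a zone event of the item at the own missing tie `s`** : a new own label in its zone -/
def EMq (Zw : ℝ → ℝ) (c : Cf) (q s : ℕ) : Prop :=
  ∃ μ, own c.γ (c.r q) (Lb c q s) = some μ ∧ sla c.γ (c.r q) (lst (c.t.mt q) s) ≠ some μ ∧
    Zl (Zw (Rad c q s)) c.γ (c.r q) (Lb c q s).prod μ

/-- a new sparse label is a birth -/
lemma birL_of (h : BF N c p0 q) {s : ℕ} {μ : ℚ}
    (h1 : own c.γ (c.r q) (Lb c q s) = some μ) (h2 : sla c.γ (c.r q) (lst (c.t.mt q) s) ≠ some μ) :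
    BirL c.t c.γ (c.r q) q s μ := by
  constructor
  · have e : lab0 c.γ (c.r q) (Lb c q s).prod = some μ := h1
    rwa [Lb_prod] at e
  · intro h3
    refine h2 (Crest.Agent.R4P.StM6.sla_of_own ?_ ?_)
    · rw [lst_prod_Bab]; exact Bab_pos h.mpos s
    · show lab0 c.γ (c.r q) (lst (c.t.mt q) s).prod = some μ
      rw [lst_prod_Bab]; exact h3

/-- **no fat birth after a zone event** -/
theorem no_fat (h : BF N c p0 q) (hW : WdOK Zw (Aex N) p0 j₀)
    {s₁ s₂ : ℕ} (h1 : s₁ ∈ c.t.mt q) (h2 : s₂ ∈ c.t.mt q) (h12 : s₂ < s₁)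
    (hf : ¬ FLW {5} {5 / 4} c.γ 2 j₀ (Lb c q s₂)) (he : EMq Zw c q s₁) {τ : ℚ}
    (hb : BirL c.t c.γ (c.r q) q s₂ τ) : Rad c q s₂ ≤ Real.log s₂ ^ (-(Aex N)) := by
  by_contra hfat
  push Not at hfat
  obtain ⟨μ, hown, -, hz⟩ := he
  have hs2 : 0 < s₂ := h.mpos s₂ h2
  have hs1 : 0 < s₁ := h.mpos s₁ h1
  -- the two lists
  have eU : lst (c.t.mt q) (s₁ - 1) = Lb c q s₁ := lst_mem h1 hs1
  have eV : lst (c.t.mt q) (s₂ - 1) = Lb c q s₂ := lst_mem h2 hs2
  set L : List ℕ := ((c.t.mt q).filter (fun x => s₂ - 1 < x ∧ x ≤ s₁ - 1)).sort (· ≤ ·) with hL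
  have eapp : Lb c q s₂ = L ++ Lb c q s₁ := by
    rw [← eV, ← eU]
    exact lst_app _ (by omega)
  have hmem : s₂ ∈ L := by
    rw [hL, Finset.mem_sort, Finset.mem_filter]
    exact ⟨h2, by omega, by omega⟩
  have hne : L ≠ [] := List.ne_nil_of_mem hmem
  have hpos : ∀ x ∈ L, 0 < x := by
    intro x hx
    rw [hL, Finset.mem_sort, Finset.mem_filter] at hx
    exact h.mpos x hx.1
  have hLp : 0 < L.prod := List.prod_pos hpos
  have hUp : 0 < (Lb c q s₁).prod := by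
    rw [Lb_prod]; exact Nat.mul_pos hs1 (Bab_pos h.mpos s₁)
  have hR := Lb_rad (c := c) (q := q) s₁
  have hR' : ((L.prod : ℕ) : ℝ) * (((Lb c q s₁).prod : ℝ) * c.r q) = Rad c q s₂ := by
    rw [← Lb_rad, eapp, List.prod_append]; push_cast; ring
  -- sizes
  obtain ⟨g0, g1, -, -⟩ := own_spec (Nat.mul_pos hs2 (Bab_pos h.mpos s₂))
    (show lab0 c.γ (c.r q) (s₂ * Bab c.t q s₂) = some τ from hb.1)
  have g1' : Rad c q s₂ ≤ 1 / 10 := by
    have e : ((s₂ * Bab c.t q s₂ : ℕ) : ℝ) * c.r q = Rad c q s₂ := by unfold Rad; push_cast; ring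
    rw [← e]; exact g1
  have hp0s : (p0 : ℝ) < s₂ := by exact_mod_cast h.mp s₂ h2
  have hs2L : (s₂ : ℝ) ≤ L.prod := by
    exact_mod_cast Nat.le_of_dvd hLp (List.dvd_prod hmem)
  set R : ℝ := ((Lb c q s₁).prod : ℝ) * c.r q with hRdef
  have hR0 : 0 < R := by
    rw [hRdef]
    exact mul_pos (by exact_mod_cast hUp) g0
  have hLP1 : ((L.prod : ℕ) : ℝ) * R ≤ 1 := by rw [hR']; linarith
  have hRs : R * s₂ ≤ 1 := by
    calc R * s₂ ≤ R * L.prod := mul_le_mul_of_nonneg_left hs2L hR0.le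
      _ = L.prod * R := mul_comm _ _
      _ ≤ 1 := hLP1
  have hRp : R * p0 ≤ 1 := (mul_le_mul_of_nonneg_left hp0s.le hR0.le).trans hRs
  have hs3 : (3 : ℝ) < s₂ := by
    have : (3 : ℝ) ≤ p0 := by exact_mod_cast hW.three
    linarith
  have hls : 1 ≤ Real.log s₂ := by
    rw [Real.le_log_iff_exp_le (by linarith)]
    have := Real.exp_one_lt_d9
    linarith
  -- `log s₂ ≤ log (1/R)`
  have hlR : Real.log s₂ ≤ Real.log (1 / R) := by
    refine Real.log_le_log (by linarith) ?_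
    rw [le_div_iff₀ hR0, mul_comm]
    exact hRs
  refine hf ?_
  rw [eapp]
  have hsm := hW.small R hR0 hRp
  refine zone_flag (Z := Zw (Rad c q s₁)) (H := Aex N * Real.log (Real.log (1 / R))) hne hLp hUp hown
    (hW.one _) ?_ hLP1 ?_ ?_ ?_ ?_
  · exact hz
  · exact mul_nonneg hW.hA (Real.log_nonneg (hls.trans hlR))
  · have e1 : Real.log (Real.log s₂ ^ (-(Aex N))) ≤ Real.log (Rad c q s₂) :=
      Real.log_le_log (Real.rpow_pos_of_pos (by linarith) _) hfat.le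
    rw [Real.log_rpow (by linarith)] at e1
    have e2 : Aex N * Real.log (Real.log s₂) ≤ Aex N * Real.log (Real.log (1 / R)) :=
      mul_le_mul_of_nonneg_left (Real.log_le_log (by linarith) hlR) hW.hA
    rw [hR']
    linarith
  · rw [← hR]
    exact hsm
  · refine hW.hj.trans ((Real.log_le_log ?_ hp0s.le).trans hlR)
    have : (3 : ℝ) ≤ p0 := by exact_mod_cast hW.three
    linarith

/-- **at most two zone events per item** (no flags) -/
theorem em_card (h : BF N c p0 q) (hW : WdOK Zw (Aex N) p0 j₀)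
    (hf : ∀ s ∈ c.t.mt q, ¬ FLW {5} {5 / 4} c.γ 2 j₀ (Lb c q s)) (F : Finset ℕ)
    (hF : ∀ s ∈ F, s ∈ c.t.mt q ∧ EMq Zw c q s) : F.card ≤ 2 := by
  classical
  rcases F.eq_empty_or_nonempty with he | hne
  · rw [he]; simp
  set s₁ := F.max' hne with hs1
  have m1 : s₁ ∈ F := F.max'_mem hne
  have key : (F.erase s₁).card ≤ 1 := by
    rw [Finset.card_le_one]
    intro a ha b hb
    have thin : ∀ s ∈ F.erase s₁, s ∈ c.t.mt q ∧ (∃ μ, sla c.γ (c.r q) (s :: lst (c.t.mt q) s) = some μ ∧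
        sla c.γ (c.r q) (lst (c.t.mt q) s) ≠ some μ) ∧ Rad c q s ≤ Real.log s ^ (-(Aex N)) := by
      intro s hs
      obtain ⟨n1, n2⟩ := Finset.mem_erase.1 hs
      obtain ⟨h3, μ, h4, h5, -⟩ := hF s n2
      have hlt : s < s₁ := lt_of_le_of_ne (F.le_max' s n2) n1
      refine ⟨h3, ⟨μ, Crest.Agent.R4P.StM6.sla_of_own ?_ h4, h5⟩,
        no_fat h hW (hF s₁ m1).1 h3 hlt (hf s h3) (hF s₁ m1).2 (birL_of h h4 h5)⟩
      rw [Lb_prod]; exact Nat.mul_pos (h.mpos s h3) (Bab_pos h.mpos s)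
    obtain ⟨a1, ⟨μa, a2, a3⟩, a4⟩ := thin a ha
    obtain ⟨b1, ⟨μb, b2, b3⟩, b4⟩ := thin b hb
    exact (sla_new_unique h.mpos h.few h.big (fun x hx => (h.mp x hx).le) h.nb a1 b1 a4 b4
      a2 a3 b2 b3).1
  rw [← Finset.card_erase_add_one m1]
  omega

end items

/-! ### monotonicity in the width, the size event, the width function -/

lemma Zn.mono {Z Z' R e : ℝ} {k : ℕ} (hZ : 1 ≤ Z) (h : Z ≤ Z') (hR : 0 ≤ R) (he : 0 ≤ e)
    (hz : Zn Z R e k) : Zn Z' R e k := by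
  have hZ' : 1 ≤ Z' := hZ.trans h
  rcases hz with hz | hz | hz
  · left
    have : 10 * Z * R ≤ 10 * Z' * R := by nlinarith
    linarith
  · right; left
    have h1 : Z ^ 6 ≤ Z' ^ 6 := pow_le_pow_left₀ (by linarith) h 6
    have h2 : 0 ≤ (k : ℝ) ^ 5 * R := by positivity
    exact lt_of_lt_of_le hz (mul_le_mul_of_nonneg_right h1 h2)
  · right; right
    have h1 : Z ^ 9 ≤ Z' ^ 9 := pow_le_pow_left₀ (by linarith) h 9
    have h2 : 0 ≤ e ^ 5 := by positivity
    refine lt_of_lt_of_le hz ?_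
    nlinarith [mul_le_mul_of_nonneg_right h1 h2]

lemma EM.mono {Z Z' γ ψ : ℝ} {s : ℕ} {L : List ℕ} {g g' : Option ℚ} (hZ : 1 ≤ Z) (h : Z ≤ Z')
    (hψ : 0 ≤ ψ) (hz : EM Z γ ψ s L g g') : EM Z' γ ψ s L g g' := by
  obtain ⟨μ, h1, h2, h3, h4⟩ := hz
  exact ⟨μ, h1, h2, h3, Zn.mono hZ h (by positivity) (abs_nonneg _) h4⟩

lemma ED.mono {Z Z' γ ψ : ℝ} {s : ℕ} {L : List ℕ} {g g' : Option ℚ} (hZ : 1 ≤ Z) (h : Z ≤ Z')
    (hz : ED Z γ ψ s L g g') : ED Z' γ ψ s L g g' := by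
  obtain ⟨κ, h1, h2, h3, h4, h5, h6⟩ := hz
  refine ⟨κ, h1, h2, h3, h4, h5, ?_⟩
  unfold Nr at h6 ⊢
  refine h6.trans ?_
  have h7 : Z ^ 9 ≤ Z' ^ 9 := pow_le_pow_left₀ (by linarith) h 9
  have h8 : 0 ≤ ψ ^ 4 := by positivity
  nlinarith [mul_le_mul_of_nonneg_right h7 h8]

/-- smallness of the own radius with the width `Z`: gives `Sm` for the piece and its mates -/
structure SmZ (Z K R : ℝ) : Prop where
  s1 : (2 * (1 + K)) ^ 5 * Z ^ 8 * R ^ 2 < 1
  s2 : (4 * K) ^ 5 * Z ^ 11 * R ≤ 1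

lemma SmZ.sm {Z K R R' : ℝ} (h : SmZ Z K R) (hZ : 1 ≤ Z) (hK : 0 ≤ K) (hR : 0 ≤ R) (hR' : 0 ≤ R')
    (hRR : R' ≤ Z * R) : Sm Z K R' := by
  constructor
  · have h1 : R' ^ 2 ≤ (Z * R) ^ 2 := pow_le_pow_left₀ hR' hRR 2
    have h2 : 0 ≤ (2 * (1 + K)) ^ 5 * Z ^ 6 := by positivity
    calc (2 * (1 + K)) ^ 5 * Z ^ 6 * R' ^ 2 ≤ (2 * (1 + K)) ^ 5 * Z ^ 6 * (Z * R) ^ 2 :=
          mul_le_mul_of_nonneg_left h1 h2
      _ = (2 * (1 + K)) ^ 5 * Z ^ 8 * R ^ 2 := by ring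
      _ < 1 := h.s1
  · have h2 : 0 ≤ (4 * K) ^ 5 * Z ^ 10 := by positivity
    calc (4 * K) ^ 5 * Z ^ 10 * R' ≤ (4 * K) ^ 5 * Z ^ 10 * (Z * R) := mul_le_mul_of_nonneg_left hRR h2
      _ = (4 * K) ^ 5 * Z ^ 11 * R := by ring
      _ ≤ 1 := h.s2

section items2
open Crest.Agent.R4P.Bir30 Crest.Agent.R4P.Data758 Crest.Agent.R4P.PruneAcc17
open Crest.Agent.R4P.Bir30.BF (Rad)

variable {N : Crest.Agent.R4P.Skel189.Num} {c : Cf} {p0 q : ℕ} {Zw : ℝ → ℝ} {j₀ : ℕ} {r₀ : ℝ}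

/-- **payable event of an item at the own missing tie `s`** : a new own label which is in its zone, or
whose radius is larger than `r₀` -/
def EMs (Zw : ℝ → ℝ) (r₀ : ℝ) (c : Cf) (q s : ℕ) : Prop :=
  EMq Zw c q s ∨ (r₀ < Rad c q s ∧ ∃ μ, own c.γ (c.r q) (Lb c q s) = some μ)

/-- a stage with a label and `R > r₀` is the last one with a label -/
lemma size_last (h : BF N c p0 q) (hr : 1 ≤ r₀ * p0) {s₁ s₂ : ℕ} (h1 : s₁ ∈ c.t.mt q)
    (h2 : s₂ ∈ c.t.mt q) (h12 : s₂ < s₁) (hR : r₀ < Rad c q s₁) {τ : ℚ}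
    (hb : own c.γ (c.r q) (Lb c q s₂) = some τ) : False := by
  have hs2 : 0 < s₂ := h.mpos s₂ h2
  have hs1 : 0 < s₁ := h.mpos s₁ h1
  have hUp : 0 < (Lb c q s₁).prod := by rw [Lb_prod]; exact Nat.mul_pos hs1 (Bab_pos h.mpos s₁)
  have hVp : 0 < (Lb c q s₂).prod := by rw [Lb_prod]; exact Nat.mul_pos hs2 (Bab_pos h.mpos s₂)
  obtain ⟨g0, g1, -, -⟩ := own_spec hVp hb
  have e2 := Lb_rad (c := c) (q := q) s₂
  rw [e2] at g1
  -- `Rad s₂ ≥ s₂ Rad s₁`
  have hdvd : (Lb c q s₁).prod ∣ Bab c.t q s₂ := by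
    have eU : lst (c.t.mt q) (s₁ - 1) = Lb c q s₁ := lst_mem h1 hs1
    rw [← eU, ← lst_prod_Bab, lst_app (c.t.mt q) (show s₂ ≤ s₁ - 1 by omega), List.prod_append]
    exact Dvd.intro_left _ rfl
  have hle : (Lb c q s₁).prod ≤ Bab c.t q s₂ := Nat.le_of_dvd (Bab_pos h.mpos s₂) hdvd
  have h3 : (s₂ : ℝ) * Rad c q s₁ ≤ Rad c q s₂ := by
    rw [← Lb_rad s₁]
    unfold Rad
    have : ((Lb c q s₁).prod : ℝ) ≤ Bab c.t q s₂ := by exact_mod_cast hle
    exact mul_le_mul_of_nonneg_left (mul_le_mul_of_nonneg_right this g0.le) (Nat.cast_nonneg _)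
  have hp : (p0 : ℝ) < s₂ := by exact_mod_cast h.mp s₂ h2
  have hp0 : (0 : ℝ) ≤ p0 := Nat.cast_nonneg _
  have hr0 : 0 < r₀ := by
    by_contra hc
    push Not at hc
    nlinarith
  nlinarith

/-- **at most three payable events per item** (no flags) -/
theorem ems_card (h : BF N c p0 q) (hW : WdOK Zw (Aex N) p0 j₀) (hr : 1 ≤ r₀ * p0)
    (hf : ∀ s ∈ c.t.mt q, ¬ FLW {5} {5 / 4} c.γ 2 j₀ (Lb c q s)) (F : Finset ℕ)
    (hF : ∀ s ∈ F, s ∈ c.t.mt q ∧ EMs Zw r₀ c q s) : F.card ≤ 3 := by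
  classical
  have h1 : (F.filter (fun s => EMq Zw c q s)).card ≤ 2 := by
    refine em_card h hW hf _ fun s hs => ?_
    obtain ⟨a1, a2⟩ := Finset.mem_filter.1 hs
    exact ⟨(hF s a1).1, a2⟩
  have h2 : (F.filter (fun s => ¬ EMq Zw c q s)).card ≤ 1 := by
    rw [Finset.card_le_one]
    intro a ha b hb
    obtain ⟨a1, a2⟩ := Finset.mem_filter.1 ha
    obtain ⟨b1, b2⟩ := Finset.mem_filter.1 hb
    obtain ⟨a3, a4⟩ := hF a a1
    obtain ⟨b3, b4⟩ := hF b b1
    obtain ⟨a5, μ, a6⟩ := a4.resolve_left a2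
    obtain ⟨b5, ν, b6⟩ := b4.resolve_left b2
    rcases lt_trichotomy a b with hab | hab | hab
    · exact (size_last h hr b3 a3 hab b5 a6).elim
    · exact hab
    · exact (size_last h hr a3 b3 hab a5 b6).elim
  have h3 := Finset.card_filter_add_card_filter_not (s := F) (fun s => EMq Zw c q s)
  omega

end items2

/-- **the width function** `exp ((log 1/R)^(1/200))` -/
noncomputable def Zw0 (R : ℝ) : ℝ := Real.exp ((max 0 (Real.log (1 / R))) ^ (1 / 200 : ℝ))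

lemma one_le_Zw0 (R : ℝ) : 1 ≤ Zw0 R := by
  unfold Zw0
  exact Real.one_le_exp (Real.rpow_nonneg (le_max_left _ _) _)

/-- the width function is small, eventually in `p0` -/
theorem ev_wd (A : ℝ) (hA : 0 ≤ A) : ∃ p₁ : ℕ, ∀ p0 ≥ p₁, ∀ j₀ : ℕ,
    2 * (2 : ℝ) ^ j₀ ≤ Real.log p0 → WdOK Zw0 A p0 j₀ := by
  have h1 : ∀ᶠ l : ℝ in Filter.atTop,
      10 * (1 + l ^ (1 / 200 : ℝ)) + A * Real.log l ≤ l ^ (1 / 80 : ℝ) := by
    have e1 : ∀ᶠ l : ℝ in Filter.atTop, (40 : ℝ) ≤ l ^ (3 / 400 : ℝ) :=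
      (tendsto_rpow_atTop (show (0 : ℝ) < 3 / 400 by norm_num)).eventually_ge_atTop _
    have e2 := (isLittleO_log_rpow_atTop (show (0 : ℝ) < 1 / 80 by norm_num)).bound
      (show (0 : ℝ) < 1 / (4 * (A + 1)) by positivity)
    have e3 : ∀ᶠ l : ℝ in Filter.atTop, (40 : ℝ) ≤ l ^ (1 / 80 : ℝ) :=
      (tendsto_rpow_atTop (show (0 : ℝ) < 1 / 80 by norm_num)).eventually_ge_atTop _
    filter_upwards [e1, e2, e3, Filter.eventually_ge_atTop 1] with l h1 h2 h3 h4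
    have hl0 : 0 < l := by linarith
    have h1' : 40 * l ^ (1 / 200 : ℝ) ≤ l ^ (1 / 80 : ℝ) := by
      have e : l ^ (1 / 80 : ℝ) = l ^ (3 / 400 : ℝ) * l ^ (1 / 200 : ℝ) := by
        rw [← Real.rpow_add hl0]; norm_num
      rw [e]
      exact mul_le_mul_of_nonneg_right h1 (Real.rpow_nonneg hl0.le _)
    rw [Real.norm_eq_abs, Real.norm_eq_abs, abs_of_nonneg (Real.log_nonneg h4),
      abs_of_pos (Real.rpow_pos_of_pos hl0 _)] at h2
    have h5 : A * Real.log l ≤ 1 / 4 * l ^ (1 / 80 : ℝ) := by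
      have h6 : 0 ≤ l ^ (1 / 80 : ℝ) := Real.rpow_nonneg hl0.le _
      have h7 : 0 ≤ Real.log l := Real.log_nonneg h4
      calc A * Real.log l ≤ (A + 1) * Real.log l := by nlinarith
        _ ≤ (A + 1) * (1 / (4 * (A + 1)) * l ^ (1 / 80 : ℝ)) :=
            mul_le_mul_of_nonneg_left h2 (by linarith)
        _ = 1 / 4 * l ^ (1 / 80 : ℝ) := by field_simp
    linarith
  obtain ⟨l₁, hl₁⟩ := Filter.eventually_atTop.1 h1
  obtain ⟨n, hn⟩ := exists_nat_gt (Real.exp (max l₁ 1))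
  refine ⟨max n 3, fun p0 hp j₀ hj => ⟨one_le_Zw0, fun R hR hRp => ?_, hj,
    (le_max_right _ _).trans hp, hA⟩⟩
  have hp0 : (n : ℝ) ≤ p0 := by exact_mod_cast (le_max_left _ _).trans hp
  have hpos : (0 : ℝ) < p0 := lt_of_lt_of_le (lt_trans (Real.exp_pos _) hn) hp0
  have hl : max l₁ 1 ≤ Real.log (1 / R) := by
    have h2 : (p0 : ℝ) ≤ 1 / R := by
      rw [le_div_iff₀ hR, mul_comm]; exact hRp
    calc max l₁ 1 = Real.log (Real.exp (max l₁ 1)) := (Real.log_exp _).symm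
      _ ≤ Real.log (1 / R) := Real.log_le_log (Real.exp_pos _) (hn.le.trans (hp0.trans h2))
  have h3 := hl₁ _ ((le_max_left _ _).trans hl)
  have h4 : (1 : ℝ) ≤ Real.log (1 / R) := (le_max_right _ _).trans hl
  unfold Zw0
  rw [Real.log_exp, max_eq_right (by linarith)]
  exact h3

end Crest.Agent.R4P.EvM33
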