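import Mathlib

/-!
R4 (S0004) with powers, helper16: **the three halves energy of a row with a mismatch** (one member).

`th x = x √x`.  A tie of weight `w` with children contents `A` (P, weight `1-w`), `B` (N, weight `w`);
exact row `X i = m + (s i - w) Δ`, `m = (1-w) A + w B`, `0 ≤ Δ ≤ (B-A)^+`.  A real row of a union of
classes is `X i + (s i - w) η` (`η` = mismatch).  Separate at the special points the content
`κ i = (1-w) s i η`; the rest is `X i - w η (1 - s i)`.

* `row_th` : the exact row does not increase the energy.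
* `mism_row` : **the energy drop pays `5/4` of the energy of the separated content (and `1/12` of the
  energy of the lifts `s i η`)**, for any `η ≤ m - w Δ`; `mism_id` : the two parts of the real row.
-/

set_option autoImplicit false
set_option linter.unusedVariables false

namespace Crest.Agent.R4P.MisR16

open Finset

/-- `x ^ (3/2)` -/
noncomputable def th (x : ℝ) : ℝ := x * Real.sqrt x

lemma th_zero : th 0 = 0 := by simp [th]

lemma th_nonneg {x : ℝ} (hx : 0 ≤ x) : 0 ≤ th x := mul_nonneg hx (Real.sqrt_nonneg _)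

lemma th_mono {x y : ℝ} (hx : 0 ≤ x) (h : x ≤ y) : th x ≤ th y :=
  mul_le_mul h (Real.sqrt_le_sqrt h) (Real.sqrt_nonneg _) (hx.trans h)

lemma th_le {x : ℝ} (hx : 0 ≤ x) (h : x ≤ 1) : th x ≤ x := by
  have : Real.sqrt x ≤ 1 := Real.sqrt_le_one.2 h
  calc x * Real.sqrt x ≤ x * 1 := mul_le_mul_of_nonneg_left this hx
    _ = x := mul_one x

lemma sq_le_th {x : ℝ} (hx : 0 ≤ x) (h : x ≤ 1) : x ^ 2 ≤ th x := by
  have h1 : x ≤ Real.sqrt x := by
    apply Real.le_sqrt_of_sq_le
    nlinarith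
  calc x ^ 2 = x * x := sq x
    _ ≤ x * Real.sqrt x := mul_le_mul_of_nonneg_left h1 hx

lemma th_mul {x y : ℝ} (hx : 0 ≤ x) : th (x * y) = th x * th y := by
  unfold th
  rw [Real.sqrt_mul hx]
  ring

/-- the tangent -/
lemma th_tan {a b : ℝ} (ha : 0 ≤ a) (hb : 0 ≤ b) :
    th b + 3 / 2 * Real.sqrt b * (a - b) ≤ th a := by
  unfold th
  set α := Real.sqrt a with hα
  set β := Real.sqrt b with hβ
  have h1 : α * α = a := Real.mul_self_sqrt ha
  have h2 : β * β = b := Real.mul_self_sqrt hb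
  have h3 : 0 ≤ α := Real.sqrt_nonneg _
  have h4 : 0 ≤ β := Real.sqrt_nonneg _
  rw [← h1, ← h2]
  have : 0 ≤ (α - β) ^ 2 * (α + β / 2) := by positivity
  nlinarith [this]

/-- births are Lipschitz -/
lemma th_add_le {x y : ℝ} (hx : 0 ≤ x) (hy : 0 ≤ y) (h : x + y ≤ 1) :
    th (x + y) ≤ th x + 3 / 2 * y := by
  have h1 := th_tan (a := x) (b := x + y) hx (by linarith)
  have h2 : Real.sqrt (x + y) ≤ 1 := Real.sqrt_le_one.2 h
  have h3 : Real.sqrt (x + y) * y ≤ 1 * y := mul_le_mul_of_nonneg_right h2 hy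
  nlinarith

/-- superadditivity -/
lemma th_super {x y : ℝ} (hx : 0 ≤ x) (hy : 0 ≤ y) : th x + th y ≤ th (x + y) := by
  unfold th
  have h1 : Real.sqrt x ≤ Real.sqrt (x + y) := Real.sqrt_le_sqrt (by linarith)
  have h2 : Real.sqrt y ≤ Real.sqrt (x + y) := Real.sqrt_le_sqrt (by linarith)
  nlinarith [mul_le_mul_of_nonneg_left h1 hx, mul_le_mul_of_nonneg_left h2 hy]

lemma th_sum {ι : Type*} (s : Finset ι) (f : ι → ℝ) (hf : ∀ i ∈ s, 0 ≤ f i) :
    ∑ i ∈ s, th (f i) ≤ th (∑ i ∈ s, f i) := by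
  classical
  induction s using Finset.induction_on with
  | empty => simp [th_zero]
  | insert a s ha ih =>
    rw [Finset.sum_insert ha, Finset.sum_insert ha]
    have h1 := ih fun i hi => hf i (Finset.mem_insert_of_mem hi)
    have h2 := th_super (hf a (Finset.mem_insert_self a s))
      (Finset.sum_nonneg fun i hi => hf i (Finset.mem_insert_of_mem hi))
    linarith

/-- two point convexity -/
lemma th_conv {x y t : ℝ} (hx : 0 ≤ x) (hy : 0 ≤ y) (h0 : 0 ≤ t) (h1 : t ≤ 1) :
    th ((1 - t) * x + t * y) ≤ (1 - t) * th x + t * th y := by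
  have hz : 0 ≤ (1 - t) * x + t * y := by
    have : 0 ≤ 1 - t := by linarith
    positivity
  have a := th_tan (a := x) (b := (1 - t) * x + t * y) hx hz
  have b := th_tan (a := y) (b := (1 - t) * x + t * y) hy hz
  have a' := mul_le_mul_of_nonneg_left a (show 0 ≤ 1 - t by linarith)
  have b' := mul_le_mul_of_nonneg_left b h0
  nlinarith [a', b']

section row
variable {ι : Type*} [Fintype ι] {u s : ι → ℝ} {w A B m Δ : ℝ}

/-- **the exact row** -/
theorem row_th (u0 : ∀ i, 0 ≤ u i) (u1 : ∑ i, u i = 1) (hs : ∀ i, 0 ≤ s i ∧ s i ≤ 1)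
    (hsu : ∑ i, u i * s i = w) (hw0 : 0 ≤ w) (hw1 : w ≤ 1) (hA : 0 ≤ A) (hB : 0 ≤ B)
    (hm : m = (1 - w) * A + w * B) (hΔ0 : 0 ≤ Δ) (hΔ : Δ ≤ max (B - A) 0) :
    ∑ i, u i * th (m + (s i - w) * Δ) ≤ (1 - w) * th A + w * th B := by
  have hw1' : 0 ≤ 1 - w := by linarith
  have hm0 : 0 ≤ m := by rw [hm]; positivity
  have hmm : th m ≤ (1 - w) * th A + w * th B := by
    rw [hm]; exact th_conv hA hB hw0 hw1
  have u1' : ∑ i, u i * (1 - s i) = 1 - w := by
    simp only [mul_sub, mul_one, Finset.sum_sub_distrib]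
    rw [u1, hsu]
  rcases le_total B A with hab | hab
  · have hz : Δ = 0 := by
      rw [max_eq_right (by linarith)] at hΔ
      linarith
    have e : ∀ i, u i * th (m + (s i - w) * Δ) = u i * th m := fun i => by rw [hz]; ring_nf
    rw [Finset.sum_congr rfl fun i _ => e i, ← Finset.sum_mul, u1, one_mul]
    exact hmm
  · rw [max_eq_left (by linarith)] at hΔ
    -- `Δ = t (B - A)`
    obtain ⟨t, t0, t1, ht⟩ : ∃ t : ℝ, 0 ≤ t ∧ t ≤ 1 ∧ Δ = t * (B - A) := by
      rcases eq_or_lt_of_le (show 0 ≤ B - A by linarith) with h | h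
      · refine ⟨0, le_rfl, zero_le_one, ?_⟩
        rw [← h] at hΔ
        linarith
      · refine ⟨Δ / (B - A), div_nonneg hΔ0 h.le, (div_le_one h).2 hΔ, ?_⟩
        field_simp
    have k1 : m - w * Δ = (1 - t) * m + t * A := by rw [ht, hm]; ring
    have k2 : m + (1 - w) * Δ = (1 - t) * m + t * B := by rw [ht, hm]; ring
    have c1 : th (m - w * Δ) ≤ (1 - t) * th m + t * th A := by
      rw [k1]; exact th_conv hm0 hA t0 t1
    have c2 : th (m + (1 - w) * Δ) ≤ (1 - t) * th m + t * th B := by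
      rw [k2]; exact th_conv hm0 hB t0 t1
    have p1 : 0 ≤ m - w * Δ := by
      rw [k1]
      have : 0 ≤ 1 - t := by linarith
      positivity
    have p2 : 0 ≤ m + (1 - w) * Δ := by positivity
    have key : ∀ i, u i * th (m + (s i - w) * Δ) ≤
        u i * (1 - s i) * th (m - w * Δ) + u i * s i * th (m + (1 - w) * Δ) := by
      intro i
      have e : m + (s i - w) * Δ = (1 - s i) * (m - w * Δ) + s i * (m + (1 - w) * Δ) := by ring
      have h := th_conv p1 p2 (hs i).1 (hs i).2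
      rw [e]
      have := mul_le_mul_of_nonneg_left h (u0 i)
      linarith
    have h1 := Finset.sum_le_sum fun i (_ : i ∈ (univ : Finset ι)) => key i
    rw [Finset.sum_add_distrib, ← Finset.sum_mul, ← Finset.sum_mul, u1', hsu] at h1
    have h2 := mul_le_mul_of_nonneg_left c1 hw1'
    have h3 := mul_le_mul_of_nonneg_left c2 hw0
    have h4 := mul_le_mul_of_nonneg_left hmm (show 0 ≤ 1 - t by linarith)
    nlinarith [h1, h2, h3, h4]

lemma th_half {w : ℝ} (hw : w ≤ 1 / 2) : 1 / 3 ≤ th (1 - w) := by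
  have h1 : th (1 / 2) ≤ th (1 - w) := th_mono (by norm_num) (by linarith)
  refine le_trans ?_ h1
  unfold th
  have : (2 : ℝ) / 3 ≤ Real.sqrt (1 / 2) := by
    apply Real.le_sqrt_of_sq_le
    norm_num
  linarith

/-- **the row with a mismatch** -/
theorem mism_row (u0 : ∀ i, 0 ≤ u i) (u1 : ∑ i, u i = 1) (hs : ∀ i, 0 ≤ s i ∧ s i ≤ 1)
    (hsu : ∑ i, u i * s i = w) (hw0 : 0 ≤ w) (hw1 : w ≤ 1 / 2) (hA : 0 ≤ A) (hB : 0 ≤ B)
    (hm : m = (1 - w) * A + w * B) (hΔ0 : 0 ≤ Δ) (hΔ : Δ ≤ max (B - A) 0) {η : ℝ}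
    (hη : 0 ≤ η) (hη1 : η ≤ m - w * Δ) :
    ∑ i, u i * (th (m + (s i - w) * Δ - w * η * (1 - s i)) + 5 / 4 * th ((1 - w) * (s i * η)) +
      1 / 12 * th (s i * η)) ≤ (1 - w) * th A + w * th B := by
  have h0 := row_th u0 u1 hs hsu hw0 (by linarith) hA hB hm hΔ0 hΔ
  have hw1' : 0 ≤ 1 - w := by linarith
  have u1' : ∑ i, u i * (1 - s i) = 1 - w := by
    simp only [mul_sub, mul_one, Finset.sum_sub_distrib]
    rw [u1, hsu]
  set ζ := (1 - w) * η with hζ
  have hζ0 : 0 ≤ ζ := by positivity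
  have eζ : th ζ = th (1 - w) * th η := th_mul hw1'
  have hthη := th_nonneg hη
  have key : ∀ i, u i * (th (m + (s i - w) * Δ - w * η * (1 - s i)) +
      5 / 4 * th ((1 - w) * (s i * η)) + 1 / 12 * th (s i * η)) ≤
      u i * th (m + (s i - w) * Δ) - 3 / 2 * w * (Real.sqrt ζ * η) * (u i * (1 - s i)) +
        (5 / 4 * th ζ + 1 / 12 * th η) * (u i * s i) := by
    intro i
    obtain ⟨s0, s1⟩ := hs i
    have a1 : 0 ≤ s i * Δ := mul_nonneg s0 hΔ0
    have a2 : w * η * (1 - s i) ≤ w * η := by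
      have : 0 ≤ w * η * s i := by positivity
      nlinarith
    have a3 : 0 ≤ w * η * (1 - s i) := mul_nonneg (by positivity) (by linarith)
    have hX : ζ ≤ m + (s i - w) * Δ - w * η * (1 - s i) := by
      rw [hζ]; nlinarith
    have hX0 : 0 ≤ m + (s i - w) * Δ - w * η * (1 - s i) := hζ0.trans hX
    have b1 := th_tan (a := m + (s i - w) * Δ)
      (b := m + (s i - w) * Δ - w * η * (1 - s i)) (by linarith) hX0
    have b2 : Real.sqrt ζ ≤ Real.sqrt (m + (s i - w) * Δ - w * η * (1 - s i)) :=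
      Real.sqrt_le_sqrt hX
    have b3 := mul_le_mul_of_nonneg_right b2 a3
    have b4 : th (m + (s i - w) * Δ - w * η * (1 - s i)) ≤ th (m + (s i - w) * Δ) -
        3 / 2 * (Real.sqrt ζ * (w * η * (1 - s i))) := by
      nlinarith [b1, b3]
    have c1 : th ((1 - w) * (s i * η)) ≤ s i * th ζ := by
      have e : (1 - w) * (s i * η) = s i * ζ := by rw [hζ]; ring
      rw [e, th_mul s0]
      exact mul_le_mul_of_nonneg_right (th_le s0 s1) (th_nonneg hζ0)
    have c2 : th (s i * η) ≤ s i * th η := by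
      rw [th_mul s0]
      exact mul_le_mul_of_nonneg_right (th_le s0 s1) hthη
    have := mul_le_mul_of_nonneg_left (add_le_add (add_le_add b4
      (mul_le_mul_of_nonneg_left c1 (show (0:ℝ) ≤ 5 / 4 by norm_num)))
      (mul_le_mul_of_nonneg_left c2 (show (0:ℝ) ≤ 1 / 12 by norm_num))) (u0 i)
    refine this.trans (le_of_eq ?_)
    ring
  have h1 := Finset.sum_le_sum fun i (_ : i ∈ (univ : Finset ι)) => key i
  rw [Finset.sum_add_distrib, Finset.sum_sub_distrib, ← Finset.mul_sum, ← Finset.mul_sum, u1',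
    hsu] at h1
  have e1 : (1 - w) * (Real.sqrt ζ * η) = th ζ := by
    unfold th; rw [hζ]; ring
  have e2 : 3 / 2 * w * (Real.sqrt ζ * η) * (1 - w) = 3 / 2 * w * th ζ := by
    rw [← e1]; ring
  rw [e2] at h1
  have h2 : 1 / 12 * th η ≤ 1 / 4 * th ζ := by
    rw [eζ]
    have := mul_le_mul_of_nonneg_right (th_half hw1) hthη
    linarith
  have h3 := mul_le_mul_of_nonneg_left h2 hw0
  nlinarith [h0, h1, h3]

/-- the two parts of the real row -/
lemma mism_id (m w Δ η σ : ℝ) : (m + (σ - w) * Δ - w * η * (1 - σ)) + (1 - w) * (σ * η) =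
    m + (σ - w) * (Δ + η) := by ring

end row

/-- many real classes in one game class: `η` = mismatch, shares are averaged -/
theorem union_row {C : Type*} (S : Finset C) (a b σ : C → ℝ) (ha : ∀ c ∈ S, 0 ≤ a c)
    (hb : ∀ c ∈ S, 0 ≤ b c) (hσ : ∀ c ∈ S, 0 ≤ σ c ∧ σ c ≤ 1) :
    ∃ η : ℝ, 0 ≤ η ∧ η ≤ ∑ c ∈ S, a c ∧ η ≤ ∑ c ∈ S, b c ∧
      ∑ c ∈ S, max (b c - a c) 0 = max (∑ c ∈ S, b c - ∑ c ∈ S, a c) 0 + η ∧
      ∑ c ∈ S, max (a c - b c) 0 = max (∑ c ∈ S, a c - ∑ c ∈ S, b c) 0 + η := by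
  set D := ∑ c ∈ S, max (b c - a c) 0 with hD
  set E := ∑ c ∈ S, max (a c - b c) 0 with hE
  set A := ∑ c ∈ S, a c with hA
  set B := ∑ c ∈ S, b c with hB
  have hDE : D - E = B - A := by
    rw [hD, hE, hA, hB, ← Finset.sum_sub_distrib, ← Finset.sum_sub_distrib]
    refine Finset.sum_congr rfl fun c _ => ?_
    rcases le_total (a c) (b c) with h | h
    · rw [max_eq_left (by linarith), max_eq_right (by linarith)]; ring
    · rw [max_eq_right (by linarith), max_eq_left (by linarith)]; ring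
  have hD0 : 0 ≤ D := Finset.sum_nonneg fun c _ => le_max_right _ _
  have hE0 : 0 ≤ E := Finset.sum_nonneg fun c _ => le_max_right _ _
  have hDB : D ≤ B := Finset.sum_le_sum fun c hc => max_le (by linarith [ha c hc]) (hb c hc)
  have hEA : E ≤ A := Finset.sum_le_sum fun c hc => max_le (by linarith [hb c hc]) (ha c hc)
  refine ⟨min D E, le_min hD0 hE0, (min_le_right _ _).trans hEA, (min_le_left _ _).trans hDB,
    ?_, ?_⟩
  · rcases le_total D E with h | h
    · rw [min_eq_left h, max_eq_right (by linarith)]; ring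
    · rw [min_eq_right h, max_eq_left (by linarith)]; linarith
  · rcases le_total D E with h | h
    · rw [min_eq_left h, max_eq_left (by linarith)]; linarith
    · rw [min_eq_right h, max_eq_right (by linarith)]; ring

end Crest.Agent.R4P.MisR16
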