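import Crest.Agent.R4P.GMer_27
import Crest.Agent.R4P.MisR_16

/-!
R4 (S0004) with powers, group game, helper44: **the column step of helper35's dual potential** (W = all
tests), closed form.

* `gram` : `(Σ w_k y_k)² ≤ 4/3 Σ_k Σ_l w_k w_l th (min y_k y_l)` for signed `w`, `0 ≤ y ≤ 1`;
* `Col.mix` : every row of a `Col` is `t_i h(j,false) + (1 - t_i) h(j,true)`, mean of `t` = `1 - q`;
* **`PD_col`** : `7/8 Σ u_i (M X_i - M h)² + Σ u_i PD c (X_i) ≤ PD (cT q c) h`,
  `PD c h = 28/3 M (th h) - 7/6 Σ_j Σ_j' c_j c_j' th (min h_j h_j')`.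
-/

set_option autoImplicit false
set_option linter.unusedVariables false
set_option linter.unusedSectionVars false

namespace Crest.Agent.R4P.PDc44

open Finset Crest.Agent.R4P.GMer27 Crest.Agent.R4P.MisR16

/-! ### the kernel is positive and controls the mean -/

/-- the test function `s 1[s ≤ r]` -/
noncomputable def fr (r : ℝ) : ℝ → ℝ := Set.indicator {x | x ≤ r} (fun s => s)

lemma fr_int (r : ℝ) : IntervalIntegrable (fr r) MeasureTheory.volume 0 1 := by
  rw [intervalIntegrable_iff_integrableOn_Ioc_of_le zero_le_one]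
  exact (continuous_id.integrableOn_Ioc).indicator measurableSet_Iic

lemma fr_mul (r r' : ℝ) : (fun s => fr r s * fr r' s) =
    Set.indicator {x | x ≤ min r r'} (fun s => s ^ 2) := by
  funext s
  simp only [fr, Set.indicator, Set.mem_ofPred_eq, le_min_iff]
  by_cases h : s ≤ r <;> by_cases h' : s ≤ r' <;> simp [h, h', sq]

lemma frm_int (r r' : ℝ) : IntervalIntegrable (fun s => fr r s * fr r' s) MeasureTheory.volume 0 1 := by
  rw [fr_mul, intervalIntegrable_iff_integrableOn_Ioc_of_le zero_le_one]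
  exact ((continuous_pow 2).integrableOn_Ioc).indicator measurableSet_Iic

lemma I_fr {r : ℝ} (h0 : 0 ≤ r) (h1 : r ≤ 1) : ∫ s in (0:ℝ)..1, fr r s = r ^ 2 / 2 := by
  unfold fr
  rw [intervalIntegral.integral_indicator ⟨h0, h1⟩, integral_id]
  ring

lemma I_frm {r r' : ℝ} (h0 : 0 ≤ r) (h1 : r ≤ 1) (h0' : 0 ≤ r') (h1' : r' ≤ 1) :
    ∫ s in (0:ℝ)..1, fr r s * fr r' s = (min r r') ^ 3 / 3 := by
  rw [fr_mul, intervalIntegral.integral_indicator ⟨le_min h0 h0', (min_le_left _ _).trans h1⟩,
    integral_pow]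
  norm_num

lemma th_sqrt {y : ℝ} (hy : 0 ≤ y) : th y = (Real.sqrt y) ^ 3 := by
  unfold th
  nlinarith [Real.mul_self_sqrt hy, Real.sqrt_nonneg y]

lemma min_sqrt (y y' : ℝ) : min (Real.sqrt y) (Real.sqrt y') = Real.sqrt (min y y') := by
  rcases le_total y y' with h | h
  · rw [min_eq_left h, min_eq_left (Real.sqrt_le_sqrt h)]
  · rw [min_eq_right h, min_eq_right (Real.sqrt_le_sqrt h)]

lemma ii_sum {K : Type*} [Fintype K] {f : K → ℝ → ℝ}
    (h : ∀ k, IntervalIntegrable (f k) MeasureTheory.volume 0 1) :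
    IntervalIntegrable (fun s => ∑ k, f k s) MeasureTheory.volume 0 1 := by
  have e : (fun s => ∑ k, f k s) = ∑ k, f k := by
    funext s
    simp
  rw [e]
  exact IntervalIntegrable.sum _ fun k _ => h k

/-- **the Gram bound** -/
theorem gram {K : Type*} [Fintype K] (w y : K → ℝ) (h0 : ∀ k, 0 ≤ y k) (h1 : ∀ k, y k ≤ 1) :
    (∑ k, w k * y k) ^ 2 ≤ 4 / 3 * ∑ k, ∑ l, w k * w l * th (min (y k) (y l)) := by
  set r : K → ℝ := fun k => Real.sqrt (y k) with hr
  have r0 : ∀ k, 0 ≤ r k := fun k => Real.sqrt_nonneg _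
  have r1 : ∀ k, r k ≤ 1 := fun k => Real.sqrt_le_one.2 (h1 k)
  have r2 : ∀ k, r k ^ 2 = y k := fun k => Real.sq_sqrt (h0 k)
  have r3 : ∀ k l, (min (r k) (r l)) ^ 3 = th (min (y k) (y l)) := by
    intro k l
    rw [th_sqrt (le_min (h0 k) (h0 l)), ← min_sqrt]
  set m : ℝ := ∑ k, w k * (y k / 2) with hm
  have hG : (∫ s in (0:ℝ)..1, (∑ k, w k * fr (r k) s - m) ^ 2) =
      ∑ k, ∑ l, w k * w l * (th (min (y k) (y l)) / 3) - 2 * m * m + m ^ 2 := by
    have e : (fun s => (∑ k, w k * fr (r k) s - m) ^ 2) = fun s =>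
        (∑ k, ∑ l, w k * w l * (fr (r k) s * fr (r l) s)) + ((∑ k, (-(2 * m) * w k) * fr (r k) s) + m ^ 2) := by
      funext s
      have e1 : (∑ k, w k * fr (r k) s) ^ 2 = ∑ k, ∑ l, w k * w l * (fr (r k) s * fr (r l) s) := by
        rw [sq, Finset.sum_mul_sum]
        exact Finset.sum_congr rfl fun k _ => Finset.sum_congr rfl fun l _ => by ring
      have e2 : ∑ k, (-(2 * m) * w k) * fr (r k) s = -(2 * m) * ∑ k, w k * fr (r k) s := by
        generalize -(2 * m) = A
        rw [Finset.mul_sum]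
        exact Finset.sum_congr rfl fun k _ => by ring
      rw [e2, ← e1]
      ring
    have i1 : ∀ k l, IntervalIntegrable (fun s => w k * w l * (fr (r k) s * fr (r l) s))
        MeasureTheory.volume 0 1 := fun k l => (frm_int _ _).const_mul _
    have i2 : ∀ k, IntervalIntegrable (fun s => ∑ l, w k * w l * (fr (r k) s * fr (r l) s))
        MeasureTheory.volume 0 1 := fun k => ii_sum fun l => i1 k l
    have i3 : ∀ k, IntervalIntegrable (fun s => (-(2 * m) * w k) * fr (r k) s)
        MeasureTheory.volume 0 1 := fun k => (fr_int _).const_mul _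
    have i2' : IntervalIntegrable (fun s => ∑ k, ∑ l, w k * w l * (fr (r k) s * fr (r l) s))
        MeasureTheory.volume 0 1 := ii_sum i2
    have i3' : IntervalIntegrable (fun s => ∑ k, (-(2 * m) * w k) * fr (r k) s)
        MeasureTheory.volume 0 1 := ii_sum i3
    rw [e, intervalIntegral.integral_add i2' (i3'.add intervalIntegrable_const),
      intervalIntegral.integral_add i3' intervalIntegrable_const,
      intervalIntegral.integral_finsetSum fun k _ => i2 k,
      intervalIntegral.integral_finsetSum fun k _ => i3 k]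
    have e3 : ∀ k, ∫ s in (0:ℝ)..1, ∑ l, w k * w l * (fr (r k) s * fr (r l) s) =
        ∑ l, w k * w l * (th (min (y k) (y l)) / 3) := by
      intro k
      rw [intervalIntegral.integral_finsetSum fun l _ => i1 k l]
      refine Finset.sum_congr rfl fun l _ => ?_
      rw [intervalIntegral.integral_const_mul, I_frm (r0 k) (r1 k) (r0 l) (r1 l), r3]
    have e4 : ∀ k, ∫ s in (0:ℝ)..1, (-(2 * m) * w k) * fr (r k) s = -(2 * m) * (w k * (y k / 2)) := by
      intro k
      rw [intervalIntegral.integral_const_mul, I_fr (r0 k) (r1 k), r2]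
      ring
    rw [Finset.sum_congr rfl fun k _ => e3 k, Finset.sum_congr rfl fun k _ => e4 k, ← Finset.mul_sum,
      ← hm]
    simp
    ring
  have h2 : 0 ≤ ∫ s in (0:ℝ)..1, (∑ k, w k * fr (r k) s - m) ^ 2 :=
    intervalIntegral.integral_nonneg zero_le_one fun s _ => sq_nonneg _
  rw [hG] at h2
  have e5 : ∑ k, ∑ l, w k * w l * (th (min (y k) (y l)) / 3) =
      (∑ k, ∑ l, w k * w l * th (min (y k) (y l))) / 3 := by
    rw [Finset.sum_div]
    refine Finset.sum_congr rfl fun k _ => ?_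
    rw [Finset.sum_div]
    exact Finset.sum_congr rfl fun l _ => by ring
  have e6 : ∑ k, w k * y k = 2 * m := by
    rw [hm, Finset.mul_sum]
    exact Finset.sum_congr rfl fun k _ => by ring
  rw [e5] at h2
  rw [e6]
  nlinarith [h2]

/-! ### rows of a column -/

section col
variable {J : Type*} [Fintype J] {c : J → ℝ}
variable {ι : Type*} [Fintype ι] {q : ℝ} {h : J × Bool → ℝ} {u : ι → ℝ} {X : ι → J → ℝ}

/-- every row of a column is a mixture of the two heights of the member -/
lemma mix (hq : 0 < q ∧ q < 1) (C : Col q h u X) (j : J) : ∃ t : ι → ℝ, (∀ i, 0 ≤ t i ∧ t i ≤ 1) ∧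
    ∑ i, u i * t i = 1 - q ∧
    ∀ i, X i j = t i * h (j, false) + (1 - t i) * h (j, true) := by
  obtain ⟨s, Δ, hs, hsu, hΔ0, hΔ1, hX⟩ := C.rule j
  have q1 : 0 ≤ 1 - q := by linarith [hq.2]
  simp only [av] at hX
  set a := h (j, false)
  set b := h (j, true)
  rcases le_or_gt a b with hab | hab
  · have hz : Δ = 0 := by
      rw [max_eq_right (by linarith)] at hΔ1
      linarith
    refine ⟨fun _ => 1 - q, fun _ => ⟨q1, by linarith [hq.1]⟩, ?_, fun i => ?_⟩
    · rw [← Finset.sum_mul, C.u1, one_mul]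
    · rw [hX i, hz]
      ring
  · rw [max_eq_left (by linarith)] at hΔ1
    have hd : 0 < a - b := by linarith
    set ρ := Δ / (a - b) with hρ
    have hρ0 : 0 ≤ ρ := div_nonneg hΔ0 hd.le
    have hρ1 : ρ ≤ 1 := (div_le_one hd).2 hΔ1
    have hΔ : Δ = ρ * (a - b) := by
      rw [hρ]
      field_simp
    refine ⟨fun i => (1 - q) + (s i - (1 - q)) * ρ, fun i => ?_, ?_, fun i => ?_⟩
    · obtain ⟨s0, s1⟩ := hs i
      constructor
      · have e1 : 0 ≤ s i * ρ := mul_nonneg s0 hρ0
        have e2 : (1 - q) * ρ ≤ (1 - q) * 1 := mul_le_mul_of_nonneg_left hρ1 q1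
        nlinarith
      · have e1 : (s i - (1 - q)) * ρ ≤ (1 - (1 - q)) * ρ :=
          mul_le_mul_of_nonneg_right (by linarith) hρ0
        have e2 : (1 - (1 - q)) * ρ ≤ (1 - (1 - q)) * 1 :=
          mul_le_mul_of_nonneg_left hρ1 (by linarith [hq.1])
        linarith
    · have e : ∑ i, u i * ((1 - q) + (s i - (1 - q)) * ρ) =
          (1 - q) * (1 - ρ) * ∑ i, u i + ρ * ∑ i, u i * s i := by
        rw [Finset.mul_sum, Finset.mul_sum, ← Finset.sum_add_distrib]
        exact Finset.sum_congr rfl fun i _ => by ring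
      rw [e, C.u1, hsu]
      ring
    · rw [hX i, hΔ]
      ring

/-- Jensen for one member -/
lemma jensen (hq : 0 < q ∧ q < 1) (C : Col q h u X) (j : J) (h0 : ∀ x, 0 ≤ h x) {g : ℝ → ℝ}
    (hg : ∀ a b t : ℝ, 0 ≤ a → 0 ≤ b → 0 ≤ t → t ≤ 1 →
      g (t * a + (1 - t) * b) ≤ t * g a + (1 - t) * g b) :
    ∑ i, u i * g (X i j) ≤ (1 - q) * g (h (j, false)) + q * g (h (j, true)) := by
  obtain ⟨t, ht, htu, hX⟩ := mix hq C j
  have h1 : ∑ i, u i * g (X i j) ≤
      ∑ i, u i * (t i * g (h (j, false)) + (1 - t i) * g (h (j, true))) := by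
    refine Finset.sum_le_sum fun i _ => mul_le_mul_of_nonneg_left ?_ (C.u0 i)
    rw [hX i]
    exact hg _ _ _ (h0 _) (h0 _) (ht i).1 (ht i).2
  have h2 : ∑ i, u i * (t i * g (h (j, false)) + (1 - t i) * g (h (j, true))) =
      (∑ i, u i * t i) * g (h (j, false)) + (∑ i, u i - ∑ i, u i * t i) * g (h (j, true)) := by
    rw [← Finset.sum_sub_distrib, Finset.sum_mul, Finset.sum_mul, ← Finset.sum_add_distrib]
    exact Finset.sum_congr rfl fun i _ => by ring
  rw [h2, htu, C.u1] at h1
  linarith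

/-! ### the kernel with a fixed second height -/

lemma th_minmax (a b : ℝ) : th (min a b) = th a + th b - th (max a b) := by
  rcases le_total a b with h | h
  · rw [min_eq_left h, max_eq_right h]; ring
  · rw [min_eq_right h, max_eq_left h]; ring

/-- `4 th a - th (min a b)` is convex (also with any larger coefficient `≥ 1`) -/
lemma conv_ker {b : ℝ} (hb : 0 ≤ b) (x y t : ℝ) (hx : 0 ≤ x) (hy : 0 ≤ y) (t0 : 0 ≤ t) (t1 : t ≤ 1) :
    4 * th (t * x + (1 - t) * y) - th (min (t * x + (1 - t) * y) b) ≤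
      t * (4 * th x - th (min x b)) + (1 - t) * (4 * th y - th (min y b)) := by
  have s0 : 0 ≤ 1 - t := by linarith
  have c1 := th_conv (x := y) (y := x) (t := t) hy hx t0 t1
  have e1 : (1 - t) * y + t * x = t * x + (1 - t) * y := by ring
  rw [e1] at c1
  -- the maximum
  have c2 := th_conv (x := max y b) (y := max x b) (t := t) (le_max_of_le_right hb)
    (le_max_of_le_right hb) t0 t1
  have e2 : max (t * x + (1 - t) * y) b ≤ (1 - t) * max y b + t * max x b := by
    refine max_le ?_ ?_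
    · have := mul_le_mul_of_nonneg_left (le_max_left y b) s0
      have := mul_le_mul_of_nonneg_left (le_max_left x b) t0
      linarith
    · have := mul_le_mul_of_nonneg_left (le_max_right y b) s0
      have := mul_le_mul_of_nonneg_left (le_max_right x b) t0
      nlinarith
  have c3 := th_mono (le_max_of_le_right hb : (0:ℝ) ≤ max (t * x + (1 - t) * y) b) e2
  rw [th_minmax, th_minmax x, th_minmax y]
  nlinarith [c1, c2, c3]

/-! ### the potential -/

/-- the pair form -/
noncomputable def D2 {K L : Type*} [Fintype K] [Fintype L] (a : K → ℝ) (b : L → ℝ) (f : K → ℝ) (g : L → ℝ) : ℝ :=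
  ∑ k, ∑ l, a k * b l * th (min (f k) (g l))

/-- **the dual potential** -/
noncomputable def PD {J : Type*} [Fintype J] (c : J → ℝ) (h : J → ℝ) : ℝ :=
  28 / 3 * M c (fun j => th (h j)) - 7 / 6 * ∑ j, ∑ j', c j * c j' * th (min (h j) (h j'))

lemma D2_comm {K L : Type*} [Fintype K] [Fintype L] (a : K → ℝ) (b : L → ℝ) (f : K → ℝ) (g : L → ℝ) :
    D2 a b f g = D2 b a g f := by
  unfold D2
  rw [Finset.sum_comm]
  refine Finset.sum_congr rfl fun l _ => Finset.sum_congr rfl fun k _ => ?_
  rw [min_comm]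
  ring

/-- averaged Jensen against a family of heights `g` with weights `b` of total `1` -/
lemma col_D2 (c0 : ∀ j, 0 ≤ c j) (hq : 0 < q ∧ q < 1) (h0 : ∀ x, 0 ≤ h x) (C : Col q h u X)
    {L : Type*} [Fintype L] {b : L → ℝ} {g : L → ℝ} (b0 : ∀ l, 0 ≤ b l) (b1 : ∑ l, b l = 1)
    (g0 : ∀ l, 0 ≤ g l) :
    4 * ∑ i, u i * M c (fun j => th (X i j)) - ∑ i, u i * D2 c b (X i) g ≤
      4 * M (cT q c) (fun x => th (h x)) - D2 (cT q c) b h g := by
  have key : ∀ j l, ∑ i, u i * (4 * th (X i j) - th (min (X i j) (g l))) ≤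
      (1 - q) * (4 * th (h (j, false)) - th (min (h (j, false)) (g l))) +
        q * (4 * th (h (j, true)) - th (min (h (j, true)) (g l))) := fun j l =>
    jensen (g := fun a => 4 * th a - th (min a (g l))) hq C j h0 fun x y t hx hy t0 t1 =>
      conv_ker (g0 l) x y t hx hy t0 t1
  have h1 : ∑ j, ∑ l, c j * b l * ∑ i, u i * (4 * th (X i j) - th (min (X i j) (g l))) ≤
      ∑ j, ∑ l, c j * b l * ((1 - q) * (4 * th (h (j, false)) - th (min (h (j, false)) (g l))) +
        q * (4 * th (h (j, true)) - th (min (h (j, true)) (g l)))) :=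
    Finset.sum_le_sum fun j _ => Finset.sum_le_sum fun l _ =>
      mul_le_mul_of_nonneg_left (key j l) (mul_nonneg (c0 j) (b0 l))
  have e1 : ∑ j, ∑ l, c j * b l * ∑ i, u i * (4 * th (X i j) - th (min (X i j) (g l))) =
      4 * ∑ i, u i * M c (fun j => th (X i j)) - ∑ i, u i * D2 c b (X i) g := by
    have a1 : ∑ j, ∑ l, c j * b l * ∑ i, u i * (4 * th (X i j) - th (min (X i j) (g l))) =
        ∑ i, u i * ∑ j, ∑ l, c j * b l * (4 * th (X i j) - th (min (X i j) (g l))) := by
      simp only [Finset.mul_sum]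
      rw [Finset.sum_congr rfl fun j _ => Finset.sum_comm]
      rw [Finset.sum_comm]
      refine Finset.sum_congr rfl fun i _ => Finset.sum_congr rfl fun j _ =>
        Finset.sum_congr rfl fun l _ => ?_
      ring
    have a2 : ∀ i, ∑ j, ∑ l, c j * b l * (4 * th (X i j) - th (min (X i j) (g l))) =
        4 * M c (fun j => th (X i j)) - D2 c b (X i) g := by
      intro i
      unfold M D2
      rw [Finset.mul_sum, ← Finset.sum_sub_distrib]
      refine Finset.sum_congr rfl fun j _ => ?_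
      have : ∑ l, c j * b l * (4 * th (X i j) - th (min (X i j) (g l))) =
          c j * (4 * th (X i j)) * ∑ l, b l - ∑ l, c j * b l * th (min (X i j) (g l)) := by
        rw [Finset.mul_sum, ← Finset.sum_sub_distrib]
        exact Finset.sum_congr rfl fun l _ => by ring
      rw [this, b1]
      ring
    rw [a1, Finset.sum_congr rfl fun i _ => by rw [a2 i], Finset.mul_sum, ← Finset.sum_sub_distrib]
    exact Finset.sum_congr rfl fun i _ => by ring
  have e2 : ∑ j, ∑ l, c j * b l * ((1 - q) * (4 * th (h (j, false)) - th (min (h (j, false)) (g l))) +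
        q * (4 * th (h (j, true)) - th (min (h (j, true)) (g l)))) =
      4 * M (cT q c) (fun x => th (h x)) - D2 (cT q c) b h g := by
    rw [M_cT]
    unfold M D2
    rw [sum_JB, Finset.mul_sum, ← Finset.sum_sub_distrib]
    refine Finset.sum_congr rfl fun j _ => ?_
    have : ∑ l, c j * b l * ((1 - q) * (4 * th (h (j, false)) - th (min (h (j, false)) (g l))) +
        q * (4 * th (h (j, true)) - th (min (h (j, true)) (g l)))) =
        c j * ((1 - q) * (4 * th (h (j, false))) + q * (4 * th (h (j, true)))) * ∑ l, b l -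
        (∑ l, cT q c (j, false) * b l * th (min (h (j, false)) (g l)) +
          ∑ l, cT q c (j, true) * b l * th (min (h (j, true)) (g l))) := by
      rw [Finset.mul_sum, ← Finset.sum_add_distrib, ← Finset.sum_sub_distrib]
      refine Finset.sum_congr rfl fun l _ => ?_
      simp only [cT]
      simp
      ring
    rw [this, b1]
    simp only [av]
    ring
  rw [e1, e2] at h1
  exact h1

/-! ### the family of all the rows -/

lemma sum_rows {A : Type*} [AddCommMonoid A] (f : ι × J → A) : ∑ k, f k = ∑ i, ∑ j, f (i, j) :=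
  Fintype.sum_prod_type _

lemma D2_rows {L : Type*} [Fintype L] (a : ι → ℝ) (b : L → ℝ) (g : L → ℝ) :
    D2 (fun k : ι × J => a k.1 * c k.2) b (fun k : ι × J => X k.1 k.2) g =
      ∑ i, a i * D2 c b (X i) g := by
  unfold D2
  rw [sum_rows]
  refine Finset.sum_congr rfl fun i _ => ?_
  rw [Finset.mul_sum]
  refine Finset.sum_congr rfl fun j _ => ?_
  rw [Finset.mul_sum]
  exact Finset.sum_congr rfl fun l _ => by ring

open Classical in
lemma D2_one {L : Type*} [Fintype L] (i : ι) (b : L → ℝ) (g : L → ℝ) :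
    D2 (fun k : ι × J => (if k.1 = i then 1 else 0) * c k.2) b (fun k : ι × J => X k.1 k.2) g =
      D2 c b (X i) g := by
  rw [D2_rows (fun i' => if i' = i then (1:ℝ) else 0) b g]
  rw [Finset.sum_eq_single i]
  · simp
  · intro i' _ hi'
    simp [hi']
  · intro hi
    exact absurd (mem_univ i) hi

lemma D2_sub {K : Type*} [Fintype K] (a b : K → ℝ) (f : K → ℝ) :
    D2 (fun k => a k - b k) (fun k => a k - b k) f f = D2 a a f f - 2 * D2 a b f f + D2 b b f f := by
  have e1 : 2 * D2 a b f f = D2 a b f f + D2 b a f f := by rw [D2_comm b a]; ring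
  rw [e1]
  unfold D2
  simp only [← Finset.sum_add_distrib, ← Finset.sum_sub_distrib]
  exact Finset.sum_congr rfl fun k _ => Finset.sum_congr rfl fun l _ => by ring

/-- the Gram bound for two weights -/
lemma gram2 {K : Type*} [Fintype K] (a b y : K → ℝ) (h0 : ∀ k, 0 ≤ y k) (h1 : ∀ k, y k ≤ 1) :
    (∑ k, a k * y k - ∑ k, b k * y k) ^ 2 ≤
      4 / 3 * (D2 a a y y - 2 * D2 a b y y + D2 b b y y) := by
  rw [← D2_sub]
  have h := gram (fun k => a k - b k) y h0 h1
  have e : ∑ k, (a k - b k) * y k = ∑ k, a k * y k - ∑ k, b k * y k := by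
    rw [← Finset.sum_sub_distrib]
    exact Finset.sum_congr rfl fun k _ => by ring
  rw [e] at h
  exact h

/-- **the column step of the dual potential, with the payment** -/
theorem PD_col (c0 : ∀ j, 0 ≤ c j) (c1 : ∑ j, c j = 1) (hq : 0 < q ∧ q < 1)
    (h0 : ∀ x, 0 ≤ h x) (h1 : ∀ x, h x ≤ 1) (C : Col q h u X) :
    7 / 8 * ∑ i, u i * (M c (X i) - M (cT q c) h) ^ 2 + ∑ i, u i * PD c (X i) ≤ PD (cT q c) h := by
  classical
  have hX0 : ∀ i j, 0 ≤ X i j := fun i j => (C.bd hq h0 h1 i j).1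
  have hX1 : ∀ i j, X i j ≤ 1 := fun i j => (C.bd hq h0 h1 i j).2
  have cT0 : ∀ x, 0 ≤ cT q c x := by
    intro x
    unfold cT
    refine mul_nonneg (c0 _) ?_
    split_ifs
    · exact hq.1.le
    · linarith [hq.2]
  have cT1 : ∑ x, cT q c x = 1 := by
    rw [sum_JB]
    have : ∑ j, (cT q c (j, false) + cT q c (j, true)) = ∑ j, c j :=
      Finset.sum_congr rfl fun j _ => by simp [cT]; ring
    rw [this, c1]
  set b : ι × J → ℝ := fun k => u k.1 * c k.2 with hb
  set g : ι × J → ℝ := fun k => X k.1 k.2 with hg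
  have b0 : ∀ k, 0 ≤ b k := fun k => mul_nonneg (C.u0 _) (c0 _)
  have b1 : ∑ k, b k = 1 := by
    rw [sum_rows]
    simp only [hb]
    rw [← C.u1]
    refine Finset.sum_congr rfl fun i _ => ?_
    rw [← Finset.mul_sum, c1, mul_one]
  have g0 : ∀ k, 0 ≤ g k := fun k => hX0 _ _
  have g1 : ∀ k, g k ≤ 1 := fun k => hX1 _ _
  -- the two averaged Jensen inequalities
  have j1 := col_D2 c0 hq h0 C b0 b1 g0
  have j2 := col_D2 c0 hq h0 C cT0 cT1 h0
  have e1 : ∑ i, u i * D2 c b (X i) g = D2 b b g g := (D2_rows u b g).symm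
  have e2 : ∑ i, u i * D2 c (cT q c) (X i) h = D2 b (cT q c) g h := (D2_rows u (cT q c) h).symm
  rw [e1] at j1
  rw [e2, D2_comm b (cT q c)] at j2
  -- the payment
  have hm : M (cT q c) h = ∑ k, b k * g k := by
    rw [← M_Col (c := c) C, sum_rows]
    refine Finset.sum_congr rfl fun i _ => ?_
    simp only [M, hb, hg]
    rw [Finset.mul_sum]
    exact Finset.sum_congr rfl fun j _ => by ring
  have key : ∀ i, (M c (X i) - M (cT q c) h) ^ 2 ≤
      4 / 3 * (D2 c c (X i) (X i) - 2 * D2 c b (X i) g + D2 b b g g) := by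
    intro i
    have h2 := gram2 (fun k : ι × J => (if k.1 = i then 1 else 0) * c k.2) b g g0 g1
    have a1 : ∑ k : ι × J, (if k.1 = i then 1 else 0) * c k.2 * g k = M c (X i) := by
      rw [sum_rows]
      simp only [M, hg]
      rw [Finset.sum_eq_single i]
      · simp
      · intro i' _ hi'
        simp [hi']
      · intro hi
        exact absurd (mem_univ i) hi
    rw [a1, ← hm, D2_one i b g, D2_one, D2_comm c, D2_one] at h2
    exact h2
  have key2 : ∑ i, u i * (M c (X i) - M (cT q c) h) ^ 2 ≤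
      4 / 3 * (∑ i, u i * D2 c c (X i) (X i) - D2 b b g g) := by
    have h3 : ∑ i, u i * (M c (X i) - M (cT q c) h) ^ 2 ≤
        ∑ i, u i * (4 / 3 * (D2 c c (X i) (X i) - 2 * D2 c b (X i) g + D2 b b g g)) :=
      Finset.sum_le_sum fun i _ => mul_le_mul_of_nonneg_left (key i) (C.u0 i)
    have h4 : ∑ i, u i * (4 / 3 * (D2 c c (X i) (X i) - 2 * D2 c b (X i) g + D2 b b g g)) =
        4 / 3 * (∑ i, u i * D2 c c (X i) (X i) - 2 * ∑ i, u i * D2 c b (X i) g +
          D2 b b g g * ∑ i, u i) := by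
      rw [Finset.mul_sum, Finset.mul_sum, ← Finset.sum_sub_distrib, ← Finset.sum_add_distrib,
        Finset.mul_sum]
      exact Finset.sum_congr rfl fun i _ => by ring
    rw [h4, e1, C.u1] at h3
    linarith
  have e3 : ∑ i, u i * PD c (X i) =
      28 / 3 * ∑ i, u i * M c (fun j => th (X i j)) - 7 / 6 * ∑ i, u i * D2 c c (X i) (X i) := by
    rw [Finset.mul_sum, Finset.mul_sum, ← Finset.sum_sub_distrib]
    refine Finset.sum_congr rfl fun i _ => ?_
    unfold PD D2
    ring
  have e4 : PD (cT q c) h = 28 / 3 * M (cT q c) (fun x => th (h x)) -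
      7 / 6 * D2 (cT q c) (cT q c) h h := rfl
  rw [e3, e4]
  linarith

end col

end Crest.Agent.R4P.PDc44
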