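import Crest.Agent.R4P.GMd_35
import Crest.Agent.R4P.PDc_44

/-!
R4 (S0004) with powers, group game, helper35 (proof by helper44's `PDc_44`): **the column step of the dual
potential `GMd35.PD` with the payment `7/8`** (general columns `Col`, all tests).
-/

set_option autoImplicit false

namespace Crest.Agent.R4P.GMd35

open Finset Crest.Agent.R4P.GMer27

variable {J : Type*} [Fintype J] {c : J → ℝ}
variable {ι : Type*} [Fintype ι] {q : ℝ} {h : J × Bool → ℝ} {u : ι → ℝ} {X : ι → J → ℝ}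

/-- **the column step of the dual potential, with the payment** -/
theorem PD_col (c0 : ∀ j, 0 ≤ c j) (c1 : ∑ j, c j = 1) (hq : 0 < q ∧ q < 1)
    (h0 : ∀ x, 0 ≤ h x) (h1 : ∀ x, h x ≤ 1) (C : Col q h u X) :
    7 / 8 * ∑ i, u i * (M c (X i) - M (cT q c) h) ^ 2 + ∑ i, u i * PD c (X i) ≤ PD (cT q c) h :=
  PDc44.PD_col c0 c1 hq h0 h1 C

end Crest.Agent.R4P.GMd35
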