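import Crest.Agent.R4P.GMer_27
import Crest.Agent.R4P.MisR_16

/-!
R4 (S0004) with powers, helper35: **the dual potential** (all tests from the root, closed form).

`D c h = Σ_j Σ_j' c_j c_j' th (min (h_j) (h_j'))`, `PD c h = 28/3 M c (th h) - 7/6 D c h`, for weights
`c ≥ 0`, `Σ c = 1` and contents `0 ≤ h` (heights `≤ 1` where it is said).

* `PD_nonneg`, `PD_le32` (`≤ 28/3 M th h`), `PD_born` (`≤ 14 M h`), `PD_mono`, `PD_drop`, `PD_own`
  (own-height price `14 M[x √(h+x)]`), `PD_join`.
* **`PD_merge`** (going up two or more types become one): only in-member coexistence costs.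
* **`PD_split`** (going up one type becomes several): only the coexistence in two DIFFERENT members costs,
  with product weights.
* the column `PD_col` (payment `7/8 Σ u (M X - M h)²`, for every `Col`) is in `GMdC_35`.
-/

set_option autoImplicit false
set_option linter.unusedVariables false
set_option linter.unusedSectionVars false

namespace Crest.Agent.R4P.GMd35

open Finset Filter
open Crest.Agent.R4.MergePot970 (abel w w_nonneg w_zero w_mono w_le_one w_step cauchy)
open Crest.Agent.R4P.GMer27 (M M_add M_smul M_sub M_sum M_mono M_nonneg M_const av cT M_cT sum_JB Col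
  M_Col)
open Crest.Agent.R4P.MisR16

/-! ## pointwise -/

lemma th_one : th 1 = 1 := by simp [th]

/-- own-height Lipschitz -/
lemma th_own {x y : ℝ} (hx : 0 ≤ x) (hy : 0 ≤ y) :
    th (x + y) ≤ th x + 3 / 2 * (y * Real.sqrt (x + y)) := by
  have h := th_tan hx (b := x + y) (by linarith)
  have e : x - (x + y) = -y := by ring
  rw [e] at h
  nlinarith [h]

/-- in-member pair term -/
noncomputable def pr3 (x y : ℝ) : ℝ := x * y / Real.sqrt (x + y)

lemma pr3_nonneg {x y : ℝ} (hx : 0 ≤ x) (hy : 0 ≤ y) : 0 ≤ pr3 x y :=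
  div_nonneg (mul_nonneg hx hy) (Real.sqrt_nonneg _)

lemma pr3_comm (x y : ℝ) : pr3 x y = pr3 y x := by unfold pr3; rw [mul_comm, add_comm]

/-- AM-GM form -/
lemma pr3_le {x y θ : ℝ} (hx : 0 ≤ x) (hy : 0 ≤ y) (hθ : 0 < θ) :
    pr3 x y ≤ θ / 2 * min x y + x * y / (2 * θ) := by
  unfold pr3
  rcases eq_or_lt_of_le (add_nonneg hx hy) with h | h
  · rw [← h, Real.sqrt_zero, div_zero]
    have : 0 ≤ min x y := le_min hx hy
    positivity
  set s := Real.sqrt (x + y) with hs
  have hs0 : 0 < s := Real.sqrt_pos.2 h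
  have hs2 : s * s = x + y := Real.mul_self_sqrt h.le
  have hm : x * y / (s * s) ≤ min x y := by
    rw [hs2, div_le_iff₀ h]
    rcases le_total x y with a | a
    · rw [min_eq_left a]; nlinarith
    · rw [min_eq_right a]; nlinarith
  have h1 : x * y / s ≤ θ / 2 * (x * y / (s * s)) + x * y / (2 * θ) := by
    have e : θ / 2 * (x * y / (s * s)) + x * y / (2 * θ) - x * y / s =
        x * y * (θ - s) ^ 2 / (2 * θ * (s * s)) := by
      field_simp
      ring
    have : 0 ≤ x * y * (θ - s) ^ 2 / (2 * θ * (s * s)) := by positivity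
    linarith
  have := mul_le_mul_of_nonneg_left hm (show 0 ≤ θ / 2 by positivity)
  linarith

/-- **many parts, in-member** -/
lemma th_merge {κ : Type*} [DecidableEq κ] (s : Finset κ) (x : κ → ℝ) (hx : ∀ k ∈ s, 0 ≤ x k) :
    th (∑ k ∈ s, x k) ≤ ∑ k ∈ s, th (x k) + ∑ k ∈ s, ∑ l ∈ s.erase k, pr3 (x k) (x l) := by
  set S := ∑ k ∈ s, x k with hS
  have hS0 : 0 ≤ S := Finset.sum_nonneg hx
  rcases eq_or_lt_of_le hS0 with h | h
  · rw [← h, th_zero]
    refine add_nonneg (Finset.sum_nonneg fun k hk => th_nonneg (hx k hk)) ?_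
    exact Finset.sum_nonneg fun k hk => Finset.sum_nonneg fun l hl =>
      pr3_nonneg (hx k hk) (hx l (Finset.mem_of_mem_erase hl))
  set r := Real.sqrt S with hr
  have hr0 : 0 < r := Real.sqrt_pos.2 h
  have hr2 : r * r = S := Real.mul_self_sqrt hS0
  have e1 : th S = ∑ k ∈ s, x k * r := by
    unfold th
    rw [← Finset.sum_mul]
  rw [e1, ← Finset.sum_add_distrib]
  refine Finset.sum_le_sum fun k hk => ?_
  have hk0 := hx k hk
  have e2 : S = x k + ∑ l ∈ s.erase k, x l := (Finset.add_sum_erase s x hk).symm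
  have hkS : x k ≤ S := Finset.single_le_sum hx hk
  set a := Real.sqrt (x k) with ha
  have ha0 : 0 ≤ a := Real.sqrt_nonneg _
  have ha2 : a * a = x k := Real.mul_self_sqrt hk0
  have har : a ≤ r := Real.sqrt_le_sqrt hkS
  -- `r ≤ a + (S - x k) / r`
  have h1 : r ≤ a + (S - x k) / r := by
    have : r * r ≤ a * r + (S - x k) := by
      rw [hr2]
      nlinarith [mul_nonneg ha0 (sub_nonneg.2 har)]
    have e3 : a + (S - x k) / r = (a * r + (S - x k)) / r := by field_simp
    rw [e3, le_div_iff₀ hr0]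
    exact this
  have h2 : x k * r ≤ th (x k) + x k * (S - x k) / r := by
    have := mul_le_mul_of_nonneg_left h1 hk0
    have e3 : x k * (a + (S - x k) / r) = th (x k) + x k * (S - x k) / r := by
      unfold th
      ring
    linarith
  refine h2.trans ?_
  have h3 : x k * (S - x k) / r ≤ ∑ l ∈ s.erase k, pr3 (x k) (x l) := by
    have e3 : S - x k = ∑ l ∈ s.erase k, x l := by rw [e2]; ring
    rw [e3, Finset.mul_sum, Finset.sum_div]
    refine Finset.sum_le_sum fun l hl => ?_
    have hl0 := hx l (Finset.mem_of_mem_erase hl)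
    unfold pr3
    rcases eq_or_lt_of_le (add_nonneg hk0 hl0) with h4 | h4
    · have h5 : x k = 0 := by linarith
      rw [h5]
      simp
    · have h5 : x k + x l ≤ S := by
        rw [e2]
        have := Finset.single_le_sum (s := s.erase k) (f := x)
          (fun m hm => hx m (Finset.mem_of_mem_erase hm)) hl
        linarith
      exact div_le_div_of_nonneg_left (mul_nonneg hk0 hl0) (Real.sqrt_pos.2 h4)
        (Real.sqrt_le_sqrt h5)
  linarith

/-- excess of superadditivity -/
noncomputable def ex (x y : ℝ) : ℝ := th (x + y) - th x - th y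

lemma ex_nonneg {x y : ℝ} (hx : 0 ≤ x) (hy : 0 ≤ y) : 0 ≤ ex x y := by
  have := th_super hx hy
  unfold ex
  linarith

lemma ex_comm (x y : ℝ) : ex x y = ex y x := by unfold ex; rw [add_comm]; ring

/-- the excess is at least one half of the energy of the smaller part -/
lemma ex_ge {x y : ℝ} (hy : 0 ≤ y) (hxy : y ≤ x) : th y ≤ 2 * ex x y := by
  have hx : 0 ≤ x := hy.trans hxy
  have h := th_tan (a := x + y) (b := x) (by linarith) hx
  have h1 : Real.sqrt y ≤ Real.sqrt x := Real.sqrt_le_sqrt hxy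
  have e : x + y - x = y := by ring
  rw [e] at h
  have h2 : y * Real.sqrt y ≤ y * Real.sqrt x := mul_le_mul_of_nonneg_left h1 hy
  unfold ex
  unfold th at h ⊢
  nlinarith

/-- **two members**: the energy of the common height of sums -/
lemma th_min_add {a b a' b' : ℝ} (ha : 0 ≤ a) (hb : 0 ≤ b) (ha' : 0 ≤ a') (hb' : 0 ≤ b') :
    th (min (a + b) (a' + b')) ≤ th (min a a') + th (min b b') + th (min a b') + th (min a' b) +
      3 * (ex a b + ex a' b') := by
  have n1 : 0 ≤ th (min a a') := th_nonneg (le_min ha ha')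
  have n2 : 0 ≤ th (min b b') := th_nonneg (le_min hb hb')
  have n3 : 0 ≤ th (min a b') := th_nonneg (le_min ha hb')
  have n4 : 0 ≤ th (min a' b) := th_nonneg (le_min ha' hb)
  have n5 := ex_nonneg ha hb
  have n6 := ex_nonneg ha' hb'
  have t1 : th (min (a + b) (a' + b')) ≤ th (a + b) :=
    th_mono (le_min (by linarith) (by linarith)) (min_le_left _ _)
  have t2 : th (min (a + b) (a' + b')) ≤ th (a' + b') :=
    th_mono (le_min (by linarith) (by linarith)) (min_le_right _ _)
  have e1 : th (a + b) = th a + th b + ex a b := by unfold ex; ring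
  have e2 : th (a' + b') = th a' + th b' + ex a' b' := by unfold ex; ring
  -- the big part of each member
  rcases le_total b a with h | h <;> rcases le_total b' a' with h' | h'
  · have k1 := ex_ge hb h
    have k2 := ex_ge hb' h'
    rcases le_total a a' with g | g
    · rw [min_eq_left g] at n1 ⊢
      linarith
    · rw [min_eq_right g] at n1 ⊢
      linarith
  · have k1 := ex_ge hb h
    have k2 := ex_ge ha' h'
    rw [ex_comm] at k2
    rcases le_total a b' with g | g
    · rw [min_eq_left g] at n3 ⊢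
      linarith
    · rw [min_eq_right g] at n3 ⊢
      linarith
  · have k1 := ex_ge ha h
    rw [ex_comm] at k1
    have k2 := ex_ge hb' h'
    rcases le_total a' b with g | g
    · rw [min_eq_left g] at n4 ⊢
      linarith
    · rw [min_eq_right g] at n4 ⊢
      linarith
  · have k1 := ex_ge ha h
    rw [ex_comm] at k1
    have k2 := ex_ge ha' h'
    rw [ex_comm] at k2
    rcases le_total b b' with g | g
    · rw [min_eq_left g] at n2 ⊢
      linarith
    · rw [min_eq_right g] at n2 ⊢
      linarith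

/-! ## the potential -/

variable {J : Type*} [Fintype J] {c : J → ℝ}

/-- energy of the common heights, product weights -/
noncomputable def D (c : J → ℝ) (h : J → ℝ) : ℝ := ∑ j, ∑ k, c j * c k * th (min (h j) (h k))

/-- **the dual potential** -/
noncomputable def PD (c : J → ℝ) (h : J → ℝ) : ℝ :=
  28 / 3 * M c (fun j => th (h j)) - 7 / 6 * D c h

/-- cross-member energy of two contents (different members only) -/
noncomputable def X2 [DecidableEq J] (c : J → ℝ) (x y : J → ℝ) : ℝ :=
  ∑ j, ∑ k, if j = k then 0 else c j * c k * th (min (x j) (y k))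

lemma D_nonneg (c0 : ∀ j, 0 ≤ c j) {h : J → ℝ} (h0 : ∀ j, 0 ≤ h j) : 0 ≤ D c h :=
  Finset.sum_nonneg fun j _ => Finset.sum_nonneg fun k _ =>
    mul_nonneg (mul_nonneg (c0 j) (c0 k)) (th_nonneg (le_min (h0 j) (h0 k)))

lemma D_le (c0 : ∀ j, 0 ≤ c j) (c1 : ∑ j, c j = 1) {h : J → ℝ} (h0 : ∀ j, 0 ≤ h j) :
    D c h ≤ M c (fun j => th (h j)) := by
  unfold D M
  refine Finset.sum_le_sum fun j _ => ?_
  have h1 : ∑ k, c j * c k * th (min (h j) (h k)) ≤ ∑ k, c k * (c j * th (h j)) := by
    refine Finset.sum_le_sum fun k _ => ?_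
    have h2 : th (min (h j) (h k)) ≤ th (h j) := th_mono (le_min (h0 j) (h0 k)) (min_le_left _ _)
    have h3 := mul_le_mul_of_nonneg_left h2 (mul_nonneg (c0 j) (c0 k))
    linarith
  rw [← Finset.sum_mul, c1, one_mul] at h1
  exact h1

lemma D_mono (c0 : ∀ j, 0 ≤ c j) {x h : J → ℝ} (x0 : ∀ j, 0 ≤ x j) (xh : ∀ j, x j ≤ h j) :
    D c x ≤ D c h :=
  Finset.sum_le_sum fun j _ => Finset.sum_le_sum fun k _ =>
    mul_le_mul_of_nonneg_left (th_mono (le_min (x0 j) (x0 k)) (min_le_min (xh j) (xh k)))
      (mul_nonneg (c0 j) (c0 k))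

lemma PD_congr {x h : J → ℝ} (e : ∀ j, x j = h j) : PD c x = PD c h := by
  rw [show x = h from funext e]

lemma PD_nonneg (c0 : ∀ j, 0 ≤ c j) (c1 : ∑ j, c j = 1) {h : J → ℝ} (h0 : ∀ j, 0 ≤ h j) :
    0 ≤ PD c h := by
  have h1 := D_le c0 c1 h0
  have h2 := D_nonneg c0 h0
  unfold PD
  linarith

lemma PD_le32 (c0 : ∀ j, 0 ≤ c j) {h : J → ℝ} (h0 : ∀ j, 0 ≤ h j) :
    PD c h ≤ 28 / 3 * M c (fun j => th (h j)) := by
  have h2 := D_nonneg c0 h0
  unfold PD
  linarith

lemma PD_zero : PD c (fun _ => 0) = 0 := by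
  simp [PD, D, M, th_zero]

/-- **own-height Lipschitz** -/
lemma PD_own (c0 : ∀ j, 0 ≤ c j) {h x : J → ℝ} (h0 : ∀ j, 0 ≤ h j) (x0 : ∀ j, 0 ≤ x j) :
    PD c (fun j => h j + x j) ≤ PD c h + 14 * M c (fun j => x j * Real.sqrt (h j + x j)) := by
  have h1 := D_mono c0 h0 (h := fun j => h j + x j) fun j => by linarith [x0 j]
  have h2 : M c (fun j => th (h j + x j)) ≤
      M c (fun j => th (h j)) + 3 / 2 * M c (fun j => x j * Real.sqrt (h j + x j)) := by
    rw [← M_smul, ← M_add]
    exact M_mono c0 fun j => th_own (h0 j) (x0 j)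
  unfold PD
  linarith

/-- **births are Lipschitz** -/
lemma PD_inj (c0 : ∀ j, 0 ≤ c j) {h x : J → ℝ} (h0 : ∀ j, 0 ≤ h j) (x0 : ∀ j, 0 ≤ x j)
    (h1 : ∀ j, h j + x j ≤ 1) : PD c (fun j => h j + x j) ≤ PD c h + 14 * M c x := by
  have h2 := PD_own c0 h0 x0
  have h3 : M c (fun j => x j * Real.sqrt (h j + x j)) ≤ M c x := M_mono c0 fun j => by
    have : Real.sqrt (h j + x j) ≤ 1 := Real.sqrt_le_one.2 (h1 j)
    calc x j * Real.sqrt (h j + x j) ≤ x j * 1 := mul_le_mul_of_nonneg_left this (x0 j)
      _ = x j := mul_one _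
  linarith

lemma PD_born (c0 : ∀ j, 0 ≤ c j) {h : J → ℝ} (h0 : ∀ j, 0 ≤ h j) (h1 : ∀ j, h j ≤ 1) :
    PD c h ≤ 14 * M c h := by
  have h2 := PD_le32 c0 h0
  have h3 : M c (fun j => th (h j)) ≤ M c h := M_mono c0 fun j => th_le (h0 j) (h1 j)
  have h4 := M_nonneg c0 h0
  linarith

/-- monotone -/
lemma PD_mono (c0 : ∀ j, 0 ≤ c j) (c1 : ∑ j, c j = 1) {x h : J → ℝ} (x0 : ∀ j, 0 ≤ x j)
    (xh : ∀ j, x j ≤ h j) : PD c x ≤ PD c h := by
  -- the increments of the common heights
  have key : ∀ j k, th (min (h j) (h k)) - th (min (x j) (x k)) ≤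
      (th (h j) - th (x j)) + (th (h k) - th (x k)) := by
    intro j k
    have a1 : th (x j) ≤ th (h j) := th_mono (x0 j) (xh j)
    have a2 : th (x k) ≤ th (h k) := th_mono (x0 k) (xh k)
    rcases le_total (x j) (x k) with g | g
    · rw [min_eq_left g]
      have : th (min (h j) (h k)) ≤ th (h j) :=
        th_mono (le_min ((x0 j).trans (xh j)) ((x0 k).trans (xh k))) (min_le_left _ _)
      linarith
    · rw [min_eq_right g]
      have : th (min (h j) (h k)) ≤ th (h k) :=
        th_mono (le_min ((x0 j).trans (xh j)) ((x0 k).trans (xh k))) (min_le_right _ _)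
      linarith
  have h1 : D c h - D c x ≤ 2 * (M c (fun j => th (h j)) - M c (fun j => th (x j))) := by
    have e1 : D c h - D c x =
        ∑ j, ∑ k, c j * c k * (th (min (h j) (h k)) - th (min (x j) (x k))) := by
      unfold D
      rw [← Finset.sum_sub_distrib]
      refine Finset.sum_congr rfl fun j _ => ?_
      rw [← Finset.sum_sub_distrib]
      exact Finset.sum_congr rfl fun k _ => by ring
    have e2 : ∑ j, ∑ k, c j * c k * ((th (h j) - th (x j)) + (th (h k) - th (x k))) =
        2 * (M c (fun j => th (h j)) - M c (fun j => th (x j))) := by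
      have e3 : ∀ j, ∑ k, c j * c k * ((th (h j) - th (x j)) + (th (h k) - th (x k))) =
          c j * (th (h j) - th (x j)) + c j * ∑ k, c k * (th (h k) - th (x k)) := by
        intro j
        have e4 : ∀ k, c j * c k * ((th (h j) - th (x j)) + (th (h k) - th (x k))) =
            c k * (c j * (th (h j) - th (x j))) + c j * (c k * (th (h k) - th (x k))) :=
          fun k => by ring
        rw [Finset.sum_congr rfl fun k _ => e4 k, Finset.sum_add_distrib, ← Finset.sum_mul, c1,
          one_mul, ← Finset.mul_sum]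
      rw [Finset.sum_congr rfl fun j _ => e3 j, Finset.sum_add_distrib, ← Finset.sum_mul, c1,
        one_mul]
      unfold M
      rw [← Finset.sum_sub_distrib]
      have e5 : ∀ j, c j * th (h j) - c j * th (x j) = c j * (th (h j) - th (x j)) :=
        fun j => by ring
      rw [Finset.sum_congr rfl fun j _ => e5 j]
      ring
    rw [e1, ← e2]
    exact Finset.sum_le_sum fun j _ => Finset.sum_le_sum fun k _ =>
      mul_le_mul_of_nonneg_left (key j k) (mul_nonneg (c0 j) (c0 k))
  have h2 : M c (fun j => th (x j)) ≤ M c (fun j => th (h j)) :=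
    M_mono c0 fun j => th_mono (x0 j) (xh j)
  unfold PD
  linarith

/-- superadditivity of the common energy -/
lemma D_super (c0 : ∀ j, 0 ≤ c j) {x y : J → ℝ} (x0 : ∀ j, 0 ≤ x j) (y0 : ∀ j, 0 ≤ y j) :
    D c x + D c y ≤ D c (fun j => x j + y j) := by
  unfold D
  rw [← Finset.sum_add_distrib]
  refine Finset.sum_le_sum fun j _ => ?_
  rw [← Finset.sum_add_distrib]
  refine Finset.sum_le_sum fun k _ => ?_
  rw [← mul_add]
  refine mul_le_mul_of_nonneg_left ?_ (mul_nonneg (c0 j) (c0 k))
  have h1 := th_super (le_min (x0 j) (x0 k)) (le_min (y0 j) (y0 k))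
  refine h1.trans (th_mono (add_nonneg (le_min (x0 j) (x0 k)) (le_min (y0 j) (y0 k))) ?_)
  exact le_min (add_le_add (min_le_left _ _) (min_le_left _ _))
    (add_le_add (min_le_right _ _) (min_le_right _ _))

lemma D_sum_super (c0 : ∀ j, 0 ≤ c j) {κ : Type*} (s : Finset κ) (f : κ → J → ℝ)
    (hf : ∀ i ∈ s, ∀ j, 0 ≤ f i j) : ∑ i ∈ s, D c (f i) ≤ D c (fun j => ∑ i ∈ s, f i j) := by
  classical
  induction s using Finset.induction_on with
  | empty => simp [D, th_zero]
  | insert a s ha ih =>
    have h0 : ∀ j, 0 ≤ ∑ i ∈ s, f i j := fun j =>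
      Finset.sum_nonneg fun i hi => hf i (Finset.mem_insert_of_mem hi) j
    have h1 := ih fun i hi => hf i (Finset.mem_insert_of_mem hi)
    have h2 := D_super c0 (hf a (Finset.mem_insert_self a s)) h0
    rw [Finset.sum_insert ha]
    have e : (fun j => ∑ i ∈ insert a s, f i j) = fun j => f a j + ∑ i ∈ s, f i j :=
      funext fun j => Finset.sum_insert ha
    rw [e]
    linarith

/-- **merge going up, two types**: only in-member coexistence -/
lemma PD_merge (c0 : ∀ j, 0 ≤ c j) {x y : J → ℝ} (x0 : ∀ j, 0 ≤ x j) (y0 : ∀ j, 0 ≤ y j) :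
    PD c (fun j => x j + y j) ≤ PD c x + PD c y +
      14 * M c (fun j => min (x j) (y j) * Real.sqrt (x j + y j)) := by
  have h1 := D_super c0 x0 y0
  have h2 : M c (fun j => th (x j + y j)) ≤ M c (fun j => th (x j)) + M c (fun j => th (y j)) +
      3 / 2 * M c (fun j => min (x j) (y j) * Real.sqrt (x j + y j)) := by
    rw [← M_smul, ← M_add, ← M_add]
    refine M_mono c0 fun j => ?_
    show th (x j + y j) ≤ th (x j) + th (y j) + 3 / 2 * (min (x j) (y j) * Real.sqrt (x j + y j))
    rcases le_total (x j) (y j) with g | g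
    · rw [min_eq_left g]
      have h3 := th_own (y0 j) (x0 j)
      rw [add_comm (y j) (x j)] at h3
      have := th_nonneg (x0 j)
      linarith
    · rw [min_eq_right g]
      have h3 := th_own (x0 j) (y0 j)
      have := th_nonneg (y0 j)
      linarith
  unfold PD
  linarith

/-- **merge going up, many types** -/
theorem PD_merges (c0 : ∀ j, 0 ≤ c j) {κ : Type*} [DecidableEq κ] (s : Finset κ) (f : κ → J → ℝ)
    (hf : ∀ i ∈ s, ∀ j, 0 ≤ f i j) :
    PD c (fun j => ∑ i ∈ s, f i j) ≤ ∑ i ∈ s, PD c (f i) +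
      28 / 3 * M c (fun j => ∑ i ∈ s, ∑ l ∈ s.erase i, pr3 (f i j) (f l j)) := by
  have h1 := D_sum_super c0 s f hf
  have h2 : M c (fun j => th (∑ i ∈ s, f i j)) ≤ ∑ i ∈ s, M c (fun j => th (f i j)) +
      M c (fun j => ∑ i ∈ s, ∑ l ∈ s.erase i, pr3 (f i j) (f l j)) := by
    rw [← M_sum, ← M_add]
    exact M_mono c0 fun j => th_merge s (fun i => f i j) fun i hi => hf i hi j
  have e : ∑ i ∈ s, PD c (f i) = 28 / 3 * ∑ i ∈ s, M c (fun j => th (f i j)) -
      7 / 6 * ∑ i ∈ s, D c (f i) := by
    unfold PD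
    rw [Finset.sum_sub_distrib, ← Finset.mul_sum, ← Finset.mul_sum]
  rw [e]
  unfold PD
  linarith

/-- **split going up, two types**: only the coexistence in two different members costs -/
theorem PD_split [DecidableEq J] (c0 : ∀ j, 0 ≤ c j) (c1 : ∑ j, c j = 1) {x y : J → ℝ}
    (x0 : ∀ j, 0 ≤ x j) (y0 : ∀ j, 0 ≤ y j) :
    PD c x + PD c y ≤ PD c (fun j => x j + y j) + 7 / 3 * X2 c x y := by
  let e : J → ℝ := fun j => ex (x j) (y j)
  have e0 : ∀ j, 0 ≤ e j := fun j => ex_nonneg (x0 j) (y0 j)
  -- one pair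
  have key : ∀ j k, c j * c k * th (min (x j + y j) (x k + y k)) ≤
      c j * c k * th (min (x j) (x k)) + c j * c k * th (min (y j) (y k)) +
      (if j = k then 0 else c j * c k * th (min (x j) (y k))) +
      (if k = j then 0 else c k * c j * th (min (x k) (y j))) +
      3 * (c k * (c j * e j) + c j * (c k * e k)) := by
    intro j k
    have hc := mul_nonneg (c0 j) (c0 k)
    by_cases hjk : j = k
    · subst hjk
      rw [if_pos rfl, min_self, min_self, min_self]
      have h1 : th (x j + y j) = th (x j) + th (y j) + e j := by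
        show _ = _ + (th (x j + y j) - th (x j) - th (y j))
        ring
      rw [h1]
      nlinarith [mul_nonneg hc (e0 j)]
    · rw [if_neg hjk, if_neg (Ne.symm hjk)]
      have h1 := mul_le_mul_of_nonneg_left (th_min_add (x0 j) (y0 j) (x0 k) (y0 k)) hc
      have h2 : e j = ex (x j) (y j) := rfl
      have h3 : e k = ex (x k) (y k) := rfl
      rw [h2, h3]
      linarith
  have h1 : D c (fun j => x j + y j) ≤ D c x + D c y + 2 * X2 c x y + 6 * M c e := by
    have h2 : D c (fun j => x j + y j) ≤ ∑ j, ∑ k,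
        (c j * c k * th (min (x j) (x k)) + c j * c k * th (min (y j) (y k)) +
        (if j = k then 0 else c j * c k * th (min (x j) (y k))) +
        (if k = j then 0 else c k * c j * th (min (x k) (y j))) +
        3 * (c k * (c j * e j) + c j * (c k * e k))) :=
      Finset.sum_le_sum fun j _ => Finset.sum_le_sum fun k _ => key j k
    refine h2.trans (le_of_eq ?_)
    simp only [Finset.sum_add_distrib]
    have e1 : ∑ j, ∑ k, (if k = j then 0 else c k * c j * th (min (x k) (y j))) = X2 c x y := by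
      unfold X2
      rw [Finset.sum_comm]
    have e2 : ∑ j, ∑ k, 3 * (c k * (c j * e j) + c j * (c k * e k)) = 6 * M c e := by
      have e3 : ∀ j, ∑ k, 3 * (c k * (c j * e j) + c j * (c k * e k)) =
          3 * (c j * e j) + c j * (3 * M c e) := by
        intro j
        rw [← Finset.mul_sum, Finset.sum_add_distrib, ← Finset.sum_mul, c1, ← Finset.mul_sum]
        unfold M
        ring
      rw [Finset.sum_congr rfl fun j _ => e3 j, Finset.sum_add_distrib, ← Finset.sum_mul, c1,
        ← Finset.mul_sum]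
      unfold M
      ring
    rw [e1, e2]
    unfold D X2
    ring
  have h3 : M c (fun j => th (x j + y j)) =
      M c (fun j => th (x j)) + M c (fun j => th (y j)) + M c e := by
    rw [← M_add, ← M_add]
    congr 1
    funext j
    show _ = _ + (th (x j + y j) - th (x j) - th (y j))
    ring
  have h4 : 0 ≤ M c e := M_nonneg c0 e0
  unfold PD
  rw [h3]
  linarith

end Crest.Agent.R4P.GMd35
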