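import Crest.Agent.R4.MergePot970

/-!
# The merge potential on an arbitrary finite index type (R4, helper27)

`MergePot970` / `MergeGen970` with an abstract test class, so that groups, dummies, pulls and
restarts are instances.

* `M c h = Σ c_j h_j`; `TC c W` : test class (`0 ≤ φ ≤ 1`, contains `0` and `1`, convex, closed, join).
* `TC.triv` : the constants (restart on any weighted family of members).
* `TC.tie q` : `J × Bool` (`true` = P, weight `q`), tests decreasing in the new column whose average is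
  a test.
* `T`, `nu`, `B`, `B_split`, `B_mono`, `B_inj`, `B_le`, `B_col` (general columns `Col`).
* `Pot` (liminf of `B n / n`) : `Pot_nonneg`, `Pot_le`, `Pot_split`, `Pot_mono`, `Pot_inj`, `Pot_col`,
  `measurable_Pot`.
-/

set_option autoImplicit false
set_option linter.unusedVariables false
set_option linter.unusedSectionVars false

namespace Crest.Agent.R4P.GMer27

open Finset Filter
open Crest.Agent.R4.MergePot970 (abel w w_nonneg w_zero w_mono w_le_one w_step cauchy)

variable {J : Type*} [Fintype J]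

/-- weighted mean -/
def M (c : J → ℝ) (h : J → ℝ) : ℝ := ∑ j, c j * h j

variable {c : J → ℝ}

lemma M_add (f g : J → ℝ) : M c (fun j => f j + g j) = M c f + M c g := by
  simp only [M, mul_add, Finset.sum_add_distrib]

lemma M_smul (a : ℝ) (f : J → ℝ) : M c (fun j => a * f j) = a * M c f := by
  simp only [M, Finset.mul_sum]
  exact Finset.sum_congr rfl fun j _ => by ring

lemma M_sub (f g : J → ℝ) : M c (fun j => f j - g j) = M c f - M c g := by
  simp only [M, mul_sub, Finset.sum_sub_distrib]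

lemma M_sum {ι : Type*} (s : Finset ι) (f : ι → J → ℝ) :
    M c (fun j => ∑ i ∈ s, f i j) = ∑ i ∈ s, M c (f i) := by
  simp only [M, Finset.mul_sum]
  exact Finset.sum_comm

lemma M_mono (c0 : ∀ j, 0 ≤ c j) {f g : J → ℝ} (h : ∀ j, f j ≤ g j) : M c f ≤ M c g :=
  Finset.sum_le_sum fun j _ => mul_le_mul_of_nonneg_left (h j) (c0 j)

lemma M_nonneg (c0 : ∀ j, 0 ≤ c j) {f : J → ℝ} (h : ∀ j, 0 ≤ f j) : 0 ≤ M c f :=
  Finset.sum_nonneg fun j _ => mul_nonneg (c0 j) (h j)

lemma M_const (c1 : ∑ j, c j = 1) (a : ℝ) : M c (fun _ => a) = a := by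
  simp only [M, ← Finset.sum_mul, c1, one_mul]

lemma cont_M {α : Type*} [TopologicalSpace α] {G : α → J → ℝ} (hG : Continuous G) :
    Continuous fun a => M c (G a) := by
  unfold M
  exact continuous_finsetSum _ fun j _ => continuous_const.mul ((continuous_apply j).comp hG)

/-! ## test classes -/

/-- test class -/
structure TC (c : J → ℝ) (W : Set (J → ℝ)) : Prop where
  c0 : ∀ j, 0 ≤ c j
  c1 : ∑ j, c j = 1
  bd : ∀ φ ∈ W, ∀ j, 0 ≤ φ j ∧ φ j ≤ 1
  zero : (fun _ => (0 : ℝ)) ∈ W
  one : (fun _ => (1 : ℝ)) ∈ W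
  conv : Convex ℝ W
  closed : IsClosed W
  join : ∀ φ ∈ W, ∀ ψ ∈ W, ∃ χ ∈ W, (∀ j, φ j ≤ χ j ∧ ψ j ≤ χ j) ∧
    M c χ = M c φ + M c ψ - M c φ * M c ψ

lemma TC.compact {W : Set (J → ℝ)} (H : TC c W) : IsCompact W := by
  have h1 : IsCompact (Set.pi Set.univ (fun _ : J => Set.Icc (0 : ℝ) 1)) :=
    isCompact_univ_pi (fun _ => isCompact_Icc)
  exact h1.of_isClosed_subset H.closed fun φ hφ j _ => H.bd φ hφ j

lemma TC.sum {W : Set (J → ℝ)} (H : TC c W) {ι : Type*} [Fintype ι] {u : ι → ℝ}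
    (u0 : ∀ i, 0 ≤ u i) (u1 : ∑ i, u i = 1) {a : ι → J → ℝ} (ha : ∀ i, a i ∈ W) :
    (fun j => ∑ i, u i * a i j) ∈ W := by
  have := H.conv.sum_mem (t := Finset.univ) (w := u) (z := a) (fun i _ => u0 i) u1
    (fun i _ => ha i)
  convert this using 1
  funext j
  simp [Finset.sum_apply]

lemma key_u {x y : ℝ} (hx : 0 ≤ x ∧ x ≤ 1) (hy : 0 ≤ y ∧ y ≤ 1) :
    0 ≤ x + y - x * y ∧ x + y - x * y ≤ 1 := by
  constructor <;> nlinarith [mul_nonneg hx.1 hy.1,
    mul_nonneg (sub_nonneg.2 hx.2) (sub_nonneg.2 hy.2), mul_nonneg hx.1 (sub_nonneg.2 hy.2)]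

/-- the constants -/
def Wc (J : Type*) : Set (J → ℝ) := {φ | ∃ a : ℝ, 0 ≤ a ∧ a ≤ 1 ∧ ∀ j, φ j = a}

/-- **restart** : constants -/
theorem TC.triv (c0 : ∀ j, 0 ≤ c j) (c1 : ∑ j, c j = 1) : TC c (Wc J) where
  c0 := c0
  c1 := c1
  bd := by
    rintro φ ⟨a, h0, h1, h⟩ j
    rw [h j]
    exact ⟨h0, h1⟩
  zero := ⟨0, le_rfl, zero_le_one, fun _ => rfl⟩
  one := ⟨1, zero_le_one, le_rfl, fun _ => rfl⟩
  conv := by
    rintro x ⟨a, a0, a1, ha⟩ y ⟨b, b0, b1, hb⟩ s t hs ht hst
    refine ⟨s * a + t * b, by positivity, ?_, fun j => ?_⟩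
    · nlinarith [mul_le_mul_of_nonneg_left a1 hs, mul_le_mul_of_nonneg_left b1 ht]
    · simp [ha j, hb j]
  closed := by
    have hne : Nonempty J := by
      by_contra h
      rw [not_nonempty_iff] at h
      simp at c1
    obtain ⟨j₀⟩ := hne
    have e : Wc J = {φ | 0 ≤ φ j₀} ∩ ({φ | φ j₀ ≤ 1} ∩ ⋂ j, {φ | φ j = φ j₀}) := by
      ext φ
      simp only [Wc, Set.mem_ofPred_eq, Set.mem_inter_iff, Set.mem_iInter]
      constructor
      · rintro ⟨a, h0, h1, h⟩
        rw [h j₀]
        exact ⟨h0, h1, h⟩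
      · rintro ⟨h0, h1, h⟩
        exact ⟨φ j₀, h0, h1, h⟩
    rw [e]
    refine (isClosed_le continuous_const (continuous_apply j₀)).inter
      ((isClosed_le (continuous_apply j₀) continuous_const).inter (isClosed_iInter fun j => ?_))
    exact isClosed_eq (continuous_apply j) (continuous_apply j₀)
  join := by
    rintro φ ⟨a, a0, a1, ha⟩ ψ ⟨b, b0, b1, hb⟩
    have hk := key_u ⟨a0, a1⟩ ⟨b0, b1⟩
    refine ⟨fun _ => a + b - a * b, ⟨_, hk.1, hk.2, fun _ => rfl⟩, fun j => ?_, ?_⟩
    · rw [ha j, hb j]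
      constructor <;> nlinarith [mul_nonneg a0 (sub_nonneg.2 b1), mul_nonneg b0 (sub_nonneg.2 a1)]
    · rw [M_const c1, show φ = fun _ => a from funext ha, show ψ = fun _ => b from funext hb,
        M_const c1, M_const c1]

/-! ## the tie extension -/

/-- average over the new column, `true` = P with weight `q` -/
def av (q : ℝ) (h : J × Bool → ℝ) (j : J) : ℝ := (1 - q) * h (j, false) + q * h (j, true)

/-- the new weights -/
def cT (q : ℝ) (c : J → ℝ) (x : J × Bool) : ℝ := c x.1 * (if x.2 then q else 1 - q)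

/-- the outer bound of the new tests -/
def WO (q : ℝ) (W : Set (J → ℝ)) : Set (J × Bool → ℝ) :=
  {φ | (∀ x, 0 ≤ φ x ∧ φ x ≤ 1) ∧ (∀ j, φ (j, true) ≤ φ (j, false)) ∧ av q φ ∈ W}

/-- tests with **member-dependent sheets** (helper44): a finite family `a i ∈ W` of sheets with
weights `u i`; member `j` is special on the fraction `s j i` of the sheet `i` -/
def WT0 (q : ℝ) (W : Set (J → ℝ)) : Set (J × Bool → ℝ) :=
  {φ | (∀ j, φ (j, true) ≤ φ (j, false)) ∧ ∃ (n : ℕ) (u : Fin n → ℝ) (a : Fin n → J → ℝ)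
    (s : J → Fin n → ℝ), (∀ i, 0 ≤ u i) ∧ ∑ i, u i = 1 ∧ (∀ i, a i ∈ W) ∧
    (∀ j i, 0 ≤ s j i ∧ s j i ≤ 1) ∧ (∀ j, ∑ i, u i * s j i = 1 - q) ∧
    (∀ j, (1 - q) * φ (j, false) = ∑ i, u i * (s j i * a i j)) ∧
    (∀ j, q * φ (j, true) = ∑ i, u i * ((1 - s j i) * a i j))}

/-- the new tests -/
def WT (q : ℝ) (W : Set (J → ℝ)) : Set (J × Bool → ℝ) := closure (WT0 q W)

lemma sum_JB (f : J × Bool → ℝ) : ∑ x, f x = ∑ j, (f (j, false) + f (j, true)) := by
  rw [Fintype.sum_prod_type]
  exact Finset.sum_congr rfl fun j _ => by rw [Fintype.sum_bool]; ring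

lemma M_cT (q : ℝ) (h : J × Bool → ℝ) : M (cT q c) h = M c (av q h) := by
  simp only [M, sum_JB, cT, av]
  exact Finset.sum_congr rfl fun j _ => by simp; ring

lemma cont_av (q : ℝ) : Continuous fun h : J × Bool → ℝ => av q h := by
  apply continuous_pi
  intro j
  unfold av
  have h1 : Continuous fun h : J × Bool → ℝ => h (j, false) := continuous_apply _
  have h2 : Continuous fun h : J × Bool → ℝ => h (j, true) := continuous_apply _
  fun_prop

/-- membership with any finite index type -/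
lemma mem_WT0 {ι : Type*} [Fintype ι] {q : ℝ} {W : Set (J → ℝ)} {φ : J × Bool → ℝ} {u : ι → ℝ}
    {a : ι → J → ℝ} {s : J → ι → ℝ} (u0 : ∀ i, 0 ≤ u i) (u1 : ∑ i, u i = 1)
    (ha : ∀ i, a i ∈ W) (hs : ∀ j i, 0 ≤ s j i ∧ s j i ≤ 1)
    (hsu : ∀ j, ∑ i, u i * s j i = 1 - q) (hd : ∀ j, φ (j, true) ≤ φ (j, false))
    (hN : ∀ j, (1 - q) * φ (j, false) = ∑ i, u i * (s j i * a i j))
    (hP : ∀ j, q * φ (j, true) = ∑ i, u i * ((1 - s j i) * a i j)) : φ ∈ WT0 q W := by
  let e := (Fintype.equivFin ι).symm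
  refine ⟨hd, Fintype.card ι, fun i => u (e i), fun i => a (e i), fun j i => s j (e i),
    fun i => u0 _, ?_, fun i => ha _, fun j i => hs j _, fun j => ?_, fun j => ?_, fun j => ?_⟩
  · rw [← u1]
    exact Equiv.sum_comp e u
  · rw [← hsu j]
    exact Equiv.sum_comp e fun i => u i * s j i
  · rw [hN j]
    exact (Equiv.sum_comp e fun i => u i * (s j i * a i j)).symm
  · rw [hP j]
    exact (Equiv.sum_comp e fun i => u i * ((1 - s j i) * a i j)).symm

/-- a test with member-dependent sheets has a finite presentation; its average is the average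
test -/
lemma WT0_av {q : ℝ} {φ : J × Bool → ℝ} {n : ℕ} {u : Fin n → ℝ} {a : Fin n → J → ℝ}
    {s : J → Fin n → ℝ}
    (hN : ∀ j, (1 - q) * φ (j, false) = ∑ i, u i * (s j i * a i j))
    (hP : ∀ j, q * φ (j, true) = ∑ i, u i * ((1 - s j i) * a i j)) (j : J) :
    av q φ j = ∑ i, u i * a i j := by
  unfold av
  rw [hN j, hP j, ← Finset.sum_add_distrib]
  exact Finset.sum_congr rfl fun i _ => by ring

lemma WT0_sub {W : Set (J → ℝ)} (H : TC c W) {q : ℝ} (hq : 0 < q ∧ q < 1) :
    WT0 q W ⊆ WO q W := by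
  rintro φ ⟨hd, n, u, a, s, u0, u1, ha, hs, hsu, hN, hP⟩
  have q1' : 0 < 1 - q := by linarith [hq.2]
  refine ⟨?_, hd, ?_⟩
  · rintro ⟨j, b⟩
    have hb : ∀ i, 0 ≤ a i j ∧ a i j ≤ 1 := fun i => H.bd _ (ha i) j
    cases b with
    | false =>
      constructor
      · have h1 : 0 ≤ (1 - q) * φ (j, false) := by
          rw [hN j]
          exact Finset.sum_nonneg fun i _ => mul_nonneg (u0 i) (mul_nonneg (hs j i).1 (hb i).1)
        exact le_of_mul_le_mul_left (by rw [mul_zero]; exact h1) q1'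
      · have h1 : (1 - q) * φ (j, false) ≤ (1 - q) * 1 := by
          rw [hN j, mul_one, ← hsu j]
          apply Finset.sum_le_sum
          intro i _
          apply mul_le_mul_of_nonneg_left _ (u0 i)
          have := mul_le_mul_of_nonneg_left (hb i).2 (hs j i).1
          linarith
        exact le_of_mul_le_mul_left h1 q1'
    | true =>
      constructor
      · have h1 : 0 ≤ q * φ (j, true) := by
          rw [hP j]
          exact Finset.sum_nonneg fun i _ => mul_nonneg (u0 i)
            (mul_nonneg (sub_nonneg.2 (hs j i).2) (hb i).1)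
        exact le_of_mul_le_mul_left (by rw [mul_zero]; exact h1) hq.1
      · have h1 : q * φ (j, true) ≤ q * 1 := by
          have e : q * 1 = ∑ i, u i * (1 - s j i) := by
            simp only [mul_sub, mul_one, Finset.sum_sub_distrib]
            rw [u1, hsu j]
            ring
          rw [hP j, e]
          apply Finset.sum_le_sum
          intro i _
          apply mul_le_mul_of_nonneg_left _ (u0 i)
          have := mul_le_mul_of_nonneg_left (hb i).2 (sub_nonneg.2 (hs j i).2)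
          linarith
        exact le_of_mul_le_mul_left h1 hq.1
  · rw [show av q φ = fun j => ∑ i, u i * a i j from funext fun j => WT0_av hN hP j]
    exact H.sum u0 u1 ha

lemma WO_closed {W : Set (J → ℝ)} (H : TC c W) (q : ℝ) : IsClosed (WO q W) := by
  have h1 : IsClosed {φ : J × Bool → ℝ | ∀ x, 0 ≤ φ x ∧ φ x ≤ 1} := by
    have e : {φ : J × Bool → ℝ | ∀ x, 0 ≤ φ x ∧ φ x ≤ 1} =
        ⋂ x, ({φ | 0 ≤ φ x} ∩ {φ | φ x ≤ 1}) := by
      ext φ
      simp [Set.mem_iInter]
    rw [e]
    exact isClosed_iInter fun x => (isClosed_le continuous_const (continuous_apply x)).inter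
      (isClosed_le (continuous_apply x) continuous_const)
  have h2 : IsClosed {φ : J × Bool → ℝ | ∀ j, φ (j, true) ≤ φ (j, false)} := by
    have e : {φ : J × Bool → ℝ | ∀ j, φ (j, true) ≤ φ (j, false)} =
        ⋂ j, {φ | φ (j, true) ≤ φ (j, false)} := by
      ext φ
      simp [Set.mem_iInter]
    rw [e]
    exact isClosed_iInter fun j => isClosed_le (continuous_apply _) (continuous_apply _)
  exact h1.inter (h2.inter (H.closed.preimage (cont_av q)))

/-- bounds of the new tests -/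
lemma WT_sub {W : Set (J → ℝ)} (H : TC c W) {q : ℝ} (hq : 0 < q ∧ q < 1) {φ : J × Bool → ℝ}
    (h : φ ∈ WT q W) :
    (∀ x, 0 ≤ φ x ∧ φ x ≤ 1) ∧ (∀ j, φ (j, true) ≤ φ (j, false)) ∧ av q φ ∈ W :=
  closure_minimal (WT0_sub H hq) (WO_closed H q) h

/-- pooled tests -/
lemma WT0_dup {W : Set (J → ℝ)} {q : ℝ} (hq : 0 < q ∧ q < 1) {φ : J → ℝ}
    (h : φ ∈ W) : (fun x : J × Bool => φ x.1) ∈ WT0 q W :=
  mem_WT0 (ι := Unit) (u := fun _ => 1) (a := fun _ => φ) (s := fun _ _ => 1 - q)
    (fun _ => zero_le_one) (by simp) (fun _ => h)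
    (fun _ _ => ⟨by linarith [hq.2], by linarith [hq.1]⟩) (fun _ => by simp)
    (fun _ => le_rfl) (fun _ => by simp) (fun _ => by simp)

lemma WT_dup {W : Set (J → ℝ)} {q : ℝ} (hq : 0 < q ∧ q < 1) {φ : J → ℝ}
    (h : φ ∈ W) : (fun x : J × Bool => φ x.1) ∈ WT q W := subset_closure (WT0_dup hq h)

lemma WT0_conv {W : Set (J → ℝ)} (q : ℝ) : Convex ℝ (WT0 q W) := by
  rintro x ⟨xd, n, u, a, s, u0, u1, ha, hs, hsu, hN, hP⟩ y
    ⟨yd, m, u', a', s', u0', u1', ha', hs', hsu', hN', hP'⟩ α β hα hβ hαβ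
  refine mem_WT0 (ι := Fin n ⊕ Fin m) (u := Sum.elim (fun i => α * u i) (fun i => β * u' i))
    (a := Sum.elim a a') (s := fun j => Sum.elim (s j) (s' j)) ?_ ?_ ?_ ?_ ?_ ?_ ?_ ?_
  · rintro (i | i)
    · exact mul_nonneg hα (u0 i)
    · exact mul_nonneg hβ (u0' i)
  · rw [Fintype.sum_sum_type]
    simp only [Sum.elim_inl, Sum.elim_inr, ← Finset.mul_sum, u1, u1', mul_one]
    exact hαβ
  · rintro (i | i)
    · exact ha i
    · exact ha' i
  · rintro j (i | i)
    · exact hs j i
    · exact hs' j i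
  · intro j
    rw [Fintype.sum_sum_type]
    simp only [Sum.elim_inl, Sum.elim_inr, mul_assoc, ← Finset.mul_sum, hsu, hsu']
    rw [← add_mul, hαβ, one_mul]
  · intro j
    simp only [Pi.add_apply, Pi.smul_apply, smul_eq_mul]
    exact add_le_add (mul_le_mul_of_nonneg_left (xd j) hα) (mul_le_mul_of_nonneg_left (yd j) hβ)
  · intro j
    rw [Fintype.sum_sum_type]
    simp only [Sum.elim_inl, Sum.elim_inr, mul_assoc, ← Finset.mul_sum, ← hN, ← hN',
      Pi.add_apply, Pi.smul_apply, smul_eq_mul]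
    ring
  · intro j
    rw [Fintype.sum_sum_type]
    simp only [Sum.elim_inl, Sum.elim_inr, mul_assoc, ← Finset.mul_sum, ← hP, ← hP',
      Pi.add_apply, Pi.smul_apply, smul_eq_mul]
    ring

/-- **the join** : the product of the two families; member `j` takes the sheets of the test which is
larger on its N side (pooled if this would be increasing) -/
lemma WT0_join {W : Set (J → ℝ)} (H : TC c W) {q : ℝ} (hq : 0 < q ∧ q < 1)
    {φ ψ : J × Bool → ℝ} (hφ : φ ∈ WT0 q W) (hψ : ψ ∈ WT0 q W) :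
    ∃ χ ∈ WT0 q W, (∀ x, φ x ≤ χ x ∧ ψ x ≤ χ x) ∧
      M (cT q c) χ = M (cT q c) φ + M (cT q c) ψ - M (cT q c) φ * M (cT q c) ψ := by
  classical
  obtain ⟨hd, n, u, a, s, u0, u1, ha, hs, hsu, hN, hP⟩ := hφ
  obtain ⟨hd', m, u', b, s', u0', u1', hb, hs', hsu', hN', hP'⟩ := hψ
  obtain ⟨q0, q1⟩ := hq
  have q1' : 0 < 1 - q := by linarith
  choose e he he1 he2 using fun (p : Fin n × Fin m) => H.join _ (ha p.1) _ (hb p.2)
  -- product sums
  have hsep : ∀ (f : Fin n → ℝ) (g : Fin m → ℝ),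
      ∑ p : Fin n × Fin m, (u p.1 * u' p.2) * (f p.1 * g p.2) =
        (∑ i, u i * f i) * ∑ k, u' k * g k := by
    intro f g
    rw [Fintype.sum_prod_type, Finset.sum_mul_sum]
    exact Finset.sum_congr rfl fun i _ => Finset.sum_congr rfl fun k _ => by ring
  have hs1 : ∀ f : Fin n → ℝ, ∑ p : Fin n × Fin m, (u p.1 * u' p.2) * f p.1 =
      ∑ i, u i * f i := by
    intro f
    have := hsep f (fun _ => 1)
    simp only [mul_one, u1'] at this
    exact this
  have hs2 : ∀ g : Fin m → ℝ, ∑ p : Fin n × Fin m, (u p.1 * u' p.2) * g p.2 =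
      ∑ k, u' k * g k := by
    intro g
    have := hsep (fun _ => 1) g
    simp only [mul_one, one_mul, u1] at this
    exact this
  let U : Fin n × Fin m → ℝ := fun p => u p.1 * u' p.2
  have U0 : ∀ p, 0 ≤ U p := fun p => mul_nonneg (u0 _) (u0' _)
  have U1 : ∑ p, U p = 1 := by
    have := hs1 fun _ => 1
    simp only [mul_one] at this
    rw [← u1]
    exact this
  let σ₀ : J → Fin n × Fin m → ℝ := fun j p =>
    if ψ (j, false) ≤ φ (j, false) then s j p.1 else s' j p.2
  have hσ0 : ∀ j p, 0 ≤ σ₀ j p ∧ σ₀ j p ≤ 1 := by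
    intro j p
    by_cases hc : ψ (j, false) ≤ φ (j, false)
    · have e1 : σ₀ j p = s j p.1 := if_pos hc
      rw [e1]
      exact hs j _
    · have e1 : σ₀ j p = s' j p.2 := if_neg hc
      rw [e1]
      exact hs' j _
  have hσ1 : ∀ j, ∑ p, U p * σ₀ j p = 1 - q := by
    intro j
    by_cases hc : ψ (j, false) ≤ φ (j, false)
    · have e1 : ∀ p, σ₀ j p = s j p.1 := fun p => if_pos hc
      simp only [e1]
      rw [← hsu j]
      exact hs1 fun i => s j i
    · have e1 : ∀ p, σ₀ j p = s' j p.2 := fun p => if_neg hc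
      simp only [e1]
      rw [← hsu' j]
      exact hs2 fun i => s' j i
  let N₀ : J → ℝ := fun j => (∑ p, U p * (σ₀ j p * e p j)) / (1 - q)
  let P₀ : J → ℝ := fun j => (∑ p, U p * ((1 - σ₀ j p) * e p j)) / q
  let E : J → ℝ := fun j => ∑ p, U p * e p j
  have hmean : ∀ j, (1 - q) * N₀ j + q * P₀ j = E j := by
    intro j
    show (1 - q) * ((∑ p, U p * (σ₀ j p * e p j)) / (1 - q)) +
      q * ((∑ p, U p * ((1 - σ₀ j p) * e p j)) / q) = _
    rw [mul_div_cancel₀ _ q1'.ne', mul_div_cancel₀ _ q0.ne', ← Finset.sum_add_distrib]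
    exact Finset.sum_congr rfl fun p _ => by ring
  have he0 : ∀ p j, 0 ≤ e p j := fun p j => (H.bd _ (he p) j).1
  have ha0 : ∀ i j, 0 ≤ a i j := fun i j => (H.bd _ (ha i) j).1
  have hb0 : ∀ i j, 0 ≤ b i j := fun i j => (H.bd _ (hb i) j).1
  -- the comparison
  have gen : ∀ (j : J) (f g : Fin n × Fin m → ℝ), (∀ p, 0 ≤ f p) → (∀ p, g p ≤ e p j) →
      ∑ p, U p * (f p * g p) ≤ ∑ p, U p * (f p * e p j) := by
    intro j f g hf hg
    exact Finset.sum_le_sum fun p _ => mul_le_mul_of_nonneg_left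
      (mul_le_mul_of_nonneg_left (hg p) (hf p)) (U0 p)
  have avφ : ∀ j, ∑ i, u i * a i j = (1 - q) * φ (j, false) + q * φ (j, true) := by
    intro j
    rw [hN j, hP j, ← Finset.sum_add_distrib]
    exact Finset.sum_congr rfl fun i _ => by ring
  have avψ : ∀ j, ∑ i, u' i * b i j = (1 - q) * ψ (j, false) + q * ψ (j, true) := by
    intro j
    rw [hN' j, hP' j, ← Finset.sum_add_distrib]
    exact Finset.sum_congr rfl fun i _ => by ring
  have hNP : ∀ j, (φ (j, false) ≤ N₀ j ∧ ψ (j, false) ≤ N₀ j) ∧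
      (φ (j, true) ≤ P₀ j ∧ ψ (j, true) ≤ P₀ j) := by
    intro j
    by_cases hc : ψ (j, false) ≤ φ (j, false)
    · have hσ : ∀ p, σ₀ j p = s j p.1 := fun p => if_pos hc
      have k1 : φ (j, false) ≤ N₀ j := by
        show _ ≤ (∑ p, U p * (σ₀ j p * e p j)) / (1 - q)
        rw [le_div_iff₀ q1', mul_comm, hN j, ← hs1 fun i => s j i * a i j]
        simp only [hσ]
        exact gen j (fun p => s j p.1) (fun p => a p.1 j) (fun p => (hs j _).1)
          fun p => (he1 p j).1
      have k2 : φ (j, true) ≤ P₀ j := by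
        show _ ≤ (∑ p, U p * ((1 - σ₀ j p) * e p j)) / q
        rw [le_div_iff₀ q0, mul_comm, hP j, ← hs1 fun i => (1 - s j i) * a i j]
        simp only [hσ]
        exact gen j (fun p => 1 - s j p.1) (fun p => a p.1 j)
          (fun p => sub_nonneg.2 (hs j _).2) fun p => (he1 p j).1
      have k3 : ψ (j, true) ≤ P₀ j := by
        show _ ≤ (∑ p, U p * ((1 - σ₀ j p) * e p j)) / q
        rw [le_div_iff₀ q0]
        simp only [hσ]
        have g1 := gen j (fun p => 1 - s j p.1) (fun p => b p.2 j)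
          (fun p => sub_nonneg.2 (hs j _).2) fun p => (he1 p j).2
        refine le_trans ?_ g1
        have g2 : ∑ p : Fin n × Fin m, U p * ((1 - s j p.1) * b p.2 j) = q *
            ((1 - q) * ψ (j, false) + q * ψ (j, true)) := by
          rw [← avψ j]
          have g3 := hsep (fun i => 1 - s j i) (fun k => b k j)
          have g4 : ∑ i, u i * (1 - s j i) = q := by
            simp only [mul_sub, mul_one, Finset.sum_sub_distrib]
            rw [u1, hsu j]
            ring
          rw [g4] at g3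
          exact g3
        rw [g2, mul_comm]
        apply mul_le_mul_of_nonneg_left _ q0.le
        nlinarith [hd' j]
      exact ⟨⟨k1, hc.trans k1⟩, k2, k3⟩
    · have hσ : ∀ p, σ₀ j p = s' j p.2 := fun p => if_neg hc
      push Not at hc
      have k1 : ψ (j, false) ≤ N₀ j := by
        show _ ≤ (∑ p, U p * (σ₀ j p * e p j)) / (1 - q)
        rw [le_div_iff₀ q1', mul_comm, hN' j, ← hs2 fun i => s' j i * b i j]
        simp only [hσ]
        exact gen j (fun p => s' j p.2) (fun p => b p.2 j) (fun p => (hs' j _).1)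
          fun p => (he1 p j).2
      have k2 : ψ (j, true) ≤ P₀ j := by
        show _ ≤ (∑ p, U p * ((1 - σ₀ j p) * e p j)) / q
        rw [le_div_iff₀ q0, mul_comm, hP' j, ← hs2 fun i => (1 - s' j i) * b i j]
        simp only [hσ]
        exact gen j (fun p => 1 - s' j p.2) (fun p => b p.2 j)
          (fun p => sub_nonneg.2 (hs' j _).2) fun p => (he1 p j).2
      have k3 : φ (j, true) ≤ P₀ j := by
        show _ ≤ (∑ p, U p * ((1 - σ₀ j p) * e p j)) / q
        rw [le_div_iff₀ q0]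
        simp only [hσ]
        have g1 := gen j (fun p => 1 - s' j p.2) (fun p => a p.1 j)
          (fun p => sub_nonneg.2 (hs' j _).2) fun p => (he1 p j).1
        refine le_trans ?_ g1
        have g2 : ∑ p : Fin n × Fin m, U p * ((1 - s' j p.2) * a p.1 j) = q *
            ((1 - q) * φ (j, false) + q * φ (j, true)) := by
          rw [← avφ j]
          have g3 := hsep (fun i => a i j) (fun k => 1 - s' j k)
          have g4 : ∑ i, u' i * (1 - s' j i) = q := by
            simp only [mul_sub, mul_one, Finset.sum_sub_distrib]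
            rw [u1', hsu' j]
            ring
          rw [g4, mul_comm _ q] at g3
          rw [← g3]
          exact Finset.sum_congr rfl fun p _ => by
            show u p.1 * u' p.2 * _ = _
            ring
        rw [g2, mul_comm]
        apply mul_le_mul_of_nonneg_left _ q0.le
        nlinarith [hd j]
      exact ⟨⟨hc.le.trans k1, k1⟩, k3, k2⟩
  -- the test
  let χ : J × Bool → ℝ := fun x =>
    if P₀ x.1 ≤ N₀ x.1 then (if x.2 then P₀ x.1 else N₀ x.1) else E x.1
  have χN : ∀ j, χ (j, false) = if P₀ j ≤ N₀ j then N₀ j else E j := fun j => by simp [χ]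
  have χP : ∀ j, χ (j, true) = if P₀ j ≤ N₀ j then P₀ j else E j := fun j => by simp [χ]
  have hav : av q χ = E := by
    funext j
    simp only [av, χN, χP]
    split_ifs
    · exact hmean j
    · ring
  have hM1 : ∀ f : Fin n → J → ℝ, M c (fun j => ∑ i, u i * f i j) = ∑ i, u i * M c (f i) := by
    intro f
    rw [M_sum]
    exact Finset.sum_congr rfl fun i _ => M_smul _ _
  have hM2 : ∀ f : Fin m → J → ℝ, M c (fun j => ∑ i, u' i * f i j) = ∑ i, u' i * M c (f i) := by
    intro f
    rw [M_sum]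
    exact Finset.sum_congr rfl fun i _ => M_smul _ _
  have mφ : M (cT q c) φ = ∑ i, u i * M c (a i) := by
    rw [M_cT, ← hM1]
    congr 1
    funext j
    rw [avφ j]
    rfl
  have mψ : M (cT q c) ψ = ∑ i, u' i * M c (b i) := by
    rw [M_cT, ← hM2]
    congr 1
    funext j
    rw [avψ j]
    rfl
  refine ⟨χ, mem_WT0 (u := U) (a := e)
    (s := fun j p => if P₀ j ≤ N₀ j then σ₀ j p else 1 - q) U0 U1 he ?_ ?_ ?_ ?_ ?_, ?_, ?_⟩
  · intro j p
    show 0 ≤ (if P₀ j ≤ N₀ j then σ₀ j p else 1 - q) ∧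
      (if P₀ j ≤ N₀ j then σ₀ j p else 1 - q) ≤ 1
    split_ifs
    · exact hσ0 j p
    · exact ⟨q1'.le, by linarith⟩
  · intro j
    show ∑ i, U i * (if P₀ j ≤ N₀ j then σ₀ j i else 1 - q) = 1 - q
    split_ifs
    · exact hσ1 j
    · rw [← Finset.sum_mul, U1, one_mul]
  · intro j
    rw [χN, χP]
    split_ifs with h
    · exact h
    · exact le_rfl
  · intro j
    show (1 - q) * χ (j, false) = ∑ i, U i * ((if P₀ j ≤ N₀ j then σ₀ j i else 1 - q) * e i j)
    rw [χN]
    split_ifs
    · show (1 - q) * ((∑ p, U p * (σ₀ j p * e p j)) / (1 - q)) = _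
      rw [mul_div_cancel₀ _ q1'.ne']
    · show (1 - q) * ∑ p, U p * e p j = _
      rw [Finset.mul_sum]
      exact Finset.sum_congr rfl fun i _ => by ring
  · intro j
    show q * χ (j, true) = ∑ i, U i * ((1 - if P₀ j ≤ N₀ j then σ₀ j i else 1 - q) * e i j)
    rw [χP]
    split_ifs
    · show q * ((∑ p, U p * ((1 - σ₀ j p) * e p j)) / q) = _
      rw [mul_div_cancel₀ _ q0.ne']
    · show q * ∑ p, U p * e p j = _
      rw [Finset.mul_sum]
      exact Finset.sum_congr rfl fun i _ => by ring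
  · rintro ⟨j, t⟩
    obtain ⟨⟨k1, k2⟩, k3, k4⟩ := hNP j
    by_cases hc : P₀ j ≤ N₀ j
    · cases t with
      | false =>
        rw [χN, if_pos hc]
        exact ⟨k1, k2⟩
      | true =>
        rw [χP, if_pos hc]
        exact ⟨k3, k4⟩
    · have hE : N₀ j ≤ E j := by
        rw [← hmean j]
        push Not at hc
        nlinarith
      cases t with
      | false =>
        rw [χN, if_neg hc]
        exact ⟨k1.trans hE, k2.trans hE⟩
      | true =>
        rw [χP, if_neg hc]
        exact ⟨(hd j).trans (k1.trans hE), (hd' j).trans (k2.trans hE)⟩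
  · rw [M_cT, hav, mφ, mψ]
    have g1 : M c E = ∑ p, U p * M c (e p) := by
      show M c (fun j => ∑ p, U p * e p j) = _
      rw [M_sum]
      exact Finset.sum_congr rfl fun i _ => M_smul _ _
    rw [g1]
    have g2 : ∑ p : Fin n × Fin m, U p * M c (e p) =
        ∑ p : Fin n × Fin m, (u p.1 * u' p.2) * M c (a p.1) +
        ∑ p : Fin n × Fin m, (u p.1 * u' p.2) * M c (b p.2) -
        ∑ p : Fin n × Fin m, (u p.1 * u' p.2) * (M c (a p.1) * M c (b p.2)) := by
      rw [← Finset.sum_add_distrib, ← Finset.sum_sub_distrib]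
      apply Finset.sum_congr rfl
      intro p _
      rw [he2 p]
      show u p.1 * u' p.2 * _ = _
      ring
    rw [g2, hs1 fun i => M c (a i), hs2 fun i => M c (b i),
      hsep (fun i => M c (a i)) (fun i => M c (b i))]

/-- **the tie extension of a test class** -/
theorem TC.tie {W : Set (J → ℝ)} (H : TC c W) {q : ℝ} (hq : 0 < q ∧ q < 1) :
    TC (cT q c) (WT q W) where
  c0 := by
    rintro ⟨j, b⟩
    have h1 := H.c0 j
    have h2 := hq.1
    have h3 := hq.2
    unfold cT
    apply mul_nonneg h1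
    split_ifs <;> linarith
  c1 := by
    rw [sum_JB, ← H.c1]
    exact Finset.sum_congr rfl fun j _ => by simp [cT]; ring
  bd := fun φ hφ x => (WT_sub H hq hφ).1 x
  zero := WT_dup hq H.zero
  one := WT_dup hq H.one
  conv := (WT0_conv q).closure
  closed := isClosed_closure
  join := by
    intro φ hφ ψ hψ
    obtain ⟨f, hf, hfl⟩ := mem_closure_iff_seq_limit.1 hφ
    obtain ⟨g, hg, hgl⟩ := mem_closure_iff_seq_limit.1 hψ
    choose k hk k1 k2 using fun n => WT0_join H hq (hf n) (hg n)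
    have hcomp : IsCompact (WT q W) := by
      have h1 : IsCompact (Set.pi Set.univ (fun _ : J × Bool => Set.Icc (0 : ℝ) 1)) :=
        isCompact_univ_pi (fun _ => isCompact_Icc)
      exact h1.of_isClosed_subset isClosed_closure fun φ hφ j _ => (WT_sub H hq hφ).1 j
    obtain ⟨χ, hχ, θ, hθ, hlim⟩ := hcomp.tendsto_subseq (x := k) fun n => subset_closure (hk n)
    have hθ' := hθ.tendsto_atTop
    have hfl' := hfl.comp hθ'
    have hgl' := hgl.comp hθ'
    have cM : Continuous fun h : J × Bool → ℝ => M (cT q c) h := cont_M continuous_id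
    refine ⟨χ, hχ, fun x => ⟨?_, ?_⟩, ?_⟩
    · exact le_of_tendsto_of_tendsto' ((continuous_apply x).continuousAt.tendsto.comp hfl')
        ((continuous_apply x).continuousAt.tendsto.comp hlim) fun n => (k1 (θ n) x).1
    · exact le_of_tendsto_of_tendsto' ((continuous_apply x).continuousAt.tendsto.comp hgl')
        ((continuous_apply x).continuousAt.tendsto.comp hlim) fun n => (k1 (θ n) x).2
    · have l1 := cM.continuousAt.tendsto.comp hlim
      have l2 := cM.continuousAt.tendsto.comp hfl'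
      have l3 := cM.continuousAt.tendsto.comp hgl'
      refine tendsto_nhds_unique l1 ?_
      refine ((l2.add l3).sub (l2.mul l3)).congr fun n => ?_
      exact (k2 (θ n)).symm


/-! ## the function `T` -/

/-- `T_lam(h) = sup_{φ ∈ W} M[(h - lam) φ]` -/
noncomputable def T (c : J → ℝ) (W : Set (J → ℝ)) (lam : ℝ) (h : J → ℝ) : ℝ :=
  sSup ((fun φ : J → ℝ => M c (fun j => (h j - lam) * φ j)) '' W)

variable {W : Set (J → ℝ)}

lemma cont_test (lam : ℝ) (h : J → ℝ) :
    Continuous (fun φ : J → ℝ => M c (fun j => (h j - lam) * φ j)) := by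
  apply cont_M
  apply continuous_pi
  intro j
  exact continuous_const.mul (continuous_apply j)

lemma T_max (H : TC c W) (lam : ℝ) (h : J → ℝ) :
    ∃ φ ∈ W, M c (fun j => (h j - lam) * φ j) = T c W lam h := by
  have hc := H.compact.image (cont_test (c := c) lam h)
  have hne : ((fun φ : J → ℝ => M c (fun j => (h j - lam) * φ j)) '' W).Nonempty :=
    ⟨_, _, H.zero, rfl⟩
  obtain ⟨φ, h1, h2⟩ := hc.sSup_mem hne
  exact ⟨φ, h1, h2⟩

lemma le_T (H : TC c W) (lam : ℝ) (h : J → ℝ) {φ : J → ℝ} (hφ : φ ∈ W) :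
    M c (fun j => (h j - lam) * φ j) ≤ T c W lam h := by
  have hc := H.compact.image (cont_test (c := c) lam h)
  exact le_csSup hc.bddAbove ⟨φ, hφ, rfl⟩

lemma M_test (lam mu : ℝ) (h φ : J → ℝ) :
    M c (fun j => (h j - mu) * φ j) =
      M c (fun j => (h j - lam) * φ j) + (lam - mu) * M c φ := by
  rw [← M_smul, ← M_add]
  congr 1
  funext j
  ring

lemma M_W (H : TC c W) {φ : J → ℝ} (h : φ ∈ W) : 0 ≤ M c φ ∧ M c φ ≤ 1 := by
  constructor
  · exact M_nonneg H.c0 fun j => (H.bd φ h j).1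
  · have := M_mono H.c0 (f := φ) (g := fun _ => 1) fun j => (H.bd φ h j).2
    rwa [M_const H.c1] at this

lemma T_zero (H : TC c W) {h : J → ℝ} (h0 : ∀ j, 0 ≤ h j) : T c W 0 h = M c h := by
  apply le_antisymm
  · obtain ⟨φ, h1, h2⟩ := T_max H 0 h
    rw [← h2]
    apply M_mono H.c0
    intro j
    have := (H.bd φ h1 j).2
    nlinarith [h0 j]
  · have := le_T H 0 h H.one
    refine le_trans (le_of_eq ?_) this
    congr 1
    funext j
    ring

lemma T_one (H : TC c W) {h : J → ℝ} {lam : ℝ} (h1 : ∀ j, h j ≤ lam) : T c W lam h = 0 := by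
  apply le_antisymm
  · obtain ⟨φ, h2, h3⟩ := T_max H lam h
    rw [← h3]
    have := M_mono H.c0 (f := fun j => (h j - lam) * φ j) (g := fun _ => 0) ?_
    · rwa [M_const H.c1] at this
    · intro j
      have := (H.bd φ h2 j).1
      nlinarith [h1 j]
  · have := le_T H lam h H.zero
    refine le_trans (le_of_eq ?_) this
    rw [show (fun j => (h j - lam) * (0 : ℝ)) = fun _ => (0 : ℝ) from by funext j; ring,
      M_const H.c1]

lemma T_nonneg (H : TC c W) (lam : ℝ) (h : J → ℝ) : 0 ≤ T c W lam h := by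
  have := le_T H lam h H.zero
  refine le_trans (le_of_eq ?_) this
  rw [show (fun j => (h j - lam) * (0 : ℝ)) = fun _ => (0 : ℝ) from by funext j; ring,
    M_const H.c1]

/-- superadditivity with the cross term -/
lemma T_join (H : TC c W) {lam : ℝ} {x y : J → ℝ}
    (hx : ∀ j, 0 ≤ x j) (hy : ∀ j, 0 ≤ y j) {φ ψ : J → ℝ} (hφ : φ ∈ W) (hψ : ψ ∈ W)
    (h1 : M c (fun j => (x j - lam) * φ j) = T c W lam x)
    (h2 : M c (fun j => (y j - lam) * ψ j) = T c W lam y) :
    T c W lam x + T c W lam y + lam * (M c φ * M c ψ) ≤ T c W lam (fun j => x j + y j) := by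
  obtain ⟨χ, hχ, hd, hE⟩ := H.join φ hφ ψ hψ
  refine le_trans ?_ (le_T H lam _ hχ)
  have e1 : M c (fun j => (x j + y j - lam) * χ j) =
      M c (fun j => (x j + y j) * χ j) - lam * M c χ := by
    rw [← M_smul, ← M_sub]
    congr 1
    funext j
    ring
  have e2 : M c (fun j => (x j - lam) * φ j) = M c (fun j => x j * φ j) - lam * M c φ := by
    rw [← M_smul, ← M_sub]
    congr 1
    funext j
    ring
  have e3 : M c (fun j => (y j - lam) * ψ j) = M c (fun j => y j * ψ j) - lam * M c ψ := by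
    rw [← M_smul, ← M_sub]
    congr 1
    funext j
    ring
  have e4 : M c (fun j => x j * φ j) + M c (fun j => y j * ψ j) ≤
      M c (fun j => (x j + y j) * χ j) := by
    rw [← M_add]
    apply M_mono H.c0
    intro j
    have a1 := H.bd φ hφ j
    have a2 := H.bd ψ hψ j
    have a3 : φ j ≤ χ j := (hd j).1
    have a4 : ψ j ≤ χ j := (hd j).2
    have := mul_le_mul_of_nonneg_left a3 (hx j)
    have := mul_le_mul_of_nonneg_left a4 (hy j)
    linarith
  rw [e1, hE, ← h1, ← h2, e2, e3]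
  nlinarith [e4]

lemma T_mono (H : TC c W) (lam : ℝ) {h z : J → ℝ} (hz : ∀ j, h j ≤ z j) :
    T c W lam h ≤ T c W lam z := by
  obtain ⟨φ, h1, h2⟩ := T_max H lam h
  rw [← h2]
  refine le_trans ?_ (le_T H lam z h1)
  apply M_mono H.c0
  intro j
  exact mul_le_mul_of_nonneg_right (by linarith [hz j]) (H.bd φ h1 j).1

lemma T_inj (H : TC c W) (lam : ℝ) {h x : J → ℝ} (hx : ∀ j, 0 ≤ x j) :
    T c W lam (fun j => h j + x j) ≤ T c W lam h + M c x := by
  obtain ⟨φ, h1, h2⟩ := T_max H lam (fun j => h j + x j)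
  rw [← h2]
  have h3 := le_T H lam h h1
  refine le_trans ?_ (add_le_add h3 (le_refl (M c x)))
  rw [← M_add]
  apply M_mono H.c0
  intro j
  have := mul_le_mul_of_nonneg_left (H.bd φ h1 j).2 (hx j)
  show (h j + x j - lam) * φ j ≤ (h j - lam) * φ j + x j
  nlinarith

/-! ## the discrete tail `nu` -/

/-- `T` on the grid -/
noncomputable def t (c : J → ℝ) (W : Set (J → ℝ)) (n : ℕ) (h : J → ℝ) (i : ℕ) : ℝ :=
  T c W (i / n) h

/-- the tail on the grid -/
noncomputable def nu (c : J → ℝ) (W : Set (J → ℝ)) (n : ℕ) (h : J → ℝ) (i : ℕ) : ℝ :=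
  n * (t c W n h i - t c W n h (i + 1))

lemma t_step (H : TC c W) {n : ℕ} (hn : 0 < n) (h : J → ℝ) (i : ℕ) {φ : J → ℝ}
    (hφ : φ ∈ W) (h1 : M c (fun j => (h j - (i / n : ℝ)) * φ j) = t c W n h i) :
    nu c W n h i ≤ M c φ := by
  have hn' : (0 : ℝ) < n := by exact_mod_cast hn
  have h2 := le_T H ((i + 1 : ℕ) / n : ℝ) h hφ
  rw [M_test (i / n : ℝ), h1] at h2
  have e : ((i : ℝ) / n - ((i + 1 : ℕ) : ℝ) / n) = - (1 / n) := by
    push_cast
    field_simp
    ring
  rw [e] at h2
  have h3 : t c W n h i - t c W n h (i + 1) ≤ 1 / n * M c φ := by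
    have : t c W n h (i + 1) = T c W ((i + 1 : ℕ) / n : ℝ) h := rfl
    rw [this]
    linarith
  calc nu c W n h i = n * (t c W n h i - t c W n h (i + 1)) := rfl
    _ ≤ n * (1 / n * M c φ) := mul_le_mul_of_nonneg_left h3 hn'.le
    _ = M c φ := by field_simp

lemma t_back (H : TC c W) {n : ℕ} (hn : 0 < n) (h : J → ℝ) (i : ℕ) {φ : J → ℝ}
    (hφ : φ ∈ W)
    (h1 : M c (fun j => (h j - ((i + 1 : ℕ) / n : ℝ)) * φ j) = t c W n h (i + 1)) :
    M c φ ≤ nu c W n h i := by
  have hn' : (0 : ℝ) < n := by exact_mod_cast hn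
  have h2 := le_T H (i / n : ℝ) h hφ
  rw [M_test ((i + 1 : ℕ) / n : ℝ), h1] at h2
  have e : (((i + 1 : ℕ) : ℝ) / n - (i : ℝ) / n) = 1 / n := by
    push_cast
    field_simp
    ring
  rw [e] at h2
  have h3 : 1 / n * M c φ ≤ t c W n h i - t c W n h (i + 1) := by
    have : t c W n h i = T c W (i / n : ℝ) h := rfl
    rw [this]
    linarith
  calc M c φ = n * (1 / n * M c φ) := by field_simp
    _ ≤ n * (t c W n h i - t c W n h (i + 1)) := mul_le_mul_of_nonneg_left h3 hn'.le
    _ = nu c W n h i := rfl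

lemma nu_le_one (H : TC c W) {n : ℕ} (hn : 0 < n) (h : J → ℝ) (i : ℕ) : nu c W n h i ≤ 1 := by
  obtain ⟨φ, h1, h2⟩ := T_max H (i / n : ℝ) h
  exact le_trans (t_step H hn h i h1 h2) (M_W H h1).2

lemma nu_nonneg (H : TC c W) {n : ℕ} (hn : 0 < n) (h : J → ℝ) (i : ℕ) : 0 ≤ nu c W n h i := by
  obtain ⟨φ, h1, h2⟩ := T_max H ((i + 1 : ℕ) / n : ℝ) h
  exact le_trans (M_W H h1).1 (t_back H hn h i h1 h2)

lemma nu_anti (H : TC c W) {n : ℕ} (hn : 0 < n) (h : J → ℝ) (i : ℕ) :
    nu c W n h (i + 1) ≤ nu c W n h i := by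
  obtain ⟨φ, h1, h2⟩ := T_max H ((i + 1 : ℕ) / n : ℝ) h
  exact le_trans (t_step H hn h (i + 1) h1 h2) (t_back H hn h i h1 h2)

lemma t_top (H : TC c W) {n : ℕ} (hn : 0 < n) {h : J → ℝ} (h1 : ∀ j, h j ≤ 1) :
    t c W n h n = 0 := by
  have hn' : (0 : ℝ) < n := by exact_mod_cast hn
  apply T_one H
  intro j
  rw [div_self hn'.ne']
  exact h1 j

lemma t_zero (H : TC c W) {n : ℕ} {h : J → ℝ} (h0 : ∀ j, 0 ≤ h j) :
    t c W n h 0 = M c h := by
  rw [t, ← T_zero H h0]
  simp

lemma sum_nu (H : TC c W) {n : ℕ} (hn : 0 < n) {h : J → ℝ}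
    (h0 : ∀ j, 0 ≤ h j) (h1 : ∀ j, h j ≤ 1) :
    ∑ i ∈ range n, nu c W n h i = n * M c h := by
  have : ∑ i ∈ range n, nu c W n h i = n * (t c W n h 0 - t c W n h n) := by
    have h2 := Finset.sum_range_sub' (t c W n h) n
    simp only [nu]
    rw [← Finset.mul_sum, h2]
  rw [this, t_zero H h0, t_top H hn h1]
  ring

/-- the potential (times `n`) -/
noncomputable def B (c : J → ℝ) (W : Set (J → ℝ)) (n : ℕ) (h : J → ℝ) : ℝ :=
  ∑ i ∈ range n, w n i * (7 * nu c W n h i - nu c W n h i ^ 2)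

lemma B_nonneg (H : TC c W) {n : ℕ} (hn : 0 < n) (h : J → ℝ) : 0 ≤ B c W n h := by
  apply Finset.sum_nonneg
  intro i _
  apply mul_nonneg (w_nonneg n i)
  have h1 := nu_le_one H hn h i
  have h2 := nu_nonneg H hn h i
  nlinarith

lemma B_le (H : TC c W) {n : ℕ} (hn : 0 < n) {h : J → ℝ}
    (h0 : ∀ j, 0 ≤ h j) (h1 : ∀ j, h j ≤ 1) : B c W n h ≤ 7 * (n * M c h) := by
  rw [← sum_nu H hn h0 h1, Finset.mul_sum]
  apply Finset.sum_le_sum
  intro i hi
  have hw := w_le_one (mem_range.1 hi)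
  have hw0 := w_nonneg n i
  have h1 := nu_le_one H hn h i
  have h2 := nu_nonneg H hn h i
  have h3 : 0 ≤ 7 * nu c W n h i - nu c W n h i ^ 2 := by nlinarith
  calc w n i * (7 * nu c W n h i - nu c W n h i ^ 2)
      ≤ 1 * (7 * nu c W n h i - nu c W n h i ^ 2) := mul_le_mul_of_nonneg_right hw h3
    _ ≤ 7 * nu c W n h i := by nlinarith [sq_nonneg (nu c W n h i)]

/-- superadditivity at splits -/
lemma B_split (H : TC c W) {n : ℕ} (hn : 0 < n) {x y : J → ℝ}
    (hx : ∀ j, 0 ≤ x j) (hy : ∀ j, 0 ≤ y j) (h1 : ∀ j, x j + y j ≤ 1) :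
    B c W n x + B c W n y ≤ B c W n (fun j => x j + y j) := by
  have hn' : (0 : ℝ) < n := by exact_mod_cast hn
  set z : J → ℝ := fun j => x j + y j with hz
  let D : ℕ → ℝ := fun i => t c W n z i - t c W n x i - t c W n y i
  let s : ℕ → ℝ := fun i => nu c W n z i + nu c W n x i + nu c W n y i
  let d : ℕ → ℝ := fun i => w n i * (7 - s i)
  have hx1 : ∀ j, x j ≤ 1 := fun j => by have := h1 j; have := hy j; linarith
  have hy1 : ∀ j, y j ≤ 1 := fun j => by have := h1 j; have := hx j; linarith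
  have hDn : D n = 0 := by
    show t c W n z n - t c W n x n - t c W n y n = 0
    rw [t_top H hn h1, t_top H hn hx1, t_top H hn hy1]
    ring
  have hD : ∀ i : ℕ, (i / n : ℝ) * (nu c W n x i * nu c W n y i) ≤ D i := by
    intro i
    obtain ⟨φ, a1, a2⟩ := T_max H (i / n : ℝ) x
    obtain ⟨ψ, b1, b2⟩ := T_max H (i / n : ℝ) y
    have hj := T_join H hx hy a1 b1 a2 b2
    have h3 := t_step H hn x i a1 a2
    have h4 := t_step H hn y i b1 b2
    have h5 := nu_nonneg H hn x i
    have h6 := nu_nonneg H hn y i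
    have h7 : nu c W n x i * nu c W n y i ≤ M c φ * M c ψ :=
      mul_le_mul h3 h4 h6 (le_trans h5 h3)
    have h8 : (0 : ℝ) ≤ i / n := by positivity
    have h9 := mul_le_mul_of_nonneg_left h7 h8
    show _ ≤ t c W n z i - t c W n x i - t c W n y i
    simp only [t]
    linarith
  have hdiff : B c W n z - B c W n x - B c W n y =
      n * ∑ i ∈ range n, d i * (D i - D (i + 1)) -
        2 * ∑ i ∈ range n, w n i * (nu c W n x i * nu c W n y i) := by
    simp only [B]
    rw [← Finset.sum_sub_distrib, ← Finset.sum_sub_distrib, Finset.mul_sum, Finset.mul_sum,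
      ← Finset.sum_sub_distrib]
    apply Finset.sum_congr rfl
    intro i _
    have e : nu c W n z i = nu c W n x i + nu c W n y i + n * (D i - D (i + 1)) := by
      simp only [nu, D]
      ring
    show _ = n * (w n i * (7 - (nu c W n z i + nu c W n x i + nu c W n y i)) *
      (D i - D (i + 1))) - _
    have e2 : n * (D i - D (i + 1)) = nu c W n z i - nu c W n x i - nu c W n y i := by
      rw [e]; ring
    calc _ = w n i * ((7 - (nu c W n z i + nu c W n x i + nu c W n y i)) *
          (nu c W n z i - nu c W n x i - nu c W n y i)) -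
          2 * (w n i * (nu c W n x i * nu c W n y i)) := by ring
      _ = _ := by rw [← e2]; ring
  have hab := abel d D n
  have hc0 : d 0 = 0 := by
    show w n 0 * _ = 0
    rw [w_zero, zero_mul]
  rw [hDn, hc0] at hab
  have hterm : ∀ i ∈ range n, 2 / n * (w n (i + 1) * (nu c W n x (i + 1) * nu c W n y (i + 1))) ≤
      (d (i + 1) - d i) * D (i + 1) := by
    intro i _
    have hd := hD (i + 1)
    set P := nu c W n x (i + 1) * nu c W n y (i + 1) with hP
    have hP0 : 0 ≤ P := mul_nonneg (nu_nonneg H hn x _) (nu_nonneg H hn y _)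
    have hs : s (i + 1) ≤ s i := by
      have := nu_anti H hn x i
      have := nu_anti H hn y i
      have := nu_anti H hn z i
      show _ + _ + _ ≤ _ + _ + _
      linarith
    have hs3 : s (i + 1) ≤ 3 := by
      have := nu_le_one H hn x (i + 1)
      have := nu_le_one H hn y (i + 1)
      have := nu_le_one H hn z (i + 1)
      show _ + _ + _ ≤ _
      linarith
    have hcc : 4 * (w n (i + 1) - w n i) ≤ d (i + 1) - d i := by
      show _ ≤ w n (i + 1) * (7 - s (i + 1)) - w n i * (7 - s i)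
      have h3 := w_mono n i
      have h4 := w_nonneg n i
      nlinarith [mul_nonneg h4 (sub_nonneg.2 hs), mul_nonneg (sub_nonneg.2 h3)
        (sub_nonneg.2 hs3)]
    have hws := w_step n i
    have hD0 : 0 ≤ D (i + 1) := le_trans (by positivity) hd
    calc 2 / n * (w n (i + 1) * P)
        ≤ 2 / n * ((2 * ((i + 1 : ℕ) * (w n (i + 1) - w n i))) * P) := by
          apply mul_le_mul_of_nonneg_left _ (by positivity)
          exact mul_le_mul_of_nonneg_right hws hP0
      _ = 4 * (w n (i + 1) - w n i) * (((i + 1 : ℕ) / n : ℝ) * P) := by ring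
      _ ≤ 4 * (w n (i + 1) - w n i) * D (i + 1) := by
          apply mul_le_mul_of_nonneg_left hd
          have := w_mono n i
          linarith
      _ ≤ (d (i + 1) - d i) * D (i + 1) := mul_le_mul_of_nonneg_right hcc hD0
  have hsum := Finset.sum_le_sum hterm
  rw [← Finset.mul_sum] at hsum
  have hshift : ∑ i ∈ range n, w n i * (nu c W n x i * nu c W n y i) ≤
      ∑ i ∈ range n, w n (i + 1) * (nu c W n x (i + 1) * nu c W n y (i + 1)) := by
    have h3 := Finset.sum_range_succ (fun i => w n i * (nu c W n x i * nu c W n y i)) n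
    have h4 := Finset.sum_range_succ' (fun i => w n i * (nu c W n x i * nu c W n y i)) n
    rw [h3] at h4
    simp only [w_zero, zero_mul, add_zero] at h4
    rw [← h4]
    have : 0 ≤ w n n * (nu c W n x n * nu c W n y n) :=
      mul_nonneg (w_nonneg n n) (mul_nonneg (nu_nonneg H hn x _) (nu_nonneg H hn y _))
    linarith
  have hfin : 2 * ∑ i ∈ range n, w n i * (nu c W n x i * nu c W n y i) ≤
      n * ∑ i ∈ range n, d i * (D i - D (i + 1)) := by
    have h5 : ∑ i ∈ range n, d i * (D i - D (i + 1)) =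
        ∑ i ∈ range n, (d (i + 1) - d i) * D (i + 1) := by
      linarith
    rw [h5]
    calc 2 * ∑ i ∈ range n, w n i * (nu c W n x i * nu c W n y i)
        ≤ 2 * ∑ i ∈ range n, w n (i + 1) * (nu c W n x (i + 1) * nu c W n y (i + 1)) := by
          linarith
      _ = n * (2 / n * ∑ i ∈ range n, w n (i + 1) *
          (nu c W n x (i + 1) * nu c W n y (i + 1))) := by field_simp
      _ ≤ _ := mul_le_mul_of_nonneg_left hsum hn'.le
  linarith

lemma B_mono (H : TC c W) {n : ℕ} (hn : 0 < n) {x h : J → ℝ}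
    (hx : ∀ j, 0 ≤ x j) (hxh : ∀ j, x j ≤ h j) (h1 : ∀ j, h j ≤ 1) :
    B c W n x ≤ B c W n h := by
  have h3 := B_split H hn (x := x) (y := fun j => h j - x j) hx
    (fun j => sub_nonneg.2 (hxh j)) (fun j => by have := h1 j; linarith)
  have h4 := B_nonneg H hn (fun j => h j - x j)
  rw [show (fun j => x j + (h j - x j)) = h from by funext j; ring] at h3
  linarith

/-- **births are Lipschitz** -/
lemma B_inj (H : TC c W) {n : ℕ} (hn : 0 < n) {h x : J → ℝ}
    (hx : ∀ j, 0 ≤ x j) : B c W n (fun j => h j + x j) ≤ B c W n h + 7 * (n * M c x) := by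
  have hn' : (0 : ℝ) < n := by exact_mod_cast hn
  set z : J → ℝ := fun j => h j + x j with hz
  let D : ℕ → ℝ := fun i => t c W n z i - t c W n h i
  let s : ℕ → ℝ := fun i => nu c W n z i + nu c W n h i
  let d : ℕ → ℝ := fun i => w n i * (7 - s i)
  have hD0 : ∀ i, 0 ≤ D i := fun i => sub_nonneg.2
    (T_mono H (i / n) fun j => by show h j ≤ h j + x j; linarith [hx j])
  have hD1 : ∀ i, D i ≤ M c x := by
    intro i
    have := T_inj H (i / n) (h := h) hx
    show T c W (i / n) z - T c W (i / n) h ≤ _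
    linarith
  have hs2 : ∀ i, s i ≤ 2 := fun i => by
    have a1 := nu_le_one H hn z i
    have a2 := nu_le_one H hn h i
    show _ + _ ≤ _
    linarith
  have hcm : ∀ i, d i ≤ d (i + 1) := by
    intro i
    have hs : s (i + 1) ≤ s i := by
      have a1 := nu_anti H hn z i
      have a2 := nu_anti H hn h i
      show _ + _ ≤ _ + _
      linarith
    show w n i * (7 - s i) ≤ w n (i + 1) * (7 - s (i + 1))
    have h3 := w_mono n i
    have h4 := w_nonneg n i
    nlinarith [mul_nonneg h4 (sub_nonneg.2 hs), mul_nonneg (sub_nonneg.2 h3)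
      (sub_nonneg.2 (hs2 (i + 1)))]
  have hc0 : d 0 = 0 := by
    show w n 0 * _ = 0
    rw [w_zero, zero_mul]
  have hcn : d n ≤ 7 := by
    have h1 : w n n ≤ 1 := by
      apply div_le_one_of_le₀ le_rfl (Real.sqrt_nonneg _)
    have h2 : 0 ≤ s n := add_nonneg (nu_nonneg H hn z n) (nu_nonneg H hn h n)
    show w n n * (7 - s n) ≤ 7
    have h3 := w_nonneg n n
    nlinarith [mul_nonneg h3 h2]
  have hdiff : B c W n z - B c W n h = n * ∑ i ∈ range n, d i * (D i - D (i + 1)) := by
    simp only [B]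
    rw [← Finset.sum_sub_distrib, Finset.mul_sum]
    apply Finset.sum_congr rfl
    intro i _
    have e : n * (D i - D (i + 1)) = nu c W n z i - nu c W n h i := by
      simp only [nu, D]
      ring
    show _ = n * (w n i * (7 - (nu c W n z i + nu c W n h i)) * (D i - D (i + 1)))
    calc _ = w n i * ((7 - (nu c W n z i + nu c W n h i)) * (nu c W n z i - nu c W n h i)) := by
          ring
      _ = _ := by rw [← e]; ring
  have hab := abel d D n
  have hsum : ∑ i ∈ range n, (d (i + 1) - d i) * D (i + 1) ≤ d n * M c x := by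
    calc ∑ i ∈ range n, (d (i + 1) - d i) * D (i + 1)
        ≤ ∑ i ∈ range n, (d (i + 1) - d i) * M c x := by
          apply Finset.sum_le_sum
          intro i _
          exact mul_le_mul_of_nonneg_left (hD1 _) (sub_nonneg.2 (hcm i))
      _ = d n * M c x := by
          rw [← Finset.sum_mul, Finset.sum_range_sub, hc0, sub_zero]
  have hEx : 0 ≤ M c x := M_nonneg H.c0 hx
  have hcn0 : 0 ≤ d n := by
    show 0 ≤ w n n * (7 - s n)
    exact mul_nonneg (w_nonneg n n) (by linarith [hs2 n])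
  have hfin : ∑ i ∈ range n, d i * (D i - D (i + 1)) ≤ 7 * M c x := by
    have h1 : 0 ≤ d n * D n := mul_nonneg hcn0 (hD0 n)
    have h2 : d n * M c x ≤ 7 * M c x := mul_le_mul_of_nonneg_right hcn hEx
    rw [hc0, zero_mul, zero_add] at hab
    linarith
  have := mul_le_mul_of_nonneg_left hfin hn'.le
  linarith

/-! ## columns -/

/-- the general column; `ι` = fibre with weights `u`; every member has its own lifts and its own
height `Δ` -/
structure Col {ι : Type*} [Fintype ι] (q : ℝ) (h : J × Bool → ℝ) (u : ι → ℝ) (X : ι → J → ℝ) :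
    Prop where
  u0 : ∀ i, 0 ≤ u i
  u1 : ∑ i, u i = 1
  rule : ∀ j, ∃ (s : ι → ℝ) (Δ : ℝ), (∀ i, 0 ≤ s i ∧ s i ≤ 1) ∧ ∑ i, u i * s i = 1 - q ∧
    0 ≤ Δ ∧ Δ ≤ max (h (j, false) - h (j, true)) 0 ∧
    ∀ i, X i j = av q h j + (s i - (1 - q)) * Δ

section col
variable {ι : Type*} [Fintype ι] {q : ℝ} {h : J × Bool → ℝ} {u : ι → ℝ} {X : ι → J → ℝ}

lemma Col.bd (hq : 0 < q ∧ q < 1) (C : Col q h u X) (h0 : ∀ x, 0 ≤ h x) {v : ℝ}
    (h1 : ∀ x, h x ≤ v) (i : ι) (j : J) : 0 ≤ X i j ∧ X i j ≤ v := by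
  obtain ⟨s, Δ, hs, hsu, hΔ0, hΔ1, hX⟩ := C.rule j
  rw [hX i]
  have a0 := h0 (j, false)
  have b0 := h0 (j, true)
  have a1 := h1 (j, false)
  have b1 := h1 (j, true)
  obtain ⟨s0, s1⟩ := hs i
  simp only [av]
  set a := h (j, false)
  set b := h (j, true)
  have q1 : 0 ≤ 1 - q := by linarith [hq.2]
  rcases le_total a b with hab | hab
  · have hz : Δ = 0 := by
      rw [max_eq_right (by linarith)] at hΔ1
      linarith
    rw [hz]
    have := mul_nonneg q1 a0
    have := mul_nonneg hq.1.le b0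
    have := mul_le_mul_of_nonneg_left a1 q1
    have := mul_le_mul_of_nonneg_left b1 hq.1.le
    constructor <;> linarith
  · rw [max_eq_left (by linarith)] at hΔ1
    constructor
    · have e1 : (1 - q) * Δ ≤ (1 - q) * (a - b) := mul_le_mul_of_nonneg_left hΔ1 q1
      have e2 : 0 ≤ s i * Δ := mul_nonneg s0 hΔ0
      nlinarith
    · have e1 : (s i - (1 - q)) * Δ ≤ q * Δ := mul_le_mul_of_nonneg_right (by linarith) hΔ0
      have e2 : q * Δ ≤ q * (a - b) := mul_le_mul_of_nonneg_left hΔ1 hq.1.le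
      nlinarith

lemma Col.mean (C : Col q h u X) (j : J) : ∑ i, u i * X i j = av q h j := by
  obtain ⟨s, Δ, hs, hsu, hΔ0, hΔ1, hX⟩ := C.rule j
  have : ∑ i, u i * X i j = (av q h j - (1 - q) * Δ) * ∑ i, u i + Δ * ∑ i, u i * s i := by
    rw [Finset.mul_sum, Finset.mul_sum, ← Finset.sum_add_distrib]
    apply Finset.sum_congr rfl
    intro i _
    rw [hX i]
    ring
  rw [this, C.u1, hsu]
  ring

lemma M_Col (C : Col q h u X) : ∑ i, u i * M c (X i) = M (cT q c) h := by
  have e : ∑ i, u i * M c (X i) = M c (fun j => ∑ i, u i * X i j) := by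
    rw [M_sum]
    exact Finset.sum_congr rfl fun i _ => (M_smul _ _).symm
  rw [e, M_cT]
  congr 1
  funext j
  exact C.mean j

/-- (A'') the general column step -/
lemma colG (H : TC c W) (hq : 0 < q ∧ q < 1) (lam : ℝ) (C : Col q h u X) {a : ι → J → ℝ}
    (ha : ∀ i, a i ∈ W) :
    ∃ φ ∈ WT q W, ∑ i, u i * M c (fun j => (X i j - lam) * a i j) ≤
      M (cT q c) (fun x => (h x - lam) * φ x) := by
  classical
  obtain ⟨q0, q1⟩ := hq
  have q1' : 0 < 1 - q := by linarith
  choose s Δ hs hsu hΔ0 hΔ1 hX using C.rule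
  let ab : J → ℝ := fun j => ∑ i, u i * a i j
  have hab : ab ∈ W := H.sum C.u0 C.u1 ha
  let A : J → ℝ := fun j => ∑ i, u i * (s j i * a i j)
  let fN : J → ℝ := fun j => A j / (1 - q)
  let fP : J → ℝ := fun j => (ab j - A j) / q
  have habd : ∀ i j, 0 ≤ a i j ∧ a i j ≤ 1 := fun i j => H.bd _ (ha i) j
  have hA0 : ∀ j, 0 ≤ A j := fun j => Finset.sum_nonneg fun i _ =>
    mul_nonneg (C.u0 i) (mul_nonneg (hs j i).1 (habd i j).1)
  have hA1 : ∀ j, A j ≤ 1 - q := by
    intro j
    rw [← hsu j]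
    apply Finset.sum_le_sum
    intro i _
    apply mul_le_mul_of_nonneg_left _ (C.u0 i)
    have := mul_le_mul_of_nonneg_left (habd i j).2 (hs j i).1
    linarith
  have hA2 : ∀ j, A j ≤ ab j := by
    intro j
    apply Finset.sum_le_sum
    intro i _
    apply mul_le_mul_of_nonneg_left _ (C.u0 i)
    have := mul_le_mul_of_nonneg_right (hs j i).2 (habd i j).1
    linarith
  have hA3 : ∀ j, ab j - A j ≤ q := by
    intro j
    have e : q = ∑ i, u i * (1 - s j i) := by
      simp only [mul_sub, mul_one, Finset.sum_sub_distrib]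
      rw [C.u1, hsu j]
      ring
    have e2 : ab j - A j = ∑ i, u i * ((1 - s j i) * a i j) := by
      show ∑ i, u i * a i j - ∑ i, u i * (s j i * a i j) = _
      rw [← Finset.sum_sub_distrib]
      apply Finset.sum_congr rfl
      intro i _
      ring
    rw [e2, e]
    apply Finset.sum_le_sum
    intro i _
    apply mul_le_mul_of_nonneg_left _ (C.u0 i)
    have := mul_le_mul_of_nonneg_left (habd i j).2 (sub_nonneg.2 (hs j i).2)
    linarith
  have hfN : ∀ j, 0 ≤ fN j ∧ fN j ≤ 1 := fun j =>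
    ⟨div_nonneg (hA0 j) q1'.le, (div_le_one q1').2 (hA1 j)⟩
  have hfP : ∀ j, 0 ≤ fP j ∧ fP j ≤ 1 := fun j =>
    ⟨div_nonneg (sub_nonneg.2 (hA2 j)) q0.le, (div_le_one q0).2 (hA3 j)⟩
  have hmean : ∀ j, (1 - q) * fN j + q * fP j = ab j := by
    intro j
    show (1 - q) * (A j / (1 - q)) + q * ((ab j - A j) / q) = ab j
    field_simp
    ring
  let Q : J → Prop := fun j => h (j, true) ≤ h (j, false) ∧ fP j ≤ fN j
  let φ : J × Bool → ℝ := fun x =>
    if Q x.1 then (if x.2 then fP x.1 else fN x.1) else ab x.1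
  have hN : ∀ j, φ (j, false) = if Q j then fN j else ab j := fun j => by simp [φ]
  have hP : ∀ j, φ (j, true) = if Q j then fP j else ab j := fun j => by simp [φ]
  have hav : av q φ = ab := by
    funext j
    simp only [av, hN, hP]
    split_ifs
    · exact hmean j
    · ring
  refine ⟨φ, subset_closure (mem_WT0 (u := u) (a := a)
    (s := fun j i => if Q j then s j i else 1 - q) C.u0 C.u1 ha ?_ ?_ ?_ ?_ ?_), ?_⟩
  · intro j i
    show 0 ≤ (if Q j then s j i else 1 - q) ∧ (if Q j then s j i else 1 - q) ≤ 1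
    split_ifs
    · exact hs j i
    · exact ⟨q1'.le, by linarith⟩
  · intro j
    show ∑ i, u i * (if Q j then s j i else 1 - q) = 1 - q
    split_ifs
    · exact hsu j
    · rw [← Finset.sum_mul, C.u1, one_mul]
  · intro j
    rw [hN, hP]
    split_ifs with hc
    · exact hc.2
    · exact le_refl _
  · intro j
    show (1 - q) * φ (j, false) = ∑ i, u i * ((if Q j then s j i else 1 - q) * a i j)
    rw [hN]
    split_ifs with hc
    · show (1 - q) * (A j / (1 - q)) = A j
      field_simp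
    · show (1 - q) * ∑ i, u i * a i j = _
      rw [Finset.mul_sum]
      exact Finset.sum_congr rfl fun i _ => by ring
  · intro j
    show q * φ (j, true) = ∑ i, u i * ((1 - if Q j then s j i else 1 - q) * a i j)
    rw [hP]
    split_ifs with hc
    · show q * ((ab j - A j) / q) = _
      rw [mul_div_cancel₀ _ q0.ne']
      show ∑ i, u i * a i j - ∑ i, u i * (s j i * a i j) = _
      rw [← Finset.sum_sub_distrib]
      exact Finset.sum_congr rfl fun i _ => by ring
    · show q * ∑ i, u i * a i j = _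
      rw [Finset.mul_sum]
      exact Finset.sum_congr rfl fun i _ => by ring
  · rw [M_cT]
    have e0 : ∑ i, u i * M c (fun j => (X i j - lam) * a i j) =
        M c (fun j => ∑ i, u i * ((X i j - lam) * a i j)) := by
      rw [M_sum]
      exact Finset.sum_congr rfl fun i _ => (M_smul _ _).symm
    rw [e0]
    apply M_mono H.c0
    intro j
    have e1 : ∑ i, u i * ((X i j - lam) * a i j) =
        (av q h j - lam) * ab j + Δ j * ((1 - q) * (fN j - ab j)) := by
      have e2 : (1 - q) * fN j = A j := by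
        show (1 - q) * (A j / (1 - q)) = A j
        field_simp
      have e3 : Δ j * ((1 - q) * (fN j - ab j)) = Δ j * A j - (1 - q) * Δ j * ab j := by
        rw [← e2]; ring
      rw [e3]
      show _ = (av q h j - lam) * ∑ i, u i * a i j + (Δ j * ∑ i, u i * (s j i * a i j) -
        (1 - q) * Δ j * ∑ i, u i * a i j)
      rw [Finset.mul_sum, Finset.mul_sum, Finset.mul_sum, ← Finset.sum_sub_distrib,
        ← Finset.sum_add_distrib]
      apply Finset.sum_congr rfl
      intro i _
      rw [hX j i]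
      ring
    have e4 : fN j - ab j = q * (fN j - fP j) := by
      rw [← hmean j]; ring
    rw [e1, e4]
    have hqq : 0 ≤ q * (1 - q) := mul_nonneg q0.le q1'.le
    show _ ≤ (1 - q) * ((h (j, false) - lam) * φ (j, false)) +
      q * ((h (j, true) - lam) * φ (j, true))
    rw [hN, hP]
    by_cases hc : Q j
    · rw [if_pos hc, if_pos hc]
      have h3 : Δ j ≤ h (j, false) - h (j, true) := by
        have := hΔ1 j
        rwa [max_eq_left (sub_nonneg.2 hc.1)] at this
      have h4 := mul_le_mul_of_nonneg_right h3 (sub_nonneg.2 hc.2)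
      have h5 := mul_le_mul_of_nonneg_left h4 hqq
      have h6 : (1 - q) * ((h (j, false) - lam) * fN j) + q * ((h (j, true) - lam) * fP j) =
          (av q h j - lam) * ((1 - q) * fN j + q * fP j) +
          q * (1 - q) * ((h (j, false) - h (j, true)) * (fN j - fP j)) := by
        simp only [av]
        ring
      rw [h6, hmean j]
      nlinarith [h5]
    · rw [if_neg hc, if_neg hc]
      have h3 : Δ j * (fN j - fP j) ≤ 0 := by
        by_cases hh : h (j, true) ≤ h (j, false)
        · have : ¬ fP j ≤ fN j := fun h' => hc ⟨hh, h'⟩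
          push Not at this
          exact mul_nonpos_of_nonneg_of_nonpos (hΔ0 j) (by linarith)
        · push Not at hh
          have h4 := hΔ1 j
          rw [max_eq_right (by linarith)] at h4
          have : Δ j = 0 := le_antisymm h4 (hΔ0 j)
          rw [this, zero_mul]
      have h5 := mul_nonneg hqq (neg_nonneg.2 h3)
      have h6 : (1 - q) * ((h (j, false) - lam) * ab j) + q * ((h (j, true) - lam) * ab j) =
          (av q h j - lam) * ab j := by
        simp only [av]
        ring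
      rw [h6]
      nlinarith [h5]

lemma T_colG (H : TC c W) (hq : 0 < q ∧ q < 1) (lam : ℝ) (C : Col q h u X) :
    ∑ i, u i * T c W lam (X i) ≤ T (cT q c) (WT q W) lam h := by
  choose a ha ha' using fun i => T_max H lam (X i)
  obtain ⟨φ, hφ, h1⟩ := colG H hq lam C ha
  simp only [ha'] at h1
  exact le_trans h1 (le_T (H.tie hq) lam h hφ)

/-- **the column step for the potential** -/
lemma B_colG (H : TC c W) (hq : 0 < q ∧ q < 1) {n : ℕ} (hn : 0 < n)
    (h0 : ∀ x, 0 ≤ h x) (h1 : ∀ x, h x ≤ 1) (C : Col q h u X) :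
    n * (∑ i, u i * (M c (X i) - M (cT q c) h) ^ 2) + 2 * ∑ i, u i * B c W n (X i) ≤
    2 * B (cT q c) (WT q W) n h + 2 := by
  have hn' : (0 : ℝ) < n := by exact_mod_cast hn
  have H' := H.tie hq
  have hX0 : ∀ i j, 0 ≤ X i j := fun i j => (C.bd hq h0 h1 i j).1
  have hX1 : ∀ i j, X i j ≤ 1 := fun i j => (C.bd hq h0 h1 i j).2
  have hEX := M_Col (c := c) C
  let D : ℕ → ℝ := fun i => t (cT q c) (WT q W) n h i - ∑ j, u j * t c W n (X j) i
  have hD : ∀ i, 0 ≤ D i := by
    intro i
    have := T_colG H hq (i / n) C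
    show 0 ≤ t (cT q c) (WT q W) n h i - ∑ j, u j * t c W n (X j) i
    simp only [t]
    linarith
  have hD0 : D 0 = 0 := by
    show t (cT q c) (WT q W) n h 0 - ∑ j, u j * t c W n (X j) 0 = 0
    simp only [t_zero H (hX0 _), t_zero H' h0, hEX]
    ring
  have hDn : D n = 0 := by
    show t (cT q c) (WT q W) n h n - ∑ j, u j * t c W n (X j) n = 0
    simp only [t_top H hn (hX1 _), t_top H' hn h1]
    simp
  let nb : ℕ → ℝ := fun i => ∑ j, u j * nu c W n (X j) i
  let s : ℕ → ℝ := fun i => nu (cT q c) (WT q W) n h i + nb i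
  let e : ℕ → ℝ := fun i => w n i * (7 - s i)
  let d : ι → ℕ → ℝ := fun j i => nu c W n (X j) i - nb i
  have hnb1 : ∀ i, nb i ≤ 1 := by
    intro i
    show ∑ j, u j * nu c W n (X j) i ≤ 1
    rw [← C.u1]
    apply Finset.sum_le_sum
    intro j _
    have := mul_le_mul_of_nonneg_left (nu_le_one H hn (X j) i) (C.u0 j)
    linarith
  have hnb0 : ∀ i, 0 ≤ nb i := fun i => Finset.sum_nonneg fun j _ =>
    mul_nonneg (C.u0 j) (nu_nonneg H hn (X j) i)
  have hnba : ∀ i, nb (i + 1) ≤ nb i := by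
    intro i
    apply Finset.sum_le_sum
    intro j _
    exact mul_le_mul_of_nonneg_left (nu_anti H hn (X j) i) (C.u0 j)
  have hvar : ∀ i, ∑ j, u j * (7 * nu c W n (X j) i - nu c W n (X j) i ^ 2) =
      7 * nb i - nb i ^ 2 - ∑ j, u j * d j i ^ 2 := by
    intro i
    have e1 : ∑ j, u j * d j i ^ 2 = ∑ j, u j * nu c W n (X j) i ^ 2 - nb i ^ 2 := by
      have hb : ∀ b : ℝ, ∑ j, u j * (nu c W n (X j) i - b) ^ 2 =
          ∑ j, u j * nu c W n (X j) i ^ 2 -
          2 * b * ∑ j, u j * nu c W n (X j) i + b ^ 2 * ∑ j, u j := by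
        intro b
        rw [Finset.mul_sum, Finset.mul_sum, ← Finset.sum_sub_distrib, ← Finset.sum_add_distrib]
        apply Finset.sum_congr rfl
        intro j _
        ring
      have this := hb (nb i)
      show ∑ j, u j * (nu c W n (X j) i - nb i) ^ 2 = _
      rw [this, C.u1]
      show _ - 2 * nb i * nb i + _ = _
      ring
    have e2 : ∑ j, u j * (7 * nu c W n (X j) i - nu c W n (X j) i ^ 2) =
        7 * ∑ j, u j * nu c W n (X j) i - ∑ j, u j * nu c W n (X j) i ^ 2 := by
      rw [Finset.mul_sum, ← Finset.sum_sub_distrib]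
      apply Finset.sum_congr rfl
      intro j _
      ring
    rw [e2, e1]
    show 7 * nb i - _ = _
    ring
  have hdiff : B (cT q c) (WT q W) n h - ∑ j, u j * B c W n (X j) =
      n * ∑ i ∈ range n, e i * (D i - D (i + 1)) +
        ∑ j, u j * ∑ i ∈ range n, w n i * d j i ^ 2 := by
    have e1 : ∑ j, u j * B c W n (X j) =
        ∑ i ∈ range n, w n i * (7 * nb i - nb i ^ 2 - ∑ j, u j * d j i ^ 2) := by
      simp only [B, Finset.mul_sum]
      rw [Finset.sum_comm]
      apply Finset.sum_congr rfl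
      intro i _
      rw [← hvar i, Finset.mul_sum]
      apply Finset.sum_congr rfl
      intro j _
      ring
    have e2 : ∑ j, u j * ∑ i ∈ range n, w n i * d j i ^ 2 =
        ∑ i ∈ range n, w n i * ∑ j, u j * d j i ^ 2 := by
      simp only [Finset.mul_sum]
      rw [Finset.sum_comm]
      apply Finset.sum_congr rfl
      intro i _
      apply Finset.sum_congr rfl
      intro j _
      ring
    rw [e1, e2, Finset.mul_sum]
    simp only [B]
    rw [← Finset.sum_sub_distrib, ← Finset.sum_add_distrib]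
    apply Finset.sum_congr rfl
    intro i _
    have e3 : n * (D i - D (i + 1)) = nu (cT q c) (WT q W) n h i - nb i := by
      have e4 : nb i = n * (∑ j, u j * t c W n (X j) i - ∑ j, u j * t c W n (X j) (i + 1)) := by
        show ∑ j, u j * nu c W n (X j) i = _
        rw [← Finset.sum_sub_distrib, Finset.mul_sum]
        apply Finset.sum_congr rfl
        intro j _
        simp only [nu]
        ring
      rw [e4]
      simp only [nu, D]
      ring
    show _ = n * (w n i * (7 - (nu (cT q c) (WT q W) n h i + nb i)) * (D i - D (i + 1))) + _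
    calc _ = w n i * ((7 - (nu (cT q c) (WT q W) n h i + nb i)) *
          (nu (cT q c) (WT q W) n h i - nb i)) + w n i * ∑ j, u j * d j i ^ 2 := by ring
      _ = _ := by rw [← e3]; ring
  have hab := abel e D n
  rw [hDn, hD0] at hab
  have hpos : 0 ≤ ∑ i ∈ range n, e i * (D i - D (i + 1)) := by
    have : 0 ≤ ∑ i ∈ range n, (e (i + 1) - e i) * D (i + 1) := by
      apply Finset.sum_nonneg
      intro i _
      apply mul_nonneg _ (hD _)
      have b1 := nu_anti H' hn h i
      have b4 := nu_le_one H' hn h (i + 1)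
      have hs : s (i + 1) ≤ s i := by
        have := hnba i
        show _ + _ ≤ _ + _
        linarith
      have hs3 : s (i + 1) ≤ 2 := by
        have := hnb1 (i + 1)
        show _ + _ ≤ _
        linarith
      show 0 ≤ w n (i + 1) * (7 - s (i + 1)) - w n i * (7 - s i)
      have h3 := w_mono n i
      have h4 := w_nonneg n i
      nlinarith [mul_nonneg h4 (sub_nonneg.2 hs), mul_nonneg (sub_nonneg.2 h3)
        (sub_nonneg.2 hs3)]
    linarith
  obtain ⟨k', rfl⟩ : ∃ k', n = k' + 1 := ⟨n - 1, by omega⟩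
  set N : ℝ := ((k' + 1 : ℕ) : ℝ) with hN
  have hN1 : 1 ≤ N := by
    rw [hN]
    push_cast
    linarith [(Nat.cast_nonneg k' : (0 : ℝ) ≤ k')]
  have hEb : ∀ i, 0 ≤ M c (X i) ∧ M c (X i) ≤ 1 := by
    intro i
    refine ⟨M_nonneg H.c0 (hX0 i), ?_⟩
    have := M_mono H.c0 (f := X i) (g := fun _ => 1) (hX1 i)
    rwa [M_const H.c1] at this
  have hEb' : 0 ≤ M (cT q c) h ∧ M (cT q c) h ≤ 1 := by
    refine ⟨M_nonneg H'.c0 h0, ?_⟩
    have := M_mono H'.c0 (f := h) (g := fun _ => 1) h1
    rwa [M_const H'.c1] at this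
  have hkey : ∀ j, N * (M c (X j) - M (cT q c) h) ^ 2 ≤
      2 * ∑ i ∈ range (k' + 1), w (k' + 1) i * d j i ^ 2 + 2 := by
    intro j
    have hsn : ∑ i ∈ range (k' + 1), nb i = N * M (cT q c) h := by
      show ∑ i ∈ range (k' + 1), ∑ j, u j * nu c W (k' + 1) (X j) i = _
      rw [Finset.sum_comm, ← hEX, Finset.mul_sum]
      apply Finset.sum_congr rfl
      intro l _
      rw [← Finset.mul_sum, sum_nu H hn (hX0 l) (hX1 l)]
      ring
    have hsd : ∑ i ∈ range (k' + 1), d j i = N * (M c (X j) - M (cT q c) h) := by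
      show ∑ i ∈ range (k' + 1), (nu c W (k' + 1) (X j) i - nb i) = _
      rw [Finset.sum_sub_distrib, sum_nu H hn (hX0 j) (hX1 j), hsn]
      ring
    rw [Finset.sum_range_succ'] at hsd
    have hca := cauchy (k := k') (d j)
    have hq1 : ∑ i ∈ range (k' + 1), w (k' + 1) i * d j i ^ 2 =
        ∑ i ∈ range k', w (k' + 1) (i + 1) * d j (i + 1) ^ 2 := by
      rw [Finset.sum_range_succ', w_zero]
      ring
    rw [hq1]
    set Q := ∑ i ∈ range k', w (k' + 1) (i + 1) * d j (i + 1) ^ 2 with hQ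
    set S := ∑ i ∈ range k', d j (i + 1) with hS
    set g := M c (X j) - M (cT q c) h with hg
    have hd0 : |d j 0| ≤ 1 := by
      rw [abs_le]
      have b1 := nu_nonneg H hn (X j) 0
      have b3 := nu_le_one H hn (X j) 0
      have b2 := hnb0 0
      have b4 := hnb1 0
      constructor
      · show _ ≤ _ - _
        linarith
      · show _ - _ ≤ _
        linarith
    have he1 : |g| ≤ 1 := by
      have b1 := hEb j
      rw [abs_le]
      constructor <;> linarith [b1.1, b1.2, hEb'.1, hEb'.2]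
    have hSe : S = N * g - d j 0 := by linarith
    have h5 : g * d j 0 ≤ 1 := by
      have := abs_mul g (d j 0)
      have h6 : |g| * |d j 0| ≤ 1 := by
        calc |g| * |d j 0| ≤ 1 * 1 := mul_le_mul he1 hd0 (abs_nonneg _) zero_le_one
          _ = 1 := one_mul 1
      exact le_trans (le_abs_self _) (by rw [this]; exact h6)
    have h6 : N * (N * g ^ 2) ≤ N * (2 * Q + 2) := by
      rw [hSe] at hca
      have h7 : N * (g * d j 0) ≤ N * 1 := mul_le_mul_of_nonneg_left h5 (by linarith)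
      have h8 : (N * g - d j 0) ^ 2 = N * (N * g ^ 2) - 2 * (N * (g * d j 0)) + d j 0 ^ 2 := by
        ring
      have h9 : N * (2 * Q + 2) = Q * (2 * N) + 2 * (N * 1) := by ring
      have h10 := sq_nonneg (d j 0)
      linarith
    exact le_of_mul_le_mul_left h6 (by linarith)
  have hsum : N * ∑ i, u i * (M c (X i) - M (cT q c) h) ^ 2 ≤
      2 * ∑ j, u j * ∑ i ∈ range (k' + 1), w (k' + 1) i * d j i ^ 2 + 2 := by
    have e1 : N * ∑ i, u i * (M c (X i) - M (cT q c) h) ^ 2 =
        ∑ i, u i * (N * (M c (X i) - M (cT q c) h) ^ 2) := by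
      rw [Finset.mul_sum]
      apply Finset.sum_congr rfl
      intro i _
      ring
    have e2 : 2 * ∑ j, u j * ∑ i ∈ range (k' + 1), w (k' + 1) i * d j i ^ 2 + 2 =
        ∑ j, u j * (2 * ∑ i ∈ range (k' + 1), w (k' + 1) i * d j i ^ 2 + 2) := by
      simp only [mul_add, Finset.sum_add_distrib]
      rw [← Finset.sum_mul, C.u1, Finset.mul_sum]
      congr 1
      · apply Finset.sum_congr rfl
        intro i _
        ring
      · ring
    rw [e1, e2]
    apply Finset.sum_le_sum
    intro j _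
    exact mul_le_mul_of_nonneg_left (hkey j) (C.u0 j)
  have h9 : 0 ≤ N * ∑ i ∈ range (k' + 1), e i * (D i - D (i + 1)) :=
    mul_nonneg (by linarith) hpos
  linarith

end col

/-! ## the potential without `n` -/

/-- the lower limit of a bounded sequence -/
lemma lim_core {ι : Type*} [Fintype ι] {k : ι → ℝ} {f : ι → ℕ → ℝ} {v : ℕ → ℝ} {a K b : ℝ}
    (hk : ∀ i, 0 ≤ k i) (hf0 : ∀ i n, 0 ≤ f i n) (hf1 : ∀ i n, f i n ≤ b) (hv0 : ∀ n, 0 ≤ v n)
    (hv1 : ∀ n, v n ≤ b) (hK : 0 ≤ K)
    (hh : ∀ n : ℕ, a + ∑ i, k i * f i n ≤ v n + K / ((n : ℝ) + 1)) :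
    a + ∑ i, k i * liminf (f i) atTop ≤ liminf v atTop := by
  classical
  have bge : ∀ g : ℕ → ℝ, (∀ n, 0 ≤ g n) → IsBoundedUnder (· ≥ ·) atTop g := fun g h0 =>
    isBoundedUnder_of ⟨0, fun n => h0 n⟩
  have ble : ∀ g : ℕ → ℝ, (∀ n, g n ≤ b) → IsBoundedUnder (· ≤ ·) atTop g := fun g h1 =>
    isBoundedUnder_of ⟨b, fun n => h1 n⟩
  set S := ∑ i, k i with hS
  have hS0 : 0 ≤ S := Finset.sum_nonneg fun i _ => hk i
  refine le_of_forall_pos_le_add fun ε hε => ?_
  -- eventually
  set δ : ℝ := ε / (S + 1) with hδ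
  have hδ0 : 0 < δ := div_pos hε (by linarith)
  have e1 : ∀ᶠ n : ℕ in atTop, ∀ i, liminf (f i) atTop - δ ≤ f i n := by
    rw [eventually_all]
    intro i
    have h1 : liminf (f i) atTop - δ < liminf (f i) atTop := by linarith
    exact (eventually_lt_of_lt_liminf h1 (bge _ (hf0 i))).mono fun n hn => hn.le
  have e2 : ∀ᶠ n : ℕ in atTop, K / ((n : ℝ) + 1) ≤ δ := by
    have := tendsto_one_div_add_atTop_nhds_zero_nat (𝕜 := ℝ)
    have h2 := (this.const_mul K)
    rw [mul_zero] at h2
    filter_upwards [h2.eventually (gt_mem_nhds hδ0)] with n hn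
    have h3 : K * (1 / ((n : ℝ) + 1)) = K / ((n : ℝ) + 1) := by ring
    rw [h3] at hn
    exact hn.le
  have e3 : ∀ᶠ n : ℕ in atTop, a + ∑ i, k i * liminf (f i) atTop - ε ≤ v n := by
    filter_upwards [e1, e2] with n h1 h2
    have h3 := hh n
    have h4 : ∑ i, k i * (liminf (f i) atTop - δ) ≤ ∑ i, k i * f i n :=
      Finset.sum_le_sum fun i _ => mul_le_mul_of_nonneg_left (h1 i) (hk i)
    have h5 : ∑ i, k i * (liminf (f i) atTop - δ) = ∑ i, k i * liminf (f i) atTop - S * δ := by
      simp only [mul_sub, Finset.sum_sub_distrib, ← Finset.sum_mul, ← hS]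
    have h6 : S * δ + δ = ε := by
      rw [hδ]
      field_simp
    linarith
  have h7 := le_liminf_of_le (ble v hv1).isCoboundedUnder_ge e3
  linarith

/-- **the potential**: `cost + Pot (above) ≤ Pot (below)`, `0 ≤ Pot h ≤ 14 M h` -/
noncomputable def Pot (c : J → ℝ) (W : Set (J → ℝ)) (h : J → ℝ) : ℝ :=
  liminf (fun n : ℕ => 2 * B c W (n + 1) h / ((n : ℝ) + 1)) atTop

lemma B_le' (H : TC c W) {n : ℕ} (hn : 0 < n) (h : J → ℝ) : B c W n h ≤ 7 * n := by
  have : ∑ i ∈ range n, (7 : ℝ) = 7 * n := by simp [mul_comm]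
  rw [← this]
  apply Finset.sum_le_sum
  intro i hi
  have hw := w_le_one (mem_range.1 hi)
  have hw0 := w_nonneg n i
  have h1 := nu_le_one H hn h i
  have h2 := nu_nonneg H hn h i
  have h3 : 0 ≤ 7 * nu c W n h i - nu c W n h i ^ 2 := by nlinarith
  calc w n i * (7 * nu c W n h i - nu c W n h i ^ 2)
      ≤ 1 * (7 * nu c W n h i - nu c W n h i ^ 2) := mul_le_mul_of_nonneg_right hw h3
    _ ≤ 7 := by nlinarith [sq_nonneg (nu c W n h i)]

lemma Bn_nonneg (H : TC c W) (h : J → ℝ) (n : ℕ) :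
    0 ≤ 2 * B c W (n + 1) h / ((n : ℝ) + 1) :=
  div_nonneg (mul_nonneg (by norm_num) (B_nonneg H n.succ_pos h)) (by positivity)

lemma Bn_le (H : TC c W) (h : J → ℝ) (n : ℕ) :
    2 * B c W (n + 1) h / ((n : ℝ) + 1) ≤ 14 := by
  rw [div_le_iff₀ (by positivity)]
  have := B_le' H n.succ_pos h
  push_cast at this
  linarith

/-- the general inequality between potentials -/
lemma Pot_core {ι : Type*} [Fintype ι] {J' : Type*} [Fintype J'] {c' : J' → ℝ}
    {W' : Set (J' → ℝ)} (H : TC c W) (H' : TC c' W') {k : ι → ℝ} {f : ι → J → ℝ} {v : J' → ℝ}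
    {a K : ℝ} (hk : ∀ i, 0 ≤ k i) (hK : 0 ≤ K)
    (hh : ∀ n : ℕ, 0 < n → n * a + 2 * ∑ i, k i * B c W n (f i) ≤ 2 * B c' W' n v + K) :
    a + ∑ i, k i * Pot c W (f i) ≤ Pot c' W' v := by
  refine lim_core (b := 14) hk (fun i n => Bn_nonneg H _ n) (fun i n => Bn_le H _ n)
    (fun n => Bn_nonneg H' _ n) (fun n => Bn_le H' _ n) hK fun n => ?_
  have h1 := hh (n + 1) n.succ_pos
  have hn : (0 : ℝ) < (n : ℝ) + 1 := by positivity
  push_cast at h1
  have e1 : a + ∑ i, k i * (2 * B c W (n + 1) (f i) / ((n : ℝ) + 1)) =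
      (((n : ℝ) + 1) * a + 2 * ∑ i, k i * B c W (n + 1) (f i)) / ((n : ℝ) + 1) := by
    rw [add_div, mul_div_cancel_left₀ _ hn.ne', Finset.mul_sum, Finset.sum_div]
    congr 1
    exact Finset.sum_congr rfl fun i _ => by ring
  rw [e1, ← add_div]
  exact div_le_div_of_nonneg_right h1 hn.le

lemma Pot_nonneg (H : TC c W) (h : J → ℝ) : 0 ≤ Pot c W h :=
  le_liminf_of_le (isBoundedUnder_of ⟨14, fun n => Bn_le H h n⟩).isCoboundedUnder_ge
    (Eventually.of_forall fun n => Bn_nonneg H h n)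

lemma Pot_le (H : TC c W) {h : J → ℝ} (h0 : ∀ j, 0 ≤ h j) (h1 : ∀ j, h j ≤ 1) :
    Pot c W h ≤ 14 * M c h := by
  refine liminf_le_of_le (isBoundedUnder_of ⟨0, fun n => Bn_nonneg H h n⟩) fun b hb => ?_
  obtain ⟨n, hn⟩ := hb.exists
  refine hn.trans ?_
  have hn : (0 : ℝ) < (n : ℝ) + 1 := by positivity
  rw [div_le_iff₀ hn]
  have := B_le H n.succ_pos h0 h1
  push_cast at this
  linarith

/-- **splits are free** -/
lemma Pot_split (H : TC c W) {x y : J → ℝ} (hx : ∀ j, 0 ≤ x j) (hy : ∀ j, 0 ≤ y j)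
    (h1 : ∀ j, x j + y j ≤ 1) : Pot c W x + Pot c W y ≤ Pot c W (fun j => x j + y j) := by
  have := Pot_core (ι := Bool) H H (k := fun _ => 1) (f := fun b => if b then x else y)
    (v := fun j => x j + y j) (a := 0) (K := 0) (fun _ => zero_le_one) le_rfl (fun n hn => by
      have := B_split H hn hx hy h1
      simp only [Fintype.sum_bool, if_true, Bool.false_eq_true, if_false]
      linarith)
  simpa using this

lemma Pot_zero (H : TC c W) : Pot c W (fun _ => 0) = 0 := by
  apply le_antisymm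
  · have := Pot_le H (h := fun _ => 0) (fun _ => le_rfl) (fun _ => zero_le_one)
    rwa [M_const H.c1, mul_zero] at this
  · exact Pot_nonneg H _

lemma Pot_mono (H : TC c W) {x h : J → ℝ} (hx : ∀ j, 0 ≤ x j) (hxh : ∀ j, x j ≤ h j)
    (h1 : ∀ j, h j ≤ 1) : Pot c W x ≤ Pot c W h := by
  have := Pot_core (ι := Unit) H H (k := fun _ => 1) (f := fun _ => x)
    (v := h) (a := 0) (K := 0) (fun _ => zero_le_one) le_rfl (fun n hn => by
      have := B_mono H hn hx hxh h1
      simp only [Finset.univ_unique, Finset.sum_const, Finset.card_singleton, one_smul]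
      linarith)
  simpa using this

/-- **births are Lipschitz** -/
lemma Pot_inj (H : TC c W) {h x : J → ℝ} (hx : ∀ j, 0 ≤ x j) :
    Pot c W (fun j => h j + x j) ≤ Pot c W h + 14 * M c x := by
  have hM : 0 ≤ M c x := M_nonneg H.c0 hx
  have := Pot_core (ι := Unit) H H (k := fun _ => 1) (f := fun _ => fun j => h j + x j)
    (v := h) (a := -(14 * M c x)) (K := 0) (fun _ => zero_le_one) le_rfl (fun n hn => by
      have := B_inj H hn (h := h) hx
      simp only [Finset.univ_unique, Finset.sum_const, Finset.card_singleton, one_smul]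
      linarith)
  simp only [Finset.univ_unique, Finset.sum_const, Finset.card_singleton, one_smul, one_mul]
    at this
  linarith

/-- many pieces -/
lemma Pot_sum (H : TC c W) {κ : Type*} (s : Finset κ) (f : κ → J → ℝ)
    (hf : ∀ i ∈ s, ∀ j, 0 ≤ f i j) (h1 : ∀ j, ∑ i ∈ s, f i j ≤ 1) :
    ∑ i ∈ s, Pot c W (f i) ≤ Pot c W (fun j => ∑ i ∈ s, f i j) := by
  classical
  induction s using Finset.induction_on with
  | empty => simpa using (Pot_nonneg H _)
  | insert a s ha ih =>
    have hs : ∀ j, 0 ≤ ∑ i ∈ s, f i j := fun j =>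
      Finset.sum_nonneg fun i hi => hf i (Finset.mem_insert_of_mem hi) j
    have ha0 : ∀ j, 0 ≤ f a j := hf a (Finset.mem_insert_self a s)
    have h2 : ∀ j, f a j + ∑ i ∈ s, f i j ≤ 1 := fun j => by
      have := h1 j
      rwa [Finset.sum_insert ha] at this
    have h3 := ih (fun i hi => hf i (Finset.mem_insert_of_mem hi)) fun j => by
      have := h2 j
      have := ha0 j
      linarith
    have h4 := Pot_split H ha0 hs h2
    rw [Finset.sum_insert ha]
    have e : (fun j => ∑ i ∈ insert a s, f i j) = fun j => f a j + ∑ i ∈ s, f i j :=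
      funext fun j => Finset.sum_insert ha
    rw [e]
    linarith

/-- **the column** -/
theorem Pot_col {ι : Type*} [Fintype ι] {q : ℝ} {h : J × Bool → ℝ} {u : ι → ℝ}
    {X : ι → J → ℝ} (H : TC c W) (hq : 0 < q ∧ q < 1) (h0 : ∀ x, 0 ≤ h x) (h1 : ∀ x, h x ≤ 1)
    (C : Col q h u X) :
    ∑ i, u i * (M c (X i) - M (cT q c) h) ^ 2 + ∑ i, u i * Pot c W (X i) ≤
      Pot (cT q c) (WT q W) h :=
  Pot_core H (H.tie hq) C.u0 (by norm_num : (0 : ℝ) ≤ 2) fun n hn => B_colG H hq hn h0 h1 C

/-! ## measurability -/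

lemma T_lip (H : TC c W) (lam : ℝ) (h z : J → ℝ) :
    T c W lam h ≤ T c W lam z + M c (fun j => |h j - z j|) := by
  have h1 := T_mono H lam (h := h) (z := fun j => z j + |h j - z j|)
    fun j => by have := le_abs_self (h j - z j); linarith
  exact h1.trans (T_inj H lam fun j => abs_nonneg _)

lemma cont_T (H : TC c W) (lam : ℝ) : Continuous fun h : J → ℝ => T c W lam h := by
  rw [continuous_iff_continuousAt]
  intro z
  have hc : Continuous fun h : J → ℝ => M c (fun j => |h j - z j|) := by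
    apply cont_M
    apply continuous_pi
    intro j
    exact ((continuous_apply j).sub continuous_const).abs
  have h0 : Tendsto (fun h : J → ℝ => M c (fun j => |h j - z j|)) (nhds z) (nhds 0) := by
    have := hc.tendsto z
    simpa [M] using this
  rw [ContinuousAt, tendsto_iff_norm_sub_tendsto_zero]
  refine squeeze_zero (fun _ => norm_nonneg _) (fun h => ?_) h0
  rw [Real.norm_eq_abs, abs_le]
  have a1 := T_lip H lam h z
  have a2 := T_lip H lam z h
  have e : (fun j => |z j - h j|) = fun j => |h j - z j| := funext fun j => abs_sub_comm _ _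
  rw [e] at a2
  constructor <;> linarith

lemma cont_B (H : TC c W) (n : ℕ) : Continuous fun h : J → ℝ => B c W n h := by
  unfold B nu t
  have := fun lam => cont_T H lam
  fun_prop

lemma measurable_Pot (H : TC c W) {α : Type*} [MeasurableSpace α] {h : α → J → ℝ}
    (hh : Measurable h) : Measurable fun x => Pot c W (h x) := by
  unfold Pot
  refine Measurable.liminf fun n => ?_
  have := (cont_B H (n + 1)).measurable.comp hh
  exact ((this.const_mul 2).div_const _)

/-! ## changes of the index type -/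

section comap
variable {J' : Type*} [Fintype J'] {c' : J' → ℝ}

/-- tests which come from the base -/
def cmW (π : J' → J) (W : Set (J → ℝ)) : Set (J' → ℝ) := {φ | ∃ ψ ∈ W, φ = fun j => ψ (π j)}

lemma M_comap {π : J' → J} (hc : ∀ f : J → ℝ, ∑ j', c' j' * f (π j') = ∑ j, c j * f j)
    (f : J → ℝ) : M c' (fun j => f (π j)) = M c f := hc f

/-- **duplication of members** : weights `c'` on `J'` with image `c` -/
theorem TC.comap (H : TC c W) {π : J' → J} (hπ : Function.Surjective π)
    (hc : ∀ f : J → ℝ, ∑ j', c' j' * f (π j') = ∑ j, c j * f j) (c0 : ∀ j', 0 ≤ c' j') :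
    TC c' (cmW π W) where
  c0 := c0
  c1 := by
    have := hc (fun _ => 1)
    simp only [mul_one] at this
    rw [this, H.c1]
  bd := by
    rintro φ ⟨ψ, h1, rfl⟩ j
    exact H.bd _ h1 _
  zero := ⟨_, H.zero, rfl⟩
  one := ⟨_, H.one, rfl⟩
  conv := by
    rintro x ⟨a, ha, rfl⟩ y ⟨b, hb, rfl⟩ s t hs ht hst
    exact ⟨_, H.conv ha hb hs ht hst, rfl⟩
  closed := by
    have h1 : IsCompact ((fun ψ : J → ℝ => fun j => ψ (π j)) '' W) := by
      apply H.compact.image
      apply continuous_pi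
      intro j
      exact continuous_apply _
    have e : cmW π W = (fun ψ : J → ℝ => fun j => ψ (π j)) '' W := by
      ext φ
      constructor
      · rintro ⟨ψ, h1, rfl⟩
        exact ⟨ψ, h1, rfl⟩
      · rintro ⟨ψ, h1, rfl⟩
        exact ⟨ψ, h1, rfl⟩
    rw [e]
    exact h1.isClosed
  join := by
    rintro φ ⟨a, ha, rfl⟩ ψ ⟨b, hb, rfl⟩
    obtain ⟨χ, h1, h2, h3⟩ := H.join a ha b hb
    refine ⟨fun j => χ (π j), ⟨χ, h1, rfl⟩, fun j => h2 (π j), ?_⟩
    rw [M_comap hc, M_comap hc, M_comap hc]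
    exact h3

lemma T_comap {π : J' → J} (hc : ∀ f : J → ℝ, ∑ j', c' j' * f (π j') = ∑ j, c j * f j)
    (lam : ℝ) (h : J → ℝ) : T c' (cmW π W) lam (fun j => h (π j)) = T c W lam h := by
  unfold T
  congr 1
  ext r
  constructor
  · rintro ⟨φ, ⟨ψ, h1, rfl⟩, rfl⟩
    exact ⟨ψ, h1, (M_comap hc (fun j => (h j - lam) * ψ j)).symm⟩
  · rintro ⟨ψ, h1, rfl⟩
    exact ⟨fun j => ψ (π j), ⟨ψ, h1, rfl⟩, M_comap hc (fun j => (h j - lam) * ψ j)⟩

lemma B_comap {π : J' → J} (hc : ∀ f : J → ℝ, ∑ j', c' j' * f (π j') = ∑ j, c j * f j)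
    (n : ℕ) (h : J → ℝ) : B c' (cmW π W) n (fun j => h (π j)) = B c W n h := by
  simp only [B, nu, t, T_comap hc]

/-- **the potential does not see duplications** -/
lemma Pot_comap {π : J' → J} (hc : ∀ f : J → ℝ, ∑ j', c' j' * f (π j') = ∑ j, c j * f j)
    (h : J → ℝ) : Pot c' (cmW π W) (fun j => h (π j)) = Pot c W h := by
  simp only [Pot, B_comap hc]

/-- reindexing -/
lemma hc_equiv (e : J' ≃ J) (f : J → ℝ) : ∑ j', c (e j') * f (e j') = ∑ j, c j * f j :=
  Equiv.sum_comp e fun j => c j * f j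

end comap

/-- a column without tie: both children of every member are the member -/
lemma T_dup (H : TC c W) {q : ℝ} (hq : 0 < q ∧ q < 1) (lam : ℝ) (h : J → ℝ) :
    T (cT q c) (WT q W) lam (fun x => h x.1) = T c W lam h := by
  have H' := H.tie hq
  have e : ∀ ψ : J → ℝ, av q (fun x : J × Bool => ψ x.1) = ψ := fun ψ =>
    funext fun j => by simp [av]; ring
  apply le_antisymm
  · obtain ⟨φ, h1, h2⟩ := T_max H' lam (fun x => h x.1)
    rw [← h2, M_cT]
    refine le_trans (le_of_eq ?_) (le_T H lam h (WT_sub H hq h1).2.2)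
    congr 1
    funext j
    simp only [av]
    ring
  · obtain ⟨φ, h1, h2⟩ := T_max H lam h
    rw [← h2]
    have h3 : (fun x : J × Bool => φ x.1) ∈ WT q W := WT_dup hq h1
    refine le_trans (le_of_eq ?_) (le_T H' lam (fun x => h x.1) h3)
    rw [M_cT]
    congr 1
    funext j
    simp only [av]
    ring

lemma Pot_dup (H : TC c W) {q : ℝ} (hq : 0 < q ∧ q < 1) (h : J → ℝ) :
    Pot (cT q c) (WT q W) (fun x => h x.1) = Pot c W h := by
  simp only [Pot, B, nu, t, T_dup H hq]

end Crest.Agent.R4P.GMer27
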