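import Crest.Agent.R4P.GMer_27

/-!
R4 (S0004) with powers, helper35: **the merge potential with own-height prices** (lower truncation).

`T2_λ h = T_{4λ/5} ((h - λ/5)⁺)` : the content below `λ/5` is invisible at the level `λ`. All the facts
of `GMer_27` stay, with `8` in the place of `7` (`B = Σ w (8 ν - ν²)`, `Pk ≤ 16 M h`, births `16`,
splits free, exact columns with cost coefficient `1`), and

* **`Pk_own`** : `Pk (h + x) ≤ Pk h + 36 M[x √(h + x)]` (only the height in the OWN member counts);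
* `PN = 7/8 Pk` : the constants of `GMer_27` (`14`), cost coefficient `7/8` (`PN_col`).
-/

set_option autoImplicit false
set_option linter.unusedVariables false
set_option linter.unusedSectionVars false

namespace Crest.Agent.R4P.GMk35

open Finset Filter
open Crest.Agent.R4.MergePot970 (abel w w_nonneg w_zero w_mono w_le_one w_step cauchy)
open Crest.Agent.R4P.GMer27

variable {J : Type*} [Fintype J] {c : J → ℝ} {W : Set (J → ℝ)}

/-! ### truncated contents -/

/-- truncated content -/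
noncomputable def tc (lam : ℝ) (h : J → ℝ) (j : J) : ℝ := max (h j - lam / 5) 0

lemma tc_nonneg (lam : ℝ) (h : J → ℝ) (j : J) : 0 ≤ tc lam h j := le_max_right _ _

lemma tc_mono {lam : ℝ} {h z : J → ℝ} (hz : ∀ j, h j ≤ z j) (j : J) : tc lam h j ≤ tc lam z j :=
  max_le_max (by linarith [hz j]) le_rfl

lemma tc_zero {h : J → ℝ} (h0 : ∀ j, 0 ≤ h j) : tc 0 h = h := by
  funext j
  unfold tc
  rw [zero_div, sub_zero, max_eq_left (h0 j)]

lemma tc_join {lam : ℝ} {x y : J → ℝ} (hl : 0 ≤ lam) (hx : ∀ j, 0 ≤ x j) (hy : ∀ j, 0 ≤ y j)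
    (j : J) : tc lam x j + tc lam y j ≤ tc lam (fun j => x j + y j) j := by
  unfold tc
  have h1 := hx j
  have h2 := hy j
  rcases le_total (x j - lam / 5) 0 with a | a <;> rcases le_total (y j - lam / 5) 0 with b | b
  · rw [max_eq_right a, max_eq_right b, add_zero]
    exact le_max_right _ _
  · rw [max_eq_right a, max_eq_left b, zero_add]
    exact (by linarith : y j - lam / 5 ≤ x j + y j - lam / 5).trans (le_max_left _ _)
  · rw [max_eq_left a, max_eq_right b, add_zero]
    exact (by linarith : x j - lam / 5 ≤ x j + y j - lam / 5).trans (le_max_left _ _)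
  · rw [max_eq_left a, max_eq_left b]
    exact (by linarith : x j - lam / 5 + (y j - lam / 5) ≤ x j + y j - lam / 5).trans
      (le_max_left _ _)

lemma tc_add {lam : ℝ} {h x : J → ℝ} (hx : ∀ j, 0 ≤ x j) (j : J) :
    tc lam (fun j => h j + x j) j ≤ tc lam h j + x j := by
  unfold tc
  have h1 := hx j
  refine max_le ?_ ?_
  · have := le_max_left (h j - lam / 5) 0
    linarith
  · have := le_max_right (h j - lam / 5) 0
    linarith

/-- nothing is seen below the truncation -/
lemma tc_low {lam : ℝ} {h : J → ℝ} {j : J} (h1 : h j ≤ lam / 5) : tc lam h j = 0 :=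
  max_eq_right (by linarith)

/-- the truncated content at a larger level -/
lemma tc_level {lam mu : ℝ} (hl : lam ≤ mu) (h : J → ℝ) (j : J) :
    tc mu h j ≤ tc lam h j ∧ tc lam h j - (mu - lam) / 5 ≤ tc mu h j := by
  unfold tc
  constructor
  · exact max_le_max (by linarith) le_rfl
  · rcases le_total (h j - lam / 5) 0 with a | a
    · rw [max_eq_right a]
      have := le_max_right (h j - mu / 5) 0
      linarith
    · rw [max_eq_left a]
      have := le_max_left (h j - mu / 5) 0
      linarith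

lemma tc_conv (a b : ℝ) (h : J → ℝ) (j : J) :
    2 * tc ((a + b) / 2) h j ≤ tc a h j + tc b h j := by
  unfold tc
  have h1 := le_max_left (h j - a / 5) 0
  have h2 := le_max_left (h j - b / 5) 0
  have h3 := le_max_right (h j - a / 5) 0
  have h4 := le_max_right (h j - b / 5) 0
  have : max (h j - (a + b) / 2 / 5) 0 ≤ (max (h j - a / 5) 0 + max (h j - b / 5) 0) / 2 :=
    max_le (by linarith) (by linarith)
  linarith

/-! ### the function -/

/-- `T_{4λ/5} ((h - λ/5)⁺)` -/
noncomputable def T2 (c : J → ℝ) (W : Set (J → ℝ)) (lam : ℝ) (h : J → ℝ) : ℝ :=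
  T c W (4 / 5 * lam) (tc lam h)

lemma T2_zero (H : TC c W) {h : J → ℝ} (h0 : ∀ j, 0 ≤ h j) : T2 c W 0 h = M c h := by
  unfold T2
  rw [tc_zero h0, mul_zero, T_zero H h0]

lemma T2_one (H : TC c W) {h : J → ℝ} {lam : ℝ} (hl : 0 ≤ lam) (h1 : ∀ j, h j ≤ lam) :
    T2 c W lam h = 0 := by
  refine T_one H fun j => max_le ?_ (by positivity)
  linarith [h1 j]

lemma T2_nonneg (H : TC c W) (lam : ℝ) (h : J → ℝ) : 0 ≤ T2 c W lam h := T_nonneg H _ _

lemma T2_mono (H : TC c W) (lam : ℝ) {h z : J → ℝ} (hz : ∀ j, h j ≤ z j) :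
    T2 c W lam h ≤ T2 c W lam z := T_mono H _ (tc_mono hz)

lemma T2_inj (H : TC c W) (lam : ℝ) {h x : J → ℝ} (hx : ∀ j, 0 ≤ x j) :
    T2 c W lam (fun j => h j + x j) ≤ T2 c W lam h + M c x :=
  (T_mono H _ (tc_add hx)).trans (T_inj H _ hx)

lemma T2_join (H : TC c W) {lam : ℝ} {x y : J → ℝ} (hl : 0 ≤ lam)
    (hx : ∀ j, 0 ≤ x j) (hy : ∀ j, 0 ≤ y j) {φ ψ : J → ℝ} (hφ : φ ∈ W) (hψ : ψ ∈ W)
    (h1 : M c (fun j => (tc lam x j - 4 / 5 * lam) * φ j) = T2 c W lam x)
    (h2 : M c (fun j => (tc lam y j - 4 / 5 * lam) * ψ j) = T2 c W lam y) :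
    T2 c W lam x + T2 c W lam y + 4 / 5 * lam * (M c φ * M c ψ) ≤
      T2 c W lam (fun j => x j + y j) :=
  (T_join H (lam := 4 / 5 * lam) (tc_nonneg lam x) (tc_nonneg lam y) hφ hψ h1 h2).trans
    (T_mono H _ (tc_join hl hx hy))

/-- the own-height bound -/
lemma T2_own (H : TC c W) (lam : ℝ) {h x : J → ℝ} (hx : ∀ j, 0 ≤ x j) :
    T2 c W lam (fun j => h j + x j) ≤
      T2 c W lam h + M c (fun j => if h j + x j ≤ lam / 5 then 0 else x j) := by
  have h1 : ∀ j, tc lam (fun j => h j + x j) j ≤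
      tc lam h j + (if h j + x j ≤ lam / 5 then 0 else x j) := by
    intro j
    split_ifs with hc
    · rw [tc_low (h := fun j => h j + x j) hc, add_zero]
      exact tc_nonneg _ _ _
    · exact tc_add hx j
  exact (T_mono H _ h1).trans (T_inj H _ fun j => by split_ifs <;> simp [hx j])

/-- the memberwise bound -/
lemma T2_le (H : TC c W) {lam : ℝ} (hl : 0 ≤ lam) (h : J → ℝ) :
    T2 c W lam h ≤ M c (fun j => max (h j - lam) 0) := by
  obtain ⟨φ, h1, h2⟩ := T_max H (4 / 5 * lam) (tc lam h)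
  unfold T2
  rw [← h2]
  refine M_mono H.c0 fun j => ?_
  have b := H.bd φ h1 j
  have e : tc lam h j - 4 / 5 * lam ≤ max (h j - lam) 0 := by
    unfold tc
    rcases le_total (h j - lam / 5) 0 with a | a
    · rw [max_eq_right a]
      exact (by linarith : (0:ℝ) - 4 / 5 * lam ≤ 0).trans (le_max_right _ _)
    · rw [max_eq_left a]
      exact (by linarith : h j - lam / 5 - 4 / 5 * lam ≤ h j - lam).trans (le_max_left _ _)
  have e2 : 0 ≤ max (h j - lam) 0 := le_max_right _ _
  calc (tc lam h j - 4 / 5 * lam) * φ j ≤ max (h j - lam) 0 * φ j :=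
        mul_le_mul_of_nonneg_right e b.1
    _ ≤ max (h j - lam) 0 * 1 := mul_le_mul_of_nonneg_left b.2 e2
    _ = _ := mul_one _

/-! ### the discrete tail -/

/-- `T2` on the grid -/
noncomputable def t (c : J → ℝ) (W : Set (J → ℝ)) (n : ℕ) (h : J → ℝ) (i : ℕ) : ℝ :=
  T2 c W (i / n) h

/-- the tail on the grid -/
noncomputable def nu (c : J → ℝ) (W : Set (J → ℝ)) (n : ℕ) (h : J → ℝ) (i : ℕ) : ℝ :=
  n * (t c W n h i - t c W n h (i + 1))

lemma lev {n : ℕ} (hn : 0 < n) (i : ℕ) : (i : ℝ) / n ≤ ((i + 1 : ℕ) : ℝ) / n ∧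
    ((i + 1 : ℕ) : ℝ) / n - (i : ℝ) / n = 1 / n := by
  have hn' : (0 : ℝ) < n := by exact_mod_cast hn
  constructor
  · exact div_le_div_of_nonneg_right (by push_cast; linarith) hn'.le
  · push_cast
    field_simp
    ring

lemma t_step (H : TC c W) {n : ℕ} (hn : 0 < n) (h : J → ℝ) (i : ℕ) {φ : J → ℝ}
    (hφ : φ ∈ W) (h1 : M c (fun j => (tc (i / n : ℝ) h j - 4 / 5 * (i / n : ℝ)) * φ j) =
      t c W n h i) : nu c W n h i ≤ M c φ := by
  have hn' : (0 : ℝ) < n := by exact_mod_cast hn
  obtain ⟨l1, l2⟩ := lev hn i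
  have h2 := le_T H (4 / 5 * (((i + 1 : ℕ) : ℝ) / n)) (tc (((i + 1 : ℕ) : ℝ) / n) h) hφ
  have h3 : M c (fun j => (tc (i / n : ℝ) h j - 4 / 5 * (i / n : ℝ)) * φ j) - 1 / n * M c φ ≤
      M c (fun j => (tc (((i + 1 : ℕ) : ℝ) / n) h j - 4 / 5 * (((i + 1 : ℕ) : ℝ) / n)) * φ j) := by
    rw [← M_smul, ← M_sub]
    refine M_mono H.c0 fun j => ?_
    have b := (H.bd φ hφ j).1
    have a := (tc_level l1 h j).2
    have e : tc (i / n : ℝ) h j - 4 / 5 * (i / n : ℝ) - 1 / n ≤
        tc (((i + 1 : ℕ) : ℝ) / n) h j - 4 / 5 * (((i + 1 : ℕ) : ℝ) / n) := by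
      rw [l2] at a
      have : (((i + 1 : ℕ) : ℝ) / n) = (i : ℝ) / n + 1 / n := by linarith
      rw [this] at a ⊢
      linarith
    have := mul_le_mul_of_nonneg_right e b
    show (tc (i / n : ℝ) h j - 4 / 5 * (i / n : ℝ)) * φ j - 1 / n * φ j ≤ _
    linarith
  have h4 : t c W n h i - t c W n h (i + 1) ≤ 1 / n * M c φ := by
    have e : t c W n h (i + 1) = T c W (4 / 5 * (((i + 1 : ℕ) : ℝ) / n))
      (tc (((i + 1 : ℕ) : ℝ) / n) h) := rfl
    rw [e, ← h1]
    linarith
  calc nu c W n h i = n * (t c W n h i - t c W n h (i + 1)) := rfl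
    _ ≤ n * (1 / n * M c φ) := mul_le_mul_of_nonneg_left h4 hn'.le
    _ = M c φ := by field_simp

lemma nu_le_one (H : TC c W) {n : ℕ} (hn : 0 < n) (h : J → ℝ) (i : ℕ) : nu c W n h i ≤ 1 := by
  obtain ⟨φ, h1, h2⟩ := T_max H (4 / 5 * (i / n : ℝ)) (tc (i / n : ℝ) h)
  exact le_trans (t_step H hn h i h1 h2) (M_W H h1).2

lemma t_anti (H : TC c W) {n : ℕ} (hn : 0 < n) (h : J → ℝ) (i : ℕ) :
    t c W n h (i + 1) ≤ t c W n h i := by
  obtain ⟨l1, l2⟩ := lev hn i
  obtain ⟨φ, h1, h2⟩ := T_max H (4 / 5 * (((i + 1 : ℕ) : ℝ) / n)) (tc (((i + 1 : ℕ) : ℝ) / n) h)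
  have e : t c W n h (i + 1) = T c W (4 / 5 * (((i + 1 : ℕ) : ℝ) / n))
    (tc (((i + 1 : ℕ) : ℝ) / n) h) := rfl
  rw [e, ← h2]
  refine le_trans ?_ (le_T H (4 / 5 * (i / n : ℝ)) (tc (i / n : ℝ) h) h1)
  refine M_mono H.c0 fun j => ?_
  have b := (H.bd φ h1 j).1
  have a := (tc_level l1 h j).1
  exact mul_le_mul_of_nonneg_right (by linarith) b

lemma nu_nonneg (H : TC c W) {n : ℕ} (hn : 0 < n) (h : J → ℝ) (i : ℕ) : 0 ≤ nu c W n h i :=
  mul_nonneg (Nat.cast_nonneg n) (sub_nonneg.2 (t_anti H hn h i))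

lemma t_conv (H : TC c W) {n : ℕ} (hn : 0 < n) (h : J → ℝ) (i : ℕ) :
    2 * t c W n h (i + 1) ≤ t c W n h i + t c W n h (i + 2) := by
  obtain ⟨φ, h1, h2⟩ := T_max H (4 / 5 * (((i + 1 : ℕ) : ℝ) / n)) (tc (((i + 1 : ℕ) : ℝ) / n) h)
  have e : t c W n h (i + 1) = T c W (4 / 5 * (((i + 1 : ℕ) : ℝ) / n))
    (tc (((i + 1 : ℕ) : ℝ) / n) h) := rfl
  have k1 := le_T H (4 / 5 * (i / n : ℝ)) (tc (i / n : ℝ) h) h1
  have k2 := le_T H (4 / 5 * (((i + 2 : ℕ) : ℝ) / n)) (tc (((i + 2 : ℕ) : ℝ) / n) h) h1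
  have e1 : T c W (4 / 5 * (i / n : ℝ)) (tc (i / n : ℝ) h) = t c W n h i := rfl
  have e2 : T c W (4 / 5 * (((i + 2 : ℕ) : ℝ) / n)) (tc (((i + 2 : ℕ) : ℝ) / n) h) =
    t c W n h (i + 2) := rfl
  rw [e1] at k1
  rw [e2] at k2
  refine le_trans ?_ (add_le_add k1 k2)
  rw [e, ← h2, ← M_smul, ← M_add]
  refine M_mono H.c0 fun j => ?_
  have b := (H.bd φ h1 j).1
  have hmid : (((i + 1 : ℕ) : ℝ) / n) = ((i : ℝ) / n + ((i + 2 : ℕ) : ℝ) / n) / 2 := by
    push_cast
    ring
  have a := tc_conv ((i : ℝ) / n) (((i + 2 : ℕ) : ℝ) / n) h j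
  rw [← hmid] at a
  have e3 : 2 * (tc (((i + 1 : ℕ) : ℝ) / n) h j - 4 / 5 * (((i + 1 : ℕ) : ℝ) / n)) ≤
      (tc ((i : ℝ) / n) h j - 4 / 5 * ((i : ℝ) / n)) +
      (tc (((i + 2 : ℕ) : ℝ) / n) h j - 4 / 5 * (((i + 2 : ℕ) : ℝ) / n)) := by
    rw [hmid] at a ⊢
    linarith
  have := mul_le_mul_of_nonneg_right e3 b
  linarith

lemma nu_anti (H : TC c W) {n : ℕ} (hn : 0 < n) (h : J → ℝ) (i : ℕ) :
    nu c W n h (i + 1) ≤ nu c W n h i := by
  have := t_conv H hn h i
  refine mul_le_mul_of_nonneg_left ?_ (Nat.cast_nonneg n)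
  show t c W n h (i + 1) - t c W n h (i + 1 + 1) ≤ _
  have e : i + 1 + 1 = i + 2 := rfl
  rw [e]
  linarith

lemma t_top (H : TC c W) {n : ℕ} (hn : 0 < n) {h : J → ℝ} (h1 : ∀ j, h j ≤ 1) :
    t c W n h n = 0 := by
  have hn' : (0 : ℝ) < n := by exact_mod_cast hn
  have e : (n : ℝ) / n = 1 := div_self hn'.ne'
  unfold t
  rw [e]
  exact T2_one H zero_le_one h1

lemma t_zero (H : TC c W) {n : ℕ} {h : J → ℝ} (h0 : ∀ j, 0 ≤ h j) :
    t c W n h 0 = M c h := by
  rw [t, ← T2_zero H h0]
  simp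

lemma sum_nu (H : TC c W) {n : ℕ} (hn : 0 < n) {h : J → ℝ}
    (h0 : ∀ j, 0 ≤ h j) (h1 : ∀ j, h j ≤ 1) :
    ∑ i ∈ range n, nu c W n h i = n * M c h := by
  have : ∑ i ∈ range n, nu c W n h i = n * (t c W n h 0 - t c W n h n) := by
    have h2 := Finset.sum_range_sub' (t c W n h) n
    simp only [nu]
    rw [← Finset.mul_sum, h2]
  rw [this, t_zero H h0, t_top H hn h1]
  ring

/-- the potential (times `n`) -/
noncomputable def B (c : J → ℝ) (W : Set (J → ℝ)) (n : ℕ) (h : J → ℝ) : ℝ :=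
  ∑ i ∈ range n, w n i * (8 * nu c W n h i - nu c W n h i ^ 2)

lemma B_nonneg (H : TC c W) {n : ℕ} (hn : 0 < n) (h : J → ℝ) : 0 ≤ B c W n h := by
  apply Finset.sum_nonneg
  intro i _
  apply mul_nonneg (w_nonneg n i)
  have h1 := nu_le_one H hn h i
  have h2 := nu_nonneg H hn h i
  nlinarith

lemma B_le (H : TC c W) {n : ℕ} (hn : 0 < n) {h : J → ℝ}
    (h0 : ∀ j, 0 ≤ h j) (h1 : ∀ j, h j ≤ 1) : B c W n h ≤ 8 * (n * M c h) := by
  rw [← sum_nu H hn h0 h1, Finset.mul_sum]
  apply Finset.sum_le_sum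
  intro i hi
  have hw := w_le_one (mem_range.1 hi)
  have hw0 := w_nonneg n i
  have h1 := nu_le_one H hn h i
  have h2 := nu_nonneg H hn h i
  have h3 : 0 ≤ 8 * nu c W n h i - nu c W n h i ^ 2 := by nlinarith
  calc w n i * (8 * nu c W n h i - nu c W n h i ^ 2)
      ≤ 1 * (8 * nu c W n h i - nu c W n h i ^ 2) := mul_le_mul_of_nonneg_right hw h3
    _ ≤ 8 * nu c W n h i := by nlinarith [sq_nonneg (nu c W n h i)]

/-- superadditivity at splits -/
lemma B_split (H : TC c W) {n : ℕ} (hn : 0 < n) {x y : J → ℝ}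
    (hx : ∀ j, 0 ≤ x j) (hy : ∀ j, 0 ≤ y j) (h1 : ∀ j, x j + y j ≤ 1) :
    B c W n x + B c W n y ≤ B c W n (fun j => x j + y j) := by
  have hn' : (0 : ℝ) < n := by exact_mod_cast hn
  set z : J → ℝ := fun j => x j + y j with hz
  let D : ℕ → ℝ := fun i => t c W n z i - t c W n x i - t c W n y i
  let s : ℕ → ℝ := fun i => nu c W n z i + nu c W n x i + nu c W n y i
  let d : ℕ → ℝ := fun i => w n i * (8 - s i)
  have hx1 : ∀ j, x j ≤ 1 := fun j => by have := h1 j; have := hy j; linarith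
  have hy1 : ∀ j, y j ≤ 1 := fun j => by have := h1 j; have := hx j; linarith
  have hDn : D n = 0 := by
    show t c W n z n - t c W n x n - t c W n y n = 0
    rw [t_top H hn h1, t_top H hn hx1, t_top H hn hy1]
    ring
  have hD : ∀ i : ℕ, 4 / 5 * (i / n : ℝ) * (nu c W n x i * nu c W n y i) ≤ D i := by
    intro i
    have hl : (0 : ℝ) ≤ i / n := by positivity
    obtain ⟨φ, a1, a2⟩ := T_max H (4 / 5 * (i / n : ℝ)) (tc (i / n : ℝ) x)
    obtain ⟨ψ, b1, b2⟩ := T_max H (4 / 5 * (i / n : ℝ)) (tc (i / n : ℝ) y)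
    have hj := T2_join H hl hx hy a1 b1 a2 b2
    have h3 := t_step H hn x i a1 a2
    have h4 := t_step H hn y i b1 b2
    have h5 := nu_nonneg H hn x i
    have h6 := nu_nonneg H hn y i
    have h7 : nu c W n x i * nu c W n y i ≤ M c φ * M c ψ :=
      mul_le_mul h3 h4 h6 (le_trans h5 h3)
    have h8 : (0 : ℝ) ≤ 4 / 5 * (i / n) := by positivity
    have h9 := mul_le_mul_of_nonneg_left h7 h8
    show _ ≤ t c W n z i - t c W n x i - t c W n y i
    simp only [t]
    linarith
  have hdiff : B c W n z - B c W n x - B c W n y =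
      n * ∑ i ∈ range n, d i * (D i - D (i + 1)) -
        2 * ∑ i ∈ range n, w n i * (nu c W n x i * nu c W n y i) := by
    simp only [B]
    rw [← Finset.sum_sub_distrib, ← Finset.sum_sub_distrib, Finset.mul_sum, Finset.mul_sum,
      ← Finset.sum_sub_distrib]
    apply Finset.sum_congr rfl
    intro i _
    have e : nu c W n z i = nu c W n x i + nu c W n y i + n * (D i - D (i + 1)) := by
      simp only [nu, D]
      ring
    show _ = n * (w n i * (8 - (nu c W n z i + nu c W n x i + nu c W n y i)) *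
      (D i - D (i + 1))) - _
    have e2 : n * (D i - D (i + 1)) = nu c W n z i - nu c W n x i - nu c W n y i := by
      rw [e]; ring
    calc _ = w n i * ((8 - (nu c W n z i + nu c W n x i + nu c W n y i)) *
          (nu c W n z i - nu c W n x i - nu c W n y i)) -
          2 * (w n i * (nu c W n x i * nu c W n y i)) := by ring
      _ = _ := by rw [← e2]; ring
  have hab := abel d D n
  have hc0 : d 0 = 0 := by
    show w n 0 * _ = 0
    rw [w_zero, zero_mul]
  rw [hDn, hc0] at hab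
  have hterm : ∀ i ∈ range n, 2 / n * (w n (i + 1) * (nu c W n x (i + 1) * nu c W n y (i + 1))) ≤
      (d (i + 1) - d i) * D (i + 1) := by
    intro i _
    have hd := hD (i + 1)
    set P := nu c W n x (i + 1) * nu c W n y (i + 1) with hP
    have hP0 : 0 ≤ P := mul_nonneg (nu_nonneg H hn x _) (nu_nonneg H hn y _)
    have hs : s (i + 1) ≤ s i := by
      have := nu_anti H hn x i
      have := nu_anti H hn y i
      have := nu_anti H hn z i
      show _ + _ + _ ≤ _ + _ + _
      linarith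
    have hs3 : s (i + 1) ≤ 3 := by
      have := nu_le_one H hn x (i + 1)
      have := nu_le_one H hn y (i + 1)
      have := nu_le_one H hn z (i + 1)
      show _ + _ + _ ≤ _
      linarith
    have hcc : 5 * (w n (i + 1) - w n i) ≤ d (i + 1) - d i := by
      show _ ≤ w n (i + 1) * (8 - s (i + 1)) - w n i * (8 - s i)
      have h3 := w_mono n i
      have h4 := w_nonneg n i
      nlinarith [mul_nonneg h4 (sub_nonneg.2 hs), mul_nonneg (sub_nonneg.2 h3)
        (sub_nonneg.2 hs3)]
    have hws := w_step n i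
    have hD0 : 0 ≤ D (i + 1) := le_trans (by positivity) hd
    calc 2 / n * (w n (i + 1) * P)
        ≤ 2 / n * ((2 * ((i + 1 : ℕ) * (w n (i + 1) - w n i))) * P) := by
          apply mul_le_mul_of_nonneg_left _ (by positivity)
          exact mul_le_mul_of_nonneg_right hws hP0
      _ = 5 * (w n (i + 1) - w n i) * (4 / 5 * ((i + 1 : ℕ) / n : ℝ) * P) := by ring
      _ ≤ 5 * (w n (i + 1) - w n i) * D (i + 1) := by
          apply mul_le_mul_of_nonneg_left hd
          have := w_mono n i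
          linarith
      _ ≤ (d (i + 1) - d i) * D (i + 1) := mul_le_mul_of_nonneg_right hcc hD0
  have hsum := Finset.sum_le_sum hterm
  rw [← Finset.mul_sum] at hsum
  have hshift : ∑ i ∈ range n, w n i * (nu c W n x i * nu c W n y i) ≤
      ∑ i ∈ range n, w n (i + 1) * (nu c W n x (i + 1) * nu c W n y (i + 1)) := by
    have h3 := Finset.sum_range_succ (fun i => w n i * (nu c W n x i * nu c W n y i)) n
    have h4 := Finset.sum_range_succ' (fun i => w n i * (nu c W n x i * nu c W n y i)) n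
    rw [h3] at h4
    simp only [w_zero, zero_mul, add_zero] at h4
    rw [← h4]
    have : 0 ≤ w n n * (nu c W n x n * nu c W n y n) :=
      mul_nonneg (w_nonneg n n) (mul_nonneg (nu_nonneg H hn x _) (nu_nonneg H hn y _))
    linarith
  have hfin : 2 * ∑ i ∈ range n, w n i * (nu c W n x i * nu c W n y i) ≤
      n * ∑ i ∈ range n, d i * (D i - D (i + 1)) := by
    have h5 : ∑ i ∈ range n, d i * (D i - D (i + 1)) =
        ∑ i ∈ range n, (d (i + 1) - d i) * D (i + 1) := by
      linarith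
    rw [h5]
    calc 2 * ∑ i ∈ range n, w n i * (nu c W n x i * nu c W n y i)
        ≤ 2 * ∑ i ∈ range n, w n (i + 1) * (nu c W n x (i + 1) * nu c W n y (i + 1)) := by
          linarith
      _ = n * (2 / n * ∑ i ∈ range n, w n (i + 1) *
          (nu c W n x (i + 1) * nu c W n y (i + 1))) := by field_simp
      _ ≤ _ := mul_le_mul_of_nonneg_left hsum hn'.le
  linarith

lemma B_mono (H : TC c W) {n : ℕ} (hn : 0 < n) {x h : J → ℝ}
    (hx : ∀ j, 0 ≤ x j) (hxh : ∀ j, x j ≤ h j) (h1 : ∀ j, h j ≤ 1) :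
    B c W n x ≤ B c W n h := by
  have h3 := B_split H hn (x := x) (y := fun j => h j - x j) hx
    (fun j => sub_nonneg.2 (hxh j)) (fun j => by have := h1 j; linarith)
  have h4 := B_nonneg H hn (fun j => h j - x j)
  rw [show (fun j => x j + (h j - x j)) = h from by funext j; ring] at h3
  linarith

/-- **births are Lipschitz** -/
lemma B_inj (H : TC c W) {n : ℕ} (hn : 0 < n) {h x : J → ℝ}
    (hx : ∀ j, 0 ≤ x j) : B c W n (fun j => h j + x j) ≤ B c W n h + 8 * (n * M c x) := by
  have hn' : (0 : ℝ) < n := by exact_mod_cast hn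
  set z : J → ℝ := fun j => h j + x j with hz
  let D : ℕ → ℝ := fun i => t c W n z i - t c W n h i
  let s : ℕ → ℝ := fun i => nu c W n z i + nu c W n h i
  let d : ℕ → ℝ := fun i => w n i * (8 - s i)
  have hD0 : ∀ i, 0 ≤ D i := fun i => sub_nonneg.2
    (T2_mono H (i / n) fun j => by show h j ≤ h j + x j; linarith [hx j])
  have hD1 : ∀ i, D i ≤ M c x := by
    intro i
    have := T2_inj H (i / n) (h := h) hx
    show T2 c W (i / n) z - T2 c W (i / n) h ≤ _
    linarith
  have hs2 : ∀ i, s i ≤ 2 := fun i => by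
    have a1 := nu_le_one H hn z i
    have a2 := nu_le_one H hn h i
    show _ + _ ≤ _
    linarith
  have hcm : ∀ i, d i ≤ d (i + 1) := by
    intro i
    have hs : s (i + 1) ≤ s i := by
      have a1 := nu_anti H hn z i
      have a2 := nu_anti H hn h i
      show _ + _ ≤ _ + _
      linarith
    show w n i * (8 - s i) ≤ w n (i + 1) * (8 - s (i + 1))
    have h3 := w_mono n i
    have h4 := w_nonneg n i
    nlinarith [mul_nonneg h4 (sub_nonneg.2 hs), mul_nonneg (sub_nonneg.2 h3)
      (sub_nonneg.2 (hs2 (i + 1)))]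
  have hc0 : d 0 = 0 := by
    show w n 0 * _ = 0
    rw [w_zero, zero_mul]
  have hcn : d n ≤ 8 := by
    have h1 : w n n ≤ 1 := by
      apply div_le_one_of_le₀ le_rfl (Real.sqrt_nonneg _)
    have h2 : 0 ≤ s n := add_nonneg (nu_nonneg H hn z n) (nu_nonneg H hn h n)
    show w n n * (8 - s n) ≤ 8
    have h3 := w_nonneg n n
    nlinarith [mul_nonneg h3 h2]
  have hdiff : B c W n z - B c W n h = n * ∑ i ∈ range n, d i * (D i - D (i + 1)) := by
    simp only [B]
    rw [← Finset.sum_sub_distrib, Finset.mul_sum]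
    apply Finset.sum_congr rfl
    intro i _
    have e : n * (D i - D (i + 1)) = nu c W n z i - nu c W n h i := by
      simp only [nu, D]
      ring
    show _ = n * (w n i * (8 - (nu c W n z i + nu c W n h i)) * (D i - D (i + 1)))
    calc _ = w n i * ((8 - (nu c W n z i + nu c W n h i)) * (nu c W n z i - nu c W n h i)) := by
          ring
      _ = _ := by rw [← e]; ring
  have hab := abel d D n
  have hsum : ∑ i ∈ range n, (d (i + 1) - d i) * D (i + 1) ≤ d n * M c x := by
    calc ∑ i ∈ range n, (d (i + 1) - d i) * D (i + 1)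
        ≤ ∑ i ∈ range n, (d (i + 1) - d i) * M c x := by
          apply Finset.sum_le_sum
          intro i _
          exact mul_le_mul_of_nonneg_left (hD1 _) (sub_nonneg.2 (hcm i))
      _ = d n * M c x := by
          rw [← Finset.sum_mul, Finset.sum_range_sub, hc0, sub_zero]
  have hEx : 0 ≤ M c x := M_nonneg H.c0 hx
  have hcn0 : 0 ≤ d n := by
    show 0 ≤ w n n * (8 - s n)
    exact mul_nonneg (w_nonneg n n) (by linarith [hs2 n])
  have hfin : ∑ i ∈ range n, d i * (D i - D (i + 1)) ≤ 8 * M c x := by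
    have h1 : 0 ≤ d n * D n := mul_nonneg hcn0 (hD0 n)
    have h2 : d n * M c x ≤ 8 * M c x := mul_le_mul_of_nonneg_right hcn hEx
    rw [hc0, zero_mul, zero_add] at hab
    linarith
  have := mul_le_mul_of_nonneg_left hfin hn'.le
  linarith

lemma w_sqrt' {n i : ℕ} : w n i = Real.sqrt ((i : ℝ) / n) := by
  rw [w, Real.sqrt_div (Nat.cast_nonneg i)]

/-- **own-height price** -/
lemma B_own (H : TC c W) {n : ℕ} (hn : 0 < n) {h x : J → ℝ} (hh : ∀ j, 0 ≤ h j)
    (hx : ∀ j, 0 ≤ x j) : B c W n (fun j => h j + x j) ≤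
      B c W n h + 18 * (n * M c (fun j => x j * Real.sqrt (h j + x j))) := by
  have hn' : (0 : ℝ) < n := by exact_mod_cast hn
  set z : J → ℝ := fun j => h j + x j with hz
  let D : ℕ → ℝ := fun i => t c W n z i - t c W n h i
  let s : ℕ → ℝ := fun i => nu c W n z i + nu c W n h i
  let d : ℕ → ℝ := fun i => w n i * (8 - s i)
  let g : ℕ → J → ℝ := fun i j => if h j + x j ≤ (i / n : ℝ) / 5 then 0 else x j
  have hD0 : ∀ i, 0 ≤ D i := fun i => sub_nonneg.2
    (T2_mono H (i / n) fun j => by show h j ≤ h j + x j; linarith [hx j])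
  have hD1 : ∀ i, D i ≤ M c (g i) := by
    intro i
    have := T2_own H (i / n) (h := h) hx
    show T2 c W (i / n) z - T2 c W (i / n) h ≤ _
    linarith
  have hs2 : ∀ i, s i ≤ 2 := fun i => by
    have a1 := nu_le_one H hn z i
    have a2 := nu_le_one H hn h i
    show _ + _ ≤ _
    linarith
  have hs0 : ∀ i, 0 ≤ s i := fun i => add_nonneg (nu_nonneg H hn z i) (nu_nonneg H hn h i)
  have hcm : ∀ i, d i ≤ d (i + 1) := by
    intro i
    have hs : s (i + 1) ≤ s i := by
      have a1 := nu_anti H hn z i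
      have a2 := nu_anti H hn h i
      show _ + _ ≤ _ + _
      linarith
    show w n i * (8 - s i) ≤ w n (i + 1) * (8 - s (i + 1))
    have h3 := w_mono n i
    have h4 := w_nonneg n i
    nlinarith [mul_nonneg h4 (sub_nonneg.2 hs), mul_nonneg (sub_nonneg.2 h3)
      (sub_nonneg.2 (hs2 (i + 1)))]
  have hc0 : d 0 = 0 := by
    show w n 0 * _ = 0
    rw [w_zero, zero_mul]
  have hdw : ∀ i, d i ≤ 8 * w n i := by
    intro i
    show w n i * (8 - s i) ≤ 8 * w n i
    have h3 := w_nonneg n i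
    nlinarith [mul_nonneg h3 (hs0 i)]
  have hcn0 : 0 ≤ d n := by
    show 0 ≤ w n n * (8 - s n)
    exact mul_nonneg (w_nonneg n n) (by linarith [hs2 n])
  have hdiff : B c W n z - B c W n h = n * ∑ i ∈ range n, d i * (D i - D (i + 1)) := by
    simp only [B]
    rw [← Finset.sum_sub_distrib, Finset.mul_sum]
    apply Finset.sum_congr rfl
    intro i _
    have e : n * (D i - D (i + 1)) = nu c W n z i - nu c W n h i := by
      simp only [nu, D]
      ring
    show _ = n * (w n i * (8 - (nu c W n z i + nu c W n h i)) * (D i - D (i + 1)))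
    calc _ = w n i * ((8 - (nu c W n z i + nu c W n h i)) * (nu c W n z i - nu c W n h i)) := by
          ring
      _ = _ := by rw [← e]; ring
  have hab := abel d D n
  -- one member
  have hone : ∀ j, ∑ i ∈ range n, (d (i + 1) - d i) * g (i + 1) j ≤
      18 * (x j * Real.sqrt (h j + x j)) := by
    intro j
    set v := h j + x j with hv
    have v0 : 0 ≤ v := add_nonneg (hh j) (hx j)
    set K := 8 * Real.sqrt (5 * v) with hK
    have K0 : 0 ≤ K := by positivity
    have hterm : ∀ i ∈ range n, (d (i + 1) - d i) * g (i + 1) j ≤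
        x j * (min (d (i + 1)) K - min (d i) K) := by
      intro i _
      show (d (i + 1) - d i) * (if h j + x j ≤ (((i + 1 : ℕ) : ℝ) / n) / 5 then 0 else x j) ≤ _
      split_ifs with hc
      · rw [mul_zero]
        exact mul_nonneg (hx j) (sub_nonneg.2 (min_le_min (hcm i) le_rfl))
      · push Not at hc
        have h1 : ((i + 1 : ℕ) : ℝ) / n ≤ 5 * v := by rw [hv]; linarith
        have h2 : d (i + 1) ≤ K := by
          refine (hdw _).trans ?_
          rw [w_sqrt', hK]
          exact mul_le_mul_of_nonneg_left (Real.sqrt_le_sqrt h1) (by norm_num)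
        rw [min_eq_left h2, min_eq_left ((hcm i).trans h2), mul_comm]
    have h3 := Finset.sum_le_sum hterm
    rw [← Finset.mul_sum, Finset.sum_range_sub (fun i => min (d i) K), hc0,
      min_eq_left K0, sub_zero] at h3
    refine h3.trans ?_
    have h4 : min (d n) K ≤ K := min_le_right _ _
    have h5 : K ≤ 18 * Real.sqrt v := by
      rw [hK, Real.sqrt_mul (by norm_num : (0:ℝ) ≤ 5)]
      have h6 : Real.sqrt 5 ≤ 9 / 4 := by
        rw [show (9 / 4 : ℝ) = Real.sqrt ((9 / 4) ^ 2) from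
          (Real.sqrt_sq (by norm_num)).symm]
        exact Real.sqrt_le_sqrt (by norm_num)
      have h7 := mul_le_mul_of_nonneg_right h6 (Real.sqrt_nonneg v)
      nlinarith
    have h8 := mul_le_mul_of_nonneg_left (h4.trans h5) (hx j)
    linarith
  have hsum : ∑ i ∈ range n, (d (i + 1) - d i) * D (i + 1) ≤
      18 * M c (fun j => x j * Real.sqrt (h j + x j)) := by
    calc ∑ i ∈ range n, (d (i + 1) - d i) * D (i + 1)
        ≤ ∑ i ∈ range n, (d (i + 1) - d i) * M c (g (i + 1)) := by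
          apply Finset.sum_le_sum
          intro i _
          exact mul_le_mul_of_nonneg_left (hD1 _) (sub_nonneg.2 (hcm i))
      _ = M c (fun j => ∑ i ∈ range n, (d (i + 1) - d i) * g (i + 1) j) := by
          rw [M_sum]
          exact Finset.sum_congr rfl fun i _ => (M_smul _ _).symm
      _ ≤ M c (fun j => 18 * (x j * Real.sqrt (h j + x j))) := M_mono H.c0 hone
      _ = _ := M_smul _ _
  have hfin : ∑ i ∈ range n, d i * (D i - D (i + 1)) ≤
      18 * M c (fun j => x j * Real.sqrt (h j + x j)) := by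
    have h1 : 0 ≤ d n * D n := mul_nonneg hcn0 (hD0 n)
    rw [hc0, zero_mul, zero_add] at hab
    linarith
  have := mul_le_mul_of_nonneg_left hfin hn'.le
  linarith

/-! ### columns -/

section col
variable {ι : Type*} [Fintype ι] {q : ℝ} {h : J × Bool → ℝ} {u : ι → ℝ} {X : ι → J → ℝ}

/-- **the truncated row is below an exact row of the truncated contents** -/
lemma Col.trunc (hq : 0 < q ∧ q < 1) (C : Col q h u X) (h0 : ∀ x, 0 ≤ h x) (lam : ℝ) :
    ∃ Y : ι → J → ℝ, Col q (tc lam h) u Y ∧ ∀ i j, tc lam (X i) j ≤ Y i j := by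
  classical
  obtain ⟨q0, q1⟩ := hq
  choose s Δ hs hsu hΔ0 hΔ1 hX using C.rule
  set τ := lam / 5 with hτ
  -- the new height
  let E : J → ℝ := fun j => if h (j, false) ≤ h (j, true) ∨ h (j, false) ≤ τ then 0 else
    if τ ≤ h (j, true) then Δ j else max (Δ j - (τ - h (j, true))) 0
  have key : ∀ j, 0 ≤ E j ∧ E j ≤ max (tc lam h (j, false) - tc lam h (j, true)) 0 ∧
      ∀ i, tc lam (X i) j ≤ av q (tc lam h) j + (s j i - (1 - q)) * E j := by
    intro j
    have d0 := hΔ0 j
    have d1 := hΔ1 j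
    have a0 := h0 (j, false)
    have b0 := h0 (j, true)
    have hXj : ∀ i, X i j = (1 - q) * h (j, false) + q * h (j, true) + (s j i - (1 - q)) * Δ j :=
      fun i => hX j i
    have htX : ∀ i, tc lam (X i) j = max (X i j - τ) 0 := fun i => rfl
    have hta : tc lam h (j, false) = max (h (j, false) - τ) 0 := rfl
    have htb : tc lam h (j, true) = max (h (j, true) - τ) 0 := rfl
    have hav : av q (tc lam h) j = (1 - q) * max (h (j, false) - τ) 0 +
      q * max (h (j, true) - τ) 0 := rfl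
    show 0 ≤ E j ∧ E j ≤ _ ∧ _
    rw [hta, htb, hav]
    set a := h (j, false) with ha
    set b := h (j, true) with hb
    have hE : E j = if a ≤ b ∨ a ≤ τ then 0 else
      if τ ≤ b then Δ j else max (Δ j - (τ - b)) 0 := rfl
    rw [hE]
    by_cases c1 : a ≤ b ∨ a ≤ τ
    · rw [if_pos c1]
      refine ⟨le_rfl, le_max_right _ _, fun i => ?_⟩
      rw [htX, hXj, mul_zero, add_zero]
      rcases c1 with c1 | c1
      · -- a ≤ b : Δ = 0
        have hz : Δ j = 0 := by
          rw [max_eq_right (by linarith)] at d1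
          linarith
        rw [hz, mul_zero, add_zero]
        have e1 := le_max_left (a - τ) 0
        have e2 := le_max_left (b - τ) 0
        have e3 := le_max_right (a - τ) 0
        have e4 := le_max_right (b - τ) 0
        have f1 := mul_le_mul_of_nonneg_left e1 (by linarith : 0 ≤ 1 - q)
        have f2 := mul_le_mul_of_nonneg_left e2 q0.le
        have f3 := mul_nonneg (by linarith : 0 ≤ 1 - q) e3
        have f4 := mul_nonneg q0.le e4
        exact max_le (by linarith) (by linarith)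
      · -- everything is below τ
        have hXa : (1 - q) * a + q * b + (s j i - (1 - q)) * Δ j ≤ max a b := by
          rcases le_total a b with hab | hab
          · have hz : Δ j = 0 := by
              rw [max_eq_right (by linarith)] at d1
              linarith
            rw [hz, max_eq_right hab]
            nlinarith
          · rw [max_eq_left (by linarith)] at d1
            rw [max_eq_left hab]
            have e1 : (s j i - (1 - q)) * Δ j ≤ q * (a - b) := by
              calc (s j i - (1 - q)) * Δ j ≤ q * Δ j :=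
                    mul_le_mul_of_nonneg_right (by linarith [(hs j i).2]) d0
                _ ≤ q * (a - b) := mul_le_mul_of_nonneg_left d1 q0.le
            nlinarith
        rcases le_total a b with hab | hab
        · have hz : Δ j = 0 := by
            rw [max_eq_right (by linarith)] at d1
            linarith
          rw [hz, mul_zero, add_zero]
          have e1 := le_max_left (a - τ) 0
          have e2 := le_max_left (b - τ) 0
          have e3 := le_max_right (a - τ) 0
          have e4 := le_max_right (b - τ) 0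
          have f1 := mul_le_mul_of_nonneg_left e1 (by linarith : 0 ≤ 1 - q)
          have f2 := mul_le_mul_of_nonneg_left e2 q0.le
          have f3 := mul_nonneg (by linarith : 0 ≤ 1 - q) e3
          have f4 := mul_nonneg q0.le e4
          exact max_le (by linarith) (by linarith)
        · rw [max_eq_left hab] at hXa
          have e3 := le_max_right (a - τ) 0
          have e4 := le_max_right (b - τ) 0
          have f3 := mul_nonneg (by linarith : 0 ≤ 1 - q) e3
          have f4 := mul_nonneg q0.le e4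
          exact max_le (by linarith) (by linarith)
    · rw [if_neg c1]
      push Not at c1
      obtain ⟨c2, c3⟩ := c1
      rw [max_eq_left (by linarith)] at d1
      by_cases c4 : τ ≤ b
      · rw [if_pos c4, max_eq_left (by linarith : 0 ≤ a - τ), max_eq_left (by linarith : 0 ≤ b - τ)]
        refine ⟨d0, ?_, fun i => ?_⟩
        · exact le_trans (by linarith) (le_max_left _ _)
        · rw [htX, hXj]
          have e1 : (1 - q) * Δ j ≤ (1 - q) * (a - b) :=
            mul_le_mul_of_nonneg_left d1 (by linarith)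
          have e2 : 0 ≤ s j i * Δ j := mul_nonneg (hs j i).1 d0
          exact max_le (by nlinarith) (by nlinarith)
      · rw [if_neg c4]
        push Not at c4
        rw [max_eq_left (by linarith : 0 ≤ a - τ), max_eq_right (by linarith : b - τ ≤ 0)]
        refine ⟨le_max_right _ _, ?_, fun i => ?_⟩
        · refine max_le ?_ (le_max_right _ _)
          exact le_trans (by linarith) (le_max_left _ _)
        · rw [htX, hXj]
          have s0 := (hs j i).1
          have s1 := (hs j i).2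
          rcases le_total (Δ j - (τ - b)) 0 with k | k
          · rw [max_eq_right k, mul_zero, add_zero]
            have e1 : (s j i - (1 - q)) * Δ j ≤ q * (τ - b) := by
              calc (s j i - (1 - q)) * Δ j ≤ q * Δ j :=
                    mul_le_mul_of_nonneg_right (by linarith) d0
                _ ≤ q * (τ - b) := mul_le_mul_of_nonneg_left (by linarith) q0.le
            exact max_le (by nlinarith) (by nlinarith)
          · rw [max_eq_left k]
            have e1 : s j i * (τ - b) ≤ 1 * (τ - b) :=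
              mul_le_mul_of_nonneg_right s1 (by linarith)
            have e2 : 0 ≤ s j i * (Δ j - (τ - b)) := mul_nonneg s0 k
            have e3 : (1 - q) * (Δ j - (τ - b)) ≤ (1 - q) * (a - τ) :=
              mul_le_mul_of_nonneg_left (by linarith) (by linarith)
            exact max_le (by nlinarith) (by nlinarith)
  refine ⟨fun i j => av q (tc lam h) j + (s j i - (1 - q)) * E j, ⟨C.u0, C.u1, fun j => ?_⟩,
    fun i j => (key j).2.2 i⟩
  exact ⟨s j, E j, hs j, hsu j, (key j).1, (key j).2.1, fun i => rfl⟩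

lemma T2_colG (H : TC c W) (hq : 0 < q ∧ q < 1) (lam : ℝ) (h0 : ∀ x, 0 ≤ h x)
    (C : Col q h u X) : ∑ i, u i * T2 c W lam (X i) ≤ T2 (cT q c) (WT q W) lam h := by
  obtain ⟨Y, hY, hXY⟩ := Col.trunc hq C h0 lam
  refine le_trans (Finset.sum_le_sum fun i _ => mul_le_mul_of_nonneg_left
    (T_mono H (4 / 5 * lam) (hXY i)) (C.u0 i)) ?_
  exact T_colG H hq _ hY

/-- **the column step for the potential** -/
lemma B_colG (H : TC c W) (hq : 0 < q ∧ q < 1) {n : ℕ} (hn : 0 < n)
    (h0 : ∀ x, 0 ≤ h x) (h1 : ∀ x, h x ≤ 1) (C : Col q h u X) :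
    n * (∑ i, u i * (M c (X i) - M (cT q c) h) ^ 2) + 2 * ∑ i, u i * B c W n (X i) ≤
    2 * B (cT q c) (WT q W) n h + 2 := by
  have hn' : (0 : ℝ) < n := by exact_mod_cast hn
  have H' := H.tie hq
  have hX0 : ∀ i j, 0 ≤ X i j := fun i j => (C.bd hq h0 h1 i j).1
  have hX1 : ∀ i j, X i j ≤ 1 := fun i j => (C.bd hq h0 h1 i j).2
  have hEX := M_Col (c := c) C
  let D : ℕ → ℝ := fun i => t (cT q c) (WT q W) n h i - ∑ j, u j * t c W n (X j) i
  have hD : ∀ i, 0 ≤ D i := by
    intro i
    have := T2_colG H hq (i / n) h0 C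
    show 0 ≤ t (cT q c) (WT q W) n h i - ∑ j, u j * t c W n (X j) i
    simp only [t]
    linarith
  have hD0 : D 0 = 0 := by
    show t (cT q c) (WT q W) n h 0 - ∑ j, u j * t c W n (X j) 0 = 0
    simp only [t_zero H (hX0 _), t_zero H' h0, hEX]
    ring
  have hDn : D n = 0 := by
    show t (cT q c) (WT q W) n h n - ∑ j, u j * t c W n (X j) n = 0
    simp only [t_top H hn (hX1 _), t_top H' hn h1]
    simp
  let nb : ℕ → ℝ := fun i => ∑ j, u j * nu c W n (X j) i
  let s : ℕ → ℝ := fun i => nu (cT q c) (WT q W) n h i + nb i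
  let e : ℕ → ℝ := fun i => w n i * (8 - s i)
  let d : ι → ℕ → ℝ := fun j i => nu c W n (X j) i - nb i
  have hnb1 : ∀ i, nb i ≤ 1 := by
    intro i
    show ∑ j, u j * nu c W n (X j) i ≤ 1
    rw [← C.u1]
    apply Finset.sum_le_sum
    intro j _
    have := mul_le_mul_of_nonneg_left (nu_le_one H hn (X j) i) (C.u0 j)
    linarith
  have hnb0 : ∀ i, 0 ≤ nb i := fun i => Finset.sum_nonneg fun j _ =>
    mul_nonneg (C.u0 j) (nu_nonneg H hn (X j) i)
  have hnba : ∀ i, nb (i + 1) ≤ nb i := by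
    intro i
    apply Finset.sum_le_sum
    intro j _
    exact mul_le_mul_of_nonneg_left (nu_anti H hn (X j) i) (C.u0 j)
  have hvar : ∀ i, ∑ j, u j * (8 * nu c W n (X j) i - nu c W n (X j) i ^ 2) =
      8 * nb i - nb i ^ 2 - ∑ j, u j * d j i ^ 2 := by
    intro i
    have e1 : ∑ j, u j * d j i ^ 2 = ∑ j, u j * nu c W n (X j) i ^ 2 - nb i ^ 2 := by
      have hb : ∀ b : ℝ, ∑ j, u j * (nu c W n (X j) i - b) ^ 2 =
          ∑ j, u j * nu c W n (X j) i ^ 2 -
          2 * b * ∑ j, u j * nu c W n (X j) i + b ^ 2 * ∑ j, u j := by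
        intro b
        rw [Finset.mul_sum, Finset.mul_sum, ← Finset.sum_sub_distrib, ← Finset.sum_add_distrib]
        apply Finset.sum_congr rfl
        intro j _
        ring
      have this := hb (nb i)
      show ∑ j, u j * (nu c W n (X j) i - nb i) ^ 2 = _
      rw [this, C.u1]
      show _ - 2 * nb i * nb i + _ = _
      ring
    have e2 : ∑ j, u j * (8 * nu c W n (X j) i - nu c W n (X j) i ^ 2) =
        8 * ∑ j, u j * nu c W n (X j) i - ∑ j, u j * nu c W n (X j) i ^ 2 := by
      rw [Finset.mul_sum, ← Finset.sum_sub_distrib]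
      apply Finset.sum_congr rfl
      intro j _
      ring
    rw [e2, e1]
    show 8 * nb i - _ = _
    ring
  have hdiff : B (cT q c) (WT q W) n h - ∑ j, u j * B c W n (X j) =
      n * ∑ i ∈ range n, e i * (D i - D (i + 1)) +
        ∑ j, u j * ∑ i ∈ range n, w n i * d j i ^ 2 := by
    have e1 : ∑ j, u j * B c W n (X j) =
        ∑ i ∈ range n, w n i * (8 * nb i - nb i ^ 2 - ∑ j, u j * d j i ^ 2) := by
      simp only [B, Finset.mul_sum]
      rw [Finset.sum_comm]
      apply Finset.sum_congr rfl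
      intro i _
      rw [← hvar i, Finset.mul_sum]
      apply Finset.sum_congr rfl
      intro j _
      ring
    have e2 : ∑ j, u j * ∑ i ∈ range n, w n i * d j i ^ 2 =
        ∑ i ∈ range n, w n i * ∑ j, u j * d j i ^ 2 := by
      simp only [Finset.mul_sum]
      rw [Finset.sum_comm]
      apply Finset.sum_congr rfl
      intro i _
      apply Finset.sum_congr rfl
      intro j _
      ring
    rw [e1, e2, Finset.mul_sum]
    simp only [B]
    rw [← Finset.sum_sub_distrib, ← Finset.sum_add_distrib]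
    apply Finset.sum_congr rfl
    intro i _
    have e3 : n * (D i - D (i + 1)) = nu (cT q c) (WT q W) n h i - nb i := by
      have e4 : nb i = n * (∑ j, u j * t c W n (X j) i - ∑ j, u j * t c W n (X j) (i + 1)) := by
        show ∑ j, u j * nu c W n (X j) i = _
        rw [← Finset.sum_sub_distrib, Finset.mul_sum]
        apply Finset.sum_congr rfl
        intro j _
        simp only [nu]
        ring
      rw [e4]
      simp only [nu, D]
      ring
    show _ = n * (w n i * (8 - (nu (cT q c) (WT q W) n h i + nb i)) * (D i - D (i + 1))) + _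
    calc _ = w n i * ((8 - (nu (cT q c) (WT q W) n h i + nb i)) *
          (nu (cT q c) (WT q W) n h i - nb i)) + w n i * ∑ j, u j * d j i ^ 2 := by ring
      _ = _ := by rw [← e3]; ring
  have hab := abel e D n
  rw [hDn, hD0] at hab
  have hpos : 0 ≤ ∑ i ∈ range n, e i * (D i - D (i + 1)) := by
    have : 0 ≤ ∑ i ∈ range n, (e (i + 1) - e i) * D (i + 1) := by
      apply Finset.sum_nonneg
      intro i _
      apply mul_nonneg _ (hD _)
      have b1 := nu_anti H' hn h i
      have b4 := nu_le_one H' hn h (i + 1)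
      have hs : s (i + 1) ≤ s i := by
        have := hnba i
        show _ + _ ≤ _ + _
        linarith
      have hs3 : s (i + 1) ≤ 2 := by
        have := hnb1 (i + 1)
        show _ + _ ≤ _
        linarith
      show 0 ≤ w n (i + 1) * (8 - s (i + 1)) - w n i * (8 - s i)
      have h3 := w_mono n i
      have h4 := w_nonneg n i
      nlinarith [mul_nonneg h4 (sub_nonneg.2 hs), mul_nonneg (sub_nonneg.2 h3)
        (sub_nonneg.2 hs3)]
    linarith
  obtain ⟨k', rfl⟩ : ∃ k', n = k' + 1 := ⟨n - 1, by omega⟩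
  set N : ℝ := ((k' + 1 : ℕ) : ℝ) with hN
  have hN1 : 1 ≤ N := by
    rw [hN]
    push_cast
    linarith [(Nat.cast_nonneg k' : (0 : ℝ) ≤ k')]
  have hEb : ∀ i, 0 ≤ M c (X i) ∧ M c (X i) ≤ 1 := by
    intro i
    refine ⟨M_nonneg H.c0 (hX0 i), ?_⟩
    have := M_mono H.c0 (f := X i) (g := fun _ => 1) (hX1 i)
    rwa [M_const H.c1] at this
  have hEb' : 0 ≤ M (cT q c) h ∧ M (cT q c) h ≤ 1 := by
    refine ⟨M_nonneg H'.c0 h0, ?_⟩
    have := M_mono H'.c0 (f := h) (g := fun _ => 1) h1
    rwa [M_const H'.c1] at this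
  have hkey : ∀ j, N * (M c (X j) - M (cT q c) h) ^ 2 ≤
      2 * ∑ i ∈ range (k' + 1), w (k' + 1) i * d j i ^ 2 + 2 := by
    intro j
    have hsn : ∑ i ∈ range (k' + 1), nb i = N * M (cT q c) h := by
      show ∑ i ∈ range (k' + 1), ∑ j, u j * nu c W (k' + 1) (X j) i = _
      rw [Finset.sum_comm, ← hEX, Finset.mul_sum]
      apply Finset.sum_congr rfl
      intro l _
      rw [← Finset.mul_sum, sum_nu H hn (hX0 l) (hX1 l)]
      ring
    have hsd : ∑ i ∈ range (k' + 1), d j i = N * (M c (X j) - M (cT q c) h) := by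
      show ∑ i ∈ range (k' + 1), (nu c W (k' + 1) (X j) i - nb i) = _
      rw [Finset.sum_sub_distrib, sum_nu H hn (hX0 j) (hX1 j), hsn]
      ring
    rw [Finset.sum_range_succ'] at hsd
    have hca := cauchy (k := k') (d j)
    have hq1 : ∑ i ∈ range (k' + 1), w (k' + 1) i * d j i ^ 2 =
        ∑ i ∈ range k', w (k' + 1) (i + 1) * d j (i + 1) ^ 2 := by
      rw [Finset.sum_range_succ', w_zero]
      ring
    rw [hq1]
    set Q := ∑ i ∈ range k', w (k' + 1) (i + 1) * d j (i + 1) ^ 2 with hQ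
    set S := ∑ i ∈ range k', d j (i + 1) with hS
    set g := M c (X j) - M (cT q c) h with hg
    have hd0 : |d j 0| ≤ 1 := by
      rw [abs_le]
      have b1 := nu_nonneg H hn (X j) 0
      have b3 := nu_le_one H hn (X j) 0
      have b2 := hnb0 0
      have b4 := hnb1 0
      constructor
      · show _ ≤ _ - _
        linarith
      · show _ - _ ≤ _
        linarith
    have he1 : |g| ≤ 1 := by
      have b1 := hEb j
      rw [abs_le]
      constructor <;> linarith [b1.1, b1.2, hEb'.1, hEb'.2]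
    have hSe : S = N * g - d j 0 := by linarith
    have h5 : g * d j 0 ≤ 1 := by
      have := abs_mul g (d j 0)
      have h6 : |g| * |d j 0| ≤ 1 := by
        calc |g| * |d j 0| ≤ 1 * 1 := mul_le_mul he1 hd0 (abs_nonneg _) zero_le_one
          _ = 1 := one_mul 1
      exact le_trans (le_abs_self _) (by rw [this]; exact h6)
    have h6 : N * (N * g ^ 2) ≤ N * (2 * Q + 2) := by
      rw [hSe] at hca
      have h7 : N * (g * d j 0) ≤ N * 1 := mul_le_mul_of_nonneg_left h5 (by linarith)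
      have h8 : (N * g - d j 0) ^ 2 = N * (N * g ^ 2) - 2 * (N * (g * d j 0)) + d j 0 ^ 2 := by
        ring
      have h9 : N * (2 * Q + 2) = Q * (2 * N) + 2 * (N * 1) := by ring
      have h10 := sq_nonneg (d j 0)
      linarith
    exact le_of_mul_le_mul_left h6 (by linarith)
  have hsum : N * ∑ i, u i * (M c (X i) - M (cT q c) h) ^ 2 ≤
      2 * ∑ j, u j * ∑ i ∈ range (k' + 1), w (k' + 1) i * d j i ^ 2 + 2 := by
    have e1 : N * ∑ i, u i * (M c (X i) - M (cT q c) h) ^ 2 =
        ∑ i, u i * (N * (M c (X i) - M (cT q c) h) ^ 2) := by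
      rw [Finset.mul_sum]
      apply Finset.sum_congr rfl
      intro i _
      ring
    have e2 : 2 * ∑ j, u j * ∑ i ∈ range (k' + 1), w (k' + 1) i * d j i ^ 2 + 2 =
        ∑ j, u j * (2 * ∑ i ∈ range (k' + 1), w (k' + 1) i * d j i ^ 2 + 2) := by
      simp only [mul_add, Finset.sum_add_distrib]
      rw [← Finset.sum_mul, C.u1, Finset.mul_sum]
      congr 1
      · apply Finset.sum_congr rfl
        intro i _
        ring
      · ring
    rw [e1, e2]
    apply Finset.sum_le_sum
    intro j _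
    exact mul_le_mul_of_nonneg_left (hkey j) (C.u0 j)
  have h9 : 0 ≤ N * ∑ i ∈ range (k' + 1), e i * (D i - D (i + 1)) :=
    mul_nonneg (by linarith) hpos
  linarith

end col

/-- **the potential**: `cost + Pk (above) ≤ Pk (below)`, `0 ≤ Pk h ≤ 16 M h` -/
noncomputable def Pk (c : J → ℝ) (W : Set (J → ℝ)) (h : J → ℝ) : ℝ :=
  liminf (fun n : ℕ => 2 * B c W (n + 1) h / ((n : ℝ) + 1)) atTop

lemma B_le' (H : TC c W) {n : ℕ} (hn : 0 < n) (h : J → ℝ) : B c W n h ≤ 8 * n := by
  have : ∑ i ∈ range n, (8 : ℝ) = 8 * n := by simp [mul_comm]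
  rw [← this]
  apply Finset.sum_le_sum
  intro i hi
  have hw := w_le_one (mem_range.1 hi)
  have hw0 := w_nonneg n i
  have h1 := nu_le_one H hn h i
  have h2 := nu_nonneg H hn h i
  have h3 : 0 ≤ 8 * nu c W n h i - nu c W n h i ^ 2 := by nlinarith
  calc w n i * (8 * nu c W n h i - nu c W n h i ^ 2)
      ≤ 1 * (8 * nu c W n h i - nu c W n h i ^ 2) := mul_le_mul_of_nonneg_right hw h3
    _ ≤ 8 := by nlinarith [sq_nonneg (nu c W n h i)]

lemma Bn_nonneg (H : TC c W) (h : J → ℝ) (n : ℕ) :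
    0 ≤ 2 * B c W (n + 1) h / ((n : ℝ) + 1) :=
  div_nonneg (mul_nonneg (by norm_num) (B_nonneg H n.succ_pos h)) (by positivity)

lemma Bn_le (H : TC c W) (h : J → ℝ) (n : ℕ) :
    2 * B c W (n + 1) h / ((n : ℝ) + 1) ≤ 16 := by
  rw [div_le_iff₀ (by positivity)]
  have := B_le' H n.succ_pos h
  push_cast at this
  linarith

/-- the general inequality between potentials -/
lemma Pk_core {ι : Type*} [Fintype ι] {J' : Type*} [Fintype J'] {c' : J' → ℝ}
    {W' : Set (J' → ℝ)} (H : TC c W) (H' : TC c' W') {k : ι → ℝ} {f : ι → J → ℝ} {v : J' → ℝ}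
    {a K : ℝ} (hk : ∀ i, 0 ≤ k i) (hK : 0 ≤ K)
    (hh : ∀ n : ℕ, 0 < n → n * a + 2 * ∑ i, k i * B c W n (f i) ≤ 2 * B c' W' n v + K) :
    a + ∑ i, k i * Pk c W (f i) ≤ Pk c' W' v := by
  refine lim_core (b := 16) hk (fun i n => Bn_nonneg H _ n) (fun i n => Bn_le H _ n)
    (fun n => Bn_nonneg H' _ n) (fun n => Bn_le H' _ n) hK fun n => ?_
  have h1 := hh (n + 1) n.succ_pos
  have hn : (0 : ℝ) < (n : ℝ) + 1 := by positivity
  push_cast at h1
  have e1 : a + ∑ i, k i * (2 * B c W (n + 1) (f i) / ((n : ℝ) + 1)) =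
      (((n : ℝ) + 1) * a + 2 * ∑ i, k i * B c W (n + 1) (f i)) / ((n : ℝ) + 1) := by
    rw [add_div, mul_div_cancel_left₀ _ hn.ne', Finset.mul_sum, Finset.sum_div]
    congr 1
    exact Finset.sum_congr rfl fun i _ => by ring
  rw [e1, ← add_div]
  exact div_le_div_of_nonneg_right h1 hn.le

lemma Pk_nonneg (H : TC c W) (h : J → ℝ) : 0 ≤ Pk c W h :=
  le_liminf_of_le (isBoundedUnder_of ⟨16, fun n => Bn_le H h n⟩).isCoboundedUnder_ge
    (Eventually.of_forall fun n => Bn_nonneg H h n)

lemma Pk_le (H : TC c W) {h : J → ℝ} (h0 : ∀ j, 0 ≤ h j) (h1 : ∀ j, h j ≤ 1) :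
    Pk c W h ≤ 16 * M c h := by
  refine liminf_le_of_le (isBoundedUnder_of ⟨0, fun n => Bn_nonneg H h n⟩) fun b hb => ?_
  obtain ⟨n, hn⟩ := hb.exists
  refine hn.trans ?_
  have hn : (0 : ℝ) < (n : ℝ) + 1 := by positivity
  rw [div_le_iff₀ hn]
  have := B_le H n.succ_pos h0 h1
  push_cast at this
  linarith

/-- **splits are free** -/
lemma Pk_split (H : TC c W) {x y : J → ℝ} (hx : ∀ j, 0 ≤ x j) (hy : ∀ j, 0 ≤ y j)
    (h1 : ∀ j, x j + y j ≤ 1) : Pk c W x + Pk c W y ≤ Pk c W (fun j => x j + y j) := by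
  have := Pk_core (ι := Bool) H H (k := fun _ => 1) (f := fun b => if b then x else y)
    (v := fun j => x j + y j) (a := 0) (K := 0) (fun _ => zero_le_one) le_rfl (fun n hn => by
      have := B_split H hn hx hy h1
      simp only [Fintype.sum_bool, if_true, Bool.false_eq_true, if_false]
      linarith)
  simpa using this

lemma Pk_zero (H : TC c W) : Pk c W (fun _ => 0) = 0 := by
  apply le_antisymm
  · have := Pk_le H (h := fun _ => 0) (fun _ => le_rfl) (fun _ => zero_le_one)
    rwa [M_const H.c1, mul_zero] at this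
  · exact Pk_nonneg H _

lemma Pk_mono (H : TC c W) {x h : J → ℝ} (hx : ∀ j, 0 ≤ x j) (hxh : ∀ j, x j ≤ h j)
    (h1 : ∀ j, h j ≤ 1) : Pk c W x ≤ Pk c W h := by
  have := Pk_core (ι := Unit) H H (k := fun _ => 1) (f := fun _ => x)
    (v := h) (a := 0) (K := 0) (fun _ => zero_le_one) le_rfl (fun n hn => by
      have := B_mono H hn hx hxh h1
      simp only [Finset.univ_unique, Finset.sum_const, Finset.card_singleton, one_smul]
      linarith)
  simpa using this

/-- **births are Lipschitz** -/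
lemma Pk_inj (H : TC c W) {h x : J → ℝ} (hx : ∀ j, 0 ≤ x j) :
    Pk c W (fun j => h j + x j) ≤ Pk c W h + 16 * M c x := by
  have hM : 0 ≤ M c x := M_nonneg H.c0 hx
  have := Pk_core (ι := Unit) H H (k := fun _ => 1) (f := fun _ => fun j => h j + x j)
    (v := h) (a := -(16 * M c x)) (K := 0) (fun _ => zero_le_one) le_rfl (fun n hn => by
      have := B_inj H hn (h := h) hx
      simp only [Finset.univ_unique, Finset.sum_const, Finset.card_singleton, one_smul]
      linarith)
  simp only [Finset.univ_unique, Finset.sum_const, Finset.card_singleton, one_smul, one_mul]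
    at this
  linarith

/-- many pieces -/
lemma Pk_sum (H : TC c W) {κ : Type*} (s : Finset κ) (f : κ → J → ℝ)
    (hf : ∀ i ∈ s, ∀ j, 0 ≤ f i j) (h1 : ∀ j, ∑ i ∈ s, f i j ≤ 1) :
    ∑ i ∈ s, Pk c W (f i) ≤ Pk c W (fun j => ∑ i ∈ s, f i j) := by
  classical
  induction s using Finset.induction_on with
  | empty => simpa using (Pk_nonneg H _)
  | insert a s ha ih =>
    have hs : ∀ j, 0 ≤ ∑ i ∈ s, f i j := fun j =>
      Finset.sum_nonneg fun i hi => hf i (Finset.mem_insert_of_mem hi) j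
    have ha0 : ∀ j, 0 ≤ f a j := hf a (Finset.mem_insert_self a s)
    have h2 : ∀ j, f a j + ∑ i ∈ s, f i j ≤ 1 := fun j => by
      have := h1 j
      rwa [Finset.sum_insert ha] at this
    have h3 := ih (fun i hi => hf i (Finset.mem_insert_of_mem hi)) fun j => by
      have := h2 j
      have := ha0 j
      linarith
    have h4 := Pk_split H ha0 hs h2
    rw [Finset.sum_insert ha]
    have e : (fun j => ∑ i ∈ insert a s, f i j) = fun j => f a j + ∑ i ∈ s, f i j :=
      funext fun j => Finset.sum_insert ha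
    rw [e]
    linarith

/-- **the column** -/
theorem Pk_col {ι : Type*} [Fintype ι] {q : ℝ} {h : J × Bool → ℝ} {u : ι → ℝ}
    {X : ι → J → ℝ} (H : TC c W) (hq : 0 < q ∧ q < 1) (h0 : ∀ x, 0 ≤ h x) (h1 : ∀ x, h x ≤ 1)
    (C : Col q h u X) :
    ∑ i, u i * (M c (X i) - M (cT q c) h) ^ 2 + ∑ i, u i * Pk c W (X i) ≤
      Pk (cT q c) (WT q W) h :=
  Pk_core H (H.tie hq) C.u0 (by norm_num : (0 : ℝ) ≤ 2) fun n hn => B_colG H hq hn h0 h1 C

/-- **the price: only the height in the own member counts** -/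
theorem Pk_own (H : TC c W) {h x : J → ℝ} (hh : ∀ j, 0 ≤ h j) (hx : ∀ j, 0 ≤ x j) :
    Pk c W (fun j => h j + x j) ≤ Pk c W h + 36 * M c (fun j => x j * Real.sqrt (h j + x j)) := by
  have := Pk_core (ι := Unit) H H (k := fun _ => 1) (f := fun _ => fun j => h j + x j)
    (v := h) (a := -(36 * M c (fun j => x j * Real.sqrt (h j + x j)))) (K := 0)
    (fun _ => zero_le_one) le_rfl (fun n hn => by
      have := B_own H hn hh hx
      simp only [Finset.univ_unique, Finset.sum_const, Finset.card_singleton, one_smul]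
      linarith)
  simp only [Finset.univ_unique, Finset.sum_const, Finset.card_singleton, one_smul, one_mul]
    at this
  linarith

/-- the potential of a small content -/
lemma Pk_le32 (H : TC c W) {x : J → ℝ} (hx : ∀ j, 0 ≤ x j) :
    Pk c W x ≤ 36 * M c (fun j => x j * Real.sqrt (x j)) := by
  have h1 := Pk_own H (h := fun _ => 0) (fun _ => le_rfl) hx
  simp only [zero_add] at h1
  rw [Pk_zero H, zero_add] at h1
  exact h1

/-! ### the normalised potential: constants of `GMer_27`, cost coefficient `7/8` -/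

/-- `7/8 Pk` -/
noncomputable def PN (c : J → ℝ) (W : Set (J → ℝ)) (h : J → ℝ) : ℝ := 7 / 8 * Pk c W h

lemma PN_nonneg (H : TC c W) (h : J → ℝ) : 0 ≤ PN c W h := by
  have := Pk_nonneg H h
  unfold PN
  linarith

lemma PN_le (H : TC c W) {h : J → ℝ} (h0 : ∀ j, 0 ≤ h j) (h1 : ∀ j, h j ≤ 1) :
    PN c W h ≤ 14 * M c h := by
  have := Pk_le H h0 h1
  unfold PN
  linarith

lemma PN_split (H : TC c W) {x y : J → ℝ} (hx : ∀ j, 0 ≤ x j) (hy : ∀ j, 0 ≤ y j)
    (h1 : ∀ j, x j + y j ≤ 1) : PN c W x + PN c W y ≤ PN c W (fun j => x j + y j) := by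
  have := Pk_split H hx hy h1
  unfold PN
  linarith

lemma PN_zero (H : TC c W) : PN c W (fun _ => 0) = 0 := by
  unfold PN
  rw [Pk_zero H, mul_zero]

lemma PN_mono (H : TC c W) {x h : J → ℝ} (hx : ∀ j, 0 ≤ x j) (hxh : ∀ j, x j ≤ h j)
    (h1 : ∀ j, h j ≤ 1) : PN c W x ≤ PN c W h := by
  have := Pk_mono H hx hxh h1
  unfold PN
  linarith

/-- **births are Lipschitz** -/
lemma PN_inj (H : TC c W) {h x : J → ℝ} (hx : ∀ j, 0 ≤ x j) :
    PN c W (fun j => h j + x j) ≤ PN c W h + 14 * M c x := by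
  have := Pk_inj H (h := h) hx
  unfold PN
  linarith

/-- **the price** -/
theorem PN_own (H : TC c W) {h x : J → ℝ} (hh : ∀ j, 0 ≤ h j) (hx : ∀ j, 0 ≤ x j) :
    PN c W (fun j => h j + x j) ≤ PN c W h + 32 * M c (fun j => x j * Real.sqrt (h j + x j)) := by
  have := Pk_own H hh hx
  have h0 : 0 ≤ M c (fun j => x j * Real.sqrt (h j + x j)) :=
    M_nonneg H.c0 fun j => mul_nonneg (hx j) (Real.sqrt_nonneg _)
  unfold PN
  linarith

lemma PN_sum (H : TC c W) {κ : Type*} (s : Finset κ) (f : κ → J → ℝ)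
    (hf : ∀ i ∈ s, ∀ j, 0 ≤ f i j) (h1 : ∀ j, ∑ i ∈ s, f i j ≤ 1) :
    ∑ i ∈ s, PN c W (f i) ≤ PN c W (fun j => ∑ i ∈ s, f i j) := by
  have := Pk_sum H s f hf h1
  unfold PN
  rw [← Finset.mul_sum]
  linarith

/-- **the column** (cost coefficient `7/8`) -/
theorem PN_col {ι : Type*} [Fintype ι] {q : ℝ} {h : J × Bool → ℝ} {u : ι → ℝ}
    {X : ι → J → ℝ} (H : TC c W) (hq : 0 < q ∧ q < 1) (h0 : ∀ x, 0 ≤ h x) (h1 : ∀ x, h x ≤ 1)
    (C : Col q h u X) :
    7 / 8 * ∑ i, u i * (M c (X i) - M (cT q c) h) ^ 2 + ∑ i, u i * PN c W (X i) ≤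
      PN (cT q c) (WT q W) h := by
  have h2 := Pk_col H hq h0 h1 C
  have e : ∑ i, u i * PN c W (X i) = 7 / 8 * ∑ i, u i * Pk c W (X i) := by
    rw [Finset.mul_sum]
    exact Finset.sum_congr rfl fun i _ => by unfold PN; ring
  rw [e]
  unfold PN
  linarith

/-! ## measurability -/

lemma cont_tc (lam : ℝ) : Continuous fun h : J → ℝ => tc lam h := by
  apply continuous_pi
  intro j
  unfold tc
  exact ((continuous_apply j).sub continuous_const).max continuous_const

lemma cont_T2 (H : TC c W) (lam : ℝ) : Continuous fun h : J → ℝ => T2 c W lam h := by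
  unfold T2
  exact (cont_T H _).comp (cont_tc lam)

lemma cont_B (H : TC c W) (n : ℕ) : Continuous fun h : J → ℝ => B c W n h := by
  unfold B nu t
  have := fun lam => cont_T2 H lam
  fun_prop

lemma measurable_Pk (H : TC c W) {α : Type*} [MeasurableSpace α] {h : α → J → ℝ}
    (hh : Measurable h) : Measurable fun x => Pk c W (h x) := by
  unfold Pk
  refine Measurable.liminf fun n => ?_
  have := (cont_B H (n + 1)).measurable.comp hh
  exact ((this.const_mul 2).div_const _)

lemma measurable_PN (H : TC c W) {α : Type*} [MeasurableSpace α] {h : α → J → ℝ}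
    (hh : Measurable h) : Measurable fun x => PN c W (h x) :=
  (measurable_Pk H hh).const_mul _

/-! ## changes of the index type -/

section comap
variable {J' : Type*} [Fintype J'] {c' : J' → ℝ}

lemma T2_comap {π : J' → J} (hc : ∀ f : J → ℝ, ∑ j', c' j' * f (π j') = ∑ j, c j * f j)
    (lam : ℝ) (h : J → ℝ) : T2 c' (cmW π W) lam (fun j => h (π j)) = T2 c W lam h :=
  T_comap hc _ (tc lam h)

lemma B_comap {π : J' → J} (hc : ∀ f : J → ℝ, ∑ j', c' j' * f (π j') = ∑ j, c j * f j)
    (n : ℕ) (h : J → ℝ) : B c' (cmW π W) n (fun j => h (π j)) = B c W n h := by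
  simp only [B, nu, t, T2_comap hc]

/-- **the potential does not see duplications** -/
lemma Pk_comap {π : J' → J} (hc : ∀ f : J → ℝ, ∑ j', c' j' * f (π j') = ∑ j, c j * f j)
    (h : J → ℝ) : Pk c' (cmW π W) (fun j => h (π j)) = Pk c W h := by
  simp only [Pk, B_comap hc]

lemma PN_comap {π : J' → J} (hc : ∀ f : J → ℝ, ∑ j', c' j' * f (π j') = ∑ j, c j * f j)
    (h : J → ℝ) : PN c' (cmW π W) (fun j => h (π j)) = PN c W h := by
  simp only [PN, Pk_comap hc]

end comap

/-- a column without tie: both children of every member are the member -/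
lemma T2_dup (H : TC c W) {q : ℝ} (hq : 0 < q ∧ q < 1) (lam : ℝ) (h : J → ℝ) :
    T2 (cT q c) (WT q W) lam (fun x => h x.1) = T2 c W lam h :=
  T_dup H hq _ (tc lam h)

lemma Pk_dup (H : TC c W) {q : ℝ} (hq : 0 < q ∧ q < 1) (h : J → ℝ) :
    Pk (cT q c) (WT q W) (fun x => h x.1) = Pk c W h := by
  simp only [Pk, B, nu, t, T2_dup H hq]

lemma PN_dup (H : TC c W) {q : ℝ} (hq : 0 < q ∧ q < 1) (h : J → ℝ) :
    PN (cT q c) (WT q W) (fun x => h x.1) = PN c W h := by
  simp only [PN, Pk_dup H hq]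

end Crest.Agent.R4P.GMk35
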