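import Crest.Agent.R4P.GTopW_50

/-!
R4 (S0004) with powers, helper5 (line c6 of PLAN v1): **leaves as start nodes**. The group walk of a leaf is
`0` (`GW_leaf`), so the data `GTopW50.NData` are needed only at the nodes which are not leaves:
`Tgt50n`, `gTopW_of_50n`, `S0004_50n`.
-/

set_option autoImplicit false
set_option linter.unusedSectionVars false
set_option linter.unusedVariables false

open MeasureTheory Filter

namespace Crest.Agent.R4P.GTn5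

open Crest.Agent.R4.Tour104 Crest.Agent.R4.Tour758 Crest.Agent.R4.Avg758 Crest.Agent.R4.Clos758
open Crest.Agent.R4.ClosL758 Crest.Agent.R4.ClosG758 Crest.Agent.R4.ClosR758
open Crest.Agent.R4.Fam464 Crest.Agent.R4P.Cnt588 Crest.Agent.R4P.Walk560 Crest.Agent.R4P.Item758
open Crest.Agent.R4.Soft104 Crest.Agent.R4.Max709
open Crest.Agent.R4P.Bld532 (NS All NodeOk)
open Crest.Agent.R4P.Data758 Crest.Agent.R4P.SkelF29 Crest.Agent.R4P.Strip29
open Crest.Agent.R4P.Skel189 Crest.Agent.R4P.OSWS245 Crest.Agent.R4P.ParF5 Crest.Agent.R4P.Fin5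
open Crest.Agent.R4P.NumX34
open Crest.Agent.R4P.FinE26 (ForN)
open Crest.Agent.R4P.SxT6 (MassP InS SyB SyB_mass)
open Crest.Agent.R4P.TopX36 Crest.Agent.R4P.PN36 Crest.Agent.R4P.Grp36 Crest.Agent.R4P.Xfer36
open Crest.Agent.R4P.TopC36
open Crest.Agent.R4P.FinEB25 Crest.Agent.R4P.TopG25
open Crest.Agent.R4P.RSys343 Crest.Agent.R4P.RXm55 Crest.Agent.R4P.MSm25 Crest.Agent.R4P.PayR45
open Crest.Agent.R4P.Pay349 Crest.Agent.R4P.GSK55 Crest.Agent.R4P.GWa343 Crest.Agent.R4P.GWd343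
open Crest.Agent.R4P.MSi343 (su)
open Crest.Agent.R4P.NumG23 (SxF NumG)
open Crest.Agent.R4P
open Crest.Agent.R4P.GTopW50
open Crest.Agent.R4P.WalkIT579 (isL)
open Crest.Agent.R4P.Mrg35 (ctx_side)

variable {N : Skel189.Num} {γ : ℝ} {p0 P₀ : ℕ}

/-- the group walk of a leaf vanishes -/
lemma GW_leaf (X : Ctx N γ p0 P₀) (n : ℕ) (u : NS) {τ : IT} (h : isL τ) : GW X n u τ = 0 := by
  cases τ with
  | leaf S =>
    unfold GW
    have e : (X.self u (.leaf S) Finset.univ).p = 0 := rfl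
    rw [e]
    cases n <;> rfl
  | br p Sp t₁ t₀ => exact absurd h (by intro h; exact h)
  | add b t₁ t₀ => exact absurd h (by intro h; exact h)
  | up b Sp t => exact absurd h (by intro h; exact h)
  | pl b t => exact absurd h (by intro h; exact h)
  | far b t₁ t₀ => exact absurd h (by intro h; exact h)

/-- **the data exist at all the nodes with the bootstrap hypothesis which are not leaves** -/
def Tgt50n (N : Skel189.Num) (γ : ℝ) (P : ∀ {p0 P₀ : ℕ} (X : Ctx N γ p0 P₀), Prop) (θ : ℝ) : Prop :=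
  ∃ (J c a : ℝ) (b : ℝ → ℝ), 0 ≤ J ∧ 0 ≤ c ∧ 0 ≤ a ∧ (∀ del, 0 ≤ b del) ∧
    ∀ M : ℝ, 0 ≤ M → Ev N γ fun p0 P₀ X => CF X → P X → ∀ (j₀ : X.c.Lam) (Kb : ℝ),
    0 ≤ Kb → Kb ≤ M * Real.log p0 ^ M →
    All (fun u τ => ¬ isL τ → BootF X j₀ (fun _ _ => 0) Kb u τ →
      Nonempty (NData X j₀ u τ J c a θ b)) ⟨top X.S, 1, 1, 1⟩ X.c.t

/-- **the group walks from the data** at the nodes which are not leaves -/
theorem gTopW_of_50n {ε θ : ℝ} (hε : θ < ε) (hθ0 : 0 ≤ θ) {P : ∀ {p0 P₀ : ℕ} (X : Ctx N γ p0 P₀), Prop}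
    (h : Tgt50n N γ P θ) : GTopW ε N γ P := by
  obtain ⟨J, c, a, b, hJ, hc, ha, hb, h⟩ := h
  have hεθ : 0 < ε - θ := by linarith
  obtain ⟨del, h0, h1, C, hC, H⟩ := msx_pay3B (ε := (ε - θ) / (c + 1)) (J := J) (by positivity) hJ
  have hεc : c * ((ε - θ) / (c + 1)) ≤ ε - θ := by
    rw [mul_div_assoc', div_le_iff₀ (by linarith)]
    nlinarith
  have hbd := hb del
  refine gTopW_of_game ⟨a + c * (28 * b del + 28 * a + C * (a + a)), c * C, 0, by positivity,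
    by positivity, le_rfl, fun M hM => ?_⟩
  refine (h M hM).mono fun p0 P₀ X hh hC' hP j₀ Kb k1 k2 => ?_
  refine All.mono (fun u τ hh hB n => ?_)
    ((hh hC' hP j₀ Kb k1 k2).and ((ctx_mumu X j₀).and (ctx_side X j₀)))
  have I2 : 0 ≤ I (fun x => tt Finset.univ (X.g u τ) x ^ 2) := I_nonneg fun x => sq_nonneg _
  by_cases hl : isL τ
  · rw [GW_leaf X n u hl]
    have x4 := (hh.2.1 Finset.univ).1
    have x5 := (hh.2.1 Finset.univ).2
    have e2 : X.g u τ = (X.self u τ Finset.univ).t.g :=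
      (Item758.Par.toDT_g (X.c.D.par X.Y) X.c.sp τ u.B u.A).symm
    have x6 : 0 ≤ I (fun x => tt Finset.univ (X.g u τ) x) :=
      I_nonneg fun x => Finset.sum_nonneg fun j _ => by
        rw [rv_univ, e2]
        exact (hh.2.2.2.ok.pb j).nonneg x
    have x7 : 0 ≤ ε * I (fun x => tt Finset.univ (X.g u τ) x ^ 2) :=
      mul_nonneg (hθ0.trans hε.le) I2
    have x8 : 0 ≤ (a + c * (28 * b del + 28 * a + C * (a + a))) * (X.mu j₀ u τ Finset.univ +
        X.mu j₀ u τ Finset.univ * X.mu j₀ u τ Finset.univ) := by positivity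
    have x9 : 0 ≤ c * C * I (fun x => tt Finset.univ (X.g u τ) x) := by positivity
    linarith
  obtain ⟨Z⟩ := hh.1 hl hB
  letI := Z.fδ
  obtain ⟨Km, hKm⟩ : ∃ Km : ℕ, del * Z.U.B0 ≤ 2 ^ Km := by
    obtain ⟨Km, hKm⟩ := pow_unbounded_of_one_lt (del * Z.U.B0) (one_lt_two)
    exact ⟨Km, hKm.le⟩
  have x0 := GS_le_c (gT_E X) Z.P Z.D (fun hs hp => Z.loc hs hp) n (X.self u τ Finset.univ).p (one Z.b₀)
    Z.ok
  rw [one_g Z.hb₀] at x0
  have x1 := H Z.D Z.hr Z.hQ Z.hJ hKm n (X.self u τ Finset.univ).p (one Z.b₀) Z.ok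
  have x2 := Z.e0 h0 h1 hKm n
  have x3 := Z.her n
  have x4 := Z.hS n
  have x5 := Z.y1
  have x6 := Z.y2
  have e1 : su (one Z.b₀) Z.U.tt = fun x => tt Finset.univ (X.g u τ) x :=
    funext fun x => by rw [one_su, Z.tot]
  have e3 : su (one Z.b₀) (Z.Q2.Y (X.self u τ Finset.univ).p) =
      Z.Q2.Y (X.self u τ Finset.univ).p Z.b₀ := funext fun x => by rw [one_su]
  rw [e1, e3] at x1
  simp only [] at x1
  set m := X.mu j₀ u τ Finset.univ + X.mu j₀ u τ Finset.univ * X.mu j₀ u τ Finset.univ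
  set T2 := I (fun x => tt Finset.univ (X.g u τ) x ^ 2)
  set T1 := I (fun x => tt Finset.univ (X.g u τ) x)
  have y0 : GW X n u τ ≤ c * Kr Z.R Z.rc n (X.self u τ Finset.univ).p (one Z.b₀) +
    Kw (bm Z.R) Z.er n (X.self u τ Finset.univ).p (one Z.b₀) := x0
  have y3 := mul_le_mul_of_nonneg_left x1 hc
  have y4 := mul_le_mul_of_nonneg_left x2 (mul_nonneg (by norm_num : (0:ℝ) ≤ 28) hc)
  have y5 := mul_le_mul_of_nonneg_left x4 (mul_nonneg (by norm_num : (0:ℝ) ≤ 28) hc)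
  have y6 := mul_le_mul_of_nonneg_left (add_le_add x5 x6) (mul_nonneg hc hC)
  have y7 := mul_le_mul_of_nonneg_right hεc I2
  nlinarith

/-- **S0004 from the data of the bundle level**, with a further prune `Sy` -/
theorem S0004_50n {θ : ℝ} (hθ : θ < 1 / 16) (hθ0 : 0 ≤ θ) {Sy : ℝ → ℝ → ℕ → (ℕ → ℝ) → Finset ℕ → Finset ℕ} {cS : ℝ}
    (hSy : ∀ γ C1 : ℝ, cS ≤ C1 → MassP (Sy γ C1))
    (hT : ForN ParT21.thF SxF fun N γ => Tgt50n N γ (fun X => InS Sy N γ X) θ) (γ : ℝ) (ψ : ℕ → ℝ)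
    (hψ : ∀ q, 0 ≤ ψ q) (hdiv : ¬ Summable fun q : ℕ => (Nat.totient q : ℝ) / q * ψ q) :
    ∀ᵐ x : ℝ, ∃ᶠ q : ℕ in atTop, |(q : ℝ) * x - γ - round ((q : ℝ) * x - γ)| < ψ q :=
  CrsFin26.S0004_topPB hSy (CrsG29.forN_mono hT fun N γ h =>
    tgtTopPB_ofW (gTopW_of_50n hθ hθ0 h)) γ ψ hψ hdiv

end Crest.Agent.R4P.GTn5
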