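import Crest.Agent.R4P.GTn_5
import Crest.Agent.R4P.BthL_48
import Crest.Agent.R4P.JnH_5
import Crest.Agent.R4P.AvgM_8

/-!
R4 (S0004) with powers, helper50 (PLAN v1, D3): **the export contract, final form**: averaged games,
births in the `L²` form, all error bounds for large step numbers, second order budgets `θ ∫ tot²`.

* `Mx_L` : the running maximum does not depend on the `L²` births; **`avg_msx3L`** : `AvgM8.avg_msx3`
  with `BthL48.BPay3L` (charges of the bundles only bounded on average, and only at the start state).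
* `ND1 X u τ c` : one game at one node (row system `R`, budgets `U`, group data `D`, births `L`, real
  costs `rc`, charges `Q1 Q2`, second order parts `S`, projection `pr`, start bundle `b₀`, the local
  link `loc`: `gT ≤ c ∫ rc + er`).
* `NDA X j₀ u τ J c a θ ϑ b` : a finite family of games with weights `ω` and **averaged** bounds, for all
  step numbers `n ≥ n0`.  `NDA.single` : one game.
* `Tgt50A`, **`gTopW_of_50A`**, **`S0004_50A`** (nodes which are not leaves).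
-/

set_option autoImplicit false
set_option linter.unusedSectionVars false
set_option linter.unusedVariables false

open MeasureTheory Filter

namespace Crest.Agent.R4P.GTopA50

open Crest.Agent.R4.Tour104 Crest.Agent.R4.Tour758 Crest.Agent.R4.Avg758 Crest.Agent.R4.Clos758
open Crest.Agent.R4.ClosL758 Crest.Agent.R4.ClosG758 Crest.Agent.R4.ClosR758
open Crest.Agent.R4.Fam464 Crest.Agent.R4P.Cnt588 Crest.Agent.R4P.Walk560 Crest.Agent.R4P.Item758
open Crest.Agent.R4.Soft104 Crest.Agent.R4.Max709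
open Crest.Agent.R4P.Bld532 (NS All NodeOk)
open Crest.Agent.R4P.Data758 Crest.Agent.R4P.SkelF29 Crest.Agent.R4P.Strip29
open Crest.Agent.R4P.Skel189 Crest.Agent.R4P.OSWS245 Crest.Agent.R4P.ParF5 Crest.Agent.R4P.Fin5
open Crest.Agent.R4P.NumX34
open Crest.Agent.R4P.FinE26 (ForN)
open Crest.Agent.R4P.SxT6 (MassP InS SyB SyB_mass)
open Crest.Agent.R4P.TopX36 Crest.Agent.R4P.PN36 Crest.Agent.R4P.Grp36 Crest.Agent.R4P.Xfer36
open Crest.Agent.R4P.TopC36
open Crest.Agent.R4P.FinEB25 Crest.Agent.R4P.TopG25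
open Crest.Agent.R4P.RSys343 Crest.Agent.R4P.RXm55 Crest.Agent.R4P.MSm25 Crest.Agent.R4P.PayR45
open Crest.Agent.R4P.Pay349 Crest.Agent.R4P.GSK55 Crest.Agent.R4P.GWa343 Crest.Agent.R4P.GWd343
open Crest.Agent.R4P.MSi343 (su)
open Crest.Agent.R4P.NumG23 (SxF NumG)
open Crest.Agent.R4P
open Crest.Agent.R4P.GTopW50 Crest.Agent.R4P.GTn5
open Crest.Agent.R4P.WalkIT579 (isL)
open Crest.Agent.R4P.Mrg35 (ctx_side)
open Crest.Agent.R4P.BthL48 Crest.Agent.R4P.AvgT8 Crest.Agent.R4P.AvgM8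
open Crest.Agent.R4P.ModeS16 (MS Mx)

/-! ### the averaged game with births in the `L²` form -/

section avg
open Crest.Agent.R4P.ModeS16 Crest.Agent.R4P.Pay45 Crest.Agent.R4P.GMer27 Crest.Agent.R4P.GCol27
open Crest.Agent.R4P.MSi343

/-- the running maximum does not see the births -/
theorem Mx_L {β δ : Type} [Fintype δ] {R : RXm β δ} {U : RBm R} {D : RGx U} (L : BL D) {del : ℝ}
    {Km : ℕ} (h0 : 0 < del) (h1 : del ≤ 1) (hK : del * U.B0 ≤ 2 ^ Km) (n p : ℕ) (s : Gs β) :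
    Mx (L.ms h0 h1 hK) n p (p, s) = Mx (D.ms h0 h1 hK) n p (p, s) :=
  Mx_congr (same_of_sim (fun _ s t => s = t) (fun {p s t} h => by subst h; rfl)
    (fun {p s t} h hp => by subst h; rfl) (fun {p s t} h hp => by subst h; rfl) n p _ _ rfl)

/-- **the game with averaged payments by the bundles**, births in the `L²` form -/
theorem avg_msx3L {ε J : ℝ} (hε : 0 < ε) (hJ : 0 ≤ J) :
    ∃ (del : ℝ) (h0 : 0 < del) (h1 : del ≤ 1) (C : ℝ), 0 ≤ C ∧
    ∀ {A : Type} [Fintype A] [Nonempty A] {ω : A → ℝ}, (∀ a, 0 ≤ ω a) → ∑ a, ω a = 1 →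
      ∀ {β δ : A → Type} [∀ a, Fintype (δ a)] {R : ∀ a, RXm (β a) (δ a)} {U : ∀ a, RBm (R a)}
      (D : ∀ a, RGx (U a)) (L : ∀ a, BL (D a)) {rc : ∀ a, ℕ → Gs (β a) → ℝ → ℝ},
      (∀ a, RCost (D a) (rc a)) → ∀ {Q1 Q2 : ∀ a, BCh (bm (R a))} {S : ∀ a, GSec (D a)},
      (∀ a, BPay3L (D a) (L a) (Q1 a) (Q2 a) (S a)) →
      ∀ {Km : A → ℕ} (hK : ∀ a, del * (U a).B0 ≤ 2 ^ Km a)
      (n p : ℕ) (s : ∀ a, Gs (β a)), (∀ a, (D a).ok p (s a)) →
      ∀ {T Mm : ℝ → ℝ}, (∀ a, su (s a) (U a).tt = T) →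
      (∀ a, Mx ((D a).ms h0 h1 (hK a)) n p (p, s a) = Mm) →
      (∀ x, ∑ a, ω a * su (s a) ((Q1 a).Y p) x ≤ J * T x) →
      ∑ a, ω a * Kr (R a) (rc a) n p (s a) ≤ ε * I (fun x => T x ^ 2) + C * I T +
        28 * ∑ a, ω a * Pay45.E0 ((D a).ms h0 h1 (hK a)) n p (p, s a) +
        28 * ∑ a, ω a * Sg (S a) n p (s a) +
        C * ∑ a, ω a * (I (su (s a) ((Q2 a).Y p)) + I (fun x => su (s a) ((Q2 a).Y p) x ^ 2)) := by
  obtain ⟨del, h0, h1, h2⟩ := exists_delJ (ε := ε / 28) (J := J) (by positivity) hJ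
  have L0 := ModeR16.Ld_pos h0
  -- the parameter of the Cauchy-Schwarz form
  obtain ⟨l, hl, hl2⟩ : ∃ l : ℝ, 0 < l ∧ 56 * del * l ≤ ε / 2 :=
    ⟨ε / (2 * (56 * del)), by positivity, le_of_eq (by field_simp)⟩
  refine ⟨del, h0, h1, 28 * (ModeR16.Ld del + J) + 28 + 56 * del * (1 / l), by positivity, ?_⟩
  intro A _ _ ω hω h1ω β δ _ R U D L rc hr Q1 Q2 S hQ Km hK n p s hs T Mm hT hM hY
  set A2 := I (fun x => T x ^ 2) with hA2
  set A1 := I T with hA1
  set P1 : ∀ a, Chg ((L a).ms h0 h1 (hK a)) := fun a => (Q1 a).chg ((L a).ovr h0 h1 (hK a)) with hP1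
  set P2 : ∀ a, Chg ((L a).ms h0 h1 (hK a)) := fun a => (Q2 a).chg ((L a).ovr h0 h1 (hK a)) with hP2
  -- one game
  have one : ∀ a, Kr (R a) (rc a) n p (s a) ≤
      14 * (8 * (del * ModeR16.Ld del) * A2 + 2 * ModeR16.Ld del * A1) +
      28 * Pay45.E0 ((D a).ms h0 h1 (hK a)) n p (p, s a) + 28 * WS (P1 a) n p (p, s a) +
      28 * Sg (S a) n p (s a) +
      28 * (I (su (s a) ((Q2 a).Y p)) +
        2 * del * (l * A2 + 1 / l * I (fun x => su (s a) ((Q2 a).Y p) x ^ 2))) := by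
    intro a
    have hxx : ∀ {k p : ℕ} {t : ℕ × Gs (β a)}, ((L a).ms h0 h1 (hK a)).ok p t → p ≠ 0 → ∀ y,
        Ep p (((L a).ms h0 h1 (hK a)).ex k p t) y ≤
        4 * Ep p (((L a).ms h0 h1 (hK a)).GT p t) y ^ 2 +
          2 ^ k * ((P1 a).yc p t y + (P2 a).yc p t y) +
          ((L a).sec h0 h1 (hK a) (S a)).rc p t y := by
      intro k p t ht hp y
      have hp0 : 0 < p := Nat.pos_of_ne_zero hp
      obtain ⟨q, s⟩ := t
      have hq : q = p := ht.1
      subst hq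
      have a1 := RXm.ex_le (two_pos' k) ((D a).gk ht.2) hp y
      have a2 := (hQ a).hc (k := k) ht.2 hp y
      have b1 : Ep q (((L a).ms h0 h1 (hK a)).ex k q (q, s)) y =
          (Ep q ((R a).ex (2 ^ k) q s) y - 14 * (2 ^ k * Ep q (su s ((L a).eL (2 ^ k) q)) y)) +
          ((Ep q ((D a).brB (2 ^ k) q s) y + (Ep q ((L a).qp (2 ^ k) q s) y +
            14 * (2 ^ k * Ep q (su s ((L a).los (2 ^ k) q)) y))) +
            14 * (2 ^ k * Ep q ((D a).asB (2 ^ k) q s) y)) := by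
        have e0 : ((L a).ms h0 h1 (hK a)).ex k q (q, s) = fun x =>
          ((R a).ex (2 ^ k) q s x - 14 * (2 ^ k * su s ((L a).eL (2 ^ k) q) x)) +
          (((D a).brB (2 ^ k) q s x + ((L a).qp (2 ^ k) q s x +
            14 * (2 ^ k * su s ((L a).los (2 ^ k) q) x))) +
          14 * (2 ^ k * (D a).asB (2 ^ k) q s x)) := rfl
        rw [e0]
        rw [Ep_add' (fun x => (R a).ex (2 ^ k) q s x - 14 * (2 ^ k * su s ((L a).eL (2 ^ k) q) x))
          (fun x => ((D a).brB (2 ^ k) q s x + ((L a).qp (2 ^ k) q s x +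
            14 * (2 ^ k * su s ((L a).los (2 ^ k) q) x))) + 14 * (2 ^ k * (D a).asB (2 ^ k) q s x)),
          Ep_sub' ((R a).ex (2 ^ k) q s) (fun x => 14 * (2 ^ k * su s ((L a).eL (2 ^ k) q) x)),
          Ep_add' (fun x => (D a).brB (2 ^ k) q s x + ((L a).qp (2 ^ k) q s x +
            14 * (2 ^ k * su s ((L a).los (2 ^ k) q) x)))
            (fun x => 14 * (2 ^ k * (D a).asB (2 ^ k) q s x)),
          Ep_add' ((D a).brB (2 ^ k) q s) (fun x => (L a).qp (2 ^ k) q s x +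
            14 * (2 ^ k * su s ((L a).los (2 ^ k) q) x)),
          Ep_add' ((L a).qp (2 ^ k) q s) (fun x => 14 * (2 ^ k * su s ((L a).los (2 ^ k) q) x)),
          Ep_smul' 14, Ep_smul' 14, Ep_smul' 14, Ep_smul' (2 ^ k), Ep_smul' (2 ^ k),
          Ep_smul' (2 ^ k)]
      rw [b1]
      have hs' := (D a).gk ht.2
      have c1 : Ep q ((R a).GT q s) y ≤ Ep q (((L a).ms h0 h1 (hK a)).GT q (q, s)) y := by
        unfold Ep
        refine div_le_div_of_nonneg_right (Finset.sum_le_sum fun i _ => ?_) (Nat.cast_nonneg q)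
        show (R a).GT q s _ ≤ (R a).GT q s _ + su s ((U a).gU q) _
        have := (PB_su hs'.1 fun j => (U a).pgU (hs'.2 j) hp).nonneg ((y + (i:ℝ)) / q)
        linarith
      have c2 : 0 ≤ Ep q ((R a).GT q s) y := ((RXm.PB_GT hs' hp).Ep hp0).nonneg y
      have c3 := pow_le_pow_left₀ c2 c1 2
      have c4 : 0 ≤ Ep q ((R a).GT q s) y ^ 2 := by positivity
      have c5 : ((L a).sec h0 h1 (hK a) (S a)).rc q (q, s) y = (S a).rc q s y := rfl
      have c6 : (P1 a).yc q (q, s) y = su s ((Q1 a).yc q) y := rfl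
      have c7 : (P2 a).yc q (q, s) y = su s ((Q2 a).yc q) y := rfl
      rw [c5, c6, c7]
      linarith
    have hbb : ∀ {k p : ℕ} {t : ℕ × Gs (β a)}, ((L a).ms h0 h1 (hK a)).ok p t → p ≠ 0 → ∀ x,
        ((L a).ms h0 h1 (hK a)).br k p t x ≤ 2 ^ k * ((P1 a).yx p t x + (P2 a).yx p t x) +
          ((L a).sec h0 h1 (hK a) (S a)).rx p t x := by
      intro k p t ht hp x
      obtain ⟨q, s⟩ := t
      have hq : q = p := ht.1
      subst hq
      exact (hQ a).hb (k := k) ht.2 hp x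
    have hok : ((L a).ms h0 h1 (hK a)).ok p (p, s a) := ⟨rfl, hs a⟩
    have k1 := main_root (w := (L a).ms h0 h1 (hK a)) n p (p, s a) hok
    have k2 := E_le3 (addC (P1 a) (P2 a)) ((L a).sec h0 h1 (hK a) (S a)) hxx hbb n p (p, s a) hok
    have k4 := WS_le_cs (P2 a) hl n p (p, s a) hok
    have k5 := Kr_le (D a) (hr a) h0 h1 (hK a) n p (s a) (hs a)
    have e1 : ((L a).ms h0 h1 (hK a)).T (p, s a) = T := hT a
    have e2 : ((L a).ms h0 h1 (hK a)).del = del := rfl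
    have e5 : (P2 a).Y p (p, s a) = su (s a) ((Q2 a).Y p) := rfl
    rw [WS_add (P1 a) (P2 a) n p (p, s a) hok, (L a).S2_eq, (L a).E0_eq] at k2
    rw [(L a).K_eq] at k1
    rw [e1, e2] at k1 k4
    rw [e5] at k4
    rw [← hA2] at k1 k4
    rw [← hA1] at k1
    linarith
  -- the average of the charges
  have av := avg_WS P1 hω (d := del) (fun a => rfl) (n := n) (p := p)
    (t := fun a => (p, s a)) (fun a => ⟨rfl, hs a⟩) (T := T) (fun a => hT a)
    (Mm := Mm) (fun a => by rw [Mx_L]; exact hM a) hJ hY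
  rw [← hA2, ← hA1] at av
  have sum1 : ∑ a, ω a * Kr (R a) (rc a) n p (s a) ≤ ∑ a, ω a *
      (14 * (8 * (del * ModeR16.Ld del) * A2 + 2 * ModeR16.Ld del * A1) +
      28 * Pay45.E0 ((D a).ms h0 h1 (hK a)) n p (p, s a) + 28 * WS (P1 a) n p (p, s a) +
      28 * Sg (S a) n p (s a) +
      28 * (I (su (s a) ((Q2 a).Y p)) +
        2 * del * (l * A2 + 1 / l * I (fun x => su (s a) ((Q2 a).Y p) x ^ 2)))) :=
    Finset.sum_le_sum fun a _ => mul_le_mul_of_nonneg_left (one a) (hω a)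
  have e3 : ∑ a, ω a *
      (14 * (8 * (del * ModeR16.Ld del) * A2 + 2 * ModeR16.Ld del * A1) +
      28 * Pay45.E0 ((D a).ms h0 h1 (hK a)) n p (p, s a) + 28 * WS (P1 a) n p (p, s a) +
      28 * Sg (S a) n p (s a) +
      28 * (I (su (s a) ((Q2 a).Y p)) +
        2 * del * (l * A2 + 1 / l * I (fun x => su (s a) ((Q2 a).Y p) x ^ 2)))) =
      (14 * (8 * (del * ModeR16.Ld del) * A2 + 2 * ModeR16.Ld del * A1) +
        56 * del * l * A2) +
      28 * ∑ a, ω a * Pay45.E0 ((D a).ms h0 h1 (hK a)) n p (p, s a) +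
      28 * ∑ a, ω a * WS (P1 a) n p (p, s a) +
      28 * ∑ a, ω a * Sg (S a) n p (s a) +
      (28 * ∑ a, ω a * I (su (s a) ((Q2 a).Y p)) + 56 * del * (1 / l) *
        ∑ a, ω a * I (fun x => su (s a) ((Q2 a).Y p) x ^ 2)) := by
    have c0 : (14 * (8 * (del * ModeR16.Ld del) * A2 + 2 * ModeR16.Ld del * A1) +
        56 * del * l * A2) = ∑ a, ω a *
        (14 * (8 * (del * ModeR16.Ld del) * A2 + 2 * ModeR16.Ld del * A1) +
        56 * del * l * A2) := by rw [← Finset.sum_mul, h1ω, one_mul]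
    rw [c0]
    simp only [Finset.mul_sum]
    rw [← Finset.sum_add_distrib, ← Finset.sum_add_distrib, ← Finset.sum_add_distrib,
      ← Finset.sum_add_distrib, ← Finset.sum_add_distrib]
    exact Finset.sum_congr rfl fun a _ => by ring
  rw [e3] at sum1
  -- constants
  have h3 : 0 ≤ A2 := I_nonneg fun x => sq_nonneg _
  obtain ⟨a₀⟩ := ‹Nonempty A›
  have h6 : 0 ≤ A1 := by
    rw [hA1, ← hT a₀]
    exact I_nonneg fun x => ((U a₀).PB_tt ((D a₀).gk (hs a₀))).nonneg x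
  have h4 := mul_le_mul_of_nonneg_right h2 h3
  have h9 := mul_le_mul_of_nonneg_right hl2 h3
  have h7 : 0 ≤ ∑ a, ω a * I (su (s a) ((Q2 a).Y p)) := Finset.sum_nonneg fun a _ =>
    mul_nonneg (hω a) (I_nonneg fun x => ((P2 a).pY
      (show ((L a).ms h0 h1 (hK a)).ok p (p, s a) from ⟨rfl, hs a⟩)).nonneg x)
  have h8 : 0 ≤ ∑ a, ω a * I (fun x => su (s a) ((Q2 a).Y p) x ^ 2) :=
    Finset.sum_nonneg fun a _ => mul_nonneg (hω a) (I_nonneg fun x => sq_nonneg _)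
  have e9 : ∑ a, ω a * (I (su (s a) ((Q2 a).Y p)) + I (fun x => su (s a) ((Q2 a).Y p) x ^ 2)) =
      ∑ a, ω a * I (su (s a) ((Q2 a).Y p)) +
      ∑ a, ω a * I (fun x => su (s a) ((Q2 a).Y p) x ^ 2) := by
    rw [← Finset.sum_add_distrib]
    exact Finset.sum_congr rfl fun a _ => by ring
  rw [e9]
  set Y1 := ∑ a, ω a * I (su (s a) ((Q2 a).Y p))
  set Y2 := ∑ a, ω a * I (fun x => su (s a) ((Q2 a).Y p) x ^ 2)
  set W1 := ∑ a, ω a * WS (P1 a) n p (p, s a)
  set E1 := ∑ a, ω a * Pay45.E0 ((D a).ms h0 h1 (hK a)) n p (p, s a)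
  set S1 := ∑ a, ω a * Sg (S a) n p (s a)
  have n1 : 0 ≤ 56 * del * (1 / l) := by positivity
  have n2 : 0 ≤ 28 * (ModeR16.Ld del + J) := by positivity
  have k1 := mul_nonneg n1 h6
  have k2 := mul_nonneg n1 h7
  have k3 := mul_nonneg n2 h7
  have k4 := mul_nonneg n2 h8
  have k5 : 28 * W1 ≤ 28 * (J * (A1 + 4 * del * A2)) := by linarith
  have f1 : 14 * (8 * (del * ModeR16.Ld del) * A2 + 2 * ModeR16.Ld del * A1) +
      28 * (J * (A1 + 4 * del * A2)) =
      14 * (8 * (del * (ModeR16.Ld del + J)) * A2) + 28 * (ModeR16.Ld del + J) * A1 := by ring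
  have f2 : 14 * (8 * (del * (ModeR16.Ld del + J)) * A2) ≤ ε / 2 * A2 := by linarith
  have f3 : (28 * (ModeR16.Ld del + J) + 28 + 56 * del * (1 / l)) * A1 =
    28 * (ModeR16.Ld del + J) * A1 + 28 * A1 + 56 * del * (1 / l) * A1 := by ring
  have f4 : (28 * (ModeR16.Ld del + J) + 28 + 56 * del * (1 / l)) * (Y1 + Y2) =
    28 * (ModeR16.Ld del + J) * Y1 + 28 * (ModeR16.Ld del + J) * Y2 + 28 * Y1 + 28 * Y2 +
      56 * del * (1 / l) * Y1 + 56 * del * (1 / l) * Y2 := by ring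
  rw [f3, f4]
  linarith

end avg

/-! ### no births in the `L²` form -/

section zero
open Crest.Agent.R4P.ModeS16 Crest.Agent.R4P.Pay45 Crest.Agent.R4P.GMer27 Crest.Agent.R4P.GCol27
open Crest.Agent.R4P.MSi343

variable {β δ : Type} [Fintype δ] {R : RXm β δ} {U : RBm R}

/-- no births in the `L²` form -/
noncomputable def BL0 (D : RGx U) : BL D where
  eL := fun _ _ _ _ => 0
  g2 := fun _ _ _ _ _ => 0
  los := fun _ _ _ _ => 0
  qp := fun _ _ _ _ => 0
  peL := fun _ _ _ => PB.const le_rfl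
  pg2 := fun _ _ _ _ => PB.const le_rfl
  plos := fun _ _ _ => PB.const le_rfl
  pqp := fun _ _ _ => PB.const le_rfl
  eLe := fun {σ p b} hσ hb hp x => (R.sok hb hp hσ).pe.nonneg x
  g2le := fun {σ p b} hσ hb hp z x => by
    have := (R.sok hb hp hσ).le z x
    simpa using this
  lose := fun {σ p b} hσ hb hp x => by simp
  price := fun {σ p s} hσ hs hp x => by
    have e : R.PtP σ p s x = RXm.pot σ s (fun b z x => min (R.hP p b z x) σ - 0) x := by
      unfold RXm.PtP RXm.hPk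
      simp only [sub_zero]
    rw [e, add_zero]

/-- the payments of `Pay349` are payments without `L²` births -/
theorem BPay3.toL {D : RGx U} {Q1 Q2 : BCh (bm R)} {S : GSec D} (h : BPay3 D Q1 Q2 S) :
    BPay3L D (BL0 D) Q1 Q2 S where
  hc := fun {k p s} hs hp y => by
    have h1 := h.hc (k := k) hs hp y
    have e1 : Ep p (su s ((BL0 D).eL (2 ^ k) p)) y = 0 := by
      unfold Ep su M
      simp [BL0]
    have e2 : Ep p (su s ((BL0 D).los (2 ^ k) p)) y = 0 := by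
      unfold Ep su M
      simp [BL0]
    have e3 : Ep p ((BL0 D).qp (2 ^ k) p s) y = 0 := by
      unfold Ep
      simp [BL0]
    rw [e1, e2, e3]
    linarith
  hb := fun {k p s} hs hp x => h.hb hs hp x

end zero

/-! ### the export at one node -/

variable {N : Skel189.Num} {γ : ℝ} {p0 P₀ : ℕ}

/-- **one game at one node** -/
structure ND1 (X : Ctx N γ p0 P₀) (u : NS) (τ : IT) (c : ℝ) where
  /-- bundles -/
  β : Type
  /-- classes -/
  δ : Type
  fδ : Fintype δ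
  R : RXm β δ
  U : RBm R
  D : RGx U
  /-- births in the `L²` form (`L = 0` if there are none) -/
  L : BL D
  /-- real costs -/
  rc : ℕ → Gs β → ℝ → ℝ
  hr : RCost D rc
  /-- linear charges of the bundles -/
  Q1 : BCh (bm R)
  /-- Cauchy-Schwarz charges of the bundles -/
  Q2 : BCh (bm R)
  /-- second order parts -/
  S : GSec D
  hQ : BPay3L D L Q1 Q2 S
  /-- projection to the bundles of trees -/
  pr : β → List (DT X.c.Lam (LbX X))
  P : Pr (bm R) pr
  /-- the start bundle -/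
  b₀ : β
  hb₀ : pr b₀ = [(X.self u τ Finset.univ).t]
  ok : D.ok (X.self u τ Finset.univ).p (one b₀)
  /-- the total of the start bundle is the total of the node -/
  tot : ∀ x, U.tt b₀ x = tt Finset.univ (X.g u τ) x
  /-- E3 and cross terms -/
  er : ℕ → Gs β → ℝ
  /-- **the local link** (D1) -/
  loc : ∀ {p s}, D.ok p s → p ≠ 0 → gT X p (gBs p (stp pr s)) ≤ c * I (rc p s) + er p s

attribute [instance] ND1.fδ

/-- **a family of games at one node, with averaged bounds** -/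
structure NDA (X : Ctx N γ p0 P₀) (j₀ : X.c.Lam) (u : NS) (τ : IT) (J c a θ ϑ : ℝ) (b : ℝ → ℝ) where
  /-- the choices of the thresholds -/
  A : Type
  fA : Fintype A
  nA : Nonempty A
  /-- the weights of the choices -/
  ω : A → ℝ
  ω0 : ∀ i, 0 ≤ ω i
  ω1 : ∑ i, ω i = 1
  /-- the games -/
  G : A → ND1 X u τ c
  /-- the running maximum does not depend on the game (`mx_of` below) -/
  mx : ∀ (i j : A) {del : ℝ} {Km Km' : ℕ} (h0 : 0 < del) (h1 : del ≤ 1)
    (hK : del * (G i).U.B0 ≤ 2 ^ Km) (hK' : del * (G j).U.B0 ≤ 2 ^ Km') (n : ℕ),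
    Mx ((G i).D.ms h0 h1 hK) n (X.self u τ Finset.univ).p ((X.self u τ Finset.univ).p, one (G i).b₀) =
    Mx ((G j).D.ms h0 h1 hK') n (X.self u τ Finset.univ).p ((X.self u τ Finset.univ).p, one (G j).b₀)
  /-- total rate of the linear charges of the start bundle, on average -/
  hJ : ∀ x, ∑ i, ω i * (G i).Q1.Y (X.self u τ Finset.univ).p (G i).b₀ x ≤
    J * tt Finset.univ (X.g u τ) x
  /-- all bounds are only needed for large step numbers -/
  n0 : ℕ
  /-- the walk sum of E3 and of the cross terms -/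
  her : ∀ n, n0 ≤ n → ∑ i, ω i * Kw (bm (G i).R) (G i).er n (X.self u τ Finset.univ).p (one (G i).b₀) ≤
    a * (X.mu j₀ u τ Finset.univ + X.mu j₀ u τ Finset.univ * X.mu j₀ u τ Finset.univ) +
    (θ + a * ϑ) * I (fun x => tt Finset.univ (X.g u τ) x ^ 2)
  /-- the remaining error (leaves, in-member joins, second order of the lifts) -/
  e0 : ∀ {del : ℝ} {Km : A → ℕ} (h0 : 0 < del) (h1 : del ≤ 1)
    (hK : ∀ i, del * (G i).U.B0 ≤ 2 ^ Km i) (n : ℕ), n0 ≤ n →
    ∑ i, ω i * Pay45.E0 ((G i).D.ms h0 h1 (hK i)) n (X.self u τ Finset.univ).p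
        ((X.self u τ Finset.univ).p, one (G i).b₀) ≤
      b del * (X.mu j₀ u τ Finset.univ + X.mu j₀ u τ Finset.univ * X.mu j₀ u τ Finset.univ) +
      b del * ϑ * I (fun x => tt Finset.univ (X.g u τ) x ^ 2)
  /-- the second order parts of the payments -/
  hS : ∀ n, n0 ≤ n → ∑ i, ω i * Sg (G i).S n (X.self u τ Finset.univ).p (one (G i).b₀) ≤
    a * (X.mu j₀ u τ Finset.univ + X.mu j₀ u τ Finset.univ * X.mu j₀ u τ Finset.univ) +
    a * ϑ * I (fun x => tt Finset.univ (X.g u τ) x ^ 2)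
  /-- the root mass and energy of the Cauchy-Schwarz charges -/
  hy : ∑ i, ω i * (I ((G i).Q2.Y (X.self u τ Finset.univ).p (G i).b₀) +
      I (fun x => (G i).Q2.Y (X.self u τ Finset.univ).p (G i).b₀ x ^ 2)) ≤
    a * (X.mu j₀ u τ Finset.univ + X.mu j₀ u τ Finset.univ * X.mu j₀ u τ Finset.univ) +
    a * ϑ * I (fun x => tt Finset.univ (X.g u τ) x ^ 2)

/-- the field `mx` for games over the same bundle maps -/
theorem mx_of {β δ δ' : Type} [Fintype δ] [Fintype δ'] {R : RXm β δ} {U : RBm R} {R' : RXm β δ'}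
    {U' : RBm R'} (D : RGx U) (D' : RGx U') (hP : R.cP = R'.cP) (hN : R.cN = R'.cN)
    (hr : R.rN = R'.rN) (htt : U.tt = U'.tt) {del : ℝ} {Km Km' : ℕ} (h0 : 0 < del) (h1 : del ≤ 1)
    (hK : del * U.B0 ≤ 2 ^ Km) (hK' : del * U'.B0 ≤ 2 ^ Km') (n p : ℕ) (s : Gs β) :
    Mx (D.ms h0 h1 hK) n p (p, s) = Mx (D'.ms h0 h1 hK') n p (p, s) :=
  Mx_ms D D' hP hN hr htt h0 h1 hK hK' n p s

/-- **one game** -/
def NDA.single {X : Ctx N γ p0 P₀} {j₀ : X.c.Lam} {u : NS} {τ : IT} {J c a θ ϑ : ℝ} {b : ℝ → ℝ}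
    (G : ND1 X u τ c)
    (hJ : ∀ x, G.Q1.Y (X.self u τ Finset.univ).p G.b₀ x ≤ J * tt Finset.univ (X.g u τ) x)
    (n0 : ℕ)
    (her : ∀ n, n0 ≤ n → Kw (bm G.R) G.er n (X.self u τ Finset.univ).p (one G.b₀) ≤
      a * (X.mu j₀ u τ Finset.univ + X.mu j₀ u τ Finset.univ * X.mu j₀ u τ Finset.univ) +
      (θ + a * ϑ) * I (fun x => tt Finset.univ (X.g u τ) x ^ 2))
    (e0 : ∀ {del : ℝ} {Km : ℕ} (h0 : 0 < del) (h1 : del ≤ 1) (hK : del * G.U.B0 ≤ 2 ^ Km) (n : ℕ),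
      n0 ≤ n → Pay45.E0 (G.D.ms h0 h1 hK) n (X.self u τ Finset.univ).p
        ((X.self u τ Finset.univ).p, one G.b₀) ≤
      b del * (X.mu j₀ u τ Finset.univ + X.mu j₀ u τ Finset.univ * X.mu j₀ u τ Finset.univ) +
      b del * ϑ * I (fun x => tt Finset.univ (X.g u τ) x ^ 2))
    (hS : ∀ n, n0 ≤ n → Sg G.S n (X.self u τ Finset.univ).p (one G.b₀) ≤
      a * (X.mu j₀ u τ Finset.univ + X.mu j₀ u τ Finset.univ * X.mu j₀ u τ Finset.univ) +
      a * ϑ * I (fun x => tt Finset.univ (X.g u τ) x ^ 2))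
    (hy : I (G.Q2.Y (X.self u τ Finset.univ).p G.b₀) +
        I (fun x => G.Q2.Y (X.self u τ Finset.univ).p G.b₀ x ^ 2) ≤
      a * (X.mu j₀ u τ Finset.univ + X.mu j₀ u τ Finset.univ * X.mu j₀ u τ Finset.univ) +
      a * ϑ * I (fun x => tt Finset.univ (X.g u τ) x ^ 2)) : NDA X j₀ u τ J c a θ ϑ b where
  A := Unit
  fA := inferInstance
  nA := inferInstance
  ω := fun _ => 1
  ω0 := fun _ => zero_le_one
  ω1 := by simp
  G := fun _ => G
  mx := fun i j {del Km Km'} h0 h1 hK hK' n =>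
    Mx_ms G.D G.D rfl rfl rfl rfl h0 h1 hK hK' n _ _
  hJ := fun x => by simpa using hJ x
  n0 := n0
  her := fun n hn => by simpa using her n hn
  e0 := fun {del Km} h0 h1 hK n hn => by
    have := e0 h0 h1 (hK ()) n hn
    simpa using this
  hS := fun n hn => by simpa using hS n hn
  hy := by simpa using hy

/-- **the data exist at all the nodes with the bootstrap hypothesis which are not leaves**; the second
order budget `ϑ` is arbitrarily small -/
def Tgt50A (N : Skel189.Num) (γ : ℝ) (P : ∀ {p0 P₀ : ℕ} (X : Ctx N γ p0 P₀), Prop) (θ : ℝ) : Prop :=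
  ∃ (J c a : ℝ) (b : ℝ → ℝ), 0 ≤ J ∧ 0 ≤ c ∧ 0 ≤ a ∧ (∀ del, 0 ≤ b del) ∧
    ∀ M : ℝ, 0 ≤ M → ∀ ϑ : ℝ, 0 < ϑ → Ev N γ fun p0 P₀ X => CF X → P X → ∀ (j₀ : X.c.Lam) (Kb : ℝ),
    0 ≤ Kb → Kb ≤ M * Real.log p0 ^ M →
    All (fun u τ => ¬ isL τ → BootF X j₀ (fun _ _ => 0) Kb u τ →
      Nonempty (NDA X j₀ u τ J c a θ ϑ b)) ⟨top X.S, 1, 1, 1⟩ X.c.t

/-- the group walk grows with the number of steps -/
theorem GS_mono_n {Λ κ : Type} [Fintype Λ] [DecidableEq Λ] [Fintype κ] [DecidableEq κ]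
    {loc : ℕ → Gp Λ κ → ℝ} (h : ∀ p g, 0 ≤ loc p g) :
    ∀ (n m p : ℕ) (g : Gp Λ κ), n ≤ m → GS loc n p g ≤ GS loc m p g := by
  have h0 : ∀ (n p : ℕ) (g : Gp Λ κ), 0 ≤ GS loc n p g := by
    intro n
    induction n with
    | zero => intro p g; exact le_rfl
    | succ n ih =>
      intro p g
      show 0 ≤ if p = 0 then 0 else loc p (gB p g) + GS loc n p (gC p g) + GS loc n (p - 1) (gR p g)
      split_ifs
      · exact le_rfl
      · exact add_nonneg (add_nonneg (h _ _) (ih _ _)) (ih _ _)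
  intro n
  induction n with
  | zero => intro m p g _; exact h0 m p g
  | succ n ih =>
    intro m p g hm
    obtain ⟨m, rfl⟩ : ∃ k, m = k + 1 := ⟨m - 1, by omega⟩
    show (if p = 0 then 0 else loc p (gB p g) + GS loc n p (gC p g) + GS loc n (p - 1) (gR p g)) ≤
      if p = 0 then 0 else loc p (gB p g) + GS loc m p (gC p g) + GS loc m (p - 1) (gR p g)
    split_ifs
    · exact le_rfl
    · exact add_le_add (add_le_add le_rfl (ih m _ _ (by omega))) (ih m _ _ (by omega))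

lemma GW_mono_n (X : Ctx N γ p0 P₀) {n m : ℕ} (h : n ≤ m) (u : NS) (τ : IT) :
    GW X n u τ ≤ GW X m u τ :=
  GS_mono_n (fun p g => I_nonneg fun x => Finset.sum_nonneg fun z _ => sq_nonneg _) n m _ _ h

/-- **the group walks from the data** -/
theorem gTopW_of_50A {ε θ : ℝ} (hε : θ < ε) (hθ0 : 0 ≤ θ)
    {P : ∀ {p0 P₀ : ℕ} (X : Ctx N γ p0 P₀), Prop} (h : Tgt50A N γ P θ) : GTopW ε N γ P := by
  obtain ⟨J, c, a, b, hJ, hc, ha, hb, h⟩ := h
  have hεθ : 0 < ε - θ := by linarith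
  obtain ⟨del, h0, h1, C, hC, H⟩ := avg_msx3L (ε := (ε - θ) / 2 / (c + 1)) (J := J) (by positivity) hJ
  have hεc : c * ((ε - θ) / 2 / (c + 1)) ≤ (ε - θ) / 2 := by
    rw [mul_div_assoc', div_le_iff₀ (by linarith)]
    nlinarith
  have hbd := hb del
  -- the second order budget
  set W : ℝ := a + c * (28 * b del + 28 * a + C * a) with hW
  have hW0 : 0 ≤ W := by positivity
  have hϑ : 0 < (ε - θ) / 2 / (W + 1) := by positivity
  have hWϑ : W * ((ε - θ) / 2 / (W + 1)) ≤ (ε - θ) / 2 := by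
    rw [mul_div_assoc', div_le_iff₀ (by linarith)]
    nlinarith
  refine gTopW_of_game ⟨a + c * (28 * b del + 28 * a + C * a), c * C, 0, by positivity,
    by positivity, le_rfl, fun M hM => ?_⟩
  refine (h M hM _ hϑ).mono fun p0 P₀ X hh hC' hP j₀ Kb k1 k2 => ?_
  refine All.mono (fun u τ hh hB n => ?_)
    ((hh hC' hP j₀ Kb k1 k2).and ((ctx_mumu X j₀).and (ctx_side X j₀)))
  have I2 : 0 ≤ I (fun x => tt Finset.univ (X.g u τ) x ^ 2) := I_nonneg fun x => sq_nonneg _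
  have e2 : X.g u τ = (X.self u τ Finset.univ).t.g :=
    (Item758.Par.toDT_g (X.c.D.par X.Y) X.c.sp τ u.B u.A).symm
  have I1 : 0 ≤ I (fun x => tt Finset.univ (X.g u τ) x) :=
    I_nonneg fun x => Finset.sum_nonneg fun j _ => by
      rw [rv_univ, e2]
      exact (hh.2.2.2.ok.pb j).nonneg x
  have m1 := (hh.2.1 Finset.univ).1
  have m2 := (hh.2.1 Finset.univ).2
  by_cases hl : isL τ
  · rw [GW_leaf X n u hl]
    have x7 : 0 ≤ ε * I (fun x => tt Finset.univ (X.g u τ) x ^ 2) :=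
      mul_nonneg (hθ0.trans hε.le) I2
    have x8 : 0 ≤ (a + c * (28 * b del + 28 * a + C * a)) * (X.mu j₀ u τ Finset.univ +
        X.mu j₀ u τ Finset.univ * X.mu j₀ u τ Finset.univ) := by positivity
    have x9 : 0 ≤ c * C * I (fun x => tt Finset.univ (X.g u τ) x) := by positivity
    linarith
  obtain ⟨Z⟩ := hh.1 hl hB
  let _ := Z.fA
  let _ := Z.nA
  set n' := max n Z.n0 with hn'
  have hn0 : Z.n0 ≤ n' := le_max_right _ _
  choose Km hKm using fun i : Z.A => show ∃ Km : ℕ, del * (Z.G i).U.B0 ≤ 2 ^ Km from by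
    obtain ⟨Km, hKm⟩ := pow_unbounded_of_one_lt (del * (Z.G i).U.B0) (one_lt_two)
    exact ⟨Km, hKm.le⟩
  -- every game bounds the group walk
  have x0 : ∀ i : Z.A, GW X n u τ ≤ c * Kr (Z.G i).R (Z.G i).rc n' (X.self u τ Finset.univ).p
      (one (Z.G i).b₀) + Kw (bm (Z.G i).R) (Z.G i).er n' (X.self u τ Finset.univ).p
      (one (Z.G i).b₀) := fun i => by
    have y := GS_le_c (gT_E X) (Z.G i).P (Z.G i).D (fun hs hp => (Z.G i).loc hs hp) n'
      (X.self u τ Finset.univ).p (one (Z.G i).b₀) (Z.G i).ok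
    rw [one_g (Z.G i).hb₀] at y
    exact (GW_mono_n X (le_max_left _ _) u τ).trans y
  have x00 : GW X n u τ ≤ c * ∑ i, Z.ω i * Kr (Z.G i).R (Z.G i).rc n' (X.self u τ Finset.univ).p
      (one (Z.G i).b₀) + ∑ i, Z.ω i * Kw (bm (Z.G i).R) (Z.G i).er n' (X.self u τ Finset.univ).p
      (one (Z.G i).b₀) := by
    have y : ∑ i, Z.ω i * GW X n u τ ≤ ∑ i, Z.ω i * (c * Kr (Z.G i).R (Z.G i).rc n'
        (X.self u τ Finset.univ).p (one (Z.G i).b₀) + Kw (bm (Z.G i).R) (Z.G i).er n'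
        (X.self u τ Finset.univ).p (one (Z.G i).b₀)) :=
      Finset.sum_le_sum fun i _ => mul_le_mul_of_nonneg_left (x0 i) (Z.ω0 i)
    rw [← Finset.sum_mul, Z.ω1, one_mul] at y
    refine y.trans (le_of_eq ?_)
    rw [Finset.mul_sum, ← Finset.sum_add_distrib]
    exact Finset.sum_congr rfl fun i _ => by ring
  obtain ⟨i₀⟩ := Z.nA
  have e1 : ∀ i, su (one (Z.G i).b₀) (Z.G i).U.tt = fun x => tt Finset.univ (X.g u τ) x :=
    fun i => funext fun x => by rw [one_su, (Z.G i).tot]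
  have e3 : ∀ i, su (one (Z.G i).b₀) ((Z.G i).Q2.Y (X.self u τ Finset.univ).p) =
      (Z.G i).Q2.Y (X.self u τ Finset.univ).p (Z.G i).b₀ := fun i => funext fun x => by rw [one_su]
  have x1 := H Z.ω0 Z.ω1 (fun i => (Z.G i).D) (fun i => (Z.G i).L) (fun i => (Z.G i).hr)
    (fun i => (Z.G i).hQ) hKm n' (X.self u τ Finset.univ).p (fun i => one (Z.G i).b₀)
    (fun i => (Z.G i).ok) (T := fun x => tt Finset.univ (X.g u τ) x) e1
    (fun i => Z.mx i i₀ h0 h1 (hKm i) (hKm i₀) n') (fun x => by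
      refine le_trans (le_of_eq ?_) (Z.hJ x)
      exact Finset.sum_congr rfl fun i _ => by rw [one_su])
  simp only [e3] at x1
  have x2 := Z.e0 h0 h1 hKm n' hn0
  have x3 := Z.her n' hn0
  have x4 := Z.hS n' hn0
  have x5 := Z.hy
  set m := X.mu j₀ u τ Finset.univ + X.mu j₀ u τ Finset.univ * X.mu j₀ u τ Finset.univ
  set T2 := I (fun x => tt Finset.univ (X.g u τ) x ^ 2)
  set T1 := I (fun x => tt Finset.univ (X.g u τ) x)
  set ϑ := (ε - θ) / 2 / (W + 1)
  have y3 := mul_le_mul_of_nonneg_left x1 hc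
  have y4 := mul_le_mul_of_nonneg_left x2 (mul_nonneg (by norm_num : (0:ℝ) ≤ 28) hc)
  have y5 := mul_le_mul_of_nonneg_left x4 (mul_nonneg (by norm_num : (0:ℝ) ≤ 28) hc)
  have y6 := mul_le_mul_of_nonneg_left x5 (mul_nonneg hc hC)
  have y7 := mul_le_mul_of_nonneg_right hεc I2
  have y8 := mul_le_mul_of_nonneg_right hWϑ I2
  rw [hW] at y8
  have z : GW X n u τ ≤ (a + c * (28 * b del + 28 * a + C * a)) * m + c * C * T1 +
      (θ * T2 + c * ((ε - θ) / 2 / (c + 1)) * T2 +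
        (a + c * (28 * b del + 28 * a + C * a)) * ϑ * T2) := by
    nlinarith
  nlinarith

/-- **S0004 from the data of the bundle level**, with a further prune `Sy` -/
theorem S0004_50A {θ : ℝ} (hθ : θ < 1 / 16) (hθ0 : 0 ≤ θ)
    {Sy : ℝ → ℝ → ℕ → (ℕ → ℝ) → Finset ℕ → Finset ℕ} {cS : ℝ}
    (hSy : ∀ γ C1 : ℝ, cS ≤ C1 → MassP (Sy γ C1))
    (hT : ForN ParT21.thF SxF fun N γ => Tgt50A N γ (fun X => InS Sy N γ X) θ) (γ : ℝ) (ψ : ℕ → ℝ)
    (hψ : ∀ q, 0 ≤ ψ q) (hdiv : ¬ Summable fun q : ℕ => (Nat.totient q : ℝ) / q * ψ q) :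
    ∀ᵐ x : ℝ, ∃ᶠ q : ℕ in atTop, |(q : ℝ) * x - γ - round ((q : ℝ) * x - γ)| < ψ q :=
  CrsFin26.S0004_topPB hSy (CrsG29.forN_mono hT fun N γ h =>
    tgtTopPB_ofW (gTopW_of_50A hθ hθ0 h)) γ ψ hψ hdiv

end Crest.Agent.R4P.GTopA50
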