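import Crest.Agent.R4P.TopG_25
import Crest.Agent.R4P.Pay3_49
import Crest.Agent.R4P.GSK_55
import Crest.Agent.R4P.CrsFin_26

/-!
R4 (S0004) with powers, helper50 (PLAN v1, D3): **the glue of the bundle level and of the top target.**

* `NData X j₀ u τ J c a θ b` : what the bundle/DT level exports at ONE node `(u, τ)` of a context: row
  system `R`, budgets `U`, group data `D`, real costs `rc` (`RCost`), bundle charges `Q1` (total rate
  `J`), `Q2` (Cauchy-Schwarz), second order parts `S` (`BPay3`), the projection `pr` of the bundles to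
  lists of decorated trees (`GSK55.Pr`), the start bundle `b₀`, the LOCAL link
  `gT ≤ c I rc + er` (real cost of the group of the ties; `er` = E3 and cross terms), and the bounds
  of the walk sums of `er`, of the remaining error `E0`, of `Sg` and of `Q2`.
* `Tgt50 N γ P θ` : the data exist at all nodes with the bootstrap hypothesis; all constants before `M`.
* `gTopW_of_50` : `GTopW ε` for every `ε > θ`; **`S0004_50`** : S0004 from `Tgt50` with `θ < 1/16`.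
-/

set_option autoImplicit false
set_option linter.unusedSectionVars false
set_option linter.unusedVariables false

open MeasureTheory Filter

namespace Crest.Agent.R4P.GTopW50

open Crest.Agent.R4.Tour104 Crest.Agent.R4.Tour758 Crest.Agent.R4.Avg758 Crest.Agent.R4.Clos758
open Crest.Agent.R4.ClosL758 Crest.Agent.R4.ClosG758 Crest.Agent.R4.ClosR758
open Crest.Agent.R4.Fam464 Crest.Agent.R4P.Cnt588 Crest.Agent.R4P.Walk560 Crest.Agent.R4P.Item758
open Crest.Agent.R4.Soft104 Crest.Agent.R4.Max709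
open Crest.Agent.R4P.Bld532 (NS All NodeOk)
open Crest.Agent.R4P.Data758 Crest.Agent.R4P.SkelF29 Crest.Agent.R4P.Strip29
open Crest.Agent.R4P.Skel189 Crest.Agent.R4P.OSWS245 Crest.Agent.R4P.ParF5 Crest.Agent.R4P.Fin5
open Crest.Agent.R4P.NumX34
open Crest.Agent.R4P.FinE26 (ForN)
open Crest.Agent.R4P.SxT6 (MassP InS SyB SyB_mass)
open Crest.Agent.R4P.TopX36 Crest.Agent.R4P.PN36 Crest.Agent.R4P.Grp36 Crest.Agent.R4P.Xfer36
open Crest.Agent.R4P.TopC36
open Crest.Agent.R4P.FinEB25 Crest.Agent.R4P.TopG25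
open Crest.Agent.R4P.RSys343 Crest.Agent.R4P.RXm55 Crest.Agent.R4P.MSm25 Crest.Agent.R4P.PayR45
open Crest.Agent.R4P.Pay349 Crest.Agent.R4P.GSK55 Crest.Agent.R4P.GWa343 Crest.Agent.R4P.GWd343
open Crest.Agent.R4P.MSi343 (su)
open Crest.Agent.R4P.NumG23 (SxF NumG)
open Crest.Agent.R4P

/-! ### the link with a factor -/

section link
variable {Λ κ : Type} [Fintype Λ] [DecidableEq Λ] [Fintype κ] [DecidableEq κ] {β δ : Type}
  [Fintype δ] {R : RXm β δ} {U : RBm R} {pr : β → List (DT Λ κ)}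

/-- `GSK55.GS_le` with a factor in front of the real costs -/
theorem GS_le_c {loc : ℕ → Gp Λ κ → ℝ} (hl : LocE loc) (P : Pr (bm R) pr) (D : RGx U)
    {rc : ℕ → Gs β → ℝ → ℝ} {er : ℕ → Gs β → ℝ} {c : ℝ}
    (h : ∀ {p s}, D.ok p s → p ≠ 0 → loc p (gBs p (stp pr s)) ≤ c * I (rc p s) + er p s)
    (n p : ℕ) (s : Gs β) (hs : D.ok p s) :
    GS loc n p (stp pr s).g ≤ c * Kr R rc n p s + Kw (bm R) er n p s := by
  rw [GS_eq hl P n p s (D.gk hs).2, Kr_eq, ← Kw_smul, ← Kw_add]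
  exact Kw_mono (M := bm R) (ok := D.ok) (fun hs hp => D.okC hs hp) (fun hs hp => D.okN hs hp)
    (fun hs hp => h hs hp) n p s hs

end link

variable {N : Skel189.Num} {γ : ℝ} {p0 P₀ : ℕ}

/-- **the export of the bundle level at one node** -/
structure NData (X : Ctx N γ p0 P₀) (j₀ : X.c.Lam) (u : NS) (τ : IT) (J c a θ : ℝ) (b : ℝ → ℝ) where
  /-- bundles -/
  β : Type
  /-- classes -/
  δ : Type
  fδ : Fintype δ
  R : RXm β δ
  U : RBm R
  D : RGx U
  /-- real costs -/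
  rc : ℕ → Gs β → ℝ → ℝ
  hr : RCost D rc
  /-- linear charges of the bundles -/
  Q1 : BCh (bm R)
  /-- Cauchy-Schwarz charges of the bundles -/
  Q2 : BCh (bm R)
  /-- second order parts -/
  S : GSec D
  hQ : BPay3 D Q1 Q2 S
  hJ : ∀ {p b'}, R.ok p b' → ∀ x, Q1.Y p b' x ≤ J * U.tt b' x
  /-- projection to the bundles of trees -/
  pr : β → List (DT X.c.Lam (LbX X))
  P : Pr (bm R) pr
  /-- the start bundle -/
  b₀ : β
  hb₀ : pr b₀ = [(X.self u τ Finset.univ).t]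
  ok : D.ok (X.self u τ Finset.univ).p (one b₀)
  /-- the total of the start bundle is the total of the node -/
  tot : ∀ x, U.tt b₀ x = tt Finset.univ (X.g u τ) x
  /-- E3 and cross terms -/
  er : ℕ → Gs β → ℝ
  /-- **the local link** (D1) -/
  loc : ∀ {p s}, D.ok p s → p ≠ 0 → gT X p (gBs p (stp pr s)) ≤ c * I (rc p s) + er p s
  /-- the walk sum of E3 and of the cross terms -/
  her : ∀ n, Kw (bm R) er n (X.self u τ Finset.univ).p (one b₀) ≤
    a * (X.mu j₀ u τ Finset.univ + X.mu j₀ u τ Finset.univ * X.mu j₀ u τ Finset.univ) +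
    θ * I (fun x => tt Finset.univ (X.g u τ) x ^ 2)
  /-- the remaining error (leaves, in-member joins, second order of the lifts) -/
  e0 : ∀ {del : ℝ} {Km : ℕ} (h0 : 0 < del) (h1 : del ≤ 1) (hK : del * U.B0 ≤ 2 ^ Km) (n : ℕ),
    Pay45.E0 (D.ms h0 h1 hK) n (X.self u τ Finset.univ).p ((X.self u τ Finset.univ).p, one b₀) ≤
      b del * (X.mu j₀ u τ Finset.univ + X.mu j₀ u τ Finset.univ * X.mu j₀ u τ Finset.univ)
  /-- the second order parts of the payments -/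
  hS : ∀ n, Sg S n (X.self u τ Finset.univ).p (one b₀) ≤
    a * (X.mu j₀ u τ Finset.univ + X.mu j₀ u τ Finset.univ * X.mu j₀ u τ Finset.univ)
  /-- the root mass and energy of the Cauchy-Schwarz charges -/
  y1 : I (Q2.Y (X.self u τ Finset.univ).p b₀) ≤
    a * (X.mu j₀ u τ Finset.univ + X.mu j₀ u τ Finset.univ * X.mu j₀ u τ Finset.univ)
  y2 : I (fun x => Q2.Y (X.self u τ Finset.univ).p b₀ x ^ 2) ≤
    a * (X.mu j₀ u τ Finset.univ + X.mu j₀ u τ Finset.univ * X.mu j₀ u τ Finset.univ)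

/-- **the data exist at all the nodes with the bootstrap hypothesis** -/
def Tgt50 (N : Skel189.Num) (γ : ℝ) (P : ∀ {p0 P₀ : ℕ} (X : Ctx N γ p0 P₀), Prop) (θ : ℝ) : Prop :=
  ∃ (J c a : ℝ) (b : ℝ → ℝ), 0 ≤ J ∧ 0 ≤ c ∧ 0 ≤ a ∧ (∀ del, 0 ≤ b del) ∧
    ∀ M : ℝ, 0 ≤ M → Ev N γ fun p0 P₀ X => CF X → P X → ∀ (j₀ : X.c.Lam) (Kb : ℝ),
    0 ≤ Kb → Kb ≤ M * Real.log p0 ^ M →
    All (fun u τ => BootF X j₀ (fun _ _ => 0) Kb u τ → Nonempty (NData X j₀ u τ J c a θ b))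
      ⟨top X.S, 1, 1, 1⟩ X.c.t

/-- the local term of the group walk only depends on the measure -/
lemma gT_E (X : Ctx N γ p0 P₀) : LocE (gT X) := fun p g h H => by
  have e : GmG g = GmG h := by
    funext c x
    rw [GmG_ev, GmG_ev, H]
  unfold gT
  rw [e]

/-- **the group walks from the data** -/
theorem gTopW_of_50 {ε θ : ℝ} (hε : θ < ε) {P : ∀ {p0 P₀ : ℕ} (X : Ctx N γ p0 P₀), Prop}
    (h : Tgt50 N γ P θ) : GTopW ε N γ P := by
  obtain ⟨J, c, a, b, hJ, hc, ha, hb, h⟩ := h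
  have hεθ : 0 < ε - θ := by linarith
  obtain ⟨del, h0, h1, C, hC, H⟩ := msx_pay3B (ε := (ε - θ) / (c + 1)) (J := J) (by positivity) hJ
  have hεc : c * ((ε - θ) / (c + 1)) ≤ ε - θ := by
    rw [mul_div_assoc', div_le_iff₀ (by linarith)]
    nlinarith
  have hbd := hb del
  refine gTopW_of_game ⟨a + c * (28 * b del + 28 * a + C * (a + a)), c * C, 0, by positivity,
    by positivity, le_rfl, fun M hM => ?_⟩
  refine (h M hM).mono fun p0 P₀ X hh hC' hP j₀ Kb k1 k2 => ?_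
  refine All.mono (fun u τ hh hB n => ?_) (hh hC' hP j₀ Kb k1 k2)
  obtain ⟨Z⟩ := hh hB
  letI := Z.fδ
  obtain ⟨Km, hKm⟩ : ∃ Km : ℕ, del * Z.U.B0 ≤ 2 ^ Km := by
    obtain ⟨Km, hKm⟩ := pow_unbounded_of_one_lt (del * Z.U.B0) (one_lt_two)
    exact ⟨Km, hKm.le⟩
  have x0 := GS_le_c (gT_E X) Z.P Z.D (fun hs hp => Z.loc hs hp) n (X.self u τ Finset.univ).p (one Z.b₀)
    Z.ok
  rw [one_g Z.hb₀] at x0
  have x1 := H Z.D Z.hr Z.hQ Z.hJ hKm n (X.self u τ Finset.univ).p (one Z.b₀) Z.ok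
  have x2 := Z.e0 h0 h1 hKm n
  have x3 := Z.her n
  have x4 := Z.hS n
  have x5 := Z.y1
  have x6 := Z.y2
  have e1 : su (one Z.b₀) Z.U.tt = fun x => tt Finset.univ (X.g u τ) x :=
    funext fun x => by rw [one_su, Z.tot]
  have e3 : su (one Z.b₀) (Z.Q2.Y (X.self u τ Finset.univ).p) =
      Z.Q2.Y (X.self u τ Finset.univ).p Z.b₀ := funext fun x => by rw [one_su]
  rw [e1, e3] at x1
  simp only [] at x1
  have I2 : 0 ≤ I (fun x => tt Finset.univ (X.g u τ) x ^ 2) := I_nonneg fun x => sq_nonneg _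
  set m := X.mu j₀ u τ Finset.univ + X.mu j₀ u τ Finset.univ * X.mu j₀ u τ Finset.univ
  set T2 := I (fun x => tt Finset.univ (X.g u τ) x ^ 2)
  set T1 := I (fun x => tt Finset.univ (X.g u τ) x)
  have y0 : GW X n u τ ≤ c * Kr Z.R Z.rc n (X.self u τ Finset.univ).p (one Z.b₀) +
    Kw (bm Z.R) Z.er n (X.self u τ Finset.univ).p (one Z.b₀) := x0
  have y3 := mul_le_mul_of_nonneg_left x1 hc
  have y4 := mul_le_mul_of_nonneg_left x2 (mul_nonneg (by norm_num : (0:ℝ) ≤ 28) hc)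
  have y5 := mul_le_mul_of_nonneg_left x4 (mul_nonneg (by norm_num : (0:ℝ) ≤ 28) hc)
  have y6 := mul_le_mul_of_nonneg_left (add_le_add x5 x6) (mul_nonneg hc hC)
  have y7 := mul_le_mul_of_nonneg_right hεc I2
  nlinarith

/-- **S0004 from the data of the bundle level**, with a further prune `Sy` -/
theorem S0004_50 {θ : ℝ} (hθ : θ < 1 / 16) {Sy : ℝ → ℝ → ℕ → (ℕ → ℝ) → Finset ℕ → Finset ℕ} {cS : ℝ}
    (hSy : ∀ γ C1 : ℝ, cS ≤ C1 → MassP (Sy γ C1))
    (hT : ForN ParT21.thF SxF fun N γ => Tgt50 N γ (fun X => InS Sy N γ X) θ) (γ : ℝ) (ψ : ℕ → ℝ)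
    (hψ : ∀ q, 0 ≤ ψ q) (hdiv : ¬ Summable fun q : ℕ => (Nat.totient q : ℝ) / q * ψ q) :
    ∀ᵐ x : ℝ, ∃ᶠ q : ℕ in atTop, |(q : ℝ) * x - γ - round ((q : ℝ) * x - γ)| < ψ q :=
  CrsFin26.S0004_topPB hSy (CrsG29.forN_mono hT fun N γ h =>
    tgtTopPB_ofW (gTopW_of_50 hθ h)) γ ψ hψ hdiv

end Crest.Agent.R4P.GTopW50
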