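import Crest.Agent.R4P.DataA758
import Crest.Agent.R4P.CntB_10

/-!
R4 (S0004), helper9: **overlapping thin pieces of one node have the same index** (Lemma A / B of
docs 1374), in-node arithmetic and its link with the concrete data.

One node `(A, B)`, target `θ = B γ`; items `q = A w`, `r = A w'`, `w = g x`, `w' = g x'` (cofactors
`x, x'`), numerators `n, n'` of the arcs at a common point `y`.

* `near_of_overlap` : `(x - x') θ` is within `x' R + x R'` of an integer.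
* `exact_centre` : if `(x - x') ρ ∈ ℤ` and `|(x - x') (θ - ρ)| ≤ D < 1/2`, the centres with respect
  to `ρ` are EQUAL.
* `rho_of_overlap` : for different cofactors such a `ρ` exists, `ρ.den ∣ |x - x'|`.
* `lab_of` : it is a label for the two radii.
* `same_ix` : **the two items have the same index** at every column at which they are thin.
* `same_ix_small` (Lemma A): small cofactors, comparable radii.
* `same_ix_exact` : the same from `CntB10.Exact` (present piece `n u`, missing piece `v` of the tie `n`).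
* `bad_sum` (Lemma B) : the ties of a dyadic block with a non-exact overlap with cofactors `≤ Z`.
-/

set_option autoImplicit false

namespace Crest.Agent.R4P.InM9

open Crest.Agent.R4.LF363 Crest.Agent.R4P.W363 Crest.Agent.R4P.Data758
open Crest.Agent.R4P.CntB10

/-! ### arithmetic of an overlap -/

/-- the integer of an overlap -/
theorem near_of_overlap {θ R R' D y : ℝ} {g x x' w w' : ℕ} (hw : w = g * x) (hw' : w' = g * x')
    {n n' : ℤ} (h : |(w : ℝ) * y - θ - n| ≤ R) (h' : |(w' : ℝ) * y - θ - n'| ≤ R')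
    (hD : (x' : ℝ) * R + x * R' ≤ D) :
    |((x : ℝ) - x') * θ - ((x' : ℤ) * n - x * n' : ℤ)| ≤ D := by
  have e : ((x : ℝ) - x') * θ - ((x' : ℤ) * n - x * n' : ℤ) =
      x' * ((w : ℝ) * y - θ - n) - x * ((w' : ℝ) * y - θ - n') := by
    rw [hw, hw']
    push_cast
    ring
  rw [e]
  refine (abs_sub _ _).trans ?_
  rw [abs_mul, abs_mul, Nat.abs_cast, Nat.abs_cast]
  have h1 := mul_le_mul_of_nonneg_left h (Nat.cast_nonneg (α := ℝ) x')
  have h2 := mul_le_mul_of_nonneg_left h' (Nat.cast_nonneg (α := ℝ) x)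
  linarith

/-- **exact centres** -/
theorem exact_centre {θ R R' D y : ℝ} {g x x' w w' : ℕ} (hg : 0 < g) (hx : 0 < x) (hx' : 0 < x')
    (hw : w = g * x) (hw' : w' = g * x') {n n' : ℤ} (h : |(w : ℝ) * y - θ - n| ≤ R)
    (h' : |(w' : ℝ) * y - θ - n'| ≤ R') (hD : (x' : ℝ) * R + x * R' ≤ D) (hD1 : 2 * D < 1)
    {ρ : ℚ} {m : ℤ} (hm : ((x : ℝ) - x') * ρ = m) (hρ : |((x : ℝ) - x') * (θ - ρ)| ≤ D) :
    ((n : ℝ) + ρ) / w = (n' + ρ) / w' := by
  have h1 := near_of_overlap hw hw' h h' hD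
  set m₀ : ℤ := (x' : ℤ) * n - x * n' with hm₀
  have h2 : |((x : ℝ) - x') * θ - m| ≤ D := by
    have e : ((x : ℝ) - x') * θ - m = ((x : ℝ) - x') * (θ - ρ) := by rw [← hm]; ring
    rw [e]; exact hρ
  have h3 : |((m - m₀ : ℤ) : ℝ)| < 1 := by
    have e : ((m - m₀ : ℤ) : ℝ) = (((x : ℝ) - x') * θ - m₀) - (((x : ℝ) - x') * θ - m) := by
      push_cast; ring
    rw [e]
    refine lt_of_le_of_lt (abs_sub _ _) ?_
    linarith
  have h4 : m - m₀ = 0 := by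
    have : |m - m₀| < 1 := by exact_mod_cast h3
    exact Int.abs_lt_one_iff.1 this
  have h5 : m = m₀ := by omega
  rw [h5, hm₀] at hm
  push_cast at hm
  have hg' : (0 : ℝ) < g := by exact_mod_cast hg
  have hx0 : (0 : ℝ) < x := by exact_mod_cast hx
  have hx0' : (0 : ℝ) < x' := by exact_mod_cast hx'
  rw [hw, hw']
  push_cast
  rw [div_eq_div_iff (by positivity) (by positivity)]
  have e : ((n : ℝ) + ρ) * (g * x') - (n' + ρ) * (g * x) =
      g * ((x' * n - x * n') - ((x : ℝ) - x') * ρ) := by ring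
  have e2 : ((n : ℝ) + ρ) * (g * x') - (n' + ρ) * (g * x) = 0 := by
    rw [e, hm]; ring
  linarith

/-- the rational of an overlap of two different cofactors -/
theorem rho_of_overlap {θ D : ℝ} {x x' : ℕ} (hne : x ≠ x') {m : ℤ}
    (h : |((x : ℝ) - x') * θ - m| ≤ D) :
    ∃ ρ : ℚ, ρ.den ∣ ((x : ℤ) - x').natAbs ∧ ((x : ℝ) - x') * ρ = m ∧
      |((x : ℝ) - x') * (θ - ρ)| ≤ D := by
  set d : ℤ := (x : ℤ) - x' with hd
  have hd0 : d ≠ 0 := by omega
  have hdr : ((x : ℝ) - x') = (d : ℝ) := by rw [hd]; push_cast; ring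
  have hdr0 : (d : ℝ) ≠ 0 := by exact_mod_cast hd0
  refine ⟨(m : ℚ) / (d : ℚ), ?_, ?_, ?_⟩
  · have := Rat.den_dvd m d
    rw [Rat.divInt_eq_div] at this
    exact Int.natCast_dvd.1 this
  · rw [hdr]
    push_cast
    field_simp
  · rw [hdr] at h ⊢
    have e : (d : ℝ) * (θ - (((m : ℚ) / (d : ℚ) : ℚ) : ℝ)) = d * θ - m := by
      push_cast
      field_simp
    rw [e]; exact h

/-- labels -/
theorem lab_of {θ R D : ℝ} {x x' K : ℕ} {ρ : ℚ} (hR : 0 < R) (hR1 : R ≤ 1 / 10)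
    (hd : ρ.den ≤ K) (hK : (K : ℝ) ^ 5 * R ≤ 1) (hne : x ≠ x')
    (hρ : |((x : ℝ) - x') * (θ - ρ)| ≤ D)
    (hD : D ^ 5 ≤ R ^ 4 * |(x : ℝ) - x'| ^ 5) : Lab θ R ρ := by
  have hx : 0 < |(x : ℝ) - x'| := by
    rw [abs_pos, sub_ne_zero]
    exact_mod_cast hne
  refine ⟨hR, hR1, ?_, ?_⟩
  · have : (ρ.den : ℝ) ≤ K := by exact_mod_cast hd
    exact (mul_le_mul_of_nonneg_right (pow_le_pow_left₀ (Nat.cast_nonneg _) this 5) hR.le).trans hK
  · have h1 : (|(x : ℝ) - x'| * |θ - ρ|) ^ 5 ≤ R ^ 4 * |(x : ℝ) - x'| ^ 5 := by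
      rw [← abs_mul]
      exact (pow_le_pow_left₀ (abs_nonneg _) hρ 5).trans hD
    rw [mul_pow] at h1
    have h2 : |(x : ℝ) - x'| ^ 5 * |θ - ρ| ^ 5 ≤ |(x : ℝ) - x'| ^ 5 * R ^ 4 := by linarith
    exact le_of_mul_le_mul_left h2 (by positivity)

/-! ### the index -/

/-- **same index**: two thin items of one node with one exact label -/
theorem same_ix (c : Cf) {p q r A B g x x' w w' : ℕ} (hlam : c.lam p = 0) (hA : 0 < A) (hB : 0 < B)
    (hg : 0 < g) (hx : 0 < x) (hx' : 0 < x') (hw : w = g * x) (hw' : w' = g * x')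
    (hq : q = A * w) (hr : r = A * w') (eq : (lst (c.t.mt q) p).prod = B)
    (er : (lst (c.t.mt r) p).prod = B) (tq : (B : ℝ) * c.r q ≤ c.wp.thr p)
    (tr : (B : ℝ) * c.r r ≤ c.wp.thr p) {ρ : ℚ} (lq : Lab (B * c.γ) (B * c.r q) ρ)
    (lr : Lab (B * c.γ) (B * c.r r) ρ) {D : ℝ} {m : ℤ} (hm : ((x : ℝ) - x') * ρ = m)
    (hρ : |((x : ℝ) - x') * (B * c.γ - ρ)| ≤ D) (hD1 : 2 * D < 1)
    (hD : (x' : ℝ) * (B * c.r q) + x * (B * c.r r) ≤ D) {y z z' : ℝ} {n n' : ℤ}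
    (hz : (B : ℝ) * z = w * y - B * c.γ - n) (hz' : (B : ℝ) * z' = w' * y - B * c.γ - n')
    (bz : |z| ≤ c.r q) (bz' : |z'| ≤ c.r r) :
    c.wp.ix c.γ p q (c.st p q) z = c.wp.ix c.γ p r (c.st p r) z' := by
  have hB' : (0 : ℝ) < B := by exact_mod_cast hB
  have hBq : (B : ℚ) ≠ 0 := by exact_mod_cast hB.ne'
  have s1 : c.st p q = some (ρ / B) := by
    have h1 : c.st p q = lab0 c.γ (c.r q) (lst (c.t.mt q) p).prod :=
      stB_thin_zero hlam (by rw [eq]; exact tq)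
    rw [h1, eq]
    exact lab0_eq_some lq
  have s2 : c.st p r = some (ρ / B) := by
    have h1 : c.st p r = lab0 c.γ (c.r r) (lst (c.t.mt r) p).prod :=
      stB_thin_zero hlam (by rw [er]; exact tr)
    rw [h1, er]
    exact lab0_eq_some lr
  rw [s1, s2]
  have hw0 : 0 < w := by rw [hw]; exact Nat.mul_pos hg hx
  have hw0' : 0 < w' := by rw [hw']; exact Nat.mul_pos hg hx'
  refine WP.same_of_exact (A := A) (A' := A) (B := B) (B' := B) (w := w) (w' := w') c.wp hA hA hB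
    hw0 hw0' hq hr rfl hz hz' ?_
  have e : (B : ℝ) * (((ρ / B : ℚ)) : ℝ) = ρ := by
    push_cast
    field_simp
  rw [e]
  have a1 : |(w : ℝ) * y - B * c.γ - n| ≤ B * c.r q := by
    rw [← hz, abs_mul, abs_of_pos hB']
    exact mul_le_mul_of_nonneg_left bz hB'.le
  have a2 : |(w' : ℝ) * y - B * c.γ - n'| ≤ B * c.r r := by
    rw [← hz', abs_mul, abs_of_pos hB']
    exact mul_le_mul_of_nonneg_left bz' hB'.le
  exact exact_centre hg hx hx' hw hw' a1 a2 hD hD1 hm hρ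

/-! ### Lemma A and its version for `CntB10.Exact` -/

/-- **Lemma A**: two thin items of one node which overlap, with small cofactors: same index -/
theorem same_ix_small (c : Cf) {p q r A B g x x' w w' K : ℕ} (hlam : c.lam p = 0) (hA : 0 < A)
    (hB : 0 < B) (hg : 0 < g) (hx : 0 < x) (hx' : 0 < x') (hw : w = g * x) (hw' : w' = g * x')
    (hne : x ≠ x') (hxK : x ≤ K) (hxK' : x' ≤ K)
    (hq : q = A * w) (hr : r = A * w') (eq : (lst (c.t.mt q) p).prod = B)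
    (er : (lst (c.t.mt r) p).prod = B) (tq : (B : ℝ) * c.r q ≤ c.wp.thr p)
    (tr : (B : ℝ) * c.r r ≤ c.wp.thr p) {D : ℝ}
    (hD : (x' : ℝ) * (B * c.r q) + x * (B * c.r r) ≤ D) (hD1 : 2 * D < 1)
    (q0 : 0 < (B : ℝ) * c.r q) (r0 : 0 < (B : ℝ) * c.r r)
    (q1 : (B : ℝ) * c.r q ≤ 1 / 10) (r1 : (B : ℝ) * c.r r ≤ 1 / 10)
    (q2 : (K : ℝ) ^ 5 * (B * c.r q) ≤ 1) (r2 : (K : ℝ) ^ 5 * (B * c.r r) ≤ 1)
    (q3 : D ^ 5 ≤ ((B : ℝ) * c.r q) ^ 4) (r3 : D ^ 5 ≤ ((B : ℝ) * c.r r) ^ 4)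
    {y z z' : ℝ} {n n' : ℤ}
    (hz : (B : ℝ) * z = w * y - B * c.γ - n) (hz' : (B : ℝ) * z' = w' * y - B * c.γ - n')
    (bz : |z| ≤ c.r q) (bz' : |z'| ≤ c.r r) :
    c.wp.ix c.γ p q (c.st p q) z = c.wp.ix c.γ p r (c.st p r) z' := by
  have hB' : (0 : ℝ) < B := by exact_mod_cast hB
  have a1 : |(w : ℝ) * y - B * c.γ - n| ≤ B * c.r q := by
    rw [← hz, abs_mul, abs_of_pos hB']
    exact mul_le_mul_of_nonneg_left bz hB'.le
  have a2 : |(w' : ℝ) * y - B * c.γ - n'| ≤ B * c.r r := by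
    rw [← hz', abs_mul, abs_of_pos hB']
    exact mul_le_mul_of_nonneg_left bz' hB'.le
  obtain ⟨ρ, d1, d2, d3⟩ := rho_of_overlap hne (near_of_overlap hw hw' a1 a2 hD)
  have hden : ρ.den ≤ K := by
    refine (Nat.le_of_dvd ?_ d1).trans ?_
    · exact Int.natAbs_pos.2 (by omega)
    · omega
  have h1 : (1 : ℝ) ≤ |(x : ℝ) - x'| := by
    have h2 : (1 : ℤ) ≤ |(x : ℤ) - x'| := Int.one_le_abs (by omega)
    have h3 : ((1 : ℤ) : ℝ) ≤ ((|(x : ℤ) - x'| : ℤ) : ℝ) := by exact_mod_cast h2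
    push_cast at h3
    exact h3
  have h2 : (1 : ℝ) ≤ |(x : ℝ) - x'| ^ 5 := one_le_pow₀ h1
  have k1 : Lab (B * c.γ) (B * c.r q) ρ := by
    refine lab_of q0 q1 hden q2 hne d3 ?_
    exact q3.trans (le_mul_of_one_le_right (by positivity) h2)
  have k2 : Lab (B * c.γ) (B * c.r r) ρ := by
    refine lab_of r0 r1 hden r2 hne d3 ?_
    exact r3.trans (le_mul_of_one_le_right (by positivity) h2)
  exact same_ix c hlam hA hB hg hx hx' hw hw' hq hr eq er tq tr k1 k2 d2 d3 hD1 hD hz hz' bz bz'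

/-- **the exact overlaps of a tie**: present piece (cofactor `n u`), missing piece (cofactor `v`):
same index at the column `p` -/
theorem same_ix_exact (c : Cf) {p q r A B g u v n w w' K : ℕ} (hlam : c.lam p = 0) (hA : 0 < A)
    (hB : 0 < B) (hg : 0 < g) (hu : 0 < u) (hv : 0 < v) (hn : 0 < n) (hw : w = g * (n * u))
    (hw' : w' = g * v) (hvn : 2 * v ≤ n * u)
    (hq : q = A * w) (hr : r = A * w') (eq : (lst (c.t.mt q) p).prod = B)
    (er : (lst (c.t.mt r) p).prod = B) (tq : (B : ℝ) * c.r q ≤ c.wp.thr p)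
    (tr : (B : ℝ) * c.r r ≤ c.wp.thr p) {D : ℝ}
    (hD : (v : ℝ) * (B * c.r q) + (n * u : ℕ) * (B * c.r r) ≤ D) (hD1 : 2 * D < 1)
    (hE : Exact (B * c.γ) D u v K n)
    (q0 : 0 < (B : ℝ) * c.r q) (r0 : 0 < (B : ℝ) * c.r r)
    (q1 : (B : ℝ) * c.r q ≤ 1 / 10) (r1 : (B : ℝ) * c.r r ≤ 1 / 10)
    (q2 : ((K * u : ℕ) : ℝ) ^ 5 * (B * c.r q) ≤ 1) (r2 : ((K * u : ℕ) : ℝ) ^ 5 * (B * c.r r) ≤ 1)
    (q3 : (2 * D) ^ 5 ≤ ((B : ℝ) * c.r q) ^ 4 * ((n * u : ℕ) : ℝ) ^ 5)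
    (r3 : (2 * D) ^ 5 ≤ ((B : ℝ) * c.r r) ^ 4 * ((n * u : ℕ) : ℝ) ^ 5)
    {y z z' : ℝ} {a a' : ℤ}
    (hz : (B : ℝ) * z = w * y - B * c.γ - a) (hz' : (B : ℝ) * z' = w' * y - B * c.γ - a')
    (bz : |z| ≤ c.r q) (bz' : |z'| ≤ c.r r) :
    c.wp.ix c.γ p q (c.st p q) z = c.wp.ix c.γ p r (c.st p r) z' := by
  obtain ⟨ρ, d1, ⟨m, d2⟩, d3, -⟩ := hE
  have hnu : 0 < n * u := Nat.mul_pos hn hu
  have hne : n * u ≠ v := by omega
  have hc : ((n * u : ℕ) : ℝ) = n * u := by push_cast; ring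
  rw [← hc] at d2 d3
  have h1 : ((n * u : ℕ) : ℝ) / 2 ≤ |((n * u : ℕ) : ℝ) - v| := by
    refine le_trans ?_ (le_abs_self _)
    have : ((2 * v : ℕ) : ℝ) ≤ ((n * u : ℕ) : ℝ) := by exact_mod_cast hvn
    push_cast at this ⊢
    linarith
  have h0 : (0 : ℝ) < ((n * u : ℕ) : ℝ) := by exact_mod_cast hnu
  have key : ∀ R : ℝ, 0 < R → (2 * D) ^ 5 ≤ R ^ 4 * ((n * u : ℕ) : ℝ) ^ 5 →
      D ^ 5 ≤ R ^ 4 * |((n * u : ℕ) : ℝ) - v| ^ 5 := by
    intro R hR h
    have h2 : (((n * u : ℕ) : ℝ) / 2) ^ 5 ≤ |((n * u : ℕ) : ℝ) - v| ^ 5 :=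
      pow_le_pow_left₀ (by positivity) h1 5
    have h3 : R ^ 4 * (((n * u : ℕ) : ℝ) / 2) ^ 5 ≤ R ^ 4 * |((n * u : ℕ) : ℝ) - v| ^ 5 :=
      mul_le_mul_of_nonneg_left h2 (by positivity)
    refine le_trans ?_ h3
    have e1 : (2 * D) ^ 5 = 32 * D ^ 5 := by ring
    have e2 : R ^ 4 * (((n * u : ℕ) : ℝ) / 2) ^ 5 = R ^ 4 * ((n * u : ℕ) : ℝ) ^ 5 / 32 := by ring
    rw [e1] at h
    rw [e2]
    linarith
  have k1 : Lab (B * c.γ) (B * c.r q) ρ := lab_of q0 q1 d1 q2 hne d3 (key _ q0 q3)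
  have k2 : Lab (B * c.γ) (B * c.r r) ρ := lab_of r0 r1 d1 r2 hne d3 (key _ r0 r3)
  exact same_ix c hlam hA hB hg hnu hv hw hw' hq hr eq er tq tr k1 k2 d2 d3 hD1 hD hz hz' bz bz'

/-! ### Lemma B: the exceptional ties -/

open Classical in
/-- **the ties of a dyadic block with a non-exact overlap** with cofactors `≤ Z` -/
theorem bad_sum {θ D : ℝ} {Z K N : ℕ} (hK : 0 < K) (hN : 0 < N) (hZ : Z ≤ N) (hD : 0 ≤ D)
    (S : Finset ℕ) (hS : ∀ n ∈ S, N < n ∧ n ≤ 2 * N)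
    (h : ∀ n ∈ S, ∃ u v : ℕ, 0 < u ∧ u ≤ Z ∧ 0 < v ∧ v ≤ Z ∧ Near θ D u v n ∧
      ¬ Exact θ D u v K n) :
    ∑ n ∈ S, 1 / (n : ℝ) ≤ (Z : ℝ) ^ 2 * (1 / K + 36 * D * (K * Z) + 4 / N) := by
  set P : Finset (ℕ × ℕ) := Finset.Icc 1 Z ×ˢ Finset.Icc 1 Z with hP
  set T : ℕ × ℕ → Finset ℕ := fun e => S.filter fun n => Near θ D e.1 e.2 n ∧
    ¬ Exact θ D e.1 e.2 K n with hT
  have hK' : (0 : ℝ) < K := by exact_mod_cast hK
  have hN' : (0 : ℝ) < N := by exact_mod_cast hN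
  calc ∑ n ∈ S, 1 / (n : ℝ) ≤ ∑ n ∈ S, ∑ e ∈ P, (if n ∈ T e then 1 / (n : ℝ) else 0) := by
        refine Finset.sum_le_sum fun n hn => ?_
        obtain ⟨u, v, h1, h2, h3, h4, h5, h6⟩ := h n hn
        have hmem : (u, v) ∈ P := Finset.mem_product.2
          ⟨Finset.mem_Icc.2 ⟨h1, h2⟩, Finset.mem_Icc.2 ⟨h3, h4⟩⟩
        have hT' : n ∈ T (u, v) := Finset.mem_filter.2 ⟨hn, h5, h6⟩
        refine le_trans (le_of_eq ?_) (Finset.single_le_sum
          (f := fun e => if n ∈ T e then 1 / (n : ℝ) else 0) (fun e _ => ?_) hmem)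
        · simp only [if_pos hT']
        · show (0 : ℝ) ≤ if n ∈ T e then 1 / (n : ℝ) else 0
          split_ifs
          · positivity
          · exact le_rfl
    _ = ∑ e ∈ P, ∑ n ∈ T e, 1 / (n : ℝ) := by
        rw [Finset.sum_comm]
        refine Finset.sum_congr rfl fun e _ => ?_
        rw [← Finset.sum_filter]
        congr 1
        ext n
        rw [Finset.mem_filter]
        exact ⟨fun h => h.2, fun h => ⟨(Finset.mem_filter.1 h).1, h⟩⟩
    _ ≤ ∑ _e ∈ P, (1 / K + 36 * D * (K * Z) + 4 / N : ℝ) := by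
        refine Finset.sum_le_sum fun e he => ?_
        obtain ⟨a1, a2⟩ := Finset.mem_product.1 he
        obtain ⟨b1, b2⟩ := Finset.mem_Icc.1 a1
        obtain ⟨b3, b4⟩ := Finset.mem_Icc.1 a2
        have k := cnt_sum (θ := θ) (D := D) (u := e.1) (v := e.2) (K := K) (N := N) (by omega) hK hN
          (by
            calc e.2 ≤ Z := b4
              _ ≤ N := hZ
              _ ≤ N * e.1 := Nat.le_mul_of_pos_right _ (by omega)) hD (T e)
          (fun n hn => hS n (Finset.mem_filter.1 hn).1)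
          (fun n hn => (Finset.mem_filter.1 hn).2.1) (fun n hn => (Finset.mem_filter.1 hn).2.2)
        have hz : (e.1 : ℝ) ≤ Z := by exact_mod_cast b2
        have : 36 * D * ((K : ℝ) * e.1) ≤ 36 * D * (K * Z) := by
          refine mul_le_mul_of_nonneg_left ?_ (by positivity)
          exact mul_le_mul_of_nonneg_left hz hK'.le
        linarith
    _ = (Z : ℝ) ^ 2 * (1 / K + 36 * D * (K * Z) + 4 / N) := by
        rw [Finset.sum_const, nsmul_eq_mul, hP, Finset.card_product, Nat.card_Icc]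
        push_cast
        ring

end Crest.Agent.R4P.InM9
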