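import Crest.Agent.R4P.DTr_407
import Crest.Agent.R4P.Bp_407

/-!
R4 (S0004) with powers, T3, helper5: **in-member energies of the bundle walk of one decorated tree**.

* `bil K f g = Σ_{c,c'} K c c' I (f_c g_c')` for a symmetric nonnegative kernel of the classes of an
  ARBITRARY class map `wr p : Λ → δ` (e.g. `wr p = id` : kernels of pieces; real classes, `K = δ`).
* `TOk p K` : ties and pulls of a bundle at `p` (item level mean, pulls are pulled, one tie).
* `cr K kd t s` cross energy of two nodes, `sf` self energy, `leU` leaf energies (kernel and classes of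
  the last column), `dC` cross energies at the `add` nodes.
* `Psi p L = 2 Σ (leU + dC - sf) + 2 bil (contents)`; `Psi_step` : **exact recursion**
  `Psi p L = jl p L + (1 - 1/p) Psi (P) + 1/p Psi (N) + Psi (rest)`, where
  `jl = 4 (hL hB + hL hN + hB hN) + 2 hL hL` is the local join energy and leaf energy.
* `TOk.of_BI` : the real bundles; `Psi_single`, `Psi_nonneg`; `siz` facts.
-/

set_option autoImplicit false
set_option linter.unusedSectionVars false
set_option linter.unusedVariables false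
open MeasureTheory Filter Set

namespace Crest.Agent.R4P.JnE5

open Crest.Agent.R4.Tour104 Crest.Agent.R4.Tour758 Crest.Agent.R4.Avg758 Crest.Agent.R4.Clos758
open Crest.Agent.R4.ClosL758 Crest.Agent.R4.ClosG758 Crest.Agent.R4.ClosR758
open Crest.Agent.R4P.ClosR442 Crest.Agent.R4P.Grp36
open Crest.Agent.R4P.Xfer36 Crest.Agent.R4P.TopC36 Crest.Agent.R4P.PN36
open Crest.Agent.R4P.GMer27 Crest.Agent.R4P.GCol27 Crest.Agent.R4P.GWa343 Crest.Agent.R4P.GWb343
open Crest.Agent.R4P.GWc343 Crest.Agent.R4P.GWd343 Crest.Agent.R4P.GWe343 Crest.Agent.R4P.GWf343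
open Crest.Agent.R4P.MSd343 Crest.Agent.R4P.DTr407
open Crest.Agent.R4P.LogL51 (isLf)
open Crest.Agent.R4P.Walk560 (DT WrN)

/-! ### bilinear energies -/

section bil
variable {κ : Type} [Fintype κ]

/-- symmetric nonnegative kernel -/
structure Ker (K : κ → κ → ℝ) : Prop where
  nn : ∀ c c', 0 ≤ K c c'
  sy : ∀ c c', K c c' = K c' c

/-- the diagonal kernel -/
lemma Ker.diag [DecidableEq κ] : Ker fun c c' : κ => if c = c' then (1 : ℝ) else 0 :=
  ⟨fun c c' => by split_ifs <;> norm_num, fun c c' => by simp [eq_comm]⟩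

/-- bilinear energy -/
noncomputable def bil (K : κ → κ → ℝ) (f g : κ → ℝ → ℝ) : ℝ :=
  ∑ c, ∑ c', K c c' * I (fun x => f c x * g c' x)

variable {K : κ → κ → ℝ} {f g h : κ → ℝ → ℝ}

lemma bil_symm (hK : Ker K) : bil K f g = bil K g f := by
  unfold bil
  rw [Finset.sum_comm]
  refine Finset.sum_congr rfl fun c _ => Finset.sum_congr rfl fun c' _ => ?_
  rw [hK.sy]
  congr 2
  funext x
  ring

lemma bil_nonneg (hK : Ker K) (hf : ∀ c, PB (f c)) (hg : ∀ c, PB (g c)) : 0 ≤ bil K f g :=
  Finset.sum_nonneg fun c _ => Finset.sum_nonneg fun c' _ =>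
    mul_nonneg (hK.nn _ _) (I_nonneg fun x => mul_nonneg ((hf c).nonneg x) ((hg c').nonneg x))

lemma bil_add_left (hf : ∀ c, PB (f c)) (hg : ∀ c, PB (g c)) (hh : ∀ c, PB (h c)) :
    bil K (fun c x => f c x + g c x) h = bil K f h + bil K g h := by
  unfold bil
  rw [← Finset.sum_add_distrib]
  refine Finset.sum_congr rfl fun c _ => ?_
  rw [← Finset.sum_add_distrib]
  refine Finset.sum_congr rfl fun c' _ => ?_
  rw [← mul_add, ← I_add ((hf c).mul (hh c')).integrableOn ((hg c).mul (hh c')).integrableOn]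
  congr 2
  funext x
  ring

lemma bil_add_right (hf : ∀ c, PB (f c)) (hg : ∀ c, PB (g c)) (hh : ∀ c, PB (h c)) :
    bil K h (fun c x => f c x + g c x) = bil K h f + bil K h g := by
  unfold bil
  rw [← Finset.sum_add_distrib]
  refine Finset.sum_congr rfl fun c _ => ?_
  rw [← Finset.sum_add_distrib]
  refine Finset.sum_congr rfl fun c' _ => ?_
  rw [← mul_add, ← I_add ((hh c).mul (hf c')).integrableOn ((hh c).mul (hg c')).integrableOn]
  congr 2
  funext x
  ring

lemma bil_zero_left : bil K (fun _ _ => 0) g = 0 := by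
  unfold bil
  refine Finset.sum_eq_zero fun c _ => Finset.sum_eq_zero fun c' _ => ?_
  have : (fun x => (0 : ℝ) * g c' x) = fun _ => 0 := funext fun x => by ring
  rw [this]
  simp [I]

lemma bil_zero_right : bil K f (fun _ _ => 0) = 0 := by
  unfold bil
  refine Finset.sum_eq_zero fun c _ => Finset.sum_eq_zero fun c' _ => ?_
  have : (fun x => f c x * (0 : ℝ)) = fun _ => 0 := funext fun x => by ring
  rw [this]
  simp [I]

lemma bil_add2 (hK : Ker K) (hf : ∀ c, PB (f c)) (hg : ∀ c, PB (g c)) :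
    bil K (fun c x => f c x + g c x) (fun c x => f c x + g c x) =
      bil K f f + bil K g g + 2 * bil K f g := by
  have hs : ∀ c, PB fun x => f c x + g c x := fun c => (hf c).add (hg c)
  rw [bil_add_left hf hg hs, bil_add_right hf hg hf, bil_add_right hf hg hg,
    bil_symm hK (f := g) (g := f)]
  ring

lemma bil_mono (hK : Ker K) {f' g' : κ → ℝ → ℝ} (hf : ∀ c, PB (f c)) (hg : ∀ c, PB (g c))
    (hf' : ∀ c, PB (f' c)) (hg' : ∀ c, PB (g' c)) (h1 : ∀ c x, f c x ≤ f' c x)
    (h2 : ∀ c x, g c x ≤ g' c x) : bil K f g ≤ bil K f' g' :=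
  Finset.sum_le_sum fun c _ => Finset.sum_le_sum fun c' _ =>
    mul_le_mul_of_nonneg_left (I_mono ((hf c).mul (hg c')).integrableOn
      ((hf' c).mul (hg' c')).integrableOn fun x =>
      mul_le_mul (h1 c x) (h2 c' x) ((hg c').nonneg x) ((hf' c).nonneg x)) (hK.nn _ _)

/-- a pulled function against a function with known mean -/
lemma I_cross {p : ℕ} (hp : 0 < p) {a q P N : ℝ → ℝ} (ha : PB a) (hq : PB q) (hP : PB P)
    (hN : PB N) (hE : ∀ y, Ep p q y = (1 - 1 / (p : ℝ)) * P y + 1 / (p : ℝ) * N y) :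
    I (fun x => a (p * x) * q x) =
      (1 - 1 / (p : ℝ)) * I (fun x => a x * P x) + 1 / (p : ℝ) * I (fun x => a x * N x) := by
  rw [← I_Ep hp ((ha.pull p).mul hq).integrableOn]
  have e : Ep p (fun x => a (p * x) * q x) = fun y =>
      (1 - 1 / (p : ℝ)) * (a y * P y) + 1 / (p : ℝ) * (a y * N y) := by
    funext y
    rw [Ep_pull_mul hp ha.per, hE]
    ring
  rw [e, I_add ((ha.mul hP).smul (one_sub_inv_nonneg hp)).integrableOn
    ((ha.mul hN).smul (by positivity)).integrableOn, I_smul, I_smul]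

lemma bil_cross {p : ℕ} (hp : 0 < p) {a q P N : κ → ℝ → ℝ} (ha : ∀ c, PB (a c))
    (hq : ∀ c, PB (q c)) (hP : ∀ c, PB (P c)) (hN : ∀ c, PB (N c)) {b : κ → ℝ → ℝ}
    (hb : ∀ c x, b c x = a c (p * x))
    (hE : ∀ c y, Ep p (q c) y = (1 - 1 / (p : ℝ)) * P c y + 1 / (p : ℝ) * N c y) :
    bil K b q = (1 - 1 / (p : ℝ)) * bil K a P + 1 / (p : ℝ) * bil K a N := by
  unfold bil
  rw [Finset.mul_sum, Finset.mul_sum, ← Finset.sum_add_distrib]
  refine Finset.sum_congr rfl fun c _ => ?_
  rw [Finset.mul_sum, Finset.mul_sum, ← Finset.sum_add_distrib]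
  refine Finset.sum_congr rfl fun c' _ => ?_
  have e : (fun x => b c x * q c' x) = fun x => a c (p * x) * q c' x :=
    funext fun x => by rw [hb]
  rw [e, I_cross hp (ha c) (hq c') (hP c') (hN c') (hE c')]
  ring

end bil

/-! ### energies of trees -/

section en
variable {Λ κ : Type} [Fintype Λ] [DecidableEq Λ] [Fintype κ] [DecidableEq κ]
  {δ : Type} [Fintype δ] [DecidableEq δ] (K : ℕ → δ → δ → ℝ) (wr : ℕ → Λ → δ)

/-- self energy of a node at the column `p` -/
noncomputable def sf (p : ℕ) (t : DT Λ κ) : ℝ := bil (K p) (cf (wr p) t) (cf (wr p) t)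

/-- leaf energies, by the classes of the last column -/
noncomputable def leU : ℕ → DT Λ κ → ℝ
  | p, .leaf r f => sf K wr p (.leaf r f)
  | _, .br q w _ t₁ t₀ _ _ _ => (1 - w) * leU q t₁ + w * leU q t₀
  | _, .add q _ t₁ t₀ => leU q t₁ + leU q t₀
  | _, .up q _ t => leU q t

/-- cross energies at the `add` nodes -/
noncomputable def dC : DT Λ κ → ℝ
  | .leaf _ _ => 0
  | .br _ w _ t₁ t₀ _ _ _ => (1 - w) * dC t₁ + w * dC t₀
  | .add q _ t₁ t₀ => dC t₁ + dC t₀ + 2 * bil (K q) (cf (wr q) t₁) (cf (wr q) t₀)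
  | .up _ _ t => dC t

/-- the linear part of the value -/
noncomputable def ph (p : ℕ) (t : DT Λ κ) : ℝ := leU K wr p t + dC K wr t - sf K wr p t

/-- energy of a bundle -/
noncomputable def E2 (p : ℕ) (L : List (DT Λ κ)) : ℝ := bil (K p) (bc (wr p) L) (bc (wr p) L)

/-- **the value of a bundle** -/
noncomputable def Psi (p : ℕ) (L : List (DT Λ κ)) : ℝ :=
  2 * ((L.map (ph K wr p)).sum + E2 K wr p L)

/-- **local join and leaf energy** -/
noncomputable def jl (p : ℕ) (L : List (DT Λ κ)) : ℝ :=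
  4 * (bil (K p) (bc (wr p) (bL p L)) (bc (wr p) (bB p L)) +
    bil (K p) (bc (wr p) (bL p L)) (bc (wr p) (bN p L)) +
    bil (K p) (bc (wr p) (bB p L)) (bc (wr p) (bN p L))) +
  2 * bil (K p) (bc (wr p) (bL p L)) (bc (wr p) (bL p L))

variable {K wr}

lemma cf_add (kd : Λ → δ) (q : ℕ) (r : Λ → κ) (t₁ t₀ : DT Λ κ) (c : δ) (x : ℝ) :
    cf kd (.add q r t₁ t₀) c x = cf kd t₁ c x + cf kd t₀ c x := by
  unfold GWb343.cf sm
  rw [← Finset.sum_add_distrib]
  rfl

lemma cf_up (kd : Λ → δ) (q : ℕ) (Sp : Finset Λ) (t : DT Λ κ) :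
    cf kd (.up q Sp t) = cf kd t := rfl

/-- all node functions are fine -/
def PA (t : DT Λ κ) : Prop := t.All fun t => ∀ j, PB (t.g.val j)

lemma PA.cf {t : DT Λ κ} (h : PA t) (kd : Λ → δ) (c : δ) : PB (GWb343.cf kd t c) :=
  PB_cf h.self c

/-- the linear part is additive under the resolution -/
lemma ph_rs (hK : ∀ p, Ker (K p)) (p : ℕ) {t : DT Λ κ} (h : PA t) :
    ((rs p t).map (ph K wr p)).sum = ph K wr p t := by
  induction t with
  | leaf r f => simp [rs]
  | br q w r t₁ t₀ v B G => simp [rs]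
  | add q r t₁ t₀ ih₁ ih₀ =>
    have h1 : PA t₁ := h.2.1
    have h0 : PA t₀ := h.2.2
    unfold rs
    split_ifs with hq
    · subst hq
      rw [List.map_append, List.sum_append, ih₁ h1, ih₀ h0]
      have e : sf K wr q (.add q r t₁ t₀) = sf K wr q t₁ + sf K wr q t₀ +
          2 * bil (K q) (cf (wr q) t₁) (cf (wr q) t₀) := by
        unfold sf
        have e1 : cf (wr q) (.add q r t₁ t₀) = fun c x => cf (wr q) t₁ c x + cf (wr q) t₀ c x :=
          funext fun c => funext fun x => cf_add _ _ _ _ _ _ _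
        rw [e1, bil_add2 (hK q) (h1.cf _) (h0.cf _)]
      unfold ph
      rw [e]
      show _ = leU K wr q t₁ + leU K wr q t₀ + (dC K wr t₁ + dC K wr t₀ +
        2 * bil (K q) (cf (wr q) t₁) (cf (wr q) t₀)) - _
      ring
    · simp
  | up q Sp t ih =>
    unfold rs
    split_ifs with hq
    · subst hq
      rw [ih h.2]
      rfl
    · simp

lemma ph_flat (hK : ∀ p, Ker (K p)) (p : ℕ) {L : List (DT Λ κ)} (h : PBA L) :
    ((L.flatMap (rs p)).map (ph K wr p)).sum = (L.map (ph K wr p)).sum := by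
  induction L with
  | nil => rfl
  | cons t L ih =>
    rw [List.flatMap_cons, List.map_append, List.sum_append, List.map_cons, List.sum_cons,
      ih fun s hs => h s (List.mem_cons_of_mem _ hs), ph_rs hK p (h t (by simp))]

lemma sum_filter_map (F : DT Λ κ → Bool) (φ : DT Λ κ → ℝ) (L : List (DT Λ κ)) :
    (L.map φ).sum = ((L.filter F).map φ).sum + ((L.filter fun t => !F t).map φ).sum := by
  induction L with
  | nil => simp
  | cons t L ih =>
    by_cases h : F t = true
    · rw [List.filter_cons_of_pos h, List.filter_cons_of_neg (by simp [h]), List.map_cons,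
        List.map_cons, List.sum_cons, List.sum_cons, ih]
      ring
    · rw [List.filter_cons_of_neg h, List.filter_cons_of_pos (by simpa using h), List.map_cons,
        List.map_cons, List.sum_cons, List.sum_cons, ih]
      ring

lemma isLf_eq {t : DT Λ κ} (h : isLf t = true) : ∃ r f, t = .leaf r f := by
  cases t with
  | leaf r f => exact ⟨r, f, rfl⟩
  | br q w r t₁ t₀ v B G => simp [isLf] at h
  | add q r t₁ t₀ => simp [isLf] at h
  | up q Sp t => simp [isLf] at h

lemma ph_leaf {p : ℕ} {t : DT Λ κ} (h : isLf t = true) : ph K wr p t = 0 := by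
  obtain ⟨r, f, rfl⟩ := isLf_eq h
  show sf K wr p (.leaf r f) + 0 - sf K wr p (.leaf r f) = 0
  ring

/-- the leaves do not depend on the column, below a nonleaf node -/
lemma leU_nl {p p' : ℕ} {t : DT Λ κ} (h : ¬ isLf t = true) : leU K wr p t = leU K wr p' t := by
  cases t with
  | leaf r f => exact absurd (by simp [isLf]) h
  | br q w r t₁ t₀ v B G => rfl
  | add q r t₁ t₀ => rfl
  | up q Sp t => rfl

/-- a resolved bundle -/
lemma ph_split (hK : ∀ p, Ker (K p)) (p : ℕ) {L : List (DT Λ κ)} (h : PBA L) :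
    (L.map (ph K wr p)).sum = ((bB p L).map (ph K wr p)).sum + ((bN p L).map (ph K wr p)).sum := by
  rw [← ph_flat hK p h, sum_filter_map (fun t => isB p t) (ph K wr p)]
  have e1 : (L.flatMap (rs p)).filter (fun t => isB p t) = bB p L := rfl
  have e2 : (L.flatMap (rs p)).filter (fun t => !isB p t) = bR p L := rfl
  rw [e1, e2, sum_filter_map (fun t => isLf t) (ph K wr p) (bR p L)]
  have e3 : (bR p L).filter (fun t => isLf t) = bL p L := rfl
  have e4 : (bR p L).filter (fun t => !isLf t) = bN p L := rfl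
  rw [e3, e4]
  have e5 : ((bL p L).map (ph K wr p)).sum = 0 := by
    refine List.sum_eq_zero fun y hy => ?_
    obtain ⟨t, ht, rfl⟩ := List.mem_map.1 hy
    exact ph_leaf (List.mem_filter.1 ht).2
  rw [e5]
  ring

/-- the energy of a bundle in its three parts -/
lemma E2_split (hK : ∀ p, Ker (K p)) (p : ℕ) {L : List (DT Λ κ)} (h : PBA L) :
    2 * E2 K wr p L = jl K wr p L + 2 * E2 K wr p (bB p L) +
      2 * bil (K p) (bc (wr p) (bN p L)) (bc (wr p) (bN p L)) := by
  have h1 : ∀ c, PB (bc (wr p) (bL p L) c) := fun c => PB_bc (h.bL p).self c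
  have h2 : ∀ c, PB (bc (wr p) (bB p L) c) := fun c => PB_bc (h.bB p).self c
  have h3 : ∀ c, PB (bc (wr p) (bN p L) c) := fun c => PB_bc (h.bN p).self c
  have e : bc (wr p) L = fun c x => (bc (wr p) (bL p L) c x + bc (wr p) (bB p L) c x) +
      bc (wr p) (bN p L) c x := funext fun c => funext fun x => bc_split3 _ _ _ _ _
  unfold E2 jl
  rw [e, bil_add2 (hK p) (fun c => (h1 c).add (h2 c)) h3, bil_add2 (hK p) h1 h2,
    bil_add_left h1 h2 h3]
  ring

/-! ### the column -/

/-- **ties and pulls of a bundle** at the column `p`, item level -/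
structure TOk (p : ℕ) (K : List (DT Λ κ)) : Prop where
  isb : ∀ t ∈ K, isB p t = true
  wok : ∀ t ∈ K, WOk p t
  mean : ∀ t ∈ K, ∀ j y, Ep p (t.g.val j) y = (1 - 1 / (p : ℝ)) * (chP t).g.val j y +
    1 / (p : ℝ) * (chN t).g.val j y
  pull : ∀ t ∈ K, wT t = 0 → ∀ j x, t.g.val j x = (chP t).g.val j (p * x)
  one : (K.filter fun t => decide (wT t ≠ 0)).length ≤ 1

lemma TOk.tail {p : ℕ} {t : DT Λ κ} {L : List (DT Λ κ)} (h : TOk p (t :: L)) : TOk p L where
  isb := fun s hs => h.isb s (List.mem_cons_of_mem _ hs)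
  wok := fun s hs => h.wok s (List.mem_cons_of_mem _ hs)
  mean := fun s hs => h.mean s (List.mem_cons_of_mem _ hs)
  pull := fun s hs => h.pull s (List.mem_cons_of_mem _ hs)
  one := by
    have := h.one
    by_cases hw : wT t ≠ 0
    · rw [List.filter_cons_of_pos (by simpa using hw), List.length_cons] at this
      omega
    · rw [List.filter_cons_of_neg (by simpa using hw)] at this
      exact this

lemma TOk.head {p : ℕ} {t : DT Λ κ} {L : List (DT Λ κ)} (h : TOk p (t :: L)) : TOk p [t] where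
  isb := fun s hs => h.isb s (by rw [List.mem_singleton.1 hs]; simp)
  wok := fun s hs => h.wok s (by rw [List.mem_singleton.1 hs]; simp)
  mean := fun s hs => h.mean s (by rw [List.mem_singleton.1 hs]; simp)
  pull := fun s hs => h.pull s (by rw [List.mem_singleton.1 hs]; simp)
  one := (List.length_filter_le _ _).trans (by simp)

/-- a pull has the same child twice -/
lemma chN_pull {p : ℕ} {t : DT Λ κ} (hb : isB p t = true) (hw : wT t = 0) : chN t = chP t := by
  obtain ⟨w, r, t₁, t₀, v, B, G, e⟩ := isB_eq hb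
  subst e
  have h0 : w = 0 := hw
  have e5 : chN (DT.br p w r t₁ t₀ v B G) = if w = 0 then t₁ else t₀ := rfl
  rw [e5, if_pos h0]
  rfl

/-- all the members of `L` are pulls : the content is pulled -/
lemma bc_pull {p : ℕ} {L : List (DT Λ κ)} (h : TOk p L) (hz : ∀ t ∈ L, wT t = 0) (kd : Λ → δ)
    (c : δ) : (∀ x, bc kd L c x = bc kd (L.map chP) c (p * x)) ∧ L.map chN = L.map chP := by
  constructor
  · intro x
    induction L with
    | nil => rfl
    | cons t L ih =>
      rw [List.map_cons, bc_cons, bc_cons, ih h.tail fun s hs => hz s (List.mem_cons_of_mem _ hs)]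
      congr 1
      unfold GWb343.cf sm
      exact Finset.sum_congr rfl fun j _ => h.pull t (by simp) (hz t (by simp)) j x
  · exact List.map_congr_left fun t ht => chN_pull (h.isb t ht) (hz t ht)

lemma Ep_cf {p : ℕ} {t : DT Λ κ} (h : TOk p [t]) (kd : Λ → δ) (c : δ) (y : ℝ) :
    Ep p (cf kd t c) y = (1 - 1 / (p : ℝ)) * cf kd (chP t) c y + 1 / (p : ℝ) * cf kd (chN t) c y := by
  unfold GWb343.cf sm
  rw [Grp36.Ep_sum', Finset.mul_sum, Finset.mul_sum, ← Finset.sum_add_distrib]
  exact Finset.sum_congr rfl fun j _ => h.mean t (by simp) j y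

/-- the mean of a bundle -/
lemma Ep_bc {p : ℕ} {L : List (DT Λ κ)} (h : TOk p L) (kd : Λ → δ) (c : δ) (y : ℝ) :
    Ep p (bc kd L c) y = (1 - 1 / (p : ℝ)) * bc kd (L.map chP) c y +
      1 / (p : ℝ) * bc kd (L.map chN) c y := by
  induction L with
  | nil =>
    have e : bc kd ([] : List (DT Λ κ)) c = fun _ => 0 := rfl
    rw [e]
    simp [Ep]
  | cons t L ih =>
    have e : bc kd (t :: L) c = fun x => cf kd t c x + bc kd L c x :=
      funext fun x => bc_cons _ _ _ _ _
    rw [e, Ep_add, ih h.tail, Ep_cf h.head, List.map_cons, List.map_cons, bc_cons, bc_cons]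
    ring

lemma bc_one (kd : Λ → δ) (t : DT Λ κ) (c : δ) (x : ℝ) : bc kd [t] c x = cf kd t c x := by
  rw [bc_cons, bc_nil, add_zero]

/-- cross energy of a member and the others -/
lemma cross {p : ℕ} (hp : 0 < p) {t : DT Λ κ} {L : List (DT Λ κ)} (hb : TOk p (t :: L))
    (hK : Ker (K p)) (h : PBA (t :: L)) (hP : PBA ((t :: L).map chP))
    (hN : PBA ((t :: L).map chN)) :
    bil (K p) (cf (wr p) t) (bc (wr p) L) =
      (1 - 1 / (p : ℝ)) * bil (K p) (cf (wr p) (chP t)) (bc (wr p) (L.map chP)) +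
      1 / (p : ℝ) * bil (K p) (cf (wr p) (chN t)) (bc (wr p) (L.map chN)) := by
  have pt : ∀ c, PB (cf (wr p) t c) := fun c => PB_cf (h t (by simp)).self c
  have pL : ∀ c, PB (bc (wr p) L c) := fun c =>
    PB_bc (fun s hs => (h s (List.mem_cons_of_mem _ hs)).self) c
  have pP : ∀ c, PB (cf (wr p) (chP t) c) := fun c => PB_cf (hP (chP t) (by simp)).self c
  have pN : ∀ c, PB (cf (wr p) (chN t) c) := fun c => PB_cf (hN (chN t) (by simp)).self c
  have pLP : ∀ c, PB (bc (wr p) (L.map chP) c) := fun c => PB_bc (fun s hs =>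
    (hP s (by rw [List.map_cons]; exact List.mem_cons_of_mem _ hs)).self) c
  have pLN : ∀ c, PB (bc (wr p) (L.map chN) c) := fun c => PB_bc (fun s hs =>
    (hN s (by rw [List.map_cons]; exact List.mem_cons_of_mem _ hs)).self) c
  by_cases hw : wT t = 0
  · -- `t` is a pull
    have e1 : ∀ c x, cf (wr p) t c x = cf (wr p) (chP t) c (p * x) := by
      intro c x
      unfold GWb343.cf sm
      exact Finset.sum_congr rfl fun j _ => hb.pull t (by simp) hw j x
    rw [chN_pull (hb.isb t (by simp)) hw]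
    exact bil_cross hp pP pL pLP pLN e1 (fun c y => Ep_bc hb.tail _ c y)
  · -- all the other members are pulls
    have hz0 : ∀ s ∈ L, wT s = 0 := by
      intro s hs
      by_contra h2
      have h3 := hb.one
      rw [List.filter_cons_of_pos (by simpa using hw), List.length_cons] at h3
      have h4 : s ∈ L.filter fun t => decide (wT t ≠ 0) := List.mem_filter.2 ⟨hs, by simpa using h2⟩
      have := List.length_pos_of_mem h4
      omega
    have hz := fun c => bc_pull hb.tail hz0 (wr p) c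
    have e2 : L.map chN = L.map chP := by
      exact List.map_congr_left fun s hs => chN_pull (hb.isb s (List.mem_cons_of_mem _ hs)) (hz0 s hs)
    rw [e2, bil_symm hK (f := cf (wr p) t), bil_symm hK (f := cf (wr p) (chP t)),
      bil_symm hK (f := cf (wr p) (chN t))]
    exact bil_cross hp pLP pt pP pN (fun c x => (hz c).1 x) fun c y => Ep_cf hb.head _ c y

/-- the cross energies of a bundle of ties and pulls -/
lemma E2_col {p : ℕ} (hp : 0 < p) (hK : Ker (K p)) : ∀ {L : List (DT Λ κ)}, TOk p L →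
    PBA L → PBA (L.map chP) → PBA (L.map chN) →
    E2 K wr p L - (L.map (sf K wr p)).sum =
      (1 - 1 / (p : ℝ)) * (E2 K wr p (L.map chP) - ((L.map chP).map (sf K wr p)).sum) +
      1 / (p : ℝ) * (E2 K wr p (L.map chN) - ((L.map chN).map (sf K wr p)).sum)
  | [], _, _, _, _ => by
    have e : E2 K wr p ([] : List (DT Λ κ)) = 0 := by
      unfold E2
      have : bc (wr p) ([] : List (DT Λ κ)) = fun _ _ => 0 := rfl
      rw [this]
      exact bil_zero_left
    simp [e]
  | t :: L, hb, h, hP, hN => by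
    have ih := E2_col hp hK hb.tail (fun s hs => h s (List.mem_cons_of_mem _ hs))
      (fun s hs => hP s (by rw [List.map_cons]; exact List.mem_cons_of_mem _ hs))
      (fun s hs => hN s (by rw [List.map_cons]; exact List.mem_cons_of_mem _ hs))
    have hc := cross (wr := wr) hp hb hK h hP hN
    have e : ∀ (s : DT Λ κ) (M : List (DT Λ κ)), PBA (s :: M) →
        E2 K wr p (s :: M) = sf K wr p s + E2 K wr p M + 2 * bil (K p) (cf (wr p) s) (bc (wr p) M) := by
      intro s M hM
      unfold E2 sf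
      have e1 : bc (wr p) (s :: M) = fun c x => cf (wr p) s c x + bc (wr p) M c x :=
        funext fun c => funext fun x => bc_cons _ _ _ _ _
      rw [e1, bil_add2 hK (fun c => PB_cf (hM s (by simp)).self c)
        (fun c => PB_bc (fun u hu => (hM u (List.mem_cons_of_mem _ hu)).self) c)]
    simp only [List.map_cons, List.sum_cons] at hP hN ⊢
    rw [e t L h, e _ _ hP, e _ _ hN]
    linarith

lemma ph_col {p : ℕ} (hp : 0 < p) {t : DT Λ κ} (hb : isB p t = true) (hw : WOk p t) :
    ph K wr p t = (1 - 1 / (p : ℝ)) * ph K wr p (chP t) + 1 / (p : ℝ) * ph K wr p (chN t) +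
      ((1 - 1 / (p : ℝ)) * sf K wr p (chP t) + 1 / (p : ℝ) * sf K wr p (chN t) - sf K wr p t) := by
  have hp' : (p : ℝ) ≠ 0 := by exact_mod_cast hp.ne'
  obtain ⟨w, r, t₁, t₀, v, B, G, e⟩ := isB_eq hb
  subst e
  have h3 : w = 1 / (p : ℝ) ∨ w = 0 := hw
  have e5 : chN (DT.br p w r t₁ t₀ v B G) = if w = 0 then t₁ else t₀ := rfl
  have e6 : chP (DT.br p w r t₁ t₀ v B G) = t₁ := rfl
  have e7 : leU K wr p (DT.br p w r t₁ t₀ v B G) = (1 - w) * leU K wr p t₁ + w * leU K wr p t₀ := rfl
  have e8 : dC K wr (DT.br p w r t₁ t₀ v B G) = (1 - w) * dC K wr t₁ + w * dC K wr t₀ := rfl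
  unfold ph
  rw [e5, e6, e7, e8]
  by_cases hw0 : w = 0
  · rw [if_pos hw0, hw0]; ring
  · rw [if_neg hw0, h3.resolve_right hw0]; ring

lemma sum_map3 {α : Type*} (L : List α) (a b d : α → ℝ) (u v : ℝ) :
    (L.map fun t => u * a t + v * b t + d t).sum =
      u * (L.map a).sum + v * (L.map b).sum + (L.map d).sum := by
  induction L with
  | nil => simp
  | cons t L ih => simp only [List.map_cons, List.sum_cons, ih]; ring

/-- **the column, exact** -/
theorem Psi_col {p : ℕ} (hp : 0 < p) (hK : Ker (K p)) {L : List (DT Λ κ)} (hb : TOk p L)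
    (h : PBA L) (hP : PBA (L.map chP)) (hN : PBA (L.map chN)) :
    Psi K wr p L = (1 - 1 / (p : ℝ)) * Psi K wr p (L.map chP) +
      1 / (p : ℝ) * Psi K wr p (L.map chN) := by
  have h1 := E2_col (wr := wr) hp hK hb h hP hN
  have h2 : (L.map (ph K wr p)).sum = (1 - 1 / (p : ℝ)) * (L.map fun t => ph K wr p (chP t)).sum +
      1 / (p : ℝ) * (L.map fun t => ph K wr p (chN t)).sum +
      (L.map fun t => (1 - 1 / (p : ℝ)) * sf K wr p (chP t) + 1 / (p : ℝ) * sf K wr p (chN t) +
        (-1) * sf K wr p t).sum := by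
    rw [← sum_map3]
    congr 1
    refine List.map_congr_left fun t ht => ?_
    rw [ph_col hp (hb.isb t ht) (hb.wok t ht)]
    ring
  have h3 : (L.map fun t => (1 - 1 / (p : ℝ)) * sf K wr p (chP t) + 1 / (p : ℝ) * sf K wr p (chN t) +
        (-1) * sf K wr p t).sum = (1 - 1 / (p : ℝ)) * (L.map fun t => sf K wr p (chP t)).sum +
        1 / (p : ℝ) * (L.map fun t => sf K wr p (chN t)).sum +
        (L.map fun t => (-1) * sf K wr p t).sum := sum_map3 _ _ _ _ _ _
  have h4 : (L.map fun t => (-1) * sf K wr p t).sum = - (L.map (sf K wr p)).sum := by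
    rw [List.sum_map_mul_left]; ring
  have e1 : ∀ (f : DT Λ κ → DT Λ κ) (φ : DT Λ κ → ℝ), ((L.map f).map φ).sum =
      (L.map fun t => φ (f t)).sum := fun f φ => by rw [List.map_map]; rfl
  rw [e1, e1] at h1
  unfold Psi
  rw [h2, h3, h4, e1, e1]
  linarith

/-! ### the step -/

lemma Psi_rest (p p' : ℕ) {L : List (DT Λ κ)} (hl : L.length ≤ 1) (hn : ∀ t ∈ L, ¬ isLf t = true) :
    Psi K wr p L = Psi K wr p' L := by
  rcases L with _ | ⟨t, _ | ⟨s, L⟩⟩
  · unfold Psi E2
    have : ∀ k, bc (wr k) ([] : List (DT Λ κ)) = fun _ _ => 0 := fun k => rfl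
    rw [this, this, bil_zero_left, bil_zero_left]
    simp
  · have e : ∀ k, bc (wr k) [t] = cf (wr k) t := fun k =>
      funext fun c => funext fun x => bc_one _ _ _ _
    unfold Psi E2 ph sf
    rw [e, e]
    simp only [List.map_cons, List.map_nil, List.sum_cons, List.sum_nil]
    rw [leU_nl (p := p) (p' := p') (hn t (by simp))]
    ring
  · simp at hl

/-- **the exact step** -/
theorem Psi_step {p : ℕ} (hp : 0 < p) (hK : ∀ p, Ker (K p)) {L : List (DT Λ κ)} (h : PBA L)
    (hb : TOk p (bB p L)) (hl : (bN p L).length ≤ 1) :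
    Psi K wr p L = jl K wr p L + ((1 - 1 / (p : ℝ)) * Psi K wr p ((bB p L).map chP) +
      1 / (p : ℝ) * Psi K wr p ((bB p L).map chN)) + Psi K wr (p - 1) (bN p L) := by
  rw [← Psi_col (wr := wr) hp (hK p) hb (h.bB p) (h.chP p) (h.chN p)]
  have hn : ∀ t ∈ bN p L, ¬ isLf t = true := fun t ht => by
    have := (List.mem_filter.1 ht).2
    simpa using this
  rw [← Psi_rest p (p - 1) hl hn]
  have h1 := ph_split (wr := wr) hK p h
  have h2 := E2_split (wr := wr) hK p h
  unfold Psi
  rw [h1]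
  unfold E2 at h2 ⊢
  linarith

/-! ### nonnegativity -/

lemma sf_nonneg {p : ℕ} (hK : Ker (K p)) {t : DT Λ κ} (h : PA t) : 0 ≤ sf K wr p t :=
  bil_nonneg hK (h.cf _) (h.cf _)

/-- weights of the nodes -/
def W01 : DT Λ κ → Prop
  | .br _ w _ _ _ _ _ _ => 0 ≤ w ∧ w ≤ 1
  | _ => True

lemma leU_nonneg (hK : ∀ p, Ker (K p)) {t : DT Λ κ} (h : PA t) (hw : t.All W01) :
    ∀ p, 0 ≤ leU K wr p t := by
  induction t with
  | leaf r f => exact fun p => sf_nonneg (hK p) h
  | br q w r t₁ t₀ v B G ih₁ ih₀ =>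
    intro p
    have h1 := ih₁ h.2.1 hw.2.1 q
    have h0 := ih₀ h.2.2 hw.2.2 q
    have h2 : 0 ≤ w ∧ w ≤ 1 := hw.1
    exact add_nonneg (mul_nonneg (by linarith [h2.2]) h1) (mul_nonneg h2.1 h0)
  | add q r t₁ t₀ ih₁ ih₀ => exact fun p => add_nonneg (ih₁ h.2.1 hw.2.1 q) (ih₀ h.2.2 hw.2.2 q)
  | up q Sp t ih => exact fun p => ih h.2 hw.2 q

lemma dC_nonneg (hK : ∀ p, Ker (K p)) {t : DT Λ κ} (h : PA t) (hw : t.All W01) :
    0 ≤ dC K wr t := by
  induction t with
  | leaf r f => exact le_rfl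
  | br q w r t₁ t₀ v B G ih₁ ih₀ =>
    have h2 : 0 ≤ w ∧ w ≤ 1 := hw.1
    exact add_nonneg (mul_nonneg (by linarith [h2.2]) (ih₁ h.2.1 hw.2.1))
      (mul_nonneg h2.1 (ih₀ h.2.2 hw.2.2))
  | add q r t₁ t₀ ih₁ ih₀ =>
    have h1 : PA t₁ := h.2.1
    have h0 : PA t₀ := h.2.2
    exact add_nonneg (add_nonneg (ih₁ h.2.1 hw.2.1) (ih₀ h.2.2 hw.2.2))
      (mul_nonneg (by norm_num) (bil_nonneg (hK q) (h1.cf _) (h0.cf _)))
  | up q Sp t ih => exact ih h.2 hw.2

lemma E2_ge {p : ℕ} (hK : Ker (K p)) : ∀ {L : List (DT Λ κ)}, PBA L →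
    (L.map (sf K wr p)).sum ≤ E2 K wr p L
  | [], _ => by
    have e : E2 K wr p ([] : List (DT Λ κ)) = 0 := by
      unfold E2
      have : bc (wr p) ([] : List (DT Λ κ)) = fun _ _ => 0 := rfl
      rw [this]
      exact bil_zero_left
    simp [e]
  | t :: L, h => by
    have hL : PBA L := fun s hs => h s (List.mem_cons_of_mem _ hs)
    have ih := E2_ge hK hL
    have pt : ∀ c, PB (cf (wr p) t c) := fun c => PB_cf (h t (by simp)).self c
    have pL : ∀ c, PB (bc (wr p) L c) := fun c => PB_bc hL.self c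
    have e1 : bc (wr p) (t :: L) = fun c x => cf (wr p) t c x + bc (wr p) L c x :=
      funext fun c => funext fun x => bc_cons _ _ _ _ _
    have e2 : E2 K wr p (t :: L) = sf K wr p t + E2 K wr p L +
        2 * bil (K p) (cf (wr p) t) (bc (wr p) L) := by
      unfold E2 sf
      rw [e1, bil_add2 hK pt pL]
    have h2 := bil_nonneg hK pt pL
    rw [e2, List.map_cons, List.sum_cons]
    linarith

lemma Psi_nonneg (hK : ∀ p, Ker (K p)) {p : ℕ} {L : List (DT Λ κ)} (h : PBA L)
    (hw : ∀ t ∈ L, t.All W01) : 0 ≤ Psi K wr p L := by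
  have h1 := E2_ge (wr := wr) (hK p) h
  have h2 : 0 ≤ (L.map (ph K wr p)).sum + (L.map (sf K wr p)).sum := by
    rw [← List.sum_map_add]
    refine List.sum_nonneg fun y hy => ?_
    obtain ⟨t, ht, rfl⟩ := List.mem_map.1 hy
    have h3 := leU_nonneg (wr := wr) hK (h t ht) (hw t ht) p
    have h4 := dC_nonneg (wr := wr) hK (h t ht) (hw t ht)
    show 0 ≤ leU K wr p t + dC K wr t - sf K wr p t + sf K wr p t
    linarith
  unfold Psi
  linarith

/-- **the value of one tree** -/
lemma Psi_single (p : ℕ) (t : DT Λ κ) : Psi K wr p [t] = 2 * (leU K wr p t + dC K wr t) := by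
  have e : bc (wr p) [t] = cf (wr p) t := funext fun c => funext fun x => bc_one _ _ _ _
  unfold Psi E2 ph sf
  rw [e]
  simp

/-! ### the real bundles -/

/-- the ties and pulls of a real bundle -/
theorem TOk.of_BI {F : DT Λ κ → Prop} {p : ℕ} {L : List (DT Λ κ)} (hp : 0 < p) (h : BI F p L)
    (h1 : ∀ t, F t → WOk p t) (h2 : ∀ t, F t → IMean t) (h3 : ∀ t, F t → VR407.VR t) :
    TOk p (bB p L) where
  isb := fun t ht => isB_of_bB ht
  wok := fun t ht => h1 _ (h.bB.all t ht).self
  mean := fun t ht j y => by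
    obtain ⟨w, r, t₁, t₀, v, B, G, e⟩ := isB_eq (isB_of_bB ht)
    have hw := h1 _ (h.bB.all t ht).self
    have hm := h2 _ (h.bB.all t ht).self
    subst e
    have h4 : w = 1 / (p : ℝ) ∨ w = 0 := hw
    obtain ⟨a1, a2, a3, a4⟩ := hm
    have e5 : chN (DT.br p w r t₁ t₀ v B G) = if w = 0 then t₁ else t₀ := rfl
    have e6 : chP (DT.br p w r t₁ t₀ v B G) = t₁ := rfl
    have e7 : (DT.br p w r t₁ t₀ v B G).g.val j = v j := rfl
    rw [e5, e6, e7, a4 j y]
    rcases h4 with h5 | h5
    · have hp' : (p : ℝ) ≠ 0 := by exact_mod_cast hp.ne'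
      rw [if_neg (by rw [h5]; positivity), h5]
    · rw [if_pos h5, h5]; ring
  pull := fun t ht hw j x => by
    obtain ⟨w, r, t₁, t₀, v, B, G, e⟩ := isB_eq (isB_of_bB ht)
    have hv := h3 _ (h.bB.all t ht).self
    subst e
    have h0 : w = 0 := hw
    rcases hv with ⟨a1, a2, -⟩ | ⟨a1, a2, -⟩
    · exfalso
      rw [h0] at a1
      have hp' : (0 : ℝ) < 1 / (p : ℝ) := by positivity
      linarith
    · exact a2 j x
  one := h.one

/-! ### sizes -/

/-- size of a bundle -/
def siz (L : List (DT Λ κ)) : ℕ := (L.map DT.size).sum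

lemma size_pos (t : DT Λ κ) : 1 ≤ t.size := by
  cases t <;> simp [DT.size]

lemma siz_zero {L : List (DT Λ κ)} (h : siz L = 0) : L = [] := by
  cases L with
  | nil => rfl
  | cons t L =>
    have h1 := size_pos t
    have h2 : siz (t :: L) = t.size + siz L := by simp [siz]
    omega

lemma siz_append (L K : List (DT Λ κ)) : siz (L ++ K) = siz L + siz K := by simp [siz]

lemma siz_rs (p : ℕ) (t : DT Λ κ) : siz (rs p t) ≤ t.size := by
  induction t with
  | leaf r f => simp [rs, siz, DT.size]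
  | br q w r t₁ t₀ v B G => simp [rs, siz]
  | add q r t₁ t₀ ih₁ ih₀ =>
    unfold rs
    split_ifs
    · rw [siz_append]
      have : (DT.add q r t₁ t₀).size = t₁.size + t₀.size + 1 := rfl
      omega
    · simp [siz]
  | up q Sp t ih =>
    unfold rs
    split_ifs
    · have : (DT.up q Sp t).size = t.size + 1 := rfl
      omega
    · simp [siz]

lemma siz_flat (p : ℕ) (L : List (DT Λ κ)) : siz (L.flatMap (rs p)) ≤ siz L := by
  induction L with
  | nil => simp [siz]
  | cons t L ih =>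
    rw [List.flatMap_cons, siz_append]
    have h1 := siz_rs p t
    have h2 : siz (t :: L) = t.size + siz L := by simp [siz]
    omega

lemma siz_filter (f : DT Λ κ → Bool) (L : List (DT Λ κ)) : siz (L.filter f) ≤ siz L := by
  induction L with
  | nil => simp [siz]
  | cons t L ih =>
    have h2 : siz (t :: L) = t.size + siz L := by simp [siz]
    by_cases h : f t = true
    · rw [List.filter_cons_of_pos h]
      have h3 : siz (t :: L.filter f) = t.size + siz (L.filter f) := by simp [siz]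
      omega
    · rw [List.filter_cons_of_neg h]
      omega

lemma siz_bN (p : ℕ) (L : List (DT Λ κ)) : siz (bN p L) ≤ siz L :=
  (siz_filter _ _).trans ((siz_filter _ _).trans (siz_flat p L))

lemma siz_bB (p : ℕ) (L : List (DT Λ κ)) : siz (bB p L) ≤ siz L :=
  (siz_filter _ _).trans (siz_flat p L)

lemma size_ch {p : ℕ} {t : DT Λ κ} (hb : isB p t = true) :
    (chP t).size + 1 ≤ t.size ∧ (chN t).size + 1 ≤ t.size := by
  obtain ⟨w, r, t₁, t₀, v, B, G, e⟩ := isB_eq hb
  subst e
  have e5 : chN (DT.br p w r t₁ t₀ v B G) = if w = 0 then t₁ else t₀ := rfl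
  have e6 : chP (DT.br p w r t₁ t₀ v B G) = t₁ := rfl
  have e7 : (DT.br p w r t₁ t₀ v B G).size = t₁.size + t₀.size + 1 := rfl
  rw [e5, e6, e7]
  constructor
  · omega
  · split_ifs <;> omega

lemma siz_map {f : DT Λ κ → DT Λ κ} : ∀ {L : List (DT Λ κ)}, (∀ t ∈ L, (f t).size + 1 ≤ t.size) →
    siz (L.map f) + L.length ≤ siz L
  | [], _ => by simp [siz]
  | t :: L, h => by
    have ih := siz_map (L := L) fun s hs => h s (List.mem_cons_of_mem _ hs)
    have h1 := h t (by simp)
    have h2 : siz (t :: L) = t.size + siz L := by simp [siz]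
    have h3 : siz ((t :: L).map f) = (f t).size + siz (L.map f) := by simp [siz]
    rw [List.length_cons]
    omega

lemma siz_ch {f : DT Λ κ → DT Λ κ} {p : ℕ} {L : List (DT Λ κ)}
    (h : ∀ t ∈ bB p L, (f t).size + 1 ≤ t.size) :
    siz ((bB p L).map f) = 0 ∨ siz ((bB p L).map f) + 1 ≤ siz L := by
  rcases List.eq_nil_or_concat (bB p L) with h0 | ⟨K, t, h0⟩
  · left
    rw [h0]
    simp [siz]
  · right
    have h1 := siz_map h
    have h2 := siz_bB p L
    have h3 : 1 ≤ (bB p L).length := by rw [h0]; simp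
    omega

end en

end Crest.Agent.R4P.JnE5
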