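import Crest.Agent.R4P.PosP_33

/-!
R4 (S0004) with powers, helper33: **permissive labels in root coordinates** (helper10 8094 (6), helper32
10435): the definitions and the pure level of `StM_6` (helper6) for the labels `LabP e`, `e = (u, v)`.

`lab0P e`, `own e`, `sl e`, `acc e`, `sla e`, `gl e` : same names and the same lemmas as in `StM6`, with `e` as the first
explicit argument; the real states are the real ones (`StM6.own`), `dense`, `d5` are unchanged.
* `LabP.unique`, `labP_of_lab`, `labRP_iff`, `own_spec`, `own_of`, `own_of_real`;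
* `sl_spec`, `sla_some`, `sla_none`, `sla_of_own`, `gl_own`, `sla_cons`, `static_cases`, `miss_cases`;
* `two_acc`, `birth_ineq`.
-/

set_option autoImplicit false
set_option linter.unusedSectionVars false
set_option linter.unusedVariables false

namespace Crest.Agent.R4P.LabD33

open Crest.Agent.R4.LF363 Crest.Agent.R4.W363
open Crest.Agent.R4P.FinL21 (labR_iff den_le den_dvd)
open Crest.Agent.R4P.PosD33 (fifth le_of_pow5)
open Crest.Agent.R4P.PosP33
open Crest.Agent.R4P.StM6 (d5 dense d5_pos one_le_d5 d5_anti dense_mul dense_anti)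

variable {e : UV} {γ ψ t t' : ℝ} {b s : ℕ} {σ τ ρ κ : ℚ} {L : List ℕ} {st st' : Option ℚ}

/-! ### permissive labels: uniqueness, comparison with the real labels -/

lemma num17 : 32 * (1 / 10 : ℝ) ^ (17 / 10 : ℝ) < 1 := by
  by_contra hc
  push Not at hc
  have h9 : (1 : ℝ) ≤ (32 * (1 / 10 : ℝ) ^ (17 / 10 : ℝ)) ^ 10 := one_le_pow₀ hc
  have h10 : ((1 / 10 : ℝ) ^ (17 / 10 : ℝ)) ^ 10 = (1 / 10) ^ 17 := by
    rw [← Real.rpow_natCast, ← Real.rpow_mul (by norm_num), ← Real.rpow_natCast]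
    norm_num
  rw [mul_pow, h10] at h9
  norm_num at h9

/-- two rationals which are both accurate, with small denominators: equal -/
lemma uniq_aux {θ R : ℝ} (h0 : 0 < R) (h1 : R ≤ 1 / 10) {ρ σ : ℚ}
    (h : |θ - ρ| ^ 5 ≤ R ^ (4 * (1 - e.v))) (h' : |θ - σ| ^ 5 ≤ R ^ (4 * (1 - e.v)))
    (hd : ((ρ.den : ℝ) * σ.den) ^ 5 * R ^ (2 * (1 + e.u)) ≤ 1) : ρ = σ := by
  by_contra hne
  have g := rat_gap hne
  set x := |θ - ρ| with hx
  set y := |θ - σ| with hy
  have hx0 : 0 ≤ x := abs_nonneg _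
  have hy0 : 0 ≤ y := abs_nonneg _
  have h3 : |(ρ : ℝ) - σ| ≤ x + y := by
    have e : (ρ : ℝ) - σ = (θ - σ) - (θ - ρ) := by ring
    rw [e]
    refine (abs_sub _ _).trans ?_
    rw [← hx, ← hy]; linarith
  have h4 : x + y ≤ 2 * max x y := by
    have := le_max_left x y
    have := le_max_right x y
    linarith
  have h5 : (max x y) ^ 5 ≤ R ^ (4 * (1 - e.v)) := by
    rcases max_choice x y with h6 | h6
    · rw [h6]; exact h
    · rw [h6]; exact h'
  have hk : (0 : ℝ) < (ρ.den : ℝ) * σ.den := by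
    have a1 : (0 : ℝ) < ρ.den := by exact_mod_cast ρ.den_pos
    have a2 : (0 : ℝ) < σ.den := by exact_mod_cast σ.den_pos
    positivity
  have h6 : 1 ≤ (2 * max x y) * ((ρ.den : ℝ) * σ.den) :=
    g.trans (mul_le_mul_of_nonneg_right (h3.trans h4) hk.le)
  have h7 : (1 : ℝ) ≤ ((2 * max x y) * ((ρ.den : ℝ) * σ.den)) ^ 5 := one_le_pow₀ h6
  have h8 : ((2 * max x y) * ((ρ.den : ℝ) * σ.den)) ^ 5 ≤
      32 * R ^ (4 * (1 - e.v)) * ((ρ.den : ℝ) * σ.den) ^ 5 := by
    calc ((2 * max x y) * ((ρ.den : ℝ) * σ.den)) ^ 5 =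
          32 * (max x y) ^ 5 * ((ρ.den : ℝ) * σ.den) ^ 5 := by ring
      _ ≤ _ := by
          refine mul_le_mul_of_nonneg_right ?_ (by positivity)
          linarith
  -- `R^(4(1-v)) = R^(2(1+u)) R^s`, `s ≥ 17/10`
  have e1 : R ^ (4 * (1 - e.v)) ≤ R ^ (2 * (1 + e.u)) * R ^ (17 / 10 : ℝ) := by
    rw [← Real.rpow_add h0]
    exact Real.rpow_le_rpow_of_exponent_ge h0 (by linarith) (by linarith [e.u1, e.v1])
  have e2 : R ^ (17 / 10 : ℝ) ≤ (1 / 10 : ℝ) ^ (17 / 10 : ℝ) :=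
    Real.rpow_le_rpow h0.le h1 (by norm_num)
  have e3 := num17
  have hR2 : 0 ≤ R ^ (2 * (1 + e.u)) := Real.rpow_nonneg h0.le _
  have h11 : 32 * R ^ (4 * (1 - e.v)) * ((ρ.den : ℝ) * σ.den) ^ 5 ≤
      32 * (1 / 10 : ℝ) ^ (17 / 10 : ℝ) := by
    calc 32 * R ^ (4 * (1 - e.v)) * ((ρ.den : ℝ) * σ.den) ^ 5
        ≤ 32 * (R ^ (2 * (1 + e.u)) * (1 / 10 : ℝ) ^ (17 / 10 : ℝ)) *
          ((ρ.den : ℝ) * σ.den) ^ 5 := by
          refine mul_le_mul_of_nonneg_right ?_ (by positivity)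
          refine mul_le_mul_of_nonneg_left (e1.trans ?_) (by norm_num)
          exact mul_le_mul_of_nonneg_left e2 hR2
      _ = 32 * (1 / 10 : ℝ) ^ (17 / 10 : ℝ) *
          (((ρ.den : ℝ) * σ.den) ^ 5 * R ^ (2 * (1 + e.u))) := by ring
      _ ≤ 32 * (1 / 10 : ℝ) ^ (17 / 10 : ℝ) * 1 :=
          mul_le_mul_of_nonneg_left hd (by positivity)
      _ = _ := mul_one _
  linarith

/-- **uniqueness** -/
theorem LabP.unique {θ R : ℝ} (h : LabP e θ R ρ) (h' : LabP e θ R σ) : ρ = σ := by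
  refine uniq_aux h.pos h.le h.near h'.near ?_
  have e1 : R ^ (2 * (1 + e.u)) = R ^ (1 + e.u) * R ^ (1 + e.u) := by
    rw [← Real.rpow_add h.pos]; congr 1; ring
  have h1 : 0 ≤ R ^ (1 + e.u) := Real.rpow_nonneg h.pos.le _
  calc ((ρ.den : ℝ) * σ.den) ^ 5 * R ^ (2 * (1 + e.u)) =
        ((ρ.den : ℝ) ^ 5 * R ^ (1 + e.u)) * ((σ.den : ℝ) ^ 5 * R ^ (1 + e.u)) := by rw [e1]; ring
    _ ≤ 1 * 1 := mul_le_mul h.den h'.den (by positivity) zero_le_one
    _ = 1 := one_mul 1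

/-- **a real label is a permissive label** -/
theorem labP_of_lab {θ R : ℝ} (h : Lab θ R ρ) : LabP e θ R ρ := by
  have h1 : R ≤ 1 := by linarith [h.le]
  refine ⟨h.pos, h.le, ?_, h.near.trans (rm_ge h.pos h1)⟩
  exact (mul_le_mul_of_nonneg_left (rp_le_one h.pos h1) (by positivity)).trans h.den

open Classical in
/-- **permissive own-radius label** in root coordinates -/
noncomputable def lab0P (e : UV) (γ ψ : ℝ) (b : ℕ) : Option ℚ :=
  if h : ∃ ρ : ℚ, LabP e (b * γ) (b * ψ) ρ then some (h.choose / b) else none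

lemma lab0P_eq_some {ρ : ℚ} (h : LabP e (b * γ) (b * ψ) ρ) : lab0P e γ ψ b = some (ρ / b) := by
  have hex : ∃ ρ : ℚ, LabP e (b * γ) (b * ψ) ρ := ⟨ρ, h⟩
  rw [lab0P, dif_pos hex, LabP.unique hex.choose_spec h]

lemma lab0P_spec (hb : 0 < b) (h : lab0P e γ ψ b = some σ) : LabP e (b * γ) (b * ψ) (b * σ) := by
  unfold lab0P at h
  split_ifs at h with hex
  have h1 := hex.choose_spec
  have h2 : hex.choose / (b : ℚ) = σ := Option.some.inj h
  have hb' : (b : ℚ) ≠ 0 := by exact_mod_cast hb.ne'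
  rw [← h2, mul_div_cancel₀ _ hb']
  exact h1

lemma lab0P_of (hb : 0 < b) (h : LabP e (b * γ) (b * ψ) (b * σ)) : lab0P e γ ψ b = some σ := by
  rw [lab0P_eq_some h]
  congr 1
  have : (b : ℚ) ≠ 0 := by exact_mod_cast hb.ne'
  field_simp

/-- **the real own label is the permissive one** -/
lemma lab0P_of_real (hb : 0 < b) (h : lab0 γ ψ b = some σ) : lab0P e γ ψ b = some σ :=
  lab0P_of hb (labP_of_lab (lab0_spec hb h))

/-! ### definitions -/

/-- own-radius label of the stage `L` -/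
noncomputable abbrev own (e : UV) (γ ψ : ℝ) (L : List ℕ) : Option ℚ := lab0P e γ ψ L.prod

/-- **sticky label**: the last own-radius label -/
noncomputable def sl (e : UV) (γ ψ : ℝ) : List ℕ → Option ℚ
  | [] => lab0P e γ ψ 1
  | s :: L => (lab0P e γ ψ (s * L.prod)).or (sl e γ ψ L)

/-- accuracy of `τ` at the missing product `b` -/
def acc (e : UV) (γ ψ : ℝ) (b : ℕ) (τ : ℚ) : Prop :=
  (b : ℝ) ^ (1 + 4 * e.v) * |γ - τ| ^ 5 ≤ ψ ^ (4 * (1 - e.v))

open Classical in
/-- **label of the sparse regime**: the sticky label, if it is still accurate -/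
noncomputable def sla (e : UV) (γ ψ : ℝ) (L : List ℕ) : Option ℚ :=
  if ∃ τ : ℚ, sl e γ ψ L = some τ ∧ acc e γ ψ L.prod τ then sl e γ ψ L else none

open Classical in
/-- **game label**: the real state `st` if it is dense, else the sparse label; `t = thr p` -/
noncomputable def gl (e : UV) (st : Option ℚ) (t γ ψ : ℝ) (L : List ℕ) : Option ℚ :=
  if ∃ κ : ℚ, st = some κ ∧ dense t L.prod κ then st else sla e γ ψ L

/-! ### first properties -/

/-- accuracy is inherited by the earlier stages -/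
lemma acc_anti {V : ℕ} (hV : 0 < V) (h : acc e γ ψ (V * b) τ) : acc e γ ψ b τ := by
  unfold acc at h ⊢
  refine le_trans ?_ h
  refine mul_le_mul_of_nonneg_right ?_ (by positivity)
  refine Real.rpow_le_rpow (Nat.cast_nonneg _) ?_ (by linarith [e.v0])
  exact_mod_cast Nat.le_mul_of_pos_left b hV

/-- accuracy on the circle of the stage -/
lemma near_iff (hb : 0 < b) (hψ : 0 ≤ ψ) :
    |(b : ℝ) * γ - ((b * τ : ℚ) : ℝ)| ^ 5 ≤ (b * ψ) ^ (4 * (1 - e.v)) ↔ acc e γ ψ b τ := by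
  have hb' : (0 : ℝ) < b := by exact_mod_cast hb
  have e0 : (b : ℝ) * γ - ((b * τ : ℚ) : ℝ) = b * (γ - τ) := by push_cast; ring
  have e1 : |(b : ℝ) * γ - ((b * τ : ℚ) : ℝ)| ^ 5 =
      (b : ℝ) ^ (4 * (1 - e.v)) * ((b : ℝ) ^ (1 + 4 * e.v) * |γ - τ| ^ 5) := by
    rw [e0, abs_mul, abs_of_pos hb', mul_pow, ← mul_assoc, ← Real.rpow_add hb']
    congr 1
    rw [← Real.rpow_natCast]
    congr 1
    push_cast; ring
  rw [e1, Real.mul_rpow hb'.le hψ]
  unfold acc
  have hp : (0 : ℝ) < (b : ℝ) ^ (4 * (1 - e.v)) := Real.rpow_pos_of_pos hb' _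
  exact mul_le_mul_iff_right₀ hp

/-- the four conditions -/
lemma labRP_iff (hb : 0 < b) :
    LabP e (b * γ) (b * ψ) (b * σ) ↔ 0 < ψ ∧ b * ψ ≤ 1 / 10 ∧
      (d5 b σ * (b * ψ) ^ (1 + e.u) ≤ 1) ∧ acc e γ ψ b σ := by
  have hb' : (0 : ℝ) < b := by exact_mod_cast hb
  constructor
  · rintro ⟨h1, h2, h3, h4⟩
    have hψ : 0 < ψ := (mul_pos_iff_of_pos_left hb').1 h1
    exact ⟨hψ, h2, h3, (near_iff hb hψ.le).1 h4⟩
  · rintro ⟨h1, h2, h3, h4⟩
    exact ⟨mul_pos hb' h1, h2, h3, (near_iff hb h1.le).2 h4⟩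

/-- the facts of a label -/
lemma own_spec (hb : 0 < b) (h : lab0P e γ ψ b = some τ) :
    0 < ψ ∧ b * ψ ≤ 1 / 10 ∧ d5 b τ * (b * ψ) ^ (1 + e.u) ≤ 1 ∧ acc e γ ψ b τ :=
  (labRP_iff hb).1 (lab0P_spec hb h)

/-- a label from its facts -/
lemma own_of (hb : 0 < b) (h0 : 0 < ψ) (h1 : b * ψ ≤ 1 / 10)
    (h2 : d5 b τ * (b * ψ) ^ (1 + e.u) ≤ 1) (h3 : acc e γ ψ b τ) : lab0P e γ ψ b = some τ :=
  lab0P_of hb ((labRP_iff hb).2 ⟨h0, h1, h2, h3⟩)

/-- not the own label: dead by the denominator or by accuracy -/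
lemma not_own (hb : 0 < b) (h0 : 0 < ψ) (h1 : b * ψ ≤ 1 / 10) (h : lab0P e γ ψ b ≠ some τ) :
    1 < d5 b τ * (b * ψ) ^ (1 + e.u) ∨ ¬ acc e γ ψ b τ := by
  by_contra hc
  push Not at hc
  exact h (own_of hb h0 h1 hc.1 hc.2)

/-- **the real own label is the permissive one** -/
lemma own_of_real (hL : 0 < L.prod) (h : StM6.own γ ψ L = some τ) : own e γ ψ L = some τ :=
  lab0P_of_real hL h

lemma sl_cons (s : ℕ) (L : List ℕ) :
    sl e γ ψ (s :: L) = (lab0P e γ ψ (s * L.prod)).or (sl e γ ψ L) := rfl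

lemma sl_of_own (h : own e γ ψ L = some τ) : sl e γ ψ L = some τ := by
  cases L with
  | nil => simpa [own, sl] using h
  | cons s L =>
    have e : lab0P e γ ψ (s * L.prod) = some τ := by simpa [own, List.prod_cons] using h
    rw [sl_cons, e, Option.some_or]

lemma sl_of_none (h : own e γ ψ (s :: L) = none) : sl e γ ψ (s :: L) = sl e γ ψ L := by
  have e : lab0P e γ ψ (s * L.prod) = none := by simpa [own, List.prod_cons] using h
  rw [sl_cons, e, Option.none_or]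

/-- **the sticky label is the own-radius label of some stage, and there is no own-radius label at
the later stages** -/
theorem sl_spec : ∀ {L : List ℕ}, sl e γ ψ L = some τ →
    ∃ L₁ L₂ : List ℕ, L = L₁ ++ L₂ ∧ own e γ ψ L₂ = some τ ∧
      ∀ M₁ M₂ : List ℕ, L₁ = M₁ ++ M₂ → M₂ ≠ [] → own e γ ψ (M₂ ++ L₂) = none
  | [], h => ⟨[], [], rfl, by simpa [own, sl] using h, fun M₁ M₂ e h2 => by
      have := (List.append_eq_nil_iff.1 e.symm).2
      exact absurd this h2⟩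
  | s :: L, h => by
    cases h1 : own e γ ψ (s :: L) with
    | some τ' =>
      have h2 := sl_of_own h1
      rw [h] at h2
      have e : τ = τ' := Option.some.inj h2
      refine ⟨[], s :: L, rfl, by rw [h1, e], fun M₁ M₂ e h2 => ?_⟩
      have := (List.append_eq_nil_iff.1 e.symm).2
      exact absurd this h2
    | none =>
      rw [sl_of_none h1] at h
      obtain ⟨L₁, L₂, e1, e2, e3⟩ := sl_spec h
      refine ⟨s :: L₁, L₂, by rw [e1]; rfl, e2, fun M₁ M₂ e h2 => ?_⟩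
      cases M₁ with
      | nil =>
        have e4 : M₂ = s :: L₁ := by simpa using e.symm
        rw [e4, List.cons_append, ← e1]
        exact h1
      | cons x M₁ =>
        have e4 : L₁ = M₁ ++ M₂ := by
          have := congrArg List.tail e
          simpa using this
        exact e3 M₁ M₂ e4 h2

lemma sla_some : sla e γ ψ L = some τ ↔ sl e γ ψ L = some τ ∧ acc e γ ψ L.prod τ := by
  unfold sla
  split_ifs with h
  · obtain ⟨σ, h1, h2⟩ := h
    constructor
    · intro h3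
      refine ⟨h3, ?_⟩
      rw [h1] at h3
      rw [← Option.some.inj h3]; exact h2
    · exact fun h3 => h3.1
  · constructor
    · intro h3; exact absurd h3 (by simp)
    · intro h3; exact absurd ⟨τ, h3⟩ h

lemma sla_none : sla e γ ψ L = none ↔ ∀ τ : ℚ, sl e γ ψ L = some τ → ¬ acc e γ ψ L.prod τ := by
  rw [Option.eq_none_iff_forall_ne_some]
  constructor
  · intro h τ h1 h2
    exact h τ (sla_some.2 ⟨h1, h2⟩)
  · intro h τ h1
    obtain ⟨h2, h3⟩ := sla_some.1 h1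
    exact h τ h2 h3

lemma prod_pos {L : List ℕ} (hL : ∀ s ∈ L, 0 < s) : 0 < L.prod := List.prod_pos hL

/-- the own-radius label is the sparse label -/
lemma sla_of_own (hL : 0 < L.prod) (h : own e γ ψ L = some τ) : sla e γ ψ L = some τ :=
  sla_some.2 ⟨sl_of_own h, (own_spec hL h).2.2.2⟩

lemma gl_dense (h : st = some κ) (hd : dense t L.prod κ) : gl e st t γ ψ L = some κ := by
  unfold gl
  rw [if_pos ⟨κ, h, hd⟩, h]

lemma gl_sparse (h : ∀ κ, st = some κ → ¬ dense t L.prod κ) : gl e st t γ ψ L = sla e γ ψ L := by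
  unfold gl
  rw [if_neg]
  rintro ⟨κ, h1, h2⟩
  exact h κ h1 h2

lemma gl_none : gl e none t γ ψ L = sla e γ ψ L := gl_sparse fun κ h => absurd h (by simp)

/-- **two cases** -/
lemma gl_cases (e : UV) (st : Option ℚ) (t γ ψ : ℝ) (L : List ℕ) :
    (∃ κ, st = some κ ∧ dense t L.prod κ ∧ gl e st t γ ψ L = some κ) ∨
      ((∀ κ, st = some κ → ¬ dense t L.prod κ) ∧ gl e st t γ ψ L = sla e γ ψ L) := by
  by_cases h : ∃ κ : ℚ, st = some κ ∧ dense t L.prod κ
  · obtain ⟨κ, h1, h2⟩ := h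
    exact Or.inl ⟨κ, h1, h2, gl_dense h1 h2⟩
  · push Not at h
    exact Or.inr ⟨h, gl_sparse h⟩

/-- **thin** (or births seen): if the real state is the own-radius label, the game label is `sla` -/
theorem gl_own (hL : 0 < L.prod) (h : st = StM6.own γ ψ L) : gl e st t γ ψ L = sla e γ ψ L := by
  rcases gl_cases e st t γ ψ L with ⟨κ, h1, -, h3⟩ | ⟨-, h3⟩
  · rw [h3]
    rw [h1] at h
    exact (sla_of_own hL (own_of_real hL h.symm)).symm
  · exact h3

/-- a real own-radius label is the game label -/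
lemma gl_own_some (hL : 0 < L.prod) (h : st = StM6.own γ ψ L) (h1 : st = some κ) :
    gl e st t γ ψ L = some κ := by
  rw [gl_own hL h]
  exact sla_of_own hL (own_of_real hL (by rw [← h, h1]))

/-- the game label is the real state, or the real state is sparse or `none` -/
lemma gl_ne (h : gl e st t γ ψ L ≠ st) :
    (∀ κ, st = some κ → ¬ dense t L.prod κ) ∧ gl e st t γ ψ L = sla e γ ψ L := by
  rcases gl_cases e st t γ ψ L with ⟨κ, h1, -, h3⟩ | h3
  · exact absurd (by rw [h3, h1]) h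
  · exact h3

/-- **a game label is accurate or a dense real label** -/
lemma gl_some (h : gl e st t γ ψ L = some τ) :
    (st = some τ ∧ dense t L.prod τ) ∨ (sl e γ ψ L = some τ ∧ acc e γ ψ L.prod τ) := by
  rcases gl_cases e st t γ ψ L with ⟨κ, h1, h2, h3⟩ | ⟨-, h3⟩
  · left
    rw [h3] at h
    rw [← Option.some.inj h]
    exact ⟨h1, h2⟩
  · right
    rw [h3] at h
    exact sla_some.1 h

/-! ### fat pieces -/

/-- an asleep piece (no own-radius label) with an accurate label: the denominator is dead -/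
theorem asleep_den (hL : 0 < L.prod) (h0 : 0 < ψ) (h1 : L.prod * ψ ≤ 1 / 10)
    (h : own e γ ψ L ≠ some τ) (ha : acc e γ ψ L.prod τ) :
    1 < d5 L.prod τ * (L.prod * ψ) ^ (1 + e.u) := by
  rcases not_own hL h0 h1 h with h2 | h2
  · exact h2
  · exact absurd ha h2

/-! ### change of the sticky label at a missing tie -/

/-- **the sparse label across a missing tie `s`**: newborn own-radius label, or nothing changes, or
the death by accuracy -/
theorem sla_cons (hs : 0 < s) (hL : 0 < L.prod) :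
    (∃ ρ, own e γ ψ (s :: L) = some ρ ∧ sla e γ ψ (s :: L) = some ρ) ∨
      (own e γ ψ (s :: L) = none ∧ sla e γ ψ (s :: L) = sla e γ ψ L) ∨
      (own e γ ψ (s :: L) = none ∧ sla e γ ψ (s :: L) = none ∧
        ∃ τ, sla e γ ψ L = some τ ∧ ¬ acc e γ ψ (s * L.prod) τ) := by
  have hsL : 0 < (s :: L).prod := by rw [List.prod_cons]; exact Nat.mul_pos hs hL
  cases h : own e γ ψ (s :: L) with
  | some ρ => exact Or.inl ⟨ρ, rfl, sla_of_own hsL h⟩
  | none =>
    right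
    have e0 := sl_of_none h
    cases h1 : sla e γ ψ L with
    | none =>
      left
      refine ⟨rfl, sla_none.2 fun τ h2 h3 => ?_⟩
      rw [e0] at h2
      rw [List.prod_cons] at h3
      exact sla_none.1 h1 τ h2 (acc_anti hs h3)
    | some τ =>
      obtain ⟨h2, h3⟩ := sla_some.1 h1
      by_cases h4 : acc e γ ψ (s * L.prod) τ
      · left
        refine ⟨rfl, sla_some.2 ⟨by rw [e0, h2], ?_⟩⟩
        rw [List.prod_cons]; exact h4
      · right
        refine ⟨rfl, sla_none.2 fun τ' h5 h6 => ?_, τ, rfl, h4⟩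
        rw [e0, h2] at h5
        rw [← Option.some.inj h5, List.prod_cons] at h6
        exact h4 h6

/-! ### inequalities of a birth -/

/-- **two different rationals which are both accurate at `b`** -/
theorem two_acc (hb : 0 < b) (hψ : 0 ≤ ψ) (hne : σ ≠ τ) (h1 : acc e γ ψ b σ) (h2 : acc e γ ψ b τ) :
    1 ≤ 32 * (b * ψ) ^ (4 * (1 - e.v)) * (d5 b σ * d5 b τ) := by
  have hb' : (0 : ℝ) < b := by exact_mod_cast hb
  have hbq : (b : ℚ) ≠ 0 := by exact_mod_cast hb.ne'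
  have hne' : (b : ℚ) * σ ≠ b * τ := fun h => hne (mul_left_cancel₀ hbq h)
  have g := rat_gap hne'
  have k1 := (near_iff hb hψ).2 h1
  have k2 := (near_iff hb hψ).2 h2
  set x := |(b : ℝ) * γ - ((b * σ : ℚ) : ℝ)| with hx
  set y := |(b : ℝ) * γ - ((b * τ : ℚ) : ℝ)| with hy
  have hx0 : 0 ≤ x := abs_nonneg _
  have hy0 : 0 ≤ y := abs_nonneg _
  have h3 : |(((b : ℚ) * σ : ℚ) : ℝ) - (((b : ℚ) * τ : ℚ) : ℝ)| ≤ x + y := by
    have e : (((b : ℚ) * σ : ℚ) : ℝ) - (((b : ℚ) * τ : ℚ) : ℝ) =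
        ((b : ℝ) * γ - ((b * τ : ℚ) : ℝ)) - ((b : ℝ) * γ - ((b * σ : ℚ) : ℝ)) := by ring
    rw [e]
    refine (abs_sub _ _).trans ?_
    rw [← hx, ← hy]; linarith
  have h4 : x + y ≤ 2 * max x y := by
    have := le_max_left x y
    have := le_max_right x y
    linarith
  have h5 : (max x y) ^ 5 ≤ (b * ψ) ^ (4 * (1 - e.v)) := by
    rcases max_choice x y with h | h
    · rw [h]; exact k1
    · rw [h]; exact k2
  have hk : (0 : ℝ) < ((b : ℚ) * σ).den * ((b : ℚ) * τ).den := by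
    have a1 : (0 : ℝ) < ((b : ℚ) * σ).den := by exact_mod_cast Rat.den_pos _
    have a2 : (0 : ℝ) < ((b : ℚ) * τ).den := by exact_mod_cast Rat.den_pos _
    positivity
  have h6 : 1 ≤ (2 * max x y) * (((b : ℚ) * σ).den * ((b : ℚ) * τ).den) :=
    g.trans (mul_le_mul_of_nonneg_right (h3.trans h4) hk.le)
  have h7 : (1 : ℝ) ≤ ((2 * max x y) * (((b : ℚ) * σ).den * ((b : ℚ) * τ).den)) ^ 5 :=
    one_le_pow₀ h6
  calc (1 : ℝ) ≤ ((2 * max x y) * (((b : ℚ) * σ).den * ((b : ℚ) * τ).den)) ^ 5 := h7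
    _ = 32 * (max x y) ^ 5 * (d5 b σ * d5 b τ) := by unfold d5; ring
    _ ≤ 32 * (b * ψ) ^ (4 * (1 - e.v)) * (d5 b σ * d5 b τ) := by
      refine mul_le_mul_of_nonneg_right ?_ (mul_pos (d5_pos _ _) (d5_pos _ _)).le
      linarith

/-- **a birth**: the own-radius label is `ρ`, the old label `τ ≠ ρ` is still accurate: its
denominator is dead, even `1 ≤ 32 R^(4(1-v)) k_ρ^5 k_τ^5` -/
theorem birth_ineq (hb : 0 < b) (h : lab0P e γ ψ b = some ρ) (hne : τ ≠ ρ) (ha : acc e γ ψ b τ) :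
    1 ≤ 32 * (b * ψ) ^ (4 * (1 - e.v)) * (d5 b ρ * d5 b τ) ∧
      1 ≤ 32 * (b * ψ) ^ (11 / 4 : ℝ) * d5 b τ ∧ 1 < d5 b τ * (b * ψ) ^ (1 + e.u) := by
  obtain ⟨h0, h1, h2, h3⟩ := own_spec hb h
  have hb' : (0 : ℝ) < b := by exact_mod_cast hb
  have hR : 0 < (b : ℝ) * ψ := by positivity
  have k1 := two_acc hb h0.le hne.symm h3 ha
  have hτ := d5_pos b τ
  have e1 : ((b : ℝ) * ψ) ^ (4 * (1 - e.v)) ≤ (b * ψ) ^ (11 / 4 : ℝ) * (b * ψ) ^ (1 + e.u) := by
    rw [← Real.rpow_add hR]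
    exact Real.rpow_le_rpow_of_exponent_ge hR (by linarith) (by linarith [e.u1, e.v1])
  have p1 : 0 ≤ ((b : ℝ) * ψ) ^ (11 / 4 : ℝ) := Real.rpow_nonneg hR.le _
  have k2 : 1 ≤ 32 * (b * ψ) ^ (11 / 4 : ℝ) * d5 b τ := by
    calc 1 ≤ 32 * (b * ψ) ^ (4 * (1 - e.v)) * (d5 b ρ * d5 b τ) := k1
      _ ≤ 32 * ((b * ψ) ^ (11 / 4 : ℝ) * (b * ψ) ^ (1 + e.u)) * (d5 b ρ * d5 b τ) := by
          refine mul_le_mul_of_nonneg_right ?_ (mul_pos (d5_pos _ _) (d5_pos _ _)).le
          linarith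
      _ = 32 * (b * ψ) ^ (11 / 4 : ℝ) * d5 b τ * (d5 b ρ * (b * ψ) ^ (1 + e.u)) := by ring
      _ ≤ 32 * (b * ψ) ^ (11 / 4 : ℝ) * d5 b τ * 1 := mul_le_mul_of_nonneg_left h2 (by positivity)
      _ = _ := mul_one _
  refine ⟨k1, k2, ?_⟩
  by_contra hc
  push Not at hc
  have e2 : ((b : ℝ) * ψ) ^ (11 / 4 : ℝ) ≤ (b * ψ) ^ (17 / 10 : ℝ) * (b * ψ) ^ (1 + e.u) := by
    rw [← Real.rpow_add hR]
    exact Real.rpow_le_rpow_of_exponent_ge hR (by linarith) (by linarith [e.u1])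
  have e3 : ((b : ℝ) * ψ) ^ (17 / 10 : ℝ) ≤ (1 / 10 : ℝ) ^ (17 / 10 : ℝ) :=
    Real.rpow_le_rpow hR.le h1 (by norm_num)
  have p2 : 0 ≤ ((b : ℝ) * ψ) ^ (17 / 10 : ℝ) := Real.rpow_nonneg hR.le _
  have k3 : 32 * ((b : ℝ) * ψ) ^ (11 / 4 : ℝ) * d5 b τ ≤ 32 * (1 / 10 : ℝ) ^ (17 / 10 : ℝ) := by
    calc 32 * ((b : ℝ) * ψ) ^ (11 / 4 : ℝ) * d5 b τ
        ≤ 32 * ((b * ψ) ^ (17 / 10 : ℝ) * (b * ψ) ^ (1 + e.u)) * d5 b τ := by
          refine mul_le_mul_of_nonneg_right ?_ hτ.le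
          linarith
      _ = 32 * (b * ψ) ^ (17 / 10 : ℝ) * (d5 b τ * (b * ψ) ^ (1 + e.u)) := by ring
      _ ≤ 32 * (b * ψ) ^ (17 / 10 : ℝ) * 1 := mul_le_mul_of_nonneg_left hc (by positivity)
      _ ≤ 32 * (1 / 10 : ℝ) ^ (17 / 10 : ℝ) := by linarith
  have := num17
  linarith

/-! ### transitions of the game label, pure level -/

/-- **static column** (the list `L` does not change): the real states are the own-radius label or
kept; the game label changes only if the state `κ` above is kept, dense and not the own-radius label,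
and then it becomes `sla` (own-radius label, asleep in `κ`, or `none` = death by accuracy) -/
theorem static_cases (hL : 0 < L.prod) (hst : st' = st ∨ st' = StM6.own γ ψ L)
    (hne : gl e st' t' γ ψ L ≠ gl e st t γ ψ L) (ht : t ≤ t') :
    ∃ κ, st = some κ ∧ dense t L.prod κ ∧ own e γ ψ L ≠ some κ ∧ gl e st t γ ψ L = some κ ∧
      gl e st' t' γ ψ L = sla e γ ψ L ∧ (st' = StM6.own γ ψ L ∨ ¬ dense t' L.prod κ) := by
  rcases gl_cases e st t γ ψ L with ⟨κ, h1, h2, h3⟩ | ⟨h2, h3⟩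
  · rcases hst with h | h
    · subst h
      rcases gl_cases e st' t' γ ψ L with ⟨κ', k1, k2, k3⟩ | ⟨k2, k3⟩
      · exfalso
        rw [h1] at k1
        rw [Option.some.inj k1] at h3
        exact hne (by rw [k3, h3])
      · refine ⟨κ, h1, h2, fun h4 => hne ?_, h3, k3, Or.inr (k2 κ h1)⟩
        rw [k3, h3]
        exact sla_of_own hL h4
    · have k3 : gl e st' t' γ ψ L = sla e γ ψ L := gl_own hL h
      refine ⟨κ, h1, h2, fun h4 => hne ?_, h3, k3, Or.inl h⟩
      rw [k3, h3]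
      exact sla_of_own hL h4
  · exfalso
    rcases hst with h | h
    · subst h
      have k : gl e st' t' γ ψ L = sla e γ ψ L :=
        gl_sparse fun κ h1 h4 => h2 κ h1 (dense_anti h4 ht)
      exact hne (by rw [k, h3])
    · exact hne (by rw [gl_own hL h, h3])

/-- **own missing tie `s`**: above it the real state is the own-radius label of `L` (thin); below it
is the own-radius label of `s :: L`, or the kept label, or (no label to keep) `none` -/
theorem miss_cases (hs : 0 < s) (hL : 0 < L.prod) (hst : st = StM6.own γ ψ L)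
    (hst' : st' = StM6.own γ ψ (s :: L) ∨ st' = st ∨ st' = none) :
    (gl e st' t' γ ψ (s :: L) = gl e st t γ ψ L) ∨
      (∃ ρ, own e γ ψ (s :: L) = some ρ ∧ gl e st' t' γ ψ (s :: L) = some ρ) ∨
      (own e γ ψ (s :: L) = none ∧ gl e st' t' γ ψ (s :: L) = none ∧
        ∃ τ, gl e st t γ ψ L = some τ ∧ ¬ acc e γ ψ (s * L.prod) τ) := by
  have hsL : 0 < (s :: L).prod := by rw [List.prod_cons]; exact Nat.mul_pos hs hL
  have e0 : gl e st t γ ψ L = sla e γ ψ L := gl_own hL hst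
  have key : gl e st' t' γ ψ (s :: L) = sla e γ ψ (s :: L) ∨
      gl e st' t' γ ψ (s :: L) = gl e st t γ ψ L := by
    rcases gl_cases e st' t' γ ψ (s :: L) with ⟨κ, k1, -, k3⟩ | ⟨-, k3⟩
    · rcases hst' with h | h | h
      · left
        exact gl_own hsL h
      · right
        rw [h, hst] at k1
        rw [k3, e0]
        exact (sla_of_own hL (own_of_real hL k1)).symm
      · rw [h] at k1
        exact absurd k1 (by simp)
    · exact Or.inl k3
  rcases key with key | key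
  · rw [key, e0]
    rcases sla_cons (γ := γ) (ψ := ψ) hs hL with ⟨ρ, h1, h2⟩ | ⟨h1, h2⟩ | ⟨h1, h2, h3⟩
    · exact Or.inr (Or.inl ⟨ρ, h1, h2⟩)
    · exact Or.inl h2
    · exact Or.inr (Or.inr ⟨h1, h2, h3⟩)
  · exact Or.inl key

end Crest.Agent.R4P.LabD33
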