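import Crest.Agent.R4.Win853

/-!
R4 (S0004), helper11: **rarity of flagged nodes, for adapted choices of the ties**.

A state of a walk is a column `p` and the list `B` of the missing ties above `p` (last one first).  At a
column `p` the walk may have a tie (`(1 - w, B)`, `(w, p :: B)`, `0 ≤ w ≤ 1 / p`, `p` prime) or not
(pull, up, rest), and this may depend on the whole history.

* `V F p B` : the value function = largest weight of the nodes with the flag `F` below `(p, B)`;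
  `V_flag`, `V_succ`, `V_tie`, `V_mono`, `V_le_sum`;
* `hit_le` : **one target**: the missing ties below a node have a product in `[exp (x - r), exp (x + r)]`
  with weight `≤ C (1 + r) x ^ (-1/20)`;
* `zone_le` : **all targets**: `FZ` = `B = L ++ U`, `L ≠ []`, `x ∈ Θ U j`, `|x - log (∏ L)| ≤ r j`; at most
  `K` targets `x ∈ [2 ^ j, 2 ^ (j + 1))` for every node `U` and every `j ≥ j₀`; the weight of the flagged
  nodes is at most `C K A 2 ^ (- j₀ / 40)` if `r j ≤ A (j + 1)`, for any walk.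
-/

set_option autoImplicit false

namespace Crest.Agent.R4P.Zone11

open Finset Crest.Agent.R4.Win853 Crest.Agent.Lib.Mertens

/-! ### the value function -/

open Classical in
/-- value function of the flag `F` -/
noncomputable def V (F : List ℕ → Prop) : ℕ → List ℕ → ℝ
  | 0, B => if F B then 1 else 0
  | p + 1, B => if (p + 1).Prime then
      max (V F p B) ((1 - 1 / ((p : ℝ) + 1)) * V F p B + 1 / ((p : ℝ) + 1) * V F p ((p + 1) :: B))
    else V F p B

variable {F F' : List ℕ → Prop}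

lemma w_bd (p : ℕ) : 0 ≤ 1 / ((p : ℝ) + 1) ∧ 1 / ((p : ℝ) + 1) ≤ 1 := by
  have hp : (0 : ℝ) ≤ p := Nat.cast_nonneg p
  refine ⟨by positivity, ?_⟩
  rw [div_le_one (by linarith)]
  linarith

lemma V_nonneg (p : ℕ) (B : List ℕ) : 0 ≤ V F p B := by
  induction p generalizing B with
  | zero => unfold V; split_ifs <;> norm_num
  | succ p ih =>
    unfold V
    split_ifs
    · exact (ih B).trans (le_max_left _ _)
    · exact ih B

lemma V_le_one (p : ℕ) (B : List ℕ) : V F p B ≤ 1 := by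
  induction p generalizing B with
  | zero => unfold V; split_ifs <;> norm_num
  | succ p ih =>
    unfold V
    split_ifs
    · refine max_le (ih B) ?_
      have h := w_bd p
      have h1 := mul_le_mul_of_nonneg_left (ih B) (sub_nonneg.2 h.2)
      have h2 := mul_le_mul_of_nonneg_left (ih ((p + 1) :: B)) h.1
      linarith
    · exact ih B

lemma V_succ (p : ℕ) (B : List ℕ) : V F p B ≤ V F (p + 1) B := by
  conv_rhs => unfold V
  split_ifs
  · exact le_max_left _ _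
  · exact le_rfl

lemma V_mono_col {p q : ℕ} (h : p ≤ q) (B : List ℕ) : V F p B ≤ V F q B := by
  induction q, h using Nat.le_induction with
  | base => exact le_rfl
  | succ q _ ih => exact ih.trans (V_succ q B)

lemma V_flag {B : List ℕ} (h : F B) (p : ℕ) : V F p B = 1 := by
  refine le_antisymm (V_le_one p B) ?_
  have h0 : V F 0 B = 1 := by unfold V; rw [if_pos h]
  rw [← h0]
  exact V_mono_col (Nat.zero_le p) B

/-- **a tie** -/
lemma V_tie {p : ℕ} (hp : p.Prime) {w : ℝ} (h0 : 0 ≤ w) (h1 : w ≤ 1 / (p : ℝ)) (B : List ℕ) :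
    (1 - w) * V F (p - 1) B + w * V F (p - 1) (p :: B) ≤ V F p B := by
  obtain ⟨q, rfl⟩ : ∃ q, p = q + 1 := ⟨p - 1, (Nat.succ_pred_eq_of_pos hp.pos).symm⟩
  rw [Nat.add_sub_cancel]
  conv_rhs => unfold V
  rw [if_pos hp]
  push_cast at h1
  set a := V F q B
  set b := V F q ((q + 1) :: B)
  rcases le_total a b with hab | hab
  · refine le_trans ?_ (le_max_right _ _)
    nlinarith
  · refine le_trans ?_ (le_max_left _ _)
    nlinarith

/-- **comparison**, `Ok p B` : every missing tie of `B` is above `p` -/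
lemma V_le_of {Φ : ℕ → List ℕ → ℝ} {p₀ : ℕ}
    (h0 : ∀ B : List ℕ, (∀ q ∈ B, p₀ < q) → V F p₀ B ≤ Φ p₀ B)
    (h1 : ∀ p, p₀ ≤ p → ∀ B : List ℕ, (∀ q ∈ B, p + 1 < q) → Φ p B ≤ Φ (p + 1) B)
    (h2 : ∀ p, p₀ ≤ p → (p + 1).Prime → ∀ B : List ℕ, (∀ q ∈ B, p + 1 < q) →
      (1 - 1 / ((p : ℝ) + 1)) * Φ p B + 1 / ((p : ℝ) + 1) * Φ p ((p + 1) :: B) ≤ Φ (p + 1) B)
    {p : ℕ} (hp : p₀ ≤ p) (B : List ℕ) (hB : ∀ q ∈ B, p < q) : V F p B ≤ Φ p B := by
  induction p, hp using Nat.le_induction generalizing B with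
  | base => exact h0 B hB
  | succ p hp ih =>
    have hB1 : ∀ q ∈ B, p < q := fun q hq => (Nat.lt_succ_self p).trans (hB q hq)
    have hB2 : ∀ q ∈ (p + 1) :: B, p < q := by
      intro q hq
      rcases List.mem_cons.1 hq with rfl | hq
      · exact Nat.lt_succ_self p
      · exact hB1 q hq
    unfold V
    split_ifs with hpr
    · refine max_le ((ih B hB1).trans (h1 p hp B hB)) ?_
      have h := w_bd p
      refine le_trans (add_le_add (mul_le_mul_of_nonneg_left (ih B hB1) (sub_nonneg.2 h.2))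
        (mul_le_mul_of_nonneg_left (ih _ hB2) h.1)) (h2 p hp hpr B hB)
    · exact (ih B hB1).trans (h1 p hp B hB)

/-- sums of flags -/
lemma V_le_sum {ι : Type*} (s : Finset ι) (G : ι → List ℕ → Prop)
    (h : ∀ B, F B → ∃ i ∈ s, G i B) (p : ℕ) (B : List ℕ) : V F p B ≤ ∑ i ∈ s, V (G i) p B := by
  induction p generalizing B with
  | zero =>
    by_cases hF : F B
    · obtain ⟨i, hi, hG⟩ := h B hF
      rw [V_flag hF]
      refine le_trans ?_ (Finset.single_le_sum (f := fun i => V (G i) 0 B)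
        (fun i _ => V_nonneg 0 B) hi)
      show 1 ≤ V (G i) 0 B
      rw [V_flag hG]
    · have h0 : V F 0 B = 0 := by unfold V; rw [if_neg hF]
      rw [h0]
      exact Finset.sum_nonneg fun i _ => V_nonneg 0 B
  | succ p ih =>
    have h3 : ∑ i ∈ s, V (G i) p B ≤ ∑ i ∈ s, V (G i) (p + 1) B :=
      Finset.sum_le_sum fun i _ => V_succ p B
    conv_lhs => unfold V
    split_ifs with hpr
    · refine max_le ((ih B).trans h3) ?_
      have hw := w_bd p
      refine le_trans (add_le_add (mul_le_mul_of_nonneg_left (ih B) (sub_nonneg.2 hw.2))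
        (mul_le_mul_of_nonneg_left (ih _) hw.1)) ?_
      rw [Finset.mul_sum, Finset.mul_sum, ← Finset.sum_add_distrib]
      refine Finset.sum_le_sum fun i _ => ?_
      have := V_tie (F := G i) hpr hw.1 (by push_cast; exact le_rfl) B
      rw [Nat.add_sub_cancel] at this
      exact this
    · exact (ih B).trans h3

lemma V_mono (h : ∀ B, F B → F' B) (p : ℕ) (B : List ℕ) : V F p B ≤ V F' p B := by
  have := V_le_sum (F := F) {()} (fun _ => F') (fun B hB => ⟨(), Finset.mem_singleton_self _, h B hB⟩) p B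
  simpa using this

/-! ### one target -/

/-- the product of the missing ties is in `[lo, hi]` -/
def FT (lo hi : ℝ) (B : List ℕ) : Prop := lo ≤ (B.prod : ℝ) ∧ (B.prod : ℝ) ≤ hi

/-- too late -/
lemma V_late {lo hi : ℝ} (p : ℕ) (B : List ℕ) (h : hi < (B.prod : ℝ)) : V (FT lo hi) p B = 0 := by
  induction p generalizing B with
  | zero =>
    unfold V
    rw [if_neg]
    rintro ⟨_, h2⟩
    linarith
  | succ p ih =>
    have h1 := ih B h
    have h2 : V (FT lo hi) p ((p + 1) :: B) = 0 := by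
      apply ih
      refine h.trans_le ?_
      rw [List.prod_cons]
      have : B.prod ≤ (p + 1) * B.prod := Nat.le_mul_of_pos_left _ (Nat.succ_pos p)
      exact_mod_cast this
    unfold V
    rw [h1, h2]
    split_ifs <;> simp

/-- primes up to `p` -/
def Ps (p : ℕ) : Finset ℕ := (Finset.range (p + 1)).filter Nat.Prime

lemma Ps_zero : Ps 0 = ∅ := by
  ext q
  simp only [Ps, Finset.mem_filter, Finset.mem_range, Finset.notMem_empty, iff_false]
  rintro ⟨h1, h2⟩
  have := h2.two_le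
  omega

lemma Ps_succ_prime {p : ℕ} (hp : (p + 1).Prime) : Ps (p + 1) = insert (p + 1) (Ps p) := by
  ext q
  simp only [Ps, Finset.mem_filter, Finset.mem_range, Finset.mem_insert]
  constructor
  · rintro ⟨h1, h2⟩
    rcases Nat.lt_or_ge q (p + 1) with h | h
    · exact Or.inr ⟨h, h2⟩
    · exact Or.inl (by omega)
  · rintro (rfl | ⟨h1, h2⟩)
    · exact ⟨by omega, hp⟩
    · exact ⟨by omega, h2⟩

lemma Ps_succ_not {p : ℕ} (hp : ¬ (p + 1).Prime) : Ps (p + 1) = Ps p := by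
  ext q
  simp only [Ps, Finset.mem_filter, Finset.mem_range]
  constructor
  · rintro ⟨h1, h2⟩
    refine ⟨?_, h2⟩
    rcases Nat.lt_or_ge q (p + 1) with h | h
    · exact h
    · have : q = p + 1 := by omega
      exact absurd (this ▸ h2) hp
  · rintro ⟨h1, h2⟩
    exact ⟨by omega, h2⟩

lemma notMem_Ps (p : ℕ) : p + 1 ∉ Ps p := by
  simp [Ps]

lemma prime_of_Ps {p q : ℕ} (h : q ∈ Ps p) : q.Prime := (Finset.mem_filter.1 h).2

/-- `∑ 1/q` over the primes `≤ p` -/
noncomputable def D (p : ℕ) : ℝ := ∑ q ∈ Ps p, 1 / (q : ℝ)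

lemma D_nonneg (p : ℕ) : 0 ≤ D p := Finset.sum_nonneg fun q _ => by positivity

lemma D_succ_prime {p : ℕ} (hp : (p + 1).Prime) : D (p + 1) = 1 / ((p : ℝ) + 1) + D p := by
  unfold D
  rw [Ps_succ_prime hp, Finset.sum_insert (notMem_Ps p)]
  push_cast
  rfl

lemma D_succ_not {p : ℕ} (hp : ¬ (p + 1).Prime) : D (p + 1) = D p := by
  unfold D
  rw [Ps_succ_not hp]

lemma D_succ_le (p : ℕ) : D p ≤ D (p + 1) := by
  by_cases hp : (p + 1).Prime
  · rw [D_succ_prime hp]
    have := (w_bd p).1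
    linarith
  · rw [D_succ_not hp]

lemma D_mono {p q : ℕ} (h : p ≤ q) : D p ≤ D q := monotone_nat_of_le_succ D_succ_le h

/-- `∏ (1 + c/q)` -/
noncomputable def A (c : ℝ) (p : ℕ) : ℝ := ∏ q ∈ Ps p, (1 + c / (q : ℝ))

lemma A_pos {c : ℝ} (hc : 0 ≤ c) (p : ℕ) : 0 < A c p := Finset.prod_pos fun q _ => by positivity

lemma A_succ_prime {c : ℝ} {p : ℕ} (hp : (p + 1).Prime) :
    A c (p + 1) = (1 + c * (1 / ((p : ℝ) + 1))) * A c p := by
  unfold A
  rw [Ps_succ_prime hp, Finset.prod_insert (notMem_Ps p)]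
  push_cast
  rw [mul_one_div]

lemma A_succ_not {c : ℝ} {p : ℕ} (hp : ¬ (p + 1).Prime) : A c (p + 1) = A c p := by
  unfold A
  rw [Ps_succ_not hp]

lemma A_le {c : ℝ} (hc : 0 ≤ c) (p : ℕ) : A c p ≤ Real.exp (c * D p) := by
  unfold A D
  rw [Finset.mul_sum, Real.exp_sum]
  refine Finset.prod_le_prod (fun q _ => by positivity) fun q _ => ?_
  rw [mul_one_div]
  have := Real.add_one_le_exp (c / (q : ℝ))
  linarith

/-! ### the product process with weights `1/(2q)` -/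

open Classical in
/-- window sum -/
noncomputable def Wn (lo hi : ℝ) (p : ℕ) (Q : ℝ) : ℝ :=
  ∑ σ ∈ (Ps p).powerset, if lo ≤ Q * ∏ q ∈ σ, (q : ℝ) ∧ Q * ∏ q ∈ σ, (q : ℝ) ≤ hi then
    ∏ q ∈ σ, 1 / (2 * (q : ℝ) - 1) else 0

/-- hitting probability of the product process -/
noncomputable def G (lo hi : ℝ) (p : ℕ) (Q : ℝ) : ℝ :=
  (∏ q ∈ Ps p, (1 - 1 / (2 * (q : ℝ)))) * Wn lo hi p Q

lemma prime_ge {p q : ℕ} (h : q ∈ Ps p) : (2 : ℝ) ≤ q := by exact_mod_cast (prime_of_Ps h).two_le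

lemma Wn_nonneg (lo hi : ℝ) (p : ℕ) (Q : ℝ) : 0 ≤ Wn lo hi p Q := by
  refine Finset.sum_nonneg fun σ hσ => ?_
  split_ifs
  · refine Finset.prod_nonneg fun q hq => ?_
    have := prime_ge (Finset.mem_powerset.1 hσ hq)
    exact one_div_nonneg.2 (by linarith)
  · exact le_rfl

lemma pr_nonneg (p : ℕ) : 0 ≤ ∏ q ∈ Ps p, (1 - 1 / (2 * (q : ℝ))) := by
  refine Finset.prod_nonneg fun q hq => ?_
  have := prime_ge hq
  have h : 1 / (2 * (q : ℝ)) ≤ 1 := by
    rw [div_le_one (by linarith)]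
    linarith
  linarith

lemma G_nonneg (lo hi : ℝ) (p : ℕ) (Q : ℝ) : 0 ≤ G lo hi p Q :=
  mul_nonneg (pr_nonneg p) (Wn_nonneg lo hi p Q)

lemma Wn_succ_prime (lo hi : ℝ) {p : ℕ} (hp : (p + 1).Prime) (Q : ℝ) :
    Wn lo hi (p + 1) Q = Wn lo hi p Q + 1 / (2 * ((p : ℝ) + 1) - 1) * Wn lo hi p (Q * ((p : ℝ) + 1)) := by
  classical
  unfold Wn
  rw [Ps_succ_prime hp, Finset.sum_powerset_insert (notMem_Ps p), Finset.mul_sum]
  congr 1
  refine Finset.sum_congr rfl fun σ hσ => ?_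
  have hn : p + 1 ∉ σ := fun h => notMem_Ps p (Finset.mem_powerset.1 hσ h)
  rw [Finset.prod_insert hn, Finset.prod_insert hn]
  push_cast
  rw [mul_assoc Q]
  split_ifs <;> ring

lemma G_zero (lo hi : ℝ) (Q : ℝ) : lo ≤ Q → Q ≤ hi → G lo hi 0 Q = 1 := by
  intro h1 h2
  unfold G Wn
  rw [Ps_zero]
  simp [h1, h2]

lemma G_succ_prime (lo hi : ℝ) {p : ℕ} (hp : (p + 1).Prime) (Q : ℝ) :
    G lo hi (p + 1) Q = (1 - 1 / ((p : ℝ) + 1) / 2) * G lo hi p Q +
      1 / ((p : ℝ) + 1) / 2 * G lo hi p (Q * ((p : ℝ) + 1)) := by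
  unfold G
  rw [Wn_succ_prime lo hi hp, Ps_succ_prime hp, Finset.prod_insert (notMem_Ps p)]
  push_cast
  have hp1 : (2 : ℝ) ≤ (p : ℝ) + 1 := by exact_mod_cast hp.two_le
  have e : (1 - 1 / (2 * ((p : ℝ) + 1))) * (1 / (2 * ((p : ℝ) + 1) - 1)) =
      1 / ((p : ℝ) + 1) / 2 := by
    have h1 : 2 * ((p : ℝ) + 1) - 1 ≠ 0 := by linarith
    have h2 : (p : ℝ) + 1 ≠ 0 := by linarith
    field_simp
  have e2 : (1 - 1 / (2 * ((p : ℝ) + 1))) = 1 - 1 / ((p : ℝ) + 1) / 2 := by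
    have h2 : (p : ℝ) + 1 ≠ 0 := by linarith
    field_simp
  rw [← e2, ← e]
  ring

lemma G_succ_not (lo hi : ℝ) {p : ℕ} (hp : ¬ (p + 1).Prime) (Q : ℝ) :
    G lo hi (p + 1) Q = G lo hi p Q := by
  unfold G Wn
  rw [Ps_succ_not hp]

/-- **the comparison with the product process**, `m` = number of missing ties, true or fake -/
theorem V_le_G (lo hi : ℝ) {ρ : ℝ} (hρ : 1 ≤ ρ) (k : ℕ) (p : ℕ) : ∀ (m : ℕ) (B : List ℕ),
    V (FT lo hi) p B ≤ ρ ^ m / ρ ^ k * A (ρ - 1) p + 2 ^ k / 2 ^ m * G lo hi p (B.prod : ℝ) := by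
  have hρ0 : 0 < ρ := by linarith
  induction p with
  | zero =>
    intro m B
    have hA : A (ρ - 1) 0 = 1 := by unfold A; rw [Ps_zero, Finset.prod_empty]
    rw [hA, mul_one]
    have hG := G_nonneg lo hi 0 (B.prod : ℝ)
    by_cases hF : FT lo hi B
    · rw [V_flag hF, G_zero lo hi _ hF.1 hF.2, mul_one]
      rcases le_total k m with h | h
      · have h1 : 1 ≤ ρ ^ m / ρ ^ k := by
          rw [le_div_iff₀ (pow_pos hρ0 k), one_mul]
          exact pow_le_pow_right₀ hρ h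
        have h2 : (0 : ℝ) ≤ 2 ^ k / 2 ^ m := by positivity
        linarith
      · have h1 : (1 : ℝ) ≤ 2 ^ k / 2 ^ m := by
          rw [le_div_iff₀ (by positivity), one_mul]
          exact pow_le_pow_right₀ (by norm_num) h
        have h2 : 0 ≤ ρ ^ m / ρ ^ k := by positivity
        linarith
    · have h0 : V (FT lo hi) 0 B = 0 := by unfold V; rw [if_neg hF]
      rw [h0]
      positivity
  | succ p ih =>
    intro m B
    by_cases hp : (p + 1).Prime
    · have hw := w_bd p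
      set w : ℝ := 1 / ((p : ℝ) + 1) with hwdef
      set g : ℝ := G lo hi p (B.prod : ℝ) with hg
      set g' : ℝ := G lo hi p ((B.prod : ℝ) * ((p : ℝ) + 1)) with hg'
      have hg0 : 0 ≤ g := G_nonneg _ _ _ _
      have hg0' : 0 ≤ g' := G_nonneg _ _ _ _
      have eG : G lo hi (p + 1) (B.prod : ℝ) = (1 - w / 2) * g + w / 2 * g' :=
        G_succ_prime lo hi hp _
      have eA : A (ρ - 1) (p + 1) = (1 + (ρ - 1) * w) * A (ρ - 1) p := A_succ_prime hp
      have i0 := ih m B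
      have i1 := ih (m + 1) B
      have i2 := ih (m + 1) ((p + 1) :: B)
      have ep : (((p + 1) :: B).prod : ℝ) = (B.prod : ℝ) * ((p : ℝ) + 1) := by
        rw [List.prod_cons]; push_cast; ring
      rw [ep] at i2
      set a : ℝ := ρ ^ m / ρ ^ k * A (ρ - 1) p with ha
      set b : ℝ := 2 ^ k / 2 ^ m with hb
      have hb0 : 0 ≤ b := by positivity
      have ea : ρ ^ (m + 1) / ρ ^ k * A (ρ - 1) p = ρ * a := by rw [ha, pow_succ]; ring
      have eb : (2 : ℝ) ^ k / 2 ^ (m + 1) = b / 2 := by rw [hb, pow_succ]; field_simp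
      rw [ea, eb] at i1 i2
      have e1 : ρ ^ m / ρ ^ k * A (ρ - 1) (p + 1) = (1 + (ρ - 1) * w) * a := by
        rw [eA, ha]; ring
      rw [e1, eG]
      have hbg : 0 ≤ b * g := mul_nonneg hb0 hg0
      have hbg' : 0 ≤ b * g' := mul_nonneg hb0 hg0'
      conv_lhs => unfold V
      rw [if_pos hp]
      refine max_le ?_ ?_
      · nlinarith [mul_le_mul_of_nonneg_left i0 (sub_nonneg.2 hw.2),
          mul_le_mul_of_nonneg_left i1 hw.1, mul_nonneg hw.1 hbg']
      · nlinarith [mul_le_mul_of_nonneg_left i0 (sub_nonneg.2 hw.2),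
          mul_le_mul_of_nonneg_left i2 hw.1, mul_nonneg hw.1 hbg]
    · have e1 : A (ρ - 1) (p + 1) = A (ρ - 1) p := A_succ_not hp
      rw [e1, G_succ_not lo hi hp]
      conv_lhs => unfold V
      rw [if_neg hp]
      exact ih m B

/-- **window bound of the product process** -/
theorem G_le {lo hi : ℝ} (hlo : 1 < lo) (hhi : lo ≤ hi) (p : ℕ) :
    G lo hi p 1 ≤ (Real.log (hi / lo) + 8) / Real.log lo := by
  classical
  have hl0 : 0 < lo := by linarith
  have hK : 1 ≤ hi / lo := by rwa [le_div_iff₀ hl0, one_mul]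
  have hlX : 0 < Real.log lo := Real.log_pos hlo
  have h := window (Ps p) (fun q hq => prime_of_Ps hq) (fun q => 1 / (2 * (q : ℝ) - 1)) 1 zero_le_one
    (fun q hq => one_div_nonneg.2 (by linarith [prime_ge hq]))
    (fun q hq => one_div_le_one_div_of_le (by linarith [prime_ge hq]) (by linarith [prime_ge hq]))
    lo (hi / lo) hlo hK
  rw [div_mul_cancel₀ _ hl0.ne', one_mul] at h
  have eW : Wn lo hi p 1 = ∑ σ ∈ (Ps p).powerset.filter
      (fun σ : Finset ℕ => lo ≤ ∏ p ∈ σ, (p : ℝ) ∧ ∏ p ∈ σ, (p : ℝ) ≤ hi),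
        ∏ q ∈ σ, 1 / (2 * (q : ℝ) - 1) := by
    unfold Wn
    rw [Finset.sum_filter]
    refine Finset.sum_congr rfl fun σ _ => ?_
    rw [one_mul]
  have e1 : (∏ q ∈ Ps p, (1 - 1 / (2 * (q : ℝ)))) * ∏ q ∈ Ps p, (1 + 1 / (2 * (q : ℝ) - 1)) = 1 := by
    rw [← Finset.prod_mul_distrib]
    refine Finset.prod_eq_one fun q hq => ?_
    have h2 := prime_ge hq
    have h3 : 2 * (q : ℝ) - 1 ≠ 0 := by linarith
    have h4 : (q : ℝ) ≠ 0 := by linarith
    field_simp
    ring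
  unfold G
  rw [eW]
  refine (mul_le_mul_of_nonneg_left h (pr_nonneg p)).trans ?_
  have e2 : (∏ q ∈ Ps p, (1 - 1 / (2 * (q : ℝ)))) * ((Real.log (hi / lo) + 8) / Real.log lo *
      ∏ q ∈ Ps p, (1 + 1 / (2 * (q : ℝ) - 1))) = (Real.log (hi / lo) + 8) / Real.log lo *
      ((∏ q ∈ Ps p, (1 - 1 / (2 * (q : ℝ)))) * ∏ q ∈ Ps p, (1 + 1 / (2 * (q : ℝ) - 1))) := by ring
  rw [e2, e1, mul_one]

/-! ### the bound for one target -/

/-- the constant of Mertens -/
noncomputable def cD : ℝ := 1 / 2 - Real.log (Real.log 2) + 7 / Real.log 2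

lemma cD_nonneg : 0 ≤ cD := by
  unfold cD
  have h2 : 0 < Real.log 2 := Real.log_pos one_lt_two
  have h3 : Real.log 2 ≤ 1 := by
    have := Real.log_le_sub_one_of_pos (show (0 : ℝ) < 2 by norm_num)
    linarith
  have h4 : Real.log (Real.log 2) ≤ 0 := Real.log_nonpos h2.le h3
  have h5 : 0 < 7 / Real.log 2 := by positivity
  linarith

lemma D_le {p : ℕ} (hp : 2 ≤ p) : D p ≤ Real.log (Real.log p) + cD := by
  have h := mertens_two_nat 2 p le_rfl hp
  have e : D p ≤ 1 / 2 + S 2 p := by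
    have hsub : Ps p ⊆ insert 2 (primesIoc 2 p) := by
      intro q hq
      have h1 := (Finset.mem_filter.1 hq)
      rw [Finset.mem_insert]
      rcases Nat.lt_or_ge 2 q with h2 | h2
      · exact Or.inr (mem_primesIoc.2 ⟨⟨h2, by have := Finset.mem_range.1 h1.1; omega⟩, h1.2⟩)
      · exact Or.inl (le_antisymm h2 h1.2.two_le)
    unfold D S
    refine (Finset.sum_le_sum_of_subset_of_nonneg hsub fun q _ _ => by positivity).trans ?_
    rw [Finset.sum_insert (by simp [mem_primesIoc])]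
    norm_num
  have h1 := (abs_le.1 h).2
  unfold cD
  push_cast at h1
  linarith

/-- the primes above the window are not needed -/
lemma V_trunc {lo hi : ℝ} {n p : ℕ} (hn : hi < (n : ℝ) + 1) (hp : n ≤ p) (B : List ℕ)
    (hB : 1 ≤ B.prod) : V (FT lo hi) p B = V (FT lo hi) n B := by
  induction p, hp using Nat.le_induction with
  | base => rfl
  | succ p hp ih =>
    have h2 : V (FT lo hi) p ((p + 1) :: B) = 0 := by
      apply V_late
      rw [List.prod_cons]
      have h3 : (n : ℝ) + 1 ≤ (p : ℝ) + 1 := by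
        have : (n : ℝ) ≤ p := by exact_mod_cast hp
        linarith
      have h4 : (p : ℝ) + 1 ≤ (((p + 1) * B.prod : ℕ) : ℝ) := by
        have : p + 1 ≤ (p + 1) * B.prod := Nat.le_mul_of_pos_right _ hB
        exact_mod_cast this
      linarith
    have h0 := V_nonneg (F := FT lo hi) p B
    have hw := w_bd p
    conv_lhs => unfold V
    rw [h2]
    split_ifs
    · rw [max_eq_left]
      · exact ih
      · nlinarith [mul_nonneg hw.1 h0]
    · exact ih

/-- constant of the hitting bound -/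
noncomputable def C0 : ℝ := 16 + 4 * Real.exp (5 / 12 * cD)

lemma C0_pos : 0 < C0 := by unfold C0; positivity

/-- **one target** -/
theorem hit_le {x r : ℝ} (hx : 2 ≤ x) (hr : 0 ≤ r) (hrx : r ≤ x / 2) (p : ℕ) :
    V (FT (Real.exp (x - r)) (Real.exp (x + r))) p [] ≤ C0 * (1 + r) * x ^ (-(1 / 20) : ℝ) := by
  set lo := Real.exp (x - r) with hlo
  set hi := Real.exp (x + r) with hhi
  have hx0 : 0 < x := by linarith
  have hx1 : 1 ≤ x := by linarith
  set n := ⌊hi⌋₊ with hn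
  have hhi0 : 0 < hi := Real.exp_pos _
  have hhi2 : 2 ≤ hi := by
    have h1 := Real.add_one_le_exp (x + r)
    linarith
  have hn2 : 2 ≤ n := Nat.le_floor (by exact_mod_cast hhi2)
  have hnhi : (n : ℝ) ≤ hi := Nat.floor_le hhi0.le
  have step1 : V (FT lo hi) p [] ≤ V (FT lo hi) n [] := by
    rcases le_total p n with h | h
    · exact V_mono_col h []
    · exact (V_trunc (Nat.lt_floor_add_one hi) h [] (by simp)).le
  -- choice of `k`
  obtain ⟨k, hk1, hk2⟩ := exists_nat_pow_near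
    (Real.one_le_rpow hx1 (show (0 : ℝ) ≤ 14 / 15 by norm_num)) (one_lt_two : (1 : ℝ) < 2)
  have step2 := V_le_G lo hi (ρ := 17 / 12) (by norm_num) k n 0 []
  have eρ : (17 / 12 : ℝ) - 1 = 5 / 12 := by norm_num
  rw [eρ, pow_zero, pow_zero, div_one, List.prod_nil, Nat.cast_one] at step2
  -- first term
  have hlogn : Real.log n ≤ 2 * x := by
    have h1 : Real.log n ≤ Real.log hi :=
      Real.log_le_log (by exact_mod_cast (by omega : 0 < n)) hnhi
    rw [hhi, Real.log_exp] at h1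
    linarith
  have hlogn0 : 0 < Real.log n := Real.log_pos (by exact_mod_cast (by omega : 1 < n))
  have hA : A (5 / 12) n ≤ Real.exp (5 / 12 * cD) * (2 * x) ^ (5 / 12 : ℝ) := by
    refine (A_le (by norm_num) n).trans ?_
    have h1 := D_le hn2
    have h2 : Real.log (Real.log n) ≤ Real.log (2 * x) := Real.log_le_log hlogn0 hlogn
    have h3 : (2 * x) ^ (5 / 12 : ℝ) = Real.exp (5 / 12 * Real.log (2 * x)) := by
      rw [Real.rpow_def_of_pos (by linarith), mul_comm]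
    rw [h3, ← Real.exp_add]
    apply Real.exp_le_exp.2
    nlinarith
  have hρk : x ^ (7 / 15 : ℝ) / 2 ≤ (17 / 12 : ℝ) ^ k := by
    have h1 : x ^ (14 / 15 : ℝ) / 2 ≤ (2 : ℝ) ^ k := by
      rw [pow_succ] at hk2; linarith
    have h2 : (2 : ℝ) ^ k ≤ ((17 / 12 : ℝ) ^ k) ^ 2 := by
      rw [← pow_mul, mul_comm k 2, pow_mul]
      exact pow_le_pow_left₀ (by norm_num) (by norm_num) k
    have h3 : (x ^ (7 / 15 : ℝ)) ^ 2 = x ^ (14 / 15 : ℝ) := by
      rw [← Real.rpow_natCast, ← Real.rpow_mul hx0.le]; norm_num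
    have h4 : (x ^ (7 / 15 : ℝ) / 2) ^ 2 ≤ ((17 / 12 : ℝ) ^ k) ^ 2 := by
      rw [div_pow, h3]
      have : 0 ≤ x ^ (14 / 15 : ℝ) := by positivity
      linarith
    exact le_of_sq_le_sq h4 (by positivity) |> fun h => h
  have hx712 : 0 < x ^ (7 / 15 : ℝ) := Real.rpow_pos_of_pos hx0 _
  have t1 : 1 / (17 / 12 : ℝ) ^ k * A (5 / 12) n ≤
      4 * Real.exp (5 / 12 * cD) * x ^ (-(1 / 20) : ℝ) := by
    have h1 : 1 / (17 / 12 : ℝ) ^ k ≤ 2 / x ^ (7 / 15 : ℝ) := by
      rw [div_le_div_iff₀ (by positivity) hx712]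
      linarith
    have h2 : (2 * x) ^ (5 / 12 : ℝ) ≤ 2 * x ^ (5 / 12 : ℝ) := by
      rw [Real.mul_rpow (by norm_num) hx0.le]
      refine mul_le_mul_of_nonneg_right ?_ (by positivity)
      calc (2 : ℝ) ^ (5 / 12 : ℝ) ≤ 2 ^ (1 : ℝ) :=
            Real.rpow_le_rpow_of_exponent_le (by norm_num) (by norm_num)
        _ = 2 := Real.rpow_one 2
    have h3 : x ^ (5 / 12 : ℝ) / x ^ (7 / 15 : ℝ) = x ^ (-(1 / 20) : ℝ) := by
      rw [← Real.rpow_sub hx0]; norm_num
    have hE : 0 < Real.exp (5 / 12 * cD) := Real.exp_pos _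
    calc 1 / (17 / 12 : ℝ) ^ k * A (5 / 12) n
        ≤ (2 / x ^ (7 / 15 : ℝ)) * (Real.exp (5 / 12 * cD) * (2 * x ^ (5 / 12 : ℝ))) :=
          mul_le_mul h1 (hA.trans (mul_le_mul_of_nonneg_left h2 hE.le))
            (A_pos (by norm_num) n).le (by positivity)
      _ = 4 * Real.exp (5 / 12 * cD) * (x ^ (5 / 12 : ℝ) / x ^ (7 / 15 : ℝ)) := by ring
      _ = _ := by rw [h3]
  -- second term
  have t2 : (2 : ℝ) ^ k * G lo hi n 1 ≤ (4 * r + 16) * x ^ (-(1 / 20) : ℝ) := by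
    have hlo1 : 1 < lo := by
      rw [hlo]; exact Real.one_lt_exp_iff.2 (by linarith)
    have hlh : lo ≤ hi := Real.exp_le_exp.2 (by linarith)
    have h1 := G_le hlo1 hlh n
    have e1 : Real.log (hi / lo) = 2 * r := by
      rw [hhi, hlo, ← Real.exp_sub, Real.log_exp]; ring
    have e2 : Real.log lo = x - r := by rw [hlo, Real.log_exp]
    rw [e1, e2] at h1
    have h2 : (2 * r + 8) / (x - r) ≤ (4 * r + 16) / x := by
      rw [div_le_div_iff₀ (by linarith) hx0]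
      nlinarith
    have h3 : x ^ (14 / 15 : ℝ) * ((4 * r + 16) / x) = (4 * r + 16) * x ^ (-(1 / 15) : ℝ) := by
      have e3 : x ^ (14 / 15 : ℝ) / x = x ^ (-(1 / 15) : ℝ) := by
        conv_lhs => rw [← Real.rpow_one x, ← Real.rpow_mul hx0.le]
        rw [← Real.rpow_sub hx0]; norm_num
      rw [← e3]; ring
    have h4 : x ^ (-(1 / 15) : ℝ) ≤ x ^ (-(1 / 20) : ℝ) :=
      Real.rpow_le_rpow_of_exponent_le hx1 (by norm_num)
    calc (2 : ℝ) ^ k * G lo hi n 1 ≤ x ^ (14 / 15 : ℝ) * ((4 * r + 16) / x) :=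
          mul_le_mul hk1 (h1.trans h2) (G_nonneg _ _ _ _) (by positivity)
      _ = (4 * r + 16) * x ^ (-(1 / 15) : ℝ) := h3
      _ ≤ _ := mul_le_mul_of_nonneg_left h4 (by linarith)
  refine step1.trans (step2.trans ((add_le_add t1 t2).trans ?_))
  have hxx : 0 < x ^ (-(1 / 20) : ℝ) := Real.rpow_pos_of_pos hx0 _
  have hE : 0 < Real.exp (5 / 12 * cD) := Real.exp_pos _
  unfold C0
  have : 0 ≤ r * Real.exp (5 / 12 * cD) := by positivity
  nlinarith [mul_nonneg this hxx.le, mul_nonneg hr hxx.le]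

/-! ### all targets of one scale -/

/-- **flag of the scale `j`** : the missing ties between a node `U` and the node `L ++ U` have a product
in the window of a target of `U` -/
def FZ (Θ : List ℕ → ℕ → Finset ℝ) (r : ℕ → ℝ) (j : ℕ) (B : List ℕ) : Prop :=
  ∃ L U, B = L ++ U ∧ L ≠ [] ∧ ∃ x ∈ Θ U j,
    Real.exp (x - r j) ≤ (L.prod : ℝ) ∧ (L.prod : ℝ) ≤ Real.exp (x + r j)

variable {Θ : List ℕ → ℕ → Finset ℝ} {r : ℕ → ℝ} {j : ℕ}

/-- one term of the potential -/
noncomputable def TT (Θ : List ℕ → ℕ → Finset ℝ) (r : ℕ → ℝ) (j p : ℕ) (L U : List ℕ) : ℝ :=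
  ∑ x ∈ Θ U j, V (FT (Real.exp (x - r j)) (Real.exp (x + r j))) p L

/-- the potential -/
noncomputable def SS (Θ : List ℕ → ℕ → Finset ℝ) (r : ℕ → ℝ) (j p : ℕ) (B : List ℕ) : ℝ :=
  ∑ i ∈ Finset.range (B.length + 1), TT Θ r j p (B.take i) (B.drop i)

lemma TT_nonneg (p : ℕ) (L U : List ℕ) : 0 ≤ TT Θ r j p L U :=
  Finset.sum_nonneg fun _ _ => V_nonneg _ _

lemma SS_nonneg (p : ℕ) (B : List ℕ) : 0 ≤ SS Θ r j p B :=
  Finset.sum_nonneg fun _ _ => TT_nonneg _ _ _

lemma SS_mono (p : ℕ) (B : List ℕ) : SS Θ r j p B ≤ SS Θ r j (p + 1) B :=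
  Finset.sum_le_sum fun _ _ => Finset.sum_le_sum fun _ _ => V_succ _ _

lemma SS_cons (p q : ℕ) (B : List ℕ) : SS Θ r j p (q :: B) = TT Θ r j p [] (q :: B) +
    ∑ i ∈ Finset.range (B.length + 1), TT Θ r j p (q :: B.take i) (B.drop i) := by
  unfold SS
  rw [List.length_cons, Finset.sum_range_succ', add_comm]
  rfl

/-- **small columns** -/
lemma zone_small {Kc : ℝ} (hc : ∀ p U, TT Θ r j p [] U ≤ Kc) (p : ℕ) (B : List ℕ)
    (hB : ∀ q ∈ B, p < q) : V (FZ Θ r j) p B ≤ SS Θ r j p B + Kc * D p := by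
  have hKc : 0 ≤ Kc := (TT_nonneg 0 [] []).trans (hc 0 [])
  refine V_le_of (p₀ := 0) (Φ := fun p B => SS Θ r j p B + Kc * D p) ?_ ?_ ?_ (Nat.zero_le p) B hB
  · intro B _
    have h0 := SS_nonneg (Θ := Θ) (r := r) (j := j) 0 B
    have hD := mul_nonneg hKc (D_nonneg 0)
    by_cases hF : FZ Θ r j B
    · rw [V_flag hF]
      obtain ⟨L, U, rfl, -, x, hx, h1, h2⟩ := hF
      have h3 : 1 ≤ SS Θ r j 0 (L ++ U) := by
        unfold SS
        have hi : L.length ∈ Finset.range ((L ++ U).length + 1) := by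
          rw [Finset.mem_range, List.length_append]; omega
        refine le_trans ?_ (Finset.single_le_sum
          (f := fun i => TT Θ r j 0 ((L ++ U).take i) ((L ++ U).drop i))
          (fun i _ => TT_nonneg _ _ _) hi)
        simp only [List.take_left', List.drop_left']
        unfold TT
        refine le_trans ?_ (Finset.single_le_sum
          (f := fun x => V (FT (Real.exp (x - r j)) (Real.exp (x + r j))) 0 L)
          (fun x _ => V_nonneg _ _) hx)
        show 1 ≤ V _ 0 L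
        rw [V_flag ⟨h1, h2⟩]
      show (1 : ℝ) ≤ SS Θ r j 0 (L ++ U) + Kc * D 0
      linarith
    · have e0 : V (FZ Θ r j) 0 B = 0 := by unfold V; rw [if_neg hF]
      show V (FZ Θ r j) 0 B ≤ SS Θ r j 0 B + Kc * D 0
      rw [e0]; linarith
  · intro p _ B _
    show SS Θ r j p B + Kc * D p ≤ SS Θ r j (p + 1) B + Kc * D (p + 1)
    have h1 := SS_mono (Θ := Θ) (r := r) (j := j) p B
    have h2 := mul_le_mul_of_nonneg_left (D_succ_le p) hKc
    linarith
  · intro p _ hp B _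
    show (1 - 1 / ((p : ℝ) + 1)) * (SS Θ r j p B + Kc * D p) +
      1 / ((p : ℝ) + 1) * (SS Θ r j p ((p + 1) :: B) + Kc * D p) ≤
      SS Θ r j (p + 1) B + Kc * D (p + 1)
    have hw := w_bd p
    rw [D_succ_prime hp, SS_cons]
    set w : ℝ := 1 / ((p : ℝ) + 1) with hwdef
    have h1 := mul_le_mul_of_nonneg_left (hc p ((p + 1) :: B)) hw.1
    have h2 : (1 - w) * SS Θ r j p B + w * ∑ i ∈ Finset.range (B.length + 1),
        TT Θ r j p ((p + 1) :: B.take i) (B.drop i) ≤ SS Θ r j (p + 1) B := by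
      unfold SS
      rw [Finset.mul_sum, Finset.mul_sum, ← Finset.sum_add_distrib]
      refine Finset.sum_le_sum fun i _ => ?_
      unfold TT
      rw [Finset.mul_sum, Finset.mul_sum, ← Finset.sum_add_distrib]
      refine Finset.sum_le_sum fun x _ => ?_
      have := V_tie (F := FT (Real.exp (x - r j)) (Real.exp (x + r j))) hp hw.1
        (by rw [hwdef]; push_cast; exact le_rfl) (B.take i)
      rw [Nat.add_sub_cancel] at this
      exact this
    nlinarith [h1, h2]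

/-- the column from which the scale `j` is not active -/
noncomputable def aj (j : ℕ) : ℕ := ⌈Real.exp (2 ^ (j + 2))⌉₊

lemma prod_ge {n : ℕ} : ∀ {B : List ℕ}, B ≠ [] → (∀ q ∈ B, n < q) → n < B.prod
  | [], h, _ => absurd rfl h
  | [q], _, h => by simpa using h q (by simp)
  | q :: q' :: B, _, h => by
    have h1 := prod_ge (B := q' :: B) (by simp) fun a ha => h a (List.mem_cons_of_mem _ ha)
    have h2 := h q (by simp)
    rw [List.prod_cons]
    exact h1.trans_le (Nat.le_mul_of_pos_left _ (by omega))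

/-- **one scale, any column** -/
theorem zone_one {Kc : ℝ} (hc : ∀ p U, TT Θ r j p [] U ≤ Kc)
    (hx : ∀ U, ∀ x ∈ Θ U j, x ≤ 2 ^ (j + 1)) (hr : r j ≤ 2 ^ j) (p : ℕ) :
    V (FZ Θ r j) p [] ≤ Kc * (1 + D (aj j)) := by
  have hKc : 0 ≤ Kc := (TT_nonneg 0 [] []).trans (hc 0 [])
  have base : ∀ B : List ℕ, (∀ q ∈ B, aj j < q) → V (FZ Θ r j) (aj j) B ≤ Kc * (1 + D (aj j)) := by
    intro B hB
    refine (zone_small hc (aj j) B hB).trans ?_
    have h1 : SS Θ r j (aj j) B ≤ Kc := by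
      unfold SS
      rw [Finset.sum_range_succ']
      have h2 : ∑ i ∈ Finset.range B.length, TT Θ r j (aj j) (B.take (i + 1)) (B.drop (i + 1)) = 0 := by
        refine Finset.sum_eq_zero fun i hi => ?_
        unfold TT
        refine Finset.sum_eq_zero fun x hxx => ?_
        apply V_late
        have hne : B.take (i + 1) ≠ [] := by
          intro h
          have := congrArg List.length h
          rw [List.length_take, List.length_nil] at this
          have := Finset.mem_range.1 hi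
          omega
        have h3 := prod_ge hne fun q hq => hB q (List.mem_of_mem_take hq)
        have h4 : Real.exp (2 ^ (j + 2)) ≤ (aj j : ℝ) := Nat.le_ceil _
        have h5 : ((aj j : ℕ) : ℝ) < ((B.take (i + 1)).prod : ℝ) := by exact_mod_cast h3
        have h6 : Real.exp (x + r j) ≤ Real.exp (2 ^ (j + 2)) := by
          apply Real.exp_le_exp.2
          have h7 := hx _ x hxx
          have h8 : (2 : ℝ) ^ (j + 2) = 2 ^ (j + 1) + 2 * 2 ^ j := by ring
          have h9 : (0 : ℝ) < 2 ^ j := by positivity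
          linarith
        linarith
      rw [h2, zero_add]
      simpa using hc (aj j) B
    have := mul_nonneg hKc (D_nonneg (aj j))
    linarith
  rcases le_total p (aj j) with h | h
  · exact (V_mono_col h []).trans (base [] (by simp))
  · refine V_le_of (Φ := fun _ _ => Kc * (1 + D (aj j))) base (fun _ _ _ _ => le_rfl) ?_ h []
      (by simp)
    intro p _ _ B _
    show (1 - 1 / ((p : ℝ) + 1)) * (Kc * (1 + D (aj j))) + 1 / ((p : ℝ) + 1) * (Kc * (1 + D (aj j))) ≤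
      Kc * (1 + D (aj j))
    exact le_of_eq (by ring)

/-! ### all scales -/

lemma sq_le_two_pow (j : ℕ) : ((j : ℝ) + 1) ^ 2 ≤
    (80 / Real.log 2) ^ 2 * (2 : ℝ) ^ ((j : ℝ) / 40) := by
  have hl : 0 < Real.log 2 := Real.log_pos one_lt_two
  have hl1 : Real.log 2 ≤ 1 := by
    have := Real.log_le_sub_one_of_pos (show (0 : ℝ) < 2 by norm_num)
    linarith
  have h1 : 1 + (j : ℝ) / 80 * Real.log 2 ≤ (2 : ℝ) ^ ((j : ℝ) / 80) := by
    rw [Real.rpow_def_of_pos two_pos]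
    have := Real.add_one_le_exp (Real.log 2 * ((j : ℝ) / 80))
    linarith
  have h2 : (j : ℝ) + 1 ≤ 80 / Real.log 2 * (2 : ℝ) ^ ((j : ℝ) / 80) := by
    have h3 : (j : ℝ) + 1 ≤ 80 / Real.log 2 * (1 + (j : ℝ) / 80 * Real.log 2) := by
      have e : 80 / Real.log 2 * (1 + (j : ℝ) / 80 * Real.log 2) = 80 / Real.log 2 + j := by
        field_simp
      rw [e]
      have : 1 ≤ 80 / Real.log 2 := by
        rw [le_div_iff₀ hl]; linarith
      linarith
    exact h3.trans (mul_le_mul_of_nonneg_left h1 (by positivity))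
  have h4 : (2 : ℝ) ^ ((j : ℝ) / 40) = ((2 : ℝ) ^ ((j : ℝ) / 80)) ^ 2 := by
    rw [← Real.rpow_natCast, ← Real.rpow_mul two_pos.le]
    congr 1
    push_cast
    ring
  rw [h4, ← mul_pow]
  exact pow_le_pow_left₀ (by positivity) h2 2

lemma D_aj_le (j : ℕ) : 1 + D (aj j) ≤ (5 + cD) * ((j : ℝ) + 1) := by
  have hE : Real.exp (2 ^ (j + 2)) ≤ aj j := Nat.le_ceil _
  have hE2 : (aj j : ℝ) ≤ Real.exp (2 ^ (j + 3)) := by
    have h1 : (aj j : ℝ) < Real.exp (2 ^ (j + 2)) + 1 := Nat.ceil_lt_add_one (Real.exp_pos _).le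
    have h2 : (2 : ℝ) ^ (j + 3) = 2 ^ (j + 2) + 2 ^ (j + 2) := by ring
    have h3 : (1 : ℝ) ≤ 2 ^ (j + 2) := one_le_pow₀ (by norm_num)
    have h4 : Real.exp 1 ≤ Real.exp (2 ^ (j + 2)) := Real.exp_le_exp.2 h3
    have h5 : (2 : ℝ) ≤ Real.exp 1 := by
      have := Real.add_one_le_exp (1 : ℝ); linarith
    rw [h2, Real.exp_add]
    nlinarith
  have h2 : 2 ≤ aj j := by
    have h3 : (1 : ℝ) ≤ 2 ^ (j + 2) := one_le_pow₀ (by norm_num)
    have h4 := Real.add_one_le_exp ((2 : ℝ) ^ (j + 2))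
    have : (2 : ℝ) ≤ aj j := by linarith
    exact_mod_cast this
  have h := D_le h2
  have hl0 : 0 < Real.log (aj j) := Real.log_pos (by exact_mod_cast (by omega : 1 < aj j))
  have h5 : Real.log (aj j) ≤ 2 ^ (j + 3) := by
    rw [Real.log_le_iff_le_exp (by exact_mod_cast (by omega : 0 < aj j))]
    exact hE2
  have h6 : Real.log (Real.log (aj j)) ≤ (j : ℝ) + 3 := by
    have h7 := Real.log_le_log hl0 h5
    rw [Real.log_pow] at h7
    push_cast at h7
    have hl1 : Real.log 2 ≤ 1 := by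
      have := Real.log_le_sub_one_of_pos (show (0 : ℝ) < 2 by norm_num)
      linarith
    have hj : (0 : ℝ) ≤ (j : ℝ) + 3 := by positivity
    nlinarith
  have hc := cD_nonneg
  have hj : (0 : ℝ) ≤ j := Nat.cast_nonneg j
  nlinarith [mul_nonneg hc hj]

/-- **one scale** -/
theorem zone_scale {K A' : ℝ} (hK : 0 ≤ K) (hA' : 0 ≤ A') (hj : 1 ≤ j)
    (hcard : ∀ U, ((Θ U j).card : ℝ) ≤ K) (hx : ∀ U, ∀ x ∈ Θ U j, 2 ^ j ≤ x ∧ x ≤ 2 ^ (j + 1))
    (hr0 : 0 ≤ r j) (hrA : r j ≤ A' * (j + 1)) (hr2 : r j ≤ 2 ^ j / 2) (p : ℕ) :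
    V (FZ Θ r j) p [] ≤ C0 * (5 + cD) * (80 / Real.log 2) ^ 2 * K * (1 + A') *
      ((2 : ℝ) ^ (-(1 / 40) : ℝ)) ^ j := by
  have hj2 : (2 : ℝ) ≤ 2 ^ j := by
    calc (2 : ℝ) = 2 ^ 1 := (pow_one 2).symm
      _ ≤ 2 ^ j := pow_le_pow_right₀ (by norm_num) hj
  have hC := C0_pos
  set c : ℝ := C0 * (1 + r j) * ((2 : ℝ) ^ j) ^ (-(1 / 20) : ℝ) with hcdef
  have hc0 : 0 ≤ c := by positivity
  have hc : ∀ p U, TT Θ r j p [] U ≤ K * c := by
    intro p U
    unfold TT
    have h1 : ∀ x ∈ Θ U j, V (FT (Real.exp (x - r j)) (Real.exp (x + r j))) p [] ≤ c := by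
      intro x hxx
      obtain ⟨h2, h3⟩ := hx U x hxx
      refine (hit_le (hj2.trans h2) hr0 (by linarith) p).trans ?_
      refine mul_le_mul_of_nonneg_left ?_ (by positivity)
      exact Real.rpow_le_rpow_of_nonpos (by positivity) h2 (by norm_num)
    refine (Finset.sum_le_sum h1).trans ?_
    rw [Finset.sum_const, nsmul_eq_mul]
    exact mul_le_mul_of_nonneg_right (hcard U) hc0
  refine (zone_one hc (fun U x h => (hx U x h).2) (by linarith [show (0 : ℝ) < 2 ^ j by positivity])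
    p).trans ?_
  have hD := D_aj_le j
  have hcD := cD_nonneg
  have hsq := sq_le_two_pow j
  have e1 : ((2 : ℝ) ^ j) ^ (-(1 / 20) : ℝ) = (2 : ℝ) ^ (-((j : ℝ) / 20)) := by
    rw [← Real.rpow_natCast, ← Real.rpow_mul two_pos.le]
    congr 1
    ring
  have e2 : ((2 : ℝ) ^ (-(1 / 40) : ℝ)) ^ j = (2 : ℝ) ^ (-((j : ℝ) / 40)) := by
    rw [← Real.rpow_natCast, ← Real.rpow_mul two_pos.le]
    congr 1
    ring
  have e3 : (2 : ℝ) ^ ((j : ℝ) / 40) * (2 : ℝ) ^ (-((j : ℝ) / 20)) = (2 : ℝ) ^ (-((j : ℝ) / 40)) := by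
    rw [← Real.rpow_add two_pos]
    congr 1
    ring
  have hjj : (0 : ℝ) ≤ (j : ℝ) + 1 := by positivity
  have h1 : 1 + r j ≤ (1 + A') * ((j : ℝ) + 1) := by
    have : (0 : ℝ) ≤ (j : ℝ) := Nat.cast_nonneg j
    nlinarith
  set P : ℝ := (2 : ℝ) ^ (-((j : ℝ) / 20)) with hP
  have hP0 : 0 < P := Real.rpow_pos_of_pos two_pos _
  calc K * c * (1 + D (aj j)) ≤ K * c * ((5 + cD) * ((j : ℝ) + 1)) :=
        mul_le_mul_of_nonneg_left hD (by positivity)
    _ = (K * C0 * (5 + cD) * P * ((j : ℝ) + 1)) * (1 + r j) := by rw [hcdef, e1]; ring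
    _ ≤ (K * C0 * (5 + cD) * P * ((j : ℝ) + 1)) * ((1 + A') * ((j : ℝ) + 1)) :=
        mul_le_mul_of_nonneg_left h1 (by positivity)
    _ = (K * C0 * (5 + cD) * (1 + A') * P) * ((j : ℝ) + 1) ^ 2 := by ring
    _ ≤ (K * C0 * (5 + cD) * (1 + A') * P) * ((80 / Real.log 2) ^ 2 * (2 : ℝ) ^ ((j : ℝ) / 40)) :=
        mul_le_mul_of_nonneg_left hsq (by positivity)
    _ = C0 * (5 + cD) * (80 / Real.log 2) ^ 2 * K * (1 + A') * ((2 : ℝ) ^ ((j : ℝ) / 40) * P) := by
        ring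
    _ = _ := by rw [e3, e2]

/-- lists with a bounded product are enough -/
lemma V_mono_fac {N : ℕ} (h : ∀ B : List ℕ, 0 < B.prod → B.prod ≤ N.factorial → F B → F' B) (p : ℕ)
    (B : List ℕ) (hB0 : 0 < B.prod) (hB : B.prod * p.factorial ≤ N.factorial) :
    V F p B ≤ V F' p B := by
  induction p generalizing B with
  | zero =>
    by_cases hF : F B
    · rw [V_flag hF, V_flag (h B hB0 (by simpa using hB) hF)]
    · have e0 : V F 0 B = 0 := by unfold V; rw [if_neg hF]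
      rw [e0]; exact V_nonneg _ _
  | succ p ih =>
    have h1 : B.prod * p.factorial ≤ N.factorial :=
      (Nat.mul_le_mul_left _ (Nat.factorial_le (Nat.le_succ p))).trans hB
    have h2 : ((p + 1) :: B).prod * p.factorial ≤ N.factorial := by
      rw [List.prod_cons, mul_comm (p + 1), mul_assoc, ← Nat.factorial_succ]
      exact hB
    have h3 : 0 < ((p + 1) :: B).prod := by
      rw [List.prod_cons]; exact Nat.mul_pos (Nat.succ_pos p) hB0
    have hw := w_bd p
    conv_lhs => unfold V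
    conv_rhs => unfold V
    split_ifs
    · exact max_le_max (ih B hB0 h1) (add_le_add
        (mul_le_mul_of_nonneg_left (ih B hB0 h1) (sub_nonneg.2 hw.2))
        (mul_le_mul_of_nonneg_left (ih _ h3 h2) hw.1))
    · exact ih B hB0 h1

/-- **the flagged nodes are rare**, for any adapted choice of the ties -/
theorem zone_le : ∃ C : ℝ, 0 < C ∧ ∀ (K A' : ℝ), 0 ≤ K → 0 ≤ A' →
    ∀ (Θ : List ℕ → ℕ → Finset ℝ) (r : ℕ → ℝ) (j₀ : ℕ), 1 ≤ j₀ →
    (∀ U j, j₀ ≤ j → ((Θ U j).card : ℝ) ≤ K) →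
    (∀ U j, j₀ ≤ j → ∀ x ∈ Θ U j, 2 ^ j ≤ x ∧ x ≤ 2 ^ (j + 1)) →
    (∀ j, j₀ ≤ j → 0 ≤ r j ∧ r j ≤ A' * (j + 1) ∧ r j ≤ 2 ^ j / 2) → ∀ p : ℕ,
    V (fun B => ∃ j, j₀ ≤ j ∧ FZ Θ r j B) p [] ≤ C * K * (1 + A') * (2 : ℝ) ^ (-((j₀ : ℝ) / 40)) := by
  have hC := C0_pos
  have hcD := cD_nonneg
  have hl : 0 < Real.log 2 := Real.log_pos one_lt_two
  set q : ℝ := (2 : ℝ) ^ (-(1 / 40) : ℝ) with hq
  have hq0 : 0 < q := Real.rpow_pos_of_pos two_pos _
  have hq1 : q < 1 := Real.rpow_lt_one_of_one_lt_of_neg one_lt_two (by norm_num)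
  have hq2 : 0 < 1 - q := by linarith
  set C1 : ℝ := C0 * (5 + cD) * (80 / Real.log 2) ^ 2 with hC1
  have hC1' : 0 < C1 := by positivity
  refine ⟨C1 / (1 - q), by positivity, fun K A' hK hA' Θ r j₀ hj₀ hcard hx hr p => ?_⟩
  -- finitely many scales
  obtain ⟨j₁, hj₁⟩ : ∃ j₁ : ℕ, ∀ j, j₀ ≤ j → ∀ B : List ℕ, 0 < B.prod → B.prod ≤ p.factorial →
      FZ Θ r j B → j < j₁ := by
    refine ⟨⌈2 * Real.log p.factorial⌉₊ + 1, fun j hj B hB0 hB hF => ?_⟩
    obtain ⟨L, U, rfl, hL, x, hxx, h1, h2⟩ := hF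
    rw [List.prod_append] at hB0 hB
    have hU : 0 < U.prod := Nat.pos_of_mul_pos_left hB0
    have hpr : L.prod ≤ p.factorial := (Nat.le_mul_of_pos_right _ hU).trans hB
    have h3 : Real.exp (x - r j) ≤ (p.factorial : ℝ) := h1.trans (by exact_mod_cast hpr)
    have h4 : x - r j ≤ Real.log p.factorial := by
      rw [Real.le_log_iff_exp_le (by exact_mod_cast Nat.factorial_pos p)]
      exact h3
    have h5 := (hx U j hj x hxx).1
    have h6 := (hr j hj).2.2
    have h7 : (j : ℝ) < 2 ^ j := by exact_mod_cast Nat.lt_two_pow_self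
    have h8 : (j : ℝ) ≤ ⌈2 * Real.log p.factorial⌉₊ := by
      have := Nat.le_ceil (2 * Real.log (p.factorial : ℝ))
      linarith
    have h9 : j ≤ ⌈2 * Real.log p.factorial⌉₊ := by exact_mod_cast h8
    omega
  have s1 : V (fun B => ∃ j, j₀ ≤ j ∧ FZ Θ r j B) p [] ≤
      V (fun B => ∃ j, (j₀ ≤ j ∧ j < j₁) ∧ FZ Θ r j B) p [] := by
    refine V_mono_fac (N := p) ?_ p [] (by simp) (by simp)
    rintro B h0 hB ⟨j, hj, hF⟩
    exact ⟨j, ⟨hj, hj₁ j hj B h0 hB hF⟩, hF⟩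
  have s2 := V_le_sum (F := fun B => ∃ j, (j₀ ≤ j ∧ j < j₁) ∧ FZ Θ r j B) (Finset.Ico j₀ j₁)
    (fun j => FZ Θ r j) (fun B ⟨j, h1, h2⟩ => ⟨j, Finset.mem_Ico.2 h1, h2⟩) p []
  have s3 : ∑ j ∈ Finset.Ico j₀ j₁, V (FZ Θ r j) p [] ≤
      ∑ j ∈ Finset.Ico j₀ j₁, C1 * K * (1 + A') * q ^ j := by
    refine Finset.sum_le_sum fun j hj => ?_
    have hj' := (Finset.mem_Ico.1 hj).1
    exact zone_scale hK hA' (hj₀.trans hj') (fun U => hcard U j hj') (fun U x h => hx U j hj' x h)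
      (hr j hj').1 (hr j hj').2.1 (hr j hj').2.2 p
  have s4 : ∑ j ∈ Finset.Ico j₀ j₁, q ^ j ≤ q ^ j₀ / (1 - q) :=
    geom_sum_Ico_le_of_lt_one hq0.le hq1
  have e1 : q ^ j₀ = (2 : ℝ) ^ (-((j₀ : ℝ) / 40)) := by
    rw [hq, ← Real.rpow_natCast, ← Real.rpow_mul two_pos.le]
    congr 1
    ring
  refine s1.trans (s2.trans (s3.trans ?_))
  rw [← Finset.mul_sum]
  refine (mul_le_mul_of_nonneg_left s4 (by positivity)).trans (le_of_eq ?_)
  rw [e1]
  ring

/-! ### groups of members -/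

/-- potential of a group of members `(c, B)` -/
noncomputable def pot (F : List ℕ → Prop) (p : ℕ) (g : List (ℝ × List ℕ)) : ℝ :=
  (g.map fun m => m.1 * V F p m.2).sum

@[simp] lemma pot_nil (p : ℕ) : pot F p [] = 0 := rfl

@[simp] lemma pot_cons (p : ℕ) (m : ℝ × List ℕ) (g : List (ℝ × List ℕ)) :
    pot F p (m :: g) = m.1 * V F p m.2 + pot F p g := rfl

lemma pot_append (p : ℕ) (g h : List (ℝ × List ℕ)) : pot F p (g ++ h) = pot F p g + pot F p h := by
  simp [pot]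

lemma pot_nonneg {p : ℕ} : ∀ {g : List (ℝ × List ℕ)}, (∀ m ∈ g, 0 ≤ m.1) → 0 ≤ pot F p g
  | [], _ => le_rfl
  | m :: g, h => by
    rw [pot_cons]
    have h1 := pot_nonneg (p := p) fun a ha => h a (List.mem_cons_of_mem m ha)
    have h2 := mul_nonneg (h m (by simp)) (V_nonneg (F := F) p m.2)
    linarith

open Classical in
/-- **weight of the flagged members of a group** -/
lemma flagged_le (p : ℕ) : ∀ {g : List (ℝ × List ℕ)}, (∀ m ∈ g, 0 ≤ m.1) →
    ((g.filter fun m => decide (F m.2)).map Prod.fst).sum ≤ pot F p g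
  | [], _ => by simp
  | m :: g, h => by
    rw [pot_cons]
    have h1 := flagged_le p fun a ha => h a (List.mem_cons_of_mem m ha)
    have h0 := h m (by simp)
    by_cases hF : F m.2
    · rw [List.filter_cons_of_pos (by simpa using hF), List.map_cons, List.sum_cons, V_flag hF,
        mul_one]
      linarith
    · rw [List.filter_cons_of_neg (by simpa using hF)]
      have h2 := mul_nonneg h0 (V_nonneg (F := F) p m.2)
      linarith

/-- what can happen to a member at the column `p` -/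
inductive Step (p : ℕ) : ℝ × List ℕ → List (ℝ × List ℕ) → Prop
  | stay (m : ℝ × List ℕ) : Step p m [m]
  | out (m : ℝ × List ℕ) : Step p m []
  | tie (m : ℝ × List ℕ) (w : ℝ) (h0 : 0 ≤ w) (h1 : w ≤ 1 / (p : ℝ)) (hp : p.Prime) :
      Step p m [((1 - w) * m.1, m.2), (w * m.1, p :: m.2)]
  | tieP (m : ℝ × List ℕ) (w : ℝ) (h0 : 0 ≤ w) (h1 : w ≤ 1 / (p : ℝ)) (hp : p.Prime) :
      Step p m [((1 - w) * m.1, m.2)]
  | tieN (m : ℝ × List ℕ) (w : ℝ) (h0 : 0 ≤ w) (h1 : w ≤ 1 / (p : ℝ)) (hp : p.Prime) :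
      Step p m [(w * m.1, p :: m.2)]

lemma Step.pot_le {p : ℕ} {m : ℝ × List ℕ} {l : List (ℝ × List ℕ)} (h : Step p m l) (hm : 0 ≤ m.1) :
    pot F (p - 1) l ≤ m.1 * V F p m.2 := by
  have key : ∀ w : ℝ, 0 ≤ w → w ≤ 1 / (p : ℝ) → p.Prime →
      (0 ≤ (1 - w) * m.1 * V F (p - 1) m.2) ∧ (0 ≤ w * m.1 * V F (p - 1) (p :: m.2)) ∧
      (1 - w) * m.1 * V F (p - 1) m.2 + w * m.1 * V F (p - 1) (p :: m.2) ≤ m.1 * V F p m.2 := by
    intro w h0 h1 hp
    have h2 := mul_le_mul_of_nonneg_left (V_tie (F := F) hp h0 h1 m.2) hm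
    have hw : w ≤ 1 := by
      refine h1.trans ?_
      have : (1 : ℝ) ≤ p := by exact_mod_cast hp.one_lt.le
      rw [div_le_one (by linarith)]
      exact this
    refine ⟨mul_nonneg (mul_nonneg (by linarith) hm) (V_nonneg _ _),
      mul_nonneg (mul_nonneg h0 hm) (V_nonneg _ _), ?_⟩
    nlinarith [h2]
  cases h with
  | stay =>
    rw [pot_cons, pot_nil, add_zero]
    exact mul_le_mul_of_nonneg_left (V_mono_col (Nat.sub_le p 1) _) hm
  | out => rw [pot_nil]; exact mul_nonneg hm (V_nonneg _ _)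
  | tie w h0 h1 hp =>
    obtain ⟨k1, k2, k3⟩ := key w h0 h1 hp
    simp only [pot_cons, pot_nil, add_zero]
    linarith
  | tieP w h0 h1 hp =>
    obtain ⟨k1, k2, k3⟩ := key w h0 h1 hp
    simp only [pot_cons, pot_nil, add_zero]
    linarith
  | tieN w h0 h1 hp =>
    obtain ⟨k1, k2, k3⟩ := key w h0 h1 hp
    simp only [pot_cons, pot_nil, add_zero]
    linarith

/-- **one column of a group walk** -/
lemma pot_step {p : ℕ} (st : ℝ × List ℕ → List (ℝ × List ℕ)) : ∀ {g : List (ℝ × List ℕ)},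
    (∀ m ∈ g, 0 ≤ m.1) → (∀ m ∈ g, Step p m (st m)) → pot F (p - 1) (g.flatMap st) ≤ pot F p g
  | [], _, _ => by simp
  | m :: g, h0, h => by
    rw [List.flatMap_cons, pot_append, pot_cons]
    have h1 := pot_step st (fun a ha => h0 a (List.mem_cons_of_mem m ha))
      (fun a ha => h a (List.mem_cons_of_mem m ha))
    have h2 := (h m (by simp)).pot_le (F := F) (h0 m (by simp))
    linarith

end Crest.Agent.R4P.Zone11
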