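import Crest.Agent.R4.LFA363
import Crest.Agent.R4P.Zone_11

/-!
R4 (S0004) with powers, helper32: **the ladder of a node**.

The labels of a target `θ` at all radii (`LS θ`): denominators `k` and errors `e = |θ - ρ|`.

* `LS.cube`, `LS.den_inj`, `LS.err`, `LS.err_low` : `k ^ 3 ≤ 2 k'`, `e k ^ 4 ≤ 1`, `1 ≤ 2 k k' e` for `k < k'`;
* `uniqA`, `uniqC` : at most one label with `a log k ∈ [2 ^ j, 2 ^ (j + 1)]` (`a log 2 < 2 ^ j`), at most one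
  with `c log (1 / e) ∈ [2 ^ j, 2 ^ (j + 1)]` (`4 c log 2 < 2 ^ j`);
* `tgt A C θ j` : the finset of all these numbers (`a ∈ A`, `c ∈ C`), `card ≤ |A| + |C|`;
* `ladder_zone` : **the one-zone lemma for the ladder** : the nodes `L ++ U`, `L ≠ []`, with
  `|log (∏ L) - x| ≤ r j`, `x ∈ [2 ^ j, 2 ^ (j + 1)]` a number of the ladder of `(∏ U) γ`, are rare for
  any adapted choice of the ties;
* `ladder_log` : the same with windows `W (1 + log x)`, `x ≥ 2 ^ j₀`.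
-/

set_option autoImplicit false

namespace Crest.Agent.R4P.Lad32

open Finset Crest.Agent.R4.LF363 Crest.Agent.R4P.Zone11

/-- labels of the target `θ` (at any radius) -/
def LS (θ : ℝ) (ρ : ℚ) : Prop := ∃ r, Lab θ r ρ

variable {θ : ℝ} {ρ σ : ℚ}

lemma LS.of {r : ℝ} (h : Lab θ r ρ) : LS θ ρ := ⟨r, h⟩

/-- denominators grow cubically -/
lemma LS.cube (h : LS θ ρ) (h' : LS θ σ) (hne : ρ ≠ σ) (hle : ρ.den ≤ σ.den) :
    (ρ.den : ℝ) ^ 3 ≤ 2 * σ.den := by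
  obtain ⟨r, h⟩ := h
  obtain ⟨s, h'⟩ := h'
  exact lab_cube h h' hne hle

lemma LS.den_ne (h : LS θ ρ) (h' : LS θ σ) (hne : ρ ≠ σ) : ρ.den ≠ σ.den := by
  obtain ⟨r, h⟩ := h
  obtain ⟨s, h'⟩ := h'
  exact lab_den_ne h h' hne

lemma LS.den_inj (h : LS θ ρ) (h' : LS θ σ) (he : ρ.den = σ.den) : ρ = σ := by
  by_contra hne
  exact h.den_ne h' hne he

/-- errors are small -/
lemma LS.err (h : LS θ ρ) : |θ - ρ| * (ρ.den : ℝ) ^ 4 ≤ 1 := by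
  obtain ⟨r, h⟩ := h
  exact h.err

lemma LS.err_half (h : LS θ ρ) : |θ - ρ| < 1 / 2 := by
  obtain ⟨r, h⟩ := h
  exact h.err_half

/-- errors are not too small if there is a finer label -/
lemma LS.err_low (_h : LS θ ρ) (h' : LS θ σ) (hlt : ρ.den < σ.den) :
    3 / 4 ≤ (ρ.den : ℝ) * σ.den * |θ - ρ| := by
  have hne : ρ ≠ σ := fun e => by rw [e] at hlt; exact lt_irrefl _ hlt
  have hρ : (1 : ℝ) ≤ ρ.den := by exact_mod_cast ρ.den_pos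
  have hlt' : (ρ.den : ℝ) ≤ σ.den := by exact_mod_cast hlt.le
  have hσ : (2 : ℝ) ≤ σ.den := by
    have := ρ.den_pos
    exact_mod_cast (by omega : 2 ≤ σ.den)
  have hσ0 : (0 : ℝ) < σ.den := by linarith
  have h1 := rat_gap hne
  have h2 : |(ρ : ℝ) - σ| ≤ |θ - ρ| + |θ - σ| := by
    have := abs_sub (θ - σ) (θ - ρ)
    have e : (θ - σ) - (θ - ρ) = (ρ : ℝ) - σ := by ring
    rw [e] at this
    linarith
  have h3 := h'.err
  -- `|θ - σ| k k' ≤ 1 / 4`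
  have h4 : |θ - σ| * ((ρ.den : ℝ) * σ.den) ≤ 1 / 4 := by
    have h5 : |θ - σ| * ((ρ.den : ℝ) * σ.den) * (4 : ℝ) ≤ |θ - σ| * (σ.den : ℝ) ^ 4 := by
      have h6 : (ρ.den : ℝ) * σ.den * 4 ≤ (σ.den : ℝ) ^ 4 := by
        have h7 : (ρ.den : ℝ) * σ.den ≤ (σ.den : ℝ) * σ.den :=
          mul_le_mul_of_nonneg_right hlt' hσ0.le
        have h8 : (4 : ℝ) ≤ (σ.den : ℝ) * σ.den := by nlinarith
        have h9 : 0 ≤ (σ.den : ℝ) * σ.den := by positivity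
        calc (ρ.den : ℝ) * σ.den * 4 ≤ ((σ.den : ℝ) * σ.den) * ((σ.den : ℝ) * σ.den) :=
              mul_le_mul h7 h8 (by norm_num) h9
          _ = (σ.den : ℝ) ^ 4 := by ring
      calc |θ - σ| * ((ρ.den : ℝ) * σ.den) * (4 : ℝ) = |θ - σ| * ((ρ.den : ℝ) * σ.den * 4) := by ring
        _ ≤ _ := mul_le_mul_of_nonneg_left h6 (abs_nonneg _)
    linarith
  have h10 : 1 ≤ (|θ - ρ| + |θ - σ|) * ((ρ.den : ℝ) * σ.den) :=
    h1.trans (mul_le_mul_of_nonneg_right h2 (by positivity))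
  nlinarith

/-- a finer label has an error smaller than the third power (almost) of the coarser one -/
lemma LS.err_pos (h : LS θ ρ) (h' : LS θ σ) (hlt : ρ.den < σ.den) : 0 < |θ - ρ| := by
  have h1 := h.err_low h' hlt
  by_contra hc
  have h2 : |θ - ρ| = 0 := le_antisymm (not_lt.1 hc) (abs_nonneg _)
  rw [h2, mul_zero] at h1
  norm_num at h1

/-! ### at most one threshold per dyadic block -/

/-- the numbers `a log k` -/
def SA (a θ : ℝ) (j : ℕ) : Set ℝ :=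
  {x | (2 : ℝ) ^ j ≤ x ∧ x ≤ 2 ^ (j + 1) ∧ ∃ ρ : ℚ, LS θ ρ ∧ x = a * Real.log ρ.den}

/-- the numbers `c log (1 / e)` -/
def SC (c θ : ℝ) (j : ℕ) : Set ℝ :=
  {x | (2 : ℝ) ^ j ≤ x ∧ x ≤ 2 ^ (j + 1) ∧ ∃ ρ : ℚ, LS θ ρ ∧ 0 < |θ - ρ| ∧
    x = c * Real.log (1 / |θ - ρ|)}

lemma log_den_nonneg (ρ : ℚ) : 0 ≤ Real.log ρ.den :=
  Real.log_nonneg (by exact_mod_cast ρ.den_pos)

/-- `3 log k ≤ log 2 + log k'` -/
lemma LS.log_cube (h : LS θ ρ) (h' : LS θ σ) (hlt : ρ.den < σ.den) :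
    3 * Real.log ρ.den ≤ Real.log 2 + Real.log σ.den := by
  have hne : ρ ≠ σ := fun e => by rw [e] at hlt; exact lt_irrefl _ hlt
  have hρ : (0 : ℝ) < ρ.den := by exact_mod_cast ρ.den_pos
  have hσ : (0 : ℝ) < σ.den := by exact_mod_cast σ.den_pos
  have h1 := h.cube h' hne hlt.le
  have h2 := Real.log_le_log (by positivity) h1
  rw [Real.log_pow, Real.log_mul (by norm_num) hσ.ne'] at h2
  exact_mod_cast h2

/-- `log (1 / e) ≤ (4/3) (log 2 + log k')` -/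
lemma LS.log_err (h : LS θ ρ) (h' : LS θ σ) (hlt : ρ.den < σ.den) :
    Real.log (1 / |θ - ρ|) ≤ 4 / 3 * (Real.log 2 + Real.log σ.den) := by
  have h0 := h.err_pos h' hlt
  have hρ : (0 : ℝ) < ρ.den := by exact_mod_cast ρ.den_pos
  have hσ : (0 : ℝ) < σ.den := by exact_mod_cast σ.den_pos
  have h1 := h.err_low h' hlt
  have h2 : 1 / |θ - ρ| ≤ 2 * ((ρ.den : ℝ) * σ.den) := by
    rw [div_le_iff₀ h0]
    nlinarith
  have h3 := Real.log_le_log (by positivity) h2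
  rw [Real.log_mul (by norm_num) (by positivity), Real.log_mul hρ.ne' hσ.ne'] at h3
  have h4 := h.log_cube h' hlt
  linarith

/-- `4 log k' ≤ log (1 / e')` -/
lemma LS.log_err_ge (h : LS θ ρ) (h0 : 0 < |θ - ρ|) :
    4 * Real.log ρ.den ≤ Real.log (1 / |θ - ρ|) := by
  have hρ : (0 : ℝ) < ρ.den := by exact_mod_cast ρ.den_pos
  have h1 : (ρ.den : ℝ) ^ 4 ≤ 1 / |θ - ρ| := by
    rw [le_div_iff₀ h0, mul_comm]
    exact h.err
  have h2 := Real.log_le_log (by positivity) h1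
  rw [Real.log_pow] at h2
  exact_mod_cast h2

theorem uniqA {a : ℝ} {j : ℕ} (hj : a * Real.log 2 < 2 ^ j) (ha : 0 ≤ a) (h : LS θ ρ)
    (h' : LS θ σ) (h1 : (2 : ℝ) ^ j ≤ a * Real.log ρ.den) (h2 : a * Real.log ρ.den ≤ 2 ^ (j + 1))
    (h3 : (2 : ℝ) ^ j ≤ a * Real.log σ.den) (h4 : a * Real.log σ.den ≤ 2 ^ (j + 1)) : ρ = σ := by
  by_contra hne
  have key : ∀ {ρ σ : ℚ}, LS θ ρ → LS θ σ → ρ.den < σ.den →
      (2 : ℝ) ^ j ≤ a * Real.log ρ.den → a * Real.log σ.den ≤ 2 ^ (j + 1) → False := by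
    intro ρ σ h h' hlt h1 h4
    have h5 := mul_le_mul_of_nonneg_left (h.log_cube h' hlt) ha
    rw [pow_succ] at h4
    nlinarith
  rcases lt_trichotomy ρ.den σ.den with hlt | he | hlt
  · exact key h h' hlt h1 h4
  · exact hne (h.den_inj h' he)
  · exact key h' h hlt h3 h2

theorem uniqC {c : ℝ} {j : ℕ} (hj : 4 * c * Real.log 2 < 2 ^ j) (hc : 0 ≤ c) (h : LS θ ρ)
    (h' : LS θ σ) (e1 : 0 < |θ - ρ|) (e2 : 0 < |θ - σ|)
    (h1 : (2 : ℝ) ^ j ≤ c * Real.log (1 / |θ - ρ|)) (h2 : c * Real.log (1 / |θ - ρ|) ≤ 2 ^ (j + 1))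
    (h3 : (2 : ℝ) ^ j ≤ c * Real.log (1 / |θ - σ|)) (h4 : c * Real.log (1 / |θ - σ|) ≤ 2 ^ (j + 1)) :
    ρ = σ := by
  by_contra hne
  have key : ∀ {ρ σ : ℚ}, LS θ ρ → LS θ σ → 0 < |θ - σ| → ρ.den < σ.den →
      (2 : ℝ) ^ j ≤ c * Real.log (1 / |θ - ρ|) → c * Real.log (1 / |θ - σ|) ≤ 2 ^ (j + 1) →
      False := by
    intro ρ σ h h' e2 hlt h1 h4
    have h5 := mul_le_mul_of_nonneg_left (h.log_err h' hlt) hc
    have h6 := mul_le_mul_of_nonneg_left (h'.log_err_ge e2) hc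
    rw [pow_succ] at h4
    nlinarith
  rcases lt_trichotomy ρ.den σ.den with hlt | he | hlt
  · exact key h h' e2 hlt h1 h4
  · exact hne (h.den_inj h' he)
  · exact key h' h e1 hlt h3 h2

lemma SA_sub {a : ℝ} {j : ℕ} (hj : a * Real.log 2 < 2 ^ j) (ha : 0 ≤ a) :
    (SA a θ j).Subsingleton := by
  rintro x ⟨h1, h2, ρ, h, rfl⟩ y ⟨h3, h4, σ, h', rfl⟩
  rw [uniqA hj ha h h' h1 h2 h3 h4]

lemma SC_sub {c : ℝ} {j : ℕ} (hj : 4 * c * Real.log 2 < 2 ^ j) (hc : 0 ≤ c) :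
    (SC c θ j).Subsingleton := by
  rintro x ⟨h1, h2, ρ, h, e1, rfl⟩ y ⟨h3, h4, σ, h', e2, rfl⟩
  rw [uniqC hj hc h h' e1 e2 h1 h2 h3 h4]

/-- a finite set as a finset (empty if infinite) -/
noncomputable def fs (S : Set ℝ) : Finset ℝ := by
  classical exact if h : S.Finite then h.toFinset else ∅

lemma mem_fs {S : Set ℝ} {x : ℝ} (h : x ∈ fs S) : x ∈ S := by
  unfold fs at h
  split_ifs at h with hS
  · exact hS.mem_toFinset.1 h
  · simp at h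

lemma mem_fs_iff {S : Set ℝ} (hS : S.Subsingleton) {x : ℝ} : x ∈ fs S ↔ x ∈ S := by
  unfold fs
  rw [dif_pos hS.finite]
  exact hS.finite.mem_toFinset

lemma card_fs {S : Set ℝ} (hS : S.Subsingleton) : (fs S).card ≤ 1 := by
  rw [Finset.card_le_one]
  intro x hx y hy
  exact hS (mem_fs hx) (mem_fs hy)

/-- **all thresholds of the ladder in one dyadic block** -/
noncomputable def tgt (A C : Finset ℝ) (θ : ℝ) (j : ℕ) : Finset ℝ := by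
  classical exact (A.biUnion fun a => fs (SA a θ j)) ∪ C.biUnion fun c => fs (SC c θ j)

variable {A C : Finset ℝ}

lemma tgt_bd {j : ℕ} {x : ℝ} (h : x ∈ tgt A C θ j) : (2 : ℝ) ^ j ≤ x ∧ x ≤ 2 ^ (j + 1) := by
  classical
  unfold tgt at h
  rcases Finset.mem_union.1 h with h | h
  · obtain ⟨a, -, ha⟩ := Finset.mem_biUnion.1 h
    have := mem_fs ha
    exact ⟨this.1, this.2.1⟩
  · obtain ⟨a, -, ha⟩ := Finset.mem_biUnion.1 h
    have := mem_fs ha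
    exact ⟨this.1, this.2.1⟩

/-- the dyadic blocks which are high enough for the exponents `A`, `C` -/
def HiB (A C : Finset ℝ) (j : ℕ) : Prop :=
  (∀ a ∈ A, 0 ≤ a ∧ a * Real.log 2 < 2 ^ j) ∧ ∀ c ∈ C, 0 ≤ c ∧ 4 * c * Real.log 2 < 2 ^ j

lemma HiB.mono {j i : ℕ} (h : HiB A C j) (hij : j ≤ i) : HiB A C i := by
  have h1 : (2 : ℝ) ^ j ≤ 2 ^ i := pow_le_pow_right₀ (by norm_num) hij
  exact ⟨fun a ha => ⟨(h.1 a ha).1, (h.1 a ha).2.trans_le h1⟩,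
    fun c hc => ⟨(h.2 c hc).1, (h.2 c hc).2.trans_le h1⟩⟩

lemma exists_HiB (hA : ∀ a ∈ A, 0 ≤ a) (hC : ∀ c ∈ C, 0 ≤ c) : ∃ j, HiB A C j := by
  obtain ⟨j, hj⟩ := pow_unbounded_of_one_lt
    (∑ a ∈ A, a * Real.log 2 + ∑ c ∈ C, 4 * c * Real.log 2) (one_lt_two : (1 : ℝ) < 2)
  have hl : 0 < Real.log 2 := Real.log_pos one_lt_two
  have hA' : 0 ≤ ∑ a ∈ A, a * Real.log 2 := Finset.sum_nonneg fun a ha => mul_nonneg (hA a ha) hl.le
  have hC' : 0 ≤ ∑ c ∈ C, 4 * c * Real.log 2 :=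
    Finset.sum_nonneg fun c hc => mul_nonneg (mul_nonneg (by norm_num) (hC c hc)) hl.le
  refine ⟨j, fun a ha => ⟨hA a ha, ?_⟩, fun c hc => ⟨hC c hc, ?_⟩⟩
  · have := Finset.single_le_sum (f := fun a => a * Real.log 2)
      (fun a ha => mul_nonneg (hA a ha) hl.le) ha
    linarith
  · have := Finset.single_le_sum (f := fun c => 4 * c * Real.log 2)
      (fun c hc => mul_nonneg (mul_nonneg (by norm_num) (hC c hc)) hl.le) hc
    linarith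

lemma card_tgt {j : ℕ} (hj : HiB A C j) : (tgt A C θ j).card ≤ A.card + C.card := by
  classical
  unfold tgt
  refine (Finset.card_union_le _ _).trans (add_le_add ?_ ?_)
  · refine Finset.card_biUnion_le.trans ?_
    calc ∑ a ∈ A, (fs (SA a θ j)).card ≤ ∑ a ∈ A, 1 :=
          Finset.sum_le_sum fun a ha => card_fs (SA_sub (hj.1 a ha).2 (hj.1 a ha).1)
      _ = A.card := by simp
  · refine Finset.card_biUnion_le.trans ?_
    calc ∑ c ∈ C, (fs (SC c θ j)).card ≤ ∑ c ∈ C, 1 :=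
          Finset.sum_le_sum fun c hc => card_fs (SC_sub (hj.2 c hc).2 (hj.2 c hc).1)
      _ = C.card := by simp

/-- the denominators are in -/
lemma mem_tgtA {j : ℕ} (hj : HiB A C j) {a : ℝ} (ha : a ∈ A) (h : LS θ ρ)
    (h1 : (2 : ℝ) ^ j ≤ a * Real.log ρ.den) (h2 : a * Real.log ρ.den ≤ 2 ^ (j + 1)) :
    a * Real.log ρ.den ∈ tgt A C θ j := by
  classical
  unfold tgt
  refine Finset.mem_union_left _ (Finset.mem_biUnion.2 ⟨a, ha, ?_⟩)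
  exact (mem_fs_iff (SA_sub (hj.1 a ha).2 (hj.1 a ha).1)).2 ⟨h1, h2, ρ, h, rfl⟩

/-- the errors are in -/
lemma mem_tgtC {j : ℕ} (hj : HiB A C j) {c : ℝ} (hc : c ∈ C) (h : LS θ ρ) (h0 : 0 < |θ - ρ|)
    (h1 : (2 : ℝ) ^ j ≤ c * Real.log (1 / |θ - ρ|))
    (h2 : c * Real.log (1 / |θ - ρ|) ≤ 2 ^ (j + 1)) :
    c * Real.log (1 / |θ - ρ|) ∈ tgt A C θ j := by
  classical
  unfold tgt
  refine Finset.mem_union_right _ (Finset.mem_biUnion.2 ⟨c, hc, ?_⟩)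
  exact (mem_fs_iff (SC_sub (hj.2 c hc).2 (hj.2 c hc).1)).2 ⟨h1, h2, ρ, h, h0, rfl⟩

/-- the exponents of the landed rules : `k ^ 5`, `(1 / e) ^ (5/4)` (thresholds of the radius) and `1 / e` -/
noncomputable def A₀ : Finset ℝ := {5}
noncomputable def C₀ : Finset ℝ := {5 / 4, 1}

lemma HiB₀ {j : ℕ} (hj : 2 ≤ j) : HiB A₀ C₀ j := by
  have hl : Real.log 2 < 7 / 10 := lt_trans Real.log_two_lt_d9 (by norm_num)
  have h : HiB A₀ C₀ 2 := by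
    constructor
    · intro a ha
      rw [A₀, Finset.mem_singleton] at ha
      subst ha
      exact ⟨by norm_num, by linarith⟩
    · intro c hc
      have hc : c = 5 / 4 ∨ c = 1 := by simpa [C₀] using hc
      rcases hc with rfl | rfl
      · exact ⟨by norm_num, by linarith⟩
      · exact ⟨by norm_num, by linarith⟩
  exact h.mono hj

/-! ### the zone lemma -/

/-- targets of a node -/
noncomputable def Th (A C : Finset ℝ) (γ : ℝ) (U : List ℕ) (j : ℕ) : Finset ℝ :=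
  tgt A C ((U.prod : ℝ) * γ) j

/-- **one-zone lemma for the ladder** -/
theorem ladder_zone : ∃ K₀ : ℝ, 0 < K₀ ∧ ∀ (A C : Finset ℝ) (γ A' : ℝ), 0 ≤ A' →
    ∀ (r : ℕ → ℝ) (j₀ : ℕ), 1 ≤ j₀ → HiB A C j₀ →
    (∀ j, j₀ ≤ j → 0 ≤ r j ∧ r j ≤ A' * (j + 1) ∧ r j ≤ 2 ^ j / 2) → ∀ p : ℕ,
    V (fun B => ∃ j, j₀ ≤ j ∧ FZ (Th A C γ) r j B) p [] ≤
      K₀ * ((A.card : ℝ) + C.card) * (1 + A') * (2 : ℝ) ^ (-((j₀ : ℝ) / 40)) := by
  obtain ⟨K₀, hK₀, h⟩ := zone_le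
  refine ⟨K₀, hK₀, fun A C γ A' hA' r j₀ hj₀ hB hr p => ?_⟩
  refine h ((A.card : ℝ) + C.card) A' (by positivity) hA' (Th A C γ) r j₀ hj₀ ?_ ?_ hr p
  · intro U j hj
    exact_mod_cast card_tgt (hB.mono hj)
  · intro U j hj x hx
    exact tgt_bd hx

/-- the flag with windows `W (1 + log x)` -/
def FL (A C : Finset ℝ) (γ W : ℝ) (j₀ : ℕ) (B : List ℕ) : Prop :=
  ∃ L U, B = L ++ U ∧ L ≠ [] ∧ ∃ x : ℝ, (2 : ℝ) ^ j₀ ≤ x ∧
    (∃ ρ : ℚ, LS ((U.prod : ℝ) * γ) ρ ∧ ((∃ a ∈ A, x = a * Real.log ρ.den) ∨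
      0 < |(U.prod : ℝ) * γ - ρ| ∧ ∃ c ∈ C, x = c * Real.log (1 / |(U.prod : ℝ) * γ - ρ|))) ∧
    Real.exp (x - W * (1 + Real.log x)) ≤ (L.prod : ℝ) ∧
    (L.prod : ℝ) ≤ Real.exp (x + W * (1 + Real.log x))

/-- **one-zone lemma for the ladder, windows `W (1 + log x)`** -/
theorem ladder_log (A C : Finset ℝ) (hA : ∀ a ∈ A, 0 ≤ a) (hC : ∀ c ∈ C, 0 ≤ c) {W : ℝ}
    (hW : 0 ≤ W) : ∃ (K : ℝ) (J : ℕ), 0 < K ∧ ∀ (γ : ℝ) (j₀ : ℕ), J ≤ j₀ → ∀ p : ℕ,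
    V (FL A C γ W j₀) p [] ≤ K * (2 : ℝ) ^ (-((j₀ : ℝ) / 40)) := by
  obtain ⟨K₀, hK₀, h⟩ := ladder_zone
  obtain ⟨J₁, hJ₁⟩ := exists_HiB hA hC
  -- `W (j + 2) ≤ 2 ^ j / 2` for large `j`
  obtain ⟨J₂, hJ₂⟩ : ∃ J : ℕ, ∀ j : ℕ, J ≤ j → W * ((j : ℝ) + 2) ≤ 2 ^ j / 2 := by
    obtain ⟨m, hm⟩ := exists_nat_gt (W + 1)
    refine ⟨2 * m + 8, fun j hj => ?_⟩
    have h1 : ((j : ℝ) + 2) ≤ 2 ^ (j / 2 + 2) := by
      have h2 : j + 2 ≤ 2 ^ (j / 2 + 2) := by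
        have h3 : j / 2 + 1 ≤ 2 ^ (j / 2) := Nat.lt_two_pow_self
        have h4 : (2 : ℕ) ^ (j / 2 + 2) = 4 * 2 ^ (j / 2) := by ring
        omega
      exact_mod_cast h2
    have h3 : W ≤ 2 ^ (j / 2 - 3) := by
      have h4 : (m : ℝ) ≤ 2 ^ m := by exact_mod_cast Nat.lt_two_pow_self.le
      have h5 : (2 : ℝ) ^ m ≤ 2 ^ (j / 2 - 3) := pow_le_pow_right₀ (by norm_num) (by omega)
      linarith
    calc W * ((j : ℝ) + 2) ≤ 2 ^ (j / 2 - 3) * 2 ^ (j / 2 + 2) :=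
          mul_le_mul h3 h1 (by positivity) (by positivity)
      _ = 2 ^ (j / 2 - 3 + (j / 2 + 2)) := by rw [← pow_add]
      _ ≤ 2 ^ (j - 1) := pow_le_pow_right₀ (by norm_num) (by omega)
      _ = 2 ^ j / 2 := by
          have e : j = (j - 1) + 1 := by omega
          conv_rhs => rw [e, pow_succ]
          ring
  refine ⟨K₀ * ((A.card : ℝ) + C.card + 1) * (1 + 2 * W), max (max J₁ J₂) 1, by positivity,
    fun γ j₀ hj₀ p => ?_⟩
  have k1 : J₁ ≤ j₀ := by omega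
  have k2 : J₂ ≤ j₀ := by omega
  have k3 : 1 ≤ j₀ := by omega
  have hB := hJ₁.mono k1
  have h1 := h A C γ (2 * W) (by positivity) (fun j => W * ((j : ℝ) + 2)) j₀ k3 hB (fun j hj => by
    refine ⟨by positivity, ?_, hJ₂ j (k2.trans hj)⟩
    have : (0 : ℝ) ≤ j := Nat.cast_nonneg j
    nlinarith) p
  refine (V_mono ?_ p []).trans (h1.trans ?_)
  · rintro B ⟨L, U, rfl, hL, x, hx, ⟨ρ, hρ, hor⟩, e1, e2⟩
    have hx1 : 1 ≤ x := le_trans (one_le_pow₀ (by norm_num)) hx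
    have hx0 : 0 < x := by linarith
    -- the block of `x`
    obtain ⟨j, hj1, hj2⟩ : ∃ j : ℕ, (2 : ℝ) ^ j ≤ x ∧ x < 2 ^ (j + 1) :=
      exists_nat_pow_near hx1 one_lt_two
    have hj : j₀ ≤ j := by
      by_contra hc
      push Not at hc
      have : (2 : ℝ) ^ (j + 1) ≤ 2 ^ j₀ := pow_le_pow_right₀ (by norm_num) hc
      linarith
    have hlog : W * (1 + Real.log x) ≤ W * ((j : ℝ) + 2) := by
      refine mul_le_mul_of_nonneg_left ?_ hW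
      have h2 := Real.log_le_log hx0 hj2.le
      rw [Real.log_pow] at h2
      have h3 : Real.log 2 ≤ 1 := by
        have := Real.log_two_lt_d9
        linarith
      have h4 : (0 : ℝ) ≤ ((j + 1 : ℕ) : ℝ) := Nat.cast_nonneg _
      push_cast at h2 h4
      nlinarith
    refine ⟨j, hj, L, U, rfl, hL, x, ?_, ?_, ?_⟩
    · show x ∈ tgt A C ((U.prod : ℝ) * γ) j
      rcases hor with ⟨a, ha, rfl⟩ | ⟨h0, c, hc, rfl⟩
      · exact mem_tgtA (hB.mono hj) ha hρ hj1 hj2.le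
      · exact mem_tgtC (hB.mono hj) hc hρ h0 hj1 hj2.le
    · exact le_trans (Real.exp_le_exp.2 (by linarith)) e1
    · exact e2.trans (Real.exp_le_exp.2 (by linarith))
  · have : 0 ≤ (2 : ℝ) ^ (-((j₀ : ℝ) / 40)) := (Real.rpow_pos_of_pos two_pos _).le
    refine mul_le_mul_of_nonneg_right ?_ this
    refine mul_le_mul_of_nonneg_right ?_ (by positivity)
    nlinarith

end Crest.Agent.R4P.Lad32
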