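import Crest.Agent.R4P.ModeK_49
import Crest.Agent.R4P.MisR_16

/-!
R4 (S0004) with powers, helper16: **families of classes with separated content (marks)**.

`TT c h = Σ_z M c (th (h z))` in-member three halves energy, `PM = PK + 56 TT` (`≤ 70 SS`), with
helper35's dual potential (`GMd_35`, `ModeK_49`).
* `PM_join`, `PM_drop` (constants 98), `PM_mono`, **`PM_own`** (own-height price `116`).
* `PM_col` : **the column** for contents `Y = mn + sp + e` : `mn ≤ X` (`X` exact rows), `sp` = separated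
  content, in classes which are fresh at this column, `e` = births, `gE` = extra lifts (mismatch), costs
  `7/8 g²` and `7/6 (M gE)²` (so `1/14 (g + M gE)²` after the division by `7`), under the
  in-member energy inequality `en` (proved for mismatch rows in `MisR_16.mism_row`).
-/

set_option autoImplicit false
set_option linter.unusedVariables false
set_option linter.unusedSectionVars false

namespace Crest.Agent.R4P.Mism16

open Finset Crest.Agent.R4P.GMer27 Crest.Agent.R4P.ModeP940 Crest.Agent.R4P.ModeK49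
open Crest.Agent.R4P.MisR16
open Crest.Agent.R4P.GMd35

variable {J ζ : Type*} [Fintype J] [Fintype ζ] {c : J → ℝ} {W : Set (J → ℝ)}

/-- in-member three halves energy of a family of classes -/
noncomputable def TT (c : J → ℝ) (h : ζ → J → ℝ) : ℝ := ∑ z, M c fun j => th (h z j)

/-- the potential with energy -/
noncomputable def PM (c : J → ℝ) (W : Set (J → ℝ)) (h : ζ → J → ℝ) : ℝ := PK c W h + 56 * TT c h

lemma TT_nonneg (c0 : ∀ j, 0 ≤ c j) {h : ζ → J → ℝ} (hh : ∀ z j, 0 ≤ h z j) : 0 ≤ TT c h :=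
  Finset.sum_nonneg fun z _ => M_nonneg c0 fun j => th_nonneg (hh z j)

lemma TT_le (c0 : ∀ j, 0 ≤ c j) {h : ζ → J → ℝ} (hh : ∀ z j, 0 ≤ h z j) (h1 : ∀ z j, h z j ≤ 1) :
    TT c h ≤ SS c h :=
  Finset.sum_le_sum fun z _ => M_mono c0 fun j => th_le (hh z j) (h1 z j)

lemma TT_mono (c0 : ∀ j, 0 ≤ c j) {h g : ζ → J → ℝ} (hh : ∀ z j, 0 ≤ h z j)
    (hg : ∀ z j, h z j ≤ g z j) : TT c h ≤ TT c g :=
  Finset.sum_le_sum fun z _ => M_mono c0 fun j => th_mono (hh z j) (hg z j)

lemma TT_drop (c0 : ∀ j, 0 ≤ c j) {h h' : ζ → J → ℝ} (hh : ∀ z j, 0 ≤ h z j)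
    (hh' : ∀ z j, 0 ≤ h' z j) (h1 : ∀ z j, h z j + h' z j ≤ 1) :
    TT c (fun z j => h z j + h' z j) ≤ TT c h + 3 / 2 * SS c h' := by
  unfold TT SS
  rw [Finset.mul_sum, ← Finset.sum_add_distrib]
  refine Finset.sum_le_sum fun z _ => ?_
  rw [← M_smul, ← M_add]
  exact M_mono c0 fun j => th_add_le (hh z j) (hh' z j) (h1 z j)

lemma TT_join (c0 : ∀ j, 0 ≤ c j) {h h' : ζ → J → ℝ} (hh : ∀ z j, 0 ≤ h z j)
    (hh' : ∀ z j, 0 ≤ h' z j) (h1 : ∀ z j, h z j + h' z j ≤ 1) :
    TT c (fun z j => h z j + h' z j) ≤ TT c h + TT c h' + 3 / 2 * min (SS c h) (SS c h') := by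
  have a := TT_drop c0 hh hh' h1
  have b := TT_drop c0 hh' hh fun z j => by rw [add_comm]; exact h1 z j
  have e : (fun z j => h' z j + h z j) = fun z j => h z j + h' z j :=
    funext fun z => funext fun j => add_comm _ _
  rw [e] at b
  have n1 := TT_nonneg c0 hh
  have n2 := TT_nonneg c0 hh'
  rcases le_total (SS c h) (SS c h') with h3 | h3
  · rw [min_eq_left h3]; linarith
  · rw [min_eq_right h3]; linarith

lemma TT_refine (c0 : ∀ j, 0 ≤ c j) {κ : Type*} [Fintype κ] [DecidableEq ζ] (f : κ → ζ)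
    {h : ζ → J → ℝ} {g : κ → J → ℝ} (hg : ∀ k j, 0 ≤ g k j)
    (hs : ∀ z j, ∑ k ∈ univ.filter (fun k => f k = z), g k j = h z j) : TT c g ≤ TT c h := by
  unfold TT
  rw [← Finset.sum_fiberwise_of_maps_to (s := univ) (t := univ) (g := f) fun k _ => mem_univ _]
  refine Finset.sum_le_sum fun z _ => ?_
  rw [← M_sum]
  refine M_mono c0 fun j => ?_
  have := th_sum (univ.filter (fun k => f k = z)) (fun k => g k j) fun k _ => hg k j
  rwa [hs z j] at this

lemma PM_nonneg (H : TC c W) {h : ζ → J → ℝ} (hh : ∀ z j, 0 ≤ h z j) : 0 ≤ PM c W h := by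
  have h1 := PK_nonneg H hh
  have h2 := TT_nonneg H.c0 hh
  unfold PM
  linarith

lemma PM_born (H : TC c W) {h : ζ → J → ℝ} (hh : ∀ z j, 0 ≤ h z j) (h1 : ∀ z j, h z j ≤ 1) :
    PM c W h ≤ 70 * SS c h := by
  have a := PK_born H hh h1
  have b := TT_le H.c0 hh h1
  unfold PM
  linarith

lemma PM_drop (H : TC c W) {h h' : ζ → J → ℝ} (hh : ∀ z j, 0 ≤ h z j)
    (hh' : ∀ z j, 0 ≤ h' z j) (h1 : ∀ z j, h z j + h' z j ≤ 1) :
    PM c W (fun z j => h z j + h' z j) ≤ PM c W h + 98 * SS c h' := by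
  have a := PK_drop H hh hh' h1
  have b := TT_drop H.c0 hh hh' h1
  unfold PM
  linarith

/-- the energy with the own-height price -/
lemma th_own {x y : ℝ} (hx : 0 ≤ x) (hy : 0 ≤ y) :
    th (x + y) ≤ th x + 3 / 2 * (y * Real.sqrt (x + y)) := by
  unfold th
  have h1 : 0 ≤ Real.sqrt x := Real.sqrt_nonneg x
  have h2 : 0 ≤ Real.sqrt (x + y) := Real.sqrt_nonneg _
  have h3 : Real.sqrt x ≤ Real.sqrt (x + y) := Real.sqrt_le_sqrt (by linarith)
  have e1 : Real.sqrt x ^ 2 = x := Real.sq_sqrt hx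
  have e2 : Real.sqrt (x + y) ^ 2 = x + y := Real.sq_sqrt (by linarith)
  set a := Real.sqrt x
  set b := Real.sqrt (x + y)
  have e3 : y = b ^ 2 - a ^ 2 := by rw [e2, e1]; ring
  rw [← e2, e3, ← e1]
  nlinarith [mul_nonneg (sq_nonneg (b - a)) (by linarith : 0 ≤ b + 2 * a)]

lemma TT_own (c0 : ∀ j, 0 ≤ c j) {h h' : ζ → J → ℝ} (hh : ∀ z j, 0 ≤ h z j)
    (hh' : ∀ z j, 0 ≤ h' z j) :
    TT c (fun z j => h z j + h' z j) ≤
      TT c h + 3 / 2 * SS c (fun z j => h' z j * Real.sqrt (h z j + h' z j)) := by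
  unfold TT SS
  rw [Finset.mul_sum, ← Finset.sum_add_distrib]
  refine Finset.sum_le_sum fun z _ => ?_
  rw [← M_smul, ← M_add]
  exact M_mono c0 fun j => th_own (hh z j) (hh' z j)

/-- **own-height price**: only the heights in the own member count -/
lemma PM_own (H : TC c W) {h h' : ζ → J → ℝ} (hh : ∀ z j, 0 ≤ h z j)
    (hh' : ∀ z j, 0 ≤ h' z j) :
    PM c W (fun z j => h z j + h' z j) ≤
      PM c W h + 116 * SS c (fun z j => h' z j * Real.sqrt (h z j + h' z j)) := by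
  have a := PK_own H hh hh'
  have b := TT_own H.c0 hh hh'
  have n : 0 ≤ SS c (fun z j => h' z j * Real.sqrt (h z j + h' z j)) :=
    SS_nonneg H.c0 fun z j => mul_nonneg (hh' z j) (Real.sqrt_nonneg _)
  unfold PM
  linarith

lemma PM_join (H : TC c W) {h h' : ζ → J → ℝ} (hh : ∀ z j, 0 ≤ h z j)
    (hh' : ∀ z j, 0 ≤ h' z j) (h1 : ∀ z j, h z j + h' z j ≤ 1) :
    PM c W (fun z j => h z j + h' z j) ≤ PM c W h + PM c W h' + 98 * min (SS c h) (SS c h') := by
  have a := PK_join H hh hh' h1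
  have b := TT_join H.c0 hh hh' h1
  unfold PM
  linarith

lemma PM_mono (H : TC c W) {h g : ζ → J → ℝ} (hh : ∀ z j, 0 ≤ h z j) (hg : ∀ z j, h z j ≤ g z j)
    (h1 : ∀ z j, g z j ≤ 1) : PM c W h ≤ PM c W g := by
  have a := PK_mono H hh hg h1
  have b := TT_mono H.c0 hh hg
  unfold PM
  linarith

/-- Jensen -/
lemma M_sq (H : TC c W) (f : J → ℝ) : M c f ^ 2 ≤ M c fun j => f j ^ 2 := by
  have h := M_nonneg H.c0 (f := fun j => (f j - M c f) ^ 2) fun j => sq_nonneg _
  have e : M c (fun j => (f j - M c f) ^ 2) = M c (fun j => f j ^ 2) - M c f ^ 2 := by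
    have e1 : (fun j => (f j - M c f) ^ 2) =
        fun j => (f j ^ 2 - 2 * M c f * f j) + M c f ^ 2 := funext fun j => by ring
    rw [e1, M_add, M_sub, M_smul, M_const H.c1]
    ring
  linarith

lemma M_sq_th (H : TC c W) {f : J → ℝ} (h0 : ∀ j, 0 ≤ f j) (h1 : ∀ j, f j ≤ 1) :
    M c f ^ 2 ≤ M c fun j => th (f j) :=
  (M_sq H f).trans (M_mono H.c0 fun j => sq_le_th (h0 j) (h1 j))

section col
variable {ι : Type*} [Fintype ι] {q : ℝ} {u : ι → ℝ}

/-- **the column with separated content** -/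
theorem PM_col (H : TC c W) (hq : 0 < q ∧ q < 1) {h : ζ → J × Bool → ℝ}
    {X mn sp e Y : ι → ζ → J → ℝ} (h0 : ∀ z x, 0 ≤ h z x) (h1 : ∀ z x, h z x ≤ 1)
    (u0 : ∀ i, 0 ≤ u i) (u1 : ∑ i, u i = 1) (C : ∀ z, Col q (h z) u (fun i => X i z))
    {g : ι → ζ → ℝ} {β : ζ → ℝ} (hg : ∀ i z, M c (X i z) = β z + g i z)
    (hY : ∀ i z j, Y i z j = mn i z j + sp i z j + e i z j)
    (mn0 : ∀ i z j, 0 ≤ mn i z j) (sp0 : ∀ i z j, 0 ≤ sp i z j) (e0 : ∀ i z j, 0 ≤ e i z j)
    (mnX : ∀ i z j, mn i z j ≤ X i z j)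
    (fr : ∀ i z, (∀ j, mn i z j = 0) ∨ ∀ j, sp i z j = 0)
    (Y1 : ∀ i z j, Y i z j ≤ 1) {gE : ι → ζ → J → ℝ} (gE0 : ∀ i z j, 0 ≤ gE i z j)
    (gE1 : ∀ i z j, gE i z j ≤ 1)
    (en : ∀ j, ∑ i, u i * ∑ z, (th (mn i z j) + 5 / 4 * th (sp i z j) + 1 / 48 * th (gE i z j)) ≤
      ∑ z, av q (fun x => th (h z x)) j) :
    ∑ i, u i * (7 / 8 * ∑ z, g i z ^ 2 + 7 / 6 * ∑ z, M c (gE i z) ^ 2 + PM c W (Y i)) ≤
      PM (cT q c) (WT q W) h + 7 / 8 * ∑ z, (∑ i, u i * g i z) ^ 2 +
        98 * ∑ i, u i * SS c (e i) := by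
  have k1 := PK_col H hq h0 h1 u0 u1 C hg
  have X1 : ∀ i z j, X i z j ≤ 1 := fun i z j => ((C z).bd hq (h0 z) (h1 z) i j).2
  -- one lift
  have k2 : ∀ i, PM c W (Y i) ≤ PK c W (X i) + 56 * TT c (mn i) + 70 * TT c (sp i) +
      98 * SS c (e i) := by
    intro i
    have eY : Y i = fun z j => (mn i z j + sp i z j) + e i z j :=
      funext fun z => funext fun j => hY i z j
    have hs1 : ∀ z j, (mn i z j + sp i z j) + e i z j ≤ 1 := fun z j => by
      rw [← hY]; exact Y1 i z j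
    have a1 := PM_drop H (h := fun z j => mn i z j + sp i z j) (h' := e i)
      (fun z j => add_nonneg (mn0 i z j) (sp0 i z j)) (e0 i) hs1
    rw [eY]
    have a2 : PM c W (fun z j => mn i z j + sp i z j) ≤
        PK c W (X i) + 56 * TT c (mn i) + 70 * TT c (sp i) := by
      have b1 : PK c W (fun z j => mn i z j + sp i z j) ≤ PK c W (X i) + 14 * TT c (sp i) := by
        unfold PK TT
        rw [Finset.mul_sum, ← Finset.sum_add_distrib]
        refine Finset.sum_le_sum fun z _ => ?_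
        have n1 := PD_nonneg H.c0 H.c1 (h := X i z) fun j => (mn0 i z j).trans (mnX i z j)
        have n2 : 0 ≤ M c fun j => th (sp i z j) := M_nonneg H.c0 fun j => th_nonneg (sp0 i z j)
        show PD c (fun j => mn i z j + sp i z j) ≤
          PD c (X i z) + 14 * M c fun j => th (sp i z j)
        rcases fr i z with h2 | h2
        · have e2 : (fun j => mn i z j + sp i z j) = sp i z :=
            funext fun j => by rw [h2 j, zero_add]
          rw [e2]
          have h3 := PD_le32 H.c0 (h := sp i z) (sp0 i z)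
          linarith
        · have e2 : (fun j => mn i z j + sp i z j) = mn i z :=
            funext fun j => by rw [h2 j, add_zero]
          rw [e2]
          have h3 := PD_mono H.c0 H.c1 (mn0 i z) (mnX i z)
          linarith
      have b2 : TT c (fun z j => mn i z j + sp i z j) = TT c (mn i) + TT c (sp i) := by
        unfold TT
        rw [← Finset.sum_add_distrib]
        refine Finset.sum_congr rfl fun z _ => ?_
        rw [← M_add]
        congr 1
        funext j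
        show th (mn i z j + sp i z j) = th (mn i z j) + th (sp i z j)
        rcases fr i z with h2 | h2
        · rw [h2 j, zero_add, th_zero, zero_add]
        · rw [h2 j, add_zero, th_zero, add_zero]
      unfold PM
      rw [b2]
      linarith
    linarith
  -- the energy
  have k3 : ∑ i, u i * (TT c (mn i) + 5 / 4 * TT c (sp i) +
      1 / 48 * ∑ z, M c (fun j => th (gE i z j))) ≤ TT (cT q c) h := by
    have e1 : ∀ i, u i * (TT c (mn i) + 5 / 4 * TT c (sp i) +
        1 / 48 * ∑ z, M c (fun j => th (gE i z j))) =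
        M c fun j => u i * ∑ z, (th (mn i z j) + 5 / 4 * th (sp i z j) +
          1 / 48 * th (gE i z j)) := by
      intro i
      rw [M_smul]
      congr 1
      rw [M_sum]
      unfold TT
      rw [Finset.mul_sum, Finset.mul_sum, ← Finset.sum_add_distrib, ← Finset.sum_add_distrib]
      refine Finset.sum_congr rfl fun z _ => ?_
      rw [M_add, M_add, M_smul, M_smul]
    rw [Finset.sum_congr rfl fun i _ => e1 i, ← M_sum]
    have e2 : TT (cT q c) h = M c fun j => ∑ z, av q (fun x => th (h z x)) j := by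
      rw [M_sum]
      unfold TT
      exact Finset.sum_congr rfl fun z _ => M_cT q _
    rw [e2]
    exact M_mono H.c0 en
  have k4 : ∀ i, ∑ z, M c (gE i z) ^ 2 ≤ ∑ z, M c (fun j => th (gE i z j)) := fun i =>
    Finset.sum_le_sum fun z _ => M_sq_th H (gE0 i z) (gE1 i z)
  have k5 : ∑ i, u i * (7 / 8 * ∑ z, g i z ^ 2 + 7 / 6 * ∑ z, M c (gE i z) ^ 2 +
      PM c W (Y i)) ≤
      ∑ i, u i * (7 / 8 * ∑ z, g i z ^ 2 + PK c W (X i)) + 56 * ∑ i, u i * (TT c (mn i) +
        5 / 4 * TT c (sp i) + 1 / 48 * ∑ z, M c (fun j => th (gE i z j))) +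
        98 * ∑ i, u i * SS c (e i) := by
    rw [Finset.mul_sum, Finset.mul_sum, ← Finset.sum_add_distrib, ← Finset.sum_add_distrib]
    refine Finset.sum_le_sum fun i _ => ?_
    have a := mul_le_mul_of_nonneg_left (add_le_add (mul_le_mul_of_nonneg_left (k4 i)
      (show (0:ℝ) ≤ 7 / 6 by norm_num)) (k2 i)) (u0 i)
    nlinarith [a]
  have k6 := mul_le_mul_of_nonneg_left k3 (show (0:ℝ) ≤ 56 by norm_num)
  unfold PM at k5 ⊢
  linarith

end col

end Crest.Agent.R4P.Mism16
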