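import Crest.Agent.R4P.ModeP_940
import Crest.Agent.R4P.GMdC_35

/-!
R4 (S0004) with powers, group game, helper49 (after helper940's `ModeP_940`): **families of classes, dual
potential of helper35** `PD` (`GMd_35`: all tests; own-height prices, joins of different members are free,
splits cost the product weights; the test class `W` is ignored).

`PK c W h = Σ_z PD c (h z)`.

* `PK_born` (`≤ 14 SS`), `PK_join`, `PK_drop`, `PK_mono` (heights `≤ 1`);
* **`PK_own`** : `PK (h + h') ≤ PK h + 14 Σ_z M[h' √(h + h')]` (only the heights in the own member count);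
* `PK_col` : the column for all the classes at once, cost coefficient `7/8`.
-/

set_option autoImplicit false
set_option linter.unusedVariables false
set_option linter.unusedSectionVars false

namespace Crest.Agent.R4P.ModeK49

open Finset Crest.Agent.R4P.GMer27
open Crest.Agent.R4P.ModeP940 (SS SS_nonneg SS_add)
open Crest.Agent.R4P.MisR16 (th)
open Crest.Agent.R4P.GMd35

variable {J ζ : Type*} [Fintype J] [Fintype ζ] {c : J → ℝ} {W : Set (J → ℝ)}

/-- potential of a family of classes -/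
noncomputable def PK (c : J → ℝ) (W : Set (J → ℝ)) (h : ζ → J → ℝ) : ℝ := ∑ z, PD c (h z)

lemma PK_nonneg (H : TC c W) {h : ζ → J → ℝ} (hh : ∀ z j, 0 ≤ h z j) : 0 ≤ PK c W h :=
  Finset.sum_nonneg fun z _ => PD_nonneg H.c0 H.c1 (hh z)

/-- **births from scratch** -/
lemma PK_born (H : TC c W) {h : ζ → J → ℝ} (hh : ∀ z j, 0 ≤ h z j) (h1 : ∀ z j, h z j ≤ 1) :
    PK c W h ≤ 14 * SS c h := by
  unfold PK SS
  rw [Finset.mul_sum]
  refine Finset.sum_le_sum fun z _ => ?_
  have a := PD_le32 H.c0 (hh z)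
  have b : M c (fun j => th (h z j)) ≤ M c (h z) :=
    M_mono H.c0 fun j => MisR16.th_le (hh z j) (h1 z j)
  have n := M_nonneg H.c0 (hh z)
  linarith

/-- the second family is born into the first one -/
lemma PK_drop (H : TC c W) {h h' : ζ → J → ℝ} (hh : ∀ z j, 0 ≤ h z j)
    (hh' : ∀ z j, 0 ≤ h' z j) (h1 : ∀ z j, h z j + h' z j ≤ 1) :
    PK c W (fun z j => h z j + h' z j) ≤ PK c W h + 14 * SS c h' := by
  unfold PK SS
  rw [Finset.mul_sum, ← Finset.sum_add_distrib]
  exact Finset.sum_le_sum fun z _ => PD_inj H.c0 (hh z) (hh' z) (h1 z)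

/-- **own-height price**: only the heights in the own member count -/
lemma PK_own (H : TC c W) {h h' : ζ → J → ℝ} (hh : ∀ z j, 0 ≤ h z j) (hh' : ∀ z j, 0 ≤ h' z j) :
    PK c W (fun z j => h z j + h' z j) ≤
      PK c W h + 14 * SS c (fun z j => h' z j * Real.sqrt (h z j + h' z j)) := by
  unfold PK SS
  rw [Finset.mul_sum, ← Finset.sum_add_distrib]
  exact Finset.sum_le_sum fun z _ => PD_own H.c0 (hh z) (hh' z)

/-- **join of two families** -/
lemma PK_join (H : TC c W) {h h' : ζ → J → ℝ} (hh : ∀ z j, 0 ≤ h z j) (hh' : ∀ z j, 0 ≤ h' z j)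
    (hs1 : ∀ z j, h z j + h' z j ≤ 1) :
    PK c W (fun z j => h z j + h' z j) ≤ PK c W h + PK c W h' + 14 * min (SS c h) (SS c h') := by
  have key : ∀ z, PD c (fun j => h z j + h' z j) ≤
      PD c (h z) + PD c (h' z) + 14 * min (M c (h z)) (M c (h' z)) := by
    intro z
    have h1 := PD_inj H.c0 (h := h z) (x := h' z) (hh z) (hh' z) (hs1 z)
    have h2 := PD_inj H.c0 (h := h' z) (x := h z) (hh' z) (hh z) fun j => by
      rw [add_comm]; exact hs1 z j
    have e : (fun j => h' z j + h z j) = fun j => h z j + h' z j := funext fun j => add_comm _ _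
    rw [e] at h2
    have p1 := PD_nonneg H.c0 H.c1 (hh z)
    have p2 := PD_nonneg H.c0 H.c1 (hh' z)
    rcases le_total (M c (h z)) (M c (h' z)) with h3 | h3
    · rw [min_eq_left h3]; linarith
    · rw [min_eq_right h3]; linarith
  have h1 : PK c W (fun z j => h z j + h' z j) ≤
      ∑ z, (PD c (h z) + PD c (h' z) + 14 * min (M c (h z)) (M c (h' z))) :=
    Finset.sum_le_sum fun z _ => key z
  rw [Finset.sum_add_distrib, Finset.sum_add_distrib, ← Finset.mul_sum] at h1
  have h2 : ∑ z, min (M c (h z)) (M c (h' z)) ≤ min (SS c h) (SS c h') :=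
    le_min (Finset.sum_le_sum fun z _ => min_le_left _ _)
      (Finset.sum_le_sum fun z _ => min_le_right _ _)
  unfold PK at h1 ⊢
  linarith

/-- total of the family is at most the drop -/
lemma PK_mono (H : TC c W) {h g : ζ → J → ℝ} (hh : ∀ z j, 0 ≤ h z j) (hg : ∀ z j, h z j ≤ g z j)
    (h1 : ∀ z j, g z j ≤ 1) : PK c W h ≤ PK c W g :=
  Finset.sum_le_sum fun z _ => PD_mono H.c0 H.c1 (hh z) (hg z)

lemma cont_th : Continuous th := continuous_id.mul Real.continuous_sqrt

lemma cont_PD : Continuous fun h : J → ℝ => PD c h := by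
  unfold PD D M
  have := cont_th
  fun_prop

lemma measurable_PD {α : Type*} [MeasurableSpace α] {h : α → J → ℝ} (hm : Measurable h) :
    Measurable fun a => PD c (h a) := cont_PD.measurable.comp hm

/-! ### the column -/

section col
variable {ι : Type*} [Fintype ι] {q : ℝ} {u : ι → ℝ}

/-- **the column for all the classes at once**: `g i z` = the cost terms, `M c (X i z) - g i z` does
not depend on the lift `i` -/
theorem PK_col (H : TC c W) (hq : 0 < q ∧ q < 1) {h : ζ → J × Bool → ℝ} {X : ι → ζ → J → ℝ}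
    (h0 : ∀ z x, 0 ≤ h z x) (h1 : ∀ z x, h z x ≤ 1) (u0 : ∀ i, 0 ≤ u i) (u1 : ∑ i, u i = 1)
    (C : ∀ z, Col q (h z) u (fun i => X i z)) {g : ι → ζ → ℝ} {β : ζ → ℝ}
    (hg : ∀ i z, M c (X i z) = β z + g i z) :
    ∑ i, u i * (7 / 8 * ∑ z, g i z ^ 2 + PK c W (X i)) ≤
      PK (cT q c) (WT q W) h + 7 / 8 * ∑ z, (∑ i, u i * g i z) ^ 2 := by
  have key : ∀ z, ∑ i, u i * (7 / 8 * g i z ^ 2 + PD c (X i z)) ≤
      PD (cT q c) (h z) + 7 / 8 * (∑ i, u i * g i z) ^ 2 := by
    intro z
    have hc := PD_col H.c0 H.c1 hq (h0 z) (h1 z) (C z)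
    set m := M (cT q c) (h z) with hm
    have e1 : ∑ i, u i * M c (X i z) = m := M_Col (C z)
    have e2 : ∑ i, u i * M c (X i z) = β z + ∑ i, u i * g i z := by
      rw [Finset.sum_congr rfl fun i _ => show u i * M c (X i z) = u i * β z + u i * g i z by
        rw [hg i z]; ring]
      rw [Finset.sum_add_distrib, ← Finset.sum_mul, u1, one_mul]
    set a := ∑ i, u i * g i z with ha
    have e3 : m = β z + a := by rw [← e1, e2]
    have e4 : ∑ i, u i * (M c (X i z) - m) ^ 2 = ∑ i, u i * g i z ^ 2 - a ^ 2 := by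
      have : ∀ i, u i * (M c (X i z) - m) ^ 2 = u i * g i z ^ 2 - 2 * a * (u i * g i z) + u i * a ^ 2 := by
        intro i
        rw [hg i z, e3]
        ring
      rw [Finset.sum_congr rfl fun i _ => this i, Finset.sum_add_distrib, Finset.sum_sub_distrib,
        ← Finset.mul_sum, ← ha, ← Finset.sum_mul, u1]
      ring
    have e5 : ∑ i, u i * (7 / 8 * g i z ^ 2 + PD c (X i z)) =
        7 / 8 * ∑ i, u i * g i z ^ 2 + ∑ i, u i * PD c (X i z) := by
      rw [Finset.mul_sum, ← Finset.sum_add_distrib]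
      exact Finset.sum_congr rfl fun i _ => by ring
    rw [e5]
    have hc' : 7 / 8 * ∑ i, u i * (M c (X i z) - m) ^ 2 + ∑ i, u i * PD c (X i z) ≤
        PD (cT q c) (h z) := hc
    rw [e4] at hc'
    linarith
  have h2 : ∑ i, u i * (7 / 8 * ∑ z, g i z ^ 2 + PK c W (X i)) =
      ∑ z, ∑ i, u i * (7 / 8 * g i z ^ 2 + PD c (X i z)) := by
    rw [Finset.sum_comm]
    refine Finset.sum_congr rfl fun i _ => ?_
    unfold PK
    rw [Finset.mul_sum, ← Finset.sum_add_distrib, Finset.mul_sum]
  rw [h2]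
  have h3 := Finset.sum_le_sum fun z (_ : z ∈ (univ : Finset ζ)) => key z
  rw [Finset.sum_add_distrib, ← Finset.mul_sum] at h3
  exact h3

end col

end Crest.Agent.R4P.ModeK49
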