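import Crest.Agent.R4P.MSi_343

/-!
R4 (S0004) with powers, T3 (heights > 1), helper25: **prices of class changes** (splits of classes
going down), at the level of families over a test class, point-dependent classes.

* `ml σ s a` : loss of the truncations of a finite family; `dy_ml` : dyadic sums
  `≤ 2 ((Σ a)² - Σ a²)` (in-member pairs).
* transport `f z z'` : content of the old class `z` that goes to the new class `z'`, `Fo f` the old
  contents, new contents `g z' ≥ Σ_z f z z'`, main target `r z`, moved content `Mo f r z`.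
* `tr_A` : short content of the new classes `≤` short content of the old classes + losses + entering.
* `tr_P` : potential of the old classes `≤` potential of the new classes + `14 σ` (decrease of the
  short content, losses added) + `14 σ M[moved]`.
* pieces : `fk k k' v` the transport of two class maps of the pieces present at a point.
* `RGs U` : group data with slack, `RGs.ms : MS` the instance, `RGs.main`.
-/

set_option autoImplicit false
set_option linter.unusedSectionVars false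
set_option linter.unusedVariables false
open MeasureTheory Filter Set

namespace Crest.Agent.R4P.MvP25

open Crest.Agent.R4.Tour104 Crest.Agent.R4.Clos758
open Crest.Agent.R4P.GMer27 Crest.Agent.R4P.GCol27 Crest.Agent.R4P.RSys343 Crest.Agent.R4P.TrR343
open Crest.Agent.R4P.RXs343 Crest.Agent.R4P.RXj343 Crest.Agent.R4P.RXj343.RX
open Crest.Agent.R4P.MSi343
open Crest.Agent.R4P.LogG51 (PB_max)
open Crest.Agent.R4P.ModeP940 (PP SS SS_nonneg SS_add)
open Crest.Agent.R4P.ModeS16 (MS)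

/-! ### losses of the truncations -/

section loss
variable {δ : Type*}

/-- loss of the truncations of a finite family -/
noncomputable def ml (σ : ℝ) (s : Finset δ) (a : δ → ℝ) : ℝ :=
  ∑ z ∈ s, min (a z) σ - min (∑ z ∈ s, a z) σ

lemma ml_empty {σ : ℝ} (hσ : 0 ≤ σ) (a : δ → ℝ) : ml σ ∅ a = 0 := by
  unfold ml
  simp [hσ]

variable [DecidableEq δ]

lemma ml_insert (σ : ℝ) {s : Finset δ} {z : δ} (hz : z ∉ s) (a : δ → ℝ) :
    ml σ (insert z s) a = ml σ s a + tl σ (a z) (∑ z ∈ s, a z) := by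
  unfold ml tl
  rw [Finset.sum_insert hz, Finset.sum_insert hz]
  ring

lemma ml_nonneg {σ : ℝ} (hσ : 0 ≤ σ) {s : Finset δ} {a : δ → ℝ} (ha : ∀ z ∈ s, 0 ≤ a z) :
    0 ≤ ml σ s a := by
  induction s using Finset.induction_on with
  | empty => rw [ml_empty hσ]
  | insert z s hz ih =>
    rw [ml_insert σ hz]
    have h1 := ih fun w hw => ha w (Finset.mem_insert_of_mem hw)
    have h2 := tl_nonneg hσ (ha z (Finset.mem_insert_self z s))
      (Finset.sum_nonneg fun w hw => ha w (Finset.mem_insert_of_mem hw))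
    linarith

/-- **dyadic sum of the losses** : in-member pairs -/
theorem dy_ml {s : Finset δ} {a : δ → ℝ} (ha : ∀ z ∈ s, 0 ≤ a z) (n : ℕ) :
    ∑ l ∈ Finset.range n, (2 : ℝ) ^ l * ml (2 ^ l) s a ≤
      2 * ((∑ z ∈ s, a z) ^ 2 - ∑ z ∈ s, a z ^ 2) := by
  induction s using Finset.induction_on with
  | empty =>
    have : ∀ l ∈ Finset.range n, (2 : ℝ) ^ l * ml (2 ^ l) ∅ a = 0 := fun l _ => by
      rw [ml_empty (by positivity), mul_zero]
    rw [Finset.sum_eq_zero this]
    simp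
  | insert z s hz ih =>
    have h1 := ih fun w hw => ha w (Finset.mem_insert_of_mem hw)
    have h2 := dy_le (ha z (Finset.mem_insert_self z s))
      (Finset.sum_nonneg fun w hw => ha w (Finset.mem_insert_of_mem hw)) n
    have e : ∀ l ∈ Finset.range n, (2 : ℝ) ^ l * ml (2 ^ l) (insert z s) a =
        (2 : ℝ) ^ l * ml (2 ^ l) s a + (2 : ℝ) ^ l * tl (2 ^ l) (a z) (∑ z ∈ s, a z) := fun l _ => by
      rw [ml_insert _ hz]; ring
    rw [Finset.sum_congr rfl e, Finset.sum_add_distrib, Finset.sum_insert hz, Finset.sum_insert hz]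
    nlinarith

/-- truncations are subadditive -/
lemma min_sum_le {σ : ℝ} (hσ : 0 ≤ σ) {s : Finset δ} {a : δ → ℝ} (ha : ∀ z ∈ s, 0 ≤ a z) :
    min (∑ z ∈ s, a z) σ ≤ ∑ z ∈ s, min (a z) σ := by
  have := ml_nonneg hσ ha
  unfold ml at this
  linarith

end loss

lemma min_add_le {σ a b : ℝ} (hσ : 0 ≤ σ) (ha : 0 ≤ a) (hb : 0 ≤ b) :
    min (a + b) σ ≤ min a σ + min b σ := by
  have := tl_nonneg hσ ha hb
  unfold tl at this
  linarith

lemma min_mono_add {σ a b : ℝ} (h : a ≤ b) : min b σ ≤ min a σ + (b - a) := by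
  rcases le_total a σ with h1 | h1
  · rw [min_eq_left h1]
    exact (min_le_left _ _).trans (by linarith)
  · rw [min_eq_right h1]
    exact (min_le_right _ _).trans (by linarith)

/-! ### transport of contents -/

section tr
variable {J δ δ' : Type*} [Fintype J] [Fintype δ] [Fintype δ'] [DecidableEq δ] [DecidableEq δ']
  {c : J → ℝ} {W : Set (J → ℝ)} {σ : ℝ}

/-- old contents -/
def Fo (f : δ → δ' → J → ℝ) (z : δ) (j : J) : ℝ := ∑ z', f z z' j

/-- moved content of an old class -/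
def Mo (f : δ → δ' → J → ℝ) (r : δ → δ') (z : δ) (j : J) : ℝ :=
  ∑ z' ∈ Finset.univ.filter (fun z' => z' ≠ r z), f z z' j

/-- losses -/
noncomputable def Lo (σ : ℝ) (f : δ → δ' → J → ℝ) (j : J) : ℝ :=
  ∑ z, ml σ Finset.univ fun z' => f z z' j

lemma Fo_eq (f : δ → δ' → J → ℝ) (r : δ → δ') (z : δ) (j : J) :
    Fo f z j = f z (r z) j + Mo f r z j := by
  unfold Fo Mo
  have h := Finset.sum_filter_add_sum_filter_not Finset.univ (fun z' => z' = r z)
    fun z' => f z z' j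
  rw [← h, Finset.filter_eq' Finset.univ (r z), if_pos (Finset.mem_univ _),
    Finset.sum_singleton]

lemma Lo_eq (f : δ → δ' → J → ℝ) (j : J) :
    Lo σ f j = ∑ z, ∑ z', min (f z z' j) σ - ∑ z, min (Fo f z j) σ := by
  unfold Lo ml Fo
  rw [Finset.sum_sub_distrib]

lemma Lo_nonneg (hσ : 0 ≤ σ) {f : δ → δ' → J → ℝ} (hf : ∀ z z' j, 0 ≤ f z z' j) (j : J) :
    0 ≤ Lo σ f j :=
  Finset.sum_nonneg fun z _ => ml_nonneg hσ fun z' _ => hf z z' j

/-- **dyadic sum of the losses of a transport** : in-member pairs of one old class which are separated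
in the new classes -/
theorem dy_Lo {f : δ → δ' → J → ℝ} (hf : ∀ z z' j, 0 ≤ f z z' j) (n : ℕ) (j : J) :
    ∑ l ∈ Finset.range n, (2 : ℝ) ^ l * Lo (2 ^ l) f j ≤
      2 * ∑ z, (Fo f z j ^ 2 - ∑ z', f z z' j ^ 2) := by
  unfold Lo
  simp only [Finset.mul_sum]
  rw [Finset.sum_comm]
  refine Finset.sum_le_sum fun z _ => ?_
  exact dy_ml (s := Finset.univ) (a := fun z' => f z z' j) (fun z' _ => hf z z' j) n

/-- pointwise form of `tr_A` -/
lemma tr_A1 (hσ : 0 ≤ σ) {f : δ → δ' → J → ℝ} (hf : ∀ z z' j, 0 ≤ f z z' j) {g : δ' → J → ℝ}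
    (hg : ∀ z' j, ∑ z, f z z' j ≤ g z' j) (j : J) :
    ∑ z', min (g z' j) σ ≤ ∑ z, min (Fo f z j) σ + Lo σ f j + (∑ z', g z' j - ∑ z, Fo f z j) := by
  have h1 : ∑ z', min (g z' j) σ ≤
      ∑ z', (∑ z, min (f z z' j) σ + (g z' j - ∑ z, f z z' j)) := by
    refine Finset.sum_le_sum fun z' _ => ?_
    have a1 := min_mono_add (σ := σ) (hg z' j)
    have a2 := min_sum_le (s := Finset.univ) (a := fun z => f z z' j) hσ fun z _ => hf z z' j
    linarith
  rw [Finset.sum_add_distrib, Finset.sum_sub_distrib] at h1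
  have e1 : ∑ z', ∑ z, min (f z z' j) σ = ∑ z, ∑ z', min (f z z' j) σ := Finset.sum_comm
  have e2 : ∑ z', ∑ z, f z z' j = ∑ z, Fo f z j := Finset.sum_comm
  rw [Lo_eq]
  rw [e1, e2] at h1
  linarith

lemma SS_eq_M (f : δ → J → ℝ) : SS c f = M c fun j => ∑ z, f z j := by
  unfold SS
  rw [M_sum]

/-- **the short content of the new classes** -/
theorem tr_A (c0 : ∀ j, 0 ≤ c j) (hσ : 0 ≤ σ) {f : δ → δ' → J → ℝ} (hf : ∀ z z' j, 0 ≤ f z z' j)
    {g : δ' → J → ℝ} (hg : ∀ z' j, ∑ z, f z z' j ≤ g z' j) :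
    SS c (fun z' j => min (g z' j) σ) ≤ SS c (fun z j => min (Fo f z j) σ) + M c (Lo σ f) +
      (SS c g - SS c (Fo f)) := by
  have key : M c (fun j => ∑ z', min (g z' j) σ) ≤ M c fun j => (∑ z, min (Fo f z j) σ + Lo σ f j) +
      (∑ z', g z' j - ∑ z, Fo f z j) := M_mono c0 fun j => tr_A1 hσ hf hg j
  rw [M_add, M_add, M_sub, ← SS_eq_M, ← SS_eq_M] at key
  rw [SS_eq_M g, SS_eq_M (Fo f)]
  exact key

/-- **the potential of the old classes** -/
theorem tr_P (H : TC c W) (hσ : 0 < σ) (r : δ → δ') {f : δ → δ' → J → ℝ}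
    (hf : ∀ z z' j, 0 ≤ f z z' j) {g : δ' → J → ℝ} (hg : ∀ z' j, ∑ z, f z z' j ≤ g z' j) :
    PS σ c W (fun z j => min (Fo f z j) σ) ≤ PS σ c W (fun z' j => min (g z' j) σ) +
      14 * (σ * (SS c (fun z j => min (Fo f z j) σ) + M c (Lo σ f) + (SS c g - SS c (Fo f)) -
        SS c (fun z' j => min (g z' j) σ))) +
      14 * (σ * SS c fun z j => min (Mo f r z j) σ) := by
  classical
  set u : δ → J → ℝ := fun z j => f z (r z) j with hu
  set m : δ → J → ℝ := Mo f r with hm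
  have u0 : ∀ z j, 0 ≤ u z j := fun z j => hf _ _ _
  have m0 : ∀ z j, 0 ≤ m z j := fun z j => Finset.sum_nonneg fun z' _ => hf _ _ _
  have eF : ∀ z j, Fo f z j = u z j + m z j := fun z j => Fo_eq f r z j
  -- the truncated old content = part of `u` + part of `m`
  have s1 : ∀ z j, min (Fo f z j) σ - min (u z j) σ ≤ min (m z j) σ := fun z j => by
    have := min_add_le hσ.le (u0 z j) (m0 z j)
    rw [eF]; linarith
  have s2 : ∀ z j, 0 ≤ min (Fo f z j) σ - min (u z j) σ := fun z j => by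
    rw [eF]
    have : min (u z j) σ ≤ min (u z j + m z j) σ := min_le_min_right _ (by linarith [m0 z j])
    linarith
  have k1 := PS_drop H hσ (f := fun z j => min (u z j) σ)
    (g := fun z j => min (Fo f z j) σ - min (u z j) σ) s2
  have e1 : PS σ c W (fun z j => min (u z j) σ + (min (Fo f z j) σ - min (u z j) σ)) =
      PS σ c W (fun z j => min (Fo f z j) σ) := PS_congr fun z j => by ring
  rw [e1] at k1
  have k1b : SS c (fun z j => min (Fo f z j) σ - min (u z j) σ) ≤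
      SS c fun z j => min (m z j) σ :=
    Finset.sum_le_sum fun z _ => M_mono H.c0 fun j => s1 z j
  -- merging of the main parts
  set G : δ' → J → ℝ := fun z' j => ∑ z ∈ Finset.univ.filter (fun z => r z = z'), u z j with hG
  have k2 := PS_split H hσ r (h := u) (g := G) u0 fun z' j => rfl
  have G0 : ∀ z' j, 0 ≤ G z' j := fun z' j => Finset.sum_nonneg fun z _ => u0 z j
  have eT : ∀ z' j, ∑ z, f z z' j = G z' j +
      ∑ z ∈ Finset.univ.filter (fun z => ¬ r z = z'), f z z' j := by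
    intro z' j
    have h := Finset.sum_filter_add_sum_filter_not Finset.univ (fun z => r z = z')
      fun z => f z z' j
    rw [← h]
    congr 1
    refine Finset.sum_congr rfl fun z hz => ?_
    show f z z' j = f z (r z) j
    rw [(Finset.mem_filter.1 hz).2]
  have Gg : ∀ z' j, G z' j ≤ g z' j := fun z' j => by
    have h1 := hg z' j
    rw [eT] at h1
    have h2 : 0 ≤ ∑ z ∈ Finset.univ.filter (fun z => ¬ r z = z'), f z z' j :=
      Finset.sum_nonneg fun z _ => hf z z' j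
    linarith
  have k3 : PS σ c W (fun z' j => min (G z' j) σ) ≤ PS σ c W (fun z' j => min (g z' j) σ) :=
    PS_mono H hσ (fun z' j => le_min (G0 z' j) hσ.le)
      (fun z' j => min_le_min_right _ (Gg z' j)) fun z' j => min_le_right _ _
  -- the short contents
  have k4 : ∀ j, ∑ z', min (g z' j) σ - ∑ z', min (G z' j) σ ≤
      ∑ z, min (Fo f z j) σ + Lo σ f j - ∑ z, min (u z j) σ + (∑ z', g z' j - ∑ z, Fo f z j) := by
    intro j
    have h1 : ∑ z', min (g z' j) σ ≤ ∑ z', (min (G z' j) σ +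
        ∑ z ∈ Finset.univ.filter (fun z => ¬ r z = z'), min (f z z' j) σ +
        (g z' j - ∑ z, f z z' j)) := by
      refine Finset.sum_le_sum fun z' _ => ?_
      have a1 := min_mono_add (σ := σ) (hg z' j)
      have a2 : 0 ≤ ∑ z ∈ Finset.univ.filter (fun z => ¬ r z = z'), f z z' j :=
        Finset.sum_nonneg fun z _ => hf z z' j
      have a3 := min_add_le hσ.le (G0 z' j) a2
      have a4 := min_sum_le (s := Finset.univ.filter fun z => ¬ r z = z')
        (a := fun z => f z z' j) hσ.le fun z _ => hf z z' j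
      rw [← eT] at a3
      linarith
    rw [Finset.sum_add_distrib, Finset.sum_add_distrib, Finset.sum_sub_distrib] at h1
    have e2 : ∑ z', ∑ z, f z z' j = ∑ z, Fo f z j := Finset.sum_comm
    have e3 : ∑ z', ∑ z ∈ Finset.univ.filter (fun z => ¬ r z = z'), min (f z z' j) σ =
        ∑ z, (∑ z', min (f z z' j) σ - min (u z j) σ) := by
      simp only [Finset.sum_filter]
      rw [Finset.sum_comm]
      refine Finset.sum_congr rfl fun z _ => ?_
      have h := Finset.sum_filter_add_sum_filter_not Finset.univ (fun z' => r z = z')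
        fun z' => min (f z z' j) σ
      rw [← h, Finset.filter_eq Finset.univ (r z), if_pos (Finset.mem_univ _),
        Finset.sum_singleton, Finset.sum_filter]
      show _ = min (f z (r z) j) σ + _ - min (f z (r z) j) σ
      ring
    rw [Finset.sum_sub_distrib] at e3
    rw [Lo_eq]
    rw [e2, e3] at h1
    linarith
  have k5 : SS c (fun z' j => min (g z' j) σ) - SS c (fun z' j => min (G z' j) σ) ≤
      SS c (fun z j => min (Fo f z j) σ) + M c (Lo σ f) - SS c (fun z j => min (u z j) σ) +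
        (SS c g - SS c (Fo f)) := by
    have key := M_mono (c := c) H.c0 k4
    have e4 : M c (fun j => ∑ z', min (g z' j) σ - ∑ z', min (G z' j) σ) =
        SS c (fun z' j => min (g z' j) σ) - SS c (fun z' j => min (G z' j) σ) := by
      rw [SS_eq_M, SS_eq_M, M_sub]
    have e5 : M c (fun j => ∑ z, min (Fo f z j) σ + Lo σ f j - ∑ z, min (u z j) σ +
        (∑ z', g z' j - ∑ z, Fo f z j)) = SS c (fun z j => min (Fo f z j) σ) + M c (Lo σ f) -
        SS c (fun z j => min (u z j) σ) + (SS c g - SS c (Fo f)) := by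
      rw [SS_eq_M (fun z j => min (Fo f z j) σ), SS_eq_M (fun z j => min (u z j) σ), SS_eq_M g,
        SS_eq_M (Fo f), M_add, M_sub, M_sub, M_add]
    rw [e4, e5] at key
    exact key
  have k6 := mul_le_mul_of_nonneg_left k5 hσ.le
  have k7 := mul_le_mul_of_nonneg_left k1b hσ.le
  linarith

end tr

/-! ### class maps of pieces (at a point) -/

section pieces
variable {J δ Λ : Type*} [Fintype J] [Fintype δ] [DecidableEq δ] [Fintype Λ]
  {c : J → ℝ} {W : Set (J → ℝ)} {σ : ℝ}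

/-- content of a class -/
def ck (k : Λ → Option δ) (v : Λ → J → ℝ) (z : δ) (j : J) : ℝ :=
  ∑ i ∈ Finset.univ.filter (fun i => k i = some z), v i j

/-- content outside of the classes -/
def c0k (k : Λ → Option δ) (v : Λ → J → ℝ) (j : J) : ℝ :=
  ∑ i ∈ Finset.univ.filter (fun i => k i = none), v i j

/-- transport of two class maps -/
def fk (k k' : Λ → Option δ) (v : Λ → J → ℝ) (z z' : δ) (j : J) : ℝ :=
  ∑ i ∈ Finset.univ.filter (fun i => k i = some z ∧ k' i = some z'), v i j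

/-- in-member pairs of one old class which are separated in the new classes -/
def pk (k k' : Λ → Option δ) (v : Λ → J → ℝ) (j : J) : ℝ :=
  ∑ i, ∑ i', if k i ≠ none ∧ k i = k i' ∧ k' i ≠ k' i' then v i j * v i' j else 0

/-- moved content -/
def mk (k k' : Λ → Option δ) (r : δ → δ) (v : Λ → J → ℝ) (z : δ) (j : J) : ℝ :=
  ∑ i ∈ Finset.univ.filter (fun i => k i = some z ∧ k' i ≠ some (r z)), v i j

lemma sum_opt {k : Λ → Option δ} (w : Λ → ℝ) :
    ∑ z, ∑ i ∈ Finset.univ.filter (fun i => k i = some z), w i +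
      ∑ i ∈ Finset.univ.filter (fun i => k i = none), w i = ∑ i, w i := by
  have h := Finset.sum_fiberwise Finset.univ k w
  rw [← h, Fintype.sum_option]
  ring

lemma ck_total (k : Λ → Option δ) (v : Λ → J → ℝ) (j : J) :
    ∑ z, ck k v z j + c0k k v j = ∑ i, v i j := sum_opt fun i => v i j

lemma ck_nonneg (k : Λ → Option δ) {v : Λ → J → ℝ} (hv : ∀ i j, 0 ≤ v i j) (z : δ) (j : J) :
    0 ≤ ck k v z j := Finset.sum_nonneg fun i _ => hv i j

lemma fk_nonneg (k k' : Λ → Option δ) {v : Λ → J → ℝ} (hv : ∀ i j, 0 ≤ v i j) (z z' : δ) (j : J) :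
    0 ≤ fk k k' v z z' j := Finset.sum_nonneg fun i _ => hv i j

lemma Fo_fk {k k' : Λ → Option δ} {v : Λ → J → ℝ}
    (hk : ∀ i j, v i j ≠ 0 → k i ≠ none → k' i ≠ none) (z : δ) (j : J) :
    Fo (fk k k' v) z j = ck k v z j := by
  unfold Fo fk ck
  have h := sum_opt (k := k') fun i => if k i = some z then v i j else 0
  have e0 : ∑ i ∈ Finset.univ.filter (fun i => k' i = none),
      (if k i = some z then v i j else 0) = 0 := by
    refine Finset.sum_eq_zero fun i hi => ?_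
    by_cases h1 : k i = some z
    · rw [if_pos h1]
      by_contra h2
      exact hk i j h2 (by rw [h1]; simp) (Finset.mem_filter.1 hi).2
    · rw [if_neg h1]
  rw [e0, add_zero] at h
  rw [Finset.sum_filter, ← h]
  refine Finset.sum_congr rfl fun z' _ => ?_
  rw [← Finset.sum_filter, Finset.filter_filter]
  refine Finset.sum_congr ?_ fun _ _ => rfl
  ext i
  simp only [Finset.mem_filter, Finset.mem_univ, true_and]
  tauto

lemma sum_fk_le {k k' : Λ → Option δ} {v : Λ → J → ℝ} (hv : ∀ i j, 0 ≤ v i j) (z' : δ) (j : J) :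
    ∑ z, fk k k' v z z' j ≤ ck k' v z' j := by
  unfold fk ck
  have h := sum_opt (k := k) fun i => if k' i = some z' then v i j else 0
  have e0 : 0 ≤ ∑ i ∈ Finset.univ.filter (fun i => k i = none),
      (if k' i = some z' then v i j else 0) :=
    Finset.sum_nonneg fun i _ => by split_ifs; exacts [hv i j, le_rfl]
  rw [Finset.sum_filter (fun i => k' i = some z'), ← h]
  have e : ∀ z ∈ Finset.univ, ∑ i ∈ Finset.univ.filter (fun i => k i = some z ∧ k' i = some z'),
      v i j = ∑ i ∈ Finset.univ.filter (fun i => k i = some z),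
        (if k' i = some z' then v i j else 0) := fun z _ => by
    rw [← Finset.sum_filter, Finset.filter_filter]
  rw [Finset.sum_congr rfl e]
  linarith

lemma Mo_fk_le {k k' : Λ → Option δ} (r : δ → δ) {v : Λ → J → ℝ} (hv : ∀ i j, 0 ≤ v i j) (z : δ)
    (j : J) : Mo (fk k k' v) r z j ≤ mk k k' r v z j := by
  classical
  unfold Mo fk mk
  rw [← Finset.sum_biUnion]
  · refine Finset.sum_le_sum_of_subset_of_nonneg ?_ fun i _ _ => hv i j
    intro i hi
    obtain ⟨z', hz', hi⟩ := Finset.mem_biUnion.1 hi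
    have h1 := (Finset.mem_filter.1 hz').2
    have h2 := (Finset.mem_filter.1 hi).2
    refine Finset.mem_filter.2 ⟨Finset.mem_univ _, h2.1, ?_⟩
    rw [h2.2]
    intro h3
    exact h1 (Option.some.inj h3)
  · intro a _ b _ hab
    refine Finset.disjoint_left.2 fun i ha hb => ?_
    have h1 := (Finset.mem_filter.1 ha).2.2
    have h2 := (Finset.mem_filter.1 hb).2.2
    rw [h1] at h2
    exact hab (Option.some.inj h2)

/-- **the losses are separated in-member pairs** -/
lemma pairs_fk {k k' : Λ → Option δ} {v : Λ → J → ℝ} (hv : ∀ i j, 0 ≤ v i j) (j : J) :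
    ∑ z, (Fo (fk k k' v) z j ^ 2 - ∑ z', fk k k' v z z' j ^ 2) ≤ pk k k' v j := by
  classical
  -- products as double sums
  have e1 : ∀ z z', fk k k' v z z' j =
      ∑ i, if k i = some z ∧ k' i = some z' then v i j else 0 := fun z z' => by
    unfold fk; rw [Finset.sum_filter]
  have key : ∀ z, Fo (fk k k' v) z j ^ 2 - ∑ z', fk k k' v z z' j ^ 2 =
      ∑ z', ∑ z'' ∈ Finset.univ.filter (fun z'' => z'' ≠ z'),
        fk k k' v z z' j * fk k k' v z z'' j := by
    intro z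
    unfold Fo
    rw [sq, Finset.sum_mul_sum, ← Finset.sum_sub_distrib]
    refine Finset.sum_congr rfl fun z' _ => ?_
    have h := Finset.sum_filter_add_sum_filter_not Finset.univ (fun z'' => z'' = z')
      fun z'' => fk k k' v z z' j * fk k k' v z z'' j
    rw [← h, Finset.filter_eq' Finset.univ z', if_pos (Finset.mem_univ _), Finset.sum_singleton]
    ring
  rw [Finset.sum_congr rfl fun z _ => key z]
  -- expand
  have e2 : ∀ z z' z'', fk k k' v z z' j * fk k k' v z z'' j = ∑ i, ∑ i',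
      if (k i = some z ∧ k' i = some z') ∧ (k i' = some z ∧ k' i' = some z'') then
        v i j * v i' j else 0 := by
    intro z z' z''
    rw [e1, e1, Finset.sum_mul_sum]
    refine Finset.sum_congr rfl fun i _ => Finset.sum_congr rfl fun i' _ => ?_
    by_cases h1 : k i = some z ∧ k' i = some z'
    · by_cases h2 : k i' = some z ∧ k' i' = some z''
      · rw [if_pos h1, if_pos h2, if_pos ⟨h1, h2⟩]
      · have h3 : ¬ ((k i = some z ∧ k' i = some z') ∧ (k i' = some z ∧ k' i' = some z'')) :=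
          fun h => h2 h.2
        rw [if_neg h2, if_neg h3, mul_zero]
    · have h3 : ¬ ((k i = some z ∧ k' i = some z') ∧ (k i' = some z ∧ k' i' = some z'')) :=
        fun h => h1 h.1
      rw [if_neg h1, if_neg h3, zero_mul]
  have e3 : ∑ z, ∑ z', ∑ z'' ∈ Finset.univ.filter (fun z'' => z'' ≠ z'),
      fk k k' v z z' j * fk k k' v z z'' j = ∑ i, ∑ i', ∑ z, ∑ z',
        ∑ z'' ∈ Finset.univ.filter (fun z'' => z'' ≠ z'),
        if (k i = some z ∧ k' i = some z') ∧ (k i' = some z ∧ k' i' = some z'') then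
          v i j * v i' j else 0 := by
    simp only [e2]
    have a1 : ∀ (F : δ → δ → δ → Λ → Λ → ℝ), ∑ z, ∑ z',
        ∑ z'' ∈ Finset.univ.filter (fun z'' => z'' ≠ z'), ∑ i, ∑ i', F z z' z'' i i' =
        ∑ i, ∑ i', ∑ z, ∑ z', ∑ z'' ∈ Finset.univ.filter (fun z'' => z'' ≠ z'),
          F z z' z'' i i' := by
      intro F
      have b1 : ∀ z z', ∑ z'' ∈ Finset.univ.filter (fun z'' => z'' ≠ z'), ∑ i, ∑ i',
          F z z' z'' i i' = ∑ i, ∑ i', ∑ z'' ∈ Finset.univ.filter (fun z'' => z'' ≠ z'),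
          F z z' z'' i i' := fun z z' => by
        rw [Finset.sum_comm]
        refine Finset.sum_congr rfl fun i _ => ?_
        rw [Finset.sum_comm]
      simp only [b1]
      have b2 : ∀ z, ∑ z', ∑ i, ∑ i', ∑ z'' ∈ Finset.univ.filter (fun z'' => z'' ≠ z'),
          F z z' z'' i i' = ∑ i, ∑ i', ∑ z', ∑ z'' ∈ Finset.univ.filter (fun z'' => z'' ≠ z'),
          F z z' z'' i i' := fun z => by
        rw [Finset.sum_comm]
        refine Finset.sum_congr rfl fun i _ => ?_
        rw [Finset.sum_comm]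
      simp only [b2]
      rw [Finset.sum_comm]
      refine Finset.sum_congr rfl fun i _ => ?_
      rw [Finset.sum_comm]
    exact a1 _
  rw [e3]
  unfold pk
  refine Finset.sum_le_sum fun i _ => Finset.sum_le_sum fun i' _ => ?_
  by_cases h : k i ≠ none ∧ k i = k i' ∧ k' i ≠ k' i'
  · rw [if_pos h]
    obtain ⟨z, hz⟩ := Option.ne_none_iff_exists'.1 h.1
    rw [Finset.sum_eq_single z]
    · rcases h1 : k' i with _ | a
      · rw [Finset.sum_eq_zero]
        · exact mul_nonneg (hv i j) (hv i' j)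
        · intro z' _
          refine Finset.sum_eq_zero fun z'' _ => ?_
          rw [if_neg]
          rintro ⟨⟨-, h2⟩, -⟩
          simp at h2
      · rw [Finset.sum_eq_single a]
        · rcases h2 : k' i' with _ | b
          · rw [Finset.sum_eq_zero]
            · exact mul_nonneg (hv i j) (hv i' j)
            · intro z'' _
              rw [if_neg]
              rintro ⟨-, -, h3⟩
              simp at h3
          · have hab : b ≠ a := by
              intro e
              apply h.2.2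
              rw [h1, h2, e]
            rw [Finset.sum_eq_single b]
            · split_ifs
              · exact le_rfl
              · exact mul_nonneg (hv i j) (hv i' j)
            · intro z'' _ hne
              rw [if_neg]
              rintro ⟨-, -, h3⟩
              exact hne (Option.some.inj h3).symm
            · intro h3
              exact absurd (show b ∈ Finset.univ.filter (fun z'' => z'' ≠ a) by simp [hab]) h3
        · intro z' _ hne
          refine Finset.sum_eq_zero fun z'' _ => ?_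
          rw [if_neg]
          rintro ⟨⟨-, h3⟩, -⟩
          exact hne (Option.some.inj h3).symm
        · intro h3
          exact absurd (Finset.mem_univ _) h3
    · intro w _ hne
      refine Finset.sum_eq_zero fun z' _ => Finset.sum_eq_zero fun z'' _ => ?_
      rw [if_neg]
      rintro ⟨⟨h3, -⟩, -⟩
      rw [hz] at h3
      exact hne (Option.some.inj h3).symm
    · intro h3
      exact absurd (Finset.mem_univ _) h3
  · rw [if_neg h]
    refine le_of_eq (Finset.sum_eq_zero fun z _ => Finset.sum_eq_zero fun z' _ =>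
      Finset.sum_eq_zero fun z'' hz'' => ?_)
    rw [if_neg]
    rintro ⟨⟨h1, h2⟩, h3, h4⟩
    apply h
    refine ⟨by rw [h1]; simp, by rw [h1, h3], ?_⟩
    rw [h2, h4]
    intro e
    exact (Finset.mem_filter.1 hz'').2 (Option.some.inj e).symm

/-- short content, class maps -/
theorem tr_Ak {k k' : Λ → Option δ} {v : Λ → J → ℝ} (hv : ∀ i j, 0 ≤ v i j)
    (hk : ∀ i j, v i j ≠ 0 → k i ≠ none → k' i ≠ none) (c0 : ∀ j, 0 ≤ c j) (hσ : 0 ≤ σ) :
    SS c (fun z j => min (ck k' v z j) σ) + M c (c0k k' v) ≤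
      SS c (fun z j => min (ck k v z j) σ) + M c (c0k k v) + M c (Lo σ (fk k k' v)) := by
  have h := tr_A (σ := σ) c0 hσ (fk_nonneg k k' hv) (g := ck k' v) fun z' j => sum_fk_le hv z' j
  have e : Fo (fk k k' v) = ck k v := funext fun z => funext fun j => Fo_fk hk z j
  rw [e] at h
  have e1 : SS c (ck k' v) + M c (c0k k' v) = SS c (ck k v) + M c (c0k k v) := by
    rw [SS_eq_M, SS_eq_M, ← M_add, ← M_add]
    congr 1
    funext j
    rw [ck_total, ck_total]
  linarith

/-- potential, class maps -/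
theorem tr_Pk (H : TC c W) {k k' : Λ → Option δ} {v : Λ → J → ℝ} (hv : ∀ i j, 0 ≤ v i j)
    (hk : ∀ i j, v i j ≠ 0 → k i ≠ none → k' i ≠ none) (hσ : 0 < σ) (r : δ → δ) :
    PS σ c W (fun z j => min (ck k v z j) σ) ≤ PS σ c W (fun z' j => min (ck k' v z' j) σ) +
      14 * (σ * (SS c (fun z j => min (ck k v z j) σ) + M c (c0k k v) + M c (Lo σ (fk k k' v)) -
        (SS c (fun z j => min (ck k' v z j) σ) + M c (c0k k' v)))) +
      14 * (σ * SS c fun z j => min (mk k k' r v z j) σ) := by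
  have h := tr_P (σ := σ) H hσ r (fk_nonneg k k' hv) (g := ck k' v) fun z' j => sum_fk_le hv z' j
  have e : Fo (fk k k' v) = ck k v := funext fun z => funext fun j => Fo_fk hk z j
  rw [e] at h
  have e1 : SS c (ck k' v) + M c (c0k k' v) = SS c (ck k v) + M c (c0k k v) := by
    rw [SS_eq_M, SS_eq_M, ← M_add, ← M_add]
    congr 1
    funext j
    rw [ck_total, ck_total]
  have e2 : SS c (fun z j => min (Mo (fk k k' v) r z j) σ) ≤
      SS c fun z j => min (mk k k' r v z j) σ :=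
    Finset.sum_le_sum fun z _ => M_mono H.c0 fun j => min_le_min_right _ (Mo_fk_le r hv z j)
  have e3 := mul_le_mul_of_nonneg_left e2 hσ.le
  have e4 : SS c (fun z j => min (ck k v z j) σ) + M c (Lo σ (fk k k' v)) +
      (SS c (ck k' v) - SS c (ck k v)) - SS c (fun z j => min (ck k' v z j) σ) =
      SS c (fun z j => min (ck k v z j) σ) + M c (c0k k v) + M c (Lo σ (fk k k' v)) -
        (SS c (fun z j => min (ck k' v z j) σ) + M c (c0k k' v)) := by linarith
  rw [e4] at h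
  linarith

/-- join energy, class maps -/
theorem tr_Jk (c0 : ∀ j, 0 ≤ c j) {k k' : Λ → Option δ} {v : Λ → J → ℝ} (hv : ∀ i j, 0 ≤ v i j)
    (n : ℕ) : ∑ l ∈ Finset.range n, (2 : ℝ) ^ l * M c (Lo (2 ^ l) (fk k k' v)) ≤
      2 * M c (pk k k' v) := by
  have e1 : ∑ l ∈ Finset.range n, (2 : ℝ) ^ l * M c (Lo (2 ^ l) (fk k k' v)) =
      M c fun j => ∑ l ∈ Finset.range n, (2 : ℝ) ^ l * Lo (2 ^ l) (fk k k' v) j := by
    unfold M
    simp only [Finset.mul_sum]
    rw [Finset.sum_comm]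
    exact Finset.sum_congr rfl fun j _ => Finset.sum_congr rfl fun l _ => by ring
  rw [e1, ← M_smul]
  refine M_mono c0 fun j => ?_
  refine (dy_Lo (fk_nonneg k k' hv) n j).trans ?_
  exact mul_le_mul_of_nonneg_left (pairs_fk hv j) (by norm_num)

end pieces

/-! ### group data with slack -/

section rgs
variable {β δ : Type} [Fintype δ] {R : RX β δ}

/-- **group data with slack** : `as` = increase of the short content by the splits of classes -/
structure RGs (U : RB R) where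
  /-- good group states -/
  ok : ℕ → Gs β → Prop
  gk : ∀ {p s}, ok p s → R.gok p s
  okC : ∀ {p s}, ok p s → p ≠ 0 → ok p (R.C p s)
  okN : ∀ {p s}, ok p s → p ≠ 0 → ok (p - 1) (R.N p s)
  /-- error of the class change -/
  br : ℝ → ℕ → Gs β → ℝ → ℝ
  /-- slack of the short content -/
  as : ℝ → ℕ → Gs β → ℝ → ℝ
  /-- join energy of the class change -/
  jm : ℕ → ℕ → Gs β → ℝ → ℝ
  pbr : ∀ {σ p s}, 0 < σ → ok p s → p ≠ 0 → PB (br σ p s)
  pas : ∀ {σ p s}, 0 < σ → ok p s → p ≠ 0 → PB (as σ p s)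
  pjm : ∀ {Km p s}, ok p s → p ≠ 0 → PB (jm Km p s)
  arN : ∀ {σ p s}, 0 < σ → ok p s → p ≠ 0 → ∀ x,
    U.A σ (p - 1) (R.N p s) x ≤ U.AR σ p s x + as σ p s x
  ref : ∀ {σ p s}, 0 < σ → ok p s → p ≠ 0 → ∀ x, R.PtR σ p s x ≤ R.Pt σ (p - 1) (R.N p s) x +
    14 * (σ * (U.AR σ p s x + as σ p s x - U.A σ (p - 1) (R.N p s) x)) + br σ p s x
  asJ : ∀ {Km p s}, ok p s → p ≠ 0 → ∀ x,
    ∑ l ∈ Finset.range (Km + 1), 2 ^ l * as (2 ^ l) p s x ≤ jm Km p s x

variable {U : RB R}

/-- **the instance** -/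
noncomputable def RGs.ms (D : RGs U) {del : ℝ} {Km : ℕ} (h0 : 0 < del) (h1 : del ≤ 1)
    (hK : del * U.B0 ≤ 2 ^ Km) : MS (ℕ × Gs β) where
  del := del
  Km := Km
  C := fun p t => (p, R.C p t.2)
  N := fun p t => (p - 1, R.N p t.2)
  ok := fun p t => t.1 = p ∧ D.ok p t.2
  T := fun t => su t.2 U.tt
  TL := fun p t x => R.TL p t.2 x + su t.2 (U.uL p) x
  TB := fun p t x => R.TB p t.2 x + (su t.2 (U.bU p) (p * x) + su t.2 (U.gU p) x)
  bT := fun p t x => R.bT p t.2 x + su t.2 (U.bU p) x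
  GT := fun p t x => R.GT p t.2 x + su t.2 (U.gU p) x
  cost := fun p t => R.cost p t.2
  jn := fun p t x => R.jn p t.2 x + D.jm Km p t.2 x
  jB := fun _ _ _ => 0
  A := fun k t => U.A (2 ^ k) t.1 t.2
  AL := fun k p t x => R.AL (2 ^ k) p t.2 x + su t.2 (U.uL p) x
  AB := fun k p t x => R.AB (2 ^ k) p t.2 x + (su t.2 (U.bU p) (p * x) + su t.2 (U.gU p) x)
  AR := fun k p t x => max (U.AR (2 ^ k) p t.2 x) (U.A (2 ^ k) (p - 1) (R.N p t.2) x)
  be := fun k p t x => R.be (2 ^ k) p t.2 x + su t.2 (U.bU p) x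
  G := fun k p t x => R.G (2 ^ k) p t.2 x + su t.2 (U.gU p) x
  bt := fun k p t => R.bt (2 ^ k) p t.2
  ls := fun _ _ _ _ => 0
  cS := fun k p t => R.cS (2 ^ k) p t.2
  cT := fun k p t => R.cTk (2 ^ k) p t.2
  ex := fun k p t => R.ex (2 ^ k) p t.2
  br := fun k p t x => D.br (2 ^ k) p t.2 x + 14 * (2 ^ k * D.as (2 ^ k) p t.2 x)
  Pt := fun k p t => R.Pt (2 ^ k) p t.2
  PR := fun k p t => R.PR (2 ^ k) p t.2
  PtB := fun k p t => R.PtB (2 ^ k) p t.2
  del0 := h0
  del1 := h1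
  okC := fun ht hp => ⟨rfl, D.okC ht.2 hp⟩
  okN := fun ht hp => ⟨rfl, D.okN ht.2 hp⟩
  pT := fun ht => U.PB_tt (D.gk ht.2)
  pTL := fun ht hp => (RX.PB_TL (D.gk ht.2) hp).add (PB_su (D.gk ht.2) fun j => U.puL ((D.gk ht.2).2 j) hp)
  pTB := fun ht hp => (RX.PB_TB (D.gk ht.2) hp).add
    (((PB_su (D.gk ht.2) fun j => U.pbU ((D.gk ht.2).2 j) hp).pull _).add
      (PB_su (D.gk ht.2) fun j => U.pgU ((D.gk ht.2).2 j) hp))
  pGT := fun ht hp => (RX.PB_GT (D.gk ht.2) hp).add
    (PB_su (D.gk ht.2) fun j => U.pgU ((D.gk ht.2).2 j) hp)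
  pcost := fun ht hp => RX.PB_cost (D.gk ht.2) hp
  pjn := fun ht hp => (RX.PB_jn (D.gk ht.2) hp).add (D.pjm ht.2 hp)
  pjB := fun _ _ => PB.const le_rfl
  pA := fun {k p t} ht => by
    have h := ht.1
    subst h
    exact (RX.PB_A (two_pos' _) (D.gk ht.2)).add (PB_su (D.gk ht.2) fun j => U.pu ((D.gk ht.2).2 j))
  pAL := fun ht hp => (RX.PB_AL (two_pos' _) (D.gk ht.2) hp).add
    (PB_su (D.gk ht.2) fun j => U.puL ((D.gk ht.2).2 j) hp)
  pAB := fun ht hp => (RX.PB_AB (two_pos' _) (D.gk ht.2) hp).add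
    (((PB_su (D.gk ht.2) fun j => U.pbU ((D.gk ht.2).2 j) hp).pull _).add
      (PB_su (D.gk ht.2) fun j => U.pgU ((D.gk ht.2).2 j) hp))
  pAR := fun ht hp => PB_max ((RX.PB_AR (two_pos' _) (D.gk ht.2) hp).add
    (PB_su (D.gk ht.2) fun j => U.puN ((D.gk ht.2).2 j) hp))
    ((RX.PB_A (two_pos' _) (RX.gok_N (D.gk ht.2) hp)).add
      (PB_su (RX.gok_N (D.gk ht.2) hp) fun j => U.pu ((RX.gok_N (D.gk ht.2) hp).2 j)))
  pG := fun ht hp => (RX.PB_G (two_pos' _) (D.gk ht.2) hp).add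
    (PB_su (D.gk ht.2) fun j => U.pgU ((D.gk ht.2).2 j) hp)
  pbt := fun ht hp => RX.PB_bt (two_pos' _) (D.gk ht.2) hp
  pex := fun ht hp => RX.PB_ex (two_pos' _) (D.gk ht.2) hp
  pbr := fun ht hp => (D.pbr (two_pos' _) ht.2 hp).add
    (((D.pas (two_pos' _) ht.2 hp).smul (two_pos' _).le).smul (by norm_num))
  pPt := fun ht => RX.PB_Pt (two_pos' _) (D.gk ht.2)
  pPtB := fun ht hp => RX.PB_PtB (two_pos' _) (D.gk ht.2) hp
  mbe := fun ht hp => ((RX.PB_be (two_pos' _) (D.gk ht.2) hp).add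
    (PB_su (D.gk ht.2) fun j => U.pbU ((D.gk ht.2).2 j) hp)).meas
  bper := fun ht hp => ((RX.PB_be (two_pos' _) (D.gk ht.2) hp).add
    (PB_su (D.gk ht.2) fun j => U.pbU ((D.gk ht.2).2 j) hp)).per
  bTper := fun ht hp => ((RX.PB_bT (D.gk ht.2) hp).add
    (PB_su (D.gk ht.2) fun j => U.pbU ((D.gk ht.2).2 j) hp)).per
  cS0 := fun _ _ x => q2_nonneg _ x
  PR0 := fun ht hp x => (RX.PB_PR (two_pos' _) (D.gk ht.2) hp).nonneg x
  ls0 := fun _ _ _ => le_rfl
  bd := fun ht x => by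
    have h := U.bd' (D.gk ht.2) x
    exact (mul_le_mul_of_nonneg_left h h0.le).trans hK
  spl := fun {p t} ht hp x => by
    have e1 := RX.spl (D.gk ht.2) hp x
    have e2 := U.us' (D.gk ht.2) hp x
    have e3 := U.T_eq (D.gk ht.2) x
    have e4 := U.TN_eq (D.gk ht.2) hp x
    show su t.2 U.tt x = (R.TL p t.2 x + su t.2 (U.uL p) x) + (R.TB p t.2 x +
      (su t.2 (U.bU p) (p * x) + su t.2 (U.gU p) x)) + su (R.N p t.2) U.tt x
    linarith
  mean := fun {p t} ht hp y => by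
    have hs := D.gk ht.2
    have hp0 : 0 < p := Nat.pos_of_ne_zero hp
    have hp' : (p : ℝ) ≠ 0 := by exact_mod_cast hp
    have e1 := RX.mean hs hp y
    have e2 := U.um' hs hp y
    have e3 := U.T_eq (RX.gok_C hs hp) y
    have pb := PB_su hs fun j => U.pbU (hs.2 j) hp
    have e4 : Ep p (fun x => R.TB p t.2 x + (su t.2 (U.bU p) (p * x) + su t.2 (U.gU p) x)) y =
        Ep p (R.TB p t.2) y + (su t.2 (U.bU p) y + Ep p (su t.2 (U.gU p)) y) := by
      unfold Ep
      have e5 : ∀ i ∈ Finset.range p, (R.TB p t.2 ((y + (i : ℝ)) / p) +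
          (su t.2 (U.bU p) (p * ((y + (i : ℝ)) / p)) + su t.2 (U.gU p) ((y + (i : ℝ)) / p))) =
          R.TB p t.2 ((y + (i : ℝ)) / p) + (su t.2 (U.bU p) y +
            su t.2 (U.gU p) ((y + (i : ℝ)) / p)) := fun i _ => by
        rw [pull_fibre hp0 pb.per y i]
      rw [Finset.sum_congr rfl e5, Finset.sum_add_distrib, Finset.sum_add_distrib,
        Finset.sum_const, Finset.card_range, nsmul_eq_mul, add_div, add_div,
        mul_div_cancel_left₀ _ hp']
    show Ep p (fun x => R.TB p t.2 x + (su t.2 (U.bU p) (p * x) + su t.2 (U.gU p) x)) y =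
      su (R.C p t.2) U.tt y
    rw [e4]
    linarith
  dec := fun {p t} ht hp x => by
    have e1 := RX.dec' (R := R) (p := p) (s := t.2) x
    show R.TB p t.2 x + (su t.2 (U.bU p) (p * x) + su t.2 (U.gU p) x) =
      (R.bT p t.2 (p * x) + su t.2 (U.bU p) (p * x)) + (R.GT p t.2 x + su t.2 (U.gU p) x)
    linarith
  AT := fun {k p t} ht x => by
    have h := ht.1
    subst h
    have e1 := U.T_eq (D.gk ht.2) x
    have e2 := RX.A_le (two_pos' k) (D.gk ht.2) x
    show R.A (2 ^ k) t.1 t.2 x + su t.2 (U.u t.1) x ≤ su t.2 U.tt x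
    linarith
  ABT := fun ht hp x => add_le_add_left (RX.AB_le (two_pos' _) (D.gk ht.2) hp x) _
  ALT := fun ht hp x => add_le_add_left (RX.AL_le (two_pos' _) (D.gk ht.2) hp x) _
  decA := fun {k p t} ht hp x => by
    have e1 := RX.decA (two_pos' k) (D.gk ht.2) hp x
    show R.AB (2 ^ k) p t.2 x + (su t.2 (U.bU p) (p * x) + su t.2 (U.gU p) x) =
      (R.be (2 ^ k) p t.2 (p * x) + su t.2 (U.bU p) (p * x)) +
      (R.G (2 ^ k) p t.2 x + su t.2 (U.gU p) x) + R.bt (2 ^ k) p t.2 x - 0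
    linarith
  decR := fun {k p t} ht hp x => by
    have a1 := (RX.PB_be (two_pos' k) (D.gk ht.2) hp).nonneg (p * x)
    have a2 := (RX.PB_G (two_pos' k) (D.gk ht.2) hp).nonneg x
    have a3 := (PB_su (D.gk ht.2) fun j => U.pbU ((D.gk ht.2).2 j) hp).nonneg (p * x)
    have a4 := (PB_su (D.gk ht.2) fun j => U.pgU ((D.gk ht.2).2 j) hp).nonneg x
    show 0 ≤ (R.be (2 ^ k) p t.2 (p * x) + su t.2 (U.bU p) (p * x)) +
      (R.G (2 ^ k) p t.2 x + su t.2 (U.gU p) x)
    linarith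
  decB := fun {k p t} ht hp x => by
    have e1 := RX.decB (two_pos' k) (D.gk ht.2) hp x
    show (R.be (2 ^ k) p t.2 (p * x) + su t.2 (U.bU p) (p * x)) +
      (R.G (2 ^ k) p t.2 x + su t.2 (U.gU p) x) + R.bt (2 ^ k) p t.2 x ≤
      R.TB p t.2 x + (su t.2 (U.bU p) (p * x) + su t.2 (U.gU p) x)
    linarith
  meanA := fun {k p t} ht hp y => by
    have e1 := RX.meanA (two_pos' k) (D.gk ht.2) hp y
    have e2 := U.um' (D.gk ht.2) hp y
    have e3 : Ep p (fun x => R.G (2 ^ k) p t.2 x + su t.2 (U.gU p) x) y =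
        Ep p (R.G (2 ^ k) p t.2) y + Ep p (su t.2 (U.gU p)) y := by
      unfold Ep
      rw [Finset.sum_add_distrib, add_div]
    show (R.be (2 ^ k) p t.2 y + su t.2 (U.bU p) y) +
      Ep p (fun x => R.G (2 ^ k) p t.2 x + su t.2 (U.gU p) x) y =
      R.A (2 ^ k) p (R.C p t.2) y + su (R.C p t.2) (U.u p) y
    rw [e3]
    linarith
  GG := fun ht hp x => add_le_add_left (G_le (two_pos' _) (D.gk ht.2) hp x) _
  lsJ := fun _ _ _ => by simp
  cc := fun ht hp x => RX.cc (two_pos' _) (D.gk ht.2) hp x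
  c1 := fun {k p t} ht hp x => by
    have a1 := (RX.PB_G (two_pos' k) (D.gk ht.2) hp).nonneg x
    have a4 := (PB_su (D.gk ht.2) fun j => U.pgU ((D.gk ht.2).2 j) hp).nonneg x
    refine (RX.c1 (two_pos' k) (D.gk ht.2) hp x).trans ?_
    exact pow_le_pow_left₀ a1 (by linarith) 2
  c2 := fun {k p t} ht hp x => by
    have a3 := (PB_su (D.gk ht.2) fun j => U.pbU ((D.gk ht.2).2 j) hp).nonneg (p * x)
    have a4 := (PB_su (D.gk ht.2) fun j => U.pgU ((D.gk ht.2).2 j) hp).nonneg x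
    refine (RX.c2 (two_pos' k) (D.gk ht.2) hp x).trans ?_
    exact mul_le_mul_of_nonneg_left (by linarith) (two_pos' k).le
  c3 := fun {k p t} ht hp x => by
    have a3 := (PB_su (D.gk ht.2) fun j => U.pbU ((D.gk ht.2).2 j) hp).nonneg (p * x)
    have a4 := (PB_su (D.gk ht.2) fun j => U.pgU ((D.gk ht.2).2 j) hp).nonneg x
    have h := RX.c3 (two_pos' k) (D.gk ht.2) hp x
    show R.cost p t.2 x ≤ 2 * (2 ^ k * (R.AB (2 ^ k) p t.2 x +
      (su t.2 (U.bU p) (p * x) + su t.2 (U.gU p) x))) + 2 * ((R.TB p t.2 x +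
      (su t.2 (U.bU p) (p * x) + su t.2 (U.gU p) x)) - (R.AB (2 ^ k) p t.2 x +
      (su t.2 (U.bU p) (p * x) + su t.2 (U.gU p) x))) ^ 2
    have e : (R.TB p t.2 x + (su t.2 (U.bU p) (p * x) + su t.2 (U.gU p) x)) -
      (R.AB (2 ^ k) p t.2 x + (su t.2 (U.bU p) (p * x) + su t.2 (U.gU p) x)) =
      R.TB p t.2 x - R.AB (2 ^ k) p t.2 x := by ring
    rw [e]
    have h5 : (2:ℝ) ^ k * R.AB (2 ^ k) p t.2 x ≤ 2 ^ k * (R.AB (2 ^ k) p t.2 x +
      (su t.2 (U.bU p) (p * x) + su t.2 (U.gU p) x)) :=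
      mul_le_mul_of_nonneg_left (by linarith) (two_pos' k).le
    linarith
  c4 := fun {k p t} ht hp x => by
    have h := RX.c4 (two_pos' k) (D.gk ht.2) hp x
    show R.cTk (2 ^ k) p t.2 x ≤ ((R.GT p t.2 x + su t.2 (U.gU p) x) -
      (R.G (2 ^ k) p t.2 x + su t.2 (U.gU p) x)) ^ 2
    have e : (R.GT p t.2 x + su t.2 (U.gU p) x) - (R.G (2 ^ k) p t.2 x + su t.2 (U.gU p) x) =
      R.GT p t.2 x - R.G (2 ^ k) p t.2 x := by ring
    rw [e]
    exact h
  col := fun ht hp y => RX.col (two_pos' _) (D.gk ht.2) hp y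
  bR := fun {k p t} ht hp x => by
    have a3 := (PB_su (D.gk ht.2) fun j => U.pbU ((D.gk ht.2).2 j) hp).nonneg (p * x)
    have a4 := (PB_su (D.gk ht.2) fun j => U.pgU ((D.gk ht.2).2 j) hp).nonneg x
    refine (RX.bR (two_pos' k) (D.gk ht.2) hp x).trans ?_
    exact mul_le_mul_of_nonneg_left (mul_le_mul_of_nonneg_left (by linarith) (two_pos' k).le)
      (by norm_num)
  PB1 := fun ht hp x => RX.PB1 (two_pos' _) (D.gk ht.2) hp x
  PB2 := fun {k p t} ht hp x => by
    have a3 := (PB_su (D.gk ht.2) fun j => U.pbU ((D.gk ht.2).2 j) hp).nonneg (p * x)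
    have a4 := (PB_su (D.gk ht.2) fun j => U.pgU ((D.gk ht.2).2 j) hp).nonneg x
    refine (RX.PB2 (two_pos' k) (D.gk ht.2) hp x).trans ?_
    exact mul_le_mul_of_nonneg_left (mul_le_mul_of_nonneg_left (by linarith) (two_pos' k).le)
      (by norm_num)
  born := fun {k p t} ht x => by
    have h := ht.1
    subst h
    have a3 := (PB_su (D.gk ht.2) fun j => U.pu ((D.gk ht.2).2 j)).nonneg x
    refine (RX.born (two_pos' k) (D.gk ht.2) x).trans ?_
    exact mul_le_mul_of_nonneg_left (mul_le_mul_of_nonneg_left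
      (show R.A (2 ^ k) t.1 t.2 x ≤ R.A (2 ^ k) t.1 t.2 x + su t.2 (U.u t.1) x by linarith)
      (two_pos' k).le) (by norm_num)
  arN := fun ht hp x => le_max_right _ _
  ART := fun {k p t} ht hp x => by
    have e1 := RX.AR_le (two_pos' k) (D.gk ht.2) hp x
    have e2 := U.TN_eq (D.gk ht.2) hp x
    have e3 := U.T_eq (RX.gok_N (D.gk ht.2) hp) x
    have e4 := RX.A_le (two_pos' k) (RX.gok_N (D.gk ht.2) hp) x
    refine max_le ?_ ?_
    · show R.AR (2 ^ k) p t.2 x + su t.2 (U.uN p) x ≤ su (R.N p t.2) U.tt x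
      linarith
    · show R.A (2 ^ k) (p - 1) (R.N p t.2) x + su (R.N p t.2) (U.u (p - 1)) x ≤
        su (R.N p t.2) U.tt x
      linarith
  lam := fun {k p t} ht hp x => by
    have h := ht.1
    subst h
    have e1 := RX.lam (two_pos' k) (D.gk ht.2) hp x
    have e2 := U.us' (D.gk ht.2) hp x
    have e4 := le_max_left (U.AR (2 ^ k) t.1 t.2 x) (U.A (2 ^ k) (t.1 - 1) (R.N t.1 t.2) x)
    have e5 : U.AR (2 ^ k) t.1 t.2 x = R.AR (2 ^ k) t.1 t.2 x + su t.2 (U.uN t.1) x := rfl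
    show R.A (2 ^ k) t.1 t.2 x + su t.2 (U.u t.1) x ≤ (R.AB (2 ^ k) t.1 t.2 x +
      (su t.2 (U.bU t.1) (t.1 * x) + su t.2 (U.gU t.1) x)) +
      max (U.AR (2 ^ k) t.1 t.2 x) (U.A (2 ^ k) (t.1 - 1) (R.N t.1 t.2) x) +
      (R.AL (2 ^ k) t.1 t.2 x + su t.2 (U.uL t.1) x)
    linarith
  lamJ := fun {p t} ht hp x => by
    have h := ht.1
    subst h
    have e2 := U.us' (D.gk ht.2) hp x
    have e3 := D.asJ (Km := Km) ht.2 hp x
    have e4 := RX.lamJ (D.gk ht.2) hp (Km + 1) x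
    refine le_trans ?_ (add_le_add e4 e3)
    rw [← Finset.sum_add_distrib]
    refine Finset.sum_le_sum fun l _ => ?_
    have e5 : max (U.AR (2 ^ l) t.1 t.2 x) (U.A (2 ^ l) (t.1 - 1) (R.N t.1 t.2) x) ≤
        U.AR (2 ^ l) t.1 t.2 x + D.as (2 ^ l) t.1 t.2 x :=
      max_le (by linarith [(D.pas (two_pos' l) ht.2 hp).nonneg x]) (D.arN (two_pos' l) ht.2 hp x)
    have e6 : U.AR (2 ^ l) t.1 t.2 x = R.AR (2 ^ l) t.1 t.2 x + su t.2 (U.uN t.1) x := rfl
    rw [← mul_add]
    refine mul_le_mul_of_nonneg_left ?_ (two_pos' l).le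
    show (R.AB (2 ^ l) t.1 t.2 x +
      (su t.2 (U.bU t.1) (t.1 * x) + su t.2 (U.gU t.1) x)) +
      max (U.AR (2 ^ l) t.1 t.2 x) (U.A (2 ^ l) (t.1 - 1) (R.N t.1 t.2) x) +
      (R.AL (2 ^ l) t.1 t.2 x + su t.2 (U.uL t.1) x) -
      (R.A (2 ^ l) t.1 t.2 x + su t.2 (U.u t.1) x) ≤ _
    rw [e2]
    linarith
  joH := fun {k p t} ht hp x => by
    have hs := D.gk ht.2
    have h1 := (RX.joins (two_pos' k) hs hp x).1
    have h2 := D.ref (two_pos' k) ht.2 hp x
    have a1 := (PB_su hs fun j => U.pbU (hs.2 j) hp).nonneg (p * x)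
    have a2 := (PB_su hs fun j => U.pgU (hs.2 j) hp).nonneg x
    have a3 := (PB_su hs fun j => U.puN (hs.2 j) hp).nonneg x
    have a4 := (PB_su hs fun j => U.puL (hs.2 j) hp).nonneg x
    have a5 := le_max_left (U.AR (2 ^ k) p t.2 x) (U.A (2 ^ k) (p - 1) (R.N p t.2) x)
    have a6 : U.AR (2 ^ k) p t.2 x = R.AR (2 ^ k) p t.2 x + su t.2 (U.uN p) x := rfl
    have h3 : min (R.AB (2 ^ k) p t.2 x) (R.AR (2 ^ k) p t.2 x) ≤
      min (R.AB (2 ^ k) p t.2 x + (su t.2 (U.bU p) (p * x) + su t.2 (U.gU p) x))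
        (max (U.AR (2 ^ k) p t.2 x) (U.A (2 ^ k) (p - 1) (R.N p t.2) x)) :=
      min_le_min (by linarith) (by linarith)
    have h4 := mul_le_mul_of_nonneg_left h3 (two_pos' k).le
    have h5 := mul_le_mul_of_nonneg_left
      (show R.AL (2 ^ k) p t.2 x ≤ R.AL (2 ^ k) p t.2 x + su t.2 (U.uL p) x by linarith)
      (two_pos' k).le
    have h6 := mul_le_mul_of_nonneg_left a5 (two_pos' k).le
    show R.Pt (2 ^ k) p t.2 x ≤ R.PtB (2 ^ k) p t.2 x + R.Pt (2 ^ k) (p - 1) (R.N p t.2) x +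
      14 * (2 ^ k * (max (U.AR (2 ^ k) p t.2 x) (U.A (2 ^ k) (p - 1) (R.N p t.2) x) -
        U.A (2 ^ k) (p - 1) (R.N p t.2) x)) +
      14 * (2 ^ k * min (R.AB (2 ^ k) p t.2 x + (su t.2 (U.bU p) (p * x) + su t.2 (U.gU p) x))
        (max (U.AR (2 ^ k) p t.2 x) (U.A (2 ^ k) (p - 1) (R.N p t.2) x))) +
      14 * (2 ^ k * (R.AL (2 ^ k) p t.2 x + su t.2 (U.uL p) x)) +
      (D.br (2 ^ k) p t.2 x + 14 * (2 ^ k * D.as (2 ^ k) p t.2 x))
    linarith
  joB := fun {k p t} ht hp x => by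
    have hs := D.gk ht.2
    have h1 := (RX.joins (two_pos' k) hs hp x).2.1
    have h2 := (D.pbr (two_pos' k) ht.2 hp).nonneg x
    have h7 := mul_nonneg (two_pos' k).le ((D.pas (two_pos' k) ht.2 hp).nonneg x)
    have a3 := (PB_su hs fun j => U.puN (hs.2 j) hp).nonneg x
    have a4 := (PB_su hs fun j => U.puL (hs.2 j) hp).nonneg x
    have a5 := le_max_left (U.AR (2 ^ k) p t.2 x) (U.A (2 ^ k) (p - 1) (R.N p t.2) x)
    have a6 : U.AR (2 ^ k) p t.2 x = R.AR (2 ^ k) p t.2 x + su t.2 (U.uN p) x := rfl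
    have h5 := mul_le_mul_of_nonneg_left
      (show R.AR (2 ^ k) p t.2 x + R.AL (2 ^ k) p t.2 x ≤
        max (U.AR (2 ^ k) p t.2 x) (U.A (2 ^ k) (p - 1) (R.N p t.2) x) +
        (R.AL (2 ^ k) p t.2 x + su t.2 (U.uL p) x) by linarith) (two_pos' k).le
    show R.Pt (2 ^ k) p t.2 x ≤ R.PtB (2 ^ k) p t.2 x +
      14 * (2 ^ k * (max (U.AR (2 ^ k) p t.2 x) (U.A (2 ^ k) (p - 1) (R.N p t.2) x) +
        (R.AL (2 ^ k) p t.2 x + su t.2 (U.uL p) x))) +
      (D.br (2 ^ k) p t.2 x + 14 * (2 ^ k * D.as (2 ^ k) p t.2 x))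
    linarith
  joN := fun {k p t} ht hp x => by
    have hs := D.gk ht.2
    have h1 := (RX.joins (two_pos' k) hs hp x).2.2
    have h2 := D.ref (two_pos' k) ht.2 hp x
    have a1 := (PB_su hs fun j => U.pbU (hs.2 j) hp).nonneg (p * x)
    have a2 := (PB_su hs fun j => U.pgU (hs.2 j) hp).nonneg x
    have a4 := (PB_su hs fun j => U.puL (hs.2 j) hp).nonneg x
    have a5 := le_max_left (U.AR (2 ^ k) p t.2 x) (U.A (2 ^ k) (p - 1) (R.N p t.2) x)
    have h5 := mul_le_mul_of_nonneg_left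
      (show R.AB (2 ^ k) p t.2 x + R.AL (2 ^ k) p t.2 x ≤
        (R.AB (2 ^ k) p t.2 x + (su t.2 (U.bU p) (p * x) + su t.2 (U.gU p) x)) +
        (R.AL (2 ^ k) p t.2 x + su t.2 (U.uL p) x) by linarith) (two_pos' k).le
    have h6 := mul_le_mul_of_nonneg_left a5 (two_pos' k).le
    show R.Pt (2 ^ k) p t.2 x ≤ R.Pt (2 ^ k) (p - 1) (R.N p t.2) x +
      14 * (2 ^ k * (max (U.AR (2 ^ k) p t.2 x) (U.A (2 ^ k) (p - 1) (R.N p t.2) x) -
        U.A (2 ^ k) (p - 1) (R.N p t.2) x)) +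
      14 * (2 ^ k * ((R.AB (2 ^ k) p t.2 x + (su t.2 (U.bU p) (p * x) + su t.2 (U.gU p) x)) +
        (R.AL (2 ^ k) p t.2 x + su t.2 (U.uL p) x))) +
      (D.br (2 ^ k) p t.2 x + 14 * (2 ^ k * D.as (2 ^ k) p t.2 x))
    linarith

/-- **the scaled mode game of group data with slack** : `K ≤ ε I tot² + C_ε I tot + E` -/
theorem rgs_main {ε : ℝ} (hε : 0 < ε) : ∃ (del : ℝ) (h0 : 0 < del) (h1 : del ≤ 1) (C : ℝ), 0 ≤ C ∧
    ∀ {β δ : Type} [Fintype δ] {R : RX β δ} {U : RB R} (D : RGs U) {Km : ℕ}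
      (hK : del * U.B0 ≤ 2 ^ Km) (n p : ℕ) (s : Gs β), D.ok p s →
      ModeS16.K (D.ms h0 h1 hK) n p (p, s) ≤ ε * I (fun x => su s U.tt x ^ 2) + C * I (su s U.tt) +
        ModeS16.E (D.ms h0 h1 hK) n p (p, s) := by
  obtain ⟨del, h0, h1, h2⟩ := ModeS16.exists_del hε
  refine ⟨del, h0, h1, 2 * ModeR16.Ld del, by
    have := ModeR16.Ld_pos h0
    positivity, ?_⟩
  intro β δ _ R U D Km hK n p s hs
  have h := ModeS16.main_root (w := D.ms h0 h1 hK) n p (p, s) ⟨rfl, hs⟩
  have e1 : (D.ms h0 h1 hK).T (p, s) = su s U.tt := rfl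
  have e2 : (D.ms h0 h1 hK).del = del := rfl
  rw [e1, e2] at h
  have h3 : 0 ≤ I (fun x => su s U.tt x ^ 2) := I_nonneg fun x => sq_nonneg _
  have h4 := mul_le_mul_of_nonneg_right h2 h3
  linarith

end rgs

end Crest.Agent.R4P.MvP25
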