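import Crest.Agent.R4P.PMs_49

/-!
R4 (S0004) with powers, helper49: **square root form of the linear prices**.

If the heights of a class stay `≤ a`, then content `g` joining content `f` costs `14 √a M g` instead of
`14 M g` (scale `1`), and `√(σ a)` instead of `σ` at the scale `σ`:
* `PN_cap` : `PD (f + g) ≤ PD f + 14 √a M g` if `f + g ≤ a` (helper35's dual potential);
* `PM_cap`, `PMs_cap`, `PM7_cap` : families of classes with caps `a z`; `PM7_cap_join` (min form);
* `PM7_born_cap` : `PM7 f ≤ 14 Σ_z √(σ a_z) M f_z`;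
* `PM7_move` : content moves between classes, cap `H` for the classes which receive: `14 √(σ H) SS e`;
* `sqrt_price` : `√(σ H) ≤ ε σ + H / (4 ε)`.
-/

set_option autoImplicit false
set_option linter.unusedVariables false
set_option linter.unusedSectionVars false

namespace Crest.Agent.R4P.PMc49

open Finset Crest.Agent.R4P.GMer27 Crest.Agent.R4P.ModeP940 Crest.Agent.R4P.MisR16
open Crest.Agent.R4P.ModeK49 (PK PK_nonneg)
open Crest.Agent.R4P.GMd35
open Crest.Agent.R4P.Mism16 Crest.Agent.R4P.RXs343 Crest.Agent.R4P.PMs49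

section single
variable {J : Type*} [Fintype J] {c : J → ℝ} {W : Set (J → ℝ)}

/-- **low contents are cheap**: `PD (h + x) ≤ PD h + 14 √a M x` if `h + x ≤ a` -/
theorem PN_cap (H : TC c W) {h x : J → ℝ} {a : ℝ} (h0 : ∀ j, 0 ≤ h j) (hx : ∀ j, 0 ≤ x j)
    (ha : ∀ j, h j + x j ≤ a) :
    PD c (fun j => h j + x j) ≤ PD c h + 14 * (Real.sqrt a * M c x) := by
  have k := PD_own H.c0 h0 hx
  have k2 : M c (fun j => x j * Real.sqrt (h j + x j)) ≤ Real.sqrt a * M c x := by
    rw [← M_smul]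
    refine M_mono H.c0 fun j => ?_
    rw [mul_comm]
    exact mul_le_mul_of_nonneg_right (Real.sqrt_le_sqrt (ha j)) (hx j)
  linarith

end single

variable {J ζ : Type*} [Fintype J] [Fintype ζ] {c : J → ℝ} {W : Set (J → ℝ)} {σ : ℝ}

lemma th_add_cap {x y a : ℝ} (hx : 0 ≤ x) (hy : 0 ≤ y) (h : x + y ≤ a) :
    th (x + y) ≤ th x + 3 / 2 * (Real.sqrt a * y) := by
  have h1 := th_tan (a := x) (b := x + y) hx (by linarith)
  have h2 : Real.sqrt (x + y) ≤ Real.sqrt a := Real.sqrt_le_sqrt h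
  have h3 := mul_le_mul_of_nonneg_right h2 hy
  have e : x - (x + y) = -y := by ring
  rw [e] at h1
  linarith

/-- **family with caps** (scale `1`) -/
theorem PM_cap (H : TC c W) {h h' : ζ → J → ℝ} {a : ζ → ℝ} (hh : ∀ z j, 0 ≤ h z j)
    (hh' : ∀ z j, 0 ≤ h' z j) (a0 : ∀ z, 0 ≤ a z) (ha : ∀ z j, h z j + h' z j ≤ a z) :
    PM c W (fun z j => h z j + h' z j) ≤
      PM c W h + 98 * ∑ z, Real.sqrt (a z) * M c (h' z) := by
  have k1 : PK c W (fun z j => h z j + h' z j) ≤
      PK c W h + 14 * ∑ z, Real.sqrt (a z) * M c (h' z) := by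
    unfold PK
    rw [Finset.mul_sum, ← Finset.sum_add_distrib]
    exact Finset.sum_le_sum fun z _ => PN_cap H (hh z) (hh' z) (ha z)
  have k2 : TT c (fun z j => h z j + h' z j) ≤
      TT c h + 3 / 2 * ∑ z, Real.sqrt (a z) * M c (h' z) := by
    unfold TT
    rw [Finset.mul_sum, ← Finset.sum_add_distrib]
    refine Finset.sum_le_sum fun z _ => ?_
    rw [← M_smul (Real.sqrt (a z)), ← M_smul, ← M_add]
    exact M_mono H.c0 fun j => th_add_cap (hh z j) (hh' z j) (ha z j)
  unfold PM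
  linarith

/-- **family with caps at the scale `σ`**: the price of `g` is `98 Σ_z √(σ a_z) M g_z` -/
theorem PMs_cap (H : TC c W) (hσ : 0 < σ) {f g : ζ → J → ℝ} {a : ζ → ℝ} (hf : ∀ z j, 0 ≤ f z j)
    (hg : ∀ z j, 0 ≤ g z j) (a0 : ∀ z, 0 ≤ a z) (ha : ∀ z j, f z j + g z j ≤ a z) :
    PMs σ c W (fun z j => f z j + g z j) ≤
      PMs σ c W f + 98 * ∑ z, Real.sqrt (σ * a z) * M c (g z) := by
  have h := PM_cap H (h := fun z j => f z j / σ) (h' := fun z j => g z j / σ)
    (a := fun z => a z / σ) (fun z j => div_nonneg (hf z j) hσ.le)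
    (fun z j => div_nonneg (hg z j) hσ.le) (fun z => div_nonneg (a0 z) hσ.le)
    fun z j => by rw [← add_div]; exact div_le_div_of_nonneg_right (ha z j) hσ.le
  have h2 := mul_le_mul_of_nonneg_left h (sq_nonneg σ)
  have e : σ ^ 2 * (PM c W (fun z j => f z j / σ) +
      98 * ∑ z, Real.sqrt (a z / σ) * M c (fun j => g z j / σ)) =
      PMs σ c W f + 98 * ∑ z, Real.sqrt (σ * a z) * M c (g z) := by
    rw [mul_add]
    congr 1
    rw [mul_left_comm, Finset.mul_sum]
    congr 1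
    refine Finset.sum_congr rfl fun z _ => ?_
    have e1 : M c (fun j => g z j / σ) = M c (g z) / σ := by
      have := M_smul (c := c) (1 / σ) (g z)
      have e : (fun j => 1 / σ * g z j) = fun j => g z j / σ := funext fun j => by ring
      rw [e] at this
      rw [this]; ring
    have e2 : Real.sqrt (σ * a z) = σ * Real.sqrt (a z / σ) := by
      have : σ * a z = σ ^ 2 * (a z / σ) := by field_simp
      rw [this, Real.sqrt_mul (sq_nonneg σ), Real.sqrt_sq hσ.le]
    rw [e1, e2]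
    field_simp
  have e2 : (fun z j => (f z j + g z j) / σ) = fun z j => f z j / σ + g z j / σ :=
    funext fun z => funext fun j => add_div _ _ _
  rw [e] at h2
  show σ ^ 2 * PM c W (fun z j => (f z j + g z j) / σ) ≤ _
  rw [e2]
  exact h2

/-- **the price of `g` is `14 Σ_z √(σ a_z) M g_z`** if the heights of `z` are at most `a_z` -/
theorem PM7_cap (H : TC c W) (hσ : 0 < σ) {f g : ζ → J → ℝ} {a : ζ → ℝ} (hf : ∀ z j, 0 ≤ f z j)
    (hg : ∀ z j, 0 ≤ g z j) (a0 : ∀ z, 0 ≤ a z) (ha : ∀ z j, f z j + g z j ≤ a z) :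
    PM7 σ c W (fun z j => f z j + g z j) ≤
      PM7 σ c W f + 14 * ∑ z, Real.sqrt (σ * a z) * M c (g z) := by
  have h := PMs_cap H hσ hf hg a0 ha
  unfold PM7
  linarith

/-- min form -/
theorem PM7_cap_join (H : TC c W) (hσ : 0 < σ) {f g : ζ → J → ℝ} {a : ζ → ℝ}
    (hf : ∀ z j, 0 ≤ f z j) (hg : ∀ z j, 0 ≤ g z j) (a0 : ∀ z, 0 ≤ a z)
    (ha : ∀ z j, f z j + g z j ≤ a z) :
    PM7 σ c W (fun z j => f z j + g z j) ≤ PM7 σ c W f + PM7 σ c W g +
      14 * min (∑ z, Real.sqrt (σ * a z) * M c (f z)) (∑ z, Real.sqrt (σ * a z) * M c (g z)) := by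
  have h1 := PM7_cap H hσ hf hg a0 ha
  have h2 := PM7_cap H hσ hg hf a0 fun z j => by rw [add_comm]; exact ha z j
  have e : (fun z j => g z j + f z j) = fun z j => f z j + g z j :=
    funext fun z => funext fun j => add_comm _ _
  rw [e] at h2
  have n1 := PM7_nonneg H hσ hf
  have n2 := PM7_nonneg H hσ hg
  rw [mul_min_of_nonneg _ _ (by norm_num : (0:ℝ) ≤ 14)]
  rcases le_total (14 * ∑ z, Real.sqrt (σ * a z) * M c (f z))
    (14 * ∑ z, Real.sqrt (σ * a z) * M c (g z)) with h | h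
  · rw [min_eq_left h]; linarith
  · rw [min_eq_right h]; linarith

/-- births -/
theorem PM7_born_cap (H : TC c W) (hσ : 0 < σ) {f : ζ → J → ℝ} {a : ζ → ℝ}
    (hf : ∀ z j, 0 ≤ f z j) (a0 : ∀ z, 0 ≤ a z) (ha : ∀ z j, f z j ≤ a z) :
    PM7 σ c W f ≤ 14 * ∑ z, Real.sqrt (σ * a z) * M c (f z) := by
  have h := PM7_cap H hσ (f := fun _ _ => 0) (g := f) (fun _ _ => le_rfl) hf a0 fun z j => by
    rw [zero_add]; exact ha z j
  have e : (fun z j => 0 + f z j) = f := funext fun z => funext fun j => zero_add _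
  rw [e] at h
  have h0 := PM7_born H hσ (f := fun _ _ => 0) (ζ := ζ) (fun _ _ => le_rfl) fun _ _ => hσ.le
  have e0 : SS c (fun (_ : ζ) (_ : J) => (0:ℝ)) = 0 := by
    unfold SS
    refine Finset.sum_eq_zero fun z _ => ?_
    have := M_smul (c := c) 0 fun _ => (0:ℝ)
    simpa using this
  rw [e0, mul_zero, mul_zero] at h0
  linarith

/-- **content `e` moves**: new family `≤ old family + e`, heights `≤ H` where `e` arrives -/
theorem PM7_move (Ht : TC c W) (hσ : 0 < σ) {f g e : ζ → J → ℝ} {H : ℝ} (H0 : 0 ≤ H)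
    (hf : ∀ z j, 0 ≤ f z j) (hg : ∀ z j, 0 ≤ g z j) (he : ∀ z j, 0 ≤ e z j)
    (h1 : ∀ z j, g z j ≤ f z j + e z j) (f1 : ∀ z j, f z j ≤ σ) (g1 : ∀ z j, g z j ≤ σ)
    (hH : ∀ z, (∃ j, e z j ≠ 0) → ∀ j, g z j ≤ H) :
    PM7 σ c W g ≤ PM7 σ c W f + 14 * (Real.sqrt (σ * H) * SS c e) := by
  classical
  -- the part of `g` below `f`, and the rest
  let m : ζ → J → ℝ := fun z j => min (g z j) (f z j)
  let r : ζ → J → ℝ := fun z j => g z j - m z j
  have m0 : ∀ z j, 0 ≤ m z j := fun z j => le_min (hg z j) (hf z j)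
  have r0 : ∀ z j, 0 ≤ r z j := fun z j => sub_nonneg.2 (min_le_left _ _)
  have re : ∀ z j, r z j ≤ e z j := fun z j => by
    show g z j - min (g z j) (f z j) ≤ e z j
    rcases le_total (g z j) (f z j) with h | h
    · rw [min_eq_left h, sub_self]; exact he z j
    · rw [min_eq_right h]; linarith [h1 z j]
  let a : ζ → ℝ := fun z => if ∃ j, e z j ≠ 0 then H else σ
  have a0 : ∀ z, 0 ≤ a z := fun z => by
    show 0 ≤ ite _ _ _
    split_ifs
    · exact H0
    · exact hσ.le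
  have k := PM7_cap Ht hσ (f := m) (g := r) (a := a) m0 r0 a0 fun z j => by
    have e2 : m z j + r z j = g z j := by show m z j + (g z j - m z j) = _; ring
    rw [e2]
    show g z j ≤ ite _ _ _
    split_ifs with h
    · exact hH z h j
    · exact g1 z j
  have e1 : (fun z j => m z j + r z j) = g := funext fun z => funext fun j => by
    show m z j + (g z j - m z j) = _; ring
  rw [e1] at k
  have k2 : PM7 σ c W m ≤ PM7 σ c W f :=
    PM7_mono Ht hσ m0 (fun z j => min_le_right _ _) f1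
  have k3 : ∑ z, Real.sqrt (σ * a z) * M c (r z) ≤ Real.sqrt (σ * H) * SS c e := by
    unfold SS
    rw [Finset.mul_sum]
    refine Finset.sum_le_sum fun z _ => ?_
    by_cases h : ∃ j, e z j ≠ 0
    · have ea : a z = H := if_pos h
      rw [ea]
      exact mul_le_mul_of_nonneg_left (M_mono Ht.c0 (re z)) (Real.sqrt_nonneg _)
    · have hz : ∀ j, r z j = 0 := fun j => by
        have h2 : e z j = 0 := by
          by_contra h3
          exact h ⟨j, h3⟩
        exact le_antisymm ((re z j).trans h2.le) (r0 z j)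
      have e3 : M c (r z) = 0 := by
        have e4 : r z = fun j => 0 * (0:ℝ) := funext fun j => by rw [hz j, mul_zero]
        rw [e4, M_smul, zero_mul]
      rw [e3, mul_zero]
      exact mul_nonneg (Real.sqrt_nonneg _) (M_nonneg Ht.c0 (he z))
  linarith

/-- `√(σ H) ≤ ε σ + H / (4 ε)` -/
lemma sqrt_price {σ H ε : ℝ} (hσ : 0 ≤ σ) (hH : 0 ≤ H) (hε : 0 < ε) :
    Real.sqrt (σ * H) ≤ ε * σ + H / (4 * ε) := by
  apply Real.sqrt_le_iff.2
  have h1 : 0 ≤ H / (4 * ε) := by positivity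
  refine ⟨by positivity, ?_⟩
  have h2 : (ε * σ + H / (4 * ε)) ^ 2 - σ * H = (ε * σ - H / (4 * ε)) ^ 2 := by
    field_simp
    ring
  nlinarith [sq_nonneg (ε * σ - H / (4 * ε))]

end Crest.Agent.R4P.PMc49
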