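import Crest.Agent.R4P.RXs_343
import Crest.Agent.R4P.Mism_16

/-!
R4 (S0004) with powers, helper49: **the potential with energy at the scale `σ`** (T3 level of `Mism_16`).

`PMs σ c W f = σ² PM c W (f / σ)`, `PM = PP + 56 TT`, for contents `0 ≤ f ≤ σ` (truncated contents).
* `PMs_nonneg`, `PMs_born` (`≤ 70 σ SS f`), `PMs_drop`, `PMs_join` (constants `98`), `PMs_mono`,
  `PMs_congr`, `PMs_split` (a finer family of truncated contents), all in the shape of `RXs_343`.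
* `PMs_col` : **the column with separated content at the scale `σ`** (`Mism16.PM_col` scaled).
* `PM7 = PMs / 7` : the same facts with the constant `14` of `ModeS16.MS`.
-/

set_option autoImplicit false
set_option linter.unusedVariables false
set_option linter.unusedSectionVars false

namespace Crest.Agent.R4P.PMs49

open Finset Crest.Agent.R4P.GMer27 Crest.Agent.R4P.ModeP940 Crest.Agent.R4P.MisR16
open Crest.Agent.R4P.Mism16 Crest.Agent.R4P.RXs343

variable {J ζ : Type*} [Fintype J] [Fintype ζ] {c : J → ℝ} {W : Set (J → ℝ)} {σ : ℝ}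

/-- potential with energy at the scale `σ` -/
noncomputable def PMs (σ : ℝ) (c : J → ℝ) (W : Set (J → ℝ)) (f : ζ → J → ℝ) : ℝ :=
  σ ^ 2 * PM c W fun z j => f z j / σ

lemma PMs_congr {f g : ζ → J → ℝ} (h : ∀ z j, f z j = g z j) : PMs σ c W f = PMs σ c W g := by
  have : f = g := funext fun z => funext fun j => h z j
  rw [this]

lemma PMs_nonneg (H : TC c W) (hσ : 0 < σ) {f : ζ → J → ℝ} (hf : ∀ z j, 0 ≤ f z j) :
    0 ≤ PMs σ c W f :=
  mul_nonneg (sq_nonneg _) (PM_nonneg H fun z j => div_nonneg (hf z j) hσ.le)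

lemma PMs_born (H : TC c W) (hσ : 0 < σ) {f : ζ → J → ℝ} (hf : ∀ z j, 0 ≤ f z j)
    (h1 : ∀ z j, f z j ≤ σ) : PMs σ c W f ≤ 70 * (σ * SS c f) := by
  have h := PM_born H (h := fun z j => f z j / σ) (fun z j => div_nonneg (hf z j) hσ.le)
    fun z j => (div_le_one hσ).2 (h1 z j)
  rw [SS_div] at h
  unfold PMs
  have h2 := mul_le_mul_of_nonneg_left h (sq_nonneg σ)
  have e : σ ^ 2 * (70 * (SS c f / σ)) = 70 * (σ * SS c f) := by field_simp
  linarith

lemma PMs_drop (H : TC c W) (hσ : 0 < σ) {f g : ζ → J → ℝ} (hf : ∀ z j, 0 ≤ f z j)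
    (hg : ∀ z j, 0 ≤ g z j) (h1 : ∀ z j, f z j + g z j ≤ σ) :
    PMs σ c W (fun z j => f z j + g z j) ≤ PMs σ c W f + 98 * (σ * SS c g) := by
  have h := PM_drop H (h := fun z j => f z j / σ) (h' := fun z j => g z j / σ)
    (fun z j => div_nonneg (hf z j) hσ.le) (fun z j => div_nonneg (hg z j) hσ.le)
    fun z j => by rw [← add_div]; exact (div_le_one hσ).2 (h1 z j)
  rw [SS_div] at h
  unfold PMs
  have h2 := mul_le_mul_of_nonneg_left h (sq_nonneg σ)
  have e : σ ^ 2 * (PM c W (fun z j => f z j / σ) + 98 * (SS c g / σ)) =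
      σ ^ 2 * PM c W (fun z j => f z j / σ) + 98 * (σ * SS c g) := by field_simp
  have e2 : (fun z j => (f z j + g z j) / σ) = fun z j => f z j / σ + g z j / σ :=
    funext fun z => funext fun j => add_div _ _ _
  rw [e2]
  linarith

lemma PMs_join (H : TC c W) (hσ : 0 < σ) {f g : ζ → J → ℝ} (hf : ∀ z j, 0 ≤ f z j)
    (hg : ∀ z j, 0 ≤ g z j) (h1 : ∀ z j, f z j + g z j ≤ σ) :
    PMs σ c W (fun z j => f z j + g z j) ≤
      PMs σ c W f + PMs σ c W g + 98 * (σ * min (SS c f) (SS c g)) := by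
  have h := PM_join H (h := fun z j => f z j / σ) (h' := fun z j => g z j / σ)
    (fun z j => div_nonneg (hf z j) hσ.le) (fun z j => div_nonneg (hg z j) hσ.le)
    fun z j => by rw [← add_div]; exact (div_le_one hσ).2 (h1 z j)
  rw [SS_div, SS_div, min_div_div_right hσ.le] at h
  unfold PMs
  have h2 := mul_le_mul_of_nonneg_left h (sq_nonneg σ)
  have e : σ ^ 2 * (PM c W (fun z j => f z j / σ) + PM c W (fun z j => g z j / σ) +
      98 * (min (SS c f) (SS c g) / σ)) = σ ^ 2 * PM c W (fun z j => f z j / σ) +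
      σ ^ 2 * PM c W (fun z j => g z j / σ) + 98 * (σ * min (SS c f) (SS c g)) := by field_simp
  have e2 : (fun z j => (f z j + g z j) / σ) = fun z j => f z j / σ + g z j / σ :=
    funext fun z => funext fun j => add_div _ _ _
  rw [e2]
  linarith

/-- **own-height price** at the scale `σ` -/
lemma PMs_own (H : TC c W) (hσ : 0 < σ) {f g : ζ → J → ℝ} (hf : ∀ z j, 0 ≤ f z j)
    (hg : ∀ z j, 0 ≤ g z j) :
    PMs σ c W (fun z j => f z j + g z j) ≤ PMs σ c W f +
      116 * (Real.sqrt σ * SS c (fun z j => g z j * Real.sqrt (f z j + g z j))) := by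
  have h := PM_own H (h := fun z j => f z j / σ) (h' := fun z j => g z j / σ)
    (fun z j => div_nonneg (hf z j) hσ.le) (fun z j => div_nonneg (hg z j) hσ.le)
  have e0 : (fun z j => g z j / σ * Real.sqrt (f z j / σ + g z j / σ)) =
      fun z j => (1 / (σ * Real.sqrt σ)) * (g z j * Real.sqrt (f z j + g z j)) := by
    funext z j
    rw [← add_div, Real.sqrt_div (add_nonneg (hf z j) (hg z j))]
    have hs : 0 < Real.sqrt σ := Real.sqrt_pos.2 hσ
    field_simp
  have e1 : SS c (fun z j => (1 / (σ * Real.sqrt σ)) * (g z j * Real.sqrt (f z j + g z j))) =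
      (1 / (σ * Real.sqrt σ)) * SS c (fun z j => g z j * Real.sqrt (f z j + g z j)) := by
    unfold SS
    rw [Finset.mul_sum]
    exact Finset.sum_congr rfl fun z _ => M_smul _ _
  rw [e0, e1] at h
  have h2 := mul_le_mul_of_nonneg_left h (sq_nonneg σ)
  have e2 : (fun z j => (f z j + g z j) / σ) = fun z j => f z j / σ + g z j / σ :=
    funext fun z => funext fun j => add_div _ _ _
  have e3 : σ ^ 2 * (116 * (1 / (σ * Real.sqrt σ) *
      SS c (fun z j => g z j * Real.sqrt (f z j + g z j)))) =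
      116 * (Real.sqrt σ * SS c (fun z j => g z j * Real.sqrt (f z j + g z j))) := by
    have hs : 0 < Real.sqrt σ := Real.sqrt_pos.2 hσ
    have e4 : σ = Real.sqrt σ * Real.sqrt σ := (Real.mul_self_sqrt hσ.le).symm
    have e5 : σ ^ 2 * (1 / (σ * Real.sqrt σ)) = Real.sqrt σ := by
      field_simp
      nlinarith [e4]
    calc σ ^ 2 * (116 * (1 / (σ * Real.sqrt σ) *
      SS c (fun z j => g z j * Real.sqrt (f z j + g z j)))) =
      116 * ((σ ^ 2 * (1 / (σ * Real.sqrt σ))) *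
        SS c (fun z j => g z j * Real.sqrt (f z j + g z j))) := by ring
      _ = _ := by rw [e5]
  unfold PMs
  rw [e2]
  linarith

lemma PMs_mono (H : TC c W) (hσ : 0 < σ) {f g : ζ → J → ℝ} (hf : ∀ z j, 0 ≤ f z j)
    (hg : ∀ z j, f z j ≤ g z j) (h1 : ∀ z j, g z j ≤ σ) : PMs σ c W f ≤ PMs σ c W g :=
  mul_le_mul_of_nonneg_left (PM_mono H (fun z j => div_nonneg (hf z j) hσ.le)
    (fun z j => div_le_div_of_nonneg_right (hg z j) hσ.le)
    fun z j => (div_le_one hσ).2 (h1 z j)) (sq_nonneg _)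

/-! ### the column -/

/-- **the column with separated content at the scale `σ`** -/
theorem PMs_col {ι : Type*} [Fintype ι] {q : ℝ} {u : ι → ℝ} (H : TC c W) (hq : 0 < q ∧ q < 1)
    (hσ : 0 < σ) {h : ζ → J × Bool → ℝ} {X mn sp e Y : ι → ζ → J → ℝ}
    (h0 : ∀ z x, 0 ≤ h z x) (h1 : ∀ z x, h z x ≤ σ)
    (u0 : ∀ i, 0 ≤ u i) (u1 : ∑ i, u i = 1) (C : ∀ z, Col q (h z) u (fun i => X i z))
    {g : ι → ζ → ℝ} {β : ζ → ℝ} (hg : ∀ i z, M c (X i z) = β z + g i z)
    (hY : ∀ i z j, Y i z j = mn i z j + sp i z j + e i z j)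
    (mn0 : ∀ i z j, 0 ≤ mn i z j) (sp0 : ∀ i z j, 0 ≤ sp i z j) (e0 : ∀ i z j, 0 ≤ e i z j)
    (mnX : ∀ i z j, mn i z j ≤ X i z j)
    (fr : ∀ i z, (∀ j, mn i z j = 0) ∨ ∀ j, sp i z j = 0)
    (Y1 : ∀ i z j, Y i z j ≤ σ) {gE : ι → ζ → J → ℝ} (gE0 : ∀ i z j, 0 ≤ gE i z j)
    (gE1 : ∀ i z j, gE i z j ≤ σ)
    (en : ∀ j, ∑ i, u i * ∑ z, (th (mn i z j) + 5 / 4 * th (sp i z j) + 1 / 48 * th (gE i z j)) ≤
      ∑ z, av q (fun x => th (h z x)) j) :
    ∑ i, u i * (7 / 8 * ∑ z, g i z ^ 2 + 7 / 6 * ∑ z, M c (gE i z) ^ 2 + PMs σ c W (Y i)) ≤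
      PMs σ (cT q c) (WT q W) h + 7 / 8 * ∑ z, (∑ i, u i * g i z) ^ 2 +
        98 * (σ * ∑ i, u i * SS c (e i)) := by
  have hσ' : σ ≠ 0 := hσ.ne'
  have s0 : 0 ≤ th (1 / σ) := th_nonneg (by positivity)
  have thd : ∀ x : ℝ, 0 ≤ x → th (x / σ) = th (1 / σ) * th x := fun x hx => by
    rw [← th_mul (by positivity : (0:ℝ) ≤ 1 / σ)]
    congr 1
    ring
  have Msm : ∀ f : J → ℝ, M c (fun j => f j / σ) = M c f / σ := fun f => by
    have := M_smul (c := c) (1 / σ) f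
    have e : (fun j => 1 / σ * f j) = fun j => f j / σ := funext fun j => by ring
    rw [e] at this
    rw [this]; ring
  have key := PM_col H hq (h := fun z x => h z x / σ) (X := fun i z j => X i z j / σ)
    (mn := fun i z j => mn i z j / σ) (sp := fun i z j => sp i z j / σ)
    (e := fun i z j => e i z j / σ) (Y := fun i z j => Y i z j / σ)
    (fun z x => div_nonneg (h0 z x) hσ.le) (fun z x => (div_le_one hσ).2 (h1 z x)) u0 u1
    (fun z => Col_div hσ (C z)) (g := fun i z => g i z / σ) (β := fun z => β z / σ)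
    (fun i z => by rw [Msm, hg i z]; ring)
    (fun i z j => by rw [hY]; ring)
    (fun i z j => div_nonneg (mn0 i z j) hσ.le) (fun i z j => div_nonneg (sp0 i z j) hσ.le)
    (fun i z j => div_nonneg (e0 i z j) hσ.le)
    (fun i z j => div_le_div_of_nonneg_right (mnX i z j) hσ.le)
    (fun i z => by
      rcases fr i z with h | h
      · left; intro j; rw [h j, zero_div]
      · right; intro j; rw [h j, zero_div])
    (fun i z j => (div_le_one hσ).2 (Y1 i z j)) (gE := fun i z j => gE i z j / σ)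
    (fun i z j => div_nonneg (gE0 i z j) hσ.le) (fun i z j => (div_le_one hσ).2 (gE1 i z j))
    (fun j => by
      have h2 := mul_le_mul_of_nonneg_left (en j) s0
      have e1 : ∑ i, u i * ∑ z, (th (mn i z j / σ) + 5 / 4 * th (sp i z j / σ) +
          1 / 48 * th (gE i z j / σ)) = th (1 / σ) * ∑ i, u i * ∑ z, (th (mn i z j) +
          5 / 4 * th (sp i z j) + 1 / 48 * th (gE i z j)) := by
        rw [Finset.mul_sum]
        refine Finset.sum_congr rfl fun i _ => ?_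
        have e3 : ∑ z, (th (mn i z j / σ) + 5 / 4 * th (sp i z j / σ) +
            1 / 48 * th (gE i z j / σ)) = th (1 / σ) * ∑ z, (th (mn i z j) +
            5 / 4 * th (sp i z j) + 1 / 48 * th (gE i z j)) := by
          rw [Finset.mul_sum]
          refine Finset.sum_congr rfl fun z _ => ?_
          rw [thd _ (mn0 i z j), thd _ (sp0 i z j), thd _ (gE0 i z j)]
          ring
        rw [e3]
        ring
      have e2 : ∑ z, av q (fun x => th (h z x / σ)) j =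
          th (1 / σ) * ∑ z, av q (fun x => th (h z x)) j := by
        rw [Finset.mul_sum]
        refine Finset.sum_congr rfl fun z _ => ?_
        show (1 - q) * th (h z (j, false) / σ) + q * th (h z (j, true) / σ) =
          th (1 / σ) * ((1 - q) * th (h z (j, false)) + q * th (h z (j, true)))
        rw [thd _ (h0 z _), thd _ (h0 z _)]
        ring
      rw [e1, e2]
      exact h2)
  have k2 := mul_le_mul_of_nonneg_left key (sq_nonneg σ)
  have e1 : σ ^ 2 * ∑ i, u i * (7 / 8 * ∑ z, (g i z / σ) ^ 2 +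
      7 / 6 * ∑ z, M c (fun j => gE i z j / σ) ^ 2 + PM c W fun z j => Y i z j / σ) =
      ∑ i, u i * (7 / 8 * ∑ z, g i z ^ 2 + 7 / 6 * ∑ z, M c (gE i z) ^ 2 + PMs σ c W (Y i)) := by
    rw [Finset.mul_sum]
    refine Finset.sum_congr rfl fun i _ => ?_
    have e2 : ∑ z, g i z ^ 2 = σ ^ 2 * ∑ z, (g i z / σ) ^ 2 := by
      rw [Finset.mul_sum]
      exact Finset.sum_congr rfl fun z _ => by field_simp
    have e3 : ∑ z, M c (gE i z) ^ 2 = σ ^ 2 * ∑ z, M c (fun j => gE i z j / σ) ^ 2 := by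
      rw [Finset.mul_sum]
      refine Finset.sum_congr rfl fun z _ => ?_
      rw [Msm]
      field_simp
    rw [e2, e3]
    unfold PMs
    ring
  have e3 : σ ^ 2 * (PM (cT q c) (WT q W) (fun z x => h z x / σ) +
      7 / 8 * ∑ z, (∑ i, u i * (g i z / σ)) ^ 2 +
        98 * ∑ i, u i * SS c (fun z j => e i z j / σ)) =
      PMs σ (cT q c) (WT q W) h + 7 / 8 * ∑ z, (∑ i, u i * g i z) ^ 2 +
        98 * (σ * ∑ i, u i * SS c (e i)) := by
    rw [mul_add, mul_add, mul_left_comm (σ ^ 2) (7 / 8 : ℝ), Finset.mul_sum]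
    have e5 : ∑ z, σ ^ 2 * (∑ i, u i * (g i z / σ)) ^ 2 = ∑ z, (∑ i, u i * g i z) ^ 2 := by
      refine Finset.sum_congr rfl fun z _ => ?_
      have e4 : ∑ i, u i * (g i z / σ) = (∑ i, u i * g i z) / σ := by
        rw [Finset.sum_div]
        exact Finset.sum_congr rfl fun i _ => by ring
      rw [e4]
      field_simp
    have e6 : σ ^ 2 * (98 * ∑ i, u i * SS c (fun z j => e i z j / σ)) =
        98 * (σ * ∑ i, u i * SS c (e i)) := by
      have e7 : ∑ i, u i * SS c (fun z j => e i z j / σ) = (∑ i, u i * SS c (e i)) / σ := by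
        rw [Finset.sum_div]
        refine Finset.sum_congr rfl fun i _ => ?_
        rw [SS_div]
        ring
      rw [e7]
      field_simp
    rw [e5, e6]
    rfl
  rw [e1, e3] at k2
  exact k2

/-! ### the constant `14` -/

/-- the potential of the scaled mode game -/
noncomputable def PM7 (σ : ℝ) (c : J → ℝ) (W : Set (J → ℝ)) (f : ζ → J → ℝ) : ℝ :=
  PMs σ c W f / 7

lemma PM7_congr {f g : ζ → J → ℝ} (h : ∀ z j, f z j = g z j) : PM7 σ c W f = PM7 σ c W g := by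
  have : f = g := funext fun z => funext fun j => h z j
  rw [this]

lemma PM7_nonneg (H : TC c W) (hσ : 0 < σ) {f : ζ → J → ℝ} (hf : ∀ z j, 0 ≤ f z j) :
    0 ≤ PM7 σ c W f := div_nonneg (PMs_nonneg H hσ hf) (by norm_num)

lemma PM7_born (H : TC c W) (hσ : 0 < σ) {f : ζ → J → ℝ} (hf : ∀ z j, 0 ≤ f z j)
    (h1 : ∀ z j, f z j ≤ σ) : PM7 σ c W f ≤ 14 * (σ * SS c f) := by
  have h := PMs_born H hσ hf h1
  have h2 : 0 ≤ σ * SS c f := mul_nonneg hσ.le (SS_nonneg H.c0 hf)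
  unfold PM7
  linarith

lemma PM7_drop (H : TC c W) (hσ : 0 < σ) {f g : ζ → J → ℝ} (hf : ∀ z j, 0 ≤ f z j)
    (hg : ∀ z j, 0 ≤ g z j) (h1 : ∀ z j, f z j + g z j ≤ σ) :
    PM7 σ c W (fun z j => f z j + g z j) ≤ PM7 σ c W f + 14 * (σ * SS c g) := by
  have h := PMs_drop H hσ hf hg h1
  unfold PM7
  linarith

/-- **own-height price** at the scale `σ`: only the heights in the own member count -/
lemma PM7_own (H : TC c W) (hσ : 0 < σ) {f g : ζ → J → ℝ} (hf : ∀ z j, 0 ≤ f z j)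
    (hg : ∀ z j, 0 ≤ g z j) :
    PM7 σ c W (fun z j => f z j + g z j) ≤ PM7 σ c W f +
      17 * (Real.sqrt σ * SS c (fun z j => g z j * Real.sqrt (f z j + g z j))) := by
  have h := PMs_own H hσ hf hg
  have h2 : 0 ≤ Real.sqrt σ * SS c (fun z j => g z j * Real.sqrt (f z j + g z j)) :=
    mul_nonneg (Real.sqrt_nonneg _)
      (SS_nonneg H.c0 fun z j => mul_nonneg (hg z j) (Real.sqrt_nonneg _))
  unfold PM7
  linarith

lemma PM7_join (H : TC c W) (hσ : 0 < σ) {f g : ζ → J → ℝ} (hf : ∀ z j, 0 ≤ f z j)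
    (hg : ∀ z j, 0 ≤ g z j) (h1 : ∀ z j, f z j + g z j ≤ σ) :
    PM7 σ c W (fun z j => f z j + g z j) ≤
      PM7 σ c W f + PM7 σ c W g + 14 * (σ * min (SS c f) (SS c g)) := by
  have h := PMs_join H hσ hf hg h1
  unfold PM7
  linarith

lemma PM7_mono (H : TC c W) (hσ : 0 < σ) {f g : ζ → J → ℝ} (hf : ∀ z j, 0 ≤ f z j)
    (hg : ∀ z j, f z j ≤ g z j) (h1 : ∀ z j, g z j ≤ σ) : PM7 σ c W f ≤ PM7 σ c W g :=
  div_le_div_of_nonneg_right (PMs_mono H hσ hf hg h1) (by norm_num)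

/-- **the column**, constants of `ModeS16.MS`: the costs are divided by `8` (rows), `6` (extra lifts) -/
theorem PM7_col {ι : Type*} [Fintype ι] {q : ℝ} {u : ι → ℝ} (H : TC c W) (hq : 0 < q ∧ q < 1)
    (hσ : 0 < σ) {h : ζ → J × Bool → ℝ} {X mn sp e Y : ι → ζ → J → ℝ}
    (h0 : ∀ z x, 0 ≤ h z x) (h1 : ∀ z x, h z x ≤ σ)
    (u0 : ∀ i, 0 ≤ u i) (u1 : ∑ i, u i = 1) (C : ∀ z, Col q (h z) u (fun i => X i z))
    {g : ι → ζ → ℝ} {β : ζ → ℝ} (hg : ∀ i z, M c (X i z) = β z + g i z)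
    (hY : ∀ i z j, Y i z j = mn i z j + sp i z j + e i z j)
    (mn0 : ∀ i z j, 0 ≤ mn i z j) (sp0 : ∀ i z j, 0 ≤ sp i z j) (e0 : ∀ i z j, 0 ≤ e i z j)
    (mnX : ∀ i z j, mn i z j ≤ X i z j)
    (fr : ∀ i z, (∀ j, mn i z j = 0) ∨ ∀ j, sp i z j = 0)
    (Y1 : ∀ i z j, Y i z j ≤ σ) {gE : ι → ζ → J → ℝ} (gE0 : ∀ i z j, 0 ≤ gE i z j)
    (gE1 : ∀ i z j, gE i z j ≤ σ)
    (en : ∀ j, ∑ i, u i * ∑ z, (th (mn i z j) + 5 / 4 * th (sp i z j) + 1 / 48 * th (gE i z j)) ≤
      ∑ z, av q (fun x => th (h z x)) j) :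
    ∑ i, u i * ((∑ z, g i z ^ 2) / 8 + (∑ z, M c (gE i z) ^ 2) / 6 + PM7 σ c W (Y i)) ≤
      PM7 σ (cT q c) (WT q W) h + (∑ z, (∑ i, u i * g i z) ^ 2) / 8 +
        14 * (σ * ∑ i, u i * SS c (e i)) := by
  have key := PMs_col H hq hσ h0 h1 u0 u1 C hg hY mn0 sp0 e0 mnX fr Y1 gE0 gE1 en
  have e1 : ∑ i, u i * ((∑ z, g i z ^ 2) / 8 + (∑ z, M c (gE i z) ^ 2) / 6 +
      PM7 σ c W (Y i)) = (∑ i, u i * (7 / 8 * ∑ z, g i z ^ 2 + 7 / 6 * ∑ z, M c (gE i z) ^ 2 +
      PMs σ c W (Y i))) / 7 := by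
    rw [Finset.sum_div]
    refine Finset.sum_congr rfl fun i _ => ?_
    unfold PM7
    ring
  rw [e1]
  unfold PM7
  linarith

end Crest.Agent.R4P.PMs49
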