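import Crest.Agent.R4P.PayR_45
import Crest.Agent.R4P.DTp_26
import Crest.Agent.R4P.MSd_343

/-!
R4 (S0004) with powers, T3, helper45: **the contents of the items in the bundles of decorated trees as an
instance of `PayR45.PV`**.

* `DI Inv` : closed invariant of bundles (columns, means of the items); `DI.of_BI`.
* `bm Inv : BM (List (DT Λ κ))`.
* `act p L` : members with top column `≥ p`.
* `DI.pv : PV (bm Inv) Λ` : `v = jv L`, `vB = jv (bB p L)`, `vT` = content in the true ties,
  `u = jv (act p L)`, `Lv = 1` : every item meets at most ONE true tie at each column.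
* **`rates_pay`** : `Σ_q (r q j + e q j) ≤ J` for every item `j` gives
  `WS ≤ J (I T + 4 δ I T²)`.
-/

set_option autoImplicit false
set_option linter.unusedSectionVars false
set_option linter.unusedVariables false
open MeasureTheory Filter Set

namespace Crest.Agent.R4P.PVd45

open Crest.Agent.R4.Tour104 Crest.Agent.R4.Tour758 Crest.Agent.R4.Avg758 Crest.Agent.R4.Clos758
open Crest.Agent.R4.ClosL758 Crest.Agent.R4.ClosG758 Crest.Agent.R4.ClosR758
open Crest.Agent.R4P.ClosR442 Crest.Agent.R4P.Grp36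
open Crest.Agent.R4P.Xfer36 Crest.Agent.R4P.TopC36 Crest.Agent.R4P.PN36
open Crest.Agent.R4P.GMer27 Crest.Agent.R4P.GCol27 Crest.Agent.R4P.GWa343 Crest.Agent.R4P.GWb343
open Crest.Agent.R4P.GWc343 Crest.Agent.R4P.GWd343 Crest.Agent.R4P.GWe343 Crest.Agent.R4P.GWf343
open Crest.Agent.R4P.RSys343 Crest.Agent.R4P.TrR343 Crest.Agent.R4P.MSd343
open Crest.Agent.R4P.ModeS16 (MS)
open Crest.Agent.R4P.MSi343 (su)
open Crest.Agent.R4P.DTp26 (jv jv_nil jv_cons jv_append PB_jv sum_jv)
open Crest.Agent.R4P.Pay45 Crest.Agent.R4P.PayR45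
open Crest.Agent.R4P.Walk560 (DT)

variable {Λ κ : Type} [Fintype Λ] [DecidableEq Λ] [Fintype κ] [DecidableEq κ]

/-- **closed invariant of bundles** -/
structure DI (Inv : ℕ → List (DT Λ κ) → Prop) : Prop where
  pb : ∀ {p L}, Inv p L → PBA L
  im : ∀ {p L}, Inv p L → ∀ t ∈ L, t.All IMean
  col : ∀ {p L}, Inv p L → ∀ t ∈ L, t.Col (p + 1)
  wok : ∀ {p L}, Inv p L → p ≠ 0 → ∀ t ∈ bB p L, WOk p t
  toP : ∀ {p L}, Inv p L → p ≠ 0 → Inv p ((bB p L).map chP)
  toN : ∀ {p L}, Inv p L → p ≠ 0 → Inv p ((bB p L).map chN)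
  toR : ∀ {p L}, Inv p L → p ≠ 0 → Inv (p - 1) (bN p L)
  no1 : ∀ {L}, Inv 1 L → bB 1 L = []

/-- bundles of the real trees -/
lemma DI.of_BI {F : DT Λ κ → Prop} {Inv : ℕ → List (DT Λ κ) → Prop}
    (h1 : ∀ t, F t → NOk t) (h2 : ∀ t, F t → IMean t) (hB : ∀ {p L}, Inv p L → BI F p L)
    (toP : ∀ {p L}, Inv p L → p ≠ 0 → Inv p ((bB p L).map chP))
    (toN : ∀ {p L}, Inv p L → p ≠ 0 → Inv p ((bB p L).map chN))
    (toR : ∀ {p L}, Inv p L → p ≠ 0 → Inv (p - 1) (bN p L)) : DI Inv where
  pb := fun h t ht => ((hB h).all t ht).mono fun s hs j => (h1 s hs).2.pb j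
  im := fun h t ht => ((hB h).all t ht).mono h2
  col := fun h => (hB h).col
  wok := fun h _ t ht => wok_of_NOk (h1 _ ((hB h).bB.all t ht).self) (isB_of_bB ht)
  toP := toP
  toN := toN
  toR := toR
  no1 := fun h => (hB h).no1

/-- the bundle maps of the trees -/
noncomputable def bm (Inv : ℕ → List (DT Λ κ) → Prop) : BM (List (DT Λ κ)) where
  cP := fun p L => (bB p L).map chP
  cN := fun p L => (bB p L).map chN
  rN := fun p L => bN p L
  ok := Inv

/-- the members with top column at least `p` -/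
def act (p : ℕ) (L : List (DT Λ κ)) : List (DT Λ κ) := L.filter fun t => decide (p ≤ t.top)

/-- the true ties -/
noncomputable def tru (K : List (DT Λ κ)) : List (DT Λ κ) := K.filter fun t => decide (wT t ≠ 0)

lemma PBL.filter {L : List (DT Λ κ)} (h : PBL L) (f : DT Λ κ → Bool) : PBL (L.filter f) :=
  fun t ht => h t (List.mem_filter.1 ht).1

/-! ### the contents of the items -/

lemma jv_filter (L : List (DT Λ κ)) (f : DT Λ κ → Bool) (j : Λ) (x : ℝ) :
    jv L j x = jv (L.filter f) j x + jv (L.filter fun t => !f t) j x := by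
  induction L with
  | nil => simp
  | cons t L ih =>
    by_cases h : f t = true
    · rw [List.filter_cons_of_pos h, List.filter_cons_of_neg (by simp [h]), jv_cons, jv_cons, ih]
      ring
    · rw [List.filter_cons_of_neg h, List.filter_cons_of_pos (by simpa using h), jv_cons, jv_cons,
        ih]
      ring

lemma jv_nonneg {L : List (DT Λ κ)} (h : PBL L) (j : Λ) (x : ℝ) : 0 ≤ jv L j x :=
  (PB_jv h j).nonneg x

lemma jv_filter_le {L : List (DT Λ κ)} (h : PBL L) (f : DT Λ κ → Bool) (j : Λ) (x : ℝ) :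
    jv (L.filter f) j x ≤ jv L j x := by
  rw [jv_filter L f j x]
  have := jv_nonneg (PBL.filter h fun t => !f t) j x
  linarith

/-- the resolution does not change the contents of the items -/
lemma jv_rs (p : ℕ) (t : DT Λ κ) (j : Λ) (x : ℝ) : jv (rs p t) j x = t.g.val j x := by
  induction t with
  | leaf r f => simp [rs, jv]
  | br q w r t₁ t₀ v B G => simp [rs, jv]
  | add q r t₁ t₀ ih₁ ih₀ =>
    unfold rs
    split_ifs with h
    · rw [jv_append, ih₁, ih₀]
      rfl
    · simp [jv]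
  | up q Sp t ih =>
    unfold rs
    split_ifs with h
    · exact ih
    · simp [jv]

lemma jv_flat (p : ℕ) (L : List (DT Λ κ)) (j : Λ) (x : ℝ) :
    jv (L.flatMap (rs p)) j x = jv L j x := by
  induction L with
  | nil => rfl
  | cons t L ih => rw [List.flatMap_cons, jv_append, ih, jv_cons, jv_rs]

lemma jv_split3 (p : ℕ) (L : List (DT Λ κ)) (j : Λ) (x : ℝ) :
    jv L j x = jv (bL p L) j x + jv (bB p L) j x + jv (bN p L) j x := by
  rw [← jv_flat p L j x, jv_filter _ (fun t => isB p t)]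
  show jv (bB p L) j x + jv (bR p L) j x = _
  rw [jv_filter (bR p L) (fun t => LogL51.isLf t)]
  show jv (bB p L) j x + (jv (bL p L) j x + jv (bN p L) j x) = _
  ring

/-- no ties in the resolution of a member with a lower top column -/
lemma rs_low {p : ℕ} {t : DT Λ κ} (h : t.top < p) : (rs p t).filter (fun t => isB p t) = [] := by
  cases t with
  | leaf r f => simp [rs, isB]
  | br q w r t₁ t₀ v B G =>
    have h1 : q < p := h
    have h2 : q ≠ p := h1.ne
    simp [rs, isB, h2]
  | add q r t₁ t₀ =>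
    have h1 : q < p := h
    simp [rs, isB, h1.ne]
  | up q Sp t =>
    have h1 : q < p := h
    simp [rs, isB, h1.ne]

lemma PBL_rs {p : ℕ} {t : DT Λ κ} (h : t.All fun t => ∀ j, PB (t.g.val j)) : PBL (rs p t) :=
  fun s hs => (rs_all p h s hs).self

/-- the ties and pulls come from the members with top column `≥ p` -/
lemma jv_bB_act {p : ℕ} {L : List (DT Λ κ)} (h : PBA L) (j : Λ) (x : ℝ) :
    jv (bB p L) j x ≤ jv (act p L) j x := by
  induction L with
  | nil => exact le_rfl
  | cons t L ih =>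
    have h1 : PBA L := fun s hs => h s (List.mem_cons_of_mem _ hs)
    have e1 : bB p (t :: L) = (rs p t).filter (fun t => isB p t) ++ bB p L := by
      unfold bB
      rw [List.flatMap_cons, List.filter_append]
    rw [e1, jv_append]
    by_cases hp : p ≤ t.top
    · have e2 : act p (t :: L) = t :: act p L := List.filter_cons_of_pos (by simpa using hp)
      rw [e2, jv_cons]
      refine add_le_add ?_ (ih h1)
      rw [← jv_rs p t j x]
      exact jv_filter_le (PBL_rs (h t (by simp))) _ j x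
    · have e2 : act p (t :: L) = act p L := List.filter_cons_of_neg (by simpa using hp)
      rw [e2, rs_low (by omega), jv_nil, zero_add]
      exact ih h1

lemma Ep_jv_nil (p : ℕ) (j : Λ) (y : ℝ) : Ep p (jv ([] : List (DT Λ κ)) j) y = 0 := by
  unfold Ep
  simp

lemma Ep_jv_cons (p : ℕ) (t : DT Λ κ) (K : List (DT Λ κ)) (j : Λ) (y : ℝ) :
    Ep p (jv (t :: K) j) y = Ep p (t.g.val j) y + Ep p (jv K j) y := by
  have e : jv (t :: K) j = fun x => t.g.val j x + jv K j x := funext fun x => jv_cons t K j x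
  rw [e]
  unfold Ep
  rw [Finset.sum_add_distrib, add_div]

/-- **mean of an item in the ties and pulls** -/
lemma jv_mean {p : ℕ} {K : List (DT Λ κ)} (hi : ∀ t ∈ K, IMean t ∧ isB p t = true ∧ WOk p t)
    (j : Λ) (y : ℝ) : (1 - 1 / (p : ℝ)) * jv (K.map chP) j y + 1 / (p : ℝ) * jv (K.map chN) j y =
      Ep p (jv K j) y := by
  induction K with
  | nil => rw [Ep_jv_nil]; simp
  | cons t K ih =>
    rw [List.map_cons, List.map_cons, jv_cons, jv_cons, Ep_jv_cons,
      ← ih fun s hs => hi s (List.mem_cons_of_mem _ hs)]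
    obtain ⟨h1, h2, h3⟩ := hi t (by simp)
    obtain ⟨w, r, t₁, t₀, v, B, G, e⟩ := isB_eq h2
    subst e
    have h4 : w = 1 / (p : ℝ) ∨ w = 0 := h3
    have h5 : Ep p ((DT.br p w r t₁ t₀ v B G).g.val j) y =
      (1 - w) * t₁.g.val j y + w * t₀.g.val j y := h1.2.2.2 j y
    have e4 : chP (DT.br p w r t₁ t₀ v B G) = t₁ := rfl
    have e5 : chN (DT.br p w r t₁ t₀ v B G) = if w = 0 then t₁ else t₀ := rfl
    rw [h5, e4, e5]
    by_cases hw0 : w = 0
    · rw [if_pos hw0, hw0]; ring
    · rw [if_neg hw0, h4.resolve_right hw0]; ring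

/-- **an item meets at most one true tie** -/
lemma jv_meanU {p : ℕ} {K : List (DT Λ κ)}
    (hi : ∀ t ∈ K, IMean t ∧ isB p t = true ∧ WOk p t ∧ t.Col (p + 1) ∧
      t.All fun t => ∀ j, PB (t.g.val j)) (hp : p ≠ 0) (j : Λ) (y : ℝ) :
    Ep p (jv (tru K) j) y + ((1 - 1 / (p : ℝ)) * jv (act p (K.map chP)) j y +
      1 / (p : ℝ) * jv (act p (K.map chN)) j y) ≤ Ep p (jv K j) y := by
  have hp1 : (1 : ℝ) ≤ p := by exact_mod_cast Nat.pos_of_ne_zero hp
  have w0 : (0:ℝ) ≤ 1 / p := by positivity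
  have w1 : (0:ℝ) ≤ 1 - 1 / p := by
    have : (1:ℝ) / p ≤ 1 := by rw [div_le_one (by linarith)]; exact hp1
    linarith
  induction K with
  | nil =>
    have e1 : tru ([] : List (DT Λ κ)) = [] := rfl
    have e2 : act p (([] : List (DT Λ κ)).map chP) = [] := rfl
    have e3 : act p (([] : List (DT Λ κ)).map chN) = [] := rfl
    rw [e1, e2, e3, Ep_jv_nil]
    simp
  | cons t K ih =>
    have hK := ih fun s hs => hi s (List.mem_cons_of_mem _ hs)
    obtain ⟨h1, h2, h3, h6, h7⟩ := hi t (by simp)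
    obtain ⟨w, r, t₁, t₀, v, B, G, e⟩ := isB_eq h2
    subst e
    have h4 : w = 1 / (p : ℝ) ∨ w = 0 := h3
    have h5 : Ep p ((DT.br p w r t₁ t₀ v B G).g.val j) y =
      (1 - w) * t₁.g.val j y + w * t₀.g.val j y := h1.2.2.2 j y
    have e4 : chP (DT.br p w r t₁ t₀ v B G) = t₁ := rfl
    have e5 : chN (DT.br p w r t₁ t₀ v B G) = if w = 0 then t₁ else t₀ := rfl
    have ewT : wT (DT.br p w r t₁ t₀ v B G) = w := rfl
    rw [List.map_cons, List.map_cons, Ep_jv_cons, h5, e4, e5]
    by_cases hw0 : w = 0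
    · -- a pull
      have e6 : tru (DT.br p w r t₁ t₀ v B G :: K) = tru K :=
        List.filter_cons_of_neg (by simpa [ewT] using hw0)
      rw [e6, if_pos hw0]
      have h8 : 0 ≤ t₁.g.val j y := (h7.2.1.self j).nonneg y
      by_cases ha : p ≤ t₁.top
      · have e7 : ∀ l : List (DT Λ κ), act p (t₁ :: l) = t₁ :: act p l := fun l =>
          List.filter_cons_of_pos (by simpa using ha)
        rw [e7, e7, jv_cons, jv_cons, hw0]
        linarith
      · have e7 : ∀ l : List (DT Λ κ), act p (t₁ :: l) = act p l := fun l =>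
          List.filter_cons_of_neg (by simpa using ha)
        rw [e7, e7, hw0]
        linarith
    · -- a tie
      have e6 : tru (DT.br p w r t₁ t₀ v B G :: K) = DT.br p w r t₁ t₀ v B G :: tru K :=
        List.filter_cons_of_pos (by simpa [ewT] using hw0)
      have hc := h6.2.2.2.2 hw0
      have hp0 : 0 < p := Nat.pos_of_ne_zero hp
      have a1 : ¬ p ≤ t₁.top := not_le.2 (hc.1.top_lt hp0)
      have a0 : ¬ p ≤ t₀.top := not_le.2 (hc.2.top_lt hp0)
      have e7 : ∀ l : List (DT Λ κ), act p (t₁ :: l) = act p l := fun l =>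
        List.filter_cons_of_neg (by simpa using a1)
      have e8 : ∀ l : List (DT Λ κ), act p (t₀ :: l) = act p l := fun l =>
        List.filter_cons_of_neg (by simpa using a0)
      rw [e6, if_neg hw0, e7, e8, Ep_jv_cons, h5]
      linarith

variable {Inv : ℕ → List (DT Λ κ) → Prop}

lemma DI.bB_facts (H : DI Inv) {p : ℕ} {L : List (DT Λ κ)} (h : Inv p L) (hp : p ≠ 0) :
    ∀ t ∈ bB p L, IMean t ∧ isB p t = true ∧ WOk p t ∧ t.Col (p + 1) ∧
      t.All fun t => ∀ j, PB (t.g.val j) := by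
  intro t ht
  have h1 := List.mem_filter.1 ht
  obtain ⟨u, hu, h2⟩ := List.mem_flatMap.1 h1.1
  exact ⟨(rs_all p (H.im h u hu) t h2).self, h1.2, H.wok h hp t ht,
    XEx29.rs_col (H.col h u hu) t h2, rs_all p (H.pb h u hu) t h2⟩

/-- **the contents of the items** -/
noncomputable def DI.pv (H : DI Inv) : PV (bm Inv) Λ where
  v := jv
  vB := fun p L => jv (bB p L)
  u := fun p L => jv (act p L)
  uB := fun p L => jv (bB p L)
  vT := fun p L => jv (tru (bB p L))
  Lv := fun _ _ => 1
  pv := fun h j => PB_jv (H.pb h).self j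
  pvB := fun {p L} h _ j => PB_jv ((H.pb h).bB p).self j
  pu := fun h j => PB_jv (PBL.filter (H.pb h).self _) j
  puB := fun {p L} h _ j => PB_jv ((H.pb h).bB p).self j
  pvT := fun {p L} h _ j => PB_jv (PBL.filter ((H.pb h).bB p).self _) j
  spl := fun {p L} h _ j x => by
    have h1 := jv_split3 p L j x
    have h2 := jv_nonneg ((H.pb h).bL p).self j x
    show jv (bB p L) j x + jv (bN p L) j x ≤ jv L j x
    linarith
  splU := fun {p L} h _ j x => jv_bB_act (H.pb h) j x
  uv := fun {p L} h j x => by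
    have h1 := jv_filter_le (H.pb h).self (fun t => decide (p ≤ t.top)) j x
    show jv (act p L) j x ≤ ((1 : ℕ) : ℝ) * jv L j x
    rw [Nat.cast_one, one_mul]
    exact h1
  mean := fun {p L} h hp j y => (jv_mean (fun t ht => ⟨(H.bB_facts h hp t ht).1,
    (H.bB_facts h hp t ht).2.1, (H.bB_facts h hp t ht).2.2.1⟩) j y).le
  meanU := fun {p L} h hp j y => jv_meanU (H.bB_facts h hp) hp j y
  okP := H.toP
  okN := H.toN
  okR := H.toR
  one := fun {L} h j y => by
    show jv ((bB 1 L).map chP) j y = 0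
    rw [H.no1 h]
    rfl

/-- **payment by the rates of the items** -/
theorem rates_pay (H : DI Inv) (R : Rates Λ) {w : MS (ℕ × Gs (List (DT Λ κ)))}
    (h : Over w (bm Inv)) {J : ℝ} (hJ : 0 ≤ J) {n p : ℕ} {t : ℕ × Gs (List (DT Λ κ))}
    (ht : w.ok p t) (hT : ∀ x, su t.2 bt x ≤ w.T t x)
    (hR : ∀ j, ∑ q ∈ Finset.range (p + 1), (R.r q j + R.e q j) ≤ J) :
    WS ((R.bch H.pv).chg h) n p t ≤ J * (I (w.T t) + 4 * w.del * I (fun x => w.T t x ^ 2)) := by
  refine R.pay H.pv h hJ ht hT (fun L _ x => le_of_eq (sum_jv L x)) fun j => ?_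
  refine le_trans (le_of_eq ?_) (hR j)
  refine Finset.sum_congr rfl fun q _ => ?_
  show R.r q j * ((1 : ℕ) : ℝ) + R.e q j = _
  rw [Nat.cast_one, mul_one]

end Crest.Agent.R4P.PVd45
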