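import Crest.Agent.R4P.ModeS_16

/-!
R4 (S0004) with powers, T3, helper45: **payment lemmas over the walk with adaptive scales** (`ModeS_16`).

Every linear price of the scaled game is charged with the factor `2 ^ sc` of the point.

* `Chg w` : a family of charges: `yx p t x` charged at the state `(p, t)` (point above, field `br`),
  `yc p t y` charged at the column (point below, field `ex`), with the future charge content `Y`
  (`yx + YB + Y (N p t) ≤ Y`, `yc + Y (C p t) ≤ Ep (YB)`).
* `WS` : the walk sum of the charges with the scales; `WS_le` : `WS ≤ I Y + 2 δ I (Mx Y)`.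
* `WS_le_J` : if `Y ≤ J T` then `WS ≤ J (I T + 4 δ I T²)` (charges `O(1)` times per piece, or with a
  uniformly bounded rate); `WS_le_cs` : the Cauchy-Schwarz form.
* `E0` : errors without `ex`, `br`; `E_le` : `E ≤ E0 + 2 WS`; `main_pay`.
-/

set_option autoImplicit false
set_option linter.unusedSectionVars false
set_option linter.unusedVariables false
open MeasureTheory Filter Set

namespace Crest.Agent.R4P.Pay45

open Crest.Agent.R4.Tour104 Crest.Agent.R4.Clos758
open Crest.Agent.R4P.LogG51 (PB_max)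
open Crest.Agent.R4P.Mode940 Crest.Agent.R4P.ModeG51 Crest.Agent.R4P.ModeR16
open Crest.Agent.R4P.ModeS16

variable {σ : Type*}

/-- **charges** over the abstract walk -/
structure Chg (w : MS σ) where
  /-- future charge content -/
  Y : ℕ → σ → ℝ → ℝ
  /-- future charge content of the tie part -/
  YB : ℕ → σ → ℝ → ℝ
  /-- charge at the state -/
  yx : ℕ → σ → ℝ → ℝ
  /-- charge at the column (point below) -/
  yc : ℕ → σ → ℝ → ℝ
  pY : ∀ {p t}, w.ok p t → PB (Y p t)
  pYB : ∀ {p t}, w.ok p t → p ≠ 0 → PB (YB p t)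
  pyx : ∀ {p t}, w.ok p t → p ≠ 0 → PB (yx p t)
  pyc : ∀ {p t}, w.ok p t → p ≠ 0 → PB (yc p t)
  spl : ∀ {p t}, w.ok p t → p ≠ 0 → ∀ x, yx p t x + YB p t x + Y (p - 1) (w.N p t) x ≤ Y p t x
  mean : ∀ {p t}, w.ok p t → p ≠ 0 → ∀ y, yc p t y + Y p (w.C p t) y ≤ Ep p (YB p t) y

variable {w : MS σ}

/-- walk sum of the charges, with the scales -/
noncomputable def WS (Q : Chg w) : ℕ → ℕ → σ → ℝ
  | 0, _, _ => 0
  | n + 1, p, t => if p = 0 then 0 else
      I (fun x => 2 ^ sc w (n + 1) p t x * Q.yx p t x) +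
        I (fun y => 2 ^ sc w n p (w.C p t) y * Q.yc p t y) +
        WS Q n p (w.C p t) + WS Q n (p - 1) (w.N p t)

lemma WS_succ (Q : Chg w) (n : ℕ) {p : ℕ} (hp : p ≠ 0) (t : σ) : WS Q (n + 1) p t =
    I (fun x => 2 ^ sc w (n + 1) p t x * Q.yx p t x) +
      I (fun y => 2 ^ sc w n p (w.C p t) y * Q.yc p t y) +
      WS Q n p (w.C p t) + WS Q n (p - 1) (w.N p t) := by
  show (if p = 0 then 0 else _) = _
  rw [if_neg hp]

/-- multiplication by the scale -/
lemma PB_sc (n : ℕ) {p : ℕ} {t : σ} (ht : w.ok p t) {f : ℝ → ℝ} (hf : PB f) :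
    PB fun x => 2 ^ sc w n p t x * f x := by
  obtain ⟨ms, ps⟩ := sc_facts w n p t ht
  exact PB_sel (F := fun k x => (2:ℝ) ^ k * f x) (fun k => hf.smul (by positivity)) ms ps
    (sc_le w n p t ht)

/-- **the walk sum of the charges** -/
theorem WS_le (Q : Chg w) : ∀ (n p : ℕ) (t : σ), w.ok p t →
    WS Q n p t ≤ I (fun x => (1 + 2 * (w.del * Mx w n p t x)) * Q.Y p t x) := by
  intro n
  have hd := w.del0
  have base : ∀ (m p : ℕ) (t : σ), w.ok p t →
      0 ≤ I (fun x => (1 + 2 * (w.del * Mx w m p t x)) * Q.Y p t x) := fun m p t ht =>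
    I_nonneg fun x => mul_nonneg (by
      have := (PB_Mx (w := w) m p t ht).nonneg x
      positivity) ((Q.pY ht).nonneg x)
  induction n with
  | zero => intro p t ht; exact base 0 p t ht
  | succ n ih =>
    intro p t ht
    by_cases hp : p = 0
    · subst hp
      have e : WS Q (n + 1) 0 t = 0 := by simp [WS]
      rw [e]
      exact base (n + 1) 0 t ht
    · have hp0 : 0 < p := Nat.pos_of_ne_zero hp
      have oC := w.okC ht hp
      have oN := w.okN ht hp
      have i1 := ih p _ oC
      have i2 := ih (p - 1) _ oN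
      rw [WS_succ Q n hp]
      have PM := PB_Mx (w := w) (n + 1) p t ht
      have PC := PB_Mx (w := w) n p _ oC
      have PN := PB_Mx (w := w) n (p - 1) _ oN
      have mk : ∀ {f : ℝ → ℝ}, PB f → PB fun x => 1 + 2 * (w.del * f x) := fun hf =>
        (PB.const zero_le_one).add ((hf.smul hd.le).smul (by norm_num))
      have pY := Q.pY ht
      have pYC := Q.pY oC
      have pYN := Q.pY oN
      have pYB := Q.pYB ht hp
      have pyx := Q.pyx ht hp
      have pyc := Q.pyc ht hp
      -- the charge at the column and below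
      have c1 : I (fun y => 2 ^ sc w n p (w.C p t) y * Q.yc p t y) +
          I (fun y => (1 + 2 * (w.del * Mx w n p (w.C p t) y)) * Q.Y p (w.C p t) y) ≤
          I (fun x => (1 + 2 * (w.del * Mx w n p (w.C p t) (p * x))) * Q.YB p t x) := by
        have q := ((mk PC).pull p).mul pYB
        rw [← I_Ep hp0 q.integrableOn, ← I_add (PB_sc n oC pyc).integrableOn
          ((mk PC).mul pYC).integrableOn]
        refine I_mono ((PB_sc n oC pyc).add ((mk PC).mul pYC)).integrableOn
          (q.Ep hp0).integrableOn fun y => ?_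
        have e1 : Ep p (fun x => (1 + 2 * (w.del * Mx w n p (w.C p t) (p * x))) * Q.YB p t x) y =
            (1 + 2 * (w.del * Mx w n p (w.C p t) y)) * Ep p (Q.YB p t) y :=
          Ep_pull_mul hp0 (a := fun y => 1 + 2 * (w.del * Mx w n p (w.C p t) y)) (f := Q.YB p t)
            (mk PC).per y
        show 2 ^ sc w n p (w.C p t) y * Q.yc p t y +
          (1 + 2 * (w.del * Mx w n p (w.C p t) y)) * Q.Y p (w.C p t) y ≤
          Ep p (fun x => (1 + 2 * (w.del * Mx w n p (w.C p t) (p * x))) * Q.YB p t x) y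
        rw [e1]
        have e2 := Q.mean ht hp y
        have e3 := sc_Mx (w := w) n p _ oC y
        have e4 := pyc.nonneg y
        have e5 := PC.nonneg y
        have e6 := mul_le_mul_of_nonneg_right e3 e4
        have e7 := mul_le_mul_of_nonneg_left e2
          (show 0 ≤ 1 + 2 * (w.del * Mx w n p (w.C p t) y) by positivity)
        rw [mul_add] at e7
        linarith
      -- the split
      have c2 : I (fun x => 2 ^ sc w (n + 1) p t x * Q.yx p t x) +
          I (fun x => (1 + 2 * (w.del * Mx w n p (w.C p t) (p * x))) * Q.YB p t x) +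
          I (fun x => (1 + 2 * (w.del * Mx w n (p - 1) (w.N p t) x)) * Q.Y (p - 1) (w.N p t) x) ≤
          I (fun x => (1 + 2 * (w.del * Mx w (n + 1) p t x)) * Q.Y p t x) := by
        have q1 := PB_sc (n + 1) ht pyx
        have q2 := ((mk PC).pull p).mul pYB
        have q3 := (mk PN).mul pYN
        have q4 := (mk PM).mul pY
        rw [← I_add q1.integrableOn q2.integrableOn, ← I_add (q1.add q2).integrableOn q3.integrableOn]
        refine I_mono ((q1.add q2).add q3).integrableOn q4.integrableOn fun x => ?_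
        have s := Q.spl ht hp x
        have a1 := sc_Mx (w := w) (n + 1) p t ht x
        have m1 : Mx w n p (w.C p t) (p * x) ≤ Mx w (n + 1) p t x := by
          rw [Mx_succ w n hp]
          exact (le_max_left _ _).trans (le_max_right _ _)
        have m2 : Mx w n (p - 1) (w.N p t) x ≤ Mx w (n + 1) p t x := by
          rw [Mx_succ w n hp]
          exact (le_max_right _ _).trans (le_max_right _ _)
        have b1 := mul_le_mul_of_nonneg_right a1 (pyx.nonneg x)
        have b2 := mul_le_mul_of_nonneg_right (show 1 + 2 * (w.del * Mx w n p (w.C p t) (p * x)) ≤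
          1 + 2 * (w.del * Mx w (n + 1) p t x) by
            have := mul_le_mul_of_nonneg_left m1 hd.le
            linarith) (pYB.nonneg x)
        have b3 := mul_le_mul_of_nonneg_right (show 1 + 2 * (w.del * Mx w n (p - 1) (w.N p t) x) ≤
          1 + 2 * (w.del * Mx w (n + 1) p t x) by
            have := mul_le_mul_of_nonneg_left m2 hd.le
            linarith) (pYN.nonneg x)
        have b4 := mul_le_mul_of_nonneg_left s (show 0 ≤ 1 + 2 * (w.del * Mx w (n + 1) p t x) by
          have := PM.nonneg x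
          positivity)
        rw [mul_add, mul_add] at b4
        show 2 ^ sc w (n + 1) p t x * Q.yx p t x +
          (1 + 2 * (w.del * Mx w n p (w.C p t) (p * x))) * Q.YB p t x +
          (1 + 2 * (w.del * Mx w n (p - 1) (w.N p t) x)) * Q.Y (p - 1) (w.N p t) x ≤
          (1 + 2 * (w.del * Mx w (n + 1) p t x)) * Q.Y p t x
        linarith
      linarith

/-- in two parts -/
lemma I_MY (Q : Chg w) (n : ℕ) {p : ℕ} {t : σ} (ht : w.ok p t) :
    I (fun x => (1 + 2 * (w.del * Mx w n p t x)) * Q.Y p t x) =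
      I (Q.Y p t) + 2 * w.del * I (fun x => Mx w n p t x * Q.Y p t x) := by
  have hd := w.del0
  have PM := PB_Mx (w := w) n p t ht
  have pY := Q.pY ht
  have q := (PM.mul pY).smul (show (0:ℝ) ≤ 2 * w.del by positivity)
  rw [← I_smul, ← I_add pY.integrableOn q.integrableOn]
  congr 1
  funext x
  ring

/-- **charges with bounded future content** (`O(1)` charges per piece, or bounded total rate) -/
theorem WS_le_J (Q : Chg w) {J : ℝ} (hJ : 0 ≤ J) (n p : ℕ) (t : σ) (ht : w.ok p t)
    (h : ∀ x, Q.Y p t x ≤ J * w.T t x) :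
    WS Q n p t ≤ J * (I (w.T t) + 4 * w.del * I (fun x => w.T t x ^ 2)) := by
  have hd := w.del0
  have PM := PB_Mx (w := w) n p t ht
  have PT := w.pT ht
  have pY := Q.pY ht
  have h1 := WS_le Q n p t ht
  rw [I_MY Q n ht] at h1
  have h2 : I (Q.Y p t) ≤ J * I (w.T t) := by
    rw [← I_smul]
    exact I_mono pY.integrableOn (PT.smul hJ).integrableOn h
  have h3 : I (fun x => Mx w n p t x * Q.Y p t x) ≤ J * I (fun x => Mx w n p t x * w.T t x) := by
    rw [← I_smul]
    refine I_mono (PM.mul pY).integrableOn ((PM.mul PT).smul hJ).integrableOn fun x => ?_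
    have := mul_le_mul_of_nonneg_left (h x) (PM.nonneg x)
    show Mx w n p t x * Q.Y p t x ≤ J * (Mx w n p t x * w.T t x)
    linarith
  have h4 := mul_le_mul_of_nonneg_left (doob n p t ht) hJ
  have h5 := mul_le_mul_of_nonneg_left (h3.trans h4) (show (0:ℝ) ≤ 2 * w.del by positivity)
  nlinarith

/-- **the Cauchy-Schwarz form** (future content small in `L²`: rare members) -/
theorem WS_le_cs (Q : Chg w) {l : ℝ} (hl : 0 < l) (n p : ℕ) (t : σ) (ht : w.ok p t) :
    WS Q n p t ≤ I (Q.Y p t) +
      2 * w.del * (l * I (fun x => w.T t x ^ 2) + 1 / l * I (fun x => Q.Y p t x ^ 2)) := by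
  have hd := w.del0
  have PM := PB_Mx (w := w) n p t ht
  have PT := w.pT ht
  have pY := Q.pY ht
  have h1 := WS_le Q n p t ht
  rw [I_MY Q n ht] at h1
  have h3 : I (fun x => Mx w n p t x * Q.Y p t x) ≤
      l / 4 * I (fun x => Mx w n p t x ^ 2) + 1 / l * I (fun x => Q.Y p t x ^ 2) := by
    have q1 := (PBsq PM).smul (show (0:ℝ) ≤ l / 4 by positivity)
    have q2 := (PBsq pY).smul (show (0:ℝ) ≤ 1 / l by positivity)
    rw [← I_smul, ← I_smul, ← I_add q1.integrableOn q2.integrableOn]
    refine I_mono (PM.mul pY).integrableOn (q1.add q2).integrableOn fun x => ?_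
    show Mx w n p t x * Q.Y p t x ≤ l / 4 * Mx w n p t x ^ 2 + 1 / l * Q.Y p t x ^ 2
    have k1 : 0 ≤ (1 / l) * (l / 2 * Mx w n p t x - Q.Y p t x) ^ 2 := by positivity
    have k2 : (1 / l) * (l / 2 * Mx w n p t x - Q.Y p t x) ^ 2 =
        l / 4 * Mx w n p t x ^ 2 + 1 / l * Q.Y p t x ^ 2 - Mx w n p t x * Q.Y p t x := by
      field_simp
      ring
    linarith
  have h4 : I (fun x => Mx w n p t x ^ 2) ≤ 4 * I (fun x => w.T t x ^ 2) := by
    have a := doob1 (w := w) n p t ht
    have b := doob (w := w) n p t ht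
    linarith
  have h5 : l / 4 * I (fun x => Mx w n p t x ^ 2) ≤ l * I (fun x => w.T t x ^ 2) := by
    have := mul_le_mul_of_nonneg_left h4 (show (0:ℝ) ≤ l / 4 by positivity)
    linarith
  have h6 := mul_le_mul_of_nonneg_left (h3.trans (add_le_add h5 le_rfl))
    (show (0:ℝ) ≤ 2 * w.del by positivity)
  linarith

/-! ### the walk errors -/

variable (w)

/-- local error without `ex`, `br` -/
noncomputable def el0 (p : ℕ) (t : σ) : ℝ :=
  8 * I (fun y => Ep p (w.GT p t) y ^ 2) +
    (8 / w.del + Ld w.del) * (I (w.jn p t) + I (w.jB p t)) + 8 / w.del * I (DL w 0 p t)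

/-- walk sum of the errors without `ex`, `br` -/
noncomputable def E0 : ℕ → ℕ → σ → ℝ
  | 0, _, t => 8 / w.del * I (D w 0 t)
  | n + 1, p, t => if p = 0 then 8 / w.del * I (D w 0 t) else
      el0 w p t + E0 n p (w.C p t) + E0 n (p - 1) (w.N p t)

variable {w}

/-- **the errors are at most the walk sum of the charges** -/
theorem E_le (Q : Chg w)
    (hx : ∀ {k p t}, w.ok p t → p ≠ 0 → ∀ y, Ep p (w.ex k p t) y ≤ 2 ^ k * Q.yc p t y)
    (hb : ∀ {k p t}, w.ok p t → p ≠ 0 → ∀ x, w.br k p t x ≤ 2 ^ k * Q.yx p t x) :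
    ∀ (n p : ℕ) (t : σ), w.ok p t → ModeS16.E w n p t ≤ E0 w n p t + 2 * WS Q n p t := by
  intro n
  induction n with
  | zero =>
    intro p t ht
    have e1 : ModeS16.E w 0 p t = 8 / w.del * I (D w 0 t) := rfl
    have e2 : E0 w 0 p t = 8 / w.del * I (D w 0 t) := rfl
    have e3 : WS Q 0 p t = 0 := rfl
    rw [e1, e2, e3]
    linarith
  | succ n ih =>
    intro p t ht
    by_cases hp : p = 0
    · subst hp
      have e1 : ModeS16.E w (n + 1) 0 t = 8 / w.del * I (D w 0 t) := by simp [ModeS16.E]
      have e2 : E0 w (n + 1) 0 t = 8 / w.del * I (D w 0 t) := by simp [E0]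
      have e3 : WS Q (n + 1) 0 t = 0 := by simp [WS]
      rw [e1, e2, e3]
      linarith
    · have hp0 : 0 < p := Nat.pos_of_ne_zero hp
      have oC := w.okC ht hp
      have oN := w.okN ht hp
      have i1 := ih p _ oC
      have i2 := ih (p - 1) _ oN
      have e2 : E0 w (n + 1) p t = el0 w p t + E0 w n p (w.C p t) + E0 w n (p - 1) (w.N p t) := by
        show (if p = 0 then _ else _) = _
        rw [if_neg hp]
      rw [ModeS16.E_succ w n hp, e2, WS_succ Q n hp]
      have a1 : I (exh w n p t) ≤ I (fun y => 2 ^ sc w n p (w.C p t) y * Q.yc p t y) := by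
        refine I_mono (PB_exh n ht hp).integrableOn (PB_sc n oC (Q.pyc ht hp)).integrableOn
          fun y => ?_
        have n0 : 0 ≤ (2:ℝ) ^ sc w n p (w.C p t) y * Q.yc p t y :=
          mul_nonneg (by positivity) ((Q.pyc ht hp).nonneg y)
        unfold exh on
        split_ifs with h
        · exact hx ht hp y
        · exact n0
      have a2 : I (brh w n p t) ≤ I (fun x => 2 ^ sc w (n + 1) p t x * Q.yx p t x) := by
        refine I_mono (PB_brh n ht hp).integrableOn (PB_sc (n + 1) ht (Q.pyx ht hp)).integrableOn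
          fun x => ?_
        have n0 : 0 ≤ (2:ℝ) ^ sc w (n + 1) p t x * Q.yx p t x :=
          mul_nonneg (by positivity) ((Q.pyx ht hp).nonneg x)
        unfold brh on
        split_ifs with h
        · exact hb ht hp x
        · exact n0
      unfold el el0
      linarith

/-- **the theorem with payments** -/
theorem main_pay (Q : Chg w)
    (hx : ∀ {k p t}, w.ok p t → p ≠ 0 → ∀ y, Ep p (w.ex k p t) y ≤ 2 ^ k * Q.yc p t y)
    (hb : ∀ {k p t}, w.ok p t → p ≠ 0 → ∀ x, w.br k p t x ≤ 2 ^ k * Q.yx p t x)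
    {J : ℝ} (hJ : 0 ≤ J) (n p : ℕ) (t : σ) (ht : w.ok p t) (h : ∀ x, Q.Y p t x ≤ J * w.T t x) :
    K w n p t ≤ 8 * (w.del * (Ld w.del + J)) * I (fun x => w.T t x ^ 2) +
      2 * (Ld w.del + J) * I (w.T t) + E0 w n p t := by
  have h1 := main_root (w := w) n p t ht
  have h2 := E_le Q hx hb n p t ht
  have h3 := WS_le_J Q hJ n p t ht h
  nlinarith

end Crest.Agent.R4P.Pay45
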