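import Crest.Agent.R4P.StM_6

/-!
R4 (S0004) with powers, helper33, leaf B1 of PLAN v1 (docs 1588): **position determinism of the
own-radius labels** (helper8 6366 (2)), in-member or cross-member, twins or not.

Two pieces on circles with the same total product, moduli `w = g x`, `w' = g x'`; targets `θ = B γ`,
`θ' = B' γ`, stage radii `R`, `R'`, integer parts `a`, `a'` of the centres; they overlap up to the factor
`K` : `|(a + θ) x' - (a' + θ') x| ≤ K (x' R + x R')`; comparable : `x, x' ≤ Z`, `R ≤ Z R'`, `R' ≤ Z R`.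

* `exact_of_near` : both are labelled: **the exact centres are equal**, `(a + ρ) x' = (a' + ρ') x`;
* `transfer`      : if `ρ` is a label of the first one then `(a + ρ) x' / x - a'` is a label of the second
  one, or `ρ` is in its threshold zone `Zn Z R |θ - ρ| k` (denominator, accuracy or size);
* `acc_transfer`  : the same for the accuracy of the labels of one exact centre (sleeping labels);
* `ov_of_pt`      : the overlap of two pieces with a common point (`K = 1`);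
* `lab_ix`, `lab_mate` : the same for `lab0` in root coordinates, with the index of `WP`;
* `sla_mate`      : **own missing tie** (or any change of the stage) of two mates of the sparse regime:
  one exact centre above ==> one exact centre below, or both are `none`, or a zone.
-/

set_option autoImplicit false
set_option linter.unusedSectionVars false
set_option linter.unusedVariables false

namespace Crest.Agent.R4P.PosD33

open Crest.Agent.R4.LF363 Crest.Agent.R4.W363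
open Crest.Agent.R4P.FinL21 (labR_iff den_le den_dvd)
open Crest.Agent.R4P.StM6

/-! ### arithmetic -/

/-- fifth roots -/
lemma fifth {M : ℝ} (hM : 0 ≤ M) : ∃ t : ℝ, 0 ≤ t ∧ t ^ 5 = M :=
  ⟨M ^ (1 / 5 : ℝ), by positivity, by
    rw [← Real.rpow_natCast, ← Real.rpow_mul hM]; norm_num⟩

lemma le_of_pow5 {a b : ℝ} (hb : 0 ≤ b) (h : a ^ 5 ≤ b ^ 5) : a ≤ b := by
  by_contra hc
  push Not at hc
  have := pow_lt_pow_left₀ hc hb (show (5 : ℕ) ≠ 0 by norm_num)
  linarith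

/-- the denominator of `(a + ρ) n` divides `den ρ` -/
lemma den_int_mul (ρ : ℚ) (a : ℤ) (n : ℕ) : (((a : ℚ) + ρ) * n).den ∣ ρ.den := by
  have h1 : (((a : ℚ) + ρ) * n).den ∣ ((a : ℚ) + ρ).den * (n : ℚ).den := Rat.mul_den_dvd _ _
  have h2 : ((a : ℚ) + ρ).den = ρ.den := by
    rw [add_comm]
    exact Rat.add_intCast_den ρ a
  simpa [h2] using h1

/-- two rationals which are close are equal -/
lemma eq_of_close {u v : ℚ} {k k' : ℕ} (hk : u.den ≤ k) (hk' : v.den ≤ k')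
    (h : |(u : ℝ) - v| * (k * k') < 1) : u = v := by
  by_contra hne
  have h1 := rat_gap hne
  have h2 : |(u : ℝ) - v| * (u.den * v.den) ≤ |(u : ℝ) - v| * (k * k') := by
    refine mul_le_mul_of_nonneg_left ?_ (abs_nonneg _)
    have a1 : (u.den : ℝ) ≤ k := by exact_mod_cast hk
    have a2 : (v.den : ℝ) ≤ k' := by exact_mod_cast hk'
    exact mul_le_mul a1 a2 (by positivity) (by positivity)
  linarith

variable {θ θ' R R' Z K : ℝ} {ρ ρ' : ℚ} {a a' : ℤ} {x x' : ℕ}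

/-- comparable pieces -/
structure Cmp (Z R R' : ℝ) (x x' : ℕ) : Prop where
  x0 : 0 < x
  x0' : 0 < x'
  xZ : (x : ℝ) ≤ Z
  xZ' : (x' : ℝ) ≤ Z
  R0 : 0 < R
  R0' : 0 < R'
  RZ : R ≤ Z * R'
  RZ' : R' ≤ Z * R

lemma Cmp.Z1 (h : Cmp Z R R' x x') : 1 ≤ Z :=
  le_trans (by exact_mod_cast h.x0) h.xZ

lemma Cmp.symm (h : Cmp Z R R' x x') : Cmp Z R' R x' x :=
  ⟨h.x0', h.x0, h.xZ', h.xZ, h.R0', h.R0, h.RZ', h.RZ⟩

/-- the pieces overlap up to the factor `K` -/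
def Ov (K θ θ' R R' : ℝ) (a a' : ℤ) (x x' : ℕ) : Prop :=
  |((a : ℝ) + θ) * x' - (a' + θ') * x| ≤ K * (x' * R + x * R')

lemma Ov.symm (h : Ov K θ θ' R R' a a' x x') : Ov K θ' θ R' R a' a x' x := by
  unfold Ov at h ⊢
  rw [abs_sub_comm, add_comm ((x : ℝ) * R')]
  exact h

/-- **the exact centres of two labelled pieces which overlap are equal** -/
theorem exact_of_near (h : Lab θ R ρ) (h' : Lab θ' R' ρ') (hc : Cmp Z R R' x x') (hK : 0 ≤ K)
    (hov : Ov K θ θ' R R' a a' x x')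
    (hs : (2 * (1 + K)) ^ 5 * Z ^ 6 * R ^ 2 < 1) (hs' : (2 * (1 + K)) ^ 5 * Z ^ 6 * R' ^ 2 < 1) :
    ((a : ℝ) + ρ) * x' = (a' + ρ') * x := by
  have hZ := hc.Z1
  -- the two rationals
  have hd1 : (((a : ℚ) + ρ) * x').den ≤ ρ.den := Nat.le_of_dvd ρ.den_pos (den_int_mul ρ a x')
  have hd2 : (((a' : ℚ) + ρ') * x).den ≤ ρ'.den := Nat.le_of_dvd ρ'.den_pos (den_int_mul ρ' a' x)
  set M : ℝ := max R R' with hM
  have hM0 : 0 < M := lt_of_lt_of_le hc.R0 (le_max_left _ _)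
  have hM1 : M ≤ 1 := max_le (by linarith [h.le]) (by linarith [h'.le])
  obtain ⟨t, ht0, ht⟩ := fifth hM0.le
  have ht1 : t ≤ 1 := by
    refine le_of_pow5 zero_le_one ?_
    rw [ht]; simpa using hM1
  have e1 : |θ - ρ| ≤ t ^ 4 := by
    refine le_of_pow5 (by positivity) ?_
    calc |θ - ρ| ^ 5 ≤ R ^ 4 := h.near
      _ ≤ M ^ 4 := pow_le_pow_left₀ hc.R0.le (le_max_left _ _) 4
      _ = (t ^ 4) ^ 5 := by rw [← ht]; ring
  have e2 : |θ' - ρ'| ≤ t ^ 4 := by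
    refine le_of_pow5 (by positivity) ?_
    calc |θ' - ρ'| ^ 5 ≤ R' ^ 4 := h'.near
      _ ≤ M ^ 4 := pow_le_pow_left₀ hc.R0'.le (le_max_right _ _) 4
      _ = (t ^ 4) ^ 5 := by rw [← ht]; ring
  have e3 : M ≤ t ^ 4 := by
    rw [← ht]
    have h4 : 0 ≤ t ^ 4 := by positivity
    nlinarith [mul_le_mul_of_nonneg_left ht1 h4]
  have hx0 : (0 : ℝ) ≤ x := Nat.cast_nonneg _
  have hx0' : (0 : ℝ) ≤ x' := Nat.cast_nonneg _
  have ht4 : 0 ≤ t ^ 4 := by positivity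
  -- the distance
  have key : |((a : ℝ) + ρ) * x' - (a' + ρ') * x| ≤ 2 * (1 + K) * Z * t ^ 4 := by
    have e : ((a : ℝ) + ρ) * x' - (a' + ρ') * x =
        (((a : ℝ) + θ) * x' - (a' + θ') * x) - (θ - ρ) * x' + (θ' - ρ') * x := by ring
    rw [e]
    have t1 := abs_add_le ((((a : ℝ) + θ) * x' - (a' + θ') * x) - (θ - ρ) * x') ((θ' - ρ') * x)
    have t2 := abs_sub (((a : ℝ) + θ) * x' - (a' + θ') * x) ((θ - ρ) * x')
    have t3 : |(θ - ρ) * x'| ≤ t ^ 4 * Z := by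
      rw [abs_mul, Nat.abs_cast]
      exact mul_le_mul e1 hc.xZ' hx0' ht4
    have t4 : |(θ' - ρ') * x| ≤ t ^ 4 * Z := by
      rw [abs_mul, Nat.abs_cast]
      exact mul_le_mul e2 hc.xZ hx0 ht4
    have t5 : (x' : ℝ) * R ≤ Z * t ^ 4 :=
      mul_le_mul hc.xZ' ((le_max_left _ _).trans e3) hc.R0.le (by linarith)
    have t6 : (x : ℝ) * R' ≤ Z * t ^ 4 :=
      mul_le_mul hc.xZ ((le_max_right _ _).trans e3) hc.R0'.le (by linarith)
    have t7 : K * (x' * R + x * R') ≤ K * (2 * (Z * t ^ 4)) :=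
      mul_le_mul_of_nonneg_left (by linarith) hK
    unfold Ov at hov
    nlinarith
  -- the denominators
  have hk0 : (0 : ℝ) < ρ.den := by exact_mod_cast ρ.den_pos
  have hk0' : (0 : ℝ) < ρ'.den := by exact_mod_cast ρ'.den_pos
  have hden : ((ρ.den : ℝ) * ρ'.den) ^ 5 * M ^ 2 ≤ Z := by
    have a1 : ((ρ.den : ℝ) * ρ'.den) ^ 5 * (R * R') ≤ 1 := by
      calc ((ρ.den : ℝ) * ρ'.den) ^ 5 * (R * R') = ((ρ.den : ℝ) ^ 5 * R) * ((ρ'.den : ℝ) ^ 5 * R') := by
            ring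
        _ ≤ 1 * 1 := mul_le_mul h.den h'.den (by have := hc.R0'; positivity) zero_le_one
        _ = 1 := one_mul 1
    have a2 : M ^ 2 ≤ Z * (R * R') := by
      rcases le_total R R' with h1 | h1
      · have : M = R' := max_eq_right h1
        rw [this]
        nlinarith [mul_le_mul_of_nonneg_right hc.RZ' hc.R0'.le]
      · have : M = R := max_eq_left h1
        rw [this]
        nlinarith [mul_le_mul_of_nonneg_right hc.RZ hc.R0.le]
    have a3 : 0 ≤ ((ρ.den : ℝ) * ρ'.den) ^ 5 := by positivity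
    calc ((ρ.den : ℝ) * ρ'.den) ^ 5 * M ^ 2 ≤ ((ρ.den : ℝ) * ρ'.den) ^ 5 * (Z * (R * R')) :=
          mul_le_mul_of_nonneg_left a2 a3
      _ = Z * (((ρ.den : ℝ) * ρ'.den) ^ 5 * (R * R')) := by ring
      _ ≤ Z * 1 := mul_le_mul_of_nonneg_left a1 (by linarith)
      _ = Z := mul_one Z
  have hlt : |((a : ℝ) + ρ) * x' - (a' + ρ') * x| * (ρ.den * ρ'.den) < 1 := by
    refine lt_of_le_of_lt (mul_le_mul_of_nonneg_right key (by positivity)) ?_
    by_contra hge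
    push Not at hge
    have h5 : (1 : ℝ) ≤ (2 * (1 + K) * Z * t ^ 4 * (ρ.den * ρ'.den)) ^ 5 := one_le_pow₀ hge
    have h6 : (2 * (1 + K) * Z * t ^ 4 * (ρ.den * ρ'.den)) ^ 5 =
        (2 * (1 + K)) ^ 5 * Z ^ 5 * M ^ 2 * (((ρ.den : ℝ) * ρ'.den) ^ 5 * M ^ 2) := by
      rw [← ht]; ring
    have h7 : (2 * (1 + K)) ^ 5 * Z ^ 5 * M ^ 2 * (((ρ.den : ℝ) * ρ'.den) ^ 5 * M ^ 2) ≤
        (2 * (1 + K)) ^ 5 * Z ^ 5 * M ^ 2 * Z :=
      mul_le_mul_of_nonneg_left hden (by positivity)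
    have h8 : (2 * (1 + K)) ^ 5 * Z ^ 5 * M ^ 2 * Z = (2 * (1 + K)) ^ 5 * Z ^ 6 * M ^ 2 := by ring
    have h9 : (2 * (1 + K)) ^ 5 * Z ^ 6 * M ^ 2 < 1 := by
      rcases le_total R R' with h1 | h1
      · rw [hM, max_eq_right h1]; exact hs'
      · rw [hM, max_eq_left h1]; exact hs
    linarith
  have := eq_of_close (u := ((a : ℚ) + ρ) * x') (v := ((a' : ℚ) + ρ') * x) hd1 hd2 (by
    push_cast
    exact hlt)
  exact_mod_cast this

/-! ### transfer of the accuracy and of the label -/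

/-- **threshold zone** of a label: size, denominator, accuracy; `e` error, `k` denominator -/
def Zn (Z R e : ℝ) (k : ℕ) : Prop :=
  1 < 10 * Z * R ∨ 1 < Z ^ 6 * ((k : ℝ) ^ 5 * R) ∨ R ^ 4 < 32 * Z ^ 9 * e ^ 5

/-- the accuracy passes to the mate of the same exact centre, up to the zone of the accuracy -/
theorem near_transfer (hc : Cmp Z R R' x x') (hK : 0 ≤ K) (hov : Ov K θ θ' R R' a a' x x')
    (hr : ((a : ℝ) + ρ) * x' = (a' + ρ') * x) (hs : (4 * K) ^ 5 * Z ^ 10 * R' ≤ 1)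
    (he : 32 * Z ^ 9 * |θ - ρ| ^ 5 ≤ R ^ 4) : |θ' - ρ'| ^ 5 ≤ R' ^ 4 := by
  have hZ := hc.Z1
  have hx0 : (0 : ℝ) < x := by exact_mod_cast hc.x0
  have hx1 : (1 : ℝ) ≤ x := by exact_mod_cast hc.x0
  have hx0' : (0 : ℝ) ≤ x' := Nat.cast_nonneg _
  obtain ⟨t, ht0, ht⟩ := fifth hc.R0'.le
  have ht4 : 0 ≤ t ^ 4 := by positivity
  -- the error of the mate
  have h1 : |θ' - ρ'| * x ≤ K * (x' * R + x * R') + x' * |θ - ρ| := by
    have e : (θ' - ρ') * x = -(((a : ℝ) + θ) * x' - (a' + θ') * x) + (θ - ρ) * x' := by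
      linear_combination hr
    have e' : |θ' - ρ'| * x = |(θ' - ρ') * x| := by rw [abs_mul, Nat.abs_cast]
    rw [e', e]
    refine (abs_add_le _ _).trans ?_
    rw [abs_neg, abs_mul (θ - ρ), Nat.abs_cast, mul_comm |θ - ρ|]
    unfold Ov at hov
    linarith
  have h2 : |θ' - ρ'| ≤ 2 * K * Z ^ 2 * R' + Z * |θ - ρ| := by
    have hab := abs_nonneg (θ - ρ)
    have b1 : (x' : ℝ) * R ≤ x * (Z * (Z * R')) := by
      calc (x' : ℝ) * R ≤ Z * (Z * R') := mul_le_mul hc.xZ' hc.RZ hc.R0.le (by linarith)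
        _ ≤ x * (Z * (Z * R')) := by
            have : 0 ≤ Z * (Z * R') := by have := hc.R0'; positivity
            nlinarith
    have b2 : (x' : ℝ) * |θ - ρ| ≤ x * (Z * |θ - ρ|) := by
      calc (x' : ℝ) * |θ - ρ| ≤ Z * |θ - ρ| := mul_le_mul_of_nonneg_right hc.xZ' hab
        _ ≤ x * (Z * |θ - ρ|) := by
            have : 0 ≤ Z * |θ - ρ| := by positivity
            nlinarith
    have b3 : x * R' ≤ x * (Z ^ 2 * R') := by
      have : R' ≤ Z ^ 2 * R' := by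
        have := hc.R0'
        nlinarith [one_le_pow₀ hZ (n := 2)]
      exact mul_le_mul_of_nonneg_left this hx0.le
    have b4 : K * (x' * R + x * R') ≤ K * (x * (2 * Z ^ 2 * R')) := by
      refine mul_le_mul_of_nonneg_left ?_ hK
      nlinarith
    have b5 : |θ' - ρ'| * x ≤ (2 * K * Z ^ 2 * R' + Z * |θ - ρ|) * x := by nlinarith
    exact le_of_mul_le_mul_right b5 hx0
  -- the two halves
  have c1 : 2 * K * Z ^ 2 * R' ≤ t ^ 4 / 2 := by
    have d1 : 4 * K * Z ^ 2 * t ≤ 1 := by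
      refine le_of_pow5 zero_le_one ?_
      rw [one_pow]
      calc (4 * K * Z ^ 2 * t) ^ 5 = (4 * K) ^ 5 * Z ^ 10 * t ^ 5 := by ring
        _ ≤ 1 := by rw [ht]; exact hs
    have d2 : R' = t * t ^ 4 := by rw [← ht]; ring
    rw [d2]
    nlinarith [mul_le_mul_of_nonneg_right d1 ht4]
  have c2 : Z * |θ - ρ| ≤ t ^ 4 / 2 := by
    refine le_of_pow5 (by positivity) ?_
    have d1 : R ^ 4 ≤ Z ^ 4 * R' ^ 4 := by
      rw [← mul_pow]
      exact pow_le_pow_left₀ hc.R0.le hc.RZ 4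
    have d2 : 32 * Z ^ 9 * |θ - ρ| ^ 5 ≤ Z ^ 4 * R' ^ 4 := he.trans d1
    have d3 : Z ^ 4 * (32 * Z ^ 5 * |θ - ρ| ^ 5) ≤ Z ^ 4 * R' ^ 4 := by
      calc Z ^ 4 * (32 * Z ^ 5 * |θ - ρ| ^ 5) = 32 * Z ^ 9 * |θ - ρ| ^ 5 := by ring
        _ ≤ Z ^ 4 * R' ^ 4 := d2
    have d4 : 32 * Z ^ 5 * |θ - ρ| ^ 5 ≤ R' ^ 4 := le_of_mul_le_mul_left d3 (by positivity)
    have d5 : (t ^ 4 / 2) ^ 5 = R' ^ 4 / 32 := by rw [← ht]; ring
    rw [d5, mul_pow]
    linarith
  have h3 : |θ' - ρ'| ≤ t ^ 4 := by linarith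
  calc |θ' - ρ'| ^ 5 ≤ (t ^ 4) ^ 5 := pow_le_pow_left₀ (abs_nonneg _) h3 5
    _ = R' ^ 4 := by rw [← ht]; ring

/-- the label of the mate -/
def mt' (ρ : ℚ) (a a' : ℤ) (x x' : ℕ) : ℚ := ((a : ℚ) + ρ) * x' / x - a'

lemma mt'_rel (hx : 0 < x) : ((a : ℝ) + ρ) * x' = (a' + (mt' ρ a a' x x' : ℚ)) * x := by
  have hx0 : (x : ℝ) ≠ 0 := by exact_mod_cast hx.ne'
  unfold mt'
  push_cast
  field_simp
  ring

lemma mt'_den (hx : 0 < x) : (mt' ρ a a' x x').den ≤ x * ρ.den := by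
  have h1 : (mt' ρ a a' x x').den = (((a : ℚ) + ρ) * x' / x).den := by
    unfold mt'
    rw [sub_eq_add_neg, ← Int.cast_neg]
    exact Rat.add_intCast_den _ _
  rw [h1]
  refine Nat.le_of_dvd (Nat.mul_pos hx ρ.den_pos) ?_
  have h2 : (((a : ℚ) + ρ) * x' / x) = (((a : ℚ) + ρ) * x') * (1 / (x : ℚ)) := by ring
  rw [h2]
  refine (Rat.mul_den_dvd _ _).trans ?_
  have h3 : (1 / (x : ℚ)).den ∣ x := by
    have : (1 / (x : ℚ)) = Rat.divInt 1 x := by
      rw [Rat.divInt_eq_div]; push_cast; rfl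
    rw [this]
    have := Rat.den_dvd 1 (x : ℤ)
    exact_mod_cast this
  rw [mul_comm x]
  exact mul_dvd_mul (den_int_mul ρ a x') h3

/-- **the label of the mate, up to the threshold zone** -/
theorem transfer (h : Lab θ R ρ) (hc : Cmp Z R R' x x') (hK : 0 ≤ K)
    (hov : Ov K θ θ' R R' a a' x x') (hs : (4 * K) ^ 5 * Z ^ 10 * R' ≤ 1) :
    Lab θ' R' (mt' ρ a a' x x') ∨ Zn Z R |θ - ρ| ρ.den := by
  by_cases hz : Zn Z R |θ - ρ| ρ.den
  · exact Or.inr hz
  left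
  unfold Zn at hz
  push Not at hz
  obtain ⟨z1, z2, z3⟩ := hz
  have hZ := hc.Z1
  refine ⟨hc.R0', ?_, ?_, near_transfer hc hK hov (mt'_rel hc.x0) hs z3⟩
  · have := hc.RZ'
    linarith
  · have h1 : ((mt' ρ a a' x x').den : ℝ) ≤ Z * ρ.den := by
      have h2 : ((mt' ρ a a' x x').den : ℝ) ≤ x * ρ.den := by exact_mod_cast mt'_den hc.x0
      exact h2.trans (mul_le_mul_of_nonneg_right hc.xZ (by positivity))
    calc ((mt' ρ a a' x x').den : ℝ) ^ 5 * R' ≤ (Z * ρ.den) ^ 5 * (Z * R) := by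
          refine mul_le_mul (pow_le_pow_left₀ (by positivity) h1 5) hc.RZ' hc.R0'.le ?_
          have : 0 ≤ Z * (ρ.den : ℝ) := by positivity
          positivity
      _ = Z ^ 6 * ((ρ.den : ℝ) ^ 5 * R) := by ring
      _ ≤ 1 := z2

/-! ### root coordinates -/

/-- the overlap of two pieces with a common point `y` of the circle -/
theorem ov_of_pt {g w w' B B' : ℕ} {γ ψ ψ' y z z' : ℝ} (hg : 0 < g) (hw : w = g * x)
    (hw' : w' = g * x') (hz : (B : ℝ) * z = w * y - B * γ - a)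
    (hz' : (B' : ℝ) * z' = w' * y - B' * γ - a') (h : |z| ≤ ψ) (h' : |z'| ≤ ψ') :
    Ov 1 (B * γ) (B' * γ) (B * ψ) (B' * ψ') a a' x x' := by
  unfold Ov
  have e : ((a : ℝ) + B * γ) * x' - (a' + B' * γ) * x = -((B : ℝ) * z) * x' + (B' * z') * x := by
    rw [hz, hz', hw, hw']
    push_cast
    ring
  rw [e, one_mul]
  refine (abs_add_le _ _).trans ?_
  rw [abs_mul, abs_neg, abs_mul (B : ℝ), abs_mul ((B' : ℝ) * z'), abs_mul (B' : ℝ), Nat.abs_cast,
    Nat.abs_cast, Nat.abs_cast, Nat.abs_cast]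
  have h1 : (B : ℝ) * |z| * x' ≤ B * ψ * x' := by
    refine mul_le_mul_of_nonneg_right (mul_le_mul_of_nonneg_left h ?_) ?_ <;> positivity
  have h2 : (B' : ℝ) * |z'| * x ≤ B' * ψ' * x := by
    refine mul_le_mul_of_nonneg_right (mul_le_mul_of_nonneg_left h' ?_) ?_ <;> positivity
  linarith

/-- the geometry of two comparable pieces `(ψ, B, a, x)`, `(ψ', B', a', x')` which overlap -/
structure Geo (Z K γ ψ ψ' : ℝ) (B B' : ℕ) (a a' : ℤ) (x x' : ℕ) : Prop where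
  B0 : 0 < B
  B0' : 0 < B'
  cmp : Cmp Z (B * ψ) (B' * ψ') x x'
  K0 : 0 ≤ K
  ov : Ov K (B * γ) (B' * γ) (B * ψ) (B' * ψ') a a' x x'

lemma Geo.symm {γ ψ ψ' : ℝ} {B B' : ℕ} (h : Geo Z K γ ψ ψ' B B' a a' x x') :
    Geo Z K γ ψ' ψ B' B a' a x' x := ⟨h.B0', h.B0, h.cmp.symm, h.K0, h.ov.symm⟩

/-- smallness of the radii -/
structure Sm (Z K R : ℝ) : Prop where
  s1 : (2 * (1 + K)) ^ 5 * Z ^ 6 * R ^ 2 < 1
  s2 : (4 * K) ^ 5 * Z ^ 10 * R ≤ 1

/-- zone of the label `σ` of the stage `B` -/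
def Zl (Z γ ψ : ℝ) (B : ℕ) (σ : ℚ) : Prop :=
  Zn Z (B * ψ) |B * γ - ((B * σ : ℚ) : ℝ)| (B * σ : ℚ).den

/-- the exact relation of two labels in root coordinates -/
def Rl (B B' : ℕ) (a a' : ℤ) (x x' : ℕ) (σ σ' : ℚ) : Prop :=
  ((a : ℝ) + ((B * σ : ℚ) : ℝ)) * x' = (a' + ((B' * σ' : ℚ) : ℝ)) * x

lemma Rl.symm {B B' : ℕ} {σ σ' : ℚ} (h : Rl B B' a a' x x' σ σ') : Rl B' B a' a x' x σ' σ :=
  Eq.symm h

variable {γ ψ ψ' : ℝ} {B B' : ℕ} {σ σ' : ℚ}

/-- **own labels of two comparable overlapping pieces have one exact centre** -/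
theorem lab_rel (hG : Geo Z K γ ψ ψ' B B' a a' x x') (hs : Sm Z K (B * ψ)) (hs' : Sm Z K (B' * ψ'))
    (h : lab0 γ ψ B = some σ) (h' : lab0 γ ψ' B' = some σ') : Rl B B' a a' x x' σ σ' :=
  exact_of_near (lab0_spec hG.B0 h) (lab0_spec hG.B0' h') hG.cmp hG.K0 hG.ov hs.s1 hs'.s1

/-- **the mate of an own label has an own label of the same exact centre, or the label is in its
threshold zone** -/
theorem lab_mate (hG : Geo Z K γ ψ ψ' B B' a a' x x') (hs' : Sm Z K (B' * ψ'))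
    (h : lab0 γ ψ B = some σ) :
    (∃ σ', lab0 γ ψ' B' = some σ' ∧ Rl B B' a a' x x' σ σ') ∨ Zl Z γ ψ B σ := by
  rcases transfer (lab0_spec hG.B0 h) hG.cmp hG.K0 hG.ov hs'.s2 with h1 | h1
  · left
    have hB : (B' : ℚ) ≠ 0 := by exact_mod_cast hG.B0'.ne'
    refine ⟨mt' (B * σ) a a' x x' / B', ?_, ?_⟩
    · refine StCh24.lab0_of_Lab hG.B0' ?_
      rw [show ((B' : ℚ) * (mt' (B * σ) a a' x x' / B')) = mt' (B * σ) a a' x x' by
        field_simp]
      exact h1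
    · unfold Rl
      rw [show ((B' : ℚ) * (mt' (B * σ) a a' x x' / B')) = mt' (B * σ) a a' x x' by
        field_simp]
      exact mt'_rel hG.cmp.x0
  · exact Or.inr h1

/-- the index of two labelled pieces with one exact centre, `w = g x`, `q = A w`, `A B = A' B'` -/
theorem ix_of_rel (P : Crest.Agent.R4P.W363.WP) {p p' q r A A' g w w' : ℕ} (hA : 0 < A) (hA' : 0 < A') (hB : 0 < B)
    (hg : 0 < g) (hx : 0 < x) (hx' : 0 < x') (hw : w = g * x) (hw' : w' = g * x')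
    (hq : q = A * w) (hr : r = A' * w') (hN : A * B = A' * B') {y z z' : ℝ}
    (hz : (B : ℝ) * z = w * y - B * γ - a) (hz' : (B' : ℝ) * z' = w' * y - B' * γ - a')
    (h : Rl B B' a a' x x' σ σ') : P.ix γ p q (some σ) z = P.ix γ p' r (some σ') z' := by
  have h0 : P.ix γ p' r (some σ') z' = P.ix γ p r (some σ') z' := StCh24.ix_some P p' p r
  rw [h0]
  have hg' : (0 : ℝ) < g := by exact_mod_cast hg
  have hxx : (0 : ℝ) < x := by exact_mod_cast hx
  have hxx' : (0 : ℝ) < x' := by exact_mod_cast hx'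
  refine Crest.Agent.R4P.W363.WP.same_of_exact P hA hA' hB (by rw [hw]; positivity) (by rw [hw']; positivity) hq hr hN
    hz hz' ?_
  rw [hw, hw']
  unfold Rl at h
  push_cast at h ⊢
  rw [div_eq_div_iff (by positivity) (by positivity)]
  linear_combination g * h

/-! ### sleeping labels, own missing ties -/

/-- two sparse labels with one exact centre, or none both -/
def SRl (B B' : ℕ) (a a' : ℤ) (x x' : ℕ) (s s' : Option ℚ) : Prop :=
  (s = none ∧ s' = none) ∨ ∃ σ σ', s = some σ ∧ s' = some σ' ∧ Rl B B' a a' x x' σ σ'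

lemma SRl.symm {s s' : Option ℚ} (h : SRl B B' a a' x x' s s') : SRl B' B a' a x' x s' s := by
  rcases h with ⟨h1, h2⟩ | ⟨σ, σ', h1, h2, h3⟩
  · exact Or.inl ⟨h2, h1⟩
  · exact Or.inr ⟨σ', σ, h2, h1, h3.symm⟩

/-- accuracy zone of the sleeping label `σ` at the missing product `B` -/
def Za (Z γ ψ : ℝ) (B : ℕ) (σ : ℚ) : Prop :=
  acc γ ψ B σ ∧ ψ ^ 4 < 32 * Z ^ 9 * (B * |γ - σ| ^ 5)

/-- **the accuracy passes to the mate**, or the accuracy zone -/
theorem acc_mate (hG : Geo Z K γ ψ ψ' B B' a a' x x') (hs' : Sm Z K (B' * ψ'))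
    (hr : Rl B B' a a' x x' σ σ') (h : acc γ ψ B σ) : acc γ ψ' B' σ' ∨ Za Z γ ψ B σ := by
  by_cases hz : Za Z γ ψ B σ
  · exact Or.inr hz
  left
  have h1 : 32 * Z ^ 9 * (B * |γ - σ| ^ 5) ≤ ψ ^ 4 := by
    by_contra hc
    exact hz ⟨h, not_le.1 hc⟩
  have hB : (0 : ℝ) < B := by exact_mod_cast hG.B0
  have hB' : (0 : ℝ) < B' := by exact_mod_cast hG.B0'
  have e : ∀ (b : ℕ) (τ : ℚ), |(b : ℝ) * γ - ((b * τ : ℚ) : ℝ)| ^ 5 = b ^ 4 * (b * |γ - τ| ^ 5) := by
    intro b τ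
    have e0 : (b : ℝ) * γ - ((b * τ : ℚ) : ℝ) = b * (γ - τ) := by push_cast; ring
    rw [e0, abs_mul, Nat.abs_cast]
    ring
  have h2 := near_transfer hG.cmp hG.K0 hG.ov hr hs'.s2 (by
    rw [e B σ, mul_pow]
    have : 0 ≤ (B : ℝ) ^ 4 := by positivity
    calc 32 * Z ^ 9 * ((B : ℝ) ^ 4 * (B * |γ - σ| ^ 5))
        = (B : ℝ) ^ 4 * (32 * Z ^ 9 * (B * |γ - σ| ^ 5)) := by ring
      _ ≤ (B : ℝ) ^ 4 * ψ ^ 4 := mul_le_mul_of_nonneg_left h1 this)
  rw [e B' σ', mul_pow] at h2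
  exact le_of_mul_le_mul_left h2 (by positivity)

/-- zone event of a piece at the stage `s :: L` : own label in its threshold zone, or the sparse label
of `L` in its accuracy zone -/
def Zs (Z γ ψ : ℝ) (s : ℕ) (L : List ℕ) : Prop :=
  (∃ μ, own γ ψ (s :: L) = some μ ∧ Zl Z γ ψ (s :: L).prod μ) ∨
    ∃ κ, sla γ ψ L = some κ ∧ Za Z γ ψ (s :: L).prod κ

lemma sla_some {L : List ℕ} {κ : ℚ} : sla γ ψ L = some κ ↔ sl γ ψ L = some κ ∧ acc γ ψ L.prod κ := by
  unfold sla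
  constructor
  · intro h
    split_ifs at h with h1
    obtain ⟨τ, h2, h3⟩ := h1
    have : τ = κ := Option.some.inj (h2.symm.trans h)
    exact ⟨h, this ▸ h3⟩
  · rintro ⟨h1, h2⟩
    rw [if_pos ⟨κ, h1, h2⟩, h1]

lemma sla_of_own' {L : List ℕ} {μ : ℚ} (hL : 0 < L.prod) (h : own γ ψ L = some μ) :
    sla γ ψ L = some μ := sla_some.2 ⟨sl_of_own h, (own_spec hL h).2.2.2⟩

/-- **one step of the sparse regime** : the stage changes from `L`, `L'` to `s :: L`, `s' :: L'` (own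
missing ties of the two mates); one exact centre before ==> one exact centre after or both `none`, or
a zone event of one of the two pieces.  `SRl` is taken in the coordinates of the new circle. -/
theorem sla_mate {s s' : ℕ} {L L' : List ℕ}
    (hG : Geo Z K γ ψ ψ' (s :: L).prod (s' :: L').prod a a' x x')
    (hs : Sm Z K ((s :: L).prod * ψ)) (hs' : Sm Z K ((s' :: L').prod * ψ'))
    (h0 : SRl (s :: L).prod (s' :: L').prod a a' x x' (sla γ ψ L) (sla γ ψ' L')) :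
    SRl (s :: L).prod (s' :: L').prod a a' x x' (sla γ ψ (s :: L)) (sla γ ψ' (s' :: L')) ∨
      Zs Z γ ψ s L ∨ Zs Z γ ψ' s' L' := by
  have hB := hG.B0
  have hB' := hG.B0'
  rcases ho : own γ ψ (s :: L) with _ | μ
  swap
  · rcases lab_mate hG hs' ho with ⟨μ', h1, h2⟩ | h1
    · exact Or.inl (Or.inr ⟨μ, μ', sla_of_own' hB ho, sla_of_own' hB' h1, h2⟩)
    · exact Or.inr (Or.inl (Or.inl ⟨μ, ho, h1⟩))
  rcases ho' : own γ ψ' (s' :: L') with _ | μ'
  swap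
  · rcases lab_mate hG.symm hs ho' with ⟨μ, h1, h2⟩ | h1
    · exact absurd (ho.symm.trans h1) (by simp)
    · exact Or.inr (Or.inr (Or.inl ⟨μ', ho', h1⟩))
  -- neither has an own label
  have e1 := sl_of_none ho
  have e2 := sl_of_none ho'
  -- `sla` of the new stage: the sparse label of `L` if it is accurate
  have key : ∀ {ψ : ℝ} {s : ℕ} {L : List ℕ}, 0 < (s :: L).prod → own γ ψ (s :: L) = none →
      (∀ κ, sla γ ψ (s :: L) = some κ ↔ sla γ ψ L = some κ ∧ acc γ ψ (s :: L).prod κ) := by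
    intro ψ s L hp hn κ
    have hs0 : 0 < s := by
      rw [List.prod_cons] at hp
      exact Nat.pos_of_mul_pos_right hp
    rw [sla_some, sla_some, sl_of_none hn]
    constructor
    · rintro ⟨h1, h2⟩
      rw [List.prod_cons] at h2
      exact ⟨⟨h1, acc_anti hs0 h2⟩, by rw [List.prod_cons]; exact h2⟩
    · rintro ⟨⟨h1, _⟩, h2⟩
      exact ⟨h1, h2⟩
  have none_of : ∀ {ψ : ℝ} {s : ℕ} {L : List ℕ}, 0 < (s :: L).prod → own γ ψ (s :: L) = none →
      (∀ κ, sla γ ψ L = some κ → ¬ acc γ ψ (s :: L).prod κ) → sla γ ψ (s :: L) = none := by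
    intro ψ s L hp hn h
    rcases hh : sla γ ψ (s :: L) with _ | κ
    · rfl
    · obtain ⟨h1, h2⟩ := (key hp hn κ).1 hh
      exact absurd h2 (h κ h1)
  rcases h0 with ⟨h1, h2⟩ | ⟨κ, κ', h1, h2, h3⟩
  · left; left
    refine ⟨none_of hB ho fun κ hκ => ?_, none_of hB' ho' fun κ hκ => ?_⟩
    · exact absurd (h1.symm.trans hκ) (by simp)
    · exact absurd (h2.symm.trans hκ) (by simp)
  · by_cases a1 : acc γ ψ (s :: L).prod κ
    · rcases acc_mate hG hs' h3 a1 with a2 | a2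
      · left; right
        exact ⟨κ, κ', (key hB ho κ).2 ⟨h1, a1⟩, (key hB' ho' κ').2 ⟨h2, a2⟩, h3⟩
      · exact Or.inr (Or.inl (Or.inr ⟨κ, h1, a2⟩))
    · by_cases a2 : acc γ ψ' (s' :: L').prod κ'
      · rcases acc_mate hG.symm hs h3.symm a2 with a3 | a3
        · exact absurd a3 a1
        · exact Or.inr (Or.inr (Or.inr ⟨κ', h2, a3⟩))
      · left; left
        refine ⟨none_of hB ho fun κ₁ hκ => ?_, none_of hB' ho' fun κ₁ hκ => ?_⟩
        · have : κ = κ₁ := Option.some.inj (h1.symm.trans hκ)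
          exact this ▸ a1
        · have : κ' = κ₁ := Option.some.inj (h2.symm.trans hκ)
          exact this ▸ a2

end Crest.Agent.R4P.PosD33
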