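import Crest.Agent.R4P.PosD_33

/-!
R4 (S0004) with powers, helper33: **position determinism of the permissive labels** (helper10 8094 (6),
helper32 10435): `PosD_33` for the labels `LabP e` with the exponents `e = (u, v)`,
`den^5 R^(1+u) ≤ 1`, `|θ - ρ|^5 ≤ R^(4(1-v))`, `0 ≤ u, v ≤ 1/20`.
-/

set_option autoImplicit false
set_option linter.unusedSectionVars false
set_option linter.unusedVariables false

namespace Crest.Agent.R4P.PosP33

open Crest.Agent.R4.LF363 Crest.Agent.R4.W363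
open Crest.Agent.R4P.FinL21 (labR_iff den_le den_dvd)
open Crest.Agent.R4P.PosD33

/-- the two exponents -/
structure UV where
  u : ℝ
  v : ℝ
  u0 : 0 ≤ u
  u1 : u ≤ 1 / 20
  v0 : 0 ≤ v
  v1 : v ≤ 1 / 20

/-- **permissive label** -/
structure LabP (e : UV) (θ R : ℝ) (ρ : ℚ) : Prop where
  pos : 0 < R
  le : R ≤ 1 / 10
  den : (ρ.den : ℝ) ^ 5 * R ^ (1 + e.u) ≤ 1
  near : |θ - ρ| ^ 5 ≤ R ^ (4 * (1 - e.v))

variable {e : UV} {θ θ' R R' Z K : ℝ} {ρ ρ' : ℚ} {a a' : ℤ} {x x' : ℕ}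

/-! ### powers -/

lemma rp_le_one {R : ℝ} (h0 : 0 < R) (h1 : R ≤ 1) : R ^ (1 + e.u) ≤ R := by
  calc R ^ (1 + e.u) ≤ R ^ (1 : ℝ) :=
        Real.rpow_le_rpow_of_exponent_ge h0 h1 (by linarith [e.u0])
    _ = R := Real.rpow_one R

lemma rm_ge {R : ℝ} (h0 : 0 < R) (h1 : R ≤ 1) : R ^ 4 ≤ R ^ (4 * (1 - e.v)) := by
  calc R ^ 4 = R ^ ((4 : ℕ) : ℝ) := (Real.rpow_natCast R 4).symm
    _ ≤ R ^ (4 * (1 - e.v)) := Real.rpow_le_rpow_of_exponent_ge h0 h1 (by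
        push_cast; linarith [e.v0])

/-- `(Z R)^(1+u) ≤ Z^2 R^(1+u)` -/
lemma rp_mul {Z R : ℝ} (hZ : 1 ≤ Z) (h0 : 0 ≤ R) : (Z * R) ^ (1 + e.u) ≤ Z ^ 2 * R ^ (1 + e.u) := by
  rw [Real.mul_rpow (by linarith) h0]
  refine mul_le_mul_of_nonneg_right ?_ (Real.rpow_nonneg h0 _)
  calc Z ^ (1 + e.u) ≤ Z ^ ((2 : ℕ) : ℝ) := Real.rpow_le_rpow_of_exponent_le hZ (by
        push_cast; linarith [e.u1])
    _ = Z ^ 2 := Real.rpow_natCast Z 2

/-- `(Z R)^(4(1-v)) ≤ Z^4 R^(4(1-v))` -/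
lemma rm_mul {Z R : ℝ} (hZ : 1 ≤ Z) (h0 : 0 ≤ R) :
    (Z * R) ^ (4 * (1 - e.v)) ≤ Z ^ 4 * R ^ (4 * (1 - e.v)) := by
  rw [Real.mul_rpow (by linarith) h0]
  refine mul_le_mul_of_nonneg_right ?_ (Real.rpow_nonneg h0 _)
  calc Z ^ (4 * (1 - e.v)) ≤ Z ^ ((4 : ℕ) : ℝ) := Real.rpow_le_rpow_of_exponent_le hZ (by
        push_cast; linarith [e.v0])
    _ = Z ^ 4 := Real.rpow_natCast Z 4

/-- a hundredth root -/
lemma hund {M : ℝ} (hM : 0 ≤ M) : ∃ t : ℝ, 0 ≤ t ∧ t ^ 100 = M :=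
  ⟨M ^ (1 / 100 : ℝ), by positivity, by
    rw [← Real.rpow_natCast, ← Real.rpow_mul hM]; norm_num⟩

lemma hund_rp {M t s : ℝ} (ht : 0 ≤ t) (h : t ^ 100 = M) (n : ℕ) (hs : s * 100 = n) :
    M ^ s = t ^ n := by
  rw [← h, ← Real.rpow_natCast, ← Real.rpow_mul ht, ← Real.rpow_natCast]
  congr 1
  rw [← hs]; push_cast; ring

/-- **the exact centres of two labelled pieces which overlap are equal** -/
theorem exact_of_near (h : LabP e θ R ρ) (h' : LabP e θ' R' ρ') (hc : Cmp Z R R' x x') (hK : 0 ≤ K)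
    (hov : Ov K θ θ' R R' a a' x x')
    (hs : (2 * (1 + K)) ^ 5 * Z ^ 7 * R < 1) (hs' : (2 * (1 + K)) ^ 5 * Z ^ 7 * R' < 1) :
    ((a : ℝ) + ρ) * x' = (a' + ρ') * x := by
  have hZ := hc.Z1
  -- the two rationals
  have hd1 : (((a : ℚ) + ρ) * x').den ≤ ρ.den := Nat.le_of_dvd ρ.den_pos (den_int_mul ρ a x')
  have hd2 : (((a' : ℚ) + ρ') * x).den ≤ ρ'.den := Nat.le_of_dvd ρ'.den_pos (den_int_mul ρ' a' x)
  set M : ℝ := max R R' with hM
  have hM0 : 0 < M := lt_of_lt_of_le hc.R0 (le_max_left _ _)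
  have hM1 : M ≤ 1 := max_le (by linarith [h.le]) (by linarith [h'.le])
  obtain ⟨t, ht0, ht⟩ := hund hM0.le
  have ht1 : t ≤ 1 := by
    by_contra hc
    push Not at hc
    have := one_lt_pow₀ hc (show (100 : ℕ) ≠ 0 by norm_num)
    linarith
  have htp : 0 < t := by
    rcases ht0.lt_or_eq with h1 | h1
    · exact h1
    · rw [← h1] at ht; norm_num at ht; linarith
  have hnear : ∀ {θ R : ℝ} {ρ : ℚ}, LabP e θ R ρ → R ≤ M → |θ - ρ| ≤ t ^ 76 := by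
    intro θ R ρ h hRM
    refine le_of_pow5 (by positivity) ?_
    calc |θ - ρ| ^ 5 ≤ R ^ (4 * (1 - e.v)) := h.near
      _ ≤ M ^ (4 * (1 - e.v)) := Real.rpow_le_rpow h.pos.le hRM (by linarith [e.v1])
      _ ≤ M ^ (19 / 5 : ℝ) := Real.rpow_le_rpow_of_exponent_ge hM0 hM1 (by linarith [e.v1])
      _ = t ^ 380 := hund_rp ht0 ht 380 (by norm_num)
      _ = (t ^ 76) ^ 5 := by ring
  have e1 := hnear h (le_max_left _ _)
  have e2 := hnear h' (le_max_right _ _)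
  have e3 : M ≤ t ^ 76 := by
    rw [← ht]
    exact pow_le_pow_of_le_one ht0 ht1 (by norm_num)
  have hx0 : (0 : ℝ) ≤ x := Nat.cast_nonneg _
  have hx0' : (0 : ℝ) ≤ x' := Nat.cast_nonneg _
  have ht4 : 0 ≤ t ^ 76 := by positivity
  -- the distance
  have key : |((a : ℝ) + ρ) * x' - (a' + ρ') * x| ≤ 2 * (1 + K) * Z * t ^ 76 := by
    have e : ((a : ℝ) + ρ) * x' - (a' + ρ') * x =
        (((a : ℝ) + θ) * x' - (a' + θ') * x) - (θ - ρ) * x' + (θ' - ρ') * x := by ring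
    rw [e]
    have t1 := abs_add_le ((((a : ℝ) + θ) * x' - (a' + θ') * x) - (θ - ρ) * x') ((θ' - ρ') * x)
    have t2 := abs_sub (((a : ℝ) + θ) * x' - (a' + θ') * x) ((θ - ρ) * x')
    have t3 : |(θ - ρ) * x'| ≤ t ^ 76 * Z := by
      rw [abs_mul, Nat.abs_cast]
      exact mul_le_mul e1 hc.xZ' hx0' ht4
    have t4 : |(θ' - ρ') * x| ≤ t ^ 76 * Z := by
      rw [abs_mul, Nat.abs_cast]
      exact mul_le_mul e2 hc.xZ hx0 ht4
    have t5 : (x' : ℝ) * R ≤ Z * t ^ 76 :=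
      mul_le_mul hc.xZ' ((le_max_left _ _).trans e3) hc.R0.le (by linarith)
    have t6 : (x : ℝ) * R' ≤ Z * t ^ 76 :=
      mul_le_mul hc.xZ ((le_max_right _ _).trans e3) hc.R0'.le (by linarith)
    have t7 : K * (x' * R + x * R') ≤ K * (2 * (Z * t ^ 76)) :=
      mul_le_mul_of_nonneg_left (by linarith) hK
    unfold Ov at hov
    nlinarith
  -- the denominators
  have hk0 : (0 : ℝ) < ρ.den := by exact_mod_cast ρ.den_pos
  have hk0' : (0 : ℝ) < ρ'.den := by exact_mod_cast ρ'.den_pos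
  have hden : ((ρ.den : ℝ) * ρ'.den) ^ 5 * t ^ 210 ≤ Z ^ 2 := by
    have a1 : ((ρ.den : ℝ) * ρ'.den) ^ 5 * (R * R') ^ (1 + e.u) ≤ 1 := by
      rw [Real.mul_rpow hc.R0.le hc.R0'.le]
      calc ((ρ.den : ℝ) * ρ'.den) ^ 5 * (R ^ (1 + e.u) * R' ^ (1 + e.u)) =
            ((ρ.den : ℝ) ^ 5 * R ^ (1 + e.u)) * ((ρ'.den : ℝ) ^ 5 * R' ^ (1 + e.u)) := by ring
        _ ≤ 1 * 1 := mul_le_mul h.den h'.den (by have := hc.R0'; positivity) zero_le_one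
        _ = 1 := one_mul 1
    have a2 : M ^ 2 ≤ Z * (R * R') := by
      rcases le_total R R' with h1 | h1
      · have : M = R' := max_eq_right h1
        rw [this]
        nlinarith [mul_le_mul_of_nonneg_right hc.RZ' hc.R0'.le]
      · have : M = R := max_eq_left h1
        rw [this]
        nlinarith [mul_le_mul_of_nonneg_right hc.RZ hc.R0.le]
    have a4 : t ^ 210 ≤ Z ^ 2 * (R * R') ^ (1 + e.u) := by
      have b1 : M ^ 2 = t ^ 200 := by rw [← ht]; ring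
      calc t ^ 210 = (M ^ 2) ^ (21 / 20 : ℝ) := by
            rw [b1, ← Real.rpow_natCast t 200, ← Real.rpow_mul ht0, ← Real.rpow_natCast]
            congr 1; norm_num
        _ ≤ (M ^ 2) ^ (1 + e.u) := Real.rpow_le_rpow_of_exponent_ge (by positivity)
            (pow_le_one₀ hM0.le hM1) (by linarith [e.u1])
        _ ≤ (Z * (R * R')) ^ (1 + e.u) := Real.rpow_le_rpow (by positivity) a2 (by linarith [e.u0])
        _ ≤ Z ^ 2 * (R * R') ^ (1 + e.u) := rp_mul hZ (mul_nonneg hc.R0.le hc.R0'.le)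
    have a3 : 0 ≤ ((ρ.den : ℝ) * ρ'.den) ^ 5 := by positivity
    calc ((ρ.den : ℝ) * ρ'.den) ^ 5 * t ^ 210 ≤
          ((ρ.den : ℝ) * ρ'.den) ^ 5 * (Z ^ 2 * (R * R') ^ (1 + e.u)) :=
          mul_le_mul_of_nonneg_left a4 a3
      _ = Z ^ 2 * (((ρ.den : ℝ) * ρ'.den) ^ 5 * (R * R') ^ (1 + e.u)) := by ring
      _ ≤ Z ^ 2 * 1 := mul_le_mul_of_nonneg_left a1 (by positivity)
      _ = Z ^ 2 := mul_one _
  have hlt : |((a : ℝ) + ρ) * x' - (a' + ρ') * x| * (ρ.den * ρ'.den) < 1 := by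
    refine lt_of_le_of_lt (mul_le_mul_of_nonneg_right key (by positivity)) ?_
    by_contra hge
    push Not at hge
    have h5 : (1 : ℝ) ≤ (2 * (1 + K) * Z * t ^ 76 * (ρ.den * ρ'.den)) ^ 5 := one_le_pow₀ hge
    have h6 : (2 * (1 + K) * Z * t ^ 76 * (ρ.den * ρ'.den)) ^ 5 =
        (2 * (1 + K)) ^ 5 * Z ^ 5 * t ^ 170 * (((ρ.den : ℝ) * ρ'.den) ^ 5 * t ^ 210) := by
      ring
    have h7 : (2 * (1 + K)) ^ 5 * Z ^ 5 * t ^ 170 * (((ρ.den : ℝ) * ρ'.den) ^ 5 * t ^ 210) ≤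
        (2 * (1 + K)) ^ 5 * Z ^ 5 * t ^ 170 * Z ^ 2 :=
      mul_le_mul_of_nonneg_left hden (by positivity)
    have h8 : (2 * (1 + K)) ^ 5 * Z ^ 5 * t ^ 170 * Z ^ 2 ≤ (2 * (1 + K)) ^ 5 * Z ^ 7 * M := by
      have b1 : t ^ 170 ≤ M := by
        rw [← ht]; exact pow_le_pow_of_le_one ht0 ht1 (by norm_num)
      calc (2 * (1 + K)) ^ 5 * Z ^ 5 * t ^ 170 * Z ^ 2 = (2 * (1 + K)) ^ 5 * Z ^ 7 * t ^ 170 := by
            ring
        _ ≤ (2 * (1 + K)) ^ 5 * Z ^ 7 * M := mul_le_mul_of_nonneg_left b1 (by positivity)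
    have h9 : (2 * (1 + K)) ^ 5 * Z ^ 7 * M < 1 := by
      rcases le_total R R' with h1 | h1
      · rw [hM, max_eq_right h1]; exact hs'
      · rw [hM, max_eq_left h1]; exact hs
    linarith
  have := eq_of_close (u := ((a : ℚ) + ρ) * x') (v := ((a' : ℚ) + ρ') * x) hd1 hd2 (by
    push_cast
    exact hlt)
  exact_mod_cast this

/-! ### transfer of the accuracy and of the label -/

/-- **threshold zone** of a label: size, denominator, accuracy; `er` error, `k` denominator -/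
def ZnP (e : UV) (Z R er : ℝ) (k : ℕ) : Prop :=
  1 < 10 * Z * R ∨ 1 < Z ^ 7 * ((k : ℝ) ^ 5 * R ^ (1 + e.u)) ∨
    R ^ (4 * (1 - e.v)) < 32 * Z ^ 9 * er ^ 5

/-- the accuracy passes to the mate of the same exact centre, up to the zone of the accuracy -/
theorem near_transfer (hc : Cmp Z R R' x x') (hK : 0 ≤ K) (hov : Ov K θ θ' R R' a a' x x')
    (hr : ((a : ℝ) + ρ) * x' = (a' + ρ') * x) (hs : (4 * K) ^ 5 * Z ^ 10 * R' ≤ 1)
    (hR1 : R' ≤ 1)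
    (he : 32 * Z ^ 9 * |θ - ρ| ^ 5 ≤ R ^ (4 * (1 - e.v))) : |θ' - ρ'| ^ 5 ≤ R' ^ (4 * (1 - e.v)) := by
  have hZ := hc.Z1
  have hx0 : (0 : ℝ) < x := by exact_mod_cast hc.x0
  have hx1 : (1 : ℝ) ≤ x := by exact_mod_cast hc.x0
  have hx0' : (0 : ℝ) ≤ x' := Nat.cast_nonneg _
  obtain ⟨t, ht0, ht⟩ := fifth hc.R0'.le
  obtain ⟨T, hT0, hT⟩ := fifth (Real.rpow_nonneg hc.R0'.le (4 * (1 - e.v)))
  have ht4 : 0 ≤ t ^ 4 := by positivity
  have htT : t ^ 4 ≤ T := by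
    refine le_of_pow5 hT0 ?_
    rw [hT]
    calc (t ^ 4) ^ 5 = R' ^ 4 := by rw [← ht]; ring
      _ ≤ _ := rm_ge hc.R0' hR1
  -- the error of the mate
  have h1 : |θ' - ρ'| * x ≤ K * (x' * R + x * R') + x' * |θ - ρ| := by
    have e : (θ' - ρ') * x = -(((a : ℝ) + θ) * x' - (a' + θ') * x) + (θ - ρ) * x' := by
      linear_combination hr
    have e' : |θ' - ρ'| * x = |(θ' - ρ') * x| := by rw [abs_mul, Nat.abs_cast]
    rw [e', e]
    refine (abs_add_le _ _).trans ?_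
    rw [abs_neg, abs_mul (θ - ρ), Nat.abs_cast, mul_comm |θ - ρ|]
    unfold Ov at hov
    linarith
  have h2 : |θ' - ρ'| ≤ 2 * K * Z ^ 2 * R' + Z * |θ - ρ| := by
    have hab := abs_nonneg (θ - ρ)
    have b1 : (x' : ℝ) * R ≤ x * (Z * (Z * R')) := by
      calc (x' : ℝ) * R ≤ Z * (Z * R') := mul_le_mul hc.xZ' hc.RZ hc.R0.le (by linarith)
        _ ≤ x * (Z * (Z * R')) := by
            have : 0 ≤ Z * (Z * R') := by have := hc.R0'; positivity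
            nlinarith
    have b2 : (x' : ℝ) * |θ - ρ| ≤ x * (Z * |θ - ρ|) := by
      calc (x' : ℝ) * |θ - ρ| ≤ Z * |θ - ρ| := mul_le_mul_of_nonneg_right hc.xZ' hab
        _ ≤ x * (Z * |θ - ρ|) := by
            have : 0 ≤ Z * |θ - ρ| := by positivity
            nlinarith
    have b3 : x * R' ≤ x * (Z ^ 2 * R') := by
      have : R' ≤ Z ^ 2 * R' := by
        have := hc.R0'
        nlinarith [one_le_pow₀ hZ (n := 2)]
      exact mul_le_mul_of_nonneg_left this hx0.le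
    have b4 : K * (x' * R + x * R') ≤ K * (x * (2 * Z ^ 2 * R')) := by
      refine mul_le_mul_of_nonneg_left ?_ hK
      nlinarith
    have b5 : |θ' - ρ'| * x ≤ (2 * K * Z ^ 2 * R' + Z * |θ - ρ|) * x := by nlinarith
    exact le_of_mul_le_mul_right b5 hx0
  -- the two halves
  have c1 : 2 * K * Z ^ 2 * R' ≤ T / 2 := by
    have d1 : 4 * K * Z ^ 2 * t ≤ 1 := by
      refine le_of_pow5 zero_le_one ?_
      rw [one_pow]
      calc (4 * K * Z ^ 2 * t) ^ 5 = (4 * K) ^ 5 * Z ^ 10 * t ^ 5 := by ring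
        _ ≤ 1 := by rw [ht]; exact hs
    have d2 : R' = t * t ^ 4 := by rw [← ht]; ring
    have d3 : 2 * K * Z ^ 2 * R' ≤ t ^ 4 / 2 := by
      rw [d2]
      nlinarith [mul_le_mul_of_nonneg_right d1 ht4]
    linarith
  have c2 : Z * |θ - ρ| ≤ T / 2 := by
    refine le_of_pow5 (by positivity) ?_
    have d1 : R ^ (4 * (1 - e.v)) ≤ Z ^ 4 * R' ^ (4 * (1 - e.v)) :=
      (Real.rpow_le_rpow hc.R0.le hc.RZ (by linarith [e.v1])).trans (rm_mul hZ hc.R0'.le)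
    have d2 : 32 * Z ^ 9 * |θ - ρ| ^ 5 ≤ Z ^ 4 * R' ^ (4 * (1 - e.v)) := he.trans d1
    have d3 : Z ^ 4 * (32 * Z ^ 5 * |θ - ρ| ^ 5) ≤ Z ^ 4 * R' ^ (4 * (1 - e.v)) := by
      calc Z ^ 4 * (32 * Z ^ 5 * |θ - ρ| ^ 5) = 32 * Z ^ 9 * |θ - ρ| ^ 5 := by ring
        _ ≤ _ := d2
    have d4 : 32 * Z ^ 5 * |θ - ρ| ^ 5 ≤ R' ^ (4 * (1 - e.v)) :=
      le_of_mul_le_mul_left d3 (by positivity)
    have d5 : (T / 2) ^ 5 = R' ^ (4 * (1 - e.v)) / 32 := by rw [← hT]; ring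
    rw [d5, mul_pow]
    linarith
  have h3 : |θ' - ρ'| ≤ T := by linarith
  calc |θ' - ρ'| ^ 5 ≤ T ^ 5 := pow_le_pow_left₀ (abs_nonneg _) h3 5
    _ = _ := hT

/-- **the label of the mate, up to the threshold zone** -/
theorem transfer (h : LabP e θ R ρ) (hc : Cmp Z R R' x x') (hK : 0 ≤ K)
    (hov : Ov K θ θ' R R' a a' x x') (hs : (4 * K) ^ 5 * Z ^ 10 * R' ≤ 1) :
    LabP e θ' R' (mt' ρ a a' x x') ∨ ZnP e Z R |θ - ρ| ρ.den := by
  by_cases hz : ZnP e Z R |θ - ρ| ρ.den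
  · exact Or.inr hz
  left
  unfold ZnP at hz
  push Not at hz
  obtain ⟨z1, z2, z3⟩ := hz
  have hZ := hc.Z1
  have hR10 : R' ≤ 1 / 10 := by
    have := hc.RZ'
    linarith
  refine ⟨hc.R0', hR10, ?_, near_transfer hc hK hov (mt'_rel hc.x0) hs (by linarith) z3⟩
  have h1 : ((mt' ρ a a' x x').den : ℝ) ≤ Z * ρ.den := by
    have h2 : ((mt' ρ a a' x x').den : ℝ) ≤ x * ρ.den := by exact_mod_cast mt'_den hc.x0
    exact h2.trans (mul_le_mul_of_nonneg_right hc.xZ (by positivity))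
  have h2 : R' ^ (1 + e.u) ≤ Z ^ 2 * R ^ (1 + e.u) :=
    (Real.rpow_le_rpow hc.R0'.le hc.RZ' (by linarith [e.u0])).trans (rp_mul hZ hc.R0.le)
  calc ((mt' ρ a a' x x').den : ℝ) ^ 5 * R' ^ (1 + e.u) ≤
        (Z * ρ.den) ^ 5 * (Z ^ 2 * R ^ (1 + e.u)) := by
        refine mul_le_mul (pow_le_pow_left₀ (by positivity) h1 5) h2
          (Real.rpow_nonneg hc.R0'.le _) ?_
        have : 0 ≤ Z * (ρ.den : ℝ) := by positivity
        positivity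
    _ = Z ^ 7 * ((ρ.den : ℝ) ^ 5 * R ^ (1 + e.u)) := by ring
    _ ≤ 1 := z2

end Crest.Agent.R4P.PosP33
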