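import Crest.Agent.R4P.JnF_5
import Crest.Agent.R4P.PVe_45

/-!
R4 (S0004) with powers, T3, helper45: **quadratic rate lemma** : charges of in-member pairs of items.

* `QP V` : pairs of items of one member over the contents `V : PV B Λ` : parts `vL` (leaves), P and N
  contents `tA tB` of the true tie, row inequality for pairs
  `Ep (v_i v_j) ≤ (1-w) vP_i vP_j + w vN_i vN_j + w (A_i B_j + B_i A_j)`.
* `QC Q κ` : credits of pairs: charge `e p b i j x v_i v_j` at the rest, `r p b i j x v_i v_j` at the ties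
  and pulls, remaining credit `ρ ≤ κ i j`.
* `chg`, `crn` : local charges; local creation of the pairs (joins of the parts of the bundle, P against
  N content of the tie), with the weights `κ`.
* **`QC.sv`** : a superharmonic value `Vc` of the creation gives the superharmonic value
  `Vc - Σ ∫ (κ - ρ) v_i v_j` of the charges (`JnF5.SV`); `0 ≤` it `≤ Vc`.
* `SV.add`, `SV.smul`, `SV.mono` : algebra of superharmonic values.
-/

set_option autoImplicit false
set_option linter.unusedSectionVars false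
set_option linter.unusedVariables false
open MeasureTheory Filter Set

namespace Crest.Agent.R4P.PrE45

open Crest.Agent.R4.Tour104 Crest.Agent.R4.Clos758
open Crest.Agent.R4P.Pay45 Crest.Agent.R4P.PayR45 Crest.Agent.R4P.PVe45
open Crest.Agent.R4P.JnF5 (SV)

/-! ### algebra of superharmonic values -/

section alg
variable {β : Type} {B : BM β} {φ φ' V V' : ℕ → β → ℝ} {siz : β → ℕ}

lemma w_facts {p : ℕ} (hp : p ≠ 0) : (0:ℝ) ≤ 1 / p ∧ (0:ℝ) ≤ 1 - 1 / p := by
  have hp1 : (1 : ℝ) ≤ p := by exact_mod_cast Nat.pos_of_ne_zero hp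
  have : (1:ℝ) / p ≤ 1 := by rw [div_le_one (by linarith)]; exact hp1
  exact ⟨by positivity, by linarith⟩

lemma sv_add (H : SV B φ V siz) (H' : SV B φ' V' siz) :
    SV B (fun p b => φ p b + φ' p b) (fun p b => V p b + V' p b) siz where
  okP := H.okP
  okN := H.okN
  okR := H.okR
  v2 := fun {p b} hb hp => by
    have h1 := H.v2 hb hp
    have h2 := H'.v2 hb hp
    show φ p b + φ' p b + ((1 - 1 / (p : ℝ)) * (V p (B.cP p b) + V' p (B.cP p b)) +
      1 / (p : ℝ) * (V p (B.cN p b) + V' p (B.cN p b))) +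
      (V (p - 1) (B.rN p b) + V' (p - 1) (B.rN p b)) ≤ V p b + V' p b
    linarith
  v1 := fun {b} hb => by
    have h1 := H.v1 hb
    have h2 := H'.v1 hb
    show φ 1 b + φ' 1 b + (V 1 (B.cP 1 b) + V' 1 (B.cP 1 b)) +
      (V 0 (B.rN 1 b) + V' 0 (B.rN 1 b)) ≤ V 1 b + V' 1 b
    linarith
  sP := H.sP
  sN := H.sN
  sR := H.sR

lemma sv_smul {c : ℝ} (hc : 0 ≤ c) (H : SV B φ V siz) :
    SV B (fun p b => c * φ p b) (fun p b => c * V p b) siz where
  okP := H.okP
  okN := H.okN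
  okR := H.okR
  v2 := fun {p b} hb hp => by
    have h1 := mul_le_mul_of_nonneg_left (H.v2 hb hp) hc
    linarith
  v1 := fun {b} hb => by
    have h1 := mul_le_mul_of_nonneg_left (H.v1 hb) hc
    linarith
  sP := H.sP
  sN := H.sN
  sR := H.sR

lemma sv_mono (H : SV B φ V siz) (h : ∀ {p b}, B.ok p b → p ≠ 0 → φ' p b ≤ φ p b) :
    SV B φ' V siz where
  okP := H.okP
  okN := H.okN
  okR := H.okR
  v2 := fun {p b} hb hp => by
    have h1 := H.v2 hb hp
    have h2 := h hb (by omega)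
    linarith
  v1 := fun {b} hb => by
    have h1 := H.v1 hb
    have h2 := h hb one_ne_zero
    linarith
  sP := H.sP
  sN := H.sN
  sR := H.sR

end alg

/-! ### pairs -/

section pairs
variable {β Λ : Type} [Fintype Λ] {B : BM β}

/-- **pairs of items of one member** -/
structure QP (V : PV B Λ) where
  vL : ℕ → β → Λ → ℝ → ℝ
  tA : ℕ → β → Λ → ℝ → ℝ
  tB : ℕ → β → Λ → ℝ → ℝ
  pvL : ∀ {p b}, B.ok p b → p ≠ 0 → ∀ j, PB (vL p b j)
  ptA : ∀ {p b}, B.ok p b → p ≠ 0 → ∀ j, PB (tA p b j)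
  ptB : ∀ {p b}, B.ok p b → p ≠ 0 → ∀ j, PB (tB p b j)
  split : ∀ {p b}, B.ok p b → p ≠ 0 → ∀ j x,
    V.v b j x ≤ vL p b j x + V.vB p b j x + V.v (B.rN p b) j x
  row : ∀ {p b}, B.ok p b → 2 ≤ p → ∀ i j y, Ep p (fun x => V.vB p b i x * V.vB p b j x) y ≤
    (1 - 1 / (p : ℝ)) * (V.v (B.cP p b) i y * V.v (B.cP p b) j y) +
      1 / (p : ℝ) * (V.v (B.cN p b) i y * V.v (B.cN p b) j y) +
      1 / (p : ℝ) * (tA p b i y * tB p b j y + tB p b i y * tA p b j y)
  no1 : ∀ {b}, B.ok 1 b → ∀ j x, V.vB 1 b j x = 0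
  no1N : ∀ {b}, B.ok 1 b → ∀ j y, V.v (B.cN 1 b) j y = 0

/-- cross products of the parts of a bundle -/
noncomputable def crs (l m r l' m' r' : ℝ) : ℝ := l * l' + (l * m' + m * l') + (l * r' + r * l') +
  (m * r' + r * m')

variable {V : PV B Λ} (Q : QP V)

/-- cross products of the parts, at a point -/
noncomputable def QP.cx (p : ℕ) (b : β) (i j : Λ) (x : ℝ) : ℝ :=
  crs (Q.vL p b i x) (V.vB p b i x) (V.v (B.rN p b) i x) (Q.vL p b j x) (V.vB p b j x)
    (V.v (B.rN p b) j x)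

/-- P against N content of the tie -/
noncomputable def QP.ct (p : ℕ) (b : β) (i j : Λ) (y : ℝ) : ℝ :=
  Q.tA p b i y * Q.tB p b j y + Q.tB p b i y * Q.tA p b j y

/-- **local creation of pairs** -/
noncomputable def QP.crn (κ : Λ → Λ → ℝ) (p : ℕ) (b : β) : ℝ :=
  ∑ i, ∑ j, κ i j * (I (Q.cx p b i j) + 1 / (p : ℝ) * I (Q.ct p b i j))

variable (κ : Λ → Λ → ℝ)

/-- **credits of pairs** : remaining credit `ρ`, rates `r` (contents of the ties and pulls), `e`
(contents of the rest), `sP`, `sN` (contents of the children, at the point below) -/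
structure QC (V : PV B Λ) (κ : Λ → Λ → ℝ) where
  ρ : ℕ → β → Λ → Λ → ℝ → ℝ
  r : ℕ → β → Λ → Λ → ℝ → ℝ
  e : ℕ → β → Λ → Λ → ℝ → ℝ
  sP : ℕ → β → Λ → Λ → ℝ → ℝ
  sN : ℕ → β → Λ → Λ → ℝ → ℝ
  pρ : ∀ {p b}, B.ok p b → ∀ i j, PB (ρ p b i j)
  pr : ∀ {p b}, B.ok p b → p ≠ 0 → ∀ i j, PB (r p b i j)
  pe : ∀ {p b}, B.ok p b → p ≠ 0 → ∀ i j, PB (e p b i j)
  psP : ∀ {p b}, B.ok p b → p ≠ 0 → ∀ i j, PB (sP p b i j)
  psN : ∀ {p b}, B.ok p b → p ≠ 0 → ∀ i j, PB (sN p b i j)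
  ρκ : ∀ {p b}, B.ok p b → ∀ i j x, V.v b i x ≠ 0 → V.v b j x ≠ 0 → ρ p b i j x ≤ κ i j
  rest : ∀ {p b}, B.ok p b → p ≠ 0 → ∀ i j x, V.v (B.rN p b) i x ≠ 0 → V.v (B.rN p b) j x ≠ 0 →
    e p b i j x + ρ (p - 1) (B.rN p b) i j x ≤ ρ p b i j x
  tie0 : ∀ {p b}, B.ok p b → p ≠ 0 → ∀ i j x, V.vB p b i x ≠ 0 → V.vB p b j x ≠ 0 →
    r p b i j x ≤ ρ p b i j x
  tieP : ∀ {p b}, B.ok p b → p ≠ 0 → ∀ i j x, V.vB p b i x ≠ 0 → V.vB p b j x ≠ 0 →
    V.v (B.cP p b) i (p * x) ≠ 0 → V.v (B.cP p b) j (p * x) ≠ 0 →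
    r p b i j x + (sP p b i j (p * x) + ρ p (B.cP p b) i j (p * x)) ≤ ρ p b i j x
  tieN : ∀ {p b}, B.ok p b → p ≠ 0 → ∀ i j x, V.vB p b i x ≠ 0 → V.vB p b j x ≠ 0 →
    V.v (B.cN p b) i (p * x) ≠ 0 → V.v (B.cN p b) j (p * x) ≠ 0 →
    r p b i j x + (sN p b i j (p * x) + ρ p (B.cN p b) i j (p * x)) ≤ ρ p b i j x
  kP : ∀ {p b}, B.ok p b → 2 ≤ p → ∀ i j y, V.v (B.cP p b) i y ≠ 0 → V.v (B.cP p b) j y ≠ 0 →
    sP p b i j y + ρ p (B.cP p b) i j y ≤ κ i j
  kN : ∀ {p b}, B.ok p b → 2 ≤ p → ∀ i j y, V.v (B.cN p b) i y ≠ 0 → V.v (B.cN p b) j y ≠ 0 →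
    sN p b i j y + ρ p (B.cN p b) i j y ≤ κ i j

variable {κ} (Z : QC V κ)

/-- charges of a pair at the contents below the ties -/
noncomputable def QC.low (p : ℕ) (b : β) (i j : Λ) : ℝ :=
  (1 - 1 / (p : ℝ)) * I (fun y => Z.sP p b i j y * (V.v (B.cP p b) i y * V.v (B.cP p b) j y)) +
    1 / (p : ℝ) * I (fun y => Z.sN p b i j y * (V.v (B.cN p b) i y * V.v (B.cN p b) j y))

/-- **local charges** -/
noncomputable def QC.chg (p : ℕ) (b : β) : ℝ :=
  ∑ i, ∑ j, (I (fun x => Z.e p b i j x * (V.v (B.rN p b) i x * V.v (B.rN p b) j x)) +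
    I (fun x => Z.r p b i j x * (V.vB p b i x * V.vB p b j x)) + Z.low p b i j)

/-- unused credit -/
noncomputable def QC.un (p : ℕ) (b : β) (i j : Λ) (x : ℝ) : ℝ :=
  (κ i j - Z.ρ p b i j x) * (V.v b i x * V.v b j x)

/-- the value of the charges -/
noncomputable def QC.W (Vc : ℕ → β → ℝ) (p : ℕ) (b : β) : ℝ :=
  Vc p b - ∑ i, ∑ j, I (Z.un p b i j)

lemma QC.un_nonneg {p : ℕ} {b : β} (hb : B.ok p b) (i j : Λ) (x : ℝ) : 0 ≤ Z.un p b i j x := by
  unfold QC.un
  by_cases h1 : V.v b i x = 0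
  · rw [h1]; simp
  by_cases h2 : V.v b j x = 0
  · rw [h2]; simp
  refine mul_nonneg ?_ (mul_nonneg ((V.pv hb i).nonneg x) ((V.pv hb j).nonneg x))
  have := Z.ρκ hb i j x h1 h2
  linarith

lemma QC.PB_un {p : ℕ} {b : β} (hb : B.ok p b) (i j : Λ) : PB (Z.un p b i j) := by
  have h1 := Z.pρ hb i j
  have h2 := (V.pv hb i).mul (V.pv hb j)
  obtain ⟨A, hA⟩ := h1.bdd
  obtain ⟨C, hC⟩ := h2.bdd
  refine ⟨(measurable_const.sub h1.meas).mul h2.meas, fun x => Z.un_nonneg hb i j x,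
    ⟨|κ i j| * C, fun x => ?_⟩, fun x => ?_⟩
  · have a1 : κ i j - Z.ρ p b i j x ≤ |κ i j| := by
      have := le_abs_self (κ i j)
      have := h1.nonneg x
      linarith
    have a2 := h2.nonneg x
    have a3 : V.v b i x * V.v b j x ≤ C := hC x
    calc Z.un p b i j x = (κ i j - Z.ρ p b i j x) * (V.v b i x * V.v b j x) := rfl
      _ ≤ |κ i j| * (V.v b i x * V.v b j x) := mul_le_mul_of_nonneg_right a1 a2
      _ ≤ |κ i j| * C := mul_le_mul_of_nonneg_left a3 (abs_nonneg _)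
  · unfold QC.un
    rw [h1.per, (V.pv hb i).per, (V.pv hb j).per]

/-- the part of the rest at a point -/
lemma QC.restP {p : ℕ} {b : β} (hb : B.ok p b) (hp : p ≠ 0) (i j : Λ) (x : ℝ) :
    Z.e p b i j x * (V.v (B.rN p b) i x * V.v (B.rN p b) j x) +
      (κ i j - Z.ρ p b i j x) * (V.v (B.rN p b) i x * V.v (B.rN p b) j x) ≤
      Z.un (p - 1) (B.rN p b) i j x := by
  unfold QC.un
  by_cases h1 : V.v (B.rN p b) i x = 0
  · rw [h1]; simp
  by_cases h2 : V.v (B.rN p b) j x = 0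
  · rw [h2]; simp
  have a1 := Z.rest hb hp i j x h1 h2
  have a2 := mul_nonneg ((V.pv (V.okR hb hp) i).nonneg x) ((V.pv (V.okR hb hp) j).nonneg x)
  rw [← add_mul]
  exact mul_le_mul_of_nonneg_right (by linarith) a2

/-- the part of the ties and pulls, at the point below -/
lemma QC.tieE (Q : QP V) {p : ℕ} {b : β} (hb : B.ok p b) (hp : 2 ≤ p) (hκ : ∀ i j, 0 ≤ κ i j)
    (i j : Λ) (y : ℝ) :
    Ep p (fun x => (Z.r p b i j x + (κ i j - Z.ρ p b i j x)) *
      (V.vB p b i x * V.vB p b j x)) y +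
      ((1 - 1 / (p : ℝ)) * (Z.sP p b i j y * (V.v (B.cP p b) i y * V.v (B.cP p b) j y)) +
      1 / (p : ℝ) * (Z.sN p b i j y * (V.v (B.cN p b) i y * V.v (B.cN p b) j y))) ≤
    (1 - 1 / (p : ℝ)) * Z.un p (B.cP p b) i j y + 1 / (p : ℝ) * Z.un p (B.cN p b) i j y +
      κ i j * (1 / (p : ℝ) * Q.ct p b i j y) := by
  have hp0 : p ≠ 0 := by omega
  have hpp : 0 < p := by omega
  have hp' : (0 : ℝ) < p := by exact_mod_cast hpp
  obtain ⟨w0, w1⟩ := w_facts hp0
  set vPi := V.v (B.cP p b) i y with e1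
  set vPj := V.v (B.cP p b) j y with e2
  set vNi := V.v (B.cN p b) i y with e3
  set vNj := V.v (B.cN p b) j y with e4
  set cP := Z.ρ p (B.cP p b) i j y with e5
  set cN := Z.ρ p (B.cN p b) i j y with e6
  set zP := Z.sP p b i j y with e5'
  set zN := Z.sN p b i j y with e6'
  have hzP : 0 ≤ zP := (Z.psP hb hp0 i j).nonneg y
  have hzN : 0 ≤ zN := (Z.psN hb hp0 i j).nonneg y
  have hPi : 0 ≤ vPi := (V.pv (V.okP hb hp0) i).nonneg y
  have hPj : 0 ≤ vPj := (V.pv (V.okP hb hp0) j).nonneg y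
  have hNi : 0 ≤ vNi := (V.pv (V.okN hb hp0) i).nonneg y
  have hNj : 0 ≤ vNj := (V.pv (V.okN hb hp0) j).nonneg y
  have hcP : 0 ≤ cP := (Z.pρ (V.okP hb hp0) i j).nonneg y
  have hcN : 0 ≤ cN := (Z.pρ (V.okN hb hp0) i j).nonneg y
  set mP : ℝ := if vPi ≠ 0 ∧ vPj ≠ 0 then zP + cP else 0 with emP
  set mN : ℝ := if vNi ≠ 0 ∧ vNj ≠ 0 then zN + cN else 0 with emN
  set mm : ℝ := max mP mN with emm
  have k1 : mP ≤ κ i j := by
    rw [emP]
    split_ifs with h
    · exact Z.kP hb hp i j y h.1 h.2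
    · exact hκ i j
  have k2 : mN ≤ κ i j := by
    rw [emN]
    split_ifs with h
    · exact Z.kN hb hp i j y h.1 h.2
    · exact hκ i j
  have k3 : 0 ≤ κ i j - mm := by
    have : mm ≤ κ i j := max_le k1 k2
    linarith
  have m0 : 0 ≤ mm := by
    refine le_max_of_le_left ?_
    rw [emP]
    split_ifs
    · linarith
    · exact le_rfl
  -- the points of the fibre
  have s1 : Ep p (fun x => (Z.r p b i j x + (κ i j - Z.ρ p b i j x)) *
      (V.vB p b i x * V.vB p b j x)) y ≤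
      (κ i j - mm) * Ep p (fun x => V.vB p b i x * V.vB p b j x) y := by
    have e7 : (κ i j - mm) * Ep p (fun x => V.vB p b i x * V.vB p b j x) y =
        Ep p (fun x => (κ i j - mm) * (V.vB p b i x * V.vB p b j x)) y := by
      unfold Ep
      rw [← Finset.mul_sum, mul_div_assoc]
    rw [e7]
    unfold Ep
    refine div_le_div_of_nonneg_right (Finset.sum_le_sum fun l _ => ?_) hp'.le
    set x : ℝ := (y + (l : ℝ)) / p with hx
    have hpx : (p : ℝ) * x = y + (l : ℝ) := by rw [hx]; field_simp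
    show (Z.r p b i j x + (κ i j - Z.ρ p b i j x)) * (V.vB p b i x * V.vB p b j x) ≤
      (κ i j - mm) * (V.vB p b i x * V.vB p b j x)
    have n1 := (V.pvB hb hp0 i).nonneg x
    have n2 := (V.pvB hb hp0 j).nonneg x
    by_cases z1 : V.vB p b i x = 0
    · rw [z1]; simp
    by_cases z2 : V.vB p b j x = 0
    · rw [z2]; simp
    refine mul_le_mul_of_nonneg_right ?_ (mul_nonneg n1 n2)
    have q1 : V.v (B.cP p b) i (p * x) = vPi := by
      rw [hpx, e1, (V.pv (V.okP hb hp0) i).per_nat]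
    have q2 : V.v (B.cP p b) j (p * x) = vPj := by
      rw [hpx, e2, (V.pv (V.okP hb hp0) j).per_nat]
    have q3 : V.v (B.cN p b) i (p * x) = vNi := by
      rw [hpx, e3, (V.pv (V.okN hb hp0) i).per_nat]
    have q4 : V.v (B.cN p b) j (p * x) = vNj := by
      rw [hpx, e4, (V.pv (V.okN hb hp0) j).per_nat]
    have q5 : Z.ρ p (B.cP p b) i j (p * x) = cP := by
      rw [hpx, e5, (Z.pρ (V.okP hb hp0) i j).per_nat]
    have q6 : Z.ρ p (B.cN p b) i j (p * x) = cN := by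
      rw [hpx, e6, (Z.pρ (V.okN hb hp0) i j).per_nat]
    have q7 : Z.sP p b i j (p * x) = zP := by
      rw [hpx, e5', (Z.psP hb hp0 i j).per_nat]
    have q8 : Z.sN p b i j (p * x) = zN := by
      rw [hpx, e6', (Z.psN hb hp0 i j).per_nat]
    have t0 := Z.tie0 hb hp0 i j x z1 z2
    have tP := Z.tieP hb hp0 i j x z1 z2
    have tN := Z.tieN hb hp0 i j x z1 z2
    rw [q1, q2, q5, q7] at tP
    rw [q3, q4, q6, q8] at tN
    have u1 : Z.r p b i j x + mP ≤ Z.ρ p b i j x := by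
      rw [emP]
      split_ifs with h
      · exact tP h.1 h.2
      · linarith
    have u2 : Z.r p b i j x + mN ≤ Z.ρ p b i j x := by
      rw [emN]
      split_ifs with h
      · exact tN h.1 h.2
      · linarith
    have u3 : Z.r p b i j x + mm ≤ Z.ρ p b i j x := by
      rw [emm]
      rcases le_total mP mN with h | h
      · rw [max_eq_right h]; exact u2
      · rw [max_eq_left h]; exact u1
    linarith
  have s2 := Q.row hb hp i j y
  have s3 := mul_le_mul_of_nonneg_left s2 k3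
  have u1 : (κ i j - mm) * (vPi * vPj) + zP * (vPi * vPj) ≤ Z.un p (B.cP p b) i j y := by
    show _ ≤ (κ i j - cP) * (vPi * vPj)
    by_cases z1 : vPi = 0
    · rw [z1]; simp
    by_cases z2 : vPj = 0
    · rw [z2]; simp
    rw [← add_mul]
    refine mul_le_mul_of_nonneg_right ?_ (mul_nonneg hPi hPj)
    have : mP = zP + cP := if_pos ⟨z1, z2⟩
    have := le_max_left mP mN
    linarith
  have u2 : (κ i j - mm) * (vNi * vNj) + zN * (vNi * vNj) ≤ Z.un p (B.cN p b) i j y := by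
    show _ ≤ (κ i j - cN) * (vNi * vNj)
    by_cases z1 : vNi = 0
    · rw [z1]; simp
    by_cases z2 : vNj = 0
    · rw [z2]; simp
    rw [← add_mul]
    refine mul_le_mul_of_nonneg_right ?_ (mul_nonneg hNi hNj)
    have : mN = zN + cN := if_pos ⟨z1, z2⟩
    have := le_max_right mP mN
    linarith
  have c0 : 0 ≤ Q.ct p b i j y := by
    unfold QP.ct
    have a1 := (Q.ptA hb hp0 i).nonneg y
    have a2 := (Q.ptB hb hp0 j).nonneg y
    have a3 := (Q.ptB hb hp0 i).nonneg y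
    have a4 := (Q.ptA hb hp0 j).nonneg y
    positivity
  have u3 : (κ i j - mm) * (1 / (p : ℝ) * Q.ct p b i j y) ≤
      κ i j * (1 / (p : ℝ) * Q.ct p b i j y) :=
    mul_le_mul_of_nonneg_right (by linarith) (mul_nonneg w0 c0)
  have u4 := mul_le_mul_of_nonneg_left u1 w1
  have u5 := mul_le_mul_of_nonneg_left u2 w0
  have e8 : (κ i j - mm) * ((1 - 1 / (p : ℝ)) * (vPi * vPj) + 1 / (p : ℝ) * (vNi * vNj) +
      1 / (p : ℝ) * (Q.tA p b i y * Q.tB p b j y + Q.tB p b i y * Q.tA p b j y)) =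
      (1 - 1 / (p : ℝ)) * ((κ i j - mm) * (vPi * vPj)) +
      1 / (p : ℝ) * ((κ i j - mm) * (vNi * vNj)) +
      (κ i j - mm) * (1 / (p : ℝ) * Q.ct p b i j y) := by
    unfold QP.ct
    ring
  rw [e8] at s3
  linarith

/-- the cross products are fine -/
lemma QP.PB_cx (Q : QP V) {p : ℕ} {b : β} (hb : B.ok p b) (hp : p ≠ 0) (i j : Λ) :
    PB (Q.cx p b i j) := by
  have l1 := Q.pvL hb hp i
  have l2 := Q.pvL hb hp j
  have m1 := V.pvB hb hp i
  have m2 := V.pvB hb hp j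
  have r1 := V.pv (V.okR hb hp) i
  have r2 := V.pv (V.okR hb hp) j
  exact (((l1.mul l2).add ((l1.mul m2).add (m1.mul l2))).add
    ((l1.mul r2).add (r1.mul l2))).add ((m1.mul r2).add (r1.mul m2))

lemma QP.PB_ct (Q : QP V) {p : ℕ} {b : β} (hb : B.ok p b) (hp : p ≠ 0) (i j : Λ) :
    PB (Q.ct p b i j) :=
  ((Q.ptA hb hp i).mul (Q.ptB hb hp j)).add ((Q.ptB hb hp i).mul (Q.ptA hb hp j))

/-- the tie part with its credit -/
noncomputable def QC.bb (p : ℕ) (b : β) (i j : Λ) (x : ℝ) : ℝ :=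
  (Z.r p b i j x + (κ i j - Z.ρ p b i j x)) * (V.vB p b i x * V.vB p b j x)

lemma vB_ne {p : ℕ} {b : β} (hb : B.ok p b) (hp : p ≠ 0) {j : Λ} {x : ℝ}
    (h : V.vB p b j x ≠ 0) : V.v b j x ≠ 0 := by
  have h1 := V.spl hb hp j x
  have h2 := (V.pv (V.okR hb hp) j).nonneg x
  have h3 := (V.pvB hb hp j).nonneg x
  have h4 : 0 < V.vB p b j x := lt_of_le_of_ne h3 (Ne.symm h)
  have : 0 < V.v b j x := by linarith
  exact this.ne'

lemma vR_ne {p : ℕ} {b : β} (hb : B.ok p b) (hp : p ≠ 0) {j : Λ} {x : ℝ}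
    (h : V.v (B.rN p b) j x ≠ 0) : V.v b j x ≠ 0 := by
  have h1 := V.spl hb hp j x
  have h2 := (V.pvB hb hp j).nonneg x
  have h3 := (V.pv (V.okR hb hp) j).nonneg x
  have h4 : 0 < V.v (B.rN p b) j x := lt_of_le_of_ne h3 (Ne.symm h)
  have : 0 < V.v b j x := by linarith
  exact this.ne'

lemma QC.PB_bb {p : ℕ} {b : β} (hb : B.ok p b) (hp : p ≠ 0) (i j : Λ) : PB (Z.bb p b i j) := by
  have h1 := Z.pρ hb i j
  have h0 := Z.pr hb hp i j
  have h2 := (V.pvB hb hp i).mul (V.pvB hb hp j)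
  obtain ⟨A, hA⟩ := h0.bdd
  obtain ⟨C, hC⟩ := h2.bdd
  refine ⟨(h0.meas.add (measurable_const.sub h1.meas)).mul h2.meas, fun x => ?_,
    ⟨(A + |κ i j|) * C, fun x => ?_⟩, fun x => ?_⟩
  · unfold QC.bb
    by_cases z1 : V.vB p b i x = 0
    · rw [z1]; simp
    by_cases z2 : V.vB p b j x = 0
    · rw [z2]; simp
    have a1 := Z.ρκ hb i j x (vB_ne hb hp z1) (vB_ne hb hp z2)
    have a2 := h0.nonneg x
    exact mul_nonneg (by linarith) (h2.nonneg x)
  · have a1 : Z.r p b i j x + (κ i j - Z.ρ p b i j x) ≤ A + |κ i j| := by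
      have := le_abs_self (κ i j)
      have := h1.nonneg x
      have := hA x
      linarith
    have a2 := h2.nonneg x
    have a3 : V.vB p b i x * V.vB p b j x ≤ C := hC x
    have a4 : 0 ≤ A + |κ i j| := by
      have := h0.nonneg x
      have := hA x
      have := abs_nonneg (κ i j)
      linarith
    calc Z.bb p b i j x =
        (Z.r p b i j x + (κ i j - Z.ρ p b i j x)) * (V.vB p b i x * V.vB p b j x) := rfl
      _ ≤ (A + |κ i j|) * (V.vB p b i x * V.vB p b j x) := mul_le_mul_of_nonneg_right a1 a2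
      _ ≤ (A + |κ i j|) * C := mul_le_mul_of_nonneg_left a3 a4
  · unfold QC.bb
    rw [h0.per, h1.per, (V.pvB hb hp i).per, (V.pvB hb hp j).per]

/-- one pair, at a point -/
lemma QC.pt (Q : QP V) {p : ℕ} {b : β} (hb : B.ok p b) (hp : p ≠ 0) (hκ : ∀ i j, 0 ≤ κ i j)
    (i j : Λ) (x : ℝ) :
    Z.e p b i j x * (V.v (B.rN p b) i x * V.v (B.rN p b) j x) +
      Z.r p b i j x * (V.vB p b i x * V.vB p b j x) + Z.un p b i j x ≤
      κ i j * Q.cx p b i j x + Z.bb p b i j x + Z.un (p - 1) (B.rN p b) i j x := by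
  have h1 := Z.restP hb hp i j x
  have hl1 := (Q.pvL hb hp i).nonneg x
  have hl2 := (Q.pvL hb hp j).nonneg x
  have hm1 := (V.pvB hb hp i).nonneg x
  have hm2 := (V.pvB hb hp j).nonneg x
  have hr1 := (V.pv (V.okR hb hp) i).nonneg x
  have hr2 := (V.pv (V.okR hb hp) j).nonneg x
  have hv1 := (V.pv hb i).nonneg x
  have hv2 := (V.pv hb j).nonneg x
  have hc : 0 ≤ Q.cx p b i j x := (Q.PB_cx hb hp i j).nonneg x
  have h2 : Z.un p b i j x ≤ κ i j * Q.cx p b i j x +
      (κ i j - Z.ρ p b i j x) * (V.vB p b i x * V.vB p b j x) +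
      (κ i j - Z.ρ p b i j x) * (V.v (B.rN p b) i x * V.v (B.rN p b) j x) := by
    have hk := mul_nonneg (hκ i j) hc
    by_cases z : V.v b i x ≠ 0 ∧ V.v b j x ≠ 0
    · have g0 := Z.ρκ hb i j x z.1 z.2
      have g1 := (Z.pρ hb i j).nonneg x
      have s1 := Q.split hb hp i x
      have s2 := Q.split hb hp j x
      have s3 : V.v b i x * V.v b j x ≤
          (Q.vL p b i x + V.vB p b i x + V.v (B.rN p b) i x) *
            (Q.vL p b j x + V.vB p b j x + V.v (B.rN p b) j x) :=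
        mul_le_mul s1 s2 hv2 (by linarith)
      have s4 : (Q.vL p b i x + V.vB p b i x + V.v (B.rN p b) i x) *
            (Q.vL p b j x + V.vB p b j x + V.v (B.rN p b) j x) = Q.cx p b i j x +
            V.vB p b i x * V.vB p b j x + V.v (B.rN p b) i x * V.v (B.rN p b) j x := by
        unfold QP.cx crs
        ring
      rw [s4] at s3
      have s5 := mul_le_mul_of_nonneg_left s3 (show 0 ≤ κ i j - Z.ρ p b i j x by linarith)
      have s6 : (κ i j - Z.ρ p b i j x) * Q.cx p b i j x ≤ κ i j * Q.cx p b i j x :=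
        mul_le_mul_of_nonneg_right (by linarith) hc
      show (κ i j - Z.ρ p b i j x) * (V.v b i x * V.v b j x) ≤ _
      linarith
    · have z0 : V.v b i x = 0 ∨ V.v b j x = 0 := by
        by_contra hh
        push Not at hh
        exact z hh
      have t1 : V.vB p b i x * V.vB p b j x = 0 := by
        rcases z0 with h | h
        · have : V.vB p b i x = 0 := by
            by_contra hne
            exact vB_ne hb hp hne h
          rw [this, zero_mul]
        · have : V.vB p b j x = 0 := by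
            by_contra hne
            exact vB_ne hb hp hne h
          rw [this, mul_zero]
      have t2 : V.v (B.rN p b) i x * V.v (B.rN p b) j x = 0 := by
        rcases z0 with h | h
        · have : V.v (B.rN p b) i x = 0 := by
            by_contra hne
            exact vR_ne hb hp hne h
          rw [this, zero_mul]
        · have : V.v (B.rN p b) j x = 0 := by
            by_contra hne
            exact vR_ne hb hp hne h
          rw [this, mul_zero]
      have t3 : Z.un p b i j x = 0 := by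
        show (κ i j - Z.ρ p b i j x) * (V.v b i x * V.v b j x) = 0
        rcases z0 with h | h <;> rw [h] <;> ring
      rw [t1, t2, t3]
      linarith
  have h3 : Z.bb p b i j x = Z.r p b i j x * (V.vB p b i x * V.vB p b j x) +
      (κ i j - Z.ρ p b i j x) * (V.vB p b i x * V.vB p b j x) := by
    unfold QC.bb
    ring
  rw [h3]
  linarith

/-- one pair, integrated -/
lemma QC.int1 (Q : QP V) {p : ℕ} {b : β} (hb : B.ok p b) (hp : p ≠ 0) (hκ : ∀ i j, 0 ≤ κ i j)
    (i j : Λ) :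
    I (fun x => Z.e p b i j x * (V.v (B.rN p b) i x * V.v (B.rN p b) j x)) +
      I (fun x => Z.r p b i j x * (V.vB p b i x * V.vB p b j x)) + I (Z.un p b i j) ≤
      κ i j * I (Q.cx p b i j) + I (Z.bb p b i j) + I (Z.un (p - 1) (B.rN p b) i j) := by
  have a1 : PB fun x => Z.e p b i j x * (V.v (B.rN p b) i x * V.v (B.rN p b) j x) :=
    (Z.pe hb hp i j).mul ((V.pv (V.okR hb hp) i).mul (V.pv (V.okR hb hp) j))
  have a2 : PB fun x => Z.r p b i j x * (V.vB p b i x * V.vB p b j x) :=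
    (Z.pr hb hp i j).mul ((V.pvB hb hp i).mul (V.pvB hb hp j))
  have a3 := Z.PB_un hb i j
  have a4 : PB fun x => κ i j * Q.cx p b i j x := (Q.PB_cx hb hp i j).smul (hκ i j)
  have a5 := Z.PB_bb hb hp i j
  have a6 := Z.PB_un (V.okR hb hp) i j
  rw [← I_smul (κ i j), ← I_add a1.integrableOn a2.integrableOn,
    ← I_add (a1.add a2).integrableOn a3.integrableOn, ← I_add a4.integrableOn a5.integrableOn,
    ← I_add (a4.add a5).integrableOn a6.integrableOn]
  exact I_mono ((a1.add a2).add a3).integrableOn ((a4.add a5).add a6).integrableOn fun x =>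
    Z.pt Q hb hp hκ i j x

/-- the tie part, integrated -/
lemma QC.bb_le (Q : QP V) {p : ℕ} {b : β} (hb : B.ok p b) (hp : 2 ≤ p) (hκ : ∀ i j, 0 ≤ κ i j)
    (i j : Λ) : I (Z.bb p b i j) + Z.low p b i j ≤ (1 - 1 / (p : ℝ)) * I (Z.un p (B.cP p b) i j) +
      1 / (p : ℝ) * I (Z.un p (B.cN p b) i j) + κ i j * (1 / (p : ℝ) * I (Q.ct p b i j)) := by
  have hp0 : p ≠ 0 := by omega
  have hpp : 0 < p := by omega
  obtain ⟨w0, w1⟩ := w_facts hp0
  have a1 := Z.PB_bb hb hp0 i j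
  have a0 : PB fun y => (1 - 1 / (p : ℝ)) *
      (Z.sP p b i j y * (V.v (B.cP p b) i y * V.v (B.cP p b) j y)) :=
    ((Z.psP hb hp0 i j).mul ((V.pv (V.okP hb hp0) i).mul (V.pv (V.okP hb hp0) j))).smul w1
  have a0' : PB fun y => 1 / (p : ℝ) *
      (Z.sN p b i j y * (V.v (B.cN p b) i y * V.v (B.cN p b) j y)) :=
    ((Z.psN hb hp0 i j).mul ((V.pv (V.okN hb hp0) i).mul (V.pv (V.okN hb hp0) j))).smul w0
  have e0 : Z.low p b i j = I fun y => (1 - 1 / (p : ℝ)) *
      (Z.sP p b i j y * (V.v (B.cP p b) i y * V.v (B.cP p b) j y)) +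
      1 / (p : ℝ) * (Z.sN p b i j y * (V.v (B.cN p b) i y * V.v (B.cN p b) j y)) := by
    rw [I_add a0.integrableOn a0'.integrableOn, I_smul, I_smul]
    rfl
  have a2 := (Z.PB_un (V.okP hb hp0) i j).smul w1
  have a3 := (Z.PB_un (V.okN hb hp0) i j).smul w0
  have a4 := ((Q.PB_ct hb hp0 i j).smul w0).smul (hκ i j)
  rw [e0, ← I_Ep hpp a1.integrableOn, ← I_smul (1 - 1 / (p : ℝ)),
    ← I_smul (1 / (p : ℝ)) (Z.un _ _ _ _),
    ← I_smul (1 / (p : ℝ)) (Q.ct _ _ _ _), ← I_smul (κ i j), ← I_add a2.integrableOn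
    a3.integrableOn, ← I_add (a2.add a3).integrableOn a4.integrableOn,
    ← I_add (a1.Ep hpp).integrableOn (a0.add a0').integrableOn]
  exact I_mono ((a1.Ep hpp).add (a0.add a0')).integrableOn ((a2.add a3).add a4).integrableOn fun y =>
    Z.tieE Q hb hp hκ i j y

lemma QC.bb_one (Q : QP V) {b : β} (hb : B.ok 1 b) (i j : Λ) : I (Z.bb 1 b i j) = 0 := by
  have e : Z.bb 1 b i j = fun _ => 0 := by
    funext x
    show (Z.r 1 b i j x + (κ i j - Z.ρ 1 b i j x)) * (V.vB 1 b i x * V.vB 1 b j x) = 0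
    rw [Q.no1 hb i x]
    ring
  rw [e]
  simp [I]

lemma QC.low_one (Q : QP V) {b : β} (hb : B.ok 1 b) (i j : Λ) : Z.low 1 b i j = 0 := by
  unfold QC.low
  have e : (fun y => Z.sN 1 b i j y * (V.v (B.cN 1 b) i y * V.v (B.cN 1 b) j y)) = fun _ => 0 := by
    funext y
    rw [Q.no1N hb i y]
    ring
  rw [e]
  simp [I]

lemma sum2_add (f g : Λ → Λ → ℝ) : ∑ i, ∑ j, (f i j + g i j) = ∑ i, ∑ j, f i j + ∑ i, ∑ j, g i j := by
  rw [← Finset.sum_add_distrib]
  exact Finset.sum_congr rfl fun i _ => Finset.sum_add_distrib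

lemma sum2_mul (c : ℝ) (f : Λ → Λ → ℝ) : ∑ i, ∑ j, c * f i j = c * ∑ i, ∑ j, f i j := by
  rw [Finset.mul_sum]
  exact Finset.sum_congr rfl fun i _ => (Finset.mul_sum _ _ _).symm

lemma sum2_le {f g : Λ → Λ → ℝ} (h : ∀ i j, f i j ≤ g i j) : ∑ i, ∑ j, f i j ≤ ∑ i, ∑ j, g i j :=
  Finset.sum_le_sum fun i _ => Finset.sum_le_sum fun j _ => h i j

/-- **the quadratic rate lemma** -/
theorem QC.sv (Q : QP V) (hκ : ∀ i j, 0 ≤ κ i j) {Vc : ℕ → β → ℝ} {siz : β → ℕ}
    (H : SV B (Q.crn κ) Vc siz) : SV B Z.chg (Z.W Vc) siz where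
  okP := H.okP
  okN := H.okN
  okR := H.okR
  v2 := fun {p b} hb h2 => by
    have hp : p ≠ 0 := by omega
    have h1 := H.v2 hb h2
    have h3 : Z.chg p b + ∑ i, ∑ j, I (Z.un p b i j) ≤ Q.crn κ p b +
        ((1 - 1 / (p : ℝ)) * ∑ i, ∑ j, I (Z.un p (B.cP p b) i j) +
        1 / (p : ℝ) * ∑ i, ∑ j, I (Z.un p (B.cN p b) i j)) +
        ∑ i, ∑ j, I (Z.un (p - 1) (B.rN p b) i j) := by
      unfold QC.chg QP.crn
      rw [← sum2_mul, ← sum2_mul, ← sum2_add, ← sum2_add, ← sum2_add, ← sum2_add]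
      refine sum2_le fun i j => ?_
      have a1 := Z.int1 Q hb hp hκ i j
      have a2 := Z.bb_le Q hb h2 hκ i j
      have e1 : κ i j * (I (Q.cx p b i j) + 1 / (p : ℝ) * I (Q.ct p b i j)) =
        κ i j * I (Q.cx p b i j) + κ i j * (1 / (p : ℝ) * I (Q.ct p b i j)) := by ring
      rw [e1]
      linarith
    unfold QC.W
    nlinarith
  v1 := fun {b} hb => by
    have h1 := H.v1 hb
    have h3 : Z.chg 1 b + ∑ i, ∑ j, I (Z.un 1 b i j) ≤ Q.crn κ 1 b +
        ∑ i, ∑ j, I (Z.un 0 (B.rN 1 b) i j) := by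
      unfold QC.chg QP.crn
      rw [← sum2_add, ← sum2_add]
      refine sum2_le fun i j => ?_
      have a1 := Z.int1 Q hb one_ne_zero hκ i j
      have a2 := Z.bb_one Q hb i j
      have a3 : 0 ≤ κ i j * (1 / ((1 : ℕ) : ℝ) * I (Q.ct 1 b i j)) :=
        mul_nonneg (hκ i j) (mul_nonneg (by positivity)
          (I_nonneg fun x => (Q.PB_ct hb one_ne_zero i j).nonneg x))
      have e1 : κ i j * (I (Q.cx 1 b i j) + 1 / ((1 : ℕ) : ℝ) * I (Q.ct 1 b i j)) =
        κ i j * I (Q.cx 1 b i j) + κ i j * (1 / ((1 : ℕ) : ℝ) * I (Q.ct 1 b i j)) := by ring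
      have a4 := Z.low_one Q hb i j
      rw [e1]
      linarith
    have h4 : 0 ≤ ∑ i, ∑ j, I (Z.un 1 (B.cP 1 b) i j) := Finset.sum_nonneg fun i _ =>
      Finset.sum_nonneg fun j _ => I_nonneg fun x =>
        (Z.PB_un (H.okP hb one_ne_zero) i j).nonneg x
    unfold QC.W
    linarith
  sP := H.sP
  sN := H.sN
  sR := H.sR

/-- the value is at most the value of the creation -/
lemma QC.W_le {Vc : ℕ → β → ℝ} {p : ℕ} {b : β} (hb : B.ok p b) : Z.W Vc p b ≤ Vc p b := by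
  unfold QC.W
  have : 0 ≤ ∑ i, ∑ j, I (Z.un p b i j) := Finset.sum_nonneg fun i _ =>
    Finset.sum_nonneg fun j _ => I_nonneg fun x => (Z.PB_un hb i j).nonneg x
  linarith

/-- the value is nonnegative if the value of the creation is at least the energy of the pairs -/
lemma QC.W_nonneg {Vc : ℕ → β → ℝ} {p : ℕ} {b : β} (hb : B.ok p b)
    (h : ∑ i, ∑ j, κ i j * I (fun x => V.v b i x * V.v b j x) ≤ Vc p b) : 0 ≤ Z.W Vc p b := by
  unfold QC.W
  have : ∑ i, ∑ j, I (Z.un p b i j) ≤ ∑ i, ∑ j, κ i j * I (fun x => V.v b i x * V.v b j x) := by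
    refine sum2_le fun i j => ?_
    rw [← I_smul]
    have a1 := (V.pv hb i).mul (V.pv hb j)
    by_cases hk : 0 ≤ κ i j
    · refine I_mono (Z.PB_un hb i j).integrableOn (a1.smul hk).integrableOn fun x => ?_
      have h1 := (Z.pρ hb i j).nonneg x
      have h2 := a1.nonneg x
      show (κ i j - Z.ρ p b i j x) * (V.v b i x * V.v b j x) ≤ κ i j * (V.v b i x * V.v b j x)
      exact mul_le_mul_of_nonneg_right (by linarith) h2
    · -- no content
      have e1 : ∀ x, V.v b i x * V.v b j x = 0 := by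
        intro x
        by_contra hne
        have z1 : V.v b i x ≠ 0 := left_ne_zero_of_mul hne
        have z2 : V.v b j x ≠ 0 := right_ne_zero_of_mul hne
        have h1 := Z.ρκ hb i j x z1 z2
        have h2 := (Z.pρ hb i j).nonneg x
        linarith
      have e2 : Z.un p b i j = fun x => κ i j * (V.v b i x * V.v b j x) := by
        funext x
        show (κ i j - Z.ρ p b i j x) * (V.v b i x * V.v b j x) = _
        rw [e1]
        ring
      rw [e2]
  linarith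

end pairs

end Crest.Agent.R4P.PrE45
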