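import Crest.Agent.R4P.World2_363
import Crest.Agent.R4P.BTs_18

/-!
R4 (S0004) with powers, T3, helper41: **purity of the labelled real classes of a tie**, arithmetic part
(PLAN v1, leaf C2).

One member (node `(A, B)`), tie `n`, `h` = P piece, `i` = N piece (missing at `n`), common point of the
upper circle; `σ`, `τ` = real states (root coordinates) of `h`, `i` at the column `n`; reduced cofactors
`w_h = g n u`, `w_i = g v`; `z`, `z'` = root coordinates of the point in the arcs of `h`, `i`.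

* `low_sta`  : state of `i` below its missing tie: unchanged, or (thin below) dead by radius, by
  denominator or by accuracy; `low_dense` : if the denominator is dense only accuracy remains.
* `rel_of_exact` : equal exact centres: `v (z + (γ - σ)) = n u (z' + (γ - τ))`.
* `acc_window` : **accuracy death: `n u |γ - τ|` is `v |z + (γ - σ)|` up to the factors `1/2`, `3/2`**.
* `win_sum` : primes of a window `(P, Q]`: `∑ 1/p ≤ C (log (Q/P) + 1) / log P`;
  `acc_sum` : the ties of a piece `h` with an accuracy death, cofactors `≤ U`: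
  `∑ 1/n ≤ C (1 + log U) / log p₀`, for ALL the stages of the label together.
* `two_lab`, `ladder_card` : labels of one target.
-/

set_option autoImplicit false

namespace Crest.Agent.R4P.PurA41

open Crest.Agent.R4.LF363 Crest.Agent.R4P.W363

/-! ### the low state of the missing piece -/

/-- the denominators only decrease -/
lemma den_mul_le (n : ℕ) (ρ : ℚ) : ((n : ℚ) * ρ).den ≤ ρ.den := by
  have h : ((n : ℚ) * ρ).den ∣ (n : ℚ).den * ρ.den := Rat.mul_den_dvd _ _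
  rw [Rat.den_natCast, one_mul] at h
  exact Nat.le_of_dvd ρ.den_pos h

/-- **the state of a thin piece below its own missing tie** (`p` = column of the low state) -/
theorem low_sta {thr : ℕ → ℝ} {γ ψ : ℝ} {L : List ℕ} {n p : ℕ} {τ : ℚ} (hL : 0 < L.prod)
    (hn : 0 < n) (hψ : 0 < ψ) (hτ : sta thr γ ψ L n = some τ) :
    sta thr γ ψ (n :: L) p = some τ ∨
      (((n * L.prod : ℕ) : ℝ) * ψ ≤ thr p ∧
        sta thr γ ψ (n :: L) p = lab0 γ ψ (n * L.prod) ∧
        (1 / 10 < ((n * L.prod : ℕ) : ℝ) * ψ ∨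
          1 < (((((n * L.prod : ℕ) : ℚ)) * τ).den : ℝ) ^ 5 * (((n * L.prod : ℕ) : ℝ) * ψ) ∨
          (((n * L.prod : ℕ) : ℝ) * ψ) ^ 4 <
            |((n * L.prod : ℕ) : ℝ) * γ - ((n * L.prod : ℕ) : ℝ) * τ| ^ 5)) := by
  by_cases h : ((n * L.prod : ℕ) : ℝ) * ψ ≤ thr p
  · have e : sta thr γ ψ (n :: L) p = lab0 γ ψ (n * L.prod) := by
      rw [Crest.Agent.R4.W363.sta, if_pos h]
    by_cases h2 : sta thr γ ψ (n :: L) p = some τ
    · exact Or.inl h2
    · refine Or.inr ⟨h, e, ?_⟩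
      by_contra hc
      push Not at hc
      obtain ⟨c1, c2, c3⟩ := hc
      apply h2
      have hm : 0 < n * L.prod := Nat.mul_pos hn hL
      have hm' : (0 : ℝ) < ((n * L.prod : ℕ) : ℝ) := by exact_mod_cast hm
      have hL' : Lab (((n * L.prod : ℕ) : ℝ) * γ) (((n * L.prod : ℕ) : ℝ) * ψ)
          (((n * L.prod : ℕ) : ℚ) * τ) := by
        refine ⟨mul_pos hm' hψ, c1, c2, ?_⟩
        rw [Rat.cast_mul, Rat.cast_natCast]
        exact c3
      rw [e, lab0_eq_some hL']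
      congr 1
      have : (((n * L.prod : ℕ) : ℚ)) ≠ 0 := by exact_mod_cast hm.ne'
      field_simp
  · left
    rw [Crest.Agent.R4.W363.sta, if_neg h]
    exact hτ

/-- **dense**: only accuracy can fail -/
theorem low_dense {thr : ℕ → ℝ} {γ ψ : ℝ} {L : List ℕ} {n p : ℕ} {τ : ℚ} (hL : 0 < L.prod)
    (hn : 0 < n) (hψ : 0 < ψ) (hτ : sta thr γ ψ L n = some τ) (hp : thr p ≤ 1 / 10)
    (hd : ((((L.prod : ℕ) : ℚ) * τ).den : ℝ) ^ 5 * thr p ≤ 1) :
    sta thr γ ψ (n :: L) p = some τ ∨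
      (((n * L.prod : ℕ) : ℝ) * ψ ≤ thr p ∧
        (((n * L.prod : ℕ) : ℝ) * ψ) ^ 4 <
          |((n * L.prod : ℕ) : ℝ) * γ - ((n * L.prod : ℕ) : ℝ) * τ| ^ 5) := by
  rcases low_sta (thr := thr) (p := p) hL hn hψ hτ with h | ⟨h1, -, h | h | h⟩
  · exact Or.inl h
  · exact absurd (h1.trans hp) (not_le.2 h)
  · exfalso
    have e : (((n * L.prod : ℕ) : ℚ)) * τ = (n : ℚ) * (((L.prod : ℕ) : ℚ) * τ) := by
      push_cast; ring
    have h2 : (((((n * L.prod : ℕ) : ℚ)) * τ).den : ℝ) ≤ ((((L.prod : ℕ) : ℚ) * τ).den : ℝ) := by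
      rw [e]
      exact_mod_cast den_mul_le n _
    have h3 : (((((n * L.prod : ℕ) : ℚ)) * τ).den : ℝ) ^ 5 * (((n * L.prod : ℕ) : ℝ) * ψ) ≤
        ((((L.prod : ℕ) : ℚ) * τ).den : ℝ) ^ 5 * thr p := by
      refine mul_le_mul (pow_le_pow_left₀ (Nat.cast_nonneg _) h2 5) h1 ?_ (by positivity)
      have : (0 : ℝ) ≤ ((n * L.prod : ℕ) : ℝ) := Nat.cast_nonneg _
      positivity
    linarith
  · exact Or.inr ⟨h1, h⟩

/-! ### equal exact centres -/

/-- **the exact relation**: equal exact centres on the circle of the node -/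
theorem rel_of_exact {γ y z z' : ℝ} {σ τ : ℚ} {B w w' g x x' : ℕ} {a a' : ℤ} (hB : 0 < B)
    (hg : 0 < g) (hw0 : 0 < w) (hw0' : 0 < w') (hw : w = g * x) (hw' : w' = g * x')
    (hz : (B : ℝ) * z = w * y - B * γ - a) (hz' : (B : ℝ) * z' = w' * y - B * γ - a')
    (hex : ((a : ℝ) + B * σ) / w = (a' + B * τ) / w') :
    (x' : ℝ) * (z + (γ - σ)) = x * (z' + (γ - τ)) := by
  have hB' : (B : ℝ) ≠ 0 := by exact_mod_cast hB.ne'
  have hw1 : (w : ℝ) ≠ 0 := by exact_mod_cast hw0.ne'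
  have hw1' : (w' : ℝ) ≠ 0 := by exact_mod_cast hw0'.ne'
  have hg' : (g : ℝ) ≠ 0 := by exact_mod_cast hg.ne'
  have e1 : (w : ℝ) = g * x := by rw [hw]; push_cast; ring
  have e2 : (w' : ℝ) = g * x' := by rw [hw']; push_cast; ring
  rw [div_eq_div_iff hw1 hw1'] at hex
  have e3 : (B : ℝ) * (z + (γ - σ)) = w * y - (a + B * σ) := by linarith
  have e4 : (B : ℝ) * (z' + (γ - τ)) = w' * y - (a' + B * τ) := by linarith
  have e5 : (w' : ℝ) * ((B : ℝ) * (z + (γ - σ))) = w * ((B : ℝ) * (z' + (γ - τ))) := by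
    rw [e3, e4]
    linarith
  have e6 : ((g : ℝ) * B) * (x' * (z + (γ - σ))) = (g * B) * (x * (z' + (γ - τ))) := by
    rw [e1, e2] at e5
    linarith
  exact mul_left_cancel₀ (mul_ne_zero hg' hB') e6

/-- **accuracy death of the N piece: one window for the tie** -/
theorem acc_window {γ ψ z z' : ℝ} {σ τ : ℚ} {n B u v : ℕ} (hn : 0 < n) (hB : 0 < B)
    (hz : |z'| ≤ ψ) (hth : 32 * (((n * B : ℕ) : ℝ) * ψ) ≤ 1)
    (hacc : (((n * B : ℕ) : ℝ) * ψ) ^ 4 < |((n * B : ℕ) : ℝ) * γ - ((n * B : ℕ) : ℝ) * τ| ^ 5)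
    (E : (v : ℝ) * (z + (γ - σ)) = (n * u : ℕ) * (z' + (γ - τ))) :
    (n * u : ℕ) * |γ - τ| ≤ 2 * (v * |z + (γ - σ)|) ∧
      2 * (v * |z + (γ - σ)|) ≤ 3 * ((n * u : ℕ) * |γ - τ|) := by
  have hψ : 0 ≤ ψ := (abs_nonneg _).trans hz
  set M : ℝ := ((n * B : ℕ) : ℝ) with hM
  have hM0 : 0 < M := by rw [hM]; exact_mod_cast Nat.mul_pos hn hB
  have e0 : |M * γ - M * τ| = M * |γ - τ| := by
    rw [← mul_sub, abs_mul, abs_of_pos hM0]
  rw [e0] at hacc
  have h1 : 2 * (M * ψ) ≤ M * |γ - τ| := by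
    by_contra hc
    push Not at hc
    have h2 : (M * |γ - τ|) ^ 5 ≤ (2 * (M * ψ)) ^ 5 :=
      pow_le_pow_left₀ (by positivity) hc.le 5
    have h3 : (2 * (M * ψ)) ^ 5 = 32 * (M * ψ) * (M * ψ) ^ 4 := by ring
    have h4 : 32 * (M * ψ) * (M * ψ) ^ 4 ≤ 1 * (M * ψ) ^ 4 :=
      mul_le_mul_of_nonneg_right hth (by positivity)
    linarith
  have h5 : 2 * ψ ≤ |γ - τ| := by
    have : M * (2 * ψ) ≤ M * |γ - τ| := by linarith
    exact le_of_mul_le_mul_left this hM0
  have h6 : |z'| ≤ |γ - τ| / 2 := by linarith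
  have h7 : |γ - τ| / 2 ≤ |z' + (γ - τ)| := by
    have := abs_sub_abs_le_abs_sub (γ - τ) (-z')
    rw [abs_neg, sub_neg_eq_add, add_comm (γ - (τ : ℝ)) z'] at this
    linarith
  have h8 : |z' + (γ - τ)| ≤ 3 / 2 * |γ - τ| := by
    have := abs_add_le z' (γ - τ)
    linarith
  have h9 : (v : ℝ) * |z + (γ - σ)| = (n * u : ℕ) * |z' + (γ - τ)| := by
    have := congrArg abs E
    rwa [abs_mul, abs_mul, Nat.abs_cast, Nat.abs_cast] at this
  have hnu : (0 : ℝ) ≤ (n * u : ℕ) := Nat.cast_nonneg _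
  constructor
  · have := mul_le_mul_of_nonneg_left h7 hnu
    rw [h9]
    linarith
  · have := mul_le_mul_of_nonneg_left h8 hnu
    rw [h9]
    linarith

/-! ### sums over windows -/

/-- **primes of a window** -/
theorem win_sum : ∃ C : ℝ, 0 < C ∧ ∀ P Q : ℝ, 9 ≤ P → P ≤ Q → ∀ F : Finset ℕ,
    (∀ p ∈ F, p.Prime ∧ P < p ∧ (p : ℝ) ≤ Q) →
      ∑ p ∈ F, (1 : ℝ) / p ≤ C * (Real.log (Q / P) + 1) / Real.log P := by
  obtain ⟨C, hC, h⟩ := Crest.Agent.R4P.BTs18.ap_sum
  refine ⟨C, hC, fun P Q h9 hPQ F hF => ?_⟩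
  have hP0 : 0 < P := by linarith
  have hQ0 : 0 < Q := by linarith
  have hlP : 0 < Real.log P := Real.log_pos (by linarith)
  have hlQ : Real.log P ≤ Real.log Q := Real.log_le_log hP0 hPQ
  have h1 := h 1 0 le_rfl P Q h9 (by norm_num; linarith) hPQ F fun p hp => by
    obtain ⟨a1, a2, a3⟩ := hF p hp
    exact ⟨a1, a2, a3, by omega⟩
  rw [Nat.totient_one, Nat.cast_one, div_one] at h1
  refine h1.trans ?_
  have h2 : Real.log (Real.log Q / Real.log P) ≤ Real.log (Q / P) / Real.log P := by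
    have h3 := Real.log_le_sub_one_of_pos (show 0 < Real.log Q / Real.log P by
      exact div_pos (by linarith) hlP)
    refine h3.trans (le_of_eq ?_)
    rw [Real.log_div hQ0.ne' hP0.ne']
    field_simp
  have h4 : Real.log (Real.log Q / Real.log P) + 1 / Real.log P ≤
      (Real.log (Q / P) + 1) / Real.log P := by
    rw [add_div]
    linarith
  calc C * (Real.log (Real.log Q / Real.log P) + 1 / Real.log P) ≤
      C * ((Real.log (Q / P) + 1) / Real.log P) := mul_le_mul_of_nonneg_left h4 hC.le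
    _ = C * (Real.log (Q / P) + 1) / Real.log P := by ring

/-- **the ties of one window around `q`** with cofactors `≤ U` (`q = |z + (γ - σ)| / |γ - τ|`),
all above `p₀` -/
theorem acc_sum : ∃ C : ℝ, 0 < C ∧ ∀ (q U p₀ : ℝ), 9 ≤ p₀ → 1 ≤ U → ∀ F : Finset ℕ,
    (∀ n ∈ F, n.Prime ∧ p₀ < n ∧ ∃ u v : ℕ, 0 < u ∧ 0 < v ∧ (u : ℝ) ≤ U ∧ (v : ℝ) ≤ U ∧
      ((n * u : ℕ) : ℝ) ≤ 2 * (v * q) ∧ 2 * (v * q) ≤ 3 * ((n * u : ℕ) : ℝ)) →
      ∑ n ∈ F, (1 : ℝ) / n ≤ C * (Real.log U + 1) / Real.log p₀ := by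
  obtain ⟨C, hC, h⟩ := win_sum
  refine ⟨C * 3, by positivity, fun q U p₀ h9 hU F hF => ?_⟩
  rcases F.eq_empty_or_nonempty with rfl | hne
  · rw [Finset.sum_empty]
    have h1 : 0 ≤ Real.log U := Real.log_nonneg hU
    have h2 : 0 < Real.log p₀ := Real.log_pos (by linarith)
    positivity
  have hq : 0 < q := by
    obtain ⟨n, hn⟩ := hne
    obtain ⟨a1, a2, u, v, a3, a4, a5, a6, a7, a8⟩ := hF n hn
    have hv : (0 : ℝ) < v := by exact_mod_cast a4
    have hnu : (0 : ℝ) < ((n * u : ℕ) : ℝ) := by exact_mod_cast Nat.mul_pos a1.pos a3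
    by_contra hc
    push Not at hc
    have : (v : ℝ) * q ≤ 0 := mul_nonpos_of_nonneg_of_nonpos hv.le hc
    linarith
  have hU0 : 0 < U := by linarith
  set P : ℝ := max p₀ (q / (2 * U)) with hP
  set Q : ℝ := max P (2 * U * q) with hQ
  have hP9 : 9 ≤ P := h9.trans (le_max_left _ _)
  have hPQ : P ≤ Q := le_max_left _ _
  have hp : p₀ ≤ P := le_max_left _ _
  have key := h P Q hP9 hPQ F fun n hn => by
    obtain ⟨a1, a2, u, v, a3, a4, a5, a6, a7, a8⟩ := hF n hn
    have hu : (1 : ℝ) ≤ u := by exact_mod_cast a3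
    have hv : (1 : ℝ) ≤ v := by exact_mod_cast a4
    have hn0 : (0 : ℝ) < n := by exact_mod_cast a1.pos
    push_cast at a7 a8
    refine ⟨a1, ?_, ?_⟩
    · rw [hP]
      refine max_lt a2 ?_
      rw [div_lt_iff₀ (by positivity)]
      have h1 : 2 * q ≤ 3 * (n * U) := by
        calc 2 * q ≤ 2 * (v * q) := by nlinarith
          _ ≤ 3 * (n * u) := a8
          _ ≤ 3 * (n * U) := by nlinarith
      nlinarith
    · rw [hQ]
      refine le_trans ?_ (le_max_right _ _)
      calc (n : ℝ) ≤ n * u := le_mul_of_one_le_right hn0.le hu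
        _ ≤ 2 * (v * q) := a7
        _ ≤ 2 * U * q := by nlinarith
  refine key.trans ?_
  have hlp : 0 < Real.log p₀ := Real.log_pos (by linarith)
  have hlP : Real.log p₀ ≤ Real.log P := Real.log_le_log (by linarith) hp
  have hP0 : 0 < P := by linarith
  have hQP : Q / P ≤ 4 * U ^ 2 := by
    rw [div_le_iff₀ hP0, hQ]
    refine max_le ?_ ?_
    · have : 1 ≤ 4 * U ^ 2 := by nlinarith
      nlinarith
    · have h1 : q / (2 * U) ≤ P := le_max_right _ _
      rw [div_le_iff₀ (by positivity)] at h1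
      nlinarith
  have hl1 : Real.log (Q / P) ≤ Real.log (4 * U ^ 2) := by
    refine Real.log_le_log ?_ hQP
    exact div_pos (by linarith) hP0
  have hl2 : Real.log (4 * U ^ 2) ≤ 2 + 2 * Real.log U := by
    rw [Real.log_mul (by norm_num) (by positivity), Real.log_pow]
    have h4 : Real.log 4 ≤ 2 := by
      have : Real.log 4 = 2 * Real.log 2 := by
        rw [show (4 : ℝ) = 2 ^ 2 by norm_num, Real.log_pow]
        push_cast; ring
      rw [this]
      have := Real.log_two_lt_d9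
      linarith
    push_cast
    linarith
  have hlU : 0 ≤ Real.log U := Real.log_nonneg hU
  have h5 : C * (Real.log (Q / P) + 1) ≤ C * 3 * (Real.log U + 1) := by
    have : Real.log (Q / P) + 1 ≤ 3 * (Real.log U + 1) := by linarith
    calc C * (Real.log (Q / P) + 1) ≤ C * (3 * (Real.log U + 1)) :=
          mul_le_mul_of_nonneg_left this hC.le
      _ = _ := by ring
  calc C * (Real.log (Q / P) + 1) / Real.log P ≤ C * 3 * (Real.log U + 1) / Real.log P :=
        div_le_div_of_nonneg_right h5 (by linarith)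
    _ ≤ C * 3 * (Real.log U + 1) / Real.log p₀ :=
        div_le_div_of_nonneg_left (by positivity) hlp hlP

end Crest.Agent.R4P.PurA41
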