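import Crest.Agent.R4P.BTs_18
import Crest.Agent.R4P.RseRel_23
import Crest.Agent.R4P.InN_9

/-!
R4 (S0004) with powers, helper48, leaf B4 of PLAN v1 (docs 1588): **the in-member residue lemma**.

`h` = present piece of a tie `n` (modulus `g x`, `n ∣ x`), `i` = missing piece (modulus `g v`,
`n ∤ v`), one exact centre with a common label of denominator `k` : `k ∣ x - v`.

* `cong`, `cong2` : the residue relation of an exact pair (one label / two labels);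
* `ge` : `k ≤ n u` ;
* `rate_one` : `∑ 1/n` over the ties with small cofactors, fixed `k`, `≤ C U^4 k^(-3/4) (1 + log (1 + log Q))`;
* `rate_sum` : **uniform per piece, over all the eras** (denominators which at least double):
  `≤ C / √K0`;
* `node_cong` : the relation at a node of a context.
-/

set_option autoImplicit false
set_option linter.unusedSectionVars false
set_option linter.unusedVariables false

namespace Crest.Agent.R4P.ResM48

open Crest.Agent.R4P.BTs18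

/-! ### arithmetic -/

/-- `den κ ∣ d` if `d κ` is an integer -/
lemma den_dvd_of_mul {κ : ℚ} {d m : ℤ} (h : (d : ℚ) * κ = m) : (κ.den : ℤ) ∣ d := by
  have h1 : d * κ.num = m * κ.den := by
    have h2 : (d : ℚ) * κ * κ.den = m * κ.den := by rw [h]
    rw [mul_assoc, Rat.mul_den_eq_num] at h2
    exact_mod_cast h2
  have h3 : (κ.den : ℤ) ∣ d * κ.num := ⟨m, by rw [h1]; ring⟩
  have hc : IsCoprime (κ.den : ℤ) κ.num := by
    have := κ.reduced
    rw [Int.isCoprime_iff_nat_coprime]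
    simpa using this.symm
  exact hc.dvd_of_dvd_mul_right h3

/-- **the residue relation of an exact pair**, one label -/
theorem cong {κ : ℚ} {a a' : ℤ} {x v : ℕ} (h : ((a : ℝ) + κ) * v = (a' + κ) * x) :
    (κ.den : ℤ) ∣ (x : ℤ) - v := by
  refine den_dvd_of_mul (κ := κ) (m := a * v - a' * x) ?_
  have h1 : (((x : ℤ) - v : ℤ) : ℝ) * κ = ((a * v - a' * x : ℤ) : ℝ) := by
    push_cast; linarith
  exact_mod_cast h1

/-- **the residue relation of an exact pair**, two labels -/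
theorem cong2 {κ μ : ℚ} {a a' : ℤ} {x v : ℕ} (h : ((a : ℝ) + κ) * v = (a' + μ) * x) :
    ∃ m : ℤ, (x : ℚ) * μ - v * κ = m := by
  refine ⟨a * v - a' * x, ?_⟩
  have h1 : (x : ℝ) * μ - v * κ = ((a * v - a' * x : ℤ) : ℝ) := by
    push_cast; linarith
  exact_mod_cast h1

/-- two solutions of `cong2` differ by a multiple of `den μ / gcd` -/
theorem class2 {κ μ : ℚ} {n n' u v : ℕ} {m m' : ℤ} (h : ((n * u : ℕ) : ℚ) * μ - v * κ = m)
    (h' : ((n' * u : ℕ) : ℚ) * μ - v * κ = m') :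
    n % (μ.den / Nat.gcd u μ.den) = n' % (μ.den / Nat.gcd u μ.den) := by
  have h1 : (μ.den : ℤ) ∣ (n : ℤ) * u - (n' : ℤ) * u := by
    refine den_dvd_of_mul (κ := μ) (m := m - m') ?_
    push_cast at h h' ⊢
    linear_combination h - h'
  -- the residue of `n' u`
  have hk : 1 ≤ μ.den := μ.den_pos
  obtain ⟨r, hr⟩ : ∃ r : ℕ, (μ.den : ℤ) ∣ (n' : ℤ) * u - r := ⟨n' * u, by push_cast; simp⟩
  refine class_of (x := r) hk ?_ hr
  have e : (n : ℤ) * u - r = ((n : ℤ) * u - (n' : ℤ) * u) + ((n' : ℤ) * u - r) := by ring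
  rw [e]
  exact dvd_add h1 hr

/-- **lower bound of the tie** -/
theorem ge {k n u v : ℕ} (hu : 0 < u) (hvk : v < k) (hv : 0 < v) (hn : ¬ n ∣ v)
    (h : (k : ℤ) ∣ (n : ℤ) * u - v) : k ≤ n * u := by
  have hne : n * u ≠ v := fun e => hn ⟨u, e.symm⟩
  obtain ⟨c, hc⟩ := h
  have hk0 : (0 : ℤ) < k := by exact_mod_cast (lt_of_le_of_lt (Nat.zero_le v) hvk)
  have hv0 : (0 : ℤ) < v := by exact_mod_cast hv
  have hvk' : (v : ℤ) < k := by exact_mod_cast hvk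
  have hnu : (0 : ℤ) ≤ (n : ℤ) * u := by positivity
  have hc0 : c ≠ 0 := by
    intro h0
    rw [h0, mul_zero] at hc
    apply hne
    have : (n : ℤ) * u = v := by linarith
    exact_mod_cast this
  have hc1 : 0 < c := by
    by_contra hneg
    push Not at hneg
    have : c ≤ -1 := by omega
    nlinarith
  have h1 : (k : ℤ) ≤ (n : ℤ) * u - v := by
    rw [hc]
    nlinarith
  have h2 : (k : ℤ) ≤ (n : ℤ) * u := by linarith
  exact_mod_cast h2

/-! ### the ties with small cofactors -/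

/-- `n` is a bad tie for the denominator `k` and the cofactors `≤ U` -/
def Bad (k U n : ℕ) : Prop :=
  ∃ u v : ℕ, 1 ≤ u ∧ u ≤ U ∧ 1 ≤ v ∧ v ≤ U ∧ ¬ n ∣ v ∧ (k : ℤ) ∣ (n : ℤ) * u - v

/-- **fixed denominator** -/
theorem rate_one : ∃ C : ℝ, 0 < C ∧ ∀ k U : ℕ, 1 ≤ U → 18 * U ≤ k → ∀ Q : ℝ, 3 ≤ Q →
    ∀ F : Finset ℕ, (∀ n ∈ F, n.Prime ∧ (n : ℝ) ≤ Q ∧ Bad k U n) →
      ∑ n ∈ F, (1 : ℝ) / n ≤ C * (U : ℝ) ^ 3 / (k : ℝ) ^ (3 / 4 : ℝ) *
        (1 + Real.log (Real.log Q)) := by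
  obtain ⟨C, hC, h⟩ := res_union
  refine ⟨4 + 2 * C, by positivity, fun k U hU hk Q hQ F hF => ?_⟩
  have hU0 : (1 : ℝ) ≤ U := by exact_mod_cast hU
  have hk0 : (0 : ℝ) < k := by
    have : 0 < k := by omega
    exact_mod_cast this
  have hk1 : (1 : ℝ) ≤ k := by
    have : 1 ≤ k := by omega
    exact_mod_cast this
  have hkU : 18 * (U : ℝ) ≤ k := by exact_mod_cast hk
  have hlQ : 1 ≤ Real.log Q := by
    rw [Real.le_log_iff_exp_le (by linarith)]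
    have := Real.exp_one_lt_d9
    linarith
  have hllQ : 0 ≤ Real.log (Real.log Q) := Real.log_nonneg hlQ
  set P : ℝ := k / (2 * U) with hP
  have hP9 : 9 ≤ P := by
    rw [hP, le_div_iff₀ (by positivity)]
    linarith
  have hlt : ∀ n ∈ F, P < n := by
    intro n hn
    obtain ⟨h1, h2, u, v, h3, h4, h5, h6, h7, h8⟩ := hF n hn
    have h9 := ge (by omega) (lt_of_le_of_lt h6 (by omega)) (by omega) h7 h8
    have h10 : (k : ℝ) ≤ n * U := by
      have : k ≤ n * U := h9.trans (Nat.mul_le_mul_left _ h4)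
      exact_mod_cast this
    rw [hP, div_lt_iff₀ (by positivity)]
    nlinarith
  have hRHS : 0 ≤ (4 + 2 * C) * (U : ℝ) ^ 3 / (k : ℝ) ^ (3 / 4 : ℝ) *
      (1 + Real.log (Real.log Q)) := by positivity
  rcases le_total P Q with hPQ | hPQ
  swap
  · have : F = ∅ := by
      rw [Finset.eq_empty_iff_forall_notMem]
      intro n hn
      have a1 := hlt n hn
      have a2 := (hF n hn).2.1
      linarith
    rw [this, Finset.sum_empty]
    exact hRHS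
  have h1 := h k U U (by omega) P Q hP9 hPQ F fun n hn => by
    obtain ⟨h1, h2, u, v, h3, h4, h5, h6, h7, h8⟩ := hF n hn
    exact ⟨h1, hlt n hn, h2, v, u, h6, h3, h4, h8⟩
  refine h1.trans ?_
  have hlP : 1 ≤ Real.log P := by
    rw [Real.le_log_iff_exp_le (by linarith)]
    have := Real.exp_one_lt_d9
    linarith
  have h2 : Real.log (Real.log Q / Real.log P) ≤ Real.log (Real.log Q) := by
    refine Real.log_le_log (by positivity) (div_le_self (by linarith) hlP)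
  have hK : (0 : ℝ) < (k : ℝ) ^ (3 / 4 : ℝ) := by positivity
  have hKk : (k : ℝ) ^ (3 / 4 : ℝ) ≤ k := by
    conv_rhs => rw [← Real.rpow_one (k : ℝ)]
    exact Real.rpow_le_rpow_of_exponent_le hk1 (by norm_num)
  have h3 : 1 / P ≤ 2 * U / (k : ℝ) ^ (3 / 4 : ℝ) := by
    rw [hP, one_div_div]
    exact div_le_div_of_nonneg_left (by positivity) hK hKk
  set L : ℝ := Real.log (Real.log Q) with hL
  have h4 : 1 / P + C * U / (k : ℝ) ^ (3 / 4 : ℝ) * (1 + Real.log (Real.log Q / Real.log P)) ≤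
      (2 + C) * U / (k : ℝ) ^ (3 / 4 : ℝ) * (1 + L) := by
    have h5 : C * U / (k : ℝ) ^ (3 / 4 : ℝ) * (1 + Real.log (Real.log Q / Real.log P)) ≤
        C * U / (k : ℝ) ^ (3 / 4 : ℝ) * (1 + L) :=
      mul_le_mul_of_nonneg_left (by linarith) (by positivity)
    have h6 : 2 * (U : ℝ) / (k : ℝ) ^ (3 / 4 : ℝ) ≤ 2 * U / (k : ℝ) ^ (3 / 4 : ℝ) * (1 + L) := by
      have : 0 ≤ 2 * (U : ℝ) / (k : ℝ) ^ (3 / 4 : ℝ) := by positivity
      nlinarith
    have e : (2 + C) * U / (k : ℝ) ^ (3 / 4 : ℝ) * (1 + L) =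
        2 * U / (k : ℝ) ^ (3 / 4 : ℝ) * (1 + L) + C * U / (k : ℝ) ^ (3 / 4 : ℝ) * (1 + L) := by
      ring
    rw [e]; linarith
  have h7 : ((U : ℝ) + 1) * U ≤ 2 * (U : ℝ) ^ 2 := by nlinarith
  have h8 : 0 ≤ (2 + C) * U / (k : ℝ) ^ (3 / 4 : ℝ) * (1 + L) := by positivity
  calc ((U : ℝ) + 1) * U * (1 / P + C * U / (k : ℝ) ^ (3 / 4 : ℝ) *
        (1 + Real.log (Real.log Q / Real.log P)))
      ≤ ((U : ℝ) + 1) * U * ((2 + C) * U / (k : ℝ) ^ (3 / 4 : ℝ) * (1 + L)) :=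
        mul_le_mul_of_nonneg_left h4 (by positivity)
    _ ≤ 2 * (U : ℝ) ^ 2 * ((2 + C) * U / (k : ℝ) ^ (3 / 4 : ℝ) * (1 + L)) :=
        mul_le_mul_of_nonneg_right h7 h8
    _ = (4 + 2 * C) * (U : ℝ) ^ 3 / (k : ℝ) ^ (3 / 4 : ℝ) * (1 + L) := by ring

/-- fixed denominator, cofactors `≤ k^(1/24)`, `log n ≤ k` -/
theorem rate_sqrt : ∃ C : ℝ, 0 < C ∧ ∀ k : ℕ, 32 ≤ k → ∀ F : Finset ℕ,
    (∀ n ∈ F, n.Prime ∧ Real.log n ≤ k ∧ ∃ U : ℕ, U ^ 24 ≤ k ∧ Bad k U n) →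
      ∑ n ∈ F, (1 : ℝ) / n ≤ C * (k : ℝ) ^ (-(1 / 2) : ℝ) := by
  classical
  obtain ⟨C, hC, h⟩ := rate_one
  refine ⟨C * 25, by positivity, fun k hk F hF => ?_⟩
  have hk0 : (0 : ℝ) < k := by
    have : 0 < k := by omega
    exact_mod_cast this
  have hk1 : (1 : ℝ) ≤ k := by
    have : 1 ≤ k := by omega
    exact_mod_cast this
  -- the largest `U` with `U ^ 24 ≤ k`
  set U : ℕ := Nat.nthRoot 24 k with hU
  have hU1 : U ^ 24 ≤ k := Nat.pow_nthRoot_le (Or.inl (by norm_num))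
  have hU2 : ∀ V : ℕ, V ^ 24 ≤ k → V ≤ U := fun V hV => (Nat.le_nthRoot_iff (by norm_num)).2 hV
  have hU3 : 1 ≤ U := hU2 1 (by omega)
  have hU4 : 18 * U ≤ k := by
    rcases Nat.lt_or_ge U 2 with h2 | h2
    · omega
    · have : U ^ 24 = U * U ^ 23 := by ring
      have h3 : 2 ^ 23 ≤ U ^ 23 := Nat.pow_le_pow_left h2 23
      calc 18 * U ≤ 2 ^ 23 * U := Nat.mul_le_mul_right _ (by norm_num)
        _ ≤ U ^ 23 * U := Nat.mul_le_mul_right _ h3
        _ = U ^ 24 := by ring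
        _ ≤ k := hU1
  have hUr : (U : ℝ) ≤ (k : ℝ) ^ (1 / 24 : ℝ) := by
    have h1 : (U : ℝ) ^ 24 ≤ k := by exact_mod_cast hU1
    have h2 : ((U : ℝ) ^ 24) ^ (1 / 24 : ℝ) ≤ (k : ℝ) ^ (1 / 24 : ℝ) :=
      Real.rpow_le_rpow (by positivity) h1 (by norm_num)
    rwa [← Real.rpow_natCast, ← Real.rpow_mul (by positivity), show ((24 : ℕ) : ℝ) * (1 / 24) = 1 by
      norm_num, Real.rpow_one] at h2
  have h1 := h k U hU3 hU4 (Real.exp k) (by
    have h2 : (3 : ℝ) ≤ (k : ℝ) + 1 := by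
      have : (32 : ℝ) ≤ k := by exact_mod_cast hk
      linarith
    exact h2.trans (Real.add_one_le_exp _)) F fun n hn => by
      obtain ⟨a1, a2, V, a3, u, v, b1, b2, b3, b4, b5, b6⟩ := hF n hn
      have hV := hU2 V a3
      refine ⟨a1, ?_, u, v, b1, b2.trans hV, b3, b4.trans hV, b5, b6⟩
      have hn0 : (0 : ℝ) < n := by exact_mod_cast a1.pos
      calc (n : ℝ) = Real.exp (Real.log n) := (Real.exp_log hn0).symm
        _ ≤ Real.exp k := Real.exp_le_exp.2 a2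
  refine h1.trans ?_
  rw [Real.log_exp]
  have h2 : Real.log k ≤ 24 * (k : ℝ) ^ (1 / 24 : ℝ) := by
    have h3 := Real.log_le_sub_one_of_pos (show 0 < (k : ℝ) ^ (1 / 24 : ℝ) by positivity)
    rw [Real.log_rpow hk0] at h3
    linarith
  have h3 : (1 : ℝ) ≤ (k : ℝ) ^ (1 / 24 : ℝ) := Real.one_le_rpow hk1 (by norm_num)
  have h4 : (U : ℝ) ^ 3 ≤ ((k : ℝ) ^ (1 / 24 : ℝ)) ^ 3 := pow_le_pow_left₀ (by positivity) hUr 3
  set t : ℝ := (k : ℝ) ^ (1 / 24 : ℝ) with ht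
  have ht0 : 0 < t := by positivity
  have e1 : t ^ 4 = (k : ℝ) ^ (1 / 6 : ℝ) := by
    rw [ht, ← Real.rpow_natCast, ← Real.rpow_mul hk0.le]; norm_num
  have e2 : (k : ℝ) ^ (1 / 6 : ℝ) / (k : ℝ) ^ (3 / 4 : ℝ) ≤ (k : ℝ) ^ (-(1 / 2) : ℝ) := by
    rw [← Real.rpow_sub hk0]
    exact Real.rpow_le_rpow_of_exponent_le hk1 (by norm_num)
  calc C * (U : ℝ) ^ 3 / (k : ℝ) ^ (3 / 4 : ℝ) * (1 + Real.log k)
      ≤ C * t ^ 3 / (k : ℝ) ^ (3 / 4 : ℝ) * (25 * t) := by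
        refine mul_le_mul ?_ (by linarith) (by
          have := Real.log_nonneg hk1
          linarith) (by positivity)
        refine div_le_div_of_nonneg_right ?_ (by positivity)
        exact mul_le_mul_of_nonneg_left h4 hC.le
    _ = C * 25 * (t ^ 4 / (k : ℝ) ^ (3 / 4 : ℝ)) := by ring
    _ ≤ C * 25 * (k : ℝ) ^ (-(1 / 2) : ℝ) := by
        rw [e1]
        exact mul_le_mul_of_nonneg_left e2 (by positivity)

/-! ### all the eras -/

/-- a sum over denominators which at least double -/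
lemma geo_sum (V : Finset ℕ) : ∀ K0 : ℕ, 1 ≤ K0 → (∀ k ∈ V, K0 ≤ k) →
    (∀ k ∈ V, ∀ k' ∈ V, k ≠ k' → 2 * k ≤ k' ∨ 2 * k' ≤ k) →
    ∑ k ∈ V, (k : ℝ) ^ (-(1 / 2) : ℝ) ≤ 4 * (K0 : ℝ) ^ (-(1 / 2) : ℝ) := by
  classical
  induction V using Finset.strongInduction with
  | H V ih =>
    intro K0 h0 h1 h2
    rcases Finset.eq_empty_or_nonempty V with he | hne
    · rw [he, Finset.sum_empty]; positivity
    set m := V.min' hne with hm
    have hmV : m ∈ V := Finset.min'_mem V hne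
    have hmK : K0 ≤ m := h1 m hmV
    have hss : V.erase m ⊂ V := Finset.erase_ssubset hmV
    have h3 := ih (V.erase m) hss (2 * m) (by omega) (fun k hk => by
        obtain ⟨a1, a2⟩ := Finset.mem_erase.1 hk
        have a3 : m ≤ k := Finset.min'_le V k a2
        rcases h2 m hmV k a2 (Ne.symm a1) with a4 | a4
        · exact a4
        · omega) fun k hk k' hk' hn =>
        h2 k (Finset.mem_of_mem_erase hk) k' (Finset.mem_of_mem_erase hk') hn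
    rw [← Finset.add_sum_erase V _ hmV]
    have hm0 : (0 : ℝ) < m := by
      have : 0 < m := by omega
      exact_mod_cast this
    have hK0 : (0 : ℝ) < K0 := by exact_mod_cast (show 0 < K0 by omega)
    have e : (((2 * m : ℕ) : ℝ)) ^ (-(1 / 2) : ℝ) = (2 : ℝ) ^ (-(1 / 2) : ℝ) *
        (m : ℝ) ^ (-(1 / 2) : ℝ) := by
      push_cast
      rw [Real.mul_rpow (by norm_num) hm0.le]
    rw [e] at h3
    have h4 : (2 : ℝ) ^ (-(1 / 2) : ℝ) ≤ 3 / 4 := by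
      rw [Real.rpow_neg (by norm_num), ← Real.sqrt_eq_rpow]
      have h5 : (4 / 3 : ℝ) ≤ Real.sqrt 2 := Real.le_sqrt_of_sq_le (by norm_num)
      rw [inv_le_comm₀ (by positivity) (by norm_num)]
      linarith
    have h5 : (m : ℝ) ^ (-(1 / 2) : ℝ) ≤ (K0 : ℝ) ^ (-(1 / 2) : ℝ) :=
      Real.rpow_le_rpow_of_nonpos hK0 (by exact_mod_cast hmK) (by norm_num)
    have h6 : 0 ≤ (m : ℝ) ^ (-(1 / 2) : ℝ) := by positivity
    have h7 : (2 : ℝ) ^ (-(1 / 2) : ℝ) * (m : ℝ) ^ (-(1 / 2) : ℝ) ≤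
        3 / 4 * (m : ℝ) ^ (-(1 / 2) : ℝ) := mul_le_mul_of_nonneg_right h4 h6
    linarith

/-- **the in-member residue lemma, uniform per piece, all the eras**: `K n` = denominator of the
label of the piece at the column `n` -/
theorem rate_sum : ∃ C : ℝ, 0 < C ∧ ∀ (K : ℕ → ℕ) (K0 : ℕ), 32 ≤ K0 → ∀ F : Finset ℕ,
    (∀ n ∈ F, K0 ≤ K n ∧ n.Prime ∧ Real.log n ≤ K n ∧ ∃ U : ℕ, U ^ 24 ≤ K n ∧ Bad (K n) U n) →
    (∀ n ∈ F, ∀ n' ∈ F, K n ≠ K n' → 2 * K n ≤ K n' ∨ 2 * K n' ≤ K n) →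
    ∑ n ∈ F, (1 : ℝ) / n ≤ C * (K0 : ℝ) ^ (-(1 / 2) : ℝ) := by
  classical
  obtain ⟨C, hC, h⟩ := rate_sqrt
  refine ⟨C * 4, by positivity, fun K K0 h0 F hF hV => ?_⟩
  have e : ∑ n ∈ F, (1 : ℝ) / n = ∑ k ∈ F.image K, ∑ n ∈ F.filter (fun n => K n = k), (1 : ℝ) / n :=
    (Finset.sum_fiberwise_of_maps_to (fun n hn => Finset.mem_image_of_mem K hn) _).symm
  rw [e]
  have h1 : ∀ k ∈ F.image K, ∑ n ∈ F.filter (fun n => K n = k), (1 : ℝ) / n ≤
      C * (k : ℝ) ^ (-(1 / 2) : ℝ) := by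
    intro k hk
    obtain ⟨n₀, hn₀, rfl⟩ := Finset.mem_image.1 hk
    refine h (K n₀) (h0.trans (hF n₀ hn₀).1) _ fun n hn => ?_
    obtain ⟨a1, a2⟩ := Finset.mem_filter.1 hn
    obtain ⟨b1, b2, b3, b4⟩ := hF n a1
    rw [a2] at b3 b4
    exact ⟨b2, b3, b4⟩
  refine (Finset.sum_le_sum h1).trans ?_
  rw [← Finset.mul_sum, mul_assoc]
  refine mul_le_mul_of_nonneg_left ?_ hC.le
  refine geo_sum _ K0 (by omega) (fun k hk => ?_) fun k hk k' hk' hne => ?_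
  · obtain ⟨n, hn, rfl⟩ := Finset.mem_image.1 hk
    exact (hF n hn).1
  · obtain ⟨n, hn, rfl⟩ := Finset.mem_image.1 hk
    obtain ⟨n', hn', rfl⟩ := Finset.mem_image.1 hk'
    exact hV n hn n' hn' hne

/-! ### the node form -/

section node
open Crest.Agent.R4P.Cnt588 Crest.Agent.R4P.Item758 Crest.Agent.R4P.W363
open Crest.Agent.R4P.Data758 Crest.Agent.R4P.Skel189 Crest.Agent.R4P.RseSt23 Crest.Agent.R4P.WPex189
open Crest.Agent.R4P.Bld532 (NS)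
open Crest.Agent.R4P.Step588 (NDt)
open Crest.Agent.R4P.RseNd23 (cof_div dvd_cof)
open Crest.Agent.R4P.InN9 (Pt pt_of_ne mul_div)
open Crest.Agent.R4.Soft104 (w)
open Crest.Agent.R4.HVW560 (cof)
open Crest.Agent.R4

variable {N : Skel189.Num} {γ : ℝ} {p0 P₀ : ℕ} {X : Ctx N γ p0 P₀} {u : NS} {τ : IT}

/-- **the relation of two labelled pieces of a node** with a common point and one index -/
theorem node_rel (h : NDt X.par (w X.ψ) X.c.t u τ) {p : ℕ} (hp : p ≤ top X.S)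
    {j j' : X.c.Lam} (hix : (X.c.world p j.1).1 = (X.c.world p j'.1).1)
    (m1 : j.1.1 ∈ τ.items) (m2 : j'.1.1 ∈ τ.items) {y z z' : ℝ} {a a' : ℤ}
    (p1 : Pt X u j y z a) (p2 : Pt X u j' y z' a') {σ σ' : ℚ}
    (hs : X.c.st p j.1.1 = some σ) (hs' : X.c.st p j'.1.1 = some σ') :
    ((a : ℝ) + ((u.B * σ : ℚ) : ℝ)) * ((j'.1.1 / Nat.gcd j'.1.1 j.1.1 : ℕ) : ℝ) =
      (a' + ((u.B * σ' : ℚ) : ℝ)) * ((j.1.1 / Nat.gcd j.1.1 j'.1.1 : ℕ) : ℝ) := by
  have h1 := X.ok.ix_point hp j p1.za p1.zb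
  have h2 := X.ok.ix_point hp j' p2.za p2.zb
  have hix' : X.c.wp.ix X.c.γ p j.1.1 (some σ) z = X.c.wp.ix X.c.γ p j'.1.1 (some σ') z' := by
    rw [← hs, ← hs', h1, h2]
    exact hix
  have hw : 0 < j.1.1 / u.A := Nat.pos_of_ne_zero (h.div_ne m1)
  have hw' : 0 < j'.1.1 / u.A := Nat.pos_of_ne_zero (h.div_ne m2)
  have hBK : u.B ≤ Kc X.S := by
    have h1 := X.mp_le (q := j.1.1)
    rw [h.self.mp _ m1] at h1
    have h2 : 0 < mp τ j.1.1 := by
      rw [BldF542.mp_eq_prod τ u.n h.self.ok]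
      exact Finset.prod_pos fun s hs => (BldF542.mt_lt τ u.n h.self.ok _ s hs).1.pos
    exact (Nat.le_mul_of_pos_right _ h2).trans h1
  have h3 := (exact_node X.fine hp (Cf.mem_S j) (Cf.mem_S j') (X.sys.pos _ (X.mem_S j))
    (X.sys.pos _ (X.mem_S j')) (stB_lbAt hs) (stB_lbAt hs') (InN9.A_pos h) h.B_pos hw hw'
    (mul_div h m1) (mul_div h m2) hBK p1.hz p2.hz p1.zr p2.zr hix').2
  rwa [cof_div (InN9.A_pos h) (h.bk.dvd _ m2) (h.bk.dvd _ m1),
    cof_div (InN9.A_pos h) (h.bk.dvd _ m1) (h.bk.dvd _ m2)] at h3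

/-- the reduced cofactor of the present piece is a multiple of the tie -/
lemma tie_dvd_cof {q r n : ℕ} (hn : n.Prime) (hr : 0 < r) (hq : n ∣ q) (hnr : ¬ n ∣ r) :
    ∃ u₁ : ℕ, q / Nat.gcd q r = n * u₁ ∧ (0 < q → 0 < u₁) := by
  obtain ⟨c, hc⟩ := dvd_cof (x := q) (y := r) hn hq hnr
  refine ⟨c, hc, fun hq0 => Nat.pos_of_ne_zero fun h0 => ?_⟩
  have h1 : q / Nat.gcd q r * Nat.gcd q r = q := Nat.div_mul_cancel (Nat.gcd_dvd_left q r)
  have h2 : q / Nat.gcd q r = n * c := hc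
  rw [h2, h0, mul_zero, zero_mul] at h1
  omega

/-- **the in-member residue relation at a node** (one label) -/
theorem node_cong (h : NDt X.par (w X.ψ) X.c.t u τ) {p : ℕ} (hp : p ≤ top X.S)
    {j j' : X.c.Lam} (hix : (X.c.world p j.1).1 = (X.c.world p j'.1).1)
    (m1 : j.1.1 ∈ τ.items) (m2 : j'.1.1 ∈ τ.items) {y z z' : ℝ} {a a' : ℤ}
    (p1 : Pt X u j y z a) (p2 : Pt X u j' y z' a') {σ : ℚ}
    (hs : X.c.st p j.1.1 = some σ) (hs' : X.c.st p j'.1.1 = some σ) :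
    (((u.B * σ : ℚ).den : ℕ) : ℤ) ∣
      ((j.1.1 / Nat.gcd j.1.1 j'.1.1 : ℕ) : ℤ) - (j'.1.1 / Nat.gcd j'.1.1 j.1.1 : ℕ) :=
  cong (node_rel h hp hix m1 m2 p1 p2 hs hs')

/-- **the bad ties at a node**: the tie `n` is a bad prime for the denominator of the label and the
largest reduced cofactor -/
theorem node_bad (h : NDt X.par (w X.ψ) X.c.t u τ) {p : ℕ} (hp : p ≤ top X.S)
    {j j' : X.c.Lam} (hix : (X.c.world p j.1).1 = (X.c.world p j'.1).1)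
    (m1 : j.1.1 ∈ τ.items) (m2 : j'.1.1 ∈ τ.items) {y z z' : ℝ} {a a' : ℤ}
    (p1 : Pt X u j y z a) (p2 : Pt X u j' y z' a') {σ : ℚ}
    (hs : X.c.st p j.1.1 = some σ) (hs' : X.c.st p j'.1.1 = some σ)
    {n : ℕ} (hn : n.Prime) (hnj : n ∣ j.1.1) (hnj' : ¬ n ∣ j'.1.1) {U : ℕ}
    (hU : j.1.1 / Nat.gcd j.1.1 j'.1.1 ≤ n * U) (hU' : j'.1.1 / Nat.gcd j'.1.1 j.1.1 ≤ U) :
    Bad ((u.B * σ : ℚ).den) U n := by
  have hq0 : 0 < j.1.1 := X.sys.pos _ (X.mem_S j)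
  have hr0 : 0 < j'.1.1 := X.sys.pos _ (X.mem_S j')
  obtain ⟨c, hc, hc0⟩ := tie_dvd_cof hn hr0 hnj hnj'
  have h1 := node_cong h hp hix m1 m2 p1 p2 hs hs'
  rw [hc] at h1 hU
  refine ⟨c, j'.1.1 / Nat.gcd j'.1.1 j.1.1, hc0 hq0, Nat.le_of_mul_le_mul_left hU hn.pos, ?_, hU',
    fun h2 => hnj' ?_, by exact_mod_cast h1⟩
  · exact Nat.div_pos (Nat.le_of_dvd hr0 (Nat.gcd_dvd_left _ _)) (Nat.gcd_pos_of_pos_left _ hr0)
  · exact h2.trans (Nat.div_dvd_of_dvd (Nat.gcd_dvd_left _ _))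

end node

end Crest.Agent.R4P.ResM48
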