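import Crest.Agent.R4P.PurA_41
import Crest.Agent.R4P.ResM_48
import Crest.Agent.R4P.StCh_24

/-!
R4 (S0004) with powers, T3, helper41: **purity of the labelled real classes of a tie**, node form
(PLAN v1, leaf C2).

One node `(u, τ)` of a context, tie `n = tp τ`; `j` a piece, `j'` a missing piece of the tie
(`u'.B = u.B n`), a common point on the upper circle, the same world index at the column `n`, both
labelled (`σ`, `σ'`).

* `low_c`, `low_c_dense` : the state `c.st p' q` of the missing piece below the tie.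
* `low_s`, `low_s_dense` : the same for `sta thr γ r (n :: L) p'` (`L` = missing ties above `n`).
* `node_E` : `v (z + (γ - σ)) = x (z' + (γ - σ'))`, `x = q / gcd`, `v = q' / gcd`.
* `pur_c`, `pur_s` : **pure (same state, same exact index) or accuracy window or sparse**;
* `Win`, `win_rate` : the ties of the accuracy windows of a piece, cofactors `≤ U`.
-/

set_option autoImplicit false
set_option linter.unusedSectionVars false
set_option linter.unusedVariables false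

namespace Crest.Agent.R4P.PurN41

open Crest.Agent.R4P.Cnt588 Crest.Agent.R4P.Item758 Crest.Agent.R4P.W363
open Crest.Agent.R4P.Data758 Crest.Agent.R4P.Skel189 Crest.Agent.R4P.RseSt23 Crest.Agent.R4P.WPex189
open Crest.Agent.R4P.Bld532 (NS)
open Crest.Agent.R4P.Step588 (NDt)
open Crest.Agent.R4P.WalkIT579 (tp isL)
open Crest.Agent.R4P.RseNd23 (cof_div dvd_cof)
open Crest.Agent.R4P.InN9 (Pt pt_of_ne mul_div)
open Crest.Agent.R4P.Link758 (Bl)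
open Crest.Agent.R4.Soft104 (w)
open Crest.Agent.R4P.PurA41 Crest.Agent.R4P.StCh24 Crest.Agent.R4P.StB21
open Crest.Agent.R4

/-- what may happen to a label `σ` below a missing tie (`b` = product of the missing ties below the tie,
`R = b r`) -/
def Dead (γ r : ℝ) (b : ℕ) (σ : ℚ) : Prop :=
  1 < ((((b : ℚ) * σ).den : ℝ)) ^ 5 * ((b : ℝ) * r) ∨
    ((b : ℝ) * r) ^ 4 < |(b : ℝ) * γ - (b : ℝ) * σ| ^ 5

section cf
variable {c : Cf} {n p p' q : ℕ}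

/-- **the state of a thin labelled piece below its missing tie** -/
theorem low_c (hl : c.lam p = 0) (hl' : c.lam p' = 0)
    (hL : lst (c.t.mt q) p' = p :: lst (c.t.mt q) p) (hp : 0 < p) (hB : 0 < Bl c p q)
    (hthin : (Bl c p q : ℝ) * c.r q ≤ c.wp.thr p) (h10 : c.wp.thr p' ≤ 1 / 10) {σ : ℚ}
    (hs : c.st p q = some σ) :
    c.st p' q = some σ ∨ (((p * Bl c p q : ℕ) : ℝ) * c.r q ≤ c.wp.thr p' ∧
      Dead c.γ (c.r q) (p * Bl c p q) σ) := by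
  by_cases hne : c.st p' q = some σ
  · exact Or.inl hne
  right
  have hne' : c.st p' q ≠ c.st p q := by rw [hs]; exact hne
  obtain ⟨h1, h2, h3⟩ := miss_change hl hl' hL hthin hne'
  have hBl : Bl c p' q = p * Bl c p q := by
    unfold Bl
    rw [hL, List.prod_cons]
  have h4 : ((p * Bl c p q : ℕ) : ℝ) * c.r q ≤ c.wp.thr p' := by
    by_contra hc
    push Not at hc
    rw [← hBl] at hc
    obtain ⟨-, h5, -⟩ := h3 hc
    rw [hs] at h5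
    exact absurd h5 (by simp)
  refine ⟨h4, ?_⟩
  rw [hs] at h1
  rw [h2] at hne
  exact birth_size hp hB h1.symm hne (h4.trans h10)

end cf

/-- the same for `sta` -/
theorem low_s {thr : ℕ → ℝ} {γ r : ℝ} {L : List ℕ} {n p : ℕ} {σ : ℚ} (hL : 0 < L.prod)
    (hn : 0 < n) (hr : 0 < r) (h10 : thr p ≤ 1 / 10) (hs : sta thr γ r L n = some σ) :
    sta thr γ r (n :: L) p = some σ ∨ (((n * L.prod : ℕ) : ℝ) * r ≤ thr p ∧
      Dead γ r (n * L.prod) σ) := by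
  rcases low_sta (thr := thr) (p := p) hL hn hr hs with h | ⟨h1, -, h2⟩
  · exact Or.inl h
  · right
    refine ⟨h1, ?_⟩
    rcases h2 with h2 | h2
    · exact absurd (h1.trans h10) (not_le.2 h2)
    · exact h2

/-- dense: a dead label is inaccurate -/
lemma Dead.acc {γ r : ℝ} {b n : ℕ} {σ : ℚ} {t : ℝ} (h : Dead γ r (n * b) σ)
    (h1 : ((n * b : ℕ) : ℝ) * r ≤ t) (hr : 0 ≤ r) (hd : ((((b : ℚ) * σ).den : ℝ)) ^ 5 * t ≤ 1) :
    (((n * b : ℕ) : ℝ) * r) ^ 4 < |((n * b : ℕ) : ℝ) * γ - ((n * b : ℕ) : ℝ) * σ| ^ 5 := by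
  rcases h with h | h
  · exfalso
    have e : (((n * b : ℕ) : ℚ)) * σ = (n : ℚ) * ((b : ℚ) * σ) := by
      push_cast; ring
    have h2 : (((((n * b : ℕ) : ℚ)) * σ).den : ℝ) ≤ ((((b : ℚ) * σ)).den : ℝ) := by
      rw [e]
      exact_mod_cast PurA41.den_mul_le n _
    have h3 : (((((n * b : ℕ) : ℚ)) * σ).den : ℝ) ^ 5 * (((n * b : ℕ) : ℝ) * r) ≤
        ((((b : ℚ) * σ)).den : ℝ) ^ 5 * t := by
      refine mul_le_mul (pow_le_pow_left₀ (Nat.cast_nonneg _) h2 5) h1 ?_ (by positivity)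
      have : (0 : ℝ) ≤ ((n * b : ℕ) : ℝ) := Nat.cast_nonneg _
      positivity
    linarith
  · exact h

/-- **the accuracy window**: `x = q / gcd`, `v = q' / gcd` -/
def Win (γ z : ℝ) (σ σ' : ℚ) (x v : ℕ) : Prop :=
  (x : ℝ) * |γ - σ'| ≤ 2 * (v * |z + (γ - σ)|) ∧ 2 * (v * |z + (γ - σ)|) ≤ 3 * (x * |γ - σ'|)

section node
variable {N : Skel189.Num} {γ : ℝ} {p0 P₀ : ℕ} {X : Ctx N γ p0 P₀} {u u' : NS} {τ τ' : IT}

/-- **the exact relation of two labelled pieces of a node** -/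
theorem node_E (h : NDt X.par (w X.ψ) X.c.t u τ) {p : ℕ} (hp : p ≤ top X.S)
    {j j' : X.c.Lam} (hix : (X.c.world p j.1).1 = (X.c.world p j'.1).1)
    (m1 : j.1.1 ∈ τ.items) (m2 : j'.1.1 ∈ τ.items) {y z z' : ℝ} {a a' : ℤ}
    (p1 : Pt X u j y z a) (p2 : Pt X u j' y z' a') {σ σ' : ℚ}
    (hs : X.c.st p j.1.1 = some σ) (hs' : X.c.st p j'.1.1 = some σ') :
    ((j'.1.1 / Nat.gcd j'.1.1 j.1.1 : ℕ) : ℝ) * (z + (X.c.γ - σ)) =
      ((j.1.1 / Nat.gcd j.1.1 j'.1.1 : ℕ) : ℝ) * (z' + (X.c.γ - σ')) := by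
  have h1 := ResM48.node_rel h hp hix m1 m2 p1 p2 hs hs'
  have hq0 : 0 < j.1.1 := X.sys.pos _ (X.mem_S j)
  have hr0 : 0 < j'.1.1 := X.sys.pos _ (X.mem_S j')
  have hw : 0 < j.1.1 / u.A := Nat.pos_of_ne_zero (h.div_ne m1)
  have hw' : 0 < j'.1.1 / u.A := Nat.pos_of_ne_zero (h.div_ne m2)
  -- cofactors of the moduli
  have c1 : (j.1.1 / u.A) / Nat.gcd (j.1.1 / u.A) (j'.1.1 / u.A) = j.1.1 / Nat.gcd j.1.1 j'.1.1 :=
    cof_div (InN9.A_pos h) (h.bk.dvd _ m1) (h.bk.dvd _ m2)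
  have c2 : (j'.1.1 / u.A) / Nat.gcd (j'.1.1 / u.A) (j.1.1 / u.A) =
      j'.1.1 / Nat.gcd j'.1.1 j.1.1 :=
    cof_div (InN9.A_pos h) (h.bk.dvd _ m2) (h.bk.dvd _ m1)
  set g := Nat.gcd (j.1.1 / u.A) (j'.1.1 / u.A) with hg
  have hg0 : 0 < g := Nat.gcd_pos_of_pos_left _ hw
  rw [Nat.gcd_comm (j'.1.1 / u.A) (j.1.1 / u.A), ← hg] at c2
  have e1 : j.1.1 / u.A = g * (j.1.1 / Nat.gcd j.1.1 j'.1.1) := by
    rw [← c1]; exact (Nat.mul_div_cancel' (Nat.gcd_dvd_left _ _)).symm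
  have e2 : j'.1.1 / u.A = g * (j'.1.1 / Nat.gcd j'.1.1 j.1.1) := by
    rw [← c2]; exact (Nat.mul_div_cancel' (Nat.gcd_dvd_right _ _)).symm
  set x := j.1.1 / Nat.gcd j.1.1 j'.1.1 with hx
  set v := j'.1.1 / Nat.gcd j'.1.1 j.1.1 with hv
  refine rel_of_exact (B := u.B) (y := y) h.B_pos hg0 hw hw' e1 e2 p1.hz p2.hz ?_
  have hw1 : ((j.1.1 / u.A : ℕ) : ℝ) ≠ 0 := by exact_mod_cast hw.ne'
  have hw2 : ((j'.1.1 / u.A : ℕ) : ℝ) ≠ 0 := by exact_mod_cast hw'.ne'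
  rw [div_eq_div_iff hw1 hw2, e1, e2]
  push_cast at h1 ⊢
  have h2 : ((a : ℝ) + u.B * σ) * v = (a' + u.B * σ') * x := h1
  calc ((a : ℝ) + u.B * σ) * (g * v) = g * (((a : ℝ) + u.B * σ) * v) := by ring
    _ = g * ((a' + u.B * σ') * x) := by rw [h2]
    _ = (a' + u.B * σ') * (g * x) := by ring

/-- **accuracy death of the missing piece: the window**, at a node -/
theorem node_win (h : NDt X.par (w X.ψ) X.c.t u τ) {p : ℕ} (hp : p ≤ top X.S)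
    {j j' : X.c.Lam} (hix : (X.c.world p j.1).1 = (X.c.world p j'.1).1)
    (m1 : j.1.1 ∈ τ.items) (m2 : j'.1.1 ∈ τ.items) {y z z' : ℝ} {a a' : ℤ}
    (p1 : Pt X u j y z a) (p2 : Pt X u j' y z' a') {σ σ' : ℚ}
    (hs : X.c.st p j.1.1 = some σ) (hs' : X.c.st p j'.1.1 = some σ') {n : ℕ} (hn : 0 < n)
    (hth : 32 * (((n * u.B : ℕ) : ℝ) * X.c.r j'.1.1) ≤ 1)
    (hacc : (((n * u.B : ℕ) : ℝ) * X.c.r j'.1.1) ^ 4 <
      |((n * u.B : ℕ) : ℝ) * X.c.γ - ((n * u.B : ℕ) : ℝ) * σ'| ^ 5) :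
    Win X.c.γ z σ σ' (j.1.1 / Nat.gcd j.1.1 j'.1.1) (j'.1.1 / Nat.gcd j'.1.1 j.1.1) := by
  have E := node_E h hp hix m1 m2 p1 p2 hs hs'
  have k := acc_window (γ := X.c.γ) (z := z) (σ := σ) (τ := σ') (n := n) (B := u.B)
    (u := j.1.1 / Nat.gcd j.1.1 j'.1.1) (v := n * (j'.1.1 / Nat.gcd j'.1.1 j.1.1)) hn h.B_pos p2.zr
    hth hacc (by
      push_cast
      rw [mul_assoc, mul_assoc, E])
  obtain ⟨k1, k2⟩ := k
  have hn' : (0 : ℝ) < n := by exact_mod_cast hn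
  push_cast at k1 k2
  constructor
  · refine le_of_mul_le_mul_left ?_ hn'
    linarith
  · refine le_of_mul_le_mul_left ?_ hn'
    linarith

/-- the alive missing items are thin above the tie; the state below (`c.st`) -/
theorem node_low (hT : TH X) (h : NDt X.par (w X.ψ) X.c.t u τ) (h' : NDt X.par (w X.ψ) X.c.t u' τ')
    (hr' : Step588.RdOk X u' τ') (hl : ¬ isL τ) (hl' : ¬ isL τ') {q : ℕ} (hq : q ∈ τ.items)
    (hq' : q ∈ τ'.items) (hqs : q ∈ X.S') (hB : u'.B = u.B * tp τ)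
    (h10 : X.c.wp.thr (tp τ') ≤ 1 / 10) {σ : ℚ} (hs : X.c.st (tp τ) q = some σ) :
    X.c.st (tp τ') q = some σ ∨ (((tp τ * u.B : ℕ) : ℝ) * X.c.r q ≤ X.c.wp.thr (tp τ') ∧
      Dead X.c.γ (X.c.r q) (tp τ * u.B) σ) := by
  have h1 := miss_thin hT h hl h' hr' hq' hqs hB
  have hp := (Crest.Agent.R4P.WalkIT579.top_of_nodeOk h.self.node hl).1
  have e := Bl_node h hl hq
  rw [← e] at h1
  have k := low_c (hT.lam _) (hT.lam _) (lst_miss h h' hl hl' hq hq' hB) hp.pos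
    (by rw [e]; exact h.B_pos) h1 h10 hs
  rwa [e] at k

/-- **PURITY at a node**: `j` any labelled piece, `j'` a labelled missing piece of the tie `tp τ` in the
same real class, with a common point: the label of `j'` stays below the tie, or accuracy window, or its
denominator is sparse -/
theorem pur_c (hT : TH X) (h : NDt X.par (w X.ψ) X.c.t u τ) (h' : NDt X.par (w X.ψ) X.c.t u' τ')
    (hr' : Step588.RdOk X u' τ') (hl : ¬ isL τ) (hl' : ¬ isL τ') (hp : tp τ ≤ top X.S)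
    (h32 : X.c.wp.thr (tp τ') ≤ 1 / 32) (hB : u'.B = u.B * tp τ)
    {j j' : X.c.Lam} (hix : (X.c.world (tp τ) j.1).1 = (X.c.world (tp τ) j'.1).1)
    (m1 : j.1.1 ∈ τ.items) (m2 : j'.1.1 ∈ τ.items) (m2' : j'.1.1 ∈ τ'.items)
    (hqs : j'.1.1 ∈ X.S') {y z z' : ℝ} {a a' : ℤ}
    (p1 : Pt X u j y z a) (p2 : Pt X u j' y z' a') {σ σ' : ℚ}
    (hs : X.c.st (tp τ) j.1.1 = some σ) (hs' : X.c.st (tp τ) j'.1.1 = some σ') :
    X.c.st (tp τ') j'.1.1 = some σ' ∨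
      Win X.c.γ z σ σ' (j.1.1 / Nat.gcd j.1.1 j'.1.1) (j'.1.1 / Nat.gcd j'.1.1 j.1.1) ∨
      1 < ((((u.B : ℚ) * σ').den : ℝ)) ^ 5 * X.c.wp.thr (tp τ') := by
  rcases node_low hT h h' hr' hl hl' m2 m2' hqs hB (by linarith) hs' with k | ⟨k1, k2⟩
  · exact Or.inl k
  right
  by_cases hd : ((((u.B : ℚ) * σ').den : ℝ)) ^ 5 * X.c.wp.thr (tp τ') ≤ 1
  · left
    have ht := (Crest.Agent.R4P.WalkIT579.top_of_nodeOk h.self.node hl).1
    have hr0 : 0 ≤ X.c.r j'.1.1 := (Cf.r_pos j').le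
    exact node_win h hp hix m1 m2 p1 p2 hs hs' ht.pos (by linarith) (k2.acc k1 hr0 hd)
  · exact Or.inr (not_le.1 hd)

/-- **PURITY at a node, for `sta`** (any column `p'` for the low state, for instance the tie itself) -/
theorem pur_s (h : NDt X.par (w X.ψ) X.c.t u τ) {n p' : ℕ} (hn : 0 < n) (hp : n ≤ top X.S)
    (h32 : X.c.wp.thr p' ≤ 1 / 32)
    {j j' : X.c.Lam} (hix : (X.c.world n j.1).1 = (X.c.world n j'.1).1)
    (m1 : j.1.1 ∈ τ.items) (m2 : j'.1.1 ∈ τ.items) {y z z' : ℝ} {a a' : ℤ}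
    (p1 : Pt X u j y z a) (p2 : Pt X u j' y z' a') {σ σ' : ℚ}
    (hs : X.c.st n j.1.1 = some σ) (hs' : X.c.st n j'.1.1 = some σ') {L : List ℕ}
    (hL : L.prod = u.B) (hs2 : sta X.c.wp.thr X.c.γ (X.c.r j'.1.1) L n = some σ') :
    sta X.c.wp.thr X.c.γ (X.c.r j'.1.1) (n :: L) p' = some σ' ∨
      Win X.c.γ z σ σ' (j.1.1 / Nat.gcd j.1.1 j'.1.1) (j'.1.1 / Nat.gcd j'.1.1 j.1.1) ∨
      1 < ((((u.B : ℚ) * σ').den : ℝ)) ^ 5 * X.c.wp.thr p' := by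
  have hr0 : 0 < X.c.r j'.1.1 := Cf.r_pos j'
  rcases low_s (thr := X.c.wp.thr) (p := p') (by rw [hL]; exact h.B_pos) hn hr0 (by linarith) hs2
    with k | ⟨k1, k2⟩
  · exact Or.inl k
  right
  rw [hL] at k1 k2
  by_cases hd : ((((u.B : ℚ) * σ').den : ℝ)) ^ 5 * X.c.wp.thr p' ≤ 1
  · left
    exact node_win h hp hix m1 m2 p1 p2 hs hs' hn (by linarith) (k2.acc k1 hr0.le hd)
  · exact Or.inr (not_le.1 hd)

/-- **pure: the exact index does not change** -/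
lemma pure_ix (P : Crest.Agent.R4P.W363.WP) {γ : ℝ} {σ : ℚ} {z : ℝ} (p p' q : ℕ) :
    P.ix γ p q (some σ) z = P.ix γ p' q (some σ) z := rfl

end node

/-! ### the windows of a piece -/

/-- the ties `n` with an accuracy window for the values `q = |z + (γ - σ)| / |γ - σ'|` of a finite set
`V` (one value per label), cofactors `x = n u`, `u, v ≤ U` -/
def WinT (V : Finset ℝ) (U : ℝ) (n : ℕ) : Prop :=
  ∃ q ∈ V, ∃ u v : ℕ, 0 < u ∧ 0 < v ∧ (u : ℝ) ≤ U ∧ (v : ℝ) ≤ U ∧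
    ((n * u : ℕ) : ℝ) ≤ 2 * (v * q) ∧ 2 * (v * q) ≤ 3 * ((n * u : ℕ) : ℝ)

/-- a window gives `WinT` -/
lemma Win.winT {γ z : ℝ} {σ σ' : ℚ} {n u v : ℕ} (h : Win γ z σ σ' (n * u) v) (hu : 0 < u)
    (hv : 0 < v) {U : ℝ} (hU : (u : ℝ) ≤ U) (hV : (v : ℝ) ≤ U) (hne : γ ≠ σ') {V : Finset ℝ}
    (hm : |z + (γ - σ)| / |γ - σ'| ∈ V) : WinT V U n := by
  have h0 : 0 < |γ - σ'| := abs_pos.2 (sub_ne_zero.2 hne)
  refine ⟨_, hm, u, v, hu, hv, hU, hV, ?_, ?_⟩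
  · have := h.1
    rw [mul_div_assoc', mul_div_assoc', le_div_iff₀ h0]
    exact this
  · have := h.2
    rw [mul_div_assoc', mul_div_assoc', div_le_iff₀ h0]
    linarith

/-- **the rate of the accuracy windows**: `∑ 1/n ≤ C |V| (1 + log U) / log p₀` -/
theorem win_rate : ∃ C : ℝ, 0 < C ∧ ∀ (V : Finset ℝ) (U p₀ : ℝ), 9 ≤ p₀ → 1 ≤ U →
    ∀ F : Finset ℕ, (∀ n ∈ F, n.Prime ∧ p₀ < n ∧ WinT V U n) →
      ∑ n ∈ F, (1 : ℝ) / n ≤ C * V.card * (Real.log U + 1) / Real.log p₀ := by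
  classical
  obtain ⟨C, hC, h⟩ := acc_sum
  refine ⟨C, hC, fun V U p₀ h9 hU F hF => ?_⟩
  have key : ∀ n ∈ F, (1 : ℝ) / n ≤ ∑ q ∈ V, if (∃ u v : ℕ, 0 < u ∧ 0 < v ∧ (u : ℝ) ≤ U ∧
      (v : ℝ) ≤ U ∧ ((n * u : ℕ) : ℝ) ≤ 2 * (v * q) ∧ 2 * (v * q) ≤ 3 * ((n * u : ℕ) : ℝ)) then
      (1 : ℝ) / n else 0 := by
    intro n hn
    obtain ⟨a1, a2, q, hq, hw⟩ := hF n hn
    refine le_trans (le_of_eq ?_) (Finset.single_le_sum (f := fun q => if (∃ u v : ℕ, 0 < u ∧ 0 < v ∧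
      (u : ℝ) ≤ U ∧ (v : ℝ) ≤ U ∧ ((n * u : ℕ) : ℝ) ≤ 2 * (v * q) ∧
      2 * (v * q) ≤ 3 * ((n * u : ℕ) : ℝ)) then (1 : ℝ) / n else 0) (fun q _ => ?_) hq)
    · simp only [if_pos hw]
    · show (0 : ℝ) ≤ if _ then (1 : ℝ) / n else 0
      split_ifs
      · positivity
      · exact le_rfl
  calc ∑ n ∈ F, (1 : ℝ) / n ≤ ∑ n ∈ F, ∑ q ∈ V, if (∃ u v : ℕ, 0 < u ∧ 0 < v ∧ (u : ℝ) ≤ U ∧
      (v : ℝ) ≤ U ∧ ((n * u : ℕ) : ℝ) ≤ 2 * (v * q) ∧ 2 * (v * q) ≤ 3 * ((n * u : ℕ) : ℝ)) then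
      (1 : ℝ) / n else 0 := Finset.sum_le_sum key
    _ = ∑ q ∈ V, ∑ n ∈ F.filter (fun n => ∃ u v : ℕ, 0 < u ∧ 0 < v ∧ (u : ℝ) ≤ U ∧
      (v : ℝ) ≤ U ∧ ((n * u : ℕ) : ℝ) ≤ 2 * (v * q) ∧ 2 * (v * q) ≤ 3 * ((n * u : ℕ) : ℝ)),
      (1 : ℝ) / n := by
        rw [Finset.sum_comm]
        exact Finset.sum_congr rfl fun q _ => (Finset.sum_filter _ _).symm
    _ ≤ ∑ _q ∈ V, C * (Real.log U + 1) / Real.log p₀ := by
        refine Finset.sum_le_sum fun q _ => h q U p₀ h9 hU _ fun n hn => ?_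
        obtain ⟨b1, b2⟩ := Finset.mem_filter.1 hn
        obtain ⟨a1, a2, -⟩ := hF n b1
        exact ⟨a1, a2, b2⟩
    _ = C * V.card * (Real.log U + 1) / Real.log p₀ := by
        rw [Finset.sum_const, nsmul_eq_mul]
        ring

end Crest.Agent.R4P.PurN41
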