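import Crest.Agent.R4P.PMc_49

/-!
R4 (S0004) with powers, helper37: **the `L²` form of the prices** (square root form with the
projected height, without any pointwise cap).

Content `x` joining content `h` in one class (members with weights `c`, tests `W`):
* `PN_L2` : `PD (h + x) ≤ PD h + 14 (θ M x + K / θ)` for every `θ > 0` (helper35's dual potential),
  `K = √(M x²) √(M (h+x)²)`;
* `PM_L2`, `PMs_L2`, `PM7_L2` : families, scale `σ`: the price is `8 Σ_z (θ σ M x_z + K_z / θ)`;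
* `PM7_L2_move` : content moves between classes;
* `PM7_L2_lam` : `K_z ≤ (τ M x² + M (h+x)² / τ) / 2`.
-/

set_option autoImplicit false
set_option linter.unusedVariables false
set_option linter.unusedSectionVars false

namespace Crest.Agent.R4P.ZetaL237

open Finset Crest.Agent.R4P.GMer27 Crest.Agent.R4P.ModeP940 Crest.Agent.R4P.MisR16
open Crest.Agent.R4P.Mism16 Crest.Agent.R4P.RXs343 Crest.Agent.R4P.PMs49 Crest.Agent.R4P.PMc49

section single
variable {J : Type*} [Fintype J] {c : J → ℝ} {W : Set (J → ℝ)}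

/-- root of the second moment -/
noncomputable def nn (c : J → ℝ) (f : J → ℝ) : ℝ := Real.sqrt (M c fun j => f j ^ 2)

lemma nn_nonneg (f : J → ℝ) : 0 ≤ nn c f := Real.sqrt_nonneg _

/-- Cauchy-Schwarz -/
lemma M_cs (c0 : ∀ j, 0 ≤ c j) (f g : J → ℝ) : M c (fun j => f j * g j) ≤ nn c f * nn c g := by
  have h := Finset.sum_mul_sq_le_sq_mul_sq Finset.univ (fun j => Real.sqrt (c j) * f j)
    fun j => Real.sqrt (c j) * g j
  have e1 : ∑ j, (Real.sqrt (c j) * f j) * (Real.sqrt (c j) * g j) = M c fun j => f j * g j := by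
    unfold M
    refine Finset.sum_congr rfl fun j _ => ?_
    have := Real.mul_self_sqrt (c0 j)
    calc Real.sqrt (c j) * f j * (Real.sqrt (c j) * g j)
        = Real.sqrt (c j) * Real.sqrt (c j) * (f j * g j) := by ring
      _ = _ := by rw [this]
  have e2 : ∀ k : J → ℝ, ∑ j, (Real.sqrt (c j) * k j) ^ 2 = M c fun j => k j ^ 2 := by
    intro k
    unfold M
    refine Finset.sum_congr rfl fun j _ => ?_
    rw [mul_pow, Real.sq_sqrt (c0 j)]
  rw [e1, e2, e2] at h
  have hf : 0 ≤ M c fun j => f j ^ 2 := M_nonneg c0 fun j => sq_nonneg _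
  unfold nn
  rw [← Real.sqrt_mul hf]
  exact Real.le_sqrt_of_sq_le h

lemma nn_mono (c0 : ∀ j, 0 ≤ c j) {f g : J → ℝ} (hf : ∀ j, 0 ≤ f j) (h : ∀ j, f j ≤ g j) :
    nn c f ≤ nn c g :=
  Real.sqrt_le_sqrt (M_mono c0 fun j => pow_le_pow_left₀ (hf j) (h j) 2)

lemma nn_smul {a : ℝ} (ha : 0 ≤ a) (f : J → ℝ) : nn c (fun j => a * f j) = a * nn c f := by
  unfold nn
  have e : (fun j => (a * f j) ^ 2) = fun j => a ^ 2 * f j ^ 2 := funext fun j => mul_pow _ _ _
  rw [e, M_smul, Real.sqrt_mul (sq_nonneg a), Real.sqrt_sq ha]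

/-- the product of the roots -/
noncomputable def KK (c : J → ℝ) (x z : J → ℝ) : ℝ := nn c x * nn c z

lemma KK_nonneg (x z : J → ℝ) : 0 ≤ KK c x z := mul_nonneg (nn_nonneg _) (nn_nonneg _)

lemma KK_mono (c0 : ∀ j, 0 ≤ c j) {x x' z z' : J → ℝ} (hx : ∀ j, 0 ≤ x j) (hz : ∀ j, 0 ≤ z j)
    (h : ∀ j, x j ≤ x' j) (h' : ∀ j, z j ≤ z' j) : KK c x z ≤ KK c x' z' :=
  mul_le_mul (nn_mono c0 hx h) (nn_mono c0 hz h') (nn_nonneg _) (nn_nonneg _)

lemma KK_smul {a b : ℝ} (ha : 0 ≤ a) (hb : 0 ≤ b) (x z : J → ℝ) :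
    KK c (fun j => a * x j) (fun j => b * z j) = a * b * KK c x z := by
  unfold KK
  rw [nn_smul ha, nn_smul hb]
  ring

lemma KK_le (c0 : ∀ j, 0 ≤ c j) (x z : J → ℝ) {τ : ℝ} (hτ : 0 < τ) :
    KK c x z ≤ (τ * M c (fun j => x j ^ 2) + M c (fun j => z j ^ 2) / τ) / 2 := by
  unfold KK nn
  set a := M c fun j => x j ^ 2 with ha
  set b := M c fun j => z j ^ 2 with hb
  have a0 : 0 ≤ a := M_nonneg c0 fun j => sq_nonneg _
  have b0 : 0 ≤ b := M_nonneg c0 fun j => sq_nonneg _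
  rw [← Real.sqrt_mul a0]
  apply Real.sqrt_le_iff.2
  refine ⟨by positivity, ?_⟩
  have e : ((τ * a + b / τ) / 2) ^ 2 - a * b = ((τ * a - b / τ) / 2) ^ 2 := by
    field_simp
    ring
  nlinarith [sq_nonneg ((τ * a - b / τ) / 2)]

/-- the square root against the projected height -/
lemma sq_L2 {z θ : ℝ} (hz : 0 ≤ z) (hθ : 0 < θ) : Real.sqrt z ≤ (θ + z / θ) / 2 := by
  apply Real.sqrt_le_iff.2
  refine ⟨by positivity, ?_⟩
  have e : ((θ + z / θ) / 2) ^ 2 - z = ((θ - z / θ) / 2) ^ 2 := by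
    field_simp
    ring
  nlinarith [sq_nonneg ((θ - z / θ) / 2)]

/-- **`L²` price**: `PD (h + x) ≤ PD h + 14 (θ M x + K / θ)` (helper35's dual potential) -/
theorem PN_L2 (H : TC c W) {h x : J → ℝ} (hh : ∀ j, 0 ≤ h j) (hx : ∀ j, 0 ≤ x j) {θ : ℝ}
    (hθ : 0 < θ) :
    GMd35.PD c (fun j => h j + x j) ≤ GMd35.PD c h +
      14 * (θ * M c x + KK c x (fun j => h j + x j) / θ) := by
  have k := GMd35.PD_own H.c0 hh hx
  have k2 : M c (fun j => x j * Real.sqrt (h j + x j)) ≤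
      M c fun j => θ * x j + 1 / θ * (x j * (h j + x j)) := by
    refine M_mono H.c0 fun j => ?_
    have h1 := mul_le_mul_of_nonneg_left (sq_L2 (add_nonneg (hh j) (hx j)) hθ) (hx j)
    have n1 : 0 ≤ x j * θ := mul_nonneg (hx j) hθ.le
    have n2 : 0 ≤ x j * ((h j + x j) / θ) :=
      mul_nonneg (hx j) (div_nonneg (add_nonneg (hh j) (hx j)) hθ.le)
    have e : θ * x j + 1 / θ * (x j * (h j + x j)) = x j * θ + x j * ((h j + x j) / θ) := by ring
    have e2 : x j * ((θ + (h j + x j) / θ) / 2) = (x j * θ + x j * ((h j + x j) / θ)) / 2 := by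
      ring
    rw [e]
    rw [e2] at h1
    linarith
  rw [M_add, M_smul, M_smul] at k2
  have k3 := mul_le_mul_of_nonneg_left (M_cs H.c0 x (fun j => h j + x j))
    (show (0:ℝ) ≤ 1 / θ by positivity)
  have e3 : KK c x (fun j => h j + x j) / θ = 1 / θ * (nn c x * nn c fun j => h j + x j) := by
    unfold KK
    ring
  rw [e3]
  linarith

/-- the same for the power `3/2` -/
lemma th_L2 {x y θ : ℝ} (hx : 0 ≤ x) (hy : 0 ≤ y) (hθ : 0 < θ) :
    th (x + y) ≤ th x + 3 / 4 * (θ * y + y * (x + y) / θ) := by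
  have h1 := th_tan (a := x) (b := x + y) hx (by linarith)
  have h2 : Real.sqrt (x + y) ≤ (θ + (x + y) / θ) / 2 := by
    apply Real.sqrt_le_iff.2
    refine ⟨by positivity, ?_⟩
    have e : ((θ + (x + y) / θ) / 2) ^ 2 - (x + y) = ((θ - (x + y) / θ) / 2) ^ 2 := by
      field_simp
      ring
    nlinarith [sq_nonneg ((θ - (x + y) / θ) / 2)]
  have h3 := mul_le_mul_of_nonneg_right h2 hy
  have e : x - (x + y) = -y := by ring
  rw [e] at h1
  have e2 : (θ + (x + y) / θ) / 2 * y = (θ * y + y * (x + y) / θ) / 2 := by ring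
  rw [e2] at h3
  linarith

end single

variable {J ζ : Type*} [Fintype J] [Fintype ζ] {c : J → ℝ} {W : Set (J → ℝ)} {σ : ℝ}

/-- **families, scale `1`** -/
theorem PM_L2 (H : TC c W) {h x : ζ → J → ℝ} (hh : ∀ z j, 0 ≤ h z j) (hx : ∀ z j, 0 ≤ x z j)
    {θ : ℝ} (hθ : 0 < θ) :
    PM c W (fun z j => h z j + x z j) ≤ PM c W h +
      56 * ∑ z, (θ * M c (x z) + KK c (x z) (fun j => h z j + x z j) / θ) := by
  have k1 : ModeK49.PK c W (fun z j => h z j + x z j) ≤
      ModeK49.PK c W h + 14 * ∑ z, (θ * M c (x z) + KK c (x z) (fun j => h z j + x z j) / θ) := by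
    unfold ModeK49.PK
    rw [Finset.mul_sum, ← Finset.sum_add_distrib]
    exact Finset.sum_le_sum fun z _ => PN_L2 H (hh z) (hx z) hθ
  have k2 : TT c (fun z j => h z j + x z j) ≤
      TT c h + 3 / 4 * ∑ z, (θ * M c (x z) + KK c (x z) (fun j => h z j + x z j) / θ) := by
    unfold TT
    rw [Finset.mul_sum, ← Finset.sum_add_distrib]
    refine Finset.sum_le_sum fun z _ => ?_
    have e : M c (fun j => th (h z j + x z j)) ≤ M c (fun j => th (h z j) +
        3 / 4 * (θ * x z j + x z j * (h z j + x z j) / θ)) :=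
      M_mono H.c0 fun j => th_L2 (hh z j) (hx z j) hθ
    refine e.trans (le_of_eq_of_le (M_add _ _) ?_)
    refine add_le_add le_rfl ?_
    rw [M_smul]
    apply mul_le_mul_of_nonneg_left _ (by norm_num)
    have e2 : M c (fun j => θ * x z j + x z j * (h z j + x z j) / θ) =
        θ * M c (x z) + M c (fun j => x z j * (h z j + x z j)) / θ := by
      rw [M_add, M_smul]
      congr 1
      have e3 : (fun j => x z j * (h z j + x z j) / θ) =
          fun j => 1 / θ * (x z j * (h z j + x z j)) := funext fun j => by ring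
      rw [e3, M_smul]
      ring
    rw [e2]
    have e4 := M_cs H.c0 (x z) (fun j => h z j + x z j)
    exact add_le_add le_rfl (div_le_div_of_nonneg_right e4 hθ.le)
  unfold PM
  linarith

/-- **families at the scale `σ`** -/
theorem PMs_L2 (H : TC c W) (hσ : 0 < σ) {f g : ζ → J → ℝ} (hf : ∀ z j, 0 ≤ f z j)
    (hg : ∀ z j, 0 ≤ g z j) {θ : ℝ} (hθ : 0 < θ) :
    PMs σ c W (fun z j => f z j + g z j) ≤ PMs σ c W f +
      56 * ∑ z, (θ * σ * M c (g z) + KK c (g z) (fun j => f z j + g z j) / θ) := by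
  have h := PM_L2 H (h := fun z j => f z j / σ) (x := fun z j => g z j / σ)
    (fun z j => div_nonneg (hf z j) hσ.le) (fun z j => div_nonneg (hg z j) hσ.le) hθ
  have h2 := mul_le_mul_of_nonneg_left h (sq_nonneg σ)
  have e : σ ^ 2 * (PM c W (fun z j => f z j / σ) +
      56 * ∑ z, (θ * M c (fun j => g z j / σ) +
        KK c (fun j => g z j / σ) (fun j => f z j / σ + g z j / σ) / θ)) =
      PMs σ c W f +
      56 * ∑ z, (θ * σ * M c (g z) + KK c (g z) (fun j => f z j + g z j) / θ) := by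
    rw [mul_add]
    congr 1
    rw [mul_left_comm, Finset.mul_sum]
    congr 1
    refine Finset.sum_congr rfl fun z _ => ?_
    have e0 : (fun j => g z j / σ) = fun j => 1 / σ * g z j := funext fun j => by ring
    have e1 : M c (fun j => g z j / σ) = M c (g z) / σ := by
      rw [e0, M_smul]; ring
    have e2 : KK c (fun j => g z j / σ) (fun j => f z j / σ + g z j / σ) =
        KK c (g z) (fun j => f z j + g z j) / σ ^ 2 := by
      have e3 : (fun j => f z j / σ + g z j / σ) = fun j => 1 / σ * (f z j + g z j) :=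
        funext fun j => by ring
      rw [e0, e3, KK_smul (by positivity) (by positivity)]
      field_simp
    rw [e1, e2]
    field_simp
  have e2 : (fun z j => (f z j + g z j) / σ) = fun z j => f z j / σ + g z j / σ :=
    funext fun z => funext fun j => add_div _ _ _
  rw [e] at h2
  show σ ^ 2 * PM c W (fun z j => (f z j + g z j) / σ) ≤ _
  rw [e2]
  exact h2

/-- **the price of `g` is `8 Σ_z (θ σ M g_z + √(M g_z²) √(M (f+g)_z²) / θ)`** for every `θ > 0` -/
theorem PM7_L2 (H : TC c W) (hσ : 0 < σ) {f g : ζ → J → ℝ} (hf : ∀ z j, 0 ≤ f z j)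
    (hg : ∀ z j, 0 ≤ g z j) {θ : ℝ} (hθ : 0 < θ) :
    PM7 σ c W (fun z j => f z j + g z j) ≤ PM7 σ c W f +
      8 * ∑ z, (θ * σ * M c (g z) + KK c (g z) (fun j => f z j + g z j) / θ) := by
  have h := PMs_L2 H hσ hf hg hθ
  unfold PM7
  linarith

/-- **content `e` moves**: new family `g ≤ f + e` -/
theorem PM7_L2_move (H : TC c W) (hσ : 0 < σ) {f g e : ζ → J → ℝ} (hf : ∀ z j, 0 ≤ f z j)
    (hg : ∀ z j, 0 ≤ g z j) (he : ∀ z j, 0 ≤ e z j) (h1 : ∀ z j, g z j ≤ f z j + e z j)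
    (f1 : ∀ z j, f z j ≤ σ) {θ : ℝ} (hθ : 0 < θ) :
    PM7 σ c W g ≤ PM7 σ c W f +
      8 * ∑ z, (θ * σ * M c (e z) + KK c (e z) (g z) / θ) := by
  let m : ζ → J → ℝ := fun z j => min (g z j) (f z j)
  let r : ζ → J → ℝ := fun z j => g z j - m z j
  have m0 : ∀ z j, 0 ≤ m z j := fun z j => le_min (hg z j) (hf z j)
  have r0 : ∀ z j, 0 ≤ r z j := fun z j => sub_nonneg.2 (min_le_left _ _)
  have re : ∀ z j, r z j ≤ e z j := fun z j => by
    show g z j - min (g z j) (f z j) ≤ e z j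
    rcases le_total (g z j) (f z j) with h | h
    · rw [min_eq_left h, sub_self]; exact he z j
    · rw [min_eq_right h]; linarith [h1 z j]
  have k := PM7_L2 H hσ m0 r0 hθ
  have e1 : (fun z j => m z j + r z j) = g := funext fun z => funext fun j => by
    show m z j + (g z j - m z j) = _; ring
  have e2 : ∀ z, (fun j => m z j + r z j) = g z := fun z => funext fun j => by
    show m z j + (g z j - m z j) = _; ring
  rw [e1] at k
  simp only [e2] at k
  have k2 : PM7 σ c W m ≤ PM7 σ c W f :=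
    PM7_mono H hσ m0 (fun z j => min_le_right _ _) f1
  have k3 : ∑ z, (θ * σ * M c (r z) + KK c (r z) (g z) / θ) ≤
      ∑ z, (θ * σ * M c (e z) + KK c (e z) (g z) / θ) :=
    Finset.sum_le_sum fun z _ => add_le_add
      (mul_le_mul_of_nonneg_left (M_mono H.c0 (re z)) (mul_nonneg hθ.le hσ.le))
      (div_le_div_of_nonneg_right (KK_mono H.c0 (r0 z) (hg z) (re z) fun j => le_rfl) hθ.le)
  linarith

/-- the second part of the price by second moments -/
lemma sum_KK_le (c0 : ∀ j, 0 ≤ c j) (e g : ζ → J → ℝ) {τ : ℝ} (hτ : 0 < τ) :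
    ∑ z, KK c (e z) (g z) ≤ (τ * ∑ z, M c (fun j => e z j ^ 2) +
      (∑ z, M c (fun j => g z j ^ 2)) / τ) / 2 := by
  calc ∑ z, KK c (e z) (g z) ≤
        ∑ z, (τ * M c (fun j => e z j ^ 2) + M c (fun j => g z j ^ 2) / τ) / 2 :=
        Finset.sum_le_sum fun z _ => KK_le c0 _ _ hτ
    _ = _ := by
        rw [← Finset.sum_div, Finset.sum_add_distrib, ← Finset.mul_sum, ← Finset.sum_div]

/-- **`L²` move, final form**: price `8 θ σ SS e + (4/θ) (τ Σ M e² + Σ M g² / τ)` -/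
theorem PM7_L2_fin (H : TC c W) (hσ : 0 < σ) {f g e : ζ → J → ℝ} (hf : ∀ z j, 0 ≤ f z j)
    (hg : ∀ z j, 0 ≤ g z j) (he : ∀ z j, 0 ≤ e z j) (h1 : ∀ z j, g z j ≤ f z j + e z j)
    (f1 : ∀ z j, f z j ≤ σ) {θ τ : ℝ} (hθ : 0 < θ) (hτ : 0 < τ) :
    PM7 σ c W g ≤ PM7 σ c W f + 8 * (θ * (σ * SS c e)) +
      4 / θ * (τ * ∑ z, M c (fun j => e z j ^ 2) + (∑ z, M c (fun j => g z j ^ 2)) / τ) := by
  have h := PM7_L2_move H hσ hf hg he h1 f1 hθ
  have h2 := sum_KK_le H.c0 e g hτ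
  have h3 := div_le_div_of_nonneg_right h2 hθ.le
  have e1 : ∑ z, (θ * σ * M c (e z) + KK c (e z) (g z) / θ) =
      θ * (σ * SS c e) + (∑ z, KK c (e z) (g z)) / θ := by
    unfold SS
    rw [Finset.sum_add_distrib, ← Finset.mul_sum, ← Finset.sum_div]
    ring
  rw [e1] at h
  have e2 : 8 * ((τ * ∑ z, M c (fun j => e z j ^ 2) +
      (∑ z, M c (fun j => g z j ^ 2)) / τ) / 2 / θ) =
      4 / θ * (τ * ∑ z, M c (fun j => e z j ^ 2) + (∑ z, M c (fun j => g z j ^ 2)) / τ) := by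
    field_simp
    ring
  linarith

end Crest.Agent.R4P.ZetaL237
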