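import Crest.Agent.R4P.MSm_25
import Crest.Agent.R4P.MvP_25
import Crest.Agent.R4P.PMs_49
import Crest.Agent.R4P.ZetaL2_37

/-!
R4 (S0004) with powers, T3 (heights > 1), helper25: **group data `RGx` (`MSm_25`) from flows of the
class changes**.

* `tr_P7g` : transport of contents with a general price (free main target `r`), `price_lin`,
  `price_L2`, `price_mix` (prices of the moved content), `ml_le_mo`, `Lo_le`.
* `Fl U` : flows of the bundles: rest `fN p b z z'` (class `z` of the column `p` to class `z'` of the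
  column `p - 1`), ties `fB p b z z'` (class of the point to class of the row). In the rest content may
  ENTER the game (typed at the column `p`, outside at `p - 1`): `Σ_z' fN ≤ hN` (helper407; `Lx`, `losN`,
  `prsN`).
* `FlG F` : group states and prices (`∃ r` at every point); **`FlG.rg : RGx U`**.
* `FlL F` : linear prices: common main targets (free at every point) and moved contents `mN, mB` of
  the bundles; `FlL.rg`, `FlL.bpay` : the charges are `28 mN`, `28 mB` and the births of the rows.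
-/

set_option autoImplicit false
set_option linter.unusedSectionVars false
set_option linter.unusedVariables false
open MeasureTheory Filter Set

namespace Crest.Agent.R4P.RGf25

open Crest.Agent.R4.Tour104 Crest.Agent.R4.Clos758
open Crest.Agent.R4P.GMer27 Crest.Agent.R4P.GCol27 Crest.Agent.R4P.RSys343 Crest.Agent.R4P.TrR343
open Crest.Agent.R4P.RXs343 Crest.Agent.R4P.RXm55 Crest.Agent.R4P.RXm55.RXm
open Crest.Agent.R4P.RXj343.RX (sm2 q2)
open Crest.Agent.R4P.MSi343 (su su_add two_pos')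
open Crest.Agent.R4P.ModeP940 (PP SS SS_nonneg SS_add)
open Crest.Agent.R4P.MvP25 Crest.Agent.R4P.PMs49 Crest.Agent.R4P.MSm25 Crest.Agent.R4P.ZetaL237

/-! ### transport of contents with a general price -/

section tr
variable {J δ δ' : Type*} [Fintype J] [Fintype δ] [Fintype δ'] [DecidableEq δ] [DecidableEq δ']
  {c : J → ℝ} {W : Set (J → ℝ)} {σ : ℝ}

/-- **the potential of the old classes**: from the price of the separated contents (`Gs z' = Σ_z f z z'`) to
the new contents `g ≥ Gs` -/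
theorem tr_P7x (H : TC c W) (hσ : 0 < σ) {f : δ → δ' → J → ℝ}
    (hf : ∀ z z' j, 0 ≤ f z z' j) {g : δ' → J → ℝ} (hg : ∀ z' j, ∑ z, f z z' j ≤ g z' j)
    {P A L Pr : ℝ} {h : δ → J → ℝ}
    (hPr : P ≤ PM7 σ c W (fun z' j => min (∑ z, f z z' j) σ) +
      14 * (σ * (A + L + (SS c (fun z' j => ∑ z, f z z' j) - SS c h) -
        SS c (fun z' j => min (∑ z, f z z' j) σ))) + Pr) :
    P ≤ PM7 σ c W (fun z' j => min (g z' j) σ) +
      14 * (σ * (A + L + (SS c g - SS c h) - SS c (fun z' j => min (g z' j) σ))) + Pr := by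
  set G : δ' → J → ℝ := fun z' j => ∑ z, f z z' j with hG
  have G0 : ∀ z' j, 0 ≤ G z' j := fun z' j => Finset.sum_nonneg fun z _ => hf z z' j
  have k3 : PM7 σ c W (fun z' j => min (G z' j) σ) ≤ PM7 σ c W (fun z' j => min (g z' j) σ) :=
    PM7_mono H hσ (fun z' j => le_min (G0 z' j) hσ.le)
      (fun z' j => min_le_min_right _ (hg z' j)) fun z' j => min_le_right _ _
  have k4 : SS c (fun z' j => min (g z' j) σ) + SS c G ≤
      SS c (fun z' j => min (G z' j) σ) + SS c g := by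
    rw [← SS_add, ← SS_add]
    refine Finset.sum_le_sum fun z' _ => M_mono H.c0 fun j => ?_
    have := min_mono_add (σ := σ) (hg z' j)
    show min (g z' j) σ + G z' j ≤ min (G z' j) σ + g z' j
    linarith
  have k5 : A + L + (SS c G - SS c h) - SS c (fun z' j => min (G z' j) σ) ≤
      A + L + (SS c g - SS c h) - SS c (fun z' j => min (g z' j) σ) := by linarith
  have k6 := mul_le_mul_of_nonneg_left k5 hσ.le
  have e : (fun z' j => min (∑ z, f z z' j) σ) = fun z' j => min (G z' j) σ := rfl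
  rw [e] at hPr
  linarith

/-- losses of the truncations, contents `h z - Σ f z z'` are outside below -/
noncomputable def Lx (σ : ℝ) (f : δ → δ' → J → ℝ) (h : δ → J → ℝ) (j : J) : ℝ :=
  ∑ z, (∑ z', min (f z z' j) σ + (h z j - Fo f z j) - min (h z j) σ)

lemma Lx_eq (f : δ → δ' → J → ℝ) (h : δ → J → ℝ) :
    SS c (fun z j => min (h z j) σ) + M c (Lx σ f h) - SS c h =
      SS c (fun z j => min (Fo f z j) σ) + M c (Lo σ f) - SS c (Fo f) := by
  rw [SS_eq_M (fun z j => min (h z j) σ), SS_eq_M h, SS_eq_M (fun z j => min (Fo f z j) σ),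
    SS_eq_M (Fo f), ← M_add, ← M_sub, ← M_add, ← M_sub]
  congr 1
  funext j
  unfold Lx
  rw [Lo_eq, Finset.sum_sub_distrib, Finset.sum_add_distrib, Finset.sum_sub_distrib]
  ring

/-- **the short content of the new classes**, contents which are outside below -/
theorem tr_Ax (c0 : ∀ j, 0 ≤ c j) (hσ : 0 ≤ σ) {f : δ → δ' → J → ℝ} (hf : ∀ z z' j, 0 ≤ f z z' j)
    {g : δ' → J → ℝ} (hg : ∀ z' j, ∑ z, f z z' j ≤ g z' j) (h : δ → J → ℝ) :
    SS c (fun z' j => min (g z' j) σ) ≤ SS c (fun z j => min (h z j) σ) + M c (Lx σ f h) +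
      (SS c g - SS c h) := by
  have h1 := tr_A (σ := σ) c0 hσ hf hg
  have h2 := Lx_eq (c := c) (σ := σ) f h
  linarith

/-- dyadic sum of the long parts -/
lemma dy_long {e : ℝ} (he : 0 ≤ e) (n : ℕ) :
    ∑ l ∈ Finset.range n, (2 : ℝ) ^ l * (e - min e (2 ^ l)) ≤ e ^ 2 := by
  have h1 : ∀ n : ℕ, ∑ l ∈ Finset.range n, (2 : ℝ) ^ l * (e - min e (2 ^ l)) ≤
      e * (min e (2 ^ n) - min e 1) := by
    intro n
    induction n with
    | zero => simp
    | succ n ih =>
      rw [Finset.sum_range_succ]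
      have t : (0:ℝ) < 2 ^ n := by positivity
      have h2 : (2:ℝ) ^ n * (e - min e (2 ^ n)) ≤ e * (min e (2 ^ (n + 1)) - min e (2 ^ n)) := by
        have e1 : (2:ℝ) ^ (n + 1) = 2 * 2 ^ n := by ring
        rw [e1]
        rcases le_total e (2 ^ n) with a | a
        · have a' : e ≤ 2 * 2 ^ n := by linarith
          rw [min_eq_left a, min_eq_left a']
          simp
        · rw [min_eq_right a]
          rcases le_total e (2 * 2 ^ n) with b | b
          · rw [min_eq_left b]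
            exact mul_le_mul_of_nonneg_right a (by linarith)
          · rw [min_eq_right b]
            nlinarith
      nlinarith
  refine (h1 n).trans ?_
  have h3 : min e (2 ^ n) ≤ e := min_le_left _ _
  have h4 : 0 ≤ min e (1:ℝ) := le_min he zero_le_one
  nlinarith

/-- **dyadic sum of the losses** -/
theorem dy_Lx {f : δ → δ' → J → ℝ} (hf : ∀ z z' j, 0 ≤ f z z' j) {h : δ → J → ℝ}
    (hh : ∀ z j, Fo f z j ≤ h z j) (n : ℕ) (j : J) :
    ∑ l ∈ Finset.range n, (2 : ℝ) ^ l * Lx (2 ^ l) f h j ≤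
      2 * ∑ z, (h z j ^ 2 - ∑ z', f z z' j ^ 2) := by
  unfold Lx
  simp only [Finset.mul_sum]
  rw [Finset.sum_comm]
  refine Finset.sum_le_sum fun z _ => ?_
  set e : ℝ := h z j - Fo f z j with he
  have e0 : 0 ≤ e := sub_nonneg.2 (hh z j)
  set a : Option δ' → ℝ := fun o => o.elim e fun z' => f z z' j with ha
  have a0 : ∀ o ∈ (Finset.univ : Finset (Option δ')), 0 ≤ a o := fun o _ => by
    cases o with
    | none => exact e0
    | some z' => exact hf z z' j
  have k1 := dy_ml (s := Finset.univ) (a := a) a0 n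
  have k2 := dy_long e0 n
  have s1 : ∑ o, a o = h z j := by
    rw [Fintype.sum_option]
    show e + Fo f z j = _
    rw [he]; ring
  have s2 : ∑ o, a o ^ 2 = e ^ 2 + ∑ z', f z z' j ^ 2 := Fintype.sum_option _
  have s3 : ∀ l : ℕ, ml (2 ^ l) Finset.univ a =
      min e (2 ^ l) + ∑ z', min (f z z' j) (2 ^ l) - min (h z j) (2 ^ l) := fun l => by
    unfold ml
    rw [s1, Fintype.sum_option]
    rfl
  have k3 : ∑ l ∈ Finset.range n, (2 : ℝ) ^ l * (∑ z', min (f z z' j) (2 ^ l) +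
      (h z j - Fo f z j) - min (h z j) (2 ^ l)) =
      ∑ l ∈ Finset.range n, (2 : ℝ) ^ l * ml (2 ^ l) Finset.univ a +
      ∑ l ∈ Finset.range n, (2 : ℝ) ^ l * (e - min e (2 ^ l)) := by
    rw [← Finset.sum_add_distrib]
    refine Finset.sum_congr rfl fun l _ => ?_
    rw [s3]
    ring
  rw [k3]
  rw [s1, s2] at k1
  nlinarith [sq_nonneg e]

end tr

/-! ### flows of the bundles -/

section fl
variable {β δ : Type} [Fintype δ] [DecidableEq δ] {R : RXm β δ}

/-- **flows of the class changes** : rest `fN` (class of the column `p` to class of the column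
`p - 1`; content `hN - Σ fN` is outside of the game at the column `p - 1`), ties `fB` (class of the point to
class of the row) -/
structure Fl (U : RBm R) where
  fN : ℕ → β → δ → δ → ℝ → ℝ
  fB : ℕ → β → δ → δ → ℝ → ℝ
  pN : ∀ {p b}, R.ok p b → p ≠ 0 → ∀ z z', PB (fN p b z z')
  pB : ∀ {p b}, R.ok p b → p ≠ 0 → ∀ z z', PB (fB p b z z')
  oN : ∀ {p b}, R.ok p b → p ≠ 0 → ∀ z x, ∑ z', fN p b z z' x ≤ R.hN p b z x
  iN : ∀ {p b}, R.ok p b → p ≠ 0 → ∀ z' x, ∑ z, fN p b z z' x ≤ R.h (p - 1) (R.rN p b) z' x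
  oB : ∀ {p b}, R.ok p b → p ≠ 0 → ∀ z x, ∑ z', fB p b z z' x = R.hB p b z x
  iB : ∀ {p b}, R.ok p b → p ≠ 0 → ∀ z' x, ∑ z, fB p b z z' x ≤ R.hP p b z' x

variable {U : RBm R}

/-- loss of the truncations of a flow -/
noncomputable def los (f : β → δ → δ → ℝ → ℝ) (σ : ℝ) (b : β) (x : ℝ) : ℝ :=
  ∑ z, ml σ Finset.univ fun z' => f b z z' x

/-- in-member pairs of one old class which are separated -/
noncomputable def prs (f : β → δ → δ → ℝ → ℝ) (b : β) (x : ℝ) : ℝ :=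
  2 * ∑ z, ((∑ z', f b z z' x) ^ 2 - ∑ z', f b z z' x ^ 2)

/-- loss of the truncations of the rest (with entering content) -/
noncomputable def losN (F : Fl U) (σ : ℝ) (p : ℕ) (b : β) (x : ℝ) : ℝ :=
  ∑ z, (∑ z', min (F.fN p b z z' x) σ + (R.hN p b z x - ∑ z', F.fN p b z z' x) -
    min (R.hN p b z x) σ)

/-- in-member pairs of one old class which are separated in the rest (entering content is separated
from everything) -/
noncomputable def prsN (F : Fl U) (p : ℕ) (b : β) (x : ℝ) : ℝ :=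
  2 * ∑ z, (R.hN p b z x ^ 2 - ∑ z', F.fN p b z z' x ^ 2)

/-- nothing enters -/
lemma prsN_eq (F : Fl U) {p : ℕ} {b : β} {x : ℝ}
    (h : ∀ z, ∑ z', F.fN p b z z' x = R.hN p b z x) : prsN F p b x = prs (F.fN p) b x := by
  unfold prsN prs
  congr 1
  exact Finset.sum_congr rfl fun z _ => by rw [h z]

/-- moved content -/
noncomputable def mvd (f : β → δ → δ → ℝ → ℝ) (r : δ → δ) (b : β) (x : ℝ) : ℝ :=
  ∑ z, ∑ z' ∈ Finset.univ.filter (fun z' => z' ≠ r z), f b z z' x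

variable {s : Gs β} {f : β → δ → δ → ℝ → ℝ}

lemma PB_los (H : TC s.c s.W) (hf : ∀ j z z', PB (f (s.L j) z z')) {σ : ℝ} (hσ : 0 < σ) :
    PB (su s (los f σ)) := by
  refine PB_su H fun j => PB.sum _ fun z _ => ?_
  unfold ml
  exact ModeS16.PB_sub (PB.sum _ fun z' _ => PB_minc hσ.le (hf j z z'))
    (PB_minc hσ.le (PB.sum _ fun z' _ => hf j z z')) fun x =>
      min_sum_le hσ.le fun z' _ => (hf j z z').nonneg x

lemma PB_prs (H : TC s.c s.W) (hf : ∀ j z z', PB (f (s.L j) z z')) : PB (su s (prs f)) := by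
  refine PB_su H fun j => PB.smul (PB.sum _ fun z _ => ?_) (by norm_num)
  exact ModeS16.PB_sub (PBsq (PB.sum _ fun z' _ => hf j z z'))
    (PB.sum _ fun z' _ => PBsq (hf j z z')) fun x =>
      PN36.sum_sq_le _ _ fun z' _ => (hf j z z').nonneg x

/-- the state form of a flow -/
def fs (s : Gs β) (f : β → δ → δ → ℝ → ℝ) (x : ℝ) (z z' : δ) (j : s.J) : ℝ := f (s.L j) z z' x

lemma los_eq (σ x : ℝ) : su s (los f σ) x = M s.c (Lo σ (fs s f x)) := rfl

lemma dy_los (H : TC s.c s.W) (hf : ∀ j z z', PB (f (s.L j) z z')) (n : ℕ) (x : ℝ) :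
    ∑ l ∈ Finset.range n, (2 : ℝ) ^ l * su s (los f (2 ^ l)) x ≤ su s (prs f) x := by
  have e1 : ∑ l ∈ Finset.range n, (2 : ℝ) ^ l * su s (los f (2 ^ l)) x =
      M s.c fun j => ∑ l ∈ Finset.range n, (2 : ℝ) ^ l * Lo (2 ^ l) (fs s f x) j := by
    unfold su M
    simp only [Finset.mul_sum]
    rw [Finset.sum_comm]
    exact Finset.sum_congr rfl fun j _ => Finset.sum_congr rfl fun l _ => by
      show (2:ℝ) ^ l * (s.c j * Lo (2 ^ l) (fs s f x) j) = _
      ring
  rw [e1]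
  exact M_mono H.c0 fun j => dy_Lo (fun z z' j => (hf j z z').nonneg x) n j

section los
variable {F : Fl U} {p : ℕ}

lemma losN_eq (σ x : ℝ) : su s (losN F σ p) x =
    M s.c (Lx σ (fs s (F.fN p) x) fun z j => R.hN p (s.L j) z x) := rfl

lemma PB_losN (hs : R.gok p s) (hp : p ≠ 0) {σ : ℝ} (hσ : 0 < σ) : PB (su s (losN F σ p)) := by
  refine PB_su hs.1 fun j => PB.sum _ fun z _ => ?_
  have hb := hs.2 j
  have pf := F.pN hb hp z
  have p1 : PB fun x => ∑ z', F.fN p (s.L j) z z' x := PB.sum _ fun z' _ => pf z'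
  have p2 : PB fun x => R.hN p (s.L j) z x - ∑ z', F.fN p (s.L j) z z' x :=
    ModeS16.PB_sub (R.pN hb hp z) p1 fun x => F.oN hb hp z x
  refine ModeS16.PB_sub ((PB.sum _ fun z' _ => PB_minc hσ.le (pf z')).add p2)
    (PB_minc hσ.le (R.pN hb hp z)) fun x => ?_
  have h1 := min_sum_le (s := Finset.univ) (a := fun z' => F.fN p (s.L j) z z' x) hσ.le
    fun z' _ => (pf z').nonneg x
  have h2 := min_mono_add (σ := σ) (F.oN hb hp z x)
  linarith

lemma PB_prsN (hs : R.gok p s) (hp : p ≠ 0) : PB (su s (prsN F p)) := by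
  refine PB_su hs.1 fun j => PB.smul (PB.sum _ fun z _ => ?_) (by norm_num)
  have hb := hs.2 j
  have pf := F.pN hb hp z
  refine ModeS16.PB_sub (PBsq (R.pN hb hp z)) (PB.sum _ fun z' _ => PBsq (pf z')) fun x => ?_
  have h1 : ∑ z', F.fN p (s.L j) z z' x ^ 2 ≤ (∑ z', F.fN p (s.L j) z z' x) ^ 2 :=
    PN36.sum_sq_le _ _ fun z' _ => (pf z').nonneg x
  have h2 : 0 ≤ ∑ z', F.fN p (s.L j) z z' x := Finset.sum_nonneg fun z' _ => (pf z').nonneg x
  exact h1.trans (pow_le_pow_left₀ h2 (F.oN hb hp z x) 2)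

lemma dy_losN (hs : R.gok p s) (hp : p ≠ 0) (n : ℕ) (x : ℝ) :
    ∑ l ∈ Finset.range n, (2 : ℝ) ^ l * su s (losN F (2 ^ l) p) x ≤ su s (prsN F p) x := by
  have e1 : ∑ l ∈ Finset.range n, (2 : ℝ) ^ l * su s (losN F (2 ^ l) p) x =
      M s.c fun j => ∑ l ∈ Finset.range n, (2 : ℝ) ^ l * Lx (2 ^ l) (fs s (F.fN p) x)
        (fun z j => R.hN p (s.L j) z x) j := by
    unfold su M
    simp only [Finset.mul_sum]
    rw [Finset.sum_comm]
    exact Finset.sum_congr rfl fun j _ => Finset.sum_congr rfl fun l _ => by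
      show (2:ℝ) ^ l * (s.c j * Lx (2 ^ l) (fs s (F.fN p) x) (fun z j => R.hN p (s.L j) z x) j) = _
      ring
  rw [e1]
  exact M_mono hs.1.c0 fun j => dy_Lx (fun z z' j => (F.pN (hs.2 j) hp z z').nonneg x)
    (fun z j => F.oN (hs.2 j) hp z x) n j

end los

/-- **group data and prices** -/
structure FlG (F : Fl U) where
  ok : ℕ → Gs β → Prop
  gk : ∀ {p s}, ok p s → R.gok p s
  gs : ∀ {p s}, ok p s → p ≠ 0 → R.grp p s
  okC : ∀ {p s}, ok p s → p ≠ 0 → ok p (R.C p s)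
  okN : ∀ {p s}, ok p s → p ≠ 0 → ok (p - 1) (R.N p s)
  br : ℝ → ℕ → Gs β → ℝ → ℝ
  brB : ℝ → ℕ → Gs β → ℝ → ℝ
  pbr : ∀ {σ p s}, 0 < σ → ok p s → p ≠ 0 → PB (br σ p s)
  pbrB : ∀ {σ p s}, 0 < σ → ok p s → p ≠ 0 → PB (brB σ p s)
  /-- price of the rest -/
  pr : ∀ {σ p s}, 0 < σ → ok p s → p ≠ 0 → ∀ x,
    PM7 σ s.c s.W (fun z j => min (R.hN p (s.L j) z x) σ) ≤
      PM7 σ s.c s.W (fun z' j => min (∑ z, F.fN p (s.L j) z z' x) σ) +
      14 * (σ * (SS s.c (fun z j => min (R.hN p (s.L j) z x) σ) + su s (losN F σ p) x +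
        (SS s.c (fun z' j => ∑ z, F.fN p (s.L j) z z' x) - SS s.c (fun z j => R.hN p (s.L j) z x)) -
        SS s.c (fun z' j => min (∑ z, F.fN p (s.L j) z z' x) σ))) + br σ p s x
  /-- price of the ties -/
  prB : ∀ {σ p s}, 0 < σ → ok p s → p ≠ 0 → ∀ x,
    PM7 σ s.c s.W (fun z j => min (R.hB p (s.L j) z x) σ) ≤
      PM7 σ s.c s.W (fun z' j => min (∑ z, F.fB p (s.L j) z z' x) σ) +
      14 * (σ * (SS s.c (fun z j => min (R.hB p (s.L j) z x) σ) + su s (los (F.fB p) σ) x +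
        (SS s.c (fun z' j => ∑ z, F.fB p (s.L j) z z' x) - SS s.c (fun z j => R.hB p (s.L j) z x)) -
        SS s.c (fun z' j => min (∑ z, F.fB p (s.L j) z z' x) σ))) + brB σ p s x

variable {F : Fl U} {p : ℕ} {σ : ℝ}

lemma Fo_B (hs : R.gok p s) (hp : p ≠ 0) (x : ℝ) :
    Fo (fs s (F.fB p) x) = fun z j => R.hB p (s.L j) z x :=
  funext fun z => funext fun j => F.oB (hs.2 j) hp z x

lemma totN (hs : R.gok p s) (hp : p ≠ 0) (x : ℝ) :
    SS s.c (fun z j => R.h (p - 1) (R.rN p (s.L j)) z x) - SS s.c (fun z j => R.hN p (s.L j) z x) =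
      su s (U.uN p) x - su (R.N p s) (U.u (p - 1)) x := by
  have e1 := U.TN_eq hs hp x
  have e2 := U.T_eq (RXm.gok_N hs hp) x
  have e3 : R.TN p s x = SS s.c (fun z j => R.hN p (s.L j) z x) := rfl
  have e4 : R.T (p - 1) (R.N p s) x = SS s.c (fun z j => R.h (p - 1) (R.rN p (s.L j)) z x) := rfl
  rw [e3] at e1
  rw [e4] at e2
  linarith

lemma totB (hs : R.gok p s) (hp : p ≠ 0) (x : ℝ) :
    SS s.c (fun z j => R.hP p (s.L j) z x) - SS s.c (fun z j => R.hB p (s.L j) z x) = 0 := by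
  have e1 := RXm.TP_eq hs hp x
  have e3 : R.TB p s x = SS s.c (fun z j => R.hB p (s.L j) z x) := rfl
  have e4 : R.TP p s x = SS s.c (fun z j => R.hP p (s.L j) z x) := rfl
  rw [e3, e4] at e1
  linarith

lemma f0N (hs : R.gok p s) (hp : p ≠ 0) (x : ℝ) (z z' : δ) (j : s.J) :
    0 ≤ fs s (F.fN p) x z z' j := (F.pN (hs.2 j) hp z z').nonneg x

lemma f0B (hs : R.gok p s) (hp : p ≠ 0) (x : ℝ) (z z' : δ) (j : s.J) :
    0 ≤ fs s (F.fB p) x z z' j := (F.pB (hs.2 j) hp z z').nonneg x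

lemma Fl.arN (hσ : 0 < σ) (hs : R.gok p s) (hp : p ≠ 0) (x : ℝ) :
    U.A σ (p - 1) (R.N p s) x ≤ U.AR σ p s x + su s (losN F σ p) x := by
  have h := tr_Ax (σ := σ) hs.1.c0 hσ.le (f0N (F := F) hs hp x)
    (g := fun z' j => R.h (p - 1) (R.rN p (s.L j)) z' x) (fun z' j => F.iN (hs.2 j) hp z' x)
    fun z j => R.hN p (s.L j) z x
  rw [totN (U := U) hs hp x] at h
  show SS s.c (fun z' j => min (R.h (p - 1) (R.rN p (s.L j)) z' x) σ) +
    su (R.N p s) (U.u (p - 1)) x ≤ (SS s.c (fun z j => min (R.hN p (s.L j) z x) σ) +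
    su s (U.uN p) x) + M s.c (Lx σ (fs s (F.fN p) x) fun z j => R.hN p (s.L j) z x)
  linarith

lemma Fl.arB (hσ : 0 < σ) (hs : R.gok p s) (hp : p ≠ 0) (x : ℝ) :
    R.AP σ p s x ≤ R.AB σ p s x + su s (los (F.fB p) σ) x := by
  have h := tr_A (σ := σ) hs.1.c0 hσ.le (f0B (F := F) hs hp x)
    (g := fun z' j => R.hP p (s.L j) z' x) fun z' j => F.iB (hs.2 j) hp z' x
  rw [Fo_B hs hp x, totB hs hp x] at h
  show SS s.c (fun z' j => min (R.hP p (s.L j) z' x) σ) ≤
    SS s.c (fun z j => min (R.hB p (s.L j) z x) σ) + M s.c (Lo σ (fs s (F.fB p) x))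
  linarith

lemma Fl.ref (hσ : 0 < σ) (hs : R.gok p s) (hp : p ≠ 0) (x : ℝ) {Pr : ℝ}
    (h : PM7 σ s.c s.W (fun z j => min (R.hN p (s.L j) z x) σ) ≤
      PM7 σ s.c s.W (fun z' j => min (∑ z, F.fN p (s.L j) z z' x) σ) +
      14 * (σ * (SS s.c (fun z j => min (R.hN p (s.L j) z x) σ) + su s (losN F σ p) x +
        (SS s.c (fun z' j => ∑ z, F.fN p (s.L j) z z' x) - SS s.c (fun z j => R.hN p (s.L j) z x)) -
        SS s.c (fun z' j => min (∑ z, F.fN p (s.L j) z z' x) σ))) + Pr) :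
    R.PtR σ p s x ≤ R.Pt σ (p - 1) (R.N p s) x +
    14 * (σ * (U.AR σ p s x + su s (losN F σ p) x - U.A σ (p - 1) (R.N p s) x)) + Pr := by
  have h := tr_P7x (σ := σ) hs.1 hσ (f0N (F := F) hs hp x)
    (g := fun z' j => R.h (p - 1) (R.rN p (s.L j)) z' x) (fun z' j => F.iN (hs.2 j) hp z' x)
    (h := fun z j => R.hN p (s.L j) z x) (Pr := Pr) h
  rw [totN (U := U) hs hp x] at h
  show PM7 σ s.c s.W (fun z j => min (R.hN p (s.L j) z x) σ) ≤
    PM7 σ s.c s.W (fun z' j => min (R.h (p - 1) (R.rN p (s.L j)) z' x) σ) +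
    14 * (σ * ((SS s.c (fun z j => min (R.hN p (s.L j) z x) σ) + su s (U.uN p) x) +
      su s (losN F σ p) x -
      (SS s.c (fun z' j => min (R.h (p - 1) (R.rN p (s.L j)) z' x)
      σ) + su (R.N p s) (U.u (p - 1)) x))) + Pr
  have e : (SS s.c (fun z j => min (R.hN p (s.L j) z x) σ) + su s (U.uN p) x) +
      su s (losN F σ p) x -
      (SS s.c (fun z' j => min (R.h (p - 1) (R.rN p (s.L j)) z' x)
      σ) + su (R.N p s) (U.u (p - 1)) x) = SS s.c (fun z j => min (R.hN p (s.L j) z x) σ) +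
      su s (losN F σ p) x +
      (su s (U.uN p) x - su (R.N p s) (U.u (p - 1)) x) -
      SS s.c (fun z' j => min (R.h (p - 1) (R.rN p (s.L j)) z' x) σ) := by ring
  rw [e]
  exact h

lemma Fl.refB (hσ : 0 < σ) (hs : R.gok p s) (hp : p ≠ 0) (x : ℝ) {Pr : ℝ}
    (h : PM7 σ s.c s.W (fun z j => min (R.hB p (s.L j) z x) σ) ≤
      PM7 σ s.c s.W (fun z' j => min (∑ z, F.fB p (s.L j) z z' x) σ) +
      14 * (σ * (SS s.c (fun z j => min (R.hB p (s.L j) z x) σ) + su s (los (F.fB p) σ) x +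
        (SS s.c (fun z' j => ∑ z, F.fB p (s.L j) z z' x) - SS s.c (fun z j => R.hB p (s.L j) z x)) -
        SS s.c (fun z' j => min (∑ z, F.fB p (s.L j) z z' x) σ))) + Pr) :
    R.PtB σ p s x ≤ R.PtP σ p s x +
    14 * (σ * (R.AB σ p s x + su s (los (F.fB p) σ) x - R.AP σ p s x)) + Pr := by
  have h := tr_P7x (σ := σ) hs.1 hσ (f0B (F := F) hs hp x)
    (g := fun z' j => R.hP p (s.L j) z' x) (fun z' j => F.iB (hs.2 j) hp z' x)
    (h := fun z j => R.hB p (s.L j) z x) (Pr := Pr) h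
  rw [totB hs hp x, add_zero] at h
  exact h

/-- **the group data** -/
noncomputable def FlG.rg (D : FlG F) : RGx U where
  ok := D.ok
  gk := D.gk
  gs := D.gs
  okC := D.okC
  okN := D.okN
  br := D.br
  as := fun σ p s => su s (losN F σ p)
  jm := fun _ p s => su s (prsN F p)
  brB := D.brB
  asB := fun σ p s => su s (los (F.fB p) σ)
  jmB := fun _ p s => su s (prs (F.fB p))
  pbr := D.pbr
  pas := fun hσ hs hp => PB_losN (D.gk hs) hp hσ
  pjm := fun hs hp => PB_prsN (D.gk hs) hp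
  pbrB := D.pbrB
  pasB := fun hσ hs hp => PB_los (D.gk hs).1 (fun j => F.pB ((D.gk hs).2 j) hp) hσ
  pjmB := fun hs hp => PB_prs (D.gk hs).1 fun j => F.pB ((D.gk hs).2 j) hp
  arN := fun hσ hs hp x => F.arN hσ (D.gk hs) hp x
  ref := fun hσ hs hp x => F.ref hσ (D.gk hs) hp x (D.pr hσ hs hp x)
  asJ := fun hs hp x => dy_losN (D.gk hs) hp _ x
  arB := fun hσ hs hp x => F.arB hσ (D.gk hs) hp x
  refB := fun hσ hs hp x => F.refB hσ (D.gk hs) hp x (D.prB hσ hs hp x)
  asBJ := fun hs hp x => dy_los (D.gk hs).1 (fun j => F.pB ((D.gk hs).2 j) hp) _ x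

end fl

end Crest.Agent.R4P.RGf25

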