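import Crest.Agent.R4P.RGf_25
import Crest.Agent.R4P.DTp_26

/-!
R4 (S0004) with powers, T3 (heights > 1), helper25: **flows of the class changes from point maps of the
pieces** (`RGf_25`, `DTp_26`).

* `fh τ τ' V z z' x` : content of the pieces with old class `some z` and new class `some z'`;
  `sum_fh` (no piece leaves), `sum_fh_le`, `fh_mvd` (moved content by pieces), `fh_prs` (pairs of
  pieces of one old class with different new classes), `fh_prsN` (the same, pieces may leave).
* `PMap U Λ` : point maps of the pieces of a row system: `kO` classes of the point, `kN` classes of the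
  rest at the column `p - 1` (may be outside), `kR` classes of the rows; **`PMap.fl : Fl U`**, `PMap.mvN`,
  `PMap.mvB`, `PMap.prN`, `PMap.prN'`, `PMap.prB`.
-/

set_option autoImplicit false
set_option linter.unusedSectionVars false
set_option linter.unusedVariables false
open MeasureTheory Filter Set

namespace Crest.Agent.R4P.RGp25

open Crest.Agent.R4.Tour104 Crest.Agent.R4.Clos758
open Crest.Agent.R4P.GMer27 Crest.Agent.R4P.GCol27 Crest.Agent.R4P.RSys343
open Crest.Agent.R4P.RXs343 Crest.Agent.R4P.RXm55 Crest.Agent.R4P.DTp26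
open Crest.Agent.R4P.MSi343 (su)
open Crest.Agent.R4P.MSm25 Crest.Agent.R4P.RGf25

section fh
variable {Λ δ : Type*} [Fintype Λ] [Fintype δ] [DecidableEq δ]

/-- flow of two point maps -/
noncomputable def fh (τ τ' : ℝ → Λ → Option δ) (V : Λ → ℝ → ℝ) (z z' : δ) (x : ℝ) : ℝ :=
  hz (fun x j => (τ x j, τ' x j)) V (some z, some z') x

variable {τ τ' : ℝ → Λ → Option δ} {V : Λ → ℝ → ℝ}

lemma fh_eq (z z' : δ) (x : ℝ) : fh τ τ' V z z' x =
    ∑ j, if τ x j = some z ∧ τ' x j = some z' then V j x else 0 := by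
  unfold fh
  rw [hz_eq]
  refine Finset.sum_congr rfl fun j _ => ?_
  by_cases h : τ x j = some z ∧ τ' x j = some z'
  · rw [if_pos h, if_pos (by rw [h.1, h.2])]
  · rw [if_neg h, if_neg (fun e => h ⟨(Prod.ext_iff.1 e).1, (Prod.ext_iff.1 e).2⟩)]

lemma PB_fh (hτ : ∀ j, MP fun x => τ x j) (hτ' : ∀ j, MP fun x => τ' x j) (hV : ∀ j, PB (V j))
    (z z' : δ) : PB (fh τ τ' V z z') := by
  have : Countable (Option δ × Option δ) := inferInstance
  exact PB_hz (τ := fun x j => (τ x j, τ' x j)) (fun j => (hτ j).prod (hτ' j)) hV (some z, some z')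

lemma sum_opt_ite (a : Option δ) (w : ℝ) :
    ∑ z, (if a = some z then w else 0) = if a = none then 0 else w := by
  cases a with
  | none => simp
  | some y =>
    simp only [Option.some.injEq, reduceCtorEq, if_false]
    rw [Finset.sum_ite_eq]
    simp

/-- the old contents -/
lemma sum_fh {x : ℝ} (h : ∀ j, V j x ≠ 0 → τ x j ≠ none → τ' x j ≠ none) (z : δ) :
    ∑ z', fh τ τ' V z z' x = hz τ V (some z) x := by
  rw [hz_eq]
  simp only [fh_eq]
  rw [Finset.sum_comm]
  refine Finset.sum_congr rfl fun j _ => ?_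
  by_cases h1 : τ x j = some z
  · simp only [h1, true_and, if_true]
    rw [sum_opt_ite]
    split_ifs with h2
    · by_contra h3
      exact h j (fun e => h3 e.symm) (by rw [h1]; simp) h2
    · rfl
  · simp [h1]

/-- the old contents are at least the flows -/
lemma sum_fh_le' {x : ℝ} (hV : ∀ j, 0 ≤ V j x) (z : δ) :
    ∑ z', fh τ τ' V z z' x ≤ hz τ V (some z) x := by
  rw [hz_eq]
  simp only [fh_eq]
  rw [Finset.sum_comm]
  refine Finset.sum_le_sum fun j _ => ?_
  by_cases h1 : τ x j = some z
  · simp only [h1, true_and, if_true]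
    rw [sum_opt_ite]
    split_ifs with h2
    · exact hV j
    · exact le_rfl
  · simp [h1]

/-- the new contents -/
lemma sum_fh_le {x : ℝ} (hV : ∀ j, 0 ≤ V j x) (z' : δ) :
    ∑ z, fh τ τ' V z z' x ≤ hz τ' V (some z') x := by
  rw [hz_eq]
  simp only [fh_eq]
  rw [Finset.sum_comm]
  refine Finset.sum_le_sum fun j _ => ?_
  by_cases h1 : τ' x j = some z'
  · simp only [h1, and_true, if_true]
    rw [sum_opt_ite]
    split_ifs with h2
    · exact hV j
    · exact le_rfl
  · simp [h1]

open Classical in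
/-- **the moved content, by pieces** -/
lemma fh_mvd {x : ℝ} (hV : ∀ j, 0 ≤ V j x) (r : δ → δ) :
    ∑ z, ∑ z' ∈ Finset.univ.filter (fun z' => z' ≠ r z), fh τ τ' V z z' x ≤
      ∑ j, if τ x j ≠ none ∧ τ' x j ≠ (τ x j).map r then V j x else 0 := by
  have e : ∀ z, ∑ z' ∈ Finset.univ.filter (fun z' => z' ≠ r z), fh τ τ' V z z' x =
      ∑ j, ∑ z' ∈ Finset.univ.filter (fun z' => z' ≠ r z),
        if τ x j = some z ∧ τ' x j = some z' then V j x else 0 := fun z => by
    simp only [fh_eq]
    rw [Finset.sum_comm]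
  rw [Finset.sum_congr rfl fun z _ => e z, Finset.sum_comm]
  refine Finset.sum_le_sum fun j _ => ?_
  rcases h : τ x j with _ | y
  · simp
  · have e2 : ∀ z, ∑ z' ∈ Finset.univ.filter (fun z' => z' ≠ r z),
        (if some y = some z ∧ τ' x j = some z' then V j x else 0) =
        if y = z then ∑ z' ∈ Finset.univ.filter (fun z' => z' ≠ r z),
          (if τ' x j = some z' then V j x else 0) else 0 := fun z => by
      by_cases hz : y = z
      · simp [hz]
      · simp [hz]
    rw [Finset.sum_congr rfl fun z _ => e2 z, Finset.sum_ite_eq, if_pos (Finset.mem_univ _)]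
    rcases h' : τ' x j with _ | y'
    · simp only [reduceCtorEq, if_false, Finset.sum_const_zero]
      split_ifs
      · exact hV j
      · exact le_rfl
    · simp only [Option.some.injEq, Option.map_some, ne_eq, reduceCtorEq, not_false_eq_true,
        true_and]
      rw [Finset.sum_filter]
      have e3 : ∀ z', (if z' ≠ r y then (if y' = z' then V j x else 0) else 0) =
          if y' = z' then (if y' ≠ r y then V j x else 0) else 0 := fun z' => by
        by_cases h1 : y' = z'
        · subst h1; simp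
        · simp [h1]
      rw [Finset.sum_congr rfl fun z' _ => e3 z', Finset.sum_ite_eq, if_pos (Finset.mem_univ _)]

open Classical in
/-- **the separated pairs, by pieces** -/
lemma fh_prs {x : ℝ} (hV : ∀ j, 0 ≤ V j x) :
    ∑ z, ((∑ z', fh τ τ' V z z' x) ^ 2 - ∑ z', fh τ τ' V z z' x ^ 2) ≤
      ∑ i, ∑ j, if τ x i ≠ none ∧ τ x i = τ x j ∧ τ' x i ≠ τ' x j then V i x * V j x else 0 := by
  have key : ∀ z, (∑ z', fh τ τ' V z z' x) ^ 2 - ∑ z', fh τ τ' V z z' x ^ 2 ≤
      ∑ i, ∑ j, if τ x i = some z ∧ τ x j = some z ∧ τ' x i ≠ τ' x j then V i x * V j x else 0 := by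
    intro z
    have e1 : (∑ z', fh τ τ' V z z' x) ^ 2 - ∑ z', fh τ τ' V z z' x ^ 2 =
        ∑ z', ∑ z'', if z' ≠ z'' then fh τ τ' V z z' x * fh τ τ' V z z'' x else 0 := by
      rw [pow_two, Finset.sum_mul_sum, ← Finset.sum_sub_distrib]
      refine Finset.sum_congr rfl fun z' _ => ?_
      have : ∑ z'', fh τ τ' V z z' x * fh τ τ' V z z'' x =
          ∑ z'', ((if z' ≠ z'' then fh τ τ' V z z' x * fh τ τ' V z z'' x else 0) +
            if z' = z'' then fh τ τ' V z z' x * fh τ τ' V z z'' x else 0) := by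
        refine Finset.sum_congr rfl fun z'' _ => ?_
        by_cases h : z' = z'' <;> simp [h]
      rw [this, Finset.sum_add_distrib, Finset.sum_ite_eq, if_pos (Finset.mem_univ _)]
      ring
    rw [e1]
    have e2 : ∀ z' z'', (if z' ≠ z'' then fh τ τ' V z z' x * fh τ τ' V z z'' x else 0) =
        ∑ i, ∑ j, if z' ≠ z'' ∧ (τ x i = some z ∧ τ' x i = some z') ∧
          (τ x j = some z ∧ τ' x j = some z'') then V i x * V j x else 0 := by
      intro z' z''
      by_cases h : z' ≠ z''
      · rw [if_pos h, fh_eq, fh_eq, Finset.sum_mul_sum]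
        refine Finset.sum_congr rfl fun i _ => Finset.sum_congr rfl fun j _ => ?_
        by_cases h1 : τ x i = some z ∧ τ' x i = some z'
        · by_cases h2 : τ x j = some z ∧ τ' x j = some z''
          · rw [if_pos h1, if_pos h2, if_pos ⟨h, h1, h2⟩]
          · rw [if_neg h2, mul_zero, if_neg (fun e => h2 e.2.2)]
        · rw [if_neg h1, zero_mul, if_neg (fun e => h1 e.2.1)]
      · rw [if_neg h]
        refine (Finset.sum_eq_zero fun i _ => Finset.sum_eq_zero fun j _ => ?_).symm
        rw [if_neg (fun e => h e.1)]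
    simp only [e2]
    have e3 : ∑ z', ∑ z'', ∑ i, ∑ j, (if z' ≠ z'' ∧ (τ x i = some z ∧ τ' x i = some z') ∧
          (τ x j = some z ∧ τ' x j = some z'') then V i x * V j x else 0) =
        ∑ i, ∑ j, ∑ z', ∑ z'', (if z' ≠ z'' ∧ (τ x i = some z ∧ τ' x i = some z') ∧
          (τ x j = some z ∧ τ' x j = some z'') then V i x * V j x else 0) := by
      calc ∑ z', ∑ z'', ∑ i, ∑ j, (if z' ≠ z'' ∧ (τ x i = some z ∧ τ' x i = some z') ∧
            (τ x j = some z ∧ τ' x j = some z'') then V i x * V j x else 0)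
          = ∑ z', ∑ i, ∑ j, ∑ z'', (if z' ≠ z'' ∧ (τ x i = some z ∧ τ' x i = some z') ∧
            (τ x j = some z ∧ τ' x j = some z'') then V i x * V j x else 0) := by
            refine Finset.sum_congr rfl fun z' _ => ?_
            rw [Finset.sum_comm]
            refine Finset.sum_congr rfl fun i _ => ?_
            rw [Finset.sum_comm]
        _ = _ := by
            rw [Finset.sum_comm]
            refine Finset.sum_congr rfl fun i _ => ?_
            rw [Finset.sum_comm]
    rw [e3]
    refine Finset.sum_le_sum fun i _ => Finset.sum_le_sum fun j _ => ?_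
    have hij := mul_nonneg (hV i) (hV j)
    by_cases hi : τ x i = some z
    · by_cases hj : τ x j = some z
      · rcases h1 : τ' x i with _ | y₁
        · simp only [reduceCtorEq, and_false, false_and, if_false, Finset.sum_const_zero]
          split_ifs
          · exact hij
          · exact le_rfl
        · rcases h2 : τ' x j with _ | y₂
          · simp only [reduceCtorEq, and_false, if_false, Finset.sum_const_zero]
            split_ifs
            · exact hij
            · exact le_rfl
          · have e4 : ∀ z', ∑ z'', (if z' ≠ z'' ∧ (τ x i = some z ∧ some y₁ = some z') ∧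
                (τ x j = some z ∧ some y₂ = some z'') then V i x * V j x else 0) =
                if y₁ = z' then (if y₁ ≠ y₂ then V i x * V j x else 0) else 0 := by
              intro z'
              by_cases hz : y₁ = z'
              · subst hz
                rw [if_pos rfl]
                have : ∀ z'', (if y₁ ≠ z'' ∧ (τ x i = some z ∧ some y₁ = some y₁) ∧
                    (τ x j = some z ∧ some y₂ = some z'') then V i x * V j x else 0) =
                    if y₂ = z'' then (if y₁ ≠ y₂ then V i x * V j x else 0) else 0 := by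
                  intro z''
                  by_cases h3 : y₂ = z''
                  · subst h3; simp [hi, hj]
                  · simp [h3]
                rw [Finset.sum_congr rfl fun z'' _ => this z'', Finset.sum_ite_eq,
                  if_pos (Finset.mem_univ _)]
              · simp [hz]
            rw [Finset.sum_congr rfl fun z' _ => e4 z', Finset.sum_ite_eq,
              if_pos (Finset.mem_univ _)]
            by_cases h3 : y₁ = y₂
            · simp [h3]
            · simp [h3, hi, hj]
      · simp [hi, hj]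
    · simp [hi]
  refine (Finset.sum_le_sum fun z _ => key z).trans (le_of_eq ?_)
  have e5 : ∑ z, ∑ i, ∑ j, (if τ x i = some z ∧ τ x j = some z ∧ τ' x i ≠ τ' x j
      then V i x * V j x else 0) = ∑ i, ∑ j, ∑ z, (if τ x i = some z ∧ τ x j = some z ∧
      τ' x i ≠ τ' x j then V i x * V j x else 0) := by
    rw [Finset.sum_comm]
    refine Finset.sum_congr rfl fun i _ => ?_
    rw [Finset.sum_comm]
  rw [e5]
  refine Finset.sum_congr rfl fun i _ => Finset.sum_congr rfl fun j _ => ?_
  rcases h1 : τ x i with _ | y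
  · simp
  · have e6 : ∀ z, (if some y = some z ∧ τ x j = some z ∧ τ' x i ≠ τ' x j
        then V i x * V j x else 0) = if y = z then (if some y = τ x j ∧ τ' x i ≠ τ' x j then
        V i x * V j x else 0) else 0 := by
      intro z
      by_cases hz : y = z
      · subst hz
        by_cases h2 : τ x j = some y
        · simp [h2]
        · have h3 : ¬ some y = τ x j := fun e => h2 e.symm
          simp [h2, h3]
      · simp [hz]
    rw [Finset.sum_congr rfl fun z _ => e6 z, Finset.sum_ite_eq, if_pos (Finset.mem_univ _)]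
    simp

open Classical in
/-- **the separated pairs, by pieces**; pieces which leave are separated from everything -/
lemma fh_prsN {x : ℝ} (hV : ∀ j, 0 ≤ V j x) :
    ∑ z, (hz τ V (some z) x ^ 2 - ∑ z', fh τ τ' V z z' x ^ 2) ≤
      ∑ i, ∑ j, if τ x i ≠ none ∧ τ x i = τ x j ∧ (τ' x i ≠ τ' x j ∨ τ' x i = none)
        then V i x * V j x else 0 := by
  have key : ∀ z, hz τ V (some z) x ^ 2 - ∑ z', fh τ τ' V z z' x ^ 2 =
      ∑ i, ∑ j, if τ x i = some z ∧ τ x j = some z ∧ (τ' x i ≠ τ' x j ∨ τ' x i = none)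
        then V i x * V j x else 0 := by
    intro z
    have e1 : hz τ V (some z) x ^ 2 =
        ∑ i, ∑ j, if τ x i = some z ∧ τ x j = some z then V i x * V j x else 0 := by
      rw [pow_two, hz_eq, Finset.sum_mul_sum]
      refine Finset.sum_congr rfl fun i _ => Finset.sum_congr rfl fun j _ => ?_
      by_cases h1 : τ x i = some z
      · by_cases h2 : τ x j = some z
        · rw [if_pos h1, if_pos h2, if_pos ⟨h1, h2⟩]
        · rw [if_neg h2, mul_zero, if_neg fun e => h2 e.2]
      · rw [if_neg h1, zero_mul, if_neg fun e => h1 e.1]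
    have e2 : ∑ z', fh τ τ' V z z' x ^ 2 = ∑ i, ∑ j, if τ x i = some z ∧ τ x j = some z ∧
        ¬ (τ' x i ≠ τ' x j ∨ τ' x i = none) then V i x * V j x else 0 := by
      have e3 : ∀ z', fh τ τ' V z z' x ^ 2 = ∑ i, ∑ j, if (τ x i = some z ∧ τ' x i = some z') ∧
          (τ x j = some z ∧ τ' x j = some z') then V i x * V j x else 0 := by
        intro z'
        rw [pow_two, fh_eq, Finset.sum_mul_sum]
        refine Finset.sum_congr rfl fun i _ => Finset.sum_congr rfl fun j _ => ?_
        by_cases h1 : τ x i = some z ∧ τ' x i = some z'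
        · by_cases h2 : τ x j = some z ∧ τ' x j = some z'
          · rw [if_pos h1, if_pos h2, if_pos ⟨h1, h2⟩]
          · rw [if_neg h2, mul_zero, if_neg fun e => h2 e.2]
        · rw [if_neg h1, zero_mul, if_neg fun e => h1 e.1]
      rw [Finset.sum_congr rfl fun z' _ => e3 z', Finset.sum_comm]
      refine Finset.sum_congr rfl fun i _ => ?_
      rw [Finset.sum_comm]
      refine Finset.sum_congr rfl fun j _ => ?_
      rcases h : τ' x i with _ | y
      · simp
      · have e4 : ∀ z', (if (τ x i = some z ∧ some y = some z') ∧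
            (τ x j = some z ∧ τ' x j = some z') then V i x * V j x else 0) =
            if y = z' then (if τ x i = some z ∧ τ x j = some z ∧ τ' x j = some y
              then V i x * V j x else 0) else 0 := by
          intro z'
          by_cases hz : y = z'
          · subst hz
            rw [if_pos rfl]
            by_cases h1 : τ x i = some z <;> by_cases h2 : τ x j = some z <;>
              by_cases h3 : τ' x j = some y <;> simp [h1, h2, h3]
          · simp [hz]
        rw [Finset.sum_congr rfl fun z' _ => e4 z', Finset.sum_ite_eq, if_pos (Finset.mem_univ _)]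
        by_cases h1 : τ x i = some z <;> by_cases h2 : τ x j = some z <;>
          by_cases h3 : τ' x j = some y
        all_goals simp [h1, h2, h3]
        intro h4
        exact absurd h4.symm h3
    rw [e1, e2, ← Finset.sum_sub_distrib]
    refine Finset.sum_congr rfl fun i _ => ?_
    rw [← Finset.sum_sub_distrib]
    refine Finset.sum_congr rfl fun j _ => ?_
    by_cases h1 : τ x i = some z ∧ τ x j = some z
    · by_cases h2 : τ' x i ≠ τ' x j ∨ τ' x i = none
      · rw [if_pos h1, if_neg (fun e => e.2.2 h2), if_pos ⟨h1.1, h1.2, h2⟩, sub_zero]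
      · rw [if_pos h1, if_pos ⟨h1.1, h1.2, h2⟩, if_neg (fun e => h2 e.2.2), sub_self]
    · rw [if_neg h1, if_neg (fun e => h1 ⟨e.1, e.2.1⟩), if_neg (fun e => h1 ⟨e.1, e.2.1⟩), sub_zero]
  rw [Finset.sum_congr rfl fun z _ => key z]
  refine le_of_eq ?_
  have e5 : ∑ z, ∑ i, ∑ j, (if τ x i = some z ∧ τ x j = some z ∧
      (τ' x i ≠ τ' x j ∨ τ' x i = none) then V i x * V j x else 0) = ∑ i, ∑ j, ∑ z,
      (if τ x i = some z ∧ τ x j = some z ∧ (τ' x i ≠ τ' x j ∨ τ' x i = none)
        then V i x * V j x else 0) := by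
    rw [Finset.sum_comm]
    refine Finset.sum_congr rfl fun i _ => ?_
    rw [Finset.sum_comm]
  rw [e5]
  refine Finset.sum_congr rfl fun i _ => Finset.sum_congr rfl fun j _ => ?_
  rcases h1 : τ x i with _ | y
  · simp
  · have e6 : ∀ z, (if some y = some z ∧ τ x j = some z ∧ (τ' x i ≠ τ' x j ∨ τ' x i = none)
        then V i x * V j x else 0) = if y = z then (if some y = τ x j ∧
        (τ' x i ≠ τ' x j ∨ τ' x i = none) then V i x * V j x else 0) else 0 := by
      intro z
      by_cases hz : y = z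
      · subst hz
        by_cases h2 : τ x j = some y
        · simp [h2]
        · have h3 : ¬ some y = τ x j := fun e => h2 e.symm
          simp [h2, h3]
      · simp [hz]
    rw [Finset.sum_congr rfl fun z _ => e6 z, Finset.sum_ite_eq, if_pos (Finset.mem_univ _)]
    simp

end fh

/-! ### row systems with pieces -/

section pm
variable {β δ Λ : Type} [Fintype δ] [DecidableEq δ] [Fintype Λ] {R : RXm β δ}

/-- **point maps of the pieces of a row system** -/
structure PMap (U : RBm R) (Λ : Type) [Fintype Λ] where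
  /-- contents of the pieces in the rest -/
  vN : ℕ → β → Λ → ℝ → ℝ
  /-- contents of the pieces in the ties -/
  vB : ℕ → β → Λ → ℝ → ℝ
  /-- classes of the point at the column `p` -/
  kO : ℕ → β → ℝ → Λ → Option δ
  /-- classes of the rest at the column `p - 1` -/
  kN : ℕ → β → ℝ → Λ → Option δ
  /-- classes of the rows -/
  kR : ℕ → β → ℝ → Λ → Option δ
  pvN : ∀ {p b}, R.ok p b → p ≠ 0 → ∀ j, PB (vN p b j)
  pvB : ∀ {p b}, R.ok p b → p ≠ 0 → ∀ j, PB (vB p b j)
  mO : ∀ {p b}, R.ok p b → p ≠ 0 → ∀ j, MP fun x => kO p b x j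
  mN : ∀ {p b}, R.ok p b → p ≠ 0 → ∀ j, MP fun x => kN p b x j
  mR : ∀ {p b}, R.ok p b → p ≠ 0 → ∀ j, MP fun x => kR p b x j
  eN : ∀ {p b}, R.ok p b → p ≠ 0 → ∀ z x, R.hN p b z x = hz (kO p b) (vN p b) (some z) x
  eN' : ∀ {p b}, R.ok p b → p ≠ 0 → ∀ z x,
    hz (kN p b) (vN p b) (some z) x ≤ R.h (p - 1) (R.rN p b) z x
  eB : ∀ {p b}, R.ok p b → p ≠ 0 → ∀ z x, R.hB p b z x = hz (kO p b) (vB p b) (some z) x
  eB' : ∀ {p b}, R.ok p b → p ≠ 0 → ∀ z x, hz (kR p b) (vB p b) (some z) x ≤ R.hP p b z x
  /-- no piece of a tie leaves -/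
  nB : ∀ {p b}, R.ok p b → p ≠ 0 → ∀ x j, vB p b j x ≠ 0 → kO p b x j ≠ none → kR p b x j ≠ none

variable {U : RBm R}

/-- **the flows** -/
noncomputable def PMap.fl (P : PMap U Λ) : Fl U where
  fN := fun p b => fh (P.kO p b) (P.kN p b) (P.vN p b)
  fB := fun p b => fh (P.kO p b) (P.kR p b) (P.vB p b)
  pN := fun hb hp => PB_fh (P.mO hb hp) (P.mN hb hp) (P.pvN hb hp)
  pB := fun hb hp => PB_fh (P.mO hb hp) (P.mR hb hp) (P.pvB hb hp)
  oN := fun hb hp z x => (sum_fh_le' (fun j => (P.pvN hb hp j).nonneg x) z).trans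
    (P.eN hb hp z x).ge
  iN := fun hb hp z x => (sum_fh_le (fun j => (P.pvN hb hp j).nonneg x) z).trans (P.eN' hb hp z x)
  oB := fun hb hp z x => (sum_fh (P.nB hb hp x) z).trans (P.eB hb hp z x).symm
  iB := fun hb hp z x => (sum_fh_le (fun j => (P.pvB hb hp j).nonneg x) z).trans (P.eB' hb hp z x)

open Classical in
/-- moved content of the rest -/
lemma PMap.mvN (P : PMap U Λ) {p : ℕ} {b : β} (hb : R.ok p b) (hp : p ≠ 0) (r : δ → δ) (x : ℝ) :
    mvd (P.fl.fN p) r b x ≤
      ∑ j, if P.kO p b x j ≠ none ∧ P.kN p b x j ≠ (P.kO p b x j).map r then P.vN p b j x else 0 :=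
  fh_mvd (fun j => (P.pvN hb hp j).nonneg x) r

open Classical in
/-- moved content of the ties -/
lemma PMap.mvB (P : PMap U Λ) {p : ℕ} {b : β} (hb : R.ok p b) (hp : p ≠ 0) (r : δ → δ) (x : ℝ) :
    mvd (P.fl.fB p) r b x ≤
      ∑ j, if P.kO p b x j ≠ none ∧ P.kR p b x j ≠ (P.kO p b x j).map r then P.vB p b j x else 0 :=
  fh_mvd (fun j => (P.pvB hb hp j).nonneg x) r

open Classical in
/-- separated pairs of the rest -/
lemma PMap.prN (P : PMap U Λ) {p : ℕ} {b : β} (hb : R.ok p b) (hp : p ≠ 0) (x : ℝ) :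
    prsN P.fl p b x ≤ 2 * ∑ i, ∑ j, if P.kO p b x i ≠ none ∧ P.kO p b x i = P.kO p b x j ∧
      (P.kN p b x i ≠ P.kN p b x j ∨ P.kN p b x i = none) then P.vN p b i x * P.vN p b j x
      else 0 := by
  have h := fh_prsN (τ := P.kO p b) (τ' := P.kN p b) fun j => (P.pvN hb hp j).nonneg x
  have e : prsN P.fl p b x = 2 * ∑ z, (hz (P.kO p b) (P.vN p b) (some z) x ^ 2 -
      ∑ z', fh (P.kO p b) (P.kN p b) (P.vN p b) z z' x ^ 2) := by
    unfold prsN
    congr 1
    exact Finset.sum_congr rfl fun z _ => by rw [P.eN hb hp z x]; rfl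
  rw [e]
  exact mul_le_mul_of_nonneg_left h (by norm_num)

open Classical in
/-- separated pairs of the rest, no piece leaves -/
lemma PMap.prN' (P : PMap U Λ) {p : ℕ} {b : β} (hb : R.ok p b) (hp : p ≠ 0) (x : ℝ)
    (hn : ∀ j, P.vN p b j x ≠ 0 → P.kO p b x j ≠ none → P.kN p b x j ≠ none) :
    prsN P.fl p b x ≤ 2 * ∑ i, ∑ j, if P.kO p b x i ≠ none ∧ P.kO p b x i = P.kO p b x j ∧
      P.kN p b x i ≠ P.kN p b x j then P.vN p b i x * P.vN p b j x else 0 := by
  refine (P.prN hb hp x).trans (mul_le_mul_of_nonneg_left ?_ (by norm_num))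
  refine Finset.sum_le_sum fun i _ => Finset.sum_le_sum fun j _ => ?_
  have h0 := mul_nonneg ((P.pvN hb hp i).nonneg x) ((P.pvN hb hp j).nonneg x)
  by_cases hi : P.vN p b i x = 0
  · rw [hi]; simp
  · split_ifs with h1 h2 h2
    · exact le_rfl
    · exact absurd (h1.2.2.resolve_left fun e => h2 ⟨h1.1, h1.2.1, e⟩) (hn i hi h1.1)
    · exact h0
    · exact le_rfl

open Classical in
/-- separated pairs of the ties -/
lemma PMap.prB (P : PMap U Λ) {p : ℕ} {b : β} (hb : R.ok p b) (hp : p ≠ 0) (x : ℝ) :
    prs (P.fl.fB p) b x ≤ 2 * ∑ i, ∑ j, if P.kO p b x i ≠ none ∧ P.kO p b x i = P.kO p b x j ∧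
      P.kR p b x i ≠ P.kR p b x j then P.vB p b i x * P.vB p b j x else 0 :=
  mul_le_mul_of_nonneg_left (fh_prs fun j => (P.pvB hb hp j).nonneg x) (by norm_num)

end pm

end Crest.Agent.R4P.RGp25
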