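import Crest.Agent.R4P.MSi_343
import Crest.Agent.R4P.PMs_49

/-!
R4 (S0004) with powers, T3 (heights > 1), helper55: **row systems with separated (marked) contents and
arbitrary heights**, all the facts of the scaled mode game `ModeS16.MS` for the potential
`PM7 = σ² (PK + 56 TT)(· / σ) / 7` (`PMs_49`, with helper35's potential `GMk_35`).

* `SD δ`, `SOk` : **data of the ties of a bundle at a scale `σ`** : virtual contents `vm` (main part) and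
  `vs` (separated part), below the truncated contents; `bX + gX` exact row above the main part; `gE`
  extra lifts; `sg` the part of the real lifts `gc` which is paid at the scale; `be, G` constant and
  lift part of the virtual total, `e` births and `ls` losses inside the row; in-member energy `en`.
* `RXm β δ` : row system: bundles, contents (arbitrary functions, classes may depend on the point);
  `hP` = contents of the ties by the classes of the rows, `gc` their lifts (virtual rows, `SOk`);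
  `hB` = the same contents by the classes of the point (joins), `gB` the lifts by the classes of the
  point; `sep p b F` : `F` = the fresh classes (they contain the separated contents), common to all the
  members of a group.
* facts `spl, dec, mean, meanA, c1 .. c4, cc` (continued in `RXn_55`).
-/

set_option autoImplicit false
set_option linter.unusedSectionVars false
set_option linter.unusedVariables false
open MeasureTheory Filter Set

namespace Crest.Agent.R4P.RXm55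

open Crest.Agent.R4.Tour104 Crest.Agent.R4.Clos758
open Crest.Agent.R4P.GMer27 Crest.Agent.R4P.GCol27 Crest.Agent.R4P.RSys343 Crest.Agent.R4P.TrR343
open Crest.Agent.R4P.RXs343 Crest.Agent.R4P.MisR16 Crest.Agent.R4P.Mism16 Crest.Agent.R4P.PMs49
open Crest.Agent.R4P.ModeP940 (PP SS SS_nonneg SS_add)
open Crest.Agent.R4P.RXj343.RX (sm2 q2)
open Crest.Agent.R4P.MSi343 (su)

/-- data of the ties of a bundle at a scale -/
structure SD (δ : Type) where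
  /-- virtual main contents -/
  vm : δ → ℝ → ℝ
  /-- virtual separated contents (in the fresh classes) -/
  vs : δ → ℝ → ℝ
  /-- lift part of the exact row above the main contents -/
  gX : δ → ℝ → ℝ
  /-- constant part of the exact row above the main contents -/
  bX : δ → ℝ → ℝ
  /-- extra lifts (mismatch) -/
  gE : δ → ℝ → ℝ
  /-- the part of the real lifts paid at the scale -/
  sg : δ → ℝ → ℝ
  /-- births inside the row -/
  e : ℝ → ℝ
  /-- losses -/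
  ls : ℝ → ℝ
  /-- constant part of the virtual total -/
  be : ℝ → ℝ
  /-- lift part of the virtual total -/
  G : ℝ → ℝ

/-- **rows with separated content at the scale `σ`** -/
structure SOk {δ : Type} [Fintype δ] (p : ℕ) (σ : ℝ) (a b hP gc : δ → ℝ → ℝ) (gT : ℝ → ℝ)
    (S : SD δ) : Prop where
  pvm : ∀ z, PB (S.vm z)
  pvs : ∀ z, PB (S.vs z)
  pgX : ∀ z, PB (S.gX z)
  pbX : ∀ z, PB (S.bX z)
  pgE : ∀ z, PB (S.gE z)
  psg : ∀ z, PB (S.sg z)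
  pe : PB S.e
  pls : PB S.ls
  pbe : PB S.be
  pG : PB S.G
  le : ∀ z x, S.vm z x + S.vs z x ≤ min (hP z x) σ
  tot : ∀ x, ∑ z, (S.vm z x + S.vs z x) + S.e x = S.be (p * x) + S.G x
  nb : ∀ x, S.be (p * x) + S.G x ≤ ∑ z, min (hP z x) σ + S.ls x
  lsT : ∀ x, ∑ z, min (hP z x) σ + S.ls x ≤ ∑ z, hP z x
  mean : ∀ y, S.be y + Ep p S.G y =
    ∑ z, ((1 - 1 / (p : ℝ)) * min (a z y) σ + 1 / (p : ℝ) * min (b z y) σ)
  sgc : ∀ z x, S.sg z x ≤ gc z x
  sgG : ∀ x, ∑ z, S.sg z x ≤ S.G x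
  sgT : ∀ x, ∑ z, (gc z x - S.sg z x) ≤ gT x - S.G x
  sg2 : ∀ z x, S.sg z x ≤ 2 * σ
  sgX : ∀ z x, S.sg z x ≤ S.gX z x + S.gE z x
  row : ∀ z y, ∃ (s : Fin p → ℝ) (Δ : ℝ), (∀ i, 0 ≤ s i ∧ s i ≤ 1) ∧
    ∑ i, 1 / (p : ℝ) * s i = 1 / (p : ℝ) ∧ 0 ≤ Δ ∧ Δ ≤ max (min (b z y) σ - min (a z y) σ) 0 ∧
    ∀ i : Fin p, S.bX z y + S.gX z ((y + (i : ℕ)) / p) =
      ((1 - 1 / (p : ℝ)) * min (a z y) σ + 1 / (p : ℝ) * min (b z y) σ) + (s i - 1 / (p : ℝ)) * Δ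
  mnX : ∀ z x, S.vm z x ≤ S.bX z (p * x) + S.gX z x
  gE1 : ∀ z x, S.gE z x ≤ σ
  gXT : ∀ x, ∑ z, S.gX z x ≤ gT x
  en : 2 ≤ p → ∀ y, ∑ i : Fin p, 1 / (p : ℝ) * ∑ z, (th (S.vm z ((y + (i : ℕ)) / p)) +
      5 / 4 * th (S.vs z ((y + (i : ℕ)) / p)) + 1 / 48 * th (S.gE z ((y + (i : ℕ)) / p))) ≤
    ∑ z, ((1 - 1 / (p : ℝ)) * th (min (a z y) σ) + 1 / (p : ℝ) * th (min (b z y) σ))

/-- **row system with separated contents and arbitrary heights** -/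
structure RXm (β δ : Type) [Fintype δ] where
  /-- children P -/
  cP : ℕ → β → β
  /-- children N -/
  cN : ℕ → β → β
  /-- the rest -/
  rN : ℕ → β → β
  /-- invariant -/
  ok : ℕ → β → Prop
  okP : ∀ {p b}, ok p b → p ≠ 0 → ok p (cP p b)
  okN : ∀ {p b}, ok p b → p ≠ 0 → ok p (cN p b)
  okR : ∀ {p b}, ok p b → p ≠ 0 → ok (p - 1) (rN p b)
  /-- contents -/
  h : ℕ → β → δ → ℝ → ℝ
  /-- contents of leaves and births -/
  hL : ℕ → β → δ → ℝ → ℝ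
  /-- contents of the ties, by the classes of the rows -/
  hP : ℕ → β → δ → ℝ → ℝ
  /-- contents of the ties, by the classes of the point -/
  hB : ℕ → β → δ → ℝ → ℝ
  /-- contents of the rest, by the classes of the column `p` -/
  hN : ℕ → β → δ → ℝ → ℝ
  /-- real lifts, by the classes of the rows -/
  gc : ℕ → β → δ → ℝ → ℝ
  /-- real lifts, by the classes of the point -/
  gB : ℕ → β → δ → ℝ → ℝ
  /-- constant part of the total of the ties -/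
  bT : ℕ → β → ℝ → ℝ
  /-- lift part of the total of the ties -/
  gT : ℕ → β → ℝ → ℝ
  /-- budget of the losses inside the rows -/
  jB : ℕ → β → ℝ → ℝ
  /-- data at the scales -/
  sd : ℝ → ℕ → β → SD δ
  /-- separation: `F` = fresh classes -/
  sep : ℕ → β → (δ → Prop) → Prop
  ph : ∀ {p b}, ok p b → ∀ z, PB (h p b z)
  pL : ∀ {p b}, ok p b → p ≠ 0 → ∀ z, PB (hL p b z)
  pP : ∀ {p b}, ok p b → p ≠ 0 → ∀ z, PB (hP p b z)
  pB : ∀ {p b}, ok p b → p ≠ 0 → ∀ z, PB (hB p b z)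
  pN : ∀ {p b}, ok p b → p ≠ 0 → ∀ z, PB (hN p b z)
  pg : ∀ {p b}, ok p b → p ≠ 0 → ∀ z, PB (gc p b z)
  pgB : ∀ {p b}, ok p b → p ≠ 0 → ∀ z, PB (gB p b z)
  pbT : ∀ {p b}, ok p b → p ≠ 0 → PB (bT p b)
  pgT : ∀ {p b}, ok p b → p ≠ 0 → PB (gT p b)
  pjB : ∀ {p b}, ok p b → p ≠ 0 → PB (jB p b)
  sp : ∀ {p b}, ok p b → p ≠ 0 → ∀ z x, h p b z x = hL p b z x + hB p b z x + hN p b z x
  hPB : ∀ {p b}, ok p b → p ≠ 0 → ∀ x, ∑ z, hB p b z x = ∑ z, hP p b z x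
  gBh : ∀ {p b}, ok p b → p ≠ 0 → ∀ z x, gB p b z x ≤ hB p b z x
  dT : ∀ {p b}, ok p b → p ≠ 0 → ∀ x, ∑ z, hP p b z x = bT p b (p * x) + gT p b x
  mT : ∀ {p b}, ok p b → p ≠ 0 → ∀ y, bT p b y + Ep p (gT p b) y =
    ∑ z, ((1 - 1 / (p : ℝ)) * h p (cP p b) z y + 1 / (p : ℝ) * h p (cN p b) z y)
  no1 : ∀ {b}, ok 1 b → ∀ z x, h 1 (cP 1 b) z x = 0 ∧ h 1 (cN 1 b) z x = 0
  sok : ∀ {p b σ}, ok p b → p ≠ 0 → 0 < σ →
    SOk p σ (h p (cP p b)) (h p (cN p b)) (hP p b) (gc p b) (gT p b) (sd σ p b)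
  lsJ : ∀ {p b}, ok p b → p ≠ 0 → ∀ (n : ℕ) x,
    ∑ l ∈ Finset.range n, (2 : ℝ) ^ l * (sd (2 ^ l) p b).ls x ≤ jB p b x
  sF : ∀ {p b F σ}, ok p b → p ≠ 0 → sep p b F → 0 < σ → ∀ z, F z → ∀ x,
    (sd σ p b).vm z x = 0
  sN : ∀ {p b F σ}, ok p b → p ≠ 0 → sep p b F → 0 < σ → ∀ z, ¬ F z → ∀ x,
    (sd σ p b).vs z x = 0

/-! ### general facts on `sm2`, `su`, `q2` for states with a test class -/

section gen
variable {β δ : Type} [Fintype δ] {s : Gs β} {p : ℕ} {σ : ℝ}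

lemma sm2_nonneg (H : TC s.c s.W) {f : β → δ → ℝ → ℝ} {x : ℝ} (hf : ∀ j z, 0 ≤ f (s.L j) z x) :
    0 ≤ sm2 s f x := SS_nonneg H.c0 fun z j => hf j z

lemma sm2_mono (H : TC s.c s.W) {f g : β → δ → ℝ → ℝ} {x : ℝ}
    (hf : ∀ j z, f (s.L j) z x ≤ g (s.L j) z x) : sm2 s f x ≤ sm2 s g x :=
  Finset.sum_le_sum fun z _ => M_mono H.c0 fun j => hf j z

lemma sm2_congr {f g : β → δ → ℝ → ℝ} {x : ℝ} (hf : ∀ j z, f (s.L j) z x = g (s.L j) z x) :
    sm2 s f x = sm2 s g x := by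
  unfold sm2
  congr 1
  funext z j
  exact hf j z

lemma sm2_add (f g : β → δ → ℝ → ℝ) (x : ℝ) :
    sm2 s (fun b z x => f b z x + g b z x) x = sm2 s f x + sm2 s g x := SS_add _ _

lemma PB_sm2 (H : TC s.c s.W) {f : β → δ → ℝ → ℝ} (hf : ∀ j z, PB (f (s.L j) z)) :
    PB (sm2 s f) :=
  PB.sum _ fun z _ => PB_M H.c0 (f := fun x j => f (s.L j) z x) fun j => hf j z

lemma PB_q2 (H : TC s.c s.W) {f : β → δ → ℝ → ℝ} (hf : ∀ j z, PB (f (s.L j) z)) :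
    PB (q2 s f) :=
  PB.sum _ fun z _ => PBsq (PB_M H.c0 (f := fun x j => f (s.L j) z x) fun j => hf j z)

lemma q2_nonneg (f : β → δ → ℝ → ℝ) (x : ℝ) : 0 ≤ q2 s f x :=
  Finset.sum_nonneg fun z _ => sq_nonneg _

lemma q2_le_sq (H : TC s.c s.W) {f : β → δ → ℝ → ℝ} {x : ℝ} (hf : ∀ j z, 0 ≤ f (s.L j) z x) :
    q2 s f x ≤ sm2 s f x ^ 2 :=
  PN36.sum_sq_le _ _ fun z _ => M_nonneg H.c0 fun j => hf j z

lemma q2_le_mul (H : TC s.c s.W) {f g : β → δ → ℝ → ℝ} {x : ℝ} (hf : ∀ j z, 0 ≤ f (s.L j) z x)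
    (hfg : ∀ j z, f (s.L j) z x ≤ g (s.L j) z x) (hg : ∀ j z, g (s.L j) z x ≤ σ) :
    q2 s f x ≤ σ * sm2 s g x := by
  unfold q2 sm2 SS
  rw [Finset.mul_sum]
  refine Finset.sum_le_sum fun z _ => ?_
  have h1 : M s.c (fun j => f (s.L j) z x) ≤ M s.c (fun j => g (s.L j) z x) :=
    M_mono H.c0 fun j => hfg j z
  have h2 : M s.c (fun j => g (s.L j) z x) ≤ σ := by
    rw [← M_const H.c1 σ]
    exact M_mono H.c0 fun j => hg j z
  have h3 : 0 ≤ M s.c (fun j => f (s.L j) z x) := M_nonneg H.c0 fun j => hf j z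
  nlinarith

lemma PB_su (H : TC s.c s.W) {f : β → ℝ → ℝ} (hf : ∀ j, PB (f (s.L j))) : PB (su s f) :=
  PB_M H.c0 (f := fun x j => f (s.L j) x) hf

lemma su_mono (H : TC s.c s.W) {f g : β → ℝ → ℝ} {x : ℝ} (hf : ∀ j, f (s.L j) x ≤ g (s.L j) x) :
    su s f x ≤ su s g x := M_mono H.c0 hf

/-- the sum over the classes inside -/
lemma sm2_su (f : β → δ → ℝ → ℝ) (x : ℝ) : sm2 s f x = su s (fun b x => ∑ z, f b z x) x := by
  unfold sm2 SS su
  rw [M_sum]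

lemma Ep_su (f : β → ℝ → ℝ) (y : ℝ) : Ep p (su s f) y = M s.c fun j => Ep p (f (s.L j)) y := by
  unfold su M Ep
  rw [Finset.sum_comm, Finset.sum_div]
  refine Finset.sum_congr rfl fun j _ => ?_
  rw [← Finset.mul_sum, mul_div_assoc]

end gen

section rx
variable {β δ : Type} [Fintype δ] (R : RXm β δ)

namespace RXm

/-- the state of the children -/
noncomputable def C (p : ℕ) (s : Gs β) : Gs β :=
  if 2 ≤ p then ⟨s.J × Bool, inferInstance, cT (1 - 1 / (p : ℝ)) s.c,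
    WT (1 - 1 / (p : ℝ)) s.W, fun x => if x.2 then R.cP p (s.L x.1) else R.cN p (s.L x.1)⟩
  else ⟨s.J, s.fJ, s.c, s.W, fun j => R.cP p (s.L j)⟩

/-- the state of the rest -/
def N (p : ℕ) (s : Gs β) : Gs β := ⟨s.J, s.fJ, s.c, s.W, fun j => R.rN p (s.L j)⟩

lemma C_pos {p : ℕ} (hp : 2 ≤ p) (s : Gs β) : R.C p s =
    ⟨s.J × Bool, inferInstance, cT (1 - 1 / (p : ℝ)) s.c,
    WT (1 - 1 / (p : ℝ)) s.W, fun x => if x.2 then R.cP p (s.L x.1) else R.cN p (s.L x.1)⟩ :=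
  if_pos hp

lemma C_neg {p : ℕ} (hp : ¬ 2 ≤ p) (s : Gs β) : R.C p s =
    ⟨s.J, s.fJ, s.c, s.W, fun j => R.cP p (s.L j)⟩ := if_neg hp

/-- good group states -/
def gok (p : ℕ) (s : Gs β) : Prop := TC s.c s.W ∧ ∀ j, R.ok p (s.L j)

/-- the separation is common to the members -/
def grp (p : ℕ) (s : Gs β) : Prop := ∃ F : δ → Prop, ∀ j, R.sep p (s.L j) F

/-! data -/

noncomputable def T (p : ℕ) (s : Gs β) : ℝ → ℝ := sm2 s (R.h p)
noncomputable def TN (p : ℕ) (s : Gs β) : ℝ → ℝ := sm2 s (R.hN p)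
noncomputable def TL (p : ℕ) (s : Gs β) : ℝ → ℝ := sm2 s (R.hL p)
noncomputable def TB (p : ℕ) (s : Gs β) : ℝ → ℝ := sm2 s (R.hB p)
noncomputable def TP (p : ℕ) (s : Gs β) : ℝ → ℝ := sm2 s (R.hP p)
noncomputable def bt0 (p : ℕ) (s : Gs β) : ℝ → ℝ := su s (R.bT p)
noncomputable def GT (p : ℕ) (s : Gs β) : ℝ → ℝ := su s (R.gT p)
noncomputable def jb0 (p : ℕ) (s : Gs β) : ℝ → ℝ := su s (R.jB p)

/-- truncated contents -/
noncomputable def hk (σ : ℝ) (p : ℕ) (b : β) (z : δ) (x : ℝ) : ℝ := min (R.h p b z x) σ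
noncomputable def hLk (σ : ℝ) (p : ℕ) (b : β) (z : δ) (x : ℝ) : ℝ := min (R.hL p b z x) σ
noncomputable def hBk (σ : ℝ) (p : ℕ) (b : β) (z : δ) (x : ℝ) : ℝ := min (R.hB p b z x) σ
noncomputable def hPk (σ : ℝ) (p : ℕ) (b : β) (z : δ) (x : ℝ) : ℝ := min (R.hP p b z x) σ
noncomputable def hNk (σ : ℝ) (p : ℕ) (b : β) (z : δ) (x : ℝ) : ℝ := min (R.hN p b z x) σ
/-- virtual contents -/
noncomputable def vk (σ : ℝ) (p : ℕ) (b : β) (z : δ) (x : ℝ) : ℝ :=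
  (R.sd σ p b).vm z x + (R.sd σ p b).vs z x
noncomputable def sgk (σ : ℝ) (p : ℕ) (b : β) (z : δ) : ℝ → ℝ := (R.sd σ p b).sg z
noncomputable def tgk (σ : ℝ) (p : ℕ) (b : β) (z : δ) (x : ℝ) : ℝ :=
  R.gc p b z x - (R.sd σ p b).sg z x

noncomputable def A (σ : ℝ) (p : ℕ) (s : Gs β) : ℝ → ℝ := sm2 s (R.hk σ p)
noncomputable def AL (σ : ℝ) (p : ℕ) (s : Gs β) : ℝ → ℝ := sm2 s (R.hLk σ p)
noncomputable def AB (σ : ℝ) (p : ℕ) (s : Gs β) : ℝ → ℝ := sm2 s (R.hBk σ p)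
noncomputable def AP (σ : ℝ) (p : ℕ) (s : Gs β) : ℝ → ℝ := sm2 s (R.hPk σ p)
noncomputable def AR (σ : ℝ) (p : ℕ) (s : Gs β) : ℝ → ℝ := sm2 s (R.hNk σ p)
noncomputable def be (σ : ℝ) (p : ℕ) (s : Gs β) : ℝ → ℝ := su s fun b => (R.sd σ p b).be
noncomputable def G (σ : ℝ) (p : ℕ) (s : Gs β) : ℝ → ℝ := su s fun b => (R.sd σ p b).G
noncomputable def e0 (σ : ℝ) (p : ℕ) (s : Gs β) : ℝ → ℝ := su s fun b => (R.sd σ p b).e
noncomputable def ls (σ : ℝ) (p : ℕ) (s : Gs β) : ℝ → ℝ := su s fun b => (R.sd σ p b).ls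
/-- the virtual total -/
noncomputable def vt (σ : ℝ) (p : ℕ) (s : Gs β) (x : ℝ) : ℝ := R.be σ p s (p * x) + R.G σ p s x

/-- costs by the classes of the rows -/
noncomputable def costP (p : ℕ) (s : Gs β) (x : ℝ) : ℝ := 1 / 14 * q2 s (R.gc p) x
/-- costs by the classes of the point -/
noncomputable def costB (p : ℕ) (s : Gs β) (x : ℝ) : ℝ := 1 / 14 * q2 s (R.gB p) x
noncomputable def cS (σ : ℝ) (p : ℕ) (s : Gs β) (x : ℝ) : ℝ := 1 / 14 * q2 s (R.sgk σ p) x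
noncomputable def cTk (σ : ℝ) (p : ℕ) (s : Gs β) (x : ℝ) : ℝ := 1 / 14 * q2 s (R.tgk σ p) x

/-- potential of bundle functions -/
noncomputable def pot (σ : ℝ) (s : Gs β) (f : β → δ → ℝ → ℝ) (x : ℝ) : ℝ :=
  PM7 σ s.c s.W fun z j => f (s.L j) z x

noncomputable def Pt (σ : ℝ) (p : ℕ) (s : Gs β) : ℝ → ℝ := pot σ s (R.hk σ p)
noncomputable def PtB (σ : ℝ) (p : ℕ) (s : Gs β) : ℝ → ℝ := pot σ s (R.hBk σ p)
noncomputable def PtP (σ : ℝ) (p : ℕ) (s : Gs β) : ℝ → ℝ := pot σ s (R.hPk σ p)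
noncomputable def PtR (σ : ℝ) (p : ℕ) (s : Gs β) : ℝ → ℝ := pot σ s (R.hNk σ p)
noncomputable def PR (σ : ℝ) (p : ℕ) (s : Gs β) (x : ℝ) : ℝ :=
  pot σ s (R.vk σ p) x + 14 * (σ * R.e0 σ p s x)

/-- column error: second order and births -/
noncomputable def ex (σ : ℝ) (p : ℕ) (s : Gs β) (x : ℝ) : ℝ :=
  1 / 7 * ∑ z, Ep p (fun x => M s.c fun j => (R.sd σ p (s.L j)).gX z x) (p * x) ^ 2 +
    14 * (σ * R.e0 σ p s x)

/-- **join energy of a bundle** -/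
noncomputable def jb (p : ℕ) (b : β) (z : δ) (x : ℝ) : ℝ :=
  4 * (R.hL p b z x * R.hB p b z x + R.hL p b z x * R.hN p b z x + R.hB p b z x * R.hN p b z x)
noncomputable def jn (p : ℕ) (s : Gs β) : ℝ → ℝ := sm2 s (R.jb p)

variable {R} {p : ℕ} {s : Gs β} {σ : ℝ}

lemma gok_C (hs : R.gok p s) (hp : p ≠ 0) : R.gok p (R.C p s) := by
  by_cases h : 2 ≤ p
  · rw [C_pos R h]
    refine ⟨hs.1.tie (RS.q_bd h), fun x => ?_⟩
    show R.ok p (if x.2 = true then R.cP p (s.L x.1) else R.cN p (s.L x.1))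
    split_ifs
    · exact R.okP (hs.2 x.1) hp
    · exact R.okN (hs.2 x.1) hp
  · rw [C_neg R h]
    exact ⟨hs.1, fun j => R.okP (hs.2 j) hp⟩

lemma gok_N (hs : R.gok p s) (hp : p ≠ 0) : R.gok (p - 1) (R.N p s) :=
  ⟨hs.1, fun j => R.okR (hs.2 j) hp⟩

/-! totals -/

lemma PB_T (hs : R.gok p s) : PB (R.T p s) := PB_sm2 hs.1 fun j z => R.ph (hs.2 j) z
lemma PB_TN (hs : R.gok p s) (hp : p ≠ 0) : PB (R.TN p s) :=
  PB_sm2 hs.1 fun j z => R.pN (hs.2 j) hp z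
lemma PB_TL (hs : R.gok p s) (hp : p ≠ 0) : PB (R.TL p s) :=
  PB_sm2 hs.1 fun j z => R.pL (hs.2 j) hp z
lemma PB_TB (hs : R.gok p s) (hp : p ≠ 0) : PB (R.TB p s) :=
  PB_sm2 hs.1 fun j z => R.pB (hs.2 j) hp z
lemma PB_TP (hs : R.gok p s) (hp : p ≠ 0) : PB (R.TP p s) :=
  PB_sm2 hs.1 fun j z => R.pP (hs.2 j) hp z
lemma PB_bt0 (hs : R.gok p s) (hp : p ≠ 0) : PB (R.bt0 p s) :=
  PB_su hs.1 fun j => R.pbT (hs.2 j) hp
lemma PB_GT (hs : R.gok p s) (hp : p ≠ 0) : PB (R.GT p s) :=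
  PB_su hs.1 fun j => R.pgT (hs.2 j) hp
lemma PB_jb0 (hs : R.gok p s) (hp : p ≠ 0) : PB (R.jb0 p s) :=
  PB_su hs.1 fun j => R.pjB (hs.2 j) hp

theorem spl (hs : R.gok p s) (hp : p ≠ 0) (x : ℝ) :
    R.T p s x = R.TL p s x + R.TB p s x + R.TN p s x := by
  unfold T TN TL TB
  rw [← sm2_add, ← sm2_add]
  exact sm2_congr fun j z => R.sp (hs.2 j) hp z x

theorem TP_eq (hs : R.gok p s) (hp : p ≠ 0) (x : ℝ) : R.TB p s x = R.TP p s x := by
  unfold TB TP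
  rw [sm2_su, sm2_su]
  unfold su
  congr 1
  funext j
  exact R.hPB (hs.2 j) hp x

theorem dec' (hs : R.gok p s) (hp : p ≠ 0) (x : ℝ) :
    R.TB p s x = R.bt0 p s (p * x) + R.GT p s x := by
  rw [TP_eq hs hp]
  unfold TP bt0 GT
  rw [sm2_su]
  unfold su
  rw [← M_add]
  congr 1
  funext j
  exact R.dT (hs.2 j) hp x

/-- **the mean of a family of rows** -/
lemma mean_gen (hs : R.gok p s) (hp : p ≠ 0) {F : β → δ → ℝ → ℝ} {B g : β → ℝ → ℝ}
    (y : ℝ) (h : ∀ j, B (s.L j) y + Ep p (g (s.L j)) y =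
      ∑ z, ((1 - 1 / (p : ℝ)) * F (R.cP p (s.L j)) z y + 1 / (p : ℝ) * F (R.cN p (s.L j)) z y))
    (h1 : p = 1 → ∀ j z, F (R.cP p (s.L j)) z y = 0 ∧ F (R.cN p (s.L j)) z y = 0) :
    su s B y + Ep p (su s g) y = sm2 (R.C p s) F y := by
  have e1 : su s B y + Ep p (su s g) y = SS s.c fun z j =>
      (1 - 1 / (p : ℝ)) * F (R.cP p (s.L j)) z y + 1 / (p : ℝ) * F (R.cN p (s.L j)) z y := by
    rw [Ep_su]
    unfold su SS
    rw [← M_add, ← M_sum]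
    congr 1
    funext j
    exact h j
  rw [e1]
  by_cases h2 : 2 ≤ p
  · rw [C_pos R h2]
    show _ = SS (cT (1 - 1 / (p : ℝ)) s.c) fun z (x : s.J × Bool) =>
      F (if x.2 = true then R.cP p (s.L x.1) else R.cN p (s.L x.1)) z y
    unfold SS
    refine Finset.sum_congr rfl fun z _ => ?_
    rw [M_cT]
    congr 1
    funext j
    unfold av
    simp
    ring
  · have hp1 : p = 1 := by omega
    rw [C_neg R h2]
    show _ = SS s.c fun z j => F (R.cP p (s.L j)) z y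
    congr 1
    funext z j
    rw [(h1 hp1 j z).1, (h1 hp1 j z).2]
    ring

theorem mean (hs : R.gok p s) (hp : p ≠ 0) (y : ℝ) : Ep p (R.TB p s) y = R.T p (R.C p s) y := by
  have hp0 : 0 < p := Nat.pos_of_ne_zero hp
  have h := mean_gen (F := R.h p) hs hp y (fun j => R.mT (hs.2 j) hp y)
    (fun h1 j z => by subst h1; exact R.no1 (hs.2 j) z y)
  rw [show R.T p (R.C p s) y = sm2 (R.C p s) (R.h p) y from rfl, ← h]
  have e : R.TB p s = fun x => R.bt0 p s (p * x) + R.GT p s x := funext fun x => dec' hs hp x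
  rw [e]
  have hp' : (p : ℝ) ≠ 0 := by exact_mod_cast hp
  show (∑ i ∈ Finset.range p, (R.bt0 p s (p * ((y + (i : ℝ)) / p)) +
    R.GT p s ((y + (i : ℝ)) / p))) / p = _
  have e2 : ∀ i ∈ Finset.range p, R.bt0 p s (p * ((y + (i : ℝ)) / p)) + R.GT p s ((y + (i : ℝ)) / p) =
      R.bt0 p s y + R.GT p s ((y + (i : ℝ)) / p) := fun i _ => by
    rw [pull_fibre hp0 (PB_bt0 hs hp).per y i]
  rw [Finset.sum_congr rfl e2, Finset.sum_add_distrib, Finset.sum_const, Finset.card_range,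
    nsmul_eq_mul, add_div, mul_div_cancel_left₀ _ hp']
  rfl

/-! short totals -/

section short
variable (hσ : 0 < σ)
include hσ

lemma so (hs : R.gok p s) (hp : p ≠ 0) (j : s.J) :
    SOk p σ (R.h p (R.cP p (s.L j))) (R.h p (R.cN p (s.L j))) (R.hP p (s.L j))
      (R.gc p (s.L j)) (R.gT p (s.L j)) (R.sd σ p (s.L j)) := R.sok (hs.2 j) hp hσ

lemma PB_hk (hs : R.gok p s) (j : s.J) (z : δ) : PB (R.hk σ p (s.L j) z) :=
  PB_minc hσ.le (R.ph (hs.2 j) z)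
lemma PB_hLk (hs : R.gok p s) (hp : p ≠ 0) (j : s.J) (z : δ) : PB (R.hLk σ p (s.L j) z) :=
  PB_minc hσ.le (R.pL (hs.2 j) hp z)
lemma PB_hBk (hs : R.gok p s) (hp : p ≠ 0) (j : s.J) (z : δ) : PB (R.hBk σ p (s.L j) z) :=
  PB_minc hσ.le (R.pB (hs.2 j) hp z)
lemma PB_hPk (hs : R.gok p s) (hp : p ≠ 0) (j : s.J) (z : δ) : PB (R.hPk σ p (s.L j) z) :=
  PB_minc hσ.le (R.pP (hs.2 j) hp z)
lemma PB_hNk (hs : R.gok p s) (hp : p ≠ 0) (j : s.J) (z : δ) : PB (R.hNk σ p (s.L j) z) :=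
  PB_minc hσ.le (R.pN (hs.2 j) hp z)
lemma PB_vk (hs : R.gok p s) (hp : p ≠ 0) (j : s.J) (z : δ) : PB (R.vk σ p (s.L j) z) :=
  ((so hσ hs hp j).pvm z).add ((so hσ hs hp j).pvs z)
lemma PB_tgk (hs : R.gok p s) (hp : p ≠ 0) (j : s.J) (z : δ) : PB (R.tgk σ p (s.L j) z) :=
  ModeS16.PB_sub (R.pg (hs.2 j) hp z) ((so hσ hs hp j).psg z) fun x => (so hσ hs hp j).sgc z x

lemma PB_A (hs : R.gok p s) : PB (R.A σ p s) := PB_sm2 hs.1 fun j z => PB_hk hσ hs j z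
lemma PB_AL (hs : R.gok p s) (hp : p ≠ 0) : PB (R.AL σ p s) :=
  PB_sm2 hs.1 fun j z => PB_hLk hσ hs hp j z
lemma PB_AB (hs : R.gok p s) (hp : p ≠ 0) : PB (R.AB σ p s) :=
  PB_sm2 hs.1 fun j z => PB_hBk hσ hs hp j z
lemma PB_AP (hs : R.gok p s) (hp : p ≠ 0) : PB (R.AP σ p s) :=
  PB_sm2 hs.1 fun j z => PB_hPk hσ hs hp j z
lemma PB_AR (hs : R.gok p s) (hp : p ≠ 0) : PB (R.AR σ p s) :=
  PB_sm2 hs.1 fun j z => PB_hNk hσ hs hp j z
lemma PB_be (hs : R.gok p s) (hp : p ≠ 0) : PB (R.be σ p s) :=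
  PB_su hs.1 (f := fun b => (R.sd σ p b).be) fun j => (so hσ hs hp j).pbe
lemma PB_G (hs : R.gok p s) (hp : p ≠ 0) : PB (R.G σ p s) :=
  PB_su hs.1 (f := fun b => (R.sd σ p b).G) fun j => (so hσ hs hp j).pG
lemma PB_e0 (hs : R.gok p s) (hp : p ≠ 0) : PB (R.e0 σ p s) :=
  PB_su hs.1 (f := fun b => (R.sd σ p b).e) fun j => (so hσ hs hp j).pe
lemma PB_ls (hs : R.gok p s) (hp : p ≠ 0) : PB (R.ls σ p s) :=
  PB_su hs.1 (f := fun b => (R.sd σ p b).ls) fun j => (so hσ hs hp j).pls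

/-- the short content of the ties, summed inside -/
lemma AP_su (x : ℝ) : R.AP σ p s x = su s (fun b x => ∑ z, min (R.hP p b z x) σ) x := by
  unfold AP
  rw [sm2_su]
  rfl

lemma vt_le (hs : R.gok p s) (hp : p ≠ 0) (x : ℝ) :
    R.vt σ p s x ≤ R.AP σ p s x + R.ls σ p s x := by
  rw [AP_su hσ]
  unfold vt be G ls su
  rw [← M_add, ← M_add]
  exact M_mono hs.1.c0 fun j => (so hσ hs hp j).nb x

lemma APls_le (hs : R.gok p s) (hp : p ≠ 0) (x : ℝ) :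
    R.AP σ p s x + R.ls σ p s x ≤ R.TB p s x := by
  rw [TP_eq hs hp, AP_su hσ]
  unfold TP ls
  rw [sm2_su]
  unfold su
  rw [← M_add]
  exact M_mono hs.1.c0 fun j => (so hσ hs hp j).lsT x

lemma vt_TB (hs : R.gok p s) (hp : p ≠ 0) (x : ℝ) : R.vt σ p s x ≤ R.TB p s x :=
  (vt_le hσ hs hp x).trans (APls_le hσ hs hp x)

lemma PB_vt (hs : R.gok p s) (hp : p ≠ 0) : PB (R.vt σ p s) :=
  ((PB_be hσ hs hp).pull p).add (PB_G hσ hs hp)

omit hσ in
lemma PB_costP (hs : R.gok p s) (hp : p ≠ 0) : PB (R.costP p s) :=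
  (PB_q2 hs.1 fun j z => R.pg (hs.2 j) hp z).smul (by norm_num)

omit hσ in
lemma PB_costB (hs : R.gok p s) (hp : p ≠ 0) : PB (R.costB p s) :=
  (PB_q2 hs.1 fun j z => R.pgB (hs.2 j) hp z).smul (by norm_num)

theorem AB_le (hs : R.gok p s) (hp : p ≠ 0) (x : ℝ) : R.AB σ p s x ≤ R.TB p s x :=
  sm2_mono hs.1 fun j z => min_le_left _ _

theorem AL_le (hs : R.gok p s) (hp : p ≠ 0) (x : ℝ) : R.AL σ p s x ≤ R.TL p s x :=
  sm2_mono hs.1 fun j z => min_le_left _ _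

theorem AR_le (hs : R.gok p s) (hp : p ≠ 0) (x : ℝ) : R.AR σ p s x ≤ R.TN p s x :=
  sm2_mono hs.1 fun j z => min_le_left _ _

theorem A_le (hs : R.gok p s) (x : ℝ) : R.A σ p s x ≤ R.T p s x :=
  sm2_mono hs.1 fun j z => min_le_left _ _

theorem AP_le (hs : R.gok p s) (hp : p ≠ 0) (x : ℝ) : R.AP σ p s x ≤ R.TB p s x := by
  rw [TP_eq hs hp]
  exact sm2_mono hs.1 fun j z => min_le_left _ _

theorem meanA (hs : R.gok p s) (hp : p ≠ 0) (y : ℝ) :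
    R.be σ p s y + Ep p (R.G σ p s) y = R.A σ p (R.C p s) y :=
  mean_gen (F := R.hk σ p) (B := fun b => (R.sd σ p b).be) (g := fun b => (R.sd σ p b).G) hs hp y
    (fun j => (so hσ hs hp j).mean y) (fun h1 j z => by
      subst h1
      have h := R.no1 (hs.2 j) z y
      constructor
      · show min (R.h 1 (R.cP 1 (s.L j)) z y) σ = 0
        rw [h.1, min_eq_left hσ.le]
      · show min (R.h 1 (R.cN 1 (s.L j)) z y) σ = 0
        rw [h.2, min_eq_left hσ.le])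

theorem G_le (hs : R.gok p s) (hp : p ≠ 0) (x : ℝ) : R.G σ p s x ≤ R.GT p s x := by
  refine M_mono hs.1.c0 fun j => ?_
  have h := (so hσ hs hp j).sgT x
  have h2 : 0 ≤ ∑ z, (R.gc p (s.L j) z x - (R.sd σ p (s.L j)).sg z x) :=
    Finset.sum_nonneg fun z _ => sub_nonneg.2 ((so hσ hs hp j).sgc z x)
  show (R.sd σ p (s.L j)).G x ≤ R.gT p (s.L j) x
  linarith

/-- the virtual total -/
lemma v_tot (hs : R.gok p s) (hp : p ≠ 0) (x : ℝ) :
    sm2 s (R.vk σ p) x + R.e0 σ p s x = R.vt σ p s x := by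
  rw [sm2_su]
  unfold vt e0 be G su
  rw [← M_add, ← M_add]
  congr 1
  funext j
  exact (so hσ hs hp j).tot x

/-! costs -/

theorem c1 (hs : R.gok p s) (hp : p ≠ 0) (x : ℝ) : R.cS σ p s x ≤ R.G σ p s x ^ 2 := by
  have h1 := q2_le_sq hs.1 (f := R.sgk σ p) (x := x) fun j z => ((so hσ hs hp j).psg z).nonneg x
  have h0 : 0 ≤ sm2 s (R.sgk σ p) x :=
    sm2_nonneg hs.1 fun j z => ((so hσ hs hp j).psg z).nonneg x
  have h2 : sm2 s (R.sgk σ p) x ≤ R.G σ p s x := by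
    rw [sm2_su]
    exact M_mono hs.1.c0 fun j => (so hσ hs hp j).sgG x
  have h3 := pow_le_pow_left₀ h0 h2 2
  have h4 := q2_nonneg (s := s) (R.sgk σ p) x
  unfold cS
  linarith

lemma v_le (hs : R.gok p s) (hp : p ≠ 0) (j : s.J) (z : δ) (x : ℝ) :
    R.vk σ p (s.L j) z x ≤ σ := ((so hσ hs hp j).le z x).trans (min_le_right _ _)

theorem c2 (hs : R.gok p s) (hp : p ≠ 0) (x : ℝ) : R.cS σ p s x ≤ σ * R.vt σ p s x := by
  have h1 : q2 s (R.sgk σ p) x ≤ (2 * σ) * sm2 s (R.sgk σ p) x :=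
    q2_le_mul (σ := 2 * σ) hs.1 (fun j z => ((so hσ hs hp j).psg z).nonneg x)
      (fun j z => le_rfl) fun j z => (so hσ hs hp j).sg2 z x
  have h2 : sm2 s (R.sgk σ p) x ≤ R.G σ p s x := by
    rw [sm2_su]
    exact M_mono hs.1.c0 fun j => (so hσ hs hp j).sgG x
  have h3 := (PB_be hσ hs hp).nonneg (p * x)
  have h4 : sm2 s (R.sgk σ p) x ≤ R.vt σ p s x := by unfold vt; linarith
  have h5 := mul_le_mul_of_nonneg_left h4 (show 0 ≤ 2 * σ by linarith)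
  have h7 : 0 ≤ σ * R.vt σ p s x := mul_nonneg hσ.le ((PB_vt hσ hs hp).nonneg x)
  unfold cS
  nlinarith

theorem c4 (hs : R.gok p s) (hp : p ≠ 0) (x : ℝ) :
    R.cTk σ p s x ≤ (R.GT p s x - R.G σ p s x) ^ 2 := by
  have h0 : ∀ j z, 0 ≤ R.tgk σ p (s.L j) z x := fun j z => (PB_tgk hσ hs hp j z).nonneg x
  have h1 := q2_le_sq hs.1 (f := R.tgk σ p) (x := x) h0
  have h2 : sm2 s (R.tgk σ p) x ≤ R.GT p s x - R.G σ p s x := by
    rw [sm2_su]
    unfold GT G su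
    rw [← M_sub]
    exact M_mono hs.1.c0 fun j => (so hσ hs hp j).sgT x
  have h3 := pow_le_pow_left₀ (sm2_nonneg hs.1 h0) h2 2
  have h4 := q2_nonneg (s := s) (R.tgk σ p) x
  unfold cTk
  linarith

omit hσ in
theorem cc (x : ℝ) : R.costP p s x ≤ 2 * R.cS σ p s x + 2 * R.cTk σ p s x := by
  have key : q2 s (R.gc p) x ≤ 2 * q2 s (R.sgk σ p) x + 2 * q2 s (R.tgk σ p) x := by
    unfold q2
    rw [Finset.mul_sum, Finset.mul_sum, ← Finset.sum_add_distrib]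
    refine Finset.sum_le_sum fun z _ => ?_
    have e : M s.c (fun j => R.gc p (s.L j) z x) = M s.c (fun j => R.sgk σ p (s.L j) z x) +
        M s.c (fun j => R.tgk σ p (s.L j) z x) := by
      rw [← M_add]
      congr 1
      funext j
      unfold sgk tgk
      ring
    rw [e]
    nlinarith [sq_nonneg (M s.c (fun j => R.sgk σ p (s.L j) z x) -
      M s.c (fun j => R.tgk σ p (s.L j) z x))]
  unfold costP cS cTk
  linarith

theorem c3 (hs : R.gok p s) (hp : p ≠ 0) (x : ℝ) :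
    R.costB p s x ≤ 2 * (σ * R.AB σ p s x) + 2 * (R.TB p s x - R.AB σ p s x) ^ 2 := by
  have key : q2 s (R.gB p) x ≤ 2 * q2 s (R.hBk σ p) x +
      2 * q2 s (fun b z x => xs σ (R.hB p b z x)) x := by
    unfold q2
    rw [Finset.mul_sum, Finset.mul_sum, ← Finset.sum_add_distrib]
    refine Finset.sum_le_sum fun z _ => ?_
    have h5 : M s.c (fun j => R.gB p (s.L j) z x) ≤ M s.c (fun j => R.hBk σ p (s.L j) z x) +
        M s.c (fun j => xs σ (R.hB p (s.L j) z x)) := by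
      rw [← M_add]
      refine M_mono hs.1.c0 fun j => ?_
      have a1 := R.gBh (hs.2 j) hp z x
      have a2 : R.hBk σ p (s.L j) z x + xs σ (R.hB p (s.L j) z x) = R.hB p (s.L j) z x :=
        min_add_xs σ _
      linarith
    have h6 : 0 ≤ M s.c (fun j => R.gB p (s.L j) z x) :=
      M_nonneg hs.1.c0 fun j => (R.pgB (hs.2 j) hp z).nonneg x
    set a := M s.c (fun j => R.hBk σ p (s.L j) z x)
    set c := M s.c (fun j => xs σ (R.hB p (s.L j) z x))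
    have h7 := pow_le_pow_left₀ h6 h5 2
    nlinarith [sq_nonneg (a - c)]
  have e : R.TB p s x - R.AB σ p s x = sm2 s (fun b z x => xs σ (R.hB p b z x)) x := by
    have : R.TB p s x = R.AB σ p s x + sm2 s (fun b z x => xs σ (R.hB p b z x)) x := by
      unfold TB AB
      rw [← sm2_add]
      exact sm2_congr fun j z => (min_add_xs σ _).symm
    rw [this]; ring
  have h2 := q2_le_sq hs.1 (f := fun b z x => xs σ (R.hB p b z x)) (x := x)
    fun j z => xs_nonneg _ _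
  have h3 : q2 s (R.hBk σ p) x ≤ σ * R.AB σ p s x :=
    q2_le_mul (σ := σ) hs.1 (fun j z => (PB_hBk hσ hs hp j z).nonneg x) (fun j z => le_rfl)
      fun j z => min_le_right _ _
  have h4 := q2_nonneg (s := s) (R.hBk σ p) x
  have h5 := q2_nonneg (s := s) (fun b z x => xs σ (R.hB p b z x)) x
  rw [e]
  unfold costB
  linarith

end short

end RXm

end rx

end Crest.Agent.R4P.RXm55
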