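import Crest.Agent.R4P.TYR_9
import Crest.Agent.R4P.RGd_25
import Crest.Agent.R4P.AddNode_7

/-!
R4 (S0004) with powers, T3, helper47: **static columns and ties for the types of a rule** (`TYP_9`).

* `crs`, `rU` : coarsening of the cells of the unlabelled pieces from the column `p` to `p - 1`.
* `SE` : static event (label or tag of the rule changes from `p` to `p - 1`); **`rest_tp`** : without
  static event the type below is the image of the type above under `rU`.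
* `ixp_tie` : the index of a label at a tie is the same above and below (P, N and pulls); `ME` : event of
  a tie; **`tie_tp`**.
* context: `Rle`, `InvM`, `ctx_IVM`; `rest_node`, **`rest_same`**, `tie_node`, **`tie_same`**, `no_out`,
  `rest_Pok`, `tie_Pok`.
-/

set_option autoImplicit false
set_option linter.unusedSectionVars false
set_option linter.unusedVariables false
open MeasureTheory Filter Set

namespace Crest.Agent.R4P.RsT47

open Crest.Agent.R4P.Cnt588 Crest.Agent.R4P.Item758 Crest.Agent.R4P.W363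
open Crest.Agent.R4.W363 (off cell cell_eq_iff brk brk_mono cell_mono_set)
open Crest.Agent.R4P.Data758
open Crest.Agent.R4P.Bld532 (NS All NodeOk Bk)
open Crest.Agent.R4P.WalkIT579 (tp isL toDT_top toDT_leaf)
open Crest.Agent.R4P.StratN36 (ex)
open Crest.Agent.R4P.Step588 Crest.Agent.R4P.RseSt23
open Crest.Agent.R4P.DTp26 Crest.Agent.R4P.DTm407
open Crest.Agent.R4P.TYI47 Crest.Agent.R4P.TYJ47 Crest.Agent.R4P.TYK47
open Crest.Agent.R4P.TYP9
open Crest.Agent.R4P.Walk560 (DT WrN)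

/-! ### coarsening of cells -/

section cells

open Classical in
/-- the cell of `E'` of a cell of `E` -/
noncomputable def crs (E E' : Finset ℝ) (k : ℕ) : ℕ :=
  if h : ∃ y, cell E y = k then cell E' h.choose else 0

lemma crs_cell {E E' : Finset ℝ} (h : E' ⊆ E) (y : ℝ) : crs E E' (cell E y) = cell E' y := by
  have hex : ∃ y', cell E y' = cell E y := ⟨y, rfl⟩
  unfold crs
  rw [dif_pos hex]
  exact cell_mono_set h hex.choose_spec

variable {c : Cf} {n : ℕ}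

/-- **coarsening of the types** from the column `p` to the column `p - 1` -/
noncomputable def rU (c : Cf) (N K p : ℕ) (z : Ty N K) : Ty N K :=
  if z.1.1 = true then z
  else ((z.1.1, clp N (crs (c.wp.E p none) (c.wp.E (p - 1) none) z.1.2)), z.2)

lemma E_sub {p : ℕ} (h : c.wp.dep (p - 1) ≤ c.wp.dep p) :
    c.wp.E (p - 1) none ⊆ c.wp.E p none := brk_mono _ _ h

lemma rU_mkT {p : ℕ} (hd : c.wp.dep (p - 1) ≤ c.wp.dep p) (hp : p ≤ n) (K : ℕ) (s : Option ℚ)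
    (M : Finset ℕ) (T : ℕ) (x : ℝ) (j : c.Lam) (g : ℕ) :
    mkT (Nix c n) K (ixp c (p - 1) s M T x j) g =
      rU c (Nix c n) K p (mkT (Nix c n) K (ixp c p s M T x j) g) := by
  cases s with
  | some σ =>
    rw [ixp_col (p := p - 1) (p' := p)]
    have e : (mkT (Nix c n) K (ixp c p (some σ) M T x j) g).1.1 = true := rfl
    unfold rU
    rw [if_pos e]
  | none =>
    have e : ¬ (mkT (Nix c n) K (ixp c p none M T x j) g).1.1 = true := by
      show ¬ (ixp c p none M T x j).1 = true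
      simp [ixp_fst]
    unfold rU
    rw [if_neg e]
    have h1 : ((mkT (Nix c n) K (ixp c p none M T x j) g).1.2 : ℕ) = (ixp c p none M T x j).2 := by
      show min _ _ = _
      exact min_eq_left (ixp_le hp none M T x j)
    rw [h1]
    have h2 : crs (c.wp.E p none) (c.wp.E (p - 1) none) (ixp c p none M T x j).2 =
        (ixp c (p - 1) none M T x j).2 := by
      unfold ixp WP.ix
      exact crs_cell (E_sub hd) _
    rw [h2]
    rfl

end cells

/-! ### static columns -/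

section rest
variable {c : Cf} {n : ℕ} {R : Rule c}

/-- **static event** of the piece `j` at the column `p` -/
def SE (R : Rule c) (p : ℕ) (M : Finset ℕ) (T : ℕ) (x : ℝ) (j : c.Lam) : Prop :=
  R.lb (p - 1) M x j ≠ R.lb p M x j ∨ R.tg (p - 1) M T x j ≠ R.tg p M T x j

lemma MP_SE (R : Rule c) (p : ℕ) (M : Finset ℕ) (T : ℕ) (j : c.Lam) :
    MP fun x => SE R p M T x j := by
  have h := ((R.mlb (p - 1) M j).prod (R.mlb p M j)).prod
    ((R.mtg (p - 1) M T j).prod (R.mtg p M T j))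
  exact h.map fun q => q.1.1 ≠ q.1.2 ∨ q.2.1 ≠ q.2.2

/-- **the type below** -/
theorem rest_tp {p : ℕ} (hd : c.wp.dep (p - 1) ≤ c.wp.dep p) (hp : p ≤ n) {m : Me} {x : ℝ}
    {j : c.Lam} (hm : pm c.t (p - 1) m j.1.1 = pm c.t p m j.1.1)
    (h : ¬ SE R p (pm c.t p m j.1.1) m.2 x j) :
    R.tp n (p - 1) m x j = (R.tp n p m x j).map (rU c (Nix c n) R.K p) := by
  unfold SE at h
  push Not at h
  obtain ⟨h1, h2⟩ := h
  unfold Rule.tp Rule.it
  rw [hm, h1, h2]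
  show some _ = some _
  congr 1
  exact rU_mkT hd hp _ _ _ _ _ _ _

end rest

/-! ### ties -/

section tie
variable {c : Cf} {n : ℕ} {R : Rule c}

/-- **event of a tie** of the piece `j` (lists `M` above, `M'` below, points `x`, `y = p x`, C-steps `T`
above, `T p` below) -/
def ME (R : Rule c) (p : ℕ) (M M' : Finset ℕ) (T : ℕ) (x y : ℝ) (j : c.Lam) : Prop :=
  R.lb p M' y j ≠ R.lb p M x j ∨ R.tg p M' (T * p) y j ≠ R.tg p M T x j

/-- **the type below a tie** -/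
theorem tie_tp {p : ℕ} {m : Me} {x : ℝ} {j : c.Lam}
    (hix : ∀ s, ixp c p s (pm c.t p (tuM p m) j.1.1) (tuM p m).2 (p * x) j =
      ixp c p s (pm c.t p m j.1.1) m.2 x j)
    (h : ¬ ME R p (pm c.t p m j.1.1) (pm c.t p (tuM p m) j.1.1) m.2 x (p * x) j) :
    R.tp n p (tuM p m) (p * x) j = R.tp n p m x j := by
  unfold ME at h
  push Not at h
  obtain ⟨h1, h2⟩ := h
  replace h2 : R.tg p (pm c.t p (tuM p m) j.1.1) (tuM p m).2 (p * x) j = _ := h2
  unfold Rule.tp Rule.it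
  rw [h1, h2, hix]

end tie

/-! ### nodes of a bundle -/

section car
variable {μ : Type} {tu : ℕ → μ → μ} {R : ℕ → μ → NS → IT → Prop}

/-- the relation together with the bound `n` of the columns -/
def Rle (n : ℕ) (R : ℕ → μ → NS → IT → Prop) (p : ℕ) (m : μ) (s : NS) (τ : IT) : Prop :=
  R p m s τ ∧ p ≤ n

lemma car_le (H : Car tu R) (n : ℕ) : Car tu (Rle n R) where
  add := fun h => ⟨⟨(H.add h.1).1, h.2⟩, ⟨(H.add h.1).2, h.2⟩⟩
  far := fun h => ⟨⟨(H.far h.1).1, h.2⟩, ⟨(H.far h.1).2, h.2⟩⟩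
  up := fun h => ⟨H.up h.1, h.2⟩
  br := fun h => ⟨⟨(H.br h.1).1, h.2⟩, ⟨(H.br h.1).2, h.2⟩⟩
  pl := fun h => ⟨H.pl h.1, h.2⟩
  down := fun hp h h1 h2 => ⟨H.down hp h.1 h1 h2, (Nat.sub_le _ _).trans h.2⟩

end car

section nodes
variable {P : Bld532.Par} {W : ℕ → ℝ} {t' : IT} {Q : NS → IT → Prop}

/-- **the rest: the processed missing ties do not change** -/
lemma rest_pm (hQ : ∀ u τ, Q u τ → NDt P W t' u τ) {n : ℕ} (hO : t'.Ok n) {p : ℕ} (hp : p ≠ 0)
    {m : Me} {u : NS} {τ : IT} (h : TYP9.Rt t' Q p m u τ) (ht : tp τ < p) (hl : ¬ isL τ) {q : ℕ}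
    (hq : q ∈ τ.items) : pm t' (p - 1) m q = pm t' p m q := by
  have h1 := ((TYP9.Rt.car hQ hO).down hp h ht hl).rm.pf hQ hO hq
  have h2 := h.rm.pf hQ hO hq
  exact h1.symm.trans h2

end nodes

section ctx
open Crest.Agent.R4P.Skel189 Crest.Agent.R4P.Frame758
open Crest.Agent.R4.Soft104 Crest.Agent.R4.Fam464
open Crest.Agent.R4P.StratX36 Crest.Agent.R4P.TopX36
open Crest.Agent.R4P.GWa343 Crest.Agent.R4P.GWb343 Crest.Agent.R4P.GWc343 Crest.Agent.R4P.GWf343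
open Crest.Agent.R4P.GWg343 (FX ctx_BI)
open Crest.Agent.R4P.TrR343

variable {N : Skel189.Num} {γ : ℝ} {p0 P₀ : ℕ} {X : Ctx N γ p0 P₀} {Q : NS → IT → Prop}

/-- the node relation of a context -/
abbrev RtX (X : Ctx N γ p0 P₀) (Q : NS → IT → Prop) : ℕ → Me → NS → IT → Prop :=
  Rle (Skel189.top X.S) (TYP9.Rt X.c.t Q)

/-- **the invariant of the typed bundles of a context** -/
abbrev InvM (X : Ctx N γ p0 P₀) (Q : NS → IT → Prop) (C : ℝ) :
    ℕ → Me × List (DT X.c.Lam (LbX X)) → Prop :=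
  IV (rhoX X) (fun _ => True) (mems (X.c.D.par X.Y) X.c.sp (RtX X Q)) C

theorem carX (hQ : ∀ u τ, Q u τ → NDt X.par (w X.ψ) X.c.t u τ) : Car tuM (RtX X Q) :=
  car_le (TYP9.Rt.car hQ X.tOk) _

theorem mokX (hQ : ∀ u τ, Q u τ → NDt X.par (w X.ψ) X.c.t u τ)
    (F : DT X.c.Lam (LbX X) → Prop) :
    MOk tuM F (mems (X.c.D.par X.Y) X.c.sp (RtX X Q)) := (carX hQ).mok F

/-- **the start bundle of every node of a context** -/
theorem ctx_IVM (X : Ctx N γ p0 P₀) (j₀ : X.c.Lam) (hG : PG X.par (w X.ψ)) {Q : NS → IT → Prop}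
    (hQN : ∀ u τ, Q u τ → NDt X.par (w X.ψ) X.c.t u τ)
    (hQ : All Q ⟨Skel189.top X.S, 1, 1, 1⟩ X.c.t) :
    All (fun u τ => InvM X Q (tb (X.self u τ Finset.univ).t)
      (X.self u τ Finset.univ).p (mS u τ, [(X.self u τ Finset.univ).t]))
      ⟨Skel189.top X.S, 1, 1, 1⟩ X.c.t := by
  have h1 := ctx_IV X j₀ hG hQN hQ
  have h2 := Step588.All_All _ _ hQ
  have h3 := RseNd23.All_lv X.c.t ⟨Skel189.top X.S, 1, 1, 1⟩ X.tOk le_rfl
  refine All.mono (fun u τ hh => ?_) (All.and h1 (All.and h2 h3))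
  obtain ⟨a1, a2, a3⟩ := hh
  refine ⟨a1.bi, a1.bnd, fun t ht => ?_⟩
  have ht' := List.mem_singleton.1 ht
  subst ht'
  rw [self_p X u τ]
  refine ⟨u, τ, ⟨TYP9.Rt.start hQN X.tOk a2, ?_⟩, rfl⟩
  refine le_trans ?_ a3
  by_cases hl : isL τ
  · rw [tp_leaf hl]; exact Nat.zero_le _
  · exact (tp_lt_n hQN a2 hl).le

variable {C : ℝ} {p : ℕ} {b : Me × List (DT X.c.Lam (LbX X))}

/-- **a piece of the rest sits in a node with a smaller column** -/
theorem rest_node (hQ : ∀ u τ, Q u τ → NDt X.par (w X.ψ) X.c.t u τ) (h : InvM X Q C p b)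
    (hp : p ≠ 0) {j : X.c.Lam} {x : ℝ} (hj : jv (bN p b.2) j x ≠ 0) :
    ∃ u τ, RtX X Q p b.1 u τ ∧ tp τ < p ∧ ¬ isL τ ∧ j.1.1 ∈ τ.items ∧
      ((X.c.D.par X.Y).toDT X.c.sp u.B u.A τ).g.val j x ≠ 0 := by
  obtain ⟨t, ht, h1⟩ := jv_mem hj
  obtain ⟨s, τ, hs, e⟩ := h.mi.bN (carX hQ) t ht
  have h2 := h.bi.bN.col t ht
  have h3 := zero_of_bN ht
  have h4 := h2.top_le
  subst e
  refine ⟨s, τ, hs, ?_, fun hl => ?_, ?_, h1⟩
  · have e1 := toDT_top (X.c.D.par X.Y) X.c.sp s.B s.A τ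
    have h5 := lt_of_le_of_ne h4 h3.2.1
    rwa [e1] at h5
  · exact h3.2.2 ((toDT_leaf (X.c.D.par X.Y) X.c.sp s.B s.A τ).2 hl)
  · exact (ctx_supp (hQ _ _ hs.1.rm.all.self) h1).1

/-- the list of a piece of the rest -/
theorem rest_pmX (hQ : ∀ u τ, Q u τ → NDt X.par (w X.ψ) X.c.t u τ) (h : InvM X Q C p b)
    (hp : p ≠ 0) {j : X.c.Lam} {x : ℝ} (hj : jv (bN p b.2) j x ≠ 0) :
    pm X.c.t (p - 1) b.1 j.1.1 = pm X.c.t p b.1 j.1.1 ∧ p ≤ Skel189.top X.S := by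
  obtain ⟨u, τ, hs, h1, h2, h3, h4⟩ := rest_node hQ h hp hj
  exact ⟨rest_pm hQ X.tOk hp hs.1 h1 h2 h3, hs.2⟩

/-- **(REST)** without static event the type of the rest at `p - 1` is the image of the type at `p` -/
theorem rest_same (hQ : ∀ u τ, Q u τ → NDt X.par (w X.ψ) X.c.t u τ) {R : Rule X.c}
    (h : InvM X Q C p b) (hp : p ≠ 0) (hd : X.c.wp.dep (p - 1) ≤ X.c.wp.dep p) {j : X.c.Lam}
    {x : ℝ} (hj : jv (bN p b.2) j x ≠ 0) (hS : ¬ SE R p (pm X.c.t p b.1 j.1.1) b.1.2 x j) :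
    R.tp (Skel189.top X.S) (p - 1) b.1 x j =
      (R.tp (Skel189.top X.S) p b.1 x j).map (rU X.c (Nix X.c (Skel189.top X.S)) R.K p) := by
  obtain ⟨h1, h2⟩ := rest_pmX hQ h hp hj
  exact rest_tp hd h2 h1 hS

/-! ### ties -/

lemma zp_congr {γ al : ℝ} {B w w' : ℕ} {x y : ℝ} (h : (w' : ℝ) * y = w * x) :
    zp γ al B w' y = zp γ al B w x := by
  unfold zp
  rw [h]

/-- present in the tie (P item or pull): same point -/
lemma ixp_P {c : Cf} {n p A : ℕ} {j : c.Lam} {M M' : Finset ℕ} {T T' : ℕ} {x : ℝ} (hp : 0 < p)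
    (hA : 0 < A) (hd : A * p ∣ j.1.1) (hB : Bm M' = Bm M) (hw : wm M T j.1.1 = j.1.1 / A)
    (hw' : wm M' T' j.1.1 = j.1.1 / (A * p)) (s : Option ℚ) :
    ixp c p s M' T' (p * x) j = ixp c p s M T x j := by
  unfold ixp
  rw [hB, hw, hw']
  congr 1
  refine zp_congr ?_
  have e : j.1.1 / A = j.1.1 / (A * p) * p := by
    obtain ⟨k, hk⟩ := hd
    rw [hk, Nat.mul_div_cancel_left _ (Nat.mul_pos hA hp), mul_assoc,
      Nat.mul_div_cancel_left _ hA, mul_comm]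
  rw [e]
  push_cast
  ring

/-- missing in the tie: same point of the arc -/
lemma ixp_N {c : Cf} {n p B w : ℕ} {j : c.Lam} {M M' : Finset ℕ} {T T' : ℕ} {x : ℝ} (hp : 0 < p)
    (hB0 : 0 < B) (hB : Bm M = B) (hB' : Bm M' = B * p) (hw : wm M T j.1.1 = w)
    (hw' : wm M' T' j.1.1 = w) {a : ℤ} (h1 : (B : ℝ) * c.bp j.1.1 j.1.2 ≤ w * x - B * c.γ - a)
    (h2 : (w : ℝ) * x - B * c.γ - a < B * c.bp j.1.1 (j.1.2 + 1))
    (hl : ((B * p : ℕ) : ℝ) * (c.bp j.1.1 (j.1.2 + 1) - c.bp j.1.1 j.1.2) ≤ 1) (s : Option ℚ) :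
    ixp c p s M' T' (p * x) j = ixp c p s M T x j := by
  have hBr : (0 : ℝ) < B := by exact_mod_cast hB0
  have hpr : (1 : ℝ) ≤ p := by exact_mod_cast hp
  set z : ℝ := (w * x - B * c.γ - a) / B with hz
  have ez : (B : ℝ) * z = w * x - B * c.γ - a := by rw [hz]; field_simp
  have g1 : c.bp j.1.1 j.1.2 ≤ z := by
    rw [hz, le_div_iff₀ hBr]; linarith
  have g2 : z < c.bp j.1.1 (j.1.2 + 1) := by
    rw [hz, div_lt_iff₀ hBr]; linarith
  have hBp : (0 : ℝ) < ((B * p : ℕ) : ℝ) := by exact_mod_cast Nat.mul_pos hB0 hp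
  have g3 : ((B * p : ℕ) : ℝ) * (z - c.bp j.1.1 j.1.2) < 1 :=
    lt_of_lt_of_le (mul_lt_mul_of_pos_left (by linarith) hBp) hl
  have g4 : (B : ℝ) * (z - c.bp j.1.1 j.1.2) < 1 := by
    refine lt_of_le_of_lt (mul_le_mul_of_nonneg_right ?_ (by linarith)) g3
    push_cast
    nlinarith
  have k1 := ixp_eq (c := c) (p := p) (s := s) (M := M) (T := T) (x := x) (j := j) (a := a) (z := z)
    (by rw [hB]; exact hB0) (by rw [hB, hw]; exact ez) g1 (by rw [hB]; exact g4)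
  have k2 := ixp_eq (c := c) (p := p) (s := s) (M := M') (T := T') (x := p * x) (j := j)
    (a := p * a) (z := z) (by rw [hB']; exact Nat.mul_pos hB0 hp) (by
      rw [hB', hw']
      push_cast
      have : (B : ℝ) * p * z = p * (B * z) := by ring
      rw [this, ez]; ring) g1 (by rw [hB']; exact g3)
  rw [k1, k2]

/-- **a piece of a tie or a pull**: node, side, list and index -/
structure TieP (X : Ctx N γ p0 P₀) (p : ℕ) (m : Me) (j : X.c.Lam) (x : ℝ) : Prop where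
  hi : pm X.c.t p m j.1.1 = (X.c.t.mt j.1.1).filter (p < ·)
  pr : 0 < p
  /-- P items and pulls: nothing is processed; N items: the tie `p` is processed -/
  side : (pm X.c.t p (tuM p m) j.1.1 = pm X.c.t p m j.1.1 ∧ ex p j.1.1 ≠ TYJ47.cnt p m.1) ∨
    (pm X.c.t p (tuM p m) j.1.1 = (X.c.t.mt j.1.1).filter (p ≤ ·) ∧ p ∈ X.c.t.mt j.1.1 ∧
      ex p j.1.1 = TYJ47.cnt p m.1)
  ix : ∀ s, ixp X.c p s (pm X.c.t p (tuM p m) j.1.1) (tuM p m).2 (p * x) j =
    ixp X.c p s (pm X.c.t p m j.1.1) m.2 x j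

theorem tie_node (hQ : ∀ u τ, Q u τ → NDt X.par (w X.ψ) X.c.t u τ)
    (hd1 : X.c.d1 * Kc X.S ≤ 1) (h : InvM X Q C p b) {j : X.c.Lam}
    {x : ℝ} (hj : jv (bB p b.2) j x ≠ 0) : TieP X p b.1 j x := by
  have H := carX hQ
  rcases jv_bB_node H h.mi hj with ⟨s, Sp, t₁, t₀, hs, h1⟩ | ⟨s, t₁, hs, h1⟩
  · have hn := hQ _ _ hs.1.rm.all.self
    have hp : p.Prime := prime_of_br hn.self.node
    obtain ⟨hq, a, -, h2, h3⟩ := ctx_supp hn h1
    have hl : ¬ isL (IT.br p Sp t₁ t₀) := fun h => h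
    have hhi := hs.1.hi hQ hl rfl hq
    obtain ⟨hP, hN⟩ := H.br hs
    have hx := hs.1.rm.exA hl rfl
    rcases Finset.mem_union.1 hq with hq1 | hq0
    · have hn1 := hQ _ _ hP.1.rm.all.self
      have e1 : ex p j.1.1 ≠ TYJ47.cnt p b.1.1 := by
        have h5 : ex p (s.A * p) ≤ ex p j.1.1 :=
          Crest.Agent.R4P.StratN36.ex_le (hn1.bk.pos _ hq1) (hn1.bk.dvd _ hq1)
        rw [ex_mul hp hn.bk.Apos, hx] at h5
        omega
      have e2 : pm X.c.t p (tuM p b.1) j.1.1 = pm X.c.t p b.1 j.1.1 := by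
        rw [pm_tu, if_neg e1]
      refine ⟨hhi, hp.pos, Or.inl ⟨e2, e1⟩, fun σ => ?_⟩
      exact ixp_P (n := 0) hp.pos hn.bk.Apos (hn1.bk.dvd _ hq1) (by rw [e2])
        (hs.1.w_eq hQ X.tOk hq) (hP.1.w_eq hQ X.tOk hq1) σ
    · have hn0 := hQ _ _ hN.1.rm.all.self
      have e2 := hN.1.rm.pf hQ X.tOk hq0
      have hpB : p ∈ (s.B * p).primeFactors :=
        Nat.mem_primeFactors.2 ⟨hp, Dvd.intro_left _ rfl, hn0.bk.sfB.ne_zero⟩
      have hpm : p ∈ X.c.t.mt j.1.1 := by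
        have : p ∈ prm X.c.t p (tuM p b.1).1 j.1.1 := by rw [← e2]; exact hpB
        exact (Finset.mem_filter.1 this).1
      have e1 : ex p j.1.1 = TYJ47.cnt p b.1.1 := by
        by_contra h5
        have e3 : pm X.c.t p (tuM p b.1) j.1.1 = pm X.c.t p b.1 j.1.1 := by
          rw [pm_tu, if_neg h5]
        have h6 : p ∈ pm X.c.t p (tuM p b.1) j.1.1 := by
          show p ∈ prm X.c.t p (tuM p b.1).1 j.1.1
          rw [← e2]; exact hpB
        rw [e3, hhi] at h6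
        exact absurd (Finset.mem_filter.1 h6).2 (lt_irrefl p)
      refine ⟨hhi, hp.pos, Or.inr ⟨by rw [pm_tu, if_pos e1], hpm, e1⟩, fun σ => ?_⟩
      have hwl := AddNode7.win_len hd1 hn0 (j := j) hq0
      refine ixp_N (n := 0) hp.pos (Nat.pos_of_ne_zero hn.bk.sfB.ne_zero)
        (hs.1.B_eq hQ X.tOk hq) (hN.1.B_eq hQ X.tOk hq0) (hs.1.w_eq hQ X.tOk hq)
        (hN.1.w_eq hQ X.tOk hq0) (a := a) h2 h3 ?_ σ
      have e4 : ((⟨p, s.c * p, s.A, s.B * p⟩ : NS).B : ℝ) = ((s.B * p : ℕ) : ℝ) := rfl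
      rw [e4, Nat.cast_one, div_one, ← mul_sub] at hwl
      exact hwl
  · have hn := hQ _ _ hs.1.rm.all.self
    have hp : p.Prime := prime_of_pl hn.self.node
    obtain ⟨hq, a, -, h2, h3⟩ := ctx_supp hn h1
    have hl : ¬ isL (IT.pl p t₁) := fun h => h
    have hhi := hs.1.hi hQ hl rfl hq
    have hP := H.pl hs
    have hx := hs.1.rm.exA hl rfl
    have hq1 : j.1.1 ∈ t₁.items := hq
    have hn1 := hQ _ _ hP.1.rm.all.self
    have e1 : ex p j.1.1 ≠ TYJ47.cnt p b.1.1 := by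
      have h5 : ex p (s.A * p) ≤ ex p j.1.1 :=
        Crest.Agent.R4P.StratN36.ex_le (hn1.bk.pos _ hq1) (hn1.bk.dvd _ hq1)
      rw [ex_mul hp hn.bk.Apos, hx] at h5
      omega
    have e2 : pm X.c.t p (tuM p b.1) j.1.1 = pm X.c.t p b.1 j.1.1 := by
      rw [pm_tu, if_neg e1]
    refine ⟨hhi, hp.pos, Or.inl ⟨e2, e1⟩, fun σ => ?_⟩
    exact ixp_P (n := 0) hp.pos hn.bk.Apos (hn1.bk.dvd _ hq1) (by rw [e2])
      (hs.1.w_eq hQ X.tOk hq) (hP.1.w_eq hQ X.tOk hq1) σ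

/-- **(TIE)** without event the low type is the type above -/
theorem tie_same {R : Rule X.c} {j : X.c.Lam} {x : ℝ} {m : Me} (h : TieP X p m j x)
    (hM : ¬ ME R p (pm X.c.t p m j.1.1) (pm X.c.t p (tuM p m) j.1.1) m.2 x (p * x) j) :
    R.tp (Skel189.top X.S) p (tuM p m) (p * x) j = R.tp (Skel189.top X.S) p m x j :=
  tie_tp h.ix hM

/-- P pieces and pulls under a rule without dependence on the point: no event -/
lemma ME_P {lb : ℕ → Finset ℕ → ℕ → Option ℚ} {tg : ℕ → Finset ℕ → ℕ → ℕ} {K T : ℕ} {m : Me}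
    {j : X.c.Lam} {x y : ℝ} (h : ex p j.1.1 ≠ TYJ47.cnt p m.1) :
    ¬ ME (RC X.c lb tg K) p (pm X.c.t p m j.1.1) (pm X.c.t p (tuM p m) j.1.1) T x y j := by
  have e : pm X.c.t p (tuM p m) j.1.1 = pm X.c.t p m j.1.1 := by rw [pm_tu, if_neg h]
  rw [e]
  unfold ME
  push Not
  exact ⟨rfl, rfl⟩

/-! ### the game -/

section game
open Crest.Agent.R4P.RXm55 Crest.Agent.R4P.RXm55.RXm Crest.Agent.R4P.DTn407
open Crest.Agent.R4P.RGp25 Crest.Agent.R4P.RGd25 Crest.Agent.R4P.Prc49 Crest.Agent.R4P.RXs343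
open Crest.Agent.R4P.RSys343 Crest.Agent.R4P.GMer27 Crest.Agent.R4P.GCol27 Crest.Agent.R4P.MSi343
open Crest.Agent.R4P.MSm25 Crest.Agent.R4P.RGf25

variable {R : Rule X.c} {spc : ℕ → Me × List (DT X.c.Lam (LbX X)) → Ty (Nix X.c (Skel189.top X.S)) R.K → ℝ → Prop}
  {act : ℕ → Me × List (DT X.c.Lam (LbX X)) → Ty (Nix X.c (Skel189.top X.S)) R.K → ℝ → LbX X}

/-- the typing data of a rule in a context -/
noncomputable abbrev TX (X : Ctx N γ p0 P₀) (R : Rule X.c)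
    (spc : ℕ → Me × List (DT X.c.Lam (LbX X)) → Ty (Nix X.c (Skel189.top X.S)) R.K → ℝ → Prop)
    (act : ℕ → Me × List (DT X.c.Lam (LbX X)) → Ty (Nix X.c (Skel189.top X.S)) R.K → ℝ → LbX X) :
    TD Me X.c.Lam (LbX X) (Ty (Nix X.c (Skel189.top X.S)) R.K) :=
  TDr R (Skel189.top X.S) spc act

/-- no piece is outside the game -/
theorem no_out (Inv : ℕ → Me × List (DT X.c.Lam (LbX X)) → Prop) : NoOut (TX X R spc act) Inv :=
  fun _ _ _ _ _ _ h => absurd h (by simp [TX, TDr, Rule.tp])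

variable {H : TYp (rhoX X) (TX X R spc act) (InvM X Q C)} {hNo : NoOut (TX X R spc act) (InvM X Q C)}
  {U : RBm (rxm H)}

/-- **moved content of the rest: only static events** (relabelling `rU`) -/
theorem rest_ev (hQ : ∀ u τ, Q u τ → NDt X.par (w X.ψ) X.c.t u τ) (h : InvM X Q C p b)
    (hp : p ≠ 0) (hd : X.c.wp.dep (p - 1) ≤ X.c.wp.dep p) {i : X.c.Lam × Bool} {x : ℝ}
    {z : Ty (Nix X.c (Skel189.top X.S)) R.K} (hv : (pmd H hNo U).vN p b i x ≠ 0)
    (hk : (pmd H hNo U).kO p b x i = some z)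
    (hk' : (pmd H hNo U).kN p b x i ≠ some (rU X.c (Nix X.c (Skel189.top X.S)) R.K p z)) :
    i.2 = true ∧ jv (bN p b.2) i.1 x ≠ 0 ∧ SE R p (pm X.c.t p b.1 i.1.1.1) b.1.2 x i.1 := by
  obtain ⟨j, t⟩ := i
  cases t
  · exact absurd rfl hv
  · have hj : jv (bN p b.2) j x ≠ 0 := hv
    refine ⟨rfl, hj, ?_⟩
    by_contra hS
    apply hk'
    have e := rest_same hQ (R := R) h hp hd hj hS
    have e2 : R.tp (Skel189.top X.S) p b.1 x j = some z := hk
    show R.tp (Skel189.top X.S) (p - 1) b.1 x j = _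
    rw [e, e2]
    rfl

/-- **moved content of the ties and pulls: events of the ties, or marks** -/
theorem tie_ev (hQ : ∀ u τ, Q u τ → NDt X.par (w X.ψ) X.c.t u τ) (hd1 : X.c.d1 * Kc X.S ≤ 1)
    (h : InvM X Q C p b) (hp : p ≠ 0) {i : X.c.Lam × Bool} {x : ℝ}
    {z : Ty (Nix X.c (Skel189.top X.S)) R.K} (hv : (pmd H hNo U).vB p b i x ≠ 0)
    (hk : (pmd H hNo U).kO p b x i = some z) (hk' : (pmd H hNo U).kR p b x i ≠ some z) :
    jv (bB p b.2) i.1 x ≠ 0 ∧ TieP X p b.1 i.1 x ∧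
      (ME R p (pm X.c.t p b.1 i.1.1.1) (pm X.c.t p (tuM p b.1) i.1.1.1) b.1.2 x (p * x) i.1 ∨
        (i.2 = true ∧ spc p b z x ∧ rhoX X p i.1 ≠ act p b z (p * x))) := by
  obtain ⟨j, t⟩ := i
  have hp0 : 0 < p := Nat.pos_of_ne_zero hp
  have hj : jv (bB p b.2) j x ≠ 0 := by
    have a1 := vT_nonneg (H.bok h hp) hp0 j x
    have a2 : 0 ≤ TD.pQx p (bB p b.2) j x := ((H.bok h hp).PQ j).nonneg _
    have a3 := vTp_jv (p := p) (bB p b.2) j x
    intro e
    cases t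
    · exact hv (show TD.pQx p (bB p b.2) j x = 0 by linarith)
    · exact hv (show vT p (bB p b.2) j x = 0 by linarith)
  have hT := tie_node hQ hd1 h hj
  refine ⟨hj, hT, ?_⟩
  by_contra hn
  push Not at hn
  obtain ⟨h1, h2⟩ := hn
  apply hk'
  have e1 := tie_same (R := R) hT h1
  have e2 : R.tp (Skel189.top X.S) p b.1 x j = some z := hk
  rw [e2] at e1
  have e3 : (TX X R spc act).lt p b.1 (p * x) j = some z := e1
  cases t
  · exact e3
  · show (TX X R spc act).pt (rhoX X) p b x j = some z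
    unfold TD.pt TD.pm
    rw [e3]
    show some _ = some z
    congr 1
    by_cases h5 : spc p b z x
    · exact if_neg fun h6 => h6.2 (h2 rfl h5)
    · exact if_neg fun h6 => h5 h6.1

end game

end ctx

end Crest.Agent.R4P.RsT47
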