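import Crest.Agent.R4P.StF_6

/-!
R4 (S0004) with powers, C1, helper6: **tags with virtual exponents**.

The tag of a piece with a sparse label, `k` = denominator of the label, at the column `p`:
`vtag Z p M q k = 2 ^ k * ∏ s ^ (vex s M q)` over the primes `Z k < s ≤ p`, where
`vex s M q = ex s q + [s ∈ M]` is the exponent of `s` in `q * Bm M`. It is a function of the modulus and of
the exact centre.

* general: `SEG`, `MEG` : events up to a map `g` of the tags; `rG`, `rT` relabellings; `rest_tpG`,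
  `rest_sameG`, `rest_evG`, `rest_PokG`; `tie_tpG`, `tie_sameG`, `tie_evG`, `tie_PokG`; `sep_rest`, `sep_tie`.
* maps of the tags: `gR p` (rest: the prime `p` leaves), `gT Z p k0` (tie: the N pieces, exponent `k0`, get
  the exponent `k0 + 1`); `vtag_rest`, `vtag_N`, `vtag_P`, `vtag_inj`, `vtag_congr`.
* **`RG lb Z n`** : the rule of a label function; events `TagG` (rest, column `P*`), `DrpG` (tie).
* `lb = gr` : `SEG_gr`, `MEG_gr`; in a context `ctx_SEG`, `ctx_MEG`; rates `rEG`, `rMG`, `rest_RG`,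
  `tie_RG`.
-/

set_option autoImplicit false
set_option linter.unusedSectionVars false
set_option linter.unusedVariables false
open MeasureTheory Filter Set

namespace Crest.Agent.R4P.StG6

open Crest.Agent.R4P.Cnt588 Crest.Agent.R4P.Item758 Crest.Agent.R4P.W363
open Crest.Agent.R4P.Data758
open Crest.Agent.R4P.Bld532 (NS All NodeOk Bk)
open Crest.Agent.R4P.WalkIT579 (tp isL)
open Crest.Agent.R4P.StratN36 (ex)
open Crest.Agent.R4P.Step588 Crest.Agent.R4P.RseSt23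
open Crest.Agent.R4P.DTp26 Crest.Agent.R4P.DTm407
open Crest.Agent.R4P.TYI47 Crest.Agent.R4P.TYJ47 Crest.Agent.R4P.TYK47
open Crest.Agent.R4P.TYP9 Crest.Agent.R4P.RsT47
open Crest.Agent.R4P.StM6 Crest.Agent.R4P.StM246 Crest.Agent.R4P.StE6 Crest.Agent.R4P.StF6
open Crest.Agent.R4P.StB21 (bt TH LvF)

-- product of the C-steps of a stage
variable {Tc : ℕ}

/-! ### events up to a map of the tags -/

section gen
variable {c : Cf} {n p : ℕ} {R : Rule c}

/-- **static event** up to the map `g` of the tags -/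
def SEG (R : Rule c) (g : ℕ → ℕ) (p : ℕ) (M : Finset ℕ) (T : ℕ) (x : ℝ) (j : c.Lam) : Prop :=
  R.lb (p - 1) M x j ≠ R.lb p M x j ∨ R.tg (p - 1) M T x j ≠ g (R.tg p M T x j)

/-- **event of a tie** up to the map `g` of the tags (C-steps `T` above, `T p` below) -/
def MEG (R : Rule c) (g : ℕ → ℕ) (p : ℕ) (M M' : Finset ℕ) (T : ℕ) (x y : ℝ) (j : c.Lam) : Prop :=
  R.lb p M' y j ≠ R.lb p M x j ∨ R.tg p M' (T * p) y j ≠ g (R.tg p M T x j)

/-- relabelling of the rest -/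
noncomputable def rG (c : Cf) (N K p : ℕ) (g : ℕ → ℕ) (z : Ty N K) : Ty N K :=
  ((rU c N K p z).1, clp K (g (z.2.1 : ℕ)), z.2.2)

/-- relabelling of the ties -/
def rT (N K : ℕ) (g : ℕ → ℕ) (z : Ty N K) : Ty N K := (z.1, clp K (g (z.2.1 : ℕ)), z.2.2)

lemma tag_mkT {N K : ℕ} {i : Bool × ℕ} {a : ℕ} (ha : a ≤ K) : ((mkT N K i a).2.1 : ℕ) = a := by
  show min a K = a
  exact min_eq_left ha

lemma rT_mkT {N K : ℕ} {g : ℕ → ℕ} {i : Bool × ℕ} {a : ℕ} (ha : a ≤ K) :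
    rT N K g (mkT N K i a) = mkT N K i (g a) := by
  unfold rT
  rw [tag_mkT ha]
  rfl

lemma rG_mkT (hd : c.wp.dep (p - 1) ≤ c.wp.dep p) (hp : p ≤ n) {K : ℕ} {g : ℕ → ℕ}
    (s : Option ℚ) (M : Finset ℕ) (T : ℕ) (x : ℝ) (j : c.Lam) {a : ℕ} (ha : a ≤ K) :
    mkT (Nix c n) K (ixp c (p - 1) s M T x j) (g a) =
      rG c (Nix c n) K p g (mkT (Nix c n) K (ixp c p s M T x j) a) := by
  have h := rU_mkT hd hp K s M T x j a
  unfold rG
  rw [← h, tag_mkT ha]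
  rfl

variable {g : ℕ → ℕ}

/-- **the type below**, rest -/
theorem rest_tpG (hd : c.wp.dep (p - 1) ≤ c.wp.dep p) (hp : p ≤ n) {m : Me} {x : ℝ}
    {j : c.Lam} (hm : pm c.t (p - 1) m j.1.1 = pm c.t p m j.1.1)
    (hg : R.tg p (pm c.t p m j.1.1) m.2 x j ≤ R.K) (h : ¬ SEG R g p (pm c.t p m j.1.1) m.2 x j) :
    R.tp n (p - 1) m x j = (R.tp n p m x j).map (rG c (Nix c n) R.K p g) := by
  unfold SEG at h
  push Not at h
  obtain ⟨h1, h2⟩ := h
  unfold Rule.tp Rule.it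
  rw [hm, h1, h2]
  show some _ = some _
  congr 1
  exact rG_mkT hd hp _ _ _ _ _ hg

/-- **the type below a tie** -/
theorem tie_tpG {m : Me} {x : ℝ} {j : c.Lam}
    (hix : ∀ s, ixp c p s (pm c.t p (tuM p m) j.1.1) (tuM p m).2 (p * x) j =
      ixp c p s (pm c.t p m j.1.1) m.2 x j)
    (hg : R.tg p (pm c.t p m j.1.1) m.2 x j ≤ R.K)
    (h : ¬ MEG R g p (pm c.t p m j.1.1) (pm c.t p (tuM p m) j.1.1) m.2 x (p * x) j) :
    R.tp n p (tuM p m) (p * x) j = (R.tp n p m x j).map (rT (Nix c n) R.K g) := by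
  unfold MEG at h
  push Not at h
  obtain ⟨h1, h2⟩ := h
  replace h2 : R.tg p (pm c.t p (tuM p m) j.1.1) (tuM p m).2 (p * x) j = _ := h2
  unfold Rule.tp Rule.it
  rw [h1, h2, hix]
  show some _ = some _
  congr 1
  exact (rT_mkT hg).symm

/-- **separated pairs of the rest** : one of the two pieces has a static event -/
theorem sep_rest (hd : c.wp.dep (p - 1) ≤ c.wp.dep p) (hp : p ≤ n) {m m' : Me} {x x' : ℝ}
    {j j' : c.Lam} (hm : pm c.t (p - 1) m j.1.1 = pm c.t p m j.1.1)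
    (hm' : pm c.t (p - 1) m' j'.1.1 = pm c.t p m' j'.1.1)
    (hg : R.tg p (pm c.t p m j.1.1) m.2 x j ≤ R.K) (hg' : R.tg p (pm c.t p m' j'.1.1) m'.2 x' j' ≤ R.K)
    (h : R.tp n p m x j = R.tp n p m' x' j') (h' : R.tp n (p - 1) m x j ≠ R.tp n (p - 1) m' x' j') :
    SEG R g p (pm c.t p m j.1.1) m.2 x j ∨ SEG R g p (pm c.t p m' j'.1.1) m'.2 x' j' := by
  by_contra hc
  push Not at hc
  exact h' (by rw [rest_tpG hd hp hm hg hc.1, rest_tpG hd hp hm' hg' hc.2, h])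

/-- **separated pairs of the ties** : one of the two pieces has an event of the tie -/
theorem sep_tie {m m' : Me} {x x' : ℝ} {j j' : c.Lam}
    (hix : ∀ s, ixp c p s (pm c.t p (tuM p m) j.1.1) (tuM p m).2 (p * x) j =
      ixp c p s (pm c.t p m j.1.1) m.2 x j)
    (hix' : ∀ s, ixp c p s (pm c.t p (tuM p m') j'.1.1) (tuM p m').2 (p * x') j' =
      ixp c p s (pm c.t p m' j'.1.1) m'.2 x' j')
    (hg : R.tg p (pm c.t p m j.1.1) m.2 x j ≤ R.K) (hg' : R.tg p (pm c.t p m' j'.1.1) m'.2 x' j' ≤ R.K)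
    (h : R.tp n p m x j = R.tp n p m' x' j')
    (h' : R.tp n p (tuM p m) (p * x) j ≠ R.tp n p (tuM p m') (p * x') j') :
    MEG R g p (pm c.t p m j.1.1) (pm c.t p (tuM p m) j.1.1) m.2 x (p * x) j ∨
      MEG R g p (pm c.t p m' j'.1.1) (pm c.t p (tuM p m') j'.1.1) m'.2 x' (p * x') j' := by
  by_contra hc
  push Not at hc
  exact h' (by rw [tie_tpG hix hg hc.1, tie_tpG hix' hg' hc.2, h])

end gen

/-! ### contexts -/

section ctx
open Crest.Agent.R4P.Skel189 Crest.Agent.R4P.Frame758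
open Crest.Agent.R4.Soft104 Crest.Agent.R4.Fam464
open Crest.Agent.R4P.StratX36 Crest.Agent.R4P.TopX36
open Crest.Agent.R4P.GWa343 Crest.Agent.R4P.GWb343 Crest.Agent.R4P.GWc343 Crest.Agent.R4P.GWf343
open Crest.Agent.R4P.GWg343 (FX ctx_BI)
open Crest.Agent.R4P.TrR343
open Crest.Agent.R4P.Walk560 (DT WrN)

variable {N : Skel189.Num} {γ : ℝ} {p0 P₀ : ℕ} {X : Ctx N γ p0 P₀} {Q : NS → IT → Prop}
  {C : ℝ} {p : ℕ} {b : Me × List (DT X.c.Lam (LbX X))} {g : ℕ → ℕ}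

/-- **(REST)** without static event the type at `p - 1` is the image of the type at `p` -/
theorem rest_sameG (hQ : ∀ u τ, Q u τ → NDt X.par (w X.ψ) X.c.t u τ) {R : Rule X.c}
    (h : InvM X Q C p b) (hp : p ≠ 0) (hd : X.c.wp.dep (p - 1) ≤ X.c.wp.dep p) {j : X.c.Lam}
    {x : ℝ} (hj : jv (bN p b.2) j x ≠ 0) (hg : ∀ M T, R.tg p M T x j ≤ R.K)
    (hS : ¬ SEG R g p (pm X.c.t p b.1 j.1.1) b.1.2 x j) :
    R.tp (Skel189.top X.S) (p - 1) b.1 x j =
      (R.tp (Skel189.top X.S) p b.1 x j).map (rG X.c (Nix X.c (Skel189.top X.S)) R.K p g) := by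
  obtain ⟨h1, h2⟩ := rest_pmX hQ h hp hj
  exact rest_tpG hd h2 h1 (hg _ _) hS

/-- a tie with content is a column of the tree -/
theorem tie_le (hQ : ∀ u τ, Q u τ → NDt X.par (w X.ψ) X.c.t u τ) (h : InvM X Q C p b)
    {j : X.c.Lam} {x : ℝ} (hj : jv (bB p b.2) j x ≠ 0) : p ≤ Skel189.top X.S := by
  rcases jv_bB_node (carX (X := X) hQ) h.mi hj with ⟨s, Sp, t₁, t₀, hs, h1⟩ | ⟨s, t₁, hs, h1⟩
  · exact hs.2
  · exact hs.2

/-- **(TIE)** without event the low type is the image of the type above -/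
theorem tie_sameG {R : Rule X.c} {j : X.c.Lam} {x : ℝ} {m : Me} (h : TieP X p m j x)
    (hg : ∀ M T, R.tg p M T x j ≤ R.K)
    (hM : ¬ MEG R g p (pm X.c.t p m j.1.1) (pm X.c.t p (tuM p m) j.1.1) m.2 x (p * x) j) :
    R.tp (Skel189.top X.S) p (tuM p m) (p * x) j =
      (R.tp (Skel189.top X.S) p m x j).map (rT (Nix X.c (Skel189.top X.S)) R.K g) :=
  tie_tpG h.ix (hg _ _) hM

section game
open Crest.Agent.R4P.RXm55 Crest.Agent.R4P.RXm55.RXm Crest.Agent.R4P.DTn407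
open Crest.Agent.R4P.RGp25 Crest.Agent.R4P.RGd25 Crest.Agent.R4P.Prc49 Crest.Agent.R4P.RXs343
open Crest.Agent.R4P.RSys343 Crest.Agent.R4P.GMer27 Crest.Agent.R4P.GCol27 Crest.Agent.R4P.MSi343
open Crest.Agent.R4P.MSm25 Crest.Agent.R4P.RGf25

variable {R : Rule X.c} {spc : ℕ → Me × List (DT X.c.Lam (LbX X)) →
    Ty (Nix X.c (Skel189.top X.S)) R.K → ℝ → Prop}
  {act : ℕ → Me × List (DT X.c.Lam (LbX X)) → Ty (Nix X.c (Skel189.top X.S)) R.K → ℝ → LbX X}
  {H : TYp (rhoX X) (TX X R spc act) (InvM X Q C)} {hNo : NoOut (TX X R spc act) (InvM X Q C)}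
  {U : RBm (rxm H)}

/-- **moved content of the rest: only static events** -/
theorem rest_evG (hQ : ∀ u τ, Q u τ → NDt X.par (w X.ψ) X.c.t u τ) (h : InvM X Q C p b)
    (hp : p ≠ 0) (hd : X.c.wp.dep (p - 1) ≤ X.c.wp.dep p)
    (hg : p ≤ Skel189.top X.S → ∀ M T x j, R.tg p M T x j ≤ R.K) {i : X.c.Lam × Bool} {x : ℝ}
    {z : Ty (Nix X.c (Skel189.top X.S)) R.K} (hv : (pmd H hNo U).vN p b i x ≠ 0)
    (hk : (pmd H hNo U).kO p b x i = some z)
    (hk' : (pmd H hNo U).kN p b x i ≠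
      some (rG X.c (Nix X.c (Skel189.top X.S)) R.K p g z)) :
    i.2 = true ∧ jv (bN p b.2) i.1 x ≠ 0 ∧ SEG R g p (pm X.c.t p b.1 i.1.1.1) b.1.2 x i.1 := by
  obtain ⟨j, t⟩ := i
  cases t
  · exact absurd rfl hv
  · have hj : jv (bN p b.2) j x ≠ 0 := hv
    refine ⟨rfl, hj, ?_⟩
    by_contra hS
    apply hk'
    have e := rest_sameG hQ (R := R) h hp hd hj
      (fun M T => hg (rest_pmX hQ h hp hj).2 M T x j) hS
    have e2 : R.tp (Skel189.top X.S) p b.1 x j = some z := hk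
    show R.tp (Skel189.top X.S) (p - 1) b.1 x j = _
    rw [e, e2]
    rfl

/-- a piece of the ties has content in the ties -/
theorem jv_of_vB (h : InvM X Q C p b) (hp : p ≠ 0) {i : X.c.Lam × Bool} {x : ℝ}
    (hv : (pmd H hNo U).vB p b i x ≠ 0) : jv (bB p b.2) i.1 x ≠ 0 := by
  obtain ⟨j, t⟩ := i
  have hp0 : 0 < p := Nat.pos_of_ne_zero hp
  have a1 := vT_nonneg (H.bok h hp) hp0 j x
  have a2 : 0 ≤ TD.pQx p (bB p b.2) j x := ((H.bok h hp).PQ j).nonneg _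
  have a3 := vTp_jv (p := p) (bB p b.2) j x
  intro e
  have e' : jv (bB p b.2) j x = 0 := e
  cases t
  · exact hv (show TD.pQx p (bB p b.2) j x = 0 by linarith)
  · exact hv (show vT p (bB p b.2) j x = 0 by linarith)

/-- **moved content of the ties and pulls: events of the ties, or marks** -/
theorem tie_evG (hQ : ∀ u τ, Q u τ → NDt X.par (w X.ψ) X.c.t u τ) (hd1 : X.c.d1 * Kc X.S ≤ 1)
    (h : InvM X Q C p b) (hp : p ≠ 0)
    (hg : p ≤ Skel189.top X.S → ∀ M T x j, R.tg p M T x j ≤ R.K)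
    {i : X.c.Lam × Bool} {x : ℝ}
    {z : Ty (Nix X.c (Skel189.top X.S)) R.K} (hv : (pmd H hNo U).vB p b i x ≠ 0)
    (hk : (pmd H hNo U).kO p b x i = some z)
    (hk' : (pmd H hNo U).kR p b x i ≠ some (rT (Nix X.c (Skel189.top X.S)) R.K g z)) :
    jv (bB p b.2) i.1 x ≠ 0 ∧ TieP X p b.1 i.1 x ∧
      (MEG R g p (pm X.c.t p b.1 i.1.1.1) (pm X.c.t p (tuM p b.1) i.1.1.1) b.1.2 x (p * x) i.1 ∨
        (i.2 = true ∧ spc p b (rT (Nix X.c (Skel189.top X.S)) R.K g z) x ∧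
          rhoX X p i.1 ≠ act p b (rT (Nix X.c (Skel189.top X.S)) R.K g z) (p * x))) := by
  have hj := jv_of_vB h hp hv
  obtain ⟨j, t⟩ := i
  have hj' : jv (bB p b.2) j x ≠ 0 := hj
  have hT := tie_node hQ hd1 h hj'
  refine ⟨hj', hT, ?_⟩
  by_contra hn
  push Not at hn
  obtain ⟨h1, h2⟩ := hn
  apply hk'
  have e1 := tie_sameG (R := R) hT (fun M T => hg (tie_le hQ h hj') M T x j) h1
  have e2 : R.tp (Skel189.top X.S) p b.1 x j = some z := hk
  rw [e2] at e1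
  have e3 : (TX X R spc act).lt p b.1 (p * x) j =
      some (rT (Nix X.c (Skel189.top X.S)) R.K g z) := e1
  cases t
  · exact e3
  · show (TX X R spc act).pt (rhoX X) p b x j = _
    unfold TD.pt TD.pm
    rw [e3]
    show some _ = some _
    congr 1
    by_cases h5 : spc p b (rT (Nix X.c (Skel189.top X.S)) R.K g z) x
    · exact if_neg fun h6 => h6.2 (h2 rfl h5)
    · exact if_neg fun h6 => h5 h6.1

end game

end ctx

/-! ### the tags -/

section tag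
variable {Z : ℕ → ℝ} {p q k : ℕ} {M : Finset ℕ}

/-- **virtual exponent** : the exponent of `s` in `q * Bm M` -/
noncomputable def vex (s : ℕ) (M : Finset ℕ) (q : ℕ) : ℕ := by
  classical
  exact ex s q + if s ∈ M then 1 else 0

open Classical in
/-- **the tag** -/
noncomputable def vtag (Z : ℕ → ℝ) (p : ℕ) (M : Finset ℕ) (q k : ℕ) : ℕ :=
  2 ^ k * ∏ s ∈ (Finset.range (p + 1)).filter (fun s : ℕ => s.Prime ∧ Z k < (s : ℝ)),
    s ^ vex s M q

/-- rest: the prime `p` leaves the tag -/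
noncomputable def gR (p m : ℕ) : ℕ := if 2 < p then ordCompl[p] m else m

open Classical in
/-- tie number `k0`: the tags with the exponent `k0` get the exponent `k0 + 1` -/
noncomputable def gT (Z : ℕ → ℝ) (p k0 m : ℕ) : ℕ :=
  if m.factorization 2 ≠ 0 ∧ p.Prime ∧ Z (m.factorization 2) < (p : ℝ) ∧ m.factorization p = k0
  then m * p else m

lemma gR_one : gR p 1 = 1 := by
  unfold gR
  split_ifs <;> simp

lemma gT_one {k0 : ℕ} : gT Z p k0 1 = 1 := by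
  unfold gT
  rw [if_neg (by simp)]

lemma vtag_ne : vtag Z p M q k ≠ 0 := by
  classical
  unfold vtag
  refine mul_ne_zero (pow_ne_zero _ two_ne_zero) (Finset.prod_ne_zero_iff.2 fun s hs => ?_)
  exact pow_ne_zero _ (Finset.mem_filter.1 hs).2.1.ne_zero

/-- exponents of the tag -/
lemma vtag_fac (h2 : 2 ≤ Z k) (l : ℕ) : (vtag Z p M q k).factorization l =
    (if l = 2 then k else 0) + if l.Prime ∧ l ≤ p ∧ Z k < (l : ℝ) then vex l M q else 0 := by
  classical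
  unfold vtag
  have h0 : (∏ s ∈ (Finset.range (p + 1)).filter (fun s : ℕ => s.Prime ∧ Z k < (s : ℝ)),
      s ^ vex s M q) ≠ 0 := Finset.prod_ne_zero_iff.2 fun s hs =>
    pow_ne_zero _ (Finset.mem_filter.1 hs).2.1.ne_zero
  rw [Nat.factorization_mul (pow_ne_zero _ two_ne_zero) h0, Finsupp.add_apply]
  congr 1
  · rw [Nat.Prime.factorization_pow Nat.prime_two]
    by_cases h : l = 2
    · simp [h]
    · rw [if_neg h, Finsupp.single_apply, if_neg (fun e => h e.symm)]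
  · rw [Nat.factorization_prod fun s hs => pow_ne_zero _ (Finset.mem_filter.1 hs).2.1.ne_zero]
    rw [Finset.sum_apply']
    by_cases h : l.Prime ∧ l ≤ p ∧ Z k < (l : ℝ)
    · rw [if_pos h, Finset.sum_eq_single l]
      · rw [Nat.Prime.factorization_pow h.1]; simp
      · intro s hs hsl
        obtain ⟨-, h3, -⟩ := Finset.mem_filter.1 hs
        rw [Nat.Prime.factorization_pow h3]
        simp [hsl]
      · intro hh
        exact absurd (Finset.mem_filter.2 ⟨Finset.mem_range.2 (Nat.lt_succ_of_le h.2.1), h.1,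
          h.2.2⟩) hh
    · rw [if_neg h]
      refine Finset.sum_eq_zero fun s hs => ?_
      obtain ⟨h1, h3, h4⟩ := Finset.mem_filter.1 hs
      rw [Nat.Prime.factorization_pow h3, Finsupp.single_apply, if_neg]
      rintro rfl
      exact h ⟨h3, Nat.lt_succ_iff.1 (Finset.mem_range.1 h1), h4⟩

lemma vtag_fac_two (h2 : 2 ≤ Z k) : (vtag Z p M q k).factorization 2 = k := by
  rw [vtag_fac h2, if_pos rfl, if_neg, add_zero]
  rintro ⟨-, -, h⟩
  exact absurd h2 (not_le.2 (by exact_mod_cast h))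

lemma vtag_fac_ne {l : ℕ} (h2 : 2 ≤ Z k) (hl : l ≠ 2) : (vtag Z p M q k).factorization l =
    if l.Prime ∧ l ≤ p ∧ Z k < (l : ℝ) then vex l M q else 0 := by
  rw [vtag_fac h2, if_neg hl, zero_add]

/-- **equal tags: equal denominators, equal virtual exponents above the width** -/
theorem vtag_inj {k' q' : ℕ} {M' : Finset ℕ} (h2 : ∀ k, 2 ≤ Z k)
    (h : vtag Z p M q k = vtag Z p M' q' k') :
    k = k' ∧ ∀ s : ℕ, s.Prime → s ≤ p → Z k < (s : ℝ) → vex s M q = vex s M' q' := by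
  have e1 : k = k' := by
    rw [← vtag_fac_two (Z := Z) (p := p) (M := M) (q := q) (h2 k), h, vtag_fac_two (h2 k')]
  subst e1
  refine ⟨rfl, fun s hs hp hz => ?_⟩
  have h3 : s ≠ 2 := by
    rintro rfl
    exact absurd (h2 k) (not_le.2 (by exact_mod_cast hz))
  have e3 := vtag_fac_ne (Z := Z) (p := p) (M := M) (q := q) (h2 k) h3
  have e4 := vtag_fac_ne (Z := Z) (p := p) (M := M') (q := q') (h2 k) h3
  rw [if_pos ⟨hs, hp, hz⟩] at e3 e4
  rw [← e3, ← e4, h]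

/-- **equal virtual exponents above the width: equal tags** -/
theorem vtag_congr {q' : ℕ} {M' : Finset ℕ}
    (h : ∀ s : ℕ, s.Prime → s ≤ p → Z k < (s : ℝ) → vex s M q = vex s M' q') :
    vtag Z p M q k = vtag Z p M' q' k := by
  classical
  unfold vtag
  congr 1
  refine Finset.prod_congr rfl fun s hs => ?_
  obtain ⟨h1, h3, h4⟩ := Finset.mem_filter.1 hs
  rw [h s h3 (Nat.lt_succ_iff.1 (Finset.mem_range.1 h1)) h4]

lemma vtag_ne_one (h2 : 2 ≤ Z k) (hk : k ≠ 0) : vtag Z p M q k ≠ 1 := by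
  intro h
  have e := vtag_fac_two (Z := Z) (p := p) (M := M) (q := q) h2
  rw [h] at e
  simp at e
  exact hk e.symm

/-- the virtual exponent is the exponent of `q * Bm M` -/
lemma vex_eq {s : ℕ} (hs : s.Prime) (hq : 0 < q) (hM : ∀ l ∈ M, l.Prime) :
    vex s M q = (q * Bm M).factorization s := by
  classical
  have hB : Bm M ≠ 0 := Finset.prod_ne_zero_iff.2 fun l hl => (hM l hl).ne_zero
  rw [Nat.factorization_mul hq.ne' hB, Finsupp.add_apply]
  unfold vex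
  congr 1
  unfold Bm
  rw [Nat.factorization_prod fun l hl => (hM l hl).ne_zero, Finset.sum_apply']
  by_cases h : s ∈ M
  · rw [if_pos h, Finset.sum_eq_single s]
    · rw [Nat.Prime.factorization (hM s h)]; simp
    · intro l hl hls
      rw [Nat.Prime.factorization (hM l hl)]
      simp [hls]
    · intro hh; exact absurd h hh
  · rw [if_neg h]
    refine (Finset.sum_eq_zero fun l hl => ?_).symm
    rw [Nat.Prime.factorization (hM l hl), Finsupp.single_apply, if_neg]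
    rintro rfl
    exact h hl

/-- **the tag is a function of the modulus**: items with `q * Bm M = q' * Bm M'` -/
theorem vtag_mul {q' : ℕ} {M' : Finset ℕ} (hq : 0 < q) (hq' : 0 < q') (hM : ∀ l ∈ M, l.Prime)
    (hM' : ∀ l ∈ M', l.Prime) (h : q * Bm M = q' * Bm M') :
    vtag Z p M q k = vtag Z p M' q' k :=
  vtag_congr fun s hs _ _ => by rw [vex_eq hs hq hM, vex_eq hs hq' hM', h]

/-- **rest** -/
theorem vtag_rest (h2 : ∀ k, 2 ≤ Z k) (hp : 0 < p) :
    vtag Z (p - 1) M q k = gR p (vtag Z p M q k) := by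
  classical
  unfold gR
  split_ifs with h
  · refine Nat.eq_of_factorization_eq vtag_ne (Nat.ordCompl_pos _ vtag_ne).ne' fun l => ?_
    by_cases hpp : p.Prime
    · rw [Nat.factorization_ordCompl, vtag_fac (h2 k)]
      by_cases hl : l = p
      · subst hl
        rw [Finsupp.erase_same, if_neg (by omega), if_neg (by omega), add_zero]
      · rw [Finsupp.erase_ne hl, vtag_fac (h2 k)]
        congr 1
        refine if_congr ?_ rfl rfl
        constructor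
        · rintro ⟨a1, a2, a3⟩
          exact ⟨a1, by omega, a3⟩
        · rintro ⟨a1, a2, a3⟩
          exact ⟨a1, by omega, a3⟩
    · rw [Nat.ordCompl_of_not_prime _ _ hpp, vtag_fac (h2 k), vtag_fac (h2 k)]
      congr 1
      refine if_congr ?_ rfl rfl
      constructor
      · rintro ⟨a1, a2, a3⟩
        exact ⟨a1, by omega, a3⟩
      · rintro ⟨a1, a2, a3⟩
        refine ⟨a1, ?_, a3⟩
        have : l ≠ p := fun e => hpp (e ▸ a1)
        omega
  · refine Nat.eq_of_factorization_eq vtag_ne vtag_ne fun l => ?_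
    rw [vtag_fac (h2 k), vtag_fac (h2 k)]
    congr 1
    have key : ∀ l : ℕ, Z k < (l : ℝ) → 2 < l := fun l hl => by
      have := (h2 k).trans_lt hl
      exact_mod_cast this
    rw [if_neg (fun hh => by have := key l hh.2.2; omega),
      if_neg (fun hh => by have := key l hh.2.2; omega)]

/-- **tie, N pieces** -/
theorem vtag_N {k0 : ℕ} {M' : Finset ℕ} (h2 : ∀ k, 2 ≤ Z k) (hk : k ≠ 0) (hp : p.Prime)
    (h1 : p ∈ M') (h0 : p ∉ M) (hs : ∀ s, s ≠ p → (s ∈ M' ↔ s ∈ M)) (hx : ex p q = k0) :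
    vtag Z p M' q k = gT Z p k0 (vtag Z p M q k) := by
  classical
  have hv : ∀ s, s ≠ p → vex s M' q = vex s M q := fun s hsp => by
    unfold vex
    rw [if_congr (hs s hsp) rfl rfl]
  have e2 := vtag_fac_two (Z := Z) (p := p) (M := M) (q := q) (h2 k)
  unfold gT
  rw [e2]
  by_cases hz : Z k < (p : ℝ)
  · have hp2 : p ≠ 2 := by
      rintro rfl
      exact absurd (h2 k) (not_le.2 (by exact_mod_cast hz))
    have v0 : vex p M q = k0 := by
      unfold vex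
      rw [if_neg h0, hx, add_zero]
    have v1 : vex p M' q = k0 + 1 := by
      unfold vex
      rw [if_pos h1, hx]
    have e3 := vtag_fac_ne (Z := Z) (p := p) (M := M) (q := q) (h2 k) hp2
    rw [if_pos ⟨hp, le_rfl, hz⟩, v0] at e3
    rw [if_pos ⟨hk, hp, hz, e3⟩]
    refine Nat.eq_of_factorization_eq vtag_ne (mul_ne_zero vtag_ne hp.ne_zero) fun l => ?_
    rw [Nat.factorization_mul vtag_ne hp.ne_zero, Finsupp.add_apply, vtag_fac (h2 k),
      vtag_fac (h2 k), Nat.Prime.factorization hp, add_assoc]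
    congr 1
    by_cases hl : l = p
    · subst hl
      rw [if_pos ⟨hp, le_rfl, hz⟩, if_pos ⟨hp, le_rfl, hz⟩, v0, v1]
      simp
    · have e5 : (Finsupp.single p 1 : ℕ →₀ ℕ) l = 0 := by
        rw [Finsupp.single_apply, if_neg (fun e : p = l => hl e.symm)]
      rw [hv l hl, e5, add_zero]
  · rw [if_neg (fun hh => hz hh.2.2.1)]
    refine vtag_congr fun s _ _ h4 => hv s ?_
    rintro rfl
    exact hz h4

/-- **tie, P pieces and pulls** -/
theorem vtag_P {k0 : ℕ} (h2 : ∀ k, 2 ≤ Z k) (h0 : p ∉ M) (hx : ex p q ≠ k0) :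
    gT Z p k0 (vtag Z p M q k) = vtag Z p M q k := by
  classical
  unfold gT
  rw [vtag_fac_two (h2 k)]
  refine if_neg ?_
  rintro ⟨-, a1, a2, a3⟩
  have hp2 : p ≠ 2 := by
    rintro rfl
    exact absurd (h2 k) (not_le.2 (by exact_mod_cast a2))
  rw [vtag_fac_ne (h2 k) hp2, if_pos ⟨a1, le_rfl, a2⟩] at a3
  unfold vex at a3
  rw [if_neg h0, add_zero] at a3
  exact hx a3

end tag

/-! ### the rule -/

section rule
variable {c : Cf} {n p q : ℕ} {Z : ℕ → ℝ} {G : ℕ → ℕ → Prop} {M M' : Finset ℕ}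
  {lb : ℕ → Finset ℕ → ℕ → Option ℚ}

/-- the label `κ` has a tag: sparse, and the guard `G` holds (`k` = denominator) -/
def Tgd (c : Cf) (G : ℕ → ℕ → Prop) (p : ℕ) (M : Finset ℕ) (q : ℕ) (κ : ℚ) : Prop :=
  ¬ dense (c.wp.thr p) (Bm M) κ ∧ G (((Bm M : ℕ) : ℚ) * κ).den q

open Classical in
/-- tag of an item with the label `s` : it has a tag iff the label is sparse and the guard holds -/
noncomputable def tagV (c : Cf) (Z : ℕ → ℝ) (G : ℕ → ℕ → Prop) (p : ℕ) (s : Option ℚ)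
    (M : Finset ℕ) (q : ℕ) : ℕ :=
  if h : ∃ κ : ℚ, s = some κ ∧ Tgd c G p M q κ then
    vtag Z p M q (((Bm M : ℕ) : ℚ) * h.choose).den
  else 1

lemma tagV_yes {κ : ℚ} (hd : Tgd c G p M q κ) :
    tagV c Z G p (some κ) M q = vtag Z p M q (((Bm M : ℕ) : ℚ) * κ).den := by
  have hex : ∃ κ' : ℚ, some κ = some κ' ∧ Tgd c G p M q κ' := ⟨κ, rfl, hd⟩
  unfold tagV
  rw [dif_pos hex]
  have e : hex.choose = κ := Option.some.inj hex.choose_spec.1.symm
  rw [e]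

lemma tagV_no {κ : ℚ} (hd : ¬ Tgd c G p M q κ) : tagV c Z G p (some κ) M q = 1 := by
  unfold tagV
  rw [dif_neg]
  rintro ⟨κ', h1, h2⟩
  rw [← Option.some.inj h1] at h2
  exact hd h2

lemma tagV_none : tagV c Z G p none M q = 1 := by
  unfold tagV
  rw [dif_neg]
  rintro ⟨κ', h1, h2⟩
  exact absurd h1 (by simp)

lemma tagV_some_dense {κ : ℚ} (h : dense (c.wp.thr p) (Bm M) κ) :
    tagV c Z G p (some κ) M q = 1 := tagV_no fun h' => h'.1 h

/-- the tag is not `1` iff the label has a tag -/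
lemma tagV_one (h2 : ∀ k, 2 ≤ Z k) {κ : ℚ} :
    tagV c Z G p (some κ) M q = 1 ↔ ¬ Tgd c G p M q κ := by
  constructor
  · intro h hd
    rw [tagV_yes hd] at h
    exact vtag_ne_one (h2 _) (Rat.den_nz _) h
  · exact tagV_no

/-- **equal tags**: equal denominators and equal virtual exponents -/
theorem tagV_inj (h2 : ∀ k, 2 ≤ Z k) {κ κ' : ℚ} {q' : ℕ} (hd : Tgd c G p M q κ)
    (h : tagV c Z G p (some κ) M q = tagV c Z G p (some κ') M' q') :
    (((Bm M : ℕ) : ℚ) * κ).den = (((Bm M' : ℕ) : ℚ) * κ').den ∧ Tgd c G p M' q' κ' ∧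
      ∀ l : ℕ, l.Prime → l ≤ p → Z (((Bm M : ℕ) : ℚ) * κ).den < (l : ℝ) →
        vex l M q = vex l M' q' := by
  by_cases hd' : Tgd c G p M' q' κ'
  · rw [tagV_yes hd, tagV_yes hd'] at h
    obtain ⟨h3, h4⟩ := vtag_inj h2 h
    exact ⟨h3, hd', h4⟩
  · rw [tagV_no hd', tagV_yes hd] at h
    exact absurd h (vtag_ne_one (h2 _) (Rat.den_nz _))

/-- **the tag is a function of the modulus and of the exact centre** : `q * Bm M = q' * Bm M'` and
`Bm M * κ`, `Bm M' * κ'` have the same denominator -/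
theorem tagV_fun {κ κ' : ℚ} {q' : ℕ} (hq : 0 < q) (hq' : 0 < q') (hM : ∀ l ∈ M, l.Prime)
    (hM' : ∀ l ∈ M', l.Prime) (h : q * Bm M = q' * Bm M')
    (hk : (((Bm M : ℕ) : ℚ) * κ).den = (((Bm M' : ℕ) : ℚ) * κ').den)
    (hG : G (((Bm M : ℕ) : ℚ) * κ).den q ↔ G (((Bm M : ℕ) : ℚ) * κ).den q') :
    tagV c Z G p (some κ) M q = tagV c Z G p (some κ') M' q' := by
  have hds : dense (c.wp.thr p) (Bm M) κ ↔ dense (c.wp.thr p) (Bm M') κ' := by
    unfold dense d5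
    rw [hk]
  have ht : Tgd c G p M q κ ↔ Tgd c G p M' q' κ' := by
    unfold Tgd
    rw [← hk, ← hG, hds]
  by_cases hd : Tgd c G p M q κ
  · rw [tagV_yes hd, tagV_yes (ht.1 hd), hk]
    exact vtag_mul hq hq' hM hM' h
  · rw [tagV_no hd, tagV_no (fun h' => hd (ht.2 h'))]

variable (lb) in
/-- tag of the rule -/
noncomputable def tgG (c : Cf) (Z : ℕ → ℝ) (G : ℕ → ℕ → Prop) (p : ℕ) (M : Finset ℕ) (q : ℕ) : ℕ :=
  tagV c Z G p (lb p (M ∩ c.t.mt q) q) (M ∩ c.t.mt q) q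

lemma tgG_sub (h : M ⊆ c.t.mt q) : tgG lb c Z G p M q = tagV c Z G p (lb p M q) M q := by
  unfold tgG
  rw [Finset.inter_eq_left.2 h]

variable (lb) in
/-- a bound of the tags -/
noncomputable def KG (c : Cf) (Z : ℕ → ℝ) (G : ℕ → ℕ → Prop) (n : ℕ) : ℕ :=
  c.S.sup fun q => (c.t.mt q).powerset.sup fun M => (Finset.range (n + 1)).sup fun p =>
    tagV c Z G p (lb p M q) M q

lemma tgG_le (hq : q ∈ c.S) (hp : p ≤ n) : tgG lb c Z G p M q ≤ KG lb c Z G n := by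
  unfold tgG KG
  have h1 : M ∩ c.t.mt q ∈ (c.t.mt q).powerset := Finset.mem_powerset.2 Finset.inter_subset_right
  have h2 : p ∈ Finset.range (n + 1) := Finset.mem_range.2 (Nat.lt_succ_of_le hp)
  refine le_trans ?_ (Finset.le_sup (f := fun q => (c.t.mt q).powerset.sup fun M =>
    (Finset.range (n + 1)).sup fun p => tagV c Z G p (lb p M q) M q) hq)
  refine le_trans ?_ (Finset.le_sup (f := fun M => (Finset.range (n + 1)).sup fun p =>
    tagV c Z G p (lb p M q) M q) h1)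
  exact Finset.le_sup (f := fun p => tagV c Z G p (lb p (M ∩ c.t.mt q) q) (M ∩ c.t.mt q) q) h2

variable (c lb) in
/-- **the rule of a label function `lb`**: tag (virtual exponents) iff the label is sparse and the guard
`G` (denominator, item) holds -/
noncomputable def RG (Z : ℕ → ℝ) (G : ℕ → ℕ → Prop) (n : ℕ) : Rule c :=
  RC c lb (tgG lb c Z G) (KG lb c Z G n)

lemma RG_le (hp : p ≤ n) (M : Finset ℕ) (T : ℕ) (x : ℝ) (j : c.Lam) :
    (RG c lb Z G n).tg p M T x j ≤ (RG c lb Z G n).K := tgG_le (Cf.mem_S j) hp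

/-- **`P*` of the label function** : the label stays, dense at `p`, sparse at `p - 1`, with tag -/
structure PstG (c : Cf) (lb : ℕ → Finset ℕ → ℕ → Option ℚ) (G : ℕ → ℕ → Prop) (p : ℕ)
    (M : Finset ℕ) (q : ℕ) (κ : ℚ) : Prop where
  up : lb p M q = some κ
  down : lb (p - 1) M q = some κ
  dns : dense (c.wp.thr p) (Bm M) κ
  sps : ¬ dense (c.wp.thr (p - 1)) (Bm M) κ
  gd : G (((Bm M : ℕ) : ℚ) * κ).den q

/-- **den drop of the label function at an own missing tie** -/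
structure DrpG (c : Cf) (lb : ℕ → Finset ℕ → ℕ → Option ℚ) (p : ℕ) (M M' : Finset ℕ) (q : ℕ)
    (κ : ℚ) : Prop where
  up : lb p M q = some κ
  down : lb p M' q = some κ
  den : (((Bm M : ℕ) : ℚ) * κ).den = p * (((Bm M' : ℕ) : ℚ) * κ).den
  sps : ¬ dense (c.wp.thr p) (Bm M) κ ∨ ¬ dense (c.wp.thr p) (Bm M') κ

/-- **the static events of the rule**: the label changes, or it stays and passes from dense to sparse
(`P*`) -/
theorem SEG_RG (h2 : ∀ k, 2 ≤ Z k) (hp : 0 < p) (hthr : c.wp.thr p ≤ c.wp.thr (p - 1)) {x : ℝ}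
    {j : c.Lam} (hM : M ⊆ c.t.mt j.1.1) (h : SEG (RG c lb Z G n) (gR p) p M Tc x j) :
    lb (p - 1) M j.1.1 ≠ lb p M j.1.1 ∨
      (lb (p - 1) M j.1.1 = lb p M j.1.1 ∧ ∃ κ, PstG c lb G p M j.1.1 κ) := by
  have h' : lb (p - 1) M j.1.1 ≠ lb p M j.1.1 ∨
    tgG lb c Z G (p - 1) M j.1.1 ≠ gR p (tgG lb c Z G p M j.1.1) := h
  rw [tgG_sub hM, tgG_sub hM] at h'
  by_cases h1 : lb (p - 1) M j.1.1 = lb p M j.1.1
  · rcases h' with h' | h'
    · exact absurd h1 h'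
    · right
      refine ⟨h1, ?_⟩
      rw [h1] at h'
      rcases Option.eq_none_or_eq_some (lb p M j.1.1) with hg | ⟨κ, hg⟩
      · rw [hg, tagV_none, tagV_none, gR_one] at h'
        exact absurd rfl h'
      · rw [hg] at h'
        by_cases hd : Tgd c G p M j.1.1 κ
        · have hd' : Tgd c G (p - 1) M j.1.1 κ := ⟨fun h'' => hd.1 (dense_anti h'' hthr), hd.2⟩
          rw [tagV_yes hd, tagV_yes hd', vtag_rest h2 hp] at h'
          exact absurd rfl h'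
        · by_cases hd' : Tgd c G (p - 1) M j.1.1 κ
          · refine ⟨κ, hg, by rw [h1, hg], ?_, hd'.1, hd'.2⟩
            by_contra h''
            exact hd ⟨h'', hd'.2⟩
          · rw [tagV_no hd, tagV_no hd', gR_one] at h'
            exact absurd rfl h'
  · exact Or.inl h1

/-- **the events of a tie, N pieces**: the label changes, or it stays and its denominator drops -/
theorem MEG_RG (h2 : ∀ k, 2 ≤ Z k) (hp : p.Prime) {k0 : ℕ} {x y : ℝ} {j : c.Lam}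
    (hM : M ⊆ c.t.mt j.1.1) (hM' : M' ⊆ c.t.mt j.1.1) (h1 : p ∈ M') (h0 : p ∉ M)
    (hs : ∀ s, s ≠ p → (s ∈ M' ↔ s ∈ M)) (hx : ex p j.1.1 = k0)
    (h : MEG (RG c lb Z G n) (gT Z p k0) p M M' Tc x y j) :
    lb p M' j.1.1 ≠ lb p M j.1.1 ∨
      (lb p M' j.1.1 = lb p M j.1.1 ∧ ∃ κ, DrpG c lb p M M' j.1.1 κ) := by
  have h' : lb p M' j.1.1 ≠ lb p M j.1.1 ∨
    tgG lb c Z G p M' j.1.1 ≠ gT Z p k0 (tgG lb c Z G p M j.1.1) := h
  rw [tgG_sub hM, tgG_sub hM'] at h'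
  have eB : Bm M' = p * Bm M := by
    have e : M' = insert p M := by
      ext s
      by_cases hsp : s = p
      · subst hsp; simp [h1]
      · simp [hs s hsp, hsp]
    unfold Bm
    rw [e, Finset.prod_insert h0]
  by_cases hl : lb p M' j.1.1 = lb p M j.1.1
  · rcases h' with h' | h'
    · exact absurd hl h'
    · right
      refine ⟨hl, ?_⟩
      rw [hl] at h'
      rcases Option.eq_none_or_eq_some (lb p M j.1.1) with hg | ⟨κ, hg⟩
      · rw [hg, tagV_none, tagV_none, gT_one] at h'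
        exact absurd rfl h'
      · rw [hg] at h'
        rcases StM042.den_up hp (Bm M) κ with h3 | h3
        · exfalso
          rw [← eB] at h3
          have hds : Tgd c G p M j.1.1 κ ↔ Tgd c G p M' j.1.1 κ := by
            unfold Tgd dense d5
            rw [h3]
          by_cases hd : Tgd c G p M j.1.1 κ
          · rw [tagV_yes hd, tagV_yes (hds.1 hd), h3] at h'
            exact h' (vtag_N h2 (Rat.den_nz _) hp h1 h0 hs hx)
          · rw [tagV_no hd, tagV_no (fun h'' => hd (hds.2 h'')), gT_one] at h'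
            exact absurd rfl h'
        · rw [← eB] at h3
          refine ⟨κ, hg, by rw [hl, hg], h3, ?_⟩
          by_contra hc
          push Not at hc
          rw [tagV_some_dense hc.1, tagV_some_dense hc.2, gT_one] at h'
          exact absurd rfl h'
  · exact Or.inl hl

/-- **no event of P pieces and pulls** -/
theorem MEG_P (h2 : ∀ k, 2 ≤ Z k) {k0 : ℕ} {x y : ℝ} {j : c.Lam} (h0 : p ∉ M)
    (hM : M ⊆ c.t.mt j.1.1) (hx : ex p j.1.1 ≠ k0) :
    ¬ MEG (RG c lb Z G n) (gT Z p k0) p M M Tc x y j := by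
  have h' : MEG (RG c lb Z G n) (gT Z p k0) p M M Tc x y j ↔ (lb p M j.1.1 ≠ lb p M j.1.1 ∨
    tgG lb c Z G p M j.1.1 ≠ gT Z p k0 (tgG lb c Z G p M j.1.1)) := Iff.rfl
  rw [h', tgG_sub hM]
  push Not
  refine ⟨rfl, ?_⟩
  rcases Option.eq_none_or_eq_some (lb p M j.1.1) with hg | ⟨κ, hg⟩
  · rw [hg, tagV_none, gT_one]
  · rw [hg]
    by_cases hd : Tgd c G p M j.1.1 κ
    · rw [tagV_yes hd, vtag_P h2 h0 hx]
    · rw [tagV_no hd, gT_one]

lemma Mlo_sub : Mlo c p q ⊆ c.t.mt q := Finset.filter_subset _ _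
lemma Mhi_sub : Mhi c p q ⊆ c.t.mt q := Finset.filter_subset _ _

lemma not_mem_hi : p ∉ Mhi c p q := fun h => absurd (Finset.mem_filter.1 h).2 (lt_irrefl p)

lemma mem_lo_of (h : p ∈ c.t.mt q) : p ∈ Mlo c p q := Finset.mem_filter.2 ⟨h, le_rfl⟩

lemma lo_iff_hi {s : ℕ} (h : s ≠ p) : s ∈ Mlo c p q ↔ s ∈ Mhi c p q := by
  unfold Mlo Mhi
  rw [Finset.mem_filter, Finset.mem_filter]
  refine and_congr_right fun _ => ?_
  constructor
  · intro h1
    exact lt_of_le_of_ne h1 fun e => h e.symm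
  · exact le_of_lt

/-- the N pieces of an own missing tie -/
theorem MEG_tie (h2 : ∀ k, 2 ≤ Z k) (hO : c.t.Ok n) {n' k0 : ℕ} {x y : ℝ} {j : c.Lam}
    (hm : p ∈ c.t.mt j.1.1) (hx : ex p j.1.1 = k0)
    (h : MEG (RG c lb Z G n') (gT Z p k0) p (Mhi c p j.1.1) (Mlo c p j.1.1) Tc x y j) :
    lb p (Mlo c p j.1.1) j.1.1 ≠ lb p (Mhi c p j.1.1) j.1.1 ∨
      (lb p (Mlo c p j.1.1) j.1.1 = lb p (Mhi c p j.1.1) j.1.1 ∧
        ∃ κ, DrpG c lb p (Mhi c p j.1.1) (Mlo c p j.1.1) j.1.1 κ) :=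
  MEG_RG h2 (BldF542.mt_lt c.t n hO j.1.1 p hm).1 Mhi_sub Mlo_sub (mem_lo_of hm) not_mem_hi
    (fun s hs => lo_iff_hi hs) hx h

/-! #### closed items have the real state -/

variable (c) in
open Classical in
/-- **label function with the guard of closed items**: an item without open missing ties has the real
state -/
noncomputable def g5 (gg : ℕ → Finset ℕ → ℕ → Option ℚ) (p : ℕ) (M : Finset ℕ) (q : ℕ) :
    Option ℚ :=
  if ∃ s ∈ c.t.mt q, s ∉ M then gg p M q else rs c p M q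

variable {gg : ℕ → Finset ℕ → ℕ → Option ℚ}

lemma g5_open (h : ∃ s ∈ c.t.mt q, s ∉ M) : g5 c gg p M q = gg p M q := by
  unfold g5; rw [if_pos h]

lemma g5_closed (h : ¬ ∃ s ∈ c.t.mt q, s ∉ M) : g5 c gg p M q = rs c p M q := by
  unfold g5; rw [if_neg h]

lemma open_hi (h : p ∈ c.t.mt q) : ∃ s ∈ c.t.mt q, s ∉ Mhi c p q := ⟨p, h, not_mem_hi⟩

lemma open_lo_iff : (∃ s ∈ c.t.mt q, s ∉ Mlo c p q) ↔ ∃ s ∈ c.t.mt q, s < p := by
  constructor
  · rintro ⟨s, h1, h2⟩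
    exact ⟨s, h1, not_mem_lo h1 h2⟩
  · rintro ⟨s, h1, h2⟩
    exact ⟨s, h1, fun h3 => absurd (Finset.mem_filter.1 h3).2 (not_le.2 h2)⟩

/-- **crossing of a closed item**: the real state changes in the rest, no open missing tie -/
structure ClsR (c : Cf) (p q : ℕ) : Prop where
  cl : ∀ s ∈ c.t.mt q, p ≤ s
  ne : c.st (p - 1) q ≠ low c p q
  crs : ∃ κ, Crs c.wp.thr c.γ (c.r q) (ms c (p - 1) q) p (p - 1) κ

/-- **last own missing tie** -/
def ClsT (c : Cf) (p q : ℕ) : Prop := p ∈ c.t.mt q ∧ ∀ s ∈ c.t.mt q, p ≤ s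

/-- there is one last own missing tie -/
lemma ClsT.unique {p' : ℕ} (h : ClsT c p q) (h' : ClsT c p' q) : p = p' :=
  le_antisymm (h.2 _ h'.1) (h'.2 _ h.1)

lemma bl_closed (hp : 0 < p) (h : ∀ s ∈ c.t.mt q, p ≤ s) : bl c p q = Bm (c.t.mt q) := by
  rw [← Bm_lo hp]
  congr 1
  exact Finset.filter_true_of_mem h

/-- there is one crossing of the closed item -/
lemma ClsR.unique {p' : ℕ} (hp : 0 < p) (hp' : 0 < p') (h : ClsR c p q) (h' : ClsR c p' q)
    (ha : p < p' → c.wp.thr (p' - 1) ≤ c.wp.thr p)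
    (ha' : p' < p → c.wp.thr (p - 1) ≤ c.wp.thr p') : p = p' := by
  obtain ⟨κ, h1⟩ := h.crs
  obtain ⟨κ', h2⟩ := h'.crs
  have a1 : c.wp.thr p < (bl c p q : ℝ) * c.r q := h1.fat
  have a2 : (bl c p q : ℝ) * c.r q ≤ c.wp.thr (p - 1) := h1.thin
  have b1 : c.wp.thr p' < (bl c p' q : ℝ) * c.r q := h2.fat
  have b2 : (bl c p' q : ℝ) * c.r q ≤ c.wp.thr (p' - 1) := h2.thin
  rw [bl_closed hp h.cl] at a1 a2
  rw [bl_closed hp' h'.cl] at b1 b2
  by_contra hne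
  rcases lt_or_gt_of_ne hne with h3 | h3
  · have := ha h3; linarith
  · have := ha' h3; linarith

/-- **(SEG, `g5 gg`)** the static events of the rule with the guard of closed items -/
theorem SEG_g5 (h2 : ∀ k, 2 ≤ Z k) (hO : c.t.Ok n) (hp : 0 < p) (hl : c.lam (p - 1) = 0)
    (hthr : c.wp.thr p ≤ c.wp.thr (p - 1)) {x : ℝ} {j : c.Lam}
    (hL' : c.wp.thr (p - 1) ≤ c.wpL.thr (c.lv j.1.1))
    (hT : TLl c.wp.thr (c.r j.1.1) (ms c (p - 1) j.1.1)) {n' : ℕ}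
    (h : SEG (RG c (g5 c gg) Z G n') (gR p) p (Mlo c p j.1.1) Tc x j) :
    ((∃ s ∈ c.t.mt j.1.1, s < p) ∧
        gg (p - 1) (Mlo c p j.1.1) j.1.1 ≠ gg p (Mlo c p j.1.1) j.1.1) ∨
      ClsR c p j.1.1 ∨ ∃ κ, PstG c (g5 c gg) G p (Mlo c p j.1.1) j.1.1 κ := by
  rcases SEG_RG h2 hp hthr Mlo_sub h with h1 | ⟨-, h1⟩
  · by_cases ho : ∃ s ∈ c.t.mt j.1.1, s ∉ Mlo c p j.1.1
    · rw [g5_open ho, g5_open ho] at h1
      exact Or.inl ⟨open_lo_iff.1 ho, h1⟩
    · rw [g5_closed ho, g5_closed ho, rs_dn hp hl, rs_lo hp] at h1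
      refine Or.inr (Or.inl ⟨fun s hs => ?_, h1, low_next hO hl hthr hL' hT h1⟩)
      by_contra hc
      exact ho (open_lo_iff.2 ⟨s, hs, not_le.1 hc⟩)
  · exact Or.inr (Or.inr h1)

/-- **(MEG, `g5 gg`)** the events of an own missing tie -/
theorem MEG_g5 (h2 : ∀ k, 2 ≤ Z k) (hO : c.t.Ok n) {x y : ℝ} {j : c.Lam}
    (hm : p ∈ c.t.mt j.1.1) {n' k0 : ℕ} (hx : ex p j.1.1 = k0)
    (h : MEG (RG c (g5 c gg) Z G n') (gT Z p k0) p (Mhi c p j.1.1) (Mlo c p j.1.1) Tc x y j) :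
    ((∃ s ∈ c.t.mt j.1.1, s < p) ∧
        gg p (Mlo c p j.1.1) j.1.1 ≠ gg p (Mhi c p j.1.1) j.1.1) ∨
      ClsT c p j.1.1 ∨ ∃ κ, DrpG c (g5 c gg) p (Mhi c p j.1.1) (Mlo c p j.1.1) j.1.1 κ := by
  rcases MEG_tie h2 hO hm hx h with h1 | ⟨-, h1⟩
  · by_cases ho : ∃ s ∈ c.t.mt j.1.1, s ∉ Mlo c p j.1.1
    · rw [g5_open ho, g5_open (open_hi hm)] at h1
      exact Or.inl ⟨open_lo_iff.1 ho, h1⟩
    · refine Or.inr (Or.inl ⟨hm, fun s hs => ?_⟩)
      by_contra hc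
      exact ho (open_lo_iff.2 ⟨s, hs, not_le.1 hc⟩)
  · exact Or.inr (Or.inr h1)

end rule

/-! ### contexts -/

section ctxr
open Crest.Agent.R4P.Skel189 Crest.Agent.R4P.Frame758
open Crest.Agent.R4.Soft104 Crest.Agent.R4.Fam464
open Crest.Agent.R4P.StratX36 Crest.Agent.R4P.TopX36
open Crest.Agent.R4P.GWa343 Crest.Agent.R4P.GWb343 Crest.Agent.R4P.GWc343 Crest.Agent.R4P.GWf343
open Crest.Agent.R4P.GWg343 (FX ctx_BI)
open Crest.Agent.R4P.TrR343
open Crest.Agent.R4P.Walk560 (DT WrN)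

variable {N : Skel189.Num} {γ : ℝ} {p0 P₀ : ℕ} {X : Ctx N γ p0 P₀} {Q : NS → IT → Prop}
  {C : ℝ} {p : ℕ} {b : Me × List (DT X.c.Lam (LbX X))} {Z : ℕ → ℝ} {G : ℕ → ℕ → Prop}
  {lb gg : ℕ → Finset ℕ → ℕ → Option ℚ}

variable (X) in
/-- **the rule of a context** : label function `lb`, widths `Z`, guard `G` -/
noncomputable abbrev RGX (lb : ℕ → Finset ℕ → ℕ → Option ℚ) (Z : ℕ → ℝ) (G : ℕ → ℕ → Prop) :
    Rule X.c := RG X.c lb Z G (Skel189.top X.S)

lemma RGX_le : p ≤ Skel189.top X.S → ∀ M T x j, (RGX X lb Z G).tg p M T x j ≤ (RGX X lb Z G).K :=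
  fun h M T x j => RG_le h M T x j

/-- **(SEG, context)** any label function with the guard of closed items -/
theorem ctx_SEG5 (h2 : ∀ k, 2 ≤ Z k) (hT : TH X)
    (hR : All (Step588.RdOk X) ⟨Skel189.top X.S, 1, 1, 1⟩ X.c.t)
    {j : X.c.Lam} {x : ℝ} {m : Me} (h : RestP X p m j.1.1)
    (hS : SEG (RGX X (g5 X.c gg) Z G) (gR p) p (pm X.c.t p m j.1.1) Tc x j) :
    ((∃ s ∈ X.c.t.mt j.1.1, s < p) ∧
        gg (p - 1) (Mlo X.c p j.1.1) j.1.1 ≠ gg p (Mlo X.c p j.1.1) j.1.1) ∨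
      ClsR X.c p j.1.1 ∨ ∃ κ, PstG X.c (g5 X.c gg) G p (Mlo X.c p j.1.1) j.1.1 κ := by
  rw [h.lo] at hS
  exact SEG_g5 h2 X.tOk h.pr (hT.lam _)
    (hT.anti _ _ (by have := h.lv0; have := h.lv; omega) (Nat.sub_le p 1))
    (hT.leL _ _ h.lv0 (by have := h.lv; omega)) (ctx_TLl hT hR h.al _) hS

/-- **(SEG, context, game labels `gr`)** -/
theorem ctx_SEGr (h2 : ∀ k, 2 ≤ Z k) (hT : TH X)
    (hR : All (Step588.RdOk X) ⟨Skel189.top X.S, 1, 1, 1⟩ X.c.t)
    (h10 : X.c.wp.thr (p - 1) ≤ 1 / 10)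
    {j : X.c.Lam} {x : ℝ} {m : Me} (h : RestP X p m j.1.1)
    (hS : SEG (RGX X (g5 X.c (gr X.c)) Z G) (gR p) p (pm X.c.t p m j.1.1) Tc x j) :
    ((∃ s ∈ X.c.t.mt j.1.1, s < p) ∧
        ((∃ κ, DenE X.c p j.1.1 κ) ∨ ∃ κ, AccE X.c p j.1.1 κ)) ∨
      ClsR X.c p j.1.1 ∨ ∃ κ, PstG X.c (g5 X.c (gr X.c)) G p (Mlo X.c p j.1.1) j.1.1 κ := by
  rcases ctx_SEG5 h2 hT hR h hS with ⟨h3, h4⟩ | h3
  · rw [gr_dn h.pr (hT.lam _), gr_lo h.pr] at h4
    exact Or.inl ⟨h3, ctx_glow_ev hT hR h10 h h4⟩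
  · exact Or.inr h3

/-- **(MEG, context)** the events of the pieces of a tie: only N pieces -/
theorem ctx_MEG5 (h2 : ∀ k, 2 ≤ Z k) {j : X.c.Lam} {x y : ℝ} {m : Me} (h : TieP X p m j x)
    (hM : MEG (RGX X (g5 X.c gg) Z G) (gT Z p (TYJ47.cnt p m.1)) p (pm X.c.t p m j.1.1)
      (pm X.c.t p (tuM p m) j.1.1) Tc x y j) :
    p ∈ X.c.t.mt j.1.1 ∧ ex p j.1.1 = TYJ47.cnt p m.1 ∧
      (((∃ s ∈ X.c.t.mt j.1.1, s < p) ∧
          gg p (Mlo X.c p j.1.1) j.1.1 ≠ gg p (Mhi X.c p j.1.1) j.1.1) ∨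
        ClsT X.c p j.1.1 ∨
        ∃ κ, DrpG X.c (g5 X.c gg) p (Mhi X.c p j.1.1) (Mlo X.c p j.1.1) j.1.1 κ) := by
  rcases h.side with ⟨h1, h3⟩ | ⟨h1, h3, h4⟩
  · rw [h1, h.hi] at hM
    exact absurd hM (MEG_P h2 not_mem_hi Mhi_sub h3)
  · rw [h1, h.hi] at hM
    exact ⟨h3, h4, MEG_g5 h2 X.tOk h3 h4 hM⟩

/-- **(MEG, context, game labels `gr`)** -/
theorem ctx_MEGr (h2 : ∀ k, 2 ≤ Z k) (hT : TH X)
    (hR : All (Step588.RdOk X) ⟨Skel189.top X.S, 1, 1, 1⟩ X.c.t)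
    {j : X.c.Lam} {x y : ℝ} {m : Me} (h : TieP X p m j x) (ha : j.1.1 ∈ X.S')
    (hM : MEG (RGX X (g5 X.c (gr X.c)) Z G) (gT Z p (TYJ47.cnt p m.1)) p (pm X.c.t p m j.1.1)
      (pm X.c.t p (tuM p m) j.1.1) Tc x y j) :
    p ∈ X.c.t.mt j.1.1 ∧ ex p j.1.1 = TYJ47.cnt p m.1 ∧
      (((∃ s ∈ X.c.t.mt j.1.1, s < p) ∧ glow X.c p j.1.1 ≠ ghi X.c p j.1.1 ∧
          StM142.Kind X.c.γ (X.c.r j.1.1) p (ms X.c p j.1.1) (ghi X.c p j.1.1)
            (glow X.c p j.1.1)) ∨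
        ClsT X.c p j.1.1 ∨
        ∃ κ, DrpG X.c (g5 X.c (gr X.c)) p (Mhi X.c p j.1.1) (Mlo X.c p j.1.1) j.1.1 κ) := by
  obtain ⟨h3, h4, h5⟩ := ctx_MEG5 h2 h hM
  refine ⟨h3, h4, ?_⟩
  rcases h5 with ⟨h6, h7⟩ | h6
  · rw [gr_hi (hT.lam _), gr_lo h.pr] at h7
    exact Or.inl ⟨h6, h7, glow_kind X.tOk (hT.lam _) h3 (ctx_thin hT hR ha h3)⟩
  · exact Or.inr h6

section game
open Crest.Agent.R4P.RXm55 Crest.Agent.R4P.RXm55.RXm Crest.Agent.R4P.DTn407
open Crest.Agent.R4P.RGp25 Crest.Agent.R4P.RGd25 Crest.Agent.R4P.Prc49 Crest.Agent.R4P.RXs343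
open Crest.Agent.R4P.RSys343 Crest.Agent.R4P.GMer27 Crest.Agent.R4P.GCol27 Crest.Agent.R4P.MSi343
open Crest.Agent.R4P.MSm25 Crest.Agent.R4P.RGf25

variable {spc : ℕ → Me × List (DT X.c.Lam (LbX X)) →
    Ty (Nix X.c (Skel189.top X.S)) (RGX X lb Z G).K → ℝ → Prop}
  {act : ℕ → Me × List (DT X.c.Lam (LbX X)) → Ty (Nix X.c (Skel189.top X.S)) (RGX X lb Z G).K →
    ℝ → LbX X}
  {H : TYp (rhoX X) (TX X (RGX X lb Z G) spc act) (InvM X Q C)}
  {hNo : NoOut (TX X (RGX X lb Z G) spc act) (InvM X Q C)} {U : RBm (rxm H)}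

end game

end ctxr

end Crest.Agent.R4P.StG6
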