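import Crest.Agent.R4P.StM_6

/-!
R4 (S0004) with powers, [B8], helper46: **state machine of a piece**, part 3: columns without an own
missing tie (crossing of `thr`: kept → present), pure level.

`L` = missing ties (most recent first), `b = L.prod`, `R = b ψ`; `p' ≤ p` two columns with the same `L`
(also: the low state of a missing tie `p` = the list `p :: L` at the same column `p`).

* `TLl`  : thin at the last missing tie;
* `stl`  : real state with anticipated births (`a` = births are anticipated);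
* `stl_thin`, `stl_fat_some`, `stl_fat_none`, `stl_two`, `stl_cases`;
* `stl_fat_const`, `stl_thin_const` : no crossing, no change;
* `Crs`  : the crossing event (kept label `κ`, own-radius label `≠ κ`, `thr p < R ≤ thr p'`);
* `cross` : **the real state changes only by a crossing event**, then it becomes the own-radius label;
* `CrsT.den_le` (`k^5 R ≤ s`, `b |γ - κ|^5 ≤ s ψ^4`), `CrsT.cases` : new label / asleep in
  `κ` / death by accuracy, with all inequalities;
* `gl_cross` : **the game label changes at a crossing only if `κ` is dense at `p`**, and then: zone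
  (`thr p ≤ k^-5 < R ≤ thr p'`) or death by accuracy;
* `gl_step` : the general step with the same `L` (crossing or static column `P*_k`).
* `Crs.unique` : a stage has at most one crossing column.
-/

set_option autoImplicit false
set_option linter.unusedSectionVars false
set_option linter.unusedVariables false

namespace Crest.Agent.R4P.StM246

open Crest.Agent.R4.LF363 Crest.Agent.R4.W363 Crest.Agent.R4P.StM6
open Crest.Agent.R4P.FinL21 (labR_iff den_le den_dvd)

section pure
variable {thr : ℕ → ℝ} {γ ψ : ℝ} {L M : List ℕ} {p p' s : ℕ} {a : Prop} {κ τ σ : ℚ}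

/-- thin at the last missing tie -/
def TLl (thr : ℕ → ℝ) (ψ : ℝ) (L : List ℕ) : Prop :=
  ∀ s M, L = s :: M → (M.prod : ℝ) * ψ ≤ thr s

open Classical in
/-- **real state of a piece** with the missing ties `L` at the column `p`; `a` = births anticipated -/
noncomputable def stl (thr : ℕ → ℝ) (γ ψ : ℝ) (a : Prop) (L : List ℕ) (p : ℕ) : Option ℚ :=
  if (sta thr γ ψ L p).isSome then sta thr γ ψ L p else if a then own γ ψ L else none

lemma stl_some (h : sta thr γ ψ L p = some κ) : stl thr γ ψ a L p = some κ := by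
  unfold stl
  rw [h, Option.isSome_some, if_pos rfl]

lemma stl_anti (ha : a) (h : sta thr γ ψ L p = none) : stl thr γ ψ a L p = own γ ψ L := by
  unfold stl
  rw [h, Option.isSome_none, if_neg (by simp), if_pos ha]

lemma stl_nanti (ha : ¬ a) (h : sta thr γ ψ L p = none) : stl thr γ ψ a L p = none := by
  unfold stl
  rw [h, Option.isSome_none, if_neg (by simp), if_neg ha]

/-- the state only depends on `sta` -/
lemma stl_congr (h : sta thr γ ψ L p' = sta thr γ ψ L p) :
    stl thr γ ψ a L p' = stl thr γ ψ a L p := by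
  unfold stl
  rw [h]

/-- **thin: the state is the own-radius label** -/
lemma stl_thin (h : (L.prod : ℝ) * ψ ≤ thr p) : stl thr γ ψ a L p = own γ ψ L := by
  cases h1 : own γ ψ L with
  | some κ => exact stl_some (by rw [sta_thin h]; exact h1)
  | none =>
    have h2 : sta thr γ ψ L p = none := by rw [sta_thin h]; exact h1
    by_cases ha : a
    · rw [stl_anti ha h2, h1]
    · exact stl_nanti ha h2

lemma stl_nil : stl thr γ ψ a [] p = own γ ψ [] := by
  cases h1 : own γ ψ [] with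
  | some κ => exact stl_some h1
  | none =>
    have h2 : sta thr γ ψ [] p = none := h1
    by_cases ha : a
    · rw [stl_anti ha h2, h1]
    · exact stl_nanti ha h2

/-- fat: the label of the stage before the last missing tie -/
lemma sta_fat (hT : TLl thr ψ (s :: M)) (hf : thr p < ((s :: M).prod : ℝ) * ψ) :
    sta thr γ ψ (s :: M) p = own γ ψ M := by
  rw [List.prod_cons] at hf
  rw [sta, if_neg (not_le.2 hf)]
  exact sta_thin (hT s M rfl)

/-- **fat with a kept label** -/
lemma stl_fat_some (hT : TLl thr ψ (s :: M)) (hf : thr p < ((s :: M).prod : ℝ) * ψ)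
    (h : own γ ψ M = some κ) : stl thr γ ψ a (s :: M) p = some κ :=
  stl_some (by rw [sta_fat hT hf, h])

/-- **fat without a kept label, births anticipated** -/
lemma stl_fat_none (hT : TLl thr ψ (s :: M)) (hf : thr p < ((s :: M).prod : ℝ) * ψ)
    (h : own γ ψ M = none) (ha : a) : stl thr γ ψ a (s :: M) p = own γ ψ (s :: M) :=
  stl_anti ha (by rw [sta_fat hT hf, h])

/-- fat without a kept label, births not anticipated -/
lemma stl_fat_none' (hT : TLl thr ψ (s :: M)) (hf : thr p < ((s :: M).prod : ℝ) * ψ)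
    (h : own γ ψ M = none) (ha : ¬ a) : stl thr γ ψ a (s :: M) p = none :=
  stl_nanti ha (by rw [sta_fat hT hf, h])

/-- **the possible real states**: own-radius label, or kept (fat), or `none` (fat, no kept label,
births not anticipated) -/
theorem stl_cases (hT : TLl thr ψ L) :
    stl thr γ ψ a L p = own γ ψ L ∨
      (∃ s M κ, L = s :: M ∧ thr p < (L.prod : ℝ) * ψ ∧ own γ ψ M = some κ ∧
        stl thr γ ψ a L p = some κ) ∨
      (¬ a ∧ thr p < (L.prod : ℝ) * ψ ∧ stl thr γ ψ a L p = none ∧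
        ∃ s M, L = s :: M ∧ own γ ψ M = none) := by
  cases L with
  | nil => exact Or.inl stl_nil
  | cons s M =>
    rcases lt_or_ge (thr p) (((s :: M).prod : ℝ) * ψ) with hf | hf
    · cases h : own γ ψ M with
      | some κ => exact Or.inr (Or.inl ⟨s, M, κ, rfl, hf, h, stl_fat_some hT hf h⟩)
      | none =>
        by_cases ha : a
        · exact Or.inl (stl_fat_none hT hf h ha)
        · exact Or.inr (Or.inr ⟨ha, hf, stl_fat_none' hT hf h ha, s, M, rfl, h⟩)
    · exact Or.inl (stl_thin hf)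

/-- a real label is the own-radius label or the kept label of a fat piece -/
theorem stl_two (hT : TLl thr ψ L) (h : stl thr γ ψ a L p = some σ) :
    own γ ψ L = some σ ∨
      ∃ s M, L = s :: M ∧ thr p < (L.prod : ℝ) * ψ ∧ own γ ψ M = some σ := by
  rcases stl_cases (a := a) (p := p) (γ := γ) hT with h1 | ⟨s, M, κ, h1, h2, h3, h4⟩ |
    ⟨-, -, h3, -⟩
  · left; rw [← h1, h]
  · right
    rw [h] at h4
    exact ⟨s, M, h1, h2, by rw [h3, h4]⟩
  · rw [h] at h3; exact absurd h3 (by simp)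

/-! ### no crossing -/

/-- `sta` is constant on the fat columns -/
lemma sta_fat_const (hthr : thr p ≤ thr p') (hf : thr p' < (L.prod : ℝ) * ψ) :
    sta thr γ ψ L p' = sta thr γ ψ L p := by
  cases L with
  | nil => rfl
  | cons s M =>
    rw [List.prod_cons] at hf
    rw [sta, sta, if_neg (not_le.2 hf), if_neg (not_le.2 (lt_of_le_of_lt hthr hf))]

/-- **(C0)** fat below: no change -/
theorem stl_fat_const (hthr : thr p ≤ thr p') (hf : thr p' < (L.prod : ℝ) * ψ) :
    stl thr γ ψ a L p' = stl thr γ ψ a L p := stl_congr (sta_fat_const hthr hf)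

/-- **(C0)** thin above: no change -/
theorem stl_thin_const (hthr : thr p ≤ thr p') (h : (L.prod : ℝ) * ψ ≤ thr p) {a' : Prop} :
    stl thr γ ψ a' L p' = stl thr γ ψ a L p := by
  rw [stl_thin h, stl_thin (h.trans hthr)]

/-! ### the crossing event -/

/-- **crossing event**, `t` = threshold above, `t'` = threshold below: the kept label `κ` (of the stage
before the last missing tie) is not the own-radius label; fat above, thin below -/
structure CrsT (t t' γ ψ : ℝ) (L : List ℕ) (κ : ℚ) : Prop where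
  fat : t < (L.prod : ℝ) * ψ
  thin : (L.prod : ℝ) * ψ ≤ t'
  kept : ∃ s M, L = s :: M ∧ own γ ψ M = some κ
  ne : own γ ψ L ≠ some κ

/-- crossing event between the columns `p` (above) and `p'` (below) -/
abbrev Crs (thr : ℕ → ℝ) (γ ψ : ℝ) (L : List ℕ) (p p' : ℕ) (κ : ℚ) : Prop :=
  CrsT (thr p) (thr p') γ ψ L κ

/-- states above and below a crossing event -/
theorem Crs.st (hT : TLl thr ψ L) (h : Crs thr γ ψ L p p' κ) :
    stl thr γ ψ a L p = some κ ∧ ∀ a', stl thr γ ψ a' L p' = own γ ψ L := by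
  obtain ⟨s, M, rfl, h2⟩ := h.kept
  exact ⟨stl_fat_some hT h.fat h2, fun a' => stl_thin h.thin⟩

/-- **(C1)** the real state changes only by a crossing event, and then it becomes the own-radius
label. `ha`: births which are not anticipated do not happen above `p'` -/
theorem cross (hthr : thr p ≤ thr p') (hT : TLl thr ψ L)
    (ha : ¬ a → thr p' < (L.prod : ℝ) * ψ)
    (hne : stl thr γ ψ a L p' ≠ stl thr γ ψ a L p) : ∃ κ, Crs thr γ ψ L p p' κ := by
  have h1 : (L.prod : ℝ) * ψ ≤ thr p' := by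
    by_contra hc
    exact hne (stl_fat_const hthr (not_le.1 hc))
  have h2 : thr p < (L.prod : ℝ) * ψ := by
    by_contra hc
    exact hne (stl_thin_const hthr (not_lt.1 hc))
  have ha' : a := by
    by_contra hc
    exact absurd h1 (not_le.2 (ha hc))
  rcases stl_cases (a := a) (p := p) (γ := γ) hT with h | ⟨s, M, κ, e, h3, h4, h5⟩ | ⟨h, -⟩
  · exact absurd (by rw [h, stl_thin h1]) hne
  · refine ⟨κ, h2, h1, ⟨s, M, e, h4⟩, fun h6 => hne ?_⟩
    rw [h5, stl_thin h1, h6]
  · exact absurd ha' h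

/-- the same for a step where the births become anticipated or not (`a` above, `a'` below): if
births are not anticipated above, the piece is fat below -/
theorem cross' {a' : Prop} (hthr : thr p ≤ thr p') (hT : TLl thr ψ L)
    (ha : ¬ a → thr p' < (L.prod : ℝ) * ψ) (haa : a ↔ a')
    (hne : stl thr γ ψ a' L p' ≠ stl thr γ ψ a L p) : ∃ κ, Crs thr γ ψ L p p' κ := by
  have e : stl thr γ ψ a' L p' = stl thr γ ψ a L p' := by
    congr 1
    exact (propext haa).symm
  rw [e] at hne
  exact cross hthr hT ha hne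

section crs
variable {t t' : ℝ} (h : CrsT t t' γ ψ L κ)
include h

/-- the denominator of the kept label at the last missing tie `s`: `k^5 R ≤ s` -/
theorem CrsT.den_le (hL : 0 < L.prod) : ∃ s M, L = s :: M ∧ own γ ψ M = some κ ∧
    d5 L.prod κ * (L.prod * ψ) ≤ s ∧ (L.prod : ℝ) * |γ - κ| ^ 5 ≤ s * ψ ^ 4 ∧ 0 < ψ := by
  obtain ⟨s, M, rfl, h2⟩ := h.kept
  rw [List.prod_cons] at hL ⊢
  have hM : 0 < M.prod := Nat.pos_of_mul_pos_left hL
  obtain ⟨h3, h4, h5, h6⟩ := own_spec hM h2
  refine ⟨s, M, rfl, h2, ?_, ?_, h3⟩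
  · have h7 := d5_anti M.prod s κ
    rw [Nat.cast_mul]
    calc d5 (s * M.prod) κ * ((s : ℝ) * M.prod * ψ)
        ≤ d5 M.prod κ * ((s : ℝ) * M.prod * ψ) :=
          mul_le_mul_of_nonneg_right h7 (by positivity)
      _ = s * (d5 M.prod κ * (M.prod * ψ)) := by ring
      _ ≤ s * 1 := mul_le_mul_of_nonneg_left h5 (Nat.cast_nonneg s)
      _ = s := mul_one _
  · unfold acc at h6
    rw [Nat.cast_mul]
    calc (s : ℝ) * M.prod * |γ - κ| ^ 5 = s * (M.prod * |γ - κ| ^ 5) := by ring
      _ ≤ s * ψ ^ 4 := mul_le_mul_of_nonneg_left h6 (Nat.cast_nonneg s)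

/-- the sticky label of a crossing: own-radius label, or the kept label -/
theorem CrsT.sl : StM6.sl γ ψ L = (own γ ψ L).or (some κ) := by
  obtain ⟨s, M, rfl, h2⟩ := h.kept
  rw [sl_cons, sl_of_own h2]
  simp only [own, List.prod_cons]

/-- **dead by the denominator or by accuracy** -/
theorem CrsT.dead (hL : 0 < L.prod) (h10 : (L.prod : ℝ) * ψ ≤ 1 / 10) :
    1 < d5 L.prod κ * (L.prod * ψ) ∨ ¬ acc γ ψ L.prod κ := by
  obtain ⟨-, -, -, -, -, -, h0⟩ := h.den_le hL
  exact not_own hL h0 h10 h.ne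

/-- **(C2), (C3): the three kinds of crossing events** -/
theorem CrsT.cases (hL : 0 < L.prod) (h10 : (L.prod : ℝ) * ψ ≤ 1 / 10) :
    (∃ τ, own γ ψ L = some τ ∧ τ ≠ κ ∧ sla γ ψ L = some τ ∧
      ((acc γ ψ L.prod κ ∧ 1 < d5 L.prod κ * (L.prod * ψ) ∧ d5 L.prod τ < d5 L.prod κ ∧
          1 ≤ 32 * (L.prod * ψ) ^ 4 * (d5 L.prod τ * d5 L.prod κ) ∧
          1 ≤ 32 * (L.prod * ψ) ^ 3 * d5 L.prod κ) ∨ ¬ acc γ ψ L.prod κ)) ∨
    (own γ ψ L = none ∧ sla γ ψ L = some κ ∧ acc γ ψ L.prod κ ∧
      1 < d5 L.prod κ * (L.prod * ψ)) ∨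
    (own γ ψ L = none ∧ sla γ ψ L = none ∧ ¬ acc γ ψ L.prod κ) := by
  obtain ⟨-, -, -, -, -, -, h0⟩ := h.den_le hL
  have hsl := h.sl
  by_cases ha : acc γ ψ L.prod κ
  · have hd : 1 < d5 L.prod κ * (L.prod * ψ) := by
      rcases h.dead hL h10 with h1 | h1
      · exact h1
      · exact absurd ha h1
    cases h1 : own γ ψ L with
    | some τ =>
      have hne : κ ≠ τ := fun e => h.ne (by rw [h1, e])
      obtain ⟨k1, k2, k3⟩ := birth_ineq hL h1 hne ha
      refine Or.inl ⟨τ, rfl, hne.symm, sla_of_own hL h1, Or.inl ⟨ha, hd, ?_, k1, k2⟩⟩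
      have h5 := (own_spec hL h1).2.2.1
      have hR : 0 < (L.prod : ℝ) * ψ := mul_pos (by exact_mod_cast hL) h0
      exact lt_of_mul_lt_mul_right (lt_of_le_of_lt h5 hd) hR.le
    | none =>
      rw [h1, Option.none_or] at hsl
      exact Or.inr (Or.inl ⟨rfl, sla_some.2 ⟨hsl, ha⟩, ha, hd⟩)
  · cases h1 : own γ ψ L with
    | some τ =>
      have hne : κ ≠ τ := fun e => h.ne (by rw [h1, e])
      exact Or.inl ⟨τ, rfl, hne.symm, sla_of_own hL h1, Or.inr ha⟩
    | none =>
      rw [h1, Option.none_or] at hsl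
      refine Or.inr (Or.inr ⟨rfl, sla_none.2 fun τ h2 h3 => ?_, ha⟩)
      rw [hsl] at h2
      rw [← Option.some.inj h2] at h3
      exact ha h3

/-- **accuracy death with a new label at a crossing**, `s` = the last missing tie:
`1 ≤ 32 s R^4 (k k')^5` and `1 ≤ 32 s^2 R^2` -/
theorem CrsT.acc_new (hL : 0 < L.prod) (h1 : own γ ψ L = some τ) :
    ∃ s M, L = s :: M ∧ own γ ψ M = some κ ∧
      1 ≤ 32 * s * (L.prod * ψ) ^ 4 * (d5 L.prod τ * d5 L.prod κ) ∧
      1 ≤ 32 * (s : ℝ) ^ 2 * (L.prod * ψ) ^ 2 := by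
  obtain ⟨s, M, e, h2, h3, h4, h0⟩ := h.den_le hL
  refine ⟨s, M, e, h2, ?_⟩
  obtain ⟨-, h5, h6, h7⟩ := own_spec hL h1
  have hs1 : (1 : ℝ) ≤ s := by
    have : 0 < s := by
      rw [e, List.prod_cons] at hL
      exact Nat.pos_of_mul_pos_right hL
    exact_mod_cast this
  have hb : (0 : ℝ) < L.prod := by exact_mod_cast hL
  have hbq : (L.prod : ℚ) ≠ 0 := by exact_mod_cast hL.ne'
  have hne : κ ≠ τ := fun e => h.ne (by rw [h1, e])
  have hne' : (L.prod : ℚ) * κ ≠ L.prod * τ := fun h => hne (mul_left_cancel₀ hbq h)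
  have g := rat_gap hne'
  have hR : 0 < (L.prod : ℝ) * ψ := mul_pos hb h0
  set b : ℝ := (L.prod : ℝ) with hbdef
  set x := b * |γ - κ| with hx
  set y := b * |γ - τ| with hy
  have hx0 : 0 ≤ x := by positivity
  have hy0 : 0 ≤ y := by positivity
  have kx : x ^ 5 ≤ s * (b * ψ) ^ 4 := by
    calc x ^ 5 = b ^ 4 * (b * |γ - κ| ^ 5) := by rw [hx]; ring
      _ ≤ b ^ 4 * (s * ψ ^ 4) := mul_le_mul_of_nonneg_left h4 (by positivity)
      _ = s * (b * ψ) ^ 4 := by ring
  have ky : y ^ 5 ≤ s * (b * ψ) ^ 4 := by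
    calc y ^ 5 = b ^ 4 * (b * |γ - τ| ^ 5) := by rw [hy]; ring
      _ ≤ b ^ 4 * ψ ^ 4 := mul_le_mul_of_nonneg_left h7 (by positivity)
      _ = 1 * (b * ψ) ^ 4 := by ring
      _ ≤ s * (b * ψ) ^ 4 := mul_le_mul_of_nonneg_right hs1 (by positivity)
  have k3 : |(((L.prod : ℚ) * κ : ℚ) : ℝ) - (((L.prod : ℚ) * τ : ℚ) : ℝ)| ≤ x + y := by
    have e : (((L.prod : ℚ) * κ : ℚ) : ℝ) - (((L.prod : ℚ) * τ : ℚ) : ℝ) =
        b * (γ - τ) - b * (γ - κ) := by
      rw [Rat.cast_mul, Rat.cast_mul, Rat.cast_natCast]; ring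
    rw [e]
    refine (abs_sub _ _).trans ?_
    rw [abs_mul, abs_mul, abs_of_pos hb]
    linarith
  have k4 : x + y ≤ 2 * max x y := by
    have := le_max_left x y
    have := le_max_right x y
    linarith
  have k5 : (max x y) ^ 5 ≤ s * (b * ψ) ^ 4 := by
    rcases max_choice x y with h | h
    · rw [h]; exact kx
    · rw [h]; exact ky
  have hk : (0 : ℝ) < ((L.prod : ℚ) * κ).den * ((L.prod : ℚ) * τ).den := by
    have a1 : (0 : ℝ) < ((L.prod : ℚ) * κ).den := by exact_mod_cast Rat.den_pos _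
    have a2 : (0 : ℝ) < ((L.prod : ℚ) * τ).den := by exact_mod_cast Rat.den_pos _
    positivity
  have k6 : 1 ≤ (2 * max x y) * (((L.prod : ℚ) * κ).den * ((L.prod : ℚ) * τ).den) :=
    g.trans (mul_le_mul_of_nonneg_right (k3.trans k4) hk.le)
  have k7 : (1 : ℝ) ≤ ((2 * max x y) * (((L.prod : ℚ) * κ).den * ((L.prod : ℚ) * τ).den)) ^ 5 :=
    one_le_pow₀ k6
  have hd1 := d5_pos L.prod κ
  have hd2 := d5_pos L.prod τ
  have k8 : 1 ≤ 32 * s * (b * ψ) ^ 4 * (d5 L.prod τ * d5 L.prod κ) := by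
    calc (1 : ℝ) ≤ ((2 * max x y) * (((L.prod : ℚ) * κ).den * ((L.prod : ℚ) * τ).den)) ^ 5 := k7
      _ = 32 * (max x y) ^ 5 * (d5 L.prod τ * d5 L.prod κ) := by unfold d5; ring
      _ ≤ 32 * (s * (b * ψ) ^ 4) * (d5 L.prod τ * d5 L.prod κ) := by
        refine mul_le_mul_of_nonneg_right ?_ (mul_pos hd2 hd1).le
        linarith
      _ = _ := by ring
  refine ⟨k8, k8.trans ?_⟩
  calc 32 * s * (b * ψ) ^ 4 * (d5 L.prod τ * d5 L.prod κ)
      = 32 * s * (b * ψ) ^ 2 * ((d5 L.prod τ * (b * ψ)) * (d5 L.prod κ * (b * ψ))) := by ring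
    _ ≤ 32 * s * (b * ψ) ^ 2 * (1 * s) := by
      refine mul_le_mul_of_nonneg_left ?_ (by positivity)
      exact mul_le_mul h6 h3 (by positivity) (by norm_num)
    _ = 32 * (s : ℝ) ^ 2 * (b * ψ) ^ 2 := by ring

end crs

/-! ### the game label at a crossing -/

/-- the game label below a crossing is the sparse label -/
lemma Crs.gl_below (h : Crs thr γ ψ L p p' κ) (hL : 0 < L.prod) (a : Prop) :
    gl (stl thr γ ψ a L p') (thr p') γ ψ L = sla γ ψ L := gl_own hL (stl_thin h.thin)

/-- **the game label at a crossing event**: nothing changes if `κ` is sparse at `p`; if `κ` is dense at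
`p`: either zone (`thr p ≤ k^-5 < R ≤ thr p'`), or death by accuracy -/
theorem Crs.gl_cross (h : Crs thr γ ψ L p p' κ) (hT : TLl thr ψ L) (hL : 0 < L.prod)
    (h10 : (L.prod : ℝ) * ψ ≤ 1 / 10) (a a' : Prop) :
    (¬ dense (thr p) L.prod κ ∧ gl (stl thr γ ψ a L p) (thr p) γ ψ L =
        gl (stl thr γ ψ a' L p') (thr p') γ ψ L) ∨
      (dense (thr p) L.prod κ ∧ gl (stl thr γ ψ a L p) (thr p) γ ψ L = some κ ∧
        gl (stl thr γ ψ a' L p') (thr p') γ ψ L = sla γ ψ L ∧
        ((acc γ ψ L.prod κ ∧ 1 < d5 L.prod κ * (L.prod * ψ) ∧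
            d5 L.prod κ * (L.prod * ψ) * thr p ≤ thr p' ∧ ¬ dense (thr p') L.prod κ) ∨
          ¬ acc γ ψ L.prod κ)) := by
  have hs := (h.st (a := a) hT).1
  have hb := h.gl_below hL a'
  obtain ⟨-, -, -, -, -, -, h0⟩ := h.den_le hL
  have hR : 0 < (L.prod : ℝ) * ψ := mul_pos (by exact_mod_cast hL) h0
  by_cases hd : dense (thr p) L.prod κ
  · refine Or.inr ⟨hd, gl_dense hs hd, hb, ?_⟩
    by_cases ha : acc γ ψ L.prod κ
    · left
      have h1 : 1 < d5 L.prod κ * (L.prod * ψ) := by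
        rcases h.dead hL h10 with h1 | h1
        · exact h1
        · exact absurd ha h1
      refine ⟨ha, h1, ?_, ?_⟩
      · calc d5 L.prod κ * (L.prod * ψ) * thr p = (d5 L.prod κ * thr p) * (L.prod * ψ) := by ring
          _ ≤ 1 * (L.prod * ψ) := mul_le_mul_of_nonneg_right hd hR.le
          _ ≤ thr p' := by rw [one_mul]; exact h.thin
      · unfold dense
        push Not
        exact h1.trans_le (mul_le_mul_of_nonneg_left h.thin (d5_pos _ _).le)
    · exact Or.inr ha
  · refine Or.inl ⟨hd, ?_⟩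
    rw [hb]
    refine gl_sparse fun κ' h1 => ?_
    rw [hs] at h1
    rw [← Option.some.inj h1]
    exact hd

/-- **the general step with the same missing ties** (`thr p ≤ thr p'`): the game label changes only
if the state above is a kept dense label `κ` which is not the own-radius label; the label below is
`sla` (another own-radius label `τ`, or none after the death by accuracy); either a crossing event or
the static column `P*_κ` (fat on both sides) -/
theorem gl_step {a' : Prop} (hthr : thr p ≤ thr p') (hT : TLl thr ψ L) (hL : 0 < L.prod)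
    (ha : ¬ a → thr p' < (L.prod : ℝ) * ψ) (haa : a ↔ a')
    (hne : gl (stl thr γ ψ a' L p') (thr p') γ ψ L ≠ gl (stl thr γ ψ a L p) (thr p) γ ψ L) :
    ∃ κ, stl thr γ ψ a L p = some κ ∧ (∃ s M, L = s :: M ∧ own γ ψ M = some κ) ∧
      thr p < (L.prod : ℝ) * ψ ∧ dense (thr p) L.prod κ ∧ own γ ψ L ≠ some κ ∧
      gl (stl thr γ ψ a L p) (thr p) γ ψ L = some κ ∧
      gl (stl thr γ ψ a' L p') (thr p') γ ψ L = sla γ ψ L ∧
      ((∃ τ, own γ ψ L = some τ ∧ τ ≠ κ ∧ sla γ ψ L = some τ) ∨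
        (own γ ψ L = none ∧ sla γ ψ L = none ∧ ¬ acc γ ψ L.prod κ)) ∧
      ((L.prod * ψ ≤ thr p' ∧ stl thr γ ψ a' L p' = own γ ψ L) ∨
        (thr p' < L.prod * ψ ∧ stl thr γ ψ a' L p' = some κ ∧ ¬ dense (thr p') L.prod κ ∧
          1 < d5 L.prod κ * (L.prod * ψ))) := by
  have e : stl thr γ ψ a' L p' = stl thr γ ψ a L p' := by
    congr 1
    exact (propext haa).symm
  rw [e] at hne ⊢
  have hst : stl thr γ ψ a L p' = stl thr γ ψ a L p ∨ stl thr γ ψ a L p' = own γ ψ L := by
    by_cases h : stl thr γ ψ a L p' = stl thr γ ψ a L p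
    · exact Or.inl h
    · obtain ⟨κ, hc⟩ := cross hthr hT ha h
      exact Or.inr ((hc.st (a := a) hT).2 a)
  obtain ⟨κ, h1, h2, h3, h4, h5, h6⟩ := static_cases hL hst hne hthr
  have hk : ∃ s M, L = s :: M ∧ thr p < (L.prod : ℝ) * ψ ∧ own γ ψ M = some κ := by
    rcases stl_two hT h1 with h | h
    · exact absurd h h3
    · exact h
  obtain ⟨s, M, e1, hf, hM⟩ := hk
  have hnew : sla γ ψ L ≠ some κ := fun h => hne (by rw [h5, h4, h])
  have hsl : StM6.sl γ ψ L = (own γ ψ L).or (some κ) := by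
    rw [e1, sl_cons, sl_of_own hM]
    simp only [own, List.prod_cons]
  refine ⟨κ, h1, ⟨s, M, e1, hM⟩, hf, h2, h3, h4, h5, ?_, ?_⟩
  · cases ho : own γ ψ L with
    | some τ =>
      refine Or.inl ⟨τ, rfl, fun e => h3 (by rw [ho, e]), sla_of_own hL ho⟩
    | none =>
      rw [ho, Option.none_or] at hsl
      have hac : ¬ acc γ ψ L.prod κ := fun h => hnew (sla_some.2 ⟨hsl, h⟩)
      refine Or.inr ⟨rfl, sla_none.2 fun τ k1 k2 => ?_, hac⟩
      rw [hsl] at k1
      rw [← Option.some.inj k1] at k2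
      exact hac k2
  · rcases lt_or_ge (thr p') ((L.prod : ℝ) * ψ) with hf' | hf'
    · right
      have k1 : stl thr γ ψ a L p' = some κ := by rw [stl_fat_const hthr hf', h1]
      have k2 : ¬ dense (thr p') L.prod κ := by
        rcases h6 with h | h
        · rw [k1] at h
          exact absurd h.symm h3
        · exact h
      exact ⟨hf', k1, k2, (kept_dead (γ := γ) hL hf' k2).1⟩
    · exact Or.inl ⟨hf', stl_thin hf'⟩

/-- **(C4)** two crossing steps of one stage overlap; `h'` : `thr` is antitone -/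
theorem Crs.overlap {q q' : ℕ} {κ' : ℚ} (h : Crs thr γ ψ L p p' κ) (k : Crs thr γ ψ L q q' κ')
    (h' : q ≤ p' → thr p' ≤ thr q) : p' < q := by
  by_contra hc
  have h1 := h' (not_lt.1 hc)
  exact absurd (lt_of_lt_of_le k.fat h.thin) (not_lt.2 h1)

/-- **one crossing column per stage**: `thr n < R ≤ thr (n - 1)` -/
theorem Crs.unique {n m : ℕ} {κ κ' : ℚ} (h : Crs thr γ ψ L n (n - 1) κ)
    (k : Crs thr γ ψ L m (m - 1) κ') (hanti : ∀ x y : ℕ, min n m ≤ x → x ≤ y → thr y ≤ thr x) :
    n = m := by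
  rcases lt_trichotomy n m with h1 | h1 | h1
  · exfalso
    have e : thr (m - 1) ≤ thr n := hanti n (m - 1) (min_le_left _ _) (by omega)
    exact absurd (lt_of_lt_of_le h.fat k.thin) (not_lt.2 e)
  · exact h1
  · exfalso
    have e : thr (n - 1) ≤ thr m := hanti m (n - 1) (min_le_right _ _) (by omega)
    exact absurd (lt_of_lt_of_le k.fat h.thin) (not_lt.2 e)

/-- the label of a crossing event is unique -/
theorem CrsT.label {t t' u u' : ℝ} {κ' : ℚ} (h : CrsT t t' γ ψ L κ) (k : CrsT u u' γ ψ L κ') :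
    κ = κ' := by
  obtain ⟨s, M, e, h1⟩ := h.kept
  obtain ⟨s', M', e', h2⟩ := k.kept
  rw [e] at e'
  have e2 : M = M' := (List.cons.inj e').2
  rw [e2, h2] at h1
  exact (Option.some.inj h1).symm

end pure

end Crest.Agent.R4P.StM246
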