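import Crest.Agent.R4P.End2_26
import Crest.Agent.R4P.PruneBir_12

/-!
R4 (S0004), POWERS, helper6: **S0004 from the two targets for a smaller prune.**

Only the field `Prn.sub2` of a context sees the pruned set `S2`, so a context of the numbers with a
smaller prune is a context of the numbers `N` with the same data (`upC`).

* `TgtWP N γ P loc` : as `TgtW`, for the contexts with the property `P` only.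
* `S0004_P` : **S0004 from `TgtTop`, `TgtCrs` for the contexts with `X.S' ⊆ Sy γ N.C1 p0 X.ψ X.S`**, for
  every further prune `Sy` of small mass.
* `SyB`, `SyB_mass`, `S0004_NoBir` : the further prune of the births of labels (`NoBir`).
-/

set_option autoImplicit false
set_option linter.unusedSectionVars false
set_option linter.unusedVariables false

open MeasureTheory Filter

namespace Crest.Agent.R4P.SxT6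

open Crest.Agent.R4.Tour104 Crest.Agent.R4.Tour758 Crest.Agent.R4.Avg758 Crest.Agent.R4.Clos758
open Crest.Agent.R4.ClosL758 Crest.Agent.R4.ClosG758 Crest.Agent.R4.ClosR758
open Crest.Agent.R4.Fam464 Crest.Agent.R4P.Cnt588 Crest.Agent.R4P.Walk560 Crest.Agent.R4P.Item758
open Crest.Agent.R4.Soft104 Crest.Agent.R4.Max709
open Crest.Agent.R4P.Bld532 (NS All NodeOk)
open Crest.Agent.R4P.Data758 Crest.Agent.R4P.SkelF29 Crest.Agent.R4P.Strip29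
open Crest.Agent.R4P.Skel189 Crest.Agent.R4P.OSWS245 Crest.Agent.R4P.ParF5 Crest.Agent.R4P.Fin5
open Crest.Agent.R4P.NumX34
open Crest.Agent.R4.Fin532 (MAIN)
open Crest.Agent.R4P.FinAll26 Crest.Agent.R4P.FinT26 Crest.Agent.R4P.FinE26
open Crest.Agent.R4P.ExK26 Crest.Agent.R4P.PowTag83 Crest.Agent.R4P.FinX26 Crest.Agent.R4P.PayA26
open Crest.Agent.R4P.TW17 Crest.Agent.R4P.StripT26 Crest.Agent.R4P.SkelT26 Crest.Agent.R4P.FrameT26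
open Crest.Agent.R4P.TE26 Crest.Agent.R4P.StripE26 Crest.Agent.R4P.Mrg35 Crest.Agent.R4P.PayR26
open Crest.Agent.R4P.NumG23 (exists_numFinG NumG SxF SxF_mass aAcc)
open Crest.Agent.R4P

/-- the numbers with another prune -/
noncomputable def mk (N : Skel189.Num) (S2 : ℕ → (ℕ → ℝ) → Finset ℕ → Finset ℕ) : Skel189.Num :=
  { N with S2 := S2 }

/-- **a context of a smaller prune is a context** -/
noncomputable def upC {N : Skel189.Num} {S2 : ℕ → (ℕ → ℝ) → Finset ℕ → Finset ℕ}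
    (hs : ∀ p0 ψ S, S2 p0 ψ S ⊆ N.S2 p0 ψ S) {γ : ℝ} {p0 P₀ : ℕ} (X : Ctx (mk N S2) γ p0 P₀) :
    Ctx N γ p0 P₀ where
  ψ := X.ψ
  S := X.S
  S' := X.S'
  sys := X.sys
  good := X.good
  prn := ⟨X.prn.sub, X.prn.sub2.trans (hs p0 X.ψ X.S), X.prn.pos, X.prn.mass, X.prn.pr, X.prn.bet,
    X.prn.bnu⟩
  c := X.c
  hγ := X.hγ
  hr := X.hr
  hS := X.hS
  hS' := X.hS'
  ht := X.ht
  thr := X.thr
  dep := X.dep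
  lam := X.lam
  thrL := X.thrL
  depL := X.depL
  fine := X.fine
  fineL := X.fineL
  same := X.same
  lv := X.lv
  om := X.om
  bx := X.bx
  d1 := X.d1
  tg := X.tg
  tgL := X.tgL
  ok := X.ok

/-- transport of the statements which hold for large `p0` -/
lemma Ev.up {N : Skel189.Num} {S2 : ℕ → (ℕ → ℝ) → Finset ℕ → Finset ℕ}
    (hs : ∀ p0 ψ S, S2 p0 ψ S ⊆ N.S2 p0 ψ S) {γ : ℝ} {F : ∀ (p0 P₀ : ℕ), Ctx N γ p0 P₀ → Prop}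
    (h : Ev N γ F) : Ev (mk N S2) γ fun p0 P₀ X => F p0 P₀ (upC hs X) := by
  obtain ⟨p₁, h⟩ := h
  refine ⟨p₁, fun p0 hp => ?_⟩
  obtain ⟨Q₁, h⟩ := h p0 hp
  exact ⟨Q₁, fun P₀ hP X => h P₀ hP (upC hs X)⟩

/-- **a local error is paid at the self states, in the contexts with `P`** -/
def TgtWP (N : Skel189.Num) (γ : ℝ) (P : ∀ {p0 P₀ : ℕ} (X : Ctx N γ p0 P₀), Prop)
    (loc : ∀ {p0 P₀ : ℕ} (X : Ctx N γ p0 P₀) (j₀ : X.c.Lam), Fl × X.Sta → ℝ) : Prop :=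
  ∃ a : ℝ, 0 ≤ a ∧ Ev N γ fun p0 P₀ X => CF X → P X → ∀ (j₀ : X.c.Lam) (Hb : NS → IT → Prop),
    PartT X j₀ Hb (loc X j₀) a

lemma TgtW.toP {N : Skel189.Num} {γ : ℝ} {P : ∀ {p0 P₀ : ℕ} (X : Ctx N γ p0 P₀), Prop}
    {loc : ∀ {p0 P₀ : ℕ} (X : Ctx N γ p0 P₀) (j₀ : X.c.Lam), Fl × X.Sta → ℝ}
    (h : TgtW N γ loc) : TgtWP N γ P loc := by
  obtain ⟨a, ha, h⟩ := h
  exact ⟨a, ha, h.mono fun p0 P₀ X hh hC _ => hh hC⟩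

/-- the contexts whose items are in the further prune `Sy` -/
def InS (Sy : ℝ → ℝ → ℕ → (ℕ → ℝ) → Finset ℕ → Finset ℕ) (N : Skel189.Num) (γ : ℝ) {p0 P₀ : ℕ}
    (X : Ctx N γ p0 P₀) : Prop := X.S' ⊆ Sy γ N.C1 p0 X.ψ X.S

/-- **`TgtTop` with a further prune** -/
def TgtTopP (Sy : ℝ → ℝ → ℕ → (ℕ → ℝ) → Finset ℕ → Finset ℕ) (N : Skel189.Num) (γ : ℝ) : Prop :=
  TgtWP N γ (fun X => InS Sy N γ X) fun X j₀ => xC (SXN X j₀)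

/-- **`TgtCrs` with a further prune** -/
def TgtCrsP (Sy : ℝ → ℝ → ℕ → (ℕ → ℝ) → Finset ℕ → Finset ℕ) (N : Skel189.Num) (γ : ℝ) : Prop :=
  TgtWP N γ (fun X => InS Sy N γ X) fun X j₀ => xX (X.c.D.par X.Y).rho (SXN X j₀)

/-! ### the transport -/

variable {N : Skel189.Num} {S2 : ℕ → (ℕ → ℝ) → Finset ℕ → Finset ℕ} {γ : ℝ}

theorem tgtWP_up {th : ℕ → (ℕ → ℝ) → Finset ℕ → ℕ → ℝ} {Ct C₀ : ℝ} {Sx : ℕ → (ℕ → ℝ) → Finset ℕ → Finset ℕ}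
    (h : NumOK N th Ct C₀ Sx) (hs : ∀ p0 ψ S, S2 p0 ψ S ⊆ N.S2 p0 ψ S)
    {P : ∀ {p0 P₀ : ℕ} (X : Ctx N γ p0 P₀), Prop}
    (hP : ∀ {p0 P₀ : ℕ} (X : Ctx (mk N S2) γ p0 P₀), P (upC hs X))
    {loc : ∀ {p0 P₀ : ℕ} (X : Ctx N γ p0 P₀) (j₀ : X.c.Lam), Fl × X.Sta → ℝ}
    {loc' : ∀ {p0 P₀ : ℕ} (X : Ctx (mk N S2) γ p0 P₀) (j₀ : X.c.Lam), Fl × X.Sta → ℝ}
    (hl : ∀ {p0 P₀ : ℕ} (X : Ctx (mk N S2) γ p0 P₀) (j₀ : X.c.Lam) (Hb : NS → IT → Prop) (a : ℝ),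
      PartT (upC hs X) j₀ Hb (loc (upC hs X) j₀) a → PartT X j₀ Hb (loc' X j₀) a)
    (hT : TgtWP N γ P loc) : TgtW (mk N S2) γ loc' := by
  obtain ⟨a, ha, hT⟩ := hT
  obtain ⟨p1, h1⟩ := NumOK.facts h
  have hC : Ev N γ fun p0 P₀ X => CF X := Ev.of (p₁ := p1) fun p0 hp P₀ _ X => h1 p0 hp γ P₀ X
  exact ⟨a, ha, (Ev.up hs (hC.and hT)).mono fun p0 P₀ X hh _ j₀ Hb =>
    hl X j₀ Hb a (hh.2 hh.1 (hP X) j₀ Hb)⟩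

/-- the parts of a context of the smaller prune -/
lemma partT_up (hs : ∀ p0 ψ S, S2 p0 ψ S ⊆ N.S2 p0 ψ S) {p0 P₀ : ℕ} (X : Ctx (mk N S2) γ p0 P₀)
    (j₀ : X.c.Lam) (Hb : NS → IT → Prop) (a : ℝ) {loc : Fl × X.Sta → ℝ}
    (h : PartT (upC hs X) j₀ Hb loc a) : PartT X j₀ Hb loc a := h

lemma partT_top (hs : ∀ p0 ψ S, S2 p0 ψ S ⊆ N.S2 p0 ψ S) {p0 P₀ : ℕ} (X : Ctx (mk N S2) γ p0 P₀)
    (j₀ : X.c.Lam) (Hb : NS → IT → Prop) (a : ℝ)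
    (h : PartT (upC hs X) j₀ Hb (xC (SXN (upC hs X) j₀)) a) : PartT X j₀ Hb (xC (SXN X j₀)) a := h

lemma partT_crs (hs : ∀ p0 ψ S, S2 p0 ψ S ⊆ N.S2 p0 ψ S) {p0 P₀ : ℕ} (X : Ctx (mk N S2) γ p0 P₀)
    (j₀ : X.c.Lam) (Hb : NS → IT → Prop) (a : ℝ)
    (h : PartT (upC hs X) j₀ Hb (xX ((upC hs X).c.D.par (upC hs X).Y).rho (SXN (upC hs X) j₀)) a) :
    PartT X j₀ Hb (xX (X.c.D.par X.Y).rho (SXN X j₀)) a := h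

lemma partT_self (hs : ∀ p0 ψ S, S2 p0 ψ S ⊆ N.S2 p0 ψ S) {p0 P₀ : ℕ} (X : Ctx (mk N S2) γ p0 P₀)
    (j₀ : X.c.Lam) (Hb : NS → IT → Prop) (a : ℝ)
    (h : PartT (upC hs X) j₀ Hb (xS ((upC hs X).c.D.par (upC hs X).Y).rho (SXN (upC hs X) j₀)) a) :
    PartT X j₀ Hb (xS (X.c.D.par X.Y).rho (SXN X j₀)) a := h

lemma partT_L (hs : ∀ p0 ψ S, S2 p0 ψ S ⊆ N.S2 p0 ψ S) {p0 P₀ : ℕ} (X : Ctx (mk N S2) γ p0 P₀)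
    (j₀ : X.c.Lam) (Hb : NS → IT → Prop) (a B : ℝ)
    (h : PartT (upC hs X) j₀ Hb (xT (SXN (upC hs X) j₀) ((upC hs X).tm j₀) ((upC hs X).tn j₀) B) a) :
    PartT X j₀ Hb (xT (SXN X j₀) (X.tm j₀) (X.tn j₀) B) a := h

lemma partF_D (hs : ∀ p0 ψ S, S2 p0 ψ S ⊆ N.S2 p0 ψ S) {p0 P₀ : ℕ} (X : Ctx (mk N S2) γ p0 P₀)
    (j₀ : X.c.Lam) (Hb : NS → IT → Prop) (a : ℝ)
    (h : PartF (upC hs X) j₀ Hb (fun u τ A => dseR A ((upC hs X).g u τ)) a) :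
    PartF X j₀ Hb (fun u τ A => dseR A (X.g u τ)) a := h

/-! ### the numbers with a further prune -/

/-- mass `≥ 1 - 1/16` of a further prune -/
def MassP (Sy : ℕ → (ℕ → ℝ) → Finset ℕ → Finset ℕ) : Prop :=
  ∃ p₁ : ℕ, ∀ p0 ≥ p₁, ∃ Q₁ : ℕ, ∀ P₀ ≥ Q₁, ∀ (ψ : ℕ → ℝ) (S : Finset ℕ), SysM P₀ ψ S →
    Sy p0 ψ S ⊆ S ∧ (1 - 1 / 16) * Ws (w ψ) S ≤ Ws (w ψ) (Sy p0 ψ S)

/-- **the numbers with a further prune are good** -/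
theorem numOK_mk {th : ℕ → (ℕ → ℝ) → Finset ℕ → ℕ → ℝ} {Ct C₀ : ℝ} {Sx Sy : ℕ → (ℕ → ℝ) → Finset ℕ → Finset ℕ}
    (h : NumOK N th Ct C₀ Sx)
    (hx : ∃ p₁ : ℕ, ∀ p0 ≥ p₁, ∃ Q₁ : ℕ, ∀ P₀ ≥ Q₁, ∀ (ψ : ℕ → ℝ) (S : Finset ℕ), SysM P₀ ψ S →
      Sx p0 ψ S ⊆ S ∧ (1 - 1 / 8) * Ws (w ψ) S ≤ Ws (w ψ) (Sx p0 ψ S))
    (hy : MassP Sy) :
    NumOK (mk N fun p0 ψ S => S2t p0 ψ S ∩ (Sx p0 ψ S ∩ Sy p0 ψ S)) th Ct C₀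
      (fun p0 ψ S => Sx p0 ψ S ∩ Sy p0 ψ S) := by
  classical
  have hs : ∀ p0 ψ S, S2t p0 ψ S ∩ (Sx p0 ψ S ∩ Sy p0 ψ S) ⊆ N.S2 p0 ψ S := by
    intro p0 ψ S q hq
    rw [h.S2]
    rw [Finset.mem_inter] at hq ⊢
    exact ⟨hq.1, (Finset.mem_inter.1 hq.2).1⟩
  refine ⟨⟨h.tag.fac, h.tag.tg, fun p0 ψ S => Finset.inter_subset_left⟩, fun p0 ψ S => rfl, ?_, ?_,
    h.lnum, h.thr, h.thlo, h.dep, h.lam, h.d1, h.Ct0, h.C₀1, h.c20, h.B4, h.tgL, h.thL⟩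
  · obtain ⟨p1, h1⟩ := hx
    obtain ⟨p2, h2⟩ := hy
    refine ⟨p1 + p2 + 128, fun p0 hp0 => ?_⟩
    obtain ⟨Q1, h1⟩ := h1 p0 (by omega)
    obtain ⟨Q2, h2⟩ := h2 p0 (by omega)
    refine ⟨Q1 + Q2, fun P₀ hP ψ S hS => ?_⟩
    obtain ⟨x1, x2⟩ := h1 P₀ (by omega) ψ S hS
    obtain ⟨y1, y2⟩ := h2 P₀ (by omega) ψ S hS
    have hw0 : ∀ q, 0 ≤ w ψ q := fun q => w_nonneg hS.nonneg q
    have hs2 : S2t p0 ψ S ⊆ S := Finset.filter_subset _ _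
    show S2t p0 ψ S ∩ (Sx p0 ψ S ∩ Sy p0 ψ S) ⊆ S ∧ (1 - 1 / 4) * Ws (w ψ) S ≤
      Ws (w ψ) (S2t p0 ψ S ∩ (Sx p0 ψ S ∩ Sy p0 ψ S))
    refine ⟨Finset.inter_subset_left.trans hs2, ?_⟩
    have h3 := S2t_mass (p0 := p0) (ψ := ψ) (S := S)
      (fun q _ => w_nonneg hS.nonneg q) (k := 4) (by norm_num; omega)
    have h5 := Crest.Agent.R4P.PruneSep532.inter_mass hw0 x1 y1 (ε₁ := 1 / 8) (ε₂ := 1 / 16) x2 y2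
    have h4 := Crest.Agent.R4P.PruneSep532.inter_mass hw0 hs2 (Finset.inter_subset_left.trans x1)
      (ε₁ := 1 / 16) (ε₂ := 1 / 8 + 1 / 16) (by
        have e : (1 - 1 / 2 ^ 4 : ℝ) = 1 - 1 / 16 := by norm_num
        rwa [e] at h3) h5
    have e : (1 - (1 / 16 + (1 / 8 + 1 / 16)) : ℝ) = 1 - 1 / 4 := by norm_num
    rwa [e] at h4
  · refine ⟨?_, ?_⟩
    · obtain ⟨K, hK, p1, h1⟩ := h.leaf.E
      exact ⟨K, hK, p1, fun p0 hp γ P₀ hP X => h1 p0 hp γ P₀ hP (upC hs X)⟩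
    · obtain ⟨p1, h1⟩ := h.leaf.I
      exact ⟨p1, fun p0 hp γ P₀ hP X => h1 p0 hp γ P₀ hP (upC hs X)⟩

lemma numFin_mk {th : ℕ → (ℕ → ℝ) → Finset ℕ → ℕ → ℝ} {Ct c : ℝ} (h : NumFin N th Ct c) : NumFin (mk N S2) th Ct c :=
  ⟨h.C1, h.c2, h.B, h.A, h.a', h.a, h.Ct, h.rg⟩

/-- **`MAIN` from the targets with a further prune** -/
theorem MAIN_P {th : ℕ → (ℕ → ℝ) → Finset ℕ → ℕ → ℝ} {Ct C₀ : ℝ} {Sx : ℕ → (ℕ → ℝ) → Finset ℕ → Finset ℕ}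
    {Sy : ℝ → ℝ → ℕ → (ℕ → ℝ) → Finset ℕ → Finset ℕ} (h : NumOK N th Ct C₀ Sx)
    (hx : ∃ p₁ : ℕ, ∀ p0 ≥ p₁, ∃ Q₁ : ℕ, ∀ P₀ ≥ Q₁, ∀ (ψ : ℕ → ℝ) (S : Finset ℕ), SysM P₀ ψ S →
      Sx p0 ψ S ⊆ S ∧ (1 - 1 / 8) * Ws (w ψ) S ≤ Ws (w ψ) (Sx p0 ψ S))
    (hy : MassP (Sy γ N.C1)) (hX : TgtX (mk N fun p0 ψ S => S2t p0 ψ S ∩ (Sx p0 ψ S ∩
      Sy γ N.C1 p0 ψ S)) γ)
    (hSe : TgtSelf N γ) (hTo : TgtTopP Sy N γ) (hCr : TgtCrsP Sy N γ) (hL : TgtL N γ)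
    (hD : TgtD N γ) : MAIN γ := by
  classical
  have hs : ∀ p0 ψ S, S2t p0 ψ S ∩ (Sx p0 ψ S ∩ Sy γ N.C1 p0 ψ S) ⊆ N.S2 p0 ψ S := by
    intro p0 ψ S q hq
    rw [h.S2]
    rw [Finset.mem_inter] at hq ⊢
    exact ⟨hq.1, (Finset.mem_inter.1 hq.2).1⟩
  have hP : ∀ {p0 P₀ : ℕ} (X : Ctx (mk N fun p0 ψ S => S2t p0 ψ S ∩ (Sx p0 ψ S ∩
      Sy γ N.C1 p0 ψ S)) γ p0 P₀), InS Sy N γ (upC hs X) := by
    intro p0 P₀ X q hq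
    have h1 := X.prn.sub2 hq
    exact (Finset.mem_inter.1 (Finset.mem_inter.1 h1).2).2
  obtain ⟨p1, h1⟩ := NumOK.facts h
  have hC : Ev N γ fun p0 P₀ X => CF X := Ev.of (p₁ := p1) fun p0 hp P₀ _ X => h1 p0 hp γ P₀ X
  refine MAIN_E (numOK_mk h hx hy) hX ?_ ?_ ?_ ?_ ?_
  · exact tgtWP_up h hs (P := fun _ => True) (fun _ => trivial)
      (fun X j₀ Hb a hh => partT_self hs X j₀ Hb a hh)
      (TgtW.toP (loc := fun X j₀ => xS (X.c.D.par X.Y).rho (SXN X j₀)) hSe)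
  · exact tgtWP_up h hs hP (fun X j₀ Hb a hh => partT_top hs X j₀ Hb a hh) hTo
  · exact tgtWP_up h hs hP (fun X j₀ Hb a hh => partT_crs hs X j₀ Hb a hh) hCr
  · obtain ⟨B₀, a, ha, hL⟩ := hL
    exact ⟨B₀, a, ha, (Ev.up hs (hC.and hL)).mono fun p0 P₀ X hh _ B hB j₀ Hb =>
      partT_L hs X j₀ Hb a B (hh.2 hh.1 B hB j₀ Hb)⟩
  · obtain ⟨a, ha, hD⟩ := hD
    exact ⟨a, ha, (Ev.up hs (hC.and hD)).mono fun p0 P₀ X hh _ j₀ Hb =>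
      partF_D hs X j₀ Hb a (hh.2 hh.1 j₀ Hb)⟩

/-- **S0004 from the two targets with a further prune** `Sy` of mass `≥ 1 - 1/16` -/
theorem S0004_P {Sy : ℝ → ℝ → ℕ → (ℕ → ℝ) → Finset ℕ → Finset ℕ} {cS : ℝ}
    (hSy : ∀ γ C1 : ℝ, cS ≤ C1 → MassP (Sy γ C1))
    (hTo : ForN ParT21.thF SxF (TgtTopP Sy)) (hCr : ForN ParT21.thF SxF (TgtCrsP Sy))
    (γ : ℝ) (ψ : ℕ → ℝ)
    (hψ : ∀ q, 0 ≤ ψ q) (hdiv : ¬ Summable fun q : ℕ => (Nat.totient q : ℝ) / q * ψ q) :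
    ∀ᵐ x : ℝ, ∃ᶠ q : ℕ in atTop, |(q : ℝ) * x - γ - round ((q : ℝ) * x - γ)| < ψ q := by
  obtain ⟨cX, hX⟩ := TgtXF26.tgtX_fin
  obtain ⟨c1, h1⟩ := TgSelf10.tgtSelf_fin
  obtain ⟨c2, h2⟩ := hTo
  obtain ⟨c3, h3⟩ := hCr
  obtain ⟨c4, h4⟩ := ExL26.tgtL_fin EK17.tgtEK_fin
  obtain ⟨c5, h5⟩ := TgtDF7.tgtD_fin
  obtain ⟨C₀, -, H⟩ := exists_numFinG
  refine Fin5.S0004_of (fun γ => ?_) γ ψ hψ hdiv
  set cM := max (max (max cX c1) (max c2 c3)) (max (max c4 c5) (max cS 0)) with hcM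
  have l1 : cX ≤ cM := ((le_max_left _ _).trans (le_max_left _ _)).trans (le_max_left _ _)
  have l2 : c1 ≤ cM := ((le_max_right _ _).trans (le_max_left _ _)).trans (le_max_left _ _)
  have l3 : c2 ≤ cM := ((le_max_left _ _).trans (le_max_right _ _)).trans (le_max_left _ _)
  have l4 : c3 ≤ cM := ((le_max_right _ _).trans (le_max_right _ _)).trans (le_max_left _ _)
  have l5 : c4 ≤ cM := ((le_max_left _ _).trans (le_max_left _ _)).trans (le_max_right _ _)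
  have l6 : c5 ≤ cM := ((le_max_right _ _).trans (le_max_left _ _)).trans (le_max_right _ _)
  have l7 : cS ≤ cM := ((le_max_left _ _).trans (le_max_right _ _)).trans (le_max_right _ _)
  have l8 : 0 ≤ cM := ((le_max_right _ _).trans (le_max_right _ _)).trans (le_max_right _ _)
  have hxx : ∀ C1 : ℝ, cM ≤ C1 → ∃ p₁ : ℕ, ∀ p0 ≥ p₁, ∃ Q₁ : ℕ, ∀ P₀ ≥ Q₁, ∀ (ψ : ℕ → ℝ)
      (S : Finset ℕ), SysM P₀ ψ S →
      SxF γ C1 p0 ψ S ⊆ S ∧ (1 - 1 / 8) * Ws (w ψ) S ≤ Ws (w ψ) (SxF γ C1 p0 ψ S) :=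
    fun C1 hC1 => SxF_mass γ C1 (l8.trans hC1)
  obtain ⟨N, Ct, m1, m2, m3⟩ := H cM ParT21.thF (SxF γ) ParT21.thF_ok hxx
  have red : ∀ c : ℝ, c ≤ cM → NumFin N (ParT21.thF Ct) Ct c := fun c hc =>
    ⟨hc.trans m2.C1, m2.c2, m2.B, m2.A, m2.a', m2.a, m2.Ct, m2.rg⟩
  have hy : MassP (Sy γ N.C1) := hSy γ N.C1 (l7.trans m2.C1)
  refine MAIN_P m1 (hxx N.C1 m2.C1) hy ?_ (h1 N Ct C₀ γ m1 (red _ l2) m3)
    (h2 N Ct C₀ γ m1 (red _ l3) m3) (h3 N Ct C₀ γ m1 (red _ l4) m3)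
    (h4 N Ct C₀ γ m1 (red _ l5) m3) (h5 N Ct C₀ γ m1 (red _ l6) m3)
  exact hX _ (ParT21.thF Ct) Ct C₀ γ _ (numOK_mk m1 (hxx N.C1 m2.C1) hy) (numFin_mk (red _ l1))

/-! ### no births of labels -/

/-- **the further prune of the births of labels** -/
noncomputable def SyB (γ C1 : ℝ) (p0 : ℕ) (ψ : ℕ → ℝ) (S : Finset ℕ) : Finset ℕ :=
  PruneBir12.SxBir γ (5 * (4 * C1 + C1 + 1 + 3)) (4 * C1) C1 1 p0 ψ S

theorem SyB_mass (γ C1 : ℝ) (hC1 : 0 ≤ C1) : MassP (SyB γ C1) :=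
  PruneBir12.SxBir_mass γ _ (4 * C1) C1 1 (1 / 16) (by norm_num) (by linarith) hC1 zero_le_one
    le_rfl

/-- **the items of such a context have no births of labels** -/
theorem noBir_of {th : ℕ → (ℕ → ℝ) → Finset ℕ → ℕ → ℝ} {Ct c : ℝ} (h : NumFin N th Ct c) {p0 P₀ : ℕ}
    (X : Ctx N γ p0 P₀) (hX : InS SyB N γ X) {q : ℕ} (hq : q ∈ X.S') :
    PruneBir12.NoBir γ (5 * (4 * N.C1 + N.C1 + 1 + 3)) X.c.t q := by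
  classical
  have h1 := hX hq
  have h2 := (Finset.mem_filter.1 h1).2
  have h3 : PruneBir12.NoBir γ (5 * (4 * N.C1 + N.C1 + 1 + 3)) (Bld532.bld
    (Bld532.par N.B N.C1 N.c2 p0) (w X.ψ) (top X.S) 1 1 X.S) q := by
    rw [h.B, h.c2]; exact h2
  rw [X.ht]
  exact h3

/-- **S0004 from the two targets for the contexts without births of labels** -/
theorem S0004_B (hTo : ForN ParT21.thF SxF (TgtTopP SyB)) (hCr : ForN ParT21.thF SxF (TgtCrsP SyB))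
    (γ : ℝ) (ψ : ℕ → ℝ)
    (hψ : ∀ q, 0 ≤ ψ q) (hdiv : ¬ Summable fun q : ℕ => (Nat.totient q : ℝ) / q * ψ q) :
    ∀ᵐ x : ℝ, ∃ᶠ q : ℕ in atTop, |(q : ℝ) * x - γ - round ((q : ℝ) * x - γ)| < ψ q :=
  S0004_P (cS := 0) (fun γ C1 hC1 => SyB_mass γ C1 hC1) hTo hCr γ ψ hψ hdiv

end Crest.Agent.R4P.SxT6
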