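import Crest.Agent.R4P.DTm_407
import Crest.Agent.R4P.GSK_55

/-!
R4 (S0004) with powers, T3, helper47: **the invariant of the typed bundles on the real trees**.

* `tb`, `TB` : a bound of the total of a bundle which does not grow along the walk (`TB_chP`, `TB_chN`,
  `TB_bN`, `bt_le`).
* `Car D sp tu R` : relation `R p m s τ` (column, memory, state, item tree) closed under the steps of the
  walk; `mem R p m t` : the member `t` is the tree of a node with `R`; `Car.toP toN toR`.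
* `IV F wr Mi C p b` : the invariant (`BI`, `VR`, bound, memory) ; `IV.pb bok toP toN toR no1 bd` :
  the structural fields of `DTm407.TYp` (`TYp.mk'`), `IV.pr : GSK55.Pr`.
-/

set_option autoImplicit false
set_option linter.unusedSectionVars false
set_option linter.unusedVariables false
open MeasureTheory Filter Set

namespace Crest.Agent.R4P.TYI47

open Crest.Agent.R4.Tour104 Crest.Agent.R4.Tour758 Crest.Agent.R4.Avg758 Crest.Agent.R4.Clos758
open Crest.Agent.R4.ClosL758 Crest.Agent.R4.ClosG758 Crest.Agent.R4.ClosR758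
open Crest.Agent.R4P.ClosR442 Crest.Agent.R4P.Grp36
open Crest.Agent.R4P.Xfer36 Crest.Agent.R4P.TopC36 Crest.Agent.R4P.PN36
open Crest.Agent.R4P.GMer27 Crest.Agent.R4P.GCol27 Crest.Agent.R4P.GWa343 Crest.Agent.R4P.GWb343
open Crest.Agent.R4P.GWc343 Crest.Agent.R4P.GWd343 Crest.Agent.R4P.GWf343 Crest.Agent.R4P.TrR343
open Crest.Agent.R4P.GWg343 (FX)
open Crest.Agent.R4P.MSd343 Crest.Agent.R4P.VR407 Crest.Agent.R4P.Bp407 Crest.Agent.R4P.DTm407
open Crest.Agent.R4P.DTp26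
open Crest.Agent.R4P.Cnt588 Crest.Agent.R4P.Item758
open Crest.Agent.R4P.Bld532 (NS All NodeOk)
open Crest.Agent.R4P.WalkIT579 (tp isL toDT_top toDT_leaf)
open Crest.Agent.R4P.LogL51 (isLf isLf_iff)
open Crest.Agent.R4P.Walk560 (DT WrN)

/-! ### a bound which does not grow -/

section bound
variable {Λ κ : Type} [Fintype Λ]

open Classical in
/-- a bound of the total of a tree -/
noncomputable def nbd (t : DT Λ κ) : ℝ :=
  if h : ∃ B : ℝ, 0 ≤ B ∧ ∀ x, ∑ j, t.g.val j x ≤ B then h.choose else 0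

lemma nbd_nonneg (t : DT Λ κ) : 0 ≤ nbd t := by
  unfold nbd
  split_ifs with h
  · exact h.choose_spec.1
  · exact le_rfl

lemma le_nbd {t : DT Λ κ} (h : ∀ j, PB (t.g.val j)) (x : ℝ) : ∑ j, t.g.val j x ≤ nbd t := by
  have hs : PB fun x => ∑ j, t.g.val j x := PB.sum _ fun j _ => h j
  have h1 : ∃ B : ℝ, 0 ≤ B ∧ ∀ x, ∑ j, t.g.val j x ≤ B := by
    obtain ⟨B, hB⟩ := hs.bdd
    exact ⟨max B 0, le_max_right _ _, fun x => (hB x).trans (le_max_left _ _)⟩
  unfold nbd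
  rw [dif_pos h1]
  exact h1.choose_spec.2 x

/-- sum of the bounds over the nodes -/
noncomputable def tb : DT Λ κ → ℝ
  | .leaf r f => nbd (.leaf r f)
  | .br p w r t₁ t₀ v B G => nbd (.br p w r t₁ t₀ v B G) + (tb t₁ + tb t₀)
  | .add b r t₁ t₀ => nbd (.add b r t₁ t₀) + (tb t₁ + tb t₀)
  | .up b Sp t => nbd (.up b Sp t) + tb t

lemma tb_nonneg (t : DT Λ κ) : 0 ≤ tb t := by
  induction t with
  | leaf r f => exact nbd_nonneg _
  | br p w r t₁ t₀ v B G ih₁ ih₀ => exact add_nonneg (nbd_nonneg _) (add_nonneg ih₁ ih₀)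
  | add b r t₁ t₀ ih₁ ih₀ => exact add_nonneg (nbd_nonneg _) (add_nonneg ih₁ ih₀)
  | up b Sp t ih => exact add_nonneg (nbd_nonneg _) ih

lemma nbd_le_tb (t : DT Λ κ) : nbd t ≤ tb t := by
  cases t with
  | leaf r f => exact le_rfl
  | br p w r t₁ t₀ v B G =>
    exact le_add_of_nonneg_right (add_nonneg (tb_nonneg _) (tb_nonneg _))
  | add b r t₁ t₀ => exact le_add_of_nonneg_right (add_nonneg (tb_nonneg _) (tb_nonneg _))
  | up b Sp t => exact le_add_of_nonneg_right (tb_nonneg _)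

/-- bound of a bundle -/
noncomputable def TB (L : List (DT Λ κ)) : ℝ := (L.map tb).sum

lemma TB_nil : TB ([] : List (DT Λ κ)) = 0 := rfl
lemma TB_cons (t : DT Λ κ) (L : List (DT Λ κ)) : TB (t :: L) = tb t + TB L := by
  simp [TB]
lemma TB_append (L L' : List (DT Λ κ)) : TB (L ++ L') = TB L + TB L' := by
  simp [TB]
lemma TB_nonneg (L : List (DT Λ κ)) : 0 ≤ TB L :=
  List.sum_nonneg fun x hx => by
    obtain ⟨t, -, rfl⟩ := List.mem_map.1 hx
    exact tb_nonneg t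

lemma TB_filter (f : DT Λ κ → Bool) (L : List (DT Λ κ)) : TB (L.filter f) ≤ TB L := by
  induction L with
  | nil => exact le_rfl
  | cons t L ih =>
    by_cases h : f t = true
    · rw [List.filter_cons_of_pos h, TB_cons, TB_cons]
      linarith
    · rw [List.filter_cons_of_neg h, TB_cons]
      linarith [tb_nonneg t]

lemma TB_rs (p : ℕ) (t : DT Λ κ) : TB (rs p t) ≤ tb t := by
  induction t with
  | leaf r f => simp [rs, TB]
  | br q w r t₁ t₀ v B G => simp [rs, TB]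
  | add q r t₁ t₀ ih₁ ih₀ =>
    unfold rs
    split_ifs with hq
    · rw [TB_append]
      have := nbd_nonneg (DT.add q r t₁ t₀)
      show _ ≤ nbd (.add q r t₁ t₀) + (tb t₁ + tb t₀)
      linarith
    · simp [TB]
  | up q Sp t ih =>
    unfold rs
    split_ifs with hq
    · have := nbd_nonneg (DT.up q Sp t)
      show _ ≤ nbd (.up q Sp t) + tb t
      linarith
    · simp [TB]

lemma TB_flat (p : ℕ) (L : List (DT Λ κ)) : TB (L.flatMap (rs p)) ≤ TB L := by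
  induction L with
  | nil => exact le_rfl
  | cons t L ih =>
    rw [List.flatMap_cons, TB_append, TB_cons]
    exact add_le_add (TB_rs p t) ih

lemma TB_bB (p : ℕ) (L : List (DT Λ κ)) : TB (GWa343.bB p L) ≤ TB L :=
  (TB_filter _ _).trans (TB_flat p L)

lemma TB_bN (p : ℕ) (L : List (DT Λ κ)) : TB (GWc343.bN p L) ≤ TB L :=
  (TB_filter _ _).trans ((TB_filter _ _).trans (TB_flat p L))

lemma tb_chP (t : DT Λ κ) : tb (chP t) ≤ tb t := by
  cases t with
  | br p w r t₁ t₀ v B G =>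
    show tb t₁ ≤ nbd _ + (tb t₁ + tb t₀)
    linarith [nbd_nonneg (DT.br p w r t₁ t₀ v B G), tb_nonneg t₀]
  | _ => exact le_rfl

lemma tb_chN (t : DT Λ κ) : tb (chN t) ≤ tb t := by
  cases t with
  | br p w r t₁ t₀ v B G =>
    show tb (if w = 0 then t₁ else t₀) ≤ nbd _ + (tb t₁ + tb t₀)
    split_ifs
    · linarith [nbd_nonneg (DT.br p w r t₁ t₀ v B G), tb_nonneg t₀]
    · linarith [nbd_nonneg (DT.br p w r t₁ t₀ v B G), tb_nonneg t₁]
  | _ => exact le_rfl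

lemma TB_map {f : DT Λ κ → DT Λ κ} (hf : ∀ t, tb (f t) ≤ tb t) (L : List (DT Λ κ)) :
    TB (L.map f) ≤ TB L := by
  induction L with
  | nil => exact le_rfl
  | cons t L ih =>
    rw [List.map_cons, TB_cons, TB_cons]
    exact add_le_add (hf t) ih

lemma TB_chP (p : ℕ) (L : List (DT Λ κ)) : TB ((GWa343.bB p L).map chP) ≤ TB L :=
  (TB_map tb_chP _).trans (TB_bB p L)

lemma TB_chN (p : ℕ) (L : List (DT Λ κ)) : TB ((GWa343.bB p L).map chN) ≤ TB L :=
  (TB_map tb_chN _).trans (TB_bB p L)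

lemma bt_le_TB {L : List (DT Λ κ)} (h : PBA L) (x : ℝ) : bt L x ≤ TB L := by
  induction L with
  | nil => simp [bt, TB]
  | cons t L ih =>
    have e : bt (t :: L) x = ∑ j, t.g.val j x + bt L x := by simp [bt]
    rw [e, TB_cons]
    refine add_le_add ((le_nbd (h t (by simp)).self x).trans (nbd_le_tb t))
      (ih fun s hs => h s (List.mem_cons_of_mem _ hs))

end bound

/-! ### members are nodes -/

section nodes
variable {Λ κ : Type} [Fintype Λ] [DecidableEq Λ] [Fintype κ] [DecidableEq κ] {μ : Type}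
  {D : Par Λ κ} {sp : ℕ → Finset Λ} {tu : ℕ → μ → μ} {R : ℕ → μ → NS → IT → Prop}

/-- **relation closed under the steps of the walk** -/
structure Car (tu : ℕ → μ → μ) (R : ℕ → μ → NS → IT → Prop) : Prop where
  add : ∀ {p m s t₁ t₀}, R p m s (.add p t₁ t₀) → R p m ⟨p + 1, s.c, s.A, s.B⟩ t₁ ∧
    R p m ⟨p + 1, s.c, s.A, s.B⟩ t₀
  far : ∀ {p m s t₁ t₀}, R p m s (.far p t₁ t₀) → R p m ⟨p + 1, s.c, s.A, s.B⟩ t₁ ∧
    R p m ⟨p + 1, s.c, s.A, s.B⟩ t₀
  up : ∀ {p m s Sp t}, R p m s (.up p Sp t) → R p m ⟨p, s.c, s.A, s.B⟩ t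
  br : ∀ {p m s Sp t₁ t₀}, R p m s (.br p Sp t₁ t₀) →
    R p (tu p m) ⟨p, s.c / (1 - 1 / (p : ℝ)), s.A * p, s.B⟩ t₁ ∧
    R p (tu p m) ⟨p, s.c * p, s.A, s.B * p⟩ t₀
  pl : ∀ {p m s t}, R p m s (.pl p t) → R p (tu p m) ⟨p + 1, s.c, s.A * p, s.B⟩ t
  down : ∀ {p m s τ}, p ≠ 0 → R p m s τ → tp τ < p → ¬ isL τ → R (p - 1) m s τ

/-- the member is the tree of a node -/
def mem (D : Par Λ κ) (sp : ℕ → Finset Λ) (R : ℕ → μ → NS → IT → Prop) (p : ℕ) (m : μ)
    (t : DT Λ κ) : Prop := ∃ s τ, R p m s τ ∧ t = D.toDT sp s.B s.A τ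

/-- all the members are nodes -/
def mems (D : Par Λ κ) (sp : ℕ → Finset Λ) (R : ℕ → μ → NS → IT → Prop) (p : ℕ) (m : μ)
    (L : List (DT Λ κ)) : Prop := ∀ t ∈ L, mem D sp R p m t

lemma mem_rs (H : Car tu R) {p : ℕ} {m : μ} : ∀ (τ : IT) (s : NS), R p m s τ →
    ∀ t ∈ rs p (D.toDT sp s.B s.A τ), mem D sp R p m t := by
  intro τ
  induction τ with
  | leaf S =>
    intro s hs t ht
    have e : t = D.toDT sp s.B s.A (.leaf S) := by
      have h : t ∈ [D.toDT sp s.B s.A (.leaf S)] := ht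
      simpa using h
    exact ⟨s, _, hs, e⟩
  | br q Sp t₁ t₀ ih₁ ih₀ =>
    intro s hs t ht
    have e : t = D.toDT sp s.B s.A (.br q Sp t₁ t₀) := by
      have h : t ∈ [D.toDT sp s.B s.A (.br q Sp t₁ t₀)] := ht
      simpa using h
    exact ⟨s, _, hs, e⟩
  | pl q t₁ ih =>
    intro s hs t ht
    have e : t = D.toDT sp s.B s.A (.pl q t₁) := by
      have h : t ∈ [D.toDT sp s.B s.A (.pl q t₁)] := ht
      simpa using h
    exact ⟨s, _, hs, e⟩
  | add q t₁ t₀ ih₁ ih₀ =>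
    intro s hs t ht
    have ht' : t ∈ (if q = p then rs p (D.toDT sp s.B s.A t₁) ++ rs p (D.toDT sp s.B s.A t₀)
      else [D.toDT sp s.B s.A (.add q t₁ t₀)]) := ht
    split_ifs at ht' with hq
    · subst hq
      obtain ⟨h1, h0⟩ := H.add hs
      rcases List.mem_append.1 ht' with h | h
      · exact ih₁ ⟨q + 1, s.c, s.A, s.B⟩ h1 t h
      · exact ih₀ ⟨q + 1, s.c, s.A, s.B⟩ h0 t h
    · exact ⟨s, _, hs, by simpa using ht'⟩
  | far q t₁ t₀ ih₁ ih₀ =>
    intro s hs t ht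
    have ht' : t ∈ (if q = p then rs p (D.toDT sp s.B s.A t₁) ++ rs p (D.toDT sp s.B s.A t₀)
      else [D.toDT sp s.B s.A (.far q t₁ t₀)]) := ht
    split_ifs at ht' with hq
    · subst hq
      obtain ⟨h1, h0⟩ := H.far hs
      rcases List.mem_append.1 ht' with h | h
      · exact ih₁ ⟨q + 1, s.c, s.A, s.B⟩ h1 t h
      · exact ih₀ ⟨q + 1, s.c, s.A, s.B⟩ h0 t h
    · exact ⟨s, _, hs, by simpa using ht'⟩
  | up q Sp t₁ ih =>
    intro s hs t ht
    have ht' : t ∈ (if q = p then rs p (D.toDT sp s.B s.A t₁)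
      else [D.toDT sp s.B s.A (.up q Sp t₁)]) := ht
    split_ifs at ht' with hq
    · subst hq
      exact ih ⟨q, s.c, s.A, s.B⟩ (H.up hs) t ht'
    · exact ⟨s, _, hs, by simpa using ht'⟩

lemma mems.flat (H : Car tu R) {p : ℕ} {m : μ} {L : List (DT Λ κ)} (h : mems D sp R p m L) :
    mems D sp R p m (L.flatMap (rs p)) := by
  intro t ht
  obtain ⟨u, hu, ht⟩ := List.mem_flatMap.1 ht
  obtain ⟨s, τ, hs, rfl⟩ := h u hu
  exact mem_rs H τ s hs t ht

lemma mems.filter {p : ℕ} {m : μ} {L : List (DT Λ κ)} (h : mems D sp R p m L)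
    (f : DT Λ κ → Bool) : mems D sp R p m (L.filter f) :=
  fun t ht => h t (List.mem_filter.1 ht).1

lemma mems.bB (H : Car tu R) {p : ℕ} {m : μ} {L : List (DT Λ κ)} (h : mems D sp R p m L) :
    mems D sp R p m (GWa343.bB p L) := (h.flat H).filter _

lemma mems.bN (H : Car tu R) {p : ℕ} {m : μ} {L : List (DT Λ κ)} (h : mems D sp R p m L) :
    mems D sp R p m (GWc343.bN p L) := ((h.flat H).filter _).filter _

/-- a member of `bB` is a tie or a pull at the column -/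
lemma bB_cases (H : Car tu R) {p : ℕ} {m : μ} {L : List (DT Λ κ)} (h : mems D sp R p m L)
    {t : DT Λ κ} (ht : t ∈ GWa343.bB p L) :
    (∃ s Sp t₁ t₀, R p m s (.br p Sp t₁ t₀) ∧ t = D.toDT sp s.B s.A (.br p Sp t₁ t₀)) ∨
    ∃ s t₁, R p m s (.pl p t₁) ∧ t = D.toDT sp s.B s.A (.pl p t₁) := by
  obtain ⟨s, τ, hs, rfl⟩ := h.bB H t ht
  have hb := isB_of_bB ht
  obtain ⟨w, r, a, b, v, B, G, e⟩ := isB_eq hb
  cases τ with
  | leaf S => exact absurd e (by simp [Par.toDT])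
  | add q t₁ t₀ => exact absurd e (by simp [Par.toDT])
  | far q t₁ t₀ => exact absurd e (by simp [Par.toDT])
  | up q Sp t₁ => exact absurd e (by simp [Par.toDT])
  | br q Sp t₁ t₀ =>
    have hq : q = p := by
      have := congrArg DT.top e
      exact this
    subst hq
    exact Or.inl ⟨s, Sp, t₁, t₀, hs, rfl⟩
  | pl q t₁ =>
    have hq : q = p := by
      have := congrArg DT.top e
      exact this
    subst hq
    exact Or.inr ⟨s, t₁, hs, rfl⟩

lemma mems.toP (H : Car tu R) {p : ℕ} {m : μ} {L : List (DT Λ κ)} (h : mems D sp R p m L) :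
    mems D sp R p (tu p m) ((GWa343.bB p L).map chP) := by
  intro t ht
  obtain ⟨u, hu, rfl⟩ := List.mem_map.1 ht
  rcases bB_cases H h hu with ⟨s, Sp, t₁, t₀, hs, rfl⟩ | ⟨s, t₁, hs, rfl⟩
  · exact ⟨_, t₁, (H.br hs).1, rfl⟩
  · exact ⟨_, t₁, H.pl hs, rfl⟩

lemma mems.toN (H : Car tu R) {p : ℕ} (hp : p ≠ 0) {m : μ} {L : List (DT Λ κ)}
    (h : mems D sp R p m L) : mems D sp R p (tu p m) ((GWa343.bB p L).map chN) := by
  intro t ht
  obtain ⟨u, hu, rfl⟩ := List.mem_map.1 ht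
  rcases bB_cases H h hu with ⟨s, Sp, t₁, t₀, hs, rfl⟩ | ⟨s, t₁, hs, rfl⟩
  · refine ⟨_, t₀, (H.br hs).2, ?_⟩
    have hp' : (p : ℝ) ≠ 0 := by exact_mod_cast hp
    have hw : (1 / (p : ℝ)) ≠ 0 := one_div_ne_zero hp'
    show (if 1 / (p : ℝ) = 0 then _ else _) = _
    rw [if_neg hw]
  · refine ⟨_, t₁, H.pl hs, ?_⟩
    show (if (0 : ℝ) = 0 then _ else _) = _
    rw [if_pos rfl]

lemma mems.toR [WRel κ] (H : Car tu R) {F : DT Λ κ → Prop} {p : ℕ} (hp : p ≠ 0) {m : μ}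
    {L : List (DT Λ κ)} (hb : BI F p L) (h : mems D sp R p m L) :
    mems D sp R (p - 1) m (GWc343.bN p L) := by
  intro t ht
  obtain ⟨s, τ, hs, e⟩ := h.bN H t ht
  have h1 := hb.bN.col t ht
  have h2 := zero_of_bN ht
  have h3 := h1.top_le
  subst e
  refine ⟨s, τ, H.down hp hs ?_ ?_, rfl⟩
  · have e1 := toDT_top D sp s.B s.A τ
    have h4 : (D.toDT sp s.B s.A τ).top < p := lt_of_le_of_ne h3 h2.2.1
    rwa [e1] at h4
  · intro hl
    exact h2.2.2 ((toDT_leaf D sp s.B s.A τ).2 hl)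

end nodes

/-! ### the invariant -/

section inv
variable {μ Λ κ ζ : Type} [Fintype Λ] [DecidableEq Λ] [Fintype κ] [DecidableEq κ]
  [Fintype ζ] [DecidableEq ζ] [WRel κ] {wr : ℕ → Λ → κ}

/-- node facts -/
def FV (wr : ℕ → Λ → κ) (F : DT Λ κ → Prop) (t : DT Λ κ) : Prop := (FX wr t ∧ VR t) ∧ F t

/-- **the invariant of the typed bundles** -/
structure IV (wr : ℕ → Λ → κ) (F : DT Λ κ → Prop) (Mi : ℕ → μ → List (DT Λ κ) → Prop) (C : ℝ)
    (p : ℕ) (b : μ × List (DT Λ κ)) : Prop where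
  bi : BI (FV wr F) p b.2
  bnd : TB b.2 ≤ C
  mi : Mi p b.1 b.2

/-- the memory invariant is closed -/
structure MOk (tu : ℕ → μ → μ) (F : DT Λ κ → Prop) (Mi : ℕ → μ → List (DT Λ κ) → Prop) : Prop where
  toP : ∀ {p m L}, p ≠ 0 → BI F p L → Mi p m L → Mi p (tu p m) ((GWa343.bB p L).map chP)
  toN : ∀ {p m L}, p ≠ 0 → BI F p L → Mi p m L → Mi p (tu p m) ((GWa343.bB p L).map chN)
  toR : ∀ {p m L}, p ≠ 0 → BI F p L → Mi p m L → Mi (p - 1) m (GWc343.bN p L)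

/-- the memory invariant of a closed relation -/
lemma Car.mok {D : Par Λ κ} {sp : ℕ → Finset Λ} {tu : ℕ → μ → μ} {R : ℕ → μ → NS → IT → Prop}
    (H : Car tu R) (F : DT Λ κ → Prop) : MOk tu F (mems D sp R) where
  toP := fun _ _ h => h.toP H
  toN := fun hp _ h => h.toN H hp
  toR := fun hp hb h => h.toR H hp hb

variable {F : DT Λ κ → Prop} {Mi : ℕ → μ → List (DT Λ κ) → Prop} {C : ℝ} {p : ℕ}
  {b : μ × List (DT Λ κ)}

lemma IV.pb (h : IV wr F Mi C p b) : PBA b.2 := fun t ht =>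
  (h.bi.all t ht).mono fun s hs j => hs.1.1.1.2.pb j

lemma IV.bok (h : IV wr F Mi C p b) : BOk (wr p) p (GWa343.bB p b.2) :=
  h.bi.bok (fun t ht => ht.1.1.1) fun t ht => ht.1.1.2.2

lemma IV.kok (h : IV wr F Mi C p b) : KOk (wr p) p (GWa343.bB p b.2) where
  bk := h.bok
  pb := h.pb.bB p
  vr := fun t ht => (h.bi.bB.all t ht).self.1.2

lemma IV.bd (h : IV wr F Mi C p b) (x : ℝ) : bt b.2 x ≤ C :=
  (bt_le_TB h.pb x).trans h.bnd

variable {T : TD μ Λ κ ζ}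

lemma IV.toP (hM : MOk T.tu (FV wr F) Mi) (h : IV wr F Mi C p b) (hp : p ≠ 0) :
    IV wr F Mi C p (T.cP p b) where
  bi := h.bi.toP
  bnd := (TB_chP p b.2).trans h.bnd
  mi := hM.toP hp h.bi h.mi

lemma IV.toN (hM : MOk T.tu (FV wr F) Mi) (h : IV wr F Mi C p b) (hp : p ≠ 0) :
    IV wr F Mi C p (T.cN p b) where
  bi := h.bi.toN
  bnd := (TB_chN p b.2).trans h.bnd
  mi := hM.toN hp h.bi h.mi

lemma IV.toR (hM : MOk T.tu (FV wr F) Mi) (h : IV wr F Mi C p b) (hp : p ≠ 0) :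
    IV wr F Mi C (p - 1) (T.rN p b) where
  bi := h.bi.toR hp
  bnd := (TB_bN p b.2).trans h.bnd
  mi := hM.toR hp h.bi h.mi

/-- **the type fields** of `DTm407.TYp` -/
structure TYf (wr : ℕ → Λ → κ) (T : TD μ Λ κ ζ) (Inv : ℕ → μ × List (DT Λ κ) → Prop) : Prop where
  mtp : ∀ p m j, MP fun x => T.tp p m x j
  msp : ∀ p m z, MP (T.spc p m z)
  mac : ∀ p m z, MP (T.act p m z)
  one : ∀ p m z y (i i' : ℕ), i < p → i' < p → T.spc p m z ((y + i) / p) →
    T.spc p m z ((y + i') / p) → i = i'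
  inj : ∀ p m z z', ¬ T.F p m z → ¬ T.F p m z' → T.fr p m z = T.fr p m z' → z = z'
  frF : ∀ p m z, ¬ T.F p m z → T.F p m (T.fr p m z)
  low : ∀ {p b}, Inv p b → p ≠ 0 → ∀ y j z, (pA (bB p b.2) j y ≠ 0 ∨ pB (bB p b.2) j y ≠ 0 ∨
    pQ (bB p b.2) j y ≠ 0) → T.lt p b.1 y j = some z → ¬ T.F p b.1 z
  out1 : ∀ {p b}, Inv p b → p ≠ 0 → ∀ x j, jv (bB p b.2) j x ≠ 0 →
    (T.tp p b.1 x j = none ↔ T.lt p b.1 (p * x) j = none)
  out2 : ∀ {p b}, Inv p b → p ≠ 0 → ∀ y j j', wr p j = wr p j' →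
    (pA (bB p b.2) j y ≠ 0 ∨ pB (bB p b.2) j y ≠ 0) →
    (pA (bB p b.2) j' y ≠ 0 ∨ pB (bB p b.2) j' y ≠ 0) →
    (T.lt p b.1 y j = none ↔ T.lt p b.1 y j' = none)

/-- **`TYp` from the type fields** -/
noncomputable def TYf.typ (H : TYf wr T (IV wr F Mi C)) (hM : MOk T.tu (FV wr F) Mi) :
    TYp wr T (IV wr F Mi C) where
  pb := fun h => h.pb
  bok := fun h _ => h.kok
  toP := fun h hp => h.toP hM hp
  toN := fun h hp => h.toN hM hp
  toR := fun h hp => h.toR hM hp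
  no1 := fun h => h.bi.no1
  B0 := C
  bd := fun h => h.bd
  mtp := H.mtp
  msp := H.msp
  mac := H.mac
  one := H.one
  inj := H.inj
  frF := H.frF
  low := H.low
  out1 := H.out1
  out2 := H.out2

/-- start -/
lemma IV.start {t : DT Λ κ} {m : μ} (h : BI (FV wr F) p [t]) (hm : Mi p m [t]) :
    IV wr F Mi (tb t) p (m, [t]) := ⟨h, by simp [TB], hm⟩

end inv

end Crest.Agent.R4P.TYI47
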