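import Crest.Agent.R4P.TYI_47
import Crest.Agent.R4P.RseSt_23

/-!
R4 (S0004) with powers, T3, helper47: **the memory of the walk on the real trees** (pulls included).

* memory `m = (last column, number of C-steps there)`, `tu`, `cnt`.
* `Rm t' Q p m u τ` : node `(u, τ)` of a bundle at the column `p` with memory `m`: `All Q`, columns, and
  **`ml`** : for an item `q` of the node and an own missing tie `l` of `q`:
  `l ∣ u.B ↔ p < l ∨ (l = p ∧ ex p q < cnt p m)`; `exA` : `ex p u.A = cnt p m` if the top column is `p`.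
* `Rm.car : Car tu (Rm ..)`, `Rm.start` (every node of the tree, memory `m0 u τ`).
* `prm t' p m q` : the processed missing ties of an item, a function of `(p, m, q)`;
  `Rm.pf : u.B.primeFactors = prm t' p m q`, `prm_tu`, `prm_down`.
-/

set_option autoImplicit false
set_option linter.unusedSectionVars false
set_option linter.unusedVariables false
open MeasureTheory Filter Set

namespace Crest.Agent.R4P.TYJ47

open Crest.Agent.R4P.Cnt588 Crest.Agent.R4P.Item758
open Crest.Agent.R4P.Bld532 (NS All NodeOk Bk)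
open Crest.Agent.R4P.WalkIT579 (tp isL top_of_nodeOk bk_of_nodeOk)
open Crest.Agent.R4P.StratN36 (ex dvd_iff ex_le)
open Crest.Agent.R4P.Step588 Crest.Agent.R4P.RseSt23
open Crest.Agent.R4P.TYI47

/-! ### memory -/

/-- the update of the memory at a C-step -/
def tu (p : ℕ) (m : ℕ × ℕ) : ℕ × ℕ := if m.1 = p then (p, m.2 + 1) else (p, 1)

/-- number of the C-steps at the column `p` -/
def cnt (p : ℕ) (m : ℕ × ℕ) : ℕ := if m.1 = p then m.2 else 0

lemma cnt_tu (p : ℕ) (m : ℕ × ℕ) : cnt p (tu p m) = cnt p m + 1 := by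
  unfold cnt tu
  split_ifs <;> simp_all

lemma tu_fst (p : ℕ) (m : ℕ × ℕ) : (tu p m).1 = p := by
  unfold tu
  split_ifs <;> rfl

lemma cnt_ne {p : ℕ} {m : ℕ × ℕ} (h : m.1 ≠ p) : cnt p m = 0 := if_neg h

/-- the start memory of a node -/
def m0 (u : NS) (τ : IT) : ℕ × ℕ := (tp τ, ex (tp τ) u.A)

lemma cnt_m0 (u : NS) (τ : IT) : cnt (tp τ) (m0 u τ) = ex (tp τ) u.A := if_pos rfl

section rel
variable {P : Bld532.Par} {W : ℕ → ℝ} {t' : IT} {Q : NS → IT → Prop}

/-- **the relation of a node of a bundle** at the column `p` with the memory `m` -/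
structure Rm (t' : IT) (Q : NS → IT → Prop) (p : ℕ) (m : ℕ × ℕ) (u : NS) (τ : IT) : Prop where
  all : All Q u τ
  pm : p ≤ m.1
  top : tp τ ≤ p
  ge : ∀ l : ℕ, l.Prime → l ∣ u.A → p ≤ l
  exA : ¬ isL τ → tp τ = p → ex p u.A = cnt p m
  ml : ∀ q ∈ τ.items, ∀ l ∈ t'.mt q, (l ∣ u.B ↔ p < l ∨ (l = p ∧ ex p q < cnt p m))

lemma tp_lt_n (hQ : ∀ u τ, Q u τ → NDt P W t' u τ) {u : NS} {τ : IT} (h : All Q u τ)
    (hl : ¬ isL τ) : tp τ < u.n :=
  (top_of_nodeOk (hQ _ _ h.self).self.node hl).2.1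

lemma tp_leaf {τ : IT} (h : isL τ) : tp τ = 0 := by
  cases τ <;> first | rfl | exact absurd h id

lemma tp_le_of (hQ : ∀ u τ, Q u τ → NDt P W t' u τ) {u : NS} {τ : IT} {p : ℕ} (h : All Q u τ)
    (hn : u.n ≤ p + 1) : tp τ ≤ p := by
  by_cases hl : isL τ
  · rw [tp_leaf hl]; exact Nat.zero_le _
  · have := tp_lt_n hQ h hl
    omega

lemma Apos (hQ : ∀ u τ, Q u τ → NDt P W t' u τ) {u : NS} {τ : IT} (h : All Q u τ) : 0 < u.A :=
  (hQ _ _ h.self).bk.Apos

lemma ex_mul {p A : ℕ} (hp : p.Prime) (hA : 0 < A) : ex p (A * p) = ex p A + 1 := by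
  unfold ex
  rw [Nat.factorization_mul hA.ne' hp.ne_zero, Finsupp.coe_add, Pi.add_apply,
    hp.factorization_self]

lemma prime_of_br {u : NS} {p : ℕ} {Sp : Finset ℕ} {t₁ t₀ : IT}
    (h : NodeOk P W u (.br p Sp t₁ t₀)) : p.Prime := h.1

lemma prime_of_pl {u : NS} {p : ℕ} {t : IT} (h : NodeOk P W u (.pl p t)) : p.Prime := h.1

/-- **the relation is closed under the steps of the walk** -/
theorem Rm.car (hQ : ∀ u τ, Q u τ → NDt P W t' u τ) {n : ℕ} (hO : t'.Ok n) :
    Car tu (Rm t' Q) where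
  add := fun {p m s t₁ t₀} h => by
    have ha := h.all
    have e : tp (.add p t₁ t₀) = p := rfl
    have hl : ¬ isL (.add p t₁ t₀) := fun h => h
    exact ⟨⟨ha.2.1, h.pm, tp_le_of hQ ha.2.1 le_rfl, h.ge, fun _ _ => h.exA hl e,
        fun q hq l hm => h.ml q (Finset.mem_union_left _ hq) l hm⟩,
      ⟨ha.2.2, h.pm, tp_le_of hQ ha.2.2 le_rfl, h.ge, fun _ _ => h.exA hl e,
        fun q hq l hm => h.ml q (Finset.mem_union_right _ hq) l hm⟩⟩
  far := fun {p m s t₁ t₀} h => by
    have ha := h.all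
    have e : tp (.far p t₁ t₀) = p := rfl
    have hl : ¬ isL (.far p t₁ t₀) := fun h => h
    exact ⟨⟨ha.2.1, h.pm, tp_le_of hQ ha.2.1 le_rfl, h.ge, fun _ _ => h.exA hl e,
        fun q hq l hm => h.ml q (Finset.mem_union_left _ hq) l hm⟩,
      ⟨ha.2.2, h.pm, tp_le_of hQ ha.2.2 le_rfl, h.ge, fun _ _ => h.exA hl e,
        fun q hq l hm => h.ml q (Finset.mem_union_right _ hq) l hm⟩⟩
  up := fun {p m s Sp t} h => by
    have ha := h.all
    have e : tp (.up p Sp t) = p := rfl
    have hl : ¬ isL (.up p Sp t) := fun h => h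
    exact ⟨ha.2, h.pm, tp_le_of hQ ha.2 (Nat.le_succ p), h.ge, fun _ _ => h.exA hl e,
      fun q hq l hm => h.ml q hq l hm⟩
  br := fun {p m s Sp t₁ t₀} h => by
    have ha := h.all
    have e : tp (.br p Sp t₁ t₀) = p := rfl
    have hl : ¬ isL (.br p Sp t₁ t₀) := fun h => h
    have hp : p.Prime := prime_of_br (hQ _ _ ha.self).self.node
    have hA := Apos hQ ha
    have hx := h.exA hl e
    have b1 := (hQ _ _ ha.2.1.self).bk
    have b0 := (hQ _ _ ha.2.2.self).bk
    refine ⟨⟨ha.2.1, (tu_fst p m).ge, tp_le_of hQ ha.2.1 (Nat.le_succ p), fun l hl' hd => ?_,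
      fun hl' he => ?_, fun q hq l hm => ?_⟩, ⟨ha.2.2, (tu_fst p m).ge,
      tp_le_of hQ ha.2.2 (Nat.le_succ p), h.ge, fun hl' he => ?_, fun q hq l hm => ?_⟩⟩
    · rcases (Nat.Prime.dvd_mul hl').1 hd with h1 | h1
      · exact h.ge l hl' h1
      · exact ((Nat.prime_dvd_prime_iff_eq hl' hp).1 h1).ge
    · have := tp_lt_n hQ ha.2.1 hl'
      have h2 : tp t₁ < p := this
      omega
    · have h1 := h.ml q (Finset.mem_union_left _ hq) l hm
      have h2 : ex p (s.A * p) ≤ ex p q := ex_le (b1.pos q hq) (b1.dvd q hq)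
      rw [ex_mul hp hA, hx] at h2
      rw [h1, cnt_tu]
      constructor
      · rintro (h3 | ⟨h3, h4⟩)
        · exact Or.inl h3
        · omega
      · rintro (h3 | ⟨h3, h4⟩)
        · exact Or.inl h3
        · omega
    · have := tp_lt_n hQ ha.2.2 hl'
      have h2 : tp t₀ < p := this
      omega
    · have h1 := h.ml q (Finset.mem_union_right _ hq) l hm
      have hlp : l.Prime := (BldF542.mt_lt t' n hO q l hm).1
      have hd : s.A ∣ q := b0.dvd q hq
      have hc : Nat.Coprime (q / s.A) (s.B * p) := b0.cop q hq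
      have h2 : ¬ p ∣ q / s.A := fun h3 => by
        have h4 : p ∣ Nat.gcd (q / s.A) (s.B * p) := Nat.dvd_gcd h3 (Dvd.intro_left _ rfl)
        rw [hc] at h4
        exact hp.one_lt.ne' (Nat.dvd_one.1 h4)
      have h3 : ¬ ex p s.A + 1 ≤ ex p q := fun h4 => h2 (by
        have := (dvd_iff (k := 1) hp (b0.pos q hq) hd).2 h4
        simpa using this)
      rw [hx] at h3
      have h5 : l ∣ s.B * p ↔ l ∣ s.B ∨ l = p := by
        rw [hlp.dvd_mul, Nat.prime_dvd_prime_iff_eq hlp hp]
      have h6 : (l ∣ (⟨p, s.c * p, s.A, s.B * p⟩ : NS).B) ↔ l ∣ s.B * p := Iff.rfl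
      rw [h6, h5, h1, cnt_tu]
      constructor
      · rintro ((h7 | ⟨h7, h8⟩) | h7)
        · exact Or.inl h7
        · exact Or.inr ⟨h7, by omega⟩
        · exact Or.inr ⟨h7, by omega⟩
      · rintro (h7 | ⟨h7, h8⟩)
        · exact Or.inl (Or.inl h7)
        · exact Or.inr h7
  pl := fun {p m s t} h => by
    have ha := h.all
    have e : tp (.pl p t) = p := rfl
    have hl : ¬ isL (.pl p t) := fun h => h
    have hp : p.Prime := prime_of_pl (hQ _ _ ha.self).self.node
    have hA := Apos hQ ha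
    have hx := h.exA hl e
    have b1 := (hQ _ _ ha.2.self).bk
    refine ⟨ha.2, (tu_fst p m).ge, tp_le_of hQ ha.2 le_rfl, fun l hl' hd => ?_,
      fun hl' he => ?_, fun q hq l hm => ?_⟩
    · rcases (Nat.Prime.dvd_mul hl').1 hd with h1 | h1
      · exact h.ge l hl' h1
      · exact ((Nat.prime_dvd_prime_iff_eq hl' hp).1 h1).ge
    · show ex p (s.A * p) = _
      rw [ex_mul hp hA, hx, cnt_tu]
    · have h1 := h.ml q hq l hm
      have h2 : ex p (s.A * p) ≤ ex p q := ex_le (b1.pos q hq) (b1.dvd q hq)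
      rw [ex_mul hp hA, hx] at h2
      rw [h1, cnt_tu]
      constructor
      · rintro (h3 | ⟨h3, h4⟩)
        · exact Or.inl h3
        · omega
      · rintro (h3 | ⟨h3, h4⟩)
        · exact Or.inl h3
        · omega
  down := fun {p m s τ} hp h ht hl => by
    have ha := h.all
    have hpm := h.pm
    have hc : cnt (p - 1) m = 0 := cnt_ne (by omega)
    refine ⟨ha, by omega, by omega, fun l hl' hd => ?_, fun _ he => ?_, fun q hq l hm => ?_⟩
    · have := h.ge l hl' hd
      omega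
    · rw [hc]
      unfold ex
      by_contra h0
      have h1 : (p - 1).Prime := by
        by_contra h2
        exact h0 (Nat.factorization_eq_zero_of_not_prime _ h2)
      have h2 : p - 1 ∣ s.A := Nat.dvd_of_factorization_pos h0
      have := h.ge _ h1 h2
      have := h1.pos
      omega
    · have h1 := h.ml q hq l hm
      have h2 := mt_node (hQ _ _ ha.self) hO hl hq
      have h3 : l ∣ s.B ↔ tp τ < l := by
        have hlp : l.Prime := (BldF542.mt_lt t' n hO q l hm).1
        have hB : s.B ≠ 0 := (hQ _ _ ha.self).bk.sfB.ne_zero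
        constructor
        · intro h4
          have h5 : l ∈ s.B.primeFactors := Nat.mem_primeFactors.2 ⟨hlp, h4, hB⟩
          rw [← h2] at h5
          exact (Finset.mem_filter.1 h5).2
        · intro h4
          have h5 : l ∈ (t'.mt q).filter (tp τ < ·) := Finset.mem_filter.2 ⟨hm, h4⟩
          rw [h2] at h5
          exact Nat.dvd_of_mem_primeFactors h5
      rw [hc]
      constructor
      · intro h4
        rcases h1.1 h4 with h5 | h5
        · left; omega
        · left; omega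
      · rintro (h4 | h4)
        · rw [h3]; omega
        · omega

/-- the missing ties of the items of a leaf -/
lemma leaf_mt {u : NS} {τ : IT} (h : NDt P W t' u τ) {n : ℕ} (hO : t'.Ok n) (hl : isL τ) {q : ℕ}
    (hq : q ∈ τ.items) {l : ℕ} (hm : l ∈ t'.mt q) : l ∣ u.B := by
  have e1 := BldF542.mp_eq_prod t' n hO q
  have e3 := h.self.mp q hq
  have e4 : mp τ q = 1 := by
    cases τ <;> first | rfl | exact absurd hl id
  rw [e4, mul_one, e1] at e3
  rw [← e3]
  exact Finset.dvd_prod_of_mem _ hm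

/-- **start** : every node of the tree -/
theorem Rm.start (hQ : ∀ u τ, Q u τ → NDt P W t' u τ) {n : ℕ} (hO : t'.Ok n) {u : NS} {τ : IT}
    (h : All Q u τ) : Rm t' Q (tp τ) (m0 u τ) u τ := by
  have hn := hQ _ _ h.self
  refine ⟨h, le_rfl, le_rfl, fun l hl hd => ?_, fun _ _ => (cnt_m0 u τ).symm,
    fun q hq l hm => ?_⟩
  · by_cases hL : isL τ
    · rw [tp_leaf hL]; exact Nat.zero_le _
    · have h1 := hn.bk.geA l hl hd
      have h2 := tp_lt_n hQ h hL
      omega
  · have hlp : l.Prime := (BldF542.mt_lt t' n hO q l hm).1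
    have h3 : ex (tp τ) u.A ≤ ex (tp τ) q := ex_le (hn.bk.pos q hq) (hn.bk.dvd q hq)
    rw [cnt_m0]
    by_cases hL : isL τ
    · refine ⟨fun _ => Or.inl (by rw [tp_leaf hL]; exact hlp.pos), fun _ => leaf_mt hn hO hL hq hm⟩
    · have h2 := mt_node hn hO hL hq
      have hB : u.B ≠ 0 := hn.bk.sfB.ne_zero
      constructor
      · intro h4
        have h5 : l ∈ u.B.primeFactors := Nat.mem_primeFactors.2 ⟨hlp, h4, hB⟩
        rw [← h2] at h5
        exact Or.inl (Finset.mem_filter.1 h5).2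
      · rintro (h4 | ⟨-, h4⟩)
        · have h5 : l ∈ (t'.mt q).filter (tp τ < ·) := Finset.mem_filter.2 ⟨hm, h4⟩
          rw [h2] at h5
          exact Nat.dvd_of_mem_primeFactors h5
        · omega

/-! ### the processed missing ties of an item -/

/-- **the processed missing ties of the item `q`** at the column `p` with the memory `m` -/
def prm (t' : IT) (p : ℕ) (m : ℕ × ℕ) (q : ℕ) : Finset ℕ :=
  (t'.mt q).filter fun l => p < l ∨ (l = p ∧ ex p q < cnt p m)

/-- the missing ties of an item of a node contain the primes of `B` -/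
lemma B_sub {u : NS} {τ : IT} (h : NDt P W t' u τ) {n : ℕ} (hO : t'.Ok n) {q : ℕ}
    (hq : q ∈ τ.items) {l : ℕ} (hl : l ∈ u.B.primeFactors) : l ∈ t'.mt q := by
  have e1 := BldF542.mp_eq_prod t' n hO q
  have e3 := h.self.mp q hq
  have hp' : ∀ p ∈ t'.mt q, p.Prime := fun p hp => (BldF542.mt_lt t' n hO q p hp).1
  have h1 : l ∣ mp t' q := by
    rw [e3]
    exact (Nat.dvd_of_mem_primeFactors hl).trans (Dvd.intro _ rfl)
  rw [e1] at h1
  obtain ⟨a, ha, hd⟩ := (Nat.prime_of_mem_primeFactors hl).prime.exists_mem_finset_dvd h1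
  have := (Nat.prime_dvd_prime_iff_eq (Nat.prime_of_mem_primeFactors hl) (hp' a ha)).1 hd
  rw [this]; exact ha

/-- **the primes of `u.B` are a function of the item, the column and the memory** -/
theorem Rm.pf (hQ : ∀ u τ, Q u τ → NDt P W t' u τ) {n : ℕ} (hO : t'.Ok n) {p : ℕ} {m : ℕ × ℕ}
    {u : NS} {τ : IT} (h : Rm t' Q p m u τ) {q : ℕ} (hq : q ∈ τ.items) :
    u.B.primeFactors = prm t' p m q := by
  have hn := hQ _ _ h.all.self
  ext l
  unfold prm
  rw [Finset.mem_filter]
  constructor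
  · intro hl
    have h1 := B_sub hn hO hq hl
    exact ⟨h1, (h.ml q hq l h1).1 (Nat.dvd_of_mem_primeFactors hl)⟩
  · rintro ⟨h1, h2⟩
    exact Nat.mem_primeFactors.2 ⟨(BldF542.mt_lt t' n hO q l h1).1, (h.ml q hq l h1).2 h2,
      hn.bk.sfB.ne_zero⟩

lemma prm_not_mem {p : ℕ} {m : ℕ × ℕ} {q : ℕ} (h : p ∉ t'.mt q) :
    prm t' p m q = (t'.mt q).filter (p < ·) := by
  unfold prm
  refine Finset.filter_congr fun l hl => ⟨?_, Or.inl⟩
  rintro (h1 | ⟨h1, -⟩)
  · exact h1
  · exact absurd (h1 ▸ hl) h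

lemma prm_not {p : ℕ} {m : ℕ × ℕ} {q : ℕ} (h : ¬ ex p q < cnt p m) :
    prm t' p m q = (t'.mt q).filter (p < ·) := by
  unfold prm
  refine Finset.filter_congr fun l hl => ⟨?_, Or.inl⟩
  rintro (h1 | ⟨-, h1⟩)
  · exact h1
  · exact absurd h1 h

lemma prm_mem {p : ℕ} {m : ℕ × ℕ} {q : ℕ} (h : ex p q < cnt p m) :
    prm t' p m q = (t'.mt q).filter (p ≤ ·) := by
  unfold prm
  refine Finset.filter_congr fun l hl => ⟨?_, fun h1 => ?_⟩
  · rintro (h1 | ⟨h1, -⟩)
    · exact h1.le
    · exact h1.ge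
  · rcases h1.lt_or_eq with h2 | h2
    · exact Or.inl h2
    · exact Or.inr ⟨h2.symm, h⟩

/-- going down one column in the rest: nothing changes -/
lemma prm_down {p : ℕ} (hp : p ≠ 0) {m : ℕ × ℕ} (hm : p ≤ m.1) {q : ℕ} :
    prm t' (p - 1) m q = (t'.mt q).filter (p ≤ ·) := by
  rw [prm_not (by rw [cnt_ne (by omega)]; exact Nat.not_lt_zero _)]
  refine Finset.filter_congr fun l hl => ?_
  omega

/-- **C-step** : the tie `p` is processed for the items with `ex p q = cnt p m` (the N items), nothing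
changes for the others -/
lemma prm_tu (p : ℕ) (m : ℕ × ℕ) (q : ℕ) : prm t' p (tu p m) q =
    if ex p q = cnt p m then (t'.mt q).filter (p ≤ ·) else prm t' p m q := by
  split_ifs with h
  · exact prm_mem (by rw [cnt_tu, h]; exact Nat.lt_succ_self _)
  · unfold prm
    refine Finset.filter_congr fun l hl => ?_
    rw [cnt_tu]
    constructor
    · rintro (h1 | ⟨h1, h2⟩)
      · exact Or.inl h1
      · exact Or.inr ⟨h1, by omega⟩
    · rintro (h1 | ⟨h1, h2⟩)
      · exact Or.inl h1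
      · exact Or.inr ⟨h1, by omega⟩

end rel

end Crest.Agent.R4P.TYJ47
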