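import Crest.Agent.R4P.TYJ_47
import Crest.Agent.R4P.TopX_36
import Crest.Agent.R4P.RseC_23
import Crest.Agent.R4P.GTopW_50

/-!
R4 (S0004) with powers, T3, helper47: **the start of the typed bundles of a context, supports**.

* `jv_mem`, `pA_node`, `pB_node`, `pQ_node` : a piece with nonzero content sits in a member (node, child
  node P / N of a tie, child node of a pull) with the relation `R`.
* `val_supp` : position of a piece with nonzero content at a node.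
* `ctx_IV` : **every node of a context starts with the invariant** `IV` (memory `TYJ47.Rm`), constant
  `tb`; `bt_start` : the total of the start bundle; `self_p`.
-/

set_option autoImplicit false
set_option linter.unusedSectionVars false
set_option linter.unusedVariables false
open MeasureTheory Filter Set

namespace Crest.Agent.R4P.TYK47

open Crest.Agent.R4.Tour104 Crest.Agent.R4.Tour758 Crest.Agent.R4.Avg758 Crest.Agent.R4.Clos758
open Crest.Agent.R4.ClosL758 Crest.Agent.R4.ClosG758 Crest.Agent.R4.ClosR758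
open Crest.Agent.R4P.ClosR442 Crest.Agent.R4P.Grp36
open Crest.Agent.R4P.Xfer36 Crest.Agent.R4P.TopC36 Crest.Agent.R4P.PN36
open Crest.Agent.R4P.GMer27 Crest.Agent.R4P.GCol27 Crest.Agent.R4P.GWa343 Crest.Agent.R4P.GWb343
open Crest.Agent.R4P.GWc343 Crest.Agent.R4P.GWd343 Crest.Agent.R4P.GWf343 Crest.Agent.R4P.TrR343
open Crest.Agent.R4P.GWg343 (FX ctx_BI)
open Crest.Agent.R4P.MSd343 Crest.Agent.R4P.VR407 Crest.Agent.R4P.Bp407 Crest.Agent.R4P.DTm407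
open Crest.Agent.R4P.DTp26 (jv jv_nil jv_cons)
open Crest.Agent.R4P.Cnt588 Crest.Agent.R4P.Item758
open Crest.Agent.R4P.Bld532 (NS All NodeOk)
open Crest.Agent.R4P.WalkIT579 (tp isL toDT_top toDT_leaf)
open Crest.Agent.R4P.Walk560 (DT WrN)
open Crest.Agent.R4P.StratN36 (ex)
open Crest.Agent.R4P.Step588 Crest.Agent.R4P.RseSt23
open Crest.Agent.R4P.TYI47 Crest.Agent.R4P.TYJ47

/-! ### supports -/

section supp
variable {μ Λ κ : Type} [Fintype Λ] [DecidableEq Λ] [Fintype κ] [DecidableEq κ]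
  {D : Par Λ κ} {sp : ℕ → Finset Λ} {tu' : ℕ → μ → μ} {R : ℕ → μ → NS → IT → Prop}

lemma ls_mem {f : DT Λ κ → Λ → ℝ → ℝ} : ∀ {K : List (DT Λ κ)} {j : Λ} {x : ℝ}, ls f K j x ≠ 0 →
    ∃ t ∈ K, f t j x ≠ 0 := by
  intro K
  induction K with
  | nil => intro j x h; exact absurd rfl h
  | cons t K ih =>
    intro j x h
    rw [ls_cons] at h
    by_cases h1 : f t j x = 0
    · rw [h1, zero_add] at h
      obtain ⟨s, hs, h2⟩ := ih h
      exact ⟨s, List.mem_cons_of_mem _ hs, h2⟩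
    · exact ⟨t, by simp, h1⟩

lemma jv_mem : ∀ {L : List (DT Λ κ)} {j : Λ} {x : ℝ}, jv L j x ≠ 0 → ∃ t ∈ L, t.g.val j x ≠ 0 := by
  intro L
  induction L with
  | nil => intro j x h; exact absurd (jv_nil j x) h
  | cons t K ih =>
    intro j x h
    rw [jv_cons] at h
    by_cases h1 : t.g.val j x = 0
    · rw [h1, zero_add] at h
      obtain ⟨s, hs, h2⟩ := ih h
      exact ⟨s, List.mem_cons_of_mem _ hs, h2⟩
    · exact ⟨t, by simp, h1⟩

lemma jv_node {p : ℕ} {m : μ} {L : List (DT Λ κ)} (h : mems D sp R p m L) {j : Λ} {x : ℝ}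
    (hj : jv L j x ≠ 0) : ∃ s τ, R p m s τ ∧ D.toDT sp s.B s.A τ ∈ L ∧
      (D.toDT sp s.B s.A τ).g.val j x ≠ 0 := by
  obtain ⟨t, ht, h1⟩ := jv_mem hj
  obtain ⟨s, τ, hs, rfl⟩ := h t ht
  exact ⟨s, τ, hs, ht, h1⟩

lemma jv_bB_node (H : Car tu' R) {p : ℕ} {m : μ} {L : List (DT Λ κ)} (h : mems D sp R p m L)
    {j : Λ} {x : ℝ} (hj : jv (GWa343.bB p L) j x ≠ 0) :
    (∃ s Sp t₁ t₀, R p m s (.br p Sp t₁ t₀) ∧
      (D.toDT sp s.B s.A (.br p Sp t₁ t₀)).g.val j x ≠ 0) ∨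
    ∃ s t₁, R p m s (.pl p t₁) ∧ (D.toDT sp s.B s.A (.pl p t₁)).g.val j x ≠ 0 := by
  obtain ⟨t, ht, h1⟩ := jv_mem hj
  rcases bB_cases H h ht with ⟨s, Sp, t₁, t₀, hs, rfl⟩ | ⟨s, t₁, hs, rfl⟩
  · exact Or.inl ⟨s, Sp, t₁, t₀, hs, h1⟩
  · exact Or.inr ⟨s, t₁, hs, h1⟩

/-- **P content of the tie** -/
lemma pA_node (H : Car tu' R) {p : ℕ} (hp : p ≠ 0) {m : μ} {L : List (DT Λ κ)}
    (h : mems D sp R p m L) {j : Λ} {y : ℝ} (hj : pA (GWa343.bB p L) j y ≠ 0) :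
    ∃ s Sp t₁ t₀, R p m s (.br p Sp t₁ t₀) ∧
      R p (tu' p m) ⟨p, s.c / (1 - 1 / (p : ℝ)), s.A * p, s.B⟩ t₁ ∧
      (D.toDT sp s.B (s.A * p) t₁).g.val j y ≠ 0 := by
  obtain ⟨t, ht, h1⟩ := ls_mem hj
  rcases bB_cases H h ht with ⟨s, Sp, t₁, t₀, hs, rfl⟩ | ⟨s, t₁, hs, rfl⟩
  · refine ⟨s, Sp, t₁, t₀, hs, (H.br hs).1, ?_⟩
    have hw : (1 / (p : ℝ)) ≠ 0 := one_div_ne_zero (by exact_mod_cast hp)
    have h2 : (if 1 / (p : ℝ) = 0 then 0 else (D.toDT sp s.B (s.A * p) t₁).g.val j y) ≠ 0 := h1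
    rwa [if_neg hw] at h2
  · exfalso
    have h2 : (if (0 : ℝ) = 0 then 0 else (D.toDT sp s.B (s.A * p) t₁).g.val j y) ≠ 0 := h1
    exact h2 (if_pos rfl)

/-- **N content of the tie** -/
lemma pB_node (H : Car tu' R) {p : ℕ} (hp : p ≠ 0) {m : μ} {L : List (DT Λ κ)}
    (h : mems D sp R p m L) {j : Λ} {y : ℝ} (hj : pB (GWa343.bB p L) j y ≠ 0) :
    ∃ s Sp t₁ t₀, R p m s (.br p Sp t₁ t₀) ∧
      R p (tu' p m) ⟨p, s.c * p, s.A, s.B * p⟩ t₀ ∧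
      (D.toDT sp (s.B * p) s.A t₀).g.val j y ≠ 0 := by
  obtain ⟨t, ht, h1⟩ := ls_mem hj
  rcases bB_cases H h ht with ⟨s, Sp, t₁, t₀, hs, rfl⟩ | ⟨s, t₁, hs, rfl⟩
  · refine ⟨s, Sp, t₁, t₀, hs, (H.br hs).2, ?_⟩
    have hw : (1 / (p : ℝ)) ≠ 0 := one_div_ne_zero (by exact_mod_cast hp)
    have h2 : (if 1 / (p : ℝ) = 0 then 0 else (D.toDT sp (s.B * p) s.A t₀).g.val j y) ≠ 0 := h1
    rwa [if_neg hw] at h2
  · exfalso
    have h2 : (if (0 : ℝ) = 0 then (0 : ℝ) else _) ≠ 0 := h1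
    exact h2 (if_pos rfl)

/-- **content of a pull** -/
lemma pQ_node (H : Car tu' R) {p : ℕ} (hp : p ≠ 0) {m : μ} {L : List (DT Λ κ)}
    (h : mems D sp R p m L) {j : Λ} {y : ℝ} (hj : pQ (GWa343.bB p L) j y ≠ 0) :
    ∃ s t₁, R p m s (.pl p t₁) ∧ R p (tu' p m) ⟨p + 1, s.c, s.A * p, s.B⟩ t₁ ∧
      (D.toDT sp s.B (s.A * p) t₁).g.val j y ≠ 0 := by
  obtain ⟨t, ht, h1⟩ := ls_mem hj
  rcases bB_cases H h ht with ⟨s, Sp, t₁, t₀, hs, rfl⟩ | ⟨s, t₁, hs, rfl⟩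
  · exfalso
    have hw : (1 / (p : ℝ)) ≠ 0 := one_div_ne_zero (by exact_mod_cast hp)
    have h2 : (if 1 / (p : ℝ) = 0 then _ else (0 : ℝ)) ≠ 0 := h1
    exact h2 (if_neg hw)
  · refine ⟨s, t₁, hs, H.pl hs, ?_⟩
    have h2 : (if (0 : ℝ) = 0 then (D.toDT sp s.B (s.A * p) t₁).g.val j y else 0) ≠ 0 := h1
    rwa [if_pos rfl] at h2

/-- **position** of a piece with nonzero content at a node -/
theorem val_supp {b pr : ℕ} {τ : IT} (hb : 0 < b) (hF : Fit b pr τ) (hW : D.Wts pr τ) {j : Λ}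
    {x : ℝ} (h : (D.toDT sp b pr τ).g.val j x ≠ 0) :
    D.it j ∈ τ.items ∧ ∃ a : ℤ, D.om j ((mp τ (D.it j) : ℕ) * a) ≠ 0 ∧
      (b : ℝ) * D.al j ≤ ((D.it j / pr : ℕ) : ℝ) * x - (b : ℝ) * D.γ - a ∧
      ((D.it j / pr : ℕ) : ℝ) * x - (b : ℝ) * D.γ - a < (b : ℝ) * D.be j := by
  rw [D.toDT_g, D.toG_val hb hF hW] at h
  obtain ⟨h1, a, h2, h3, h4⟩ := D.supp hb hF hW (one_dvd b) h
  refine ⟨h1, a, ?_, ?_, ?_⟩
  · simpa using h2
  · simpa using h3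
  · simpa using h4

end supp

/-! ### contexts -/

section ctx
open Crest.Agent.R4P.Skel189 Crest.Agent.R4P.Frame758 Crest.Agent.R4P.Data758
open Crest.Agent.R4.Soft104 Crest.Agent.R4.Fam464
open Crest.Agent.R4P.StratX36 Crest.Agent.R4P.TopX36 Crest.Agent.R4P.GWa343
open Crest.Agent.R4P.Sep244 Crest.Agent.R4P.CrsD26 Crest.Agent.R4P.Mrg35

variable {N : Skel189.Num} {γ : ℝ} {p0 P₀ : ℕ} (X : Ctx N γ p0 P₀)

lemma self_p (u : NS) (τ : IT) : (X.self u τ Finset.univ).p = tp τ := by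
  have e : (X.self u τ Finset.univ).t.top = tp τ := toDT_top (X.c.D.par X.Y) X.c.sp u.B u.A τ
  show max (X.self u τ Finset.univ).t.top (X.self u τ Finset.univ).t.top = tp τ
  rw [max_self, e]

/-- the class maps of a context -/
noncomputable abbrev rhoX : ℕ → X.c.Lam → LbX X := (X.c.D.par X.Y).rho

/-- the memory invariant of a context -/
abbrev MiX (Q : NS → IT → Prop) : ℕ → ℕ × ℕ → List (DT X.c.Lam (LbX X)) → Prop :=
  mems (X.c.D.par X.Y) X.c.sp (Rm X.c.t Q)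

/-- **the start bundle of every node of a context** -/
theorem ctx_IV (j₀ : X.c.Lam) (hG : PG X.par (w X.ψ)) {Q : NS → IT → Prop}
    (hQN : ∀ u τ, Q u τ → NDt X.par (w X.ψ) X.c.t u τ)
    (hQ : All Q ⟨Skel189.top X.S, 1, 1, 1⟩ X.c.t) :
    All (fun u τ => IV (rhoX X) (fun _ => True) (MiX X Q) (tb (X.self u τ Finset.univ).t)
      (X.self u τ Finset.univ).p (m0 u τ, [(X.self u τ Finset.univ).t]))
      ⟨Skel189.top X.S, 1, 1, 1⟩ X.c.t := by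
  have h1 := ctx_BI X j₀ hG
  have h2 := ctx_VR X j₀
  have h3 := Step588.All_All _ _ hQ
  refine All.mono (fun u τ hh => ?_) (All.and h1 (All.and h2 h3))
  obtain ⟨a1, a2, a3⟩ := hh
  rw [self_p X u τ]
  have e : (X.self u τ Finset.univ).t.top = tp τ := toDT_top (X.c.D.par X.Y) X.c.sp u.B u.A τ
  rw [e] at a1
  refine IV.start ⟨fun t ht => ?_, a1.add, a1.col, a1.dis⟩ ?_
  · have ht' := List.mem_singleton.1 ht
    subst ht'
    exact ((a1.all _ (by simp)).and a2).mono fun t ht =>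
      (⟨ht, trivial⟩ : FV (rhoX X) (fun _ => True) t)
  · intro t ht
    have ht' := List.mem_singleton.1 ht
    subst ht'
    exact ⟨u, τ, Rm.start hQN X.tOk a3, rfl⟩

/-- the memory invariant of a context is closed -/
theorem ctx_mok {Q : NS → IT → Prop} (hQN : ∀ u τ, Q u τ → NDt X.par (w X.ψ) X.c.t u τ)
    (F : DT X.c.Lam (LbX X) → Prop) : MOk tu F (MiX X Q) :=
  (Rm.car hQN X.tOk).mok F

/-- the total of the start bundle -/
lemma bt_start (u : NS) (τ : IT) (x : ℝ) :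
    bt [(X.self u τ Finset.univ).t] x = tt Finset.univ (X.g u τ) x := by
  have e : (X.self u τ Finset.univ).t.g = X.g u τ := tD_g X.c.D X.c.sp u.B u.A τ
  unfold bt tt
  simp only [List.map_cons, List.map_nil, List.sum_cons, List.sum_nil, add_zero]
  rw [e, rv_univ]

variable {X} {Q : NS → IT → Prop} {p : ℕ} {m : ℕ × ℕ} {u : NS} {τ : IT}

/-- **position** of a piece with nonzero content at a node of a context -/
theorem ctx_supp (h : NDt X.par (w X.ψ) X.c.t u τ) {j : X.c.Lam} {x : ℝ}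
    (hj : ((X.c.D.par X.Y).toDT X.c.sp u.B u.A τ).g.val j x ≠ 0) :
    j.1.1 ∈ τ.items ∧ ∃ a : ℤ, (X.c.D.par X.Y).om j ((mp τ j.1.1 : ℕ) * a) ≠ 0 ∧
      (u.B : ℝ) * (X.c.D.par X.Y).al j ≤
        ((j.1.1 / u.A : ℕ) : ℝ) * x - (u.B : ℝ) * (X.c.D.par X.Y).γ - a ∧
      ((j.1.1 / u.A : ℕ) : ℝ) * x - (u.B : ℝ) * (X.c.D.par X.Y).γ - a <
        (u.B : ℝ) * (X.c.D.par X.Y).be j :=
  val_supp h.B_pos h.fit (RseNd23.node_wts h X.Y) hj

end ctx

end Crest.Agent.R4P.TYK47
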