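import Crest.Agent.R4P.ParF_5
import Crest.Agent.R4P.PruneAcc_17

/-!
R4 (S0004), powers, helper21: **the thinness of the columns on a coarse grid with a shift which depends
on the system**, prune of the straddlers.

* `uG Ct p = Ct log 2 rg p` (`thrF Ct p = exp (-uG Ct p)`), `iG Ct a p = ⌊√(uG Ct p) - a⌋₊`,
  `thrG Ct a p = exp (-(iG + a)²)`, `thrN Ct a p = exp (-(iG - 1 + a)²)` (next value of the grid);
* `rS t ψ q s` : radius of the item `q` in the stage which starts at its missing tie `s`;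
* `Zn a u` : `u = log (1/R)` is within `u^(1/4)` of a value `(i + a)²` of the grid;
* `StrOk Ct a u0 t ψ q` : no fat-start stage of `q` with `u ≥ u0` is in a zone; `SxG` : kept items;
* `aF Ct p0 ψ S` : the shift; `SxG_mass` : the mass of the kept items is `≥ (1 - ε)`.
-/

set_option autoImplicit false

namespace Crest.Agent.R4P.ThrG21

open Filter
open Crest.Agent.R4P.Cnt588 Crest.Agent.R4P.Bld532 Crest.Agent.R4.Max709 Crest.Agent.R4.Soft104
open Crest.Agent.R4P.Skel189 Crest.Agent.R4P.ParF5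
open Crest.Agent.R4P.PruneAcc17 (Bab)

/-- `thrF Ct p = exp (-uG Ct p)` -/
noncomputable def uG (Ct : ℝ) (p : ℕ) : ℝ := Ct * Real.log 2 * rg p

/-- index of the grid value of the column -/
noncomputable def iG (Ct a : ℝ) (p : ℕ) : ℕ := ⌊Real.sqrt (uG Ct p) - a⌋₊

/-- **thinness on the grid** `exp (-(i + a)²)` -/
noncomputable def thrG (Ct a : ℝ) (p : ℕ) : ℝ := Real.exp (-((iG Ct a p : ℝ) + a) ^ 2)

/-- the next (larger) value of the grid -/
noncomputable def thrN (Ct a : ℝ) (p : ℕ) : ℝ := Real.exp (-((iG Ct a p : ℝ) - 1 + a) ^ 2)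

/-- radius of the item `q` in the stage which starts at its missing tie `s` (`= Bir30.Rad`) -/
noncomputable def rS (t : IT) (ψ : ℕ → ℝ) (q s : ℕ) : ℝ := (s : ℝ) * (Bab t q s * (ψ q / 2))

/-- **zone of a grid value**, `u = log (1 / R)` -/
def Zn (a u : ℝ) : Prop := ∃ i : ℕ, |u - ((i : ℝ) + a) ^ 2| ≤ u ^ (1 / 4 : ℝ)

/-- **no straddling stage** : the stages of `q` which are fat at their start (`thrF Ct s < R`) and have
`u = log (1/R) ≥ u0` are not in a zone of the grid -/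
def StrOk (Ct a u0 : ℝ) (t : IT) (ψ : ℕ → ℝ) (q : ℕ) : Prop :=
  ∀ s ∈ t.mt q, thrF Ct s < rS t ψ q s → u0 ≤ Real.log (1 / rS t ψ q s) →
    ¬ Zn a (Real.log (1 / rS t ψ q s))

/-- the level of the zones: `(Ct / 4) log log p0` -/
noncomputable def u0F (Ct : ℝ) (p0 : ℕ) : ℝ := Ct / 4 * Real.log (Real.log p0)

open Classical in
/-- the kept items for the shift `a` -/
noncomputable def SxG (Ct a : ℝ) (t : IT) (p0 : ℕ) (ψ : ℕ → ℝ) (S : Finset ℕ) : Finset ℕ :=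
  S.filter fun q => StrOk Ct a (u0F Ct p0) t ψ q

/-- the tree of the final numbers (`Ct = 120 C1`, `B = 4 C1`, `c2 = 1`) -/
noncomputable def trF (Ct : ℝ) (p0 : ℕ) (ψ : ℕ → ℝ) (S : Finset ℕ) : IT :=
  bld (Bld532.par (4 * (Ct / 120)) (Ct / 120) 1 p0) (w ψ) (top S) 1 1 S

open Classical in
/-- **the shift of the system** -/
noncomputable def aF (Ct : ℝ) (p0 : ℕ) (ψ : ℕ → ℝ) (S : Finset ℕ) : ℝ :=
  if h : ∃ a : ℝ, 0 ≤ a ∧ a < 1 ∧
      (1 - 1 / 16) * Ws (w ψ) S ≤ Ws (w ψ) (SxG Ct a (trF Ct p0 ψ S) p0 ψ S) then h.choose else 0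

/-! ### the mass lemma (any tree) -/

/-- **MASS LEMMA** (helper26): some shift keeps most of the mass -/
def MassG : Prop := ∀ (Ct ε : ℝ), 1 ≤ Ct → 0 < ε → ∃ p₁ : ℕ, ∀ p0 ≥ p₁, ∀ (t : IT) (n : ℕ), t.Ok n →
  ∀ (ψ : ℕ → ℝ) (S : Finset ℕ), (∀ q, 0 ≤ ψ q) → ∃ a : ℝ, 0 ≤ a ∧ a < 1 ∧
    (1 - ε) * Ws (w ψ) S ≤ Ws (w ψ) (SxG Ct a t p0 ψ S)

end Crest.Agent.R4P.ThrG21
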