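import Crest.Agent.R4P.MisR_16
import Crest.Agent.R4.Tour104

/-!
R4 (S0004) with powers, T3 (heights > 1), helper28: **the truncation of a row with a mismatch**.

A tie of weight `w`, children contents `A` (P), `B` (N) of any height, `mm w A B = (1-w) A + w B`,
exact row `X s = mm + (s - w) Δ`, `0 ≤ Δ ≤ (B-A)^+`, mismatch `η ≤ X 0 = mm - w Δ`.  The real row is
`mn s + sp s`, `mn s = X s - w η (1-s)` (stays in the class), `sp s = (1-w) (s η)` (separated), `s` =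
share of the special point (shape of `MisR16.mism_row`, `Mism16.PM_col`).

At the scale `σ` the truncated contents `A ⊓ σ`, `B ⊓ σ` have the VIRTUAL row with
`D1 A B Δ σ = Δ ⊓ (B ⊓ σ - A ⊓ σ)^+` and `E1 w A B Δ η σ` (explicit, measurable):

* `D1_nonneg`, `D1_le`, `D1_le_max`, `D1_le_sig`; `E1_nonneg`, `E1_le`, `E1_le_ns`, `E1_le_sig`;
* `mn_ge` : **`mn1 s ≤ mn s ⊓ σ`**, `sp_ge` : **`sp1 s ≤ sp s ⊓ σ`** (the difference are births `≥ 0`);
* `X_ge` : the exact row; `lift_le` : `s (D1 + E1) ≤ s (Δ + η)`; `tot_id` : `mn1 + sp1` = row of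
  `D1 + E1`, with mean `mm` of the truncated contents (`mean_tot`);
* `row_sig` : the three halves energy of the virtual row (`mism_row`);
* `PB_D1`, `PB_E1`.
-/

set_option autoImplicit false
set_option linter.unusedVariables false

namespace Crest.Agent.R4P.TrM28

open Finset Crest.Agent.R4P.MisR16 Crest.Agent.R4.Tour104

/-- the mean -/
noncomputable def mm (w A B : ℝ) : ℝ := (1 - w) * A + w * B

/-- the truncated drop -/
noncomputable def D1 (A B Δ σ : ℝ) : ℝ := min Δ (max (min B σ - min A σ) 0)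

/-- the truncated mismatch -/
noncomputable def E1 (w A B Δ η σ : ℝ) : ℝ :=
  max (η - ((mm w A B - w * Δ) - (mm w (min A σ) (min B σ) - w * D1 A B Δ σ)) / w) 0

section
variable {w A B Δ η σ s : ℝ}

lemma D1_nonneg (hΔ0 : 0 ≤ Δ) : 0 ≤ D1 A B Δ σ := le_min hΔ0 (le_max_right _ _)

lemma D1_le : D1 A B Δ σ ≤ Δ := min_le_left _ _

lemma D1_le_max : D1 A B Δ σ ≤ max (min B σ - min A σ) 0 := min_le_right _ _

lemma D1_le_B (hA : 0 ≤ A) (hB : 0 ≤ B) (hσ : 0 ≤ σ) : D1 A B Δ σ ≤ min B σ := by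
  refine D1_le_max.trans (max_le ?_ (le_min hB hσ))
  have : 0 ≤ min A σ := le_min hA hσ
  linarith

lemma D1_le_sig (hA : 0 ≤ A) (hB : 0 ≤ B) (hσ : 0 ≤ σ) : D1 A B Δ σ ≤ σ :=
  (D1_le_B hA hB hσ).trans (min_le_right _ _)

lemma mm_le_sig (hw0 : 0 ≤ w) (hw1 : w ≤ 1) : mm w (min A σ) (min B σ) ≤ σ := by
  unfold mm
  have h1 : (1 - w) * min A σ ≤ (1 - w) * σ :=
    mul_le_mul_of_nonneg_left (min_le_right _ _) (by linarith)
  have h2 : w * min B σ ≤ w * σ := mul_le_mul_of_nonneg_left (min_le_right _ _) hw0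
  linarith

lemma mm_mono (hw0 : 0 ≤ w) (hw1 : w ≤ 1) : mm w (min A σ) (min B σ) ≤ mm w A B := by
  unfold mm
  have h1 : (1 - w) * min A σ ≤ (1 - w) * A :=
    mul_le_mul_of_nonneg_left (min_le_left _ _) (by linarith)
  have h2 : w * min B σ ≤ w * B := mul_le_mul_of_nonneg_left (min_le_left _ _) hw0
  linarith

/-- the truncated exact row at a point which is not special -/
lemma ns_nonneg (hw0 : 0 ≤ w) (hw1 : w ≤ 1) (hA : 0 ≤ A) (hB : 0 ≤ B) (hσ : 0 ≤ σ) :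
    0 ≤ mm w (min A σ) (min B σ) - w * D1 A B Δ σ := by
  have ha : 0 ≤ min A σ := le_min hA hσ
  have hb : 0 ≤ min B σ := le_min hB hσ
  have h := mul_le_mul_of_nonneg_left (D1_le_B (Δ := Δ) hA hB hσ) hw0
  have h2 : 0 ≤ (1 - w) * min A σ := mul_nonneg (by linarith) ha
  unfold mm
  linarith

lemma ns_le (hw0 : 0 ≤ w) (hw1 : w ≤ 1) (hΔ : Δ ≤ max (B - A) 0) :
    mm w (min A σ) (min B σ) - w * D1 A B Δ σ ≤ mm w A B - w * Δ := by
  have hmm := mm_mono (A := A) (B := B) (σ := σ) hw0 hw1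
  rcases le_total Δ (max (min B σ - min A σ) 0) with h | h
  · have e : D1 A B Δ σ = Δ := min_eq_left h
    rw [e]
    linarith
  · have e : D1 A B Δ σ = max (min B σ - min A σ) 0 := min_eq_right h
    rw [e]
    rcases le_total B A with hab | hab
    · rw [max_eq_right (by linarith : B - A ≤ 0)] at hΔ
      have h3 : w * Δ ≤ w * 0 := mul_le_mul_of_nonneg_left hΔ hw0
      have h4 : 0 ≤ w * max (min B σ - min A σ) 0 := mul_nonneg hw0 (le_max_right _ _)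
      linarith
    · rw [max_eq_left (by linarith : 0 ≤ B - A)] at hΔ
      have h1 : min B σ - min A σ ≤ max (min B σ - min A σ) 0 := le_max_left _ _
      have h2 := mul_le_mul_of_nonneg_left h1 hw0
      have h3 := mul_le_mul_of_nonneg_left hΔ hw0
      have h4 : min A σ ≤ A := min_le_left _ _
      unfold mm
      nlinarith

lemma sp_le (hw0 : 0 ≤ w) (hw1 : w ≤ 1) :
    mm w (min A σ) (min B σ) + (1 - w) * D1 A B Δ σ ≤ mm w A B + (1 - w) * Δ := by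
  have hmm := mm_mono (A := A) (B := B) (σ := σ) hw0 hw1
  have h := mul_le_mul_of_nonneg_left (D1_le (A := A) (B := B) (Δ := Δ) (σ := σ))
    (show 0 ≤ 1 - w by linarith)
  linarith

lemma sp_le_sig (hw0 : 0 ≤ w) (hw1 : w ≤ 1) :
    mm w (min A σ) (min B σ) + (1 - w) * D1 A B Δ σ ≤ σ := by
  have h := mul_le_mul_of_nonneg_left (D1_le_max (A := A) (B := B) (Δ := Δ) (σ := σ))
    (show 0 ≤ 1 - w by linarith)
  have ha : min A σ ≤ σ := min_le_right _ _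
  have hb : min B σ ≤ σ := min_le_right _ _
  rcases le_total (min B σ) (min A σ) with hab | hab
  · rw [max_eq_right (by linarith)] at h
    have := mm_le_sig (A := A) (B := B) (σ := σ) hw0 hw1
    linarith
  · rw [max_eq_left (by linarith)] at h
    unfold mm
    nlinarith

/-- **the truncated exact row** -/
lemma X_ge (hw0 : 0 ≤ w) (hw1 : w ≤ 1) (hΔ0 : 0 ≤ Δ) (hΔ : Δ ≤ max (B - A) 0) (s0 : 0 ≤ s)
    (s1 : s ≤ 1) : mm w (min A σ) (min B σ) + (s - w) * D1 A B Δ σ ≤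
      min (mm w A B + (s - w) * Δ) σ := by
  have a1 := ns_le (σ := σ) hw0 hw1 hΔ
  have a2 := sp_le (A := A) (B := B) (Δ := Δ) (σ := σ) hw0 hw1
  have a3 : mm w (min A σ) (min B σ) - w * D1 A B Δ σ ≤ σ := by
    have := mm_le_sig (A := A) (B := B) (σ := σ) hw0 hw1
    have := mul_nonneg hw0 (D1_nonneg (A := A) (B := B) (σ := σ) hΔ0)
    linarith
  have a4 := sp_le_sig (A := A) (B := B) (Δ := Δ) (σ := σ) hw0 hw1
  have t0 : 0 ≤ 1 - s := by linarith
  have e1 : mm w (min A σ) (min B σ) + (s - w) * D1 A B Δ σ =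
      (1 - s) * (mm w (min A σ) (min B σ) - w * D1 A B Δ σ) +
        s * (mm w (min A σ) (min B σ) + (1 - w) * D1 A B Δ σ) := by ring
  have e2 : mm w A B + (s - w) * Δ = (1 - s) * (mm w A B - w * Δ) +
      s * (mm w A B + (1 - w) * Δ) := by ring
  refine le_min ?_ ?_
  · rw [e1, e2]
    exact add_le_add (mul_le_mul_of_nonneg_left a1 t0) (mul_le_mul_of_nonneg_left a2 s0)
  · rw [e1]
    have b1 := mul_le_mul_of_nonneg_left a3 t0
    have b2 := mul_le_mul_of_nonneg_left a4 s0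
    linarith

lemma E1_nonneg : 0 ≤ E1 w A B Δ η σ := le_max_right _ _

lemma E1_ge (hw0 : 0 < w) : w * η - ((mm w A B - w * Δ) -
    (mm w (min A σ) (min B σ) - w * D1 A B Δ σ)) ≤ w * E1 w A B Δ η σ := by
  have h : η - ((mm w A B - w * Δ) - (mm w (min A σ) (min B σ) - w * D1 A B Δ σ)) / w ≤
      E1 w A B Δ η σ := le_max_left _ _
  have h2 := mul_le_mul_of_nonneg_left h hw0.le
  have e : w * (η - ((mm w A B - w * Δ) -
      (mm w (min A σ) (min B σ) - w * D1 A B Δ σ)) / w) = w * η - ((mm w A B - w * Δ) -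
      (mm w (min A σ) (min B σ) - w * D1 A B Δ σ)) := by
    field_simp
  rw [e] at h2
  exact h2

lemma E1_le (hw0 : 0 < w) (hw1 : w ≤ 1) (hΔ : Δ ≤ max (B - A) 0) (hη : 0 ≤ η) :
    E1 w A B Δ η σ ≤ η := by
  refine max_le ?_ hη
  have h := ns_le (σ := σ) hw0.le hw1 hΔ
  have : 0 ≤ ((mm w A B - w * Δ) - (mm w (min A σ) (min B σ) - w * D1 A B Δ σ)) / w :=
    div_nonneg (by linarith) hw0.le
  linarith

lemma E1_le_ns (hw0 : 0 < w) (hw1 : w ≤ 1) (hA : 0 ≤ A) (hB : 0 ≤ B) (hσ : 0 ≤ σ)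
    (hΔ : Δ ≤ max (B - A) 0) (hη1 : η ≤ mm w A B - w * Δ) :
    E1 w A B Δ η σ ≤ mm w (min A σ) (min B σ) - w * D1 A B Δ σ := by
  refine max_le ?_ (ns_nonneg hw0.le hw1 hA hB hσ)
  have h := ns_le (σ := σ) hw0.le hw1 hΔ
  set a := mm w A B - w * Δ with ha
  set b := mm w (min A σ) (min B σ) - w * D1 A B Δ σ with hb
  have h2 : a - b ≤ (a - b) / w := by
    rw [le_div_iff₀ hw0]
    have : (a - b) * w ≤ (a - b) * 1 := mul_le_mul_of_nonneg_left hw1 (by linarith)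
    linarith
  linarith

lemma E1_le_sig (hw0 : 0 < w) (hw1 : w ≤ 1) (hA : 0 ≤ A) (hB : 0 ≤ B) (hσ : 0 ≤ σ)
    (hΔ0 : 0 ≤ Δ) (hΔ : Δ ≤ max (B - A) 0) (hη1 : η ≤ mm w A B - w * Δ) :
    E1 w A B Δ η σ ≤ σ := by
  refine (E1_le_ns hw0 hw1 hA hB hσ hΔ hη1).trans ?_
  have h1 := mm_le_sig (A := A) (B := B) (σ := σ) hw0.le hw1
  have h2 := mul_nonneg hw0.le (D1_nonneg (A := A) (B := B) (σ := σ) hΔ0)
  linarith

/-- **the main part**: the virtual main part is at most the truncated main part -/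
theorem mn_ge (hw0 : 0 < w) (hw1 : w ≤ 1) (hΔ0 : 0 ≤ Δ) (hΔ : Δ ≤ max (B - A) 0)
    (s0 : 0 ≤ s) (s1 : s ≤ 1) :
    mm w (min A σ) (min B σ) + (s - w) * D1 A B Δ σ - w * E1 w A B Δ η σ * (1 - s) ≤
      min (mm w A B + (s - w) * Δ - w * η * (1 - s)) σ := by
  have t0 : 0 ≤ 1 - s := by linarith
  have k := X_ge (σ := σ) hw0.le hw1 hΔ0 hΔ s0 s1
  have k1 := k.trans (min_le_left _ _)
  have k2 := k.trans (min_le_right _ _)
  have hE : 0 ≤ w * E1 w A B Δ η σ * (1 - s) := by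
    have := E1_nonneg (w := w) (A := A) (B := B) (Δ := Δ) (η := η) (σ := σ)
    positivity
  refine le_min ?_ (by linarith)
  -- linear in `s`
  have a1 := E1_ge (A := A) (B := B) (Δ := Δ) (η := η) (σ := σ) hw0
  have a2 := sp_le (A := A) (B := B) (Δ := Δ) (σ := σ) hw0.le hw1
  have b1 : mm w (min A σ) (min B σ) - w * D1 A B Δ σ - w * E1 w A B Δ η σ ≤
      mm w A B - w * Δ - w * η := by linarith
  have b2 := mul_le_mul_of_nonneg_left b1 t0
  have b3 := mul_le_mul_of_nonneg_left a2 s0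
  nlinarith [b2, b3]

/-- **the separated part** -/
theorem sp_ge (hw0 : 0 < w) (hw1 : w ≤ 1) (hA : 0 ≤ A) (hB : 0 ≤ B) (hσ : 0 ≤ σ)
    (hΔ0 : 0 ≤ Δ) (hΔ : Δ ≤ max (B - A) 0) (hη : 0 ≤ η) (hη1 : η ≤ mm w A B - w * Δ)
    (s0 : 0 ≤ s) (s1 : s ≤ 1) :
    (1 - w) * (s * E1 w A B Δ η σ) ≤ min ((1 - w) * (s * η)) σ := by
  have h1 := E1_le (σ := σ) hw0 hw1 hΔ hη
  have h2 := E1_le_sig hw0 hw1 hA hB hσ hΔ0 hΔ hη1
  have t0 : 0 ≤ 1 - w := by linarith
  refine le_min ?_ ?_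
  · exact mul_le_mul_of_nonneg_left (mul_le_mul_of_nonneg_left h1 s0) t0
  · have h3 : s * E1 w A B Δ η σ ≤ 1 * σ :=
      mul_le_mul s1 h2 E1_nonneg zero_le_one
    have h4 : (1 - w) * (s * E1 w A B Δ η σ) ≤ 1 * (s * E1 w A B Δ η σ) :=
      mul_le_mul_of_nonneg_right (by linarith) (mul_nonneg s0 E1_nonneg)
    linarith

/-- the virtual main part is nonnegative -/
lemma mn_nonneg (hw0 : 0 < w) (hw1 : w ≤ 1) (hA : 0 ≤ A) (hB : 0 ≤ B) (hσ : 0 ≤ σ)
    (hΔ0 : 0 ≤ Δ) (hΔ : Δ ≤ max (B - A) 0) (hη1 : η ≤ mm w A B - w * Δ)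
    (s0 : 0 ≤ s) (s1 : s ≤ 1) :
    0 ≤ mm w (min A σ) (min B σ) + (s - w) * D1 A B Δ σ - w * E1 w A B Δ η σ * (1 - s) := by
  have h1 := E1_le_ns hw0 hw1 hA hB hσ hΔ hη1
  have h0 := E1_nonneg (w := w) (A := A) (B := B) (Δ := Δ) (η := η) (σ := σ)
  have h2 : 0 ≤ s * D1 A B Δ σ := mul_nonneg s0 (D1_nonneg hΔ0)
  have h3 : w * E1 w A B Δ η σ * (1 - s) ≤ 1 * E1 w A B Δ η σ * 1 := by
    have t0 : 0 ≤ 1 - s := by linarith
    exact mul_le_mul (mul_le_mul_of_nonneg_right hw1 h0) (by linarith) t0 (by linarith)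
  linarith

/-- the main part is at most the exact row -/
lemma mn_le_X (hw0 : 0 ≤ w) (s1 : s ≤ 1) :
    mm w (min A σ) (min B σ) + (s - w) * D1 A B Δ σ - w * E1 w A B Δ η σ * (1 - s) ≤
      mm w (min A σ) (min B σ) + (s - w) * D1 A B Δ σ := by
  have h0 := E1_nonneg (w := w) (A := A) (B := B) (Δ := Δ) (η := η) (σ := σ)
  have : 0 ≤ w * E1 w A B Δ η σ * (1 - s) := mul_nonneg (mul_nonneg hw0 h0) (by linarith)
  linarith

/-- the lifts -/
lemma lift_le (hw0 : 0 < w) (hw1 : w ≤ 1) (hΔ : Δ ≤ max (B - A) 0) (hη : 0 ≤ η) (s0 : 0 ≤ s) :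
    s * (D1 A B Δ σ + E1 w A B Δ η σ) ≤ s * (Δ + η) :=
  mul_le_mul_of_nonneg_left (add_le_add D1_le (E1_le hw0 hw1 hΔ hη)) s0

/-- the two parts -/
lemma tot_id : (mm w (min A σ) (min B σ) + (s - w) * D1 A B Δ σ -
    w * E1 w A B Δ η σ * (1 - s)) + (1 - w) * (s * E1 w A B Δ η σ) =
      mm w (min A σ) (min B σ) + (s - w) * (D1 A B Δ σ + E1 w A B Δ η σ) :=
  mism_id _ _ _ _ _

end

section row
variable {ι : Type*} [Fintype ι] {u s : ι → ℝ} {w A B Δ η σ : ℝ}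

/-- the mean of the virtual row -/
lemma mean_tot (u1 : ∑ i, u i = 1) (hsu : ∑ i, u i * s i = w) (m D : ℝ) :
    ∑ i, u i * (m + (s i - w) * D) = m := by
  have e : ∀ i, u i * (m + (s i - w) * D) = m * u i + (u i * s i) * D - w * D * u i :=
    fun i => by ring
  rw [Finset.sum_congr rfl fun i _ => e i, Finset.sum_sub_distrib, Finset.sum_add_distrib,
    ← Finset.mul_sum, ← Finset.sum_mul, ← Finset.mul_sum, u1, hsu]
  ring

/-- **the energy of the virtual row at the scale `σ`** -/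
theorem row_sig (u0 : ∀ i, 0 ≤ u i) (u1 : ∑ i, u i = 1) (hs : ∀ i, 0 ≤ s i ∧ s i ≤ 1)
    (hsu : ∑ i, u i * s i = w) (hw0 : 0 < w) (hw1 : w ≤ 1 / 2) (hA : 0 ≤ A) (hB : 0 ≤ B)
    (hσ : 0 ≤ σ) (hΔ0 : 0 ≤ Δ) (hΔ : Δ ≤ max (B - A) 0) (hη1 : η ≤ mm w A B - w * Δ) :
    ∑ i, u i * (th (mm w (min A σ) (min B σ) + (s i - w) * D1 A B Δ σ -
        w * E1 w A B Δ η σ * (1 - s i)) + 5 / 4 * th ((1 - w) * (s i * E1 w A B Δ η σ)) +
      1 / 12 * th (s i * E1 w A B Δ η σ)) ≤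
      (1 - w) * th (min A σ) + w * th (min B σ) :=
  mism_row u0 u1 hs hsu hw0.le hw1 (le_min hA hσ) (le_min hB hσ) rfl (D1_nonneg hΔ0) D1_le_max
    E1_nonneg (E1_le_ns hw0 (by linarith) hA hB hσ hΔ hη1)

end row

/-! ### measurability and periodicity -/

section pb
variable {A B Δ η : ℝ → ℝ} {σ w : ℝ}

lemma PB_D1 (hA : PB A) (hB : PB B) (hD : PB Δ) (hσ : 0 ≤ σ) :
    PB fun x => D1 (A x) (B x) (Δ x) σ := by
  obtain ⟨K, hK⟩ := hD.bdd
  refine ⟨?_, fun x => D1_nonneg (hD.nonneg x), ⟨K, fun x => D1_le.trans (hK x)⟩, fun x => by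
    simp only [hA.per, hB.per, hD.per]⟩
  unfold D1
  exact hD.meas.min (((hB.meas.min measurable_const).sub
    (hA.meas.min measurable_const)).max measurable_const)

lemma meas_mm {a b : ℝ → ℝ} (ha : Measurable a) (hb : Measurable b) (w : ℝ) :
    Measurable fun x => mm w (a x) (b x) := by
  unfold mm
  exact (ha.const_mul _).add (hb.const_mul _)

lemma PB_E1 (hA : PB A) (hB : PB B) (hD : PB Δ) (hE : PB η) (hσ : 0 ≤ σ) (hw0 : 0 < w)
    (hw1 : w ≤ 1) (hΔ : ∀ x, Δ x ≤ max (B x - A x) 0) :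
    PB fun x => E1 w (A x) (B x) (Δ x) (η x) σ := by
  obtain ⟨K, hK⟩ := hE.bdd
  refine ⟨?_, fun x => E1_nonneg, ⟨K, fun x => (E1_le hw0 hw1 (hΔ x) (hE.nonneg x)).trans (hK x)⟩,
    fun x => by simp only [hA.per, hB.per, hD.per, hE.per]⟩
  unfold E1
  have h1 := meas_mm hA.meas hB.meas w
  have h2 := meas_mm (hA.meas.min (measurable_const (a := σ)))
    (hB.meas.min (measurable_const (a := σ))) w
  have h3 : Measurable fun x => D1 (A x) (B x) (Δ x) σ := (PB_D1 hA hB hD hσ).meas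
  exact (hE.meas.sub (((h1.sub (hD.meas.const_mul w)).sub (h2.sub (h3.const_mul w))).div_const
    w)).max measurable_const

end pb

end Crest.Agent.R4P.TrM28
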