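import Crest.Agent.R4P.MisR_16

/-!
R4 (S0004) with powers, helper16: **one tie with typed real classes** (one member, any height).

`w` weight of N.  Active content `A` (P), `B` (N): real row `V i = (1-w) A + w min A B + s i (B-A)^+`
(`s i` = share of the lifts on the sheet `i`).  Kept content `κ` (P, other real classes, real row
`(1-w) κ`).  In the game class `z` = active + kept, the kept content is separated at the special
sheets:  `mnR = V + (1-s)(1-w) κ`, `spR = s (1-w) κ`; exact row `exR` of `(A + κ, B)`.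

* `kept_sum`, `kept_dom : mnR ≤ exR`, `kept_lift`, **`kept_en`** (energy, factor `5/4`, and `1/12` for the
  extra lifts `s min κ (B-A)^+`).
* `kept_tr_mn`, `kept_tr_sp`, `kept_tr_tot` : truncation at `σ` : the rows of
  `(min A σ, min B σ, min (A+κ) σ - min A σ)` are below the truncated real contents.
-/

set_option autoImplicit false
set_option linter.unusedVariables false

namespace Crest.Agent.R4P.TyR16

open Finset Crest.Agent.R4P.MisR16

/-- lift of a class -/
noncomputable def dd (A B : ℝ) : ℝ := max (B - A) 0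

/-- real row of one class, share `s` -/
noncomputable def rV (w A B s : ℝ) : ℝ := (1 - w) * A + w * min A B + s * dd A B

/-- exact row of `(A, B)` in the form of `Col` -/
noncomputable def exR (w A B s : ℝ) : ℝ := ((1 - w) * A + w * B) + (s - w) * dd A B

/-- main part -/
noncomputable def mnR (w A B κ s : ℝ) : ℝ := rV w A B s + (1 - s) * ((1 - w) * κ)

/-- separated part -/
noncomputable def spR (w κ s : ℝ) : ℝ := s * ((1 - w) * κ)

lemma dd_nonneg (A B : ℝ) : 0 ≤ dd A B := le_max_right _ _

/-- the real row of one class is exact -/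
lemma rV_eq (w A B s : ℝ) : rV w A B s = exR w A B s := by
  unfold rV exR dd
  rcases le_total A B with h | h
  · rw [min_eq_left h, max_eq_left (by linarith)]; ring
  · rw [min_eq_right h, max_eq_right (by linarith)]; ring

lemma kept_sum (w A B κ s : ℝ) : mnR w A B κ s + spR w κ s = rV w A B s + (1 - w) * κ := by
  unfold mnR spR; ring

lemma mnR_conv (w A B κ s : ℝ) :
    mnR w A B κ s = (1 - s) * mnR w A B κ 0 + s * mnR w A B κ 1 := by
  unfold mnR rV; ring

lemma exR_conv (w A B s : ℝ) : exR w A B s = (1 - s) * exR w A B 0 + s * exR w A B 1 := by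
  unfold exR; ring

section one
variable {w A B κ s : ℝ}

lemma mnR_nonneg (hw0 : 0 ≤ w) (hw1 : w ≤ 1) (hA : 0 ≤ A) (hB : 0 ≤ B) (hκ : 0 ≤ κ)
    (s0 : 0 ≤ s) (s1 : s ≤ 1) : 0 ≤ mnR w A B κ s := by
  unfold mnR rV
  have h1 : 0 ≤ 1 - w := by linarith
  have h2 : 0 ≤ 1 - s := by linarith
  have h3 := dd_nonneg A B
  have h4 := le_min hA hB
  positivity

lemma spR_nonneg (hw1 : w ≤ 1) (hκ : 0 ≤ κ) (s0 : 0 ≤ s) : 0 ≤ spR w κ s := by
  unfold spR
  have h1 : 0 ≤ 1 - w := by linarith
  positivity

/-- **domination by the exact row of the game class** -/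
theorem kept_dom (hw0 : 0 ≤ w) (hw1 : w ≤ 1) (hκ : 0 ≤ κ) (s0 : 0 ≤ s) (s1 : s ≤ 1) :
    mnR w A B κ s ≤ exR w (A + κ) B s := by
  have a0 : mnR w A B κ 0 ≤ exR w (A + κ) B 0 := by
    unfold mnR rV exR dd
    rcases le_total A B with h | h
    · rw [min_eq_left h, max_eq_left (by linarith)]
      rcases le_total (A + κ) B with h2 | h2
      · rw [max_eq_left (by linarith)]; nlinarith [mul_nonneg hw0 hκ]
      · rw [max_eq_right (by linarith)]; nlinarith [mul_nonneg hw0 (sub_nonneg.2 h)]
    · rw [min_eq_right h, max_eq_right (by linarith)]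
      rw [max_eq_right (by linarith)]
      nlinarith
  have a1 : mnR w A B κ 1 ≤ exR w (A + κ) B 1 := by
    unfold mnR rV exR dd
    have hw1' : 0 ≤ 1 - w := by linarith
    rcases le_total A B with h | h
    · rw [min_eq_left h, max_eq_left (by linarith)]
      rcases le_total (A + κ) B with h2 | h2
      · rw [max_eq_left (by linarith)]; nlinarith
      · rw [max_eq_right (by linarith)]
        nlinarith [mul_nonneg hw1' (sub_nonneg.2 h2)]
    · rw [min_eq_right h, max_eq_right (by linarith)]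
      rw [max_eq_right (by linarith)]
      nlinarith [mul_nonneg hw1' hκ]
  rw [mnR_conv, exR_conv]
  have := mul_le_mul_of_nonneg_left a0 (show 0 ≤ 1 - s by linarith)
  have := mul_le_mul_of_nonneg_left a1 s0
  linarith

/-- the lifts of the active class are the lifts of the exact row plus the extra lifts -/
lemma kept_lift (hκ : 0 ≤ κ) : dd A B = dd (A + κ) B + min κ (dd A B) := by
  unfold dd
  rcases le_total A B with h | h
  · rw [max_eq_left (by linarith : 0 ≤ B - A)]
    rcases le_total (A + κ) B with h2 | h2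
    · rw [max_eq_left (by linarith), min_eq_left (by linarith)]; ring
    · rw [max_eq_right (by linarith), min_eq_right (by linarith)]; ring
  · rw [max_eq_right (by linarith : B - A ≤ 0), max_eq_right (by linarith),
      min_eq_right hκ, add_zero]

/-- **the energy, two points** -/
theorem kept_en2 (hw0 : 0 ≤ w) (hw1 : w ≤ 1 / 2) (hA : 0 ≤ A) (hB : 0 ≤ B) (hκ : 0 ≤ κ) :
    (1 - w) * th (mnR w A B κ 0) + w * (th (mnR w A B κ 1) + 5 / 4 * th ((1 - w) * κ) +
      1 / 12 * th (min κ (dd A B))) ≤ (1 - w) * th (A + κ) + w * th B := by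
  have hw1' : 0 ≤ 1 - w := by linarith
  set Q := mnR w A B κ 0 with hQ
  set V := mnR w A B κ 1 with hV
  have eQ : Q = (1 - w) * A + w * min A B + (1 - w) * κ := by
    rw [hQ]; unfold mnR rV; ring
  have hm := le_min hA hB
  have q1 : (1 - w) * κ ≤ Q := by
    rw [eQ]; nlinarith [mul_nonneg hw1' hA, mul_nonneg hw0 hm]
  have z0 : 0 ≤ (1 - w) * κ := by positivity
  have Q0 : 0 ≤ Q := z0.trans q1
  have V0 : 0 ≤ V := mnR_nonneg hw0 (by linarith) hA hB hκ zero_le_one le_rfl
  have t1 := th_tan (a := A + κ) (b := Q) (by linarith) Q0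
  have t2 := th_tan (a := B) (b := V) hB V0
  have sq1 : Real.sqrt ((1 - w) * κ) ≤ Real.sqrt Q := Real.sqrt_le_sqrt q1
  -- the small terms
  have e1 : th ((1 - w) * κ) = Real.sqrt ((1 - w) * κ) * ((1 - w) * κ) := by unfold th; ring
  have k1 : 1 / 12 * th (min κ (dd A B)) ≤ 1 / 4 * th ((1 - w) * κ) := by
    have a1 : th (min κ (dd A B)) ≤ th κ := th_mono (le_min hκ (dd_nonneg _ _)) (min_le_left _ _)
    have a2 : th ((1 - w) * κ) = th (1 - w) * th κ := th_mul hw1'
    have a3 := mul_le_mul_of_nonneg_right (th_half hw1) (th_nonneg hκ)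
    rw [a2]
    linarith
  have k1' := mul_le_mul_of_nonneg_left k1 hw0
  -- the gain
  have g1 : Real.sqrt ((1 - w) * κ) * (w * ((1 - w) * κ)) ≤ Real.sqrt Q * (w * ((1 - w) * κ)) :=
    mul_le_mul_of_nonneg_right sq1 (by positivity)
  rcases le_total A B with h | h
  · -- no leftover of the active class
    have eV : V = B := by
      rw [hV]; unfold mnR rV dd; rw [min_eq_left h, max_eq_left (by linarith)]; ring
    have eQ' : A + κ - Q = w * κ := by rw [eQ, min_eq_left h]; ring
    rw [eQ'] at t1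
    have t1' := mul_le_mul_of_nonneg_left t1 hw1'
    rw [eV]
    rw [e1] at k1'
    rw [e1]
    nlinarith [t1', k1', g1]
  · have eV : V = (1 - w) * A + w * B := by
      rw [hV]; unfold mnR rV dd; rw [min_eq_right h, max_eq_right (by linarith)]; ring
    have eQ2 : Q = V + (1 - w) * κ := by rw [eQ, eV, min_eq_right h]
    have eQ' : A + κ - Q = w * (A - B) + w * κ := by rw [eQ2, eV]; ring
    have eV' : B - V = -((1 - w) * (A - B)) := by rw [eV]; ring
    rw [eQ'] at t1
    rw [eV'] at t2
    have t1' := mul_le_mul_of_nonneg_left t1 hw1'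
    have t2' := mul_le_mul_of_nonneg_left t2 hw0
    have sq2 : Real.sqrt V ≤ Real.sqrt Q := Real.sqrt_le_sqrt (by rw [eQ2]; linarith)
    have g2 : Real.sqrt V * (w * (1 - w) * (A - B)) ≤ Real.sqrt Q * (w * (1 - w) * (A - B)) :=
      mul_le_mul_of_nonneg_right sq2 (mul_nonneg (mul_nonneg hw0 hw1') (sub_nonneg.2 h))
    rw [e1] at k1'
    rw [e1]
    nlinarith [t1', t2', k1', g1, g2]

/-! ### truncation -/

lemma min_conc {x y σ : ℝ} (s0 : 0 ≤ s) (s1 : s ≤ 1) :
    (1 - s) * min x σ + s * min y σ ≤ min ((1 - s) * x + s * y) σ := by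
  have h1 : 0 ≤ 1 - s := by linarith
  refine le_min ?_ ?_
  · have := mul_le_mul_of_nonneg_left (min_le_left x σ) h1
    have := mul_le_mul_of_nonneg_left (min_le_left y σ) s0
    linarith
  · have := mul_le_mul_of_nonneg_left (min_le_right x σ) h1
    have := mul_le_mul_of_nonneg_left (min_le_right y σ) s0
    linarith

/-- truncated kept content -/
noncomputable def tκ (A κ σ : ℝ) : ℝ := min (A + κ) σ - min A σ

lemma tκ_nonneg (hκ : 0 ≤ κ) (σ : ℝ) : 0 ≤ tκ A κ σ := by
  unfold tκ
  have := min_le_min_right σ (show A ≤ A + κ by linarith)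
  linarith

lemma tκ_le (hκ : 0 ≤ κ) (σ : ℝ) : tκ A κ σ ≤ κ := by
  unfold tκ
  rcases le_total A σ with h | h
  · rw [min_eq_left h]
    linarith [min_le_left (A + κ) σ]
  · rw [min_eq_right h]
    linarith [min_le_right (A + κ) σ]

/-- **the truncated rows, main part** -/
theorem kept_tr_mn (hw0 : 0 ≤ w) (hw1 : w ≤ 1) (hκ : 0 ≤ κ) (s0 : 0 ≤ s)
    (s1 : s ≤ 1) (σ : ℝ) :
    mnR w (min A σ) (min B σ) (tκ A κ σ) s ≤ min (mnR w A B κ s) σ := by
  have hw1' : 0 ≤ 1 - w := by linarith
  have a0 : mnR w (min A σ) (min B σ) (tκ A κ σ) 0 ≤ min (mnR w A B κ 0) σ := by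
    have e : ∀ A B κ : ℝ, mnR w A B κ 0 = (1 - w) * (A + κ) + w * min A B := fun A B κ => by
      unfold mnR rV; ring
    rw [e, e]
    have e2 : min A σ + tκ A κ σ = min (A + κ) σ := by unfold tκ; ring
    rw [e2]
    refine le_min ?_ ?_
    · have b1 := mul_le_mul_of_nonneg_left (min_le_left (A + κ) σ) hw1'
      have b2 : min (min A σ) (min B σ) ≤ min A B :=
        min_le_min (min_le_left _ _) (min_le_left _ _)
      have b3 := mul_le_mul_of_nonneg_left b2 hw0
      linarith
    · have b1 := mul_le_mul_of_nonneg_left (min_le_right (A + κ) σ) hw1'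
      have b2 : min (min A σ) (min B σ) ≤ σ := (min_le_left _ _).trans (min_le_right _ _)
      have b3 := mul_le_mul_of_nonneg_left b2 hw0
      linarith
  have a1 : mnR w (min A σ) (min B σ) (tκ A κ σ) 1 ≤ min (mnR w A B κ 1) σ := by
    have e : ∀ A B κ : ℝ, mnR w A B κ 1 = (1 - w) * A + w * min A B + dd A B := fun A B κ => by
      unfold mnR rV; ring
    rw [e, e]
    unfold dd
    rcases le_total A B with h | h
    · have h' : min A σ ≤ min B σ := min_le_min_right σ h
      rw [min_eq_left h, min_eq_left h', max_eq_left (by linarith), max_eq_left (by linarith)]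
      have e3 : (1 - w) * A + w * A + (B - A) = B := by ring
      have e4 : (1 - w) * min A σ + w * min A σ + (min B σ - min A σ) = min B σ := by ring
      rw [e3, e4]
    · have h' : min B σ ≤ min A σ := min_le_min_right σ h
      rw [min_eq_right h, min_eq_right h', max_eq_right (by linarith),
        max_eq_right (by linarith), add_zero, add_zero]
      refine le_min ?_ ?_
      · have b1 := mul_le_mul_of_nonneg_left (min_le_left A σ) hw1'
        have b2 := mul_le_mul_of_nonneg_left (min_le_left B σ) hw0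
        linarith
      · have b1 := mul_le_mul_of_nonneg_left (min_le_right A σ) hw1'
        have b2 := mul_le_mul_of_nonneg_left (min_le_right B σ) hw0
        linarith
  rw [mnR_conv w (min A σ), mnR_conv w A]
  refine le_trans ?_ (min_conc s0 s1)
  have := mul_le_mul_of_nonneg_left a0 (show 0 ≤ 1 - s by linarith)
  have := mul_le_mul_of_nonneg_left a1 s0
  linarith

/-- **the truncated rows, separated part** -/
theorem kept_tr_sp (hw0 : 0 ≤ w) (hw1 : w ≤ 1) (hA : 0 ≤ A) (hκ : 0 ≤ κ) (s0 : 0 ≤ s)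
    (s1 : s ≤ 1) {σ : ℝ} (hσ : 0 ≤ σ) : spR w (tκ A κ σ) s ≤ min (spR w κ s) σ := by
  have hw1' : 0 ≤ 1 - w := by linarith
  unfold spR
  refine le_min ?_ ?_
  · exact mul_le_mul_of_nonneg_left (mul_le_mul_of_nonneg_left (tκ_le hκ σ) hw1') s0
  · have h1 : tκ A κ σ ≤ σ := by
      unfold tκ
      have := le_min hA hσ
      linarith [min_le_right (A + κ) σ]
    have h0 := tκ_nonneg (A := A) hκ σ
    calc s * ((1 - w) * tκ A κ σ) ≤ 1 * (1 * tκ A κ σ) := by
          apply mul_le_mul s1 _ (by positivity) zero_le_one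
          exact mul_le_mul_of_nonneg_right (by linarith) h0
      _ ≤ σ := by linarith

end one

section row
variable {ι : Type*} [Fintype ι] {u s : ι → ℝ} {w A B κ : ℝ}

/-- **the energy of the row with kept content** -/
theorem kept_en (u0 : ∀ i, 0 ≤ u i) (u1 : ∑ i, u i = 1) (hs : ∀ i, 0 ≤ s i ∧ s i ≤ 1)
    (hsu : ∑ i, u i * s i = w) (hw0 : 0 ≤ w) (hw1 : w ≤ 1 / 2) (hA : 0 ≤ A) (hB : 0 ≤ B)
    (hκ : 0 ≤ κ) :
    ∑ i, u i * (th (mnR w A B κ (s i)) + 5 / 4 * th (spR w κ (s i)) +
      1 / 12 * th (s i * min κ (dd A B))) ≤ (1 - w) * th (A + κ) + w * th B := by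
  refine le_trans ?_ (kept_en2 hw0 hw1 hA hB hκ)
  have u1' : ∑ i, u i * (1 - s i) = 1 - w := by
    simp only [mul_sub, mul_one, Finset.sum_sub_distrib]
    rw [u1, hsu]
  have hd := dd_nonneg A B
  have hm : 0 ≤ min κ (dd A B) := le_min hκ hd
  have hw1'' : 0 ≤ 1 - w := by linarith
  have key : ∀ i, u i * (th (mnR w A B κ (s i)) + 5 / 4 * th (spR w κ (s i)) +
      1 / 12 * th (s i * min κ (dd A B))) ≤ u i * (1 - s i) * th (mnR w A B κ 0) +
      u i * s i * (th (mnR w A B κ 1) + 5 / 4 * th ((1 - w) * κ) +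
        1 / 12 * th (min κ (dd A B))) := by
    intro i
    obtain ⟨s0, s1⟩ := hs i
    have c1 : th (mnR w A B κ (s i)) ≤ (1 - s i) * th (mnR w A B κ 0) +
        s i * th (mnR w A B κ 1) := by
      rw [mnR_conv]
      exact th_conv (mnR_nonneg hw0 (by linarith) hA hB hκ le_rfl zero_le_one)
        (mnR_nonneg hw0 (by linarith) hA hB hκ zero_le_one le_rfl) s0 s1
    have c2 : th (spR w κ (s i)) ≤ s i * th ((1 - w) * κ) := by
      unfold spR
      rw [th_mul s0]
      exact mul_le_mul_of_nonneg_right (th_le s0 s1) (th_nonneg (by positivity))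
    have c3 : th (s i * min κ (dd A B)) ≤ s i * th (min κ (dd A B)) := by
      rw [th_mul s0]
      exact mul_le_mul_of_nonneg_right (th_le s0 s1) (th_nonneg hm)
    have := mul_le_mul_of_nonneg_left (add_le_add (add_le_add c1
      (mul_le_mul_of_nonneg_left c2 (show (0:ℝ) ≤ 5 / 4 by norm_num)))
      (mul_le_mul_of_nonneg_left c3 (show (0:ℝ) ≤ 1 / 12 by norm_num))) (u0 i)
    refine this.trans (le_of_eq ?_)
    ring
  have h1 := Finset.sum_le_sum fun i (_ : i ∈ (univ : Finset ι)) => key i
  rw [Finset.sum_add_distrib, ← Finset.sum_mul, ← Finset.sum_mul, u1', hsu] at h1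
  exact h1

end row

end Crest.Agent.R4P.TyR16
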