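import Crest.Agent.R4P.RXm_55
import Crest.Agent.R4P.TyR_16

/-!
R4 (S0004) with powers, T3 (heights > 1), helper16: **typed rows with errors**, assembly.

For one member and one tie column `p` (`w = 1/p`) every game type `z` has
* contents below `a` (P), `b` (N), real contents above `hm` (stays in the type), `hs` (separated, in the
  fresh type), constant part `bt` and real lifts `gc` of the total;
* ideal rows `Wm + Ws = bt(p x) + gc x`, gains `gm gs` and losses `lm ls` of the real rows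
  (`hm + lm = Wm + gm`, `hs + ls = Ws + gs`); the total is balanced (`Σ hP = Σ bt + gc`).

`TR p σ …` : typed row at the scale `σ`;  `TRow` : at all the scales, with the error `er` and the budget
`j0`;  `asm` : data `SD` of the bundle;  **`asm_ok : SOk`**, **`asm_lsJ`**, **`asm_e`**.
-/

set_option autoImplicit false
set_option linter.unusedSectionVars false
set_option linter.unusedVariables false
open MeasureTheory Filter Set

namespace Crest.Agent.R4P.TyS16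

open Crest.Agent.R4.Tour104 Crest.Agent.R4P.MisR16 Crest.Agent.R4P.TyR16
open Crest.Agent.R4P.TrR343 Crest.Agent.R4P.RXs343 Crest.Agent.R4P.RXm55

/-! ### increase of the truncated-away part -/

/-- increase of the truncated-away part -/
noncomputable def xg (σ W g : ℝ) : ℝ := g - (min (W + g) σ - min W σ)

lemma xg_nonneg {σ W g : ℝ} (hg : 0 ≤ g) : 0 ≤ xg σ W g := by
  unfold xg
  rcases le_total (W + g) σ with h | h <;> rcases le_total W σ with h2 | h2 <;>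
    simp only [min_eq_left, min_eq_right, h, h2] <;> linarith

lemma xg_le {σ W g : ℝ} (hg : 0 ≤ g) : xg σ W g ≤ g := by
  unfold xg
  have := min_le_min_right σ (show W ≤ W + g by linarith)
  linarith

lemma xg_zero {σ W g : ℝ} (hg : 0 ≤ g) (h : W + g ≤ σ) : xg σ W g = 0 := by
  unfold xg
  rw [min_eq_left h, min_eq_left (by linarith)]
  ring

/-- **dyadic sum** -/
theorem xg_dy {W g : ℝ} (hW : 0 ≤ W) (hg : 0 ≤ g) (n : ℕ) :
    ∑ l ∈ Finset.range n, (2 : ℝ) ^ l * xg (2 ^ l) W g ≤ 2 * (g * (W + g)) := by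
  suffices h : ∑ l ∈ Finset.range n, (2 : ℝ) ^ l * xg (2 ^ l) W g ≤ g * 2 ^ n ∧
      ∑ l ∈ Finset.range n, (2 : ℝ) ^ l * xg (2 ^ l) W g ≤ 2 * (g * (W + g)) from h.2
  induction n with
  | zero =>
    simp only [Finset.range_zero, Finset.sum_empty, pow_zero, mul_one]
    exact ⟨hg, by positivity⟩
  | succ n ih =>
    rw [Finset.sum_range_succ]
    have h2 : (0 : ℝ) < 2 ^ n := by positivity
    have h5 : (2 : ℝ) ^ (n + 1) = 2 * 2 ^ n := by ring
    have h4 : (2 : ℝ) ^ n * xg (2 ^ n) W g ≤ 2 ^ n * g :=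
      mul_le_mul_of_nonneg_left (xg_le hg) h2.le
    have key : ∑ l ∈ Finset.range n, (2 : ℝ) ^ l * xg (2 ^ l) W g + 2 ^ n * xg (2 ^ n) W g ≤
        g * 2 ^ (n + 1) := by
      rw [h5]
      nlinarith [ih.1]
    refine ⟨key, ?_⟩
    by_cases h : W + g ≤ 2 ^ n
    · rw [xg_zero hg h, mul_zero, add_zero]
      exact ih.2
    · push Not at h
      refine key.trans ?_
      rw [h5]
      nlinarith [mul_nonneg hg (show 0 ≤ (W + g) - 2 ^ n by linarith)]

/-! ### typed rows -/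

/-- data of one type at a scale -/
structure TD where
  vm : ℝ → ℝ
  vs : ℝ → ℝ
  gX : ℝ → ℝ
  bX : ℝ → ℝ
  gE : ℝ → ℝ
  sg : ℝ → ℝ
  be : ℝ → ℝ
  e : ℝ → ℝ

/-- **typed row at the scale `σ`** -/
structure TR (p : ℕ) (σ : ℝ) (a b hm hs bt gc Wm Ws l0 : ℝ → ℝ) (D : TD) : Prop where
  pvm : PB D.vm
  pvs : PB D.vs
  pgX : PB D.gX
  pbX : PB D.bX
  pgE : PB D.gE
  psg : PB D.sg
  pbe : PB D.be
  pe : PB D.e
  vm_le : ∀ x, D.vm x ≤ min (hm x) σ
  vs_le : ∀ x, D.vs x ≤ min (hs x) σ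
  tot : ∀ x, D.vm x + D.vs x + D.e x = D.be (p * x) + D.sg x
  mean : ∀ y, D.be y + Ep p D.sg y =
    (1 - 1 / (p : ℝ)) * min (a y) σ + 1 / (p : ℝ) * min (b y) σ
  be_le : ∀ y, D.be y ≤ bt y
  sgc : ∀ x, D.sg x ≤ gc x
  sg2 : ∀ x, D.sg x ≤ 2 * σ
  sgX : ∀ x, D.sg x ≤ D.gX x + D.gE x
  row : ∀ y, ∃ (s : Fin p → ℝ) (Δ : ℝ), (∀ i, 0 ≤ s i ∧ s i ≤ 1) ∧
    ∑ i, 1 / (p : ℝ) * s i = 1 / (p : ℝ) ∧ 0 ≤ Δ ∧ Δ ≤ max (min (b y) σ - min (a y) σ) 0 ∧
    ∀ i : Fin p, D.bX y + D.gX ((y + (i : ℕ)) / p) =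
      ((1 - 1 / (p : ℝ)) * min (a y) σ + 1 / (p : ℝ) * min (b y) σ) + (s i - 1 / (p : ℝ)) * Δ
  mnX : ∀ x, D.vm x ≤ D.bX (p * x) + D.gX x
  gE1 : ∀ x, D.gE x ≤ σ
  gXc : ∀ x, D.gX x ≤ gc x
  en : 2 ≤ p → ∀ y, ∑ i : Fin p, 1 / (p : ℝ) * (th (D.vm ((y + (i : ℕ)) / p)) +
      5 / 4 * th (D.vs ((y + (i : ℕ)) / p)) + 1 / 48 * th (D.gE ((y + (i : ℕ)) / p))) ≤
    (1 - 1 / (p : ℝ)) * th (min (a y) σ) + 1 / (p : ℝ) * th (min (b y) σ)
  U_le : ∀ x, D.be (p * x) + D.sg x ≤ min (Wm x) σ + min (Ws x) σ + l0 x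

/-- raw data of a type -/
structure TRaw where
  /-- data at the scales -/
  D : ℝ → TD
  /-- ideal main row -/
  Wm : ℝ → ℝ
  /-- ideal separated row -/
  Ws : ℝ → ℝ
  /-- gain of the main part -/
  gm : ℝ → ℝ
  /-- gain of the separated part -/
  gs : ℝ → ℝ
  /-- loss of the main part -/
  lm : ℝ → ℝ
  /-- loss of the separated part -/
  lS : ℝ → ℝ
  /-- own loss of the row at a scale -/
  l0 : ℝ → ℝ → ℝ
  /-- budget of the own losses -/
  j0 : ℝ → ℝ
  /-- error -/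
  er : ℝ → ℝ

/-- **typed row at all the scales** -/
structure TRow (p : ℕ) (a b hm hs bt gc : ℝ → ℝ) (R : TRaw) : Prop where
  pWm : PB R.Wm
  pWs : PB R.Ws
  pgm : PB R.gm
  pgs : PB R.gs
  plm : PB R.lm
  plS : PB R.lS
  pj0 : PB R.j0
  per : PB R.er
  phm : PB hm
  phs : PB hs
  pbt : PB bt
  pgc : PB gc
  W_eq : ∀ x, R.Wm x + R.Ws x = bt (p * x) + gc x
  hm_eq : ∀ x, hm x + R.lm x = R.Wm x + R.gm x
  hs_eq : ∀ x, hs x + R.lS x = R.Ws x + R.gs x
  tr : ∀ {σ : ℝ}, 0 < σ → TR p σ a b hm hs bt gc R.Wm R.Ws (R.l0 σ) (R.D σ)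
  l0n : ∀ {σ : ℝ}, 0 < σ → ∀ x, 0 ≤ R.l0 σ x
  l0J : ∀ (n : ℕ) x, ∑ l ∈ Finset.range n, (2 : ℝ) ^ l * R.l0 (2 ^ l) x ≤ R.j0 x
  e_le : ∀ {σ : ℝ}, 0 < σ → ∀ x, (R.D σ).e x ≤ R.er x

/-! ### assembly -/

section asm
variable {δ : Type} [Fintype δ]

/-- real contents of the rows : the separated content of `z` is in `τ z` -/
def hPP (τ : Equiv.Perm δ) (hm hs : δ → ℝ → ℝ) (z : δ) (x : ℝ) : ℝ := hm z x + hs (τ.symm z) x

/-- the data of the bundle -/
noncomputable def asm (R : δ → TRaw) (τ : Equiv.Perm δ) (hm hs : δ → ℝ → ℝ) (p : ℕ) (σ : ℝ) : SD δ where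
  vm := fun z => ((R z).D σ).vm
  vs := fun z => ((R (τ.symm z)).D σ).vs
  gX := fun z => ((R z).D σ).gX
  bX := fun z => ((R z).D σ).bX
  gE := fun z => ((R z).D σ).gE
  sg := fun z => ((R z).D σ).sg
  e := fun x => ∑ z, ((R z).D σ).e x
  ls := fun x => ∑ z, (((R z).D σ).be (p * x) + ((R z).D σ).sg x) -
    min (∑ z, (((R z).D σ).be (p * x) + ((R z).D σ).sg x)) (∑ z, min (hPP τ hm hs z x) σ)
  be := fun y => ∑ z, ((R z).D σ).be y
  G := fun x => ∑ z, ((R z).D σ).sg x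

/-- the budget -/
noncomputable def jA (R : δ → TRaw) (x : ℝ) : ℝ :=
  ∑ z, ((R z).j0 x + 2 * ((R z).gm x * ((R z).Wm x + (R z).gm x)) +
    2 * ((R z).gs x * ((R z).Ws x + (R z).gs x)))

/-- the error -/
noncomputable def eA (R : δ → TRaw) (x : ℝ) : ℝ := ∑ z, (R z).er x

variable {p : ℕ} {a b hm hs bt gc : δ → ℝ → ℝ} {R : δ → TRaw} {τ : Equiv.Perm δ} {F : δ → Prop}

/-- hypotheses of the assembly -/
structure Fam (p : ℕ) (a b hm hs bt gc : δ → ℝ → ℝ) (R : δ → TRaw) (τ : Equiv.Perm δ)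
    (F : δ → Prop) : Prop where
  row : ∀ z, TRow p (a z) (b z) (hm z) (hs z) (bt z) (gc z) (R z)
  hF : ∀ z, F z → ∀ x, hm z x = 0
  hN : ∀ z, ¬ F (τ z) → ∀ x, hs z x = 0
  bal : ∀ x, ∑ z, hPP τ hm hs z x = ∑ z, (bt z (p * x) + gc z x)

lemma sum_hPP (x : ℝ) : ∑ z, hPP τ hm hs z x = ∑ z, (hm z x + hs z x) := by
  unfold hPP
  rw [Finset.sum_add_distrib, Finset.sum_add_distrib]
  congr 1
  exact Equiv.sum_comp τ.symm fun z => hs z x

lemma PB_hPP (H : Fam p a b hm hs bt gc R τ F) (z : δ) : PB (hPP τ hm hs z) :=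
  (H.row z).phm.add (H.row (τ.symm z)).phs

lemma Fam.min_eq (H : Fam p a b hm hs bt gc R τ F) {σ : ℝ} (hσ : 0 ≤ σ) (z : δ) (x : ℝ) :
    min (hPP τ hm hs z x) σ = min (hm z x) σ + min (hs (τ.symm z) x) σ := by
  unfold hPP
  by_cases h : F z
  · rw [H.hF z h, zero_add, min_eq_left hσ, zero_add]
  · rw [H.hN (τ.symm z) (by rwa [Equiv.apply_symm_apply]), add_zero, min_eq_left hσ, add_zero]

lemma Fam.vm_zero (H : Fam p a b hm hs bt gc R τ F) {σ : ℝ} (hσ : 0 < σ) {z : δ} (hz : F z)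
    (x : ℝ) : ((R z).D σ).vm x = 0 := by
  have h1 := ((H.row z).tr hσ).vm_le x
  rw [H.hF z hz, min_eq_left hσ.le] at h1
  exact le_antisymm h1 (((H.row z).tr hσ).pvm.nonneg x)

lemma Fam.vs_zero (H : Fam p a b hm hs bt gc R τ F) {σ : ℝ} (hσ : 0 < σ) {z : δ} (hz : ¬ F (τ z))
    (x : ℝ) : ((R z).D σ).vs x = 0 := by
  have h1 := ((H.row z).tr hσ).vs_le x
  rw [H.hN z hz, min_eq_left hσ.le] at h1
  exact le_antisymm h1 (((H.row z).tr hσ).pvs.nonneg x)

lemma min_sub_le {h l σ : ℝ} (hl : 0 ≤ l) : min (h + l) σ ≤ min h σ + l := by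
  rcases le_total h σ with h1 | h1
  · rw [min_eq_left h1]; exact min_le_left _ _
  · rw [min_eq_right h1]
    have := min_le_right (h + l) σ
    linarith

/-- the virtual total, class by class -/
lemma Fam.U_sum (H : Fam p a b hm hs bt gc R τ F) {σ : ℝ} (hσ : 0 < σ) (x : ℝ) :
    ∑ z, (((R z).D σ).be (p * x) + ((R z).D σ).sg x) ≤ ∑ z, hPP τ hm hs z x := by
  rw [H.bal x]
  exact Finset.sum_le_sum fun z _ => add_le_add (((H.row z).tr hσ).be_le _) (((H.row z).tr hσ).sgc x)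

/-- **the loss of the rows** -/
theorem Fam.loss (H : Fam p a b hm hs bt gc R τ F) {σ : ℝ} (hσ : 0 < σ) (x : ℝ) :
    (asm R τ hm hs p σ).ls x ≤ ∑ z, ((R z).l0 σ x + xg σ ((R z).Wm x) ((R z).gm x) +
      xg σ ((R z).Ws x) ((R z).gs x)) := by
  have hX : 0 ≤ ∑ z, ((R z).l0 σ x + xg σ ((R z).Wm x) ((R z).gm x) +
      xg σ ((R z).Ws x) ((R z).gs x)) := by
    refine Finset.sum_nonneg fun z _ => ?_
    have h1 := xg_nonneg (σ := σ) (W := (R z).Wm x) ((H.row z).pgm.nonneg x)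
    have h2 := xg_nonneg (σ := σ) (W := (R z).Ws x) ((H.row z).pgs.nonneg x)
    have h3 := (H.row z).l0n hσ x
    linarith
  have hbal : ∑ z, (((R z).gm x - (R z).lm x) + ((R z).gs x - (R z).lS x)) = 0 := by
    have e : ∀ z, ((R z).gm x - (R z).lm x) + ((R z).gs x - (R z).lS x) =
        (hm z x + hs z x) - (bt z (p * x) + gc z x) := fun z => by
      have h1 := (H.row z).hm_eq x
      have h2 := (H.row z).hs_eq x
      have h3 := (H.row z).W_eq x
      linarith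
    rw [Finset.sum_congr rfl fun z _ => e z, Finset.sum_sub_distrib, ← H.bal x, sum_hPP x, sub_self]
  have hS : ∑ z, min (hPP τ hm hs z x) σ = ∑ z, (min (hm z x) σ + min (hs z x) σ) := by
    rw [Finset.sum_congr rfl fun z _ => H.min_eq hσ.le z x, Finset.sum_add_distrib,
      Finset.sum_add_distrib]
    congr 1
    exact Equiv.sum_comp τ.symm fun z => min (hs z x) σ
  have key : ∑ z, (((R z).D σ).be (p * x) + ((R z).D σ).sg x) ≤
      ∑ z, min (hPP τ hm hs z x) σ + ∑ z, ((R z).l0 σ x + xg σ ((R z).Wm x) ((R z).gm x) +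
      xg σ ((R z).Ws x) ((R z).gs x)) := by
    have h0 : ∑ z, (((R z).D σ).be (p * x) + ((R z).D σ).sg x +
        (((R z).gm x - (R z).lm x) + ((R z).gs x - (R z).lS x))) ≤
        ∑ z, (min (hm z x) σ + min (hs z x) σ + ((R z).l0 σ x +
          xg σ ((R z).Wm x) ((R z).gm x) + xg σ ((R z).Ws x) ((R z).gs x))) := by
      refine Finset.sum_le_sum fun z _ => ?_
      have h1 := ((H.row z).tr hσ).U_le x
      have h2 := min_sub_le (h := hm z x) (σ := σ) ((H.row z).plm.nonneg x)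
      have h3 := min_sub_le (h := hs z x) (σ := σ) ((H.row z).plS.nonneg x)
      rw [(H.row z).hm_eq x] at h2
      rw [(H.row z).hs_eq x] at h3
      unfold xg
      linarith
    rw [Finset.sum_add_distrib, hbal, add_zero, Finset.sum_add_distrib (f := fun z =>
      min (hm z x) σ + min (hs z x) σ)] at h0
    rw [hS]
    exact h0
  show _ - min _ _ ≤ _
  rcases le_total (∑ z, (((R z).D σ).be (p * x) + ((R z).D σ).sg x))
    (∑ z, min (hPP τ hm hs z x) σ) with h | h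
  · rw [min_eq_left h, sub_self]; exact hX
  · rw [min_eq_right h]; linarith

/-- **the budget of the losses** -/
theorem Fam.lsJ (H : Fam p a b hm hs bt gc R τ F) (n : ℕ) (x : ℝ) :
    ∑ l ∈ Finset.range n, (2 : ℝ) ^ l * (asm R τ hm hs p (2 ^ l)).ls x ≤ jA R x := by
  have h1 : ∑ l ∈ Finset.range n, (2 : ℝ) ^ l * (asm R τ hm hs p (2 ^ l)).ls x ≤
      ∑ l ∈ Finset.range n, ∑ z, ((2 : ℝ) ^ l * (R z).l0 (2 ^ l) x +
        (2 : ℝ) ^ l * xg (2 ^ l) ((R z).Wm x) ((R z).gm x) +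
        (2 : ℝ) ^ l * xg (2 ^ l) ((R z).Ws x) ((R z).gs x)) := by
    refine Finset.sum_le_sum fun l _ => ?_
    have h2 : (0 : ℝ) < 2 ^ l := by positivity
    refine (mul_le_mul_of_nonneg_left (H.loss h2 x) h2.le).trans (le_of_eq ?_)
    rw [Finset.mul_sum]
    exact Finset.sum_congr rfl fun z _ => by ring
  refine h1.trans ?_
  rw [Finset.sum_comm]
  refine Finset.sum_le_sum fun z _ => ?_
  rw [Finset.sum_add_distrib, Finset.sum_add_distrib]
  have h3 := (H.row z).l0J n x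
  have h4 := xg_dy ((H.row z).pWm.nonneg x) ((H.row z).pgm.nonneg x) n
  have h5 := xg_dy ((H.row z).pWs.nonneg x) ((H.row z).pgs.nonneg x) n
  linarith

lemma PB_jA (H : Fam p a b hm hs bt gc R τ F) : PB (jA R) := by
  refine PB.sum _ fun z _ => ?_
  have h := H.row z
  exact (h.pj0.add ((h.pgm.mul (h.pWm.add h.pgm)).smul (by norm_num))).add
    ((h.pgs.mul (h.pWs.add h.pgs)).smul (by norm_num))

lemma PB_eA (H : Fam p a b hm hs bt gc R τ F) : PB (eA R) := PB.sum _ fun z _ => (H.row z).per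

theorem Fam.e_le (H : Fam p a b hm hs bt gc R τ F) {σ : ℝ} (hσ : 0 < σ) (x : ℝ) :
    (asm R τ hm hs p σ).e x ≤ eA R x := Finset.sum_le_sum fun z _ => (H.row z).e_le hσ x

lemma PB_min {f g : ℝ → ℝ} (hf : PB f) (hg : PB g) : PB fun x => min (f x) (g x) := by
  obtain ⟨B, hB⟩ := hf.bdd
  exact ⟨hf.meas.min hg.meas, fun x => le_min (hf.nonneg x) (hg.nonneg x),
    ⟨B, fun x => (min_le_left _ _).trans (hB x)⟩, fun x => by rw [hf.per, hg.per]⟩

/-- **the rows of the bundle** -/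
theorem Fam.ok (H : Fam p a b hm hs bt gc R τ F) {gT : ℝ → ℝ} (hgT : ∀ x, gT x = ∑ z, gc z x)
    {σ : ℝ} (hσ : 0 < σ) :
    SOk p σ a b (hPP τ hm hs) gc gT (asm R τ hm hs p σ) := by
  have T := fun z => (H.row z).tr hσ
  have pU : PB fun x => ∑ z, (((R z).D σ).be (p * x) + ((R z).D σ).sg x) :=
    PB.sum _ fun z _ => ((T z).pbe.pull p).add (T z).psg
  have pS : PB fun x => ∑ z, min (hPP τ hm hs z x) σ :=
    PB.sum _ fun z _ => PB_minc hσ.le (PB_hPP H z)
  have eU : ∀ x, ∑ z, (((R z).D σ).be (p * x) + ((R z).D σ).sg x) =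
      ∑ z, ((R z).D σ).be (p * x) + ∑ z, ((R z).D σ).sg x := fun x => Finset.sum_add_distrib
  refine
    { pvm := fun z => (T z).pvm
      pvs := fun z => (T (τ.symm z)).pvs
      pgX := fun z => (T z).pgX
      pbX := fun z => (T z).pbX
      pgE := fun z => (T z).pgE
      psg := fun z => (T z).psg
      pe := PB.sum _ fun z _ => (T z).pe
      pls := ModeS16.PB_sub pU (PB_min pU pS) fun x => min_le_left _ _
      pbe := PB.sum _ fun z _ => (T z).pbe
      pG := PB.sum _ fun z _ => (T z).psg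
      le := fun z x => ?_
      tot := fun x => ?_
      nb := fun x => ?_
      lsT := fun x => ?_
      mean := fun y => ?_
      sgc := fun z x => (T z).sgc x
      sgG := fun x => le_rfl
      sgT := fun x => ?_
      sg2 := fun z x => (T z).sg2 x
      sgX := fun z x => (T z).sgX x
      row := fun z y => (T z).row y
      mnX := fun z x => (T z).mnX x
      gE1 := fun z x => (T z).gE1 x
      gXT := fun x => ?_
      en := fun h2 y => ?_ }
  · -- le
    rw [H.min_eq hσ.le z x]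
    exact add_le_add ((T z).vm_le x) ((T (τ.symm z)).vs_le x)
  · -- tot
    show ∑ z, (((R z).D σ).vm x + ((R (τ.symm z)).D σ).vs x) + ∑ z, ((R z).D σ).e x =
      ∑ z, ((R z).D σ).be (p * x) + ∑ z, ((R z).D σ).sg x
    rw [Finset.sum_add_distrib, Equiv.sum_comp τ.symm fun z => ((R z).D σ).vs x,
      ← Finset.sum_add_distrib, ← Finset.sum_add_distrib, ← Finset.sum_add_distrib]
    exact Finset.sum_congr rfl fun z _ => (T z).tot x
  · -- nb
    show ∑ z, ((R z).D σ).be (p * x) + ∑ z, ((R z).D σ).sg x ≤ ∑ z, min (hPP τ hm hs z x) σ +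
      (∑ z, (((R z).D σ).be (p * x) + ((R z).D σ).sg x) -
        min (∑ z, (((R z).D σ).be (p * x) + ((R z).D σ).sg x)) (∑ z, min (hPP τ hm hs z x) σ))
    rw [← eU x]
    have := min_le_right (∑ z, (((R z).D σ).be (p * x) + ((R z).D σ).sg x))
      (∑ z, min (hPP τ hm hs z x) σ)
    linarith
  · -- lsT
    show ∑ z, min (hPP τ hm hs z x) σ +
      (∑ z, (((R z).D σ).be (p * x) + ((R z).D σ).sg x) -
        min (∑ z, (((R z).D σ).be (p * x) + ((R z).D σ).sg x)) (∑ z, min (hPP τ hm hs z x) σ)) ≤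
      ∑ z, hPP τ hm hs z x
    have h1 := H.U_sum hσ x
    have h2 : ∑ z, min (hPP τ hm hs z x) σ ≤ ∑ z, hPP τ hm hs z x :=
      Finset.sum_le_sum fun z _ => min_le_left _ _
    rcases le_total (∑ z, (((R z).D σ).be (p * x) + ((R z).D σ).sg x))
      (∑ z, min (hPP τ hm hs z x) σ) with h | h
    · rw [min_eq_left h]; linarith
    · rw [min_eq_right h]; linarith
  · -- mean
    show ∑ z, ((R z).D σ).be y + Ep p (fun x => ∑ z, ((R z).D σ).sg x) y = _
    have e : Ep p (fun x => ∑ z, ((R z).D σ).sg x) y = ∑ z, Ep p (((R z).D σ).sg) y := by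
      unfold Ep
      rw [Finset.sum_comm, Finset.sum_div]
    rw [e, ← Finset.sum_add_distrib]
    exact Finset.sum_congr rfl fun z _ => (T z).mean y
  · -- sgT
    show ∑ z, (gc z x - ((R z).D σ).sg x) ≤ gT x - ∑ z, ((R z).D σ).sg x
    rw [Finset.sum_sub_distrib, hgT x]
  · -- gXT
    rw [hgT x]
    exact Finset.sum_le_sum fun z _ => (T z).gXc x
  · -- en
    have e : ∀ i : Fin p, ∑ z, (th (((asm R τ hm hs p σ)).vm z ((y + (i : ℕ)) / p)) +
        5 / 4 * th ((asm R τ hm hs p σ).vs z ((y + (i : ℕ)) / p)) +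
        1 / 48 * th ((asm R τ hm hs p σ).gE z ((y + (i : ℕ)) / p))) =
        ∑ z, (th (((R z).D σ).vm ((y + (i : ℕ)) / p)) +
        5 / 4 * th (((R z).D σ).vs ((y + (i : ℕ)) / p)) +
        1 / 48 * th (((R z).D σ).gE ((y + (i : ℕ)) / p))) := by
      intro i
      rw [Finset.sum_add_distrib, Finset.sum_add_distrib, Finset.sum_add_distrib,
        Finset.sum_add_distrib]
      congr 2
      exact Equiv.sum_comp τ.symm fun z => 5 / 4 * th (((R z).D σ).vs ((y + (i : ℕ)) / p))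
    rw [Finset.sum_congr rfl fun i _ => by rw [e i, Finset.mul_sum], Finset.sum_comm]
    exact Finset.sum_le_sum fun z _ => (T z).en h2 y

theorem Fam.sF (H : Fam p a b hm hs bt gc R τ F) {σ : ℝ} (hσ : 0 < σ) (z : δ) (hz : F z) (x : ℝ) :
    (asm R τ hm hs p σ).vm z x = 0 := H.vm_zero hσ hz x

theorem Fam.sN (H : Fam p a b hm hs bt gc R τ F) {σ : ℝ} (hσ : 0 < σ) (z : δ) (hz : ¬ F z) (x : ℝ) :
    (asm R τ hm hs p σ).vs z x = 0 :=
  H.vs_zero hσ (z := τ.symm z) (by rwa [Equiv.apply_symm_apply]) x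

end asm

end Crest.Agent.R4P.TyS16
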