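import Crest.Agent.R4P.TyM_16
import Crest.Agent.R4P.TrM_28

/-!
R4 (S0004) with powers, T3 (heights > 1), helper16: **the unmarked typed row** (`U` kind).

P content `A`, N content `B + m` (`m` matched inside impure real classes), any real lifts `gc` with the
fibre sum `δ`, `(B - A)^+ ≤ δ ≤ B` (several real classes of one type).  Nothing is separated; the mismatch
`η = δ - (B - A)^+` is an error `s η`.  `mkU` : raw data, **`rowU : TRow`**.
-/

set_option autoImplicit false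
set_option linter.unusedSectionVars false
set_option linter.unusedVariables false
open MeasureTheory Filter Set

namespace Crest.Agent.R4P.TyS16

open Crest.Agent.R4.Tour104 Crest.Agent.R4.Tour758 Crest.Agent.R4P.MisR16 Crest.Agent.R4P.TyR16
open Crest.Agent.R4P.TrR343 Crest.Agent.R4P.RXs343 Crest.Agent.R4P.RXm55 Crest.Agent.R4P.TrM28

section U
variable (p : ℕ) (A B m δ gc hm hs gm gs lm lS : ℝ → ℝ)

/-- mismatch -/
noncomputable def et (y : ℝ) : ℝ := δ y - dd (A y) (B y)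

/-- share of the lifts -/
noncomputable def sh (x : ℝ) : ℝ := if δ (p * x) = 0 then 1 / (p : ℝ) else gc x / δ (p * x)

noncomputable def D1f (σ : ℝ) (y : ℝ) : ℝ := D1 (A y) (B y) (dd (A y) (B y)) σ
noncomputable def E1f (σ : ℝ) (y : ℝ) : ℝ := E1 (1 / (p : ℝ)) (A y) (B y) (dd (A y) (B y)) (et A B δ y) σ

/-- virtual main part -/
noncomputable def mU (σ : ℝ) (x : ℝ) : ℝ :=
  mm (1 / (p : ℝ)) (min (A (p * x)) σ) (min (B (p * x)) σ) +
    (sh p δ gc x - 1 / (p : ℝ)) * D1f A B σ (p * x) -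
    1 / (p : ℝ) * E1f p A B δ σ (p * x) * (1 - sh p δ gc x)

/-- virtual extra part -/
noncomputable def pU (σ : ℝ) (x : ℝ) : ℝ :=
  (1 - 1 / (p : ℝ)) * (sh p δ gc x * E1f p A B δ σ (p * x))

/-- ideal main part -/
noncomputable def mI (x : ℝ) : ℝ :=
  mm (1 / (p : ℝ)) (A (p * x)) (B (p * x)) +
    (sh p δ gc x - 1 / (p : ℝ)) * dd (A (p * x)) (B (p * x)) -
    1 / (p : ℝ) * et A B δ (p * x) * (1 - sh p δ gc x)

/-- ideal extra part -/
noncomputable def pI (x : ℝ) : ℝ := (1 - 1 / (p : ℝ)) * (sh p δ gc x * et A B δ (p * x))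

/-- **raw data of the unmarked typed row** -/
noncomputable def mkU : TRaw where
  D := fun σ =>
    { vm := fun x => min (mU p A B δ gc σ x) (hm x)
      vs := fun _ => 0
      gX := fun x => sh p δ gc x * D1f A B σ (p * x)
      bX := fun y => ((1 - 1 / (p : ℝ)) * min (A y) σ + 1 / (p : ℝ) * min (B y + m y) σ) -
        1 / (p : ℝ) * D1f A B σ y
      gE := fun x => sh p δ gc x * E1f p A B δ σ (p * x)
      sg := fun x => sh p δ gc x * D1f A B σ (p * x) + sh p δ gc x * E1f p A B δ σ (p * x)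
      be := fun y => (mm (1 / (p : ℝ)) (min (A y) σ) (min (B y) σ) -
        1 / (p : ℝ) * (D1f A B σ y + E1f p A B δ σ y)) + 1 / (p : ℝ) * tκ (B y) (m y) σ
      e := fun x => (mU p A B δ gc σ x - min (mU p A B δ gc σ x) (hm x)) + pU p A B δ gc σ x +
        1 / (p : ℝ) * tκ (B (p * x)) (m (p * x)) σ }
  Wm := fun x => ((1 - 1 / (p : ℝ)) * A (p * x) + 1 / (p : ℝ) * (B (p * x) - δ (p * x))) + gc x +
    1 / (p : ℝ) * m (p * x)
  Ws := fun _ => 0
  gm := gm
  gs := gs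
  lm := lm
  lS := lS
  l0 := fun σ x => min (mI p A B δ gc x) σ + min (pI p A B δ gc x) σ +
    min (1 / (p : ℝ) * m (p * x)) σ -
    min (mI p A B δ gc x + pI p A B δ gc x + 1 / (p : ℝ) * m (p * x)) σ
  j0 := fun x => 4 * (mI p A B δ gc x * pI p A B δ gc x +
    mI p A B δ gc x * (1 / (p : ℝ) * m (p * x)) + pI p A B δ gc x * (1 / (p : ℝ) * m (p * x)))
  er := fun x => lm x + sh p δ gc x * et A B δ (p * x) + 1 / (p : ℝ) * m (p * x)

variable {p A B m δ gc hm hs gm gs lm lS}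

/-- hypotheses of the unmarked typed row -/
structure HU (p : ℕ) (A B m δ gc hm hs gm gs lm lS : ℝ → ℝ) : Prop where
  hp : 0 < p
  pA : PB A
  pB : PB B
  pm : PB m
  pδ : PB δ
  pgc : PB gc
  gcL : Lift p δ gc
  δ1 : ∀ y, dd (A y) (B y) ≤ δ y
  δ2 : ∀ y, δ y ≤ B y
  phm : PB hm
  phs : PB hs
  pgm : PB gm
  pgs : PB gs
  plm : PB lm
  plS : PB lS
  hm_eq : ∀ x, hm x + lm x = (((1 - 1 / (p : ℝ)) * A (p * x) +
    1 / (p : ℝ) * (B (p * x) - δ (p * x))) + gc x + 1 / (p : ℝ) * m (p * x)) + gm x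
  hs_eq : ∀ x, hs x + lS x = gs x

namespace HU
variable (H : HU p A B m δ gc hm hs gm gs lm lS)
include H

lemma w0' : 0 < 1 / (p : ℝ) := by
  have : (0 : ℝ) < p := by exact_mod_cast H.hp
  positivity
lemma w0 : 0 ≤ 1 / (p : ℝ) := H.w0'.le
lemma w1 : 1 / (p : ℝ) ≤ 1 := (w01 H.hp).2

lemma gc_le (x : ℝ) : gc x ≤ δ (p * x) := lift_le H.hp H.pgc H.gcL x

lemma sh0 (x : ℝ) : 0 ≤ sh p δ gc x := by
  unfold sh
  split_ifs with h
  · exact H.w0
  · exact div_nonneg (H.pgc.nonneg x) (H.pδ.nonneg _)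

lemma sh1 (x : ℝ) : sh p δ gc x ≤ 1 := by
  unfold sh
  split_ifs with h
  · exact H.w1
  · exact div_le_one_of_le₀ (H.gc_le x) (H.pδ.nonneg _)

lemma sh_mul (x : ℝ) : sh p δ gc x * δ (p * x) = gc x := by
  unfold sh
  split_ifs with h
  · rw [h, mul_zero]
    exact (le_antisymm (by rw [← h]; exact H.gc_le x) (H.pgc.nonneg x)).symm
  · field_simp

lemma PB_sh : PB (sh p δ gc) := by
  refine ⟨?_, H.sh0, ⟨1, H.sh1⟩, fun x => ?_⟩
  · unfold sh
    exact Measurable.ite ((H.pδ.pull p).meas (measurableSet_singleton 0)) measurable_const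
      (H.pgc.meas.div (H.pδ.pull p).meas)
  · unfold sh
    have h1 : δ (p * (x + 1)) = δ (p * x) := (H.pδ.pull p).per x
    rw [h1, H.pgc.per]

lemma shL : Lift p (fun _ => 1) (sh p δ gc) := by
  intro y
  have hp' : (p : ℝ) ≠ 0 := by exact_mod_cast H.hp.ne'
  have e : ∀ i ∈ Finset.range p, sh p δ gc ((y + i) / p) =
      if δ y = 0 then 1 / (p : ℝ) else gc ((y + i) / p) / δ y := fun i _ => by
    unfold sh
    rw [pull_fibre H.hp H.pδ.per y i]
  rw [Finset.sum_congr rfl e]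
  split_ifs with h
  · rw [Finset.sum_const, Finset.card_range, nsmul_eq_mul]; field_simp
  · rw [← Finset.sum_div, H.gcL y, div_self h]

lemma et0 (y : ℝ) : 0 ≤ et A B δ y := sub_nonneg.2 (H.δ1 y)

lemma PB_et : PB (et A B δ) := ModeS16.PB_sub H.pδ (PB_dd H.pA H.pB) H.δ1

lemma eta1 (y : ℝ) : et A B δ y ≤ mm (1 / (p : ℝ)) (A y) (B y) - 1 / (p : ℝ) * dd (A y) (B y) := by
  have h1 := H.δ2 y
  have h2 := dd_eq (A y) (B y)
  have h3 := min_le_left (A y) (B y)
  have h4 := mul_le_mul_of_nonneg_left h3 (show 0 ≤ 1 - 1 / (p : ℝ) by linarith [H.w1])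
  unfold et mm
  rw [h2]
  nlinarith

lemma PB_D1f {σ : ℝ} (hσ : 0 ≤ σ) : PB (D1f A B σ) := PB_D1 H.pA H.pB (PB_dd H.pA H.pB) hσ

lemma PB_E1f {σ : ℝ} (hσ : 0 ≤ σ) : PB (E1f p A B δ σ) :=
  PB_E1 H.pA H.pB (PB_dd H.pA H.pB) H.PB_et hσ H.w0' H.w1 fun x => le_rfl

/-- shares of a function of the fibre -/
lemma s_L {f : ℝ → ℝ} (hf : PB f) : Lift p f (fun x => sh p δ gc x * f (p * x)) := by
  have h := lift_mul H.hp hf H.shL
  intro y
  have h1 := h y
  simp only [mul_one] at h1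
  rw [← h1]
  exact Finset.sum_congr rfl fun i _ => mul_comm _ _

lemma mU_le {σ : ℝ} (x : ℝ) : mU p A B δ gc σ x ≤ min (mI p A B δ gc x) σ :=
  mn_ge H.w0' H.w1 (dd_nonneg _ _) le_rfl (H.sh0 x) (H.sh1 x)

lemma pU_le {σ : ℝ} (hσ : 0 ≤ σ) (x : ℝ) : pU p A B δ gc σ x ≤ min (pI p A B δ gc x) σ :=
  sp_ge H.w0' H.w1 (H.pA.nonneg _) (H.pB.nonneg _) hσ (dd_nonneg _ _) le_rfl (H.et0 _)
    (H.eta1 _) (H.sh0 x) (H.sh1 x)

lemma mU0 {σ : ℝ} (hσ : 0 ≤ σ) (x : ℝ) : 0 ≤ mU p A B δ gc σ x :=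
  mn_nonneg H.w0' H.w1 (H.pA.nonneg _) (H.pB.nonneg _) hσ (dd_nonneg _ _) le_rfl
    (H.eta1 _) (H.sh0 x) (H.sh1 x)

/-- the ideal total -/
lemma ideal (x : ℝ) : mI p A B δ gc x + pI p A B δ gc x =
    ((1 - 1 / (p : ℝ)) * A (p * x) + 1 / (p : ℝ) * (B (p * x) - δ (p * x))) + gc x := by
  have h := H.sh_mul x
  unfold mI pI et mm
  rw [← h]
  ring

lemma meas_mm' {a b : ℝ → ℝ} (ha : Measurable a) (hb : Measurable b) :
    Measurable fun x => mm (1 / (p : ℝ)) (a x) (b x) := meas_mm ha hb _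

lemma PB_mU {σ : ℝ} (hσ : 0 ≤ σ) : PB (mU p A B δ gc σ) := by
  have pA := (PB_minc hσ H.pA).pull p
  have pB' := (PB_minc hσ H.pB).pull p
  have pD := (H.PB_D1f hσ).pull p
  have pE := (H.PB_E1f hσ).pull p
  refine ⟨?_, H.mU0 hσ, ⟨σ, fun x => (H.mU_le x).trans (min_le_right _ _)⟩, fun x => ?_⟩
  · have h1 := H.meas_mm' pA.meas pB'.meas
    exact (h1.add ((H.PB_sh.meas.sub_const _).mul pD.meas)).sub
      ((pE.meas.const_mul _).mul (measurable_const.sub H.PB_sh.meas))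
  · have a1 : min (A (p * (x + 1))) σ = min (A (p * x)) σ := pA.per x
    have a2 : min (B (p * (x + 1))) σ = min (B (p * x)) σ := pB'.per x
    have a3 : D1f A B σ (p * (x + 1)) = D1f A B σ (p * x) := pD.per x
    have a4 : E1f p A B δ σ (p * (x + 1)) = E1f p A B δ σ (p * x) := pE.per x
    unfold mU
    rw [a1, a2, a3, a4, H.PB_sh.per]

lemma PB_pU {σ : ℝ} (hσ : 0 ≤ σ) : PB (pU p A B δ gc σ) :=
  (H.PB_sh.mul ((H.PB_E1f hσ).pull p)).smul (by linarith [H.w1])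

lemma PB_pI : PB (pI p A B δ gc) :=
  (H.PB_sh.mul (H.PB_et.pull p)).smul (by linarith [H.w1])

lemma mI0 (x : ℝ) : 0 ≤ mI p A B δ gc x := by
  have h := H.mU_le (σ := |mI p A B δ gc x| + 1) x
  exact (H.mU0 (by positivity) x).trans (h.trans (min_le_left _ _))

lemma PB_mI : PB (mI p A B δ gc) := by
  have hw1' : 0 ≤ 1 - 1 / (p : ℝ) := by linarith [H.w1]
  have pT : PB fun x => ((1 - 1 / (p : ℝ)) * A (p * x) + 1 / (p : ℝ) * (B (p * x) - δ (p * x))) +
      gc x := (((H.pA.pull p).smul hw1').add ((ModeS16.PB_sub (H.pB.pull p) (H.pδ.pull p)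
        fun x => H.δ2 _).smul H.w0)).add H.pgc
  have h := ModeS16.PB_sub pT H.PB_pI fun x => by
    have := H.ideal x
    have := H.mI0 x
    linarith
  have e : mI p A B δ gc = fun x => (((1 - 1 / (p : ℝ)) * A (p * x) +
      1 / (p : ℝ) * (B (p * x) - δ (p * x))) + gc x) - pI p A B δ gc x := by
    funext x
    have := H.ideal x
    linarith
  rw [e]
  exact h

lemma D1b {σ : ℝ} (hσ : 0 ≤ σ) (y : ℝ) : D1f A B σ y ≤ min (B y) σ :=
  D1_le_B (H.pA.nonneg _) (H.pB.nonneg _) hσ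

/-- `D1 + E1` is at most the truncated N content -/
lemma DE {σ : ℝ} (hσ : 0 ≤ σ) (y : ℝ) : D1f A B σ y + E1f p A B δ σ y ≤ 2 * σ := by
  have h1 : D1f A B σ y ≤ σ := D1_le_sig (H.pA.nonneg _) (H.pB.nonneg _) hσ
  have h2 : E1f p A B δ σ y ≤ σ := E1_le_sig H.w0' H.w1 (H.pA.nonneg _) (H.pB.nonneg _) hσ
    (dd_nonneg _ _) le_rfl (H.eta1 y)
  linarith

/-- the constant part is nonnegative -/
lemma be0 {σ : ℝ} (hσ : 0 ≤ σ) (y : ℝ) : 0 ≤ mm (1 / (p : ℝ)) (min (A y) σ) (min (B y) σ) -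
    1 / (p : ℝ) * (D1f A B σ y + E1f p A B δ σ y) := by
  have h1 : E1f p A B δ σ y ≤ mm (1 / (p : ℝ)) (min (A y) σ) (min (B y) σ) -
      1 / (p : ℝ) * D1f A B σ y :=
    E1_le_ns H.w0' H.w1 (H.pA.nonneg _) (H.pB.nonneg _) hσ le_rfl (H.eta1 y)
  have h0 : 0 ≤ E1f p A B δ σ y := E1_nonneg
  have h2 := mul_le_mul_of_nonneg_right H.w1 h0
  linarith

/-- **the row at a scale** -/
theorem tr {σ : ℝ} (hσ : 0 < σ) : TR p σ A (fun y => B y + m y) hm hs
    (fun y => ((1 - 1 / (p : ℝ)) * A y + 1 / (p : ℝ) * (B y - δ y)) + 1 / (p : ℝ) * m y) gc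
    (mkU p A B m δ gc hm gm gs lm lS).Wm (mkU p A B m δ gc hm gm gs lm lS).Ws
    ((mkU p A B m δ gc hm gm gs lm lS).l0 σ)
    ((mkU p A B m δ gc hm gm gs lm lS).D σ) := by
  have hw := H.w0
  have hw' := H.w0'
  have hw1 := H.w1
  have hw1' : 0 ≤ 1 - 1 / (p : ℝ) := by linarith
  have hσ0 := hσ.le
  have pA := PB_minc hσ0 H.pA
  have pB' := PB_minc hσ0 H.pB
  have pBm := PB_minc hσ0 (H.pB.add H.pm)
  have ptm := PB_tκ H.pB H.pm hσ0
  have pD := H.PB_D1f hσ0
  have pE := H.PB_E1f hσ0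
  have pmU := H.PB_mU hσ0
  have ppU := H.PB_pU hσ0
  have eB : ∀ y, min (B y + m y) σ = min (B y) σ + tκ (B y) (m y) σ := fun y => by
    unfold tκ; ring
  have hsE : ∀ x, E1f p A B δ σ x ≤ et A B δ x := fun x => E1_le hw' hw1 le_rfl (H.et0 x)
  have hsD : ∀ x, D1f A B σ x ≤ dd (A x) (B x) := fun x => D1_le
  have htot : ∀ x, mU p A B δ gc σ x + pU p A B δ gc σ x =
      (mm (1 / (p : ℝ)) (min (A (p * x)) σ) (min (B (p * x)) σ) -
        1 / (p : ℝ) * (D1f A B σ (p * x) + E1f p A B δ σ (p * x))) +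
      (sh p δ gc x * D1f A B σ (p * x) + sh p δ gc x * E1f p A B δ σ (p * x)) := fun x => by
    unfold mU pU; ring
  refine
    { pvm := PB_min pmU H.phm
      pvs := PB.const le_rfl
      pgX := H.PB_sh.mul (pD.pull p)
      pbX := ModeS16.PB_sub ((pA.smul hw1').add (pBm.smul hw)) (pD.smul hw) fun y => ?_
      pgE := H.PB_sh.mul (pE.pull p)
      psg := (H.PB_sh.mul (pD.pull p)).add (H.PB_sh.mul (pE.pull p))
      pbe := ?_
      pe := ((ModeS16.PB_sub pmU (PB_min pmU H.phm) fun x => min_le_left _ _).add ppU).add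
        ((ptm.pull p).smul hw)
      vm_le := fun x => ?_
      vs_le := fun x => le_min (H.phs.nonneg x) hσ0
      tot := fun x => ?_
      mean := fun y => ?_
      be_le := fun y => ?_
      sgc := fun x => ?_
      sg2 := fun x => ?_
      sgX := fun x => le_rfl
      row := fun y => ?_
      mnX := fun x => ?_
      gE1 := fun x => ?_
      gXc := fun x => ?_
      en := fun h2 y => ?_
      U_le := fun x => ?_ }
  · -- bX
    have h1 := mul_le_mul_of_nonneg_left (H.D1b hσ0 y) hw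
    have h2 : min (B y) σ ≤ min (B y + m y) σ := min_le_min_right σ (by linarith [H.pm.nonneg y])
    have h3 := mul_le_mul_of_nonneg_left h2 hw
    have h4 := mul_nonneg hw1' (pA.nonneg y)
    linarith
  · -- pbe
    have h1 : PB fun y => mm (1 / (p : ℝ)) (min (A y) σ) (min (B y) σ) :=
      (pA.smul hw1').add (pB'.smul hw)
    exact (ModeS16.PB_sub h1 ((pD.add pE).smul hw) fun y => by linarith [H.be0 hσ0 y]).add
      (ptm.smul hw)
  · exact le_min (min_le_right _ _)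
      ((min_le_left _ _).trans ((H.mU_le x).trans (min_le_right _ _)))
  · -- tot
    have h := htot x
    show min (mU p A B δ gc σ x) (hm x) + 0 + ((mU p A B δ gc σ x -
      min (mU p A B δ gc σ x) (hm x)) + pU p A B δ gc σ x +
        1 / (p : ℝ) * tκ (B (p * x)) (m (p * x)) σ) =
      ((mm (1 / (p : ℝ)) (min (A (p * x)) σ) (min (B (p * x)) σ) -
        1 / (p : ℝ) * (D1f A B σ (p * x) + E1f p A B δ σ (p * x))) +
        1 / (p : ℝ) * tκ (B (p * x)) (m (p * x)) σ) +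
      (sh p δ gc x * D1f A B σ (p * x) + sh p δ gc x * E1f p A B δ σ (p * x))
    linarith
  · -- mean
    show ((mm (1 / (p : ℝ)) (min (A y) σ) (min (B y) σ) -
        1 / (p : ℝ) * (D1f A B σ y + E1f p A B δ σ y)) + 1 / (p : ℝ) * tκ (B y) (m y) σ) +
      Ep p (fun x => sh p δ gc x * D1f A B σ (p * x) + sh p δ gc x * E1f p A B δ σ (p * x)) y = _
    rw [Ep_add', Ep_lift (H.s_L pD), Ep_lift (H.s_L pE), eB y]
    unfold mm
    ring
  · -- be_le
    have h1 := E1_ge (w := 1 / (p : ℝ)) (A := A y) (B := B y) (Δ := dd (A y) (B y))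
      (η := et A B δ y) (σ := σ) hw'
    have h4 := mul_le_mul_of_nonneg_left (tκ_le (A := B y) (H.pm.nonneg y) σ) hw
    show (mm (1 / (p : ℝ)) (min (A y) σ) (min (B y) σ) -
        1 / (p : ℝ) * (D1f A B σ y + E1f p A B δ σ y)) + 1 / (p : ℝ) * tκ (B y) (m y) σ ≤
      ((1 - 1 / (p : ℝ)) * A y + 1 / (p : ℝ) * (B y - δ y)) + 1 / (p : ℝ) * m y
    have h5 : 1 / (p : ℝ) * et A B δ y - ((mm (1 / (p : ℝ)) (A y) (B y) -
        1 / (p : ℝ) * dd (A y) (B y)) - (mm (1 / (p : ℝ)) (min (A y) σ) (min (B y) σ) -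
        1 / (p : ℝ) * D1f A B σ y)) ≤ 1 / (p : ℝ) * E1f p A B δ σ y := h1
    have h6 : mm (1 / (p : ℝ)) (A y) (B y) = (1 - 1 / (p : ℝ)) * A y + 1 / (p : ℝ) * B y := rfl
    have h7 : 1 / (p : ℝ) * et A B δ y = 1 / (p : ℝ) * δ y - 1 / (p : ℝ) * dd (A y) (B y) := by
      unfold et; ring
    rw [h6, h7] at h5
    linarith
  · -- sgc
    have h1 := mul_le_mul_of_nonneg_left (hsD (p * x)) (H.sh0 x)
    have h2 := mul_le_mul_of_nonneg_left (hsE (p * x)) (H.sh0 x)
    have h3 := H.sh_mul x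
    have h4 : sh p δ gc x * et A B δ (p * x) = gc x - sh p δ gc x * dd (A (p * x)) (B (p * x)) := by
      rw [← h3]; unfold et; ring
    show sh p δ gc x * D1f A B σ (p * x) + sh p δ gc x * E1f p A B δ σ (p * x) ≤ gc x
    linarith
  · -- sg2
    have h1 := H.DE hσ0 (p * x)
    have h0 : 0 ≤ D1f A B σ (p * x) + E1f p A B δ σ (p * x) :=
      add_nonneg (pD.nonneg _) (pE.nonneg _)
    have h2 := mul_le_mul (H.sh1 x) h1 h0 zero_le_one
    show sh p δ gc x * D1f A B σ (p * x) + sh p δ gc x * E1f p A B δ σ (p * x) ≤ 2 * σ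
    linarith
  · -- row
    refine ⟨fun i => sh p δ gc ((y + (i : ℕ)) / p), D1f A B σ y,
      fun i => ⟨H.sh0 _, H.sh1 _⟩, ?_, pD.nonneg y, ?_, fun i => ?_⟩
    · have h := H.shL y
      rw [← Finset.mul_sum, ← Finset.sum_range (fun i => sh p δ gc ((y + (i : ℕ)) / p)), h, mul_one]
    · refine (D1_le_max (A := A y) (B := B y) (Δ := dd (A y) (B y)) (σ := σ)).trans ?_
      exact max_le_max (sub_le_sub_right (min_le_min_right σ (by linarith [H.pm.nonneg y])) _) le_rfl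
    · have hD : D1f A B σ (p * ((y + (i : ℕ)) / p)) = D1f A B σ y := pull_fibre H.hp pD.per y i
      show ((1 - 1 / (p : ℝ)) * min (A y) σ + 1 / (p : ℝ) * min (B y + m y) σ) -
        1 / (p : ℝ) * D1f A B σ y + sh p δ gc ((y + (i : ℕ)) / p) *
          D1f A B σ (p * ((y + (i : ℕ)) / p)) = _
      rw [hD]
      ring
  · -- mnX
    refine (min_le_left _ _).trans ?_
    have h1 := mn_le_X (A := A (p * x)) (B := B (p * x)) (Δ := dd (A (p * x)) (B (p * x)))
      (η := et A B δ (p * x)) (σ := σ) (s := sh p δ gc x) hw (H.sh1 x)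
    have h2 : min (B (p * x)) σ ≤ min (B (p * x) + m (p * x)) σ :=
      min_le_min_right σ (by linarith [H.pm.nonneg (p * x)])
    have h3 := mul_le_mul_of_nonneg_left h2 hw
    have h4 : mU p A B δ gc σ x ≤ mm (1 / (p : ℝ)) (min (A (p * x)) σ) (min (B (p * x)) σ) +
      (sh p δ gc x - 1 / (p : ℝ)) * D1f A B σ (p * x) := h1
    refine h4.trans ?_
    show mm (1 / (p : ℝ)) (min (A (p * x)) σ) (min (B (p * x)) σ) +
      (sh p δ gc x - 1 / (p : ℝ)) * D1f A B σ (p * x) ≤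
      ((1 - 1 / (p : ℝ)) * min (A (p * x)) σ + 1 / (p : ℝ) * min (B (p * x) + m (p * x)) σ) -
        1 / (p : ℝ) * D1f A B σ (p * x) + sh p δ gc x * D1f A B σ (p * x)
    unfold mm
    linarith
  · -- gE1
    have h1 : E1f p A B δ σ (p * x) ≤ σ := E1_le_sig hw' hw1 (H.pA.nonneg _) (H.pB.nonneg _) hσ0
      (dd_nonneg _ _) le_rfl (H.eta1 _)
    have h2 := mul_le_mul (H.sh1 x) h1 (pE.nonneg _) zero_le_one
    show sh p δ gc x * E1f p A B δ σ (p * x) ≤ σ
    linarith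
  · -- gXc
    have h1 := mul_le_mul_of_nonneg_left (hsD (p * x)) (H.sh0 x)
    have h2 := mul_le_mul_of_nonneg_left (H.δ1 (p * x)) (H.sh0 x)
    have h3 := H.sh_mul x
    show sh p δ gc x * D1f A B σ (p * x) ≤ gc x
    linarith
  · -- energy
    have u0 : ∀ _i : Fin p, (0:ℝ) ≤ 1 / (p : ℝ) := fun _ => hw
    have hp' : (p : ℝ) ≠ 0 := by exact_mod_cast H.hp.ne'
    have u1 : ∑ _i : Fin p, 1 / (p : ℝ) = 1 := by
      rw [Finset.sum_const, Finset.card_univ, Fintype.card_fin, nsmul_eq_mul]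
      field_simp
    have hsu : ∑ i : Fin p, 1 / (p : ℝ) * sh p δ gc ((y + (i : ℕ)) / p) = 1 / (p : ℝ) := by
      have h := H.shL y
      rw [← Finset.mul_sum, ← Finset.sum_range (fun i => sh p δ gc ((y + (i : ℕ)) / p)), h, mul_one]
    have hw2 : 1 / (p : ℝ) ≤ 1 / 2 := by
      have : (2 : ℝ) ≤ p := by exact_mod_cast h2
      exact one_div_le_one_div_of_le (by norm_num) this
    have key := row_sig (u := fun _ : Fin p => 1 / (p : ℝ))
      (s := fun i => sh p δ gc ((y + (i : ℕ)) / p)) (w := 1 / (p : ℝ)) (A := A y) (B := B y)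
      (Δ := dd (A y) (B y)) (η := et A B δ y) (σ := σ) u0 u1
      (fun i => ⟨H.sh0 _, H.sh1 _⟩) hsu hw' hw2 (H.pA.nonneg y) (H.pB.nonneg y) hσ0 (dd_nonneg _ _)
      le_rfl (H.eta1 y)
    have hmb : th (min (B y) σ) ≤ th (min (B y + m y) σ) :=
      th_mono (pB'.nonneg y) (min_le_min_right σ (by linarith [H.pm.nonneg y]))
    have hmb' := mul_le_mul_of_nonneg_left hmb hw
    refine le_trans (Finset.sum_le_sum fun i _ => ?_) (key.trans (by linarith))
    refine mul_le_mul_of_nonneg_left ?_ hw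
    have hD : D1f A B σ (p * ((y + (i : ℕ)) / p)) = D1f A B σ y := pull_fibre H.hp pD.per y i
    have hE : E1f p A B δ σ (p * ((y + (i : ℕ)) / p)) = E1f p A B δ σ y :=
      pull_fibre H.hp pE.per y i
    have hA : A (p * ((y + (i : ℕ)) / p)) = A y := pull_fibre H.hp H.pA.per y i
    have hB : B (p * ((y + (i : ℕ)) / p)) = B y := pull_fibre H.hp H.pB.per y i
    have e1 : mU p A B δ gc σ ((y + (i : ℕ)) / p) =
        mm (1 / (p : ℝ)) (min (A y) σ) (min (B y) σ) +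
        (sh p δ gc ((y + (i : ℕ)) / p) - 1 / (p : ℝ)) * D1f A B σ y -
        1 / (p : ℝ) * E1f p A B δ σ y * (1 - sh p δ gc ((y + (i : ℕ)) / p)) := by
      unfold mU
      rw [hD, hE, hA, hB]
    have a1 : th (min (mU p A B δ gc σ ((y + (i : ℕ)) / p)) (hm ((y + (i : ℕ)) / p))) ≤
        th (mU p A B δ gc σ ((y + (i : ℕ)) / p)) :=
      th_mono (le_min (pmU.nonneg _) (H.phm.nonneg _)) (min_le_left _ _)
    have a2 : 0 ≤ th ((1 - 1 / (p : ℝ)) * (sh p δ gc ((y + (i : ℕ)) / p) * E1f p A B δ σ y)) :=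
      th_nonneg (mul_nonneg hw1' (mul_nonneg (H.sh0 _) (pE.nonneg y)))
    have a3 : 0 ≤ th (sh p δ gc ((y + (i : ℕ)) / p) * E1f p A B δ σ y) :=
      th_nonneg (mul_nonneg (H.sh0 _) (pE.nonneg y))
    rw [e1] at a1
    show th (min (mU p A B δ gc σ ((y + (i : ℕ)) / p)) (hm ((y + (i : ℕ)) / p))) +
      5 / 4 * th 0 + 1 / 48 * th (sh p δ gc ((y + (i : ℕ)) / p) *
        E1f p A B δ σ (p * ((y + (i : ℕ)) / p))) ≤
      th (mm (1 / (p : ℝ)) (min (A y) σ) (min (B y) σ) +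
        (sh p δ gc ((y + (i : ℕ)) / p) - 1 / (p : ℝ)) * D1f A B σ y -
        1 / (p : ℝ) * E1f p A B δ σ y * (1 - sh p δ gc ((y + (i : ℕ)) / p))) +
      5 / 4 * th ((1 - 1 / (p : ℝ)) * (sh p δ gc ((y + (i : ℕ)) / p) * E1f p A B δ σ y)) +
      1 / 12 * th (sh p δ gc ((y + (i : ℕ)) / p) * E1f p A B δ σ y)
    rw [hE, th_zero, e1]
    linarith
  · -- U_le
    have h1 := H.mU_le (σ := σ) x
    have h2 := H.pU_le hσ0 x
    have h3 := htot x
    have h5 : 1 / (p : ℝ) * tκ (B (p * x)) (m (p * x)) σ ≤ min (1 / (p : ℝ) * m (p * x)) σ := by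
      refine le_min (mul_le_mul_of_nonneg_left (tκ_le (H.pm.nonneg _) σ) hw) ?_
      have a1 : tκ (B (p * x)) (m (p * x)) σ ≤ σ := by
        have := eB (p * x)
        have := min_le_right (B (p * x) + m (p * x)) σ
        have := pB'.nonneg (p * x)
        linarith
      have a2 := mul_le_mul hw1 a1 (ptm.nonneg (p * x)) zero_le_one
      linarith
    have h6 := H.ideal x
    show ((mm (1 / (p : ℝ)) (min (A (p * x)) σ) (min (B (p * x)) σ) -
        1 / (p : ℝ) * (D1f A B σ (p * x) + E1f p A B δ σ (p * x))) +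
        1 / (p : ℝ) * tκ (B (p * x)) (m (p * x)) σ) +
      (sh p δ gc x * D1f A B σ (p * x) + sh p δ gc x * E1f p A B δ σ (p * x)) ≤
      min (((1 - 1 / (p : ℝ)) * A (p * x) + 1 / (p : ℝ) * (B (p * x) - δ (p * x))) + gc x +
        1 / (p : ℝ) * m (p * x)) σ + min 0 σ + (min (mI p A B δ gc x) σ + min (pI p A B δ gc x) σ +
      min (1 / (p : ℝ) * m (p * x)) σ -
      min (mI p A B δ gc x + pI p A B δ gc x + 1 / (p : ℝ) * m (p * x)) σ)
    rw [← h6, min_eq_left hσ0]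
    linarith

/-- **the unmarked typed row** -/
theorem rowU : TRow p A (fun y => B y + m y) hm hs
    (fun y => ((1 - 1 / (p : ℝ)) * A y + 1 / (p : ℝ) * (B y - δ y)) + 1 / (p : ℝ) * m y) gc
    (mkU p A B m δ gc hm gm gs lm lS) := by
  have hw := H.w0
  have hw1' : 0 ≤ 1 - 1 / (p : ℝ) := by linarith [H.w1]
  have pm' := (H.pm.pull p).smul hw
  have pmI := H.PB_mI
  have ppI := H.PB_pI
  refine
    { pWm := ((((H.pA.pull p).smul hw1').add ((ModeS16.PB_sub (H.pB.pull p) (H.pδ.pull p)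
        fun x => H.δ2 _).smul hw)).add H.pgc).add pm'
      pWs := PB.const le_rfl
      pgm := H.pgm
      pgs := H.pgs
      plm := H.plm
      plS := H.plS
      pj0 := (((pmI.mul ppI).add (pmI.mul pm')).add (ppI.mul pm')).smul (by norm_num)
      per := (H.plm.add (H.PB_sh.mul (H.PB_et.pull p))).add pm'
      phm := H.phm
      phs := H.phs
      pbt := ((H.pA.smul hw1').add ((ModeS16.PB_sub H.pB H.pδ fun x => H.δ2 _).smul hw)).add
        (H.pm.smul hw)
      pgc := H.pgc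
      W_eq := fun x => ?_
      hm_eq := H.hm_eq
      hs_eq := fun x => by
        have := H.hs_eq x
        show hs x + lS x = 0 + gs x
        linarith
      tr := fun hσ => H.tr hσ
      l0n := fun {σ} hσ x => ?_
      l0J := fun n x => dy3 (pmI.nonneg x) (ppI.nonneg x) (pm'.nonneg x) n
      e_le := fun {σ} hσ x => ?_ }
  · show ((1 - 1 / (p : ℝ)) * A (p * x) + 1 / (p : ℝ) * (B (p * x) - δ (p * x))) + gc x +
      1 / (p : ℝ) * m (p * x) + 0 = _
    ring
  · show 0 ≤ min (mI p A B δ gc x) σ + min (pI p A B δ gc x) σ +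
      min (1 / (p : ℝ) * m (p * x)) σ -
      min (mI p A B δ gc x + pI p A B δ gc x + 1 / (p : ℝ) * m (p * x)) σ
    rw [tl3]
    exact add_nonneg (tl_nonneg hσ.le (pmI.nonneg x) (ppI.nonneg x))
      (tl_nonneg hσ.le (add_nonneg (pmI.nonneg x) (ppI.nonneg x)) (pm'.nonneg x))
  · have h1 : mU p A B δ gc σ x - min (mU p A B δ gc σ x) (hm x) ≤ lm x := by
      have a1 := (H.mU_le (σ := σ) x).trans (min_le_left _ _)
      have a2 := H.hm_eq x
      have a3 := H.pgm.nonneg x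
      have a4 := ppI.nonneg x
      have a5 := pm'.nonneg x
      have a6 := H.plm.nonneg x
      have a7 := H.ideal x
      rcases le_total (mU p A B δ gc σ x) (hm x) with h | h
      · rw [min_eq_left h]; linarith
      · rw [min_eq_right h]; linarith
    have h2 : pU p A B δ gc σ x ≤ sh p δ gc x * et A B δ (p * x) := by
      have b1 : E1f p A B δ σ (p * x) ≤ et A B δ (p * x) := E1_le H.w0' H.w1 le_rfl (H.et0 _)
      have b2 := mul_le_mul_of_nonneg_left b1 (H.sh0 x)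
      have b3 : 0 ≤ sh p δ gc x * E1f p A B δ σ (p * x) :=
        mul_nonneg (H.sh0 x) ((H.PB_E1f hσ.le).nonneg _)
      have b4 := mul_le_mul_of_nonneg_right (show 1 - 1 / (p : ℝ) ≤ 1 by linarith) b3
      unfold pU
      linarith
    have h4 := mul_le_mul_of_nonneg_left
      (tκ_le (A := B (p * x)) (H.pm.nonneg (p * x)) σ) hw
    show (mU p A B δ gc σ x - min (mU p A B δ gc σ x) (hm x)) + pU p A B δ gc σ x +
        1 / (p : ℝ) * tκ (B (p * x)) (m (p * x)) σ ≤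
      lm x + sh p δ gc x * et A B δ (p * x) + 1 / (p : ℝ) * m (p * x)
    linarith

end HU
end U

end Crest.Agent.R4P.TyS16
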