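import Crest.Agent.R4P.PN_36

/-!
R4 (S0004) with powers, helper16: **the piece level form of a tie**.

`VD t` (node property): at a tie or pull `br p w r t₁ t₀ v B G` there are multipliers `mu j ∈ [0,1]` of
fibre mean `1 - w` and lifts `g j` of the N content `t₀.val j` with
`v j x = mu j x * t₁.val j (p x) + g j x`.
* `toDT_VD`, `ctx_VD` : all nodes of the trees of a context.
* `VD.le` : `v j x ≤ t₁.val j (p x)` if the piece `j` has no N content.
-/

set_option autoImplicit false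
set_option linter.unusedSectionVars false
set_option linter.unusedVariables false
open MeasureTheory Filter Set

namespace Crest.Agent.R4P.VDec16

open Crest.Agent.R4.Tour104 Crest.Agent.R4.Tour758 Crest.Agent.R4.Avg758 Crest.Agent.R4.Clos758
open Crest.Agent.R4.ClosL758 Crest.Agent.R4.ClosG758 Crest.Agent.R4.ClosR758
open Crest.Agent.R4.Fam464 Crest.Agent.R4.Lam368
open Crest.Agent.R4P.ClosR442 Crest.Agent.R4P.Grp36
open Crest.Agent.R4P.Xfer36 Crest.Agent.R4P.TopC36 Crest.Agent.R4P.PN36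
open Crest.Agent.R4P.Walk560 (DT)

variable {Λ κ : Type*} [Fintype Λ] [DecidableEq Λ] [Fintype κ] [DecidableEq κ]

/-- the piece level data of a tie: `a` = P child, `b` = N child, `v` = above -/
def VDat (p : ℕ) (w : ℝ) (a b v : Λ → ℝ → ℝ) : Prop :=
  ∃ mu g : Λ → ℝ → ℝ, (∀ j, PB (mu j)) ∧ (∀ j, PB (g j)) ∧ (∀ j x, mu j x ≤ 1) ∧
    (∀ j y, Ep p (mu j) y = 1 - w) ∧ (∀ j, Lift p (b j) (g j)) ∧
    ∀ j x, v j x = mu j x * a j (p * x) + g j x

/-- the node property -/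
def VD : DT Λ κ → Prop
  | .br p w r t₁ t₀ v B G => VDat p w t₁.g.val t₀.g.val v
  | _ => True

lemma vdat_lam {p n : ℕ} {f g G : Λ → ℝ → ℝ} (hd : Dat p f g G) {c : ℕ → Λ → κ} :
    VDat p (1 / (p : ℝ)) f G (fun j => lamF p f g G c n j) :=
  ⟨mult p f g G c n, g, fun j => PB_mult hd j, hd.hg, fun j x => mult_le_one hd j x,
    fun j y => Ep_mult hd j y, hd.hl, fun j x => lamF_eq_mult hd j x⟩

lemma Ep_one {p : ℕ} (hp : 0 < p) (y : ℝ) : Ep p (fun _ => (1 : ℝ)) y = 1 := by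
  have hp' : (p : ℝ) ≠ 0 := by exact_mod_cast hp.ne'
  unfold Ep
  rw [Finset.sum_const, Finset.card_range, nsmul_eq_mul, mul_one, div_self hp']

/-- **all nodes of `toDT`** -/
theorem toDT_VD (D : Item758.Par Λ κ) (sp : ℕ → Finset Λ) (t : Cnt588.IT) : ∀ b pr : ℕ, 0 < b →
    (D.toFT b pr t).Adm b → (D.toDT sp b pr t).All VD := by
  induction t with
  | leaf S => intro b pr hb h; exact trivial
  | br p Sp t₁ t₀ ih₁ ih₀ =>
    intro b pr hb h
    have hd := FT.dat hb h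
    obtain ⟨hp, hpb, hN, a1, a0⟩ := h
    have hbp : 0 < b * p := Nat.mul_pos hb hp
    refine ⟨?_, ih₁ b (pr * p) hb a1, ih₀ (b * p) pr hbp a0⟩
    have v1 : (D.toDT sp b (pr * p) t₁).g.val = fun j => (D.toFT b (pr * p) t₁).U 1 j := by
      rw [D.toDT_g]; exact FT.toG_val _ b hb a1
    have v0 : (D.toDT sp (b * p) pr t₀).g.val = fun j => (D.toFT (b * p) pr t₀).U 1 j := by
      rw [D.toDT_g]; exact FT.toG_val _ _ hbp a0
    show VDat p (1 / (p : ℝ)) (D.toDT sp b (pr * p) t₁).g.val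
      (D.toDT sp (b * p) pr t₀).g.val _
    rw [v1, v0]
    exact vdat_lam hd
  | add p t₁ t₀ ih₁ ih₀ =>
    intro b pr hb h
    exact ⟨trivial, ih₁ b pr hb h.1, ih₀ b pr hb h.2⟩
  | up b' Sp t ih =>
    intro b pr hb h
    exact ⟨trivial, ih b pr hb h⟩
  | pl p t ih =>
    intro b pr hb h
    obtain ⟨hp, hpb, a1⟩ := h
    refine ⟨?_, ih b (pr * p) hb a1, trivial⟩
    have v1 : (D.toDT sp b (pr * p) t).g.val = fun j => (D.toFT b (pr * p) t).U 1 j := by
      rw [D.toDT_g]; exact FT.toG_val _ b hb a1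
    show VDat p 0 (D.toDT sp b (pr * p) t).g.val (fun _ _ => 0)
      (fun j x => (D.toFT b (pr * p) t).U 1 j (p * x))
    rw [v1]
    refine ⟨fun _ _ => 1, fun _ _ => 0, fun _ => PB.const zero_le_one, fun _ => PB.const le_rfl,
      fun _ _ => le_rfl, fun _ y => ?_, fun _ => lift_zero, fun j x => ?_⟩
    · rw [Ep_one hp, sub_zero]
    · rw [one_mul, add_zero]
  | far p t₁ t₀ ih₁ ih₀ =>
    intro b pr hb h
    exact ⟨trivial, ih₁ b pr hb h.1, ih₀ b pr hb h.2⟩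

lemma lift_le {p : ℕ} (hp : 0 < p) {b g : ℝ → ℝ} (hb : PB b) (hg : PB g) (h : Lift p b g) (x : ℝ) :
    g x ≤ b (p * x) := by
  have hp' : (p : ℝ) ≠ 0 := by exact_mod_cast hp.ne'
  have h1 := h (p * x)
  have h2 : g ((p * x + (0 : ℕ)) / p) ≤ ∑ i ∈ Finset.range p, g ((p * x + i) / p) :=
    Finset.single_le_sum (f := fun i : ℕ => g ((p * x + i) / p)) (fun i _ => hg.nonneg _)
      (Finset.mem_range.2 hp)
  rw [h1] at h2
  have e : (p * x + ((0 : ℕ) : ℝ)) / p = x := by field_simp; simp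
  rwa [e] at h2

/-- **P pieces do not grow** -/
lemma VDat.le {p : ℕ} {w : ℝ} {a b v : Λ → ℝ → ℝ} (hp : 0 < p) (ha : ∀ j, PB (a j))
    (hb : ∀ j, PB (b j)) (h : VDat p w a b v) (j : Λ) (x : ℝ) :
    v j x ≤ a j (p * x) + b j (p * x) := by
  obtain ⟨mu, g, h1, h2, h3, h4, h5, h6⟩ := h
  rw [h6]
  have k1 := lift_le hp (hb j) (h2 j) (h5 j) x
  have k2 := mul_le_mul_of_nonneg_right (h3 j x) ((ha j).nonneg (p * x))
  linarith

lemma VDat.le_P {p : ℕ} {w : ℝ} {a b v : Λ → ℝ → ℝ} (hp : 0 < p) (ha : ∀ j, PB (a j))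
    (hb : ∀ j, PB (b j)) (h : VDat p w a b v) {j : Λ} {x : ℝ} (h0 : b j (p * x) = 0) :
    v j x ≤ a j (p * x) := by
  have := h.le hp ha hb j x
  rwa [h0, add_zero] at this

section ctx
open Crest.Agent.R4P.Cnt588 Crest.Agent.R4P.Data758 Crest.Agent.R4P.Skel189
open Crest.Agent.R4P.Bld532 (NS All)
open Crest.Agent.R4P.Fin5 (CF)
open Crest.Agent.R4P.FinT26 Crest.Agent.R4P.TopX36 Crest.Agent.R4P.Mrg35
open Crest.Agent.R4P.Item758

variable {N : Skel189.Num} {γ : ℝ} {p0 P₀ : ℕ}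

/-- **all nodes of a context** -/
theorem ctx_VD (X : Ctx N γ p0 P₀) (j₀ : X.c.Lam) :
    All (fun u τ => (X.self u τ Finset.univ).t.All VD) ⟨top X.S, 1, 1, 1⟩ X.c.t :=
  All.mono (fun u τ hh => by
    obtain ⟨h, hs⟩ := hh
    exact toDT_VD (X.c.D.par X.Y) X.c.sp τ u.B u.A h.B_pos
      ((X.c.D.par X.Y).toFT_Adm τ u.B u.A h.B_pos h.fit (RseNd23.node_wts h X.Y)))
    (All.and (Step588.ctx_NDt (X := X)) (ctx_side X j₀))

end ctx

end Crest.Agent.R4P.VDec16
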