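import Crest.Agent.R4P.VDec_16
import Crest.Agent.R4P.GWg_343

/-!
R4 (S0004) with powers, T3, helper407: **the explicit piece level form of a tie** (stronger than
`VDec_16`).

`VR t` (node property): at a tie `br p w r t₁ t₀ v B G` with P contents `a`, N contents `b`, there are
lifts `g j` of `b j` such that
`v j x = (1 - w) a_j(y) + w alf_c(y) a_j(y) + g_j x - (a_j/A_c)(y) bef_c(y) g_c x`, `y = p x`,
`c = r j` the real class, `A_c, B_c, g_c` the class sums, `alf_c = min A_c B_c / A_c`,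
`bef_c = min A_c B_c / B_c`; and `G c x = (1 - bef_c(y)) g_c x`.  At a pull `v j x = a_j(y)`, `G = 0`.
* `toDT_VR`, `ctx_VR`.
-/

set_option autoImplicit false
set_option linter.unusedSectionVars false
set_option linter.unusedVariables false
open MeasureTheory Filter Set

namespace Crest.Agent.R4P.VR407

open Crest.Agent.R4.Tour104 Crest.Agent.R4.Tour758 Crest.Agent.R4.Avg758 Crest.Agent.R4.Clos758
open Crest.Agent.R4.ClosL758 Crest.Agent.R4.ClosG758 Crest.Agent.R4.ClosR758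
open Crest.Agent.R4.Fam464 Crest.Agent.R4.Lam368
open Crest.Agent.R4P.ClosR442 Crest.Agent.R4P.Grp36
open Crest.Agent.R4P.Xfer36 Crest.Agent.R4P.TopC36 Crest.Agent.R4P.PN36
open Crest.Agent.R4P.Walk560 (DT)

/-- matched fraction of the P content -/
noncomputable def alf (A B : ℝ) : ℝ := min A B / A
/-- matched fraction of the N content -/
noncomputable def bef (A B : ℝ) : ℝ := min A B / B

lemma alf_mul {A B : ℝ} (hA : 0 ≤ A) (hB : 0 ≤ B) : alf A B * A = min A B := by
  unfold alf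
  rcases hA.eq_or_lt with h | h
  · rw [← h, mul_zero, min_eq_left hB]
  · field_simp

lemma bef_mul {A B : ℝ} (hA : 0 ≤ A) (hB : 0 ≤ B) : bef A B * B = min A B := by
  unfold bef
  rcases hB.eq_or_lt with h | h
  · rw [← h, mul_zero, min_eq_right hA]
  · field_simp

lemma alf_nonneg {A B : ℝ} (hA : 0 ≤ A) (hB : 0 ≤ B) : 0 ≤ alf A B := div_nonneg (le_min hA hB) hA
lemma bef_nonneg {A B : ℝ} (hA : 0 ≤ A) (hB : 0 ≤ B) : 0 ≤ bef A B := div_nonneg (le_min hA hB) hB
lemma alf_le_one {A B : ℝ} (hA : 0 ≤ A) : alf A B ≤ 1 := div_le_one_of_le₀ (min_le_left _ _) hA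
lemma bef_le_one {A B : ℝ} (hB : 0 ≤ B) : bef A B ≤ 1 := div_le_one_of_le₀ (min_le_right _ _) hB

variable {Λ κ : Type*} [Fintype Λ] [DecidableEq Λ] [Fintype κ] [DecidableEq κ]

/-- the explicit form of the contents above a tie -/
noncomputable def vF (p : ℕ) (r : Λ → κ) (a b g : Λ → ℝ → ℝ) (j : Λ) (x : ℝ) : ℝ :=
  (1 - 1 / (p : ℝ)) * a j (p * x) +
    1 / (p : ℝ) * (alf (sm r a (r j) (p * x)) (sm r b (r j) (p * x)) * a j (p * x)) + g j x -
    a j (p * x) / sm r a (r j) (p * x) *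
      bef (sm r a (r j) (p * x)) (sm r b (r j) (p * x)) * sm r g (r j) x

/-- the piece level data of a tie: `a` = P child, `b` = N child, `v` = above, `G` class lifts -/
def VRt (p : ℕ) (r : Λ → κ) (a b v : Λ → ℝ → ℝ) (G : κ → ℝ → ℝ) : Prop :=
  ∃ g : Λ → ℝ → ℝ, (∀ j, PB (g j)) ∧ (∀ j, Lift p (b j) (g j)) ∧
    (∀ j x, v j x = vF p r a b g j x) ∧
    ∀ c x, G c x = (1 - bef (sm r a c (p * x)) (sm r b c (p * x))) * sm r g c x

/-- the node property -/
def VR : DT Λ κ → Prop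
  | .br p w r t₁ t₀ v B G =>
    (w = 1 / (p : ℝ) ∧ 0 < p ∧ VRt p r t₁.g.val t₀.g.val v G) ∨
    (w = 0 ∧ (∀ j x, v j x = t₁.g.val j (p * x)) ∧ ∀ c x, G c x = 0)
  | _ => True

section lam
variable {ι : Type*} [Fintype ι] {p : ℕ} {f g G : ι → ℝ → ℝ}

lemma lamR_one (r : ι → κ) (w : ι) (x : ℝ) :
    lamR p f g G (fun _ => r) (0 + 1) w x =
      f w (p * x) / sm r f (r w) (p * x) *
        bef (sm r f (r w) (p * x)) (sm r G (r w) (p * x)) * sm r g (r w) x := by
  have e1 : UU r (st p f g G (fun _ => r) 0) w (p * x) = sm r f (r w) (p * x) := rfl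
  have e2 : VV G r (st p f g G (fun _ => r) 0) w (p * x) = sm r G (r w) (p * x) := by
    unfold VV sm
    refine Finset.sum_congr rfl fun w' _ => ?_
    show 1 * G w' (p * x) = _
    rw [one_mul]
  have e3 : Crest.Agent.R4.Lam368.be G r (st p f g G (fun _ => r) 0) w (p * x) =
      bef (sm r f (r w) (p * x)) (sm r G (r w) (p * x)) := by
    unfold Crest.Agent.R4.Lam368.be bef
    rw [e1, e2]
  have e4 : ∑ w' ∈ cl' r w, (st p f g G (fun _ => r) 0).t w' (p * x) * g w' x =
      sm r g (r w) x := by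
    unfold sm
    refine Finset.sum_congr rfl fun w' _ => ?_
    show 1 * g w' x = _
    rw [one_mul]
  show (0 : ℝ) + (st p f g G (fun _ => r) 0).u w (p * x) /
    UU r (st p f g G (fun _ => r) 0) w (p * x) *
    Crest.Agent.R4.Lam368.be G r (st p f g G (fun _ => r) 0) w (p * x) *
    ∑ w' ∈ cl' r w, (st p f g G (fun _ => r) 0).t w' (p * x) * g w' x = _
  rw [e1, e3, e4, zero_add]
  rfl

lemma Ep_lamR_one (hd : Dat p f g G) (r : ι → κ) (w : ι) (y : ℝ) :
    Ep p (lamR p f g G (fun _ => r) (0 + 1) w) y =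
      1 / (p : ℝ) * (alf (sm r f (r w) y) (sm r G (r w) y) * f w y) := by
  have h := (good_st (c := fun _ => r) hd (0 + 1)).sum w y
  have e1 : UU r (st p f g G (fun _ => r) 0) w y = sm r f (r w) y := rfl
  have e2 : VV G r (st p f g G (fun _ => r) 0) w y = sm r G (r w) y := by
    unfold VV sm
    refine Finset.sum_congr rfl fun w' _ => ?_
    show 1 * G w' y = _
    rw [one_mul]
  have e3 : (st p f g G (fun _ => r) (0 + 1)).u w y =
      f w y * (1 - alf (sm r f (r w) y) (sm r G (r w) y)) := by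
    show f w y * (1 - Crest.Agent.R4.Lam368.al G r (st p f g G (fun _ => r) 0) w y) = _
    unfold Crest.Agent.R4.Lam368.al alf
    rw [e1, e2]
  unfold Ep lamR
  rw [h, e3]
  ring

/-- **the explicit form** -/
theorem lam_vrt (hd : Dat p f g G) (r : ι → κ) [DecidableEq ι] :
    VRt p r f G (fun j => lamF p f g G (fun _ => r) (0 + 1) j)
      (fun a => DW p f g G (fun _ => r) (0 + 1) (clz r a)) := by
  refine ⟨g, hd.hg, hd.hl, fun j x => ?_, fun c x => ?_⟩
  · show (1 - 1 / (p : ℝ)) * f j (p * x) + g j x - lamR p f g G (fun _ => r) (0 + 1) j x +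
      Ep p (lamR p f g G (fun _ => r) (0 + 1) j) (p * x) = _
    unfold vF
    rw [lamR_one, Ep_lamR_one hd]
    ring
  · show fW g (clz r c) x - ∑ w ∈ clz r c, lamR p f g G (fun _ => r) (0 + 1) w x = _
    have e1 : fW g (clz r c) x = sm r g c x := rfl
    have e2 : ∑ w ∈ clz r c, lamR p f g G (fun _ => r) (0 + 1) w x =
        bef (sm r f c (p * x)) (sm r G c (p * x)) * sm r g c x := by
      have e3 : ∀ w ∈ clz r c, lamR p f g G (fun _ => r) (0 + 1) w x =
          f w (p * x) * ((sm r f c (p * x))⁻¹ *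
            (bef (sm r f c (p * x)) (sm r G c (p * x)) * sm r g c x)) := by
        intro w hw
        have hw' : r w = c := (Finset.mem_filter.1 hw).2
        rw [lamR_one, hw', div_eq_mul_inv]
        ring
      rw [Finset.sum_congr rfl e3, ← Finset.sum_mul]
      have e4 : ∑ w ∈ clz r c, f w (p * x) = sm r f c (p * x) := rfl
      rw [e4]
      have hA : 0 ≤ sm r f c (p * x) := Finset.sum_nonneg fun w _ => (hd.hf w).nonneg _
      have hB : 0 ≤ sm r G c (p * x) := Finset.sum_nonneg fun w _ => (hd.hG w).nonneg _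
      rcases hA.eq_or_lt with h | h
      · have hb : bef (sm r f c (p * x)) (sm r G c (p * x)) = 0 := by
          unfold bef
          rw [← h, min_eq_left hB, zero_div]
        rw [hb]
        ring
      · rw [← mul_assoc, mul_inv_cancel₀ h.ne', one_mul]
    rw [e1, e2]
    ring

end lam

/-- **all nodes of `toDT`** -/
theorem toDT_VR (D : Item758.Par Λ κ) (sp : ℕ → Finset Λ) (t : Cnt588.IT) : ∀ b pr : ℕ, 0 < b →
    (D.toFT b pr t).Adm b → (D.toDT sp b pr t).All VR := by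
  induction t with
  | leaf S => intro b pr hb h; exact trivial
  | br p Sp t₁ t₀ ih₁ ih₀ =>
    intro b pr hb h
    have hd := FT.dat hb h
    obtain ⟨hp, hpb, hN, a1, a0⟩ := h
    have hbp : 0 < b * p := Nat.mul_pos hb hp
    refine ⟨?_, ih₁ b (pr * p) hb a1, ih₀ (b * p) pr hbp a0⟩
    have v1 : (D.toDT sp b (pr * p) t₁).g.val = fun j => (D.toFT b (pr * p) t₁).U 1 j := by
      rw [D.toDT_g]; exact FT.toG_val _ b hb a1
    have v0 : (D.toDT sp (b * p) pr t₀).g.val = fun j => (D.toFT (b * p) pr t₀).U 1 j := by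
      rw [D.toDT_g]; exact FT.toG_val _ _ hbp a0
    refine Or.inl ⟨rfl, hp, ?_⟩
    show VRt p (D.rho p) (D.toDT sp b (pr * p) t₁).g.val
      (D.toDT sp (b * p) pr t₀).g.val _ _
    rw [v1, v0]
    exact lam_vrt hd (D.rho p)
  | add p t₁ t₀ ih₁ ih₀ =>
    intro b pr hb h
    exact ⟨trivial, ih₁ b pr hb h.1, ih₀ b pr hb h.2⟩
  | up b' Sp t ih =>
    intro b pr hb h
    exact ⟨trivial, ih b pr hb h⟩
  | pl p t ih =>
    intro b pr hb h
    obtain ⟨hp, hpb, a1⟩ := h
    refine ⟨?_, ih b (pr * p) hb a1, trivial⟩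
    have v1 : (D.toDT sp b (pr * p) t).g.val = fun j => (D.toFT b (pr * p) t).U 1 j := by
      rw [D.toDT_g]; exact FT.toG_val _ b hb a1
    refine Or.inr ⟨rfl, fun j x => ?_, fun c x => rfl⟩
    rw [v1]
  | far p t₁ t₀ ih₁ ih₀ =>
    intro b pr hb h
    exact ⟨trivial, ih₁ b pr hb h.1, ih₀ b pr hb h.2⟩

section ctx
open Crest.Agent.R4P.Cnt588 Crest.Agent.R4P.Data758 Crest.Agent.R4P.Skel189
open Crest.Agent.R4P.Bld532 (NS All)
open Crest.Agent.R4P.Fin5 (CF)
open Crest.Agent.R4P.FinT26 Crest.Agent.R4P.TopX36 Crest.Agent.R4P.Mrg35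
open Crest.Agent.R4P.Item758

variable {N : Skel189.Num} {γ : ℝ} {p0 P₀ : ℕ}

/-- **all nodes of a context** -/
theorem ctx_VR (X : Ctx N γ p0 P₀) (j₀ : X.c.Lam) :
    All (fun u τ => (X.self u τ Finset.univ).t.All VR) ⟨top X.S, 1, 1, 1⟩ X.c.t :=
  All.mono (fun u τ hh => by
    obtain ⟨h, hs⟩ := hh
    exact toDT_VR (X.c.D.par X.Y) X.c.sp τ u.B u.A h.B_pos
      ((X.c.D.par X.Y).toFT_Adm τ u.B u.A h.B_pos h.fit (RseNd23.node_wts h X.Y)))
    (All.and (Step588.ctx_NDt (X := X)) (ctx_side X j₀))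

end ctx

end Crest.Agent.R4P.VR407
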